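import Mathlib

/-! Plancherel for `L¹ ∩ L²` in any finite dimensional inner product space, `lintegral` form. -/

set_option autoImplicit false

open MeasureTheory Filter Topology
open scoped ENNReal FourierTransform SchwartzMap ContDiff

noncomputable section

namespace Crest.Agent.R138.Fq665

variable {W : Type*} [NormedAddCommGroup W] [InnerProductSpace ℝ W] [FiniteDimensional ℝ W]
  [MeasurableSpace W] [BorelSpace W]

theorem fourier_ae_eq {f : W → ℂ} (h1 : Integrable f) (h2 : MemLp f 2) :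
    ((𝓕 (h2.toLp f) : Lp ℂ 2 (volume : Measure W)) : W → ℂ) =ᵐ[volume] 𝓕 f := by
  set g : Lp ℂ 2 (volume : Measure W) := 𝓕 (h2.toLp f) with hg
  have hcont : Continuous (𝓕 f) := by
    simpa using! VectorFourier.fourierIntegral_continuous (V := W) (W := W)
      Real.continuous_fourierChar (L := innerₗ W) continuous_inner h1
  have key : ∀ u : 𝓢(W, ℂ), ∫ x, u x • (g : W → ℂ) x = ∫ x, u x • 𝓕 f x := by
    intro u
    have e1 : (g : 𝓢'(W, ℂ)) u = ∫ x, u x • (g : W → ℂ) x := Lp.toTemperedDistribution_apply g u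
    have e2 : (g : 𝓢'(W, ℂ)) = 𝓕 ((h2.toLp f : Lp ℂ 2 (volume : Measure W)) : 𝓢'(W, ℂ)) :=
      (Lp.fourier_toTemperedDistribution_eq (h2.toLp f)).symm
    have e3 : (𝓕 ((h2.toLp f : Lp ℂ 2 (volume : Measure W)) : 𝓢'(W, ℂ))) u =
        ((h2.toLp f : Lp ℂ 2 (volume : Measure W)) : 𝓢'(W, ℂ)) (𝓕 u) := by
      simp
    have e4 : ((h2.toLp f : Lp ℂ 2 (volume : Measure W)) : 𝓢'(W, ℂ)) (𝓕 u) =
        ∫ x, (𝓕 u) x • ((h2.toLp f : Lp ℂ 2 (volume : Measure W)) : W → ℂ) x :=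
      Lp.toTemperedDistribution_apply _ _
    have e5 : ∫ x, (𝓕 u) x • ((h2.toLp f : Lp ℂ 2 (volume : Measure W)) : W → ℂ) x =
        ∫ x, (𝓕 u) x • f x := by
      apply integral_congr_ae
      filter_upwards [h2.coeFn_toLp] with x hx
      rw [hx]
    have e6 : ∫ x, (𝓕 (u : W → ℂ)) x • f x = ∫ x, u x • 𝓕 f x := by
      simpa using! VectorFourier.integral_fourierIntegral_smul_eq_flip (L := innerₗ W)
        (μ := (volume : Measure W)) (ν := (volume : Measure W))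
        Real.continuous_fourierChar continuous_inner u.integrable h1
    rw [← e1, e2, e3, e4, e5, SchwartzMap.fourier_coe, e6]
  have hgm : LocallyIntegrable (g : W → ℂ) volume := (Lp.memLp g).locallyIntegrable (by norm_num)
  refine ae_eq_of_integral_contDiff_smul_eq hgm hcont.locallyIntegrable fun w hw hwc => ?_
  have hg₁ : HasCompactSupport (Complex.ofRealCLM ∘ w) := hwc.comp_left rfl
  have hg₂ : ContDiff ℝ ∞ (Complex.ofRealCLM ∘ w) := by fun_prop
  have := key (hg₁.toSchwartzMap hg₂)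
  simpa using this

/-- Plancherel, `eLpNorm` form -/
theorem eLpNorm_fourier {f : W → ℂ} (h1 : Integrable f) (h2 : MemLp f 2) :
    eLpNorm (𝓕 f) 2 volume = eLpNorm f 2 volume := by
  rw [← eLpNorm_congr_ae (fourier_ae_eq h1 h2), ← eLpNorm_congr_ae h2.coeFn_toLp,
    ← Lp.enorm_def, ← Lp.enorm_def, ← ofReal_norm, ← ofReal_norm, Lp.norm_fourier_eq]

theorem lintegral_sq_eq (f : W → ℂ) : ∫⁻ x, ‖f x‖ₑ ^ 2 = eLpNorm f 2 volume ^ 2 := by
  have h := eLpNorm_nnreal_pow_eq_lintegral (f := f) (μ := (volume : Measure W)) (p := 2)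
    (by norm_num)
  have h3 : ((2 : NNReal) : ENNReal) = 2 := rfl
  rw [h3] at h
  have h4 : (eLpNorm f 2 volume) ^ 2 = (eLpNorm f 2 volume) ^ ((2 : NNReal) : ℝ) := by
    norm_num
  rw [h4, h]
  refine lintegral_congr fun w => ?_
  norm_num

/-- Plancherel, `lintegral` form. -/
theorem plancherel {f : W → ℂ} (h1 : Integrable f) (h2 : MemLp f 2) :
    ∫⁻ ξ, ‖𝓕 f ξ‖ₑ ^ 2 = ∫⁻ x, ‖f x‖ₑ ^ 2 := by
  rw [lintegral_sq_eq, lintegral_sq_eq, eLpNorm_fourier h1 h2]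

theorem plancherel_inv {f : W → ℂ} (h1 : Integrable f) (h2 : MemLp f 2) :
    ∫⁻ ξ, ‖𝓕⁻ f ξ‖ₑ ^ 2 = ∫⁻ x, ‖f x‖ₑ ^ 2 := by
  rw [← plancherel h1 h2]
  have : ∀ ξ, 𝓕⁻ f ξ = 𝓕 f (-ξ) := fun ξ => by rw [Real.fourierInv_eq_fourier_neg]
  simp only [this]
  exact lintegral_neg_eq_self (μ := (volume : Measure W)) (fun ξ => ‖𝓕 f ξ‖ₑ ^ 2)

end Crest.Agent.R138.Fq665
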