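import Crest.Agent.R138.Lg_926

/-!
# R138: profiles of finite sets with respect to families of partitions (helper926)

* `uniform_countable`: countably many arbitrary partitions, uniform simultaneously.
* `exists_profile`: a family of nested partitions depending on real parameters `p ∈ [a,b] ⊆ ℝ^m`
  with polynomially bounded branching: a sub-polynomial refinement `I'` and a Lipschitz, antitone
  profile `ν` such that every class of `I'` has size `d^{-ν p + o(1)}`, uniformly in `p` and in the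
  point.
* `ProfileOf.submod`: submodularity of `ν`.
* `exists_zoom_profile`: at a differentiability point of `ν` the profile is exactly linear in a new
  base, uniformly.
* `uniform_stable`: linear stability of all class sizes (finite statement).
-/

set_option autoImplicit false
set_option linter.unusedSectionVars false
set_option linter.unusedVariables false

open Filter Topology MeasureTheory
open scoped NNReal

namespace Crest.Agent.R138.Ex926

section Countable

open Finset

/-- **Countably many partitions** made uniform at once, with sub-polynomial loss. -/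
theorem uniform_countable (B : Base) {ι κ : ℕ → Type*} [∀ n, DecidableEq (ι n)]
    [∀ n, DecidableEq (κ n)] (I : ∀ n, Finset (ι n)) (f : ∀ n, ℕ → ι n → κ n)
    (hI : ∀ᶠ n in (U : Filter ℕ), (I n).Nonempty) {C : ℝ} (hC : 0 ≤ C)
    (hcard : ∀ᶠ n in (U : Filter ℕ), ((I n).card : ℝ) ≤ B.d n ^ (-C)) :
    ∃ (I' : ∀ n, Finset (ι n)) (M : ℕ → ℕ → ℝ) (S : ℕ → ℝ) (k : ℕ → ℕ), B.Sub S ∧
      Tendsto k U atTop ∧
      ∀ᶠ n in (U : Filter ℕ), I' n ⊆ I n ∧ (I' n).Nonempty ∧
        ((I n).card : ℝ) ≤ S n * (I' n).card ∧ 1 ≤ S n ∧ ∀ j ≤ k n, 1 ≤ M n j ∧ ∀ i ∈ I' n,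
          M n j ≤ (cls (I n) (f n j) i).card ∧ ((cls (I n) (f n j) i).card : ℝ) ≤ 2 * M n j ∧
          M n j ≤ S n * (cls (I' n) (f n j) i).card := by
  classical
  -- losses
  set s : ℕ → ℕ → ℝ := fun m n =>
    (2 * ((m : ℝ) + 1) + 2) * ((2 * C + 1) * (1 + B.L n)) ^ (m + 1) with hs
  have hsub : ∀ m, B.Sub (s m) := fun m => (Base.Sub.const (by positivity)).mul
      (((Base.Sub.const (by positivity)).mul Base.Sub.one_add_L).pow (m + 1))
  obtain ⟨k, hk, hk'⟩ := Base.Sub.diag s hsub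
  have hex : ∀ n, ∃ (I' : Finset (ι n)) (M : ℕ → ℝ), (I n).Nonempty → I' ⊆ I n ∧ I'.Nonempty ∧
      ((I n).card : ℝ) ≤ 2 * ((Nat.log 2 (I n).card : ℝ) + 1) ^ (k n + 1) * I'.card ∧
      ∀ j ≤ k n, 1 ≤ M j ∧ ∀ i ∈ I',
        M j ≤ (cls (I n) (f n j) i).card ∧ ((cls (I n) (f n j) i).card : ℝ) ≤ 2 * M j ∧
        M j ≤ 2 * ((k n : ℝ) + 1) * ((Nat.log 2 (I n).card : ℝ) + 1) ^ (k n + 1) *
          (cls I' (f n j) i).card := by
    intro n
    by_cases h : (I n).Nonempty
    · obtain ⟨I', h1, h2, h3, M, h4, h5⟩ := uniformise_card (J := Fin (k n + 1)) (I n) h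
        (fun j => f n j) (H := Nat.log 2 (I n).card) (Nat.lt_pow_succ_log_self one_lt_two _)
      rw [Fintype.card_fin] at h3 h5
      refine ⟨I', fun j => if hj : j < k n + 1 then M ⟨j, hj⟩ else 1, fun _ =>
        ⟨h1, h2, h3, fun j hj => ?_⟩⟩
      have hj' : j < k n + 1 := Nat.lt_succ_of_le hj
      simp only [dif_pos hj']
      refine ⟨h4 _, fun i hi => ?_⟩
      have := h5 ⟨j, hj'⟩ i hi
      push_cast at this
      exact this
    · exact ⟨∅, fun _ => 1, fun h' => absurd h' h⟩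
  choose I' M hIM using hex
  refine ⟨I', M, fun n => s (k n) n, k, hk' k hk (Eventually.of_forall fun n => le_rfl), hk, ?_⟩
  filter_upwards [hI, log_card_le B hC hcard] with n h1 h2
  obtain ⟨a1, a2, a3, a4⟩ := hIM n h1
  have hp : ((Nat.log 2 (I n).card : ℝ) + 1) ^ (k n + 1) ≤
      ((2 * C + 1) * (1 + B.L n)) ^ (k n + 1) := pow_le_pow_left₀ (by positivity) h2 _
  have hp1 : (1 : ℝ) ≤ ((Nat.log 2 (I n).card : ℝ) + 1) ^ (k n + 1) :=
    one_le_pow₀ (by have : (0:ℝ) ≤ (Nat.log 2 (I n).card : ℝ) := Nat.cast_nonneg _; linarith)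
  have hk0 : (0 : ℝ) ≤ k n := Nat.cast_nonneg _
  refine ⟨a1, a2, a3.trans ?_, ?_, fun j hj => ⟨(a4 j hj).1, fun i hi => ⟨((a4 j hj).2 i hi).1,
    ((a4 j hj).2 i hi).2.1, ((a4 j hj).2 i hi).2.2.trans ?_⟩⟩⟩
  · refine mul_le_mul_of_nonneg_right ?_ (Nat.cast_nonneg _)
    rw [hs]; nlinarith
  · rw [hs]; nlinarith
  · refine mul_le_mul_of_nonneg_right ?_ (Nat.cast_nonneg _)
    rw [hs]; nlinarith

/-- **Linear stability** for finitely many partitions: finite statement. -/
theorem uniform_stable {ι κ J : Type*} [DecidableEq ι] [DecidableEq κ] [Fintype J] [DecidableEq J]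
    (I A : Finset ι) (f : J → ι → κ) (M : J → ℝ) {S p : ℝ} (hS : 0 < S) (hp : 0 ≤ p)
    (hM0 : ∀ j, 0 ≤ M j) (hM : ∀ j, ∀ i ∈ I, M j ≤ S * (cls I (f j) i).card)
    (hA : A ⊆ I) (hpA : p * I.card ≤ A.card) :
    ∃ A' ⊆ A, (A.card : ℝ) / 2 ≤ A'.card ∧
      ∀ j, ∀ i ∈ A', p / (2 * (Fintype.card J) * S) * M j ≤ (cls A' (f j) i).card := by
  classical
  rcases isEmpty_or_nonempty J with hJ | hJ
  · exact ⟨A, Subset.refl _, by have : (0:ℝ) ≤ A.card := Nat.cast_nonneg _; linarith,
      fun j => (hJ.false j).elim⟩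
  have hJ0 : (0 : ℝ) < Fintype.card J := by exact_mod_cast Fintype.card_pos
  obtain ⟨A', hA', hA'c, hgood⟩ := prune (J := J) A (fun _ => (1 : ℝ)) (fun _ _ => zero_le_one)
    f (fun j => p / (2 * (Fintype.card J) * S) * M j) (fun j => by have := hM0 j; positivity) (by
      have h1 : ∀ j : J, p / (2 * (Fintype.card J) * S) * M j * ((A.image (f j)).card : ℝ) ≤
          p / (2 * (Fintype.card J)) * I.card := by
        intro j
        have h2 := mul_card_image_le hA (fun _ => (1 : ℝ)) (fun _ _ => zero_le_one) (f j)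
          (M := M j / S) (fun i hi => by
            rw [sum_const, nsmul_eq_mul, mul_one, div_le_iff₀ hS, mul_comm]
            exact hM j i (hA hi))
        have h3 : M j / S * ((A.image (f j)).card : ℝ) ≤ I.card := by simpa using h2
        calc p / (2 * (Fintype.card J) * S) * M j * ((A.image (f j)).card : ℝ)
            = p / (2 * (Fintype.card J)) * (M j / S * ((A.image (f j)).card : ℝ)) := by
              field_simp
          _ ≤ _ := mul_le_mul_of_nonneg_left h3 (by positivity)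
      calc ∑ j : J, p / (2 * (Fintype.card J) * S) * M j * ((A.image (f j)).card : ℝ)
          ≤ ∑ _j : J, p / (2 * (Fintype.card J)) * I.card := sum_le_sum fun j _ => h1 j
        _ = p * I.card / 2 := by
            rw [sum_const, nsmul_eq_mul, card_univ]
            field_simp
        _ ≤ (∑ _i ∈ A, (1 : ℝ)) / 2 := by
            rw [sum_const, nsmul_eq_mul, mul_one]
            linarith)
  refine ⟨A', hA', by simpa using hA'c, fun j i hi => ?_⟩
  simpa using hgood j i hi

end Countable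

/-! ### real parameters -/

/-- A family of partitions `f n p`, `p ∈ P ⊆ ℝ^m`, nested and with polynomially bounded branching. -/
structure PFam (B : Base) {ι κ : ℕ → Type*} [∀ n, DecidableEq (ι n)] [∀ n, DecidableEq (κ n)]
    {m : ℕ} (I : ∀ n, Finset (ι n)) (f : ∀ n, (Fin m → ℝ) → ι n → κ n) (K : ℝ)
    (P : Set (Fin m → ℝ)) : Prop where
  nest : ∀ᶠ n in (U : Filter ℕ), ∀ p ∈ P, ∀ p' ∈ P, p ≤ p' → ∀ i ∈ I n, ∀ i' ∈ I n,
    f n p' i = f n p' i' → f n p i = f n p i'
  child : ∀ ε : ℝ, 0 < ε → ∀ᶠ n in (U : Filter ℕ), ∀ p ∈ P, ∀ p' ∈ P, p ≤ p' → ∀ i ∈ I n,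
    (((cls (I n) (f n p) i).image (f n p')).card : ℝ) ≤ B.d n ^ (-(K * ‖p' - p‖ + ε))

/-- `ν` is the profile of `I'` (a refinement of `I`) with respect to `f` on `P`. -/
def IsProfile (B : Base) {ι κ : ℕ → Type*} [∀ n, DecidableEq (ι n)] [∀ n, DecidableEq (κ n)]
    {V : Type*} (I : ∀ n, Finset (ι n)) (f : ∀ n, V → ι n → κ n) (P : Set V) (ν : V → ℝ) : Prop :=
  ∀ ε : ℝ, 0 < ε → ∀ᶠ n in (U : Filter ℕ), ∀ p ∈ P, ∀ i ∈ I n,
    |Real.log ((cls (I n) (f n p) i).card) / B.L n - ν p| ≤ ε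

section Profile

open Finset

variable {B : Base} {ι κ : ℕ → Type*} [∀ n, DecidableEq (ι n)] [∀ n, DecidableEq (κ n)] {m : ℕ}

theorem self_mem_cls {α β : Type*} [DecidableEq α] [DecidableEq β] {I : Finset α} {f : α → β} {i : α}
    (hi : i ∈ I) : i ∈ cls I f i := mem_cls.2 ⟨hi, rfl⟩

theorem cls_card_pos {α β : Type*} [DecidableEq α] [DecidableEq β] {I : Finset α} {f : α → β} {i : α}
    (hi : i ∈ I) : (1 : ℝ) ≤ (cls I f i).card := by
  have : 0 < (cls I f i).card := card_pos.2 ⟨i, self_mem_cls hi⟩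
  exact_mod_cast this

/-- the grid point of level `k` below `p ∈ [a,b]`. -/
noncomputable def gridDown {m : ℕ} (a b : Fin m → ℝ) (k : ℕ) (p : Fin m → ℝ) : Fin m → ℕ :=
  fun j => ⌊(p j - a j) / (b j - a j) * (k + 1)⌋₊

noncomputable def gridPt {m : ℕ} (a b : Fin m → ℝ) (k : ℕ) (g : Fin m → ℕ) : Fin m → ℝ :=
  fun j => a j + (b j - a j) * (min (g j) (k + 1) : ℕ) / (k + 1)

theorem gridPt_mem {a b : Fin m → ℝ} (hab : ∀ j, a j < b j) (k : ℕ) (g : Fin m → ℕ) :
    gridPt a b k g ∈ Set.Icc a b := by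
  constructor
  · intro j
    simp only [gridPt]
    have h1 := hab j
    have : 0 ≤ (b j - a j) * (min (g j) (k + 1) : ℕ) / (k + 1) := by
      have : 0 ≤ b j - a j := by linarith
      positivity
    linarith
  · intro j
    simp only [gridPt]
    have h1 : 0 ≤ b j - a j := by linarith [hab j]
    have h2 : ((min (g j) (k + 1) : ℕ) : ℝ) ≤ k + 1 := by
      have : min (g j) (k + 1) ≤ k + 1 := min_le_right _ _
      exact_mod_cast this
    have h3 : (b j - a j) * (min (g j) (k + 1) : ℕ) / (k + 1) ≤ b j - a j := by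
      rw [div_le_iff₀ (by positivity)]
      exact mul_le_mul_of_nonneg_left h2 h1
    linarith

theorem gridPt_sandwich {a b : Fin m → ℝ} (hab : ∀ j, a j < b j) (k : ℕ) {p : Fin m → ℝ}
    (hp : p ∈ Set.Icc a b) :
    gridPt a b k (gridDown a b k p) ≤ p ∧ p ≤ gridPt a b k (fun j => gridDown a b k p j + 1) ∧
    ‖gridPt a b k (fun j => gridDown a b k p j + 1) - gridPt a b k (gridDown a b k p)‖ ≤
      ‖b - a‖ / (k + 1) ∧ ∀ j, gridDown a b k p j ≤ k + 1 := by
  have hk : (0 : ℝ) < (k : ℝ) + 1 := by positivity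
  have h0 : ∀ j, 0 < b j - a j := fun j => by linarith [hab j]
  have ht0 : ∀ j, 0 ≤ (p j - a j) / (b j - a j) * (k + 1) := fun j => by
    have := hp.1 j
    have h1 := h0 j
    have : 0 ≤ p j - a j := by linarith
    positivity
  have ht1 : ∀ j, (p j - a j) / (b j - a j) * (k + 1) ≤ k + 1 := fun j => by
    have h2 := hp.2 j
    have : (p j - a j) / (b j - a j) ≤ 1 := by
      rw [div_le_one (h0 j)]; linarith
    nlinarith
  have hg : ∀ j, gridDown a b k p j ≤ k + 1 := fun j => by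
    simp only [gridDown]
    have := Nat.floor_le_floor (ht1 j)
    have h3 : ⌊(k : ℝ) + 1⌋₊ = k + 1 := by
      have : ((k : ℝ) + 1) = ((k + 1 : ℕ) : ℝ) := by push_cast; ring
      rw [this, Nat.floor_natCast]
    rwa [h3] at this
  refine ⟨fun j => ?_, fun j => ?_, ?_, hg⟩
  · simp only [gridPt, min_eq_left (hg j)]
    have h1 : ((gridDown a b k p j : ℕ) : ℝ) ≤ (p j - a j) / (b j - a j) * (k + 1) :=
      Nat.floor_le (ht0 j)
    have h2 : (b j - a j) * (gridDown a b k p j : ℕ) / (k + 1) ≤ p j - a j := by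
      rw [div_le_iff₀ hk]
      calc (b j - a j) * (gridDown a b k p j : ℕ) ≤
          (b j - a j) * ((p j - a j) / (b j - a j) * (k + 1)) :=
            mul_le_mul_of_nonneg_left h1 (h0 j).le
        _ = (p j - a j) * (k + 1) := by
            have := (h0 j).ne'
            field_simp
    linarith
  · simp only [gridPt]
    by_cases hlt : gridDown a b k p j < k + 1
    · rw [min_eq_left (Nat.succ_le_of_lt hlt)]
      have h1 : (p j - a j) / (b j - a j) * (k + 1) < ((gridDown a b k p j : ℕ) : ℝ) + 1 :=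
        Nat.lt_floor_add_one _
      have h2 : p j - a j ≤ (b j - a j) * ((gridDown a b k p j + 1 : ℕ) : ℝ) / (k + 1) := by
        rw [le_div_iff₀ hk]
        push_cast
        calc (p j - a j) * (k + 1) = (b j - a j) * ((p j - a j) / (b j - a j) * (k + 1)) := by
              have := (h0 j).ne'
              field_simp
          _ ≤ (b j - a j) * (((gridDown a b k p j : ℕ) : ℝ) + 1) :=
              mul_le_mul_of_nonneg_left h1.le (h0 j).le
      linarith
    · have h3 : min (gridDown a b k p j + 1) (k + 1) = k + 1 := by omega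
      rw [h3]
      have := hp.2 j
      push_cast
      rw [mul_div_assoc, div_self hk.ne', mul_one]
      linarith
  · refine (pi_norm_le_iff_of_nonneg (by positivity)).2 fun j => ?_
    have h1 : |b j - a j| ≤ ‖b - a‖ := by
      have := norm_le_pi_norm (b - a) j
      simpa [Real.norm_eq_abs] using this
    rw [Pi.sub_apply, Real.norm_eq_abs]
    simp only [gridPt]
    have h4 : ((min (gridDown a b k p j + 1) (k + 1) : ℕ) : ℝ) -
        (min (gridDown a b k p j) (k + 1) : ℕ) ≤ 1 := by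
      have : min (gridDown a b k p j + 1) (k + 1) ≤ min (gridDown a b k p j) (k + 1) + 1 := by omega
      have h5 : ((min (gridDown a b k p j + 1) (k + 1) : ℕ) : ℝ) ≤
          ((min (gridDown a b k p j) (k + 1) + 1 : ℕ) : ℝ) := by exact_mod_cast this
      push_cast at h5 ⊢
      linarith
    have h5 : (0 : ℝ) ≤ ((min (gridDown a b k p j + 1) (k + 1) : ℕ) : ℝ) -
        (min (gridDown a b k p j) (k + 1) : ℕ) := by
      have : min (gridDown a b k p j) (k + 1) ≤ min (gridDown a b k p j + 1) (k + 1) := by omega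
      have h6 : ((min (gridDown a b k p j) (k + 1) : ℕ) : ℝ) ≤
          ((min (gridDown a b k p j + 1) (k + 1) : ℕ) : ℝ) := by exact_mod_cast this
      linarith
    have e : a j + (b j - a j) * ((min (gridDown a b k p j + 1) (k + 1) : ℕ) : ℝ) / (k + 1) -
        (a j + (b j - a j) * ((min (gridDown a b k p j) (k + 1) : ℕ) : ℝ) / (k + 1)) =
        (b j - a j) * (((min (gridDown a b k p j + 1) (k + 1) : ℕ) : ℝ) -
          (min (gridDown a b k p j) (k + 1) : ℕ)) / (k + 1) := by ring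
    rw [e, abs_div, abs_mul, abs_of_nonneg h5, abs_of_pos hk]
    refine div_le_div_of_nonneg_right ?_ hk.le
    calc |b j - a j| * _ ≤ |b j - a j| * 1 := mul_le_mul_of_nonneg_left h4 (abs_nonneg _)
      _ ≤ ‖b - a‖ := by rw [mul_one]; exact h1

/-- class sizes of `I` at points of `I'` and of `I'` agree up to `d^{o(1)}`, uniformly in `p ∈ P`. -/
def PUnif (B : Base) {V : Type*} (I I' : ∀ n, Finset (ι n)) (f : ∀ n, V → ι n → κ n)
    (P : Set V) : Prop :=
  ∀ ε : ℝ, 0 < ε → ∀ᶠ n in (U : Filter ℕ), ∀ p ∈ P, ∀ i ∈ I' n, ∀ i₀ ∈ I' n,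
    Real.log ((cls (I n) (f n p) i).card) ≤
      Real.log ((cls (I' n) (f n p) i₀).card) + ε * B.L n

/-- **Uniformisation for a family with real parameters.** -/
theorem exists_punif {I : ∀ n, Finset (ι n)} {f : ∀ n, (Fin m → ℝ) → ι n → κ n} {K : ℝ}
    (hK : 0 ≤ K) {a b : Fin m → ℝ} (hab : ∀ j, a j < b j) (hf : PFam B I f K (Set.Icc a b))
    (hI : ∀ᶠ n in (U : Filter ℕ), (I n).Nonempty) {C : ℝ} (hC : 0 ≤ C)
    (hcard : ∀ᶠ n in (U : Filter ℕ), ((I n).card : ℝ) ≤ B.d n ^ (-C)) :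
    ∃ (I' : ∀ n, Finset (ι n)) (S : ℕ → ℝ), B.Sub S ∧
      (∀ᶠ n in (U : Filter ℕ), I' n ⊆ I n ∧ (I' n).Nonempty ∧
        ((I n).card : ℝ) ≤ S n * (I' n).card) ∧ PUnif B I I' f (Set.Icc a b) := by
  classical
  obtain ⟨e, he⟩ := exists_surjective_nat (ℕ × (Fin m → ℕ))
  obtain ⟨I', M, S, k, hS, hk, hev⟩ := uniform_countable B I
    (fun n j => f n (gridPt a b (e j).1 (e j).2)) hI hC hcard
  refine ⟨I', S, hS, hev.mono fun n hn => ⟨hn.1, hn.2.1, hn.2.2.1⟩, fun ε hε => ?_⟩
  -- the grid level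
  obtain ⟨k₀, hk₀⟩ : ∃ k₀ : ℕ, K * (‖b - a‖ / (k₀ + 1)) ≤ ε / 4 := by
    obtain ⟨N, hN⟩ := exists_nat_gt (K * ‖b - a‖ / (ε / 4))
    refine ⟨N, ?_⟩
    rw [← mul_div_assoc, div_le_iff₀ (by positivity)]
    rw [div_lt_iff₀ (by positivity)] at hN
    nlinarith
  choose idx hidx using he
  have hG : ∀ᶠ n in (U : Filter ℕ), ∀ g ∈ Fintype.piFinset (fun _ : Fin m => range (k₀ + 3)),
      idx (k₀, g) ≤ k n := by
    rw [Filter.eventually_all_finset]
    intro g _
    exact hk.eventually_ge_atTop _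
  have hSlog : ∀ᶠ n in (U : Filter ℕ), Real.log (S n) ≤ ε / 8 * B.L n := by
    have h1 := (Base.Sub.iff.1 hS).2
    have h2 := h1.eventually_lt_const (show (0 : ℝ) < ε / 8 by positivity)
    filter_upwards [h2] with n hn
    simp only [Base.lg] at hn
    rw [div_lt_iff₀ (B.L_pos n)] at hn
    exact hn.le
  have h2log : ∀ᶠ n in (U : Filter ℕ), 2 * Real.log 2 ≤ ε / 8 * B.L n := by
    filter_upwards [B.ev_L_ge (2 * Real.log 2 / (ε / 8))] with n hn
    rw [div_le_iff₀ (by positivity)] at hn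
    linarith
  filter_upwards [hev, hG, hSlog, h2log, hf.nest, hf.child (ε / 4) (by positivity)] with
    n h1 h2 h3 h4 h5 h6 p hp i hi i₀ hi₀
  obtain ⟨hsub, -, -, hS1, hMM⟩ := h1
  obtain ⟨q1, q2, q3, q4⟩ := gridPt_sandwich hab k₀ hp
  set g := gridDown a b k₀ p with hg
  set g' : Fin m → ℕ := fun j => g j + 1 with hg'
  have hgm : g ∈ Fintype.piFinset (fun _ : Fin m => range (k₀ + 3)) := by
    rw [Fintype.mem_piFinset]; intro j; rw [mem_range]; have := q4 j; omega
  have hgm' : g' ∈ Fintype.piFinset (fun _ : Fin m => range (k₀ + 3)) := by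
    rw [Fintype.mem_piFinset]; intro j; rw [mem_range]; have := q4 j; simp only [hg']; omega
  have hM1 := hMM (idx (k₀, g)) (h2 g hgm)
  have hM2 := hMM (idx (k₀, g')) (h2 g' hgm')
  rw [hidx] at hM1 hM2
  simp only at hM1 hM2
  set pm := gridPt a b k₀ g with hpm
  set pp := gridPt a b k₀ g' with hpp
  have hpmP : pm ∈ Set.Icc a b := gridPt_mem hab k₀ g
  have hppP : pp ∈ Set.Icc a b := gridPt_mem hab k₀ g'
  set Mm := M n (idx (k₀, g)) with hMm
  set Mp := M n (idx (k₀, g')) with hMp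
  have hMm1 : 1 ≤ Mm := hM1.1
  have hMp1 : 1 ≤ Mp := hM2.1
  have hSn : 0 < S n := by linarith
  have hL := B.L_pos n
  -- upper bound for the class of `I` at `i`
  have hup : ((cls (I n) (f n p) i).card : ℝ) ≤ 2 * Mm := by
    refine le_trans ?_ (hM1.2 i hi).2.1
    exact_mod_cast card_le_card (fun x hx => by
      obtain ⟨x1, x2⟩ := mem_cls.1 hx
      exact mem_cls.2 ⟨x1, h5 pm hpmP p hp q1 x x1 i (hsub hi) x2⟩)
  -- lower bound for the class of `I'` at `i₀`
  have hlo : Mp ≤ S n * (cls (I' n) (f n p) i₀).card := by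
    refine (hM2.2 i₀ hi₀).2.2.trans (mul_le_mul_of_nonneg_left ?_ hSn.le)
    exact_mod_cast card_le_card (fun x hx => by
      obtain ⟨x1, x2⟩ := mem_cls.1 hx
      exact mem_cls.2 ⟨x1, h5 p hp pp hppP q2 x (hsub x1) i₀ (hsub hi₀) x2⟩)
  -- relation between `Mm` and `Mp`
  have hrel : Mm ≤ S n * (2 * Mp * B.d n ^ (-(K * ‖pp - pm‖ + ε / 4))) := by
    refine (hM1.2 i₀ hi₀).2.2.trans (mul_le_mul_of_nonneg_left ?_ hSn.le)
    have hc := le_count_mul (cls (I' n) (f n pm) i₀) (fun _ => (1 : ℝ)) (f n pp) (m := 2 * Mp)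
      (fun x hx => by
        rw [sum_const, nsmul_eq_mul, mul_one]
        obtain ⟨x1, x2⟩ := mem_cls.1 hx
        refine le_trans ?_ (hM2.2 x x1).2.1
        exact_mod_cast card_le_card (fun y hy => by
          obtain ⟨y1, y2⟩ := mem_cls.1 hy
          exact mem_cls.2 ⟨hsub (mem_cls.1 y1).1, y2⟩))
    rw [sum_const, nsmul_eq_mul, mul_one] at hc
    refine hc.trans (mul_le_mul_of_nonneg_left ?_ (by positivity))
    refine le_trans ?_ (h6 pm hpmP pp hppP (q1.trans q2) i₀ (hsub hi₀))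
    exact_mod_cast card_le_card (image_subset_image (cls_mono hsub _ _))
  -- take logarithms
  have hci₀ : (1 : ℝ) ≤ (cls (I' n) (f n p) i₀).card := cls_card_pos hi₀
  have hci : (1 : ℝ) ≤ (cls (I n) (f n p) i).card := cls_card_pos (hsub hi)
  have hd := B.pos n
  have hLd : Real.log (B.d n) = - B.L n := by simp [Base.L]
  have hdist : K * ‖pp - pm‖ ≤ ε / 4 := by
    refine le_trans (mul_le_mul_of_nonneg_left ?_ hK) hk₀
    exact q3
  have l1 : Real.log ((cls (I n) (f n p) i).card) ≤ Real.log 2 + Real.log Mm := by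
    rw [← Real.log_mul (by norm_num) (by linarith)]
    exact Real.log_le_log (by linarith) hup
  have l2 : Real.log Mm ≤ Real.log (S n) + (Real.log 2 + Real.log Mp +
      (K * ‖pp - pm‖ + ε / 4) * B.L n) := by
    have hdp : 0 < B.d n ^ (-(K * ‖pp - pm‖ + ε / 4)) := Real.rpow_pos_of_pos hd _
    have h7 := Real.log_le_log (by linarith) hrel
    rw [Real.log_mul hSn.ne' (by positivity), Real.log_mul (by positivity) hdp.ne',
      Real.log_mul (by norm_num) (by linarith), Real.log_rpow hd, hLd] at h7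
    linarith
  have l3 : Real.log Mp ≤ Real.log (S n) + Real.log ((cls (I' n) (f n p) i₀).card) := by
    rw [← Real.log_mul hSn.ne' (by linarith)]
    exact Real.log_le_log (by linarith) hlo
  have l4 : (K * ‖pp - pm‖ + ε / 4) * B.L n ≤ (ε / 2) * B.L n :=
    mul_le_mul_of_nonneg_right (by linarith) hL.le
  have l5 := mul_pos hε hL
  linarith

/-- A uniform family with real parameters has a profile. -/
theorem PUnif.exists_profile {I I' : ∀ n, Finset (ι n)} {f : ∀ n, (Fin m → ℝ) → ι n → κ n} {K : ℝ}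
    (hK : 0 ≤ K) {a b : Fin m → ℝ} (hf : PFam B I f K (Set.Icc a b))
    (hsub : ∀ᶠ n in (U : Filter ℕ), I' n ⊆ I n) (hI : ∀ᶠ n in (U : Filter ℕ), (I' n).Nonempty)
    {C : ℝ} (hcard : ∀ᶠ n in (U : Filter ℕ), ((I n).card : ℝ) ≤ B.d n ^ (-C))
    (hu : PUnif B I I' f (Set.Icc a b)) :
    ∃ ν : (Fin m → ℝ) → ℝ, IsProfile B I' f (Set.Icc a b) ν ∧
      (∀ ε : ℝ, 0 < ε → ∀ᶠ n in (U : Filter ℕ), ∀ p ∈ Set.Icc a b, ∀ i ∈ I' n,
        |Real.log ((cls (I n) (f n p) i).card) / B.L n - ν p| ≤ ε) ∧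
      (∀ p ∈ Set.Icc a b, ∀ q ∈ Set.Icc a b, |ν p - ν q| ≤ K * ‖p - q‖) ∧
      (∀ p ∈ Set.Icc a b, ∀ q ∈ Set.Icc a b, p ≤ q → ν q ≤ ν p) ∧
      (∀ p ∈ Set.Icc a b, 0 ≤ ν p) := by
  classical
  -- a base point
  have hpt : ∀ n, ∃ x : Option (ι n), (I' n).Nonempty → ∃ i ∈ I' n, x = some i := by
    intro n
    by_cases h : (I' n).Nonempty
    · obtain ⟨i, hi⟩ := h
      exact ⟨some i, fun _ => ⟨i, hi, rfl⟩⟩
    · exact ⟨none, fun h' => absurd h' h⟩
  choose x₀ hx₀ using hpt
  set φ : ℕ → (Fin m → ℝ) → ℝ := fun n p =>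
    match x₀ n with
    | some i => Real.log ((cls (I' n) (f n p) i).card) / B.L n
    | none => 0 with hφ
  have hφs : ∀ᶠ n in (U : Filter ℕ), ∃ i ∈ I' n, x₀ n = some i := hI.mono fun n hn => hx₀ n hn
  -- approximate Lipschitz bound
  have key : ∀ ε : ℝ, 0 < ε → ∀ᶠ n in (U : Filter ℕ), ∀ p ∈ Set.Icc a b, ∀ q ∈ Set.Icc a b,
      φ n p ≤ φ n q + K * ‖p - q‖ + ε := by
    intro ε hε
    filter_upwards [hφs, hf.nest, hf.child (ε / 2) (by positivity), hu (ε / 2) (by positivity),
      hsub] with n h1 h2 h3 h4 h5 p hp q hq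
    obtain ⟨i, hi, hxi⟩ := h1
    have hL := B.L_pos n
    have hφp : ∀ p, φ n p = Real.log ((cls (I' n) (f n p) i).card) / B.L n := by
      intro p; simp only [hφ, hxi]
    set r : Fin m → ℝ := p ⊔ q with hr
    have hrP : r ∈ Set.Icc a b := ⟨hp.1.trans le_sup_left, sup_le hp.2 hq.2⟩
    have hpr : p ≤ r := le_sup_left
    have hqr : q ≤ r := le_sup_right
    have hnorm : ‖r - p‖ ≤ ‖p - q‖ := by
      refine (pi_norm_le_iff_of_nonneg (norm_nonneg _)).2 fun j => ?_
      have h6 := norm_le_pi_norm (p - q) j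
      rw [Pi.sub_apply, Real.norm_eq_abs] at h6 ⊢
      refine le_trans ?_ h6
      rw [hr, Pi.sup_apply]
      rcases le_total (p j) (q j) with h7 | h7
      · rw [sup_eq_right.2 h7, abs_sub_comm]
      · rw [sup_eq_left.2 h7, sub_self, abs_zero]; exact abs_nonneg _
    -- `φ r ≤ φ q`
    have c1 : ((cls (I' n) (f n r) i).card : ℝ) ≤ (cls (I' n) (f n q) i).card := by
      exact_mod_cast card_le_card (fun x hx => by
        obtain ⟨x1, x2⟩ := mem_cls.1 hx
        exact mem_cls.2 ⟨x1, h2 q hq r hrP hqr x (h5 x1) i (h5 hi) x2⟩)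
    -- `|cls p| ≤ children * |cls r| d^{-ε/2}`
    have c2 : ((cls (I' n) (f n p) i).card : ℝ) ≤
        ((cls (I' n) (f n r) i).card * B.d n ^ (-(ε / 2))) *
          B.d n ^ (-(K * ‖r - p‖ + ε / 2)) := by
      have hc := le_count_mul (cls (I' n) (f n p) i) (fun _ => (1 : ℝ)) (f n r)
        (m := (cls (I' n) (f n r) i).card * B.d n ^ (-(ε / 2))) (fun x hx => by
          rw [sum_const, nsmul_eq_mul, mul_one]
          obtain ⟨x1, x2⟩ := mem_cls.1 hx
          have h6 := h4 r hrP x x1 i hi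
          have h7 : (1 : ℝ) ≤ (cls (I n) (f n r) x).card := cls_card_pos (h5 x1)
          have h8 : (1 : ℝ) ≤ (cls (I' n) (f n r) i).card := cls_card_pos hi
          have h9 : ((cls (I n) (f n r) x).card : ℝ) ≤
              (cls (I' n) (f n r) i).card * B.d n ^ (-(ε / 2)) := by
            have hdp0 : 0 < B.d n ^ (-(ε / 2)) := Real.rpow_pos_of_pos (B.pos n) _
            have hLd0 : Real.log (B.d n) = - B.L n := by simp [Base.L]
            rw [← Real.log_le_log_iff (by linarith) (by positivity),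
              Real.log_mul (by linarith) hdp0.ne', Real.log_rpow (B.pos n), hLd0]
            linarith
          refine le_trans ?_ h9
          exact_mod_cast card_le_card (fun y hy => by
            obtain ⟨y1, y2⟩ := mem_cls.1 hy
            exact mem_cls.2 ⟨h5 (mem_cls.1 y1).1, y2⟩))
      rw [sum_const, nsmul_eq_mul, mul_one] at hc
      have hnn : (0 : ℝ) ≤ (cls (I' n) (f n r) i).card * B.d n ^ (-(ε / 2)) := by
        have := (Real.rpow_pos_of_pos (B.pos n) (-(ε / 2))).le
        positivity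
      refine hc.trans (mul_le_mul_of_nonneg_left ?_ hnn)
      refine le_trans ?_ (h3 p hp r hrP hpr i (h5 hi))
      exact_mod_cast card_le_card (image_subset_image (cls_mono h5 _ _))
    have p1 : (1 : ℝ) ≤ (cls (I' n) (f n r) i).card := cls_card_pos hi
    have p2 : (1 : ℝ) ≤ (cls (I' n) (f n p) i).card := cls_card_pos hi
    have l1 := Real.log_le_log (by linarith) c1
    have l2 := Real.log_le_log (by linarith) c2
    have hdp1 : 0 < B.d n ^ (-(ε / 2)) := Real.rpow_pos_of_pos (B.pos n) _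
    have hdp2 : 0 < B.d n ^ (-(K * ‖r - p‖ + ε / 2)) := Real.rpow_pos_of_pos (B.pos n) _
    have hLd : Real.log (B.d n) = - B.L n := by simp [Base.L]
    rw [Real.log_mul (by positivity) hdp2.ne', Real.log_mul (by linarith) hdp1.ne',
      Real.log_rpow (B.pos n), Real.log_rpow (B.pos n), hLd] at l2
    rw [hφp, hφp]
    have l3 : K * ‖r - p‖ * B.L n ≤ K * ‖p - q‖ * B.L n := by gcongr
    have l4 : Real.log ((cls (I' n) (f n p) i).card) ≤ Real.log ((cls (I' n) (f n q) i).card) +
        (K * ‖p - q‖ + ε) * B.L n := by nlinarith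
    have l5 := div_le_div_of_nonneg_right l4 hL.le
    rw [add_div, mul_div_assoc, div_self hL.ne', mul_one] at l5
    linarith
  have halip : ALip (Set.Icc a b) K φ := by
    intro ε hε
    filter_upwards [key ε hε] with n hn p hp q hq
    have e1 := hn p hp q hq
    have e2 := hn q hq p hp
    rw [norm_sub_rev] at e2
    rw [abs_le, dist_eq_norm]
    constructor <;> linarith
  -- boundedness and the limit
  have hbd : ∀ p, ∀ᶠ n in (U : Filter ℕ), |φ n p| ≤ |C| := by
    intro p
    filter_upwards [hφs, hsub, hcard] with n h1 h2 h3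
    obtain ⟨i, hi, hxi⟩ := h1
    have hφp : φ n p = Real.log ((cls (I' n) (f n p) i).card) / B.L n := by
      simp only [hφ, hxi]
    have hL := B.L_pos n
    have p1 : (1 : ℝ) ≤ (cls (I' n) (f n p) i).card := cls_card_pos hi
    have p2 : ((cls (I' n) (f n p) i).card : ℝ) ≤ B.d n ^ (-C) := by
      refine le_trans ?_ h3
      exact_mod_cast card_le_card ((cls_subset _ _ _).trans h2)
    have l1 := Real.log_le_log (by linarith) p2
    have hLd : Real.log (B.d n) = - B.L n := by simp [Base.L]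
    rw [Real.log_rpow (B.pos n), hLd] at l1
    have l0 := Real.log_nonneg p1
    rw [hφp, abs_div, abs_of_pos hL, abs_of_nonneg l0, div_le_iff₀ hL]
    have := le_abs_self C
    nlinarith
  have hlim : ∀ p, ∃ y, Tendsto (fun n => φ n p) U (𝓝 y) := fun p => by
    obtain ⟨y, hy, -⟩ := exists_tendsto (hbd p)
    exact ⟨y, hy⟩
  choose ν hν using hlim
  have hunif : ∀ ε : ℝ, 0 < ε → ∀ᶠ n in (U : Filter ℕ), ∀ p ∈ Set.Icc a b, |φ n p - ν p| ≤ ε :=
    fun ε hε => unif_of_lip isCompact_Icc hK halip (fun p _ => hν p) hε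
  have hlip := halip.limit (fun p _ => hν p)
  have hall : ∀ ε : ℝ, 0 < ε → ∀ᶠ n in (U : Filter ℕ), ∀ p ∈ Set.Icc a b, ∀ i ∈ I' n,
      |Real.log ((cls (I' n) (f n p) i).card) / B.L n - ν p| ≤ ε ∧
      |Real.log ((cls (I n) (f n p) i).card) / B.L n - ν p| ≤ ε := by
    intro ε hε
    filter_upwards [hunif (ε / 2) (by positivity), hu (ε / 2) (by positivity), hφs, hsub] with
      n h1 h2 h3 h4 p hp i hi
    obtain ⟨i₀, hi₀, hxi⟩ := h3
    have hφp : φ n p = Real.log ((cls (I' n) (f n p) i₀).card) / B.L n := by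
      simp only [hφ, hxi]
    have hL := B.L_pos n
    have e1 := h1 p hp
    rw [hφp] at e1
    obtain ⟨e1a, e1b⟩ := abs_le.1 e1
    have up := h2 p hp i hi i₀ hi₀
    have lo := h2 p hp i₀ hi₀ i hi
    have mono1 : Real.log ((cls (I' n) (f n p) i).card) ≤ Real.log ((cls (I n) (f n p) i).card) := by
      refine Real.log_le_log (by linarith [cls_card_pos (f := f n p) hi]) ?_
      exact_mod_cast card_le_card (cls_mono h4 _ _)
    have mono2 : Real.log ((cls (I' n) (f n p) i₀).card) ≤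
        Real.log ((cls (I n) (f n p) i₀).card) := by
      refine Real.log_le_log (by linarith [cls_card_pos (f := f n p) hi₀]) ?_
      exact_mod_cast card_le_card (cls_mono h4 _ _)
    have d1 : Real.log ((cls (I n) (f n p) i).card) / B.L n ≤
        Real.log ((cls (I' n) (f n p) i₀).card) / B.L n + ε / 2 := by
      rw [div_le_iff₀ hL, add_mul, div_mul_cancel₀ _ hL.ne']
      exact up
    have d2 : Real.log ((cls (I' n) (f n p) i₀).card) / B.L n ≤
        Real.log ((cls (I' n) (f n p) i).card) / B.L n + ε / 2 := by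
      rw [div_le_iff₀ hL, add_mul, div_mul_cancel₀ _ hL.ne']
      exact mono2.trans lo
    have d3 := div_le_div_of_nonneg_right mono1 hL.le
    constructor
    · rw [abs_le]; constructor <;> linarith
    · rw [abs_le]; constructor <;> linarith
  refine ⟨ν, fun ε hε => (hall ε hε).mono fun n hn p hp i hi => (hn p hp i hi).1,
    fun ε hε => (hall ε hε).mono fun n hn p hp i hi => (hn p hp i hi).2, ?_, ?_, ?_⟩
  · intro p hp q hq
    have := hlip p hp q hq
    rwa [dist_eq_norm] at this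
  · intro p hp q hq hpq
    refine le_of_tendsto_of_tendsto (hν q) (hν p) ?_
    filter_upwards [hφs, hf.nest, hsub] with n h1 h2 h5
    obtain ⟨i, hi, hxi⟩ := h1
    have hφp : ∀ p, φ n p = Real.log ((cls (I' n) (f n p) i).card) / B.L n := by
      intro p; simp only [hφ, hxi]
    rw [hφp, hφp]
    refine div_le_div_of_nonneg_right ?_ (B.L_pos n).le
    refine Real.log_le_log (by linarith [cls_card_pos (f := f n q) hi]) ?_
    exact_mod_cast card_le_card (fun x hx => by
      obtain ⟨x1, x2⟩ := mem_cls.1 hx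
      exact mem_cls.2 ⟨x1, h2 p hp q hq hpq x (h5 x1) i (h5 hi) x2⟩)
  · intro p hp
    refine ge_of_tendsto (hν p) ?_
    filter_upwards [hφs] with n h1
    obtain ⟨i, hi, hxi⟩ := h1
    have hφp : φ n p = Real.log ((cls (I' n) (f n p) i).card) / B.L n := by
      simp only [hφ, hxi]
    rw [hφp]
    exact div_nonneg (Real.log_nonneg (cls_card_pos hi)) (B.L_pos n).le

end Profile

end Crest.Agent.R138.Ex926
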