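import Mathlib
import Crest.Agent.R138.Pf_926

/-!
# R138, deep level, part 1 (helper76): the concentration exponent

Abstract lemma: a family of shapes `mem n a s` (scale exponent `a`, shape `s`), cells `g n`.
There is a largest exponent `a*` such that a `d^{o(1)}`-dense part of the incidences has each cell
contained in ONE shape of exponent `a n → a*`; after removing bad cells no shape of exponent
`a > a*` contains more than a `d^c`-part of a cell.
-/

set_option autoImplicit false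
set_option linter.unusedVariables false

open Filter Topology Finset

namespace Crest.Agent.R138.Dp76

open Crest.Agent.R138.Ex926

/-- `J` is a sub-polynomially dense part of `I`. -/
def Dense (B : Base) {ι : ℕ → Type*} (J I : ∀ n, Finset (ι n)) : Prop :=
  (∀ᶠ n in (U : Filter ℕ), J n ⊆ I n) ∧
    ∀ η : ℝ, 0 < η → ∀ᶠ n in (U : Filter ℕ), B.d n ^ η * ((I n).card : ℝ) ≤ ((J n).card : ℝ)

theorem dpow_pos (B : Base) (n : ℕ) (a : ℝ) : 0 < B.d n ^ a := Real.rpow_pos_of_pos (B.pos n) a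

theorem dpow_add (B : Base) (n : ℕ) (a b : ℝ) : B.d n ^ (a + b) = B.d n ^ a * B.d n ^ b :=
  Real.rpow_add (B.pos n) a b

theorem dpow_le (B : Base) (n : ℕ) {a b : ℝ} (h : a ≤ b) : B.d n ^ b ≤ B.d n ^ a :=
  Real.rpow_le_rpow_of_exponent_ge (B.pos n) (B.lt n).le h

theorem dpow_le_one (B : Base) (n : ℕ) {a : ℝ} (h : 0 ≤ a) : B.d n ^ a ≤ 1 :=
  Real.rpow_le_one (B.pos n).le (B.lt n).le h

theorem Dense.refl (B : Base) {ι : ℕ → Type*} (I : ∀ n, Finset (ι n)) : Dense B I I := by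
  refine ⟨Eventually.of_forall fun n => Finset.Subset.refl _, fun η hη => Eventually.of_forall fun n => ?_⟩
  have h1 := dpow_le_one B n hη.le
  have h2 : (0 : ℝ) ≤ (I n).card := Nat.cast_nonneg _
  nlinarith

theorem Dense.trans {B : Base} {ι : ℕ → Type*} {K J I : ∀ n, Finset (ι n)}
    (h1 : Dense B K J) (h2 : Dense B J I) : Dense B K I := by
  refine ⟨?_, fun η hη => ?_⟩
  · filter_upwards [h1.1, h2.1] with n a b using a.trans b
  · filter_upwards [h1.2 (η / 2) (by linarith), h2.2 (η / 2) (by linarith)] with n a b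
    have e : B.d n ^ η = B.d n ^ (η / 2) * B.d n ^ (η / 2) := by rw [← dpow_add]; congr 1; ring
    have hp := dpow_pos B n (η / 2)
    calc B.d n ^ η * ((I n).card : ℝ) = B.d n ^ (η / 2) * (B.d n ^ (η / 2) * (I n).card) := by
          rw [e]; ring
      _ ≤ B.d n ^ (η / 2) * (J n).card := mul_le_mul_of_nonneg_left b hp.le
      _ ≤ (K n).card := a

theorem Dense.nonempty {B : Base} {ι : ℕ → Type*} {J I : ∀ n, Finset (ι n)} (h : Dense B J I)
    (hI : ∀ᶠ n in (U : Filter ℕ), (I n).Nonempty) : ∀ᶠ n in (U : Filter ℕ), (J n).Nonempty := by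
  filter_upwards [h.2 1 one_pos, hI] with n h1 h2
  have h3 : (0 : ℝ) < (I n).card := by exact_mod_cast card_pos.2 h2
  have h4 := mul_pos (dpow_pos B n 1) h3
  have h5 : (0 : ℝ) < (J n).card := lt_of_lt_of_le h4 h1
  exact card_pos.1 (by exact_mod_cast h5)

theorem dense_of_sub {B : Base} {ι : ℕ → Type*} {J I : ∀ n, Finset (ι n)} {S : ℕ → ℝ}
    (hS : B.Sub S) (h : ∀ᶠ n in (U : Filter ℕ), J n ⊆ I n ∧ ((I n).card : ℝ) ≤ S n * (J n).card) :
    Dense B J I := by
  refine ⟨h.mono fun n hn => hn.1, fun η hη => ?_⟩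
  have h1 : ∀ᶠ n in (U : Filter ℕ), S n < B.d n ^ (-η) :=
    Base.ex_lt_iff_dpow hS.1 (by rw [hS.2]; exact hη)
  filter_upwards [h, h1] with n h2 h3
  have hp := dpow_pos B n η
  have h4 : (0 : ℝ) ≤ (J n).card := Nat.cast_nonneg _
  have e : B.d n ^ η * B.d n ^ (-η) = 1 := by rw [← dpow_add]; simp
  calc B.d n ^ η * ((I n).card : ℝ) ≤ B.d n ^ η * (S n * (J n).card) :=
        mul_le_mul_of_nonneg_left h2.2 hp.le
    _ ≤ B.d n ^ η * (B.d n ^ (-η) * (J n).card) := by
        apply mul_le_mul_of_nonneg_left _ hp.le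
        exact mul_le_mul_of_nonneg_right h3.le h4
    _ = (J n).card := by rw [← mul_assoc, e, one_mul]

section Conc

variable {B : Base} {ι κ σ : ℕ → Type*} [∀ n, DecidableEq (ι n)] [∀ n, DecidableEq (κ n)]

/-- each cell of `J` is contained in one shape of exponent `a n`. -/
def InShape (g : ∀ n, ι n → κ n) (mem : ∀ n, ℝ → σ n → ι n → Prop) (J : ∀ n, Finset (ι n))
    (a : ℕ → ℝ) : Prop :=
  ∀ᶠ n in (U : Filter ℕ), ∀ i ∈ J n, ∃ s : σ n, ∀ i' ∈ cls (J n) (g n) i, mem n (a n) s i'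

open Classical in
/-- the elements of `J` whose cell has more than a `d^c`-part in one shape of exponent `a`. -/
noncomputable def bad (B : Base) (g : ∀ n, ι n → κ n) (mem : ∀ n, ℝ → σ n → ι n → Prop)
    (J : ∀ n, Finset (ι n)) (a c : ℝ) (n : ℕ) : Finset (ι n) :=
  (J n).filter fun i => ∃ s : σ n, B.d n ^ c * ((cls (J n) (g n) i).card : ℝ) <
    (((cls (J n) (g n) i).filter fun i' => mem n a s i').card : ℝ)

theorem bad_cell {g : ∀ n, ι n → κ n} {mem : ∀ n, ℝ → σ n → ι n → Prop}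
    {J : ∀ n, Finset (ι n)} {a c : ℝ} {n : ℕ} {i i' : ι n} (hi' : i' ∈ J n)
    (h : g n i' = g n i) (hb : i ∈ bad B g mem J a c n) : i' ∈ bad B g mem J a c n := by
  classical
  unfold bad at hb ⊢
  rw [mem_filter] at hb ⊢
  refine ⟨hi', ?_⟩
  rw [cls_congr h]
  exact hb.2

open Classical in
/-- If for every `c > 0` the bad set has more than a `d^c`-part, then a dense part has every cell
in one shape of exponent `a`. -/
theorem exists_of_bad {g : ∀ n, ι n → κ n} {mem : ∀ n, ℝ → σ n → ι n → Prop}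
    {J : ∀ n, Finset (ι n)} {a : ℝ}
    (h : ∀ c : ℝ, 0 < c → ∀ᶠ n in (U : Filter ℕ),
      B.d n ^ c * ((J n).card : ℝ) < ((bad B g mem J a c n).card : ℝ)) :
    ∃ J' : ∀ n, Finset (ι n), Dense B J' J ∧ InShape g mem J' (fun _ => a) := by
  obtain ⟨k, hk, hk2⟩ := exists_diag (fun k n => B.d n ^ (1 / ((k : ℝ) + 1)) * ((J n).card : ℝ) <
    ((bad B g mem J a (1 / ((k : ℝ) + 1)) n).card : ℝ)) (fun k => h _ (by positivity))
  set c : ℕ → ℝ := fun n => 1 / ((k n : ℝ) + 1) with hc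
  have hcpos : ∀ n, 0 < c n := fun n => by rw [hc]; positivity
  have hc0 : Tendsto c U (𝓝 0) := tendsto_one_div_add_atTop_nhds_zero_nat.comp hk
  -- choose the shape of every cell
  have hsh : ∀ n (x : κ n), ∃ s : σ n ⊕ Unit, ∀ i ∈ bad B g mem J a (c n) n, g n i = x →
      ∃ s' : σ n, s = Sum.inl s' ∧ B.d n ^ c n * ((cls (J n) (g n) i).card : ℝ) <
        (((cls (J n) (g n) i).filter fun i' => mem n a s' i').card : ℝ) := by
    intro n x
    by_cases hx : ∃ i ∈ bad B g mem J a (c n) n, g n i = x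
    · obtain ⟨i, hi, hix⟩ := hx
      obtain ⟨s, hs⟩ := (mem_filter.1 hi).2
      refine ⟨Sum.inl s, fun i' hi' hx' => ⟨s, rfl, ?_⟩⟩
      rw [cls_congr (hx'.trans hix.symm)]
      exact hs
    · refine ⟨Sum.inr (), fun i' hi' hx' => absurd ⟨i', hi', hx'⟩ hx⟩
  choose sh hsh using hsh
  set J' : ∀ n, Finset (ι n) := fun n => (bad B g mem J a (c n) n).filter fun i =>
    ∃ s', sh n (g n i) = Sum.inl s' ∧ mem n a s' i with hJ'
  have hcls : ∀ n, ∀ i ∈ bad B g mem J a (c n) n,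
      B.d n ^ c n * ((cls (bad B g mem J a (c n) n) (g n) i).card : ℝ) ≤
        ((cls (J' n) (g n) i).card : ℝ) := by
    intro n i hi
    obtain ⟨s', hs1, hs2⟩ := hsh n (g n i) i hi rfl
    have e1 : cls (bad B g mem J a (c n) n) (g n) i = cls (J n) (g n) i := by
      ext i'
      rw [mem_cls, mem_cls]
      constructor
      · rintro ⟨h1, h2⟩; exact ⟨(mem_filter.1 h1).1, h2⟩
      · rintro ⟨h1, h2⟩; exact ⟨bad_cell h1 h2 hi, h2⟩
    have e2 : cls (J' n) (g n) i = (cls (J n) (g n) i).filter fun i' => mem n a s' i' := by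
      ext i'
      rw [mem_filter, mem_cls, mem_cls, hJ']
      simp only [mem_filter]
      constructor
      · rintro ⟨⟨h1, s'', h3, h4⟩, h2⟩
        rw [h2, hs1] at h3
        have : s'' = s' := by simpa using h3.symm
        subst this
        exact ⟨⟨(mem_filter.1 h1).1, h2⟩, h4⟩
      · rintro ⟨⟨h1, h2⟩, h3⟩
        exact ⟨⟨bad_cell h1 h2 hi, s', by rw [h2, hs1], h3⟩, h2⟩
    rw [e1, e2]
    exact hs2.le
  have hsub : ∀ n, J' n ⊆ bad B g mem J a (c n) n := fun n => filter_subset _ _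
  have hcard : ∀ n, B.d n ^ c n * ((bad B g mem J a (c n) n).card : ℝ) ≤ ((J' n).card : ℝ) := by
    intro n
    have f1 : ((bad B g mem J a (c n) n).card : ℝ) =
        ∑ x ∈ (bad B g mem J a (c n) n).image (g n),
          (((bad B g mem J a (c n) n).filter fun i => g n i = x).card : ℝ) := by
      rw [card_eq_sum_card_image (g n) (bad B g mem J a (c n) n)]
      push_cast
      rfl
    have f2 : ∑ x ∈ (bad B g mem J a (c n) n).image (g n),
          (((J' n).filter fun i => g n i = x).card : ℝ) = ((J' n).card : ℝ) := by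
      have := card_eq_sum_card_fiberwise (f := g n) (s := J' n)
        (t := (bad B g mem J a (c n) n).image (g n))
        (fun i hi => mem_coe.2 (mem_image_of_mem _ (hsub n hi)))
      rw [this]; push_cast; rfl
    rw [f1, ← f2, mul_sum]
    refine sum_le_sum fun x hx => ?_
    obtain ⟨i, hi, rfl⟩ := mem_image.1 hx
    exact hcls n i hi
  refine ⟨J', ⟨Eventually.of_forall fun n => (hsub n).trans (filter_subset _ _), fun η hη => ?_⟩, ?_⟩
  · filter_upwards [hk2, hc0.eventually_lt_const (show (0 : ℝ) < η / 2 by linarith)] with n h1 h2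
    have h3 := h1 (k n) le_rfl
    have h3' : B.d n ^ c n * ((J n).card : ℝ) < ((bad B g mem J a (c n) n).card : ℝ) := h3
    have h4 : B.d n ^ η ≤ B.d n ^ c n * B.d n ^ c n := by
      rw [← dpow_add]; exact dpow_le B n (by linarith)
    have h5 := dpow_pos B n (c n)
    calc B.d n ^ η * ((J n).card : ℝ) ≤ (B.d n ^ c n * B.d n ^ c n) * (J n).card :=
          mul_le_mul_of_nonneg_right h4 (Nat.cast_nonneg _)
      _ = B.d n ^ c n * (B.d n ^ c n * (J n).card) := by ring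
      _ ≤ B.d n ^ c n * (bad B g mem J a (c n) n).card := mul_le_mul_of_nonneg_left h3'.le h5.le
      _ ≤ _ := hcard n
  · refine Eventually.of_forall fun n i hi => ?_
    rw [hJ'] at hi
    simp only [mem_filter] at hi
    obtain ⟨h1, s', h2, h3⟩ := hi
    refine ⟨s', fun i' hi' => ?_⟩
    rw [mem_cls, hJ'] at hi'
    simp only [mem_filter] at hi'
    obtain ⟨⟨h4, s'', h5, h6⟩, h7⟩ := hi'
    rw [h7, h2] at h5
    have : s'' = s' := by simpa using h5.symm
    subst this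
    exact h6

open Classical in
/-- no shape of exponent `a` contains more than a `d^c`-part of a cell of `J`. -/
def Spread (B : Base) (g : ∀ n, ι n → κ n) (mem : ∀ n, ℝ → σ n → ι n → Prop)
    (J : ∀ n, Finset (ι n)) (a : ℝ) : Prop :=
  ∃ c : ℝ, 0 < c ∧ ∀ᶠ n in (U : Filter ℕ), ∀ i ∈ J n, ∀ s : σ n,
    (((cls (J n) (g n) i).filter fun i' => mem n a s i').card : ℝ) ≤
      B.d n ^ c * ((cls (J n) (g n) i).card : ℝ)

/-- **the concentration exponent.** -/
theorem exists_conc (I : ∀ n, Finset (ι n)) (g : ∀ n, ι n → κ n)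
    (mem : ∀ n, ℝ → σ n → ι n → Prop) {A : ℝ} (hA : 0 ≤ A)
    (hmono : ∀ n a a' s i, a ≤ a' → mem n a' s i → mem n a s i)
    (h0 : InShape g mem I (fun _ => 0)) :
    ∃ (a₀ : ℝ) (a : ℕ → ℝ) (J : ∀ n, Finset (ι n)), 0 ≤ a₀ ∧ a₀ ≤ A ∧ Tendsto a U (𝓝 a₀) ∧
      (∀ n, 0 ≤ a n ∧ a n ≤ a₀) ∧ Dense B J I ∧ InShape g mem J a ∧
      ∀ a', a₀ < a' → a' ≤ A → Spread B g mem J a' := by
  classical
  set 𝒜 : Set ℝ := {a | 0 ≤ a ∧ a ≤ A ∧ ∃ J : ∀ n, Finset (ι n), Dense B J I ∧
    InShape g mem J (fun _ => a)} with h𝒜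
  have h0𝒜 : (0 : ℝ) ∈ 𝒜 := ⟨le_rfl, hA, I, Dense.refl B I, h0⟩
  have hbdd : BddAbove 𝒜 := ⟨A, fun a ha => ha.2.1⟩
  set a₀ := sSup 𝒜 with ha₀
  have ha0 : 0 ≤ a₀ := le_csSup hbdd h0𝒜
  have haA : a₀ ≤ A := csSup_le ⟨0, h0𝒜⟩ fun a ha => ha.2.1
  -- a sequence in `𝒜` tending to `a₀`
  have hseq : ∃ u : ℕ → ℝ, (∀ k, u k ∈ 𝒜) ∧ Tendsto u atTop (𝓝 a₀) := by
    obtain ⟨u, -, hu1, hu2⟩ := exists_seq_tendsto_sSup (S := 𝒜) ⟨0, h0𝒜⟩ hbdd
    exact ⟨u, hu2, hu1⟩
  obtain ⟨u, hu, hut⟩ := hseq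
  have hu' : ∀ k, u k ≤ a₀ := fun k => le_csSup hbdd (hu k)
  choose hu1 hu2 Jk hJk1 hJk2 using hu
  obtain ⟨k, hk, hk2⟩ := exists_diag (fun k n => Jk k n ⊆ I n ∧
      B.d n ^ (1 / ((k : ℝ) + 1)) * ((I n).card : ℝ) ≤ ((Jk k n).card : ℝ) ∧
      ∀ i ∈ Jk k n, ∃ s : σ n, ∀ i' ∈ cls (Jk k n) (g n) i, mem n (u k) s i') (fun k => by
    filter_upwards [(hJk1 k).1, (hJk1 k).2 (1 / ((k : ℝ) + 1)) (by positivity), hJk2 k]
      with n h1 h2 h3 using ⟨h1, h2, h3⟩)
  set J₀ : ∀ n, Finset (ι n) := fun n => Jk (k n) n with hJ₀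
  set a : ℕ → ℝ := fun n => u (k n) with ha
  have hta : Tendsto a U (𝓝 a₀) := hut.comp hk
  have hc0 : Tendsto (fun n => 1 / ((k n : ℝ) + 1)) U (𝓝 0) :=
    tendsto_one_div_add_atTop_nhds_zero_nat.comp hk
  have hD0 : Dense B J₀ I := by
    refine ⟨hk2.mono fun n hn => (hn (k n) le_rfl).1, fun η hη => ?_⟩
    filter_upwards [hk2, hc0.eventually_lt_const hη] with n h1 h2
    refine le_trans ?_ (h1 (k n) le_rfl).2.1
    exact mul_le_mul_of_nonneg_right (dpow_le B n h2.le) (Nat.cast_nonneg _)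
  have hS0 : InShape g mem J₀ a := hk2.mono fun n hn => (hn (k n) le_rfl).2.2
  -- bad sets are small for exponents above `a₀`
  have hbad : ∀ a', a₀ < a' → a' ≤ A → ∃ c : ℝ, 0 < c ∧ ∀ᶠ n in (U : Filter ℕ),
      ((bad B g mem J₀ a' c n).card : ℝ) ≤ B.d n ^ c * ((J₀ n).card : ℝ) := by
    intro a' h1 h2
    by_contra hcon
    push Not at hcon
    have h3 : ∀ c : ℝ, 0 < c → ∀ᶠ n in (U : Filter ℕ),
        B.d n ^ c * ((J₀ n).card : ℝ) < ((bad B g mem J₀ a' c n).card : ℝ) := by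
      intro c hc
      exact hcon c hc
    obtain ⟨J', hJ'1, hJ'2⟩ := exists_of_bad h3
    have : a' ∈ 𝒜 := ⟨by linarith, h2, J', hJ'1.trans hD0, hJ'2⟩
    exact absurd (le_csSup hbdd this) (not_le.2 h1)
  -- countably many exponents decreasing to `a₀`
  set v : ℕ → ℝ := fun j => min (a₀ + 1 / ((j : ℝ) + 1)) A with hv
  by_cases haA' : a₀ < A
  swap
  · refine ⟨a₀, a, J₀, ha0, haA, hta, fun n => ⟨hu1 _, hu' _⟩, hD0, hS0, fun a' h1 h2 => ?_⟩
    exact absurd (lt_of_lt_of_le h1 h2) haA'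
  have hv1 : ∀ j, a₀ < v j := fun j => lt_min (by
    have : (0 : ℝ) < 1 / ((j : ℝ) + 1) := by positivity
    linarith) haA'
  have hv2 : ∀ j, v j ≤ A := fun j => min_le_right _ _
  choose c hc hcb using fun j => hbad (v j) (hv1 j) (hv2 j)
  have hsmall : ∀ j : ℕ, ∀ᶠ n in (U : Filter ℕ), B.d n ^ c j ≤ 1 / 2 ^ (j + 2) := by
    intro j
    have h1 : Tendsto (fun n => B.d n ^ c j) U (𝓝 0) := by
      have h2 : Tendsto B.d U (𝓝[>] 0) := by
        rw [tendsto_nhdsWithin_iff]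
        exact ⟨B.lim0, Eventually.of_forall fun n => B.pos n⟩
      have h3 : Tendsto (fun x : ℝ => x ^ c j) (𝓝[>] 0) (𝓝 0) := by
        have := (Real.continuousAt_rpow_const 0 (c j) (Or.inr (hc j).le)).tendsto
        rw [Real.zero_rpow (hc j).ne'] at this
        exact this.mono_left nhdsWithin_le_nhds
      exact h3.comp h2
    exact (h1.eventually_lt_const (by positivity)).mono fun n hn => hn.le
  obtain ⟨q, hq, hq2⟩ := exists_diag (fun j n =>
      ((bad B g mem J₀ (v j) (c j) n).card : ℝ) ≤ 1 / 2 ^ (j + 2) * ((J₀ n).card : ℝ)) (fun j => by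
    filter_upwards [hcb j, hsmall j] with n h1 h2
    exact h1.trans (mul_le_mul_of_nonneg_right h2 (Nat.cast_nonneg _)))
  set J : ∀ n, Finset (ι n) := fun n =>
    J₀ n \ (Finset.range (q n + 1)).biUnion fun j => bad B g mem J₀ (v j) (c j) n with hJ
  have hJsub : ∀ n, J n ⊆ J₀ n := fun n => sdiff_subset
  have hhalf : ∀ᶠ n in (U : Filter ℕ), ((J₀ n).card : ℝ) / 2 ≤ ((J n).card : ℝ) := by
    filter_upwards [hq2] with n hn
    set W := (Finset.range (q n + 1)).biUnion fun j => bad B g mem J₀ (v j) (c j) n with hW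
    have h1 : (W.card : ℝ) ≤ ((J₀ n).card : ℝ) / 2 := by
      have h2 : W.card ≤ ∑ j ∈ Finset.range (q n + 1), (bad B g mem J₀ (v j) (c j) n).card :=
        card_biUnion_le
      have h3 : ∑ j ∈ Finset.range (q n + 1), ((bad B g mem J₀ (v j) (c j) n).card : ℝ) ≤
          ∑ j ∈ Finset.range (q n + 1), (1 / 2 ^ (j + 2) : ℝ) * ((J₀ n).card : ℝ) :=
        sum_le_sum fun j hj => hn j (Nat.lt_succ_iff.1 (mem_range.1 hj))
      have h4 : ∑ j ∈ Finset.range (q n + 1), (1 / 2 ^ (j + 2) : ℝ) ≤ 1 / 2 := by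
        have h5 : ∀ m : ℕ, ∑ j ∈ Finset.range m, (1 / 2 ^ (j + 2) : ℝ) = 1 / 2 - 1 / 2 ^ (m + 1) := by
          intro m
          induction m with
          | zero => norm_num
          | succ m ih =>
            rw [sum_range_succ, ih]
            field_simp
            ring
        rw [h5]
        have : (0 : ℝ) < 1 / 2 ^ (q n + 1 + 1) := by positivity
        linarith
      rw [← sum_mul] at h3
      have h6 : (W.card : ℝ) ≤ ∑ j ∈ Finset.range (q n + 1),
          ((bad B g mem J₀ (v j) (c j) n).card : ℝ) := by exact_mod_cast h2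
      have h7 : (0 : ℝ) ≤ (J₀ n).card := Nat.cast_nonneg _
      nlinarith
    have h2 : (J₀ n).card ≤ (J n).card + W.card := by
      have := card_le_card_sdiff_add_card (s := J₀ n) (t := W)
      simpa [hJ] using this
    have h3 : ((J₀ n).card : ℝ) ≤ (J n).card + W.card := by exact_mod_cast h2
    linarith
  have hDJ : Dense B J J₀ := by
    refine dense_of_sub (S := fun _ => 2) (Base.Sub.const two_pos) ?_
    filter_upwards [hhalf] with n hn
    exact ⟨hJsub n, by linarith⟩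
  have hcell : ∀ n, ∀ i ∈ J n, cls (J n) (g n) i = cls (J₀ n) (g n) i := by
    intro n i hi
    ext i'
    rw [mem_cls, mem_cls]
    constructor
    · rintro ⟨h1, h2⟩; exact ⟨hJsub n h1, h2⟩
    · rintro ⟨h1, h2⟩
      refine ⟨?_, h2⟩
      rw [hJ]
      simp only [Finset.mem_sdiff, mem_biUnion, not_exists, not_and]
      refine ⟨h1, fun j hj hb => ?_⟩
      have h3 : i ∈ bad B g mem J₀ (v j) (c j) n := bad_cell (hJsub n hi) h2.symm hb
      have h4 := (Finset.mem_sdiff.1 hi).2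
      exact h4 (mem_biUnion.2 ⟨j, hj, h3⟩)
  refine ⟨a₀, a, J, ha0, haA, hta, fun n => ⟨hu1 _, hu' _⟩, hDJ.trans hD0, ?_, fun a' h1 h2 => ?_⟩
  · filter_upwards [hS0] with n hn i hi
    rw [hcell n i hi]
    exact hn i (hJsub n hi)
  · -- choose `j` with `v j ≤ a'`
    obtain ⟨j, hj⟩ : ∃ j : ℕ, 1 / ((j : ℝ) + 1) < a' - a₀ := exists_nat_one_div_lt (by linarith)
    refine ⟨c j, hc j, ?_⟩
    filter_upwards [hq.eventually_ge_atTop j] with n hn i hi s
    have h3 : v j ≤ a' := (min_le_left _ _).trans (by linarith)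
    have h4 : i ∉ bad B g mem J₀ (v j) (c j) n := fun hb =>
      (Finset.mem_sdiff.1 hi).2 (mem_biUnion.2 ⟨j, mem_range.2 (Nat.lt_succ_of_le hn), hb⟩)
    have h5 : ((((cls (J₀ n) (g n) i).filter fun i' => mem n (v j) s i').card : ℕ) : ℝ) ≤
        B.d n ^ c j * ((cls (J₀ n) (g n) i).card : ℝ) := by
      by_contra hcon
      apply h4
      unfold bad
      rw [mem_filter]
      exact ⟨hJsub n hi, s, not_le.1 hcon⟩
    rw [hcell n i hi]
    refine le_trans ?_ h5
    have h6 : ((cls (J₀ n) (g n) i).filter fun i' => mem n a' s i').card ≤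
        ((cls (J₀ n) (g n) i).filter fun i' => mem n (v j) s i').card := by
      refine card_le_card fun i' hi' => ?_
      rw [mem_filter] at hi' ⊢
      exact ⟨hi'.1, hmono n _ _ s i' h3 hi'.2⟩
    exact_mod_cast h6

end Conc

end Crest.Agent.R138.Dp76
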