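import Mathlib

/-!
# R138: uniformisation (helper926), purely finite

* `prune`: remove all light classes of finitely many partitions simultaneously.
* `uniformise`: (U1) weighted incidence set, `J` arbitrary partitions, all class weights comparable.
* `count_le`, `le_count`: numbers of fine classes in a coarse class from the class weights.
* `exists_uniform_tree`: (U2) a chain of nested partitions: an exactly uniform subtree.
* `tree_stable`: (U3) linear stability of exactly uniform trees.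
-/

set_option autoImplicit false
set_option linter.unusedSectionVars false
set_option linter.unusedVariables false

open Finset

namespace Crest.Agent.R138.Ex926

variable {ι κ : Type*} [DecidableEq ι] [DecidableEq κ]

/-- the class of `i` in `I` for the partition `f`. -/
def cls (I : Finset ι) (f : ι → κ) (i : ι) : Finset ι := I.filter fun i' => f i' = f i

theorem mem_cls {I : Finset ι} {f : ι → κ} {i i' : ι} : i' ∈ cls I f i ↔ i' ∈ I ∧ f i' = f i := by
  simp [cls]

theorem cls_subset (I : Finset ι) (f : ι → κ) (i : ι) : cls I f i ⊆ I := filter_subset _ _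

theorem cls_mono {I I' : Finset ι} (h : I' ⊆ I) (f : ι → κ) (i : ι) : cls I' f i ⊆ cls I f i :=
  filter_subset_filter _ h

theorem cls_congr {I : Finset ι} {f : ι → κ} {i i' : ι} (h : f i = f i') :
    cls I f i = cls I f i' := by simp [cls, h]

/-- **Pruning lemma.** -/
theorem prune {J : Type*} [Fintype J] [DecidableEq J] (I : Finset ι) (w : ι → ℝ)
    (hw : ∀ i ∈ I, 0 ≤ w i) (f : J → ι → κ) (τ : J → ℝ) (hτ : ∀ j, 0 ≤ τ j)
    (h : ∑ j, τ j * ((I.image (f j)).card : ℝ) ≤ (∑ i ∈ I, w i) / 2) :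
    ∃ I' ⊆ I, (∑ i ∈ I, w i) / 2 ≤ ∑ i ∈ I', w i ∧
      ∀ j, ∀ i ∈ I', τ j ≤ ∑ i' ∈ cls I' (f j) i, w i' := by
  classical
  set Ψ : Finset ι → ℝ := fun A => ∑ i ∈ A, w i - ∑ j, τ j * ((A.image (f j)).card : ℝ) with hΨ
  obtain ⟨A, hA, hmax⟩ := exists_max_image I.powerset Ψ ⟨I, mem_powerset_self I⟩
  rw [mem_powerset] at hA
  have hI := hmax I (mem_powerset_self I)
  have hge : (∑ i ∈ I, w i) / 2 ≤ Ψ A := by
    refine le_trans ?_ hI
    simp only [hΨ]; linarith
  refine ⟨A, hA, ?_, ?_⟩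
  · refine hge.trans ?_
    simp only [hΨ]
    have : 0 ≤ ∑ j, τ j * ((A.image (f j)).card : ℝ) :=
      sum_nonneg fun j _ => mul_nonneg (hτ j) (Nat.cast_nonneg _)
    linarith
  · intro j i hi
    by_contra hlt
    push Not at hlt
    set A' := A.filter fun i' => f j i' ≠ f j i with hA'
    have hA'A : A' ⊆ A := filter_subset _ _
    have hle := hmax A' (mem_powerset.2 (hA'A.trans hA))
    have hsum : ∑ i' ∈ cls A (f j) i, w i' + ∑ i' ∈ A', w i' = ∑ i' ∈ A, w i' := by
      rw [cls, hA']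
      exact sum_filter_add_sum_filter_not A _ _
    have hcard : ∀ k, ((A'.image (f k)).card : ℝ) ≤ ((A.image (f k)).card : ℝ) := fun k => by
      exact_mod_cast card_le_card (image_subset_image hA'A)
    have hcardj : ((A'.image (f j)).card : ℝ) + 1 ≤ ((A.image (f j)).card : ℝ) := by
      have h1 : A'.image (f j) ⊆ (A.image (f j)).erase (f j i) := by
        intro c hc
        rw [mem_image] at hc
        obtain ⟨i', hi', rfl⟩ := hc
        rw [hA', mem_filter] at hi'
        exact mem_erase.2 ⟨hi'.2, mem_image_of_mem _ hi'.1⟩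
      have h2 := card_le_card h1
      have h3 : f j i ∈ A.image (f j) := mem_image_of_mem _ hi
      rw [card_erase_of_mem h3] at h2
      have h4 : 0 < (A.image (f j)).card := card_pos.2 ⟨_, h3⟩
      have h5 : (A'.image (f j)).card + 1 ≤ (A.image (f j)).card := by omega
      exact_mod_cast h5
    have hS : ∑ k, τ k * ((A'.image (f k)).card : ℝ) + τ j ≤
        ∑ k, τ k * ((A.image (f k)).card : ℝ) := by
      rw [← add_sum_erase univ (fun k => τ k * ((A'.image (f k)).card : ℝ)) (mem_univ j),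
        ← add_sum_erase univ (fun k => τ k * ((A.image (f k)).card : ℝ)) (mem_univ j)]
      have h1 : ∑ k ∈ univ.erase j, τ k * ((A'.image (f k)).card : ℝ) ≤
          ∑ k ∈ univ.erase j, τ k * ((A.image (f k)).card : ℝ) :=
        sum_le_sum fun k _ => mul_le_mul_of_nonneg_left (hcard k) (hτ k)
      have h2 := mul_le_mul_of_nonneg_left hcardj (hτ j)
      linarith
    simp only [hΨ] at hle
    linarith

/-- the number of classes meeting `A`, times a lower bound for their weights in `I`. -/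
theorem mul_card_image_le {I A : Finset ι} (hA : A ⊆ I) (w : ι → ℝ) (hw : ∀ i ∈ I, 0 ≤ w i)
    (f : ι → κ) {M : ℝ} (hM : ∀ i ∈ A, M ≤ ∑ i' ∈ cls I f i, w i') :
    M * ((A.image f).card : ℝ) ≤ ∑ i ∈ I, w i := by
  classical
  have h1 : ∑ c ∈ A.image f, M ≤ ∑ c ∈ A.image f, ∑ i' ∈ I.filter (fun i' => f i' = c), w i' := by
    refine sum_le_sum fun c hc => ?_
    obtain ⟨i, hi, rfl⟩ := mem_image.1 hc
    exact hM i hi
  have h2 : ∑ c ∈ A.image f, ∑ i' ∈ I.filter (fun i' => f i' = c), w i' ≤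
      ∑ c ∈ I.image f, ∑ i' ∈ I.filter (fun i' => f i' = c), w i' := by
    refine sum_le_sum_of_subset_of_nonneg (image_subset_image hA) fun c _ _ => ?_
    exact sum_nonneg fun i hi => hw i (mem_filter.1 hi).1
  have h3 : ∑ c ∈ I.image f, ∑ i' ∈ I.filter (fun i' => f i' = c), w i' = ∑ i ∈ I, w i :=
    sum_fiberwise_of_maps_to (fun i hi => mem_image_of_mem f hi) w
  rw [sum_const, nsmul_eq_mul] at h1
  linarith

/-- **(U1) Uniformisation** of a weighted finite set with respect to `J` arbitrary partitions. -/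
theorem uniformise {J : Type*} [Fintype J] [DecidableEq J] (I : Finset ι) (hI : I.Nonempty)
    (w : ι → ℝ) {w₀ : ℝ} (hw₀ : 0 < w₀) (hw : ∀ i ∈ I, w₀ ≤ w i) (f : J → ι → κ) {H : ℕ}
    (hH : ∑ i ∈ I, w i < 2 ^ (H + 1) * w₀) :
    ∃ I' ⊆ I, I'.Nonempty ∧
      ∑ i ∈ I, w i ≤ 2 * ((H : ℝ) + 1) ^ Fintype.card J * ∑ i ∈ I', w i ∧
      ∃ M : J → ℝ, (∀ j, w₀ ≤ M j) ∧ ∀ j, ∀ i ∈ I',
        M j ≤ ∑ i' ∈ cls I (f j) i, w i' ∧ ∑ i' ∈ cls I (f j) i, w i' ≤ 2 * M j ∧
        M j ≤ 2 * (Fintype.card J) * ((H : ℝ) + 1) ^ Fintype.card J *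
          ∑ i' ∈ cls I' (f j) i, w i' := by
  classical
  have hwn : ∀ i ∈ I, 0 ≤ w i := fun i hi => hw₀.le.trans (hw i hi)
  set W := ∑ i ∈ I, w i with hW
  have hWpos : 0 < W := sum_pos (fun i hi => hw₀.trans_le (hw i hi)) hI
  -- class weights and their dyadic logarithms
  set s : J → ι → ℝ := fun j i => ∑ i' ∈ cls I (f j) i, w i' with hs
  set k : J → ι → ℕ := fun j i => Nat.log 2 ⌊s j i / w₀⌋₊ with hk
  have hs1 : ∀ j, ∀ i ∈ I, w₀ ≤ s j i := by
    intro j i hi
    have h1 : w i ≤ s j i :=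
      single_le_sum (f := w) (fun i' hi' => hwn i' (cls_subset _ _ _ hi'))
        (mem_cls.2 ⟨hi, rfl⟩)
    exact (hw i hi).trans h1
  have hs2 : ∀ j i, s j i ≤ W := fun j i =>
    sum_le_sum_of_subset_of_nonneg (cls_subset _ _ _) fun i' hi' _ => hwn i' hi'
  have hfl : ∀ j, ∀ i ∈ I, 1 ≤ ⌊s j i / w₀⌋₊ := by
    intro j i hi
    rw [Nat.one_le_floor_iff]
    rw [le_div_iff₀ hw₀]; simpa using hs1 j i hi
  have hklow : ∀ j, ∀ i ∈ I, (2 : ℝ) ^ k j i * w₀ ≤ s j i := by
    intro j i hi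
    have h1 : 2 ^ k j i ≤ ⌊s j i / w₀⌋₊ :=
      Nat.pow_log_le_self 2 (Nat.one_le_iff_ne_zero.1 (hfl j i hi))
    have h2 : ((2 ^ k j i : ℕ) : ℝ) ≤ s j i / w₀ :=
      (Nat.cast_le.2 h1).trans (Nat.floor_le (div_nonneg (hw₀.le.trans (hs1 j i hi)) hw₀.le))
    rw [le_div_iff₀ hw₀] at h2
    push_cast at h2
    exact h2
  have hkup : ∀ j, ∀ i ∈ I, s j i < 2 * ((2 : ℝ) ^ k j i * w₀) := by
    intro j i hi
    have h1 : ⌊s j i / w₀⌋₊ < 2 ^ (k j i + 1) := Nat.lt_pow_succ_log_self one_lt_two _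
    have h2 : s j i / w₀ < ((2 ^ (k j i + 1) : ℕ) : ℝ) := by
      rw [Nat.floor_lt (div_nonneg (hw₀.le.trans (hs1 j i hi)) hw₀.le)] at h1
      exact h1
    rw [div_lt_iff₀ hw₀] at h2
    push_cast at h2
    rw [pow_succ] at h2
    linarith
  have hkH : ∀ j, ∀ i ∈ I, k j i < H + 1 := by
    intro j i hi
    have h1 := hklow j i hi
    have h2 := (h1.trans (hs2 j i)).trans_lt hH
    have h3 : (2 : ℝ) ^ k j i < 2 ^ (H + 1) := lt_of_mul_lt_mul_right h2 hw₀.le
    exact (pow_lt_pow_iff_right₀ (by norm_num : (1 : ℝ) < 2)).1 h3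
  -- pigeonhole over the vector of logarithms
  set t : Finset (J → ℕ) := Fintype.piFinset fun _ => range (H + 1) with ht
  have htcard : t.card = (H + 1) ^ Fintype.card J := by
    rw [ht, Fintype.card_piFinset]
    simp
  have htne : t.Nonempty := by
    rw [← card_pos, htcard]; positivity
  have hmaps : ∀ i ∈ I, (fun j => k j i) ∈ t := by
    intro i hi
    rw [ht, Fintype.mem_piFinset]
    intro j
    exact mem_range.2 (hkH j i hi)
  have hcp : (0 : ℝ) < ((H : ℝ) + 1) ^ Fintype.card J := by positivity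
  obtain ⟨v, hv, hvw⟩ := exists_le_sum_fiber_of_maps_to_of_nsmul_le_sum (s := I) (t := t)
    (f := fun i j => k j i) (w := w) (b := W / ((H : ℝ) + 1) ^ Fintype.card J) hmaps htne (by
      rw [htcard, nsmul_eq_mul]
      push_cast
      rw [mul_div_cancel₀ _ hcp.ne'])
  set I₁ := I.filter fun i => (fun j => k j i) = v with hI₁
  have hI₁I : I₁ ⊆ I := filter_subset _ _
  set M : J → ℝ := fun j => 2 ^ v j * w₀ with hMdef
  have hkv : ∀ i ∈ I₁, ∀ j, k j i = v j := fun i hi j => congrFun (mem_filter.1 hi).2 j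
  have hMlow : ∀ j, ∀ i ∈ I₁, M j ≤ s j i := by
    intro j i hi
    have := hklow j i (hI₁I hi)
    rwa [hkv i hi j] at this
  have hMup : ∀ j, ∀ i ∈ I₁, s j i ≤ 2 * M j := by
    intro j i hi
    have := (hkup j i (hI₁I hi)).le
    rwa [hkv i hi j] at this
  have hMpos : ∀ j, 0 < M j := fun j => by simp only [hMdef]; positivity
  have hMw : ∀ j, w₀ ≤ M j := fun j => by
    have : (1 : ℝ) ≤ 2 ^ v j := one_le_pow₀ (by norm_num)
    simp only [hMdef]
    nlinarith
  set W₁ := ∑ i ∈ I₁, w i with hW₁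
  have hW₁pos : 0 < W₁ := lt_of_lt_of_le (by positivity) hvw
  have hWW₁ : W ≤ ((H : ℝ) + 1) ^ Fintype.card J * W₁ := by
    rw [div_le_iff₀ hcp] at hvw
    linarith
  have hI₁ne : I₁.Nonempty := by
    by_contra hne
    rw [not_nonempty_iff_eq_empty] at hne
    rw [hW₁, hne] at hW₁pos
    simp at hW₁pos
  rcases isEmpty_or_nonempty J with hJ | hJ
  · refine ⟨I₁, hI₁I, hI₁ne, ?_, M, hMw, fun j => (hJ.false j).elim⟩
    refine hWW₁.trans ?_
    have := mul_pos hcp hW₁pos
    linarith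
  have hJc : (0 : ℝ) < Fintype.card J := by exact_mod_cast Fintype.card_pos
  set θ : ℝ := W₁ / (2 * Fintype.card J * W) with hθ
  have hθpos : 0 < θ := by positivity
  obtain ⟨I', hI', hI'w, hgood⟩ := prune I₁ w (fun i hi => hwn i (hI₁I hi)) f
    (fun j => θ * M j) (fun j => (mul_pos hθpos (hMpos j)).le) (by
      have h1 : ∀ j, θ * M j * ((I₁.image (f j)).card : ℝ) ≤ θ * W := by
        intro j
        rw [mul_assoc]
        exact mul_le_mul_of_nonneg_left (mul_card_image_le hI₁I w hwn (f j) (hMlow j)) hθpos.le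
      calc ∑ j, θ * M j * ((I₁.image (f j)).card : ℝ) ≤ ∑ _j : J, θ * W :=
            sum_le_sum fun j _ => h1 j
        _ = Fintype.card J * (θ * W) := by rw [sum_const, nsmul_eq_mul, card_univ]
        _ ≤ W₁ / 2 := by
            rw [hθ]
            apply le_of_eq
            field_simp)
  have hI'pos : 0 < ∑ i ∈ I', w i := lt_of_lt_of_le (by positivity) hI'w
  refine ⟨I', hI'.trans hI₁I, ?_, ?_, M, hMw, fun j i hi => ⟨hMlow j i (hI' hi),
    hMup j i (hI' hi), ?_⟩⟩
  · by_contra hne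
    rw [not_nonempty_iff_eq_empty] at hne
    rw [hne] at hI'pos
    simp at hI'pos
  · have : W₁ ≤ 2 * ∑ i ∈ I', w i := by linarith
    calc W ≤ ((H : ℝ) + 1) ^ Fintype.card J * W₁ := hWW₁
      _ ≤ ((H : ℝ) + 1) ^ Fintype.card J * (2 * ∑ i ∈ I', w i) := by gcongr
      _ = _ := by ring
  · have h1 := hgood j i hi
    have h2 : M j ≤ (1 / θ) * ∑ i' ∈ cls I' (f j) i, w i' := by
      rw [one_div, ← div_eq_inv_mul, le_div_iff₀ hθpos]
      linarith
    refine h2.trans ?_
    have hnn : 0 ≤ ∑ i' ∈ cls I' (f j) i, w i' :=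
      sum_nonneg fun i' hi' => hwn i' (hI₁I (hI' (cls_subset _ _ _ hi')))
    refine mul_le_mul_of_nonneg_right ?_ hnn
    rw [hθ, one_div_div, div_le_iff₀ hW₁pos]
    calc 2 * (Fintype.card J : ℝ) * W
        ≤ 2 * (Fintype.card J : ℝ) * (((H : ℝ) + 1) ^ Fintype.card J * W₁) := by gcongr
      _ = _ := by ring

/-- unweighted version of `uniformise`. -/
theorem uniformise_card {J : Type*} [Fintype J] [DecidableEq J] (I : Finset ι) (hI : I.Nonempty)
    (f : J → ι → κ) {H : ℕ} (hH : I.card < 2 ^ (H + 1)) :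
    ∃ I' ⊆ I, I'.Nonempty ∧
      (I.card : ℝ) ≤ 2 * ((H : ℝ) + 1) ^ Fintype.card J * I'.card ∧
      ∃ M : J → ℝ, (∀ j, 1 ≤ M j) ∧ ∀ j, ∀ i ∈ I',
        M j ≤ (cls I (f j) i).card ∧ ((cls I (f j) i).card : ℝ) ≤ 2 * M j ∧
        M j ≤ 2 * (Fintype.card J) * ((H : ℝ) + 1) ^ Fintype.card J * (cls I' (f j) i).card := by
  have h := uniformise (J := J) I hI (fun _ => (1 : ℝ)) (w₀ := 1) one_pos (fun _ _ => le_rfl) f
    (H := H) (by
      rw [sum_const, nsmul_eq_mul, mul_one, mul_one]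
      exact_mod_cast hH)
  simpa [sum_const, nsmul_eq_mul] using h

/-- number of fine classes in a set: upper bound. -/
theorem count_mul_le (A : Finset ι) (w : ι → ℝ) (hw : ∀ i ∈ A, 0 ≤ w i) (g : ι → κ) {m : ℝ}
    (hm : ∀ i ∈ A, m ≤ ∑ i' ∈ cls A g i, w i') :
    m * ((A.image g).card : ℝ) ≤ ∑ i ∈ A, w i :=
  mul_card_image_le (Subset.refl A) w hw g hm

/-- number of fine classes in a set: lower bound. -/
theorem le_count_mul (A : Finset ι) (w : ι → ℝ) (g : ι → κ) {m : ℝ}
    (hm : ∀ i ∈ A, ∑ i' ∈ cls A g i, w i' ≤ m) :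
    ∑ i ∈ A, w i ≤ m * ((A.image g).card : ℝ) := by
  classical
  have h3 : ∑ c ∈ A.image g, ∑ i' ∈ A.filter (fun i' => g i' = c), w i' = ∑ i ∈ A, w i :=
    sum_fiberwise_of_maps_to (fun i hi => mem_image_of_mem g hi) w
  rw [← h3]
  have h1 : ∑ c ∈ A.image g, ∑ i' ∈ A.filter (fun i' => g i' = c), w i' ≤ ∑ c ∈ A.image g, m := by
    refine sum_le_sum fun c hc => ?_
    obtain ⟨i, hi, rfl⟩ := mem_image.1 hc
    exact hm i hi
  rw [sum_const, nsmul_eq_mul] at h1
  linarith

/-! ### chains of nested partitions -/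

/-- the number of `f (j+1)`-classes inside the `f j`-class of `i`. -/
def nch (I : Finset ι) (f : ℕ → ι → κ) (j : ℕ) (i : ι) : ℕ :=
  ((cls I (f j) i).image (f (j + 1))).card

/-- nested chain on `I`, up to level `m`. -/
def Nested (I : Finset ι) (f : ℕ → ι → κ) (m : ℕ) : Prop :=
  ∀ j < m, ∀ i ∈ I, ∀ i' ∈ I, f (j + 1) i = f (j + 1) i' → f j i = f j i'

theorem Nested.mono {I I' : Finset ι} {f : ℕ → ι → κ} {m : ℕ} (h : Nested I f m) (hI : I' ⊆ I) :
    Nested I' f m := fun j hj i hi i' hi' => h j hj i (hI hi) i' (hI hi')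

theorem Nested.le {I : Finset ι} {f : ℕ → ι → κ} {m : ℕ} (h : Nested I f m) {a b : ℕ}
    (hab : a ≤ b) (hb : b ≤ m) {i i' : ι} (hi : i ∈ I) (hi' : i' ∈ I) (he : f b i = f b i') :
    f a i = f a i' := by
  induction b, hab using Nat.le_induction with
  | base => exact he
  | succ b hab ih => exact ih (by omega) (h b (by omega) i hi i' hi' he)

/-- a set is an exactly uniform tree with branching numbers `N`. -/
def UTree (I : Finset ι) (f : ℕ → ι → κ) (m : ℕ) (N : ℕ → ℕ) : Prop :=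
  ∀ j < m, ∀ i ∈ I, nch I f j i = N j

/-- In an exactly uniform tree with injective leaves, class sizes are products of the `N`. -/
theorem UTree.card_cls {I : Finset ι} {f : ℕ → ι → κ} {m : ℕ} {N : ℕ → ℕ}
    (h : UTree I f m N) (hn : Nested I f m) (hinj : ∀ i ∈ I, ∀ i' ∈ I, f m i = f m i' → i = i')
    {j : ℕ} (hj : j ≤ m) : ∀ i ∈ I, (cls I (f j) i).card = ∏ a ∈ Ico j m, N a := by
  induction hj using Nat.decreasingInduction with
  | self =>
    intro i hi
    simp only [Ico_self, prod_empty]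
    rw [card_eq_one]
    refine ⟨i, ?_⟩
    ext i'
    rw [mem_cls, mem_singleton]
    constructor
    · rintro ⟨h1, h2⟩
      exact hinj i' h1 i hi h2
    · rintro rfl
      exact ⟨hi, rfl⟩
  | of_succ j hj ih =>
    intro i hi
    have h1 : (cls I (f j) i).card = ∑ c ∈ (cls I (f j) i).image (f (j + 1)),
        ((cls I (f j) i).filter fun i' => f (j + 1) i' = c).card :=
      card_eq_sum_card_fiberwise (fun x hx => mem_image_of_mem _ hx)
    have h2 : ∀ c ∈ (cls I (f j) i).image (f (j + 1)),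
        ((cls I (f j) i).filter fun i' => f (j + 1) i' = c).card = ∏ a ∈ Ico (j + 1) m, N a := by
      intro c hc
      obtain ⟨i₁, hi₁, rfl⟩ := mem_image.1 hc
      obtain ⟨hi₁I, hi₁j⟩ := mem_cls.1 hi₁
      rw [← ih i₁ hi₁I]
      congr 1
      ext i'
      rw [mem_filter, mem_cls, mem_cls]
      constructor
      · rintro ⟨⟨a, b⟩, c⟩; exact ⟨a, c⟩
      · rintro ⟨a, c⟩
        exact ⟨⟨a, (hn j hj i' a i₁ hi₁I c).trans hi₁j⟩, c⟩
    rw [h1, sum_congr rfl h2, sum_const, smul_eq_mul]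
    have h3 : ((cls I (f j) i).image (f (j + 1))).card = N j := h j hj i hi
    rw [h3, prod_eq_prod_Ico_succ_bot hj]

/-- **(U2)** exactly uniform subtree, all branching numbers powers of two. -/
theorem exists_uniform_tree (m : ℕ) : ∀ (I : Finset ι) (f : ℕ → ι → κ) (H : ℕ), I.Nonempty →
    I.card < 2 ^ (H + 1) → Nested I f m → (∀ i ∈ I, ∀ i' ∈ I, f m i = f m i' → i = i') →
    ∃ I' ⊆ I, I'.Nonempty ∧ I.card ≤ (2 * (H + 1)) ^ m * I'.card ∧
      ∃ k : ℕ → ℕ, (∀ j, k j ≤ H) ∧ UTree I' f m (fun j => 2 ^ k j) := by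
  classical
  induction m with
  | zero =>
    intro I f H hI _ _ _
    exact ⟨I, Subset.refl _, hI, by simp, fun _ => 0, fun _ => Nat.zero_le _,
      fun j hj => absurd hj (Nat.not_lt_zero j)⟩
  | succ m ih =>
    intro I f H hI hH hn hinj
    obtain ⟨I₁, hI₁, hne, hcard, k, hkH, hk⟩ := ih I (fun j => f (j + 1)) H hI hH
      (fun j hj i hi i' hi' h => hn (j + 1) (by omega) i hi i' hi' h) hinj
    set P : ℕ := ∏ a ∈ Ico 0 m, 2 ^ k a with hP
    have hPpos : 0 < P := by rw [hP]; exact prod_pos fun _ _ => by positivity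
    -- size of level-1 classes in `I₁`
    have hsz : ∀ i ∈ I₁, (cls I₁ (f 1) i).card = P := by
      intro i hi
      have := UTree.card_cls (I := I₁) (f := fun j => f (j + 1)) (m := m) hk
        (fun j hj i hi i' hi' h => hn (j + 1) (by omega) i (hI₁ hi) i' (hI₁ hi') h)
        (fun i hi i' hi' h => hinj i (hI₁ hi) i' (hI₁ hi') h) (Nat.zero_le m) i hi
      rw [hP]; exact this
    -- number of children at level 0
    set n : ι → ℕ := fun i => nch I₁ f 0 i with hnn
    have hnpos : ∀ i ∈ I₁, 1 ≤ n i := by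
      intro i hi
      refine card_pos.2 ⟨f 1 i, mem_image_of_mem _ (mem_cls.2 ⟨hi, rfl⟩)⟩
    have hnlt : ∀ i, n i < 2 ^ (H + 1) := by
      intro i
      refine lt_of_le_of_lt ?_ hH
      exact (card_image_le).trans ((card_le_card (cls_subset _ _ _)).trans (card_le_card hI₁))
    have hlogH : ∀ i ∈ I₁, Nat.log 2 (n i) < H + 1 := by
      intro i hi
      exact Nat.log_lt_of_lt_pow (Nat.one_le_iff_ne_zero.1 (hnpos i hi)) (hnlt i)
    -- pigeonhole on the logarithm
    obtain ⟨k₀, hk₀, hk₀w⟩ := exists_le_sum_fiber_of_maps_to_of_nsmul_le_sum (s := I₁)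
      (t := range (H + 1)) (f := fun i => Nat.log 2 (n i)) (w := fun _ => (1 : ℝ))
      (b := (I₁.card : ℝ) / (H + 1)) (fun i hi => mem_range.2 (hlogH i hi)) ⟨0, by simp⟩ (by
        rw [card_range, nsmul_eq_mul]
        push_cast
        have : ((H : ℝ) + 1) ≠ 0 := by positivity
        rw [mul_div_cancel₀ _ this]
        simp)
    set I₂ := I₁.filter fun i => Nat.log 2 (n i) = k₀ with hI₂
    have hI₂c : I₁.card ≤ (H + 1) * I₂.card := by
      have h1 : (I₁.card : ℝ) / (H + 1) ≤ I₂.card := by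
        simpa [hI₂] using hk₀w
      rw [div_le_iff₀ (by positivity)] at h1
      have : ((I₁.card : ℕ) : ℝ) ≤ (((H + 1) * I₂.card : ℕ) : ℝ) := by push_cast; linarith
      exact_mod_cast this
    have hI₂ne : I₂.Nonempty := by
      by_contra hne2
      rw [not_nonempty_iff_eq_empty] at hne2
      rw [hne2] at hI₂c
      have := card_pos.2 hne
      simp at hI₂c
      rw [hI₂c] at this
      simp at this
    -- `n` is constant on level-0 classes
    have hnconst : ∀ i ∈ I₁, ∀ i' ∈ I₁, f 0 i = f 0 i' → n i = n i' := by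
      intro i _ i' _ h
      simp only [hnn, nch]
      rw [cls_congr h]
    -- choose `2^k₀` children for every level-0 class
    have hchoose : ∀ c ∈ I₂.image (f 0), ∃ S : Finset κ,
        S ⊆ ((I₁.filter fun i' => f 0 i' = c).image (f 1)) ∧ S.card = 2 ^ k₀ := by
      intro c hc
      obtain ⟨i, hi, rfl⟩ := mem_image.1 hc
      obtain ⟨hi1, hi2⟩ := mem_filter.1 hi
      have h1 : 2 ^ k₀ ≤ n i := by
        rw [← hi2]
        exact Nat.pow_log_le_self 2 (Nat.one_le_iff_ne_zero.1 (hnpos i hi1))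
      exact exists_subset_card_eq h1
    choose! S hS1 hS2 using hchoose
    set I' := I₂.filter fun i => f 1 i ∈ S (f 0 i) with hI'
    have hI'I₂ : I' ⊆ I₂ := filter_subset _ _
    have hI₂I₁ : I₂ ⊆ I₁ := filter_subset _ _
    have hI'I₁ : I' ⊆ I₁ := hI'I₂.trans hI₂I₁
    have hnest1 : ∀ i ∈ I₁, ∀ i' ∈ I₁, f 1 i = f 1 i' → f 0 i = f 0 i' := fun i hi i' hi' h =>
      hn 0 (by omega) i (hI₁ hi) i' (hI₁ hi') h
    -- membership is constant on level-1 classes of `I₁`
    have hmem : ∀ i ∈ I', ∀ i' ∈ I₁, f 1 i' = f 1 i → i' ∈ I' := by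
      intro i hi i' hi' h
      have hi₁ := hI'I₁ hi
      have h0 : f 0 i' = f 0 i := hnest1 i' hi' i hi₁ h
      rw [hI', mem_filter, hI₂, mem_filter]
      refine ⟨⟨hi', ?_⟩, ?_⟩
      · rw [hnconst i' hi' i hi₁ h0]
        exact (mem_filter.1 (hI'I₂ hi)).2
      · rw [h, h0]
        exact (mem_filter.1 hi).2
    have hcls1 : ∀ j, ∀ i ∈ I', cls I' (f (j + 1)) i = cls I₁ (f (j + 1)) i ∨ m < j := by
      intro j i hi
      by_cases hjm : m < j
      · exact Or.inr hjm
      left
      ext i'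
      rw [mem_cls, mem_cls]
      constructor
      · rintro ⟨a, b⟩; exact ⟨hI'I₁ a, b⟩
      · rintro ⟨a, b⟩
        refine ⟨hmem i hi i' a ?_, b⟩
        exact Nested.le (hn.mono hI₁) (Nat.succ_le_succ (Nat.zero_le j)) (by omega) a (hI'I₁ hi) b
    -- children of level-0 classes in `I'`
    have hch0 : ∀ i ∈ I', nch I' f 0 i = 2 ^ k₀ := by
      intro i hi
      have hc : f 0 i ∈ I₂.image (f 0) := mem_image_of_mem _ (hI'I₂ hi)
      rw [← hS2 _ hc, nch]
      congr 1
      ext c
      rw [mem_image]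
      constructor
      · rintro ⟨i', hi', rfl⟩
        obtain ⟨a, b⟩ := mem_cls.1 hi'
        have := (mem_filter.1 a).2
        rwa [b] at this
      · intro hcS
        obtain ⟨i', hi', rfl⟩ := mem_image.1 (hS1 _ hc hcS)
        obtain ⟨a, b⟩ := mem_filter.1 hi'
        refine ⟨i', mem_cls.2 ⟨?_, b⟩, rfl⟩
        rw [hI', mem_filter, hI₂, mem_filter]
        refine ⟨⟨a, ?_⟩, ?_⟩
        · rw [hnconst i' a i (hI'I₁ hi) b]
          exact (mem_filter.1 (hI'I₂ hi)).2
        · rw [b]; exact hcS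
    -- sizes of level-0 classes
    have hsz0 : ∀ c ∈ I₂.image (f 0), (I₂.filter fun i => f 0 i = c).card ≤
        2 * (I'.filter fun i => f 0 i = c).card ∧ (I'.filter fun i => f 0 i = c).Nonempty := by
      intro c hc
      obtain ⟨i, hi, rfl⟩ := mem_image.1 hc
      obtain ⟨hi1, hi2⟩ := mem_filter.1 hi
      have hA : (I₂.filter fun i' => f 0 i' = f 0 i) = cls I₁ (f 0) i := by
        ext i'
        rw [mem_filter, hI₂, mem_filter, mem_cls]
        constructor
        · rintro ⟨⟨a, _⟩, b⟩; exact ⟨a, b⟩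
        · rintro ⟨a, b⟩
          exact ⟨⟨a, by rw [hnconst i' a i hi1 b]; exact hi2⟩, b⟩
      -- cardinality of a union of level-1 classes
      have hcount : ∀ (A : Finset ι), A ⊆ I₁ → (∀ x ∈ A, ∀ y ∈ I₁, f 1 y = f 1 x → y ∈ A) →
          A.card = (A.image (f 1)).card * P := by
        intro A hA1 hA2
        have h1 : A.card = ∑ c ∈ A.image (f 1), (A.filter fun i' => f 1 i' = c).card :=
          card_eq_sum_card_fiberwise (fun x hx => mem_image_of_mem _ hx)
        have h2 : ∀ c ∈ A.image (f 1), (A.filter fun i' => f 1 i' = c).card = P := by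
          intro c hc
          obtain ⟨x, hx, rfl⟩ := mem_image.1 hc
          rw [← hsz x (hA1 hx)]
          congr 1
          ext y
          rw [mem_filter, mem_cls]
          constructor
          · rintro ⟨a, b⟩; exact ⟨hA1 a, b⟩
          · rintro ⟨a, b⟩; exact ⟨hA2 x hx y a b, b⟩
        rw [h1, sum_congr rfl h2, sum_const, smul_eq_mul]
      have hB1 := hcount (cls I₁ (f 0) i) (cls_subset _ _ _) (by
        intro x hx y hy hxy
        obtain ⟨a, b⟩ := mem_cls.1 hx
        exact mem_cls.2 ⟨hy, (hnest1 y hy x a hxy).trans b⟩)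
      have hB2 := hcount (I'.filter fun i' => f 0 i' = f 0 i)
        ((filter_subset _ _).trans hI'I₁) (by
        intro x hx y hy hxy
        obtain ⟨a, b⟩ := mem_filter.1 hx
        exact mem_filter.2 ⟨hmem x a y hy hxy, (hnest1 y hy x (hI'I₁ a) hxy).trans b⟩)
      have hC : ((I'.filter fun i' => f 0 i' = f 0 i).image (f 1)) = S (f 0 i) := by
        ext c
        rw [mem_image]
        constructor
        · rintro ⟨i', hi', rfl⟩
          obtain ⟨a, b⟩ := mem_filter.1 hi'
          have := (mem_filter.1 a).2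
          rwa [b] at this
        · intro hcS
          obtain ⟨i', hi', rfl⟩ := mem_image.1 (hS1 _ hc hcS)
          obtain ⟨a, b⟩ := mem_filter.1 hi'
          refine ⟨i', mem_filter.2 ⟨?_, b⟩, rfl⟩
          rw [hI', mem_filter, hI₂, mem_filter]
          refine ⟨⟨a, ?_⟩, ?_⟩
          · rw [hnconst i' a i hi1 b]; exact hi2
          · rw [b]; exact hcS
      have hD : ((cls I₁ (f 0) i).image (f 1)).card = n i := rfl
      rw [hC, hS2 _ hc] at hB2
      rw [hD] at hB1
      have hlt : n i < 2 ^ (k₀ + 1) := by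
        rw [← hi2]
        exact Nat.lt_pow_succ_log_self one_lt_two _
      constructor
      · rw [hA, hB1, hB2, pow_succ] at *
        calc n i * P ≤ (2 ^ k₀ * 2) * P := Nat.mul_le_mul_right _ hlt.le
          _ = 2 * (2 ^ k₀ * P) := by ring
      · rw [← card_pos, hB2]
        positivity
    refine ⟨I', hI'I₁.trans hI₁, ?_, ?_, fun j => if j = 0 then k₀ else k (j - 1), ?_, ?_⟩
    · obtain ⟨i, hi⟩ := hI₂ne
      obtain ⟨x, hx⟩ := (hsz0 (f 0 i) (mem_image_of_mem _ hi)).2
      exact ⟨x, (mem_filter.1 hx).1⟩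
    · have h1 : I₂.card = ∑ c ∈ I₂.image (f 0), (I₂.filter fun i => f 0 i = c).card :=
        card_eq_sum_card_fiberwise (fun x hx => mem_image_of_mem _ hx)
      have h2 : ∑ c ∈ I₂.image (f 0), (I'.filter fun i => f 0 i = c).card ≤ I'.card := by
        have : I'.card = ∑ c ∈ I₂.image (f 0), (I'.filter fun i => f 0 i = c).card :=
          card_eq_sum_card_fiberwise (fun x hx => mem_image_of_mem _ (hI'I₂ hx))
        exact this.ge
      have h3 : I₂.card ≤ 2 * I'.card := by
        rw [h1]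
        calc _ ≤ ∑ c ∈ I₂.image (f 0), 2 * (I'.filter fun i => f 0 i = c).card :=
              sum_le_sum fun c hc => (hsz0 c hc).1
          _ = 2 * ∑ c ∈ I₂.image (f 0), (I'.filter fun i => f 0 i = c).card := by
              rw [mul_sum]
          _ ≤ _ := Nat.mul_le_mul_left _ h2
      calc I.card ≤ (2 * (H + 1)) ^ m * I₁.card := hcard
        _ ≤ (2 * (H + 1)) ^ m * ((H + 1) * I₂.card) := Nat.mul_le_mul_left _ hI₂c
        _ ≤ (2 * (H + 1)) ^ m * ((H + 1) * (2 * I'.card)) := by gcongr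
        _ = (2 * (H + 1)) ^ (m + 1) * I'.card := by ring
    · intro j
      by_cases hj : j = 0
      · simp only [hj, if_true]
        exact Nat.le_of_lt_succ (mem_range.1 hk₀)
      · simp only [hj, if_false]
        exact hkH _
    · intro j hj i hi
      rcases j with _ | j
      · simpa using hch0 i hi
      · have h1 := hk j (by omega) i (hI'I₁ hi)
        simp only [nch] at h1 ⊢
        rcases hcls1 j i hi with h2 | h2
        · rw [h2]
          simpa using h1
        · omega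

/-- **(U3)** linear stability: a subset of portion `p` of an exactly uniform tree contains a subset
of half its size, all of whose nodes keep at least `p/(2m)·N_j` children. -/
theorem tree_stable {I A : Finset ι} {f : ℕ → ι → κ} {m : ℕ} (hm : 0 < m) {N : ℕ → ℕ}
    (h : UTree I f m N) (hn : Nested I f m)
    (hinj : ∀ i ∈ I, ∀ i' ∈ I, f m i = f m i' → i = i') (hA : A ⊆ I) {p : ℝ} (hp : 0 ≤ p)
    (hpA : p * I.card ≤ A.card) :
    ∃ A' ⊆ A, (A.card : ℝ) / 2 ≤ A'.card ∧
      ∀ j < m, ∀ i ∈ A', p / (2 * m) * N j ≤ nch A' f j i := by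
  classical
  have hm' : (0 : ℝ) < m := by exact_mod_cast hm
  set M : ℕ → ℕ := fun j => ∏ a ∈ Ico j m, N a with hM
  have hcl : ∀ j ≤ m, ∀ i ∈ I, (cls I (f j) i).card = M j := fun j hj => h.card_cls hn hinj hj
  obtain ⟨A', hA', hA'c, hgood⟩ := prune (J := Fin m) A (fun _ => (1 : ℝ)) (fun _ _ => zero_le_one)
    (fun j => f j) (fun j => p / (2 * m) * M j) (fun j => by positivity) (by
      have h1 : ∀ j : Fin m, p / (2 * m) * M j * ((A.image (f j)).card : ℝ) ≤
          p / (2 * m) * I.card := by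
        intro j
        rw [mul_assoc]
        refine mul_le_mul_of_nonneg_left ?_ (by positivity)
        have h2 := mul_card_image_le hA (fun _ => (1 : ℝ)) (fun _ _ => zero_le_one) (f j)
          (M := (M j : ℝ)) (fun i hi => by
            rw [sum_const, nsmul_eq_mul, mul_one, hcl j j.2.le i (hA hi)])
        simpa using h2
      calc ∑ j : Fin m, p / (2 * m) * M j * ((A.image (f j)).card : ℝ)
          ≤ ∑ _j : Fin m, p / (2 * m) * I.card := sum_le_sum fun j _ => h1 j
        _ = p * I.card / 2 := by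
            rw [sum_const, nsmul_eq_mul, card_univ, Fintype.card_fin]
            field_simp
        _ ≤ (∑ _i ∈ A, (1 : ℝ)) / 2 := by
            rw [sum_const, nsmul_eq_mul, mul_one]
            linarith)
  refine ⟨A', hA', by simpa using hA'c, fun j hj i hi => ?_⟩
  have h1 := hgood ⟨j, hj⟩ i hi
  simp only [sum_const, nsmul_eq_mul, mul_one] at h1
  -- `|cls A' (f j) i| ≤ nch * M (j+1)`
  have h2 : ((cls A' (f j) i).card : ℝ) ≤ M (j + 1) * nch A' f j i := by
    have h3 := le_count_mul (cls A' (f j) i) (fun _ => (1 : ℝ)) (f (j + 1))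
      (m := (M (j + 1) : ℝ)) (by
        intro i₁ hi₁
        rw [sum_const, nsmul_eq_mul, mul_one]
        have hi₁I : i₁ ∈ I := hA (hA' (mem_cls.1 hi₁).1)
        rw [← hcl (j + 1) hj i₁ hi₁I]
        have : cls (cls A' (f j) i) (f (j + 1)) i₁ ⊆ cls I (f (j + 1)) i₁ :=
          cls_mono ((cls_subset _ _ _).trans (hA'.trans hA)) _ _
        exact_mod_cast card_le_card this)
    simpa [nch] using h3
  have h3 : M j = N j * M (j + 1) := by
    simp only [hM]
    rw [prod_eq_prod_Ico_succ_bot hj]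
  have hiI : i ∈ I := hA (hA' hi)
  have hMpos : 0 < M (j + 1) := by
    rw [← hcl (j + 1) hj i hiI]
    exact card_pos.2 ⟨i, mem_cls.2 ⟨hiI, rfl⟩⟩
  have hMpos' : (0 : ℝ) < M (j + 1) := by exact_mod_cast hMpos
  rw [h3] at h1
  push_cast at h1
  have h4 : p / (2 * m) * N j * M (j + 1) ≤ nch A' f j i * M (j + 1) := by
    calc p / (2 * m) * N j * M (j + 1) = p / (2 * m) * (N j * M (j + 1)) := by ring
      _ ≤ (cls A' (f j) i).card := h1
      _ ≤ M (j + 1) * nch A' f j i := h2
      _ = _ := by ring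
  exact le_of_mul_le_mul_right h4 hMpos'

end Crest.Agent.R138.Ex926
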