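import Crest.Agent.R138.Zoom_926
import Crest.Agent.R138.Uni_926

/-!
# R138: loss book-keeping, fibrewise extremisers, stability, zoom as a new base (helper926)

* `Base.Sub.iff`, `Sub.of_le_of_le`, `Sub.of_log_pow`, `Sub.diag`: sub-polynomial losses.
* `exists_isMax_fib`, `exists_isMin_fib`: extremisers with the index `n` preserved (saturation).
* `exists_stable`: a sub-polynomial refinement which is stable for countably many monotone functionals.
* `exists_zoom_base`: the generic zoom as a new base in which all profiles are exactly linear.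
-/

set_option autoImplicit false

open Filter Topology MeasureTheory
open scoped NNReal

namespace Crest.Agent.R138.Ex926

namespace Base

variable {B : Base} {X Y S T : ℕ → ℝ}

theorem Sub.iff : B.Sub X ↔ (∀ᶠ n in (U : Filter ℕ), 0 < X n) ∧ Tendsto (B.lg X) U (𝓝 0) := by
  constructor
  · rintro ⟨h1, h2⟩
    exact ⟨h1.pos, h2 ▸ h1.tendsto⟩
  · rintro ⟨h1, h2⟩
    exact ⟨PB.of_tendsto h1 h2, ex_eq_of_tendsto h2⟩

theorem Sub.of_le_of_le (hS : B.Sub S) (hT : B.Sub T) (h1 : ∀ᶠ n in (U : Filter ℕ), S n ≤ X n)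
    (h2 : ∀ᶠ n in (U : Filter ℕ), X n ≤ T n) : B.Sub X := by
  have hX : B.PB X := PB.of_le_of_le hS.1 hT.1 h1 h2
  refine ⟨hX, le_antisymm ?_ ?_⟩
  · have := ex_le hX hT.1 h2
    rwa [hT.2] at this
  · have := ex_le hS.1 hX h1
    rwa [hS.2] at this

theorem Sub.congr (hX : B.Sub X) (h : ∀ᶠ n in (U : Filter ℕ), X n = Y n) : B.Sub Y :=
  ⟨hX.1.congr h, by rw [← ex_congr hX.1 h]; exact hX.2⟩

/-- losses that are powers of the logarithm. -/
theorem Sub.of_log_pow {C : ℝ} (hC : 0 < C) {k : ℕ} (h1 : ∀ᶠ n in (U : Filter ℕ), 1 ≤ X n)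
    (h2 : ∀ᶠ n in (U : Filter ℕ), X n ≤ (C * (1 + B.L n)) ^ k) : B.Sub X :=
  Sub.of_le_of_le (Sub.const one_pos) (((Sub.const hC).mul Sub.one_add_L).pow k) h1 h2

theorem Sub.max (hX : B.Sub X) (hY : B.Sub Y) : B.Sub (fun n => max (X n) (Y n)) :=
  ⟨hX.1.max hY.1, by rw [ex_max hX.1 hY.1, hX.2, hY.2, max_self]⟩

theorem Sub.add (hX : B.Sub X) (hY : B.Sub Y) : B.Sub (fun n => X n + Y n) :=
  ⟨hX.1.add hY.1, by rw [ex_add hX.1 hY.1, hX.2, hY.2, max_self]⟩

theorem Sub.prod {ι : Type*} (s : Finset ι) (f : ι → ℕ → ℝ) (h : ∀ i ∈ s, B.Sub (f i)) :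
    B.Sub (fun n => ∏ i ∈ s, f i n) := by
  classical
  induction s using Finset.induction_on with
  | empty => simpa using Sub.const (B := B) one_pos
  | insert i s hi ih =>
    have h1 := (h i (Finset.mem_insert_self i s)).mul
      (ih fun j hj => h j (Finset.mem_insert_of_mem hj))
    refine h1.congr (Eventually.of_forall fun n => ?_)
    rw [Finset.prod_insert hi]

theorem PB.prod {ι : Type*} (s : Finset ι) (f : ι → ℕ → ℝ) (h : ∀ i ∈ s, B.PB (f i)) :
    B.PB (fun n => ∏ i ∈ s, f i n) ∧ B.ex (fun n => ∏ i ∈ s, f i n) = ∑ i ∈ s, B.ex (f i) := by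
  classical
  induction s using Finset.induction_on with
  | empty => exact ⟨by simpa using PB.const (B := B) one_pos, by simpa using ex_const (B := B) 1⟩
  | insert i s hi ih =>
    obtain ⟨h1, h2⟩ := ih fun j hj => h j (Finset.mem_insert_of_mem hj)
    have h3 := h i (Finset.mem_insert_self i s)
    have e : (fun n => ∏ j ∈ insert i s, f j n) = fun n => f i n * ∏ j ∈ s, f j n := by
      funext n; rw [Finset.prod_insert hi]
    rw [e]
    exact ⟨h3.mul h1, by rw [ex_mul h3 h1, h2, Finset.sum_insert hi]⟩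

/-- exponents of equal-up-to-`Sub` sequences agree. -/
theorem ex_eq_of_sub (hX : B.PB X) (hY : B.PB Y) (hS : B.Sub S) (hT : B.Sub T)
    (h1 : ∀ᶠ n in (U : Filter ℕ), X n ≤ S n * Y n) (h2 : ∀ᶠ n in (U : Filter ℕ), Y n ≤ T n * X n) :
    B.ex X = B.ex Y :=
  le_antisymm (ex_le_of_sub hX hY hS h1) (ex_le_of_sub hY hX hT h2)

/-- finite sums: the exponent is the maximum. -/
theorem PB.sum {ι : Type*} (s : Finset ι) (hs : s.Nonempty) (f : ι → ℕ → ℝ)
    (h : ∀ i ∈ s, B.PB (f i)) :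
    B.PB (fun n => ∑ i ∈ s, f i n) ∧
      B.ex (fun n => ∑ i ∈ s, f i n) = s.sup' hs (fun i => B.ex (f i)) := by
  classical
  induction hs using Finset.Nonempty.cons_induction with
  | singleton i =>
    have h3 := h i (Finset.mem_singleton_self i)
    have e : (fun n => ∑ j ∈ {i}, f j n) = f i := by funext n; simp
    rw [e]; exact ⟨h3, by simp⟩
  | cons i s hi hs ih =>
    obtain ⟨h1, h2⟩ := ih fun j hj => h j (Finset.mem_cons_of_mem hj)
    have h3 := h i (Finset.mem_cons_self i s)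
    have e : (fun n => ∑ j ∈ Finset.cons i s hi, f j n) = fun n => f i n + ∑ j ∈ s, f j n := by
      funext n; rw [Finset.sum_cons]
    rw [e]
    refine ⟨h3.add h1, ?_⟩
    rw [ex_add h3 h1, h2, Finset.sup'_cons hs]

/-- **Diagonal loss.** A slowly growing number of sub-polynomial losses is sub-polynomial. -/
theorem Sub.diag (s : ℕ → ℕ → ℝ) (hs : ∀ i, B.Sub (s i)) :
    ∃ k : ℕ → ℕ, Tendsto k U atTop ∧ ∀ k' : ℕ → ℕ, Tendsto k' U atTop →
      (∀ᶠ n in (U : Filter ℕ), k' n ≤ k n) → B.Sub (fun n => s (k' n) n) := by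
  obtain ⟨k, hk, hk2⟩ := exists_diag (fun i n => 0 < s i n ∧ |B.lg (s i) n| < 1 / ((i : ℝ) + 1)) (by
    intro i
    obtain ⟨h1, h2⟩ := Sub.iff.1 (hs i)
    have h3 := (Metric.tendsto_nhds.1 h2) (1 / ((i : ℝ) + 1)) (by positivity)
    filter_upwards [h1, h3] with n h1 h3
    exact ⟨h1, by simpa [Real.dist_eq] using h3⟩)
  refine ⟨k, hk, fun k' hk' hle => ?_⟩
  rw [Sub.iff]
  constructor
  · filter_upwards [hk2, hle] with n h1 h2 using (h1 _ h2).1
  · have h3 : Tendsto (fun n => 1 / ((k' n : ℝ) + 1)) U (𝓝 0) :=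
      tendsto_one_div_add_atTop_nhds_zero_nat.comp hk'
    refine squeeze_zero_norm' ?_ h3
    filter_upwards [hk2, hle] with n h4 h5
    exact (h4 _ h5).2.le

/-- the same for a countable family at once, and for all speeds `≤ k`: the maximum of the first
`k n` losses. -/
theorem Sub.diag_all (s : ℕ → ℕ → ℝ) (hs : ∀ i, B.Sub (s i)) :
    ∃ (k : ℕ → ℕ) (S : ℕ → ℝ), Tendsto k U atTop ∧ B.Sub S ∧
      ∀ᶠ n in (U : Filter ℕ), ∀ i ≤ k n, 0 < s i n ∧ s i n ≤ S n ∧ (s i n)⁻¹ ≤ S n := by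
  classical
  set t : ℕ → ℕ → ℝ := fun m n => ∑ i ∈ Finset.range (m + 1), (s i n + (s i n)⁻¹) with ht
  have h0 : ∀ i, B.Sub (fun n => s i n + (s i n)⁻¹) := fun i => (hs i).add (hs i).inv
  have hts : ∀ m, B.Sub (t m) := by
    intro m
    obtain ⟨h1, h2⟩ := PB.sum (B := B) (Finset.range (m + 1)) ⟨0, by simp⟩
      (fun i n => s i n + (s i n)⁻¹) (fun i _ => (h0 i).1)
    refine ⟨h1, ?_⟩
    rw [ht]
    simp only
    rw [h2]
    refine le_antisymm (Finset.sup'_le _ _ fun i _ => (h0 i).2.le) ?_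
    exact (Finset.le_sup'_of_le _ (Finset.mem_range.2 (Nat.succ_pos m)) (h0 0).2.ge)
  obtain ⟨k₁, hk₁, hk₁'⟩ := Sub.diag t hts
  obtain ⟨k₂, hk₂, hk₂'⟩ := exists_diag (fun i n => 0 < s i n) (fun i => (hs i).1.pos)
  refine ⟨fun n => min (k₁ n) (k₂ n), fun n => t (min (k₁ n) (k₂ n)) n, exists_min_speed hk₁ hk₂,
    hk₁' _ (exists_min_speed hk₁ hk₂) (Eventually.of_forall fun n => min_le_left _ _), ?_⟩
  filter_upwards [hk₂'] with n h2 i hi
  have hpos : ∀ j ≤ min (k₁ n) (k₂ n), 0 < s j n := fun j hj => h2 j (hj.trans (min_le_right _ _))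
  have hterm : s i n + (s i n)⁻¹ ≤ t (min (k₁ n) (k₂ n)) n := by
    refine Finset.single_le_sum (f := fun i => s i n + (s i n)⁻¹) (fun j hj => ?_)
      (Finset.mem_range.2 (Nat.lt_succ_of_le hi))
    have := hpos j (Nat.le_of_lt_succ (Finset.mem_range.1 hj))
    positivity
  have hi0 := hpos i hi
  have hi1 : 0 < (s i n)⁻¹ := inv_pos.2 hi0
  exact ⟨hi0, by linarith, by linarith⟩

end Base

/-! ### extremisers with preserved index -/

/-- fibrewise admissibility: each of the countably many conditions holds almost everywhere. -/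
def AdmF {α : ℕ → Type*} (P : ℕ → ∀ n, α n → Prop) (a : ∀ n, α n) : Prop :=
  ∀ k, ∀ᶠ n in (U : Filter ℕ), P k n (a n)

theorem exists_isMax_fib {α : ℕ → Type*} (P : ℕ → ∀ n, α n → Prop) (v : ∀ n, α n → ℝ) {C : ℝ}
    (hne : ∃ a, AdmF P a) (hb : ∀ a, AdmF P a → ∀ᶠ n in (U : Filter ℕ), |v n (a n)| ≤ C) :
    ∃ a, AdmF P a ∧ ∃ x, |x| ≤ C ∧ Tendsto (fun n => v n (a n)) U (𝓝 x) ∧
      ∀ a', AdmF P a' → ∀ y, Tendsto (fun n => v n (a' n)) U (𝓝 y) → y ≤ x := by
  classical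
  set S : Set ℝ := {y | ∃ a, AdmF P a ∧ Tendsto (fun n => v n (a n)) U (𝓝 y)} with hS
  have hSb : ∀ y ∈ S, |y| ≤ C := by
    rintro y ⟨a, ha, hy⟩
    exact le_of_tendsto hy.abs (hb a ha)
  have hSne : S.Nonempty := by
    obtain ⟨a, ha⟩ := hne
    obtain ⟨y, hy, -⟩ := exists_tendsto (hb a ha)
    exact ⟨y, a, ha, hy⟩
  have hBdd : BddAbove S := ⟨C, fun y hy => (abs_le.1 (hSb y hy)).2⟩
  set x := sSup S with hx
  have hap : ∀ k : ℕ, ∃ y ∈ S, x - 1 / ((k : ℝ) + 1) < y := by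
    intro k
    have h0 : (0 : ℝ) < 1 / ((k : ℝ) + 1) := by positivity
    exact exists_lt_of_lt_csSup hSne (by linarith)
  choose y hyS hy using hap
  choose a ha hay using hyS
  obtain ⟨k, hk, hk2⟩ := exists_diag
    (fun m n => (∀ j ≤ m, P j n (a m n)) ∧ |v n (a m n) - y m| < 1 / ((m : ℝ) + 1)) (by
    intro m
    have h2 : ∀ᶠ n in (U : Filter ℕ), ∀ j ∈ Finset.range (m + 1), P j n (a m n) := by
      rw [Filter.eventually_all_finset]
      intro j _
      exact ha m j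
    have h3 := (Metric.tendsto_nhds.1 (hay m)) (1 / ((m : ℝ) + 1)) (by positivity)
    filter_upwards [h2, h3] with n h2 h3
    exact ⟨fun j hj => h2 j (Finset.mem_range.2 (Nat.lt_succ_of_le hj)),
      by simpa [Real.dist_eq] using h3⟩)
  have hxC : |x| ≤ C := by
    rw [abs_le]
    constructor
    · obtain ⟨z, hz⟩ := hSne
      exact (abs_le.1 (hSb z hz)).1.trans (le_csSup hBdd hz)
    · exact csSup_le hSne fun y hy => (abs_le.1 (hSb y hy)).2
  have hkr : Tendsto (fun n => 1 / ((k n : ℝ) + 1)) U (𝓝 0) :=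
    tendsto_one_div_add_atTop_nhds_zero_nat.comp hk
  refine ⟨fun n => a (k n) n, ?_, x, hxC, ?_, ?_⟩
  · intro j
    filter_upwards [hk2, hk.eventually_ge_atTop j] with n h1 h2
    exact (h1 _ le_rfl).1 j h2
  · have h1 : Tendsto (fun n => y (k n)) U (𝓝 x) := by
      have h2 : Tendsto (fun n => x - 1 / ((k n : ℝ) + 1)) U (𝓝 x) := by
        simpa using hkr.const_sub x
      exact tendsto_of_tendsto_of_tendsto_of_le_of_le h2 tendsto_const_nhds
        (fun n => (hy _).le) (fun n => le_csSup hBdd ⟨a (k n), ha _, hay _⟩)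
    have h3 : Tendsto (fun n => v n (a (k n) n) - y (k n)) U (𝓝 0) := by
      refine squeeze_zero_norm' ?_ hkr
      filter_upwards [hk2] with n h1
      exact (h1 _ le_rfl).2.le
    simpa using h3.add h1
  · intro a' ha' z hz
    exact le_csSup hBdd ⟨a', ha', hz⟩

theorem exists_isMin_fib {α : ℕ → Type*} (P : ℕ → ∀ n, α n → Prop) (v : ∀ n, α n → ℝ) {C : ℝ}
    (hne : ∃ a, AdmF P a) (hb : ∀ a, AdmF P a → ∀ᶠ n in (U : Filter ℕ), |v n (a n)| ≤ C) :
    ∃ a, AdmF P a ∧ ∃ x, |x| ≤ C ∧ Tendsto (fun n => v n (a n)) U (𝓝 x) ∧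
      ∀ a', AdmF P a' → ∀ y, Tendsto (fun n => v n (a' n)) U (𝓝 y) → x ≤ y := by
  obtain ⟨a, ha, x, hx, h1, h2⟩ := exists_isMax_fib P (fun n b => - v n b) (C := C) hne
    (by intro a ha; simpa using hb a ha)
  refine ⟨a, ha, -x, by simpa using hx, by simpa using h1.neg, fun a' ha' y hy => ?_⟩
  have := h2 a' ha' (-y) (by simpa using hy.neg)
  linarith

/-- **Stable refinement.** `R n a b`: `b` is a refinement of `a`; `c n a b ≥ 0`: its cost
(exponent of the inverse portion); `F j`: countably many bounded functionals, each of which can grow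
under refinement at most by the cost. Every configuration has a refinement of cost `→ 0` for which
no further refinement of cost `→ 0` changes the limit of any `F j`. -/
theorem exists_stable {α : ℕ → Type*} (R : ∀ n, α n → α n → Prop) (c : ∀ n, α n → α n → ℝ)
    (F : ℕ → ∀ n, α n → ℝ) (C : ℕ → ℝ)
    (hrefl : ∀ n a, R n a a ∧ c n a a ≤ 0)
    (htrans : ∀ n a b e, R n a b → R n b e → R n a e ∧ c n a e ≤ c n a b + c n b e)
    (hc : ∀ n a b, R n a b → 0 ≤ c n a b)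
    (hF : ∀ j n a, |F j n a| ≤ C j)
    (hmono : ∀ j n a b, R n a b → F j n b ≤ F j n a + c n a b) (a₀ : ∀ n, α n) :
    ∃ a : ∀ n, α n, (∀ᶠ n in (U : Filter ℕ), R n (a₀ n) (a n)) ∧
      Tendsto (fun n => c n (a₀ n) (a n)) U (𝓝 0) ∧
      ∀ b : ∀ n, α n, (∀ᶠ n in (U : Filter ℕ), R n (a n) (b n)) →
        Tendsto (fun n => c n (a n) (b n)) U (𝓝 0) →
        ∀ j, Tendsto (fun n => F j n (b n) - F j n (a n)) U (𝓝 0) := by
  classical
  have hC0 : ∀ j, 0 ≤ C j := fun j => (abs_nonneg _).trans (hF j 0 (a₀ 0))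
  -- the weights
  set wt : ℕ → ℝ := fun j => (1 / 2) ^ j / (1 + C j) with hwt
  have hwtp : ∀ j, 0 < wt j := fun j => by have := hC0 j; positivity
  have hwt1 : ∀ j, wt j ≤ (1 / 2) ^ j := by
    intro j
    rw [hwt]
    exact div_le_self (by positivity) (by linarith [hC0 j])
  have hgeo : ∀ m : ℕ, ∑ j ∈ Finset.range m, ((1 : ℝ) / 2) ^ j ≤ 2 := by
    intro m
    have := sum_geometric_two_le m
    simpa using this
  set v : ∀ n, α n → ℝ := fun n a => ∑ j ∈ Finset.range (n + 1), wt j * F j n a with hv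
  have hvb : ∀ n a, |v n a| ≤ 2 := by
    intro n a
    refine (Finset.abs_sum_le_sum_abs _ _).trans (le_trans (Finset.sum_le_sum fun j _ => ?_)
      (hgeo (n + 1)))
    rw [abs_mul, abs_of_pos (hwtp j)]
    have h1 : wt j * |F j n a| ≤ wt j * (1 + C j) :=
      mul_le_mul_of_nonneg_left ((hF j n a).trans (by linarith [hC0 j])) (hwtp j).le
    refine h1.trans (le_of_eq ?_)
    rw [hwt]
    have : (1 : ℝ) + C j ≠ 0 := by have := hC0 j; positivity
    field_simp
  set P : ℕ → ∀ n, α n → Prop := fun k n b => R n (a₀ n) b ∧ c n (a₀ n) b ≤ 1 / ((k : ℝ) + 1)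
    with hP
  obtain ⟨a, ha, x, -, hx, hmin⟩ := exists_isMin_fib P v (C := 2)
    ⟨a₀, fun k => Eventually.of_forall fun n =>
      ⟨(hrefl n _).1, (hrefl n _).2.trans (by positivity)⟩⟩
    (fun a _ => Eventually.of_forall fun n => hvb n _)
  have hac : Tendsto (fun n => c n (a₀ n) (a n)) U (𝓝 0) := by
    rw [Metric.tendsto_nhds]
    intro ε hε
    obtain ⟨k, hk⟩ := exists_nat_one_div_lt hε
    filter_upwards [ha k] with n hn
    rw [Real.dist_eq, sub_zero, abs_of_nonneg (hc n _ _ hn.1)]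
    exact lt_of_le_of_lt hn.2 hk
  refine ⟨a, (ha 0).mono fun n hn => hn.1, hac, fun b hb hbc j => ?_⟩
  -- `b` is admissible
  have hbadm : AdmF P b := by
    intro k
    have h0 : (0 : ℝ) < 1 / ((k : ℝ) + 1) := by positivity
    have h1 : ∀ᶠ n in (U : Filter ℕ), c n (a₀ n) (a n) < 1 / ((k : ℝ) + 1) / 2 :=
      hac.eventually_lt_const (by positivity)
    have h2 : ∀ᶠ n in (U : Filter ℕ), c n (a n) (b n) < 1 / ((k : ℝ) + 1) / 2 :=
      hbc.eventually_lt_const (by positivity)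
    filter_upwards [h1, h2, ha k, hb] with n h1 h2 h3 h4
    obtain ⟨h5, h6⟩ := htrans n _ _ _ h3.1 h4
    exact ⟨h5, by linarith⟩
  obtain ⟨y, hy, -⟩ := exists_tendsto (C := 2) (f := fun n => v n (b n))
    (Eventually.of_forall fun n => hvb n _)
  have hxy := hmin b hbadm y hy
  -- the difference of the values
  have hdiff : Tendsto (fun n => v n (b n) - v n (a n)) U (𝓝 (y - x)) := hy.sub hx
  obtain ⟨z, hz, -⟩ := exists_tendsto (C := 2 * C j)
    (f := fun n => F j n (b n) - F j n (a n)) (Eventually.of_forall fun n => by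
      have h1 := hF j n (b n)
      have h2 := hF j n (a n)
      rw [abs_le] at *
      constructor <;> linarith [h1.1, h1.2, h2.1, h2.2])
  have hz0 : z ≤ 0 := by
    refine le_of_tendsto_of_tendsto hz hbc ?_
    filter_upwards [hb] with n hn
    have := hmono j n _ _ hn
    linarith
  have hkey : y - x ≤ wt j * z := by
    have h1 : Tendsto (fun n => wt j * (F j n (b n) - F j n (a n)) + 2 * c n (a n) (b n)) U
        (𝓝 (wt j * z + 2 * 0)) := (hz.const_mul _).add (hbc.const_mul 2)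
    rw [mul_zero, add_zero] at h1
    refine le_of_tendsto_of_tendsto hdiff h1 ?_
    filter_upwards [hb, ev_ge j] with n hn hjn
    have hmem : j ∈ Finset.range (n + 1) := Finset.mem_range.2 (Nat.lt_succ_of_le hjn)
    have hcn := hc n _ _ hn
    have e1 : v n (b n) - v n (a n) =
        ∑ i ∈ Finset.range (n + 1), wt i * (F i n (b n) - F i n (a n)) := by
      simp only [hv]
      rw [← Finset.sum_sub_distrib]
      exact Finset.sum_congr rfl fun i _ => by ring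
    rw [e1, ← Finset.add_sum_erase _ _ hmem]
    have h2 : ∑ i ∈ (Finset.range (n + 1)).erase j, wt i * (F i n (b n) - F i n (a n)) ≤
        ∑ i ∈ (Finset.range (n + 1)).erase j, (1 / 2) ^ i * c n (a n) (b n) := by
      refine Finset.sum_le_sum fun i _ => ?_
      have h3 : F i n (b n) - F i n (a n) ≤ c n (a n) (b n) := by
        linarith [hmono i n _ _ hn]
      calc wt i * (F i n (b n) - F i n (a n)) ≤ wt i * c n (a n) (b n) :=
            mul_le_mul_of_nonneg_left h3 (hwtp i).le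
        _ ≤ _ := mul_le_mul_of_nonneg_right (hwt1 i) hcn
    have h4 : ∑ i ∈ (Finset.range (n + 1)).erase j, ((1 : ℝ) / 2) ^ i * c n (a n) (b n) ≤
        2 * c n (a n) (b n) := by
      rw [← Finset.sum_mul]
      refine mul_le_mul_of_nonneg_right ?_ hcn
      refine le_trans (Finset.sum_le_sum_of_subset_of_nonneg (Finset.erase_subset _ _)
        fun i _ _ => by positivity) (hgeo (n + 1))
    linarith
  have hz1 : z = 0 := by
    refine le_antisymm hz0 ?_
    by_contra hneg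
    push Not at hneg
    have := mul_neg_of_pos_of_neg (hwtp j) hneg
    linarith
  rwa [hz1] at hz

/-! ### the zoom as a new base -/

/-- **Generic zoom, packaged.** `X j n v > 0` countably many quantities depending on a parameter
`v` (macroscopic scales) with finite-level exponents asymptotically Lipschitz in `v`; `ψ j` the
limit profiles, differentiable at `x₀`; `s i` countably many sub-polynomial losses. There is a speed
`k → ∞` such that for every slower speed `k'`, with `w = 1/(k'+1)`, there is a new base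
`d' = d ^ w` in which `X j (x₀ + w v) / X j x₀` has exponent exactly `ψ' j v` and all losses are
still sub-polynomial. -/
theorem exists_zoom_base (B : Base) {E : Type*} [NormedAddCommGroup E] [NormedSpace ℝ E]
    [FiniteDimensional ℝ E] {x₀ : E} {r : ℝ} (hr : 0 < r) (K : ℕ → ℝ) (hK : ∀ j, 0 ≤ K j)
    (X : ℕ → ℕ → E → ℝ) (ψ : ℕ → E → ℝ) (ψ' : ℕ → E →L[ℝ] ℝ)
    (hpos : ∀ j, ∀ᶠ n in (U : Filter ℕ), ∀ x ∈ Metric.closedBall x₀ r, 0 < X j n x)
    (hφ : ∀ j, ALip (Metric.closedBall x₀ r) (K j) (fun n x => B.lg (fun m => X j m x) n))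
    (hψ : ∀ j, ∀ x ∈ Metric.closedBall x₀ r,
      Tendsto (fun n => B.lg (fun m => X j m x) n) U (𝓝 (ψ j x)))
    (hd : ∀ j, HasFDerivAt (ψ j) (ψ' j) x₀) (s : ℕ → ℕ → ℝ) (hs : ∀ i, B.Sub (s i)) :
    ∃ k : ℕ → ℕ, Tendsto k U atTop ∧ ∀ k' : ℕ → ℕ, Tendsto k' U atTop →
      (∀ᶠ n in (U : Filter ℕ), k' n ≤ k n) → ∃ B' : Base,
        (∀ n, B'.d n = B.d n ^ (1 / ((k' n : ℝ) + 1))) ∧
        (∀ i, B'.Sub (s i)) ∧
        (∀ (j : ℕ) (C ε : ℝ), 0 < ε → ∀ᶠ n in (U : Filter ℕ), ∀ v : E, ‖v‖ ≤ C →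
          |B'.lg (fun m => X j m (x₀ + (1 / ((k' n : ℝ) + 1)) • v) / X j m x₀) n - ψ' j v| ≤ ε) ∧
        (∀ (j : ℕ) (v : E),
          B'.PB (fun n => X j n (x₀ + (1 / ((k' n : ℝ) + 1)) • v) / X j n x₀) ∧
          B'.ex (fun n => X j n (x₀ + (1 / ((k' n : ℝ) + 1)) • v) / X j n x₀) = ψ' j v) := by
  obtain ⟨k₁, hk₁, hk₁'⟩ := exists_zoom hr K hK (fun j n x => B.lg (fun m => X j m x) n) ψ ψ' hφ hψ hd
  obtain ⟨k₂, hk₂, hk₂'⟩ := exists_speed B (fun i n => B.lg (s i) n)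
    (fun i => (Base.Sub.iff.1 (hs i)).2)
  refine ⟨fun n => min (k₁ n) (k₂ n), exists_min_speed hk₁ hk₂, fun k' hk' hle => ?_⟩
  obtain ⟨hL, hS⟩ := hk₂' k' hk' (hle.mono fun n hn => hn.trans (min_le_right _ _))
  have hz := hk₁' k' hk' (hle.mono fun n hn => hn.trans (min_le_left _ _))
  have hw : ∀ n, (0 : ℝ) < 1 / ((k' n : ℝ) + 1) := fun n => by positivity
  have hw0 : Tendsto (fun n => 1 / ((k' n : ℝ) + 1)) U (𝓝 0) :=
    tendsto_one_div_add_atTop_nhds_zero_nat.comp hk'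
  set B' : Base := B.chg (fun n => 1 / ((k' n : ℝ) + 1)) hw hL with hB'
  have hmain : ∀ (j : ℕ) (C ε : ℝ), 0 < ε → ∀ᶠ n in (U : Filter ℕ), ∀ v : E, ‖v‖ ≤ C →
      |B'.lg (fun m => X j m (x₀ + (1 / ((k' n : ℝ) + 1)) • v) / X j m x₀) n - ψ' j v| ≤ ε ∧
      0 < X j n (x₀ + (1 / ((k' n : ℝ) + 1)) • v) / X j n x₀ := by
    intro j C ε hε
    have hsmall : ∀ᶠ n in (U : Filter ℕ), 1 / ((k' n : ℝ) + 1) < r / (max C 1) := by
      have : (0 : ℝ) < r / max C 1 := by
        have : (0 : ℝ) < max C 1 := lt_of_lt_of_le one_pos (le_max_right _ _)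
        positivity
      exact hw0.eventually_lt_const this
    filter_upwards [hz j C ε hε, hpos j, hsmall] with n h1 h2 h3 v hv
    have hC1 : (0 : ℝ) < max C 1 := lt_of_lt_of_le one_pos (le_max_right _ _)
    have hmem : x₀ + (1 / ((k' n : ℝ) + 1)) • v ∈ Metric.closedBall x₀ r := by
      rw [Metric.mem_closedBall, dist_eq_norm, add_sub_cancel_left, norm_smul,
        Real.norm_of_nonneg (hw n).le]
      rw [lt_div_iff₀ hC1] at h3
      have h4 : 1 / ((k' n : ℝ) + 1) * ‖v‖ ≤ 1 / ((k' n : ℝ) + 1) * max C 1 :=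
        mul_le_mul_of_nonneg_left (hv.trans (le_max_left _ _)) (hw n).le
      linarith
    have hp1 := h2 _ hmem
    have hp0 := h2 x₀ (Metric.mem_closedBall_self hr.le)
    refine ⟨?_, div_pos hp1 hp0⟩
    have h5 := h1 v hv
    rw [hB', Base.chg_lg]
    have e : B.lg (fun m => X j m (x₀ + (1 / ((k' n : ℝ) + 1)) • v) / X j m x₀) n =
        B.lg (fun m => X j m (x₀ + (1 / ((k' n : ℝ) + 1)) • v)) n - B.lg (fun m => X j m x₀) n := by
      simp only [Base.lg]
      rw [Real.log_div hp1.ne' hp0.ne', sub_div]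
    rw [e]
    exact h5
  refine ⟨B', fun n => rfl, fun i => ?_, fun j C ε hε => ?_, fun j v => ?_⟩
  · rw [Base.Sub.iff]
    refine ⟨(hs i).1.pos, (hS i).congr fun n => ?_⟩
    rw [hB', Base.chg_lg]
  · exact (hmain j C ε hε).mono fun n hn v hv => (hn v hv).1
  · have hp : ∀ᶠ n in (U : Filter ℕ),
        0 < X j n (x₀ + (1 / ((k' n : ℝ) + 1)) • v) / X j n x₀ :=
      (hmain j ‖v‖ 1 one_pos).mono fun n hn => (hn v le_rfl).2
    have ht : Tendsto (B'.lg (fun n => X j n (x₀ + (1 / ((k' n : ℝ) + 1)) • v) / X j n x₀)) U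
        (𝓝 (ψ' j v)) := by
      rw [Metric.tendsto_nhds]
      intro ε hε
      filter_upwards [hmain j ‖v‖ (ε / 2) (half_pos hε)] with n hn
      rw [Real.dist_eq]
      have h1 := (hn v le_rfl).1
      refine lt_of_le_of_lt ?_ (half_lt_self hε)
      simpa only [Base.lg] using h1
    exact ⟨Base.PB.of_tendsto hp ht, Base.ex_eq_of_tendsto ht⟩

/-! ### uniformisation along a base -/

section UniSeq

open Finset

/-- the number of dyadic scales is `O(1 + L)`. -/
theorem log_card_le (B : Base) {N : ℕ → ℕ} {C : ℝ} (hC : 0 ≤ C)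
    (h : ∀ᶠ n in (U : Filter ℕ), (N n : ℝ) ≤ B.d n ^ (-C)) :
    ∀ᶠ n in (U : Filter ℕ), ((Nat.log 2 (N n) : ℕ) : ℝ) + 1 ≤ (2 * C + 1) * (1 + B.L n) := by
  filter_upwards [h] with n hn
  have hL := B.L_pos n
  rcases Nat.eq_zero_or_pos (N n) with h0 | h0
  · rw [h0]; simp; nlinarith
  have h1 : ((2 : ℝ)) ^ (Nat.log 2 (N n)) ≤ N n := by
    exact_mod_cast Nat.pow_log_le_self 2 h0.ne'
  have h2 : (Nat.log 2 (N n) : ℝ) * Real.log 2 ≤ C * B.L n := by
    have h3 := Real.log_le_log (by positivity) (h1.trans hn)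
    rw [Real.log_pow, Real.log_rpow (B.pos n)] at h3
    have : Real.log (B.d n) = - B.L n := by simp [Base.L]
    rw [this] at h3
    linarith
  have h4 : (1 / 2 : ℝ) ≤ Real.log 2 := by
    have := Real.log_two_gt_d9
    linarith
  have h5 : (0 : ℝ) ≤ (Nat.log 2 (N n) : ℝ) := Nat.cast_nonneg _
  nlinarith

/-- **(U1) along a base**: finitely many arbitrary partitions, sub-polynomial loss. -/
theorem uniform_seq (B : Base) {ι κ : ℕ → Type*} [∀ n, DecidableEq (ι n)] [∀ n, DecidableEq (κ n)]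
    {J : Type*} [Fintype J] [DecidableEq J] (I : ∀ n, Finset (ι n)) (f : ∀ n, J → ι n → κ n)
    (hI : ∀ᶠ n in (U : Filter ℕ), (I n).Nonempty) {C : ℝ} (hC : 0 ≤ C)
    (hcard : ∀ᶠ n in (U : Filter ℕ), ((I n).card : ℝ) ≤ B.d n ^ (-C)) :
    ∃ (I' : ∀ n, Finset (ι n)) (M : ℕ → J → ℝ) (S : ℕ → ℝ), B.Sub S ∧
      ∀ᶠ n in (U : Filter ℕ), I' n ⊆ I n ∧ (I' n).Nonempty ∧
        ((I n).card : ℝ) ≤ S n * (I' n).card ∧ ∀ j, 1 ≤ M n j ∧ ∀ i ∈ I' n,
          M n j ≤ (cls (I n) (f n j) i).card ∧ ((cls (I n) (f n j) i).card : ℝ) ≤ 2 * M n j ∧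
          M n j ≤ S n * (cls (I' n) (f n j) i).card := by
  classical
  have hex : ∀ n, ∃ (I' : Finset (ι n)) (M : J → ℝ), (I n).Nonempty → I' ⊆ I n ∧ I'.Nonempty ∧
      ((I n).card : ℝ) ≤ 2 * ((Nat.log 2 (I n).card : ℝ) + 1) ^ Fintype.card J * I'.card ∧
      (∀ j, 1 ≤ M j) ∧ ∀ j, ∀ i ∈ I',
        M j ≤ (cls (I n) (f n j) i).card ∧ ((cls (I n) (f n j) i).card : ℝ) ≤ 2 * M j ∧
        M j ≤ 2 * (Fintype.card J) * ((Nat.log 2 (I n).card : ℝ) + 1) ^ Fintype.card J *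
          (cls I' (f n j) i).card := by
    intro n
    by_cases h : (I n).Nonempty
    · obtain ⟨I', h1, h2, h3, M, h4, h5⟩ := uniformise_card (J := J) (I n) h (f n)
        (H := Nat.log 2 (I n).card) (Nat.lt_pow_succ_log_self one_lt_two _)
      exact ⟨I', M, fun _ => ⟨h1, h2, h3, h4, h5⟩⟩
    · exact ⟨∅, fun _ => 1, fun h' => absurd h' h⟩
  choose I' M hIM using hex
  set c : ℕ := Fintype.card J with hc
  refine ⟨I', M, fun n => (2 * (c : ℝ) + 2) * ((2 * C + 1) * (1 + B.L n)) ^ c, ?_, ?_⟩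
  · exact (Base.Sub.const (by positivity)).mul
      (((Base.Sub.const (by positivity)).mul Base.Sub.one_add_L).pow c)
  · filter_upwards [hI, log_card_le B hC hcard] with n h1 h2
    obtain ⟨a1, a2, a3, a4, a5⟩ := hIM n h1
    have hp : ((Nat.log 2 (I n).card : ℝ) + 1) ^ c ≤ ((2 * C + 1) * (1 + B.L n)) ^ c :=
      pow_le_pow_left₀ (by positivity) h2 c
    have hp0 : (0 : ℝ) ≤ ((Nat.log 2 (I n).card : ℝ) + 1) ^ c := by positivity
    have hc0 : (0 : ℝ) ≤ c := Nat.cast_nonneg c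
    refine ⟨a1, a2, a3.trans ?_, fun j => ⟨a4 j, fun i hi => ⟨(a5 j i hi).1, (a5 j i hi).2.1,
      (a5 j i hi).2.2.trans ?_⟩⟩⟩
    · refine mul_le_mul_of_nonneg_right ?_ (Nat.cast_nonneg _)
      nlinarith
    · refine mul_le_mul_of_nonneg_right ?_ (Nat.cast_nonneg _)
      nlinarith

/-- **(U2) along a base**: an exactly uniform subtree with sub-polynomial loss. -/
theorem uniform_tree_seq (B : Base) {ι κ : ℕ → Type*} [∀ n, DecidableEq (ι n)]
    [∀ n, DecidableEq (κ n)] (m : ℕ) (I : ∀ n, Finset (ι n)) (f : ∀ n, ℕ → ι n → κ n)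
    (hI : ∀ᶠ n in (U : Filter ℕ), (I n).Nonempty) {C : ℝ} (hC : 0 ≤ C)
    (hcard : ∀ᶠ n in (U : Filter ℕ), ((I n).card : ℝ) ≤ B.d n ^ (-C))
    (hn : ∀ᶠ n in (U : Filter ℕ), Nested (I n) (f n) m)
    (hinj : ∀ᶠ n in (U : Filter ℕ), ∀ i ∈ I n, ∀ i' ∈ I n, f n m i = f n m i' → i = i') :
    ∃ (I' : ∀ n, Finset (ι n)) (k : ℕ → ℕ → ℕ) (S : ℕ → ℝ), B.Sub S ∧
      ∀ᶠ n in (U : Filter ℕ), I' n ⊆ I n ∧ (I' n).Nonempty ∧
        ((I n).card : ℝ) ≤ S n * (I' n).card ∧ UTree (I' n) (f n) m (fun j => 2 ^ k n j) := by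
  classical
  have hex : ∀ n, ∃ (I' : Finset (ι n)) (k : ℕ → ℕ), (I n).Nonempty → Nested (I n) (f n) m →
      (∀ i ∈ I n, ∀ i' ∈ I n, f n m i = f n m i' → i = i') →
      I' ⊆ I n ∧ I'.Nonempty ∧ (I n).card ≤ (2 * (Nat.log 2 (I n).card + 1)) ^ m * I'.card ∧
      UTree I' (f n) m (fun j => 2 ^ k j) := by
    intro n
    by_cases h : (I n).Nonempty ∧ Nested (I n) (f n) m ∧
      (∀ i ∈ I n, ∀ i' ∈ I n, f n m i = f n m i' → i = i')
    · obtain ⟨I', h1, h2, h3, k, -, h5⟩ := exists_uniform_tree m (I n) (f n)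
        (Nat.log 2 (I n).card) h.1 (Nat.lt_pow_succ_log_self one_lt_two _) h.2.1 h.2.2
      exact ⟨I', k, fun _ _ _ => ⟨h1, h2, h3, h5⟩⟩
    · exact ⟨∅, fun _ => 0, fun h1 h2 h3 => absurd ⟨h1, h2, h3⟩ h⟩
  choose I' k hIM using hex
  refine ⟨I', k, fun n => (2 * ((2 * C + 1) * (1 + B.L n))) ^ m, ?_, ?_⟩
  · exact ((Base.Sub.const two_pos).mul
      ((Base.Sub.const (by positivity)).mul Base.Sub.one_add_L)).pow m
  · filter_upwards [hI, log_card_le B hC hcard, hn, hinj] with n h1 h2 h3 h4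
    obtain ⟨a1, a2, a3, a4⟩ := hIM n h1 h3 h4
    refine ⟨a1, a2, ?_, a4⟩
    have h5 : ((I n).card : ℝ) ≤ (2 * ((Nat.log 2 (I n).card : ℝ) + 1)) ^ m * (I' n).card := by
      exact_mod_cast a3
    refine h5.trans (mul_le_mul_of_nonneg_right ?_ (Nat.cast_nonneg _))
    exact pow_le_pow_left₀ (by positivity) (by linarith) m

end UniSeq

end Crest.Agent.R138.Ex926
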