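import Mathlib
import Crest.Agent.R138.Dp1_76
import Crest.Agent.R138.Lg_926

/-!
# R138, Kakeya side, calculus of the extremiser, part 1 (helper926)

* `MonoF`: positive monotone functionals of a finite incidence set with polynomial bounds.
* `StableF`: the exponent of the functional does not change under any dense refinement.
* `exists_stableF`: a dense part which is stable for countably many functionals.
* `nmax`, `PSys.Dmax`: the functionals used (class counts, maximal plank density).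
* `Unif`: uniformity of a partition passes to every dense part.
* `typical`: in a stable set the part with a smaller functional is not dense.
-/

set_option autoImplicit false
set_option linter.unusedVariables false

open Filter Topology Finset

namespace Crest.Agent.R138.Ps926

open Crest.Agent.R138.Ex926 Crest.Agent.R138.Dp76

/-! ## Dense parts -/

section DenseLemmas

variable {B : Base} {α : ℕ → Type*} {I J J' : ∀ n, Finset (α n)}

/-- normalised logarithmic size; `-1` for the empty set. -/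
noncomputable def sz (B : Base) {α : ℕ → Type*} (n : ℕ) (J : Finset (α n)) : ℝ :=
  if J.Nonempty then Real.log (J.card : ℝ) / B.L n else -1

theorem sz_nonneg (B : Base) {α : ℕ → Type*} {n : ℕ} {J : Finset (α n)} (h : J.Nonempty) :
    0 ≤ sz B n J := by
  unfold sz
  rw [if_pos h]
  refine div_nonneg (Real.log_nonneg ?_) (B.L_pos n).le
  exact_mod_cast card_pos.2 h

theorem sz_mono (B : Base) {α : ℕ → Type*} {n : ℕ} {J J' : Finset (α n)} (h : J ⊆ J') :
    sz B n J ≤ sz B n J' := by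
  by_cases hJ : J.Nonempty
  · have hJ' : J'.Nonempty := hJ.mono h
    unfold sz
    rw [if_pos hJ, if_pos hJ']
    refine div_le_div_of_nonneg_right (Real.log_le_log ?_ ?_) (B.L_pos n).le
    · exact_mod_cast card_pos.2 hJ
    · exact_mod_cast card_le_card h
  · have h1 : sz B n J = -1 := by unfold sz; rw [if_neg hJ]
    rw [h1]
    by_cases hJ' : J'.Nonempty
    · have := sz_nonneg B hJ'
      linarith
    · unfold sz
      rw [if_neg hJ']

theorem dpow_mul_le_iff (B : Base) {α : ℕ → Type*} {n : ℕ} {J J' : Finset (α n)} (hJ : J.Nonempty)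
    (hJ' : J'.Nonempty) {η : ℝ} :
    B.d n ^ η * ((J'.card : ℝ)) ≤ (J.card : ℝ) ↔ sz B n J' - sz B n J ≤ η := by
  have hL := B.L_pos n
  have h1 : (0 : ℝ) < J.card := by exact_mod_cast card_pos.2 hJ
  have h2 : (0 : ℝ) < J'.card := by exact_mod_cast card_pos.2 hJ'
  have hd := B.pos n
  unfold sz
  rw [if_pos hJ, if_pos hJ', ← sub_div, div_le_iff₀ hL,
    ← Real.log_le_log_iff (mul_pos (Real.rpow_pos_of_pos hd η) h2) h1,
    Real.log_mul (Real.rpow_pos_of_pos hd η).ne' h2.ne', Real.log_rpow hd]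
  have : B.L n = - Real.log (B.d n) := rfl
  rw [this]
  constructor <;> intro h <;> linarith

theorem dense_iff (hI : ∀ᶠ n in (U : Filter ℕ), (I n).Nonempty) :
    Dense B J I ↔ (∀ᶠ n in (U : Filter ℕ), J n ⊆ I n) ∧
      Tendsto (fun n => sz B n (I n) - sz B n (J n)) U (𝓝 0) := by
  constructor
  · intro h
    refine ⟨h.1, ?_⟩
    rw [Metric.tendsto_nhds]
    intro ε hε
    filter_upwards [h.1, h.2 (ε / 2) (by linarith), h.nonempty hI, hI] with n h1 h2 h3 h4
    rw [dpow_mul_le_iff B h3 h4] at h2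
    have h5 := sz_mono B h1
    rw [Real.dist_eq, sub_zero, abs_of_nonneg (by linarith)]
    linarith
  · rintro ⟨h1, h2⟩
    refine ⟨h1, fun η hη => ?_⟩
    rw [Metric.tendsto_nhds] at h2
    filter_upwards [h1, h2 (min η 1) (by positivity), hI] with n h3 h4 h5
    rw [Real.dist_eq, sub_zero] at h4
    have h6 := (le_abs_self _).trans_lt h4
    have hJ : (J n).Nonempty := by
      by_contra hne
      have h7 : sz B n (J n) = -1 := by unfold sz; rw [if_neg hne]
      have h8 := sz_nonneg B h5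
      have h9 := min_le_right η 1
      linarith
    rw [dpow_mul_le_iff B hJ h5]
    have h9 := min_le_left η 1
    linarith

/-- a part which is not dense is polynomially small. -/
theorem small_of_not_dense (h : ∀ᶠ n in (U : Filter ℕ), J n ⊆ I n) (hd : ¬ Dense B J I) :
    ∃ c : ℝ, 0 < c ∧ ∀ᶠ n in (U : Filter ℕ), ((J n).card : ℝ) < B.d n ^ c * ((I n).card : ℝ) := by
  by_contra hcon
  refine hd ⟨h, fun η hη => ?_⟩
  rcases ev_em (fun n => B.d n ^ η * ((I n).card : ℝ) ≤ ((J n).card : ℝ)) with h1 | h1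
  · exact h1
  · exact absurd ⟨η, hη, h1.mono fun n hn => not_le.1 hn⟩ hcon

theorem dpow_small (B : Base) {c : ℝ} (hc : 0 < c) {ε : ℝ} (hε : 0 < ε) :
    ∀ᶠ n in (U : Filter ℕ), B.d n ^ c < ε := by
  obtain ⟨e, he, h⟩ := Base.ev_lt_of_ex_lt (B := B) (Base.PB.dpow (c / 2)) (Base.PB.const hε)
    (by rw [Base.ex_dpow, Base.ex_const]; linarith)
  filter_upwards [h] with n hn
  have h1 : B.d n ^ c < B.d n ^ (c / 2) :=
    Real.rpow_lt_rpow_of_exponent_gt (B.pos n) (B.lt n) (by linarith)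
  have h2 := dpow_le_one B n he.le
  nlinarith

/-- the complement of a part which is not dense is dense. -/
theorem dense_sdiff [∀ n, DecidableEq (α n)] (h : ∀ᶠ n in (U : Filter ℕ), J n ⊆ I n)
    (hd : ¬ Dense B J I) : Dense B (fun n => I n \ J n) I := by
  obtain ⟨c, hc, h1⟩ := small_of_not_dense h hd
  refine dense_of_sub (S := fun _ => 2) (Base.Sub.const two_pos) ?_
  filter_upwards [h, h1, dpow_small B hc (ε := 1 / 2) (by norm_num)] with n h2 h3 h4
  refine ⟨sdiff_subset, ?_⟩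
  have h5 : ((I n \ J n).card : ℝ) = (I n).card - (J n).card := by
    rw [card_sdiff_of_subset h2, Nat.cast_sub (card_le_card h2)]
  rw [h5]
  have h6 : (0 : ℝ) ≤ (I n).card := Nat.cast_nonneg _
  nlinarith

theorem Dense.of_subset (h : Dense B J I) (h1 : ∀ᶠ n in (U : Filter ℕ), J n ⊆ J' n)
    (h2 : ∀ᶠ n in (U : Filter ℕ), J' n ⊆ I n) : Dense B J' I := by
  refine ⟨h2, fun η hη => ?_⟩
  filter_upwards [h1, h.2 η hη] with n h3 h4
  exact h4.trans (by exact_mod_cast card_le_card h3)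

/-- a dense part of `I` inside `J` is dense in `J`. -/
theorem Dense.mid (h : Dense B J I) (h1 : ∀ᶠ n in (U : Filter ℕ), J n ⊆ J' n)
    (h2 : ∀ᶠ n in (U : Filter ℕ), J' n ⊆ I n) : Dense B J J' := by
  refine ⟨h1, fun η hη => ?_⟩
  filter_upwards [h2, h.2 η hη] with n h3 h4
  refine le_trans ?_ h4
  exact mul_le_mul_of_nonneg_left (by exact_mod_cast card_le_card h3) (dpow_pos B n η).le

/-- one of two parts covering a dense part is dense. -/
theorem dense_or [∀ n, DecidableEq (α n)] {J₁ J₂ : ∀ n, Finset (α n)} (h : Dense B J I)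
    (h1 : ∀ᶠ n in (U : Filter ℕ), J₁ n ⊆ I n) (h2 : ∀ᶠ n in (U : Filter ℕ), J₂ n ⊆ I n)
    (hc : ∀ᶠ n in (U : Filter ℕ), J n ⊆ J₁ n ∪ J₂ n) : Dense B J₁ I ∨ Dense B J₂ I := by
  by_contra hcon
  push Not at hcon
  obtain ⟨c1, hc1, h3⟩ := small_of_not_dense h1 hcon.1
  obtain ⟨c2, hc2, h4⟩ := small_of_not_dense h2 hcon.2
  have hm : 0 < min c1 c2 := lt_min hc1 hc2
  rcases ev_em (fun n => (I n).Nonempty) with hne | hne
  · obtain ⟨n, h5, h6, h7, h8, h9, h10⟩ := ((h.2 (min c1 c2 / 2) (by linarith)).and <| h3.and <|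
      h4.and <| (dpow_small B (c := min c1 c2 / 2) (by linarith) (ε := 1 / 2) (by norm_num)).and <|
      hc.and hne).exists
    have h11 : ((J n).card : ℝ) ≤ (J₁ n).card + (J₂ n).card := by
      exact_mod_cast (card_le_card h9).trans (card_union_le _ _)
    have hI : (0 : ℝ) < (I n).card := by exact_mod_cast card_pos.2 h10
    have e1 : B.d n ^ c1 ≤ B.d n ^ (min c1 c2) := dpow_le B n (min_le_left _ _)
    have e2 : B.d n ^ c2 ≤ B.d n ^ (min c1 c2) := dpow_le B n (min_le_right _ _)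
    have e3 : B.d n ^ (min c1 c2) = B.d n ^ (min c1 c2 / 2) * B.d n ^ (min c1 c2 / 2) := by
      rw [← dpow_add]; congr 1; ring
    have hp := dpow_pos B n (min c1 c2 / 2)
    have h12 : ((J n).card : ℝ) < 2 * (B.d n ^ (min c1 c2) * (I n).card) := by
      have a1 := mul_le_mul_of_nonneg_right e1 hI.le
      have a2 := mul_le_mul_of_nonneg_right e2 hI.le
      linarith
    have h13 : 2 * (B.d n ^ (min c1 c2) * (I n).card) ≤ B.d n ^ (min c1 c2 / 2) * (I n).card := by
      rw [e3]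
      have : B.d n ^ (min c1 c2 / 2) * B.d n ^ (min c1 c2 / 2) ≤
          B.d n ^ (min c1 c2 / 2) * (1 / 2) := mul_le_mul_of_nonneg_left h8.le hp.le
      nlinarith
    linarith
  · apply hcon.1
    refine ⟨h1, fun η hη => ?_⟩
    filter_upwards [hne] with n hn
    rw [not_nonempty_iff_eq_empty.1 hn]
    simp

end DenseLemmas

/-! ## Monotone functionals and stability -/

section Stable

variable {B : Base} {α : ℕ → Type*}

/-- `Φ` is a positive monotone functional with polynomial bounds on the nonempty subsets of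
`I₀`. -/
structure MonoF (B : Base) {α : ℕ → Type*} (I₀ : ∀ n, Finset (α n))
    (Φ : ∀ n, Finset (α n) → ℝ) : Prop where
  mono : ∀ᶠ n in (U : Filter ℕ), ∀ J J' : Finset (α n), J.Nonempty → J ⊆ J' → J' ⊆ I₀ n →
    Φ n J ≤ Φ n J'
  bd : ∃ C : ℝ, ∀ᶠ n in (U : Filter ℕ), ∀ J : Finset (α n), J.Nonempty → J ⊆ I₀ n →
    B.d n ^ C ≤ Φ n J ∧ Φ n J ≤ B.d n ^ (-C)

/-- the exponent of `Φ` is the same for all dense parts of `I`. -/
def StableF (B : Base) {α : ℕ → Type*} (Φ : ∀ n, Finset (α n) → ℝ) (I : ∀ n, Finset (α n)) :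
    Prop :=
  ∀ J : ∀ n, Finset (α n), Dense B J I → B.ex (fun n => Φ n (J n)) = B.ex (fun n => Φ n (I n))

theorem StableF.dense {Φ : ∀ n, Finset (α n) → ℝ} {I J : ∀ n, Finset (α n)} (h : StableF B Φ I)
    (hJ : Dense B J I) : StableF B Φ J := by
  intro J' hJ'
  rw [h J' (hJ'.trans hJ), h J hJ]

theorem MonoF.restrict {I₀ I₁ : ∀ n, Finset (α n)} {Φ : ∀ n, Finset (α n) → ℝ}
    (h : MonoF B I₀ Φ) (h1 : ∀ᶠ n in (U : Filter ℕ), I₁ n ⊆ I₀ n) : MonoF B I₁ Φ := by
  obtain ⟨C, hC⟩ := h.bd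
  refine ⟨?_, C, ?_⟩
  · filter_upwards [h.mono, h1] with n a b J J' hJ h2 h3 using a J J' hJ h2 (h3.trans b)
  · filter_upwards [hC, h1] with n a b J hJ h2 using a J hJ (h2.trans b)

theorem MonoF.pb {I₀ J : ∀ n, Finset (α n)} {Φ : ∀ n, Finset (α n) → ℝ}
    (h : MonoF B I₀ Φ) (h1 : ∀ᶠ n in (U : Filter ℕ), J n ⊆ I₀ n)
    (h2 : ∀ᶠ n in (U : Filter ℕ), (J n).Nonempty) : B.PB (fun n => Φ n (J n)) := by
  obtain ⟨C, hC⟩ := h.bd
  refine Base.PB.of_bounds (C := C) ?_ ?_
  · filter_upwards [hC, h1, h2] with n a b c using (a _ c b).1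
  · filter_upwards [hC, h1, h2] with n a b c using (a _ c b).2

theorem MonoF.ex_le {I₀ J J' : ∀ n, Finset (α n)} {Φ : ∀ n, Finset (α n) → ℝ}
    (h : MonoF B I₀ Φ) (h1 : ∀ᶠ n in (U : Filter ℕ), J n ⊆ J' n)
    (h2 : ∀ᶠ n in (U : Filter ℕ), J' n ⊆ I₀ n)
    (h3 : ∀ᶠ n in (U : Filter ℕ), (J n).Nonempty) :
    B.ex (fun n => Φ n (J n)) ≤ B.ex (fun n => Φ n (J' n)) := by
  have h4 : ∀ᶠ n in (U : Filter ℕ), J n ⊆ I₀ n := by
    filter_upwards [h1, h2] with n a b using a.trans b
  have h5 : ∀ᶠ n in (U : Filter ℕ), (J' n).Nonempty := by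
    filter_upwards [h1, h3] with n a b using b.mono a
  refine Base.ex_le (h.pb h4 h3) (h.pb h2 h5) ?_
  filter_upwards [h.mono, h1, h2, h3] with n a b c e using a _ _ e b c

/-- a part on which `Φ` has a smaller exponent is not dense. -/
theorem StableF.not_dense {I J : ∀ n, Finset (α n)} {Φ : ∀ n, Finset (α n) → ℝ}
    (h : StableF B Φ I) (hlt : B.ex (fun n => Φ n (J n)) < B.ex (fun n => Φ n (I n))) :
    ¬ Dense B J I := fun hd => absurd (h J hd) hlt.ne

/-- **Typical = maximal.** If every nonempty part of `J` has functional `≤ X` with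
`ex X < ex Φ(I)`, then `J` is not dense. -/
theorem StableF.not_dense_of_le {I J : ∀ n, Finset (α n)} {Φ : ∀ n, Finset (α n) → ℝ}
    (h : StableF B Φ I) (hΦ : MonoF B I Φ) (hI : ∀ᶠ n in (U : Filter ℕ), (I n).Nonempty)
    {X : ℕ → ℝ} (hX : B.PB X) (hXl : B.ex X < B.ex (fun n => Φ n (I n)))
    (hJ : ∀ᶠ n in (U : Filter ℕ), (J n).Nonempty → Φ n (J n) ≤ X n) : ¬ Dense B J I := by
  intro hd
  have hne := hd.nonempty hI
  have h1 : B.ex (fun n => Φ n (J n)) ≤ B.ex X := by
    refine Base.ex_le (hΦ.pb hd.1 hne) hX ?_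
    filter_upwards [hJ, hne] with n a b using a b
  exact absurd (h J hd) (h1.trans_lt hXl).ne

/-- the clamped normalised logarithm of `Φ`. -/
noncomputable def clampF (B : Base) (I₀ : ∀ n, Finset (α n)) (Φ : ∀ n, Finset (α n) → ℝ) (C : ℝ)
    (n : ℕ) (J : Finset (α n)) : ℝ :=
  open Classical in
  if J.Nonempty then
    if J ⊆ I₀ n ∧ (∀ J J' : Finset (α n), J.Nonempty → J ⊆ J' → J' ⊆ I₀ n → Φ n J ≤ Φ n J') ∧
        (∀ J : Finset (α n), J.Nonempty → J ⊆ I₀ n → B.d n ^ C ≤ Φ n J ∧ Φ n J ≤ B.d n ^ (-C)) then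
      Real.log (Φ n J) / B.L n
    else |C|
  else -|C|

theorem log_bd (B : Base) {n : ℕ} {C X : ℝ} (h1 : B.d n ^ C ≤ X) (h2 : X ≤ B.d n ^ (-C)) :
    |Real.log X / B.L n| ≤ |C| := by
  have hL := B.L_pos n
  have hd := B.pos n
  have hX : 0 < X := (Real.rpow_pos_of_pos hd C).trans_le h1
  have e1 := Real.log_le_log (Real.rpow_pos_of_pos hd C) h1
  have e2 := Real.log_le_log hX h2
  rw [Real.log_rpow hd] at e1 e2
  have e3 : Real.log (B.d n) = - B.L n := by
    have : B.L n = - Real.log (B.d n) := rfl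
    rw [this]; ring
  rw [e3] at e1 e2
  rw [abs_div, abs_of_pos hL, div_le_iff₀ hL, abs_le]
  have h3 := mul_le_mul_of_nonneg_right (le_abs_self C) hL.le
  constructor <;> nlinarith

theorem clampF_abs_le (I₀ : ∀ n, Finset (α n)) (Φ : ∀ n, Finset (α n) → ℝ) (C : ℝ)
    (n : ℕ) (J : Finset (α n)) : |clampF B I₀ Φ C n J| ≤ |C| := by
  classical
  unfold clampF
  split_ifs with h1 h2
  · exact log_bd B (h2.2.2 J h1 h2.1).1 (h2.2.2 J h1 h2.1).2
  · rw [abs_abs]
  · rw [abs_neg, abs_abs]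

theorem clampF_mono (I₀ : ∀ n, Finset (α n)) (Φ : ∀ n, Finset (α n) → ℝ) (C : ℝ)
    {n : ℕ} {J J' : Finset (α n)} (h : J ⊆ J') : clampF B I₀ Φ C n J ≤ clampF B I₀ Φ C n J' := by
  classical
  have hL := B.L_pos n
  by_cases hJ : J.Nonempty
  · have hJ' := hJ.mono h
    by_cases h2 : J' ⊆ I₀ n ∧ (∀ J J' : Finset (α n), J.Nonempty → J ⊆ J' → J' ⊆ I₀ n →
        Φ n J ≤ Φ n J') ∧
        (∀ J : Finset (α n), J.Nonempty → J ⊆ I₀ n → B.d n ^ C ≤ Φ n J ∧ Φ n J ≤ B.d n ^ (-C))
    · have h3 : J ⊆ I₀ n := h.trans h2.1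
      have h4 := h2.2.2 J hJ h3
      unfold clampF
      rw [if_pos hJ, if_pos hJ', if_pos h2, if_pos ⟨h3, h2.2⟩]
      refine div_le_div_of_nonneg_right (Real.log_le_log ?_ (h2.2.1 J J' hJ h h2.1)) hL.le
      exact (Real.rpow_pos_of_pos (B.pos n) C).trans_le h4.1
    · have h5 : clampF B I₀ Φ C n J' = |C| := by
        unfold clampF
        rw [if_pos hJ', if_neg h2]
      rw [h5]
      exact (le_abs_self _).trans (clampF_abs_le I₀ Φ C n J)
  · have h5 : clampF B I₀ Φ C n J = -|C| := by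
      unfold clampF
      rw [if_neg hJ]
    rw [h5]
    exact (abs_le.1 (clampF_abs_le I₀ Φ C n J')).1

/-- **A dense part which is stable for countably many functionals.** -/
theorem exists_stableF {I₀ : ∀ n, Finset (α n)} (hI₀ : ∀ᶠ n in (U : Filter ℕ), (I₀ n).Nonempty)
    (Φ : ℕ → ∀ n, Finset (α n) → ℝ) (hΦ : ∀ j, MonoF B I₀ (Φ j)) :
    ∃ I : ∀ n, Finset (α n), Dense B I I₀ ∧ ∀ j, StableF B (Φ j) I := by
  classical
  choose C hC using fun j => (hΦ j).bd
  obtain ⟨I, h1, h2, h3⟩ := exists_stable (α := fun n => Finset (α n))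
    (fun n J J' => J' ⊆ J) (fun n J J' => sz B n J - sz B n J')
    (fun j n J => clampF B I₀ (Φ j) (C j) n J) (fun j => |C j|)
    (fun n J => ⟨Finset.Subset.refl _, by simp⟩)
    (fun n a b e hab hbe => ⟨hbe.trans hab, by linarith⟩)
    (fun n a b hab => by have := sz_mono B hab; linarith)
    (fun j n J => clampF_abs_le I₀ (Φ j) (C j) n J)
    (fun j n a b hab => by
      have e1 := clampF_mono (B := B) I₀ (Φ j) (C j) hab
      have e2 := sz_mono B hab
      linarith) I₀
  have hd : Dense B I I₀ := (dense_iff hI₀).2 ⟨h1, h2⟩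
  have hIne := hd.nonempty hI₀
  refine ⟨I, hd, fun j J hJ => ?_⟩
  have hJne := hJ.nonempty hIne
  have h4 := h3 J hJ.1 ((dense_iff hIne).1 hJ).2 j
  have hval : ∀ K : ∀ n, Finset (α n), (∀ᶠ n in (U : Filter ℕ), K n ⊆ I₀ n) →
      (∀ᶠ n in (U : Filter ℕ), (K n).Nonempty) → ∀ᶠ n in (U : Filter ℕ),
      clampF B I₀ (Φ j) (C j) n (K n) = B.lg (fun n => Φ j n (K n)) n := by
    intro K hK hKne
    filter_upwards [hK, hKne, (hΦ j).mono, hC j] with n a b c e
    unfold clampF
    rw [if_pos b, if_pos ⟨a, c, e⟩]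
    rfl
  have hJ0 : ∀ᶠ n in (U : Filter ℕ), J n ⊆ I₀ n := (hJ.trans hd).1
  have t1 := ((hΦ j).pb hJ0 hJne).tendsto
  have t2 := ((hΦ j).pb hd.1 hIne).tendsto
  have t3 := t1.sub t2
  have t4 : Tendsto (fun n => B.lg (fun n => Φ j n (J n)) n - B.lg (fun n => Φ j n (I n)) n) U
      (𝓝 0) := by
    refine h4.congr' ?_
    filter_upwards [hval J hJ0 hJne, hval I hd.1 hIne] with n a b
    rw [a, b]
  have := tendsto_nhds_unique t3 t4
  linarith

end Stable

/-! ## The functionals: cardinalities -/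

section Counts

variable {B : Base} {α κ κ' : ℕ → Type*}

open Classical in
/-- maximal number of `f`-classes in a `g`-class. -/
noncomputable def nmax {α κ κ' : Type*} (g : α → κ) (f : α → κ') (J : Finset α) : ℕ :=
  J.sup fun x => ((J.filter fun y => g y = g x).image f).card

open Classical in
/-- number of `f`-classes. -/
noncomputable def ncl {α κ' : Type*} (f : α → κ') (J : Finset α) : ℕ := (J.image f).card

open Classical in
/-- maximal size of a `g`-class. -/
noncomputable def cmax {α κ : Type*} (g : α → κ) (J : Finset α) : ℕ :=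
  J.sup fun x => (J.filter fun y => g y = g x).card

theorem ncl_mono {α κ' : Type*} (f : α → κ') {J J' : Finset α} (h : J ⊆ J') :
    ncl f J ≤ ncl f J' := by
  classical
  exact card_le_card (image_subset_image h)

theorem nmax_mono {α κ κ' : Type*} (g : α → κ) (f : α → κ') {J J' : Finset α} (h : J ⊆ J') :
    nmax g f J ≤ nmax g f J' := by
  classical
  unfold nmax
  refine Finset.sup_le fun x hx => ?_
  refine le_trans (card_le_card (image_subset_image (filter_subset_filter _ h))) ?_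
  exact Finset.le_sup (f := fun x => ((J'.filter fun y => g y = g x).image f).card) (h hx)

theorem cmax_mono {α κ : Type*} (g : α → κ) {J J' : Finset α} (h : J ⊆ J') :
    cmax g J ≤ cmax g J' := by
  classical
  unfold cmax
  refine Finset.sup_le fun x hx => ?_
  refine le_trans (card_le_card (filter_subset_filter _ h)) ?_
  exact Finset.le_sup (f := fun x => (J'.filter fun y => g y = g x).card) (h hx)

theorem le_nmax {α κ κ' : Type*} (g : α → κ) (f : α → κ') [DecidableEq κ] [DecidableEq κ']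
    {J : Finset α} {x : α}
    (hx : x ∈ J) : ((J.filter fun y => g y = g x).image f).card ≤ nmax g f J := by
  classical
  unfold nmax
  refine le_of_eq_of_le ?_ (Finset.le_sup hx)
  congr!

theorem le_cmax {α κ : Type*} (g : α → κ) [DecidableEq κ] {J : Finset α} {x : α}
    (hx : x ∈ J) : (J.filter fun y => g y = g x).card ≤ cmax g J := by
  classical
  unfold cmax
  refine le_of_eq_of_le ?_ (Finset.le_sup hx)
  congr!

theorem cmax_le {α κ : Type*} (g : α → κ) [DecidableEq κ] {J : Finset α} {m : ℕ}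
    (h : ∀ x ∈ J, (J.filter fun y => g y = g x).card ≤ m) : cmax g J ≤ m := by
  classical
  unfold cmax
  refine Finset.sup_le fun x hx => le_of_eq_of_le ?_ (h x hx)
  congr!

theorem nmax_le {α κ κ' : Type*} (g : α → κ) (f : α → κ') [DecidableEq κ] [DecidableEq κ']
    {J : Finset α} {m : ℕ}
    (h : ∀ x ∈ J, ((J.filter fun y => g y = g x).image f).card ≤ m) : nmax g f J ≤ m := by
  classical
  unfold nmax
  refine Finset.sup_le fun x hx => le_of_eq_of_le ?_ (h x hx)
  congr!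

theorem one_le_ncl {α κ' : Type*} (f : α → κ') {J : Finset α} (h : J.Nonempty) : 1 ≤ ncl f J := by
  classical
  exact card_pos.2 (h.image f)

theorem one_le_cmax {α κ : Type*} (g : α → κ) {J : Finset α} (h : J.Nonempty) : 1 ≤ cmax g J := by
  classical
  obtain ⟨x, hx⟩ := h
  refine le_trans ?_ (le_cmax g hx)
  exact card_pos.2 ⟨x, mem_filter.2 ⟨hx, rfl⟩⟩

theorem one_le_nmax {α κ κ' : Type*} (g : α → κ) (f : α → κ') {J : Finset α} (h : J.Nonempty) :
    1 ≤ nmax g f J := by
  classical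
  obtain ⟨x, hx⟩ := h
  refine le_trans ?_ (le_nmax g f hx)
  exact card_pos.2 ⟨f x, mem_image.2 ⟨x, mem_filter.2 ⟨hx, rfl⟩, rfl⟩⟩

theorem ncl_le_card {α κ' : Type*} (f : α → κ') (J : Finset α) : ncl f J ≤ J.card := by
  classical
  exact card_image_le

theorem cmax_le_card {α κ : Type*} (g : α → κ) (J : Finset α) : cmax g J ≤ J.card := by
  classical
  exact cmax_le g fun x hx => card_filter_le _ _

theorem nmax_le_card {α κ κ' : Type*} (g : α → κ) (f : α → κ') (J : Finset α) :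
    nmax g f J ≤ J.card := by
  classical
  exact nmax_le g f fun x hx => card_image_le.trans (card_filter_le _ _)

/-- the whole is at most classes times maximal class. -/
theorem card_le_ncl_mul_cmax {α κ : Type*} (g : α → κ) (J : Finset α) :
    J.card ≤ ncl g J * cmax g J := by
  classical
  have h1 : J.card = ∑ k ∈ J.image g, (J.filter fun y => g y = k).card :=
    card_eq_sum_card_image g J
  rw [h1]
  unfold ncl
  rw [← smul_eq_mul]
  refine sum_le_card_nsmul _ _ _ fun k hk => ?_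
  obtain ⟨x, hx, rfl⟩ := mem_image.1 hk
  exact le_cmax g hx

/-- the fine classes are at most coarse classes times maximal inner count. -/
theorem ncl_le_ncl_mul_nmax {α κ κ' : Type*} (g : α → κ) (f : α → κ') (J : Finset α) :
    ncl f J ≤ ncl g J * nmax g f J := by
  classical
  unfold ncl
  have h1 : J.image f ⊆ (J.image g).biUnion fun k => (J.filter fun y => g y = k).image f := by
    intro b hb
    obtain ⟨x, hx, rfl⟩ := mem_image.1 hb
    refine mem_biUnion.2 ⟨g x, mem_image_of_mem g hx, ?_⟩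
    exact mem_image.2 ⟨x, mem_filter.2 ⟨hx, rfl⟩, rfl⟩
  refine (card_le_card h1).trans (card_biUnion_le.trans ?_)
  rw [← smul_eq_mul]
  refine sum_le_card_nsmul _ _ _ fun k hk => ?_
  obtain ⟨x, hx, rfl⟩ := mem_image.1 hk
  exact le_nmax g f hx

theorem monoF_of_count {I₀ : ∀ n, Finset (α n)} {Φ : ∀ n, Finset (α n) → ℕ}
    (hmono : ∀ n, ∀ J J' : Finset (α n), J ⊆ J' → Φ n J ≤ Φ n J')
    (h1 : ∀ n, ∀ J : Finset (α n), J.Nonempty → 1 ≤ Φ n J)
    (h2 : ∀ n, ∀ J : Finset (α n), Φ n J ≤ J.card)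
    (hI : B.PB (fun n => ((I₀ n).card : ℝ))) : MonoF B I₀ (fun n J => (Φ n J : ℝ)) := by
  obtain ⟨C, hC, h3, h4⟩ := hI.bounds
  refine ⟨Eventually.of_forall fun n J J' _ h _ => by exact_mod_cast hmono n J J' h, C, ?_⟩
  filter_upwards [h4] with n h5 J hJ hs
  have e1 : (1 : ℝ) ≤ Φ n J := by exact_mod_cast h1 n J hJ
  have e2 : (Φ n J : ℝ) ≤ (I₀ n).card := by exact_mod_cast (h2 n J).trans (card_le_card hs)
  exact ⟨(dpow_le_one B n hC.le).trans e1, e2.trans h5⟩

theorem monoF_ncl {I₀ : ∀ n, Finset (α n)} (hI : B.PB (fun n => ((I₀ n).card : ℝ)))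
    (f : ∀ n, α n → κ n) : MonoF B I₀ (fun n J => (ncl (f n) J : ℝ)) :=
  monoF_of_count (Φ := fun n J => ncl (f n) J) (fun n J J' h => ncl_mono _ h)
    (fun n J h => one_le_ncl _ h) (fun n J => ncl_le_card _ _) hI

theorem monoF_cmax {I₀ : ∀ n, Finset (α n)} (hI : B.PB (fun n => ((I₀ n).card : ℝ)))
    (f : ∀ n, α n → κ n) : MonoF B I₀ (fun n J => (cmax (f n) J : ℝ)) :=
  monoF_of_count (Φ := fun n J => cmax (f n) J) (fun n J J' h => cmax_mono _ h)
    (fun n J h => one_le_cmax _ h) (fun n J => cmax_le_card _ _) hI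

theorem monoF_nmax {I₀ : ∀ n, Finset (α n)} (hI : B.PB (fun n => ((I₀ n).card : ℝ)))
    (g : ∀ n, α n → κ n) (f : ∀ n, α n → κ' n) :
    MonoF B I₀ (fun n J => (nmax (g n) (f n) J : ℝ)) :=
  monoF_of_count (Φ := fun n J => nmax (g n) (f n) J) (fun n J J' h => nmax_mono _ _ h)
    (fun n J h => one_le_nmax _ _ h) (fun n J => nmax_le_card _ _ _) hI

/-- `ex` of the cardinality is the same for dense parts. -/
theorem ex_card_dense {I J : ∀ n, Finset (α n)} (hI : B.PB (fun n => ((I n).card : ℝ)))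
    (h : Dense B J I) : B.PB (fun n => ((J n).card : ℝ)) ∧
      B.ex (fun n => ((J n).card : ℝ)) = B.ex (fun n => ((I n).card : ℝ)) := by
  have hne : ∀ᶠ n in (U : Filter ℕ), (I n).Nonempty := by
    filter_upwards [hI.pos] with n hn
    exact card_pos.1 (by exact_mod_cast hn)
  have hJne := h.nonempty hne
  obtain ⟨C, hC, h3, h4⟩ := hI.bounds
  have hJ : B.PB (fun n => ((J n).card : ℝ)) := by
    refine Base.PB.of_bounds (C := C) ?_ ?_
    · filter_upwards [hJne] with n a
      have : (1 : ℝ) ≤ (J n).card := by exact_mod_cast card_pos.2 a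
      exact (dpow_le_one B n hC.le).trans this
    · filter_upwards [h4, h.1] with n a b
      exact le_trans (by exact_mod_cast card_le_card b) a
  refine ⟨hJ, le_antisymm (Base.ex_le hJ hI ?_) ?_⟩
  · filter_upwards [h.1] with n a
    exact_mod_cast card_le_card a
  · refine le_of_forall_pos_le_add fun ε hε => ?_
    have h5 := Base.ex_le (B := B) ((Base.PB.dpow ε).mul hI) hJ (h.2 ε hε)
    rw [Base.ex_mul (Base.PB.dpow ε) hI, Base.ex_dpow] at h5
    linarith

/-- a partition is uniform: the exponent of the maximal class plus that of the number of classes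
is the exponent of the whole. -/
def Unif (B : Base) {α κ : ℕ → Type*} (f : ∀ n, α n → κ n) (I : ∀ n, Finset (α n)) : Prop :=
  B.ex (fun n => (ncl (f n) (I n) : ℝ)) + B.ex (fun n => (cmax (f n) (I n) : ℝ)) =
    B.ex (fun n => ((I n).card : ℝ))

/-- **Uniformity is stable.** -/
theorem Unif.dense {f : ∀ n, α n → κ n} {I J : ∀ n, Finset (α n)}
    (hI : B.PB (fun n => ((I n).card : ℝ))) (h : Unif B f I) (hJ : Dense B J I) :
    Unif B f J ∧ B.ex (fun n => (ncl (f n) (J n) : ℝ)) = B.ex (fun n => (ncl (f n) (I n) : ℝ)) ∧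
      B.ex (fun n => (cmax (f n) (J n) : ℝ)) = B.ex (fun n => (cmax (f n) (I n) : ℝ)) := by
  have hne : ∀ᶠ n in (U : Filter ℕ), (I n).Nonempty := by
    filter_upwards [hI.pos] with n hn
    exact card_pos.1 (by exact_mod_cast hn)
  have hJne := hJ.nonempty hne
  obtain ⟨hJ1, hJ2⟩ := ex_card_dense hI hJ
  have hrefl : ∀ᶠ n in (U : Filter ℕ), I n ⊆ I n := Eventually.of_forall fun n => Subset.refl _
  have m1 := monoF_ncl hI f
  have m2 := monoF_cmax hI f
  have a1 := m1.ex_le hJ.1 hrefl hJne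
  have a2 := m2.ex_le hJ.1 hrefl hJne
  have a3 : B.ex (fun n => ((J n).card : ℝ)) ≤ B.ex (fun n => (ncl (f n) (J n) : ℝ)) +
      B.ex (fun n => (cmax (f n) (J n) : ℝ)) := by
    rw [← Base.ex_mul (m1.pb hJ.1 hJne) (m2.pb hJ.1 hJne)]
    refine Base.ex_le hJ1 ((m1.pb hJ.1 hJne).mul (m2.pb hJ.1 hJne)) ?_
    exact Eventually.of_forall fun n => by exact_mod_cast card_le_ncl_mul_cmax (f n) (J n)
  unfold Unif at h ⊢
  rw [hJ2] at a3 ⊢
  refine ⟨?_, ?_, ?_⟩ <;> linarith

open Classical in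
/-- in a uniform partition the incidences of polynomially smaller classes are negligible; what
remains is dense with classes of size `≥ d^η #I / #classes`. -/
theorem Unif.exists_dense {f : ∀ n, α n → κ n} {I : ∀ n, Finset (α n)}
    (hI : B.PB (fun n => ((I n).card : ℝ))) (h : Unif B f I) {m : ℝ}
    (hm : m < B.ex (fun n => (cmax (f n) (I n) : ℝ))) :
    ∃ c : ℝ, 0 < c ∧ ∀ᶠ n in (U : Filter ℕ),
      (((I n).filter fun x => (((I n).filter fun y => f n y = f n x).card : ℝ) < B.d n ^ (-m)).card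
        : ℝ) ≤ B.d n ^ c * (I n).card := by
  have hne : ∀ᶠ n in (U : Filter ℕ), (I n).Nonempty := by
    filter_upwards [hI.pos] with n hn
    exact card_pos.1 (by exact_mod_cast hn)
  have hrefl : ∀ᶠ n in (U : Filter ℕ), I n ⊆ I n := Eventually.of_forall fun n => Subset.refl _
  have m1 := (monoF_ncl hI f).pb hrefl hne
  have m2 := (monoF_cmax hI f).pb hrefl hne
  set c : ℝ := (B.ex (fun n => (cmax (f n) (I n) : ℝ)) - m) / 2 with hc
  have hc0 : 0 < c := by rw [hc]; linarith
  refine ⟨c, hc0, ?_⟩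
  obtain ⟨e, he, h1⟩ : ∃ e : ℝ, 0 < e ∧ ∀ᶠ n in (U : Filter ℕ),
      (ncl (f n) (I n) : ℝ) * B.d n ^ (-m) ≤ B.d n ^ e * (B.d n ^ c * (I n).card) := by
    refine Base.ev_lt_of_ex_lt (m1.mul (Base.PB.dpow (-m))) ((Base.PB.dpow c).mul hI) ?_
    rw [Base.ex_mul m1 (Base.PB.dpow _), Base.ex_mul (Base.PB.dpow _) hI, Base.ex_dpow,
      Base.ex_dpow]
    unfold Unif at h
    linarith
  filter_upwards [h1] with n h2
  refine le_trans ?_ (h2.trans (mul_le_of_le_one_left ?_ (dpow_le_one B n he.le)))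
  swap
  · exact mul_nonneg (dpow_pos B n c).le (Nat.cast_nonneg _)
  set A := (I n).filter fun x => (((I n).filter fun y => f n y = f n x).card : ℝ) < B.d n ^ (-m)
    with hA
  have h3 : A.card = ∑ k ∈ A.image (f n), (A.filter fun y => f n y = k).card :=
    card_eq_sum_card_image (f n) A
  rw [h3]
  push_cast
  have h4 : ∀ k ∈ A.image (f n), ((A.filter fun y => f n y = k).card : ℝ) ≤ B.d n ^ (-m) := by
    intro k hk
    obtain ⟨x, hx, rfl⟩ := mem_image.1 hk
    have hx2 := (mem_filter.1 hx).2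
    refine le_trans ?_ hx2.le
    exact_mod_cast card_le_card (filter_subset_filter _ (filter_subset _ _))
  refine (sum_le_card_nsmul _ _ _ h4).trans ?_
  rw [nsmul_eq_mul]
  refine mul_le_mul_of_nonneg_right ?_ (dpow_pos B n _).le
  have h5 : (A.image (f n)).card ≤ ncl (f n) (I n) :=
    card_le_card (image_subset_image (filter_subset _ _))
  exact_mod_cast h5

end Counts

/-! ## Plank systems -/

/-- A plank system on incidences `α`: `ob x` is the object of `x` (for the level `v`: the pair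
(line, level-`v` cell)); the membership of an incidence in a plank depends on its object only. -/
structure PSys (α : Type*) where
  κ : Type
  ο : Type
  ob : α → ο
  mem : κ → ο → Prop
  vol : κ → ℝ
  v0 : ℝ
  v0_pos : 0 < v0
  v0_le : ∀ K, v0 ≤ vol K

namespace PSys

variable {α : Type*} (P : PSys α) {I J : Finset α}

theorem vol_pos (K : P.κ) : 0 < P.vol K := P.v0_pos.trans_le (P.v0_le K)

open Classical in
/-- the objects of `I` in the plank `K`. -/
noncomputable def objs (I : Finset α) (K : P.κ) : Finset P.ο := (I.image P.ob).filter (P.mem K)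

/-- density of `I` in the plank `K`. -/
noncomputable def dens (I : Finset α) (K : P.κ) : ℝ := ((P.objs I K).card : ℝ) / P.vol K

/-- maximal density. -/
noncomputable def Dmax (I : Finset α) : ℝ := ⨆ K, P.dens I K

theorem mem_objs {K : P.κ} {o : P.ο} : o ∈ P.objs I K ↔ (∃ x ∈ I, P.ob x = o) ∧ P.mem K o := by
  classical
  unfold objs
  rw [mem_filter, mem_image]

theorem objs_mono (h : I ⊆ J) (K : P.κ) : P.objs I K ⊆ P.objs J K := by
  intro o ho
  rw [mem_objs] at ho ⊢
  obtain ⟨⟨x, hx, rfl⟩, h2⟩ := ho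
  exact ⟨⟨x, h hx, rfl⟩, h2⟩

theorem objs_card_le (K : P.κ) : (P.objs I K).card ≤ I.card := by
  classical
  unfold objs
  exact (card_filter_le _ _).trans card_image_le

theorem dens_nonneg (K : P.κ) : 0 ≤ P.dens I K := div_nonneg (Nat.cast_nonneg _) (P.vol_pos K).le

theorem dens_mono (h : I ⊆ J) (K : P.κ) : P.dens I K ≤ P.dens J K :=
  div_le_div_of_nonneg_right (by exact_mod_cast card_le_card (P.objs_mono h K)) (P.vol_pos K).le

theorem dens_le_card_div (K : P.κ) : P.dens I K ≤ (I.card : ℝ) / P.v0 := by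
  unfold dens
  refine div_le_div₀ (Nat.cast_nonneg _) (by exact_mod_cast P.objs_card_le K) P.v0_pos (P.v0_le K)

theorem bddAbove (I : Finset α) : BddAbove (Set.range fun K => P.dens I K) := by
  refine ⟨(I.card : ℝ) / P.v0, ?_⟩
  rintro _ ⟨K, rfl⟩
  exact P.dens_le_card_div K

theorem dens_le_Dmax (I : Finset α) (K : P.κ) : P.dens I K ≤ P.Dmax I := le_ciSup (P.bddAbove I) K

theorem Dmax_nonneg (I : Finset α) : 0 ≤ P.Dmax I := Real.iSup_nonneg fun K => P.dens_nonneg K

theorem Dmax_le {D : ℝ} (hD : 0 ≤ D) (h : ∀ K, P.dens I K ≤ D) : P.Dmax I ≤ D :=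
  Real.iSup_le h hD

theorem Dmax_mono (h : I ⊆ J) : P.Dmax I ≤ P.Dmax J :=
  P.Dmax_le (P.Dmax_nonneg J) fun K => (P.dens_mono h K).trans (P.dens_le_Dmax J K)

theorem objs_card_le_Dmax (I : Finset α) (K : P.κ) :
    ((P.objs I K).card : ℝ) ≤ P.Dmax I * P.vol K := by
  have := P.dens_le_Dmax I K
  unfold dens at this
  rwa [div_le_iff₀ (P.vol_pos K)] at this

theorem exists_lt_dens {D : ℝ} (hD : 0 ≤ D) (h : D < P.Dmax I) : ∃ K, D < P.dens I K := by
  by_contra hcon
  push Not at hcon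
  exact absurd (P.Dmax_le hD hcon) (not_le.2 h)

end PSys

section PSysSeq

variable {B : Base} {α : ℕ → Type*}

/-- polynomial bounds of a sequence of plank systems over `I₀`. -/
def PAdm (B : Base) {α : ℕ → Type*} (P : ∀ n, PSys (α n)) (I₀ : ∀ n, Finset (α n)) : Prop :=
  ∃ C : ℝ, ∀ᶠ n in (U : Filter ℕ), B.d n ^ C ≤ (P n).v0 ∧ ((I₀ n).card : ℝ) ≤ B.d n ^ (-C) ∧
    ∀ x ∈ I₀ n, ∃ K, (P n).mem K ((P n).ob x) ∧ (P n).vol K ≤ B.d n ^ (-C)

theorem monoF_Dmax {I₀ : ∀ n, Finset (α n)} {P : ∀ n, PSys (α n)} (h : PAdm B P I₀) :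
    MonoF B I₀ (fun n J => (P n).Dmax J) := by
  obtain ⟨C, hC⟩ := h
  refine ⟨Eventually.of_forall fun n J J' _ h _ => (P n).Dmax_mono h, 2 * |C|, ?_⟩
  filter_upwards [hC] with n hn J hJ hJI
  obtain ⟨h1, h2, h3⟩ := hn
  have e1 : B.d n ^ |C| ≤ B.d n ^ C := dpow_le B n (le_abs_self C)
  have e2 : B.d n ^ (-C) ≤ B.d n ^ (-|C|) := dpow_le B n (by
    have := le_abs_self C; linarith)
  constructor
  · obtain ⟨x, hx⟩ := hJ
    obtain ⟨K, hK, hv⟩ := h3 x (hJI hx)
    have e3 : (1 : ℝ) ≤ ((P n).objs J K).card := by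
      have : 0 < ((P n).objs J K).card :=
        card_pos.2 ⟨(P n).ob x, ((P n).mem_objs).2 ⟨⟨x, hx, rfl⟩, hK⟩⟩
      exact_mod_cast this
    refine le_trans ?_ ((P n).dens_le_Dmax J K)
    unfold PSys.dens
    rw [le_div_iff₀ ((P n).vol_pos K)]
    refine le_trans ?_ e3
    have e4 : (P n).vol K ≤ B.d n ^ (-|C|) := hv.trans e2
    calc B.d n ^ (2 * |C|) * (P n).vol K ≤ B.d n ^ (2 * |C|) * B.d n ^ (-|C|) :=
          mul_le_mul_of_nonneg_left e4 (dpow_pos B n _).le
      _ = B.d n ^ |C| := by rw [← dpow_add]; congr 1; ring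
      _ ≤ 1 := dpow_le_one B n (abs_nonneg C)
  · refine (P n).Dmax_le (dpow_pos B n _).le fun K => ?_
    refine ((P n).dens_le_card_div K).trans ?_
    rw [div_le_iff₀ (P n).v0_pos]
    have e3 : (J.card : ℝ) ≤ B.d n ^ (-|C|) :=
      le_trans (by exact_mod_cast card_le_card hJI) (h2.trans e2)
    refine e3.trans ?_
    have e4 : B.d n ^ |C| ≤ (P n).v0 := e1.trans h1
    calc B.d n ^ (-|C|) = B.d n ^ (-(2 * |C|)) * B.d n ^ |C| := by
          rw [← dpow_add]; congr 1; ring
      _ ≤ B.d n ^ (-(2 * |C|)) * (P n).v0 := mul_le_mul_of_nonneg_left e4 (dpow_pos B n _).le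

/-- a plank of density `≤ X` around every incidence of `J`: if `ex X < ex Dmax`, `J` is not dense
(the label of an incidence is typically maximal). -/
theorem not_dense_of_label {I J : ∀ n, Finset (α n)} {P : ∀ n, PSys (α n)} (hP : PAdm B P I)
    (hI : ∀ᶠ n in (U : Filter ℕ), (I n).Nonempty)
    (hS : StableF B (fun n J => (P n).Dmax J) I) {X : ℕ → ℝ} (hX : B.PB X)
    (hXl : B.ex X < B.ex (fun n => (P n).Dmax (I n)))
    (hJ : ∀ᶠ n in (U : Filter ℕ), ∀ x ∈ J n, ∀ K, (P n).mem K ((P n).ob x) →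
      (P n).dens (I n) K ≤ X n) : ¬ Dense B J I := by
  intro hd
  refine hS.not_dense_of_le (monoF_Dmax hP) hI hX hXl ?_ hd
  filter_upwards [hJ, hX.pos, hd.1] with n h1 h2 h3 hne
  refine (P n).Dmax_le h2.le fun K => ?_
  by_cases h4 : ((P n).objs (J n) K).Nonempty
  · obtain ⟨o, ho⟩ := h4
    rw [(P n).mem_objs] at ho
    obtain ⟨⟨x, hx, rfl⟩, h5⟩ := ho
    exact ((P n).dens_mono h3 K).trans (h1 x hx K h5)
  · rw [not_nonempty_iff_eq_empty] at h4
    unfold PSys.dens
    rw [h4]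
    simp [h2.le]

end PSysSeq

end Crest.Agent.R138.Ps926
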