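import Mathlib

/-!
# R138: honest disjoint classes by greedy selection, converse, two-map pruning (helper627)

Finite combinatorics behind the calculus of the extremiser (helper926, msg 10298/10387): `ο` = objects
(pairs (line, level-`v` cell)), `κ` = planks (arbitrary index set), `mem K o` = the object lies in the
plank, `vol K > 0`.

* `greedy`       : (G) classes `cl : ο → Option κ`; every used plank keeps at least `t · vol K`
                   objects of its own, the residual has fewer than `t · vol K` objects in every plank.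
* `greedy_inc`   : the same for incidences `I` with `ob : α → ο` (classes depend on `ob` only).
* `greedy_sub`   : the assigned part `A ⊆ I`, total class map `cl : ο → κ`.
* `converse`     : (C) partition into classes of `≥ D vol K` objects ⇒ every part with `≥ δ` of the
                   objects has a plank with `≥ δ D vol K` objects.
* `converse_inc` : the same measured by incidences, with own multiplicities in `[n₁, n₂]`.
* `prune₂`, `prune₂_inc` : (P) two-map pruning (lines, classes).
* `num_cl_le`    : the number of classes is at most `#S / (t v₀)`.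
* `prune_rel`    : finitely many maps at once, class-dependent thresholds.
* `multi`, `multi'` : honest classes for finitely many plank systems simultaneously, one refinement.
-/

set_option autoImplicit false
set_option linter.unusedSectionVars false
set_option linter.unusedVariables false

open Finset

universe u

namespace Crest.Agent.R138.Ps627

open Classical in
/-- **(G) Greedy selection of honest disjoint classes.** -/
theorem greedy {ο κ : Type*} (mem : κ → ο → Prop) (vol : κ → ℝ) (hvol : ∀ K, 0 < vol K)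
    {t : ℝ} (ht : 0 < t) (S : Finset ο) :
    ∃ cl : ο → Option κ,
      (∀ o K, cl o = some K → o ∈ S ∧ mem K o) ∧
      (∀ o K, cl o = some K → t * vol K ≤ ((S.filter fun o' => cl o' = some K).card : ℝ)) ∧
      (∀ K, ((S.filter fun o => cl o = none ∧ mem K o).card : ℝ) < t * vol K) := by
  induction S using Finset.strongInduction with
  | H S ih =>
    by_cases hK : ∀ K, ((S.filter fun o => mem K o).card : ℝ) < t * vol K
    · refine ⟨fun _ => none, fun o K h => by simp at h, fun o K h => by simp at h, fun K => ?_⟩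
      simpa using hK K
    · push Not at hK
      obtain ⟨K₀, hK₀⟩ := hK
      have hpos : 0 < ((S.filter fun o => mem K₀ o).card : ℝ) :=
        lt_of_lt_of_le (mul_pos ht (hvol K₀)) hK₀
      have hpos' : 0 < (S.filter fun o => mem K₀ o).card := by exact_mod_cast hpos
      obtain ⟨o₀, ho₀⟩ := card_pos.1 hpos'
      rw [mem_filter] at ho₀
      set S' : Finset ο := S.filter fun o => ¬ mem K₀ o with hS'
      have hss : S' ⊂ S := by
        refine ⟨filter_subset _ _, fun h => ?_⟩
        have := h ho₀.1
        rw [hS', mem_filter] at this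
        exact this.2 ho₀.2
      obtain ⟨cl', h1, h2, h3⟩ := ih S' hss
      refine ⟨fun o => if o ∈ S ∧ mem K₀ o then some K₀ else cl' o, ?_, ?_, ?_⟩
      · intro o K h
        by_cases hc : o ∈ S ∧ mem K₀ o
        · simp only [hc, and_self, if_true] at h
          cases h
          exact hc
        · simp only [hc, if_false] at h
          obtain ⟨ha, hb⟩ := h1 o K h
          exact ⟨hss.1 ha, hb⟩
      · intro o K h
        by_cases hKK : K = K₀
        · subst hKK
          refine hK₀.trans ?_
          have : (S.filter fun o => mem K o) ⊆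
              S.filter fun o' => (if o' ∈ S ∧ mem K o' then some K else cl' o') = some K := by
            intro o' ho'
            rw [mem_filter] at ho' ⊢
            exact ⟨ho'.1, by simp [ho'.1, ho'.2]⟩
          exact_mod_cast card_le_card this
        · by_cases hc : o ∈ S ∧ mem K₀ o
          · simp only [hc, and_self, if_true] at h
            cases h
            exact absurd rfl hKK
          · simp only [hc, if_false] at h
            refine (h2 o K h).trans ?_
            have : (S'.filter fun o' => cl' o' = some K) ⊆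
                S.filter fun o' => (if o' ∈ S ∧ mem K₀ o' then some K₀ else cl' o') = some K := by
              intro o' ho'
              rw [mem_filter, hS', mem_filter] at ho'
              rw [mem_filter]
              refine ⟨ho'.1.1, ?_⟩
              have hn : ¬ (o' ∈ S ∧ mem K₀ o') := fun hh => ho'.1.2 hh.2
              simp only [hn, if_false]
              exact ho'.2
            exact_mod_cast card_le_card this
      · intro K
        refine lt_of_le_of_lt ?_ (h3 K)
        have : (S.filter fun o => (if o ∈ S ∧ mem K₀ o then some K₀ else cl' o) = none ∧ mem K o) ⊆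
            S'.filter fun o => cl' o = none ∧ mem K o := by
          intro o ho
          rw [mem_filter] at ho
          obtain ⟨ho1, ho2, ho3⟩ := ho
          by_cases hc : o ∈ S ∧ mem K₀ o
          · simp [hc] at ho2
          · simp only [hc, if_false] at ho2
            rw [mem_filter, hS', mem_filter]
            exact ⟨⟨ho1, fun hh => hc ⟨ho1, hh⟩⟩, ho2, ho3⟩
        exact_mod_cast card_le_card this

open Classical in
/-- **(G) for incidences**: the class of an incidence depends only on its object. -/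
theorem greedy_inc {α ο κ : Type*} (ob : α → ο) (mem : κ → ο → Prop) (vol : κ → ℝ)
    (hvol : ∀ K, 0 < vol K) {t : ℝ} (ht : 0 < t) (I : Finset α) :
    ∃ cl : ο → Option κ,
      (∀ o K, cl o = some K → o ∈ I.image ob ∧ mem K o) ∧
      (∀ o K, cl o = some K →
        t * vol K ≤ (((I.image ob).filter fun o' => cl o' = some K).card : ℝ)) ∧
      (∀ K, ((((I.filter fun x => cl (ob x) = none).image ob).filter fun o => mem K o).card : ℝ) <
        t * vol K) := by
  obtain ⟨cl, h1, h2, h3⟩ := greedy mem vol hvol ht (I.image ob)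
  refine ⟨cl, h1, h2, fun K => ?_⟩
  refine lt_of_le_of_lt ?_ (h3 K)
  have : (((I.filter fun x => cl (ob x) = none).image ob).filter fun o => mem K o) ⊆
      (I.image ob).filter fun o => cl o = none ∧ mem K o := by
    intro o ho
    rw [mem_filter, mem_image] at ho
    obtain ⟨⟨x, hx, rfl⟩, hm⟩ := ho
    rw [mem_filter] at hx
    rw [mem_filter]
    exact ⟨mem_image_of_mem _ hx.1, hx.2, hm⟩
  exact_mod_cast card_le_card this

open Classical in
/-- **(G), assigned part**: `A ⊆ I` carries an honest total class map; the rest `I \ A` is a union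
of object fibres and has fewer than `t · vol K` objects in every plank. -/
theorem greedy_sub {α ο κ : Type*} [Nonempty κ] (ob : α → ο) (mem : κ → ο → Prop) (vol : κ → ℝ)
    (hvol : ∀ K, 0 < vol K) {t : ℝ} (ht : 0 < t) (I : Finset α) :
    ∃ A ⊆ I, ∃ cl : ο → κ,
      (∀ x ∈ A, ∀ y ∈ I, ob y = ob x → y ∈ A) ∧
      (∀ x ∈ A, mem (cl (ob x)) (ob x)) ∧
      (∀ x ∈ A, t * vol (cl (ob x)) ≤
        (((A.image ob).filter fun o => cl o = cl (ob x)).card : ℝ)) ∧
      (∀ K, ((((I \ A).image ob).filter fun o => mem K o).card : ℝ) < t * vol K) := by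
  obtain ⟨cl, h1, h2, h3⟩ := greedy_inc ob mem vol hvol ht I
  have K₁ : κ := Classical.arbitrary κ
  refine ⟨I.filter fun x => cl (ob x) ≠ none, filter_subset _ _, fun o => (cl o).getD K₁,
    ?_, ?_, ?_, ?_⟩
  · intro x hx y hy hxy
    rw [mem_filter] at hx ⊢
    exact ⟨hy, by rw [hxy]; exact hx.2⟩
  · intro x hx
    rw [mem_filter] at hx
    obtain ⟨K, hK⟩ := Option.ne_none_iff_exists'.1 hx.2
    have := (h1 _ _ hK).2
    simp only [hK, Option.getD_some]
    exact this
  · intro x hx
    rw [mem_filter] at hx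
    obtain ⟨K, hK⟩ := Option.ne_none_iff_exists'.1 hx.2
    simp only [hK, Option.getD_some]
    refine (h2 _ _ hK).trans ?_
    have : ((I.image ob).filter fun o' => cl o' = some K) ⊆
        ((I.filter fun x => cl (ob x) ≠ none).image ob).filter fun o => (cl o).getD K₁ = K := by
      intro o ho
      rw [mem_filter, mem_image] at ho
      obtain ⟨⟨y, hy, rfl⟩, hcl⟩ := ho
      rw [mem_filter, mem_image]
      refine ⟨⟨y, ?_, rfl⟩, by simp [hcl]⟩
      rw [mem_filter]
      exact ⟨hy, by simp [hcl]⟩
    exact_mod_cast card_le_card this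
  · intro K
    have e : I \ (I.filter fun x => cl (ob x) ≠ none) = I.filter fun x => cl (ob x) = none := by
      ext x
      simp only [mem_sdiff, mem_filter, not_and, not_not]
      constructor
      · rintro ⟨a, b⟩; exact ⟨a, b a⟩
      · rintro ⟨a, b⟩; exact ⟨a, fun _ => b⟩
    rw [e]
    exact h3 K

open Classical in
/-- **(C) Converse.** A partition into classes of `≥ D · vol K` objects inside planks: every part
`T` with at least the portion `δ` of the objects has a plank with `≥ δ D · vol K` objects. -/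
theorem converse {ο κ : Type*} (mem : κ → ο → Prop) (vol : κ → ℝ) {S T : Finset ο} (hTS : T ⊆ S)
    (hS : S.Nonempty) (cl : ο → κ) (hmem : ∀ o ∈ T, mem (cl o) o) {D δ : ℝ} (hδ : 0 ≤ δ)
    (hD : ∀ o ∈ S, D * vol (cl o) ≤ ((S.filter fun o' => cl o' = cl o).card : ℝ))
    (hT : δ * (S.card : ℝ) ≤ (T.card : ℝ)) :
    ∃ o ∈ S, δ * D * vol (cl o) ≤ ((T.filter fun o' => mem (cl o) o').card : ℝ) := by
  have hsum : ∑ K ∈ S.image cl, (δ * ((S.filter fun o => cl o = K).card : ℝ)) ≤
      ∑ K ∈ S.image cl, ((T.filter fun o => cl o = K).card : ℝ) := by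
    have e1 : ∑ K ∈ S.image cl, ((S.filter fun o => cl o = K).card : ℝ) = (S.card : ℝ) := by
      rw [card_eq_sum_card_image cl S]; push_cast; rfl
    have e2 : ∑ K ∈ S.image cl, ((T.filter fun o => cl o = K).card : ℝ) = (T.card : ℝ) := by
      rw [card_eq_sum_card_fiberwise (f := cl) (s := T) (t := S.image cl)
        (fun o ho => by
          simp only [coe_image]
          exact ⟨o, hTS ho, rfl⟩)]
      push_cast; rfl
    rw [← mul_sum, e1, e2]
    exact hT
  obtain ⟨K, hK, hle⟩ := exists_le_of_sum_le (hS.image cl) hsum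
  obtain ⟨o, ho, rfl⟩ := mem_image.1 hK
  refine ⟨o, ho, ?_⟩
  have h1 : δ * (D * vol (cl o)) ≤ δ * ((S.filter fun o' => cl o' = cl o).card : ℝ) :=
    mul_le_mul_of_nonneg_left (hD o ho) hδ
  have h2 : ((T.filter fun o' => cl o' = cl o).card : ℝ) ≤
      ((T.filter fun o' => mem (cl o) o').card : ℝ) := by
    have : (T.filter fun o' => cl o' = cl o) ⊆ T.filter fun o' => mem (cl o) o' := by
      intro o' ho'
      rw [mem_filter] at ho' ⊢
      refine ⟨ho'.1, ?_⟩
      have := hmem o' ho'.1
      rwa [ho'.2] at this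
    exact_mod_cast card_le_card this
  calc δ * D * vol (cl o) = δ * (D * vol (cl o)) := by ring
    _ ≤ _ := h1
    _ ≤ _ := hle
    _ ≤ _ := h2

open Classical in
/-- **(C) measured by incidences**, own multiplicities (incidences per object) in `[n₁, n₂]`. -/
theorem converse_inc {α ο κ : Type*} (ob : α → ο) (mem : κ → ο → Prop) (vol : κ → ℝ)
    {I J : Finset α} (hJI : J ⊆ I) (hI : I.Nonempty) (cl : ο → κ)
    (hmem : ∀ x ∈ J, mem (cl (ob x)) (ob x)) {D δ n₁ n₂ : ℝ} (hδ : 0 ≤ δ) (hn₁ : 0 < n₁)
    (hn₂ : 0 < n₂)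
    (hD : ∀ x ∈ I, D * vol (cl (ob x)) ≤
      (((I.image ob).filter fun o' => cl o' = cl (ob x)).card : ℝ))
    (h₁ : ∀ x ∈ I, n₁ ≤ ((I.filter fun y => ob y = ob x).card : ℝ))
    (h₂ : ∀ x ∈ J, ((J.filter fun y => ob y = ob x).card : ℝ) ≤ n₂)
    (hJ : δ * (I.card : ℝ) ≤ (J.card : ℝ)) :
    ∃ x ∈ I, δ * (n₁ / n₂) * D * vol (cl (ob x)) ≤
      (((J.image ob).filter fun o' => mem (cl (ob x)) o').card : ℝ) := by
  have hcI : n₁ * ((I.image ob).card : ℝ) ≤ (I.card : ℝ) := by
    have e : (I.card : ℝ) = ∑ o ∈ I.image ob, ((I.filter fun y => ob y = o).card : ℝ) := by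
      rw [card_eq_sum_card_image ob I]; push_cast; rfl
    rw [e]
    have : ∑ o ∈ I.image ob, n₁ ≤ ∑ o ∈ I.image ob, ((I.filter fun y => ob y = o).card : ℝ) := by
      refine sum_le_sum fun o ho => ?_
      obtain ⟨x, hx, rfl⟩ := mem_image.1 ho
      exact h₁ x hx
    rw [sum_const, nsmul_eq_mul] at this
    linarith
  have hcJ : (J.card : ℝ) ≤ n₂ * ((J.image ob).card : ℝ) := by
    have e : (J.card : ℝ) = ∑ o ∈ J.image ob, ((J.filter fun y => ob y = o).card : ℝ) := by
      rw [card_eq_sum_card_image ob J]; push_cast; rfl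
    rw [e]
    have : ∑ o ∈ J.image ob, ((J.filter fun y => ob y = o).card : ℝ) ≤ ∑ o ∈ J.image ob, n₂ := by
      refine sum_le_sum fun o ho => ?_
      obtain ⟨x, hx, rfl⟩ := mem_image.1 ho
      exact h₂ x hx
    rw [sum_const, nsmul_eq_mul] at this
    linarith
  have hpor : δ * (n₁ / n₂) * ((I.image ob).card : ℝ) ≤ ((J.image ob).card : ℝ) := by
    have h3 : δ * (n₁ * ((I.image ob).card : ℝ)) ≤ n₂ * ((J.image ob).card : ℝ) :=
      (mul_le_mul_of_nonneg_left hcI hδ).trans (hJ.trans hcJ)
    have h4 : δ * (n₁ / n₂) * ((I.image ob).card : ℝ) =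
        (δ * (n₁ * ((I.image ob).card : ℝ))) / n₂ := by field_simp
    rw [h4, div_le_iff₀ hn₂]
    linarith
  obtain ⟨o, ho, h5⟩ := converse mem vol (S := I.image ob) (T := J.image ob)
    (image_subset_image hJI) (hI.image ob) cl
    (fun o ho => by obtain ⟨x, hx, rfl⟩ := mem_image.1 ho; exact hmem x hx)
    (D := D) (δ := δ * (n₁ / n₂)) (by positivity)
    (fun o ho => by obtain ⟨x, hx, rfl⟩ := mem_image.1 ho; exact hD x hx) hpor
  obtain ⟨x, hx, rfl⟩ := mem_image.1 ho
  exact ⟨x, hx, h5⟩

open Classical in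
/-- removing one fibre removes one value. -/
theorem card_image_filter_ne {α η : Type*} {A : Finset α} (h : α → η) {x : α} (hx : x ∈ A) :
    (((A.filter fun y => h y ≠ h x).image h).card : ℝ) + 1 ≤ ((A.image h).card : ℝ) := by
  have h1 : (A.filter fun y => h y ≠ h x).image h ⊆ (A.image h).erase (h x) := by
    intro c hc
    rw [mem_image] at hc
    obtain ⟨i', hi', rfl⟩ := hc
    rw [mem_filter] at hi'
    exact mem_erase.2 ⟨hi'.2, mem_image_of_mem _ hi'.1⟩
  have h2 := card_le_card h1
  have h3 : h x ∈ A.image h := mem_image_of_mem _ hx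
  rw [card_erase_of_mem h3] at h2
  have h4 : 0 < (A.image h).card := card_pos.2 ⟨_, h3⟩
  have h5 : ((A.filter fun y => h y ≠ h x).image h).card + 1 ≤ (A.image h).card := by omega
  exact_mod_cast h5

open Classical in
/-- **(P) Two-map pruning.** `f` = line, `g` = class; both families of fibres keep at least the
portion `δ` of the average, at most the portion `2 δ` of the incidences is lost. -/
theorem prune₂ {α β γ : Type*} (I : Finset α) (f : α → β) (g : α → γ) {δ : ℝ} (hδ : 0 ≤ δ) :
    ∃ I' ⊆ I, (1 - 2 * δ) * (I.card : ℝ) ≤ (I'.card : ℝ) ∧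
      (∀ x ∈ I', δ * ((I.card : ℝ) / ((I.image f).card : ℝ)) ≤
        ((I'.filter fun y => f y = f x).card : ℝ)) ∧
      (∀ x ∈ I', δ * ((I.card : ℝ) / ((I.image g).card : ℝ)) ≤
        ((I'.filter fun y => g y = g x).card : ℝ)) := by
  set a : ℝ := δ * ((I.card : ℝ) / ((I.image f).card : ℝ)) with ha
  set b : ℝ := δ * ((I.card : ℝ) / ((I.image g).card : ℝ)) with hb
  have ha0 : 0 ≤ a := by positivity
  have hb0 : 0 ≤ b := by positivity
  set Ψ : Finset α → ℝ := fun A => (A.card : ℝ) - a * ((A.image f).card : ℝ) -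
    b * ((A.image g).card : ℝ) with hΨ
  obtain ⟨A, hA, hmax⟩ := exists_max_image I.powerset Ψ ⟨I, mem_powerset_self I⟩
  rw [mem_powerset] at hA
  have hI := hmax I (mem_powerset_self I)
  have hA1 : a * ((I.image f).card : ℝ) ≤ δ * (I.card : ℝ) := by
    rw [ha]
    by_cases h0 : ((I.image f).card : ℝ) = 0
    · rw [h0, mul_zero]; positivity
    · rw [mul_assoc, div_mul_cancel₀ _ h0]
  have hB1 : b * ((I.image g).card : ℝ) ≤ δ * (I.card : ℝ) := by
    rw [hb]
    by_cases h0 : ((I.image g).card : ℝ) = 0
    · rw [h0, mul_zero]; positivity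
    · rw [mul_assoc, div_mul_cancel₀ _ h0]
  refine ⟨A, hA, ?_, ?_, ?_⟩
  · simp only [hΨ] at hI
    have h1 : 0 ≤ a * ((A.image f).card : ℝ) := by positivity
    have h2 : 0 ≤ b * ((A.image g).card : ℝ) := by positivity
    nlinarith
  · intro x hx
    by_contra hlt
    push Not at hlt
    set A' := A.filter fun y => f y ≠ f x with hA'
    have hA'A : A' ⊆ A := filter_subset _ _
    have hle := hmax A' (mem_powerset.2 (hA'A.trans hA))
    have hsum : ((A.filter fun y => f y = f x).card : ℝ) + (A'.card : ℝ) = (A.card : ℝ) := by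
      rw [hA']
      exact_mod_cast card_filter_add_card_filter_not (s := A) (fun y => f y = f x)
    have hk := card_image_filter_ne f hx
    rw [← hA'] at hk
    have hg : ((A'.image g).card : ℝ) ≤ ((A.image g).card : ℝ) := by
      exact_mod_cast card_le_card (image_subset_image hA'A)
    simp only [hΨ] at hle
    have h1 := mul_le_mul_of_nonneg_left hk ha0
    have h2 := mul_le_mul_of_nonneg_left hg hb0
    linarith
  · intro x hx
    by_contra hlt
    push Not at hlt
    set A' := A.filter fun y => g y ≠ g x with hA'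
    have hA'A : A' ⊆ A := filter_subset _ _
    have hle := hmax A' (mem_powerset.2 (hA'A.trans hA))
    have hsum : ((A.filter fun y => g y = g x).card : ℝ) + (A'.card : ℝ) = (A.card : ℝ) := by
      rw [hA']
      exact_mod_cast card_filter_add_card_filter_not (s := A) (fun y => g y = g x)
    have hk := card_image_filter_ne g hx
    rw [← hA'] at hk
    have hf : ((A'.image f).card : ℝ) ≤ ((A.image f).card : ℝ) := by
      exact_mod_cast card_le_card (image_subset_image hA'A)
    simp only [hΨ] at hle
    have h1 := mul_le_mul_of_nonneg_left hk hb0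
    have h2 := mul_le_mul_of_nonneg_left hf ha0
    linarith

open Classical in
/-- the number of classes. -/
theorem num_cl_le {ο κ : Type*} (vol : κ → ℝ) {t v₀ : ℝ} (ht : 0 < t) (hv₀ : 0 < v₀)
    (hv : ∀ K, v₀ ≤ vol K) (S : Finset ο) (cl : ο → κ)
    (h : ∀ o ∈ S, t * vol (cl o) ≤ ((S.filter fun o' => cl o' = cl o).card : ℝ)) :
    ((S.image cl).card : ℝ) * (t * v₀) ≤ (S.card : ℝ) := by
  have e : (S.card : ℝ) = ∑ K ∈ S.image cl, ((S.filter fun y => cl y = K).card : ℝ) := by
    rw [card_eq_sum_card_image cl S]; push_cast; rfl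
  have : ∑ K ∈ S.image cl, t * v₀ ≤ ∑ K ∈ S.image cl, ((S.filter fun y => cl y = K).card : ℝ) := by
    refine sum_le_sum fun K hK => ?_
    obtain ⟨o, ho, rfl⟩ := mem_image.1 hK
    exact (mul_le_mul_of_nonneg_left (hv _) ht.le).trans (h o ho)
  rw [sum_const, nsmul_eq_mul] at this
  rw [e]; exact this

open Classical in
/-- sizes of assigned classes are also bounded above by the densities of the planks. -/
theorem cl_le {ο κ : Type*} (mem : κ → ο → Prop) (S : Finset ο) (cl : ο → κ)
    (hmem : ∀ o ∈ S, mem (cl o) o) (K : κ) :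
    ((S.filter fun o' => cl o' = K).card : ℝ) ≤ ((S.filter fun o' => mem K o').card : ℝ) := by
  have : (S.filter fun o' => cl o' = K) ⊆ S.filter fun o' => mem K o' := by
    intro o' ho'
    rw [mem_filter] at ho' ⊢
    refine ⟨ho'.1, ?_⟩
    have := hmem o' ho'.1
    rwa [ho'.2] at this
  exact_mod_cast card_le_card this

open Classical in
/-- incidences of a set of objects, lower bound by own multiplicity. -/
theorem mul_card_filter_le {α ο : Type*} (ob : α → ο) (I : Finset α) (p : ο → Prop) {n₁ : ℝ}
    (h : ∀ x ∈ I, n₁ ≤ ((I.filter fun y => ob y = ob x).card : ℝ)) :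
    n₁ * (((I.image ob).filter p).card : ℝ) ≤ ((I.filter fun x => p (ob x)).card : ℝ) := by
  have e : ((I.filter fun x => p (ob x)).card : ℝ) = ∑ o ∈ (I.image ob).filter p,
      (((I.filter fun x => p (ob x)).filter fun y => ob y = o).card : ℝ) := by
    rw [card_eq_sum_card_fiberwise (f := ob) (s := I.filter fun x => p (ob x))
      (t := (I.image ob).filter p) (fun x hx => by
        simp only [coe_filter, Set.mem_ofPred_eq] at hx
        simp only [coe_filter, Set.mem_ofPred_eq]
        exact ⟨mem_image_of_mem _ hx.1, hx.2⟩)]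
    push_cast; rfl
  rw [e]
  have : ∑ o ∈ (I.image ob).filter p, n₁ ≤ ∑ o ∈ (I.image ob).filter p,
      (((I.filter fun x => p (ob x)).filter fun y => ob y = o).card : ℝ) := by
    refine sum_le_sum fun o ho => ?_
    rw [mem_filter, mem_image] at ho
    obtain ⟨⟨x, hx, rfl⟩, hp⟩ := ho
    refine (h x hx).trans ?_
    have : (I.filter fun y => ob y = ob x) ⊆
        (I.filter fun x => p (ob x)).filter fun y => ob y = ob x := by
      intro y hy
      rw [mem_filter] at hy
      rw [mem_filter, mem_filter]
      exact ⟨⟨hy.1, by rw [hy.2]; exact hp⟩, hy.2⟩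
    exact_mod_cast card_le_card this
  rw [sum_const, nsmul_eq_mul] at this
  linarith

open Classical in
/-- incidences of a set of objects, upper bound by own multiplicity. -/
theorem card_filter_le_mul {α ο : Type*} (ob : α → ο) (I : Finset α) (p : ο → Prop) {n₂ : ℝ}
    (h : ∀ x ∈ I, ((I.filter fun y => ob y = ob x).card : ℝ) ≤ n₂) :
    ((I.filter fun x => p (ob x)).card : ℝ) ≤ n₂ * (((I.image ob).filter p).card : ℝ) := by
  have e : ((I.filter fun x => p (ob x)).card : ℝ) = ∑ o ∈ (I.image ob).filter p,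
      (((I.filter fun x => p (ob x)).filter fun y => ob y = o).card : ℝ) := by
    rw [card_eq_sum_card_fiberwise (f := ob) (s := I.filter fun x => p (ob x))
      (t := (I.image ob).filter p) (fun x hx => by
        simp only [coe_filter, Set.mem_ofPred_eq] at hx
        simp only [coe_filter, Set.mem_ofPred_eq]
        exact ⟨mem_image_of_mem _ hx.1, hx.2⟩)]
    push_cast; rfl
  rw [e]
  have : ∑ o ∈ (I.image ob).filter p,
      (((I.filter fun x => p (ob x)).filter fun y => ob y = o).card : ℝ) ≤
      ∑ o ∈ (I.image ob).filter p, n₂ := by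
    refine sum_le_sum fun o ho => ?_
    rw [mem_filter, mem_image] at ho
    obtain ⟨⟨x, hx, rfl⟩, hp⟩ := ho
    refine le_trans ?_ (h x hx)
    have : ((I.filter fun x => p (ob x)).filter fun y => ob y = ob x) ⊆
        I.filter fun y => ob y = ob x := by
      intro y hy
      rw [mem_filter, mem_filter] at hy
      rw [mem_filter]
      exact ⟨hy.1.1, hy.2⟩
    exact_mod_cast card_le_card this
  rw [sum_const, nsmul_eq_mul] at this
  linarith

open Classical in
/-- **Class-dependent pruning**, finitely many maps at once: every fibre of the result keeps at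
least the portion `δ` of its fibre in `I`; the loss is at most `#maps · δ · #I`. -/
theorem prune_rel {α M : Type*} [Fintype M] {η : M → Type*} (h : ∀ i, α → η i) {A I : Finset α}
    (hAI : A ⊆ I) {δ : ℝ} (hδ : 0 ≤ δ) :
    ∃ A' ⊆ A, (A.card : ℝ) - (Fintype.card M : ℝ) * δ * (I.card : ℝ) ≤ (A'.card : ℝ) ∧
      ∀ i, ∀ x ∈ A', δ * ((I.filter fun y => h i y = h i x).card : ℝ) ≤
        ((A'.filter fun y => h i y = h i x).card : ℝ) := by
  set W : Finset α → M → ℝ := fun B i => ∑ c ∈ B.image (h i),
    ((I.filter fun y => h i y = c).card : ℝ) with hW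
  set Ψ : Finset α → ℝ := fun B => (B.card : ℝ) - δ * ∑ i, W B i with hΨ
  have hWmono : ∀ {B B' : Finset α} (i : M), B' ⊆ B → W B' i ≤ W B i := by
    intro B B' i hB
    exact sum_le_sum_of_subset_of_nonneg (image_subset_image hB) fun _ _ _ => Nat.cast_nonneg _
  have hW0 : ∀ (B : Finset α) (i : M), 0 ≤ W B i := fun B i =>
    sum_nonneg fun _ _ => Nat.cast_nonneg _
  have hWI : ∀ i, W I i = (I.card : ℝ) := by
    intro i
    rw [hW, card_eq_sum_card_image (h i) I]
    push_cast; rfl
  obtain ⟨B, hB, hmax⟩ := exists_max_image A.powerset Ψ ⟨A, mem_powerset_self A⟩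
  rw [mem_powerset] at hB
  refine ⟨B, hB, ?_, ?_⟩
  · have h1 := hmax A (mem_powerset_self A)
    simp only [hΨ] at h1
    have h2 : ∑ i, W A i ≤ (Fintype.card M : ℝ) * (I.card : ℝ) := by
      calc ∑ i, W A i ≤ ∑ i : M, (I.card : ℝ) :=
            sum_le_sum fun i _ => (hWmono i hAI).trans (hWI i).le
        _ = (Fintype.card M : ℝ) * (I.card : ℝ) := by
            rw [sum_const, nsmul_eq_mul, card_univ]
    have h3 : 0 ≤ ∑ i, W B i := sum_nonneg fun i _ => hW0 B i
    have h4 := mul_le_mul_of_nonneg_left h2 hδ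
    have h5 := mul_nonneg hδ h3
    linarith
  · intro i x hx
    by_contra hlt
    push Not at hlt
    set B' := B.filter fun y => h i y ≠ h i x with hB'
    have hB'B : B' ⊆ B := filter_subset _ _
    have hle := hmax B' (mem_powerset.2 (hB'B.trans hB))
    have hsum : ((B.filter fun y => h i y = h i x).card : ℝ) + (B'.card : ℝ) = (B.card : ℝ) := by
      rw [hB']
      exact_mod_cast card_filter_add_card_filter_not (s := B) (fun y => h i y = h i x)
    have hWi : W B' i + ((I.filter fun y => h i y = h i x).card : ℝ) ≤ W B i := by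
      have h1 : B'.image (h i) ⊆ (B.image (h i)).erase (h i x) := by
        intro c hc
        rw [mem_image] at hc
        obtain ⟨i', hi', rfl⟩ := hc
        rw [hB', mem_filter] at hi'
        exact mem_erase.2 ⟨hi'.2, mem_image_of_mem _ hi'.1⟩
      have h3 : h i x ∈ B.image (h i) := mem_image_of_mem _ hx
      have h4 : W B i = ((I.filter fun y => h i y = h i x).card : ℝ) +
          ∑ c ∈ (B.image (h i)).erase (h i x), ((I.filter fun y => h i y = c).card : ℝ) := by
        rw [hW]
        exact (add_sum_erase _ (fun c => ((I.filter fun y => h i y = c).card : ℝ)) h3).symm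
      have h5 : W B' i ≤
          ∑ c ∈ (B.image (h i)).erase (h i x), ((I.filter fun y => h i y = c).card : ℝ) :=
        sum_le_sum_of_subset_of_nonneg h1 fun _ _ _ => Nat.cast_nonneg _
      linarith
    have hWs : ∑ k, W B' k + ((I.filter fun y => h i y = h i x).card : ℝ) ≤ ∑ k, W B k := by
      rw [← add_sum_erase univ (fun k => W B' k) (mem_univ i),
        ← add_sum_erase univ (fun k => W B k) (mem_univ i)]
      have h6 : ∑ k ∈ univ.erase i, W B' k ≤ ∑ k ∈ univ.erase i, W B k :=
        sum_le_sum fun k _ => hWmono k hB'B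
      linarith
    simp only [hΨ] at hle
    have h7 := mul_le_mul_of_nonneg_left hWs hδ
    linarith

open Classical in
/-- **All levels at once.** `J` = finite list of plank systems (objects `ο j`, planks `κ j`,
thresholds `t j`), own multiplicities of `I` in `[n₁ j, n₂ j]`, and the residual of a greedy
selection is small (`hres`; this is what stability gives). Then one `I' ⊆ I`, almost all of `I`, is
partitioned for every `j` into honest classes (functions of `ob j x` only), each with at least
`δ (n₁/n₂) t vol` objects of `I'`; additional finitely many maps `h i` keep their fibres. -/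
theorem multi {α J M : Type*} [Fintype J] [Fintype M] {ο κ : J → Type u} {η : M → Type u}
    [∀ j, Nonempty (κ j)] (I : Finset α) (ob : ∀ j, α → ο j) (mem : ∀ j, κ j → ο j → Prop)
    (vol : ∀ j, κ j → ℝ) (hvol : ∀ j K, 0 < vol j K) (t : J → ℝ) (ht : ∀ j, 0 < t j)
    (h : ∀ i : M, α → η i) (n₁ n₂ : J → ℝ) (hn₁ : ∀ j, 0 ≤ n₁ j) (hn₂ : ∀ j, 0 < n₂ j)
    (hfib₁ : ∀ j, ∀ x ∈ I, n₁ j ≤ ((I.filter fun y => ob j y = ob j x).card : ℝ))
    (hfib₂ : ∀ j, ∀ x ∈ I, ((I.filter fun y => ob j y = ob j x).card : ℝ) ≤ n₂ j)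
    (ε : J → ℝ)
    (hres : ∀ j, ∀ R ⊆ I, (∀ x ∈ R, ∀ y ∈ I, ob j y = ob j x → y ∈ R) →
      (∀ K, (((R.image (ob j)).filter fun o => mem j K o).card : ℝ) < t j * vol j K) →
      (R.card : ℝ) ≤ ε j * (I.card : ℝ)) {δ : ℝ} (hδ : 0 ≤ δ) :
    ∃ I' ⊆ I, ∃ cl : ∀ j, ο j → κ j,
      (1 - ∑ j, ε j - (2 * (Fintype.card J : ℝ) + (Fintype.card M : ℝ)) * δ) * (I.card : ℝ) ≤
        (I'.card : ℝ) ∧
      (∀ j, ∀ x ∈ I', mem j (cl j (ob j x)) (ob j x)) ∧
      (∀ j, ∀ x ∈ I', δ * (n₁ j / n₂ j) * t j * vol j (cl j (ob j x)) ≤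
        (((I'.image (ob j)).filter fun o => cl j o = cl j (ob j x)).card : ℝ)) ∧
      (∀ j, ∀ x ∈ I', δ * ((I.filter fun y => ob j y = ob j x).card : ℝ) ≤
        ((I'.filter fun y => ob j y = ob j x).card : ℝ)) ∧
      (∀ i, ∀ x ∈ I', δ * ((I.filter fun y => h i y = h i x).card : ℝ) ≤
        ((I'.filter fun y => h i y = h i x).card : ℝ)) := by
  have hg := fun j => greedy_inc (ob j) (mem j) (vol j) (hvol j) (ht j) I
  choose cl h1 h2 h3 using hg
  set R : J → Finset α := fun j => I.filter fun x => cl j (ob j x) = none with hR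
  set A : Finset α := I.filter fun x => ∀ j, cl j (ob j x) ≠ none with hA
  have hRc : ∀ j, ((R j).card : ℝ) ≤ ε j * (I.card : ℝ) := by
    intro j
    refine hres j (R j) (filter_subset _ _) ?_ (h3 j)
    intro x hx y hy hxy
    simp only [hR, mem_filter] at hx ⊢
    exact ⟨hy, by rw [hxy]; exact hx.2⟩
  have hAc : (1 - ∑ j, ε j) * (I.card : ℝ) ≤ (A.card : ℝ) := by
    have hsub : I \ A ⊆ univ.biUnion R := by
      intro x hx
      rw [mem_sdiff, hA, mem_filter] at hx
      obtain ⟨hx1, hx2⟩ := hx
      have : ¬ ∀ j, cl j (ob j x) ≠ none := fun hh => hx2 ⟨hx1, hh⟩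
      push Not at this
      obtain ⟨j, hj⟩ := this
      rw [mem_biUnion]
      exact ⟨j, mem_univ j, by simp only [hR, mem_filter]; exact ⟨hx1, hj⟩⟩
    have hc1 : ((I \ A).card : ℝ) ≤ ∑ j, ((R j).card : ℝ) := by
      have := (card_le_card hsub).trans card_biUnion_le
      exact_mod_cast this
    have hc2 : ((I \ A).card : ℝ) = (I.card : ℝ) - (A.card : ℝ) := by
      have := card_sdiff_add_card_eq_card (filter_subset _ _ : A ⊆ I)
      have h' : ((I \ A).card : ℝ) + (A.card : ℝ) = (I.card : ℝ) := by exact_mod_cast this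
      linarith
    have hc3 : ∑ j, ((R j).card : ℝ) ≤ (∑ j, ε j) * (I.card : ℝ) := by
      rw [sum_mul]; exact sum_le_sum fun j _ => hRc j
    linarith
  obtain ⟨I', hI'A, hI'c, hI'f⟩ := prune_rel (M := (J ⊕ J) ⊕ M)
    (η := fun k => match k with
      | Sum.inl (Sum.inl j) => ο j
      | Sum.inl (Sum.inr j) => Option (κ j)
      | Sum.inr i => η i)
    (fun k => match k with
      | Sum.inl (Sum.inl j) => ob j
      | Sum.inl (Sum.inr j) => fun x => cl j (ob j x)
      | Sum.inr i => h i) (A := A) (I := I) (filter_subset _ _) hδ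
  have hI'I : I' ⊆ I := hI'A.trans (filter_subset _ _)
  refine ⟨I', hI'I, fun j o => (cl j o).getD (Classical.arbitrary (κ j)), ?_, ?_, ?_, ?_, ?_⟩
  · have hcard : (Fintype.card ((J ⊕ J) ⊕ M) : ℝ) =
        2 * (Fintype.card J : ℝ) + (Fintype.card M : ℝ) := by
      rw [Fintype.card_sum, Fintype.card_sum]; push_cast; ring
    rw [hcard] at hI'c
    linarith
  · intro j x hx
    have hxA := hI'A hx
    rw [hA, mem_filter] at hxA
    obtain ⟨K, hK⟩ := Option.ne_none_iff_exists'.1 (hxA.2 j)
    simp only [hK, Option.getD_some]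
    exact (h1 j _ _ hK).2
  · intro j x hx
    have hxA := hI'A hx
    rw [hA, mem_filter] at hxA
    obtain ⟨K, hK⟩ := Option.ne_none_iff_exists'.1 (hxA.2 j)
    simp only [hK, Option.getD_some]
    have hf := hI'f (Sum.inl (Sum.inr j)) x hx
    simp only [hK] at hf
    have e1 : n₁ j * (((I.image (ob j)).filter fun o => cl j o = some K).card : ℝ) ≤
        ((I.filter fun y => cl j (ob j y) = some K).card : ℝ) := by
      convert mul_card_filter_le (ob j) I (fun o => cl j o = some K) (hfib₁ j)
    have e2 : ((I'.filter fun y => cl j (ob j y) = some K).card : ℝ) ≤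
        n₂ j * (((I'.image (ob j)).filter fun o => cl j o = some K).card : ℝ) := by
      have := card_filter_le_mul (ob j) I' (fun o => cl j o = some K) (n₂ := n₂ j)
        fun y hy => le_trans (by exact_mod_cast card_le_card (filter_subset_filter _ hI'I))
          (hfib₂ j y (hI'I hy))
      convert this
    have e3 := h2 j _ _ hK
    have e4 : (((I'.image (ob j)).filter fun o => cl j o = some K).card : ℝ) ≤
        (((I'.image (ob j)).filter fun o =>
          (cl j o).getD (Classical.arbitrary (κ j)) = K).card : ℝ) := by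
      have : ((I'.image (ob j)).filter fun o => cl j o = some K) ⊆
          (I'.image (ob j)).filter fun o => (cl j o).getD (Classical.arbitrary (κ j)) = K := by
        intro o ho
        rw [mem_filter] at ho ⊢
        exact ⟨ho.1, by simp [ho.2]⟩
      exact_mod_cast card_le_card this
    refine le_trans ?_ e4
    have e5 : δ * (n₁ j * (t j * vol j K)) ≤
        n₂ j * (((I'.image (ob j)).filter fun o => cl j o = some K).card : ℝ) :=
      calc δ * (n₁ j * (t j * vol j K))
          ≤ δ * (n₁ j * (((I.image (ob j)).filter fun o => cl j o = some K).card : ℝ)) :=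
            mul_le_mul_of_nonneg_left (mul_le_mul_of_nonneg_left e3 (hn₁ j)) hδ
        _ ≤ δ * ((I.filter fun y => cl j (ob j y) = some K).card : ℝ) :=
            mul_le_mul_of_nonneg_left e1 hδ
        _ ≤ _ := hf
        _ ≤ _ := e2
    have e6 : δ * (n₁ j / n₂ j) * t j * vol j K = (δ * (n₁ j * (t j * vol j K))) / n₂ j := by
      field_simp
    rw [e6, div_le_iff₀ (hn₂ j)]
    linarith
  · intro j x hx
    exact hI'f (Sum.inl (Sum.inl j)) x hx
  · intro i x hx
    exact hI'f (Sum.inr i) x hx

open Classical in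
/-- **All levels at once, uniform own counts only up to negligible parts.** As `multi`, but
`n₁ j ≤ #own fibre` is only required off a part of size `≤ ε' j · #I`; moreover an arbitrary small
part `X` is removed. -/
theorem multi' {α J M : Type*} [Fintype J] [Fintype M] {ο κ : J → Type u} {η : M → Type u}
    [∀ j, Nonempty (κ j)] (I : Finset α) (ob : ∀ j, α → ο j) (mem : ∀ j, κ j → ο j → Prop)
    (vol : ∀ j, κ j → ℝ) (hvol : ∀ j K, 0 < vol j K) (t : J → ℝ) (ht : ∀ j, 0 < t j)
    (h : ∀ i : M, α → η i) (X : Finset α) (n₁ n₂ : J → ℝ) (hn₁ : ∀ j, 0 ≤ n₁ j) (hn₂ : ∀ j, 0 < n₂ j)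
    (hfib₂ : ∀ j, ∀ x ∈ I, ((I.filter fun y => ob j y = ob j x).card : ℝ) ≤ n₂ j)
    (ε ε' : J → ℝ)
    (hbad : ∀ j, ((I.filter fun x => ((I.filter fun y => ob j y = ob j x).card : ℝ) < n₁ j).card
      : ℝ) ≤ ε' j * (I.card : ℝ))
    (hres : ∀ j, ∀ R ⊆ I,
      (∀ K, (((R.image (ob j)).filter fun o => mem j K o).card : ℝ) < t j * vol j K) →
      (R.card : ℝ) ≤ ε j * (I.card : ℝ)) {δ : ℝ} (hδ : 0 ≤ δ) :
    ∃ I' ⊆ I, ∃ cl : ∀ j, ο j → κ j,
      (1 - ∑ j, (ε j + ε' j) - (2 * (Fintype.card J : ℝ) + (Fintype.card M : ℝ)) * δ) *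
        (I.card : ℝ) - (X.card : ℝ) ≤ (I'.card : ℝ) ∧ (∀ x ∈ I', x ∉ X) ∧
      (∀ j, ∀ x ∈ I', mem j (cl j (ob j x)) (ob j x)) ∧
      (∀ j, ∀ x ∈ I', δ * (n₁ j / n₂ j) * t j * vol j (cl j (ob j x)) ≤
        (((I'.image (ob j)).filter fun o => cl j o = cl j (ob j x)).card : ℝ)) ∧
      (∀ j, ∀ x ∈ I', δ * n₁ j ≤ ((I'.filter fun y => ob j y = ob j x).card : ℝ)) ∧
      (∀ i, ∀ x ∈ I', δ * ((I.filter fun y => h i y = h i x).card : ℝ) ≤
        ((I'.filter fun y => h i y = h i x).card : ℝ)) := by
  set S : J → Finset α := fun j => I.filter fun x =>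
    n₁ j ≤ ((I.filter fun y => ob j y = ob j x).card : ℝ) with hS
  have hSI : ∀ j, S j ⊆ I := fun j => filter_subset _ _
  have hScl : ∀ j, ∀ x ∈ S j, ∀ y ∈ I, ob j y = ob j x → y ∈ S j := by
    intro j x hx y hy hxy
    simp only [hS, mem_filter] at hx ⊢
    refine ⟨hy, ?_⟩
    rw [hxy]; exact hx.2
  have hg := fun j => greedy_inc (ob j) (mem j) (vol j) (hvol j) (ht j) (S j)
  choose cl h1 h2 h3 using hg
  have hclS : ∀ j, ∀ y ∈ I, ∀ K, cl j (ob j y) = some K → y ∈ S j := by
    intro j y hy K hK
    obtain ⟨x, hx, hxy⟩ := mem_image.1 (h1 j _ _ hK).1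
    exact hScl j x hx y hy hxy.symm
  set R : J → Finset α := fun j => (S j).filter fun x => cl j (ob j x) = none with hR
  set A : Finset α := I.filter fun x => x ∉ X ∧ ∀ j, cl j (ob j x) ≠ none with hA
  have hRc : ∀ j, ((R j).card : ℝ) ≤ ε j * (I.card : ℝ) := by
    intro j
    exact hres j (R j) ((filter_subset _ _).trans (hSI j)) (h3 j)
  set T : J → Finset α := fun j => I.filter fun x =>
    ((I.filter fun y => ob j y = ob j x).card : ℝ) < n₁ j with hT
  have hAc : (1 - ∑ j, (ε j + ε' j)) * (I.card : ℝ) - (X.card : ℝ) ≤ (A.card : ℝ) := by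
    have hsub : I \ A ⊆ X ∪ univ.biUnion fun j => R j ∪ T j := by
      intro x hx
      rw [mem_sdiff, hA, mem_filter] at hx
      obtain ⟨hx1, hx2⟩ := hx
      rw [mem_union]
      by_cases hX : x ∈ X
      · exact Or.inl hX
      right
      have : ¬ ∀ j, cl j (ob j x) ≠ none := fun hh => hx2 ⟨hx1, hX, hh⟩
      push Not at this
      obtain ⟨j, hj⟩ := this
      rw [mem_biUnion]
      refine ⟨j, mem_univ j, ?_⟩
      rw [mem_union]
      by_cases hc : n₁ j ≤ ((I.filter fun y => ob j y = ob j x).card : ℝ)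
      · left
        simp only [hR, hS, mem_filter]
        exact ⟨⟨hx1, hc⟩, hj⟩
      · right
        simp only [hT, mem_filter]
        exact ⟨hx1, not_le.1 hc⟩
    have hc1 : ((I \ A).card : ℝ) ≤ (X.card : ℝ) + ∑ j, (((R j).card : ℝ) + ((T j).card : ℝ)) := by
      have h5 := (card_le_card hsub).trans (card_union_le _ _)
      have h5' : (univ.biUnion fun j => R j ∪ T j).card ≤ ∑ j, (R j ∪ T j).card := card_biUnion_le
      have h6 : ∑ j, (R j ∪ T j).card ≤ ∑ j, ((R j).card + (T j).card) :=
        sum_le_sum fun j _ => card_union_le _ _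
      have h7 : (I \ A).card ≤ X.card + ∑ j, ((R j).card + (T j).card) := by omega
      exact_mod_cast h7
    have hc2 : ((I \ A).card : ℝ) = (I.card : ℝ) - (A.card : ℝ) := by
      have := card_sdiff_add_card_eq_card (filter_subset _ _ : A ⊆ I)
      have h' : ((I \ A).card : ℝ) + (A.card : ℝ) = (I.card : ℝ) := by exact_mod_cast this
      linarith
    have hc3 : ∑ j, (((R j).card : ℝ) + ((T j).card : ℝ)) ≤ (∑ j, (ε j + ε' j)) * (I.card : ℝ) := by
      rw [sum_mul]
      refine sum_le_sum fun j _ => ?_
      have := hRc j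
      have := hbad j
      nlinarith
    linarith
  obtain ⟨I', hI'A, hI'c, hI'f⟩ := prune_rel (M := (J ⊕ J) ⊕ M)
    (η := fun k => match k with
      | Sum.inl (Sum.inl j) => ο j
      | Sum.inl (Sum.inr j) => Option (κ j)
      | Sum.inr i => η i)
    (fun k => match k with
      | Sum.inl (Sum.inl j) => ob j
      | Sum.inl (Sum.inr j) => fun x => cl j (ob j x)
      | Sum.inr i => h i) (A := A) (I := I) (filter_subset _ _) hδ
  have hI'I : I' ⊆ I := hI'A.trans (filter_subset _ _)
  refine ⟨I', hI'I, fun j o => (cl j o).getD (Classical.arbitrary (κ j)), ?_, ?_, ?_, ?_, ?_, ?_⟩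
  · have hcard : (Fintype.card ((J ⊕ J) ⊕ M) : ℝ) =
        2 * (Fintype.card J : ℝ) + (Fintype.card M : ℝ) := by
      rw [Fintype.card_sum, Fintype.card_sum]; push_cast; ring
    rw [hcard] at hI'c
    linarith
  · intro x hx
    exact (mem_filter.1 (hI'A hx)).2.1
  · intro j x hx
    have hxA := hI'A hx
    rw [hA, mem_filter] at hxA
    obtain ⟨K, hK⟩ := Option.ne_none_iff_exists'.1 (hxA.2.2 j)
    simp only [hK, Option.getD_some]
    exact (h1 j _ _ hK).2
  · intro j x hx
    have hxA := hI'A hx
    rw [hA, mem_filter] at hxA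
    obtain ⟨K, hK⟩ := Option.ne_none_iff_exists'.1 (hxA.2.2 j)
    simp only [hK, Option.getD_some]
    have hf := hI'f (Sum.inl (Sum.inr j)) x hx
    simp only [hK] at hf
    have e1 : n₁ j * ((((S j).image (ob j)).filter fun o => cl j o = some K).card : ℝ) ≤
        (((S j).filter fun y => cl j (ob j y) = some K).card : ℝ) := by
      convert mul_card_filter_le (ob j) (S j) (fun o => cl j o = some K) (n₁ := n₁ j) ?_
      intro y hy
      have hy' := hy
      simp only [hS, mem_filter] at hy'
      refine hy'.2.trans ?_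
      have : (I.filter fun z => ob j z = ob j y) ⊆ (S j).filter fun z => ob j z = ob j y := by
        intro z hz
        rw [mem_filter] at hz ⊢
        exact ⟨hScl j y hy z hz.1 hz.2, hz.2⟩
      exact_mod_cast card_le_card this
    have e1' : (((S j).filter fun y => cl j (ob j y) = some K).card : ℝ) ≤
        ((I.filter fun y => cl j (ob j y) = some K).card : ℝ) := by
      exact_mod_cast card_le_card (filter_subset_filter _ (hSI j))
    have e2 : ((I'.filter fun y => cl j (ob j y) = some K).card : ℝ) ≤
        n₂ j * (((I'.image (ob j)).filter fun o => cl j o = some K).card : ℝ) := by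
      have := card_filter_le_mul (ob j) I' (fun o => cl j o = some K) (n₂ := n₂ j)
        fun y hy => le_trans (by exact_mod_cast card_le_card (filter_subset_filter _ hI'I))
          (hfib₂ j y (hI'I hy))
      convert this
    have e3 := h2 j _ _ hK
    have e4 : (((I'.image (ob j)).filter fun o => cl j o = some K).card : ℝ) ≤
        (((I'.image (ob j)).filter fun o =>
          (cl j o).getD (Classical.arbitrary (κ j)) = K).card : ℝ) := by
      have : ((I'.image (ob j)).filter fun o => cl j o = some K) ⊆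
          (I'.image (ob j)).filter fun o => (cl j o).getD (Classical.arbitrary (κ j)) = K := by
        intro o ho
        rw [mem_filter] at ho ⊢
        exact ⟨ho.1, by simp [ho.2]⟩
      exact_mod_cast card_le_card this
    refine le_trans ?_ e4
    have e5 : δ * (n₁ j * (t j * vol j K)) ≤
        n₂ j * (((I'.image (ob j)).filter fun o => cl j o = some K).card : ℝ) :=
      calc δ * (n₁ j * (t j * vol j K))
          ≤ δ * (n₁ j * ((((S j).image (ob j)).filter fun o => cl j o = some K).card : ℝ)) :=
            mul_le_mul_of_nonneg_left (mul_le_mul_of_nonneg_left e3 (hn₁ j)) hδ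
        _ ≤ δ * (((S j).filter fun y => cl j (ob j y) = some K).card : ℝ) :=
            mul_le_mul_of_nonneg_left e1 hδ
        _ ≤ δ * ((I.filter fun y => cl j (ob j y) = some K).card : ℝ) :=
            mul_le_mul_of_nonneg_left e1' hδ
        _ ≤ _ := hf
        _ ≤ _ := e2
    have e6 : δ * (n₁ j / n₂ j) * t j * vol j K = (δ * (n₁ j * (t j * vol j K))) / n₂ j := by
      field_simp
    rw [e6, div_le_iff₀ (hn₂ j)]
    linarith
  · intro j x hx
    have hxA := hI'A hx
    rw [hA, mem_filter] at hxA
    obtain ⟨K, hK⟩ := Option.ne_none_iff_exists'.1 (hxA.2.2 j)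
    have hxS := hclS j x (hI'I hx) K hK
    simp only [hS, mem_filter] at hxS
    exact (mul_le_mul_of_nonneg_left hxS.2 hδ).trans (hI'f (Sum.inl (Sum.inl j)) x hx)
  · intro i x hx
    exact hI'f (Sum.inr i) x hx

end Crest.Agent.R138.Ps627
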