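import Mathlib
import Crest.Agent.R138.Ps1_926
import Crest.Agent.R138.Ps2_627

/-!
# R138: honest disjoint classes, sequence form (helper627)

Over the calculus of the extremiser `Ps1_926`.

* `residual_small` : in a stable family the residual of the greedy selection is small.
* `fibre_small`    : in a uniform partition the light fibres are small.
* `exists_honest`  : **honest classes for countably many plank systems at once**, with exact sizes of
                     all own fibres and of the classes of countably many uniform partitions.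
* `exists_honest₁` : one plank system.
* `prune_seq`      : relative pruning for countably many maps.
-/

set_option autoImplicit false
set_option linter.unusedVariables false
set_option linter.unusedSectionVars false

open Filter Topology Finset

namespace Crest.Agent.R138.Ps627

open Crest.Agent.R138.Ex926 Crest.Agent.R138.Dp76 Crest.Agent.R138.Ps926

variable {B : Base} {α : ℕ → Type*} {I : ∀ n, Finset (α n)}

/-- a part of fixed positive proportion is dense. -/
theorem dense_of_prop {J : ∀ n, Finset (α n)} {ε : ℝ} (hε : 0 < ε)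
    (h : ∀ᶠ n in (U : Filter ℕ), J n ⊆ I n ∧ ε * ((I n).card : ℝ) ≤ ((J n).card : ℝ)) :
    Dense B J I := by
  refine dense_of_sub (S := fun _ => 1 / ε) (Base.Sub.const (by positivity)) ?_
  filter_upwards [h] with n hn
  refine ⟨hn.1, ?_⟩
  rw [one_div, inv_mul_eq_div, le_div_iff₀ hε]
  linarith [hn.2]

open Classical in
/-- **The residual of the greedy selection is small** in a stable family. -/
theorem residual_small {P : ∀ n, PSys (α n)} (hP : PAdm B P I)
    (hI : ∀ᶠ n in (U : Filter ℕ), (I n).Nonempty)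
    (hS : StableF B (fun n J => (P n).Dmax J) I) {c ε : ℝ} (hc : 0 < c) (hε : 0 < ε) :
    ∀ᶠ n in (U : Filter ℕ), ∀ R ⊆ I n,
      (∀ K, (((R.image (P n).ob).filter fun o => (P n).mem K o).card : ℝ) <
        B.d n ^ c * (P n).Dmax (I n) * (P n).vol K) →
      (R.card : ℝ) ≤ ε * ((I n).card : ℝ) := by
  rcases ev_em (fun n => ∀ R ⊆ I n,
      (∀ K, (((R.image (P n).ob).filter fun o => (P n).mem K o).card : ℝ) <
        B.d n ^ c * (P n).Dmax (I n) * (P n).vol K) →
      (R.card : ℝ) ≤ ε * ((I n).card : ℝ)) with h | h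
  · exact h
  exfalso
  set Q : ∀ n, Finset (α n) → Prop := fun n R => R ⊆ I n ∧
      (∀ K, (((R.image (P n).ob).filter fun o => (P n).mem K o).card : ℝ) <
        B.d n ^ c * (P n).Dmax (I n) * (P n).vol K) ∧
      ε * ((I n).card : ℝ) < (R.card : ℝ) with hQ
  have h1 : ∀ᶠ n in (U : Filter ℕ), ∃ R, Q n R := by
    filter_upwards [h] with n hn
    push Not at hn
    exact hn
  set J : ∀ n, Finset (α n) := fun n => if h : ∃ R, Q n R then h.choose else ∅ with hJ
  have h2 : ∀ᶠ n in (U : Filter ℕ), Q n (J n) := by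
    filter_upwards [h1] with n hn
    have : J n = hn.choose := by simp only [hJ]; rw [dif_pos hn]
    rw [this]; exact hn.choose_spec
  have hd : Dense B J I := dense_of_prop hε (by
    filter_upwards [h2] with n hn using ⟨hn.1, hn.2.2.le⟩)
  have hne := hd.nonempty hI
  have hM := monoF_Dmax hP
  have hrefl : ∀ᶠ n in (U : Filter ℕ), I n ⊆ I n := Eventually.of_forall fun n => Subset.refl _
  have pI := hM.pb hrefl hI
  have pJ := hM.pb hd.1 hne
  have h3 : B.ex (fun n => (P n).Dmax (J n)) ≤ B.ex (fun n => B.d n ^ c * (P n).Dmax (I n)) := by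
    refine Base.ex_le pJ ((Base.PB.dpow c).mul pI) ?_
    filter_upwards [h2, pI.pos] with n hn hp
    refine (P n).Dmax_le (mul_nonneg (dpow_pos B n c).le hp.le) fun K => ?_
    unfold PSys.dens PSys.objs
    rw [div_le_iff₀ ((P n).vol_pos K)]
    exact (hn.2.1 K).le
  rw [Base.ex_mul (Base.PB.dpow c) pI, Base.ex_dpow] at h3
  have h4 := hS J hd
  simp only at h4
  linarith

open Classical in
/-- **The light fibres of a uniform partition are small.** -/
theorem fibre_small {κ : ℕ → Type*} {f : ∀ n, α n → κ n}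
    (hIc : B.PB (fun n => ((I n).card : ℝ))) (hU : Unif B f I) {c ε : ℝ} (hc : 0 < c)
    (hε : 0 < ε) :
    ∀ᶠ n in (U : Filter ℕ), (((I n).filter fun x =>
      (((I n).filter fun y => f n y = f n x).card : ℝ) < B.d n ^ c * (cmax (f n) (I n) : ℝ)).card
        : ℝ) ≤ ε * ((I n).card : ℝ) := by
  have hne : ∀ᶠ n in (U : Filter ℕ), (I n).Nonempty := by
    filter_upwards [hIc.pos] with n hn
    exact card_pos.1 (by exact_mod_cast hn)
  have hrefl : ∀ᶠ n in (U : Filter ℕ), I n ⊆ I n := Eventually.of_forall fun n => Subset.refl _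
  have pc := (monoF_cmax hIc f).pb hrefl hne
  set m : ℝ := B.ex (fun n => (cmax (f n) (I n) : ℝ)) - c / 2 with hm
  obtain ⟨c', hc', h1⟩ := hU.exists_dense hIc (m := m) (by rw [hm]; linarith)
  obtain ⟨e, he, h2⟩ := Base.ev_lt_of_ex_lt (B := B) ((Base.PB.dpow c).mul pc) (Base.PB.dpow (-m))
    (by rw [Base.ex_mul (Base.PB.dpow c) pc, Base.ex_dpow, Base.ex_dpow, hm]; linarith)
  filter_upwards [h1, h2, dpow_small B hc' hε] with n h3 h4 h5
  have h6 : B.d n ^ c * (cmax (f n) (I n) : ℝ) ≤ B.d n ^ (-m) :=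
    h4.trans (mul_le_of_le_one_left (dpow_pos B n _).le (dpow_le_one B n he.le))
  have h7 : (((I n).filter fun x =>
      (((I n).filter fun y => f n y = f n x).card : ℝ) < B.d n ^ c * (cmax (f n) (I n) : ℝ)).card
        : ℝ) ≤ (((I n).filter fun x =>
      (((I n).filter fun y => f n y = f n x).card : ℝ) < B.d n ^ (-m)).card : ℝ) := by
    have : ((I n).filter fun x =>
      (((I n).filter fun y => f n y = f n x).card : ℝ) < B.d n ^ c * (cmax (f n) (I n) : ℝ)) ⊆
        (I n).filter fun x =>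
      (((I n).filter fun y => f n y = f n x).card : ℝ) < B.d n ^ (-m) := by
      intro x hx
      rw [mem_filter] at hx ⊢
      exact ⟨hx.1, hx.2.trans_le h6⟩
    exact_mod_cast card_le_card this
  refine h7.trans (h3.trans ?_)
  exact mul_le_mul_of_nonneg_right h5.le (Nat.cast_nonneg _)

open Classical in
/-- finite step of `exists_honest`. -/
theorem honest_step {α : Type*} (I : Finset α) (P : ℕ → PSys α) (hne : ∀ j, Nonempty (P j).κ)
    {η : ℕ → Type} (g : ∀ j, α → η j) (k : ℕ) {r δ : ℝ} (hr : 0 < r) (hδ : 0 < δ)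
    (hδk : 16 * ((k : ℝ) + 1) * δ ≤ 1) (hI : I.Nonempty)
    (hD : ∀ j ≤ k, 0 < (P j).Dmax I)
    (hbad : ∀ j ≤ k, ((I.filter fun x => ((I.filter fun y => (P j).ob y = (P j).ob x).card : ℝ) <
      r * (cmax (P j).ob I : ℝ)).card : ℝ) ≤ δ * (I.card : ℝ))
    (hg : ∀ j ≤ k, ((I.filter fun x => ((I.filter fun y => g j y = g j x).card : ℝ) <
      r * (cmax (g j) I : ℝ)).card : ℝ) ≤ δ * (I.card : ℝ))
    (hres : ∀ j ≤ k, ∀ R ⊆ I,
      (∀ K, (((R.image (P j).ob).filter fun o => (P j).mem K o).card : ℝ) <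
        r * (P j).Dmax I * (P j).vol K) → (R.card : ℝ) ≤ δ * (I.card : ℝ)) :
    ∃ I' ⊆ I, (I.card : ℝ) ≤ 2 * (I'.card : ℝ) ∧ ∃ cl : ∀ j, (P j).ο → (P j).κ,
      ∀ j ≤ k, ∀ x ∈ I', (P j).mem (cl j ((P j).ob x)) ((P j).ob x) ∧
        δ * r * (r * (P j).Dmax I) * (P j).vol (cl j ((P j).ob x)) ≤
          (((I'.image (P j).ob).filter fun o => cl j o = cl j ((P j).ob x)).card : ℝ) ∧
        δ * (r * (cmax (P j).ob I : ℝ)) ≤
          ((I'.filter fun y => (P j).ob y = (P j).ob x).card : ℝ) ∧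
        δ * (r * (cmax (g j) I : ℝ)) ≤ ((I'.filter fun y => g j y = g j x).card : ℝ) := by
  have hcm : ∀ j, (0 : ℝ) < (cmax (P j).ob I : ℝ) := fun j => by
    have := one_le_cmax (P j).ob hI
    exact_mod_cast this
  set X : Finset α := univ.biUnion fun j : Fin (k + 1) => I.filter fun x =>
    ((I.filter fun y => g j y = g j x).card : ℝ) < r * (cmax (g j) I : ℝ) with hX
  have hXc : (X.card : ℝ) ≤ ((k : ℝ) + 1) * δ * (I.card : ℝ) := by
    have h1 : (X.card : ℝ) ≤ ∑ j : Fin (k + 1), ((I.filter fun x =>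
        ((I.filter fun y => g j y = g j x).card : ℝ) < r * (cmax (g j) I : ℝ)).card : ℝ) := by
      exact_mod_cast card_biUnion_le
    refine h1.trans ?_
    calc _ ≤ ∑ j : Fin (k + 1), δ * (I.card : ℝ) :=
          sum_le_sum fun j _ => hg j (Nat.lt_succ_iff.1 j.2)
      _ = ((k : ℝ) + 1) * δ * (I.card : ℝ) := by
          rw [sum_const, card_univ, Fintype.card_fin, nsmul_eq_mul]; push_cast; ring
  have : ∀ j : Fin (k + 1), Nonempty (P j).κ := fun j => hne j
  obtain ⟨I', hI', cl, h1, h2, h3, h4, h5, h6⟩ := multi' (J := Fin (k + 1)) (M := Fin (k + 1)) I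
    (fun j => (P j).ob) (fun j => (P j).mem) (fun j => (P j).vol) (fun j K => (P j).vol_pos K)
    (fun j => r * (P j).Dmax I) (fun j => mul_pos hr (hD j (Nat.lt_succ_iff.1 j.2)))
    (fun j => g j) X (fun j => r * (cmax (P j).ob I : ℝ)) (fun j => (cmax (P j).ob I : ℝ))
    (fun j => mul_nonneg hr.le (hcm j).le) (fun j => hcm j)
    (fun j x hx => by exact_mod_cast le_cmax (P j).ob hx)
    (fun _ => δ) (fun _ => δ) (fun j => hbad j (Nat.lt_succ_iff.1 j.2))
    (fun j R hR h => hres j (Nat.lt_succ_iff.1 j.2) R hR h) hδ.le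
  refine ⟨I', hI', ?_, fun j => if h : j < k + 1 then cl ⟨j, h⟩ else fun _ =>
    Classical.choice (hne j), ?_⟩
  · have e1 : ∑ _j : Fin (k + 1), (δ + δ) = 2 * ((k : ℝ) + 1) * δ := by
      rw [sum_const, card_univ, Fintype.card_fin, nsmul_eq_mul]; push_cast; ring
    rw [e1, Fintype.card_fin] at h1
    push_cast at h1
    have hIc : (0 : ℝ) ≤ (I.card : ℝ) := Nat.cast_nonneg _
    have h7 : ((k : ℝ) + 1) * δ * (I.card : ℝ) ≤ (1 / 16) * (I.card : ℝ) :=
      mul_le_mul_of_nonneg_right (by linarith) hIc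
    nlinarith
  · intro j hj x hx
    have hj' : j < k + 1 := Nat.lt_succ_of_le hj
    simp only [dif_pos hj']
    refine ⟨h3 ⟨j, hj'⟩ x hx, ?_, h5 ⟨j, hj'⟩ x hx, ?_⟩
    · have h8 := h4 ⟨j, hj'⟩ x hx
      simp only at h8
      rwa [mul_div_assoc, div_self (hcm j).ne', mul_one] at h8
    · refine le_trans ?_ (h6 ⟨j, hj'⟩ x hx)
      refine mul_le_mul_of_nonneg_left ?_ hδ.le
      have h9 := h2 x hx
      by_contra hlt
      push Not at hlt
      apply h9
      rw [hX, mem_biUnion]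
      exact ⟨⟨j, hj'⟩, mem_univ _, mem_filter.2 ⟨hI' hx, hlt⟩⟩

open Classical in
/-- **Honest classes for countably many plank systems at once.** `I` stable for the maximal
densities of all systems and uniform for all own partitions and for all partitions `g j`. There is a
part `I'` of proportion `≥ 1/2`, partitioned for every `j` into classes `cl j` (depending on the
object only), each inside one plank and with `≥ d^ε · Dmax(I) · vol` objects of `I'`; all own fibres
and all `g j`-classes of `I'` have size `≥ d^ε · max`. -/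
theorem exists_honest (hIc : B.PB (fun n => ((I n).card : ℝ))) (P : ℕ → ∀ n, PSys (α n))
    (hne : ∀ j n, Nonempty (P j n).κ) (hP : ∀ j, PAdm B (P j) I)
    (hS : ∀ j, StableF B (fun n J => (P j n).Dmax J) I)
    (hU : ∀ j, Unif B (fun n => (P j n).ob) I) {η : ℕ → ℕ → Type} (g : ∀ j n, α n → η j n)
    (hg : ∀ j, Unif B (g j) I) :
    ∃ I' : ∀ n, Finset (α n),
      (∀ᶠ n in (U : Filter ℕ), I' n ⊆ I n ∧ ((I n).card : ℝ) ≤ 2 * ((I' n).card : ℝ)) ∧
      ∃ cl : ∀ j n, (P j n).ο → (P j n).κ, ∀ j,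
        (∀ᶠ n in (U : Filter ℕ), ∀ x ∈ I' n,
          (P j n).mem (cl j n ((P j n).ob x)) ((P j n).ob x)) ∧
        ∀ ε : ℝ, 0 < ε → ∀ᶠ n in (U : Filter ℕ), ∀ x ∈ I' n,
          B.d n ^ ε * (P j n).Dmax (I n) * (P j n).vol (cl j n ((P j n).ob x)) ≤
            ((((I' n).image (P j n).ob).filter
              fun o => cl j n o = cl j n ((P j n).ob x)).card : ℝ) ∧
          B.d n ^ ε * (cmax (P j n).ob (I n) : ℝ) ≤
            (((I' n).filter fun y => (P j n).ob y = (P j n).ob x).card : ℝ) ∧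
          B.d n ^ ε * (cmax (g j n) (I n) : ℝ) ≤
            (((I' n).filter fun y => g j n y = g j n x).card : ℝ) := by
  have hI : ∀ᶠ n in (U : Filter ℕ), (I n).Nonempty := by
    filter_upwards [hIc.pos] with n hn
    exact card_pos.1 (by exact_mod_cast hn)
  have hrefl : ∀ᶠ n in (U : Filter ℕ), I n ⊆ I n := Eventually.of_forall fun n => Subset.refl _
  set e : ℕ → ℝ := fun k => 1 / ((k : ℝ) + 1) with he
  set δ : ℕ → ℝ := fun k => 1 / (16 * ((k : ℝ) + 1)) with hδ
  have he0 : ∀ k, 0 < e k := fun k => by simp only [he]; positivity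
  have hδ0 : ∀ k, 0 < δ k := fun k => by simp only [hδ]; positivity
  set Q : ℕ → ℕ → Prop := fun k n => (I n).Nonempty ∧ B.d n ^ e k ≤ δ k ∧ ∀ j ≤ k,
    (0 < (P j n).Dmax (I n)) ∧
    ((((I n).filter fun x => (((I n).filter fun y => (P j n).ob y = (P j n).ob x).card : ℝ) <
      B.d n ^ e k * (cmax (P j n).ob (I n) : ℝ)).card : ℝ) ≤ δ k * ((I n).card : ℝ)) ∧
    ((((I n).filter fun x => (((I n).filter fun y => g j n y = g j n x).card : ℝ) <
      B.d n ^ e k * (cmax (g j n) (I n) : ℝ)).card : ℝ) ≤ δ k * ((I n).card : ℝ)) ∧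
    (∀ R ⊆ I n, (∀ K, (((R.image (P j n).ob).filter fun o => (P j n).mem K o).card : ℝ) <
        B.d n ^ e k * (P j n).Dmax (I n) * (P j n).vol K) →
      (R.card : ℝ) ≤ δ k * ((I n).card : ℝ)) with hQ
  have hQev : ∀ k, ∀ᶠ n in (U : Filter ℕ), Q k n := by
    intro k
    have h1 : ∀ᶠ n in (U : Filter ℕ), ∀ j ∈ Finset.range (k + 1),
      (0 < (P j n).Dmax (I n)) ∧
      ((((I n).filter fun x => (((I n).filter fun y => (P j n).ob y = (P j n).ob x).card : ℝ) <
        B.d n ^ e k * (cmax (P j n).ob (I n) : ℝ)).card : ℝ) ≤ δ k * ((I n).card : ℝ)) ∧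
      ((((I n).filter fun x => (((I n).filter fun y => g j n y = g j n x).card : ℝ) <
        B.d n ^ e k * (cmax (g j n) (I n) : ℝ)).card : ℝ) ≤ δ k * ((I n).card : ℝ)) ∧
      (∀ R ⊆ I n, (∀ K, (((R.image (P j n).ob).filter fun o => (P j n).mem K o).card : ℝ) <
          B.d n ^ e k * (P j n).Dmax (I n) * (P j n).vol K) →
        (R.card : ℝ) ≤ δ k * ((I n).card : ℝ)) := by
      rw [Filter.eventually_all_finset]
      intro j _
      filter_upwards [((monoF_Dmax (hP j)).pb hrefl hI).pos, fibre_small hIc (hU j) (he0 k) (hδ0 k),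
        fibre_small hIc (hg j) (he0 k) (hδ0 k), residual_small (hP j) hI (hS j) (he0 k) (hδ0 k)]
        with n a b c f
      exact ⟨a, b, c, f⟩
    filter_upwards [hI, dpow_small B (he0 k) (hδ0 k), h1] with n a b c
    exact ⟨a, b.le, fun j hj => c j (Finset.mem_range.2 (Nat.lt_succ_of_le hj))⟩
  obtain ⟨k, hk, hk2⟩ := exists_diag Q hQev
  have hstep : ∀ n, ∃ (I' : Finset (α n)) (cl : ∀ j, (P j n).ο → (P j n).κ), Q (k n) n →
      I' ⊆ I n ∧ ((I n).card : ℝ) ≤ 2 * (I'.card : ℝ) ∧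
      ∀ j ≤ k n, ∀ x ∈ I', (P j n).mem (cl j ((P j n).ob x)) ((P j n).ob x) ∧
        δ (k n) * B.d n ^ e (k n) * (B.d n ^ e (k n) * (P j n).Dmax (I n)) *
            (P j n).vol (cl j ((P j n).ob x)) ≤
          (((I'.image (P j n).ob).filter fun o => cl j o = cl j ((P j n).ob x)).card : ℝ) ∧
        δ (k n) * (B.d n ^ e (k n) * (cmax (P j n).ob (I n) : ℝ)) ≤
          ((I'.filter fun y => (P j n).ob y = (P j n).ob x).card : ℝ) ∧
        δ (k n) * (B.d n ^ e (k n) * (cmax (g j n) (I n) : ℝ)) ≤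
          ((I'.filter fun y => g j n y = g j n x).card : ℝ) := by
    intro n
    by_cases hq : Q (k n) n
    · obtain ⟨a, b, c⟩ := hq
      obtain ⟨I', h1, h2, cl, h3⟩ := honest_step (I n) (fun j => P j n) (fun j => hne j n)
        (fun j => g j n) (k n) (dpow_pos B n (e (k n))) (hδ0 (k n)) (by
          simp only [hδ]
          rw [mul_one_div, div_self]
          positivity) a (fun j hj => (c j hj).1) (fun j hj => (c j hj).2.1)
        (fun j hj => (c j hj).2.2.1) (fun j hj => (c j hj).2.2.2)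
      exact ⟨I', cl, fun _ => ⟨h1, h2, h3⟩⟩
    · exact ⟨∅, fun j _ => Classical.choice (hne j n), fun h => absurd h hq⟩
  choose I' cl hcl using hstep
  have hgood : ∀ᶠ n in (U : Filter ℕ), Q (k n) n := by
    filter_upwards [hk2] with n hn using hn _ le_rfl
  refine ⟨I', ?_, fun j n => cl n j, fun j => ⟨?_, fun ε hε => ?_⟩⟩
  · filter_upwards [hgood] with n hn
    exact ⟨(hcl n hn).1, (hcl n hn).2.1⟩
  · filter_upwards [hgood, hk.eventually_ge_atTop j] with n hn hj x hx
    exact ((hcl n hn).2.2 j hj x hx).1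
  · have hk3 : ∀ᶠ n in (U : Filter ℕ), 3 * e (k n) ≤ ε := by
      have h4 : Tendsto (fun n => 1 / ((k n : ℝ) + 1)) U (𝓝 0) :=
        tendsto_one_div_add_atTop_nhds_zero_nat.comp hk
      have h5 := (h4.const_mul 3)
      rw [mul_zero] at h5
      filter_upwards [(tendsto_order.1 h5).2 ε hε] with n hn using hn.le
    filter_upwards [hgood, hk.eventually_ge_atTop j, hk3] with n hn hj h3 x hx
    obtain ⟨-, h5, h6, h7⟩ := (hcl n hn).2.2 j hj x hx
    have hp := dpow_pos B n (e (k n))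
    have h8 : B.d n ^ e (k n) ≤ δ (k n) := hn.2.1
    have h9 : B.d n ^ ε ≤ B.d n ^ e (k n) * B.d n ^ e (k n) * B.d n ^ e (k n) := by
      rw [← dpow_add, ← dpow_add]
      exact dpow_le B n (by linarith)
    have h10 : B.d n ^ e (k n) ≤ 1 := dpow_le_one B n (he0 _).le
    have h11 : B.d n ^ ε ≤ δ (k n) * B.d n ^ e (k n) * B.d n ^ e (k n) := by
      refine h9.trans ?_
      exact mul_le_mul_of_nonneg_right (mul_le_mul_of_nonneg_right h8 hp.le) hp.le
    have h12 : B.d n ^ ε ≤ δ (k n) * B.d n ^ e (k n) :=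
      h11.trans (mul_le_of_le_one_right (mul_pos (hδ0 _) hp).le h10)
    have hD : 0 ≤ (P j n).Dmax (I n) := (P j n).Dmax_nonneg _
    refine ⟨?_, ?_, ?_⟩
    · refine le_trans ?_ h5
      refine mul_le_mul_of_nonneg_right ?_ ((P j n).vol_pos _).le
      calc B.d n ^ ε * (P j n).Dmax (I n)
          ≤ δ (k n) * B.d n ^ e (k n) * B.d n ^ e (k n) * (P j n).Dmax (I n) :=
            mul_le_mul_of_nonneg_right h11 hD
        _ = _ := by ring
    · refine le_trans ?_ h6
      rw [← mul_assoc]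
      exact mul_le_mul_of_nonneg_right h12 (Nat.cast_nonneg _)
    · refine le_trans ?_ h7
      rw [← mul_assoc]
      exact mul_le_mul_of_nonneg_right h12 (Nat.cast_nonneg _)

open Classical in
/-- `Dense` form of the first output. -/
theorem dense_of_half {I' : ∀ n, Finset (α n)}
    (h : ∀ᶠ n in (U : Filter ℕ), I' n ⊆ I n ∧ ((I n).card : ℝ) ≤ 2 * ((I' n).card : ℝ)) :
    Dense B I' I := dense_of_sub (S := fun _ => 2) (Base.Sub.const two_pos) h

open Classical in
/-- objects of a class of an assigned part are at most `Dmax · vol`. -/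
theorem class_le {α : Type*} (P : PSys α) {I I' : Finset α} (h : I' ⊆ I) (cl : P.ο → P.κ)
    (hm : ∀ x ∈ I', P.mem (cl (P.ob x)) (P.ob x)) (K : P.κ) :
    (((I'.image P.ob).filter fun o => cl o = K).card : ℝ) ≤ P.Dmax I * P.vol K := by
  have h1 := cl_le P.mem (I'.image P.ob) cl (fun o ho => by
    obtain ⟨x, hx, rfl⟩ := mem_image.1 ho
    exact hm x hx) K
  refine h1.trans ?_
  have h2 := P.objs_card_le_Dmax I' K
  unfold PSys.objs at h2
  exact h2.trans (mul_le_mul_of_nonneg_right (P.Dmax_mono h) (P.vol_pos K).le)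

open Classical in
/-- **Honest classes, one plank system.** -/
theorem exists_honest₁ (hIc : B.PB (fun n => ((I n).card : ℝ))) (P : ∀ n, PSys (α n))
    (hne : ∀ n, Nonempty (P n).κ) (hP : PAdm B P I)
    (hS : StableF B (fun n J => (P n).Dmax J) I) (hU : Unif B (fun n => (P n).ob) I) :
    ∃ I' : ∀ n, Finset (α n),
      (∀ᶠ n in (U : Filter ℕ), I' n ⊆ I n ∧ ((I n).card : ℝ) ≤ 2 * ((I' n).card : ℝ)) ∧
      ∃ cl : ∀ n, (P n).ο → (P n).κ,
        (∀ᶠ n in (U : Filter ℕ), ∀ x ∈ I' n, (P n).mem (cl n ((P n).ob x)) ((P n).ob x)) ∧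
        ∀ ε : ℝ, 0 < ε → ∀ᶠ n in (U : Filter ℕ), ∀ x ∈ I' n,
          B.d n ^ ε * (P n).Dmax (I n) * (P n).vol (cl n ((P n).ob x)) ≤
            ((((I' n).image (P n).ob).filter fun o => cl n o = cl n ((P n).ob x)).card : ℝ) ∧
          B.d n ^ ε * (cmax (P n).ob (I n) : ℝ) ≤
            (((I' n).filter fun y => (P n).ob y = (P n).ob x).card : ℝ) := by
  obtain ⟨I', h1, cl, h2⟩ := exists_honest hIc (fun _ => P) (fun _ => hne) (fun _ => hP)
    (fun _ => hS) (fun _ => hU) (fun _ n => (P n).ob) (fun _ => hU)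
  refine ⟨I', h1, cl 0, (h2 0).1, fun ε hε => ?_⟩
  filter_upwards [(h2 0).2 ε hε] with n hn x hx
  exact ⟨(hn x hx).1, (hn x hx).2.1⟩

open Classical in
/-- **Relative pruning, sequence form.** `J` dense in `I`; countably many maps. There is `J'` inside
`J` (and inside `I`, for every `n`), of proportion `≥ 1/2` in `J`, such that every fibre of `J'` keeps
`d^ε` of its fibre in `I`. -/
theorem prune_seq {J : ∀ n, Finset (α n)} (hJ : Dense B J I) {η : ℕ → ℕ → Type}
    (h : ∀ j n, α n → η j n) :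
    ∃ J' : ∀ n, Finset (α n), (∀ n, J' n ⊆ J n ∧ J' n ⊆ I n) ∧
      (∀ᶠ n in (U : Filter ℕ), ((J n).card : ℝ) ≤ 2 * ((J' n).card : ℝ)) ∧
      ∀ j, ∀ ε : ℝ, 0 < ε → ∀ᶠ n in (U : Filter ℕ), ∀ x ∈ J' n,
        B.d n ^ ε * (((I n).filter fun y => h j n y = h j n x).card : ℝ) ≤
          (((J' n).filter fun y => h j n y = h j n x).card : ℝ) := by
  set e : ℕ → ℝ := fun k => 1 / ((k : ℝ) + 1) with he
  have he0 : ∀ k, 0 < e k := fun k => by simp only [he]; positivity
  set Q : ℕ → ℕ → Prop := fun k n => J n ⊆ I n ∧ B.d n ^ e k * ((I n).card : ℝ) ≤ ((J n).card : ℝ) ∧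
    B.d n ^ e k ≤ 1 / (2 * ((k : ℝ) + 1)) with hQ
  have hQev : ∀ k, ∀ᶠ n in (U : Filter ℕ), Q k n := by
    intro k
    filter_upwards [hJ.1, hJ.2 (e k) (he0 k),
      dpow_small B (he0 k) (ε := 1 / (2 * ((k : ℝ) + 1))) (by positivity)] with n a b c
    exact ⟨a, b, c.le⟩
  obtain ⟨k, hk, hk2⟩ := exists_diag Q hQev
  have hgood : ∀ᶠ n in (U : Filter ℕ), Q (k n) n := by
    filter_upwards [hk2] with n hn using hn _ le_rfl
  have hstep : ∀ n, ∃ J' : Finset (α n), (J' ⊆ J n ∧ J' ⊆ I n) ∧ (Q (k n) n →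
      ((J n).card : ℝ) ≤ 2 * (J'.card : ℝ) ∧ ∀ j ≤ k n, ∀ x ∈ J',
        B.d n ^ e (k n) * B.d n ^ e (k n) * (((I n).filter fun y => h j n y = h j n x).card : ℝ) ≤
          ((J'.filter fun y => h j n y = h j n x).card : ℝ)) := by
    intro n
    by_cases hq : Q (k n) n
    · obtain ⟨a, b, c⟩ := hq
      have hp := dpow_pos B n (e (k n))
      obtain ⟨J', h1, h2, h3⟩ := prune_rel (M := Fin (k n + 1)) (fun j => h j n) a
        (mul_pos hp hp).le
      refine ⟨J', ⟨h1, h1.trans a⟩, fun _ => ⟨?_, fun j hj x hx => ?_⟩⟩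
      · rw [Fintype.card_fin] at h2
        push_cast at h2
        have h4 : ((k n : ℝ) + 1) * B.d n ^ e (k n) ≤ 1 / 2 := by
          have := mul_le_mul_of_nonneg_left c (by positivity : (0 : ℝ) ≤ (k n : ℝ) + 1)
          refine this.trans (le_of_eq ?_)
          field_simp
        have h5 : ((k n : ℝ) + 1) * (B.d n ^ e (k n) * B.d n ^ e (k n)) * ((I n).card : ℝ) ≤
            1 / 2 * ((J n).card : ℝ) := by
          calc _ = (((k n : ℝ) + 1) * B.d n ^ e (k n)) * (B.d n ^ e (k n) * ((I n).card : ℝ)) := by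
                ring
            _ ≤ 1 / 2 * ((J n).card : ℝ) :=
                mul_le_mul h4 b (mul_nonneg hp.le (Nat.cast_nonneg _)) (by norm_num)
        linarith
      · exact h3 ⟨j, Nat.lt_succ_of_le hj⟩ x hx
    · exact ⟨∅, ⟨empty_subset _, empty_subset _⟩, fun h => absurd h hq⟩
  choose J' hJ' hJ'2 using hstep
  refine ⟨J', hJ', ?_, fun j ε hε => ?_⟩
  · filter_upwards [hgood] with n hn using (hJ'2 n hn).1
  · have hk3 : ∀ᶠ n in (U : Filter ℕ), 2 * e (k n) ≤ ε := by
      have h4 : Tendsto (fun n => 1 / ((k n : ℝ) + 1)) U (𝓝 0) :=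
        tendsto_one_div_add_atTop_nhds_zero_nat.comp hk
      have h5 := (h4.const_mul 2)
      rw [mul_zero] at h5
      filter_upwards [(tendsto_order.1 h5).2 ε hε] with n hn using hn.le
    filter_upwards [hgood, hk.eventually_ge_atTop j, hk3] with n hn hj h3 x hx
    refine le_trans (mul_le_mul_of_nonneg_right ?_ (Nat.cast_nonneg _)) ((hJ'2 n hn).2 j hj x hx)
    rw [← dpow_add]
    exact dpow_le B n (by linarith)

end Crest.Agent.R138.Ps627
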