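import Crest.Agent.R138.MkDef_163

/-!
# R138, TEXT I, L14 (helper163), part 1: negligible sets, chains of frames
-/

set_option autoImplicit false
set_option linter.unusedVariables false

open Finset Filter Topology

open Crest.Agent.R138.Ex926 (Base U ev_em exists_diag ev_ge)
open Crest.Agent.R138.Flag51 (Ln E2 cr dt InPlank)
open Crest.Agent.R138.Tilt51 (DMax Near abs_cr_triangle abs_cr_swap)
open Crest.Agent.R138.Dp76 (Dense dpow_pos dpow_add dpow_le dpow_le_one)

namespace Crest.Agent.R138.ArgM163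

open Crest.Agent.R138.Mk163

/-! ### powers of the base -/

theorem log_dpow (B : Base) (n : ℕ) (a : ℝ) : Real.log (B.d n ^ a) = -(a * B.L n) := by
  rw [Real.log_rpow (B.pos n)]; unfold Base.L; ring

/-- comparison of exponents -/
theorem exp_le_of (B : Base) (n : ℕ) {x y C : ℝ} (hC : 0 < C)
    (h : B.d n ^ x ≤ C * B.d n ^ y) : y ≤ x + Real.log C / B.L n := by
  have hL := B.L_pos n
  have h1 : Real.log (B.d n ^ x) ≤ Real.log (C * B.d n ^ y) :=
    Real.log_le_log (dpow_pos B n x) h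
  rw [Real.log_mul hC.ne' (dpow_pos B n y).ne', log_dpow, log_dpow] at h1
  have h2 : (y - x) * B.L n ≤ Real.log C := by linarith
  have h3 : y - x ≤ Real.log C / B.L n := by rw [le_div_iff₀ hL]; exact h2
  linarith

theorem ev_log_div (B : Base) (C : ℝ) {η : ℝ} (hη : 0 < η) :
    ∀ᶠ n in (U : Filter ℕ), C / B.L n ≤ η := by
  filter_upwards [B.ev_L_ge (C / η)] with n hn
  have hL := B.L_pos n
  rw [div_le_iff₀ hL]
  rw [div_le_iff₀ hη] at hn
  linarith

theorem ev_const (B : Base) {C : ℝ} (hC : 0 < C) {η : ℝ} (hη : 0 < η) :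
    ∀ᶠ n in (U : Filter ℕ), C ≤ B.d n ^ (-η) := by
  filter_upwards [ev_log_div B (Real.log C) hη] with n hn
  have hL := B.L_pos n
  rw [div_le_iff₀ hL] at hn
  rw [← Real.log_le_log_iff hC (dpow_pos B n _), log_dpow]
  linarith

theorem ev_const_mul (B : Base) {C : ℝ} (hC : 0 < C) {η : ℝ} (hη : 0 < η) :
    ∀ᶠ n in (U : Filter ℕ), C * B.d n ^ η ≤ 1 := by
  filter_upwards [ev_const B hC hη] with n hn
  have h1 := dpow_pos B n η
  calc C * B.d n ^ η ≤ B.d n ^ (-η) * B.d n ^ η := mul_le_mul_of_nonneg_right hn h1.le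
    _ = 1 := by rw [← dpow_add]; simp

end Crest.Agent.R138.ArgM163

/-! ### negligible sets -/

namespace Crest.Agent.R138.Mk163

open Crest.Agent.R138.ArgM163

section negl

variable {B : Base} {I J : ℕ → Finset (ℕ × ℝ)} {P Q : ℕ → ℕ × ℝ → Prop}

theorem Negl.mono (h : Negl B I P) (hPQ : ∀ᶠ n in (U : Filter ℕ), ∀ x ∈ I n, Q n x → P n x) :
    Negl B I Q := by
  classical
  obtain ⟨γ, hγ, h1⟩ := h
  refine ⟨γ, hγ, ?_⟩
  filter_upwards [h1, hPQ] with n h1 h2
  refine le_trans ?_ h1
  exact_mod_cast card_le_card (fun x hx => by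
    rw [mem_filter] at hx ⊢
    exact ⟨hx.1, h2 x hx.1 hx.2⟩)

theorem Negl.or (h : Negl B I P) (h' : Negl B I Q) : Negl B I (fun n x => P n x ∨ Q n x) := by
  classical
  obtain ⟨γ, hγ, h1⟩ := h
  obtain ⟨γ', hγ', h1'⟩ := h'
  refine ⟨min γ γ' / 2, by positivity, ?_⟩
  filter_upwards [h1, h1', ev_const_mul B (C := 2) (by norm_num) (η := min γ γ' / 2)
    (by positivity)] with n a b c
  have h0 : (0 : ℝ) ≤ ((I n).card : ℝ) := Nat.cast_nonneg _
  have e1 : B.d n ^ γ ≤ B.d n ^ (min γ γ' / 2) * B.d n ^ (min γ γ' / 2) := by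
    rw [← dpow_add]; exact dpow_le B n (by have := min_le_left γ γ'; linarith)
  have e2 : B.d n ^ γ' ≤ B.d n ^ (min γ γ' / 2) * B.d n ^ (min γ γ' / 2) := by
    rw [← dpow_add]; exact dpow_le B n (by have := min_le_right γ γ'; linarith)
  have hp := dpow_pos B n (min γ γ' / 2)
  have e3 : B.d n ^ γ * ((I n).card : ℝ) ≤
      B.d n ^ (min γ γ' / 2) * B.d n ^ (min γ γ' / 2) * (I n).card :=
    mul_le_mul_of_nonneg_right e1 h0
  have e4 : B.d n ^ γ' * ((I n).card : ℝ) ≤
      B.d n ^ (min γ γ' / 2) * B.d n ^ (min γ γ' / 2) * (I n).card :=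
    mul_le_mul_of_nonneg_right e2 h0
  refine (Nat.cast_le.2 (card_le_card (t := (I n).filter (P n) ∪ (I n).filter (Q n))
    fun x hx => ?_)).trans ?_
  · simp only [mem_filter] at hx
    simp only [mem_union, mem_filter]
    rcases hx.2 with h | h
    · exact Or.inl ⟨hx.1, h⟩
    · exact Or.inr ⟨hx.1, h⟩
  refine (Nat.cast_le.2 (card_union_le _ _)).trans ?_
  push_cast
  have a' : (((I n).filter (P n)).card : ℝ) ≤ B.d n ^ γ * (I n).card := by convert a
  have b' : (((I n).filter (Q n)).card : ℝ) ≤ B.d n ^ γ' * (I n).card := by convert b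
  calc _ ≤ B.d n ^ γ * ((I n).card : ℝ) + B.d n ^ γ' * ((I n).card : ℝ) := add_le_add a' b'
    _ ≤ (2 * B.d n ^ (min γ γ' / 2)) * (B.d n ^ (min γ γ' / 2) * (I n).card) := by
        nlinarith
    _ ≤ 1 * (B.d n ^ (min γ γ' / 2) * (I n).card) :=
        mul_le_mul_of_nonneg_right c (by positivity)
    _ = _ := one_mul _

theorem Negl.false : Negl B I (fun _ _ => False) := by
  classical
  refine ⟨1, one_pos, Eventually.of_forall fun n => ?_⟩
  have := dpow_pos B n 1
  simp only [filter_false, card_empty, Nat.cast_zero]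
  positivity

theorem Negl.finite {ι : Type*} (S : Finset ι) {P : ι → ℕ → ℕ × ℝ → Prop}
    (h : ∀ i ∈ S, Negl B I (P i)) : Negl B I (fun n x => ∃ i ∈ S, P i n x) := by
  classical
  induction S using Finset.induction_on with
  | empty => exact Negl.false.mono (Eventually.of_forall fun n x _ => by simp)
  | insert a S ha ih =>
    refine Negl.mono (Negl.or (h a (mem_insert_self _ _)) (ih fun i hi => h i (mem_insert_of_mem hi)))
      (Eventually.of_forall fun n x _ hx => ?_)
    obtain ⟨i, hi, hx⟩ := hx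
    rcases mem_insert.1 hi with rfl | hi
    · exact Or.inl hx
    · exact Or.inr ⟨i, hi, hx⟩

theorem Negl.dense (h : Negl B I P) (hJ : Dense B J I) : Negl B J P := by
  classical
  obtain ⟨γ, hγ, h1⟩ := h
  refine ⟨γ / 2, by positivity, ?_⟩
  filter_upwards [h1, hJ.1, hJ.2 (γ / 2) (by positivity)] with n a b c
  have e : B.d n ^ γ = B.d n ^ (γ / 2) * B.d n ^ (γ / 2) := by rw [← dpow_add]; congr 1; ring
  have hp := dpow_pos B n (γ / 2)
  calc (((J n).filter (P n)).card : ℝ) ≤ (((I n).filter (P n)).card : ℝ) := by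
        exact_mod_cast card_le_card (filter_subset_filter _ b)
    _ ≤ B.d n ^ γ * (I n).card := a
    _ = B.d n ^ (γ / 2) * (B.d n ^ (γ / 2) * (I n).card) := by rw [e]; ring
    _ ≤ B.d n ^ (γ / 2) * (J n).card := mul_le_mul_of_nonneg_left c hp.le

open Classical in
/-- countably many negligible sets, removed with a slow speed: what is left is dense. -/
theorem Negl.countable {P : ℕ → ℕ → ℕ × ℝ → Prop} (h : ∀ k, Negl B I (P k)) :
    ∃ t : ℕ → ℕ, Tendsto t U atTop ∧ Dense B (fun n => (I n).filter fun x => ∀ k ≤ t n, ¬ P k n x) I := by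
  have h2 : ∀ k, Negl B I (fun n x => ∃ i ∈ range (k + 1), P i n x) := fun k =>
    Negl.finite _ fun i _ => h i
  obtain ⟨t, ht, ht2⟩ := exists_diag (fun k n =>
    2 * (((I n).filter fun x => ∃ i ∈ range (k + 1), P i n x).card : ℝ) ≤ (I n).card) (by
      intro k
      obtain ⟨γ, hγ, h1⟩ := h2 k
      filter_upwards [h1, ev_const_mul B (C := 2) (by norm_num) hγ] with n a b
      have h0 : (0 : ℝ) ≤ ((I n).card : ℝ) := Nat.cast_nonneg _
      nlinarith)
  refine ⟨t, ht, Eventually.of_forall fun n => filter_subset _ _, fun η hη => ?_⟩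
  filter_upwards [ht2, ev_const_mul B (C := 2) (by norm_num) hη] with n a b
  have a1 := a (t n) le_rfl
  have h6 : (I n).card ≤ ((I n).filter fun x => ∀ k ≤ t n, ¬ P k n x).card +
      ((I n).filter fun x => ∃ i ∈ range (t n + 1), P i n x).card := by
    refine (card_le_card (t := ((I n).filter fun x => ∀ k ≤ t n, ¬ P k n x) ∪
      ((I n).filter fun x => ∃ i ∈ range (t n + 1), P i n x)) fun x hx => ?_).trans
      (card_union_le _ _)
    simp only [mem_union, mem_filter]
    by_cases hc : ∃ i ∈ range (t n + 1), P i n x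
    · exact Or.inr ⟨hx, hc⟩
    · refine Or.inl ⟨hx, fun k hk hP => hc ⟨k, mem_range.2 (Nat.lt_succ_of_le hk), hP⟩⟩
  have h5 : ((I n).card : ℝ) ≤ (((I n).filter fun x => ∀ k ≤ t n, ¬ P k n x).card : ℝ) +
      ((I n).filter fun x => ∃ i ∈ range (t n + 1), P i n x).card := by exact_mod_cast h6
  have h0 : (0 : ℝ) ≤ ((I n).card : ℝ) := Nat.cast_nonneg _
  have hp := dpow_pos B n η
  nlinarith

open Classical in
theorem Negl.compl (h : Negl B I P) : Dense B (fun n => (I n).filter fun x => ¬ P n x) I := by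
  obtain ⟨t, ht, h1⟩ := Negl.countable (P := fun _ => P) fun _ => h
  refine ⟨h1.1.mono fun n _ => filter_subset _ _, fun η hη => ?_⟩
  filter_upwards [h1.2 η hη] with n a
  refine a.trans ?_
  exact_mod_cast card_le_card (fun x hx => by
    rw [mem_filter] at hx ⊢
    exact ⟨hx.1, hx.2 0 (Nat.zero_le _)⟩)

end negl

end Crest.Agent.R138.Mk163

/-! ### chains of frames -/

namespace Crest.Agent.R138.ArgM163

/-- chain of frames with a common bound of the steps -/
theorem chain_le {e : ℕ → E2} {i j : ℕ} (hij : i ≤ j)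
    (hu : ∀ l, i ≤ l → l ≤ j → dt (e l) (e l) = 1) {D : ℝ}
    (hs : ∀ l, i ≤ l → l < j → |cr (e l) (e (l + 1))| ≤ D) :
    |cr (e i) (e j)| ≤ ((j - i : ℕ) : ℝ) * D := by
  obtain ⟨m, rfl⟩ := Nat.exists_eq_add_of_le hij
  clear hij
  induction m with
  | zero =>
    have : cr (e i) (e i) = 0 := by simp only [cr]; ring
    simp [this]
  | succ m ih =>
    have h1 := ih (fun l h1 h2 => hu l h1 (by omega)) (fun l h1 h2 => hs l h1 (by omega))
    have h2 := hs (i + m) (by omega) (by omega)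
    have h3 := abs_cr_triangle (hu i le_rfl (by omega)) (hu (i + m) (by omega) (by omega))
      (hu (i + (m + 1)) (by omega) (by omega))
    have e1 : i + m - i = m := by omega
    have e2 : i + (m + 1) - i = m + 1 := by omega
    rw [e1] at h1
    rw [e2]
    push_cast
    have e3 : i + (m + 1) = i + m + 1 := by omega
    rw [e3] at h3 ⊢
    linarith

end Crest.Agent.R138.ArgM163
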