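import Mathlib

/-!
# R138: flag lemma (helper51)

Two near-maximal plank systems over one z-cell have the same planes.
Lines `l = (p, v)` in `E2 × E2`, `pos l z = p + z v`; a plank over the cell `|z - z0| ≤ ρ` with base
line `l`, frame `(e, rot e)` and widths `a1, a2` contains the line `t` iff
`|⟪pos t z - pos l z, e⟫| ≤ a1` and `|⟪pos t z - pos l z, rot e⟫| ≤ a2` for all `|z - z0| ≤ ρ`.
-/

set_option autoImplicit false
set_option linter.unusedVariables false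

open Finset

namespace Crest.Agent.R138.Flag51

noncomputable section

abbrev E2 := EuclideanSpace ℝ (Fin 2)
abbrev Ln := E2 × E2

/-- position of the line at height `z` -/
def pos (l : Ln) (z : ℝ) : E2 := l.1 + z • l.2

/-- scalar product in coordinates -/
def dt (x y : E2) : ℝ := x 0 * y 0 + x 1 * y 1
/-- `⟪x, rot e⟫` with `rot e = (-e 1, e 0)`; also the determinant `e × x` -/
def cr (e x : E2) : ℝ := e 0 * x 1 - e 1 * x 0

/-- `t` lies in the plank `(l, e; a1, a2)` over the cell `(z0, ρ)` -/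
def InPlank (t l : Ln) (e : E2) (a1 a2 z0 ρ : ℝ) : Prop :=
  ∀ z, |z - z0| ≤ ρ → |dt (pos t z - pos l z) e| ≤ a1 ∧ |cr e (pos t z - pos l z)| ≤ a2

/-- `t` and `t'` share a fat `w`-tube over the cell -/
def Close (t t' : Ln) (w z0 ρ : ℝ) : Prop :=
  ∀ z, |z - z0| ≤ ρ → ∀ e : E2, dt e e = 1 → |dt (pos t z - pos t' z) e| ≤ w

theorem dt_sub (x y e : E2) : dt (x - y) e = dt x e - dt y e := by
  simp only [dt, PiLp.sub_apply]; ring
theorem cr_sub (x y e : E2) : cr e (x - y) = cr e x - cr e y := by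
  simp only [cr, PiLp.sub_apply]; ring

theorem unit_id (e e' : E2) : dt e e * dt e' e' = dt e e' ^ 2 + cr e e' ^ 2 := by
  simp only [dt, cr]; ring

theorem abs_dt_le_one {e e' : E2} (h : dt e e = 1) (h' : dt e' e' = 1) : |dt e e'| ≤ 1 := by
  have := unit_id e e'
  rw [h, h'] at this
  rw [abs_le]; constructor <;> nlinarith [sq_nonneg (cr e e'), sq_nonneg (dt e e')]

theorem abs_cr_le_one {e e' : E2} (h : dt e e = 1) (h' : dt e' e' = 1) : |cr e e'| ≤ 1 := by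
  have := unit_id e e'
  rw [h, h'] at this
  rw [abs_le]; constructor <;> nlinarith [sq_nonneg (cr e e'), sq_nonneg (dt e e')]

/-- `⟪x,e⟫ = c ⟪x,e'⟫ - s ⟪x,rot e'⟫` -/
theorem dt_of {e e' : E2} (h' : dt e' e' = 1) (x : E2) :
    dt x e = dt e e' * dt x e' - cr e e' * cr e' x := by
  have h1 : dt x e = dt x e * dt e' e' := by rw [h']; ring
  rw [h1]; simp only [dt, cr]; ring

/-- `⟪x,rot e⟫ = s ⟪x,e'⟫ + c ⟪x,rot e'⟫` -/
theorem cr_of {e e' : E2} (h' : dt e' e' = 1) (x : E2) :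
    cr e x = cr e e' * dt x e' + dt e e' * cr e' x := by
  have h1 : cr e x = cr e x * dt e' e' := by rw [h']; ring
  rw [h1]; simp only [dt, cr]; ring

/-- `s ⟪x,rot e⟫ = ⟪x,e'⟫ - c ⟪x,e⟫` -/
theorem cr_mul {e e' : E2} (h : dt e e = 1) (x : E2) :
    cr e e' * cr e x = dt x e' - dt e e' * dt x e := by
  have h1 : dt x e' = dt x e' * dt e e := by rw [h]; ring
  rw [h1]; simp only [dt, cr]; ring

/-- rotate a unit vector -/
def rt (e : E2) : E2 := !₂[-e 1, e 0]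

theorem dt_rt (e x : E2) : dt x (rt e) = cr e x := by
  simp [dt, cr, rt]; ring

theorem rt_unit {e : E2} (h : dt e e = 1) : dt (rt e) (rt e) = 1 := by
  rw [dt_rt]; simp [cr, rt]; simp [dt] at h; linarith

theorem Close.dt {t t' : Ln} {w z0 ρ : ℝ} (h : Close t t' w z0 ρ) {z : ℝ} (hz : |z - z0| ≤ ρ)
    {e : E2} (he : dt e e = 1) : |dt (pos t z - pos t' z) e| ≤ w := h z hz e he

theorem Close.cr {t t' : Ln} {w z0 ρ : ℝ} (h : Close t t' w z0 ρ) {z : ℝ} (hz : |z - z0| ≤ ρ)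
    {e : E2} (he : Flag51.dt e e = 1) : |cr e (pos t z - pos t' z)| ≤ w := by
  rw [← dt_rt]; exact h z hz _ (rt_unit he)

section geo

variable {w1 w2 z0 ρ : ℝ} {l l' : Ln} {e e' : E2}

/-- all lines of `K'` lie in one plank around `K` -/
theorem plank_of_share (hw1 : 0 ≤ w1) (hw12 : w1 ≤ w2) (he : dt e e = 1) (he' : dt e' e' = 1)
    {t t' : Ln} (ht : InPlank t l e w1 w2 z0 ρ) (ht' : InPlank t' l' e' w1 w2 z0 ρ)
    (hc : Close t t' w1 z0 ρ) {θ : ℝ} (hθ : |cr e e'| ≤ 2 * θ) (hθw : w1 ≤ θ * w2)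
    {t2 : Ln} (h2 : InPlank t2 l' e' w1 w2 z0 ρ) :
    InPlank t2 l e (8 * θ * w2) (8 * w2) z0 ρ := by
  intro z hz
  have hw2 : 0 ≤ w2 := hw1.trans hw12
  obtain ⟨a1, a2⟩ := ht z hz
  obtain ⟨b1, b2⟩ := ht' z hz
  obtain ⟨c1, c2⟩ := h2 z hz
  have d1 := hc.dt hz he
  have d2 := hc.cr hz he
  have hcc := abs_dt_le_one he he'
  have hss := abs_cr_le_one he he'
  set Y := pos t2 z - pos t' z with hY
  have hYe : |dt Y e'| ≤ 2 * w1 := by
    have : dt Y e' = dt (pos t2 z - pos l' z) e' - dt (pos t' z - pos l' z) e' := by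
      rw [hY, ← dt_sub]; congr 1; abel
    rw [this]; exact (abs_sub _ _).trans (by linarith)
  have hYr : |cr e' Y| ≤ 2 * w2 := by
    have : cr e' Y = cr e' (pos t2 z - pos l' z) - cr e' (pos t' z - pos l' z) := by
      rw [hY, ← cr_sub]; congr 1; abel
    rw [this]; exact (abs_sub _ _).trans (by linarith)
  have hYdt : |dt Y e| ≤ 2 * w1 + 2 * θ * (2 * w2) := by
    rw [dt_of he' Y]
    refine (abs_sub _ _).trans ?_
    rw [abs_mul, abs_mul]
    have e1 : |dt e e'| * |dt Y e'| ≤ 1 * (2 * w1) :=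
      mul_le_mul hcc hYe (abs_nonneg _) zero_le_one
    have e2 : |cr e e'| * |cr e' Y| ≤ 2 * θ * (2 * w2) :=
      mul_le_mul hθ hYr (abs_nonneg _) ((abs_nonneg _).trans hθ)
    linarith
  have hYcr : |cr e Y| ≤ 2 * w1 + 2 * w2 := by
    rw [cr_of he' Y]
    refine (abs_add_le _ _).trans ?_
    rw [abs_mul, abs_mul]
    have e1 : |cr e e'| * |dt Y e'| ≤ 1 * (2 * w1) :=
      mul_le_mul hss hYe (abs_nonneg _) zero_le_one
    have e2 : |dt e e'| * |cr e' Y| ≤ 1 * (2 * w2) :=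
      mul_le_mul hcc hYr (abs_nonneg _) zero_le_one
    linarith
  have hX : pos t2 z - pos l z = Y - (pos t z - pos t' z) + (pos t z - pos l z) := by
    rw [hY]; abel
  constructor
  · have : dt (pos t2 z - pos l z) e
        = dt Y e - dt (pos t z - pos t' z) e + dt (pos t z - pos l z) e := by
      rw [hX]; simp only [dt, PiLp.sub_apply, PiLp.add_apply]; ring
    rw [this]
    have h3 := abs_add_le (dt Y e - dt (pos t z - pos t' z) e) (dt (pos t z - pos l z) e)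
    have h4 := abs_sub (dt Y e) (dt (pos t z - pos t' z) e)
    nlinarith
  · have : cr e (pos t2 z - pos l z)
        = cr e Y - cr e (pos t z - pos t' z) + cr e (pos t z - pos l z) := by
      rw [hX]; simp only [cr, PiLp.sub_apply, PiLp.add_apply]; ring
    rw [this]
    have h3 := abs_add_le (cr e Y - cr e (pos t z - pos t' z)) (cr e (pos t z - pos l z))
    have h4 := abs_sub (cr e Y) (cr e (pos t z - pos t' z))
    linarith

/-- the lines of `K` sharing `w1`-tubes with lines of `K'` lie in one narrow plank -/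
theorem strip_of_share (hw1 : 0 ≤ w1) (he : dt e e = 1) (he' : dt e' e' = 1)
    {t t' t0 t0' : Ln} (ht : InPlank t l e w1 w2 z0 ρ) (ht0 : InPlank t0 l e w1 w2 z0 ρ)
    (ht' : InPlank t' l' e' w1 w2 z0 ρ) (ht0' : InPlank t0' l' e' w1 w2 z0 ρ)
    (hc : Close t t' w1 z0 ρ) (hc0 : Close t0 t0' w1 z0 ρ) {θ : ℝ} (hθ0 : 0 < θ)
    (hθ : θ ≤ |cr e e'|) :
    InPlank t t0 e (2 * w1) (6 * w1 / θ) z0 ρ := by
  intro z hz
  obtain ⟨a1, a2⟩ := ht z hz
  obtain ⟨b1, b2⟩ := ht0 z hz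
  obtain ⟨c1, c2⟩ := ht' z hz
  obtain ⟨d1, d2⟩ := ht0' z hz
  have f1 := hc.dt hz he'
  have f2 := hc0.dt hz he'
  have hcc := abs_dt_le_one he he'
  set X := pos t z - pos t0 z with hX
  have g1 : |dt X e| ≤ 2 * w1 := by
    have : dt X e = dt (pos t z - pos l z) e - dt (pos t0 z - pos l z) e := by
      rw [hX, ← dt_sub]; congr 1; abel
    rw [this]; exact (abs_sub _ _).trans (by linarith)
  have g2 : |dt X e'| ≤ 4 * w1 := by
    have : dt X e' = (dt (pos t z - pos t' z) e' + dt (pos t' z - pos l' z) e')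
        - (dt (pos t0 z - pos t0' z) e' + dt (pos t0' z - pos l' z) e') := by
      rw [hX]; simp only [dt, PiLp.sub_apply]; ring
    rw [this]
    have h3 := abs_sub (dt (pos t z - pos t' z) e' + dt (pos t' z - pos l' z) e')
      (dt (pos t0 z - pos t0' z) e' + dt (pos t0' z - pos l' z) e')
    have h4 := abs_add_le (dt (pos t z - pos t' z) e') (dt (pos t' z - pos l' z) e')
    have h5 := abs_add_le (dt (pos t0 z - pos t0' z) e') (dt (pos t0' z - pos l' z) e')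
    linarith
  refine ⟨g1, ?_⟩
  have g3 : |cr e e'| * |cr e X| ≤ 6 * w1 := by
    rw [← abs_mul, cr_mul he X]
    refine (abs_sub _ _).trans ?_
    rw [abs_mul]
    have : |dt e e'| * |dt X e| ≤ 1 * (2 * w1) := mul_le_mul hcc g1 (abs_nonneg _) zero_le_one
    linarith
  rw [le_div_iff₀ hθ0]
  calc |cr e X| * θ ≤ |cr e X| * |cr e e'| := mul_le_mul_of_nonneg_left hθ (abs_nonneg _)
    _ = |cr e e'| * |cr e X| := mul_comm _ _
    _ ≤ 6 * w1 := g3

end geo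

open Classical in
/-- a plank system on the weighted family `S` (lines `L`, weights `m`): `f` assigns to every line
a plank `(b, e; w1, w2)` containing it, every used plank carries mass at least `A`, and every plank
of dimensions `(a1, a2)` carries mass at most `B A (a1/w1) (a2/w2)^(1+q)` (penalised maximality). -/
structure Sys {ι α : Type*} (S : Finset ι) (L : ι → Ln) (m : ι → ℝ) (f : ι → α) (b : α → Ln)
    (e : α → E2) (w1 w2 z0 ρ A B q : ℝ) : Prop where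
  nonneg : ∀ t ∈ S, 0 ≤ m t
  unit : ∀ t ∈ S, dt (e (f t)) (e (f t)) = 1
  mem : ∀ t ∈ S, InPlank (L t) (b (f t)) (e (f t)) w1 w2 z0 ρ
  low : ∀ t ∈ S, A ≤ ∑ s ∈ S with f s = f t, m s
  max : ∀ (l : Ln) (e' : E2) (a1 a2 : ℝ), dt e' e' = 1 → w1 ≤ a1 → a1 ≤ a2 → a2 ≤ 8 * w2 →
    ∑ t ∈ S with InPlank (L t) l e' a1 a2 z0 ρ, m t ≤ B * A * (a1 / w1) * (a2 / w2) ^ (1 + q)

theorem sum_biUnion_le' {ι β : Type*} [DecidableEq ι] (s : Finset β) (P : β → Finset ι)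
    (m : ι → ℝ) (h : ∀ b ∈ s, ∀ t ∈ P b, 0 ≤ m t) :
    ∑ t ∈ s.biUnion P, m t ≤ ∑ b ∈ s, ∑ t ∈ P b, m t := by
  classical
  induction s using Finset.induction_on with
  | empty => simp
  | insert b s hb ih =>
    rw [biUnion_insert, sum_insert hb]
    have h1 := sum_union_inter (s₁ := P b) (s₂ := s.biUnion P) (f := m)
    have h2 : 0 ≤ ∑ t ∈ P b ∩ s.biUnion P, m t :=
      sum_nonneg fun t ht => h b (mem_insert_self _ _) t (mem_inter.1 ht).1
    have h3 := ih fun b' hb' t ht => h b' (mem_insert_of_mem hb') t ht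
    linarith

section comb

variable {ι κ α β : Type*} {S1 : Finset ι} {L1 : ι → Ln} {m1 : ι → ℝ} {f : ι → α} {bK : α → Ln}
  {eK : α → E2} {S2 : Finset κ} {L2 : κ → Ln} {m2 : κ → ℝ} {g : κ → β} {bK' : β → Ln}
  {eK' : β → E2} {w1 w2 z0 ρ A1 A2 B1 B2 q : ℝ}

open Classical in
/-- the planks of the second system sharing a `w1`-tube with the plank `a` at angle about `θ` -/
def J (S1 : Finset ι) (L1 : ι → Ln) (f : ι → α) (eK : α → E2) (S2 : Finset κ) (L2 : κ → Ln)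
    (g : κ → β) (eK' : β → E2) (w1 z0 ρ : ℝ) (a : α) (θ : ℝ) : Finset β :=
  (S2.image g).filter fun b => θ ≤ |cr (eK a) (eK' b)| ∧ |cr (eK a) (eK' b)| ≤ 2 * θ ∧
    ∃ t ∈ S1, f t = a ∧ ∃ t' ∈ S2, g t' = b ∧ Close (L1 t) (L2 t') w1 z0 ρ

theorem card_J (h1 : Sys S1 L1 m1 f bK eK w1 w2 z0 ρ A1 B1 q)
    (h2 : Sys S2 L2 m2 g bK' eK' w1 w2 z0 ρ A2 B2 q) (hw1 : 0 < w1) (hw12 : w1 ≤ w2)
    (hq0 : 0 ≤ q) (hq : q ≤ 1) (hA2 : 0 < A2) (hB2 : 0 ≤ B2) {θ : ℝ} (hθ1 : θ ≤ 1)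
    (hθ : w1 ≤ θ * w2) {a : α} :
    ((J S1 L1 f eK S2 L2 g eK' w1 z0 ρ a θ).card : ℝ) ≤ 512 * B2 * (θ * w2 / w1) := by
  classical
  have hw2 : 0 < w2 := hw1.trans_le hw12
  set JJ := J S1 L1 f eK S2 L2 g eK' w1 z0 ρ a θ with hJJ
  rcases JJ.eq_empty_or_nonempty with hE | hne
  · rw [hE]; simp; have : 0 < θ * w2 := hw1.trans_le hθ; positivity
  obtain ⟨b0, hb0⟩ := hne
  have hb0' := hb0
  simp only [hJJ, J, mem_filter, mem_image] at hb0'
  obtain ⟨-, -, -, t0, ht0, hfa, -⟩ := hb0'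
  have hea : dt (eK a) (eK a) = 1 := by rw [← hfa]; exact h1.unit t0 ht0
  -- every member of a plank in JJ lies in the fat plank around `a`
  have key : ∀ s ∈ S2, g s ∈ JJ → InPlank (L2 s) (bK a) (eK a) (8 * θ * w2) (8 * w2) z0 ρ := by
    intro s hs hgs
    simp only [hJJ, J, mem_filter, mem_image] at hgs
    obtain ⟨-, -, hang, t, ht, hft, t', ht', hgt', hc⟩ := hgs
    have m1' := h1.mem t ht
    have m2' := h2.mem t' ht'
    have m3' := h2.mem s hs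
    rw [hft] at m1'
    rw [hgt'] at m2'
    have hes : dt (eK' (g s)) (eK' (g s)) = 1 := h2.unit s hs
    exact plank_of_share hw1.le hw12 hea hes m1' m2' hc hang hθ m3'
  have h3 : (JJ.card : ℝ) * A2 ≤ ∑ s ∈ S2 with g s ∈ JJ, m2 s := by
    have : ∑ s ∈ S2 with g s ∈ JJ, m2 s = ∑ b ∈ JJ, ∑ s ∈ S2 with g s = b, m2 s := by
      rw [← Finset.sum_fiberwise_of_maps_to (t := JJ) (g := g) (s := S2.filter fun s => g s ∈ JJ)
        (fun s hs => (mem_filter.1 hs).2)]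
      refine sum_congr rfl fun b hb => ?_
      refine sum_congr ?_ fun _ _ => rfl
      ext s
      simp only [mem_filter]
      constructor
      · rintro ⟨⟨h, _⟩, h'⟩; exact ⟨h, h'⟩
      · rintro ⟨h, h'⟩; exact ⟨⟨h, h' ▸ hb⟩, h'⟩
    rw [this, ← nsmul_eq_mul, ← sum_const]
    refine sum_le_sum fun b hb => ?_
    have hb' := hb
    simp only [hJJ, J, mem_filter, mem_image] at hb'
    obtain ⟨⟨s, hs, hgs⟩, -⟩ := hb'
    rw [← hgs]; exact h2.low s hs
  have h4 : ∑ s ∈ S2 with g s ∈ JJ, m2 s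
      ≤ ∑ s ∈ S2 with InPlank (L2 s) (bK a) (eK a) (8 * θ * w2) (8 * w2) z0 ρ, m2 s := by
    refine sum_le_sum_of_subset_of_nonneg ?_ ?_
    · intro s hs
      rw [mem_filter] at hs ⊢
      exact ⟨hs.1, key s hs.1 hs.2⟩
    · intro s hs _
      exact h2.nonneg s (mem_filter.1 hs).1
  have h5 := h2.max (bK a) (eK a) (8 * θ * w2) (8 * w2) hea (by nlinarith) (by nlinarith) le_rfl
  have h6 : (8 * w2 / w2) ^ (1 + q) ≤ (64 : ℝ) := by
    rw [mul_div_cancel_right₀ _ hw2.ne']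
    calc (8 : ℝ) ^ (1 + q) ≤ 8 ^ (2 : ℝ) :=
          Real.rpow_le_rpow_of_exponent_le (by norm_num) (by linarith)
      _ = 64 := by norm_num
  have h7 : (JJ.card : ℝ) * A2 ≤ 512 * B2 * (θ * w2 / w1) * A2 := by
    refine (h3.trans (h4.trans h5)).trans ?_
    have hpos : 0 ≤ B2 * A2 * (8 * θ * w2 / w1) := by
      have : 0 < θ * w2 := hw1.trans_le hθ
      have : 0 ≤ 8 * θ * w2 := by nlinarith
      positivity
    calc B2 * A2 * (8 * θ * w2 / w1) * (8 * w2 / w2) ^ (1 + q)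
        ≤ B2 * A2 * (8 * θ * w2 / w1) * 64 := mul_le_mul_of_nonneg_left h6 hpos
      _ = 512 * B2 * (θ * w2 / w1) * A2 := by ring
  exact le_of_mul_le_mul_right h7 hA2

open Classical in
theorem strip_mass (h1 : Sys S1 L1 m1 f bK eK w1 w2 z0 ρ A1 B1 q)
    (h2 : Sys S2 L2 m2 g bK' eK' w1 w2 z0 ρ A2 B2 q) (hw1 : 0 < w1) (hw12 : w1 ≤ w2)
    (hq0 : 0 ≤ q) (hq : q ≤ 1) (hA1 : 0 ≤ A1) (hB1 : 0 ≤ B1) {θ : ℝ} (hθ1 : θ ≤ 1)
    (hθ : w1 ≤ θ * w2) {a : α} {b : β} (hang : θ ≤ |cr (eK a) (eK' b)|) :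
    ∑ t ∈ S1 with f t = a ∧ ∃ t' ∈ S2, g t' = b ∧ Close (L1 t) (L2 t') w1 z0 ρ, m1 t
      ≤ 72 * B1 * A1 * (w1 / (θ * w2)) ^ (1 + q) := by
  have hw2 : 0 < w2 := hw1.trans_le hw12
  have hθ0 : 0 < θ := by
    by_contra h
    have : θ * w2 ≤ 0 := mul_nonpos_of_nonpos_of_nonneg (not_lt.1 h) hw2.le
    linarith
  rcases (S1.filter fun t => f t = a ∧ ∃ t' ∈ S2, g t' = b ∧
      Close (L1 t) (L2 t') w1 z0 ρ).eq_empty_or_nonempty with hE | ⟨t0, ht0⟩
  · rw [hE, sum_empty]; positivity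
  rw [mem_filter] at ht0
  obtain ⟨ht0, hft0, t0', ht0', hgt0', hc0⟩ := ht0
  have hea : dt (eK a) (eK a) = 1 := by rw [← hft0]; exact h1.unit t0 ht0
  have heb : dt (eK' b) (eK' b) = 1 := by rw [← hgt0']; exact h2.unit t0' ht0'
  have m0 := h1.mem t0 ht0
  rw [hft0] at m0
  have m0' := h2.mem t0' ht0'
  rw [hgt0'] at m0'
  have h3 : ∑ t ∈ S1 with f t = a ∧ ∃ t' ∈ S2, g t' = b ∧ Close (L1 t) (L2 t') w1 z0 ρ, m1 t
      ≤ ∑ t ∈ S1 with InPlank (L1 t) (L1 t0) (eK a) (2 * w1) (6 * w1 / θ) z0 ρ, m1 t := by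
    refine sum_le_sum_of_subset_of_nonneg ?_ ?_
    · intro t ht
      rw [mem_filter] at ht ⊢
      obtain ⟨ht, hft, t', ht', hgt', hc⟩ := ht
      refine ⟨ht, ?_⟩
      have m1' := h1.mem t ht
      rw [hft] at m1'
      have m2' := h2.mem t' ht'
      rw [hgt'] at m2'
      exact strip_of_share hw1.le hea heb m1' m0 m2' m0' hc hc0 hθ0 hang
    · intro s hs _
      exact h1.nonneg s (mem_filter.1 hs).1
  have hle1 : 2 * w1 ≤ 6 * w1 / θ := by
    rw [le_div_iff₀ hθ0]; nlinarith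
  have hle2 : 6 * w1 / θ ≤ 8 * w2 := by
    rw [div_le_iff₀ hθ0]; nlinarith
  have h4 := h1.max (L1 t0) (eK a) (2 * w1) (6 * w1 / θ) hea (by linarith) hle1 hle2
  refine (h3.trans h4).trans ?_
  have e1 : 2 * w1 / w1 = 2 := by field_simp
  have e2 : 6 * w1 / θ / w2 = 6 * (w1 / (θ * w2)) := by field_simp
  rw [e1, e2, Real.mul_rpow (by norm_num) (by positivity)]
  have h6 : (6 : ℝ) ^ (1 + q) ≤ 36 := by
    calc (6 : ℝ) ^ (1 + q) ≤ 6 ^ (2 : ℝ) :=
          Real.rpow_le_rpow_of_exponent_le (by norm_num) (by linarith)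
      _ = 36 := by norm_num
  have h7 : 0 ≤ (w1 / (θ * w2)) ^ (1 + q) := by positivity
  calc B1 * A1 * 2 * ((6 : ℝ) ^ (1 + q) * (w1 / (θ * w2)) ^ (1 + q))
      ≤ B1 * A1 * 2 * (36 * (w1 / (θ * w2)) ^ (1 + q)) := by
        refine mul_le_mul_of_nonneg_left ?_ (by positivity)
        exact mul_le_mul_of_nonneg_right h6 h7
    _ = 72 * B1 * A1 * (w1 / (θ * w2)) ^ (1 + q) := by ring

open Classical in
/-- bad mass of one plank at one dyadic angle -/
theorem plank_mass (h1 : Sys S1 L1 m1 f bK eK w1 w2 z0 ρ A1 B1 q)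
    (h2 : Sys S2 L2 m2 g bK' eK' w1 w2 z0 ρ A2 B2 q) (hw1 : 0 < w1) (hw12 : w1 ≤ w2)
    (hq0 : 0 ≤ q) (hq : q ≤ 1) (hA1 : 0 ≤ A1) (hA2 : 0 < A2) (hB1 : 0 ≤ B1) (hB2 : 0 ≤ B2)
    {θ : ℝ} (hθ1 : θ ≤ 1) (hθ : w1 ≤ θ * w2) (a : α) :
    ∑ t ∈ S1 with f t = a ∧ ∃ t' ∈ S2, Close (L1 t) (L2 t') w1 z0 ρ ∧
        θ ≤ |cr (eK a) (eK' (g t'))| ∧ |cr (eK a) (eK' (g t'))| ≤ 2 * θ, m1 t
      ≤ 36864 * B1 * B2 * A1 * (w1 / (θ * w2)) ^ q := by
  have hw2 : 0 < w2 := hw1.trans_le hw12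
  have hθ0 : 0 < θ * w2 := hw1.trans_le hθ
  set JJ := J S1 L1 f eK S2 L2 g eK' w1 z0 ρ a θ with hJJ
  set P : β → Finset ι := fun b => S1.filter fun t => f t = a ∧ ∃ t' ∈ S2, g t' = b ∧
      Close (L1 t) (L2 t') w1 z0 ρ with hP
  have h3 : ∑ t ∈ S1 with f t = a ∧ ∃ t' ∈ S2, Close (L1 t) (L2 t') w1 z0 ρ ∧
        θ ≤ |cr (eK a) (eK' (g t'))| ∧ |cr (eK a) (eK' (g t'))| ≤ 2 * θ, m1 t
      ≤ ∑ t ∈ JJ.biUnion P, m1 t := by
    refine sum_le_sum_of_subset_of_nonneg ?_ ?_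
    · intro t ht
      rw [mem_filter] at ht
      obtain ⟨ht, hft, t', ht', hc, ha1, ha2⟩ := ht
      rw [mem_biUnion]
      refine ⟨g t', ?_, ?_⟩
      · simp only [hJJ, J, mem_filter, mem_image]
        exact ⟨⟨t', ht', rfl⟩, ha1, ha2, t, ht, hft, t', ht', rfl, hc⟩
      · rw [hP, mem_filter]
        exact ⟨ht, hft, t', ht', rfl, hc⟩
    · intro t ht _
      rw [mem_biUnion] at ht
      obtain ⟨b, _, hb⟩ := ht
      exact h1.nonneg t (mem_filter.1 hb).1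
  have h4 : ∑ t ∈ JJ.biUnion P, m1 t ≤ ∑ b ∈ JJ, ∑ t ∈ P b, m1 t :=
    sum_biUnion_le' JJ P m1 fun b _ t ht => h1.nonneg t (mem_filter.1 ht).1
  have h5 : ∀ b ∈ JJ, ∑ t ∈ P b, m1 t ≤ 72 * B1 * A1 * (w1 / (θ * w2)) ^ (1 + q) := by
    intro b hb
    simp only [hJJ, J, mem_filter, mem_image] at hb
    exact strip_mass h1 h2 hw1 hw12 hq0 hq hA1 hB1 hθ1 hθ hb.2.1
  have h6 := card_J (m1 := m1) h1 h2 hw1 hw12 hq0 hq hA2 hB2 hθ1 hθ (a := a)
  have hX : 0 < w1 / (θ * w2) := by positivity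
  have hθp : 0 < θ := by
    by_contra h
    have : θ * w2 ≤ 0 := mul_nonpos_of_nonpos_of_nonneg (not_lt.1 h) hw2.le
    linarith
  have h7 : ∑ b ∈ JJ, ∑ t ∈ P b, m1 t
      ≤ (JJ.card : ℝ) * (72 * B1 * A1 * (w1 / (θ * w2)) ^ (1 + q)) := by
    rw [← nsmul_eq_mul]; exact sum_le_card_nsmul _ _ _ h5
  refine (h3.trans (h4.trans h7)).trans ?_
  have h8 : (JJ.card : ℝ) * (72 * B1 * A1 * (w1 / (θ * w2)) ^ (1 + q))
      ≤ 512 * B2 * (θ * w2 / w1) * (72 * B1 * A1 * (w1 / (θ * w2)) ^ (1 + q)) :=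
    mul_le_mul_of_nonneg_right h6 (by positivity)
  refine h8.trans (le_of_eq ?_)
  rw [Real.rpow_add hX, Real.rpow_one]
  field_simp
  ring

open Classical in
/-- **FLAG LEMMA**: the lines of the first system which share a `w1`-tube with a line of the second
system whose plank makes an angle `≥ θ` carry mass at most
`36864 B1 B2 (1 - 2^(-q))⁻¹ (w1 / (θ w2))^q` times the total mass. -/
theorem flag (h1 : Sys S1 L1 m1 f bK eK w1 w2 z0 ρ A1 B1 q)
    (h2 : Sys S2 L2 m2 g bK' eK' w1 w2 z0 ρ A2 B2 q) (hw1 : 0 < w1) (hw12 : w1 ≤ w2)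
    (hq0 : 0 < q) (hq : q ≤ 1) (hA1 : 0 ≤ A1) (hA2 : 0 < A2) (hB1 : 0 ≤ B1) (hB2 : 0 ≤ B2)
    {θ : ℝ} (hθ : w1 ≤ θ * w2) :
    ∑ t ∈ S1 with ∃ t' ∈ S2, Close (L1 t) (L2 t') w1 z0 ρ ∧ θ ≤ |cr (eK (f t)) (eK' (g t'))|, m1 t
      ≤ 36864 * B1 * B2 / (1 - 2 ^ (-q)) * (w1 / (θ * w2)) ^ q * ∑ t ∈ S1, m1 t := by
  have hw2 : 0 < w2 := hw1.trans_le hw12
  have hθp : 0 < θ := by
    by_contra h
    have : θ * w2 ≤ 0 := mul_nonpos_of_nonpos_of_nonneg (not_lt.1 h) hw2.le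
    linarith
  have hr : (2 : ℝ) ^ (-q) < 1 := Real.rpow_lt_one_of_one_lt_of_neg (by norm_num) (by linarith)
  have hr0 : 0 < (2 : ℝ) ^ (-q) := by positivity
  set X := w1 / (θ * w2) with hX
  have hX0 : 0 < X := by positivity
  -- number of dyadic angles
  obtain ⟨N, hN⟩ : ∃ N : ℕ, 1 < θ * 2 ^ N := by
    obtain ⟨N, hN⟩ := pow_unbounded_of_one_lt (1 / θ) (by norm_num : (1 : ℝ) < 2)
    exact ⟨N, by rw [div_lt_iff₀ hθp] at hN; linarith [mul_comm θ ((2:ℝ) ^ N)]⟩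
  set bad : ι → Prop := fun t => ∃ t' ∈ S2, Close (L1 t) (L2 t') w1 z0 ρ ∧
    θ ≤ |cr (eK (f t)) (eK' (g t'))| with hbad
  -- bound for one plank
  have hone : ∀ a ∈ S1.image f, ∑ t ∈ S1 with f t = a ∧ bad t, m1 t
      ≤ 36864 * B1 * B2 / (1 - 2 ^ (-q)) * X ^ q * A1 := by
    intro a ha
    set Q : ℕ → Finset ι := fun j => S1.filter fun t => f t = a ∧ ∃ t' ∈ S2,
        Close (L1 t) (L2 t') w1 z0 ρ ∧ θ * 2 ^ j ≤ |cr (eK a) (eK' (g t'))| ∧
        |cr (eK a) (eK' (g t'))| ≤ 2 * (θ * 2 ^ j) with hQ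
    set R := (range N).filter fun j => θ * 2 ^ j ≤ 1 with hR
    have hea : dt (eK a) (eK a) = 1 := by
      rw [mem_image] at ha
      obtain ⟨t, ht, rfl⟩ := ha
      exact h1.unit t ht
    have h3 : ∑ t ∈ S1 with f t = a ∧ bad t, m1 t ≤ ∑ t ∈ R.biUnion Q, m1 t := by
      refine sum_le_sum_of_subset_of_nonneg ?_ ?_
      · intro t ht
        rw [mem_filter] at ht
        obtain ⟨ht, hft, t', ht', hc, ha1⟩ := ht
        rw [hft] at ha1
        set y := |cr (eK a) (eK' (g t'))| with hy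
        have hy1 : y ≤ 1 := abs_cr_le_one hea (h2.unit t' ht')
        -- the largest j with θ 2^j ≤ y
        have hex : ∃ j, y < θ * 2 ^ (j + 1) := by
          refine ⟨N, lt_of_le_of_lt hy1 (hN.trans_le ?_)⟩
          exact mul_le_mul_of_nonneg_left (pow_le_pow_right₀ (by norm_num) (Nat.le_succ N)) hθp.le
        set j := Nat.find hex with hj
        have hj1 : y < θ * 2 ^ (j + 1) := Nat.find_spec hex
        have hj2 : θ * 2 ^ j ≤ y := by
          rcases Nat.eq_zero_or_pos j with h0 | h0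
          · rw [h0, pow_zero, mul_one]; exact ha1
          · have := Nat.find_min hex (m := j - 1) (by omega)
            rw [not_lt, Nat.sub_add_cancel h0] at this
            exact this
        have hjN : j < N := by
          by_contra h
          have : θ * 2 ^ N ≤ θ * 2 ^ j :=
            mul_le_mul_of_nonneg_left (pow_le_pow_right₀ (by norm_num) (not_lt.1 h)) hθp.le
          linarith
        rw [mem_biUnion]
        refine ⟨j, ?_, ?_⟩
        · rw [hR, mem_filter, mem_range]; exact ⟨hjN, hj2.trans hy1⟩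
        · rw [hQ, mem_filter]
          refine ⟨ht, hft, t', ht', hc, hj2, ?_⟩
          rw [pow_succ] at hj1
          linarith
      · intro t ht _
        rw [mem_biUnion] at ht
        obtain ⟨b, _, hb⟩ := ht
        exact h1.nonneg t (mem_filter.1 hb).1
    have h4 := sum_biUnion_le' R Q m1 fun b _ t ht => h1.nonneg t (mem_filter.1 ht).1
    have h5 : ∀ j ∈ R, ∑ t ∈ Q j, m1 t
        ≤ 36864 * B1 * B2 * A1 * (X ^ q * (2 ^ (-q)) ^ j) := by
      intro j hj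
      rw [hR, mem_filter] at hj
      have hθj : w1 ≤ θ * 2 ^ j * w2 := by
        refine hθ.trans ?_
        have : (1 : ℝ) ≤ 2 ^ j := one_le_pow₀ (by norm_num)
        nlinarith [mul_pos hθp hw2]
      have h6 := plank_mass h1 h2 hw1 hw12 hq0.le hq hA1 hA2 hB1 hB2 hj.2 hθj a
      refine h6.trans (le_of_eq ?_)
      congr 1
      have e1 : w1 / (θ * 2 ^ j * w2) = X * ((2 : ℝ) ^ j)⁻¹ := by rw [hX]; field_simp
      rw [e1, Real.mul_rpow hX0.le (by positivity)]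
      congr 1
      rw [← Real.rpow_natCast, ← Real.rpow_natCast, ← Real.rpow_neg (by norm_num),
        ← Real.rpow_mul (by norm_num), ← Real.rpow_mul (by norm_num)]
      congr 1; ring
    have h6 : ∑ j ∈ R, ∑ t ∈ Q j, m1 t
        ≤ 36864 * B1 * B2 * A1 * X ^ q * (1 / (1 - 2 ^ (-q))) := by
      calc ∑ j ∈ R, ∑ t ∈ Q j, m1 t
          ≤ ∑ j ∈ R, 36864 * B1 * B2 * A1 * (X ^ q * (2 ^ (-q)) ^ j) := sum_le_sum h5
        _ ≤ ∑ j ∈ range N, 36864 * B1 * B2 * A1 * (X ^ q * (2 ^ (-q)) ^ j) := by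
            refine sum_le_sum_of_subset_of_nonneg (filter_subset _ _) fun _ _ _ => by positivity
        _ = 36864 * B1 * B2 * A1 * X ^ q * ∑ j ∈ range N, ((2 : ℝ) ^ (-q)) ^ j := by
            rw [mul_sum]; refine sum_congr rfl fun _ _ => by ring
        _ ≤ 36864 * B1 * B2 * A1 * X ^ q * (1 / (1 - 2 ^ (-q))) := by
            refine mul_le_mul_of_nonneg_left ?_ (by positivity)
            rw [geom_sum_eq hr.ne, le_div_iff₀ (by linarith)]
            have : (2 ^ (-q)) ^ N - 1 = -(1 - ((2 : ℝ) ^ (-q)) ^ N) := by ring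
            have e2 : (2 : ℝ) ^ (-q) - 1 = -(1 - 2 ^ (-q)) := by ring
            rw [this, e2, neg_div_neg_eq, div_mul_cancel₀ _ (by linarith : (1 - (2:ℝ) ^ (-q)) ≠ 0)]
            have : 0 ≤ ((2 : ℝ) ^ (-q)) ^ N := by positivity
            linarith
    refine (h3.trans (h4.trans h6)).trans (le_of_eq ?_)
    ring
  -- sum over the planks
  have h7 : ∑ t ∈ S1 with bad t, m1 t = ∑ a ∈ S1.image f, ∑ t ∈ S1 with f t = a ∧ bad t, m1 t := by
    rw [← Finset.sum_fiberwise_of_maps_to (t := S1.image f) (g := f) (s := S1.filter bad)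
      (fun s hs => mem_image_of_mem f (mem_filter.1 hs).1)]
    refine sum_congr rfl fun a ha => sum_congr ?_ fun _ _ => rfl
    ext s; simp only [mem_filter]; tauto
  have h8 : ∑ t ∈ S1, m1 t = ∑ a ∈ S1.image f, ∑ t ∈ S1 with f t = a, m1 t := by
    rw [Finset.sum_fiberwise_of_maps_to (t := S1.image f) (g := f)
      (fun s hs => mem_image_of_mem f hs)]
  rw [h7, h8, mul_sum]
  refine sum_le_sum fun a ha => (hone a ha).trans ?_
  refine mul_le_mul_of_nonneg_left ?_ (by have : 0 < 1 - (2:ℝ) ^ (-q) := by linarith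
                                          positivity)
  rw [mem_image] at ha
  obtain ⟨t, ht, rfl⟩ := ha
  exact h1.low t ht

end comb

end

end Crest.Agent.R138.Flag51
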