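import Mathlib
import Crest.Agent.R138.Flag_51

/-!
# R138: tilt lemma (helper51)

Generalised flag lemma: two near-maximal plank systems of **different** dimensions over one cell
(`flag2`), over a big and a small cell (`tilt`), and the chain inequality for frames
(`abs_cr_chain`).  The potential is penalised by `p` (thin width) and `q` (wide width), `p < q`:
a plank of dimensions `(a1, a2)` carries mass at most `M a1^(1+p) a2^(1+q)`.
-/

set_option autoImplicit false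
set_option linter.unusedVariables false

open Finset

namespace Crest.Agent.R138.Tilt51

open Crest.Agent.R138.Flag51

noncomputable section

section geo

variable {w1 w2 v1 v2 w z0 ρ : ℝ} {l l' : Ln} {e e' : E2}

/-- all lines of `K' = (l', e'; v1, v2)` lie in one plank around `K = (l, e; w1, w2)` -/
theorem plank_of_share2 (hw : 0 ≤ w) (hv1 : 0 ≤ v1) (hv12 : v1 ≤ v2)
    (hvw : v2 ≤ w2) (he : dt e e = 1) (he' : dt e' e' = 1)
    {t t' : Ln} (ht : InPlank t l e w1 w2 z0 ρ) (ht' : InPlank t' l' e' v1 v2 z0 ρ)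
    (hc : Close t t' w z0 ρ) {θ : ℝ} (hθ : |cr e e'| ≤ 2 * θ) (hθw : w1 ≤ θ * v2)
    (hθv : v1 ≤ θ * v2) (hwv : w ≤ v1)
    {t2 : Ln} (h2 : InPlank t2 l' e' v1 v2 z0 ρ) :
    InPlank t2 l e (8 * θ * v2) (8 * w2) z0 ρ := by
  intro z hz
  have hv2 : 0 ≤ v2 := hv1.trans hv12
  obtain ⟨a1, a2⟩ := ht z hz
  obtain ⟨b1, b2⟩ := ht' z hz
  obtain ⟨c1, c2⟩ := h2 z hz
  have d1 := hc.dt hz he
  have d2 := hc.cr hz he
  have hcc := abs_dt_le_one he he'
  have hss := abs_cr_le_one he he'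
  set Y := pos t2 z - pos t' z with hY
  have hYe : |dt Y e'| ≤ 2 * v1 := by
    have : dt Y e' = dt (pos t2 z - pos l' z) e' - dt (pos t' z - pos l' z) e' := by
      rw [hY, ← dt_sub]; congr 1; abel
    rw [this]; exact (abs_sub _ _).trans (by linarith)
  have hYr : |cr e' Y| ≤ 2 * v2 := by
    have : cr e' Y = cr e' (pos t2 z - pos l' z) - cr e' (pos t' z - pos l' z) := by
      rw [hY, ← cr_sub]; congr 1; abel
    rw [this]; exact (abs_sub _ _).trans (by linarith)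
  have hYdt : |dt Y e| ≤ 2 * v1 + 2 * θ * (2 * v2) := by
    rw [dt_of he' Y]
    refine (abs_sub _ _).trans ?_
    rw [abs_mul, abs_mul]
    have e1 : |dt e e'| * |dt Y e'| ≤ 1 * (2 * v1) :=
      mul_le_mul hcc hYe (abs_nonneg _) zero_le_one
    have e2 : |cr e e'| * |cr e' Y| ≤ 2 * θ * (2 * v2) :=
      mul_le_mul hθ hYr (abs_nonneg _) ((abs_nonneg _).trans hθ)
    linarith
  have hYcr : |cr e Y| ≤ 2 * v1 + 2 * v2 := by
    rw [cr_of he' Y]
    refine (abs_add_le _ _).trans ?_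
    rw [abs_mul, abs_mul]
    have e1 : |cr e e'| * |dt Y e'| ≤ 1 * (2 * v1) :=
      mul_le_mul hss hYe (abs_nonneg _) zero_le_one
    have e2 : |dt e e'| * |cr e' Y| ≤ 1 * (2 * v2) :=
      mul_le_mul hcc hYr (abs_nonneg _) zero_le_one
    linarith
  have hX : pos t2 z - pos l z = Y - (pos t z - pos t' z) + (pos t z - pos l z) := by
    rw [hY]; abel
  constructor
  · have : dt (pos t2 z - pos l z) e
        = dt Y e - dt (pos t z - pos t' z) e + dt (pos t z - pos l z) e := by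
      rw [hX]; simp only [dt, PiLp.sub_apply, PiLp.add_apply]; ring
    rw [this]
    have h3 := abs_add_le (dt Y e - dt (pos t z - pos t' z) e) (dt (pos t z - pos l z) e)
    have h4 := abs_sub (dt Y e) (dt (pos t z - pos t' z) e)
    nlinarith
  · have : cr e (pos t2 z - pos l z)
        = cr e Y - cr e (pos t z - pos t' z) + cr e (pos t z - pos l z) := by
      rw [hX]; simp only [cr, PiLp.sub_apply, PiLp.add_apply]; ring
    rw [this]
    have h3 := abs_add_le (cr e Y - cr e (pos t z - pos t' z)) (cr e (pos t z - pos l z))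
    have h4 := abs_sub (cr e Y) (cr e (pos t z - pos t' z))
    linarith

/-- the lines of `K` sharing `w`-tubes with lines of `K'` lie in one narrow plank; coordinates of
the differences in both frames -/
theorem strip_of_share2 (hw : 0 ≤ w) (hwv : w ≤ v1) (he : dt e e = 1) (he' : dt e' e' = 1)
    {t t' t0 t0' : Ln} (ht : InPlank t l e w1 w2 z0 ρ) (ht0 : InPlank t0 l e w1 w2 z0 ρ)
    (ht' : InPlank t' l' e' v1 v2 z0 ρ) (ht0' : InPlank t0' l' e' v1 v2 z0 ρ)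
    (hc : Close t t' w z0 ρ) (hc0 : Close t0 t0' w z0 ρ) {θ x : ℝ} (hθ0 : 0 < θ)
    (hθ : θ ≤ |cr e e'|) (hx1 : w1 ≤ x) (hx2 : v1 ≤ x) :
    InPlank t t0 e (2 * w1) (6 * x / θ) z0 ρ ∧ InPlank t t0 e' (4 * v1) (6 * x / θ) z0 ρ := by
  have key : ∀ z, |z - z0| ≤ ρ → |dt (pos t z - pos t0 z) e| ≤ 2 * w1 ∧
      |dt (pos t z - pos t0 z) e'| ≤ 4 * v1 := by
    intro z hz
    obtain ⟨a1, a2⟩ := ht z hz
    obtain ⟨b1, b2⟩ := ht0 z hz
    obtain ⟨c1, c2⟩ := ht' z hz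
    obtain ⟨d1, d2⟩ := ht0' z hz
    have f1 := hc.dt hz he'
    have f2 := hc0.dt hz he'
    set X := pos t z - pos t0 z with hX
    constructor
    · have : dt X e = dt (pos t z - pos l z) e - dt (pos t0 z - pos l z) e := by
        rw [hX, ← dt_sub]; congr 1; abel
      rw [this]; exact (abs_sub _ _).trans (by linarith)
    · have : dt X e' = (dt (pos t z - pos t' z) e' + dt (pos t' z - pos l' z) e')
          - (dt (pos t0 z - pos t0' z) e' + dt (pos t0' z - pos l' z) e') := by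
        rw [hX]; simp only [dt, PiLp.sub_apply]; ring
      rw [this]
      have h3 := abs_sub (dt (pos t z - pos t' z) e' + dt (pos t' z - pos l' z) e')
        (dt (pos t0 z - pos t0' z) e' + dt (pos t0' z - pos l' z) e')
      have h4 := abs_add_le (dt (pos t z - pos t' z) e') (dt (pos t' z - pos l' z) e')
      have h5 := abs_add_le (dt (pos t0 z - pos t0' z) e') (dt (pos t0' z - pos l' z) e')
      linarith
  have hcc := abs_dt_le_one he he'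
  have hcc' := abs_dt_le_one he' he
  constructor
  · intro z hz
    obtain ⟨g1, g2⟩ := key z hz
    refine ⟨g1, ?_⟩
    set X := pos t z - pos t0 z with hX
    have g3 : |cr e e'| * |cr e X| ≤ 6 * x := by
      rw [← abs_mul, cr_mul he X]
      refine (abs_sub _ _).trans ?_
      rw [abs_mul]
      have : |dt e e'| * |dt X e| ≤ 1 * (2 * w1) := mul_le_mul hcc g1 (abs_nonneg _) zero_le_one
      linarith
    rw [le_div_iff₀ hθ0]
    calc |cr e X| * θ ≤ |cr e X| * |cr e e'| := mul_le_mul_of_nonneg_left hθ (abs_nonneg _)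
      _ = |cr e e'| * |cr e X| := mul_comm _ _
      _ ≤ 6 * x := g3
  · intro z hz
    obtain ⟨g1, g2⟩ := key z hz
    refine ⟨g2, ?_⟩
    set X := pos t z - pos t0 z with hX
    have hswap : |cr e' e| = |cr e e'| := by
      have : cr e' e = - cr e e' := by simp only [cr]; ring
      rw [this, abs_neg]
    have g3 : |cr e' e| * |cr e' X| ≤ 6 * x := by
      rw [← abs_mul, cr_mul he' X]
      refine (abs_sub _ _).trans ?_
      rw [abs_mul]
      have : |dt e' e| * |dt X e'| ≤ 1 * (4 * v1) :=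
        mul_le_mul hcc' g2 (abs_nonneg _) zero_le_one
      linarith
    rw [le_div_iff₀ hθ0]
    calc |cr e' X| * θ ≤ |cr e' X| * |cr e' e| := by
          rw [hswap]; exact mul_le_mul_of_nonneg_left hθ (abs_nonneg _)
      _ = |cr e' e| * |cr e' X| := mul_comm _ _
      _ ≤ 6 * x := g3

/-- a line is close to itself -/
theorem close_self (hw : 0 ≤ w) (t : Ln) : Close t t w z0 ρ := by
  intro z hz e he
  have : dt (pos t z - pos t z) e = 0 := by simp [dt]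
  rw [this, abs_zero]; exact hw

theorem cr_swap (e e' : E2) : cr e' e = - cr e e' := by simp only [cr]; ring

theorem abs_cr_swap (e e' : E2) : |cr e' e| = |cr e e'| := by rw [cr_swap, abs_neg]

/-- the tilts satisfy the triangle inequality -/
theorem abs_cr_triangle {e e' e'' : E2} (h : dt e e = 1) (h' : dt e' e' = 1)
    (h'' : dt e'' e'' = 1) : |cr e e''| ≤ |cr e e'| + |cr e' e''| := by
  rw [cr_of h' e'']
  refine (abs_add_le _ _).trans ?_
  rw [abs_mul, abs_mul]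
  have h1 : |cr e e'| * |dt e'' e'| ≤ |cr e e'| * 1 :=
    mul_le_mul_of_nonneg_left (abs_dt_le_one h'' h') (abs_nonneg _)
  have h2 : |dt e e'| * |cr e' e''| ≤ 1 * |cr e' e''| :=
    mul_le_mul_of_nonneg_right (abs_dt_le_one h h') (abs_nonneg _)
  linarith

/-- chain inequality -/
theorem abs_cr_chain (e : ℕ → E2) (h : ∀ i, dt (e i) (e i) = 1) (n : ℕ) :
    |cr (e 0) (e n)| ≤ ∑ i ∈ range n, |cr (e i) (e (i + 1))| := by
  induction n with
  | zero =>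
    have : cr (e 0) (e 0) = 0 := by simp only [cr]; ring
    simp [this]
  | succ n ih =>
    rw [sum_range_succ]
    exact (abs_cr_triangle (h 0) (h n) (h (n + 1))).trans (by linarith)

/-- extension of a plank from the cell `(z0', ρ')` to the cell `(z0, ρ)` -/
theorem inPlank_extend {a1 a2 z0' ρ' : ℝ} {t : Ln} (h : InPlank t l e a1 a2 z0' ρ')
    (hρ' : 0 < ρ') (hρ : ρ' ≤ ρ) (hz : |z0' - z0| ≤ ρ) :
    InPlank t l e (3 * (ρ / ρ') * a1) (3 * (ρ / ρ') * a2) z0 ρ := by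
  -- an affine function bounded by `a` on the small cell
  have aff : ∀ (A B a : ℝ), (∀ z, |z - z0'| ≤ ρ' → |A + z * B| ≤ a) →
      ∀ z, |z - z0| ≤ ρ → |A + z * B| ≤ 3 * (ρ / ρ') * a := by
    intro A B a hab z hz'
    have h1 := hab (z0' + ρ') (by rw [add_sub_cancel_left, abs_of_pos hρ'])
    have h2 := hab (z0' - ρ') (by rw [sub_sub_cancel_left, abs_neg, abs_of_pos hρ'])
    have h3 := hab z0' (by rw [sub_self, abs_zero]; exact hρ'.le)
    have h4 : ρ' * |B| ≤ a := by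
      have h5 : |2 * (ρ' * B)| ≤ 2 * a := by
        have : 2 * (ρ' * B) = (A + (z0' + ρ') * B) - (A + (z0' - ρ') * B) := by ring
        rw [this]
        exact (abs_sub _ _).trans (by linarith)
      rw [abs_mul, abs_mul, abs_of_pos hρ', abs_two] at h5
      linarith
    have h6 : |z - z0'| ≤ 2 * ρ := by
      have : z - z0' = (z - z0) - (z0' - z0) := by ring
      rw [this]; exact (abs_sub _ _).trans (by linarith)
    have h7 : |A + z * B| ≤ a + 2 * ρ * |B| := by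
      have : A + z * B = (A + z0' * B) + (z - z0') * B := by ring
      rw [this]
      refine (abs_add_le _ _).trans ?_
      rw [abs_mul]
      have := mul_le_mul_of_nonneg_right h6 (abs_nonneg B)
      linarith
    have ha : 0 ≤ a := (abs_nonneg _).trans h3
    have h8 : 1 ≤ ρ / ρ' := by rwa [le_div_iff₀ hρ', one_mul]
    have h9 : ρ * |B| ≤ (ρ / ρ') * a := by
      have : ρ * |B| = (ρ / ρ') * (ρ' * |B|) := by field_simp
      rw [this]
      exact mul_le_mul_of_nonneg_left h4 (by linarith)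
    nlinarith
  intro z hz'
  have e1 : ∀ z, dt (pos t z - pos l z) e =
      ((t.1 0 - l.1 0) * e 0 + (t.1 1 - l.1 1) * e 1) +
        z * ((t.2 0 - l.2 0) * e 0 + (t.2 1 - l.2 1) * e 1) := by
    intro z
    simp only [dt, pos, PiLp.sub_apply, PiLp.add_apply, PiLp.smul_apply, smul_eq_mul]; ring
  have e2 : ∀ z, cr e (pos t z - pos l z) =
      (e 0 * (t.1 1 - l.1 1) - e 1 * (t.1 0 - l.1 0)) +
        z * (e 0 * (t.2 1 - l.2 1) - e 1 * (t.2 0 - l.2 0)) := by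
    intro z
    simp only [cr, pos, PiLp.sub_apply, PiLp.add_apply, PiLp.smul_apply, smul_eq_mul]; ring
  constructor
  · rw [e1]
    exact aff _ _ _ (fun z hz => by rw [← e1]; exact (h z hz).1) z hz'
  · rw [e2]
    exact aff _ _ _ (fun z hz => by rw [← e2]; exact (h z hz).2) z hz'

end geo


open Classical in
/-- penalised maximality over the cell `(z0, ρ)`: every plank of dimensions `(a1, a2)` carries mass
at most `M a1^(1+p) a2^(1+q)`. -/
def DMax {ι : Type*} (S : Finset ι) (L : ι → Ln) (m : ι → ℝ) (z0 ρ M p q r0 R0 : ℝ) : Prop :=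
  ∀ (l : Ln) (e : E2) (a1 a2 : ℝ), dt e e = 1 → r0 ≤ a1 → a1 ≤ a2 → a2 ≤ R0 →
    ∑ t ∈ S with InPlank (L t) l e a1 a2 z0 ρ, m t ≤ M * a1 ^ (1 + p) * a2 ^ (1 + q)

open Classical in
/-- a near-maximal plank system: `f` assigns to every line a plank `(b, e; w1, w2)` containing it,
every used plank carries mass at least `M w1^(1+p) w2^(1+q) / E`. -/
structure Near {ι α : Type*} (S : Finset ι) (L : ι → Ln) (m : ι → ℝ) (f : ι → α) (b : α → Ln)
    (e : α → E2) (w1 w2 z0 ρ M E p q : ℝ) : Prop where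
  unit : ∀ t ∈ S, dt (e (f t)) (e (f t)) = 1
  mem : ∀ t ∈ S, InPlank (L t) (b (f t)) (e (f t)) w1 w2 z0 ρ
  low : ∀ t ∈ S, M * w1 ^ (1 + p) * w2 ^ (1 + q) ≤ E * ∑ s ∈ S with f s = f t, m s

theorem DMax.subset {ι : Type*} {S T : Finset ι} {L : ι → Ln} {m : ι → ℝ}
    {z0 ρ M p q r0 R0 : ℝ} (h : DMax S L m z0 ρ M p q r0 R0) (hT : T ⊆ S)
    (hm : ∀ t ∈ S, 0 ≤ m t) : DMax T L m z0 ρ M p q r0 R0 := by
  classical
  intro l e a1 a2 he h1 h2 h3
  refine le_trans ?_ (h l e a1 a2 he h1 h2 h3)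
  refine sum_le_sum_of_subset_of_nonneg ?_ ?_
  · intro t ht
    rw [mem_filter] at ht ⊢
    exact ⟨hT ht.1, ht.2⟩
  · intro t ht _
    exact hm t (mem_filter.1 ht).1

theorem DMax.mono {ι : Type*} {S : Finset ι} {L : ι → Ln} {m : ι → ℝ}
    {z0 ρ M p q r0 R0 r1 R1 : ℝ} (h : DMax S L m z0 ρ M p q r0 R0) (hr : r0 ≤ r1)
    (hR : R1 ≤ R0) : DMax S L m z0 ρ M p q r1 R1 := by
  intro l e a1 a2 he h1 h2 h3
  exact h l e a1 a2 he (hr.trans h1) h2 (h3.trans hR)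

section comb

variable {ι κ α β : Type*} {S1 : Finset ι} {L1 : ι → Ln} {m1 : ι → ℝ} {f : ι → α} {bK : α → Ln}
  {eK : α → E2} {S2 : Finset κ} {L2 : κ → Ln} {m2 : κ → ℝ} {g : κ → β} {bK' : β → Ln}
  {eK' : β → E2} {w1 w2 v1 v2 w z0 ρ M1 M2 E1 E2' p q r0 R0 : ℝ}

open Classical in
/-- the planks of the second system sharing a `w`-tube with the plank `a` at angle about `θ` -/
def J (S1 : Finset ι) (L1 : ι → Ln) (f : ι → α) (eK : α → E2) (S2 : Finset κ) (L2 : κ → Ln)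
    (g : κ → β) (eK' : β → E2) (w z0 ρ : ℝ) (a : α) (θ : ℝ) : Finset β :=
  (S2.image g).filter fun b => θ ≤ |cr (eK a) (eK' b)| ∧ |cr (eK a) (eK' b)| ≤ 2 * θ ∧
    ∃ t ∈ S1, f t = a ∧ ∃ t' ∈ S2, g t' = b ∧ Close (L1 t) (L2 t') w z0 ρ

theorem card_J (h1 : Near S1 L1 m1 f bK eK w1 w2 z0 ρ M1 E1 p q)
    (h2 : Near S2 L2 m2 g bK' eK' v1 v2 z0 ρ M2 E2' p q)
    (d2 : DMax S2 L2 m2 z0 ρ M2 p q r0 R0) (hm2 : ∀ t ∈ S2, 0 ≤ m2 t)
    (hw : 0 ≤ w) (hwv : w ≤ v1) (hv1 : 0 < v1) (hv12 : v1 ≤ v2) (hvw : v2 ≤ w2)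
    (hr0 : r0 ≤ v1) (hR0 : 8 * w2 ≤ R0)
    (hM2 : 0 < M2) (hE2 : 0 ≤ E2') {θ : ℝ} (hθ0 : 0 < θ) (hθ1 : θ ≤ 1)
    (hθw : w1 ≤ θ * v2) (hθv : v1 ≤ θ * v2) {a : α} :
    ((J S1 L1 f eK S2 L2 g eK' w z0 ρ a θ).card : ℝ) * (v1 ^ (1 + p) * v2 ^ (1 + q)) ≤
      E2' * ((8 * θ * v2) ^ (1 + p) * (8 * w2) ^ (1 + q)) := by
  classical
  have hv2 : 0 < v2 := hv1.trans_le hv12
  have hw2 : 0 < w2 := hv2.trans_le hvw
  set JJ := J S1 L1 f eK S2 L2 g eK' w z0 ρ a θ with hJJ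
  rcases JJ.eq_empty_or_nonempty with hE | hne
  · rw [hE]; simp; positivity
  obtain ⟨b0, hb0⟩ := hne
  have hb0' := hb0
  simp only [hJJ, J, mem_filter, mem_image] at hb0'
  obtain ⟨-, -, -, t0, ht0, hfa, -⟩ := hb0'
  have hea : dt (eK a) (eK a) = 1 := by rw [← hfa]; exact h1.unit t0 ht0
  -- every member of a plank in JJ lies in the fat plank around `a`
  have key : ∀ s ∈ S2, g s ∈ JJ → InPlank (L2 s) (bK a) (eK a) (8 * θ * v2) (8 * w2) z0 ρ := by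
    intro s hs hgs
    simp only [hJJ, J, mem_filter, mem_image] at hgs
    obtain ⟨-, -, hang, t, ht, hft, t', ht', hgt', hc⟩ := hgs
    have m1' := h1.mem t ht
    have m2' := h2.mem t' ht'
    have m3' := h2.mem s hs
    rw [hft] at m1'
    rw [hgt'] at m2'
    have hes : dt (eK' (g s)) (eK' (g s)) = 1 := h2.unit s hs
    exact plank_of_share2 hw hv1.le hv12 hvw hea hes m1' m2' hc hang hθw hθv hwv m3'
  have h3 : (JJ.card : ℝ) * (M2 * v1 ^ (1 + p) * v2 ^ (1 + q)) ≤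
      E2' * ∑ s ∈ S2 with g s ∈ JJ, m2 s := by
    have : ∑ s ∈ S2 with g s ∈ JJ, m2 s = ∑ b ∈ JJ, ∑ s ∈ S2 with g s = b, m2 s := by
      rw [← Finset.sum_fiberwise_of_maps_to (t := JJ) (g := g) (s := S2.filter fun s => g s ∈ JJ)
        (fun s hs => (mem_filter.1 hs).2)]
      refine sum_congr rfl fun b hb => ?_
      refine sum_congr ?_ fun _ _ => rfl
      ext s
      simp only [mem_filter]
      constructor
      · rintro ⟨⟨h, _⟩, h'⟩; exact ⟨h, h'⟩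
      · rintro ⟨h, h'⟩; exact ⟨⟨h, h' ▸ hb⟩, h'⟩
    rw [this, ← nsmul_eq_mul, ← sum_const, mul_sum]
    refine sum_le_sum fun b hb => ?_
    have hb' := hb
    simp only [hJJ, J, mem_filter, mem_image] at hb'
    obtain ⟨⟨s, hs, hgs⟩, -⟩ := hb'
    rw [← hgs]; exact h2.low s hs
  have h4 : ∑ s ∈ S2 with g s ∈ JJ, m2 s
      ≤ ∑ s ∈ S2 with InPlank (L2 s) (bK a) (eK a) (8 * θ * v2) (8 * w2) z0 ρ, m2 s := by
    refine sum_le_sum_of_subset_of_nonneg ?_ ?_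
    · intro s hs
      rw [mem_filter] at hs ⊢
      exact ⟨hs.1, key s hs.1 hs.2⟩
    · intro s hs _
      exact hm2 s (mem_filter.1 hs).1
  have h5 := d2 (bK a) (eK a) (8 * θ * v2) (8 * w2) hea
    (by nlinarith [mul_pos hθ0 hv2]) (by nlinarith [mul_le_mul_of_nonneg_right hθ1 hv2.le]) hR0
  have h6 := h3.trans (mul_le_mul_of_nonneg_left (h4.trans h5) hE2)
  have h7 : M2 * ((JJ.card : ℝ) * (v1 ^ (1 + p) * v2 ^ (1 + q))) ≤
      M2 * (E2' * ((8 * θ * v2) ^ (1 + p) * (8 * w2) ^ (1 + q))) := by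
    calc M2 * ((JJ.card : ℝ) * (v1 ^ (1 + p) * v2 ^ (1 + q)))
        = (JJ.card : ℝ) * (M2 * v1 ^ (1 + p) * v2 ^ (1 + q)) := by ring
      _ ≤ _ := h6
      _ = _ := by ring
  exact le_of_mul_le_mul_left h7 hM2

open Classical in
theorem strip_mass (h1 : Near S1 L1 m1 f bK eK w1 w2 z0 ρ M1 E1 p q)
    (h2 : Near S2 L2 m2 g bK' eK' v1 v2 z0 ρ M2 E2' p q)
    (d1 : DMax S1 L1 m1 z0 ρ M1 p q r0 R0) (hm1 : ∀ t ∈ S1, 0 ≤ m1 t)
    (hp : 0 ≤ p) (hq0 : 0 ≤ q) (hw : 0 ≤ w) (hwv : w ≤ v1) (hw1 : 0 < w1)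
    (hv1 : 0 < v1) (hvw : v2 ≤ w2) (hr0 : r0 ≤ min w1 v1) (hR0 : 8 * w2 ≤ R0)
    (hM1 : 0 ≤ M1) {θ : ℝ} (hθ0 : 0 < θ) (hθ1 : θ ≤ 1)
    (hθ : max w1 v1 ≤ θ * v2) {a : α} {b : β} (hang : θ ≤ |cr (eK a) (eK' b)|) :
    ∑ t ∈ S1 with f t = a ∧ ∃ t' ∈ S2, g t' = b ∧ Close (L1 t) (L2 t') w z0 ρ, m1 t
      ≤ M1 * (4 * min w1 v1) ^ (1 + p) * (6 * max w1 v1 / θ) ^ (1 + q) := by
  have hn0 : 0 < min w1 v1 := lt_min hw1 hv1
  have hx0 : 0 < max w1 v1 := lt_max_of_lt_left hw1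
  rcases (S1.filter fun t => f t = a ∧ ∃ t' ∈ S2, g t' = b ∧
      Close (L1 t) (L2 t') w z0 ρ).eq_empty_or_nonempty with hE | ⟨t0, ht0⟩
  · rw [hE, sum_empty]; positivity
  rw [mem_filter] at ht0
  obtain ⟨ht0, hft0, t0', ht0', hgt0', hc0⟩ := ht0
  have hea : dt (eK a) (eK a) = 1 := by rw [← hft0]; exact h1.unit t0 ht0
  have heb : dt (eK' b) (eK' b) = 1 := by rw [← hgt0']; exact h2.unit t0' ht0'
  have m0 := h1.mem t0 ht0
  rw [hft0] at m0
  have m0' := h2.mem t0' ht0'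
  rw [hgt0'] at m0'
  obtain ⟨e'', he'', hstrip⟩ : ∃ e'' : E2, dt e'' e'' = 1 ∧
      ∀ t ∈ S1, f t = a → ∀ t' ∈ S2, g t' = b → Close (L1 t) (L2 t') w z0 ρ →
        InPlank (L1 t) (L1 t0) e'' (4 * min w1 v1) (6 * max w1 v1 / θ) z0 ρ := by
    have hall : ∀ t ∈ S1, f t = a → ∀ t' ∈ S2, g t' = b → Close (L1 t) (L2 t') w z0 ρ →
        InPlank (L1 t) (L1 t0) (eK a) (2 * w1) (6 * max w1 v1 / θ) z0 ρ ∧
        InPlank (L1 t) (L1 t0) (eK' b) (4 * v1) (6 * max w1 v1 / θ) z0 ρ := by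
      intro t ht hft t' ht' hgt' hc
      have m1' := h1.mem t ht
      rw [hft] at m1'
      have m2' := h2.mem t' ht'
      rw [hgt'] at m2'
      exact strip_of_share2 hw hwv hea heb m1' m0 m2' m0' hc hc0 hθ0 hang
        (le_max_left _ _) (le_max_right _ _)
    rcases le_total w1 v1 with hwv1 | hwv1
    · refine ⟨eK a, hea, ?_⟩
      intro t ht hft t' ht' hgt' hc z hz
      have := (hall t ht hft t' ht' hgt' hc).1 z hz
      rw [min_eq_left hwv1]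
      exact ⟨this.1.trans (by linarith), this.2⟩
    · refine ⟨eK' b, heb, ?_⟩
      intro t ht hft t' ht' hgt' hc z hz
      have := (hall t ht hft t' ht' hgt' hc).2 z hz
      rw [min_eq_right hwv1]
      exact this
  have h3 : ∑ t ∈ S1 with f t = a ∧ ∃ t' ∈ S2, g t' = b ∧ Close (L1 t) (L2 t') w z0 ρ, m1 t
      ≤ ∑ t ∈ S1 with
          InPlank (L1 t) (L1 t0) e'' (4 * min w1 v1) (6 * max w1 v1 / θ) z0 ρ, m1 t := by
    refine sum_le_sum_of_subset_of_nonneg ?_ ?_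
    · intro t ht
      rw [mem_filter] at ht ⊢
      obtain ⟨ht, hft, t', ht', hgt', hc⟩ := ht
      exact ⟨ht, hstrip t ht hft t' ht' hgt' hc⟩
    · intro s hs _
      exact hm1 s (mem_filter.1 hs).1
  have hle1 : 4 * min w1 v1 ≤ 6 * max w1 v1 / θ := by
    rw [le_div_iff₀ hθ0]
    have : min w1 v1 ≤ max w1 v1 := min_le_max
    nlinarith
  have hle2 : 6 * max w1 v1 / θ ≤ R0 := by
    refine le_trans ?_ hR0
    rw [div_le_iff₀ hθ0]; nlinarith
  exact h3.trans (d1 (L1 t0) e'' _ _ he'' (hr0.trans (by linarith)) hle1 hle2)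

/-- the algebra of the constants -/
theorem alg {w1 w2 v1 v2 p q θ : ℝ} (hw1 : 0 < w1) (hw2 : 0 < w2) (hv1 : 0 < v1) (hv2 : 0 < v2)
    (hp : 0 ≤ p) (hpq : p ≤ q) (hq : q ≤ 1) (hθ0 : 0 < θ) :
    ((8 * θ * v2) ^ (1 + p) * (8 * w2) ^ (1 + q)) *
      ((4 * min w1 v1) ^ (1 + p) * (6 * max w1 v1 / θ) ^ (1 + q)) ≤
    2359296 * (w1 ^ (1 + p) * w2 ^ (1 + q)) * (max w1 v1 / (θ * v2)) ^ (q - p) *
      (v1 ^ (1 + p) * v2 ^ (1 + q)) := by
  have hn0 : 0 < min w1 v1 := lt_min hw1 hv1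
  have hx0 : 0 < max w1 v1 := lt_max_of_lt_left hw1
  set x := max w1 v1 with hx
  set n := min w1 v1 with hn
  have hnx : n * x = w1 * v1 := by rw [hn, hx]; exact min_mul_max _ _
  have e1 : (8 * θ * v2) ^ (1 + p) * (4 * n) ^ (1 + p) =
      (32 : ℝ) ^ (1 + p) * (w1 * v1) ^ (1 + p) * (θ * v2 / x) ^ (1 + p) := by
    rw [← Real.mul_rpow (by positivity) (by positivity),
      ← Real.mul_rpow (by positivity) (by positivity),
      ← Real.mul_rpow (by positivity) (by positivity)]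
    congr 1
    rw [← hnx]; field_simp; ring
  have e2 : (8 * w2) ^ (1 + q) * (6 * x / θ) ^ (1 + q) =
      (48 : ℝ) ^ (1 + q) * (w2 * v2) ^ (1 + q) * (x / (θ * v2)) ^ (1 + q) := by
    rw [← Real.mul_rpow (by positivity) (by positivity),
      ← Real.mul_rpow (by positivity) (by positivity),
      ← Real.mul_rpow (by positivity) (by positivity)]
    congr 1
    field_simp; ring
  have hX : 0 < x / (θ * v2) := by positivity
  have e3 : (θ * v2 / x) ^ (1 + p) * (x / (θ * v2)) ^ (1 + q) = (x / (θ * v2)) ^ (q - p) := by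
    have : θ * v2 / x = (x / (θ * v2))⁻¹ := by rw [inv_div]
    rw [this, Real.inv_rpow hX.le, ← Real.rpow_neg hX.le, ← Real.rpow_add hX]
    congr 1; ring
  have e4 : (w1 * v1) ^ (1 + p) = w1 ^ (1 + p) * v1 ^ (1 + p) :=
    Real.mul_rpow hw1.le hv1.le
  have e5 : (w2 * v2) ^ (1 + q) = w2 ^ (1 + q) * v2 ^ (1 + q) :=
    Real.mul_rpow hw2.le hv2.le
  have c1 : (32 : ℝ) ^ (1 + p) ≤ 1024 := by
    calc (32 : ℝ) ^ (1 + p) ≤ 32 ^ (2 : ℝ) :=
          Real.rpow_le_rpow_of_exponent_le (by norm_num) (by linarith)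
      _ = 1024 := by norm_num
  have c2 : (48 : ℝ) ^ (1 + q) ≤ 2304 := by
    calc (48 : ℝ) ^ (1 + q) ≤ 48 ^ (2 : ℝ) :=
          Real.rpow_le_rpow_of_exponent_le (by norm_num) (by linarith)
      _ = 2304 := by norm_num
  have c3 : (32 : ℝ) ^ (1 + p) * (48 : ℝ) ^ (1 + q) ≤ 2359296 := by
    calc (32 : ℝ) ^ (1 + p) * (48 : ℝ) ^ (1 + q) ≤ 1024 * 2304 :=
          mul_le_mul c1 c2 (by positivity) (by norm_num)
      _ = 2359296 := by norm_num
  calc ((8 * θ * v2) ^ (1 + p) * (8 * w2) ^ (1 + q)) *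
        ((4 * n) ^ (1 + p) * (6 * x / θ) ^ (1 + q))
      = ((8 * θ * v2) ^ (1 + p) * (4 * n) ^ (1 + p)) *
        ((8 * w2) ^ (1 + q) * (6 * x / θ) ^ (1 + q)) := by ring
    _ = ((32 : ℝ) ^ (1 + p) * (48 : ℝ) ^ (1 + q)) *
        ((w1 ^ (1 + p) * w2 ^ (1 + q)) * ((θ * v2 / x) ^ (1 + p) * (x / (θ * v2)) ^ (1 + q)) *
          (v1 ^ (1 + p) * v2 ^ (1 + q))) := by rw [e1, e2, e4, e5]; ring
    _ ≤ 2359296 *
        ((w1 ^ (1 + p) * w2 ^ (1 + q)) * ((θ * v2 / x) ^ (1 + p) * (x / (θ * v2)) ^ (1 + q)) *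
          (v1 ^ (1 + p) * v2 ^ (1 + q))) := mul_le_mul_of_nonneg_right c3 (by positivity)
    _ = _ := by rw [e3]; ring

open Classical in
/-- bad mass of one plank at one dyadic angle -/
theorem plank_mass (h1 : Near S1 L1 m1 f bK eK w1 w2 z0 ρ M1 E1 p q)
    (h2 : Near S2 L2 m2 g bK' eK' v1 v2 z0 ρ M2 E2' p q)
    (d1 : DMax S1 L1 m1 z0 ρ M1 p q r0 R0) (hm1 : ∀ t ∈ S1, 0 ≤ m1 t)
    (d2 : DMax S2 L2 m2 z0 ρ M2 p q r0 R0) (hm2 : ∀ t ∈ S2, 0 ≤ m2 t)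
    (hp : 0 ≤ p) (hpq : p ≤ q) (hq : q ≤ 1) (hw : 0 ≤ w) (hwv : w ≤ v1)
    (hw1 : 0 < w1) (hv1 : 0 < v1) (hv12 : v1 ≤ v2) (hvw : v2 ≤ w2)
    (hr0 : r0 ≤ min w1 v1) (hR0 : 8 * w2 ≤ R0)
    (hM1 : 0 ≤ M1) (hM2 : 0 < M2) (hE2 : 0 ≤ E2') {θ : ℝ} (hθ0 : 0 < θ) (hθ1 : θ ≤ 1)
    (hθ : max w1 v1 ≤ θ * v2) (a : α) :
    ∑ t ∈ S1 with f t = a ∧ ∃ t' ∈ S2, Close (L1 t) (L2 t') w z0 ρ ∧
        θ ≤ |cr (eK a) (eK' (g t'))| ∧ |cr (eK a) (eK' (g t'))| ≤ 2 * θ, m1 t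
      ≤ 2359296 * E2' * (M1 * (w1 ^ (1 + p) * w2 ^ (1 + q))) *
        (max w1 v1 / (θ * v2)) ^ (q - p) := by
  have hv2 : 0 < v2 := hv1.trans_le hv12
  have hw2 : 0 < w2 := hv2.trans_le hvw
  have hn0 : 0 < min w1 v1 := lt_min hw1 hv1
  have hx0 : 0 < max w1 v1 := lt_max_of_lt_left hw1
  set JJ := J S1 L1 f eK S2 L2 g eK' w z0 ρ a θ with hJJ
  set P : β → Finset ι := fun b => S1.filter fun t => f t = a ∧ ∃ t' ∈ S2, g t' = b ∧
      Close (L1 t) (L2 t') w z0 ρ with hP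
  have h3 : ∑ t ∈ S1 with f t = a ∧ ∃ t' ∈ S2, Close (L1 t) (L2 t') w z0 ρ ∧
        θ ≤ |cr (eK a) (eK' (g t'))| ∧ |cr (eK a) (eK' (g t'))| ≤ 2 * θ, m1 t
      ≤ ∑ t ∈ JJ.biUnion P, m1 t := by
    refine sum_le_sum_of_subset_of_nonneg ?_ ?_
    · intro t ht
      rw [mem_filter] at ht
      obtain ⟨ht, hft, t', ht', hc, ha1, ha2⟩ := ht
      rw [mem_biUnion]
      refine ⟨g t', ?_, ?_⟩
      · simp only [hJJ, J, mem_filter, mem_image]
        exact ⟨⟨t', ht', rfl⟩, ha1, ha2, t, ht, hft, t', ht', rfl, hc⟩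
      · rw [hP, mem_filter]
        exact ⟨ht, hft, t', ht', rfl, hc⟩
    · intro t ht _
      rw [mem_biUnion] at ht
      obtain ⟨b, _, hb⟩ := ht
      exact hm1 t (mem_filter.1 hb).1
  have h4 : ∑ t ∈ JJ.biUnion P, m1 t ≤ ∑ b ∈ JJ, ∑ t ∈ P b, m1 t :=
    sum_biUnion_le' JJ P m1 fun b _ t ht => hm1 t (mem_filter.1 ht).1
  have h5 : ∀ b ∈ JJ, ∑ t ∈ P b, m1 t ≤
      M1 * (4 * min w1 v1) ^ (1 + p) * (6 * max w1 v1 / θ) ^ (1 + q) := by
    intro b hb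
    simp only [hJJ, J, mem_filter, mem_image] at hb
    exact strip_mass h1 h2 d1 hm1 hp (hp.trans hpq) hw hwv hw1 hv1 hvw hr0 hR0 hM1 hθ0 hθ1 hθ
      hb.2.1
  have h6 := card_J (m1 := m1) h1 h2 d2 hm2 hw hwv hv1 hv12 hvw (hr0.trans (min_le_right _ _)) hR0
    hM2 hE2 hθ0 hθ1 ((le_max_left _ _).trans hθ) ((le_max_right _ _).trans hθ) (a := a)
  have h7 : ∑ b ∈ JJ, ∑ t ∈ P b, m1 t
      ≤ (JJ.card : ℝ) * (M1 * (4 * min w1 v1) ^ (1 + p) * (6 * max w1 v1 / θ) ^ (1 + q)) := by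
    rw [← nsmul_eq_mul]; exact sum_le_card_nsmul _ _ _ h5
  refine (h3.trans (h4.trans h7)).trans ?_
  have hV : 0 < v1 ^ (1 + p) * v2 ^ (1 + q) := by positivity
  refine le_of_mul_le_mul_right ?_ hV
  calc (JJ.card : ℝ) * (M1 * (4 * min w1 v1) ^ (1 + p) * (6 * max w1 v1 / θ) ^ (1 + q)) *
        (v1 ^ (1 + p) * v2 ^ (1 + q))
      = ((JJ.card : ℝ) * (v1 ^ (1 + p) * v2 ^ (1 + q))) *
        (M1 * ((4 * min w1 v1) ^ (1 + p) * (6 * max w1 v1 / θ) ^ (1 + q))) := by ring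
    _ ≤ (E2' * ((8 * θ * v2) ^ (1 + p) * (8 * w2) ^ (1 + q))) *
        (M1 * ((4 * min w1 v1) ^ (1 + p) * (6 * max w1 v1 / θ) ^ (1 + q))) :=
        mul_le_mul_of_nonneg_right h6 (by positivity)
    _ = (E2' * M1) * (((8 * θ * v2) ^ (1 + p) * (8 * w2) ^ (1 + q)) *
        ((4 * min w1 v1) ^ (1 + p) * (6 * max w1 v1 / θ) ^ (1 + q))) := by ring
    _ ≤ (E2' * M1) * (2359296 * (w1 ^ (1 + p) * w2 ^ (1 + q)) *
        (max w1 v1 / (θ * v2)) ^ (q - p) * (v1 ^ (1 + p) * v2 ^ (1 + q))) :=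
        mul_le_mul_of_nonneg_left (alg hw1 hw2 hv1 hv2 hp hpq hq hθ0) (by positivity)
    _ = _ := by ring


open Classical in
/-- **FLAG LEMMA, two systems of different dimensions over one cell** (`v2 ≤ w2`): the lines of the
first system which share a `w`-tube, `w ≤ v1`, with a line of the second system whose plank makes
an angle `≥ θ` carry mass at most
`2359296 E1 E2 (1 - 2^(p-q))⁻¹ (max w1 v1 / (θ v2))^(q-p)` times the total mass. -/
theorem flag2 (h1 : Near S1 L1 m1 f bK eK w1 w2 z0 ρ M1 E1 p q)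
    (h2 : Near S2 L2 m2 g bK' eK' v1 v2 z0 ρ M2 E2' p q)
    (d1 : DMax S1 L1 m1 z0 ρ M1 p q r0 R0) (hm1 : ∀ t ∈ S1, 0 ≤ m1 t)
    (d2 : DMax S2 L2 m2 z0 ρ M2 p q r0 R0) (hm2 : ∀ t ∈ S2, 0 ≤ m2 t)
    (hp : 0 ≤ p) (hpq : p < q) (hq : q ≤ 1) (hw : 0 ≤ w) (hwv : w ≤ v1)
    (hw1 : 0 < w1) (hv1 : 0 < v1) (hv12 : v1 ≤ v2) (hvw : v2 ≤ w2)
    (hr0 : r0 ≤ min w1 v1) (hR0 : 8 * w2 ≤ R0)
    (hM1 : 0 ≤ M1) (hM2 : 0 < M2) (hE1 : 0 ≤ E1) (hE2 : 0 ≤ E2') {θ : ℝ}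
    (hθ : max w1 v1 ≤ θ * v2) :
    ∑ t ∈ S1 with ∃ t' ∈ S2, Close (L1 t) (L2 t') w z0 ρ ∧ θ ≤ |cr (eK (f t)) (eK' (g t'))|, m1 t
      ≤ 2359296 * E1 * E2' / (1 - 2 ^ (p - q)) * (max w1 v1 / (θ * v2)) ^ (q - p) *
        ∑ t ∈ S1, m1 t := by
  have hv2 : 0 < v2 := hv1.trans_le hv12
  have hw2 : 0 < w2 := hv2.trans_le hvw
  have hx0 : 0 < max w1 v1 := lt_max_of_lt_left hw1
  have hθp : 0 < θ := by
    by_contra h
    have : θ * v2 ≤ 0 := mul_nonpos_of_nonpos_of_nonneg (not_lt.1 h) hv2.le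
    linarith
  have hr : (2 : ℝ) ^ (p - q) < 1 := Real.rpow_lt_one_of_one_lt_of_neg (by norm_num) (by linarith)
  have hr0' : 0 < (2 : ℝ) ^ (p - q) := by positivity
  set X := max w1 v1 / (θ * v2) with hX
  have hX0 : 0 < X := by positivity
  -- number of dyadic angles
  obtain ⟨N, hN⟩ : ∃ N : ℕ, 1 < θ * 2 ^ N := by
    obtain ⟨N, hN⟩ := pow_unbounded_of_one_lt (1 / θ) (by norm_num : (1 : ℝ) < 2)
    exact ⟨N, by rw [div_lt_iff₀ hθp] at hN; linarith [mul_comm θ ((2:ℝ) ^ N)]⟩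
  set bad : ι → Prop := fun t => ∃ t' ∈ S2, Close (L1 t) (L2 t') w z0 ρ ∧
    θ ≤ |cr (eK (f t)) (eK' (g t'))| with hbad
  set A1 : ℝ := M1 * (w1 ^ (1 + p) * w2 ^ (1 + q)) with hA1
  have hA10 : 0 ≤ A1 := by positivity
  -- bound for one plank
  have hone : ∀ a ∈ S1.image f, ∑ t ∈ S1 with f t = a ∧ bad t, m1 t
      ≤ 2359296 * E2' / (1 - 2 ^ (p - q)) * X ^ (q - p) * A1 := by
    intro a ha
    set Q : ℕ → Finset ι := fun j => S1.filter fun t => f t = a ∧ ∃ t' ∈ S2,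
        Close (L1 t) (L2 t') w z0 ρ ∧ θ * 2 ^ j ≤ |cr (eK a) (eK' (g t'))| ∧
        |cr (eK a) (eK' (g t'))| ≤ 2 * (θ * 2 ^ j) with hQ
    set R := (range N).filter fun j => θ * 2 ^ j ≤ 1 with hR
    have hea : dt (eK a) (eK a) = 1 := by
      rw [mem_image] at ha
      obtain ⟨t, ht, rfl⟩ := ha
      exact h1.unit t ht
    have h3 : ∑ t ∈ S1 with f t = a ∧ bad t, m1 t ≤ ∑ t ∈ R.biUnion Q, m1 t := by
      refine sum_le_sum_of_subset_of_nonneg ?_ ?_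
      · intro t ht
        rw [mem_filter] at ht
        obtain ⟨ht, hft, t', ht', hc, ha1⟩ := ht
        rw [hft] at ha1
        set y := |cr (eK a) (eK' (g t'))| with hy
        have hy1 : y ≤ 1 := abs_cr_le_one hea (h2.unit t' ht')
        -- the largest j with θ 2^j ≤ y
        have hex : ∃ j, y < θ * 2 ^ (j + 1) := by
          refine ⟨N, lt_of_le_of_lt hy1 (hN.trans_le ?_)⟩
          exact mul_le_mul_of_nonneg_left (pow_le_pow_right₀ (by norm_num) (Nat.le_succ N)) hθp.le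
        set j := Nat.find hex with hj
        have hj1 : y < θ * 2 ^ (j + 1) := Nat.find_spec hex
        have hj2 : θ * 2 ^ j ≤ y := by
          rcases Nat.eq_zero_or_pos j with h0 | h0
          · rw [h0, pow_zero, mul_one]; exact ha1
          · have := Nat.find_min hex (m := j - 1) (by omega)
            rw [not_lt, Nat.sub_add_cancel h0] at this
            exact this
        have hjN : j < N := by
          by_contra h
          have : θ * 2 ^ N ≤ θ * 2 ^ j :=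
            mul_le_mul_of_nonneg_left (pow_le_pow_right₀ (by norm_num) (not_lt.1 h)) hθp.le
          linarith
        rw [mem_biUnion]
        refine ⟨j, ?_, ?_⟩
        · rw [hR, mem_filter, mem_range]; exact ⟨hjN, hj2.trans hy1⟩
        · rw [hQ, mem_filter]
          refine ⟨ht, hft, t', ht', hc, hj2, ?_⟩
          rw [pow_succ] at hj1
          linarith
      · intro t ht _
        rw [mem_biUnion] at ht
        obtain ⟨b, _, hb⟩ := ht
        exact hm1 t (mem_filter.1 hb).1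
    have h4 := sum_biUnion_le' R Q m1 fun b _ t ht => hm1 t (mem_filter.1 ht).1
    have h5 : ∀ j ∈ R, ∑ t ∈ Q j, m1 t
        ≤ 2359296 * E2' * A1 * (X ^ (q - p) * (2 ^ (p - q)) ^ j) := by
      intro j hj
      rw [hR, mem_filter] at hj
      have hθj : max w1 v1 ≤ θ * 2 ^ j * v2 := by
        refine hθ.trans ?_
        have : (1 : ℝ) ≤ 2 ^ j := one_le_pow₀ (by norm_num)
        nlinarith [mul_pos hθp hv2]
      have h6 := plank_mass h1 h2 d1 hm1 d2 hm2 hp hpq.le hq hw hwv hw1 hv1 hv12 hvw hr0 hR0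
        hM1 hM2 hE2 (θ := θ * 2 ^ j) (by positivity) hj.2 hθj a
      refine h6.trans (le_of_eq ?_)
      have e1 : max w1 v1 / (θ * 2 ^ j * v2) = X * ((2 : ℝ) ^ j)⁻¹ := by rw [hX]; field_simp
      rw [e1, Real.mul_rpow hX0.le (by positivity)]
      have e2 : (((2 : ℝ) ^ j)⁻¹) ^ (q - p) = (2 ^ (p - q)) ^ j := by
        rw [← Real.rpow_natCast, ← Real.rpow_natCast, ← Real.rpow_neg (by norm_num),
          ← Real.rpow_mul (by norm_num), ← Real.rpow_mul (by norm_num)]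
        congr 1; ring
      rw [e2]
    have h6 : ∑ j ∈ R, ∑ t ∈ Q j, m1 t
        ≤ 2359296 * E2' * A1 * X ^ (q - p) * (1 / (1 - 2 ^ (p - q))) := by
      calc ∑ j ∈ R, ∑ t ∈ Q j, m1 t
          ≤ ∑ j ∈ R, 2359296 * E2' * A1 * (X ^ (q - p) * (2 ^ (p - q)) ^ j) := sum_le_sum h5
        _ ≤ ∑ j ∈ range N, 2359296 * E2' * A1 * (X ^ (q - p) * (2 ^ (p - q)) ^ j) := by
            refine sum_le_sum_of_subset_of_nonneg (filter_subset _ _) fun _ _ _ => by positivity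
        _ = 2359296 * E2' * A1 * X ^ (q - p) * ∑ j ∈ range N, ((2 : ℝ) ^ (p - q)) ^ j := by
            rw [mul_sum]; refine sum_congr rfl fun _ _ => by ring
        _ ≤ 2359296 * E2' * A1 * X ^ (q - p) * (1 / (1 - 2 ^ (p - q))) := by
            refine mul_le_mul_of_nonneg_left ?_ (by positivity)
            rw [geom_sum_eq hr.ne, le_div_iff₀ (by linarith)]
            have : (2 ^ (p - q)) ^ N - 1 = -(1 - ((2 : ℝ) ^ (p - q)) ^ N) := by ring
            have e2 : (2 : ℝ) ^ (p - q) - 1 = -(1 - 2 ^ (p - q)) := by ring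
            rw [this, e2, neg_div_neg_eq,
              div_mul_cancel₀ _ (by linarith : (1 - (2:ℝ) ^ (p - q)) ≠ 0)]
            have : 0 ≤ ((2 : ℝ) ^ (p - q)) ^ N := by positivity
            linarith
    refine (h3.trans (h4.trans h6)).trans (le_of_eq ?_)
    ring
  -- sum over the planks
  have h7 : ∑ t ∈ S1 with bad t, m1 t = ∑ a ∈ S1.image f, ∑ t ∈ S1 with f t = a ∧ bad t, m1 t := by
    rw [← Finset.sum_fiberwise_of_maps_to (t := S1.image f) (g := f) (s := S1.filter bad)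
      (fun s hs => mem_image_of_mem f (mem_filter.1 hs).1)]
    refine sum_congr rfl fun a ha => sum_congr ?_ fun _ _ => rfl
    ext s; simp only [mem_filter]; tauto
  have h8 : ∑ t ∈ S1, m1 t = ∑ a ∈ S1.image f, ∑ t ∈ S1 with f t = a, m1 t := by
    rw [Finset.sum_fiberwise_of_maps_to (t := S1.image f) (g := f)
      (fun s hs => mem_image_of_mem f hs)]
  rw [h7, h8, mul_sum]
  refine sum_le_sum fun a ha => (hone a ha).trans ?_
  rw [mem_image] at ha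
  obtain ⟨t, ht, rfl⟩ := ha
  have hlow := h1.low t ht
  have hpos : 0 ≤ 2359296 * E2' / (1 - 2 ^ (p - q)) * X ^ (q - p) := by
    have : 0 < 1 - (2:ℝ) ^ (p - q) := by linarith
    positivity
  calc 2359296 * E2' / (1 - 2 ^ (p - q)) * X ^ (q - p) * A1
      ≤ 2359296 * E2' / (1 - 2 ^ (p - q)) * X ^ (q - p) *
          (E1 * ∑ s ∈ S1 with f s = f t, m1 s) := by
        refine mul_le_mul_of_nonneg_left ?_ hpos
        rw [hA1, ← mul_assoc]; exact hlow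
    _ = _ := by ring

end comb

section tilt

variable {ι α β : Type*} {S1 S2 : Finset ι} {L : ι → Ln} {m : ι → ℝ} {f : ι → α} {bK : α → Ln}
  {eK : α → E2} {g : ι → β} {bK' : β → Ln}
  {eK' : β → E2} {w1 w2 a1 a2 z0 ρ z0' ρ' M1 M2 E1 E2' p q r0 R0 : ℝ}

/-- a near-maximal system of the small cell is near-maximal for the big cell -/
theorem Near.extend (h2 : Near S2 L m g bK' eK' a1 a2 z0' ρ' M2 E2' p q)
    (hρ' : 0 < ρ') (hρ : ρ' ≤ ρ) (hz : |z0' - z0| ≤ ρ) (ha1 : 0 < a1) (ha2 : 0 < a2)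
    (hM1 : 0 ≤ M1) (hM2 : 0 < M2) :
    Near S2 L m g bK' eK' (3 * (ρ / ρ') * a1) (3 * (ρ / ρ') * a2) z0 ρ M1
      (E2' * (M1 / M2) * (3 * (ρ / ρ')) ^ (2 + p + q)) p q := by
  classical
  have hρ0 : 0 < ρ := hρ'.trans_le hρ
  have hl : 0 < 3 * (ρ / ρ') := by positivity
  refine ⟨h2.unit, fun t ht => inPlank_extend (h2.mem t ht) hρ' hρ hz, fun t ht => ?_⟩
  have h := h2.low t ht
  have e1 : (3 * (ρ / ρ') * a1) ^ (1 + p) = (3 * (ρ / ρ')) ^ (1 + p) * a1 ^ (1 + p) :=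
    Real.mul_rpow hl.le ha1.le
  have e2 : (3 * (ρ / ρ') * a2) ^ (1 + q) = (3 * (ρ / ρ')) ^ (1 + q) * a2 ^ (1 + q) :=
    Real.mul_rpow hl.le ha2.le
  have e3 : (3 * (ρ / ρ')) ^ (2 + p + q) =
      (3 * (ρ / ρ')) ^ (1 + p) * (3 * (ρ / ρ')) ^ (1 + q) := by
    rw [← Real.rpow_add hl]; congr 1; ring
  rw [e1, e2, e3]
  have hc : 0 ≤ (M1 / M2) * ((3 * (ρ / ρ')) ^ (1 + p) * (3 * (ρ / ρ')) ^ (1 + q)) := by positivity
  calc M1 * ((3 * (ρ / ρ')) ^ (1 + p) * a1 ^ (1 + p)) *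
        ((3 * (ρ / ρ')) ^ (1 + q) * a2 ^ (1 + q))
      = (M1 / M2) * ((3 * (ρ / ρ')) ^ (1 + p) * (3 * (ρ / ρ')) ^ (1 + q)) *
        (M2 * a1 ^ (1 + p) * a2 ^ (1 + q)) := by field_simp
    _ ≤ (M1 / M2) * ((3 * (ρ / ρ')) ^ (1 + p) * (3 * (ρ / ρ')) ^ (1 + q)) *
        (E2' * ∑ s ∈ S2 with g s = g t, m s) := mul_le_mul_of_nonneg_left h hc
    _ = _ := by ring

open Classical in
/-- **TILT LEMMA, one cell, different dimensions** (symmetric form, `S2 ⊆ S1`). -/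
theorem tilt_one (h1 : Near S1 L m f bK eK w1 w2 z0 ρ M1 E1 p q)
    (h2 : Near S2 L m g bK' eK' a1 a2 z0 ρ M1 E2' p q)
    (d1 : DMax S1 L m z0 ρ M1 p q r0 R0) (hm : ∀ t ∈ S1, 0 ≤ m t) (hS : S2 ⊆ S1)
    (hp : 0 ≤ p) (hpq : p < q) (hq : q ≤ 1)
    (hw1 : 0 < w1) (hw12 : w1 ≤ w2) (ha1 : 0 < a1) (ha12 : a1 ≤ a2)
    (hr0 : r0 ≤ min w1 a1) (hR0 : 8 * max w2 a2 ≤ R0)
    (hM1 : 0 < M1) (hE1 : 0 ≤ E1) (hE2 : 0 ≤ E2') {θ : ℝ}
    (hθ : max w1 a1 ≤ θ * min w2 a2) :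
    ∑ t ∈ S2 with θ ≤ |cr (eK (f t)) (eK' (g t))|, m t
      ≤ 2359296 * E1 * E2' / (1 - 2 ^ (p - q)) * (max w1 a1 / (θ * min w2 a2)) ^ (q - p) *
        ∑ t ∈ S1, m t := by
  have hm2 : ∀ t ∈ S2, 0 ≤ m t := fun t ht => hm t (hS ht)
  have hw2 : 0 < w2 := hw1.trans_le hw12
  have ha2 : 0 < a2 := ha1.trans_le ha12
  have hx0 : 0 < max w1 a1 := lt_max_of_lt_left hw1
  have hmin0 : 0 < min w2 a2 := lt_min hw2 ha2
  have hθp : 0 < θ := by
    by_contra h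
    have : θ * min w2 a2 ≤ 0 := mul_nonpos_of_nonpos_of_nonneg (not_lt.1 h) hmin0.le
    linarith
  have hr : (2 : ℝ) ^ (p - q) < 1 := Real.rpow_lt_one_of_one_lt_of_neg (by norm_num) (by linarith)
  have hden : 0 < 1 - (2:ℝ) ^ (p - q) := by linarith
  have d2 := d1.subset hS hm
  rcases le_total a2 w2 with hc | hc
  · have hmin : min w2 a2 = a2 := min_eq_right hc
    have hmax : max w2 a2 = w2 := max_eq_left hc
    rw [hmin] at hθ ⊢
    rw [hmax] at hR0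
    have key := flag2 h1 h2 d1 hm d2 hm2 hp hpq hq ha1.le le_rfl hw1 ha1 ha12 hc hr0 hR0
      hM1.le hM1 hE1 hE2 hθ
    refine le_trans ?_ key
    refine sum_le_sum_of_subset_of_nonneg ?_ ?_
    · intro t ht
      rw [mem_filter] at ht ⊢
      exact ⟨hS ht.1, t, ht.1, close_self ha1.le _, ht.2⟩
    · intro t ht _
      exact hm t (mem_filter.1 ht).1
  · have hmin : min w2 a2 = w2 := min_eq_left hc
    have hmax : max w2 a2 = a2 := max_eq_right hc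
    rw [hmin] at hθ ⊢
    rw [hmax] at hR0
    rw [max_comm] at hθ ⊢
    have key := flag2 h2 h1 d2 hm2 d1 hm hp hpq hq hw1.le le_rfl ha1 hw1 hw12 hc
      (by rw [min_comm]; exact hr0) hR0 hM1.le hM1 hE2 hE1 hθ
    have hsub : ∑ t ∈ S2, m t ≤ ∑ t ∈ S1, m t :=
      sum_le_sum_of_subset_of_nonneg hS fun t ht _ => hm t ht
    calc ∑ t ∈ S2 with θ ≤ |cr (eK (f t)) (eK' (g t))|, m t
        ≤ ∑ t ∈ S2 with ∃ t' ∈ S1, Close (L t) (L t') w1 z0 ρ ∧
            θ ≤ |cr (eK' (g t)) (eK (f t'))|, m t := by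
          refine sum_le_sum_of_subset_of_nonneg ?_ ?_
          · intro t ht
            rw [mem_filter] at ht ⊢
            exact ⟨ht.1, t, hS ht.1, close_self hw1.le _, by rw [abs_cr_swap]; exact ht.2⟩
          · intro t ht _
            exact hm2 t (mem_filter.1 ht).1
      _ ≤ _ := key
      _ ≤ 2359296 * E2' * E1 / (1 - 2 ^ (p - q)) * (max a1 w1 / (θ * w2)) ^ (q - p) *
            ∑ t ∈ S1, m t := mul_le_mul_of_nonneg_left hsub (by positivity)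
      _ = _ := by ring

open Classical in
/-- **TILT LEMMA, two levels**: a near-maximal system `S1` of the big cell `(z0, ρ)` with planks
`(w1, w2)` and a near-maximal system `S2 ⊆ S1` of the small cell `(z0', ρ')` with planks
`(a1, a2)`; `λ = 3 ρ / ρ'`.  Penalised maximality is needed at the big cell only. -/
theorem tilt (h1 : Near S1 L m f bK eK w1 w2 z0 ρ M1 E1 p q)
    (h2 : Near S2 L m g bK' eK' a1 a2 z0' ρ' M2 E2' p q)
    (d1 : DMax S1 L m z0 ρ M1 p q r0 R0) (hm : ∀ t ∈ S1, 0 ≤ m t) (hS : S2 ⊆ S1)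
    (hρ' : 0 < ρ') (hρ : ρ' ≤ ρ) (hz : |z0' - z0| ≤ ρ)
    (hp : 0 ≤ p) (hpq : p < q) (hq : q ≤ 1)
    (hw1 : 0 < w1) (hw12 : w1 ≤ w2) (ha1 : 0 < a1) (ha12 : a1 ≤ a2)
    (hr0 : r0 ≤ min w1 (3 * (ρ / ρ') * a1)) (hR0 : 8 * max w2 (3 * (ρ / ρ') * a2) ≤ R0)
    (hM1 : 0 < M1) (hM2 : 0 < M2) (hE1 : 0 ≤ E1) (hE2 : 0 ≤ E2') {θ : ℝ}
    (hθ : max w1 (3 * (ρ / ρ') * a1) ≤ θ * min w2 (3 * (ρ / ρ') * a2)) :
    ∑ t ∈ S2 with θ ≤ |cr (eK (f t)) (eK' (g t))|, m t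
      ≤ 2359296 * E1 * (E2' * (M1 / M2) * (3 * (ρ / ρ')) ^ (2 + p + q)) / (1 - 2 ^ (p - q)) *
        (max w1 (3 * (ρ / ρ') * a1) / (θ * min w2 (3 * (ρ / ρ') * a2))) ^ (q - p) *
        ∑ t ∈ S1, m t := by
  have hρ0 : 0 < ρ := hρ'.trans_le hρ
  have hl : 0 < 3 * (ρ / ρ') := by positivity
  have ha2 : 0 < a2 := ha1.trans_le ha12
  exact tilt_one h1 (h2.extend hρ' hρ hz ha1 ha2 hM1.le hM2) d1 hm hS hp hpq hq hw1 hw12
    (by positivity) (mul_le_mul_of_nonneg_left ha12 hl.le) hr0 hR0 hM1 hE1 (by positivity) hθ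

end tilt

end

end Crest.Agent.R138.Tilt51
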