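import Mathlib
import Crest.Agent.R138.Tilt_51
import Crest.Agent.R138.Dp1_76

/-!
# R138, TEXT I: the marked extremal sequence `Mk` (helper163), version 3 (rational levels, slow zoom)

Interface between block X1/X2 (class of configurations, penalty, extremiser, typical = maximal) and
block X5 (tilt chain, Lemma A, zoom, flags, EXT).  Everything is in ABSOLUTE scales: dyadic z-cells of
integer level, planks of 51 (`InPlank`, `DMax`, `Near`), no rescaling.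

* incidence = (line index, height); `L n` = the lines; `lev n v` = dyadic level of the level
  `v ∈ ℚ ∩ [0,1]`; window = change of `lev` only.
* `own` : own profile, two-sided; `dmax` : penalised maximality at all levels, all planks;
  `near` : at every level every alive line carries ONE label per cell, the classes are planks of
  common dimensions `(w1, w2)` and maximal up to `d^-ε`.
* all exponents are relative to `d n`; `w1, w2, r0` may be super-polynomially small, only the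
  ratios of the wide widths of two levels are controlled (`tau`).
-/

set_option autoImplicit false
set_option linter.unusedVariables false

open Finset Filter Topology

namespace Crest.Agent.R138.Mk163

open Crest.Agent.R138.Ex926 (Base U)
open Crest.Agent.R138.Flag51 (Ln E2 cr dt InPlank)
open Crest.Agent.R138.Tilt51 (DMax Near)
open Crest.Agent.R138.Dp76 (Dense)

/-- index of the dyadic cell of level `i` -/
noncomputable def zc (i : ℕ) (z : ℝ) : ℤ := ⌊(2 : ℝ) ^ i * z⌋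

/-- left end of the cell `J` of level `i` -/
noncomputable def zl (i : ℕ) (J : ℤ) : ℝ := (J : ℝ) / 2 ^ i

/-- length of a cell of level `i` -/
noncomputable def rho (i : ℕ) : ℝ := 1 / 2 ^ i

open Classical in
/-- indices of the lines alive in the cell `J` of level `i` -/
noncomputable def alive (I : Finset (ℕ × ℝ)) (i : ℕ) (J : ℤ) : Finset ℕ :=
  (I.filter fun x => zc i x.2 = J).image Prod.fst

open Classical in
/-- cells of level `j` met by the line of `x` inside the cell of level `i` of `x` -/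
noncomputable def own (I : Finset (ℕ × ℝ)) (i j : ℕ) (x : ℕ × ℝ) : Finset ℤ :=
  (I.filter fun y => y.1 = x.1 ∧ zc i y.2 = zc i x.2).image fun y => zc j y.2

/-- amplitude of level `v` : `A d^-(2 Λ v + g v) ρ_v^-q` -/
noncomputable def amp (B : Base) (lev : ℕ → ℚ → ℕ) (A : ℕ → ℝ) (q g : ℝ) (Λ : ℝ → ℝ) (n : ℕ)
    (v : ℚ) : ℝ :=
  A n * B.d n ^ (-(2 * Λ v + g * v)) * (rho (lev n v)) ^ (-q)

/-- the marked extremal sequence -/
structure Mk (B : Base) (I : ℕ → Finset (ℕ × ℝ)) (L : ℕ → ℕ → Ln) (lev : ℕ → ℚ → ℕ)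
    (r0 A : ℕ → ℝ) (q g : ℝ) (Λ τ : ℝ → ℝ) (f : ℕ → ℚ → ℕ → ℤ → ℕ) (b : ℕ → ℚ → ℕ → Ln)
    (e : ℕ → ℚ → ℕ → E2) (w1 w2 : ℕ → ℚ → ℝ) : Prop where
  ne : ∀ᶠ n in (U : Filter ℕ), (I n).Nonempty
  card : ∀ ε : ℝ, 0 < ε → ∀ᶠ n in (U : Filter ℕ), Real.log ((I n).card : ℝ) ≤ B.d n ^ (-ε)
  q0 : 0 < q
  q2 : q ≤ 2
  g0 : 0 < g
  Apos : ∀ n, 0 < A n
  rpos : ∀ n, 0 < r0 n
  lam0 : Λ 0 = 0
  lam : ∀ u v : ℝ, 0 ≤ u → u ≤ v → v ≤ 1 → 0 ≤ Λ v - Λ u ∧ Λ v - Λ u ≤ v - u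
  tau1 : τ 1 = 0
  lev_mono : ∀ u v : ℚ, 0 ≤ u → u ≤ v → v ≤ 1 → ∀ᶠ n in (U : Filter ℕ), lev n u ≤ lev n v
  lev_lim : ∀ u v : ℚ, 0 ≤ u → u ≤ v → v ≤ 1 →
    Tendsto (fun n => ((lev n v : ℝ) - lev n u) * Real.log 2 / B.L n) U (𝓝 ((v : ℝ) - u))
  /-- all incidences lie in one cell of level `0` -/
  cell0 : ∀ᶠ n in (U : Filter ℕ), ∀ x ∈ I n, ∀ y ∈ I n, zc (lev n 0) x.2 = zc (lev n 0) y.2
  /-- one incidence per line and cell of level `1` -/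
  one : ∀ᶠ n in (U : Filter ℕ), ∀ x ∈ I n, ∀ y ∈ I n, x.1 = y.1 →
    zc (lev n 1) x.2 = zc (lev n 1) y.2 → x = y
  /-- own profile -/
  own : ∀ u v : ℚ, 0 ≤ u → u ≤ v → v ≤ 1 → ∀ ε : ℝ, 0 < ε →
    ∀ᶠ n in (U : Filter ℕ), ∀ x ∈ I n,
      B.d n ^ (-((v : ℝ) - u) + (Λ v - Λ u) + ε) ≤ ((own (I n) (lev n u) (lev n v) x).card : ℝ) ∧
      ((own (I n) (lev n u) (lev n v) x).card : ℝ) ≤ B.d n ^ (-((v : ℝ) - u) + (Λ v - Λ u) - ε)
  /-- D-max at every level, for all planks of thickness at least `r0` -/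
  dmax : ∀ v : ℚ, 0 ≤ v → v ≤ 1 → ∀ ε : ℝ, 0 < ε → ∀ᶠ n in (U : Filter ℕ), ∀ J : ℤ,
    DMax (alive (I n) (lev n v) J) (L n) (fun _ => 1) (zl (lev n v) J) (rho (lev n v))
      (B.d n ^ (-ε) * amp B lev A q g Λ n v) 0 q (r0 n) (100 * rho (lev n v))
  /-- the marked classes: near-maximal at every level -/
  near : ∀ v : ℚ, 0 ≤ v → v ≤ 1 → ∀ ε : ℝ, 0 < ε → ∀ᶠ n in (U : Filter ℕ), ∀ J : ℤ,
    Near (alive (I n) (lev n v) J) (L n) (fun _ => 1) (fun t => f n v t J) (b n v) (e n v)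
      (w1 n v) (w2 n v) (zl (lev n v) J) (rho (lev n v)) (amp B lev A q g Λ n v)
      (B.d n ^ (-ε)) 0 q
  dims : ∀ v : ℚ, 0 ≤ v → v ≤ 1 → ∀ᶠ n in (U : Filter ℕ),
    r0 n ≤ w1 n v ∧ w1 n v ≤ w2 n v ∧ w2 n v ≤ rho (lev n v)
  /-- wide exponent of the marks relative to level `1` -/
  tau : ∀ v : ℚ, 0 ≤ v → v ≤ 1 →
    Tendsto (fun n => Real.log ((rho (lev n v) / w2 n v) / (rho (lev n 1) / w2 n 1)) / B.L n) U
      (𝓝 (τ v))

/-- precision (thin over wide width) of the marks of level `v`, absolute -/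
noncomputable def prec (w1 w2 : ℕ → ℚ → ℝ) (n : ℕ) (v : ℚ) : ℝ := w1 n v / w2 n v

/-- frame of an incidence at level `v` -/
noncomputable def fr (lev : ℕ → ℚ → ℕ) (f : ℕ → ℚ → ℕ → ℤ → ℕ) (e : ℕ → ℚ → ℕ → E2) (n : ℕ)
    (v : ℚ) (x : ℕ × ℝ) : E2 := e n v (f n v x.1 (zc (lev n v) x.2))

open Classical in
/-- a family of incidence sets is negligible -/
def Negl (B : Base) (I : ℕ → Finset (ℕ × ℝ)) (P : ℕ → ℕ × ℝ → Prop) : Prop :=
  ∃ γ : ℝ, 0 < γ ∧ ∀ᶠ n in (U : Filter ℕ), (((I n).filter (P n)).card : ℝ) ≤ B.d n ^ γ * (I n).card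

/-! ### literal targets of the leaves -/

section targets

variable (B : Base) (I : ℕ → Finset (ℕ × ℝ)) (L : ℕ → ℕ → Ln) (lev : ℕ → ℚ → ℕ)
    (r0 A : ℕ → ℝ) (q g : ℝ) (Λ τ : ℝ → ℝ) (f : ℕ → ℚ → ℕ → ℤ → ℕ) (b : ℕ → ℚ → ℕ → Ln)
    (e : ℕ → ℚ → ℕ → E2) (w1 w2 : ℕ → ℚ → ℝ)

/-- **L10 (T0)** crude tilt, one level, two cells of level `v` of one line inside one cell of level
`u`. -/
def TiltCrude (C : ℝ) : Prop :=
  ∀ u v : ℚ, 0 ≤ u → u < v → v ≤ 1 → ∀ ε : ℝ, 0 < ε →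
    Negl B I fun n x => ∃ y ∈ I n, y.1 = x.1 ∧ zc (lev n u) y.2 = zc (lev n u) x.2 ∧
      prec w1 w2 n v * B.d n ^ (-(C * ((v : ℝ) - u)) - ε) ≤ |cr (fr lev f e n v x) (fr lev f e n v y)|

/-- **L10 (T)** tilt between two levels. -/
def TiltTwo (C : ℝ) : Prop :=
  ∀ u v : ℚ, 0 ≤ u → u < v → v ≤ 1 → ∀ ε : ℝ, 0 < ε →
    Negl B I fun n x =>
      max (prec w1 w2 n u) (prec w1 w2 n v) *
          B.d n ^ (-(C * ((v : ℝ) - u + |τ u - τ v|)) - ε) ≤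
        |cr (fr lev f e n u x) (fr lev f e n v x)|

open Classical in
/-- **L12 (A)** Lemma A of 861: at every level the marks rotate visibly. -/
def Rotates (k0 : ℝ) : Prop :=
  ∀ u v : ℚ, 0 ≤ u → u < v → v ≤ 1 →
    ∃ γ : ℝ, 0 < γ ∧ Negl B I fun n x =>
      B.d n ^ γ * ((Mk163.own (I n) (lev n u) (lev n v) x).card : ℝ) ≤
        ((((I n).filter fun y => y.1 = x.1 ∧ zc (lev n u) y.2 = zc (lev n u) x.2 ∧
          |cr (fr lev f e n v x) (fr lev f e n v y)| ≤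
            prec w1 w2 n v * B.d n ^ (-(k0 * ((v : ℝ) - u)))).image
              fun y => zc (lev n v) y.2).card : ℝ)

/-- **L8** refinement: a dense part contains a dense part which is again marked. -/
def Refine : Prop :=
  Mk B I L lev r0 A q g Λ τ f b e w1 w2 → ∀ J : ℕ → Finset (ℕ × ℝ), Dense B J I →
    ∃ J' : ℕ → Finset (ℕ × ℝ), Dense B J' J ∧ Mk B J' L lev r0 A q g Λ τ f b e w1 w2

/-- **L9** zoom, general form: stage `k` uses the levels `m k x` near `u_k + h_k x` (all rational);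
`h k → 0`, `Λ', τ'` = limits of the difference quotients.  Output: a slow speed `κ`, the base
`d^h`, representatives `I' n ⊆ I n` of the new top cells. -/
def Zoom : Prop :=
  Mk B I L lev r0 A q g Λ τ f b e w1 w2 →
  ∀ (h : ℕ → ℝ) (m : ℕ → ℚ → ℚ) (Λ' τ' : ℝ → ℝ),
    (∀ k, 0 < h k) → (∀ k, h k ≤ 1) →
    (∀ k, ∀ x : ℚ, 0 ≤ x → x ≤ 1 → 0 ≤ m k x ∧ m k x ≤ 1) →
    (∀ x y : ℚ, 0 ≤ x → x ≤ y → y ≤ 1 → ∀ᶠ k in atTop, m k x ≤ m k y) →
    (∀ x y : ℚ, 0 ≤ x → x ≤ y → y ≤ 1 →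
      Tendsto (fun k => ((m k y : ℝ) - m k x) / h k) atTop (𝓝 ((y : ℝ) - x))) →
    (∀ x : ℚ, 0 ≤ x → x ≤ 1 →
      Tendsto (fun k => (Λ (m k x) - Λ (m k 0)) / h k) atTop (𝓝 (Λ' x))) →
    (∀ x : ℚ, 0 ≤ x → x ≤ 1 →
      Tendsto (fun k => (τ (m k x) - τ (m k 1)) / h k) atTop (𝓝 (τ' x))) →
    (∀ u v : ℝ, 0 ≤ u → u ≤ v → v ≤ 1 → 0 ≤ Λ' v - Λ' u ∧ Λ' v - Λ' u ≤ v - u) →
    Λ' 0 = 0 → τ' 1 = 0 →
    ∃ s0 : ℕ → ℕ, Tendsto s0 U atTop ∧ ∀ s : ℕ → ℕ, Tendsto s U atTop →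
      (∀ᶠ n in (U : Filter ℕ), s n ≤ s0 n) →
      ∃ (B' : Base) (I' : ℕ → Finset (ℕ × ℝ)) (A' : ℕ → ℝ),
        (∀ n, B'.d n = B.d n ^ h (s n)) ∧ (∀ n, I' n ⊆ I n) ∧
        Mk B' I' L (fun n x => lev n (m (s n) x)) r0 A' q g Λ' τ' (fun n x => f n (m (s n) x))
          (fun n x => b n (m (s n) x)) (fun n x => e n (m (s n) x))
          (fun n x => w1 n (m (s n) x)) (fun n x => w2 n (m (s n) x))

/-- own rotation of a family of flags `fl n x` (unit vectors), relative scale `sc n` -/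
structure RotF (fl : ℕ → ℕ × ℝ → E2) (sc : ℕ → ℝ) (C0 : ℝ) (R : ℝ → ℝ) : Prop where
  scpos : ∀ n, 0 < sc n
  bd : ∀ u : ℝ, 0 ≤ u → u ≤ 1 → 0 ≤ R u ∧ R u ≤ C0
  mono : MonotoneOn R (Set.Icc 0 1)
  /-- all flags of one line in one cell of level `u` agree up to `sc d^(R u)` -/
  rot : ∀ u : ℚ, 0 ≤ u → u ≤ 1 → ∀ ε : ℝ, 0 < ε → ∀ᶠ n in (U : Filter ℕ), ∀ x ∈ I n, ∀ y ∈ I n,
    y.1 = x.1 → zc (lev n u) y.2 = zc (lev n u) x.2 →
      |cr (fl n x) (fl n y)| ≤ sc n * B.d n ^ (R u - ε)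
  /-- ... and not to a smaller scale -/
  tw : ∀ u : ℚ, 0 ≤ u → u < 1 → ∀ r : ℝ, R u < r → r ≤ C0 → ∃ γ : ℝ, 0 < γ ∧
    ∀ᶠ n in (U : Filter ℕ), ∀ x ∈ I n,
      ((((I n).filter fun y => y.1 = x.1 ∧ zc (lev n u) y.2 = zc (lev n u) x.2 ∧
          |cr (fl n x) (fl n y)| ≤ sc n * B.d n ^ r).card : ℕ) : ℝ) ≤
        B.d n ^ γ * ((Mk163.own (I n) (lev n u) (lev n 1) x).card : ℝ)

/-- **L13** existence of the rotation function (flags = frames of level `1`): if outside a negligible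
set all flags of one line agree up to `sc`, then a dense part has an own rotation function. -/
def ExRot (fl : ℕ → ℕ × ℝ → E2) (sc : ℕ → ℝ) (C0 : ℝ) : Prop :=
  Mk B I L lev r0 A q g Λ τ f b e w1 w2 → (∀ n, 0 < sc n) → 0 ≤ C0 →
  (∀ n, ∀ x ∈ I n, dt (fl n x) (fl n x) = 1) →
  (Negl B I fun n x => ∃ y ∈ I n, y.1 = x.1 ∧ sc n < |cr (fl n x) (fl n y)|) →
  ∃ (J : ℕ → Finset (ℕ × ℝ)) (R : ℝ → ℝ), Dense B J I ∧ Mk B J L lev r0 A q g Λ τ f b e w1 w2 ∧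
    RotF B J lev fl sc C0 R

/-- **L14 -> L15** the output of the second zoom: natural marks.  `fl` = flags, level-`v` frame and
flag agree up to the precision, precision exponent and own rotation are both `k v`. -/
structure Nat5 (fl : ℕ → ℕ × ℝ → E2) (sc : ℕ → ℝ) (k s θ : ℝ) : Prop where
  base : Mk B I L lev r0 A q g (fun v => s * v) (fun v => θ * (1 - v)) f b e w1 w2
  k0 : 0 < k
  θ0 : 0 < θ
  unit : ∀ n, ∀ x ∈ I n, dt (fl n x) (fl n x) = 1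
  /-- precision of the marks = `sc d^(k v)` -/
  pr : ∀ v : ℚ, 0 ≤ v → v ≤ 1 →
    Tendsto (fun n => Real.log (sc n / prec w1 w2 n v) / B.L n) U (𝓝 (k * v))
  rot : RotF B I lev fl sc (k + 1) (fun u => k * u)
  close : ∀ v : ℚ, 0 ≤ v → v ≤ 1 → ∀ ε : ℝ, 0 < ε → ∀ᶠ n in (U : Filter ℕ), ∀ x ∈ I n,
    |cr (fl n x) (fr lev f e n v x)| ≤ prec w1 w2 n v * B.d n ^ (-ε)

end targets

end Crest.Agent.R138.Mk163
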