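import Mathlib
import Crest.Agent.R138.MkDef_163
import Crest.Agent.R138.Ps2s_627

/-!
# R138, TEXT I, leaf L8: refinement of a marked extremal sequence (helper627)

`Mk.refine` : every dense part `J` of a marked extremal sequence contains a dense part `J'` which is
again a marked extremal sequence with the same levels, labels, frames and amplitudes.
-/

set_option autoImplicit false
set_option linter.unusedVariables false
set_option linter.unusedSectionVars false

open Finset Filter Topology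

namespace Crest.Agent.R138.MkRef627

open Crest.Agent.R138.Ex926 Crest.Agent.R138.Dp76 Crest.Agent.R138.Ps627 Crest.Agent.R138.Mk163
open Crest.Agent.R138.Flag51 (Ln E2 cr dt InPlank)
open Crest.Agent.R138.Tilt51 (DMax Near)

/-- the pair (line, cell of level `i`) of an incidence. -/
noncomputable def lc (i : ℕ) (x : ℕ × ℝ) : ℕ × ℤ := (x.1, zc i x.2)

/-- the pair (class, cell of level `i`) of an incidence. -/
noncomputable def kc (i : ℕ) (f : ℕ → ℤ → ℕ) (x : ℕ × ℝ) : ℕ × ℤ := (f x.1 (zc i x.2), zc i x.2)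

/-- the two label functions of the rational level number `j / 2`. -/
noncomputable def hh (lev : ℕ → ℚ → ℕ) (f : ℕ → ℚ → ℕ → ℤ → ℕ) (j n : ℕ) (x : ℕ × ℝ) : ℕ × ℤ :=
  if j % 2 = 0 then lc (lev n (Denumerable.ofNat ℚ (j / 2))) x
  else kc (lev n (Denumerable.ofNat ℚ (j / 2)))
    (f n (Denumerable.ofNat ℚ (j / 2))) x

theorem hh_even (lev : ℕ → ℚ → ℕ) (f : ℕ → ℚ → ℕ → ℤ → ℕ) (j n : ℕ) :
    hh lev f (2 * j) n = lc (lev n (Denumerable.ofNat ℚ j)) := by
  funext x
  unfold hh
  have h1 : (2 * j) / 2 = j := by omega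
  have h2 : (2 * j) % 2 = 0 := by omega
  rw [if_pos h2, h1]

theorem hh_odd (lev : ℕ → ℚ → ℕ) (f : ℕ → ℚ → ℕ → ℤ → ℕ) (j n : ℕ) :
    hh lev f (2 * j + 1) n = kc (lev n (Denumerable.ofNat ℚ j))
      (f n (Denumerable.ofNat ℚ j)) := by
  funext x
  unfold hh
  have h1 : (2 * j + 1) / 2 = j := by omega
  have h2 : ¬ (2 * j + 1) % 2 = 0 := by omega
  rw [if_neg h2, h1]

theorem exists_num (v : ℚ) : ∃ j : ℕ, Denumerable.ofNat ℚ j = v :=
  ⟨@Encodable.encode ℚ Denumerable.toEncodable v, Denumerable.ofNat_encode v⟩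

open Classical in
/-- with one incidence per line and cell of level `1`, own counts towards level `1` are counts of
incidences. -/
theorem own_one {I : Finset (ℕ × ℝ)} {i j : ℕ}
    (one : ∀ x ∈ I, ∀ y ∈ I, x.1 = y.1 → zc j x.2 = zc j y.2 → x = y) (x : ℕ × ℝ) :
    (own I i j x).card = (I.filter fun y => lc i y = lc i x).card := by
  unfold own
  rw [card_image_of_injOn]
  · congr 1
    ext y
    simp only [mem_filter, lc, Prod.mk.injEq]
  · intro a ha c hc hac
    simp only [coe_filter, Set.mem_ofPred_eq] at ha hc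
    exact one a ha.1 c hc.1 (ha.2.1.trans hc.2.1.symm) hac

open Classical in
theorem alive_mono {I J : Finset (ℕ × ℝ)} (h : J ⊆ I) (i : ℕ) (c : ℤ) :
    alive J i c ⊆ alive I i c := by
  unfold alive
  exact image_subset_image (filter_subset_filter _ h)

open Classical in
theorem mem_alive {I : Finset (ℕ × ℝ)} {i : ℕ} {c : ℤ} {s : ℕ} :
    s ∈ alive I i c ↔ ∃ x ∈ I, x.1 = s ∧ zc i x.2 = c := by
  unfold alive
  simp only [mem_image, mem_filter]
  constructor
  · rintro ⟨x, ⟨h1, h2⟩, h3⟩; exact ⟨x, h1, h3, h2⟩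
  · rintro ⟨x, h1, h3, h2⟩; exact ⟨x, ⟨h1, h2⟩, h3⟩

open Classical in
/-- the alive lines of one class as objects (line, cell). -/
theorem card_class (I : Finset (ℕ × ℝ)) (i : ℕ) (c : ℤ) (φ : ℕ → ℕ) (a : ℕ) :
    ((alive I i c).filter fun s => φ s = a).card =
      ((I.image (lc i)).filter fun o => o.2 = c ∧ φ o.1 = a).card := by
  have : ((I.image (lc i)).filter fun o => o.2 = c ∧ φ o.1 = a) =
      ((alive I i c).filter fun s => φ s = a).image fun s => (s, c) := by
    ext o
    simp only [mem_filter, mem_image, mem_alive, lc]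
    constructor
    · rintro ⟨⟨x, hx, rfl⟩, h1, h2⟩
      exact ⟨x.1, ⟨⟨x, hx, rfl, h1⟩, h2⟩, by rw [← h1]⟩
    · rintro ⟨s, ⟨⟨x, hx, h1, h2⟩, h3⟩, rfl⟩
      exact ⟨⟨x, hx, by rw [h1, h2]⟩, rfl, h3⟩
  rw [this, card_image_of_injective]
  intro s s' h
  exact (Prod.mk.inj h).1

open Classical in
/-- lower bound for the number of cells met by a line from incidence counts. -/
theorem own_lower {J : Finset (ℕ × ℝ)} {i j : ℕ} {x : ℕ × ℝ} {m : ℝ}
    (h : ∀ y ∈ J, ((J.filter fun y' => lc j y' = lc j y).card : ℝ) ≤ m) (hx : x ∈ J) :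
    ((J.filter fun y => lc i y = lc i x).card : ℝ) ≤ m * ((own J i j x).card : ℝ) := by
  set F := J.filter fun y => y.1 = x.1 ∧ zc i y.2 = zc i x.2 with hF
  have e0 : (J.filter fun y => lc i y = lc i x) = F := by
    ext y; simp only [hF, mem_filter, lc, Prod.mk.injEq]
  rw [e0]
  have e1 : (F.card : ℝ) = ∑ c ∈ F.image (fun y => zc j y.2),
      ((F.filter fun y => zc j y.2 = c).card : ℝ) := by
    rw [card_eq_sum_card_image (fun y : ℕ × ℝ => zc j y.2) F]
    push_cast; rfl
  have e2 : own J i j x = F.image (fun y => zc j y.2) := rfl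
  rw [e1, e2]
  have : ∑ c ∈ F.image (fun y => zc j y.2), ((F.filter fun y => zc j y.2 = c).card : ℝ) ≤
      ∑ c ∈ F.image (fun y => zc j y.2), m := by
    refine sum_le_sum fun c hc => ?_
    obtain ⟨y, hy, rfl⟩ := mem_image.1 hc
    have hy' := hy
    rw [hF, mem_filter] at hy'
    refine le_trans ?_ (h y hy'.1)
    have : (F.filter fun y' => zc j y'.2 = zc j y.2) ⊆ J.filter fun y' => lc j y' = lc j y := by
      intro z hz
      rw [mem_filter, hF, mem_filter] at hz
      rw [mem_filter]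
      refine ⟨hz.1.1, ?_⟩
      simp only [lc, Prod.mk.injEq]
      exact ⟨hz.1.2.1.trans hy'.2.1.symm, hz.2⟩
    exact_mod_cast card_le_card this
  rw [sum_const, nsmul_eq_mul] at this
  linarith

section

variable {B : Base} {I : ℕ → Finset (ℕ × ℝ)} {L : ℕ → ℕ → Ln} {lev : ℕ → ℚ → ℕ}
    {r0 A : ℕ → ℝ} {q g : ℝ} {Λ τ : ℝ → ℝ} {f : ℕ → ℚ → ℕ → ℤ → ℕ} {b : ℕ → ℚ → ℕ → Ln}
    {e : ℕ → ℚ → ℕ → E2} {w1 w2 : ℕ → ℚ → ℝ}

open Classical in
/-- incidence counts of (line, cell) pairs in a marked sequence. -/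
theorem fib_bounds (h : Mk B I L lev r0 A q g Λ τ f b e w1 w2) (v : ℚ) (hv0 : 0 ≤ v)
    (hv1 : v ≤ 1) {ε : ℝ} (hε : 0 < ε) :
    ∀ᶠ n in (U : Filter ℕ), ∀ x ∈ I n,
      B.d n ^ (-(1 - (v : ℝ)) + (Λ 1 - Λ v) + ε) ≤
        (((I n).filter fun y => lc (lev n v) y = lc (lev n v) x).card : ℝ) ∧
      (((I n).filter fun y => lc (lev n v) y = lc (lev n v) x).card : ℝ) ≤
        B.d n ^ (-(1 - (v : ℝ)) + (Λ 1 - Λ v) - ε) := by
  have h1 := h.own v 1 hv0 hv1 le_rfl ε hε
  filter_upwards [h1, h.one] with n hn hone x hx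
  have h2 := hn x hx
  have e1 : ((1 : ℚ) : ℝ) = 1 := by norm_num
  rw [e1, own_one hone] at h2
  exact h2

/-- **a part which keeps its (line, cell) and (class, cell) fibres is again marked.** -/
theorem Mk.of_fib (h : Mk B I L lev r0 A q g Λ τ f b e w1 w2) {J' : ℕ → Finset (ℕ × ℝ)}
    (hsub : ∀ n, J' n ⊆ I n) (hne : ∀ᶠ n in (U : Filter ℕ), (J' n).Nonempty)
    (fl : ∀ v : ℚ, 0 ≤ v → v ≤ 1 → ∀ ε : ℝ, 0 < ε → ∀ᶠ n in (U : Filter ℕ), ∀ x ∈ J' n,
      B.d n ^ ε * (((I n).filter fun y => lc (lev n v) y = lc (lev n v) x).card : ℝ) ≤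
        (((J' n).filter fun y => lc (lev n v) y = lc (lev n v) x).card : ℝ))
    (fk : ∀ v : ℚ, 0 ≤ v → v ≤ 1 → ∀ ε : ℝ, 0 < ε → ∀ᶠ n in (U : Filter ℕ), ∀ x ∈ J' n,
      B.d n ^ ε * (((I n).filter fun y => kc (lev n v) (f n v) y = kc (lev n v) (f n v) x).card : ℝ)
        ≤ (((J' n).filter fun y => kc (lev n v) (f n v) y = kc (lev n v) (f n v) x).card : ℝ)) :
    Mk B J' L lev r0 A q g Λ τ f b e w1 w2 := by
  classical
  refine
    { ne := hne
      card := ?_
      q0 := h.q0
      q2 := h.q2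
      g0 := h.g0
      Apos := h.Apos
      rpos := h.rpos
      lam0 := h.lam0
      lam := h.lam
      tau1 := h.tau1
      lev_mono := h.lev_mono
      lev_lim := h.lev_lim
      cell0 := by
        filter_upwards [h.cell0] with n hn x hx y hy using hn x ((hsub n) hx) y ((hsub n) hy)
      one := by
        filter_upwards [h.one] with n hn x hx y hy using hn x ((hsub n) hx) y ((hsub n) hy)
      own := ?_
      dmax := ?_
      near := ?_
      dims := h.dims
      tau := h.tau }
  · first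
    | (obtain ⟨C, hC⟩ := h.card
       refine ⟨C, ?_⟩
       filter_upwards [hC] with n hn
       exact le_trans (by exact_mod_cast card_le_card (hsub n)) hn)
    | (intro ε hε
       filter_upwards [h.card ε hε, hne] with n hn hne
       refine le_trans (Real.log_le_log (by exact_mod_cast card_pos.2 hne)
         (by exact_mod_cast card_le_card (hsub n))) hn)
  · intro u v hu huv hv ε hε
    have hε3 : 0 < ε / 3 := by linarith
    filter_upwards [h.own u v hu huv hv ε hε, fib_bounds h u hu (huv.trans hv) hε3,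
      fib_bounds h v (hu.trans huv) hv hε3, fl u hu (huv.trans hv) (ε / 3) hε3] with n h1 h2 h3 h4 x hx
    have hxI := (hsub n) hx
    have hownle : own (J' n) (lev n u) (lev n v) x ⊆ own (I n) (lev n u) (lev n v) x := by
      unfold own
      exact image_subset_image (filter_subset_filter _ (hsub n))
    refine ⟨?_, le_trans (by exact_mod_cast card_le_card hownle) (h1 x hxI).2⟩
    have h5 := own_lower (J := J' n) (i := lev n u) (j := lev n v) (x := x)
      (m := B.d n ^ (-(1 - (v : ℝ)) + (Λ 1 - Λ v) - ε / 3)) (fun y hy =>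
        le_trans (by exact_mod_cast card_le_card (filter_subset_filter _ (hsub n)))
          (h3 y ((hsub n) hy)).2) hx
    have h6 := (mul_le_mul_of_nonneg_left (h2 x hxI).1 (dpow_pos B n (ε / 3)).le).trans
      ((h4 x hx).trans h5)
    rw [← dpow_add] at h6
    have hp := dpow_pos B n (-(1 - (v : ℝ)) + (Λ 1 - Λ v) - ε / 3)
    rw [← div_le_iff₀' hp, ← Real.rpow_sub (B.pos n)] at h6
    refine le_trans (le_of_eq ?_) h6
    congr 1; ring
  · intro v hv0 hv1 ε hε
    filter_upwards [h.dmax v hv0 hv1 ε hε] with n hn c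
    exact (hn c).subset (alive_mono (hsub n) _ _) fun _ _ => zero_le_one
  · intro v hv0 hv1 ε hε
    have hε4 : 0 < ε / 4 := by linarith
    filter_upwards [h.near v hv0 hv1 (ε / 4) hε4, fib_bounds h v hv0 hv1 hε4, fk v hv0 hv1 (ε / 4) hε4]
      with n h1 h2 h3 c
    have hN := h1 c
    have hsubA : alive (J' n) (lev n v) c ⊆ alive (I n) (lev n v) c := alive_mono (hsub n) _ _
    refine ⟨fun t ht => hN.unit t (hsubA ht), fun t ht => hN.mem t (hsubA ht), fun t ht => ?_⟩
    obtain ⟨x, hx, hx1, hx2⟩ := mem_alive.1 ht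
    have hxI := (hsub n) hx
    have h4 : amp B lev A q g Λ n v * w1 n v ^ (1 + (0 : ℝ)) * w2 n v ^ (1 + q) ≤
        B.d n ^ (-(ε / 4)) *
          (((alive (I n) (lev n v) c).filter fun s => f n v s c = f n v t c).card : ℝ) := by
      have := hN.low t (hsubA ht)
      rw [sum_const, nsmul_eq_mul, mul_one] at this
      convert this
      rfl
    rw [sum_const, nsmul_eq_mul, mul_one]
    suffices hfin : amp B lev A q g Λ n v * w1 n v ^ (1 + (0 : ℝ)) * w2 n v ^ (1 + q) ≤
        B.d n ^ (-ε) *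
          (((alive (J' n) (lev n v) c).filter fun s => f n v s c = f n v t c).card : ℝ) by
      convert hfin
      rfl
    set a : ℕ := f n v t c with ha
    have kI : ∀ K : Finset (ℕ × ℝ), (K.filter fun y => kc (lev n v) (f n v) y =
        kc (lev n v) (f n v) x) = K.filter fun y => (lc (lev n v) y).2 = c ∧
          f n v (lc (lev n v) y).1 c = a := by
      intro K
      ext y
      rw [mem_filter, mem_filter]
      simp only [kc, lc, Prod.mk.injEq, hx1, hx2, ← ha]
      constructor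
      · rintro ⟨h5, h6, h7⟩
        exact ⟨h5, h7, by rw [← h7]; exact h6⟩
      · rintro ⟨h5, h7, h6⟩
        exact ⟨h5, by rw [h7]; exact h6, h7⟩
    set m₁ : ℝ := B.d n ^ (-(1 - (v : ℝ)) + (Λ 1 - Λ v) + ε / 4) with hm₁
    set m₂ : ℝ := B.d n ^ (-(1 - (v : ℝ)) + (Λ 1 - Λ v) - ε / 4) with hm₂
    have p1 : m₁ * (((alive (I n) (lev n v) c).filter fun s => f n v s c = a).card : ℝ) ≤
        (((I n).filter fun y => kc (lev n v) (f n v) y = kc (lev n v) (f n v) x).card : ℝ) := by
      rw [card_class (I n) (lev n v) c (fun s => f n v s c) a, kI (I n)]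
      have := mul_card_filter_le (n₁ := m₁) (lc (lev n v)) (I n)
        (fun o => o.2 = c ∧ f n v o.1 c = a) (fun y hy => by convert (h2 y hy).1)
      convert this
    have p2 : (((J' n).filter fun y => kc (lev n v) (f n v) y = kc (lev n v) (f n v) x).card : ℝ) ≤
        m₂ * (((alive (J' n) (lev n v) c).filter fun s => f n v s c = a).card : ℝ) := by
      rw [card_class (J' n) (lev n v) c (fun s => f n v s c) a, kI (J' n)]
      have h7 : ∀ y ∈ J' n, (((J' n).filter fun z => lc (lev n v) z = lc (lev n v) y).card : ℝ) ≤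
          m₂ := by
        intro y hy
        have h6 := card_le_card (filter_subset_filter (fun z => lc (lev n v) z = lc (lev n v) y)
          (hsub n))
        have h8 : (((J' n).filter fun z => lc (lev n v) z = lc (lev n v) y).card : ℝ) ≤
          (((I n).filter fun z => lc (lev n v) z = lc (lev n v) y).card : ℝ) := by
          exact_mod_cast h6
        exact h8.trans (h2 y ((hsub n) hy)).2
      have := card_filter_le_mul (n₂ := m₂) (lc (lev n v)) (J' n)
        (fun o => o.2 = c ∧ f n v o.1 c = a) (fun y hy => by convert h7 y hy)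
      convert this
    have p3 := h3 x hx
    set NI : ℝ := (((alive (I n) (lev n v) c).filter fun s => f n v s c = a).card : ℝ) with hNI
    set NJ : ℝ := (((alive (J' n) (lev n v) c).filter fun s => f n v s c = a).card : ℝ) with hNJ
    have p4 : B.d n ^ (ε / 4) * (m₁ * NI) ≤ m₂ * NJ :=
      (mul_le_mul_of_nonneg_left p1 (dpow_pos B n _).le).trans (p3.trans p2)
    have hm2 : 0 < m₂ := dpow_pos B n _
    have p5 : NI ≤ B.d n ^ (-(3 * (ε / 4))) * NJ := by
      have hpos : 0 < B.d n ^ (ε / 4) * m₁ := mul_pos (dpow_pos B n _) (dpow_pos B n _)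
      have h7 : m₂ = B.d n ^ (-(3 * (ε / 4))) * (B.d n ^ (ε / 4) * m₁) := by
        rw [hm₁, hm₂, ← dpow_add, ← dpow_add]; congr 1; ring
      rw [h7] at p4
      have h8 : (B.d n ^ (ε / 4) * m₁) * NI ≤ (B.d n ^ (ε / 4) * m₁) *
          (B.d n ^ (-(3 * (ε / 4))) * NJ) := by linarith
      exact le_of_mul_le_mul_left h8 hpos
    refine h4.trans ?_
    have h9 : B.d n ^ (-ε) = B.d n ^ (-(ε / 4)) * B.d n ^ (-(3 * (ε / 4))) := by
      rw [← dpow_add]; congr 1; ring
    rw [h9, mul_assoc]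
    exact mul_le_mul_of_nonneg_left p5 (dpow_pos B n _).le


open Classical in
/-- **(R) Refinement of a marked extremal sequence** (leaf L8 of TEXT I). -/
theorem Mk.refine (h : Mk B I L lev r0 A q g Λ τ f b e w1 w2) {J : ℕ → Finset (ℕ × ℝ)}
    (hJ : Dense B J I) :
    ∃ J' : ℕ → Finset (ℕ × ℝ), (∀ n, J' n ⊆ J n) ∧ Dense B J' J ∧
      (∀ᶠ n in (U : Filter ℕ), ((J n).card : ℝ) ≤ 2 * ((J' n).card : ℝ)) ∧
      Mk B J' L lev r0 A q g Λ τ f b e w1 w2 := by
  classical
  obtain ⟨J', hsub, hhalf, hfib⟩ := prune_seq (η := fun _ _ => ℕ × ℤ) hJ (hh lev f)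
  have hJ'J : Dense B J' J := dense_of_half (by
    filter_upwards [hhalf] with n hn using ⟨(hsub n).1, hn⟩)
  have hJ'I : Dense B J' I := hJ'J.trans hJ
  -- the two fibre statements
  have fl : ∀ v : ℚ, ∀ ε : ℝ, 0 < ε → ∀ᶠ n in (U : Filter ℕ), ∀ x ∈ J' n,
      B.d n ^ ε * (((I n).filter fun y => lc (lev n v) y = lc (lev n v) x).card : ℝ) ≤
        (((J' n).filter fun y => lc (lev n v) y = lc (lev n v) x).card : ℝ) := by
    intro v ε hε
    obtain ⟨j, rfl⟩ := exists_num v
    filter_upwards [hfib (2 * j) ε hε] with n hn x hx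
    have := hn x hx
    simp only [hh_even] at this
    exact this
  have fk : ∀ v : ℚ, ∀ ε : ℝ, 0 < ε → ∀ᶠ n in (U : Filter ℕ), ∀ x ∈ J' n,
      B.d n ^ ε * (((I n).filter fun y => kc (lev n v) (f n v) y = kc (lev n v) (f n v) x).card : ℝ)
        ≤ (((J' n).filter fun y => kc (lev n v) (f n v) y = kc (lev n v) (f n v) x).card : ℝ) := by
    intro v ε hε
    obtain ⟨j, rfl⟩ := exists_num v
    filter_upwards [hfib (2 * j + 1) ε hε] with n hn x hx
    have := hn x hx
    simp only [hh_odd] at this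
    exact this
  exact ⟨J', fun n => (hsub n).1, hJ'J, hhalf, Mk.of_fib h (fun n => (hsub n).2)
    (hJ'I.nonempty h.ne) (fun v _ _ => fl v) (fun v _ _ => fk v)⟩

variable (B I L lev r0 A q g Λ τ f b e w1 w2) in
/-- **L8**, literal target of `MkDef_163`. -/
theorem refine : Mk163.Refine B I L lev r0 A q g Λ τ f b e w1 w2 := by
  intro h J hJ
  obtain ⟨J', -, h2, -, h4⟩ := Mk.refine h hJ
  exact ⟨J', h2, h4⟩

end

end Crest.Agent.R138.MkRef627
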