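import Crest.Agent.R138.Qf6_926

/-!
# R138: choice of the class, own profiles, algebra of tangents (helper926)

* `exists_big_cls`, `exists_clsSeq` : a sequence of big classes inside any given half of `I`;
* `QProf.own_le` : a class has at least as many sub-cells as one line;
* `IsTan.zero`, `IsTan.lip`, `IsTan.anti`, `IsTan.submod`, `IsTan.mono_le`.
-/

set_option autoImplicit false
set_option linter.unusedSectionVars false
set_option linter.unusedVariables false

open Filter Topology MeasureTheory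
open scoped NNReal

namespace Crest.Agent.R138.Ex926

open Finset Flg101 FM501

/-- the points in small classes are few -/
theorem card_small_cls {α β : Type*} [DecidableEq α] [DecidableEq β] (I : Finset α) (g : α → β)
    {s : ℝ} (hs0 : 0 ≤ s) : (((I.filter fun i => ((cls I g i).card : ℝ) < s)).card : ℝ) ≤
      s * ((I.image g).card : ℝ) := by
  classical
  set A := I.filter fun i => ((cls I g i).card : ℝ) < s with hA
  have h1 := le_count_mul A (fun _ => (1 : ℝ)) g (m := s) (fun i hi => by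
    rw [sum_const, nsmul_eq_mul, mul_one]
    have h2 := (mem_filter.1 hi).2
    have h3 : ((cls A g i).card : ℝ) ≤ (cls I g i).card := by
      exact_mod_cast card_le_card (cls_mono (filter_subset _ _) _ _)
    linarith)
  rw [sum_const, nsmul_eq_mul, mul_one] at h1
  refine h1.trans (mul_le_mul_of_nonneg_left ?_ hs0)
  exact_mod_cast card_le_card (image_subset_image (filter_subset _ _))

theorem exists_big_cls {α β : Type*} [DecidableEq α] [DecidableEq β] (I : Finset α) (g : α → β)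
    {s : ℝ} (hs0 : 0 ≤ s) (h : s * ((I.image g).card : ℝ) < (I.card : ℝ)) :
    ∃ i ∈ I, s ≤ ((cls I g i).card : ℝ) := by
  classical
  by_contra hcon
  push Not at hcon
  have h1 := card_small_cls I g hs0
  have h2 : (I.filter fun i => ((cls I g i).card : ℝ) < s) = I :=
    filter_true_of_mem fun i hi => hcon i hi
  rw [h2] at h1
  linarith

/-- number of `nat4` classes versus classes of the profile -/
theorem nat4_sub_QL (B : Base) (n : ℕ) {v r t : ℝ} (hv : 0 ≤ v) (hr : 0 ≤ r) (ht : 0 ≤ t) (w : ℝ) :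
    ∑ k, (nat4 (B.levc n v) (B.levc n r) (B.levc n t) k - QL B n v r t w 0 k) ≤ 9 := by
  have hl2 : 0 < Real.log 2 := Real.log_pos (by norm_num)
  have hL := B.L_pos n
  have cu : ∀ {s : ℝ}, 0 ≤ s → (B.levc n s : ℝ) < s * B.L n / Real.log 2 + 1 := fun {s} hs =>
    Nat.ceil_lt_add_one (by positivity)
  have fl : ∀ s : ℝ, s * B.L n / Real.log 2 < (B.lev n s : ℝ) + 1 := fun s => Nat.lt_floor_add_one _
  have cl : ∀ s : ℝ, s * B.L n / Real.log 2 ≤ (B.levc n s : ℝ) := fun s => Nat.le_ceil _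
  have ad : ∀ a b : ℝ, (a + b) * B.L n / Real.log 2 = a * B.L n / Real.log 2 + b * B.L n / Real.log 2 :=
    fun a b => by rw [add_mul, add_div]
  rw [Fin.sum_univ_four]
  have k0 : nat4 (B.levc n v) (B.levc n r) (B.levc n t) 0 - QL B n v r t w 0 0 ≤ 3 := by
    show B.levc n t + B.levc n v + B.levc n r - B.lev n (t + v + r + w * 0) ≤ 3
    rw [mul_zero, add_zero]
    have h1 := fl (t + v + r)
    rw [ad, ad] at h1
    have : ((B.levc n t + B.levc n v + B.levc n r : ℕ) : ℝ) < ((B.lev n (t + v + r) + 4 : ℕ) : ℝ) := by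
      push_cast; linarith [cu hv, cu hr, cu ht]
    have : B.levc n t + B.levc n v + B.levc n r < B.lev n (t + v + r) + 4 := by exact_mod_cast this
    omega
  have k1 : nat4 (B.levc n v) (B.levc n r) (B.levc n t) 1 - QL B n v r t w 0 1 ≤ 2 := by
    show B.levc n t + B.levc n r - B.levc n (t + r + w * 0) ≤ 2
    rw [mul_zero, add_zero]
    have h1 := cl (t + r)
    rw [ad] at h1
    have : ((B.levc n t + B.levc n r : ℕ) : ℝ) < ((B.levc n (t + r) + 3 : ℕ) : ℝ) := by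
      push_cast; linarith [cu hr, cu ht]
    have : B.levc n t + B.levc n r < B.levc n (t + r) + 3 := by exact_mod_cast this
    omega
  have k2 : nat4 (B.levc n v) (B.levc n r) (B.levc n t) 2 - QL B n v r t w 0 2 ≤ 0 := by
    show B.levc n t - B.levc n (t + w * 0) ≤ 0
    rw [mul_zero, add_zero, Nat.sub_self]
  have k3 : nat4 (B.levc n v) (B.levc n r) (B.levc n t) 3 - QL B n v r t w 0 3 ≤ 3 := by
    show B.levc n t + B.levc n v - B.lev n (t + v + w * 0) ≤ 3
    rw [mul_zero, add_zero]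
    have h1 := fl (t + v)
    rw [ad] at h1
    have : ((B.levc n t + B.levc n v : ℕ) : ℝ) < ((B.lev n (t + v) + 4 : ℕ) : ℝ) := by
      push_cast; linarith [cu hv, cu ht]
    have : B.levc n t + B.levc n v < B.lev n (t + v) + 4 := by exact_mod_cast this
    omega
  omega

variable {ι : ℕ → Type*} [∀ n, DecidableEq (ι n)]
variable {B B' : Base} {I : ∀ n, Finset (ι n)} {x : ∀ n, ι n → Inc} {v r t w T : ℕ → ℝ}
  {lam : (Fin 6 → ℝ) → ℝ}

/-- the label of the `nat4` box at `n` -/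
noncomputable def natlab (B : Base) (x : ∀ n, ι n → Inc) (v r t : ℕ → ℝ) (n : ℕ) (i : ι n) :
    (ℤ × ℤ) × (Fin 4 → ℤ) :=
  (x n i).lab (B.levc n (v n)) (B.levc n (r n))
    (nat4 (B.levc n (v n)) (B.levc n (r n)) (B.levc n (t n)))

theorem card_natlab_le (hv : ∀ n, 0 ≤ v n) (hr : ∀ n, 0 ≤ r n) (ht : ∀ n, 0 ≤ t n) (n : ℕ)
    (A : Finset (ι n)) (w : ℕ → ℝ) (hw : 0 < w n) :
    ((A.image (natlab B x v r t n)).card : ℝ) ≤ (675 * 2 ^ 9) *
      ((A.image (flab B x n (X6 (v n) (r n) (t n) + w n • (0 : Fin 6 → ℝ)))).card : ℝ) := by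
  rw [zero_eq_dir, flab_dir, mul_zero, add_zero, add_zero]
  refine card_image_le_mul A _ _ fun i hi => ?_
  have hwall := wall_QL B n (hv n) (hr n) (ht n) hw.le
    (dir_const_mem_D6 le_rfl le_rfl le_rfl : dir (fun _ => (0 : ℝ)) 0 0 ∈ D6)
  rw [mul_zero, add_zero, add_zero] at hwall
  have h1 := card_fine_le A (x n) (i := B.levc n (v n)) (j := B.levc n (r n))
    (i' := B.levc n (v n)) (j' := B.levc n (r n)) (p := QL B n (v n) (r n) (t n) (w n) 0)
    (p' := nat4 (B.levc n (v n)) (B.levc n (r n)) (B.levc n (t n))) le_rfl le_rfl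
    (fun k => QL_zero_le_nat4 B n _ _ _ _ k) hwall i
  have h2 := nat4_sub_QL B n (hv n) (hr n) (ht n) (w n)
  have h3 : 675 * 2 ^ ((B.levc n (v n) - B.levc n (v n)) + (B.levc n (r n) - B.levc n (r n)) +
      ∑ k, (nat4 (B.levc n (v n)) (B.levc n (r n)) (B.levc n (t n)) k -
        QL B n (v n) (r n) (t n) (w n) 0 k)) ≤ 675 * 2 ^ 9 := by
    refine Nat.mul_le_mul_left _ (Nat.pow_le_pow_right (by norm_num) ?_)
    omega
  have h4 := h1.trans h3
  exact_mod_cast h4

/-- **Choice of the classes**: inside every half `Gd` of `I` there is a sequence of big classes at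
the natural points. -/
theorem exists_clsSeq (hv : ∀ n, 0 ≤ v n) (hr : ∀ n, 0 ≤ r n) (ht : ∀ n, 0 ≤ t n)
    (hw : ∀ n, 0 < w n) (hdd : ∀ n, B'.d n = B.d n ^ w n)
    (hprof : ZProf B' I (fun n c => flab B x n (X6 (v n) (r n) (t n) + w n • c)) D6 T lam)
    (hlam0 : lam 0 = 0) (hT : ∀ n, 0 < T n) {Gd : ∀ n, Finset (ι n)} (i₀ : ∀ n, ι n) {c : ℝ}
    (hc : 0 < c)
    (hGd : ∀ᶠ n in (U : Filter ℕ), Gd n ⊆ I n ∧ (Gd n).Nonempty ∧
      c * ((I n).card : ℝ) ≤ (Gd n).card) :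
    ∃ s₀ : ∀ n, ι n, (∀ᶠ n in (U : Filter ℕ), s₀ n ∈ Gd n) ∧
      ClsSeq B B' I x v r t w T lam
        (fun n => cls (Gd n) (natlab B x v r t n) (s₀ n)) s₀ := by
  classical
  have hbigk : ∀ l : ℕ, ∀ᶠ n in (U : Filter ℕ), ∃ s ∈ Gd n,
      T n * B'.d n ^ (1 / ((l : ℝ) + 1)) ≤ ((cls (Gd n) (natlab B x v r t n) s).card : ℝ) := by
    intro l
    set ε : ℝ := 1 / ((l : ℝ) + 1) with hε
    have hε0 : 0 < ε := by positivity
    filter_upwards [hGd, hprof.root 0 (ε / 2) (by positivity),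
      B'.ev_rpow_small (η := ε / 2) (c := c / (2 * (675 * 2 ^ 9))) (by positivity) (by positivity)] with
      n h1 h2 h3
    refine exists_big_cls (Gd n) (natlab B x v r t n)
      (mul_pos (hT n) (Real.rpow_pos_of_pos (B'.pos n) _)).le ?_
    have h4 := h2 0 zero_mem_D6 (by rw [norm_zero])
    rw [hlam0] at h4
    have hTn := hT n
    have hp : ∀ s : ℝ, 0 < B'.d n ^ s := fun s => Real.rpow_pos_of_pos (B'.pos n) s
    have h5 := card_natlab_le (B := B) (x := x) hv hr ht n (Gd n) w (hw n)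
    have h6 : (((Gd n).image (flab B x n (X6 (v n) (r n) (t n) + w n • (0 : Fin 6 → ℝ)))).card : ℝ) ≤
        (((I n).image (flab B x n (X6 (v n) (r n) (t n) + w n • (0 : Fin 6 → ℝ)))).card : ℝ) := by
      exact_mod_cast card_le_card (image_subset_image h1.1)
    have hGpos : (0 : ℝ) < (Gd n).card := by exact_mod_cast card_pos.2 h1.2.1
    have hIn : ((I n).card : ℝ) ≤ (Gd n).card / c := by
      rw [le_div_iff₀ hc, mul_comm]; exact h1.2.2
    have e1 : B'.d n ^ ε * B'.d n ^ (0 - ε / 2) = B'.d n ^ (ε / 2) := by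
      rw [← rp]; congr 1; ring
    calc T n * B'.d n ^ ε * (((Gd n).image (natlab B x v r t n)).card : ℝ)
        ≤ T n * B'.d n ^ ε * ((675 * 2 ^ 9) *
          (((I n).image (flab B x n (X6 (v n) (r n) (t n) + w n • (0 : Fin 6 → ℝ)))).card : ℝ)) := by
          refine mul_le_mul_of_nonneg_left ?_ (mul_pos hTn (hp _)).le
          exact h5.trans (mul_le_mul_of_nonneg_left h6 (by norm_num))
      _ = (675 * 2 ^ 9) * B'.d n ^ ε *
          ((((I n).image (flab B x n (X6 (v n) (r n) (t n) + w n • (0 : Fin 6 → ℝ)))).card : ℝ) *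
            T n) := by ring
      _ ≤ (675 * 2 ^ 9) * B'.d n ^ ε * ((I n).card * B'.d n ^ (0 - ε / 2)) := by
          refine mul_le_mul_of_nonneg_left h4 ?_
          exact mul_nonneg (by norm_num) (hp _).le
      _ = (675 * 2 ^ 9) * (I n).card * (B'.d n ^ ε * B'.d n ^ (0 - ε / 2)) := by ring
      _ = (675 * 2 ^ 9) * (I n).card * B'.d n ^ (ε / 2) := by rw [e1]
      _ ≤ (675 * 2 ^ 9) * ((Gd n).card / c) * (c / (2 * (675 * 2 ^ 9))) := by
          refine mul_le_mul (mul_le_mul_of_nonneg_left hIn (by norm_num)) h3 (hp _).le ?_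
          positivity
      _ = (Gd n).card / 2 := by field_simp
      _ < (Gd n).card := by linarith
  obtain ⟨k, hk, hk2⟩ := exists_diag _ hbigk
  have hex : ∀ᶠ n in (U : Filter ℕ), ∃ s ∈ Gd n,
      T n * B'.d n ^ (1 / (((k n : ℕ) : ℝ) + 1)) ≤
        ((cls (Gd n) (natlab B x v r t n) s).card : ℝ) := hk2.mono fun n hn => hn _ le_rfl
  set s₀ : ∀ n, ι n := fun n => if h : ∃ s ∈ Gd n,
      T n * B'.d n ^ (1 / (((k n : ℕ) : ℝ) + 1)) ≤
        ((cls (Gd n) (natlab B x v r t n) s).card : ℝ) then h.choose else i₀ n with hs₀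
  have hspec : ∀ᶠ n in (U : Filter ℕ), s₀ n ∈ Gd n ∧
      T n * B'.d n ^ (1 / (((k n : ℕ) : ℝ) + 1)) ≤
        ((cls (Gd n) (natlab B x v r t n) (s₀ n)).card : ℝ) := by
    filter_upwards [hex] with n hn
    simp only [hs₀, dif_pos hn]
    exact hn.choose_spec
  refine ⟨s₀, hspec.mono fun n hn => hn.1,
    { v0 := hv, r0 := hr, t0 := ht, w0 := hw, dd := hdd, prof := hprof, lam0 := hlam0, Tpos := hT
      cls := ?_
      big := fun ε hε => ?_ }⟩
  · filter_upwards [hspec, hGd] with n h1 h2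
    exact ⟨(cls_subset _ _ _).trans h2.1, self_mem_cls h1.1, fun s hs => (mem_cls.1 hs).2⟩
  · obtain ⟨N, hN⟩ := exists_nat_gt (1 / ε)
    filter_upwards [hspec, hk.eventually_ge_atTop N] with n h1 h2
    refine le_trans ?_ h1.2
    refine mul_le_mul_of_nonneg_left ?_ (hT n).le
    refine Real.rpow_le_rpow_of_exponent_ge (B'.pos n) (B'.lt n).le ?_
    have h3 : (N : ℝ) ≤ k n := by exact_mod_cast h2
    rw [div_le_iff₀ (by positivity)]
    rw [div_lt_iff₀ hε] at hN
    nlinarith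

/-! ### own profiles -/

/-- **a class has at least as many sub-cells as one line**: `g q` = own classes (inside the
`f p`-classes), an `f p'`-class and a `g q`-class determine the `g q'`-class. -/
theorem QProf.own_le {κ κ' : ℕ → Type*} [∀ n, DecidableEq (κ n)] [∀ n, DecidableEq (κ' n)]
    {V V' : Type*} [LE V] [LE V'] {f : ∀ n, V → ι n → κ n} {g : ∀ n, V' → ι n → κ' n}
    {P : Set V} {Q : Set V'} {ν : V → ℝ} {τ : V' → ℝ} (hν : QProf B I f P ν)
    (hτ : QProf B I g Q τ) (hne : ∀ᶠ n in (U : Filter ℕ), (I n).Nonempty) {p p' : V} (hp : p ∈ P)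
    (hp' : p' ∈ P) (hpp : p ≤ p') {q q' : V'} (hq : q ∈ Q) (hq' : q' ∈ Q)
    (h1 : ∀ᶠ n in (U : Filter ℕ), ∀ i ∈ I n, ∀ j ∈ I n, g n q i = g n q j → f n p i = f n p j)
    (h2 : ∀ᶠ n in (U : Filter ℕ), ∀ i ∈ I n, ∀ j ∈ I n, g n q i = g n q j →
      f n p' i = f n p' j → g n q' i = g n q' j) : τ q - τ q' ≤ ν p - ν p' := by
  classical
  refine le_of_forall_pos_le_add fun ε hε => ?_
  have hε3 : 0 < ε / 3 := by positivity
  obtain ⟨n, a1, a2, a3, a4, a5⟩ := ((hτ.ev_big hne hε3).and ((hτ.up _ hε3).and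
    ((hν.num _ hε3).and (h1.and h2)))).exists
  obtain ⟨i, hi, hbig⟩ := a1 q hq
  have hL := B.L_pos n
  set O := cls (I n) (g n q) i with hO
  have hiO : i ∈ O := self_mem_cls hi
  have c1 : (O.card : ℝ) ≤ B.d n ^ (-(τ q' + ε / 3)) * (O.image (g n q')).card := by
    have := le_count_mul O (fun _ => (1 : ℝ)) (g n q') (m := B.d n ^ (-(τ q' + ε / 3)))
      (fun s hs => by
        rw [sum_const, nsmul_eq_mul, mul_one]
        refine le_trans ?_ (a2 q' hq' s (mem_cls.1 hs).1)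
        exact_mod_cast card_le_card (cls_mono (cls_subset _ _ _) _ _))
    rwa [sum_const, nsmul_eq_mul, mul_one] at this
  have c2 : (O.image (g n q')).card ≤ (O.image (f n p')).card := by
    refine card_image_le_card_image _ _ _ fun a ha b hb hab => ?_
    have ha' := mem_cls.1 ha
    have hb' := mem_cls.1 hb
    exact a5 a ha'.1 b hb'.1 (ha'.2.trans hb'.2.symm) hab
  have c3 : (O.image (f n p')).card ≤ ((cls (I n) (f n p) i).image (f n p')).card := by
    refine card_le_card (image_subset_image fun s hs => ?_)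
    have hs' := mem_cls.1 hs
    exact mem_cls.2 ⟨hs'.1, a4 s hs'.1 i hi hs'.2⟩
  have c4 := a3 p hp p' hp' hpp i hi
  have c5 : ((O.image (g n q')).card : ℝ) ≤ B.d n ^ (-(ν p - ν p' + ε / 3)) := by
    refine le_trans ?_ c4
    exact_mod_cast c2.trans c3
  have hp0 : ∀ s : ℝ, 0 < B.d n ^ s := fun s => Real.rpow_pos_of_pos (B.pos n) s
  have c6 : (O.card : ℝ) ≤ B.d n ^ (-(τ q' + ε / 3)) * B.d n ^ (-(ν p - ν p' + ε / 3)) :=
    c1.trans (mul_le_mul_of_nonneg_left c5 (hp0 _).le)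
  have hO1 : (1 : ℝ) ≤ O.card := cls_card_pos hi
  have l1 := Real.log_le_log (by linarith) c6
  rw [Real.log_mul (hp0 _).ne' (hp0 _).ne', Real.log_rpow (B.pos n), Real.log_rpow (B.pos n),
    B.log_d] at l1
  have : (τ q - τ q') * B.L n ≤ (ν p - ν p' + ε) * B.L n := by linarith
  exact le_of_mul_le_mul_right this hL

/-! ### algebra of tangents -/

section Tan

variable {V : Type*} [NormedAddCommGroup V] [NormedSpace ℝ V] {P D : Set V} {ν lam : V → ℝ}
  {y : ℕ → V} {h : ℕ → ℝ}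

theorem IsTan.ev (ht : IsTan P D ν y h lam) {c : V} (hc : c ∈ D) {ε : ℝ} (hε : 0 < ε) :
    ∀ᶠ l in (atTop : Filter ℕ), y l + h l • c ∈ P ∧
      |ν (y l + h l • c) - ν (y l) - h l * lam c| ≤ ε * h l :=
  (ht ‖c‖ ε hε).mono fun l hl => hl c hc le_rfl

theorem IsTan.zero (ht : IsTan P D ν y h lam) (hpos : ∀ l, 0 < h l) (h0 : (0 : V) ∈ D) :
    lam 0 = 0 := by
  by_contra hne
  have hp : 0 < |lam 0| / 2 := by positivity
  obtain ⟨l, -, hl⟩ := (ht.ev h0 hp).exists
  rw [smul_zero, add_zero, sub_self, zero_sub, abs_neg, abs_mul, abs_of_pos (hpos l)] at hl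
  have h1 := hpos l
  have h2 : 0 < |lam 0| := abs_pos.2 hne
  nlinarith

theorem IsTan.lip (ht : IsTan P D ν y h lam) (hpos : ∀ l, 0 < h l) {K : ℝ}
    (hν : ∀ p ∈ P, ∀ q ∈ P, |ν p - ν q| ≤ K * ‖p - q‖) :
    ∀ c ∈ D, ∀ c' ∈ D, |lam c - lam c'| ≤ K * ‖c - c'‖ := by
  intro c hc c' hc'
  refine le_of_forall_pos_le_add fun ε hε => ?_
  obtain ⟨l, ⟨h1, h2⟩, ⟨h3, h4⟩⟩ := ((ht.ev hc (ε := ε / 2) (by positivity)).and
    (ht.ev hc' (ε := ε / 2) (by positivity))).exists
  have h5 := hν _ h1 _ h3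
  have e1 : y l + h l • c - (y l + h l • c') = h l • (c - c') := by rw [smul_sub]; abel
  rw [e1, norm_smul, Real.norm_of_nonneg (hpos l).le] at h5
  have hl := hpos l
  have key : h l * |lam c - lam c'| ≤ h l * (K * ‖c - c'‖ + ε) := by
    rw [← abs_of_pos hl, ← abs_mul, abs_of_pos hl, mul_sub, abs_le]
    rw [abs_le] at h2 h4 h5
    constructor <;> nlinarith
  exact le_of_mul_le_mul_left key hl

theorem IsTan.anti [LE V] (ht : IsTan P D ν y h lam) (hpos : ∀ l, 0 < h l)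
    (hmono : ∀ (l : ℕ) (c c' : V), c ≤ c' → y l + h l • c ≤ y l + h l • c')
    (hν : ∀ p ∈ P, ∀ q ∈ P, p ≤ q → ν q ≤ ν p) :
    ∀ c ∈ D, ∀ c' ∈ D, c ≤ c' → lam c' ≤ lam c := by
  intro c hc c' hc' hcc
  refine le_of_forall_pos_le_add fun ε hε => ?_
  obtain ⟨l, ⟨h1, h2⟩, ⟨h3, h4⟩⟩ := ((ht.ev hc (ε := ε / 2) (by positivity)).and
    (ht.ev hc' (ε := ε / 2) (by positivity))).exists
  have h5 := hν _ h1 _ h3 (hmono l c c' hcc)
  have hl := hpos l
  have key : h l * lam c' ≤ h l * (lam c + ε) := by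
    rw [abs_le] at h2 h4
    nlinarith
  exact le_of_mul_le_mul_left key hl

theorem smul_sup_pi {m : ℕ} {a : ℝ} (ha : 0 ≤ a) (y c c' : Fin m → ℝ) :
    (y + a • c) ⊔ (y + a • c') = y + a • (c ⊔ c') := by
  funext i
  simp only [Pi.sup_apply, Pi.add_apply, Pi.smul_apply, smul_eq_mul]
  rcases le_total (c i) (c' i) with h | h
  · rw [sup_eq_right.2 h, sup_eq_right.2 (by gcongr)]
  · rw [sup_eq_left.2 h, sup_eq_left.2 (by gcongr)]

theorem smul_inf_pi {m : ℕ} {a : ℝ} (ha : 0 ≤ a) (y c c' : Fin m → ℝ) :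
    (y + a • c) ⊓ (y + a • c') = y + a • (c ⊓ c') := by
  funext i
  simp only [Pi.inf_apply, Pi.add_apply, Pi.smul_apply, smul_eq_mul]
  rcases le_total (c i) (c' i) with h | h
  · rw [inf_eq_left.2 h, inf_eq_left.2 (by gcongr)]
  · rw [inf_eq_right.2 h, inf_eq_right.2 (by gcongr)]

theorem IsTan.submod {m : ℕ} {P D : Set (Fin m → ℝ)} {ν lam : (Fin m → ℝ) → ℝ}
    {y : ℕ → (Fin m → ℝ)} (ht : IsTan P D ν y h lam) (hpos : ∀ l, 0 < h l)
    (hν : ∀ p ∈ P, ∀ q ∈ P, p ⊓ q ∈ P → p ⊔ q ∈ P → ν p + ν q ≤ ν (p ⊔ q) + ν (p ⊓ q))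
    {c c' : Fin m → ℝ} (hc : c ∈ D) (hc' : c' ∈ D) (hi : c ⊓ c' ∈ D) (hs : c ⊔ c' ∈ D) :
    lam c + lam c' ≤ lam (c ⊔ c') + lam (c ⊓ c') := by
  refine le_of_forall_pos_le_add fun ε hε => ?_
  have hε4 : 0 < ε / 4 := by positivity
  obtain ⟨l, ⟨h1, h2⟩, ⟨h3, h4⟩, ⟨h5, h6⟩, ⟨h7, h8⟩⟩ := ((ht.ev hc hε4).and
    ((ht.ev hc' hε4).and ((ht.ev hi hε4).and (ht.ev hs hε4)))).exists
  have hl := hpos l
  have h9 := hν _ h1 _ h3 (by rw [smul_inf_pi hl.le]; exact h5) (by rw [smul_sup_pi hl.le]; exact h7)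
  rw [smul_inf_pi hl.le, smul_sup_pi hl.le] at h9
  have key : h l * (lam c + lam c') ≤ h l * (lam (c ⊔ c') + lam (c ⊓ c') + ε) := by
    rw [abs_le] at h2 h4 h6 h8
    nlinarith
  exact le_of_mul_le_mul_left key hl

end Tan

end Crest.Agent.R138.Ex926
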