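import Crest.Agent.R138.Flg1_101
import Crest.Agent.R138.Uni_926

/-!
# R138 (helper101): quasi-nestedness of the literal partitions (flagged cell, grid box)

(Z2a) a fine class meets at most `675` coarse classes; (Z2b) a coarse class contains at most
`675 * 2^(sum of level differences)` fine classes; (Z2c) approximate joins.  The walls are asked of
the coarse level only.
-/

set_option autoImplicit false
set_option linter.unusedVariables false
set_option linter.unusedSectionVars false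

open Finset

namespace Crest.Agent.R138.Flg101

open Inc Crest.Agent.R138.Ex926

/-- coordinates at an arbitrary height `h` and slope `f` -/
def Inc.cr (w : Inc) (h f : ℝ) : Fin 4 → ℝ := ![w.N h f, w.P f, w.c, w.X h]

theorem co_eq_cr (i j : ℕ) (w : Inc) : w.co i j = w.cr (w.zQ i) (w.fQ j) := rfl

/-- change of corner for coordinate boxes, with a multiplicative constant `M` -/
theorem cr_close {i j : ℕ} {p : Fin 4 → ℕ} (hw : Wall i j p) {h h' f f' : ℝ}
    (hh : |h' - h| ≤ (1 / 2) ^ i) (hf : |f' - f| ≤ (1 / 2) ^ j) {w w' : Inc} {M : ℝ}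
    (H : ∀ k, |w.cr h f k - w'.cr h f k| ≤ M * (1 / 2) ^ p k) (k : Fin 4) :
    |w.cr h' f' k - w'.cr h' f' k| ≤ K4 k * (M * (1 / 2) ^ p k) := by
  have h0 := H 0
  have h1 := H 1
  have h2 := H 2
  have h3 := H 3
  simp only [Inc.cr, Matrix.cons_val_zero, Matrix.cons_val_one, Matrix.cons_val] at h0 h1 h2 h3
  have hM : 0 ≤ M := by
    have a := (abs_nonneg _).trans h2
    by_contra hcon
    push Not at hcon
    have : M * (1 / 2) ^ p 2 < 0 := mul_neg_of_neg_of_pos hcon (by positivity)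
    linarith
  set u := h' - h with hu
  set g := f' - f with hg
  have pw : ∀ {m n : ℕ}, m ≤ n → ((1:ℝ) / 2) ^ n ≤ (1 / 2) ^ m := fun {m n} hmn =>
    pow_le_pow_of_le_one (by norm_num) (by norm_num) hmn
  have nn : ∀ m : ℕ, (0:ℝ) ≤ (1 / 2) ^ m := fun m => by positivity
  have q01 : ((1:ℝ) / 2) ^ i * (M * (1 / 2) ^ p 1) ≤ M * (1 / 2) ^ p 0 := by
    have : ((1:ℝ) / 2) ^ i * (M * (1 / 2) ^ p 1) = M * (1 / 2) ^ (i + p 1) := by
      rw [pow_add]; ring
    rw [this]; exact mul_le_mul_of_nonneg_left (pw (by have := hw.w01; omega)) hM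
  have q03 : ((1:ℝ) / 2) ^ j * (M * (1 / 2) ^ p 3) ≤ M * (1 / 2) ^ p 0 := by
    have : ((1:ℝ) / 2) ^ j * (M * (1 / 2) ^ p 3) = M * (1 / 2) ^ (j + p 3) := by
      rw [pow_add]; ring
    rw [this]; exact mul_le_mul_of_nonneg_left (pw (by have := hw.w03; omega)) hM
  have q02 : ((1:ℝ) / 2) ^ i * (1 / 2) ^ j * (M * (1 / 2) ^ p 2) ≤ M * (1 / 2) ^ p 0 := by
    have : ((1:ℝ) / 2) ^ i * (1 / 2) ^ j * (M * (1 / 2) ^ p 2) = M * (1 / 2) ^ (i + j + p 2) := by
      rw [pow_add, pow_add]; ring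
    rw [this]
    exact mul_le_mul_of_nonneg_left (pw (by have := hw.w01; have := hw.w12; omega)) hM
  have q12 : ((1:ℝ) / 2) ^ j * (M * (1 / 2) ^ p 2) ≤ M * (1 / 2) ^ p 1 := by
    have : ((1:ℝ) / 2) ^ j * (M * (1 / 2) ^ p 2) = M * (1 / 2) ^ (j + p 2) := by
      rw [pow_add]; ring
    rw [this]; exact mul_le_mul_of_nonneg_left (pw (by have := hw.w12; omega)) hM
  have q32 : ((1:ℝ) / 2) ^ i * (M * (1 / 2) ^ p 2) ≤ M * (1 / 2) ^ p 3 := by
    have : ((1:ℝ) / 2) ^ i * (M * (1 / 2) ^ p 2) = M * (1 / 2) ^ (i + p 2) := by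
      rw [pow_add]; ring
    rw [this]; exact mul_le_mul_of_nonneg_left (pw (by have := hw.w32; omega)) hM
  fin_cases k
  · simp only [Inc.cr, Matrix.cons_val_zero, K4, Fin.zero_eta]
    rw [N_change w h h' f f', N_change w' h h' f f', ← hu, ← hg]
    have a1 : |u * (w.P f - w'.P f)| ≤ M * (1 / 2) ^ p 0 := by
      rw [abs_mul]
      exact (mul_le_mul hh h1 (abs_nonneg _) (nn _)).trans q01
    have a2 : |g * (w.X h - w'.X h)| ≤ M * (1 / 2) ^ p 0 := by
      rw [abs_mul]
      exact (mul_le_mul hf h3 (abs_nonneg _) (nn _)).trans q03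
    have a3 : |u * g * (w.c - w'.c)| ≤ M * (1 / 2) ^ p 0 := by
      rw [abs_mul, abs_mul]
      exact (mul_le_mul (mul_le_mul hh hf (abs_nonneg _) (nn _)) h2 (abs_nonneg _)
        (mul_nonneg (nn _) (nn _))).trans q02
    have : w.N h f + u * w.P f - g * w.X h - u * g * w.c -
        (w'.N h f + u * w'.P f - g * w'.X h - u * g * w'.c) =
        (w.N h f - w'.N h f) + u * (w.P f - w'.P f) - g * (w.X h - w'.X h) -
        u * g * (w.c - w'.c) := by ring
    rw [this]
    rw [abs_le] at *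
    push_cast
    constructor <;> linarith [h0.1, h0.2, a1.1, a1.2, a2.1, a2.2, a3.1, a3.2]
  · simp only [Inc.cr, Matrix.cons_val_one, K4, Fin.mk_one, Matrix.cons_val_zero]
    rw [P_change w f f', P_change w' f f', ← hg]
    have a3 : |g * (w.c - w'.c)| ≤ M * (1 / 2) ^ p 1 := by
      rw [abs_mul]
      exact (mul_le_mul hf h2 (abs_nonneg _) (nn _)).trans q12
    have : w.P f - g * w.c - (w'.P f - g * w'.c) = (w.P f - w'.P f) - g * (w.c - w'.c) := by ring
    rw [this]
    rw [abs_le] at *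
    push_cast
    constructor <;> linarith [h1.1, h1.2, a3.1, a3.2]
  · simp only [Inc.cr, K4]
    have : |w.c - w'.c| ≤ ((1:ℕ):ℝ) * (M * (1 / 2) ^ p 2) := by simpa using h2
    simpa using this
  · simp only [Inc.cr, K4]
    have e : |w.X h' - w'.X h'| ≤ ((2:ℕ):ℝ) * (M * (1 / 2) ^ p 3) := by
      rw [X_change w h h', X_change w' h h', ← hu]
      have a3 : |u * (w.c - w'.c)| ≤ M * (1 / 2) ^ p 3 := by
        rw [abs_mul]
        exact (mul_le_mul hh h2 (abs_nonneg _) (nn _)).trans q32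
      have : w.X h + u * w.c - (w'.X h + u * w'.c) = (w.X h - w'.X h) + u * (w.c - w'.c) := by ring
      rw [this]
      rw [abs_le] at *
      push_cast
      constructor <;> linarith [h3.1, h3.2, a3.1, a3.2]
    simpa using e

theorem lab_eq_iff {i j : ℕ} {p : Fin 4 → ℕ} {w w' : Inc} : w.lab i j p = w'.lab i j p ↔
    w.cell i j = w'.cell i j ∧ ∀ k, ⌊(2:ℝ) ^ p k * w.co i j k⌋ = ⌊(2:ℝ) ^ p k * w'.co i j k⌋ := by
  unfold Inc.lab
  rw [Prod.mk.injEq, funext_iff]

/-- fixed cell level: the partitions are exactly nested -/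
theorem lab_nested {i j : ℕ} {p p' : Fin 4 → ℕ} (hp : ∀ k, p k ≤ p' k) {w w' : Inc}
    (h : w.lab i j p' = w'.lab i j p') : w.lab i j p = w'.lab i j p := by
  rw [lab_eq_iff] at h ⊢
  exact ⟨h.1, fun k => floor_nested (hp k) (h.2 k)⟩

/-- same fine class: coarse coordinates are close -/
theorem co_coarse_close {i j i' j' : ℕ} {p p' : Fin 4 → ℕ} (hi : i ≤ i') (hj : j ≤ j')
    (hp : ∀ k, p k ≤ p' k) (hw : Wall i j p) {w w' : Inc} (h : w.lab i' j' p' = w'.lab i' j' p')
    (k : Fin 4) : |w.co i j k - w'.co i j k| ≤ K4 k * (1 / 2) ^ p k := by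
  rw [lab_eq_iff] at h
  refine co_close hi hj hw h.1 (fun k => ?_) k
  exact dist_of_floor (floor_nested (hp k) (h.2 k))

/-- same coarse class, same fine cell: fine coordinates are close -/
theorem co_fine_close {i j i' j' : ℕ} {p : Fin 4 → ℕ} (hi : i ≤ i') (hj : j ≤ j')
    (hw : Wall i j p) {w w' : Inc} (hc : w.cell i' j' = w'.cell i' j')
    (h : w.lab i j p = w'.lab i j p) (k : Fin 4) :
    |w.co i' j' k - w'.co i' j' k| ≤ K4 k * (1 / 2) ^ p k := by
  rw [lab_eq_iff] at h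
  have e1 := zQ_eq hc
  have e2 := fQ_eq hc
  have e3 := zQ_eq h.1
  have e4 := fQ_eq h.1
  have d1 := zQ_dist hi w
  have d2 := fQ_dist hj w
  rw [co_eq_cr, co_eq_cr, ← e1, ← e2]
  have := cr_close (h := w.zQ i) (h' := w.zQ i') (f := w.fQ j) (f' := w.fQ j') (w := w) (w' := w')
    (M := 1) hw (by rw [abs_sub_comm]; exact d1) (by rw [abs_sub_comm]; exact d2)
    (fun k => by
      have := dist_of_floor (h.2 k)
      rw [co_eq_cr, co_eq_cr, ← e3, ← e4] at this
      simpa using this) k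
  simpa using this

/-- the cell of level `i + k` is one of `2^k` children -/
theorem floor_child {i k : ℕ} {x : ℝ} : ⌊(2:ℝ) ^ (i + k) * x⌋ ∈
    Finset.Ico (⌊(2:ℝ) ^ i * x⌋ * 2 ^ k) ((⌊(2:ℝ) ^ i * x⌋ + 1) * 2 ^ k) := by
  rw [Finset.mem_Ico]
  have e : (2:ℝ) ^ (i + k) * x = (2 ^ i * x) * 2 ^ k := by rw [pow_add]; ring
  constructor
  · rw [Int.le_floor]; push_cast
    have := Int.floor_le ((2:ℝ) ^ i * x)
    rw [e]; gcongr
  · rw [Int.floor_lt]; push_cast
    have := Int.lt_floor_add_one ((2:ℝ) ^ i * x)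
    rw [e]; gcongr

/-- product of intervals around a point -/
theorem card_pi_Icc (z : Fin 4 → ℤ) (K : Fin 4 → ℕ) :
    (Fintype.piFinset fun k => Finset.Icc (z k - K k) (z k + K k)).card =
      ∏ k, (2 * K k + 1) := by
  rw [Fintype.card_piFinset]
  refine Finset.prod_congr rfl fun k _ => ?_
  rw [Int.card_Icc]
  have : z k + (K k : ℤ) + 1 - (z k - (K k : ℤ)) = ((2 * K k + 1 : ℕ) : ℤ) := by push_cast; ring
  rw [this, Int.toNat_natCast]

theorem prod_K4 : ∏ k, (2 * K4 k + 1) = 675 := by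
  simp [Fin.prod_univ_four, K4]

/-- counting labels with a fixed cell and close coordinates -/
theorem card_lab_le {ι : Type*} (A : Finset ι) (x : ι → Inc) {i j : ℕ} {p : Fin 4 → ℕ}
    {K : Fin 4 → ℕ} (s : Inc) (hc : ∀ t ∈ A, (x t).cell i j = s.cell i j)
    (h : ∀ t ∈ A, ∀ k, |(x t).co i j k - s.co i j k| ≤ K k * (1 / 2) ^ p k) :
    (A.image fun t => (x t).lab i j p).card ≤ ∏ k, (2 * K k + 1) := by
  classical
  have hsub : (A.image fun t => (x t).lab i j p) ⊆
      (Fintype.piFinset fun k => Finset.Icc (⌊(2:ℝ) ^ p k * s.co i j k⌋ - K k)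
        (⌊(2:ℝ) ^ p k * s.co i j k⌋ + K k)).image fun c => (s.cell i j, c) := by
    intro c hc'
    obtain ⟨t, ht, rfl⟩ := mem_image.1 hc'
    refine mem_image.2 ⟨fun k => ⌊(2:ℝ) ^ p k * (x t).co i j k⌋, ?_, ?_⟩
    · rw [Fintype.mem_piFinset]
      intro k
      have h1 := floor_of_dist (h t ht k)
      rw [abs_le] at h1
      rw [Finset.mem_Icc]
      constructor <;> linarith [h1.1, h1.2]
    · unfold Inc.lab; rw [hc t ht]
  refine (card_le_card hsub).trans (card_image_le.trans (le_of_eq ?_))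
  exact card_pi_Icc (fun k => ⌊(2:ℝ) ^ p k * s.co i j k⌋) K

variable {ι : Type*} [DecidableEq ι]

/-- **(Z2a)** a fine class meets at most `675` coarse classes. -/
theorem card_coarse_le (I : Finset ι) (x : ι → Inc) {i j i' j' : ℕ} {p p' : Fin 4 → ℕ}
    (hi : i ≤ i') (hj : j ≤ j') (hp : ∀ k, p k ≤ p' k) (hw : Wall i j p) (s : ι) :
    ((cls I (fun t => (x t).lab i' j' p') s).image fun t => (x t).lab i j p).card ≤ 675 := by
  rw [← prod_K4]
  refine card_lab_le _ x (x s) (fun t ht => ?_) (fun t ht k => ?_)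
  · have := (mem_cls.1 ht).2
    rw [lab_eq_iff] at this
    exact cell_nested hi hj this.1
  · exact co_coarse_close hi hj hp hw (mem_cls.1 ht).2 k

/-- number of fine cells in a coarse class -/
theorem card_cell_le (A : Finset ι) (x : ι → Inc) {i j i' j' : ℕ} (hi : i ≤ i') (hj : j ≤ j')
    (s : Inc) (hc : ∀ t ∈ A, (x t).cell i j = s.cell i j) :
    (A.image fun t => (x t).cell i' j').card ≤ 2 ^ (i' - i) * 2 ^ (j' - j) := by
  classical
  have hsub : (A.image fun t => (x t).cell i' j') ⊆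
      (Finset.Ico (⌊(2:ℝ) ^ i * s.z⌋ * 2 ^ (i' - i)) ((⌊(2:ℝ) ^ i * s.z⌋ + 1) * 2 ^ (i' - i))) ×ˢ
      (Finset.Ico (⌊(2:ℝ) ^ j * s.θ⌋ * 2 ^ (j' - j)) ((⌊(2:ℝ) ^ j * s.θ⌋ + 1) * 2 ^ (j' - j))) := by
    intro c hc'
    obtain ⟨t, ht, rfl⟩ := mem_image.1 hc'
    have h := hc t ht
    unfold Inc.cell at h
    rw [Prod.mk.injEq] at h
    rw [Finset.mem_product]
    constructor
    · have := floor_child (i := i) (k := i' - i) (x := (x t).z)
      rw [Nat.add_sub_cancel' hi, h.1] at this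
      exact this
    · have := floor_child (i := j) (k := j' - j) (x := (x t).θ)
      rw [Nat.add_sub_cancel' hj, h.2] at this
      exact this
  refine (card_le_card hsub).trans (le_of_eq ?_)
  rw [Finset.card_product, Int.card_Ico, Int.card_Ico]
  have e1 : (⌊(2:ℝ) ^ i * s.z⌋ + 1) * 2 ^ (i' - i) - ⌊(2:ℝ) ^ i * s.z⌋ * 2 ^ (i' - i) =
    ((2 ^ (i' - i) : ℕ) : ℤ) := by push_cast; ring
  have e2 : (⌊(2:ℝ) ^ j * s.θ⌋ + 1) * 2 ^ (j' - j) - ⌊(2:ℝ) ^ j * s.θ⌋ * 2 ^ (j' - j) =
    ((2 ^ (j' - j) : ℕ) : ℤ) := by push_cast; ring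
  rw [e1, e2, Int.toNat_natCast, Int.toNat_natCast]

/-- **(Z2b)** a coarse class contains at most `675 · 2^(level differences)` fine classes. -/
theorem card_fine_le (I : Finset ι) (x : ι → Inc) {i j i' j' : ℕ} {p p' : Fin 4 → ℕ}
    (hi : i ≤ i') (hj : j ≤ j') (hp : ∀ k, p k ≤ p' k) (hw : Wall i j p) (s : ι) :
    ((cls I (fun t => (x t).lab i j p) s).image fun t => (x t).lab i' j' p').card ≤
      675 * 2 ^ ((i' - i) + (j' - j) + ∑ k, (p' k - p k)) := by
  classical
  set A := cls I (fun t => (x t).lab i j p) s with hA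
  have hAl : ∀ t ∈ A, (x t).lab i j p = (x s).lab i j p := fun t ht => (mem_cls.1 ht).2
  have hfib : ∀ a ∈ (A.image fun t => (x t).lab i' j' p').image Prod.fst,
      ((A.image fun t => (x t).lab i' j' p').filter fun c => c.1 = a).card ≤
        675 * 2 ^ (∑ k, (p' k - p k)) := by
    intro a ha
    rw [Finset.image_image] at ha
    obtain ⟨t₀, ht₀, ht₀a⟩ := mem_image.1 ha
    have hsub : ((A.image fun t => (x t).lab i' j' p').filter fun c => c.1 = a) ⊆
        (A.filter fun t => (x t).cell i' j' = a).image fun t => (x t).lab i' j' p' := by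
      intro c hc
      obtain ⟨hc1, hc2⟩ := mem_filter.1 hc
      obtain ⟨t, ht, rfl⟩ := mem_image.1 hc1
      exact mem_image.2 ⟨t, mem_filter.2 ⟨ht, hc2⟩, rfl⟩
    refine (card_le_card hsub).trans ?_
    have h1 := card_lab_le (A.filter fun t => (x t).cell i' j' = a) x (i := i') (j := j') (p := p')
      (K := fun k => K4 k * 2 ^ (p' k - p k)) (x t₀) (fun t ht => by
        have := (mem_filter.1 ht).2
        rw [this]; exact ht₀a.symm)
      (fun t ht k => by
        obtain ⟨ht1, ht2⟩ := mem_filter.1 ht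
        have h2 := co_fine_close hi hj hw (w := x t) (w' := x t₀) (by rw [ht2]; exact ht₀a.symm)
          ((hAl t ht1).trans (hAl t₀ ht₀).symm) k
        refine h2.trans (le_of_eq ?_)
        push_cast
        have e : ((1:ℝ) / 2) ^ p k = 2 ^ (p' k - p k) * (1 / 2) ^ p' k := by
          obtain ⟨m, hm⟩ := Nat.exists_eq_add_of_le (hp k)
          rw [hm, Nat.add_sub_cancel_left, pow_add]
          have : (2:ℝ) ^ m * (1 / 2) ^ m = 1 := by rw [← mul_pow]; norm_num
          calc ((1:ℝ) / 2) ^ p k = (1 / 2) ^ p k * (2 ^ m * (1 / 2) ^ m) := by rw [this, mul_one]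
            _ = _ := by ring
        rw [e]; ring)
    refine h1.trans ?_
    calc ∏ k, (2 * (K4 k * 2 ^ (p' k - p k)) + 1) ≤ ∏ k, ((2 * K4 k + 1) * 2 ^ (p' k - p k)) := by
          refine Finset.prod_le_prod' fun k _ => ?_
          have : 1 ≤ 2 ^ (p' k - p k) := Nat.one_le_two_pow
          nlinarith
      _ = 675 * 2 ^ (∑ k, (p' k - p k)) := by
          rw [Finset.prod_mul_distrib, prod_K4, Finset.prod_pow_eq_pow_sum]
  have h2 := Finset.card_le_mul_card_image (A.image fun t => (x t).lab i' j' p') _ hfib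
  refine h2.trans ?_
  have h3 : ((A.image fun t => (x t).lab i' j' p').image Prod.fst).card ≤
      2 ^ (i' - i) * 2 ^ (j' - j) := by
    rw [Finset.image_image]
    refine card_cell_le A x hi hj (x s) fun t ht => ?_
    exact (lab_eq_iff.1 (hAl t ht)).1
  calc 675 * 2 ^ (∑ k, (p' k - p k)) *
        ((A.image fun t => (x t).lab i' j' p').image Prod.fst).card
      ≤ 675 * 2 ^ (∑ k, (p' k - p k)) * (2 ^ (i' - i) * 2 ^ (j' - j)) :=
        Nat.mul_le_mul_left _ h3
    _ = _ := by rw [pow_add, pow_add]; ring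

/-- **(Z2c)** approximate joins: two incidences in the same class of level `(i, j; p)` (walls) and
in the same class of the finer cell level `(i', j'; q)` are close at `(i', j'; p ⊔ q)`. -/
theorem card_join_le (I : Finset ι) (x : ι → Inc) {i j i' j' : ℕ} {p q : Fin 4 → ℕ}
    (hi : i ≤ i') (hj : j ≤ j') (hw : Wall i j p) (s : ι) :
    (((cls I (fun t => (x t).lab i j p) s) ∩ (cls I (fun t => (x t).lab i' j' q) s)).image
      fun t => (x t).lab i' j' (fun k => max (p k) (q k))).card ≤ 675 := by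
  rw [← prod_K4]
  refine card_lab_le _ x (x s) (fun t ht => ?_) (fun t ht k => ?_)
  · exact (lab_eq_iff.1 (mem_cls.1 (mem_inter.1 ht).2).2).1
  · obtain ⟨h1, h2⟩ := mem_inter.1 ht
    have h3 := (mem_cls.1 h1).2
    have h4 := lab_eq_iff.1 (mem_cls.1 h2).2
    rcases le_total (p k) (q k) with h | h
    · rw [max_eq_right h]
      refine (dist_of_floor (h4.2 k)).trans ?_
      have : (1:ℝ) ≤ K4 k := by
        fin_cases k <;> simp [K4]
      have h5 : (0:ℝ) ≤ (1 / 2) ^ q k := by positivity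
      nlinarith
    · rw [max_eq_left h]
      exact co_fine_close hi hj hw h4.1 h3 k

/-- the walls are stable under joins (the finer cell level on the right) -/
theorem Wall.join {i j i' j' : ℕ} {p q : Fin 4 → ℕ} (hi : i ≤ i') (hj : j ≤ j')
    (hp : Wall i j p) (hq : Wall i' j' q) : Wall i' j' (fun k => max (p k) (q k)) := by
  constructor
  · have := hp.w01; have := hq.w01; omega
  · have := hp.w32; have := hq.w32; omega
  · have := hp.w03; have := hq.w03; omega
  · have := hp.w12; have := hq.w12; omega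

end Crest.Agent.R138.Flg101
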