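import Crest.Agent.R138.Qf1_926
import Crest.Agent.R138.Flg2_101

/-!
# R138: quasi-nested families, second part (helper926)

* `QProf.submod` : supermodularity of the profile from approximate joins;
* `WP` : boxes with linear walls `p a ≤ p b + p c`: compact, closed under suprema, sandwich nets;
* `flab_QFam`, `flab_QJoin` : 101's partitions (flagged cell, grid box) with real exponents.
-/

set_option autoImplicit false
set_option linter.unusedSectionVars false
set_option linter.unusedVariables false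

open Filter Topology MeasureTheory
open scoped NNReal

namespace Crest.Agent.R138.Ex926

open Finset

variable {B : Base} {ι κ : ℕ → Type*} [∀ n, DecidableEq (ι n)] [∀ n, DecidableEq (κ n)] {m : ℕ}

/-- some class is as big as the profile says -/
theorem QProf.ev_big {V : Type*} [LE V] {I : ∀ n, Finset (ι n)} {f : ∀ n, V → ι n → κ n}
    {P : Set V} {ν : V → ℝ} (hν : QProf B I f P ν)
    (hne : ∀ᶠ n in (U : Filter ℕ), (I n).Nonempty) {ε : ℝ} (hε : 0 < ε) :
    ∀ᶠ n in (U : Filter ℕ), ∀ p ∈ P, ∃ i ∈ I n,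
      (ν p - ε) * B.L n ≤ Real.log ((cls (I n) (f n p) i).card) := by
  filter_upwards [hν.root ε hε, hne] with n h1 h2 p hp
  by_contra hcon
  push Not at hcon
  obtain ⟨i₀, hi₀⟩ := h2
  have h3 := h1 p hp
  have hlt : ∀ i ∈ I n, ((cls (I n) (f n p) i).card : ℝ) < Real.exp ((ν p - ε) * B.L n) := by
    intro i hi
    rw [← Real.log_lt_iff_lt_exp (by linarith [cls_card_pos (f := f n p) hi])]
    exact hcon i hi
  have h5 := card_eq_sum_card_image (f n p) (I n)
  have hI : ((I n).card : ℝ) < ((I n).image (f n p)).card * Real.exp ((ν p - ε) * B.L n) := by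
    have h6 : ((I n).card : ℝ) = ∑ b ∈ (I n).image (f n p), (((I n).filter fun x => f n p x = b).card : ℝ) := by
      exact_mod_cast h5
    rw [h6, ← nsmul_eq_mul, ← sum_const]
    refine sum_lt_sum_of_nonempty ⟨_, mem_image_of_mem _ hi₀⟩ fun b hb => ?_
    obtain ⟨x, hx, rfl⟩ := mem_image.1 hb
    exact hlt x hx
  have h7 : B.d n ^ (ν p - ε) = Real.exp (-((ν p - ε) * B.L n)) := by
    rw [show B.d n ^ (ν p - ε) = B.d n ^ (-(-(ν p - ε))) by rw [neg_neg], ← B.exp_eq]
    congr 1; ring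
  rw [h7] at h3
  have h8 : (((I n).image (f n p)).card : ℝ) * Real.exp ((ν p - ε) * B.L n) ≤ (I n).card := by
    calc _ ≤ (((I n).card : ℝ) * Real.exp (-((ν p - ε) * B.L n))) *
          Real.exp ((ν p - ε) * B.L n) := mul_le_mul_of_nonneg_right h3 (Real.exp_pos _).le
      _ = (I n).card := by rw [mul_assoc, ← Real.exp_add]; simp
  linarith

/-- **supermodularity of the profile** -/
theorem QProf.submod {I : ∀ n, Finset (ι n)} {f : ∀ n, (Fin m → ℝ) → ι n → κ n}
    {P : Set (Fin m → ℝ)} {ν : (Fin m → ℝ) → ℝ} (hν : QProf B I f P ν) (hJ : QJoin B I f P)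
    (hne : ∀ᶠ n in (U : Filter ℕ), (I n).Nonempty) {p q : Fin m → ℝ} (hp : p ∈ P) (hq : q ∈ P)
    (ho : p ⊓ q ∈ P) (hr : p ⊔ q ∈ P) : ν p + ν q ≤ ν (p ⊔ q) + ν (p ⊓ q) := by
  classical
  refine le_of_forall_pos_le_add fun ε hε => ?_
  obtain ⟨N, hN, hj⟩ := hJ
  have hε5 : 0 < ε / 5 := by positivity
  obtain ⟨n, h1, h2, h3, h4, h5⟩ := (((hν.ev_big hne hε5).and ((hν.up _ hε5).and
    ((hν.num _ hε5).and (hj.and (hN.ev_le hε5))))).exists)
  obtain ⟨i, hi, hbig⟩ := h1 _ ho
  have hL := B.L_pos n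
  set A := cls (I n) (f n (p ⊓ q)) i with hA
  have hiA : i ∈ A := self_mem_cls hi
  -- number of r-classes
  have c1 : ((A.image (f n (p ⊔ q))).card : ℝ) ≤
      N n * (A.image (fun x => (f n p x, f n q x))).card := by
    refine card_image_le_mul _ _ _ fun x hx => ?_
    have x1 := (mem_cls.1 hx).1
    refine le_trans ?_ (h4 p hp q hq x x1)
    have hs : cls A (fun x => (f n p x, f n q x)) x ⊆
        cls (I n) (f n p) x ∩ cls (I n) (f n q) x := by
      intro y hy
      obtain ⟨y1, y2⟩ := mem_cls.1 hy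
      rw [Prod.mk.injEq] at y2
      have y3 := (mem_cls.1 y1).1
      exact mem_inter.2 ⟨mem_cls.2 ⟨y3, y2.1⟩, mem_cls.2 ⟨y3, y2.2⟩⟩
    exact_mod_cast card_le_card (image_subset_image hs)
  have c2 : ((A.image (fun x => (f n p x, f n q x))).card : ℝ) ≤
      (A.image (f n p)).card * (A.image (f n q)).card := by
    have hs : A.image (fun x => (f n p x, f n q x)) ⊆ (A.image (f n p)) ×ˢ (A.image (f n q)) := by
      intro y hy
      obtain ⟨x, hx, rfl⟩ := mem_image.1 hy
      exact mem_product.2 ⟨mem_image_of_mem _ hx, mem_image_of_mem _ hx⟩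
    have := card_le_card hs
    rw [card_product] at this
    exact_mod_cast this
  have c3 : (A.card : ℝ) ≤ B.d n ^ (-(ν (p ⊔ q) + ε / 5)) * (A.image (f n (p ⊔ q))).card := by
    have := le_count_mul A (fun _ => (1 : ℝ)) (f n (p ⊔ q))
      (m := B.d n ^ (-(ν (p ⊔ q) + ε / 5))) (fun x hx => by
        rw [sum_const, nsmul_eq_mul, mul_one]
        refine le_trans ?_ (h2 _ hr x (mem_cls.1 hx).1)
        exact_mod_cast card_le_card (cls_mono (cls_subset _ _ _) _ _))
    rwa [sum_const, nsmul_eq_mul, mul_one] at this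
  have c4 := h3 _ ho p hp inf_le_left i hi
  have c5 := h3 _ ho q hq inf_le_right i hi
  have hpos : ∀ t : ℝ, 0 < B.d n ^ t := fun t => Real.rpow_pos_of_pos (B.pos n) t
  have himg : ∀ {α : Type _} [DecidableEq α] (g : ι n → α), (1 : ℝ) ≤ (A.image g).card := by
    intro α _ g
    have : 0 < (A.image g).card := card_pos.2 ⟨_, mem_image_of_mem _ hiA⟩
    exact_mod_cast this
  have hA1 : (1 : ℝ) ≤ A.card := cls_card_pos hi
  have hlogd : ∀ t : ℝ, Real.log (B.d n ^ (-t)) = t * B.L n := by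
    intro t; rw [Real.log_rpow (B.pos n), B.log_d]; ring
  have i1 := himg (f n (p ⊔ q))
  have i2 := himg (fun x => (f n p x, f n q x))
  have i3 := himg (f n p)
  have i4 := himg (f n q)
  have l1 := Real.log_le_log (by linarith) c1
  rw [Real.log_mul h5.1.ne' (by linarith)] at l1
  have l2 := Real.log_le_log (by linarith) c2
  rw [Real.log_mul (by linarith) (by linarith)] at l2
  have l3 := Real.log_le_log (by linarith) c3
  rw [Real.log_mul (hpos _).ne' (by linarith), hlogd] at l3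
  have l4 := Real.log_le_log (by linarith) c4
  rw [hlogd] at l4
  have l5 := Real.log_le_log (by linarith) c5
  rw [hlogd] at l5
  have l6 := h5.2
  have : (ν p + ν q) * B.L n ≤ (ν (p ⊔ q) + ν (p ⊓ q) + ε) * B.L n := by linarith
  exact le_of_mul_le_mul_right this hL

/-! ### boxes with linear walls -/

/-- exponents in `[0, M]` satisfying the walls `p a ≤ p b + p c`, `(a, b, c) ∈ W` -/
def WP {m : ℕ} (W : Set (Fin m × Fin m × Fin m)) (M : ℝ) : Set (Fin m → ℝ) :=
  {p | (∀ a, 0 ≤ p a ∧ p a ≤ M) ∧ ∀ w ∈ W, p w.1 ≤ p w.2.1 + p w.2.2}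

theorem WP.isCompact (W : Set (Fin m × Fin m × Fin m)) (M : ℝ) : IsCompact (WP W M) := by
  have h1 : WP W M ⊆ Set.Icc 0 (fun _ => M) := fun p hp =>
    ⟨fun a => (hp.1 a).1, fun a => (hp.1 a).2⟩
  refine isCompact_Icc.of_isClosed_subset ?_ h1
  have h2 : WP W M = Set.Icc 0 (fun _ => M) ∩ ⋂ w ∈ W, {p | p w.1 ≤ p w.2.1 + p w.2.2} := by
    ext p
    simp only [WP, Set.mem_ofPred_eq, Set.mem_inter_iff, Set.mem_Icc, Set.mem_iInter, Pi.le_def,
      Pi.zero_apply]
    constructor
    · rintro ⟨a, b⟩; exact ⟨⟨fun i => (a i).1, fun i => (a i).2⟩, b⟩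
    · rintro ⟨⟨a, a'⟩, b⟩; exact ⟨fun i => ⟨a i, a' i⟩, b⟩
  rw [h2]
  refine isClosed_Icc.inter (isClosed_biInter fun w _ => ?_)
  exact isClosed_le (by fun_prop) (by fun_prop)

theorem WP.sup (W : Set (Fin m × Fin m × Fin m)) (M : ℝ) :
    ∀ p ∈ WP W M, ∀ q ∈ WP W M, p ⊔ q ∈ WP W M := by
  intro p hp q hq
  refine ⟨fun a => ⟨le_sup_of_le_left (hp.1 a).1, sup_le (hp.1 a).2 (hq.1 a).2⟩, fun w hw => ?_⟩
  simp only [Pi.sup_apply]
  refine sup_le ((hp.2 w hw).trans ?_) ((hq.2 w hw).trans ?_)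
  · exact add_le_add le_sup_left le_sup_left
  · exact add_le_add le_sup_right le_sup_right

theorem WP.snet (W : Set (Fin m × Fin m × Fin m)) (M : ℝ) (u : Fin m → ℝ) (hu : ∀ a, 0 < u a)
    (hw : ∀ w ∈ W, u w.2.1 + u w.2.2 ≤ u w.1) : SNet (WP W M) := by
  classical
  intro ε hε
  set t : ℝ := ε / (2 * (‖u‖ + 1)) with ht
  have hn := norm_nonneg u
  have ht0 : 0 < t := by positivity
  have htu : t + t * ‖u‖ ≤ ε := by
    have : t * (2 * (‖u‖ + 1)) = ε := by rw [ht]; field_simp
    nlinarith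
  set lo : (Fin m → ℝ) → (Fin m → ℝ) := fun p a => max (p a - t * u a) 0 with hlo
  set hi : (Fin m → ℝ) → (Fin m → ℝ) := fun p a => min (p a + t) M with hhi
  have hloP : ∀ p ∈ WP W M, lo p ∈ WP W M := by
    intro p hp
    refine ⟨fun a => ⟨le_max_right _ _, max_le ?_ ((hp.1 a).1.trans (hp.1 a).2)⟩, fun w hw' => ?_⟩
    · have := hu a; have := (hp.1 a).2; nlinarith
    · simp only [hlo]
      refine max_le ?_ (add_nonneg (le_max_right _ _) (le_max_right _ _))
      have e1 := le_max_left (p w.2.1 - t * u w.2.1) 0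
      have e2 := le_max_left (p w.2.2 - t * u w.2.2) 0
      have e3 := hp.2 w hw'
      have e4 := mul_le_mul_of_nonneg_left (hw w hw') ht0.le
      linarith
  have hhiP : ∀ p ∈ WP W M, hi p ∈ WP W M := by
    intro p hp
    have hb : ∀ a, 0 ≤ min (p a + t) M := fun a =>
      le_min (by linarith [(hp.1 a).1]) ((hp.1 a).1.trans (hp.1 a).2)
    refine ⟨fun a => ⟨hb a, min_le_right _ _⟩, fun w hw' => ?_⟩
    simp only [hhi]
    have b1 := hb w.2.1
    have b2 := hb w.2.2
    have e3 := hp.2 w hw'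
    rcases le_total (p w.2.1 + t) M with h1 | h1
    · rcases le_total (p w.2.2 + t) M with h2 | h2
      · rw [min_eq_left h1, min_eq_left h2]
        exact (min_le_left _ _).trans (by linarith)
      · rw [min_eq_right h2]
        exact (min_le_right _ _).trans (by linarith)
    · rw [min_eq_right h1]
      exact (min_le_right _ _).trans (by linarith)
  have hcov : ∀ p ∈ WP W M, {p' : Fin m → ℝ | ∀ a, p a - t * u a < p' a ∧ p' a < p a + t} ∈
      𝓝[WP W M] p := by
    intro p hp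
    refine mem_nhdsWithin_of_mem_nhds ?_
    have : {p' : Fin m → ℝ | ∀ a, p a - t * u a < p' a ∧ p' a < p a + t} =
        Set.pi Set.univ fun a => Set.Ioo (p a - t * u a) (p a + t) := by
      ext p'; simp [Set.mem_pi]
    rw [this]
    refine set_pi_mem_nhds Set.finite_univ fun a _ => Ioo_mem_nhds ?_ (by linarith)
    have := mul_pos ht0 (hu a)
    linarith
  obtain ⟨T, hT, hTc⟩ := (WP.isCompact W M).elim_nhdsWithin_subcover _ hcov
  refine ⟨T.image lo ∪ T.image hi, ?_, ?_⟩
  · intro q hq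
    rcases mem_union.1 hq with h | h
    · obtain ⟨p, hp, rfl⟩ := mem_image.1 h; exact hloP p (hT p hp)
    · obtain ⟨p, hp, rfl⟩ := mem_image.1 h; exact hhiP p (hT p hp)
  · intro p' hp'
    obtain ⟨p, hp, hpp⟩ := Set.mem_iUnion₂.1 (hTc hp')
    refine ⟨lo p, mem_union_left _ (mem_image_of_mem _ hp), hi p,
      mem_union_right _ (mem_image_of_mem _ hp), fun a => ?_, fun a => ?_, ?_⟩
    · exact max_le (hpp a).1.le (hp'.1 a).1
    · exact le_min (hpp a).2.le (hp'.1 a).2
    · refine (pi_norm_le_iff_of_nonneg hε.le).2 fun a => ?_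
      rw [Pi.sub_apply, Real.norm_eq_abs]
      have hpa := (hT p hp).1 a
      have u1 : u a ≤ ‖u‖ := by
        have := norm_le_pi_norm u a
        rw [Real.norm_eq_abs] at this
        exact (le_abs_self _).trans this
      have u2 := mul_le_mul_of_nonneg_left u1 ht0.le
      have u3 := mul_pos ht0 (hu a)
      have e1 : lo p a ≤ p a := max_le (by linarith) hpa.1
      have e2 : p a ≤ hi p a := le_min (by linarith) hpa.2
      have e3 : p a - t * u a ≤ lo p a := le_max_left _ _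
      have e4 : hi p a ≤ p a + t := min_le_left _ _
      rw [abs_of_nonneg (by linarith)]
      linarith

/-- the walls of the flagged cells: `p0 ≤ p1 + p4`, `p3 ≤ p2 + p4`, `p0 ≤ p5 + p3`,
`p1 ≤ p5 + p2` (`p4` = height level, `p5` = slope level) -/
def W6 : Set (Fin 6 × Fin 6 × Fin 6) := {(0, 1, 4), (3, 2, 4), (0, 5, 3), (1, 5, 2)}

/-- the legal region -/
def LEG (M : ℝ) : Set (Fin 6 → ℝ) := WP W6 M

theorem mem_LEG {M : ℝ} {p : Fin 6 → ℝ} : p ∈ LEG M ↔ (∀ a, 0 ≤ p a ∧ p a ≤ M) ∧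
    p 0 ≤ p 1 + p 4 ∧ p 3 ≤ p 2 + p 4 ∧ p 0 ≤ p 5 + p 3 ∧ p 1 ≤ p 5 + p 2 := by
  simp [LEG, WP, W6]

theorem LEG.isCompact (M : ℝ) : IsCompact (LEG M) := WP.isCompact _ _

theorem LEG.sup (M : ℝ) : ∀ p ∈ LEG M, ∀ q ∈ LEG M, p ⊔ q ∈ LEG M := WP.sup _ _

theorem LEG.snet (M : ℝ) : SNet (LEG M) := by
  refine WP.snet _ _ ![3, 2, 1, 2, 1, 1] (fun a => ?_) (fun w hw => ?_)
  · fin_cases a <;> norm_num
  · simp only [W6, Set.mem_insert_iff, Set.mem_singleton_iff] at hw
    rcases hw with rfl | rfl | rfl | rfl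
    · show (2 : ℝ) + 1 ≤ 3; norm_num
    · show (1 : ℝ) + 1 ≤ 2; norm_num
    · show (1 : ℝ) + 2 ≤ 3; norm_num
    · show (1 : ℝ) + 1 ≤ 2; norm_num

/-! ### 101's partitions with real exponents -/

open Flg101

/-- dyadic level of the scale `d ^ t`, rounded up -/
noncomputable def Base.levc (B : Base) (n : ℕ) (t : ℝ) : ℕ := ⌈t * B.L n / Real.log 2⌉₊

theorem Base.levc_mono (B : Base) (n : ℕ) : Monotone (B.levc n) := by
  intro s t h
  refine Nat.ceil_mono ?_
  have hL := B.L_pos n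
  have : 0 < Real.log 2 := Real.log_pos (by norm_num)
  gcongr

theorem Base.le_pow_levc (B : Base) (n : ℕ) (t : ℝ) : B.d n ^ (-t) ≤ 2 ^ (B.levc n t) := by
  have hl2 : 0 < Real.log 2 := Real.log_pos (by norm_num)
  have h3 : t * B.L n / Real.log 2 ≤ ((B.levc n t : ℕ) : ℝ) := Nat.le_ceil _
  rw [div_le_iff₀ hl2] at h3
  rw [← B.exp_eq]
  have h6 : (2 : ℝ) ^ (B.levc n t) = Real.exp (((B.levc n t : ℕ) : ℝ) * Real.log 2) := by
    rw [← Real.rpow_natCast, Real.rpow_def_of_pos (by norm_num), mul_comm]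
  rw [h6]
  exact Real.exp_le_exp.2 h3

theorem Base.pow_levc_le (B : Base) (n : ℕ) {t : ℝ} (ht : 0 ≤ t) :
    (2 : ℝ) ^ (B.levc n t) ≤ 2 * B.d n ^ (-t) := by
  have hl2 : 0 < Real.log 2 := Real.log_pos (by norm_num)
  have hL := B.L_pos n
  have h3 : ((B.levc n t : ℕ) : ℝ) < t * B.L n / Real.log 2 + 1 := Nat.ceil_lt_add_one (by positivity)
  have h4 : (((B.levc n t : ℕ) : ℝ) - 1) * Real.log 2 ≤ t * B.L n := by
    rw [← le_div_iff₀ hl2]; linarith
  rw [← B.exp_eq]
  have h6 : (2 : ℝ) ^ (B.levc n t) = Real.exp (((B.levc n t : ℕ) : ℝ) * Real.log 2) := by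
    rw [← Real.rpow_natCast, Real.rpow_def_of_pos (by norm_num), mul_comm]
  have h7 : (2 : ℝ) * Real.exp (t * B.L n) = Real.exp (Real.log 2 + t * B.L n) := by
    rw [Real.exp_add, Real.exp_log (by norm_num)]
  rw [h6, h7]
  exact Real.exp_le_exp.2 (by linarith)

/-- the four integer levels of the box -/
noncomputable def vlev (B : Base) (n : ℕ) (p : Fin 6 → ℝ) : Fin 4 → ℕ :=
  ![B.lev n (p 0), B.levc n (p 1), B.levc n (p 2), B.lev n (p 3)]

/-- 101's partition (flagged cell, grid box) with real exponents -/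
noncomputable def flab (B : Base) {ι : ℕ → Type*} (x : ∀ n, ι n → Inc) (n : ℕ) (p : Fin 6 → ℝ)
    (i : ι n) : (ℤ × ℤ) × (Fin 4 → ℤ) :=
  (x n i).lab (B.levc n (p 4)) (B.levc n (p 5)) (vlev B n p)

theorem wall_of_LEG {M : ℝ} (B : Base) (n : ℕ) {p : Fin 6 → ℝ} (hp : p ∈ LEG M) :
    Wall (B.levc n (p 4)) (B.levc n (p 5)) (vlev B n p) := by
  obtain ⟨h0, w1, w2, w3, w4⟩ := mem_LEG.1 hp
  have hl2 : 0 < Real.log 2 := Real.log_pos (by norm_num)
  have hL := B.L_pos n
  have hu : ∀ a, p a * B.L n / Real.log 2 ≤ (B.levc n (p a) : ℝ) := fun a => Nat.le_ceil _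
  have hd : ∀ a, (B.lev n (p a) : ℝ) ≤ p a * B.L n / Real.log 2 := fun a =>
    Nat.floor_le (by have := (h0 a).1; positivity)
  have hw : ∀ a b c, p a ≤ p b + p c → p a * B.L n / Real.log 2 ≤
      p b * B.L n / Real.log 2 + p c * B.L n / Real.log 2 := by
    intro a b c h
    rw [← add_div, ← add_mul]
    gcongr
  constructor
  · show B.lev n (p 0) ≤ B.levc n (p 1) + B.levc n (p 4)
    have : (B.lev n (p 0) : ℝ) ≤ (B.levc n (p 1) : ℝ) + B.levc n (p 4) := by
      linarith [hd 0, hu 1, hu 4, hw 0 1 4 w1]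
    exact_mod_cast this
  · show B.lev n (p 3) ≤ B.levc n (p 2) + B.levc n (p 4)
    have : (B.lev n (p 3) : ℝ) ≤ (B.levc n (p 2) : ℝ) + B.levc n (p 4) := by
      linarith [hd 3, hu 2, hu 4, hw 3 2 4 w2]
    exact_mod_cast this
  · show B.lev n (p 0) ≤ B.levc n (p 5) + B.lev n (p 3)
    have h1 : (B.lev n (p 0) : ℝ) < (B.levc n (p 5) : ℝ) + B.lev n (p 3) + 1 := by
      have h2 : p 3 * B.L n / Real.log 2 < (B.lev n (p 3) : ℝ) + 1 := Nat.lt_floor_add_one _
      linarith [hd 0, hu 5, hw 0 5 3 w3]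
    have : B.lev n (p 0) < B.levc n (p 5) + B.lev n (p 3) + 1 := by exact_mod_cast h1
    omega
  · show B.levc n (p 1) ≤ B.levc n (p 5) + B.levc n (p 2)
    have : p 1 * B.L n / Real.log 2 ≤ ((B.levc n (p 5) + B.levc n (p 2) : ℕ) : ℝ) := by
      push_cast
      linarith [hu 5, hu 2, hw 1 5 2 w4]
    exact Nat.ceil_le.2 this

section TwoStep

variable {α : Type*} [DecidableEq α]

theorem prod_K4' : ∏ k, (2 * (K4 k + 1) + 1) = 2695 := by
  simp [Fin.prod_univ_four, K4]

/-- **(Z2a')** two-step nestedness -/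
theorem card_two_le (I : Finset α) (x : α → Inc) {i j i' j' : ℕ} {p p' : Fin 4 → ℕ}
    (hi : i ≤ i') (hj : j ≤ j') (hp : ∀ k, p k ≤ p' k) (hw : Wall i j p) (s : α) :
    ((two I (fun t => (x t).lab i j p) (fun t => (x t).lab i' j' p') s).image
      fun t => (x t).lab i j p).card ≤ 2695 := by
  rw [← prod_K4']
  refine card_lab_le (K := fun k => K4 k + 1) _ x (x s) (fun t ht => ?_) (fun t ht k => ?_)
  · obtain ⟨-, y, -, hy, hty⟩ := mem_two.1 ht
    exact (cell_nested hi hj (lab_eq_iff.1 hty).1).trans (lab_eq_iff.1 hy).1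
  · obtain ⟨-, y, -, hy, hty⟩ := mem_two.1 ht
    have h1 := co_coarse_close hi hj hp hw hty k
    have h2 := dist_of_floor ((lab_eq_iff.1 hy).2 k)
    push_cast
    calc |(x t).co i j k - (x s).co i j k| ≤ |(x t).co i j k - (x y).co i j k| +
          |(x y).co i j k - (x s).co i j k| := abs_sub_le _ _ _
      _ ≤ K4 k * (1 / 2) ^ p k + (1 / 2) ^ p k := add_le_add h1 h2
      _ = _ := by ring

/-- **(Z2c')** joins of two arbitrary legal classes -/
theorem card_join_le' (I : Finset α) (x : α → Inc) {i j i' j' : ℕ} {p q : Fin 4 → ℕ}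
    (hw : Wall i j p) (hw' : Wall i' j' q) (s : α) :
    (((cls I (fun t => (x t).lab i j p) s) ∩ (cls I (fun t => (x t).lab i' j' q) s)).image
      fun t => (x t).lab (max i i') (max j j') (fun k => max (p k) (q k))).card ≤ 675 := by
  rw [← prod_K4]
  have hcell : ∀ t ∈ ((cls I (fun t => (x t).lab i j p) s) ∩
      (cls I (fun t => (x t).lab i' j' q) s)),
      (x t).cell (max i i') (max j j') = (x s).cell (max i i') (max j j') := by
    intro t ht
    obtain ⟨h1, h2⟩ := mem_inter.1 ht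
    have e1 := (lab_eq_iff.1 (mem_cls.1 h1).2).1
    have e2 := (lab_eq_iff.1 (mem_cls.1 h2).2).1
    unfold Inc.cell at e1 e2 ⊢
    rw [Prod.mk.injEq] at e1 e2 ⊢
    constructor
    · rcases le_total i i' with h | h
      · rw [max_eq_right h]; exact e2.1
      · rw [max_eq_left h]; exact e1.1
    · rcases le_total j j' with h | h
      · rw [max_eq_right h]; exact e2.2
      · rw [max_eq_left h]; exact e1.2
  refine card_lab_le _ x (x s) hcell (fun t ht k => ?_)
  obtain ⟨h1, h2⟩ := mem_inter.1 ht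
  have a1 := co_fine_close (le_max_left i i') (le_max_left j j') hw (hcell t ht) (mem_cls.1 h1).2 k
  have a2 := co_fine_close (le_max_right i i') (le_max_right j j') hw' (hcell t ht)
    (mem_cls.1 h2).2 k
  rcases le_total (p k) (q k) with h | h
  · rw [max_eq_right h]; exact a2
  · rw [max_eq_left h]; exact a1

end TwoStep

theorem flab_QFam (B : Base) {ι : ℕ → Type*} [∀ n, DecidableEq (ι n)] (I : ∀ n, Finset (ι n))
    (x : ∀ n, ι n → Inc) (M : ℝ) : QFam B I (flab B x) 6 (LEG M) where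
  nest := by
    refine ⟨fun _ => 2695, ?_, Eventually.of_forall fun n p hp p' hp' hpp i hi => ?_⟩
    · exact Base.Sub.const (by norm_num)
    · have h := card_two_le (I n) (x n) (B.levc_mono n (hpp 4)) (B.levc_mono n (hpp 5))
        (p := vlev B n p) (p' := vlev B n p') (fun k => by
          fin_cases k
          · exact B.lev_mono n (hpp 0)
          · exact B.levc_mono n (hpp 1)
          · exact B.levc_mono n (hpp 2)
          · exact B.lev_mono n (hpp 3)) (wall_of_LEG B n hp) i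
      have h' : ((two (I n) (flab B x n p) (flab B x n p') i).image (flab B x n p)).card ≤ 2695 := h
      show (_ : ℝ) ≤ (2695 : ℝ)
      exact_mod_cast h'
  child := fun ε hε => by
    have hl2 : 0 < Real.log 2 := Real.log_pos (by norm_num)
    filter_upwards [B.ev_const_log (Real.log 675 + 6 * Real.log 2) hε] with n hn p hp p' hp' hpp i hi
    have hL := B.L_pos n
    have h := card_fine_le (I n) (x n) (B.levc_mono n (hpp 4)) (B.levc_mono n (hpp 5))
        (p := vlev B n p) (p' := vlev B n p') (fun k => by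
          fin_cases k
          · exact B.lev_mono n (hpp 0)
          · exact B.levc_mono n (hpp 1)
          · exact B.levc_mono n (hpp 2)
          · exact B.lev_mono n (hpp 3)) (wall_of_LEG B n hp) i
    have h' : (((cls (I n) (flab B x n p) i).image (flab B x n p')).card : ℝ) ≤
        675 * 2 ^ ((B.levc n (p' 4) - B.levc n (p 4)) + (B.levc n (p' 5) - B.levc n (p 5)) +
          ∑ k, (vlev B n p' k - vlev B n p k)) := by exact_mod_cast h
    refine h'.trans ?_
    have hpd : ∀ a, p' a - p a ≤ ‖p' - p‖ := fun a => by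
      have := norm_le_pi_norm (p' - p) a
      rw [Pi.sub_apply, Real.norm_eq_abs] at this
      exact (le_abs_self _).trans this
    have hup : ∀ a, ((B.levc n (p' a) - B.levc n (p a) : ℕ) : ℝ) * Real.log 2 ≤
        ‖p' - p‖ * B.L n + Real.log 2 := by
      intro a
      rw [Nat.cast_sub (B.levc_mono n (hpp a))]
      have p0 : 0 ≤ p' a := ((mem_LEG.1 hp').1 a).1
      have e1 : ((B.levc n (p' a) : ℕ) : ℝ) < p' a * B.L n / Real.log 2 + 1 :=
        Nat.ceil_lt_add_one (by positivity)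
      have e2 : p a * B.L n / Real.log 2 ≤ ((B.levc n (p a) : ℕ) : ℝ) := Nat.le_ceil _
      have e3 : p' a * B.L n / Real.log 2 * Real.log 2 = p' a * B.L n := by field_simp
      have e4 : p a * B.L n / Real.log 2 * Real.log 2 = p a * B.L n := by field_simp
      have e5 := hpd a
      nlinarith
    have hdn : ∀ a, ((B.lev n (p' a) - B.lev n (p a) : ℕ) : ℝ) * Real.log 2 ≤
        ‖p' - p‖ * B.L n + Real.log 2 := by
      intro a
      rw [Nat.cast_sub (B.lev_mono n (hpp a))]
      have p0 : 0 ≤ p' a := ((mem_LEG.1 hp').1 a).1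
      have e1 : ((B.lev n (p' a) : ℕ) : ℝ) ≤ p' a * B.L n / Real.log 2 := Nat.floor_le (by positivity)
      have e2 : p a * B.L n / Real.log 2 < ((B.lev n (p a) : ℕ) : ℝ) + 1 := Nat.lt_floor_add_one _
      have e3 : p' a * B.L n / Real.log 2 * Real.log 2 = p' a * B.L n := by field_simp
      have e4 : p a * B.L n / Real.log 2 * Real.log 2 = p a * B.L n := by field_simp
      have e5 := hpd a
      nlinarith
    have h2 : (2 : ℝ) ^ ((B.levc n (p' 4) - B.levc n (p 4)) + (B.levc n (p' 5) - B.levc n (p 5)) +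
          ∑ k, (vlev B n p' k - vlev B n p k)) = Real.exp
        ((((B.levc n (p' 4) - B.levc n (p 4)) + (B.levc n (p' 5) - B.levc n (p 5)) +
          ∑ k, (vlev B n p' k - vlev B n p k) : ℕ) : ℝ) * Real.log 2) := by
      rw [← Real.rpow_natCast, Real.rpow_def_of_pos (by norm_num), mul_comm]
    rw [h2, ← B.exp_eq, ← Real.exp_log (show (0:ℝ) < 675 by norm_num), ← Real.exp_add]
    refine Real.exp_le_exp.2 ?_
    rw [Fin.sum_univ_four]
    have s0 := hdn 0
    have s1 := hup 1
    have s2 := hup 2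
    have s3 := hdn 3
    have s4 := hup 4
    have s5 := hup 5
    have v0 : vlev B n p' 0 - vlev B n p 0 = B.lev n (p' 0) - B.lev n (p 0) := rfl
    have v1 : vlev B n p' 1 - vlev B n p 1 = B.levc n (p' 1) - B.levc n (p 1) := rfl
    have v2 : vlev B n p' 2 - vlev B n p 2 = B.levc n (p' 2) - B.levc n (p 2) := rfl
    have v3 : vlev B n p' 3 - vlev B n p 3 = B.lev n (p' 3) - B.lev n (p 3) := rfl
    rw [v0, v1, v2, v3]
    rw [Nat.cast_add, Nat.cast_add, Nat.cast_add, Nat.cast_add, Nat.cast_add]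
    nlinarith

theorem flab_QJoin (B : Base) {ι : ℕ → Type*} [∀ n, DecidableEq (ι n)] (I : ∀ n, Finset (ι n))
    (x : ∀ n, ι n → Inc) (M : ℝ) : QJoin B I (flab B x) (LEG M) := by
  refine ⟨fun _ => 675, ?_, Eventually.of_forall fun n p hp q hq i hi => ?_⟩
  · exact Base.Sub.const (by norm_num)
  · have h := card_join_le' (I n) (x n) (wall_of_LEG B n hp) (wall_of_LEG B n hq) i
    have e : (fun t => (x n t).lab (max (B.levc n (p 4)) (B.levc n (q 4)))
        (max (B.levc n (p 5)) (B.levc n (q 5))) (fun k => max (vlev B n p k) (vlev B n q k))) =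
        flab B x n (p ⊔ q) := by
      funext t
      simp only [flab, Pi.sup_apply]
      rw [(B.levc_mono n).map_sup, (B.levc_mono n).map_sup]
      congr 1
      funext k
      fin_cases k
      · exact ((B.lev_mono n).map_sup (p 0) (q 0)).symm
      · exact ((B.levc_mono n).map_sup (p 1) (q 1)).symm
      · exact ((B.levc_mono n).map_sup (p 2) (q 2)).symm
      · exact ((B.lev_mono n).map_sup (p 3) (q 3)).symm
    rw [e] at h
    have h' : ((cls (I n) (flab B x n p) i ∩ cls (I n) (flab B x n q) i).image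
      (flab B x n (p ⊔ q))).card ≤ 675 := h
    show (_ : ℝ) ≤ (675 : ℝ)
    exact_mod_cast h'

end Crest.Agent.R138.Ex926
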