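import Crest.Agent.R138.Bil4_882

set_option autoImplicit false

open MeasureTheory SchwartzMap FourierTransform
open scoped FourierTransform SchwartzMap ENNReal Convolution

namespace Crest.Agent.R138.Bil882

open Crest.Agent.R138.Defs (E2 ee ext Par)

/-- the gradient is close to the identity. -/
def NearId (h : E2 → ℝ) (c0 : ℝ) : Prop :=
  ∀ ξ η : E2, ‖(gradient h ξ - gradient h η) - (ξ - η)‖ ≤ c0 * ‖ξ - η‖

theorem mvt {h : E2 → ℝ} (hd : Differentiable ℝ h) (a b : E2) :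
    ∃ θ ∈ Set.Icc (0:ℝ) 1, h b - h a = inner ℝ (gradient h (a + θ • (b - a))) (b - a) := by
  let φ : ℝ → ℝ := fun θ => h (a + θ • (b - a))
  have hφ : ∀ θ, HasDerivAt φ (inner ℝ (gradient h (a + θ • (b - a))) (b - a)) θ := by
    intro θ
    have h1 := (hd (a + θ • (b - a))).hasGradientAt.hasFDerivAt
    have h2 : HasDerivAt (fun θ : ℝ => a + θ • (b - a)) (b - a) θ := by
      simpa using ((hasDerivAt_id θ).smul_const (b - a)).const_add a
    have h3 := h1.comp_hasDerivAt θ h2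
    simpa using! h3
  obtain ⟨θ, hθ, h1⟩ := exists_hasDerivAt_eq_slope φ
    (fun θ => inner ℝ (gradient h (a + θ • (b - a))) (b - a)) (by norm_num : (0:ℝ) < 1)
    (fun θ _ => (hφ θ).continuousAt.continuousWithinAt) (fun θ _ => hφ θ)
  refine ⟨θ, ⟨hθ.1.le, hθ.2.le⟩, ?_⟩
  simp only [φ, one_smul, zero_smul, add_zero, sub_zero, div_one] at h1
  rw [h1]
  simp

theorem seg_near {a b p : E2} {d θ : ℝ} (h0 : ‖a - p‖ ≤ d) (h1 : ‖b - p‖ ≤ d)
    (hθ : θ ∈ Set.Icc (0:ℝ) 1) : ‖a + θ • (b - a) - p‖ ≤ d := by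
  have e : a + θ • (b - a) - p = (1 - θ) • (a - p) + θ • (b - p) := by module
  rw [e]
  calc _ ≤ ‖(1 - θ) • (a - p)‖ + ‖θ • (b - p)‖ := norm_add_le _ _
    _ = (1 - θ) * ‖a - p‖ + θ * ‖b - p‖ := by
        rw [norm_smul, norm_smul, Real.norm_of_nonneg (by linarith [hθ.2]),
          Real.norm_of_nonneg hθ.1]
    _ ≤ (1 - θ) * d + θ * d := by
        have := hθ.1; have := hθ.2
        gcongr
    _ = d := by ring

/-- an orthonormal frame of the plane as a basis. -/
theorem exists_frame {e f : E2} (he : ‖e‖ = 1) (hf : ‖f‖ = 1) (hef : inner ℝ e f = 0) :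
    ∃ b : OrthonormalBasis (Fin 2) ℝ E2, b 0 = e ∧ b 1 = f := by
  have hon : Orthonormal ℝ ![e, f] := by
    rw [orthonormal_iff_ite]
    intro i j
    fin_cases i <;> fin_cases j <;> simp [he, hf, hef, real_inner_comm]
  let b := (basisOfOrthonormalOfCardEqFinrank hon (by simp)).toOrthonormalBasis (by
    simpa using hon)
  exact ⟨b, by simp [b], by simp [b]⟩

/-- decomposition in an orthonormal frame of the plane -/
theorem norm_le_frame {e f : E2} (he : ‖e‖ = 1) (hf : ‖f‖ = 1) (hef : inner ℝ e f = 0) (v : E2) :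
    ‖v‖ ≤ |inner ℝ v e| + |inner ℝ v f| := by
  obtain ⟨b, hb0, hb1⟩ := exists_frame he hf hef
  have h1 := b.sum_repr v
  rw [Fin.sum_univ_two, hb0, hb1] at h1
  have r0 : b.repr v 0 = inner ℝ e v := by rw [b.repr_apply_apply, hb0]
  have r1 : b.repr v 1 = inner ℝ f v := by rw [b.repr_apply_apply, hb1]
  rw [r0, r1] at h1
  calc ‖v‖ = ‖inner ℝ e v • e + inner ℝ f v • f‖ := by rw [h1]
    _ ≤ ‖inner ℝ e v • e‖ + ‖inner ℝ f v • f‖ := norm_add_le _ _
    _ = |inner ℝ v e| + |inner ℝ v f| := by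
        rw [norm_smul, norm_smul, he, hf, Real.norm_eq_abs, Real.norm_eq_abs,
          real_inner_comm e v, real_inner_comm f v]; ring

theorem inner_frame {e f : E2} (he : ‖e‖ = 1) (hf : ‖f‖ = 1) (hef : inner ℝ e f = 0)
    (G Δ : E2) : inner ℝ G Δ = inner ℝ G e * inner ℝ Δ e + inner ℝ G f * inner ℝ Δ f := by
  obtain ⟨b, hb0, hb1⟩ := exists_frame he hf hef
  have h1 := b.sum_inner_mul_inner G Δ
  rw [Fin.sum_univ_two, hb0, hb1] at h1
  rw [← h1, real_inner_comm e Δ, real_inner_comm f Δ]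

set_option maxHeartbeats 1600000 in
/-- the two point lemma of the overlap set. -/
theorem two_point {h : E2 → ℝ} (hd : Differentiable ℝ h) (hn : NearId h (1/10)) {L : ℝ}
    (hL : ∀ ξ : E2, ‖ξ‖ ≤ 2 → ‖gradient h ξ‖ ≤ L) {e f : E2} (he : ‖e‖ = 1) (hf : ‖f‖ = 1)
    (hef : inner ℝ e f = 0) {ν K A c : ℝ} (hν : 0 < ν) (hν1 : ν ≤ 1) (hK : 1 ≤ K) (hA : 0 ≤ A)
    {p1 p2 : E2} (hp1 : ‖p1‖ ≤ 1) (hp2 : ‖p2‖ ≤ 1) (hp : ν ≤ ‖p1 - p2‖)
    {a1 b1 a2 b2 : E2} {ρ : ℝ} (hρ : 0 ≤ ρ) (hρK : ρ ≤ 1 / K)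
    (ha1 : ‖a1 - p1‖ ≤ ν / 100) (hb1 : ‖b1 - p1‖ ≤ ν / 100)
    (ha2 : ‖a2 - p2‖ ≤ ν / 100) (hb2 : ‖b2 - p2‖ ≤ ν / 100)
    (hsa1 : |inner ℝ (gradient h a1) f - c| ≤ A / K) (hsb1 : |inner ℝ (gradient h b1) f - c| ≤ A / K)
    (hsa2 : |inner ℝ (gradient h a2) f - c| ≤ A / K)
    (hsum : ‖(b1 - a1) + (b2 - a2)‖ ≤ 4 * ρ)
    (hh : |(h b1 - h a1) + (h b2 - h a2)| ≤ 4 * ρ) :
    |inner ℝ (b1 - a1) e| ≤ (20 * (1 + L + A) / ν) / K ∧
      ‖b1 - a1‖ ≤ 2 * |inner ℝ (b1 - a1) e| + 3 * (A / K) := by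
  have hK0 : 0 < K := by linarith
  have hL0 : 0 ≤ L := (norm_nonneg _).trans (hL 0 (by simp))
  set Δ := b1 - a1 with hΔ
  have hfrΔ := norm_le_frame he hf hef Δ
  have hAK : 0 ≤ A / K := by positivity
  have hΔn : ‖Δ‖ ≤ ν / 50 := by
    have : Δ = (b1 - p1) - (a1 - p1) := by rw [hΔ]; abel
    rw [this]
    refine (norm_sub_le _ _).trans ?_
    linarith
  -- second estimate
  have hf2 : |inner ℝ Δ f| ≤ 2 * (A / K) + (1/10) * ‖Δ‖ := by
    have e1 : inner ℝ Δ f = (inner ℝ (gradient h b1) f - c) - (inner ℝ (gradient h a1) f - c)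
        - inner ℝ ((gradient h b1 - gradient h a1) - (b1 - a1)) f := by
      rw [inner_sub_left (gradient h b1 - gradient h a1), inner_sub_left (gradient h b1)]
      ring
    rw [e1]
    have e2 : |inner ℝ ((gradient h b1 - gradient h a1) - (b1 - a1)) f| ≤ (1/10) * ‖Δ‖ := by
      refine (abs_real_inner_le_norm _ _).trans ?_
      rw [hf, mul_one]
      exact hn b1 a1
    calc _ ≤ |(inner ℝ (gradient h b1) f - c) - (inner ℝ (gradient h a1) f - c)|
          + |inner ℝ ((gradient h b1 - gradient h a1) - (b1 - a1)) f| := abs_sub _ _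
      _ ≤ (|inner ℝ (gradient h b1) f - c| + |inner ℝ (gradient h a1) f - c|)
          + |inner ℝ ((gradient h b1 - gradient h a1) - (b1 - a1)) f| := by
          gcongr; exact abs_sub _ _
      _ ≤ _ := by linarith
  have second : ‖Δ‖ ≤ 2 * |inner ℝ Δ e| + 3 * (A / K) := by
    have := abs_nonneg (inner ℝ Δ e)
    linarith
  refine ⟨?_, second⟩
  have habs := abs_nonneg (inner ℝ Δ e)
  by_cases hcase : K * ν ≤ 20 * A
  · -- trivial case
    have h1 : |inner ℝ Δ e| ≤ ν / 50 := by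
      refine (abs_real_inner_le_norm _ _).trans ?_
      rw [he, mul_one]; exact hΔn
    refine h1.trans ?_
    rw [le_div_iff₀ hK0, le_div_iff₀ hν]
    have : ν * (K * ν) ≤ 1 * (20 * A) := by
      apply mul_le_mul hν1 hcase (by positivity) (by norm_num)
    have e0 : ν / 50 * K * ν = (ν * (K * ν)) / 50 := by ring
    rw [e0]
    linarith
  · push Not at hcase
    have hAν : A / K ≤ ν / 20 := by
      rw [div_le_div_iff₀ hK0 (by norm_num)]
      linarith
    obtain ⟨θ, hθ, hm1⟩ := mvt hd a1 b1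
    obtain ⟨θ', hθ', hm2⟩ := mvt hd a2 b2
    set q1 := a1 + θ • (b1 - a1) with hq1
    set q2 := a2 + θ' • (b2 - a2) with hq2
    have hq1n : ‖q1 - p1‖ ≤ ν / 100 := seg_near ha1 hb1 hθ
    have hq2n : ‖q2 - p2‖ ≤ ν / 100 := seg_near ha2 hb2 hθ'
    have hq2b : ‖q2‖ ≤ 2 := by
      calc ‖q2‖ = ‖(q2 - p2) + p2‖ := by rw [sub_add_cancel]
        _ ≤ ‖q2 - p2‖ + ‖p2‖ := norm_add_le _ _
        _ ≤ 2 := by linarith
    -- the basic inequality
    have hbas : |inner ℝ (gradient h q1 - gradient h q2) Δ| ≤ 4 * ρ * (1 + L) := by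
      have e1 : inner ℝ (gradient h q1 - gradient h q2) Δ
          = ((h b1 - h a1) + (h b2 - h a2))
            - inner ℝ (gradient h q2) ((b1 - a1) + (b2 - a2)) := by
        rw [hm1, hm2, inner_sub_left, inner_add_right]
        rw [hΔ]; ring
      rw [e1]
      calc _ ≤ |(h b1 - h a1) + (h b2 - h a2)|
            + |inner ℝ (gradient h q2) ((b1 - a1) + (b2 - a2))| := abs_sub _ _
        _ ≤ 4 * ρ + L * (4 * ρ) := by
            gcongr
            refine (abs_real_inner_le_norm _ _).trans ?_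
            gcongr
            exact hL q2 hq2b
        _ = 4 * ρ * (1 + L) := by ring
    -- the size of the difference of gradients
    set G := gradient h q1 - gradient h q2 with hG
    have hGn : (88 / 100) * ν ≤ ‖G‖ := by
      have e1 : ‖q1 - q2‖ - (1/10) * ‖q1 - q2‖ ≤ ‖G‖ := by
        have h1 := hn q1 q2
        have h2 : ‖q1 - q2‖ ≤ ‖G‖ + ‖G - (q1 - q2)‖ := by
          calc ‖q1 - q2‖ = ‖G - (G - (q1 - q2))‖ := by congr 1; abel
            _ ≤ _ := norm_sub_le _ _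
        linarith
      have e2 : ν - ν / 50 ≤ ‖q1 - q2‖ := by
        have h1 : ‖p1 - p2‖ ≤ ‖q1 - q2‖ + ‖q1 - p1‖ + ‖q2 - p2‖ := by
          calc ‖p1 - p2‖ = ‖(q1 - q2) - (q1 - p1) + (q2 - p2)‖ := by congr 1; abel
            _ ≤ ‖(q1 - q2) - (q1 - p1)‖ + ‖q2 - p2‖ := norm_add_le _ _
            _ ≤ _ := by gcongr; exact norm_sub_le _ _
        linarith
      linarith
    have hGf : |inner ℝ G f| ≤ 2 * (A / K) + ν / 20 := by
      have e1 : inner ℝ G f = (inner ℝ (gradient h a1) f - c) - (inner ℝ (gradient h a2) f - c)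
          + inner ℝ (gradient h q1 - gradient h a1) f
          - inner ℝ (gradient h q2 - gradient h a2) f := by
        rw [hG, inner_sub_left, inner_sub_left, inner_sub_left]; ring
      have hgd : ∀ x y p : E2, ‖x - p‖ ≤ ν / 100 → ‖y - p‖ ≤ ν / 100 →
          |inner ℝ (gradient h x - gradient h y) f| ≤ (11 / 500) * ν := by
        intro x y p hx hy
        refine (abs_real_inner_le_norm _ _).trans ?_
        rw [hf, mul_one]
        have h1 := hn x y
        have h2 : ‖x - y‖ ≤ ν / 50 := by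
          calc ‖x - y‖ = ‖(x - p) - (y - p)‖ := by congr 1; abel
            _ ≤ _ := norm_sub_le _ _
            _ ≤ ν / 50 := by linarith
        calc ‖gradient h x - gradient h y‖
            = ‖((gradient h x - gradient h y) - (x - y)) + (x - y)‖ := by congr 1; abel
          _ ≤ ‖(gradient h x - gradient h y) - (x - y)‖ + ‖x - y‖ := norm_add_le _ _
          _ ≤ _ := by linarith
      rw [e1]
      have t1 := hgd q1 a1 p1 hq1n ha1
      have t2 := hgd q2 a2 p2 hq2n ha2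
      have t3 : |(inner ℝ (gradient h a1) f - c) - (inner ℝ (gradient h a2) f - c)
          + inner ℝ (gradient h q1 - gradient h a1) f
          - inner ℝ (gradient h q2 - gradient h a2) f|
          ≤ |inner ℝ (gradient h a1) f - c| + |inner ℝ (gradient h a2) f - c|
          + |inner ℝ (gradient h q1 - gradient h a1) f|
          + |inner ℝ (gradient h q2 - gradient h a2) f| := by
        refine (abs_sub _ _).trans ?_
        gcongr
        refine (abs_add_le _ _).trans ?_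
        gcongr
        exact abs_sub _ _
      linarith
    have hGe : (6 / 10) * ν ≤ |inner ℝ G e| := by
      have := norm_le_frame he hf hef G
      linarith
    -- expand the inner product in the frame
    have hexp : inner ℝ G Δ = inner ℝ G e * inner ℝ Δ e + inner ℝ G f * inner ℝ Δ f :=
      inner_frame he hf hef G Δ
    have hlow : (6 / 10) * ν * |inner ℝ Δ e| ≤ 4 * ρ * (1 + L)
        + (2 * (A / K) + ν / 20) * |inner ℝ Δ f| := by
      have h1 : |inner ℝ G e * inner ℝ Δ e| ≤ |inner ℝ G Δ| + |inner ℝ G f * inner ℝ Δ f| := by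
        have : inner ℝ G e * inner ℝ Δ e = inner ℝ G Δ - inner ℝ G f * inner ℝ Δ f := by
          rw [hexp]; ring
        rw [this]; exact abs_sub _ _
      rw [abs_mul, abs_mul] at h1
      calc (6 / 10) * ν * |inner ℝ Δ e| ≤ |inner ℝ G e| * |inner ℝ Δ e| := by gcongr
        _ ≤ |inner ℝ G Δ| + |inner ℝ G f| * |inner ℝ Δ f| := h1
        _ ≤ _ := by gcongr
    have hf3 : |inner ℝ Δ f| ≤ (7 / 3) * (A / K) + (1 / 5) * |inner ℝ Δ e| := by
      linarith
    have hf0 := abs_nonneg (inner ℝ Δ f)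
    have h9 : (2 * (A / K) + ν / 20) * |inner ℝ Δ f|
        ≤ (3 / 20 * ν) * ((7 / 3) * (A / K) + (1 / 5) * |inner ℝ Δ e|) := by
      gcongr
      linarith
    have hνe : 0 ≤ ν * |inner ℝ Δ e| := by positivity
    have h10 : (1 / 2) * ν * |inner ℝ Δ e| ≤ 4 * ρ * (1 + L) + (7 / 20) * ν * (A / K) := by
      have e0 : (3 / 20 * ν) * ((7 / 3) * (A / K) + (1 / 5) * |inner ℝ Δ e|)
        = (7 / 20) * ν * (A / K) + (3 / 100) * (ν * |inner ℝ Δ e|) := by ring
      rw [e0] at h9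
      linarith
    have h11 : 4 * ρ * (1 + L) ≤ 4 * (1 + L) / K := by
      have : ρ * (1 + L) ≤ (1 / K) * (1 + L) := by gcongr
      calc 4 * ρ * (1 + L) = 4 * (ρ * (1 + L)) := by ring
        _ ≤ 4 * ((1 / K) * (1 + L)) := by gcongr
        _ = 4 * (1 + L) / K := by ring
    have h12 : (7 / 20) * ν * (A / K) ≤ A / K := by
      have : ν * (A / K) ≤ 1 * (A / K) := by gcongr
      have h0 : 0 ≤ ν * (A / K) := by positivity
      linarith
    rw [le_div_iff₀ hK0, le_div_iff₀ hν]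
    have h13 : (1 / 2) * ν * |inner ℝ Δ e| ≤ (4 * (1 + L) + A) / K := by
      calc _ ≤ 4 * (1 + L) / K + A / K := by linarith
        _ = _ := by ring
    rw [le_div_iff₀ hK0] at h13
    have e0 : |inner ℝ Δ e| * K * ν = 2 * ((1 / 2) * ν * |inner ℝ Δ e| * K) := by ring
    rw [e0]
    linarith

end Crest.Agent.R138.Bil882
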