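import Crest.Agent.R138.WpkDef_685
import Crest.Agent.R138.Bil5_882

/-!
# R138 / R139: WAVE side, doc 1979 (654), leaf W5: planar geometry of the coherence rectangles
(helper779).

`RectF N ξ0 L w` = segment of length `L` through the frequency `ξ0` in the direction of the unit
vector `N` (normal of the plank), thickened by `w` (frequency form of `Rect`).
-/

set_option autoImplicit false

namespace Crest.Agent.R138.Rect779

open Crest.Agent.R138.Defs (E2)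
open Crest.Agent.R138.Bil882 (NearId)
open Crest.Agent.R138.Wpk685 (cen)

/-- orthogonal part. -/
noncomputable def orth (N v : E2) : E2 := v - (inner ℝ N v : ℝ) • N

/-- thin rectangle in frequency: length `L` along `N`, width `w`. -/
def RectF (N ξ0 : E2) (L w : ℝ) : Set E2 := {ξ | ‖ξ - ξ0‖ ≤ L ∧ ‖orth N (ξ - ξ0)‖ ≤ w}

theorem orth_add (N u v : E2) : orth N (u + v) = orth N u + orth N v := by
  unfold orth
  rw [inner_add_right, add_smul]
  abel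

theorem orth_sub (N u v : E2) : orth N (u - v) = orth N u - orth N v := by
  unfold orth
  rw [inner_sub_right, sub_smul]
  abel

theorem orth_neg (N v : E2) : orth (-N) v = orth N v := by
  unfold orth
  rw [inner_neg_left, neg_smul, smul_neg, neg_neg]

theorem norm_le_orth {N : E2} (hN : ‖N‖ = 1) (v : E2) :
    ‖v‖ ≤ |(inner ℝ N v : ℝ)| + ‖orth N v‖ := by
  calc ‖v‖ = ‖(inner ℝ N v : ℝ) • N + orth N v‖ := by
        unfold orth
        rw [add_sub_cancel]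
    _ ≤ ‖(inner ℝ N v : ℝ) • N‖ + ‖orth N v‖ := norm_add_le _ _
    _ = _ := by rw [norm_smul, hN, mul_one, Real.norm_eq_abs]

theorem abs_inner_le {N : E2} (hN : ‖N‖ = 1) (v : E2) : |(inner ℝ N v : ℝ)| ≤ ‖v‖ := by
  have := abs_real_inner_le_norm N v
  rwa [hN, one_mul] at this

/-- change of the normal. -/
theorem orth_change {N N0 : E2} (hN : ‖N‖ = 1) (hN0 : ‖N0‖ = 1) (v : E2) :
    ‖orth N0 v‖ ≤ ‖orth N v‖ + 2 * ‖N0 - N‖ * ‖v‖ := by
  have e : orth N0 v = orth N v + ((inner ℝ (N - N0) v : ℝ) • N + (inner ℝ N0 v : ℝ) • (N - N0)) := by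
    unfold orth
    rw [inner_sub_left, smul_sub, sub_smul]
    abel
  rw [e]
  have h1 : ‖(inner ℝ (N - N0) v : ℝ) • N‖ ≤ ‖N0 - N‖ * ‖v‖ := by
    rw [norm_smul, hN, mul_one, Real.norm_eq_abs, norm_sub_rev N0 N]
    exact abs_real_inner_le_norm _ _
  have h2 : ‖(inner ℝ N0 v : ℝ) • (N - N0)‖ ≤ ‖N0 - N‖ * ‖v‖ := by
    rw [norm_smul, Real.norm_eq_abs, norm_sub_rev N0 N, mul_comm ‖N - N0‖]
    exact mul_le_mul_of_nonneg_right (abs_inner_le hN0 v) (norm_nonneg _)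
  have h3 := norm_add_le (orth N v)
    ((inner ℝ (N - N0) v : ℝ) • N + (inner ℝ N0 v : ℝ) • (N - N0))
  have h4 := norm_add_le ((inner ℝ (N - N0) v : ℝ) • N) ((inner ℝ N0 v : ℝ) • (N - N0))
  linarith

theorem RectF_neg (N ξ0 : E2) (L w : ℝ) : RectF (-N) ξ0 L w = RectF N ξ0 L w := by
  unfold RectF
  simp only [orth_neg]

/-- **(W5a)** bound of the long component by the velocity in the direction of the normal (uses
ellipticity). -/
theorem beta_bound {h : E2 → ℝ} (hn : NearId h (1 / 10)) {N : E2} (hN : ‖N‖ = 1) {ξ ξ' : E2}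
    {a w : ℝ} (hw : ‖orth N (ξ - ξ')‖ ≤ w)
    (ha : |(inner ℝ N (gradient h ξ - gradient h ξ') : ℝ)| ≤ a) :
    |(inner ℝ N (ξ - ξ') : ℝ)| ≤ (10 * a + w) / 9 := by
  have h1 := hn ξ ξ'
  have h2 := norm_le_orth hN (ξ - ξ')
  have h3 : |(inner ℝ N ((gradient h ξ - gradient h ξ') - (ξ - ξ')) : ℝ)| ≤
      1 / 10 * ‖ξ - ξ'‖ := (abs_inner_le hN _).trans h1
  rw [inner_sub_right] at h3
  have h4 : |(inner ℝ N (ξ - ξ') : ℝ)| ≤ |(inner ℝ N (gradient h ξ - gradient h ξ') : ℝ)| +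
      |(inner ℝ N (gradient h ξ - gradient h ξ') : ℝ) - (inner ℝ N (ξ - ξ') : ℝ)| := by
    rw [abs_sub_comm (inner ℝ N (gradient h ξ - gradient h ξ') : ℝ)]
    calc |(inner ℝ N (ξ - ξ') : ℝ)| = |(inner ℝ N (gradient h ξ - gradient h ξ') : ℝ) +
          ((inner ℝ N (ξ - ξ') : ℝ) - (inner ℝ N (gradient h ξ - gradient h ξ') : ℝ))| := by
            congr 1; ring
      _ ≤ _ := abs_add_le _ _
  linarith

theorem dist_bound {h : E2 → ℝ} (hn : NearId h (1 / 10)) {N : E2} (hN : ‖N‖ = 1) {ξ ξ' : E2}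
    {a w : ℝ} (hw : ‖orth N (ξ - ξ')‖ ≤ w)
    (ha : |(inner ℝ N (gradient h ξ - gradient h ξ') : ℝ)| ≤ a) :
    ‖ξ - ξ'‖ ≤ 10 / 9 * (a + w) := by
  have h1 := beta_bound hn hN hw ha
  have h2 := norm_le_orth hN (ξ - ξ')
  linarith

/-- **(W5b)** DISJOINT: two rectangles with the same normal `N`, whose centres have almost the same
velocity in the direction `N`, are disjoint unless the centres are close. -/
theorem rect_disjoint {h : E2 → ℝ} (hn : NearId h (1 / 10)) {N : E2} (hN : ‖N‖ = 1)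
    {ξ ξ1 ξ2 : E2} {L w a : ℝ} (h1 : ξ ∈ RectF N ξ1 L w) (h2 : ξ ∈ RectF N ξ2 L w)
    (ha : |(inner ℝ N (gradient h ξ1 - gradient h ξ2) : ℝ)| ≤ a) :
    ‖ξ1 - ξ2‖ ≤ 10 / 9 * (a + 2 * w) := by
  refine dist_bound hn hN ?_ ha
  have e : orth N (ξ1 - ξ2) = orth N (ξ - ξ2) - orth N (ξ - ξ1) := by
    rw [← orth_sub, sub_sub_sub_cancel_left]
  rw [e]
  have h3 := norm_sub_le (orth N (ξ - ξ2)) (orth N (ξ - ξ1))
  have h4 := h1.2
  have h5 := h2.2
  linarith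

/-- whole cell: velocities of a rectangle. -/
theorem rect_vel {h : E2 → ℝ} (hn : NearId h (1 / 10)) {N : E2} {ξ ξ0 : E2} {L w : ℝ}
    (h1 : ξ ∈ RectF N ξ0 L w) : ‖gradient h ξ - gradient h ξ0‖ ≤ 11 / 10 * L := by
  have h2 := hn ξ ξ0
  have h3 : ‖gradient h ξ - gradient h ξ0‖ ≤
      ‖(gradient h ξ - gradient h ξ0) - (ξ - ξ0)‖ + ‖ξ - ξ0‖ := by
    calc ‖gradient h ξ - gradient h ξ0‖
        = ‖((gradient h ξ - gradient h ξ0) - (ξ - ξ0)) + (ξ - ξ0)‖ := by rw [sub_add_cancel]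
      _ ≤ _ := norm_add_le _ _
  have h4 := h1.1
  linarith

/-- **(W5d)** aligned: a point of the thin segment with normal `N` close to `ξ0` lies in the rectangle
of `ξ0` with its own normal `N0`. -/
theorem aligned_mem {N N0 : E2} (hN : ‖N‖ = 1) (hN0 : ‖N0‖ = 1) {δ : ℝ}
    (hδ : ‖N0 - N‖ ≤ δ ∨ ‖N0 + N‖ ≤ δ) {ξ ξ0 : E2} {L w : ℝ} (hL : ‖ξ - ξ0‖ ≤ L)
    (hw : ‖orth N (ξ - ξ0)‖ ≤ w) : ξ ∈ RectF N0 ξ0 L (w + 2 * δ * L) := by
  have key : ∀ M : E2, ‖M‖ = 1 → orth M (ξ - ξ0) = orth N (ξ - ξ0) → ‖N0 - M‖ ≤ δ →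
      ξ ∈ RectF N0 ξ0 L (w + 2 * δ * L) := by
    intro M hM hM1 hM2
    refine ⟨hL, ?_⟩
    have h1 := orth_change hM hN0 (ξ - ξ0)
    rw [hM1] at h1
    have h2 : 2 * ‖N0 - M‖ * ‖ξ - ξ0‖ ≤ 2 * δ * L := by
      have := norm_nonneg (N0 - M)
      have := norm_nonneg (ξ - ξ0)
      gcongr
      linarith
    linarith
  rcases hδ with hδ | hδ
  · exact key N hN rfl hδ
  · exact key (-N) (by rwa [norm_neg]) (orth_neg _ _) (by rwa [sub_neg_eq_add])

/-! ### counting -/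

theorem card_int_le {T : Finset ℤ} {x K : ℝ} (hK : 0 ≤ K) (hT : ∀ m ∈ T, |(m : ℝ) - x| ≤ K) :
    (T.card : ℝ) ≤ 2 * K + 1 := by
  have h1 : T ⊆ Finset.Icc ⌈x - K⌉ ⌊x + K⌋ := by
    intro m hm
    have := abs_le.1 (hT m hm)
    rw [Finset.mem_Icc, Int.ceil_le, Int.le_floor]
    constructor <;> linarith
  have h2 := Finset.card_le_card h1
  rw [Int.card_Icc] at h2
  have h3 : ((⌊x + K⌋ + 1 - ⌈x - K⌉).toNat : ℝ) ≤ 2 * K + 1 := by
    rcases le_or_gt 0 (⌊x + K⌋ + 1 - ⌈x - K⌉) with h | h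
    · have e : (((⌊x + K⌋ + 1 - ⌈x - K⌉).toNat : ℤ) : ℝ) = ((⌊x + K⌋ + 1 - ⌈x - K⌉ : ℤ) : ℝ) := by
        rw [Int.toNat_of_nonneg h]
      rw [Int.cast_natCast] at e
      rw [e]
      push_cast
      have h4 := Int.floor_le (x + K)
      have h5 := Int.le_ceil (x - K)
      linarith
    · rw [Int.toNat_of_nonpos h.le]
      simp
      linarith
  calc (T.card : ℝ) ≤ ((⌊x + K⌋ + 1 - ⌈x - K⌉).toNat : ℝ) := by exact_mod_cast h2
    _ ≤ _ := h3

/-- **(W5c)** number of caps in a ball. -/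
theorem card_caps_le {ρ : ℝ} (hρ : 0 < ρ) {T : Finset (ℤ × ℤ)} {ξ0 : E2} {K : ℝ} (hK : 0 ≤ K)
    (hT : ∀ m ∈ T, ‖cen ρ m - ξ0‖ ≤ K * ρ) : (T.card : ℝ) ≤ (2 * K + 1) ^ 2 := by
  classical
  have h1 : T ⊆ (T.image Prod.fst) ×ˢ (T.image Prod.snd) := by
    intro m hm
    rw [Finset.mem_product]
    exact ⟨Finset.mem_image_of_mem _ hm, Finset.mem_image_of_mem _ hm⟩
  have hc : ∀ i : Fin 2, ∀ m ∈ T, |cen ρ m i - ξ0 i| ≤ K * ρ := by
    intro i m hm
    have := PiLp.norm_apply_le (cen ρ m - ξ0) i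
    rw [PiLp.sub_apply, Real.norm_eq_abs] at this
    exact this.trans (hT m hm)
  have h2 : ((T.image Prod.fst).card : ℝ) ≤ 2 * K + 1 := by
    refine card_int_le (x := ξ0 0 / ρ) hK ?_
    intro a ha
    obtain ⟨m, hm, rfl⟩ := Finset.mem_image.1 ha
    have h3 := hc 0 m hm
    rw [Wpk685.cen_zero] at h3
    have e : (m.1 : ℝ) - ξ0 0 / ρ = (ρ * m.1 - ξ0 0) / ρ := by field_simp
    rw [e, abs_div, abs_of_pos hρ, div_le_iff₀ hρ]
    exact h3
  have h4 : ((T.image Prod.snd).card : ℝ) ≤ 2 * K + 1 := by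
    refine card_int_le (x := ξ0 1 / ρ) hK ?_
    intro a ha
    obtain ⟨m, hm, rfl⟩ := Finset.mem_image.1 ha
    have h3 := hc 1 m hm
    rw [Wpk685.cen_one] at h3
    have e : (m.2 : ℝ) - ξ0 1 / ρ = (ρ * m.2 - ξ0 1) / ρ := by field_simp
    rw [e, abs_div, abs_of_pos hρ, div_le_iff₀ hρ]
    exact h3
  have h5 := Finset.card_le_card h1
  rw [Finset.card_product] at h5
  calc (T.card : ℝ) ≤ ((T.image Prod.fst).card : ℝ) * ((T.image Prod.snd).card : ℝ) := by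
        exact_mod_cast h5
    _ ≤ (2 * K + 1) * (2 * K + 1) := by gcongr
    _ = _ := by ring

/-- **multiplicity** of the rectangles of the caps of a plank: a point `ξ` lies in at most
`(2 K + 1)^2` of them, `K ρ ≥ 10/9 (a + 2 w)`. -/
theorem mult_le {h : E2 → ℝ} (hn : NearId h (1 / 10)) {N : E2} (hN : ‖N‖ = 1) {ρ : ℝ} (hρ : 0 < ρ)
    {T : Finset (ℤ × ℤ)} {a K L w : ℝ} (hK : 0 ≤ K) (hKa : 10 / 9 * (a + 2 * w) ≤ K * ρ)
    (ha : ∀ m ∈ T, ∀ m' ∈ T,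
      |(inner ℝ N (gradient h (cen ρ m) - gradient h (cen ρ m')) : ℝ)| ≤ a) (ξ : E2)
    (hT : ∀ m ∈ T, ξ ∈ RectF N (cen ρ m) L w) : (T.card : ℝ) ≤ (2 * K + 1) ^ 2 := by
  rcases T.eq_empty_or_nonempty with rfl | ⟨m0, hm0⟩
  · simp
    positivity
  · refine card_caps_le hρ hK (ξ0 := cen ρ m0) fun m hm => ?_
    exact (rect_disjoint hn hN (hT m hm) (hT m0 hm0) (ha m hm m0 hm0)).trans hKa

/-- **summed form** of DISJOINT (for LOWER): if every cap `m` of the row `T` of a plank has a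
finite set `J m` of caps inside its rectangle, then the sum over the row is bounded by the
multiplicity times the sum over the union. -/
theorem sum_rows_le {h : E2 → ℝ} (hn : NearId h (1 / 10)) {N : E2} (hN : ‖N‖ = 1) {ρ : ℝ}
    (hρ : 0 < ρ) {T : Finset (ℤ × ℤ)} {a K L w : ℝ} (hK : 0 ≤ K)
    (hKa : 10 / 9 * (a + 2 * w) ≤ K * ρ)
    (ha : ∀ m ∈ T, ∀ m' ∈ T,
      |(inner ℝ N (gradient h (cen ρ m) - gradient h (cen ρ m')) : ℝ)| ≤ a)
    (J : ℤ × ℤ → Finset (ℤ × ℤ)) (hJ : ∀ m ∈ T, ∀ j ∈ J m, cen ρ j ∈ RectF N (cen ρ m) L w)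
    {U : Finset (ℤ × ℤ)} (hU : ∀ m ∈ T, J m ⊆ U) {f : ℤ × ℤ → ℝ} (hf : ∀ j, 0 ≤ f j) :
    ∑ m ∈ T, ∑ j ∈ J m, f j ≤ (2 * K + 1) ^ 2 * ∑ j ∈ U, f j := by
  classical
  have h1 : ∀ m ∈ T, ∑ j ∈ J m, f j = ∑ j ∈ U, if j ∈ J m then f j else 0 := by
    intro m hm
    rw [Finset.sum_ite_mem, Finset.inter_eq_right.2 (hU m hm)]
  rw [Finset.sum_congr rfl h1, Finset.sum_comm, Finset.mul_sum]
  refine Finset.sum_le_sum fun j _ => ?_
  rw [← Finset.sum_filter, Finset.sum_const, nsmul_eq_mul]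
  refine mul_le_mul_of_nonneg_right ?_ (hf j)
  refine mult_le hn hN hρ hK hKa (T := T.filter fun m => j ∈ J m) ?_ (cen ρ j) ?_ (L := L) (w := w)
  · intro m hm m' hm'
    exact ha m (Finset.mem_filter.1 hm).1 m' (Finset.mem_filter.1 hm').1
  · intro m hm
    exact hJ m (Finset.mem_filter.1 hm).1 j (Finset.mem_filter.1 hm).2

/-- pigeonhole on a line: a finite set with a coordinate in an interval of length `Λ` has a member
around which (distance `≤ L`) there is the proportion `1 / (Λ / L + 1)` of the set. -/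
theorem pigeon {α : Type*} {T : Finset α} (hT : T.Nonempty) {u : α → ℝ} {L Λ : ℝ} (hL : 0 < L)
    (hu : ∀ x ∈ T, ∀ y ∈ T, |u x - u y| ≤ Λ) : ∃ x0 ∈ T,
      (T.card : ℝ) ≤ (2 * (Λ / L) + 3) * ((T.filter fun x => |u x - u x0| ≤ L).card : ℝ) := by
  classical
  obtain ⟨y, hy⟩ := hT
  have hΛ : 0 ≤ Λ := (abs_nonneg _).trans (hu y hy y hy)
  -- cells
  set c : α → ℤ := fun x => ⌊u x / L⌋ with hc
  set M : Finset ℤ := T.image c with hM
  have hMc : (M.card : ℝ) ≤ 2 * (Λ / L) + 3 := by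
    have : (M.card : ℝ) ≤ 2 * (Λ / L + 1) + 1 := by
      refine card_int_le (x := u y / L) (by positivity) ?_
      intro m hm
      obtain ⟨x, hx, rfl⟩ := Finset.mem_image.1 hm
      have h1 := Int.floor_le (u x / L)
      have h2 := Int.lt_floor_add_one (u x / L)
      have h3 : |u x / L - u y / L| ≤ Λ / L := by
        rw [← sub_div, abs_div, abs_of_pos hL]
        gcongr
        exact hu x hx y hy
      have h4 := abs_le.1 h3
      simp only [hc]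
      rw [abs_le]
      constructor <;> linarith
    linarith
  obtain ⟨x0, hx0, hmax⟩ := Finset.exists_max_image T
    (fun x0 => (T.filter fun x => |u x - u x0| ≤ L).card) ⟨y, hy⟩
  refine ⟨x0, hx0, ?_⟩
  have h1 : T.card = ∑ m ∈ M, (T.filter fun x => c x = m).card :=
    Finset.card_eq_sum_card_image c T
  have h2 : ∀ m ∈ M, (T.filter fun x => c x = m).card ≤
      (T.filter fun x => |u x - u x0| ≤ L).card := by
    intro m hm
    obtain ⟨z, hz, rfl⟩ := Finset.mem_image.1 hm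
    refine (Finset.card_le_card ?_).trans (hmax z hz)
    intro x hx
    rw [Finset.mem_filter] at hx ⊢
    refine ⟨hx.1, ?_⟩
    have h3 := Int.abs_sub_lt_one_of_floor_eq_floor hx.2
    rw [← sub_div, abs_div, abs_of_pos hL, div_lt_one hL] at h3
    exact h3.le
  have h3 : T.card ≤ M.card * (T.filter fun x => |u x - u x0| ≤ L).card := by
    rw [h1, ← smul_eq_mul]
    exact Finset.sum_le_card_nsmul _ _ _ h2
  calc (T.card : ℝ) ≤ ((M.card * (T.filter fun x => |u x - u x0| ≤ L).card : ℕ) : ℝ) := by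
        exact_mod_cast h3
    _ = (M.card : ℝ) * ((T.filter fun x => |u x - u x0| ≤ L).card : ℝ) := by push_cast; rfl
    _ ≤ _ := by gcongr

open Classical in
/-- **UPPER count**: a coherent class `w` (pairwise: same frequency orthogonally to `N` up to `K ρ`,
same velocity along `N` up to `a`), normals `N0` of its members `δ`-close to `±N`. Then some member
has in its own rectangle (length `L`, width `K ρ + 2 δ L`) the proportion `1/(C a / L + C)` of `w`. -/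
theorem class_count {h : E2 → ℝ} (hn : NearId h (1 / 10)) {N : E2} (hN : ‖N‖ = 1) {ρ : ℝ}
    (hρ : 0 < ρ) {w : Finset (ℤ × ℤ)} (hw : w.Nonempty) {a K L δ : ℝ} (hL : 0 < L)
    (hK : 0 ≤ K) (hKL : K * ρ ≤ L)
    (ho : ∀ m ∈ w, ∀ m' ∈ w, ‖orth N (cen ρ m - cen ρ m')‖ ≤ K * ρ)
    (ha : ∀ m ∈ w, ∀ m' ∈ w,
      |(inner ℝ N (gradient h (cen ρ m) - gradient h (cen ρ m')) : ℝ)| ≤ a)
    {N0 : ℤ × ℤ → E2} (hN0 : ∀ m ∈ w, ‖N0 m‖ = 1)
    (hδ : ∀ m ∈ w, ‖N0 m - N‖ ≤ δ ∨ ‖N0 m + N‖ ≤ δ) :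
    ∃ m0 ∈ w, (w.card : ℝ) ≤ (20 / 9 * (a / L) + 4) * ((w.filter fun m =>
      cen ρ m ∈ RectF (N0 m0) (cen ρ m0) (2 * L) (K * ρ + 2 * δ * (2 * L))).card : ℝ) := by
  have h0 : ∀ m ∈ w, ∀ m' ∈ w, |(inner ℝ N (cen ρ m) : ℝ) - inner ℝ N (cen ρ m')| ≤
      (10 * a + K * ρ) / 9 := by
    intro m hm m' hm'
    rw [← inner_sub_right]
    exact beta_bound hn hN (ho m hm m' hm') (ha m hm m' hm')
  obtain ⟨m0, hm0, h1⟩ := pigeon hw (u := fun m => (inner ℝ N (cen ρ m) : ℝ)) hL h0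
  refine ⟨m0, hm0, h1.trans ?_⟩
  have h2 : (w.filter fun m => |(inner ℝ N (cen ρ m) : ℝ) - inner ℝ N (cen ρ m0)| ≤ L).card ≤
      (w.filter fun m =>
        cen ρ m ∈ RectF (N0 m0) (cen ρ m0) (2 * L) (K * ρ + 2 * δ * (2 * L))).card := by
    refine Finset.card_le_card fun m hm => ?_
    rw [Finset.mem_filter] at hm ⊢
    obtain ⟨hm, hm2⟩ := hm
    rw [← inner_sub_right] at hm2
    have h3 : ‖cen ρ m - cen ρ m0‖ ≤ 2 * L := by
      have h4 := norm_le_orth hN (cen ρ m - cen ρ m0)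
      have h5 := ho m hm m0 hm0
      linarith
    exact ⟨hm, aligned_mem hN (hN0 m0 hm0) (hδ m0 hm0) h3 (ho m hm m0 hm0)⟩
  have h3 : 2 * ((10 * a + K * ρ) / 9 / L) + 3 ≤ 20 / 9 * (a / L) + 4 := by
    have h4 : K * ρ / L ≤ 1 := by rwa [div_le_one hL]
    have e : 2 * ((10 * a + K * ρ) / 9 / L) = 20 / 9 * (a / L) + 2 / 9 * (K * ρ / L) := by
      field_simp
      ring
    rw [e]
    linarith
  have ha0 : 0 ≤ a := (abs_nonneg _).trans (ha m0 hm0 m0 hm0)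
  have h5 : (((w.filter fun m => |(inner ℝ N (cen ρ m) : ℝ) - inner ℝ N (cen ρ m0)| ≤ L).card : ℕ) : ℝ)
      ≤ ((w.filter fun m =>
        cen ρ m ∈ RectF (N0 m0) (cen ρ m0) (2 * L) (K * ρ + 2 * δ * (2 * L))).card : ℝ) := by
    exact_mod_cast h2
  exact mul_le_mul h3 h5 (Nat.cast_nonneg _) (by positivity)

end Crest.Agent.R138.Rect779
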