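import Crest.Agent.R138.Loc2_878

/-!
# R138 / R139: combinatorial densities of a selected wave (helper480).

`Ac n h ρ g S M z x` = density at scale `ρ⁻¹` around the point `x` (at the time `0` of the frame `z`)
of the selected packets `S m`, `m ∈ M`, of level `ρ`; `Ad` = density of the packets whose cap is
near the cap `m'` of level `ρ'`.
Monotone, slowly varying with the same power (`Ac_shift`), `sum_Ac_le` (overlap), `lower` (LOWER of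
the slab step as finite counting), `upper` (bridge from 878's `loc_core_rep`), `tiny`.
-/

set_option autoImplicit false
set_option linter.unusedSectionVars false

open MeasureTheory FourierTransform
open scoped ContDiff ENNReal

namespace Crest.Agent.R138.Ad480

open Crest.Agent.R138.Defs Crest.Agent.R138.Wpk685 Crest.Agent.R138.Loc878
open Crest.Agent.R138.W188 (tr)

/-- polynomial weight at scale `ρ⁻¹`. -/
noncomputable def wa (ρ : ℝ) (n : ℕ) (v : E2) : ℝ := ((1 + ρ * ‖v‖) ^ n)⁻¹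

theorem wa_pos {ρ : ℝ} (hρ : 0 ≤ ρ) (n : ℕ) (v : E2) : 0 < wa ρ n v := by
  unfold wa; positivity

theorem wa_le_one {ρ : ℝ} (hρ : 0 ≤ ρ) (n : ℕ) (v : E2) : wa ρ n v ≤ 1 := by
  unfold wa
  have : 0 ≤ ρ * ‖v‖ := by positivity
  exact inv_le_one_of_one_le₀ (one_le_pow₀ (by linarith))

theorem wa_cont {ρ : ℝ} (hρ : 0 ≤ ρ) (n : ℕ) : Continuous (wa ρ n) := by
  unfold wa
  refine Continuous.inv₀ (by fun_prop) fun v => ?_
  have : 0 ≤ ρ * ‖v‖ := by positivity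
  positivity

/-- slowly varying with the same power. -/
theorem wa_shift {ρ δ : ℝ} (hρ : 0 ≤ ρ) (hδ : 0 ≤ δ) (n : ℕ) {v v' : E2} (h : ρ * ‖v' - v‖ ≤ δ) :
    wa ρ n v ≤ (1 + δ) ^ n * wa ρ n v' := by
  unfold wa
  have h1 : 0 ≤ ρ * ‖v‖ := by positivity
  have h2 : 0 ≤ ρ * ‖v'‖ := by positivity
  rw [← div_eq_mul_inv, inv_eq_one_div, div_le_div_iff₀ (by positivity) (by positivity), one_mul,
    ← mul_pow]
  refine pow_le_pow_left₀ (by positivity) ?_ n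
  have h3 : ‖v'‖ ≤ ‖v' - v‖ + ‖v‖ := by simpa using norm_add_le (v' - v) v
  have h4 := mul_le_mul_of_nonneg_left h3 hρ
  nlinarith [mul_nonneg hδ h1]

theorem wa_ball {ρ X : ℝ} (hρ : 0 ≤ ρ) (hX : 0 ≤ X) (n : ℕ) {v : E2} (h : ρ * ‖v‖ ≤ X) :
    1 ≤ (1 + X) ^ n * wa ρ n v := by
  have h1 := wa_shift hρ hX n (v := (0 : E2)) (v' := v) (by simpa using h)
  have h2 : wa ρ n (0 : E2) = 1 := by unfold wa; simp
  rwa [h2] at h1

/-- density of the selected packets with caps in `M`. -/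
noncomputable def Ac (n : ℕ) (h : E2 → ℝ) (ρ : ℝ) (g : E2 → ℂ) (S : ℤ × ℤ → Set E2)
    (M : Finset (ℤ × ℤ)) (z : E2 × ℝ) (x : E2) : ℝ≥0∞ :=
  ENNReal.ofReal (ρ ^ 2) * ∑ m ∈ M, ∫⁻ y in S m,
    ENNReal.ofReal (wa ρ n (y - z.1 - z.2 • gradient h (cen ρ m) - x)) * ‖um ρ g m y‖ₑ ^ 2

/-- density of the selected packets with caps near the cap `m'` of level `ρ'`. -/
noncomputable def Ad (n : ℕ) (h : E2 → ℝ) (ρ ρ' : ℝ) (g : E2 → ℂ) (S : ℤ × ℤ → Set E2)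
    (m' : ℤ × ℤ) (z : E2 × ℝ) (x : E2) : ℝ≥0∞ := Ac n h ρ g S (nearL ρ ρ' m') z x

variable {n : ℕ} {h : E2 → ℝ} {ρ ρ' : ℝ} {g : E2 → ℂ} {S S' : ℤ × ℤ → Set E2}

theorem Ac_mono {M M' : Finset (ℤ × ℤ)} (hM : M ⊆ M') (hS : ∀ m ∈ M, S m ⊆ S' m) (z : E2 × ℝ)
    (x : E2) : Ac n h ρ g S M z x ≤ Ac n h ρ g S' M' z x := by
  unfold Ac
  refine mul_le_mul' le_rfl ((Finset.sum_le_sum fun m hm => ?_).trans
    (Finset.sum_le_sum_of_subset hM))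
  exact lintegral_mono_set (hS m hm)

theorem Ad_mono {m' : ℤ × ℤ} (hS : ∀ m, S m ⊆ S' m) (z : E2 × ℝ) (x : E2) :
    Ad n h ρ ρ' g S m' z x ≤ Ad n h ρ ρ' g S' m' z x :=
  Ac_mono le_rfl (fun m _ => hS m) z x

/-- slowly varying and transport, same power `n`. -/
theorem Ac_shift {M : Finset (ℤ × ℤ)} {δ : ℝ} (hρ : 0 ≤ ρ) (hδ : 0 ≤ δ) {z z' : E2 × ℝ} {x x' : E2}
    (hd : ∀ m ∈ M, ρ * ‖(z'.1 + z'.2 • gradient h (cen ρ m) + x') -
      (z.1 + z.2 • gradient h (cen ρ m) + x)‖ ≤ δ) :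
    Ac n h ρ g S M z x ≤ ENNReal.ofReal ((1 + δ) ^ n) * Ac n h ρ g S M z' x' := by
  unfold Ac
  rw [mul_left_comm]
  refine mul_le_mul' le_rfl ?_
  rw [Finset.mul_sum]
  refine Finset.sum_le_sum fun m hm => ?_
  rw [← lintegral_const_mul' _ _ ENNReal.ofReal_ne_top]
  refine lintegral_mono fun y => ?_
  rw [← mul_assoc, ← ENNReal.ofReal_mul (by positivity)]
  refine mul_le_mul' (ENNReal.ofReal_le_ofReal (wa_shift hρ hδ n ?_)) le_rfl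
  have e : y - z'.1 - z'.2 • gradient h (cen ρ m) - x' -
      (y - z.1 - z.2 • gradient h (cen ρ m) - x) =
      -((z'.1 + z'.2 • gradient h (cen ρ m) + x') - (z.1 + z.2 • gradient h (cen ρ m) + x)) := by
    abel
  rw [e, norm_neg]
  exact hd m hm

/-- `Ad` along a tube of level `ρ'`: it is enough to follow the cap `m'`. -/
theorem Ad_transport {δ L : ℝ} (hρ : 0 ≤ ρ) (hρ' : 0 ≤ ρ') (hδ : 0 ≤ δ) (hL0 : 0 ≤ L)
    (hL : ∀ ξ ξ', ‖gradient h ξ - gradient h ξ'‖ ≤ L * ‖ξ - ξ'‖) {m' : ℤ × ℤ}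
    {z z' : E2 × ℝ} {x x' : E2}
    (hd : ρ * ‖(z'.1 + z'.2 • gradient h (cen ρ' m') + x') -
      (z.1 + z.2 • gradient h (cen ρ' m') + x)‖ ≤ δ) :
    Ad n h ρ ρ' g S m' z x ≤
      ENNReal.ofReal ((1 + (δ + 3 * L * (ρ * ρ' * |z'.2 - z.2|))) ^ n) * Ad n h ρ ρ' g S m' z' x' := by
  unfold Ad
  refine Ac_shift hρ (by positivity) fun m hm => ?_
  have hn := (mem_nearL.1 hm).2
  unfold Near at hn
  have h1 : ‖gradient h (cen ρ m) - gradient h (cen ρ' m')‖ ≤ L * (3 * ρ') :=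
    (hL _ _).trans (mul_le_mul_of_nonneg_left hn.le hL0)
  have e : (z'.1 + z'.2 • gradient h (cen ρ m) + x') - (z.1 + z.2 • gradient h (cen ρ m) + x) =
      ((z'.1 + z'.2 • gradient h (cen ρ' m') + x') - (z.1 + z.2 • gradient h (cen ρ' m') + x)) +
        (z'.2 - z.2) • (gradient h (cen ρ m) - gradient h (cen ρ' m')) := by
    rw [smul_sub, sub_smul, sub_smul]
    abel
  rw [e]
  refine (mul_le_mul_of_nonneg_left (norm_add_le _ _) hρ).trans ?_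
  rw [mul_add, norm_smul, Real.norm_eq_abs]
  have h2 : ρ * (|z'.2 - z.2| * ‖gradient h (cen ρ m) - gradient h (cen ρ' m')‖) ≤
      ρ * (|z'.2 - z.2| * (L * (3 * ρ'))) := by gcongr
  nlinarith

theorem Ac_le_en {M : Finset (ℤ × ℤ)} (hρ : 0 ≤ ρ) (hM : M ⊆ caps ρ) (z : E2 × ℝ) (x : E2) :
    Ac n h ρ g S M z x ≤ ENNReal.ofReal (ρ ^ 2) * en ρ g S := by
  unfold Ac en
  refine mul_le_mul' le_rfl ((Finset.sum_le_sum fun m hm => ?_).trans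
    (Finset.sum_le_sum_of_subset hM))
  refine lintegral_mono fun y => ?_
  calc ENNReal.ofReal (wa ρ n (y - z.1 - z.2 • gradient h (cen ρ m) - x)) * ‖um ρ g m y‖ₑ ^ 2 ≤
        1 * ‖um ρ g m y‖ₑ ^ 2 := by
        refine mul_le_mul' ?_ le_rfl
        rw [← ENNReal.ofReal_one]
        exact ENNReal.ofReal_le_ofReal (wa_le_one hρ _ _)
    _ = _ := one_mul _

theorem nearL_sub (ρ ρ' : ℝ) (m' : ℤ × ℤ) : nearL ρ ρ' m' ⊆ caps ρ := fun _ hm => (mem_nearL.1 hm).1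

theorem Ad_le_en (hρ : 0 ≤ ρ) (m' : ℤ × ℤ) (z : E2 × ℝ) (x : E2) :
    Ad n h ρ ρ' g S m' z x ≤ ENNReal.ofReal (ρ ^ 2) * en ρ g S := Ac_le_en hρ (nearL_sub _ _ _) z x

/-- the packets which pass through the ball of radius `X / ρ` around the point are counted. -/
theorem le_Ac {M : Finset (ℤ × ℤ)} {X : ℝ} (hρ : 0 ≤ ρ) (hX : 0 ≤ X) {T : ℤ × ℤ → Set E2}
    {z : E2 × ℝ} {x : E2} (hT : ∀ m ∈ M, ∀ y ∈ T m,
      ρ * ‖y - z.1 - z.2 • gradient h (cen ρ m) - x‖ ≤ X) (hTm : ∀ m ∈ M, MeasurableSet (T m))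
    (hSm : ∀ m ∈ M, MeasurableSet (S m)) :
    ENNReal.ofReal (ρ ^ 2) * ∑ m ∈ M, ∫⁻ y in S m ∩ T m, ‖um ρ g m y‖ₑ ^ 2 ≤
      ENNReal.ofReal ((1 + X) ^ n) * Ac n h ρ g S M z x := by
  unfold Ac
  rw [mul_left_comm]
  refine mul_le_mul' le_rfl ?_
  rw [Finset.mul_sum]
  refine Finset.sum_le_sum fun m hm => ?_
  rw [← lintegral_const_mul' _ _ ENNReal.ofReal_ne_top]
  refine (setLIntegral_mono' ((hSm m hm).inter (hTm m hm)) fun y hy => ?_).trans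
    (lintegral_mono_set Set.inter_subset_left)
  rw [← mul_assoc, ← ENNReal.ofReal_mul (by positivity)]
  calc ‖um ρ g m y‖ₑ ^ 2 = 1 * ‖um ρ g m y‖ₑ ^ 2 := (one_mul _).symm
    _ ≤ _ := by
        refine mul_le_mul' ?_ le_rfl
        rw [← ENNReal.ofReal_one]
        exact ENNReal.ofReal_le_ofReal (wa_ball hρ hX n (hT m hm y hy.2))

open Classical in
/-- sum of densities of families of caps with overlap `K`. -/
theorem sum_Ac_le {β : Type*} (T : Finset β) (N : β → Finset (ℤ × ℤ)) {M : Finset (ℤ × ℤ)} {K : ℕ}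
    (hN : ∀ b ∈ T, N b ⊆ M) (hK : ∀ m ∈ M, (T.filter (fun b => m ∈ N b)).card ≤ K) (z : E2 × ℝ)
    (x : E2) : ∑ b ∈ T, Ac n h ρ g S (N b) z x ≤ K * Ac n h ρ g S M z x := by
  unfold Ac
  rw [← Finset.mul_sum, mul_left_comm]
  refine mul_le_mul' le_rfl ?_
  set a : ℤ × ℤ → ℝ≥0∞ := fun m => ∫⁻ y in S m,
    ENNReal.ofReal (wa ρ n (y - z.1 - z.2 • gradient h (cen ρ m) - x)) * ‖um ρ g m y‖ₑ ^ 2 with ha
  have h1 : ∑ b ∈ T, ∑ m ∈ N b, a m = ∑ m ∈ M, ∑ b ∈ T.filter (fun b => m ∈ N b), a m := by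
    refine Finset.sum_comm' fun b m => ?_
    simp only [Finset.mem_filter]
    constructor
    · rintro ⟨hb, hm⟩
      exact ⟨⟨hb, hm⟩, hN b hb hm⟩
    · rintro ⟨⟨hb, hm⟩, _⟩
      exact ⟨hb, hm⟩
  rw [h1, Finset.mul_sum]
  refine Finset.sum_le_sum fun m hm => ?_
  rw [Finset.sum_const, nsmul_eq_mul]
  exact mul_le_mul' (by exact_mod_cast hK m hm) le_rfl

open Classical in
theorem card_filter_nearL (hρ' : 0 < ρ') {T : Finset (ℤ × ℤ)} (hT : T ⊆ caps ρ') (m : ℤ × ℤ) :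
    (T.filter (fun m' => m ∈ nearL ρ ρ' m')).card ≤ 36 := by
  refine (Finset.card_le_card fun m' hm' => ?_).trans (card_nearS (ρ := ρ) hρ' m)
  obtain ⟨h1, h2⟩ := Finset.mem_filter.1 hm'
  exact mem_nearS.2 ⟨hT h1, (mem_nearL.1 h2).2⟩

theorem sum_Ad_le (hρ' : 0 < ρ') {T : Finset (ℤ × ℤ)} (hT : T ⊆ caps ρ') {M : Finset (ℤ × ℤ)}
    (hM : ∀ m' ∈ T, nearL ρ ρ' m' ⊆ M) (z : E2 × ℝ) (x : E2) :
    ∑ m' ∈ T, Ad n h ρ ρ' g S m' z x ≤ 36 * Ac n h ρ g S M z x := by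
  classical
  have := sum_Ac_le (n := n) (h := h) (ρ := ρ) (g := g) (S := S) T (fun m' => nearL ρ ρ' m') hM
    (K := 36) (fun m _ => card_filter_nearL hρ' hT m) z x
  exact_mod_cast this

open Classical in
/-- **LOWER** (finite counting): `U b` = the rectangle of caps around the member `b` at the point
`(zz b, yy b)`, every cap is in at most `K1` rectangles, every rectangle has at least `p` caps with
density at least `A`, all the tubes pass near the point `(z, x)`. -/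
theorem lower {β : Type*} (T : Finset β) (U : β → Finset (ℤ × ℤ)) {K1 p : ℕ} {δ : ℝ} {A : ℝ≥0∞}
    (hρ : 0 ≤ ρ) (hρ' : 0 < ρ') (hδ : 0 ≤ δ) (hU : ∀ b ∈ T, U b ⊆ caps ρ')
    (hK1 : ∀ m', (T.filter (fun b => m' ∈ U b)).card ≤ K1) (hp : ∀ b ∈ T, p ≤ (U b).card)
    (zz : β → E2 × ℝ) (yy : β → E2) (hA : ∀ b ∈ T, ∀ m' ∈ U b, A ≤ Ad n h ρ ρ' g S m' (zz b) (yy b))
    {z : E2 × ℝ} {x : E2} (hd : ∀ b ∈ T, ∀ m' ∈ U b, ∀ m ∈ nearL ρ ρ' m',
      ρ * ‖(z.1 + z.2 • gradient h (cen ρ m) + x) -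
        ((zz b).1 + (zz b).2 • gradient h (cen ρ m) + yy b)‖ ≤ δ)
    {M : Finset (ℤ × ℤ)} (hM : ∀ b ∈ T, ∀ m' ∈ U b, nearL ρ ρ' m' ⊆ M) :
    (T.card * p : ℝ≥0∞) * A ≤ ENNReal.ofReal ((1 + δ) ^ n) * ((36 * K1 : ℝ≥0∞) *
      Ac n h ρ g S M z x) := by
  have h1 : (T.card * p : ℝ≥0∞) * A ≤ ∑ b ∈ T, ∑ _m' ∈ U b, A := by
    rw [mul_assoc, ← nsmul_eq_mul]
    refine Finset.card_nsmul_le_sum T _ _ fun b hb => ?_
    rw [Finset.sum_const, nsmul_eq_mul]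
    exact mul_le_mul' (by exact_mod_cast hp b hb) le_rfl
  have h2 : ∑ b ∈ T, ∑ _m' ∈ U b, A ≤ ∑ b ∈ T, ∑ m' ∈ U b,
      ENNReal.ofReal ((1 + δ) ^ n) * Ad n h ρ ρ' g S m' z x := by
    refine Finset.sum_le_sum fun b hb => Finset.sum_le_sum fun m' hm' => ?_
    exact (hA b hb m' hm').trans (Ac_shift hρ hδ (hd b hb m' hm'))
  set W := T.biUnion U with hW
  have h3 : ∑ b ∈ T, ∑ m' ∈ U b, ENNReal.ofReal ((1 + δ) ^ n) * Ad n h ρ ρ' g S m' z x ≤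
      K1 * ∑ m' ∈ W, ENNReal.ofReal ((1 + δ) ^ n) * Ad n h ρ ρ' g S m' z x := by
    have e : ∑ b ∈ T, ∑ m' ∈ U b, ENNReal.ofReal ((1 + δ) ^ n) * Ad n h ρ ρ' g S m' z x =
        ∑ m' ∈ W, ∑ b ∈ T.filter (fun b => m' ∈ U b),
          ENNReal.ofReal ((1 + δ) ^ n) * Ad n h ρ ρ' g S m' z x := by
      refine Finset.sum_comm' fun b m' => ?_
      simp only [Finset.mem_filter, hW, Finset.mem_biUnion]
      constructor
      · rintro ⟨hb, hm⟩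
        exact ⟨⟨hb, hm⟩, b, hb, hm⟩
      · rintro ⟨⟨hb, hm⟩, _⟩
        exact ⟨hb, hm⟩
    rw [e, Finset.mul_sum]
    refine Finset.sum_le_sum fun m' _ => ?_
    rw [Finset.sum_const, nsmul_eq_mul]
    exact mul_le_mul' (by exact_mod_cast hK1 m') le_rfl
  have h4 : ∑ m' ∈ W, Ad n h ρ ρ' g S m' z x ≤ 36 * Ac n h ρ g S M z x := by
    refine sum_Ad_le hρ' (fun m' hm' => ?_) (fun m' hm' => ?_) z x
    · obtain ⟨b, hb, hm⟩ := Finset.mem_biUnion.1 hm'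
      exact hU b hb hm
    · obtain ⟨b, hb, hm⟩ := Finset.mem_biUnion.1 hm'
      exact hM b hb m' hm
  refine h1.trans (h2.trans (h3.trans ?_))
  rw [← Finset.mul_sum]
  calc (K1 : ℝ≥0∞) * (ENNReal.ofReal ((1 + δ) ^ n) * ∑ m' ∈ W, Ad n h ρ ρ' g S m' z x) ≤
        K1 * (ENNReal.ofReal ((1 + δ) ^ n) * (36 * Ac n h ρ g S M z x)) := by gcongr
    _ = _ := by ring

end Crest.Agent.R138.Ad480
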