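import Crest.Agent.R138.Pm_926

/-!
# R138: quasi-nested families of partitions and their profiles (helper926)

The partitions by flagged classes are nested only up to a bounded number of neighbours. `QFam` is the
corresponding notion, `QProf` the notion of profile which survives: sharp upper bounds for class
sizes, sharp upper bounds for the numbers of classes.
-/

set_option autoImplicit false
set_option linter.unusedSectionVars false
set_option linter.unusedVariables false

open Filter Topology MeasureTheory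
open scoped NNReal

namespace Crest.Agent.R138.Ex926

open Finset

/-- the points of `I` which lie in a `g`-class meeting the `f`-class of `i` -/
def two {ι κ κ' : Type*} [DecidableEq ι] [DecidableEq κ] [DecidableEq κ'] (I : Finset ι)
    (f : ι → κ) (g : ι → κ') (i : ι) : Finset ι :=
  I.filter fun x => g x ∈ (cls I f i).image g

theorem mem_two {ι κ κ' : Type*} [DecidableEq ι] [DecidableEq κ] [DecidableEq κ'] {I : Finset ι}
    {f : ι → κ} {g : ι → κ'} {i x : ι} :
    x ∈ two I f g i ↔ x ∈ I ∧ ∃ y ∈ I, f y = f i ∧ g x = g y := by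
  simp only [two, mem_filter, mem_image, mem_cls]
  constructor
  · rintro ⟨h1, y, ⟨h2, h3⟩, h4⟩; exact ⟨h1, y, h2, h3, h4.symm⟩
  · rintro ⟨h1, y, h2, h3, h4⟩; exact ⟨h1, y, ⟨h2, h3⟩, h4.symm⟩

/-- A sandwich net: every `p ∈ P` lies between two points of a finite set, close to each other. -/
def SNet {m : ℕ} (P : Set (Fin m → ℝ)) : Prop :=
  ∀ ε : ℝ, 0 < ε → ∃ G : Finset (Fin m → ℝ), (∀ q ∈ G, q ∈ P) ∧
    ∀ p ∈ P, ∃ q ∈ G, ∃ r ∈ G, q ≤ p ∧ p ≤ r ∧ ‖r - q‖ ≤ ε

variable {B : Base} {ι κ : ℕ → Type*} [∀ n, DecidableEq (ι n)] [∀ n, DecidableEq (κ n)] {m : ℕ}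

/-- **Quasi-nested family** of partitions on the parameter set `P`. -/
structure QFam (B : Base) {ι κ : ℕ → Type*} [∀ n, DecidableEq (ι n)] [∀ n, DecidableEq (κ n)]
    {m : ℕ} (I : ∀ n, Finset (ι n)) (f : ∀ n, (Fin m → ℝ) → ι n → κ n) (K : ℝ)
    (P : Set (Fin m → ℝ)) : Prop where
  nest : ∃ N : ℕ → ℝ, B.Sub N ∧ ∀ᶠ n in (U : Filter ℕ), ∀ p ∈ P, ∀ p' ∈ P, p ≤ p' → ∀ i ∈ I n,
    (((two (I n) (f n p) (f n p') i).image (f n p)).card : ℝ) ≤ N n
  child : ∀ ε : ℝ, 0 < ε → ∀ᶠ n in (U : Filter ℕ), ∀ p ∈ P, ∀ p' ∈ P, p ≤ p' → ∀ i ∈ I n,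
    (((cls (I n) (f n p) i).image (f n p')).card : ℝ) ≤ B.d n ^ (-(K * ‖p' - p‖ + ε))

/-- approximate join property -/
def QJoin (B : Base) {ι κ : ℕ → Type*} [∀ n, DecidableEq (ι n)] [∀ n, DecidableEq (κ n)]
    {m : ℕ} (I : ∀ n, Finset (ι n)) (f : ∀ n, (Fin m → ℝ) → ι n → κ n)
    (P : Set (Fin m → ℝ)) : Prop :=
  ∃ N : ℕ → ℝ, B.Sub N ∧ ∀ᶠ n in (U : Filter ℕ), ∀ p ∈ P, ∀ q ∈ P, ∀ i ∈ I n,
    (((cls (I n) (f n p) i ∩ cls (I n) (f n q) i).image (f n (p ⊔ q))).card : ℝ) ≤ N n

/-- **Profile** of `I` with respect to a quasi-nested family. -/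
structure QProf (B : Base) {ι κ : ℕ → Type*} [∀ n, DecidableEq (ι n)] [∀ n, DecidableEq (κ n)]
    {V : Type*} [LE V] (I : ∀ n, Finset (ι n)) (f : ∀ n, V → ι n → κ n) (P : Set V) (ν : V → ℝ) :
    Prop where
  up : ∀ ε : ℝ, 0 < ε → ∀ᶠ n in (U : Filter ℕ), ∀ p ∈ P, ∀ i ∈ I n,
    ((cls (I n) (f n p) i).card : ℝ) ≤ B.d n ^ (-(ν p + ε))
  num : ∀ ε : ℝ, 0 < ε → ∀ᶠ n in (U : Filter ℕ), ∀ q ∈ P, ∀ p ∈ P, q ≤ p → ∀ i ∈ I n,
    (((cls (I n) (f n q) i).image (f n p)).card : ℝ) ≤ B.d n ^ (-(ν q - ν p + ε))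
  root : ∀ ε : ℝ, 0 < ε → ∀ᶠ n in (U : Filter ℕ), ∀ p ∈ P,
    (((I n).image (f n p)).card : ℝ) ≤ (I n).card * B.d n ^ (ν p - ε)

/-- `#(A.image f) ≤ N #(A.image g)` if every `g`-class of `A` meets at most `N` `f`-classes. -/
theorem card_image_le_mul {α β γ : Type*} [DecidableEq α] [DecidableEq β] [DecidableEq γ]
    (A : Finset α) (f : α → β) (g : α → γ) {N : ℝ}
    (h : ∀ x ∈ A, (((cls A g x).image f).card : ℝ) ≤ N) :
    ((A.image f).card : ℝ) ≤ N * (A.image g).card := by
  classical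
  have h1 : A.image f ⊆ (A.image g).biUnion fun c => (A.filter fun x => g x = c).image f := by
    intro b hb
    obtain ⟨x, hx, rfl⟩ := mem_image.1 hb
    exact mem_biUnion.2 ⟨g x, mem_image_of_mem _ hx,
      mem_image_of_mem _ (mem_filter.2 ⟨hx, rfl⟩)⟩
  have h2 : ((A.image f).card : ℝ) ≤
      ∑ c ∈ A.image g, (((A.filter fun x => g x = c).image f).card : ℝ) := by
    exact_mod_cast (card_le_card h1).trans card_biUnion_le
  refine h2.trans ?_
  have h3 : ∀ c ∈ A.image g, (((A.filter fun x => g x = c).image f).card : ℝ) ≤ N := by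
    intro c hc
    obtain ⟨x, hx, rfl⟩ := mem_image.1 hc
    exact h x hx
  calc _ ≤ ∑ c ∈ A.image g, N := sum_le_sum h3
    _ = N * (A.image g).card := by rw [sum_const, nsmul_eq_mul, mul_comm]

theorem two_mono {ι κ κ' : Type*} [DecidableEq ι] [DecidableEq κ] [DecidableEq κ']
    {I I' : Finset ι} (h : I' ⊆ I) (f : ι → κ) (g : ι → κ') (i : ι) :
    two I' f g i ⊆ two I f g i := by
  intro x hx
  obtain ⟨h1, y, h2, h3, h4⟩ := mem_two.1 hx
  exact mem_two.2 ⟨h h1, y, h h2, h3, h4⟩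

theorem cls_sub_two {ι κ κ' : Type*} [DecidableEq ι] [DecidableEq κ] [DecidableEq κ']
    {I : Finset ι} (f : ι → κ) (g : ι → κ') {i : ι} (hi : i ∈ I) :
    cls I g i ⊆ two I f g i := by
  intro x hx
  obtain ⟨h1, h2⟩ := mem_cls.1 hx
  exact mem_two.2 ⟨h1, i, hi, rfl, h2⟩

theorem cls_sub_two' {ι κ κ' : Type*} [DecidableEq ι] [DecidableEq κ] [DecidableEq κ']
    {I : Finset ι} (f : ι → κ) (g : ι → κ') {i : ι} :
    cls I f i ⊆ two I f g i := by
  intro x hx
  obtain ⟨h1, h2⟩ := mem_cls.1 hx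
  exact mem_two.2 ⟨h1, x, h1, h2, rfl⟩

theorem QFam.mono {I I' : ∀ n, Finset (ι n)} {f : ∀ n, (Fin m → ℝ) → ι n → κ n} {K : ℝ}
    {P P' : Set (Fin m → ℝ)} (h : QFam B I f K P) (hI : ∀ᶠ n in (U : Filter ℕ), I' n ⊆ I n)
    (hP : P' ⊆ P) : QFam B I' f K P' where
  nest := by
    obtain ⟨N, hN, h1⟩ := h.nest
    refine ⟨N, hN, ?_⟩
    filter_upwards [h1, hI] with n h1 h2 p hp p' hp' hpp i hi
    refine le_trans ?_ (h1 p (hP hp) p' (hP hp') hpp i (h2 hi))
    exact_mod_cast card_le_card (image_subset_image (two_mono h2 _ _ _))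
  child := fun ε hε => by
    filter_upwards [h.child ε hε, hI] with n h1 h2 p hp p' hp' hpp i hi
    refine le_trans ?_ (h1 p (hP hp) p' (hP hp') hpp i (h2 hi))
    exact_mod_cast card_le_card (image_subset_image (cls_mono h2 _ _))

theorem QJoin.mono {I I' : ∀ n, Finset (ι n)} {f : ∀ n, (Fin m → ℝ) → ι n → κ n}
    {P P' : Set (Fin m → ℝ)} (h : QJoin B I f P) (hI : ∀ᶠ n in (U : Filter ℕ), I' n ⊆ I n)
    (hP : P' ⊆ P) : QJoin B I' f P' := by
  obtain ⟨N, hN, h1⟩ := h
  refine ⟨N, hN, ?_⟩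
  filter_upwards [h1, hI] with n h1 h2 p hp q hq i hi
  refine le_trans ?_ (h1 p (hP hp) q (hP hq) i (h2 hi))
  exact_mod_cast card_le_card (image_subset_image (inter_subset_inter (cls_mono h2 _ _)
    (cls_mono h2 _ _)))

theorem Base.Sub.ev_le {S : ℕ → ℝ} (h : B.Sub S) {ε : ℝ} (hε : 0 < ε) :
    ∀ᶠ n in (U : Filter ℕ), 0 < S n ∧ Real.log (S n) ≤ ε * B.L n := by
  have h1 := (Base.Sub.iff.1 h).2
  have h2 := h1.eventually_lt_const hε
  filter_upwards [h2, h.1.pos] with n hn hp
  simp only [Base.lg] at hn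
  rw [div_lt_iff₀ (B.L_pos n)] at hn
  exact ⟨hp, hn.le⟩

theorem Base.log_d (B : Base) (n : ℕ) : Real.log (B.d n) = - B.L n := by simp [Base.L]

theorem Base.exp_eq (B : Base) (n : ℕ) (t : ℝ) : Real.exp (t * B.L n) = B.d n ^ (-t) := by
  rw [Real.rpow_def_of_pos (B.pos n), B.log_d]
  congr 1; ring

theorem Base.ev_const_log (B : Base) (c : ℝ) {ε : ℝ} (hε : 0 < ε) :
    ∀ᶠ n in (U : Filter ℕ), c ≤ ε * B.L n := by
  filter_upwards [B.ev_L_ge (c / ε)] with n hn
  rw [div_le_iff₀ hε] at hn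
  linarith

/-- **Main theorem on quasi-nested families**: countably many families at once. -/
theorem exists_qprof_many {J : Type*} [Countable J] {m : J → ℕ}
    {κ : J → ℕ → Type*} [∀ j n, DecidableEq (κ j n)] {I : ∀ n, Finset (ι n)}
    {f : ∀ j n, (Fin (m j) → ℝ) → ι n → κ j n} {K : J → ℝ} (hK : ∀ j, 0 ≤ K j)
    {P : ∀ j, Set (Fin (m j) → ℝ)} (hnet : ∀ j, SNet (P j)) (hcomp : ∀ j, IsCompact (P j))
    (hsup : ∀ j, ∀ p ∈ P j, ∀ q ∈ P j, p ⊔ q ∈ P j)
    (hf : ∀ j, QFam B I (f j) (K j) (P j))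
    (hI : ∀ᶠ n in (U : Filter ℕ), (I n).Nonempty) {C : ℝ} (hC : 0 ≤ C)
    (hcard : ∀ᶠ n in (U : Filter ℕ), ((I n).card : ℝ) ≤ B.d n ^ (-C)) :
    ∃ (I' : ∀ n, Finset (ι n)) (S : ℕ → ℝ), B.Sub S ∧
      (∀ᶠ n in (U : Filter ℕ), I' n ⊆ I n ∧ (I' n).Nonempty ∧
        ((I n).card : ℝ) ≤ S n * (I' n).card ∧ 1 ≤ S n) ∧
      ∀ j, ∃ ν : (Fin (m j) → ℝ) → ℝ, QProf B I' (f j) (P j) ν ∧
        (∀ p ∈ P j, ∀ q ∈ P j, |ν p - ν q| ≤ K j * ‖p - q‖) ∧
        (∀ p ∈ P j, ∀ q ∈ P j, p ≤ q → ν q ≤ ν p) := by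
  classical
  -- the countable list of partitions
  have hnet' : ∀ j (l : ℕ), ∃ G : Finset (Fin (m j) → ℝ), (∀ q ∈ G, q ∈ P j) ∧
      ∀ p ∈ P j, ∃ q ∈ G, ∃ r ∈ G, q ≤ p ∧ p ≤ r ∧ ‖r - q‖ ≤ 1 / ((l : ℝ) + 1) :=
    fun j l => hnet j _ (by positivity)
  choose G hGP hG using hnet'
  obtain ⟨e, he⟩ := exists_surjective_nat (Option (Σ j : J, Σ l : ℕ, {g // g ∈ G j l}))
  set lab : ∀ n, ℕ → ι n → Option (Σ j : J, κ j n) := fun n a i =>
    match e a with
    | none => none
    | some x => some ⟨x.1, f x.1 n x.2.2.1 i⟩ with hlab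
  obtain ⟨I', M, S, k, hS, hk, hev⟩ := uniform_countable B I
    (κ := fun n => Option (Σ j : J, κ j n)) lab hI hC hcard
  have hbasic : ∀ᶠ n in (U : Filter ℕ), I' n ⊆ I n ∧ (I' n).Nonempty ∧
        ((I n).card : ℝ) ≤ S n * (I' n).card ∧ 1 ≤ S n :=
    hev.mono fun n hn => ⟨hn.1, hn.2.1, hn.2.2.1, hn.2.2.2.1⟩
  refine ⟨I', S, hS, hbasic, fun j => ?_⟩
  choose idx hidx using he
  -- classes of the labels
  have hcl : ∀ n (A : Finset (ι n)) (l : ℕ) (g : {g // g ∈ G j l}) (i : ι n),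
      cls A (lab n (idx (some ⟨j, l, g⟩))) i = cls A (f j n g.1) i := by
    intro n A l g i
    ext y
    rw [mem_cls, mem_cls]
    simp only [hlab, hidx]
    simp
  -- uniformity on the nets
  have hMnet : ∀ l : ℕ, ∀ᶠ n in (U : Filter ℕ), ∀ g ∈ G j l, ∃ M : ℝ, 1 ≤ M ∧ ∀ i ∈ I' n,
      ((cls (I' n) (f j n g) i).card : ℝ) ≤ 2 * M ∧ M ≤ S n * (cls (I' n) (f j n g) i).card := by
    intro l
    have hidxk : ∀ᶠ n in (U : Filter ℕ), ∀ g ∈ (G j l).attach, idx (some ⟨j, l, g⟩) ≤ k n := by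
      rw [Filter.eventually_all_finset]
      intro g _
      exact hk.eventually_ge_atTop _
    filter_upwards [hev, hidxk] with n h1 h2 g hg
    obtain ⟨hsub, -, -, -, hMM⟩ := h1
    have h3 := hMM _ (h2 ⟨g, hg⟩ (mem_attach _ _))
    simp only [hcl] at h3
    refine ⟨_, h3.1, fun i hi => ⟨le_trans ?_ (h3.2 i hi).2.1, (h3.2 i hi).2.2⟩⟩
    exact_mod_cast card_le_card (cls_mono hsub _ _)
  have hsub : ∀ᶠ n in (U : Filter ℕ), I' n ⊆ I n := hbasic.mono fun n hn => hn.1
  have hne : ∀ᶠ n in (U : Filter ℕ), (I' n).Nonempty := hbasic.mono fun n hn => hn.2.1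
  have hf' : QFam B I' (f j) (K j) (P j) := (hf j).mono hsub (Set.Subset.refl _)
  obtain ⟨N, hN, hnest⟩ := hf'.nest
  -- average exponents
  set φ : ℕ → (Fin (m j) → ℝ) → ℝ := fun n p =>
    (Real.log ((I' n).card) - Real.log (((I' n).image (f j n p)).card)) / B.L n with hφ
  -- comparison of the numbers of classes
  have hcnt : ∀ ε : ℝ, 0 < ε → ∀ᶠ n in (U : Filter ℕ), ∀ p ∈ P j, ∀ q ∈ P j, p ≤ q →
      φ n q ≤ φ n p + ε ∧ φ n p ≤ φ n q + K j * ‖p - q‖ + ε := by
    intro ε hε
    filter_upwards [hnest, hf'.child ε hε, hN.ev_le hε, hne] with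
      n h1 h2 h3 h4 p hp q hq hpq
    have hL := B.L_pos n
    obtain ⟨i, hi⟩ := h4
    have hpc : (1 : ℝ) ≤ ((I' n).image (f j n p)).card := by
      have : 0 < ((I' n).image (f j n p)).card := card_pos.2 ⟨_, mem_image_of_mem _ hi⟩
      exact_mod_cast this
    have hqc : (1 : ℝ) ≤ ((I' n).image (f j n q)).card := by
      have : 0 < ((I' n).image (f j n q)).card := card_pos.2 ⟨_, mem_image_of_mem _ hi⟩
      exact_mod_cast this
    have c1 : (((I' n).image (f j n p)).card : ℝ) ≤ N n * ((I' n).image (f j n q)).card := by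
      refine card_image_le_mul _ _ _ fun x hx => ?_
      refine le_trans ?_ (h1 p hp q hq hpq x hx)
      exact_mod_cast card_le_card (image_subset_image (cls_sub_two _ _ hx))
    have c2 : (((I' n).image (f j n q)).card : ℝ) ≤
        B.d n ^ (-(K j * ‖q - p‖ + ε)) * ((I' n).image (f j n p)).card :=
      card_image_le_mul _ _ _ fun x hx => h2 p hp q hq hpq x hx
    have hdp := Real.rpow_pos_of_pos (B.pos n) (-(K j * ‖q - p‖ + ε))
    have l1 := Real.log_le_log (by linarith) c1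
    have l2 := Real.log_le_log (by linarith) c2
    rw [Real.log_mul h3.1.ne' (by linarith)] at l1
    rw [Real.log_mul hdp.ne' (by linarith), Real.log_rpow (B.pos n), B.log_d] at l2
    rw [norm_sub_rev p q]
    constructor
    · rw [hφ]; simp only
      rw [div_le_iff₀ hL, add_mul, div_mul_cancel₀ _ hL.ne']
      linarith [h3.2]
    · rw [hφ]; simp only
      rw [div_le_iff₀ hL, add_mul, add_mul, div_mul_cancel₀ _ hL.ne']
      linarith
  have key : ∀ ε : ℝ, 0 < ε → ∀ᶠ n in (U : Filter ℕ), ∀ p ∈ P j, ∀ q ∈ P j,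
      φ n p ≤ φ n q + K j * ‖p - q‖ + ε := by
    intro ε hε
    filter_upwards [hcnt (ε / 2) (by positivity)] with n h1 p hp q hq
    have hr := hsup j p hp q hq
    have e1 := (h1 p hp _ hr le_sup_left).2
    have e2 := (h1 q hq _ hr le_sup_right).1
    have e3 : ‖p - p ⊔ q‖ ≤ ‖p - q‖ := by
      refine (pi_norm_le_iff_of_nonneg (norm_nonneg _)).2 fun a => ?_
      have h6 := norm_le_pi_norm (p - q) a
      rw [Pi.sub_apply, Real.norm_eq_abs] at h6 ⊢
      refine le_trans ?_ h6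
      rw [Pi.sup_apply]
      rcases le_total (p a) (q a) with h7 | h7
      · rw [sup_eq_right.2 h7]
      · rw [sup_eq_left.2 h7, sub_self, abs_zero]; exact abs_nonneg _
    have e4 := mul_le_mul_of_nonneg_left e3 (hK j)
    linarith
  have halip : ALip (P j) (K j) φ := by
    intro ε hε
    filter_upwards [key ε hε] with n hn p hp q hq
    have e1 := hn p hp q hq
    have e2 := hn q hq p hp
    rw [norm_sub_rev] at e2
    rw [abs_le, dist_eq_norm]
    constructor <;> linarith
  have hbd : ∀ p, ∀ᶠ n in (U : Filter ℕ), |φ n p| ≤ C := by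
    intro p
    filter_upwards [hne, hsub, hcard] with n h1 h2 h3
    obtain ⟨i, hi⟩ := h1
    have hL := B.L_pos n
    have hpc : (1 : ℝ) ≤ ((I' n).image (f j n p)).card := by
      have : 0 < ((I' n).image (f j n p)).card := card_pos.2 ⟨_, mem_image_of_mem _ hi⟩
      exact_mod_cast this
    have hle : (((I' n).image (f j n p)).card : ℝ) ≤ (I' n).card := by exact_mod_cast card_image_le
    have hI' : ((I' n).card : ℝ) ≤ B.d n ^ (-C) := le_trans (by exact_mod_cast card_le_card h2) h3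
    have l1 := Real.log_le_log (by linarith) hle
    have l2 := Real.log_le_log (by linarith) hI'
    have l3 := Real.log_nonneg hpc
    rw [Real.log_rpow (B.pos n), B.log_d] at l2
    rw [hφ]; simp only
    rw [abs_div, abs_of_pos hL, abs_of_nonneg (by linarith), div_le_iff₀ hL]
    linarith
  have hlim : ∀ p, ∃ y, Tendsto (fun n => φ n p) U (𝓝 y) := fun p => by
    obtain ⟨y, hy, -⟩ := exists_tendsto (hbd p)
    exact ⟨y, hy⟩
  choose ν hν using hlim
  have hunif : ∀ ε : ℝ, 0 < ε → ∀ᶠ n in (U : Filter ℕ), ∀ p ∈ P j, |φ n p - ν p| ≤ ε :=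
    fun ε hε => unif_of_lip (hcomp j) (hK j) halip (fun p _ => hν p) hε
  have hlip := halip.limit (fun p _ => hν p)
  have hanti : ∀ p ∈ P j, ∀ q ∈ P j, p ≤ q → ν q ≤ ν p := by
    intro p hp q hq hpq
    refine le_of_forall_pos_le_add fun ε hε => ?_
    have h1 : Tendsto (fun n => φ n p + ε) U (𝓝 (ν p + ε)) := (hν p).add_const ε
    refine le_of_tendsto_of_tendsto (hν q) h1 ?_
    filter_upwards [hcnt ε hε] with n hn
    exact (hn p hp q hq hpq).1
  -- net level for a given precision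
  have hlev : ∀ ε : ℝ, 0 < ε → ∃ l : ℕ, K j * (1 / ((l : ℝ) + 1)) ≤ ε := by
    intro ε hε
    obtain ⟨N, hN⟩ := exists_nat_gt (K j / ε)
    refine ⟨N, ?_⟩
    rw [div_lt_iff₀ hε] at hN
    rw [mul_one_div, div_le_iff₀ (by positivity)]
    nlinarith
  -- uniform statement on the nets
  have hnetφ : ∀ l : ℕ, ∀ ε : ℝ, 0 < ε → ∀ᶠ n in (U : Filter ℕ), ∀ g ∈ G j l, ∀ i ∈ I' n,
      Real.log ((cls (I' n) (f j n g) i).card) ≤ (φ n g + ε) * B.L n ∧
      (φ n g - ε) * B.L n ≤ Real.log ((cls (I' n) (f j n g) i).card) := by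
    intro l ε hε
    filter_upwards [hMnet l, hS.ev_le (ε := ε / 2) (by positivity),
      B.ev_const_log (Real.log 2) (ε := ε / 2) (by positivity), hbasic] with n h1 h2 h3 h4 g hg i hi
    obtain ⟨M, hM1, hM⟩ := h1 g hg
    have hL := B.L_pos n
    have hSn := h2.1
    have hcI : (1 : ℝ) ≤ ((I' n).image (f j n g)).card := by
      have : 0 < ((I' n).image (f j n g)).card := card_pos.2 ⟨_, mem_image_of_mem _ hi⟩
      exact_mod_cast this
    have hI1 : (1 : ℝ) ≤ (I' n).card := by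
      have : 0 < (I' n).card := card_pos.2 ⟨_, hi⟩
      exact_mod_cast this
    have hci : (1 : ℝ) ≤ (cls (I' n) (f j n g) i).card := cls_card_pos hi
    -- `|I'| ≤ 2 M #classes`
    have c1 : ((I' n).card : ℝ) ≤ 2 * M * ((I' n).image (f j n g)).card := by
      have := le_count_mul (I' n) (fun _ => (1 : ℝ)) (f j n g) (m := 2 * M) (fun x hx => by
        rw [sum_const, nsmul_eq_mul, mul_one]; exact (hM x hx).1)
      rwa [sum_const, nsmul_eq_mul, mul_one] at this
    -- `(M / S) #classes ≤ |I'|`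
    have c2 : M / S n * ((I' n).image (f j n g)).card ≤ (I' n).card := by
      have := count_mul_le (I' n) (fun _ => (1 : ℝ)) (fun _ _ => zero_le_one) (f j n g)
        (m := M / S n) (fun x hx => by
          rw [sum_const, nsmul_eq_mul, mul_one, div_le_iff₀ hSn, mul_comm]; exact (hM x hx).2)
      rwa [sum_const, nsmul_eq_mul, mul_one] at this
    have l1 := Real.log_le_log (by linarith) c1
    rw [Real.log_mul (by positivity) (by linarith), Real.log_mul (by norm_num) (by linarith)] at l1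
    have l2 := Real.log_le_log (by positivity) c2
    rw [Real.log_mul (by positivity) (by linarith), Real.log_div (by linarith) hSn.ne'] at l2
    have l3 := Real.log_le_log (by linarith) (hM i hi).1
    rw [Real.log_mul (by norm_num) (by linarith)] at l3
    have l4 := Real.log_le_log (by linarith) (hM i hi).2
    rw [Real.log_mul hSn.ne' (by linarith)] at l4
    have hφL : φ n g * B.L n = Real.log ((I' n).card) -
        Real.log (((I' n).image (f j n g)).card) := by
      rw [hφ]; simp only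
      rw [div_mul_cancel₀ _ hL.ne']
    have hS2 := h2.2
    constructor
    · rw [add_mul, hφL]; linarith
    · rw [sub_mul, hφL]; linarith
  have hup : ∀ ε : ℝ, 0 < ε → ∀ᶠ n in (U : Filter ℕ), ∀ p ∈ P j, ∀ i ∈ I' n,
      Real.log ((cls (I' n) (f j n p) i).card) ≤ (ν p + ε) * B.L n := by
    intro ε hε
    obtain ⟨l, hl⟩ := hlev (ε / 4) (by positivity)
    filter_upwards [hnetφ l (ε / 4) (by positivity), hunif (ε / 4) (by positivity), hnest,
      hN.ev_le (ε := ε / 4) (by positivity)] with n h1 h2 h3 h4 p hp i hi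
    obtain ⟨q, hq, r, hr, hqp, hpr, hqr⟩ := hG j l p hp
    have hqP := hGP j l q hq
    have hL := B.L_pos n
    have hci : (1 : ℝ) ≤ (cls (I' n) (f j n p) i).card := cls_card_pos hi
    have c1 : ((cls (I' n) (f j n p) i).card : ℝ) ≤ Real.exp ((φ n q + ε / 4) * B.L n) * N n := by
      have := le_count_mul (cls (I' n) (f j n p) i) (fun _ => (1 : ℝ)) (f j n q)
        (m := Real.exp ((φ n q + ε / 4) * B.L n)) (fun x hx => by
          rw [sum_const, nsmul_eq_mul, mul_one]
          have x1 := (mem_cls.1 hx).1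
          have e1 : ((cls (cls (I' n) (f j n p) i) (f j n q) x).card : ℝ) ≤
              (cls (I' n) (f j n q) x).card := by
            exact_mod_cast card_le_card (cls_mono (cls_subset _ _ _) _ _)
          refine e1.trans ?_
          rw [← Real.log_le_iff_le_exp (by linarith [cls_card_pos (f := f j n q) x1])]
          exact (h1 q hq x x1).1)
      rw [sum_const, nsmul_eq_mul, mul_one] at this
      refine this.trans (mul_le_mul_of_nonneg_left ?_ (Real.exp_pos _).le)
      refine le_trans ?_ (h3 q hqP p hp hqp i hi)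
      exact_mod_cast card_le_card (image_subset_image (cls_sub_two _ _ hi))
    have l1 := Real.log_le_log (by linarith) c1
    rw [Real.log_mul (Real.exp_pos _).ne' h4.1.ne', Real.log_exp] at l1
    have e1 := (abs_le.1 (h2 q hqP)).2
    have e2 : ν q ≤ ν p + ε / 4 := by
      have h5 := (abs_le.1 (hlip q hqP p hp)).2
      have h6 : dist q p ≤ 1 / ((l : ℝ) + 1) := by
        rw [dist_eq_norm]
        refine le_trans ?_ hqr
        refine (pi_norm_le_iff_of_nonneg (norm_nonneg _)).2 fun a => ?_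
        have h7 := norm_le_pi_norm (r - q) a
        rw [Pi.sub_apply, Real.norm_eq_abs] at h7 ⊢
        refine le_trans ?_ h7
        rw [abs_sub_comm, abs_of_nonneg (by linarith [hqp a]),
          abs_of_nonneg (by linarith [hqp a, hpr a])]
        linarith [hpr a]
      have h8 := mul_le_mul_of_nonneg_left h6 (hK j)
      linarith
    have e3 : (φ n q + ε / 4) * B.L n ≤ (ν p + 3 * (ε / 4)) * B.L n :=
      mul_le_mul_of_nonneg_right (by linarith) hL.le
    have := h4.2
    nlinarith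
  have hnum : ∀ ε : ℝ, 0 < ε → ∀ᶠ n in (U : Filter ℕ), ∀ q ∈ P j, ∀ p ∈ P j, q ≤ p →
      ∀ i ∈ I' n, Real.log (((cls (I' n) (f j n q) i).image (f j n p)).card) ≤
        (ν q - ν p + ε) * B.L n := by
    intro ε hε
    obtain ⟨l, hl⟩ := hlev (ε / 8) (by positivity)
    filter_upwards [hnetφ l (ε / 8) (by positivity), hunif (ε / 8) (by positivity), hnest,
      hN.ev_le (ε := ε / 8) (by positivity), hup (ε / 8) (by positivity)] with
      n h1 h2 h3 h4 h5 q hq p hp hqp i hi
    obtain ⟨q₀, hq₀, r, hr, hqp₀, hpr, hqr⟩ := hG j l p hp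
    have hrP := hGP j l r hr
    have hL := B.L_pos n
    set A := cls (I' n) (f j n q) i with hA
    have hiA : i ∈ A := self_mem_cls hi
    have himg : (1 : ℝ) ≤ ((A.image (f j n p)).card : ℝ) := by
      have : 0 < (A.image (f j n p)).card := card_pos.2 ⟨_, mem_image_of_mem _ hiA⟩
      exact_mod_cast this
    -- `#p-classes ≤ N #r-classes`
    have c1 : ((A.image (f j n p)).card : ℝ) ≤ N n * (A.image (f j n r)).card := by
      refine card_image_le_mul _ _ _ fun x hx => ?_
      have x1 := (mem_cls.1 hx).1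
      refine le_trans ?_ (h3 p hp r hrP hpr x x1)
      exact_mod_cast card_le_card (image_subset_image
        ((cls_mono (cls_subset _ _ _) _ _).trans (cls_sub_two _ _ x1)))
    -- the union of the `r`-classes meeting `A`
    set W := two (I' n) (f j n q) (f j n r) i with hW
    have hAW : A ⊆ W := cls_sub_two' _ _
    have hqr' : q ≤ r := hqp.trans hpr
    have c2 : Real.exp ((φ n r - ε / 8) * B.L n) * ((A.image (f j n r)).card : ℝ) ≤ W.card := by
      have h6 : (A.image (f j n r)).card ≤ (W.image (f j n r)).card :=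
        card_le_card (image_subset_image hAW)
      have := count_mul_le W (fun _ => (1 : ℝ)) (fun _ _ => zero_le_one) (f j n r)
        (m := Real.exp ((φ n r - ε / 8) * B.L n)) (fun x hx => by
          rw [sum_const, nsmul_eq_mul, mul_one]
          obtain ⟨x1, y, y1, y2, y3⟩ := mem_two.1 hx
          have e1 : cls W (f j n r) x = cls (I' n) (f j n r) x := by
            ext z
            constructor
            · intro hz
              obtain ⟨z1, z2⟩ := mem_cls.1 hz
              exact mem_cls.2 ⟨(mem_two.1 z1).1, z2⟩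
            · intro hz
              obtain ⟨z1, z2⟩ := mem_cls.1 hz
              exact mem_cls.2 ⟨mem_two.2 ⟨z1, y, y1, y2, z2.trans y3⟩, z2⟩
          rw [e1, ← Real.le_log_iff_exp_le (by linarith [cls_card_pos (f := f j n r) x1])]
          exact (h1 r hr x x1).2)
      rw [sum_const, nsmul_eq_mul, mul_one] at this
      refine le_trans (mul_le_mul_of_nonneg_left ?_ (Real.exp_pos _).le) this
      exact_mod_cast h6
    have c3 : (W.card : ℝ) ≤ Real.exp ((ν q + ε / 8) * B.L n) * N n := by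
      have := le_count_mul W (fun _ => (1 : ℝ)) (f j n q)
        (m := Real.exp ((ν q + ε / 8) * B.L n)) (fun x hx => by
          rw [sum_const, nsmul_eq_mul, mul_one]
          have x1 := (mem_two.1 hx).1
          have e1 : ((cls W (f j n q) x).card : ℝ) ≤ (cls (I' n) (f j n q) x).card := by
            exact_mod_cast card_le_card (cls_mono (filter_subset _ _) _ _)
          refine e1.trans ?_
          rw [← Real.log_le_iff_le_exp (by linarith [cls_card_pos (f := f j n q) x1])]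
          exact h5 q hq x x1)
      rw [sum_const, nsmul_eq_mul, mul_one] at this
      exact this.trans (mul_le_mul_of_nonneg_left (h3 q hq r hrP hqr' i hi) (Real.exp_pos _).le)
    have himr : (1 : ℝ) ≤ ((A.image (f j n r)).card : ℝ) := by
      have : 0 < (A.image (f j n r)).card := card_pos.2 ⟨_, mem_image_of_mem _ hiA⟩
      exact_mod_cast this
    have l1 := Real.log_le_log (by linarith) c1
    rw [Real.log_mul h4.1.ne' (by linarith)] at l1
    have l2 := Real.log_le_log (by positivity) (c2.trans c3)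
    rw [Real.log_mul (Real.exp_pos _).ne' (by linarith), Real.log_exp,
      Real.log_mul (Real.exp_pos _).ne' h4.1.ne', Real.log_exp] at l2
    have e1 := (abs_le.1 (h2 r hrP)).1
    have e2 : ν p ≤ ν r + ε / 8 := by
      have h6 := (abs_le.1 (hlip p hp r hrP)).2
      have h7 : dist p r ≤ 1 / ((l : ℝ) + 1) := by
        rw [dist_eq_norm]
        refine le_trans ?_ hqr
        refine (pi_norm_le_iff_of_nonneg (norm_nonneg _)).2 fun a => ?_
        have h7 := norm_le_pi_norm (r - q₀) a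
        rw [Pi.sub_apply, Real.norm_eq_abs] at h7 ⊢
        refine le_trans ?_ h7
        rw [abs_sub_comm, abs_of_nonneg (by linarith [hpr a]),
          abs_of_nonneg (by linarith [hqp₀ a, hpr a])]
        linarith [hqp₀ a]
      have h8 := mul_le_mul_of_nonneg_left h7 (hK j)
      linarith
    have e3 : (ν p - 3 * (ε / 8)) * B.L n ≤ (φ n r - ε / 8) * B.L n :=
      mul_le_mul_of_nonneg_right (by linarith) hL.le
    have := h4.2
    nlinarith
  have hroot : ∀ ε : ℝ, 0 < ε → ∀ᶠ n in (U : Filter ℕ), ∀ p ∈ P j,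
      Real.log (((I' n).image (f j n p)).card) ≤ Real.log ((I' n).card) + (-(ν p - ε)) * B.L n := by
    intro ε hε
    filter_upwards [hunif ε hε] with n h1 p hp
    have e1 := (abs_le.1 (h1 p hp)).1
    have hL := B.L_pos n
    have hφL : φ n p * B.L n = Real.log ((I' n).card) -
        Real.log (((I' n).image (f j n p)).card) := by
      rw [hφ]; simp only
      rw [div_mul_cancel₀ _ hL.ne']
    have e2 : (ν p - ε) * B.L n ≤ φ n p * B.L n := mul_le_mul_of_nonneg_right (by linarith) hL.le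
    linarith
  refine ⟨ν, ⟨fun ε hε => ?_, fun ε hε => ?_, fun ε hε => ?_⟩, fun p hp q hq => ?_, hanti⟩
  · filter_upwards [hup ε hε] with n h1 p hp i hi
    rw [← B.exp_eq, ← Real.log_le_iff_le_exp (by linarith [cls_card_pos (f := f j n p) hi])]
    exact h1 p hp i hi
  · filter_upwards [hnum ε hε] with n h1 q hq p hp hqp i hi
    have : (1 : ℝ) ≤ (((cls (I' n) (f j n q) i).image (f j n p)).card : ℝ) := by
      have : 0 < ((cls (I' n) (f j n q) i).image (f j n p)).card :=
        card_pos.2 ⟨_, mem_image_of_mem _ (self_mem_cls hi)⟩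
      exact_mod_cast this
    rw [← B.exp_eq, ← Real.log_le_iff_le_exp (by linarith)]
    exact h1 q hq p hp hqp i hi
  · filter_upwards [hroot ε hε, hne] with n h1 h2 p hp
    obtain ⟨i, hi⟩ := h2
    have h3 : (1 : ℝ) ≤ (((I' n).image (f j n p)).card : ℝ) := by
      have : 0 < ((I' n).image (f j n p)).card := card_pos.2 ⟨_, mem_image_of_mem _ hi⟩
      exact_mod_cast this
    have h4 : (1 : ℝ) ≤ (I' n).card := by
      have : 0 < (I' n).card := card_pos.2 ⟨_, hi⟩
      exact_mod_cast this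
    have e := h1 p hp
    have h5 : B.d n ^ (ν p - ε) = Real.exp (-(ν p - ε) * B.L n) := by
      rw [B.exp_eq, neg_neg]
    rw [h5, ← Real.exp_log (show (0:ℝ) < (((I' n).image (f j n p)).card : ℝ) by linarith),
      ← Real.exp_log (show (0:ℝ) < ((I' n).card : ℝ) by linarith), ← Real.exp_add]
    exact Real.exp_le_exp.2 e
  · have := hlip p hp q hq
    rwa [dist_eq_norm] at this

end Crest.Agent.R138.Ex926
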