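import Crest.Agent.R138.ExtP_926

/-!
# R138: tangent functions exist; the legal cone at a natural point (helper501)
-/

set_option autoImplicit false
set_option linter.unusedVariables false
set_option linter.unusedSectionVars false

open Filter Topology Finset

namespace Crest.Agent.R138.AeT501

open Crest.Agent.R138.Ex926 Crest.Agent.R138.FM501 Crest.Agent.R138.Flg101

/-- **existence of tangent functions** of a Lipschitz function along a subsequence -/
theorem exists_tangent {m : ℕ} {P D : Set (Fin m → ℝ)} (hDc : IsClosed D)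
    {ν : (Fin m → ℝ) → ℝ} {K : ℝ} (hK : 0 ≤ K) (hν : ∀ p ∈ P, ∀ q ∈ P, |ν p - ν q| ≤ K * ‖p - q‖)
    {X : Fin m → ℝ} (hX : ∀ C : ℝ, ∃ h0 : ℝ, 0 < h0 ∧ ∀ h : ℝ, 0 < h → h < h0 → ∀ c ∈ D, ‖c‖ ≤ C →
      X + h • c ∈ P) {g : ℕ → ℝ} (hg : ∀ l, 0 < g l) (hg0 : Tendsto g atTop (𝓝 0))
    (h0D : (0 : Fin m → ℝ) ∈ D) :
    ∃ φ : ℕ → ℕ, StrictMono φ ∧ ∃ lam : (Fin m → ℝ) → ℝ,
      IsTan P D ν (fun _ => X) (fun l => g (φ l)) lam := by
  classical
  have hgU : ∀ e : ℝ, 0 < e → ∀ᶠ l in (U : Filter ℕ), g l < e := fun e he =>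
    ev_of_atTop (hg0.eventually_lt_const he)
  set ψ0 : ℕ → (Fin m → ℝ) → ℝ := fun l c => (ν (X + g l • c) - ν X) / g l with hψ0
  have hXP : X ∈ P := by
    obtain ⟨h0, hh0, H⟩ := hX 0
    have := H (h0 / 2) (by positivity) (by linarith) 0 h0D (by simp)
    simpa using this
  have hlip : ∀ C : ℝ, ∀ᶠ l in (U : Filter ℕ), ∀ c ∈ D, ‖c‖ ≤ C → ∀ c' ∈ D, ‖c'‖ ≤ C →
      |ψ0 l c - ψ0 l c'| ≤ K * ‖c - c'‖ := by
    intro C
    obtain ⟨h0, hh0, H⟩ := hX C
    filter_upwards [hgU h0 hh0] with l hl c hc hcC c' hc' hcC'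
    have h1 := hν _ (H _ (hg l) hl c hc hcC) _ (H _ (hg l) hl c' hc' hcC')
    have e1 : X + g l • c - (X + g l • c') = g l • (c - c') := by rw [smul_sub]; abel
    rw [e1, norm_smul, Real.norm_of_nonneg (hg l).le] at h1
    have e2 : ψ0 l c - ψ0 l c' = (ν (X + g l • c) - ν (X + g l • c')) / g l := by
      simp only [hψ0]; rw [← sub_div]; congr 1; ring
    rw [e2, abs_div, abs_of_pos (hg l), div_le_iff₀ (hg l)]
    linarith
  have hψ00 : ∀ l, ψ0 l 0 = 0 := fun l => by simp [hψ0]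
  have hlim : ∀ c : Fin m → ℝ, ∃ y : ℝ, c ∈ D → Tendsto (fun l => ψ0 l c) U (𝓝 y) := by
    intro c
    by_cases hc : c ∈ D
    · obtain ⟨y, hy, -⟩ := exists_tendsto (f := fun l => ψ0 l c) (C := K * ‖c‖) (by
        filter_upwards [hlip ‖c‖] with l hl
        have := hl c hc le_rfl 0 h0D (by simp)
        rwa [hψ00, sub_zero, sub_zero] at this)
      exact ⟨y, fun _ => hy⟩
    · exact ⟨0, fun h => absurd h hc⟩
  choose lam hlam using hlim
  have hunif : ∀ C ε : ℝ, 0 < ε → ∀ᶠ l in (U : Filter ℕ), ∀ c ∈ D ∩ Metric.closedBall 0 C,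
      |ψ0 l c - lam c| ≤ ε := by
    intro C ε hε
    have hcomp : IsCompact (D ∩ Metric.closedBall (0 : Fin m → ℝ) C) :=
      (isCompact_closedBall _ _).inter_left hDc
    refine unif_of_lip hcomp hK (φ := fun l c => ψ0 l c) (ψ := lam) ?_ ?_ hε
    · intro δ hδ
      filter_upwards [hlip C] with l hl c hc c' hc'
      have h1 := hl c hc.1 (by simpa using hc.2) c' hc'.1 (by simpa using hc'.2)
      rw [dist_eq_norm]
      linarith
    · intro c hc
      exact hlam c hc.1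
  obtain ⟨φ, hφ, hφ2⟩ := Filter.extraction_forall_of_frequently
    (P := fun j l => ∀ c ∈ D ∩ Metric.closedBall (0 : Fin m → ℝ) ((j : ℝ) + 1),
      |ψ0 l c - lam c| ≤ 1 / ((j : ℝ) + 1)) (fun j => by
      have h1 := hunif ((j : ℝ) + 1) (1 / ((j : ℝ) + 1)) (by positivity)
      exact h1.frequently.filter_mono U_le_atTop)
  refine ⟨φ, hφ, lam, fun C ε hε => ?_⟩
  obtain ⟨h0, hh0, H⟩ := hX C
  have hgφ : Tendsto (fun l => g (φ l)) atTop (𝓝 0) := hg0.comp hφ.tendsto_atTop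
  obtain ⟨N1, hN1⟩ := exists_nat_gt C
  obtain ⟨N2, hN2⟩ := exists_nat_gt (1 / ε)
  filter_upwards [hgφ.eventually_lt_const hh0, eventually_ge_atTop (max N1 N2)] with j h1 h2 c hc hcC
  refine ⟨H _ (hg _) h1 c hc hcC, ?_⟩
  have hj1 : (N1 : ℝ) ≤ j := by exact_mod_cast (le_max_left _ _).trans h2
  have hj2 : (N2 : ℝ) ≤ j := by exact_mod_cast (le_max_right _ _).trans h2
  have h3 := hφ2 j c ⟨hc, by
    rw [mem_closedBall_zero_iff]; linarith⟩
  have h4 : 1 / ((j : ℝ) + 1) ≤ ε := by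
    rw [div_le_iff₀ (by positivity)]
    rw [div_lt_iff₀ hε] at hN2
    nlinarith
  have hgp := hg (φ j)
  have e1 : ν (X + g (φ j) • c) - ν X - g (φ j) * lam c = g (φ j) * (ψ0 (φ j) c - lam c) := by
    simp only [hψ0]; field_simp
  show |ν (X + g (φ j) • c) - ν X - g (φ j) * lam c| ≤ ε * g (φ j)
  rw [e1, abs_mul, abs_of_pos hgp, mul_comm]
  exact mul_le_mul_of_nonneg_right (h3.trans h4) hgp.le

theorem isClosed_D6 : IsClosed D6 := by
  have h1 : D6 = {c : Fin 6 → ℝ | ∀ a, 0 ≤ c a} ∩ ({c | c 0 ≤ c 1 + c 4} ∩ ({c | c 3 ≤ c 2 + c 4} ∩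
      ({c | c 0 ≤ c 5 + c 3} ∩ {c | c 1 ≤ c 5 + c 2}))) := by
    ext c; simp only [D6, Set.mem_setOf_eq, Set.mem_inter_iff]
  rw [h1]
  refine IsClosed.inter ?_ (IsClosed.inter ?_ (IsClosed.inter ?_ (IsClosed.inter ?_ ?_)))
  · simp only [Set.setOf_forall]
    exact isClosed_iInter fun a => isClosed_le continuous_const (continuous_apply a)
  · exact isClosed_le (continuous_apply 0) ((continuous_apply 1).add (continuous_apply 4))
  · exact isClosed_le (continuous_apply 3) ((continuous_apply 2).add (continuous_apply 4))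
  · exact isClosed_le (continuous_apply 0) ((continuous_apply 5).add (continuous_apply 3))
  · exact isClosed_le (continuous_apply 1) ((continuous_apply 5).add (continuous_apply 2))

/-- the natural point is legal and small legal displacements stay legal -/
theorem X6_add_mem {v r t M : ℝ} (hv : 0 ≤ v) (hr : 0 ≤ r) (ht : 0 ≤ t) (hM : t + v + r < M)
    (C : ℝ) : ∃ h0 : ℝ, 0 < h0 ∧ ∀ h : ℝ, 0 < h → h < h0 → ∀ c ∈ D6, ‖c‖ ≤ C →
      X6 v r t + h • c ∈ LEG M := by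
  refine ⟨(M - (t + v + r)) / (|C| + 1), div_pos (by linarith) (by positivity), ?_⟩
  intro h hh hh0 c hc hcC
  rw [lt_div_iff₀ (by positivity)] at hh0
  obtain ⟨hc0, w1, w2, w3, w4⟩ := hc
  have hca : ∀ a, h * c a ≤ M - (t + v + r) := by
    intro a
    have h1 := norm_le_pi_norm c a
    rw [Real.norm_eq_abs, abs_of_nonneg (hc0 a)] at h1
    have h2 : c a ≤ |C| := (h1.trans hcC).trans (le_abs_self _)
    nlinarith
  have hpos : ∀ a, 0 ≤ h * c a := fun a => mul_nonneg hh.le (hc0 a)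
  have e0 : (X6 v r t + h • c) 0 = t + v + r + h * c 0 := rfl
  have e1 : (X6 v r t + h • c) 1 = t + r + h * c 1 := rfl
  have e2 : (X6 v r t + h • c) 2 = t + h * c 2 := rfl
  have e3 : (X6 v r t + h • c) 3 = t + v + h * c 3 := rfl
  have e4 : (X6 v r t + h • c) 4 = v + h * c 4 := rfl
  have e5 : (X6 v r t + h • c) 5 = r + h * c 5 := rfl
  rw [mem_LEG]
  refine ⟨fun a => ?_, ?_, ?_, ?_, ?_⟩
  · fin_cases a
    · show 0 ≤ (X6 v r t + h • c) 0 ∧ (X6 v r t + h • c) 0 ≤ M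
      rw [e0]; constructor <;> linarith [hpos 0, hca 0]
    · show 0 ≤ (X6 v r t + h • c) 1 ∧ (X6 v r t + h • c) 1 ≤ M
      rw [e1]; constructor <;> linarith [hpos 1, hca 1]
    · show 0 ≤ (X6 v r t + h • c) 2 ∧ (X6 v r t + h • c) 2 ≤ M
      rw [e2]; constructor <;> linarith [hpos 2, hca 2]
    · show 0 ≤ (X6 v r t + h • c) 3 ∧ (X6 v r t + h • c) 3 ≤ M
      rw [e3]; constructor <;> linarith [hpos 3, hca 3]
    · show 0 ≤ (X6 v r t + h • c) 4 ∧ (X6 v r t + h • c) 4 ≤ M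
      rw [e4]; constructor <;> linarith [hpos 4, hca 4]
    · show 0 ≤ (X6 v r t + h • c) 5 ∧ (X6 v r t + h • c) 5 ≤ M
      rw [e5]; constructor <;> linarith [hpos 5, hca 5]
  · rw [e0, e1, e4]; nlinarith
  · rw [e3, e2, e4]; nlinarith
  · rw [e0, e5, e3]; nlinarith
  · rw [e1, e5, e2]; nlinarith

/-- Lipschitz in the sup norm from the coordinatewise bound -/
theorem nu_lip_of {M : ℝ} {ν : (Fin 6 → ℝ) → ℝ}
    (lip : ∀ p ∈ LEG M, ∀ p' ∈ LEG M, p ≤ p' → 0 ≤ ν p - ν p' ∧ ν p - ν p' ≤ ∑ a, (p' a - p a)) :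
    ∀ p ∈ LEG M, ∀ q ∈ LEG M, |ν p - ν q| ≤ 6 * ‖p - q‖ := by
  have key : ∀ p ∈ LEG M, ∀ q ∈ LEG M, ν p - ν q ≤ 6 * ‖p - q‖ := by
    intro p hp q hq
    have hs := LEG.sup M p hp q hq
    have h1 := (lip p hp _ hs le_sup_left).2
    have h2 := (lip q hq _ hs le_sup_right).1
    have h3 : ∑ a, ((p ⊔ q) a - p a) ≤ ∑ _a : Fin 6, ‖p - q‖ := by
      refine Finset.sum_le_sum fun a _ => ?_
      have h4 := norm_le_pi_norm (p - q) a
      rw [Pi.sub_apply, Real.norm_eq_abs] at h4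
      rw [Pi.sup_apply]
      rcases le_total (p a) (q a) with h5 | h5
      · rw [sup_eq_right.2 h5]
        exact (le_abs_self _).trans ((abs_sub_comm _ _).le.trans h4)
      · rw [sup_eq_left.2 h5, sub_self]; exact norm_nonneg _
    have h5 : ∑ _a : Fin 6, ‖p - q‖ = 6 * ‖p - q‖ := by simp
    linarith
  intro p hp q hq
  rw [abs_le]
  have h1 := key p hp q hq
  have h2 := key q hq p hp
  rw [norm_sub_rev] at h2
  constructor <;> linarith

end Crest.Agent.R138.AeT501
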