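import Mathlib

/-!
# R138 / R139, WAVE side, leaf W10 of doc 1979 (helper298): the real-number assembly

One label sequence, levels `0 .. n`, numbers `S j` (resp. `x j = log S j / log X`, `X = 1/dl`).
Flags: `gain j` (thick / dropped / misaligned), `nar j` (narrow label); all other levels are wide,
thin and aligned.
-/

set_option autoImplicit false

namespace Crest.Agent.R138.W298

/-- telescoping with a constant rate. -/
theorem tele (x : ℕ → ℝ) (g : ℝ) (a : ℕ) : ∀ m : ℕ,
    (∀ j, a ≤ j → j < a + m → x (j + 1) ≤ x j + g) → x (a + m) ≤ x a + m * g := by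
  intro m
  induction m with
  | zero => intro _; simp
  | succ m ih =>
    intro h
    have h1 := ih (fun j hj hj' => h j hj (by omega))
    have h2 := h (a + m) (by omega) (by omega)
    have e : a + (m + 1) = a + m + 1 := by ring
    rw [e]
    push_cast
    linarith

/-- telescoping with a potential. -/
theorem tele_pot (x s : ℕ → ℝ) (g : ℝ) (a m : ℕ)
    (h : ∀ j, a ≤ j → j < a + m → x (j + 1) ≤ x j + g + (s j - s (j + 1)) / 2) :
    x (a + m) ≤ x a + m * g + (s a - s (a + m)) / 2 := by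
  have := tele (fun j => x j + s j / 2) g a m (fun j h1 h2 => by
    have := h j h1 h2
    linarith)
  linarith

/-- **W10, additive core.** -/
theorem assembly_add {n L K b : ℕ} (hn : n = K * L) (hbL : b ≤ L) (hb : 1 ≤ b) (hK : 3 ≤ K)
    {c e γ δ A q κ : ℝ} (hc : 0 ≤ c) (he : 0 ≤ e) (hA : 0 ≤ A) (hq : 0 ≤ q) (hqc : q ≤ c)
    (hγ : κ ≤ γ)
    -- numerics
    (hwide : 1 / 4 + κ ≤ ((b : ℝ) - 1) * (c / 2 - δ))
    (hnar : (L : ℝ) * (c + 1) + K * (A * (1 + 4 * b)) + κ ≤ c / 4 * (K * L))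
    (x : ℕ → ℝ) (P : ℕ → ℕ → ℕ → ℝ) (s : ℕ → ℝ) (nar gain : ℕ → Prop)
    (hG : ∀ j, j < n → x (j + 1) ≤ x j + c / 2 + e)
    (hgain : ∀ j, j < n → gain (j + 1) → x (j + 1) ≤ x j + c / 2 - γ + e)
    (hP : ∀ h i j, h < i → i < j → j ≤ n → 0 ≤ P h i j ∧ P h i j ≤ ((j : ℝ) - i) + e)
    (hT : ∀ h i j k, h < i → i < j → j < k → k ≤ n → nar j →
      x j ≤ x i + (A + A * (max 0 ((i : ℝ) + k - 2 * j) + max 0 ((h : ℝ) + j - 2 * i))
        + q / 4 * ((k : ℝ) - j)) + (P h i j - P i j k) / 2 + e)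
    (hs : ∀ j, 1 ≤ j → j + 1 ≤ n → 0 ≤ s j ∧ s j ≤ 1 / 2 + e)
    (hS : ∀ j, 1 ≤ j → j + 2 ≤ n → ¬ nar j → ¬ gain j → ¬ nar (j + 1) → ¬ gain (j + 1) →
      x (j + 1) ≤ x j + (δ + e) + (s j - s (j + 1)) / 2) :
    x n ≤ x 0 + (c / 2 * n - κ) + (2 * n + 2) * e := by
  classical
  have hL1 : 1 ≤ L := hb.trans hbL
  have hKL : K ≤ n := by rw [hn]; exact Nat.le_mul_of_pos_right K hL1
  have hLn : L ≤ n := by rw [hn]; exact Nat.le_mul_of_pos_left L (by omega)
  have hnR : (n : ℝ) = K * L := by rw [hn]; push_cast; ring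
  have hn0 : (0 : ℝ) ≤ n := Nat.cast_nonneg n
  have hne : 0 ≤ (n : ℝ) * e := mul_nonneg hn0 he
  -- trivial growth between two levels
  have triv : ∀ a b : ℕ, a ≤ b → b ≤ n → x b ≤ x a + ((b : ℝ) - a) * (c / 2 + e) := by
    intro a b' hab hbn
    have := tele x (c / 2 + e) a (b' - a) (fun j h1 h2 => by
      have := hG j (by omega)
      linarith)
    have e1 : a + (b' - a) = b' := by omega
    rw [e1, Nat.cast_sub hab] at this
    exact this
  by_cases hg : ∃ j, 1 ≤ j ∧ j ≤ n ∧ gain j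
  · -- (i) a gain level
    obtain ⟨j, hj1, hjn, hgj⟩ := hg
    obtain ⟨i, rfl⟩ : ∃ i, j = i + 1 := ⟨j - 1, by omega⟩
    have h1 := triv 0 i (by omega) (by omega)
    have h2 := hgain i (by omega) hgj
    have h3 := triv (i + 1) n hjn le_rfl
    push_cast at h1 h3
    nlinarith [h1, h2, h3, hne]
  · push Not at hg
    by_cases hw : ∃ k, 2 ≤ k ∧ k < K ∧ ∀ j, k * L ≤ j → j < k * L + b → ¬ nar j
    · -- (iii) a wide block
      obtain ⟨k, hk2, hkK, hk⟩ := hw
      have hk1 : k * L + L ≤ n := by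
        have : (k + 1) * L ≤ K * L := Nat.mul_le_mul_right L (by omega)
        rw [hn]; linarith
      have hkL : 2 * 1 ≤ k * L := Nat.mul_le_mul hk2 hL1
      obtain ⟨m, hm⟩ : ∃ m, b = m + 1 := ⟨b - 1, by omega⟩
      have h1 := triv 0 (k * L) (by omega) (by omega)
      have h2 := tele_pot x s (δ + e) (k * L) m (fun j hj1 hj2 =>
        hS j (by omega) (by omega) (hk j hj1 (by omega)) (hg j (by omega) (by omega))
          (hk (j + 1) (by omega) (by omega)) (hg (j + 1) (by omega) (by omega)))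
      have h3 := triv (k * L + m) n (by omega) le_rfl
      have h4 := hs (k * L) (by omega) (by omega)
      have h5 : 0 ≤ s (k * L + m) ∨ m = 0 := by
        rcases Nat.eq_zero_or_pos m with h | h
        · exact Or.inr h
        · exact Or.inl (hs (k * L + m) (by omega) (by omega)).1
      have h6 : (s (k * L) - s (k * L + m)) / 2 ≤ 1 / 4 + e / 2 := by
        rcases h5 with h5 | h5
        · linarith [h4.2]
        · subst h5
          simp only [add_zero, sub_self, zero_div]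
          linarith
      have hbm : (b : ℝ) - 1 = m := by rw [hm]; push_cast; ring
      rw [hbm] at hwide
      push_cast at h1 h3
      have hm0 : (0 : ℝ) ≤ m := Nat.cast_nonneg m
      nlinarith [h1, h2, h3, h6, hwide, hne]
    · -- (ii) every block contains a narrow level
      push Not at hw
      have hch : ∀ k : ℕ, ∃ i : ℕ, (2 ≤ k → k < K → nar i) ∧ k * L ≤ i ∧ i < k * L + b ∧
          (k ≤ 1 → i = k * L) ∧ (k = K → i = k * L) := by
        intro k
        by_cases hk : 2 ≤ k ∧ k < K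
        · obtain ⟨j, h1, h2, h3⟩ := hw k hk.1 hk.2
          exact ⟨j, fun _ _ => h3, h1, h2, fun h => by omega, fun h => by omega⟩
        · exact ⟨k * L, fun h h' => absurd ⟨h, h'⟩ hk, le_rfl, by omega, fun _ => rfl,
            fun _ => rfl⟩
      choose i hi using hch
      have eL : ∀ k : ℕ, (k + 1) * L = k * L + L := fun k => by ring
      have hmono : ∀ k, i k < i (k + 1) := by
        intro k
        have h1 := (hi k).2.2.1
        have h2 := (hi (k + 1)).2.1
        have e1 := eL k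
        omega
      have hi0 : i 0 = 0 := by have := (hi 0).2.2.2.1 (by omega); omega
      have hi1 : i 1 = L := by have := (hi 1).2.2.2.1 (by omega); omega
      have hiK : i K = n := by have := (hi K).2.2.2.2 rfl; omega
      have hile : ∀ k, k ≤ K → i k ≤ n := by
        have hm : StrictMono i := strictMono_nat_of_lt_succ hmono
        intro k hk
        have := hm.monotone hk
        omega
      -- real bounds
      have hlo : ∀ k : ℕ, (k : ℝ) * L ≤ i k := fun k => by exact_mod_cast (hi k).2.1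
      have hup : ∀ k : ℕ, (i k : ℝ) ≤ k * L + b := fun k => by
        exact_mod_cast (hi k).2.2.1.le
      have hb0 : (0 : ℝ) ≤ b := Nat.cast_nonneg b
      have hdef : ∀ k : ℕ, max 0 ((i k : ℝ) + i (k + 2) - 2 * i (k + 1)) ≤ 2 * b := by
        intro k
        have h1 := hup k
        have h2 := hup (k + 2)
        have h3 := hlo (k + 1)
        push_cast at h2 h3
        refine max_le (by linarith) (by linarith)
      obtain ⟨M, hM⟩ : ∃ M, K = M + 2 := ⟨K - 2, by omega⟩
      have hstep : ∀ m, 0 ≤ m → m < 0 + M →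
          (x (i (m + 1 + 1)) + P (i (m + 1)) (i (m + 1 + 1)) (i (m + 1 + 2)) / 2
              - q / 4 * i (m + 1 + 2)) ≤
            (x (i (m + 1)) + P (i m) (i (m + 1)) (i (m + 2)) / 2 - q / 4 * i (m + 2))
              + (A * (1 + 4 * b) + e) := by
        intro m _ hm
        have h1 := hT (i m) (i (m + 1)) (i (m + 2)) (i (m + 3)) (hmono _) (hmono _) (hmono _)
          (hile _ (by omega)) ((hi (m + 2)).1 (by omega) (by omega))
        have h2 := hdef m
        have h3 := hdef (m + 1)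
        have e1 : m + 1 + 1 = m + 2 := rfl
        have e2 : m + 1 + 2 = m + 3 := rfl
        rw [e1, e2] at h3 ⊢
        have h4 : A * (max 0 ((i (m + 1) : ℝ) + i (m + 3) - 2 * i (m + 2)) +
            max 0 ((i m : ℝ) + i (m + 2) - 2 * i (m + 1))) ≤ A * (4 * b) := by
          refine mul_le_mul_of_nonneg_left (by linarith) hA
        linarith
      have h1 := tele (fun m => x (i (m + 1)) + P (i m) (i (m + 1)) (i (m + 2)) / 2
        - q / 4 * i (m + 2)) (A * (1 + 4 * b) + e) 0 M hstep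
      simp only [zero_add] at h1
      have e3 : M + 2 = K := hM.symm
      have e4 : i (M + 2) = n := by rw [e3, hiK]
      have h2 := hP (i M) (i (M + 1)) (i (M + 2)) (hmono _) (hmono _) (hile _ (by omega))
      have h3 := hP (i 0) (i 1) (i 2) (hmono _) (hmono _) (hile _ (by omega))
      have h4 := triv 0 (i 1) (by omega) (hile _ (by omega))
      have h5 := triv (i (M + 1)) n (hile _ (by omega)) le_rfl
      have h6 := hup 2
      have h7 := hlo (M + 1)
      have h7' := hlo 2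
      rw [hi0, hi1] at h3 h1
      rw [hi1] at h4
      rw [e4] at h1 h2
      have hKM : (K : ℝ) = M + 2 := by rw [hM]; push_cast; ring
      have hbLR : (b : ℝ) ≤ L := by exact_mod_cast hbL
      have hL0 : (0 : ℝ) ≤ L := Nat.cast_nonneg L
      have hM0 : (0 : ℝ) ≤ M := Nat.cast_nonneg M
      push_cast at h1 h3 h4 h6 h7 h7'
      have h8 : ((n : ℝ) - i (M + 1)) * (c / 2 + e) ≤ L * (c / 2 + e) := by
        refine mul_le_mul_of_nonneg_right ?_ (by linarith)
        rw [hnR, hKM]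
        linarith
      have h9 : q / 4 * (n : ℝ) - q / 4 * (i 2 : ℝ) ≤ c / 4 * n := by
        have : 0 ≤ q / 4 * (i 2 : ℝ) := mul_nonneg (by linarith) (Nat.cast_nonneg _)
        have : q / 4 * (n : ℝ) ≤ c / 4 * n := mul_le_mul_of_nonneg_right (by linarith) hn0
        linarith
      have h10 : (M : ℝ) * (A * (1 + 4 * b) + e) ≤ K * (A * (1 + 4 * b)) + M * e := by
        have : 0 ≤ A * (1 + 4 * (b : ℝ)) := mul_nonneg hA (by linarith)
        rw [hKM]
        nlinarith
      have h11 : (2 * (L : ℝ) + M + 2) * e ≤ (2 * n + 2) * e := by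
        refine mul_le_mul_of_nonneg_right ?_ he
        have hK2 : (L : ℝ) * 2 ≤ n := by
          rw [hnR, hKM]
          nlinarith
        have : (K : ℝ) ≤ n := by exact_mod_cast hKL
        linarith
      rw [hnR] at h9 ⊢
      rw [hnR] at h11 h8 h1 h5
      linarith

/-- **slab chain only** (628 / 882): from level `j0` on every level is a gain or good. -/
theorem assembly_slab_add {n j0 : ℕ} (hj0 : 1 ≤ j0) (hn : j0 + 1 ≤ n)
    {c e γ δ κ : ℝ} (hc : 0 ≤ c) (he : 0 ≤ e) (hγ : κ ≤ γ)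
    (hwide : 1 / 4 + κ ≤ ((n : ℝ) - 1 - j0) * (c / 2 - δ))
    (x : ℕ → ℝ) (s : ℕ → ℝ) (gain : ℕ → Prop)
    (hG : ∀ j, j < n → x (j + 1) ≤ x j + c / 2 + e)
    (hgain : ∀ j, j0 ≤ j + 1 → j < n → gain (j + 1) → x (j + 1) ≤ x j + c / 2 - γ + e)
    (hs : ∀ j, j0 ≤ j → j + 1 ≤ n → 0 ≤ s j ∧ s j ≤ 1 / 2 + e)
    (hS : ∀ j, j0 ≤ j → j + 2 ≤ n → ¬ gain j → ¬ gain (j + 1) →
      x (j + 1) ≤ x j + (δ + e) + (s j - s (j + 1)) / 2) :
    x n ≤ x 0 + (c / 2 * n - κ) + (2 * n + 2) * e := by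
  have hn0 : (0 : ℝ) ≤ n := Nat.cast_nonneg n
  have hne : 0 ≤ (n : ℝ) * e := mul_nonneg hn0 he
  have triv : ∀ a b : ℕ, a ≤ b → b ≤ n → x b ≤ x a + ((b : ℝ) - a) * (c / 2 + e) := by
    intro a b' hab hbn
    have := tele x (c / 2 + e) a (b' - a) (fun j h1 h2 => by
      have := hG j (by omega)
      linarith)
    have e1 : a + (b' - a) = b' := by omega
    rw [e1, Nat.cast_sub hab] at this
    exact this
  by_cases hg : ∃ j, j0 ≤ j ∧ j ≤ n ∧ gain j
  · obtain ⟨j, hj1, hjn, hgj⟩ := hg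
    obtain ⟨i, rfl⟩ : ∃ i, j = i + 1 := ⟨j - 1, by omega⟩
    have h1 := triv 0 i (by omega) (by omega)
    have h2 := hgain i hj1 (by omega) hgj
    have h3 := triv (i + 1) n hjn le_rfl
    push_cast at h1 h3
    nlinarith [h1, h2, h3, hne]
  · push Not at hg
    obtain ⟨m, hm⟩ : ∃ m, n = j0 + m + 1 := ⟨n - 1 - j0, by omega⟩
    have h1 := triv 0 j0 (by omega) (by omega)
    have h2 := tele_pot x s (δ + e) j0 m (fun j hj1 hj2 =>
        hS j hj1 (by omega) (hg j hj1 (by omega)) (hg (j + 1) (by omega) (by omega)))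
    have h3 := triv (j0 + m) n (by omega) le_rfl
    have h4 := hs j0 le_rfl (by omega)
    have h5 := hs (j0 + m) (by omega) (by omega)
    have hbm : (n : ℝ) - 1 - j0 = m := by rw [hm]; push_cast; ring
    rw [hbm] at hwide
    push_cast at h1 h3
    have hm0 : (0 : ℝ) ≤ m := Nat.cast_nonneg m
    nlinarith [h1, h2, h3, h4.2, h5.1, hwide, hne]

/-- the parameters. -/
theorem params {c1 A : ℝ} (hc1 : 0 < c1) (hA : 0 ≤ A) : ∃ K L b : ℕ, 1 ≤ b ∧ b ≤ L ∧ 3 ≤ K ∧
    ∀ c δ : ℝ, c1 ≤ c → δ ≤ c1 / 4 → (1 / 4 + 1 / 4 ≤ ((b : ℝ) - 1) * (c / 2 - δ)) ∧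
      ((L : ℝ) * (c + 1) + K * (A * (1 + 4 * b)) + 1 / 4 ≤ c / 4 * (K * L)) := by
  obtain ⟨b, hb⟩ := exists_nat_ge (1 + 2 / c1)
  obtain ⟨K, hK⟩ := exists_nat_ge (8 + 8 / c1)
  obtain ⟨L, hL⟩ := exists_nat_ge (8 / c1 * (A * (1 + 4 * b) + 1 / 4) + b)
  have h2 : 0 < 2 / c1 := by positivity
  have h8 : 0 < 8 / c1 := by positivity
  have hb1 : (1 : ℝ) ≤ b := by linarith
  have hA4 : 0 ≤ A * (1 + 4 * (b : ℝ)) := mul_nonneg hA (by linarith)
  refine ⟨K, L, b, by exact_mod_cast hb1, ?_, ?_, ?_⟩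
  · have : (b : ℝ) ≤ L := by
      have : 0 ≤ 8 / c1 * (A * (1 + 4 * b) + 1 / 4) := mul_nonneg h8.le (by linarith)
      linarith
    exact_mod_cast this
  · have : (3 : ℝ) ≤ K := by linarith
    exact_mod_cast this
  · intro c δ hc hδ
    have hc0 : 0 < c := by linarith
    constructor
    · have h1 : c1 / 4 ≤ c / 2 - δ := by linarith
      have h3 : 2 / c1 * (c1 / 4) = 1 / 2 := by field_simp; norm_num
      calc (1 / 4 + 1 / 4 : ℝ) = 2 / c1 * (c1 / 4) := by rw [h3]; norm_num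
        _ ≤ ((b : ℝ) - 1) * (c1 / 4) := mul_le_mul_of_nonneg_right (by linarith) (by linarith)
        _ ≤ _ := mul_le_mul_of_nonneg_left h1 (by linarith)
    · have hL0 : (0 : ℝ) ≤ L := Nat.cast_nonneg L
      have hK1 : (1 : ℝ) ≤ K := by linarith
      have h1 : c + 1 ≤ c / 8 * K := by
        have h3 : c1 / 8 * (8 + 8 / c1) = c1 + 1 := by field_simp
        have h4 : c / 8 * (8 + 8 / c1) = c + c / c1 := by field_simp
        have h5 : 1 ≤ c / c1 := by rw [le_div_iff₀ hc1]; linarith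
        have h6 : c / 8 * (8 + 8 / c1) ≤ c / 8 * K := mul_le_mul_of_nonneg_left hK (by linarith)
        linarith
      have h2' : A * (1 + 4 * b) + 1 / 4 ≤ c / 8 * L := by
        have h3 : c1 / 8 * (8 / c1 * (A * (1 + 4 * b) + 1 / 4)) = A * (1 + 4 * b) + 1 / 4 := by
          field_simp
        have h4 : c1 / 8 * (8 / c1 * (A * (1 + 4 * b) + 1 / 4)) ≤ c1 / 8 * L :=
          mul_le_mul_of_nonneg_left (by linarith) (by linarith)
        have h5 : c1 / 8 * (L : ℝ) ≤ c / 8 * L := mul_le_mul_of_nonneg_right (by linarith) hL0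
        linarith
      have h3 : (L : ℝ) * (c + 1) ≤ L * (c / 8 * K) := mul_le_mul_of_nonneg_left h1 hL0
      have h4 : (K : ℝ) * (A * (1 + 4 * b) + 1 / 4) ≤ K * (c / 8 * L) :=
        mul_le_mul_of_nonneg_left h2' (by linarith)
      nlinarith [h3, h4, hK1]

/-! ### multiplicative form -/

section mul

variable {X E : ℝ}

/-- logarithm in base `X`. -/
theorem log_step {a b u : ℝ} (hX : 1 < X) (hE : 1 ≤ E) (ha : 0 < a) (hb : 0 < b)
    (h : b ≤ E * X ^ u * a) :
    Real.log b / Real.log X ≤ Real.log a / Real.log X + u + Real.log E / Real.log X := by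
  have hX0 : 0 < X := by linarith
  have hE0 : 0 < E := by linarith
  have hl : 0 < Real.log X := Real.log_pos hX
  have h1 : Real.log b ≤ Real.log (E * X ^ u * a) := Real.log_le_log hb h
  rw [Real.log_mul (by positivity) ha.ne', Real.log_mul hE0.ne' (by positivity),
    Real.log_rpow hX0] at h1
  rw [div_le_iff₀ hl, add_mul, add_mul, div_mul_cancel₀ _ hl.ne', div_mul_cancel₀ _ hl.ne']
  linarith

theorem log_step_pot {a b u p p' : ℝ} (hX : 1 < X) (hE : 1 ≤ E) (ha : 0 < a) (hb : 0 < b)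
    (hp : 0 < p) (hp' : 0 < p') (h : b ≤ E * X ^ u * (p / p') ^ (1 / 2 : ℝ) * a) :
    Real.log b / Real.log X ≤ Real.log a / Real.log X + u +
      (Real.log p / Real.log X - Real.log p' / Real.log X) / 2 + Real.log E / Real.log X := by
  have hX0 : 0 < X := by linarith
  have hE0 : 0 < E := by linarith
  have hl : 0 < Real.log X := Real.log_pos hX
  have h1 : Real.log b ≤ Real.log (E * X ^ u * (p / p') ^ (1 / 2 : ℝ) * a) := Real.log_le_log hb h
  rw [Real.log_mul (by positivity) ha.ne', Real.log_mul (by positivity) (by positivity),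
    Real.log_mul hE0.ne' (by positivity), Real.log_rpow hX0, Real.log_rpow (by positivity),
    Real.log_div hp.ne' hp'.ne'] at h1
  have e1 : Real.log a / Real.log X + u +
      (Real.log p / Real.log X - Real.log p' / Real.log X) / 2 + Real.log E / Real.log X =
      (Real.log E + u * Real.log X + 1 / 2 * (Real.log p - Real.log p') + Real.log a) /
        Real.log X := by
    field_simp
    ring
  rw [e1]
  exact div_le_div_of_nonneg_right h1 hl.le

theorem log_pot {p u : ℝ} (hX : 1 < X) (hE : 1 ≤ E) (hp : 1 ≤ p) (h : p ≤ E * X ^ u) :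
    0 ≤ Real.log p / Real.log X ∧
      Real.log p / Real.log X ≤ u + Real.log E / Real.log X := by
  have hX0 : 0 < X := by linarith
  have hE0 : 0 < E := by linarith
  have hl : 0 < Real.log X := Real.log_pos hX
  refine ⟨div_nonneg (Real.log_nonneg hp) hl.le, ?_⟩
  have h1 : Real.log p ≤ Real.log (E * X ^ u) := Real.log_le_log (by linarith) h
  rw [Real.log_mul hE0.ne' (by positivity), Real.log_rpow hX0] at h1
  rw [div_le_iff₀ hl, add_mul, div_mul_cancel₀ _ hl.ne']
  linarith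

theorem exp_back {a b u : ℝ} {N : ℕ} (hX : 1 < X) (hE : 1 ≤ E) (ha : 0 < a) (hb : 0 < b)
    (h : Real.log b / Real.log X ≤ Real.log a / Real.log X + u +
      N * (Real.log E / Real.log X)) : b ≤ E ^ N * X ^ u * a := by
  have hX0 : 0 < X := by linarith
  have hE0 : 0 < E := by linarith
  have hl : 0 < Real.log X := Real.log_pos hX
  have h1 : Real.log b ≤ Real.log (E ^ N * X ^ u * a) := by
    rw [Real.log_mul (by positivity) ha.ne', Real.log_mul (by positivity) (by positivity),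
      Real.log_rpow hX0, Real.log_pow]
    have e1 : Real.log a / Real.log X + u + N * (Real.log E / Real.log X) =
        (N * Real.log E + u * Real.log X + Real.log a) / Real.log X := by
      field_simp
      ring
    rw [e1] at h
    exact (div_le_div_iff_of_pos_right hl).1 h
  exact (Real.log_le_log_iff hb (by positivity)).1 h1

/-- **W10, multiplicative form.** `X = 1/dl`, `E` absorbs `C R^ε`. -/
theorem assembly {c1 A : ℝ} (hc1 : 0 < c1) (hA : 0 ≤ A) : ∃ n : ℕ, 3 ≤ n ∧
    ∀ c q γ δ : ℝ, c1 ≤ c → 0 ≤ q → q ≤ c → δ ≤ c1 / 4 → ∀ X E : ℝ, 1 < X → 1 ≤ E →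
    ∀ (S : ℕ → ℝ) (p : ℕ → ℕ → ℕ → ℝ) (s : ℕ → ℝ) (nar gain : ℕ → Prop),
    (∀ j, 0 ≤ S j) →
    (∀ j, j < n → S (j + 1) ≤ E * X ^ (c / 2) * S j) →
    (∀ j, j < n → gain (j + 1) → S (j + 1) ≤ E * X ^ (c / 2 - γ) * S j) →
    (∀ h i j, h < i → i < j → j ≤ n → 1 ≤ p h i j ∧ p h i j ≤ E * X ^ ((j : ℝ) - i)) →
    (∀ h i j k, h < i → i < j → j < k → k ≤ n → nar j →
      S j ≤ E * X ^ (A + A * (max 0 ((i : ℝ) + k - 2 * j) + max 0 ((h : ℝ) + j - 2 * i))
        + q / 4 * ((k : ℝ) - j)) * (p h i j / p i j k) ^ (1 / 2 : ℝ) * S i) →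
    (∀ j, 1 ≤ j → j + 1 ≤ n → 1 ≤ s j ∧ s j ≤ E * X ^ (1 / 2 : ℝ)) →
    (∀ j, 1 ≤ j → j + 2 ≤ n → ¬ nar j → ¬ gain j → ¬ nar (j + 1) → ¬ gain (j + 1) →
      S (j + 1) ≤ E * X ^ δ * (s j / s (j + 1)) ^ (1 / 2 : ℝ) * S j) →
    S n ≤ E ^ (2 * n + 2) * X ^ (c / 2 * n - min γ (1 / 4)) * S 0 := by
  obtain ⟨K, L, b, hb, hbL, hK, hpar⟩ := params hc1 hA
  have hL1 : 1 ≤ L := hb.trans hbL
  have hKL : K ≤ K * L := Nat.le_mul_of_pos_right K hL1
  refine ⟨K * L, by omega, ?_⟩
  intro c q γ δ hc hq hqc hδ X E hX hE S p s nar gain hS0 hG hgain hp hT hs hS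
  set n := K * L with hn
  have hX0 : 0 < X := by linarith
  have hE0 : 0 < E := by linarith
  have hl : 0 < Real.log X := Real.log_pos hX
  -- positivity
  by_cases hSn : S n = 0
  · rw [hSn]
    have := hS0 0
    positivity
  have hpos : ∀ m, m ≤ n → 0 < S (n - m) := by
    intro m
    induction m with
    | zero => intro _; exact lt_of_le_of_ne (hS0 n) (Ne.symm hSn)
    | succ m ih =>
      intro hm
      have h1 := ih (by omega)
      refine lt_of_le_of_ne (hS0 _) (fun h => ?_)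
      have h2 := hG (n - (m + 1)) (by omega)
      rw [← h, mul_zero, show n - (m + 1) + 1 = n - m by omega] at h2
      linarith
  have hpos' : ∀ j, j ≤ n → 0 < S j := fun j hj => by
    have := hpos (n - j) (by omega)
    rwa [show n - (n - j) = j by omega] at this
  obtain ⟨hw1, hw2⟩ := hpar c δ hc hδ
  have he : 0 ≤ Real.log E / Real.log X := div_nonneg (Real.log_nonneg hE) hl.le
  have key := assembly_add (n := n) (K := K) (L := L) (b := b) hn hbL hb hK
    (c := c) (e := Real.log E / Real.log X) (γ := γ) (δ := δ) (A := A) (q := q)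
    (κ := min γ (1 / 4)) (by linarith) he hA hq hqc (min_le_left _ _)
    (by have := min_le_right γ (1 / 4 : ℝ); linarith)
    (by have := min_le_right γ (1 / 4 : ℝ); linarith)
    (fun j => Real.log (S j) / Real.log X) (fun h i j => Real.log (p h i j) / Real.log X)
    (fun j => Real.log (s j) / Real.log X) nar gain
    (fun j hj => log_step hX hE (hpos' j hj.le) (hpos' (j + 1) hj) (hG j hj))
    (fun j hj hg => by
      have := log_step hX hE (hpos' j hj.le) (hpos' (j + 1) hj) (hgain j hj hg)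
      linarith)
    (fun h i j h1 h2 h3 => log_pot hX hE (hp h i j h1 h2 h3).1 (hp h i j h1 h2 h3).2)
    (fun h i j k h1 h2 h3 h4 h5 =>
      log_step_pot hX hE (hpos' i (by omega)) (hpos' j (by omega))
        (lt_of_lt_of_le one_pos (hp h i j h1 h2 (by omega)).1)
        (lt_of_lt_of_le one_pos (hp i j k h2 h3 h4).1) (hT h i j k h1 h2 h3 h4 h5))
    (fun j h1 h2 => log_pot hX hE (hs j h1 h2).1 (hs j h1 h2).2)
    (fun j h1 h2 h3 h4 h5 h6 => by
      have := log_step_pot hX hE (hpos' j (by omega)) (hpos' (j + 1) (by omega))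
        (lt_of_lt_of_le one_pos (hs j h1 (by omega)).1)
        (lt_of_lt_of_le one_pos (hs (j + 1) (by omega) (by omega)).1) (hS j h1 h2 h3 h4 h5 h6)
      linarith)
  refine exp_back hX hE (hpos' 0 (by omega)) (hpos' n le_rfl) ?_
  push_cast
  exact key

/-- **slab chain only, multiplicative form**: from level `j0` on every level is a gain or good. -/
theorem assembly_slab {c1 : ℝ} (hc1 : 0 < c1) {j0 : ℕ} (hj0 : 1 ≤ j0) : ∃ n0 : ℕ, ∀ n, n0 ≤ n →
    j0 + 1 ≤ n ∧
    ∀ c γ δ : ℝ, c1 ≤ c → δ ≤ c1 / 4 → ∀ X E : ℝ, 1 < X → 1 ≤ E →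
    ∀ (S : ℕ → ℝ) (s : ℕ → ℝ) (gain : ℕ → Prop),
    (∀ j, 0 ≤ S j) →
    (∀ j, j < n → S (j + 1) ≤ E * X ^ (c / 2) * S j) →
    (∀ j, j0 ≤ j + 1 → j < n → gain (j + 1) → S (j + 1) ≤ E * X ^ (c / 2 - γ) * S j) →
    (∀ j, j0 ≤ j → j + 1 ≤ n → 1 ≤ s j ∧ s j ≤ E * X ^ (1 / 2 : ℝ)) →
    (∀ j, j0 ≤ j → j + 2 ≤ n → ¬ gain j → ¬ gain (j + 1) →
      S (j + 1) ≤ E * X ^ δ * (s j / s (j + 1)) ^ (1 / 2 : ℝ) * S j) →
    S n ≤ E ^ (2 * n + 2) * X ^ (c / 2 * n - min γ (1 / 4)) * S 0 := by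
  obtain ⟨n1, hn1⟩ := exists_nat_ge (1 + j0 + 2 / c1)
  refine ⟨max n1 (j0 + 1), fun n hn => ?_⟩
  have hn2 : j0 + 1 ≤ n := (le_max_right _ _).trans hn
  have hn3 : (n1 : ℝ) ≤ n := by exact_mod_cast (le_max_left _ _).trans hn
  refine ⟨hn2, ?_⟩
  intro c γ δ hc hδ X E hX hE S s gain hS0 hG hgain hs hS
  have hX0 : 0 < X := by linarith
  have hE0 : 0 < E := by linarith
  have hl : 0 < Real.log X := Real.log_pos hX
  by_cases hSn : S n = 0
  · rw [hSn]
    have := hS0 0
    positivity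
  have hpos : ∀ m, m ≤ n → 0 < S (n - m) := by
    intro m
    induction m with
    | zero => intro _; exact lt_of_le_of_ne (hS0 n) (Ne.symm hSn)
    | succ m ih =>
      intro hm
      have h1 := ih (by omega)
      refine lt_of_le_of_ne (hS0 _) (fun h => ?_)
      have h2 := hG (n - (m + 1)) (by omega)
      rw [← h, mul_zero, show n - (m + 1) + 1 = n - m by omega] at h2
      linarith
  have hpos' : ∀ j, j ≤ n → 0 < S j := fun j hj => by
    have := hpos (n - j) (by omega)
    rwa [show n - (n - j) = j by omega] at this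
  have he : 0 ≤ Real.log E / Real.log X := div_nonneg (Real.log_nonneg hE) hl.le
  have hw : (1 / 4 + 1 / 4 : ℝ) ≤ ((n : ℝ) - 1 - j0) * (c / 2 - δ) := by
    have h1 : c1 / 4 ≤ c / 2 - δ := by linarith
    have h3 : 2 / c1 * (c1 / 4) = 1 / 2 := by field_simp; norm_num
    have h4 : 0 < 2 / c1 := by positivity
    calc (1 / 4 + 1 / 4 : ℝ) = 2 / c1 * (c1 / 4) := by rw [h3]; norm_num
      _ ≤ ((n : ℝ) - 1 - j0) * (c1 / 4) := mul_le_mul_of_nonneg_right (by linarith) (by linarith)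
      _ ≤ _ := mul_le_mul_of_nonneg_left h1 (by linarith)
  have key := assembly_slab_add (n := n) (j0 := j0) hj0 hn2
    (c := c) (e := Real.log E / Real.log X) (γ := γ) (δ := δ)
    (κ := min γ (1 / 4)) (by linarith) he (min_le_left _ _)
    (by have := min_le_right γ (1 / 4 : ℝ); linarith)
    (fun j => Real.log (S j) / Real.log X)
    (fun j => Real.log (s j) / Real.log X) gain
    (fun j hj => log_step hX hE (hpos' j hj.le) (hpos' (j + 1) hj) (hG j hj))
    (fun j hj0' hj hg => by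
      have := log_step hX hE (hpos' j hj.le) (hpos' (j + 1) hj) (hgain j hj0' hj hg)
      linarith)
    (fun j h1 h2 => log_pot hX hE (hs j h1 h2).1 (hs j h1 h2).2)
    (fun j h1 h2 h3 h4 => by
      have := log_step_pot hX hE (hpos' j (by omega)) (hpos' (j + 1) (by omega))
        (lt_of_lt_of_le one_pos (hs j h1 (by omega)).1)
        (lt_of_lt_of_le one_pos (hs (j + 1) (by omega) (by omega)).1) (hS j h1 h2 h3 h4)
      linarith)
  refine exp_back hX hE (hpos' 0 (by omega)) (hpos' n le_rfl) ?_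
  push_cast
  exact key

end mul

end Crest.Agent.R138.W298
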