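import Crest.Agent.R138.Wf4_448

/-!
# R138 / R139, W0: the F-side foundation, part 5 (helper448)

* `ParB.bound`, `ParB.bound_max`: the phases of the class `ParB B` have bounded derivatives;
* `ext_eq`, `wE_sl`: `ext h g x t = 𝓕⁻ (sl h g t) x`;
* `transport_far`: `transport` for all times with polynomial loss;
* `loc_const` (W3): pointwise bound by the weighted energy of the slice.
* `conservation` (W1).
-/

set_option autoImplicit false
set_option linter.unusedSectionVars false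

open MeasureTheory FourierTransform SchwartzMap LineDeriv
open scoped ContDiff SchwartzMap ENNReal ComplexInnerProductSpace

namespace Crest.Agent.R138.Wf448

open Crest.Agent.R138.Defs

theorem norm_iteratedFDeriv_half_sq {V : Type} [NormedAddCommGroup V] [InnerProductSpace ℝ V]
    (i : ℕ) (hi : 2 ≤ i) (ξ : V) :
    ‖iteratedFDeriv ℝ i (fun ξ : V => ‖ξ‖ ^ 2 / 2) ξ‖ ≤ 1 := by
  obtain ⟨k, rfl⟩ : ∃ k, i = k + 1 := ⟨i - 1, by omega⟩
  obtain ⟨l, rfl⟩ : ∃ l, k = l + 1 := ⟨k - 1, by omega⟩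
  have e1 : fderiv ℝ (fun ξ : V => ‖ξ‖ ^ 2 / 2) = fun ξ => innerSL ℝ ξ := by
    funext y
    have h1 : HasFDerivAt (fun ξ : V => ‖ξ‖ ^ 2) (2 • innerSL ℝ y) y :=
      (hasStrictFDerivAt_norm_sq y).hasFDerivAt
    have h2 := h1.mul_const (2⁻¹ : ℝ)
    have h3 : HasFDerivAt (fun ξ : V => ‖ξ‖ ^ 2 / 2) ((2⁻¹ : ℝ) • (2 • innerSL ℝ y)) y := by
      simpa [div_eq_mul_inv] using h2
    rw [h3.fderiv]
    ext z
    simp
  rw [← norm_iteratedFDeriv_fderiv, e1, ← norm_iteratedFDeriv_fderiv]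
  have e2 : fderiv ℝ (fun ξ : V => innerSL ℝ ξ) = fun _ => (innerSL ℝ : V →L[ℝ] V →L[ℝ] ℝ) := by
    funext y
    exact (innerSL ℝ : V →L[ℝ] V →L[ℝ] ℝ).fderiv
  rw [e2]
  rcases Nat.eq_zero_or_pos l with rfl | hl
  · rw [norm_iteratedFDeriv_zero]
    exact norm_innerSL_le ℝ
  · rw [iteratedFDeriv_const_of_ne hl.ne']
    simp

theorem contDiff_half_sq {V : Type} [NormedAddCommGroup V] [InnerProductSpace ℝ V] :
    ContDiff ℝ ∞ (fun ξ : V => ‖ξ‖ ^ 2 / 2) := (contDiff_norm_sq ℝ).div_const 2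

/-- derivative bounds for the class `ParB`. -/
theorem ParB.bound {B : ℕ → ℝ} {h : E2 → ℝ} (hh : ParB B h) (i : ℕ) (hi : 2 ≤ i) (ξ : E2) :
    ‖iteratedFDeriv ℝ i h ξ‖ ≤ 1 + B i := by
  have hc1 : ContDiff ℝ i (fun ξ : E2 => h ξ - ‖ξ‖ ^ 2 / 2) :=
    (hh.1.sub contDiff_half_sq).of_le (by exact_mod_cast le_top)
  have hc2 : ContDiff ℝ i (fun ξ : E2 => ‖ξ‖ ^ 2 / 2) :=
    contDiff_half_sq.of_le (by exact_mod_cast le_top)
  have e : h = (fun ξ : E2 => h ξ - ‖ξ‖ ^ 2 / 2) + (fun ξ : E2 => ‖ξ‖ ^ 2 / 2) := by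
    funext ξ; simp
  rw [e, iteratedFDeriv_add_apply hc1.contDiffAt hc2.contDiffAt]
  refine (norm_add_le _ _).trans ?_
  have h1 := hh.2 i hi ξ
  have h2 := norm_iteratedFDeriv_half_sq i hi ξ
  linarith

theorem ParB.bound_max {B : ℕ → ℝ} {h : E2 → ℝ} (hh : ParB B h) (n : ℕ) :
    ∀ i, 2 ≤ i → i ≤ max n 2 → ∀ ξ : E2, ‖iteratedFDeriv ℝ i h ξ‖ ≤
      1 + ∑ k ∈ Finset.range (max n 2 + 1), |B k| := by
  intro i hi hin ξ
  refine (ParB.bound hh i hi ξ).trans ?_
  have h1 := Finset.single_le_sum (f := fun k => |B k|) (fun k _ => abs_nonneg _)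
    (Finset.mem_range.2 (Nat.lt_succ_of_le hin))
  have h2 := le_abs_self (B i)
  linarith

theorem ext_eq (h : E2 → ℝ) (g : E2 → ℂ) (x : E2) (t : ℝ) : ext h g x t = 𝓕⁻ (sl h g t) x := by
  rw [Real.fourierInv_eq]
  unfold Crest.Agent.R138.Defs.ext sl
  refine integral_congr_ae (Filter.Eventually.of_forall fun ξ => ?_)
  simp only [Circle.smul_def, smul_eq_mul]
  rw [← ee_eq, ee_add, real_inner_comm]
  ring

theorem wE_sl (n : ℕ) {W : Type*} [NormedAddCommGroup W] [InnerProductSpace ℝ W]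
    [FiniteDimensional ℝ W] (A : E2 →L[ℝ] W) (c : E2) (h : E2 → ℝ) (g : E2 → ℂ) (t : ℝ) :
    wE n A c (sl h g t) = LI (fun x => dw n A (x - c) * ‖ext h g x t‖ ^ 2) := by
  unfold wE
  simp_rw [ext_eq]

section far

variable {V : Type} [NormedAddCommGroup V] [InnerProductSpace ℝ V] [FiniteDimensional ℝ V]
  [MeasurableSpace V] [BorelSpace V]
variable {W : Type*} [NormedAddCommGroup W] [InnerProductSpace ℝ W] [FiniteDimensional ℝ W]

theorem dw_mono {n : ℕ} {A A' : V →L[ℝ] W} {x : V} (h : ‖A x‖ ≤ ‖A' x‖) : dw n A' x ≤ dw n A x := by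
  unfold dw gw
  gcongr

theorem dw_smul_le {n : ℕ} {A : V →L[ℝ] W} {l : ℝ} (hl0 : 0 < l) (hl : l ≤ 1) (x : V) :
    dw n (l • A) x ≤ (l⁻¹) ^ (2 * n) * dw n A x := by
  unfold dw gw
  rw [pow_mul, ← inv_pow, ← inv_pow, ← mul_pow]
  refine pow_le_pow_left₀ (by positivity) ?_ n
  rw [smul_apply, norm_smul, Real.norm_eq_abs, abs_of_pos hl0, mul_pow, inv_pow, ← mul_inv]
  refine inv_anti₀ (by positivity) ?_
  have : l ^ 2 ≤ 1 := pow_le_one₀ hl0.le hl
  nlinarith [sq_nonneg ‖A x‖]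

theorem wE_mono {n : ℕ} {A A' : V →L[ℝ] W} {c : V} {f : V → ℂ} (h : ∀ x, ‖A x‖ ≤ ‖A' x‖) :
    wE n A' c f ≤ wE n A c f := by
  refine LI_mono fun x => ?_
  exact mul_le_mul_of_nonneg_right (dw_mono (h _)) (by positivity)

theorem wE_smul_le {n : ℕ} {A : V →L[ℝ] W} {l : ℝ} (hl0 : 0 < l) (hl : l ≤ 1) (c : V) (f : V → ℂ) :
    wE n (l • A) c f ≤ ENNReal.ofReal ((l⁻¹) ^ (2 * n)) * wE n A c f := by
  unfold wE
  rw [← LI_const_mul (by positivity)]
  refine LI_mono fun x => ?_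
  rw [← mul_assoc]
  exact mul_le_mul_of_nonneg_right (dw_smul_le hl0 hl _) (by positivity)

/-- `transport` for all times, with polynomial loss. -/
theorem transport_far (n : ℕ) (M : ℝ) : ∃ C : ℝ, 0 ≤ C ∧ ∀ (A : V →L[ℝ] W) (h : V → ℝ),
    ContDiff ℝ ∞ h → (∀ i, 2 ≤ i → i ≤ max n 2 → ∀ ξ, ‖iteratedFDeriv ℝ i h ξ‖ ≤ M) →
    ∀ r : ℝ, 1 ≤ r → ‖A‖ ≤ r ^ (-(1/2) : ℝ) → ∀ (n0 : V) (S : Set V), Bornology.IsBounded S →
    (∀ ξ ∈ S, ‖A (gradient h ξ - n0)‖ ≤ 1 / r) → ∀ g : V → ℂ, Integrable g → MemLp g 2 →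
    (∀ ξ, g ξ ≠ 0 → ξ ∈ S) → ∀ (c : V) (t τ : ℝ),
    wE n A (c - τ • n0) (sl h g (t + τ)) ≤
      ENNReal.ofReal (C * (1 + |τ| / r) ^ (2 * n)) * wE n A c (sl h g t) := by
  obtain ⟨C, hC, H⟩ := transport (V := V) (W := W) n M
  refine ⟨C, hC, ?_⟩
  intro A h hh hM r hr hA n0 S hSb hS g hg hg2 hgS c t τ
  have hr0 : 0 < r := by linarith
  by_cases hτ : |τ| ≤ r
  · refine (H A h hh hM r hr hA n0 S hSb hS g hg hg2 hgS c t τ hτ).trans ?_
    refine mul_le_mul_left (ENNReal.ofReal_le_ofReal ?_) _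
    refine le_mul_of_one_le_right hC (one_le_pow₀ ?_)
    have : 0 ≤ |τ| / r := by positivity
    linarith
  · push Not at hτ
    have hτ0 : 0 < |τ| := hr0.trans hτ
    set l : ℝ := r / |τ| with hl
    have hl0 : 0 < l := by positivity
    have hl1 : l ≤ 1 := by rw [hl, div_le_one hτ0]; exact hτ.le
    have hlA : ∀ x, ‖(l • A) x‖ ≤ ‖A x‖ := by
      intro x
      rw [smul_apply, norm_smul, Real.norm_eq_abs, abs_of_pos hl0]
      exact mul_le_of_le_one_left (norm_nonneg _) hl1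
    have hA' : ‖l • A‖ ≤ |τ| ^ (-(1/2) : ℝ) := by
      rw [norm_smul, Real.norm_eq_abs, abs_of_pos hl0]
      calc l * ‖A‖ ≤ l * r ^ (-(1/2) : ℝ) := mul_le_mul_of_nonneg_left hA hl0.le
        _ ≤ |τ| ^ (-(1/2) : ℝ) := by
          have e1 : r ^ (-(1/2) : ℝ) = |τ| ^ (-(1/2) : ℝ) * l ^ (-(1/2) : ℝ) := by
            rw [← Real.mul_rpow hτ0.le hl0.le, hl]
            congr 1
            field_simp
          rw [e1]
          have e2 : l * (|τ| ^ (-(1/2) : ℝ) * l ^ (-(1/2) : ℝ)) =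
              |τ| ^ (-(1/2) : ℝ) * l ^ ((1/2) : ℝ) := by
            have : l = l ^ (1:ℝ) := (Real.rpow_one l).symm
            calc l * (|τ| ^ (-(1/2) : ℝ) * l ^ (-(1/2) : ℝ))
                = |τ| ^ (-(1/2) : ℝ) * (l ^ (1:ℝ) * l ^ (-(1/2) : ℝ)) := by
                  rw [Real.rpow_one]; ring
              _ = |τ| ^ (-(1/2) : ℝ) * l ^ ((1/2) : ℝ) := by
                  rw [← Real.rpow_add hl0]; norm_num
          rw [e2]
          exact mul_le_of_le_one_right (Real.rpow_nonneg hτ0.le _)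
            (Real.rpow_le_one hl0.le hl1 (by norm_num))
    have hS' : ∀ ξ ∈ S, ‖(l • A) (gradient h ξ - n0)‖ ≤ 1 / |τ| := by
      intro ξ hξ
      rw [smul_apply, norm_smul, Real.norm_eq_abs, abs_of_pos hl0]
      calc l * ‖A (gradient h ξ - n0)‖ ≤ l * (1 / r) := mul_le_mul_of_nonneg_left (hS ξ hξ) hl0.le
        _ = 1 / |τ| := by rw [hl]; field_simp
    have h1 := H (l • A) h hh hM |τ| (hr.trans hτ.le) hA' n0 S hSb hS' g hg hg2 hgS c t τ le_rfl
    calc wE n A (c - τ • n0) (sl h g (t + τ)) ≤ wE n (l • A) (c - τ • n0) (sl h g (t + τ)) :=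
          wE_mono hlA
      _ ≤ ENNReal.ofReal C * wE n (l • A) c (sl h g t) := h1
      _ ≤ ENNReal.ofReal C * (ENNReal.ofReal ((l⁻¹) ^ (2 * n)) * wE n A c (sl h g t)) :=
          mul_le_mul_right (wE_smul_le hl0 hl1 _ _) _
      _ = ENNReal.ofReal (C * (|τ| / r) ^ (2 * n)) * wE n A c (sl h g t) := by
          rw [← mul_assoc, ← ENNReal.ofReal_mul hC, hl, inv_div]
      _ ≤ ENNReal.ofReal (C * (1 + |τ| / r) ^ (2 * n)) * wE n A c (sl h g t) := by
          refine mul_le_mul_left (ENNReal.ofReal_le_ofReal ?_) _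
          refine mul_le_mul_of_nonneg_left (pow_le_pow_left₀ (by positivity) (by linarith) _) hC

end far

section lc

variable {V : Type} [NormedAddCommGroup V] [InnerProductSpace ℝ V] [FiniteDimensional ℝ V]
  [MeasurableSpace V] [BorelSpace V]

/-- absolute value of the determinant. -/
noncomputable def adet (A : V →L[ℝ] V) : ℝ := |LinearMap.det (A : V →ₗ[ℝ] V)|

theorem adet_pos (A : V ≃L[ℝ] V) : 0 < adet (A : V →L[ℝ] V) :=
  abs_pos.2 (LinearEquiv.isUnit_det' A.toLinearEquiv).ne_zero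

theorem map_det (A : V ≃L[ℝ] V) : Measure.map (A : V → V) (volume : Measure V) =
    ENNReal.ofReal (adet (A : V →L[ℝ] V))⁻¹ • (volume : Measure V) := by
  have h := MeasureTheory.Measure.map_linearMap_addHaar_eq_smul_addHaar (volume : Measure V)
    (f := ((A : V →L[ℝ] V) : V →ₗ[ℝ] V)) (by
      exact (LinearEquiv.isUnit_det' A.toLinearEquiv).ne_zero)
  have h3 : Measure.map (A : V → V) (volume : Measure V) = Measure.map (((A : V →L[ℝ] V) : V →ₗ[ℝ] V)) volume := rfl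
  rw [h3, h, abs_inv]; rfl

theorem integral_comp_det (A : V ≃L[ℝ] V) (F : V → ℂ) :
    ∫ y, F (A y) = ((adet (A : V →L[ℝ] V))⁻¹ : ℝ) • ∫ z, F z := by
  have h2 : ∫ z, F z ∂(Measure.map (A : V → V) volume) = ∫ y, F (A y) :=
    MeasureTheory.integral_map_equiv A.toHomeomorph.toMeasurableEquiv F
  rw [← h2, map_det, integral_smul_measure, ENNReal.toReal_ofReal]
  exact inv_nonneg.2 (adet_pos A).le

theorem lintegral_comp_det (A : V ≃L[ℝ] V) (F : V → ℝ≥0∞) :
    ∫⁻ y, F (A y) = ENNReal.ofReal (adet (A : V →L[ℝ] V))⁻¹ * ∫⁻ z, F z := by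
  have h2 : ∫⁻ z, F z ∂(Measure.map (A : V → V) volume) = ∫⁻ y, F (A y) :=
    MeasureTheory.lintegral_map_equiv F A.toHomeomorph.toMeasurableEquiv
  rw [← h2, map_det, lintegral_smul_measure]
  rfl

/-- **(W3) locally constant property** on a slice. -/
theorem loc_const (V : Type) [NormedAddCommGroup V] [InnerProductSpace ℝ V] [FiniteDimensional ℝ V]
    [MeasurableSpace V] [BorelSpace V] (n : ℕ) : ∃ C : ℝ, 0 ≤ C ∧ ∀ (A : V ≃L[ℝ] V) (ξ0 : V)
    (g : V → ℂ), Integrable g →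
    (∀ ξ, g ξ ≠ 0 → ∃ η, ‖η‖ ≤ 1 ∧ ξ = ξ0 + adj (A : V →L[ℝ] V) η) → ∀ x,
    ‖𝓕⁻ g x‖ₑ ^ 2 ≤ ENNReal.ofReal (C * adet (A : V →L[ℝ] V)) * wE n (A : V →L[ℝ] V) x g := by
  classical
  obtain ⟨K0, hK0, h2⟩ := cutoffC V
  obtain ⟨χ, hχ1, hχ2, hχ3, hχ4, hχ5, hχ6⟩ := h2 (Metric.closedBall 0 1) 1 one_pos
  have hχS : HasCompactSupport χ := by
    refine HasCompactSupport.intro' (K := Metric.cthickening 1 (Metric.closedBall (0:V) 1)) ?_
      Metric.isClosed_cthickening ?_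
    · exact Metric.isCompact_of_isClosed_isBounded Metric.isClosed_cthickening
        Metric.isBounded_closedBall.cthickening
    · intro ξ hξ
      exact hχ6 ξ fun hc => hξ (Metric.thickening_subset_cthickening 1 _ hc)
  set κ : 𝓢(V, ℂ) := 𝓕 (hχS.toSchwartzMap hχ1.1) with hκ
  have hκi : ∀ η, (𝓕⁻ κ) η = χ η := by
    intro η
    rw [hκ, FourierTransform.fourierInv_fourier_eq]
    rfl
  set I0 : ℝ≥0∞ := LI (fun z => gw n (ContinuousLinearMap.id ℝ V) z * ‖κ z‖ ^ 2) with hI0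
  have hI0t : I0 ≠ ⊤ := by
    -- `gw` has temperate growth, so `gw • κ` is a Schwartz function
    have ht : (gw n (ContinuousLinearMap.id ℝ V)).HasTemperateGrowth := by
      have h := (Function.hasTemperateGrowth_one_add_norm_sq_rpow V ((n:ℝ)))
      have e : (gw n (ContinuousLinearMap.id ℝ V)) = (fun x : V => (1 + ‖x‖ ^ 2) ^ (n:ℝ)) := by
        funext x
        simp only [gw, ContinuousLinearMap.id_apply]
        rw [Real.rpow_natCast]
      rw [e]; exact h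
    have hi := integrable_inner (smulLeftCLM ℂ (gw n (ContinuousLinearMap.id ℝ V)) κ) κ
    rw [hI0]
    unfold LI
    have h1 : ∀ z, ENNReal.ofReal (gw n (ContinuousLinearMap.id ℝ V) z * ‖κ z‖ ^ 2) =
        ‖⟪(smulLeftCLM ℂ (gw n (ContinuousLinearMap.id ℝ V)) κ) z, κ z⟫‖ₑ := by
      intro z
      rw [← ofReal_norm, smulLeftCLM_apply_apply ht]
      congr 1
      simp only [RCLike.inner_apply, Complex.real_smul, norm_mul, RCLike.norm_conj, Complex.norm_real,
        Real.norm_eq_abs, abs_of_pos (gw_pos n (ContinuousLinearMap.id ℝ V) z)]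
      ring
    simp_rw [h1]
    exact hi.2.ne
  refine ⟨I0.toReal, ENNReal.toReal_nonneg, ?_⟩
  intro A ξ0 g hg hsupp x
  set a : ℝ := adet (A : V →L[ℝ] V) with ha
  have ha0 : 0 < a := adet_pos A
  set K : V → ℂ := fun y => (a : ℂ) * κ (A y) * ee (-inner ℝ ξ0 y) with hK
  have hκc : Continuous κ := κ.continuous
  have heec : Continuous ee := contDiff_ee.continuous
  have hKc : Continuous K := by
    rw [hK]
    exact (continuous_const.mul (hκc.comp A.continuous)).mul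
      (heec.comp ((innerSL ℝ ξ0).continuous.neg))
  have hKi : Integrable K := by
    have h1 : Integrable (fun y => κ (A y)) := by
      have h0 : Integrable κ (Measure.map (A : V → V) volume) := by
        rw [map_det]
        exact κ.integrable.smul_measure ENNReal.ofReal_ne_top
      exact h0.comp_measurable A.continuous.measurable
    refine Integrable.mul_bdd (c := 1) (h1.const_mul (a : ℂ)) ?_ (Filter.Eventually.of_forall fun y => (norm_ee _).le)
    exact (heec.comp ((innerSL ℝ ξ0).continuous.neg)).aestronglyMeasurable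
  have hKF : ∀ η, ‖η‖ ≤ 1 → 𝓕⁻ K (ξ0 + adj (A : V →L[ℝ] V) η) = 1 := by
    intro η hη
    have e1 : 𝓕⁻ K (ξ0 + adj (A : V →L[ℝ] V) η) = (a : ℂ) * ∫ y, (fun z => κ z * ee (inner ℝ z η)) (A y) := by
      rw [Real.fourierInv_eq, ← integral_const_mul]
      refine integral_congr_ae (Filter.Eventually.of_forall fun y => ?_)
      simp only [Circle.smul_def, smul_eq_mul, hK]
      rw [← ee_eq, inner_add_right, ee_add, ContinuousLinearMap.adjoint_inner_right]
      have : ee (inner ℝ y ξ0) * ee (-inner ℝ ξ0 y) = 1 := by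
        rw [← ee_add, real_inner_comm, add_neg_cancel]
        simp [ee]
      calc ee (inner ℝ y ξ0) * ee (inner ℝ ((A : V →L[ℝ] V) y) η) * ((a : ℂ) * κ (A y) * ee (-inner ℝ ξ0 y))
          = (ee (inner ℝ y ξ0) * ee (-inner ℝ ξ0 y)) * ((a : ℂ) * (κ (A y) * ee (inner ℝ ((A : V →L[ℝ] V) y) η))) := by ring
        _ = _ := by rw [this, one_mul]; rfl
    rw [e1, integral_comp_det A (fun z => κ z * ee (inner ℝ z η)), ← ha, Complex.real_smul, ← mul_assoc, Complex.ofReal_inv,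
      mul_inv_cancel₀ (by exact_mod_cast ha0.ne'), one_mul]
    have e2 : ∫ z, κ z * ee (inner ℝ z η) = (𝓕⁻ κ) η := by
      rw [SchwartzMap.fourierInv_coe, Real.fourierInv_eq]
      refine integral_congr_ae (Filter.Eventually.of_forall fun y => ?_)
      simp only [Circle.smul_def, smul_eq_mul]
      rw [← ee_eq, mul_comm]
    rw [e2, hκi]
    exact hχ2 η (by simpa using hη)
  -- reproducing formula
  set gx : V → ℂ := fun ξ => ee (inner ℝ x ξ) * g ξ with hgx
  have hgxi : Integrable gx := by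
    refine Integrable.bdd_mul (c := 1) hg ?_ (Filter.Eventually.of_forall fun ξ => (norm_ee _).le)
    exact (heec.comp ((innerSL ℝ x).continuous)).aestronglyMeasurable
  have e3 : 𝓕⁻ g x = ∫ y, 𝓕⁻ gx y * K y := by
    rw [integral_fourierInv_mul hgxi hKi, Real.fourierInv_eq]
    refine integral_congr_ae (Filter.Eventually.of_forall fun ξ => ?_)
    simp only [Circle.smul_def, smul_eq_mul, hgx]
    rw [← ee_eq, real_inner_comm]
    by_cases hz : g ξ = 0
    · rw [hz]; ring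
    · obtain ⟨η, hη, rfl⟩ := hsupp ξ hz
      rw [hKF η hη, mul_one]
  have e4 : ∀ y, 𝓕⁻ gx y = 𝓕⁻ g (y + x) := by
    intro y
    rw [Real.fourierInv_eq, Real.fourierInv_eq]
    refine integral_congr_ae (Filter.Eventually.of_forall fun ξ => ?_)
    simp only [Circle.smul_def, smul_eq_mul, hgx]
    rw [← ee_eq, ← ee_eq, inner_add_right, ee_add, ← mul_assoc, real_inner_comm ξ x]
  set w : V → ℝ := fun y => dw n (A : V →L[ℝ] V) y with hw
  set G : V → ℝ := fun y => gw n (A : V →L[ℝ] V) y with hG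
  have hGp : ∀ y, 0 < G y := fun y => gw_pos n _ y
  have hwG : ∀ y, w y = (G y)⁻¹ := fun y => rfl
  have hgc : Continuous (𝓕⁻ g : V → ℂ) := fourierInv_continuous hg
  have hGc : Continuous G := by
    rw [hG]; unfold gw; fun_prop
  have e5 : ‖𝓕⁻ g x‖ₑ ≤ (∫⁻ y, (ENNReal.ofReal (Real.sqrt (w y) * ‖𝓕⁻ g (y + x)‖)) ^ (2:ℝ)) ^ (1/2 : ℝ) *
      (∫⁻ y, (ENNReal.ofReal (Real.sqrt (G y) * ‖K y‖)) ^ (2:ℝ)) ^ (1/2 : ℝ) := by
    rw [e3]
    refine (enorm_integral_le_lintegral_enorm _).trans ?_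
    refine le_trans (le_of_eq ?_) (ENNReal.lintegral_mul_le_Lp_mul_Lq volume Real.HolderConjugate.two_two ?_ ?_)
    · refine lintegral_congr fun y => ?_
      simp only [Pi.mul_apply]
      rw [e4, ← ENNReal.ofReal_mul (by positivity), ← ofReal_norm, norm_mul]
      congr 1
      have h1 : Real.sqrt (w y) * Real.sqrt (G y) = 1 := by
        rw [← Real.sqrt_mul (by rw [hwG]; exact (inv_pos.2 (hGp y)).le), hwG,
          inv_mul_cancel₀ (hGp y).ne', Real.sqrt_one]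
      calc ‖𝓕⁻ g (y + x)‖ * ‖K y‖ = (Real.sqrt (w y) * Real.sqrt (G y)) * (‖𝓕⁻ g (y + x)‖ * ‖K y‖) := by
            rw [h1, one_mul]
        _ = _ := by ring
    · refine (Measurable.ennreal_ofReal ?_).aemeasurable
      refine Continuous.measurable ?_
      have hwc : Continuous w := continuous_dw n _
      exact (hwc.sqrt).mul ((hgc.comp (continuous_id.add continuous_const)).norm)
    · refine (Measurable.ennreal_ofReal ?_).aemeasurable
      exact (hGc.sqrt.mul hKc.norm).measurable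
  have e6 : (∫⁻ y, (ENNReal.ofReal (Real.sqrt (w y) * ‖𝓕⁻ g (y + x)‖)) ^ (2:ℝ)) =
      wE n (A : V →L[ℝ] V) x g := by
    unfold wE
    rw [← LI_translate _ x]
    unfold LI
    refine lintegral_congr fun y => ?_
    beta_reduce
    rw [add_sub_cancel_right, ENNReal.ofReal_rpow_of_nonneg (by positivity) (by norm_num),
      Real.rpow_ofNat, mul_pow, Real.sq_sqrt (by rw [hwG]; exact (inv_pos.2 (hGp y)).le)]
  have e7 : (∫⁻ y, (ENNReal.ofReal (Real.sqrt (G y) * ‖K y‖)) ^ (2:ℝ)) = ENNReal.ofReal a * I0 := by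
    have h1 : ∀ y, (ENNReal.ofReal (Real.sqrt (G y) * ‖K y‖)) ^ (2:ℝ) =
        (fun z => ENNReal.ofReal (a ^ 2) * ENNReal.ofReal (gw n (ContinuousLinearMap.id ℝ V) z * ‖κ z‖ ^ 2)) (A y) := by
      intro y
      simp only
      rw [ENNReal.ofReal_rpow_of_nonneg (by positivity) (by norm_num), ← ENNReal.ofReal_mul (by positivity),
        Real.rpow_ofNat, mul_pow, Real.sq_sqrt (hGp y).le]
      congr 1
      simp only [hK, hG, gw, norm_mul, norm_ee, mul_one, ContinuousLinearMap.id_apply,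
        Complex.norm_real, Real.norm_eq_abs, abs_of_pos ha0, ContinuousLinearEquiv.coe_coe]
      ring
    rw [lintegral_congr h1, lintegral_comp_det A (fun z => ENNReal.ofReal (a ^ 2) *
      ENNReal.ofReal (gw n (ContinuousLinearMap.id ℝ V) z * ‖κ z‖ ^ 2)),
      lintegral_const_mul' _ _ ENNReal.ofReal_ne_top, ← mul_assoc,
      ← ENNReal.ofReal_mul (by positivity), ← ha]
    congr 2
    field_simp
  rw [e6, e7] at e5
  calc ‖𝓕⁻ g x‖ₑ ^ 2 ≤ ((wE n (A : V →L[ℝ] V) x g) ^ (1/2 : ℝ) * (ENNReal.ofReal a * I0) ^ (1/2 : ℝ)) ^ 2 := by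
        gcongr
    _ = wE n (A : V →L[ℝ] V) x g * (ENNReal.ofReal a * I0) := by
        rw [mul_pow, ← ENNReal.rpow_natCast, ← ENNReal.rpow_natCast, ← ENNReal.rpow_mul, ← ENNReal.rpow_mul]
        norm_num
    _ = ENNReal.ofReal (I0.toReal * a) * wE n (A : V →L[ℝ] V) x g := by
        rw [ENNReal.ofReal_mul ENNReal.toReal_nonneg, ENNReal.ofReal_toReal hI0t]
        ring

end lc

section cons

variable {V : Type} [NormedAddCommGroup V] [InnerProductSpace ℝ V] [FiniteDimensional ℝ V]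
  [MeasurableSpace V] [BorelSpace V]

theorem integrable_sl {h : V → ℝ} (hh : Continuous h) {g : V → ℂ} (hg : Integrable g) (t : ℝ) :
    Integrable (sl h g t) := by
  refine hg.mul_bdd (c := 1) ?_ (Filter.Eventually.of_forall fun ξ => (norm_ee _).le)
  exact (contDiff_ee.continuous.comp (continuous_const.mul hh)).aestronglyMeasurable

theorem memLp_sl {h : V → ℝ} (hh : Continuous h) {g : V → ℂ} (hg : MemLp g 2) (t : ℝ) :
    MemLp (sl h g t) 2 := by
  refine MemLp.of_le hg ?_ (Filter.Eventually.of_forall fun ξ => ?_)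
  · exact hg.1.mul (contDiff_ee.continuous.comp (continuous_const.mul hh)).aestronglyMeasurable
  · rw [sl, norm_mul, norm_ee, mul_one]

/-- **(W1)** conservation of energy. -/
theorem conservation {h : E2 → ℝ} (hh : Continuous h) {g : E2 → ℂ} (hg : Integrable g)
    (hg2 : MemLp g 2) (t : ℝ) : LI (fun x => ‖ext h g x t‖ ^ 2) = LI (fun ξ => ‖g ξ‖ ^ 2) := by
  simp_rw [ext_eq]
  rw [planchL (integrable_sl hh hg t) (memLp_sl hh hg2 t)]
  congr 1
  funext ξ
  rw [sl, norm_mul, norm_ee, mul_one]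

theorem LI_sq_eq (F : V → ℂ) : LI (fun x => ‖F x‖ ^ 2) = ∫⁻ x, ‖F x‖ₑ ^ 2 := by
  unfold LI
  refine lintegral_congr fun x => ?_
  rw [ENNReal.ofReal_pow (norm_nonneg _), ofReal_norm]

end cons

end Crest.Agent.R138.Wf448
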