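import Crest.Agent.R138.Wpk4_685
import Crest.Agent.R138.Wf5_448

/-!
# R138 / R139: selectable wave packets, part 5 (helper685): the pieces are representable, energy of
`sel`, support, far packets are negligible (REST).
-/

set_option autoImplicit false
set_option linter.unusedSectionVars false

open MeasureTheory FourierTransform
open scoped ContDiff ENNReal

namespace Crest.Agent.R138.Wpk685

open Crest.Agent.R138.Defs
open Crest.Agent.R138.Wf448 (wE dw gw sl LI)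

/-! ### the pieces -/

theorem capwin_cont (ρ : ℝ) (m : ℤ × ℤ) : Continuous (cap win (cen ρ m) ρ) :=
  (contDiff_cap win_contDiff _ _).continuous

theorem capwin_le (ρ : ℝ) (m : ℤ × ℤ) (ξ : E2) : ‖cap win (cen ρ m) ρ ξ‖ ≤ 1 := norm_win_le _

theorem capwin_supp {ρ : ℝ} (hρ : 0 < ρ) (m : ℤ × ℤ) (ξ : E2)
    (hξ : cap win (cen ρ m) ρ ξ ≠ 0) : ‖ξ - cen ρ m‖ ≤ 71 / 50 * ρ := by
  by_contra hc
  push Not at hc
  exact hξ (cap_supp (fun ζ hζ => win_zero' hζ) (cen ρ m) hρ ξ hc)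

theorem win_int {ρ : ℝ} {g : E2 → ℂ} (hg : Integrable g) (m : ℤ × ℤ) :
    Integrable (fun ξ => cap win (cen ρ m) ρ ξ * g ξ) :=
  hg.bdd_mul (c := 1) (capwin_cont ρ m).aestronglyMeasurable
    (Filter.Eventually.of_forall (capwin_le ρ m))

theorem win_l2 {ρ : ℝ} {g : E2 → ℂ} (hg : MemLp g 2) (m : ℤ × ℤ) :
    MemLp (fun ξ => cap win (cen ρ m) ρ ξ * g ξ) 2 := by
  refine MemLp.of_le hg ((capwin_cont ρ m).aestronglyMeasurable.mul hg.1)
    (Filter.Eventually.of_forall fun ξ => ?_)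
  rw [norm_mul]
  exact mul_le_of_le_one_left (norm_nonneg _) (capwin_le ρ m ξ)

theorem um_cont {ρ : ℝ} {g : E2 → ℂ} (hg : Integrable g) (m : ℤ × ℤ) : Continuous (um ρ g m) :=
  Crest.Agent.R138.Wf448.fourierInv_continuous (win_int hg m)

theorem um_bdd {ρ : ℝ} {g : E2 → ℂ} (m : ℤ × ℤ) : ∃ M : ℝ, 0 ≤ M ∧ ∀ y, ‖um ρ g m y‖ ≤ M :=
  ⟨∫ v, ‖cap win (cen ρ m) ρ v * g v‖, integral_nonneg fun _ => norm_nonneg _, fun y =>
    Crest.Agent.R138.Wf448.norm_fourierInv_le y⟩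

theorem ind_int {u : E2 → ℂ} (hu : Continuous u) {M : ℝ} (hM : ∀ y, ‖u y‖ ≤ M) {S : Set E2}
    (hS : MeasurableSet S) (hb : Bornology.IsBounded S) :
    Integrable (S.indicator u) ∧ MemLp (S.indicator u) 2 := by
  obtain ⟨R, hR⟩ := hb.subset_closedBall 0
  refine int_of_bdd (hu.measurable.indicator hS) (M := |M|) (R := R) ?_ ?_
  · intro ξ
    by_cases h : ξ ∈ S
    · rw [Set.indicator_of_mem h]; exact (hM ξ).trans (le_abs_self M)
    · rw [Set.indicator_of_notMem h, norm_zero]; exact abs_nonneg M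
  · intro ξ hξ
    rw [Set.indicator_of_notMem]
    intro h
    have := hR h
    rw [Metric.mem_closedBall, dist_zero_right] at this
    linarith

theorem fourier_cont {v : E2 → ℂ} (hv : Integrable v) : Continuous (𝓕 v : E2 → ℂ) := by
  have hL : Continuous fun p : E2 × E2 => (innerₗ E2) p.1 p.2 := continuous_inner
  exact VectorFourier.fourierIntegral_continuous (e := Real.fourierChar)
    (μ := (volume : Measure E2)) (L := innerₗ E2) Real.continuous_fourierChar hL hv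

theorem norm_fourier_le {v : E2 → ℂ} (x : E2) : ‖𝓕 v x‖ ≤ ∫ y, ‖v y‖ := by
  rw [fourier_eq_int]
  refine (norm_integral_le_integral_norm _).trans (le_of_eq ?_)
  congr 1
  ext y
  rw [norm_mul, norm_ee, mul_one]

theorem capfat_cont (ρ : ℝ) (ξ0 : E2) : Continuous (cap fat ξ0 ρ) :=
  (contDiff_cap fat_contDiff _ _).continuous

theorem norm_fat_le (ζ : E2) : ‖fat ζ‖ ≤ 1 := by
  unfold fat bmp
  rw [Complex.norm_real, Real.norm_eq_abs, abs_of_nonneg (ContDiffBump.nonneg _)]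
  exact ContDiffBump.le_one _

theorem capfat_supp {ρ : ℝ} (hρ : 0 < ρ) (ξ0 : E2) (ξ : E2)
    (hξ : cap fat ξ0 ρ ξ ≠ 0) : ‖ξ - ξ0‖ ≤ 3 / 2 * ρ := by
  by_contra hc
  push Not at hc
  exact hξ (cap_supp fat_supp ξ0 hρ ξ hc)

theorem piece_cont {ρ : ℝ} {g : E2 → ℂ} (hg : Integrable g) (m : ℤ × ℤ) {S : Set E2}
    (hS : MeasurableSet S) (hb : Bornology.IsBounded S) : Continuous (piece ρ g m S) := by
  obtain ⟨M, _, hM⟩ := um_bdd (ρ := ρ) (g := g) m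
  exact (capfat_cont ρ _).mul (fourier_cont (ind_int (um_cont hg m) hM hS hb).1)

theorem piece_supp {ρ : ℝ} (hρ : 0 < ρ) {g : E2 → ℂ} (m : ℤ × ℤ) {S : Set E2} (ξ : E2)
    (hξ : piece ρ g m S ξ ≠ 0) : ‖ξ - cen ρ m‖ ≤ 3 / 2 * ρ :=
  capfat_supp hρ _ ξ (left_ne_zero_of_mul hξ)

theorem piece_hcs {ρ : ℝ} (hρ : 0 < ρ) {g : E2 → ℂ} (m : ℤ × ℤ) {S : Set E2} :
    HasCompactSupport (piece ρ g m S) := by
  refine HasCompactSupport.of_support_subset_isCompact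
    (isCompact_closedBall (cen ρ m) (3 / 2 * ρ)) fun ξ hξ => ?_
  rw [Metric.mem_closedBall, dist_eq_norm]
  exact piece_supp hρ m ξ hξ

theorem piece_rep {ρ : ℝ} (hρ : 0 < ρ) {g : E2 → ℂ} (hg : Integrable g) (m : ℤ × ℤ) {S : Set E2}
    (hS : MeasurableSet S) (hb : Bornology.IsBounded S) :
    Rep ρ (cen ρ m) (piece ρ g m S) (S.indicator (um ρ g m)) := by
  obtain ⟨M, hM0, hM⟩ := um_bdd (ρ := ρ) (g := g) m
  have hi := ind_int (um_cont hg m) hM hS hb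
  have hc := piece_cont (ρ := ρ) hg m hS hb
  refine ⟨hc.integrable_of_hasCompactSupport (piece_hcs hρ m), ?_, piece_supp hρ m,
    hi.1.aestronglyMeasurable, ⟨M, fun y => ?_⟩, fun x => ?_⟩
  · exact hc.memLp_of_hasCompactSupport (piece_hcs hρ m)
  · by_cases h : y ∈ S
    · rw [Set.indicator_of_mem h]; exact hM y
    · rw [Set.indicator_of_notMem h, norm_zero]; exact hM0
  · exact rep_ind (capfat_int hρ _) hi.1 x

theorem full_rep {ρ : ℝ} (hρ : 0 < ρ) {g : E2 → ℂ} (hg : Integrable g) (hg2 : MemLp g 2)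
    (m : ℤ × ℤ) : Rep ρ (cen ρ m) (fun ξ => cap win (cen ρ m) ρ ξ * g ξ) (um ρ g m) := by
  obtain ⟨M, hM0, hM⟩ := um_bdd (ρ := ρ) (g := g) m
  refine ⟨win_int hg m, win_l2 hg2 m, fun ξ hξ => ?_, (um_cont hg m).aestronglyMeasurable,
    ⟨M, hM⟩, fun x => ?_⟩
  · exact (capwin_supp hρ m ξ (left_ne_zero_of_mul hξ)).trans (by linarith)
  · have e1 : (fun ξ => cap win (cen ρ m) ρ ξ * g ξ) =
        fun ξ => cap fat (cen ρ m) ρ ξ * (cap win (cen ρ m) ρ ξ * g ξ) := by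
      funext ξ
      by_cases h : cap win (cen ρ m) ρ ξ = 0
      · rw [h]; simp
      · have h1 := capwin_supp hρ m ξ h
        have h2 : cap fat (cen ρ m) ρ ξ = 1 := by
          unfold cap
          apply fat_one
          rw [norm_smul, Real.norm_eq_abs, abs_of_pos (inv_pos.2 hρ), inv_mul_le_iff₀ hρ]
          linarith
        rw [h2, one_mul]
    have h3 := rep_mul (capfat_cont ρ (cen ρ m)) (capfat_int hρ _) (Kf_int hρ _) (Kf_int' hρ _)
      (win_int (ρ := ρ) hg m) x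
    rw [← e1] at h3
    exact h3

theorem Rep.conv_int {ρ : ℝ} (hρ : 0 < ρ) {ξ0 : E2} {G v : E2 → ℂ} (h : Rep ρ ξ0 G v) (x : E2) :
    Integrable (fun y => v y * 𝓕⁻ (cap fat ξ0 ρ) (x - y)) := by
  obtain ⟨M, hM⟩ := h.vb
  exact ((Kf_int hρ ξ0).comp_sub_left x).bdd_mul (c := M) h.vm (Filter.Eventually.of_forall hM)

theorem Rep.sub {ρ : ℝ} (hρ : 0 < ρ) {ξ0 : E2} {G v G' v' : E2 → ℂ} (h : Rep ρ ξ0 G v)
    (h' : Rep ρ ξ0 G' v') : Rep ρ ξ0 (fun ξ => G ξ - G' ξ) (fun y => v y - v' y) := by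
  obtain ⟨M, hM⟩ := h.vb
  obtain ⟨M', hM'⟩ := h'.vb
  refine ⟨h.int.sub h'.int, h.l2.sub h'.l2, fun ξ hξ => ?_, h.vm.sub h'.vm,
    ⟨M + M', fun y => (norm_sub_le _ _).trans (add_le_add (hM y) (hM' y))⟩, fun x => ?_⟩
  · by_cases h1 : G ξ = 0
    · apply h'.supp
      intro h2
      exact hξ (by rw [h1, h2, sub_zero])
    · exact h.supp ξ h1
  · rw [Crest.Agent.R138.Wf448.fourierInv_sub' h.int h'.int, h.rep, h'.rep,
      ← integral_sub (h.conv_int hρ x) (h'.conv_int hρ x)]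
    congr 1
    ext y
    ring

theorem compl_rep {ρ : ℝ} (hρ : 0 < ρ) {g : E2 → ℂ} (hg : Integrable g) (hg2 : MemLp g 2)
    (m : ℤ × ℤ) {S : Set E2} (hS : MeasurableSet S) (hb : Bornology.IsBounded S) :
    Rep ρ (cen ρ m) (fun ξ => cap win (cen ρ m) ρ ξ * g ξ - piece ρ g m S ξ)
      (Sᶜ.indicator (um ρ g m)) := by
  have h1 := (full_rep hρ hg hg2 m).sub hρ (piece_rep hρ hg m hS hb)
  have e1 : (fun y => um ρ g m y - S.indicator (um ρ g m) y) = Sᶜ.indicator (um ρ g m) := by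
    funext y
    by_cases h : y ∈ S
    · rw [Set.indicator_of_mem h, Set.indicator_of_notMem (by simpa using h), sub_self]
    · rw [Set.indicator_of_notMem h, Set.indicator_of_mem (by simpa using h), sub_zero]
  rwa [e1] at h1

theorem lint_ind {S : Set E2} (hS : MeasurableSet S) (w : E2 → ℝ≥0∞) (u : E2 → ℂ) :
    ∫⁻ y, w y * ‖S.indicator u y‖ₑ ^ 2 = ∫⁻ y in S, w y * ‖u y‖ₑ ^ 2 := by
  rw [← lintegral_indicator hS]
  refine lintegral_congr fun y => ?_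
  by_cases h : y ∈ S
  · rw [Set.indicator_of_mem h, Set.indicator_of_mem h]
  · rw [Set.indicator_of_notMem h, Set.indicator_of_notMem h]; simp

/-! ### energies -/

theorem SV_one (ρ : ℝ) (hρ : 0 ≤ ρ) (n : ℕ) : SV ρ 1 n (fun _ => 1) := by
  refine ⟨measurable_const, fun _ => one_pos, fun x y => ?_⟩
  have : (1:ℝ) ≤ (1 + ρ * ‖x - y‖) ^ n := one_le_pow₀ (by
    have : 0 ≤ ρ * ‖x - y‖ := by positivity
    linarith)
  linarith

theorem WE_one {g : E2 → ℂ} (hg : Integrable g) (hg2 : MemLp g 2) :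
    WE (fun _ => 1) g = ∫⁻ ξ, ‖g ξ‖ₑ ^ 2 := by
  unfold WE
  simp only [ENNReal.ofReal_one, one_mul]
  rw [← Crest.Agent.R138.Wf448.LI_sq_eq, ← Crest.Agent.R138.Wf448.LI_sq_eq,
    Crest.Agent.R138.Wf448.planchL hg hg2]

/-- bounded measurable selection. -/
structure Bs (ρ : ℝ) (S : ℤ × ℤ → Set E2) : Prop where
  meas : ∀ m ∈ caps ρ, MeasurableSet (S m)
  bdd : ∀ m ∈ caps ρ, Bornology.IsBounded (S m)

theorem sel_cont {ρ : ℝ} {g : E2 → ℂ} (hg : Integrable g) {S : ℤ × ℤ → Set E2} (hS : Bs ρ S) :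
    Continuous (sel ρ g S) :=
  continuous_finsetSum _ fun m hm => piece_cont hg m (hS.meas m hm) (hS.bdd m hm)

theorem sel_hcs {ρ : ℝ} (hρ : 0 < ρ) {g : E2 → ℂ} {S : ℤ × ℤ → Set E2} :
    HasCompactSupport (sel ρ g S) := by
  have h1 : ∀ m ∈ caps ρ, HasCompactSupport (piece ρ g m (S m)) := fun m _ => piece_hcs hρ m
  refine HasCompactSupport.of_support_subset_isCompact
    (K := ⋃ m ∈ caps ρ, Metric.closedBall (cen ρ m) (3 / 2 * ρ))
    ((caps ρ).isCompact_biUnion fun m _ => isCompact_closedBall _ _) fun ξ hξ => ?_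
  obtain ⟨m, hm, hm2⟩ := Finset.exists_ne_zero_of_sum_ne_zero hξ
  refine Set.mem_biUnion hm ?_
  rw [Metric.mem_closedBall, dist_eq_norm]
  exact piece_supp hρ m ξ hm2

theorem sel_int {ρ : ℝ} (hρ : 0 < ρ) {g : E2 → ℂ} (hg : Integrable g) {S : ℤ × ℤ → Set E2}
    (hS : Bs ρ S) : Integrable (sel ρ g S) ∧ MemLp (sel ρ g S) 2 :=
  ⟨(sel_cont hg hS).integrable_of_hasCompactSupport (sel_hcs hρ),
    (sel_cont hg hS).memLp_of_hasCompactSupport (sel_hcs hρ)⟩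

theorem sel_bdd {ρ : ℝ} (hρ : 0 < ρ) {g : E2 → ℂ} (hg : Integrable g) {S : ℤ × ℤ → Set E2}
    (hS : Bs ρ S) : ∃ M : ℝ, ∀ ξ, ‖sel ρ g S ξ‖ ≤ M :=
  (sel_hcs hρ).exists_bound_of_continuous (sel_cont hg hS)

/-- the support of `sel` is in the `3ρ`-neighbourhood of the support of `g`. -/
theorem sel_supp {ρ : ℝ} (hρ : 0 < ρ) {g : E2 → ℂ} {S : ℤ × ℤ → Set E2} {σ : ℝ}
    (hg : ∀ ξ, σ < ‖ξ‖ → g ξ = 0) (ξ : E2) (hξ : σ + 3 * ρ < ‖ξ‖) : sel ρ g S ξ = 0 := by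
  by_contra hne
  obtain ⟨m, hm, hm2⟩ := Finset.exists_ne_zero_of_sum_ne_zero hne
  have h1 := piece_supp hρ m ξ hm2
  have h2 : ∃ ξ', cap win (cen ρ m) ρ ξ' * g ξ' ≠ 0 := by
    by_contra hall
    push Not at hall
    apply hm2
    have e1 : um ρ g m = fun _ => 0 := by
      funext x
      unfold um
      rw [fourierInv_eq_int]
      simp only [hall, zero_mul, integral_zero]
    unfold piece
    rw [e1]
    have e2 : (S m).indicator (fun _ : E2 => (0:ℂ)) = fun _ => 0 := by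
      funext y; simp
    rw [e2, fourier_eq_int]
    simp
  obtain ⟨ξ', hξ'⟩ := h2
  have h3 := capwin_supp hρ m ξ' (left_ne_zero_of_mul hξ')
  have h4 : ‖ξ'‖ ≤ σ := by
    by_contra hc
    push Not at hc
    exact right_ne_zero_of_mul hξ' (hg ξ' hc)
  have h5 : ‖ξ‖ ≤ ‖ξ - cen ρ m‖ + ‖ξ' - cen ρ m‖ + ‖ξ'‖ := by
    have : ξ = (ξ - cen ρ m) - (ξ' - cen ρ m) + ξ' := by abel
    calc ‖ξ‖ = ‖(ξ - cen ρ m) - (ξ' - cen ρ m) + ξ'‖ := by rw [← this]
      _ ≤ ‖(ξ - cen ρ m) - (ξ' - cen ρ m)‖ + ‖ξ'‖ := norm_add_le _ _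
      _ ≤ _ := by gcongr; exact norm_sub_le _ _
  linarith

theorem PB0 : ParB (fun _ => 0) (fun ξ : E2 => ‖ξ‖ ^ 2 / 2) := by
  refine ⟨(contDiff_norm_sq ℝ).div_const 2, ?_⟩
  intro k hk ξ
  simp

/-- **(Q3)** energy of the selected wave. -/
theorem sel_energy : ∃ C : ℝ, 0 ≤ C ∧ ∀ ρ : ℝ, 0 < ρ → ρ ≤ 1 → ∀ g : E2 → ℂ, Integrable g →
    ∀ S : ℤ × ℤ → Set E2, Bs ρ S →
    ∫⁻ ξ, ‖sel ρ g S ξ‖ₑ ^ 2 ≤ ENNReal.ofReal C * en ρ g S := by
  obtain ⟨C, hC, h⟩ := thmA (fun _ => 0) 0 1 le_rfl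
  refine ⟨C, hC, ?_⟩
  intro ρ hρ hρ1 g hg S hS
  have h1 := h _ PB0 ρ 1 _ hρ hρ1 (SV_one ρ hρ.le 0) (caps ρ) (fun m => piece ρ g m (S m))
    (fun m => (S m).indicator (um ρ g m)) (fun m hm => piece_rep hρ hg m (hS.meas m hm)
      (hS.bdd m hm)) 0 (by simp)
  rw [sl_zero, one_pow, mul_one] at h1
  have e1 : (fun ξ => ∑ m ∈ caps ρ, piece ρ g m (S m) ξ) = sel ρ g S := rfl
  rw [e1, WE_one (sel_int hρ hg hS).1 (sel_int hρ hg hS).2] at h1
  refine h1.trans (le_of_eq ?_)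
  unfold en
  congr 1
  refine Finset.sum_congr rfl fun m hm => ?_
  rw [lint_ind (hS.meas m hm)]
  simp

theorem en_le : ∃ C : ℝ, 0 ≤ C ∧ ∀ ρ : ℝ, 0 < ρ → ρ ≤ 1 → ∀ g : E2 → ℂ, Integrable g → MemLp g 2 →
    ∀ S : ℤ × ℤ → Set E2, en ρ g S ≤ ENNReal.ofReal C * ∫⁻ ξ, ‖g ξ‖ₑ ^ 2 := by
  obtain ⟨C, hC, h⟩ := thmB (fun _ => 0) 0 1 le_rfl
  refine ⟨C, hC, ?_⟩
  intro ρ hρ hρ1 g hg hg2 S
  have h1 := h _ PB0 ρ 1 _ hρ hρ1 (SV_one ρ hρ.le 0) (caps ρ) g hg hg2 0 (by simp)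
  rw [sl_zero, one_pow, mul_one, WE_one hg hg2] at h1
  refine le_trans ?_ h1
  unfold en
  refine Finset.sum_le_sum fun m _ => ?_
  simp only [ENNReal.ofReal_one, one_mul]
  exact setLIntegral_le_lintegral _ _

/-- decomposition of `g`. -/
theorem sum_win {ρ : ℝ} (hρ : 0 < ρ) {g : E2 → ℂ} (hg : ∀ ξ, 2 < ‖ξ‖ → g ξ = 0) (ξ : E2) :
    ∑ m ∈ caps ρ, cap win (cen ρ m) ρ ξ * g ξ = g ξ := by
  rw [← Finset.sum_mul]
  by_cases h : ‖ξ‖ ≤ 2
  · rw [cap_win_sum hρ h, one_mul]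
  · push Not at h
    rw [hg ξ h, mul_zero]

/-! ### far packets are negligible -/

theorem WE_mono {w w' : E2 → ℝ} (h : ∀ x, w x ≤ w' x) (g : E2 → ℂ) : WE w g ≤ WE w' g :=
  lintegral_mono fun x => mul_le_mul_left (ENNReal.ofReal_le_ofReal (h x)) _

/-- the multiplication by `6`. -/
noncomputable def six : E2 ≃L[ℝ] E2 :=
  ContinuousLinearEquiv.smulLeft (Units.mk0 (6:ℝ) (by norm_num))

theorem six_apply (x : E2) : six x = (6:ℝ) • x := rfl

theorem adj_six (η : E2) : Crest.Agent.R138.Wf448.adj (six : E2 →L[ℝ] E2) η = (6:ℝ) • η := by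
  refine ext_inner_right ℝ fun v => ?_
  rw [ContinuousLinearMap.adjoint_inner_left]
  have : (six : E2 →L[ℝ] E2) v = (6:ℝ) • v := rfl
  rw [this, inner_smul_right, real_inner_smul_left]

theorem loc_pt (n : ℕ) : ∃ C : ℝ, 0 ≤ C ∧ ∀ g : E2 → ℂ, Integrable g → (∀ ξ, g ξ ≠ 0 → ‖ξ‖ ≤ 6) →
    ∀ x, ‖𝓕⁻ g x‖ₑ ^ 2 ≤ ENNReal.ofReal C * WE (fun y => ((1 + ‖y - x‖) ^ n)⁻¹) g := by
  obtain ⟨C, hC, h⟩ := Crest.Agent.R138.Wf448.loc_const E2 n
  set a := Crest.Agent.R138.Wf448.adet (six : E2 →L[ℝ] E2) with ha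
  have ha0 : 0 ≤ a := (Crest.Agent.R138.Wf448.adet_pos six).le
  refine ⟨C * a * 2 ^ n, by positivity, ?_⟩
  intro g hg hs x
  have h1 := h six 0 g hg ?_ x
  · refine h1.trans ?_
    rw [wE_eq, ENNReal.ofReal_mul (p := C * a) (by positivity), mul_assoc]
    refine mul_le_mul_right ?_ _
    unfold WE
    rw [← lintegral_const_mul' _ _ ENNReal.ofReal_ne_top]
    refine lintegral_mono fun y => ?_
    rw [← mul_assoc, ← ENNReal.ofReal_mul (by positivity)]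
    refine mul_le_mul_left (ENNReal.ofReal_le_ofReal ?_) _
    unfold dw gw
    have e1 : (six : E2 →L[ℝ] E2) (y - x) = (6:ℝ) • (y - x) := rfl
    rw [e1, norm_smul]
    set u : ℝ := ‖y - x‖ with hu
    have hu0 : 0 ≤ u := norm_nonneg _
    have h6 : ‖(6:ℝ)‖ = 6 := by norm_num
    rw [h6]
    have h2 : (1 + u) ^ n ≤ 2 ^ n * (1 + (6 * u) ^ 2) ^ n := by
      rw [← mul_pow]
      refine pow_le_pow_left₀ (by positivity) ?_ n
      nlinarith [sq_nonneg (1 - u), sq_nonneg u]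
    rw [← div_eq_mul_inv, inv_eq_one_div, div_le_div_iff₀ (by positivity) (by positivity), one_mul]
    exact h2
  · intro ξ hξ
    refine ⟨(6:ℝ)⁻¹ • ξ, ?_, ?_⟩
    · rw [norm_smul, norm_inv, Real.norm_eq_abs, abs_of_pos (by norm_num : (0:ℝ) < 6)]
      have := hs ξ hξ
      rw [inv_mul_le_iff₀ (by norm_num)]
      linarith
    · rw [adj_six, smul_smul]
      norm_num

theorem SV_pt {ρ : ℝ} (hρ : 0 ≤ ρ) (n : ℕ) (x : E2) : SV ρ 1 n (fun y => ((1 + ρ * ‖y - x‖) ^ n)⁻¹) := by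
  refine ⟨by fun_prop, fun y => by positivity, fun y z => ?_⟩
  rw [one_mul, ← div_eq_mul_inv, inv_eq_one_div, div_le_div_iff₀ (by positivity) (by positivity),
    one_mul, ← mul_pow]
  refine pow_le_pow_left₀ (by positivity) ?_ n
  have h1 : ‖z - x‖ ≤ ‖y - z‖ + ‖y - x‖ := by
    have : z - x = -(y - z) + (y - x) := by abel
    rw [this]
    exact (norm_add_le _ _).trans (by rw [norm_neg])
  have h2 := mul_le_mul_of_nonneg_left h1 hρ
  have h3 : 0 ≤ ρ * ‖y - z‖ := by positivity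
  have h4 : 0 ≤ ρ * ‖y - x‖ := by positivity
  nlinarith [mul_nonneg h3 h4]

theorem grad_le {B : ℕ → ℝ} {h : E2 → ℝ} (hh : ParB B h) (h1 : fderiv ℝ h 0 = 0) (ξ : E2) :
    ‖gradient h ξ‖ ≤ (1 + |B 2|) * ‖ξ‖ := by
  have h2 := Crest.Agent.R138.Wf448.gradient_lip hh.1 (M := 1 + |B 2|)
    (fun ξ => (norm_phase_le hh 2 le_rfl ξ).trans (by linarith [le_abs_self (B 2)])) ξ 0
  have h3 : gradient h 0 = 0 := by simp [gradient, h1]
  rwa [h3, sub_zero, sub_zero] at h2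

/-- only the caps which meet the support matter. -/
theorem um_zero {ρ : ℝ} (hρ : 0 < ρ) {g : E2 → ℂ} {σ : ℝ} (hg : ∀ ξ, σ < ‖ξ‖ → g ξ = 0)
    {m : ℤ × ℤ} (hm : σ + 71 / 50 * ρ < ‖cen ρ m‖) : um ρ g m = fun _ => 0 := by
  have hall : ∀ ξ, cap win (cen ρ m) ρ ξ * g ξ = 0 := by
    intro ξ
    by_contra hne
    have h1 := capwin_supp hρ m ξ (left_ne_zero_of_mul hne)
    have h2 : ‖ξ‖ ≤ σ := by
      by_contra hc
      push Not at hc
      exact right_ne_zero_of_mul hne (hg ξ hc)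
    have h3 : ‖cen ρ m‖ ≤ ‖ξ - cen ρ m‖ + ‖ξ‖ := by
      have : cen ρ m = -(ξ - cen ρ m) + ξ := by abel
      calc ‖cen ρ m‖ = ‖-(ξ - cen ρ m) + ξ‖ := by rw [← this]
        _ ≤ _ := (norm_add_le _ _).trans (by rw [norm_neg])
    linarith
  funext x
  unfold um
  rw [fourierInv_eq_int]
  simp only [hall, zero_mul, integral_zero]

/-- **(Q1) REST**. -/
theorem rest_small (B : ℕ → ℝ) (κ : ℝ) (hκ : 0 ≤ κ) (M : ℕ) : ∃ C : ℝ, 0 ≤ C ∧
    ∀ h, ParB B h → fderiv ℝ h 0 = 0 → ∀ r : ℝ, 1 ≤ r → ∀ g : E2 → ℂ, Integrable g → MemLp g 2 →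
    (∀ ξ, 2 < ‖ξ‖ → g ξ = 0) → ∀ S : ℤ × ℤ → Set E2, Bs (r ^ (-(1/2) : ℝ)) S →
    (∀ m ∈ caps (r ^ (-(1/2) : ℝ)),
      Metric.closedBall 0 ((1 + κ + 4 * κ * (1 + |B 2|)) * r) ⊆ S m) →
    ∀ (x : E2) (t : ℝ), ‖x‖ ≤ κ * r → |t| ≤ κ * r →
    ‖ext h g x t - ext h (sel (r ^ (-(1/2) : ℝ)) g S) x t‖ₑ ^ 2 ≤
      ENNReal.ofReal (C * (r ^ (2 * M))⁻¹) * ∫⁻ ξ, ‖g ξ‖ₑ ^ 2 := by
  obtain ⟨C1, hC1, h1⟩ := loc_pt (4 * M)
  obtain ⟨C2, hC2, h2⟩ := thmA B (4 * M) (κ + 1) (by linarith)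
  obtain ⟨C3, hC3, h3⟩ := en_le
  refine ⟨C1 * (C2 * C3), by positivity, ?_⟩
  intro h hh hh1 r hr g hg hg2 hgs S hS hSK x t hx ht
  set ρ : ℝ := r ^ (-(1/2) : ℝ) with hρdef
  have hr0 : 0 < r := by linarith
  have hρ : 0 < ρ := Real.rpow_pos_of_pos hr0 _
  have hρ1 : ρ ≤ 1 := Real.rpow_le_one_of_one_le_of_nonpos hr (by norm_num)
  have hρ2 : ρ ^ 2 = r⁻¹ := by
    rw [hρdef, ← Real.rpow_natCast, ← Real.rpow_mul hr0.le]
    norm_num
    rw [Real.rpow_neg_one]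
  have hρr : ρ * r = r * ρ := mul_comm _ _
  have hhc : Continuous h := hh.1.continuous
  set D : E2 → ℂ := fun ξ => ∑ m ∈ caps ρ, (cap win (cen ρ m) ρ ξ * g ξ - piece ρ g m (S m) ξ) with hD
  have hDe : ∀ ξ, D ξ = g ξ - sel ρ g S ξ := by
    intro ξ
    rw [hD]
    simp only [Finset.sum_sub_distrib]
    rw [sum_win hρ hgs]
    rfl
  have hDi : Integrable D := by
    have : D = fun ξ => g ξ - sel ρ g S ξ := funext hDe
    rw [this]
    exact hg.sub (sel_int hρ hg hS).1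
  have hDs : ∀ ξ, D ξ ≠ 0 → ‖ξ‖ ≤ 6 := by
    intro ξ hξ
    by_contra hc
    push Not at hc
    apply hξ
    rw [hDe, hgs ξ (by linarith), sel_supp hρ hgs ξ (by linarith), sub_zero]
  have hext : ext h g x t - ext h (sel ρ g S) x t = 𝓕⁻ (sl h D t) x := by
    rw [Crest.Agent.R138.Wf448.ext_eq, Crest.Agent.R138.Wf448.ext_eq,
      ← Crest.Agent.R138.Wf448.fourierInv_sub' (sl_int hhc hg t)
        (sl_int hhc (sel_int hρ hg hS).1 t)]
    have e0 : (fun ξ => sl h g t ξ - sl h (sel ρ g S) t ξ) = sl h D t := by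
      funext ξ
      unfold sl
      rw [hDe]
      ring
    rw [e0]
  rw [hext]
  have hts : |t| * ρ ^ 2 ≤ κ + 1 := by
    rw [hρ2]
    calc |t| * r⁻¹ ≤ (κ * r) * r⁻¹ := by gcongr
      _ = κ := by field_simp
      _ ≤ κ + 1 := by linarith
  have a1 := h1 (sl h D t) (sl_int hhc hDi t) (fun ξ hξ => hDs ξ (left_ne_zero_of_mul hξ)) x
  have a2 : WE (fun y => ((1 + ‖y - x‖) ^ (4 * M))⁻¹) (sl h D t) ≤
      WE (fun y => ((1 + ρ * ‖y - x‖) ^ (4 * M))⁻¹) (sl h D t) := by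
    refine WE_mono (fun y => ?_) _
    refine inv_anti₀ (by positivity) (pow_le_pow_left₀ (by positivity) ?_ _)
    have := norm_nonneg (y - x)
    nlinarith
  have a3 := h2 h hh ρ 1 _ hρ hρ1 (SV_pt hρ.le (4 * M) x) (caps ρ)
    (fun m ξ => cap win (cen ρ m) ρ ξ * g ξ - piece ρ g m (S m) ξ)
    (fun m => (S m)ᶜ.indicator (um ρ g m))
    (fun m hm => compl_rep hρ hg hg2 m (hS.meas m hm) (hS.bdd m hm)) t hts
  rw [one_pow, mul_one] at a3
  have a4 : ∑ m ∈ caps ρ, ∫⁻ y, ENNReal.ofReal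
      (((1 + ρ * ‖y - t • gradient h (cen ρ m) - x‖) ^ (4 * M))⁻¹) *
        ‖(S m)ᶜ.indicator (um ρ g m) y‖ₑ ^ 2 ≤
      ENNReal.ofReal ((r ^ (2 * M))⁻¹) * en ρ g (fun _ => Set.univ) := by
    unfold en
    rw [Finset.mul_sum]
    refine Finset.sum_le_sum fun m hm => ?_
    by_cases hc : 2 + 71 / 50 * ρ < ‖cen ρ m‖
    · rw [um_zero hρ hgs hc]
      simp
    · push Not at hc
      rw [lint_ind (hS.meas m hm).compl, ← lintegral_const_mul' _ _ ENNReal.ofReal_ne_top,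
        Measure.restrict_univ]
      refine (setLIntegral_mono' (hS.meas m hm).compl fun y hy => ?_).trans
        (setLIntegral_le_lintegral _ _)
      refine mul_le_mul_left (ENNReal.ofReal_le_ofReal ?_) _
      have hy1 : (1 + κ + 4 * κ * (1 + |B 2|)) * r < ‖y‖ := by
        by_contra hcy
        push Not at hcy
        exact hy (hSK m hm (by simpa using hcy))
      have hg1 : ‖gradient h (cen ρ m)‖ ≤ 4 * (1 + |B 2|) := by
        have := grad_le hh hh1 (cen ρ m)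
        have h4 : ‖cen ρ m‖ ≤ 4 := by linarith
        have h5 : 0 ≤ |B 2| := abs_nonneg _
        nlinarith [norm_nonneg (cen ρ m)]
      have hg2 : ‖t • gradient h (cen ρ m)‖ ≤ κ * r * (4 * (1 + |B 2|)) := by
        rw [norm_smul, Real.norm_eq_abs]
        have := abs_nonneg t
        have := norm_nonneg (gradient h (cen ρ m))
        have h6 : 0 ≤ κ * r := by positivity
        exact mul_le_mul ht hg1 (by positivity) h6
      have h7 : r ≤ ‖y - t • gradient h (cen ρ m) - x‖ := by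
        have h8 : ‖y‖ ≤ ‖y - t • gradient h (cen ρ m) - x‖ + ‖t • gradient h (cen ρ m)‖ + ‖x‖ := by
          have : y = (y - t • gradient h (cen ρ m) - x) + t • gradient h (cen ρ m) + x := by abel
          calc ‖y‖ = ‖(y - t • gradient h (cen ρ m) - x) + t • gradient h (cen ρ m) + x‖ := by
                rw [← this]
            _ ≤ _ := (norm_add_le _ _).trans (add_le_add (norm_add_le _ _) le_rfl)
        nlinarith
      have h9 : r ^ (2 * M) ≤ (1 + ρ * ‖y - t • gradient h (cen ρ m) - x‖) ^ (4 * M) := by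
        have h10 : r ≤ (1 + ρ * ‖y - t • gradient h (cen ρ m) - x‖) ^ 2 := by
          have h11 : (ρ * r) ^ 2 = r := by
            rw [mul_pow, hρ2]
            field_simp
          have h12 : ρ * r ≤ ρ * ‖y - t • gradient h (cen ρ m) - x‖ := by gcongr
          have h13 : 0 < ρ * r := by positivity
          nlinarith
        calc r ^ (2 * M) ≤ ((1 + ρ * ‖y - t • gradient h (cen ρ m) - x‖) ^ 2) ^ (2 * M) :=
              pow_le_pow_left₀ hr0.le h10 _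
          _ = _ := by rw [← pow_mul]; congr 1; ring
      exact inv_anti₀ (by positivity) h9
  have a5 := h3 ρ hρ hρ1 g hg hg2 (fun _ => Set.univ)
  calc ‖𝓕⁻ (sl h D t) x‖ₑ ^ 2 ≤ ENNReal.ofReal C1 * WE (fun y => ((1 + ‖y - x‖) ^ (4 * M))⁻¹)
        (sl h D t) := a1
    _ ≤ ENNReal.ofReal C1 * (ENNReal.ofReal C2 * (ENNReal.ofReal ((r ^ (2 * M))⁻¹) *
        (ENNReal.ofReal C3 * ∫⁻ ξ, ‖g ξ‖ₑ ^ 2))) :=
        mul_le_mul_right (a2.trans (a3.trans (mul_le_mul_right (a4.trans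
          (mul_le_mul_right a5 _)) _))) _
    _ = _ := by
        have hrp : 0 ≤ (r ^ (2 * M))⁻¹ := by positivity
        rw [← mul_assoc, ← mul_assoc, ← mul_assoc, ← ENNReal.ofReal_mul hC1,
          ← ENNReal.ofReal_mul (by positivity), ← ENNReal.ofReal_mul (by positivity)]
        congr 2
        ring

end Crest.Agent.R138.Wpk685
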