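import Crest.Agent.R138.WDef_188
import Crest.Agent.R138.Wpk5_685

/-!
# R138 / R139: localisation between two packet scales (helper878).

`ρ ≤ ρ'` (long tubes / short tubes), frame `z`.  The energy of the short packets of
`tr h z g` in a selection `S'` is controlled by the energy of the long packets of `g` which pass
through `S'` (`loc_le`), and conversely (`loc_ge`).
-/

set_option autoImplicit false
set_option linter.unusedSectionVars false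

open MeasureTheory FourierTransform
open scoped ContDiff ENNReal

namespace Crest.Agent.R138.Loc878

open Crest.Agent.R138.Defs Crest.Agent.R138.Wpk685
open Crest.Agent.R138.Wf448 (wE sl)
open Crest.Agent.R138.W188 (tr)

/-- slowly varying majorant of the indicator of `S`. -/
noncomputable def wS (ρ : ℝ) (n : ℕ) (S : Set E2) (x : E2) : ℝ :=
  ((1 + ρ * Metric.infDist x S) ^ n)⁻¹

theorem wS_pos {ρ : ℝ} (hρ : 0 ≤ ρ) (n : ℕ) (S : Set E2) (x : E2) : 0 < wS ρ n S x := by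
  unfold wS
  have := Metric.infDist_nonneg (x := x) (s := S)
  positivity

theorem wS_le_one {ρ : ℝ} (hρ : 0 ≤ ρ) (n : ℕ) (S : Set E2) (x : E2) : wS ρ n S x ≤ 1 := by
  unfold wS
  have h0 := Metric.infDist_nonneg (x := x) (s := S)
  refine inv_le_one_of_one_le₀ (one_le_pow₀ ?_)
  have : 0 ≤ ρ * Metric.infDist x S := by positivity
  linarith

theorem wS_mem {ρ : ℝ} (n : ℕ) {S : Set E2} {x : E2} (hx : x ∈ S) : wS ρ n S x = 1 := by
  unfold wS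
  rw [Metric.infDist_zero_of_mem hx]
  simp

theorem wS_far {ρ X : ℝ} (hX : 0 < X) (n : ℕ) {S : Set E2} {x : E2}
    (hx : X ≤ ρ * Metric.infDist x S) : wS ρ n S x ≤ (X ^ n)⁻¹ := by
  unfold wS
  refine inv_anti₀ (by positivity) (pow_le_pow_left₀ hX.le (by linarith) n)

theorem SV_wS {ρ : ℝ} (hρ : 0 ≤ ρ) (n : ℕ) (S : Set E2) : SV ρ 1 n (wS ρ n S) := by
  refine ⟨?_, wS_pos hρ n S, fun x y => ?_⟩
  · have : Continuous (fun x : E2 => Metric.infDist x S) := Metric.continuous_infDist_pt S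
    unfold wS
    fun_prop
  · have hx := Metric.infDist_nonneg (x := x) (s := S)
    have hy := Metric.infDist_nonneg (x := y) (s := S)
    have h1 : Metric.infDist y S ≤ Metric.infDist x S + dist y x := Metric.infDist_le_infDist_add_dist
    rw [dist_eq_norm, norm_sub_rev] at h1
    have h3 : 0 ≤ ρ * Metric.infDist x S := by positivity
    have h4 : 0 ≤ ρ * Metric.infDist y S := by positivity
    have h5 : 0 ≤ ρ * ‖x - y‖ := by positivity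
    unfold wS
    rw [one_mul, ← div_eq_mul_inv, inv_eq_one_div,
      div_le_div_iff₀ (by positivity) (by positivity), one_mul, ← mul_pow]
    refine pow_le_pow_left₀ (by positivity) ?_ n
    have h2 := mul_le_mul_of_nonneg_left h1 hρ
    nlinarith [mul_nonneg h3 h5]

theorem win_kbound (N : ℕ) : ∃ K : ℝ, 0 < K ∧ ∀ (ρ ρ' : ℝ), 0 < ρ → ρ ≤ ρ' → ∀ (m : ℤ × ℤ),
    ∀ j ≤ N, ∀ ξ, ‖iteratedFDeriv ℝ j (cap win (cen ρ' m) ρ') ξ‖ ≤ K * (ρ⁻¹) ^ j := by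
  obtain ⟨Aw, hAw, hwin⟩ := exists_win win_contDiff (fun ζ hζ => win_zero' (by linarith)) N
  refine ⟨Aw + 1, by linarith, ?_⟩
  intro ρ ρ' hρ hρ' m j hj ξ
  have h1 := norm_iteratedFDeriv_cap_le win_contDiff (cen ρ' m) (lt_of_lt_of_le hρ hρ') j
    (hwin.bd j hj) ξ
  refine h1.trans ?_
  have h2 : ρ'⁻¹ ≤ ρ⁻¹ := inv_anti₀ hρ hρ'
  have h3 : 0 ≤ ρ'⁻¹ := inv_nonneg.2 (hρ.le.trans hρ')
  gcongr
  linarith

/-- the caps `m` of scale `ρ` near the cap `m'` of scale `ρ'`. -/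
def Near (ρ ρ' : ℝ) (m' m : ℤ × ℤ) : Prop := ‖cen ρ m - cen ρ' m'‖ < 3 * ρ'

open Classical in
/-- the caps of scale `ρ` near `m'`. -/
noncomputable def nearL (ρ ρ' : ℝ) (m' : ℤ × ℤ) : Finset (ℤ × ℤ) := (caps ρ).filter (Near ρ ρ' m')

open Classical in
/-- the caps of scale `ρ'` near `m`. -/
noncomputable def nearS (ρ ρ' : ℝ) (m : ℤ × ℤ) : Finset (ℤ × ℤ) :=
  (caps ρ').filter (fun m' => Near ρ ρ' m' m)

theorem mem_nearL {ρ ρ' : ℝ} {m m' : ℤ × ℤ} : m ∈ nearL ρ ρ' m' ↔ m ∈ caps ρ ∧ Near ρ ρ' m' m := by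
  classical
  simp [nearL]

theorem mem_nearS {ρ ρ' : ℝ} {m m' : ℤ × ℤ} : m' ∈ nearS ρ ρ' m ↔ m' ∈ caps ρ' ∧ Near ρ ρ' m' m := by
  classical
  simp [nearS]

theorem card_nearS {ρ ρ' : ℝ} (hρ' : 0 < ρ') (m : ℤ × ℤ) : (nearS ρ ρ' m).card ≤ 36 := by
  have h := card_near hρ' (cen ρ m) (fun m' => m' ∈ nearS ρ ρ' m)
    (fun m' hm' => (mem_nearS.1 hm').2)
  have e : {m' | m' ∈ nearS ρ ρ' m} = ((nearS ρ ρ' m : Finset (ℤ × ℤ)) : Set (ℤ × ℤ)) := rfl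
  rwa [e, Set.ncard_coe_finset] at h

theorem capwin_prod {ρ ρ' : ℝ} (hρ : 0 < ρ) (hρ' : ρ ≤ ρ') {m m' : ℤ × ℤ}
    (hm : ¬ Near ρ ρ' m' m) (ξ : E2) : cap win (cen ρ m) ρ ξ * cap win (cen ρ' m') ρ' ξ = 0 := by
  by_contra hne
  have h1 := capwin_supp hρ m ξ (left_ne_zero_of_mul hne)
  have h2 := capwin_supp (lt_of_lt_of_le hρ hρ') m' ξ (right_ne_zero_of_mul hne)
  apply hm
  unfold Near
  have h3 : ‖cen ρ m - cen ρ' m'‖ ≤ ‖ξ - cen ρ m‖ + ‖ξ - cen ρ' m'‖ := by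
    have : cen ρ m - cen ρ' m' = -(ξ - cen ρ m) + (ξ - cen ρ' m') := by abel
    rw [this]
    exact (norm_add_le _ _).trans (by rw [norm_neg])
  have h4 : 0 < ρ' := lt_of_lt_of_le hρ hρ'
  linarith

/-- a function supported in the ball of radius `2` and in the cap `m'` is the sum of its pieces in
the near caps. -/
theorem sum_nearL {ρ ρ' : ℝ} (hρ : 0 < ρ) (hρ' : ρ ≤ ρ') {g : E2 → ℂ}
    (hg : ∀ ξ, 2 < ‖ξ‖ → g ξ = 0) (m' : ℤ × ℤ) (ξ : E2) :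
    ∑ m ∈ nearL ρ ρ' m', cap win (cen ρ m) ρ ξ * (cap win (cen ρ' m') ρ' ξ * g ξ) =
      cap win (cen ρ' m') ρ' ξ * g ξ := by
  classical
  have h1 := sum_win hρ (g := fun ξ => cap win (cen ρ' m') ρ' ξ * g ξ)
    (fun ξ hξ => by rw [hg ξ hξ, mul_zero]) ξ
  refine Eq.trans ?_ h1
  unfold nearL
  rw [Finset.sum_filter_of_ne]
  intro m _ hne
  by_contra hc
  apply hne
  rw [← mul_assoc, capwin_prod hρ hρ' hc, zero_mul]

theorem um_lint (ρ : ℝ) (g : E2 → ℂ) (m : ℤ × ℤ) (w : E2 → ℝ) :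
    ∫⁻ y, ENNReal.ofReal (w y) * ‖um ρ g m y‖ₑ ^ 2 =
      WE w (fun ξ => cap win (cen ρ m) ρ ξ * g ξ) := rfl

/-- **core of LOC**, one short cap. -/
theorem loc_core (B : ℕ → ℝ) (n : ℕ) (L : ℝ) (hL : 1 ≤ L) : ∃ C : ℝ, 0 ≤ C ∧ ∀ h, ParB B h →
    ∀ (ρ ρ' A : ℝ) (w : E2 → ℝ), 0 < ρ → ρ ≤ ρ' → ρ ≤ 1 → SV ρ A n w → ∀ g : E2 → ℂ,
    Integrable g → MemLp g 2 → (∀ ξ, 2 < ‖ξ‖ → g ξ = 0) → ∀ z : E2 × ℝ, |z.2| * ρ ^ 2 ≤ L →
    ∀ m' : ℤ × ℤ,
    ∫⁻ x, ENNReal.ofReal (w x) * ‖um ρ' (tr h z g) m' x‖ₑ ^ 2 ≤ ENNReal.ofReal (C * A ^ 7) *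
      ∑ m ∈ nearL ρ ρ' m', ∫⁻ y,
        ENNReal.ofReal (w (y - z.1 - z.2 • gradient h (cen ρ m))) * ‖um ρ g m y‖ₑ ^ 2 := by
  obtain ⟨C1, hC1, h1⟩ := thmA B n L hL
  obtain ⟨C2, hC2, h2⟩ := sv_mult n
  obtain ⟨K, hK, hwin⟩ := win_kbound (n + 2)
  refine ⟨C1 * (C2 * K ^ 2), by positivity, ?_⟩
  intro h hh ρ ρ' A w hρ hρ' hρ1 hw g hg hg2 hgs z hz m'
  have hA := hw.one_le
  have hpos' : 0 < ρ' := lt_of_lt_of_le hρ hρ'
  set G' : E2 → ℂ := fun ξ => cap win (cen ρ' m') ρ' ξ * g ξ with hG'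
  have hG'i : Integrable G' := win_int hg m'
  have hG'2 : MemLp G' 2 := win_l2 hg2 m'
  have e1 : ∫⁻ x, ENNReal.ofReal (w x) * ‖um ρ' (tr h z g) m' x‖ₑ ^ 2 =
      WE (fun x => w (x - z.1)) (sl h G' z.2) := by
    rw [um_lint]
    refine WE_modulate w z.1 fun ξ => ?_
    simp only [hG', sl, tr]
    rw [ee_add]
    ring
  rw [e1]
  have a1 := h1 h hh ρ A _ hρ hρ1 (hw.comp_sub z.1) (nearL ρ ρ' m')
    (fun m ξ => cap win (cen ρ m) ρ ξ * G' ξ) (fun m => um ρ G' m)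
    (fun m _ => full_rep hρ hG'i hG'2 m) z.2 hz
  have e2 : (fun ξ => ∑ m ∈ nearL ρ ρ' m', cap win (cen ρ m) ρ ξ * G' ξ) = G' := by
    funext ξ
    exact sum_nearL hρ hρ' hgs m' ξ
  rw [e2] at a1
  refine a1.trans ?_
  have e3 : C1 * (C2 * K ^ 2) * A ^ 7 = (C1 * A ^ 5) * (C2 * A ^ 2 * K ^ 2) := by ring
  rw [e3, ENNReal.ofReal_mul (p := C1 * A ^ 5) (by positivity), mul_assoc]
  refine mul_le_mul' le_rfl ?_
  rw [Finset.mul_sum]
  refine Finset.sum_le_sum fun m _ => ?_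
  have hw' : SV ρ A n (fun y => w (y - z.2 • gradient h (cen ρ m) - z.1)) :=
    (hw.comp_sub z.1).comp_sub (z.2 • gradient h (cen ρ m))
  have a2 := h2 ρ A _ hρ hw' (cap win (cen ρ' m') ρ') (fun ξ => cap win (cen ρ m) ρ ξ * g ξ) K hK
    (temperate_cap win_contDiff (fun ζ hζ => win_zero' hζ) _ hpos')
    (fun j hj ξ => hwin ρ ρ' hρ hρ' m' j hj ξ) (win_int hg m) (win_l2 hg2 m)
  have e4 : (fun ξ => cap win (cen ρ' m') ρ' ξ * (cap win (cen ρ m) ρ ξ * g ξ)) =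
      fun ξ => cap win (cen ρ m) ρ ξ * G' ξ := by
    funext ξ
    simp only [hG']
    ring
  rw [e4, ← um_lint, ← um_lint] at a2
  have e5 : ∀ y : E2, y - z.1 - z.2 • gradient h (cen ρ m) = y - z.2 • gradient h (cen ρ m) - z.1 := by
    intro y; abel
  simp only [e5]
  exact a2

/-! ### splitting a weighted energy along a set -/

theorem split_le {w : E2 → ℝ} {T : Set E2} (hT : MeasurableSet T) {e : ℝ}
    (h1 : ∀ y, w y ≤ 1) (h2 : ∀ y, y ∉ T → w y ≤ e) (u : E2 → ℝ≥0∞) :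
    ∫⁻ y, ENNReal.ofReal (w y) * u y ≤ (∫⁻ y in T, u y) + ENNReal.ofReal e * ∫⁻ y, u y := by
  rw [← lintegral_add_compl _ hT]
  refine add_le_add ?_ ?_
  · refine setLIntegral_mono' hT fun y _ => ?_
    calc ENNReal.ofReal (w y) * u y ≤ 1 * u y := by
          refine mul_le_mul' ?_ le_rfl
          rw [← ENNReal.ofReal_one]
          exact ENNReal.ofReal_le_ofReal (h1 y)
      _ = u y := one_mul _
  · rw [← lintegral_const_mul' _ _ ENNReal.ofReal_ne_top]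
    refine (setLIntegral_mono' hT.compl fun y hy => ?_).trans (setLIntegral_le_lintegral _ _)
    exact mul_le_mul' (ENNReal.ofReal_le_ofReal (h2 y hy)) le_rfl

theorem set_le_wS {ρ : ℝ} (n : ℕ) {S : Set E2} (hS : MeasurableSet S) (u : E2 → ℝ≥0∞) :
    ∫⁻ y in S, u y ≤ ∫⁻ y, ENNReal.ofReal (wS ρ n S y) * u y := by
  refine (setLIntegral_mono' hS fun y hy => ?_).trans (setLIntegral_le_lintegral _ _)
  rw [wS_mem n hy, ENNReal.ofReal_one, one_mul]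

theorem sum_near_le {ρ ρ' : ℝ} (hρ' : 0 < ρ') (a : ℤ × ℤ → ℝ≥0∞) :
    ∑ m' ∈ caps ρ', ∑ m ∈ nearL ρ ρ' m', a m ≤ 36 * ∑ m ∈ caps ρ, a m := by
  have h1 : ∑ m' ∈ caps ρ', ∑ m ∈ nearL ρ ρ' m', a m = ∑ m ∈ caps ρ, ∑ m' ∈ nearS ρ ρ' m, a m := by
    refine Finset.sum_comm' fun m' m => ?_
    rw [mem_nearL, mem_nearS]
    tauto
  rw [h1, Finset.mul_sum]
  refine Finset.sum_le_sum fun m _ => ?_
  rw [Finset.sum_const, nsmul_eq_mul]
  refine mul_le_mul' ?_ le_rfl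
  exact_mod_cast card_nearS hρ' m

/-- **LOC (upper)**: the energy of the short packets of `tr h z g` in `S'` is controlled by the
energy of the long packets of `g` passing through `S'`. -/
theorem loc_le (B : ℕ → ℝ) (n : ℕ) (L : ℝ) (hL : 1 ≤ L) : ∃ C : ℝ, 0 ≤ C ∧ ∀ h, ParB B h →
    ∀ (ρ ρ' : ℝ), 0 < ρ → ρ ≤ ρ' → ρ ≤ 1 → ∀ g : E2 → ℂ,
    Integrable g → MemLp g 2 → (∀ ξ, 2 < ‖ξ‖ → g ξ = 0) → ∀ z : E2 × ℝ, |z.2| * ρ ^ 2 ≤ L →
    ∀ S' Sp : ℤ × ℤ → Set E2, (∀ m ∈ caps ρ', MeasurableSet (S' m)) →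
    (∀ m ∈ caps ρ, MeasurableSet (Sp m)) → ∀ X : ℝ, 0 < X →
    (∀ m ∈ caps ρ, ∀ m' ∈ caps ρ', Near ρ ρ' m' m → ∀ x ∈ S' m', ∀ y : E2,
      ρ * ‖y - (x + z.1 + z.2 • gradient h (cen ρ m))‖ ≤ X → y ∈ Sp m) →
    en ρ' (tr h z g) S' ≤ ENNReal.ofReal C * en ρ g Sp +
      ENNReal.ofReal (C * (X ^ n)⁻¹) * ∫⁻ ξ, ‖g ξ‖ₑ ^ 2 := by
  obtain ⟨C1, hC1, h1⟩ := loc_core B n L hL
  obtain ⟨C2, hC2, h2⟩ := en_le
  refine ⟨C1 * 36 * (C2 + 1), by positivity, ?_⟩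
  intro h hh ρ ρ' hρ hρ' hρ1 g hg hg2 hgs z hz S' Sp hS' hSp X hX hX2
  have hpos' : 0 < ρ' := lt_of_lt_of_le hρ hρ'
  set a : ℤ × ℤ → ℝ≥0∞ := fun m => (∫⁻ y in Sp m, ‖um ρ g m y‖ₑ ^ 2) +
    ENNReal.ofReal ((X ^ n)⁻¹) * ∫⁻ y, ‖um ρ g m y‖ₑ ^ 2 with ha
  have key : ∀ m' ∈ caps ρ', ∫⁻ x in S' m', ‖um ρ' (tr h z g) m' x‖ₑ ^ 2 ≤
      ENNReal.ofReal C1 * ∑ m ∈ nearL ρ ρ' m', a m := by
    intro m' hm'
    rcases (S' m').eq_empty_or_nonempty with he | hne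
    · rw [he]; simp
    · have b1 := h1 h hh ρ ρ' 1 _ hρ hρ' hρ1 (SV_wS hρ.le n (S' m')) g hg hg2 hgs z hz m'
      rw [one_pow, mul_one] at b1
      refine (set_le_wS n (hS' m' hm') _).trans (b1.trans ?_)
      refine mul_le_mul' le_rfl (Finset.sum_le_sum fun m hm => ?_)
      obtain ⟨hmc, hmn⟩ := mem_nearL.1 hm
      refine split_le (w := fun y => wS ρ n (S' m') (y - z.1 - z.2 • gradient h (cen ρ m)))
        (hSp m hmc) (fun y => wS_le_one hρ.le _ _ _) (fun y hy => ?_) _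
      refine wS_far hX n ?_
      have h5 : X / ρ ≤ Metric.infDist (y - z.1 - z.2 • gradient h (cen ρ m)) (S' m') := by
        rw [Metric.le_infDist hne]
        intro x hx
        rw [div_le_iff₀' hρ]
        by_contra hc
        push Not at hc
        apply hy
        refine hX2 m hmc m' hm' hmn x hx y ?_
        rw [dist_eq_norm] at hc
        have e : y - (x + z.1 + z.2 • gradient h (cen ρ m)) =
            y - z.1 - z.2 • gradient h (cen ρ m) - x := by abel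
        rw [e]
        exact hc.le
      rwa [div_le_iff₀' hρ] at h5
  have hsum : ∑ m ∈ caps ρ, a m ≤ en ρ g Sp + ENNReal.ofReal ((X ^ n)⁻¹ * C2) *
      ∫⁻ ξ, ‖g ξ‖ₑ ^ 2 := by
    rw [ha]
    simp only [Finset.sum_add_distrib]
    refine add_le_add le_rfl ?_
    rw [← Finset.mul_sum, ENNReal.ofReal_mul (by positivity), mul_assoc]
    refine mul_le_mul' le_rfl ?_
    have h6 := h2 ρ hρ hρ1 g hg hg2 (fun _ => Set.univ)
    unfold en at h6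
    simpa only [Measure.restrict_univ] using h6
  calc en ρ' (tr h z g) S' ≤ ∑ m' ∈ caps ρ', ENNReal.ofReal C1 * ∑ m ∈ nearL ρ ρ' m', a m :=
        Finset.sum_le_sum key
    _ = ENNReal.ofReal C1 * ∑ m' ∈ caps ρ', ∑ m ∈ nearL ρ ρ' m', a m := by rw [Finset.mul_sum]
    _ ≤ ENNReal.ofReal C1 * (36 * (en ρ g Sp + ENNReal.ofReal ((X ^ n)⁻¹ * C2) *
        ∫⁻ ξ, ‖g ξ‖ₑ ^ 2)) := by
        refine mul_le_mul' le_rfl ((sum_near_le hpos' a).trans (mul_le_mul' le_rfl hsum))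
    _ = ENNReal.ofReal (C1 * 36) * en ρ g Sp + ENNReal.ofReal (C1 * 36 * ((X ^ n)⁻¹ * C2)) *
        ∫⁻ ξ, ‖g ξ‖ₑ ^ 2 := by
        have e36 : ENNReal.ofReal 36 = 36 := by norm_num
        rw [ENNReal.ofReal_mul (p := C1) hC1, ENNReal.ofReal_mul (p := C1 * 36) (by positivity),
          ENNReal.ofReal_mul (p := C1) hC1, e36]
        ring
    _ ≤ _ := by
        have hXn : 0 < (X ^ n)⁻¹ := by positivity
        refine add_le_add (mul_le_mul' (ENNReal.ofReal_le_ofReal ?_) le_rfl)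
          (mul_le_mul' (ENNReal.ofReal_le_ofReal ?_) le_rfl)
        · nlinarith [mul_nonneg hC1 hC2]
        · have : C1 * 36 * ((X ^ n)⁻¹ * C2) ≤ C1 * 36 * ((X ^ n)⁻¹ * (C2 + 1)) := by
            gcongr
            linarith
          refine this.trans (le_of_eq (by ring))

/-! ### the converse -/

theorem wS_shift {ρ : ℝ} (hρ : 0 ≤ ρ) (n : ℕ) {S U : Set E2} {v : E2} (hne : S.Nonempty)
    (hU : ∀ y ∈ S, y - v ∈ U) (x : E2) : wS ρ n S (x + v) ≤ wS ρ n U x := by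
  unfold wS
  have h0 := Metric.infDist_nonneg (x := x) (s := U)
  have h1 : Metric.infDist x U ≤ Metric.infDist (x + v) S := by
    rw [Metric.le_infDist hne]
    intro y hy
    refine (Metric.infDist_le_dist_of_mem (hU y hy)).trans (le_of_eq ?_)
    rw [dist_eq_norm, dist_eq_norm]
    congr 1
    abel
  have h2 := mul_le_mul_of_nonneg_left h1 hρ
  have h3 : 0 ≤ ρ * Metric.infDist x U := by positivity
  exact inv_anti₀ (by positivity) (pow_le_pow_left₀ (by positivity) (by linarith) n)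

theorem loc_back (B : ℕ → ℝ) (n : ℕ) (L : ℝ) (hL : 1 ≤ L) : ∃ C : ℝ, 0 ≤ C ∧ ∀ h, ParB B h →
    ∀ (ρ A : ℝ) (w : E2 → ℝ), 0 < ρ → ρ ≤ 1 → SV ρ A n w → ∀ g : E2 → ℂ,
    Integrable g → MemLp g 2 → ∀ z : E2 × ℝ, |z.2| * ρ ^ 2 ≤ L → ∀ m : ℤ × ℤ,
    WE w (fun ξ => cap win (cen ρ m) ρ ξ * g ξ) ≤ ENNReal.ofReal (C * A ^ 2) *
      WE (fun x => w (x + (z.1 + z.2 • gradient h (cen ρ m))))
        (fun ξ => cap win (cen ρ m) ρ ξ * tr h z g ξ) := by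
  obtain ⟨C, hC, hT⟩ := sv_transport B n L hL
  refine ⟨C, hC, ?_⟩
  intro h hh ρ A w hρ hρ1 hw g hg hg2 z hz m
  have hhc : Continuous h := hh.1.continuous
  have hwt : Continuous (fun ξ : E2 => ee (inner ℝ z.1 ξ + z.2 * h ξ)) :=
    contDiff_ee.continuous.comp ((continuous_const.inner continuous_id).add
      (continuous_const.mul hhc))
  have hfi : Integrable (tr h z g) := by
    unfold tr
    exact hg.mul_bdd (c := 1) hwt.aestronglyMeasurable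
      (Filter.Eventually.of_forall fun ξ => (norm_ee _).le)
  have hf2 : MemLp (tr h z g) 2 := by
    unfold tr
    refine MemLp.of_le hg2 (hg2.1.mul hwt.aestronglyMeasurable) (Filter.Eventually.of_forall
      fun ξ => ?_)
    rw [norm_mul]
    have h2 : ‖ee (inner ℝ z.1 ξ + z.2 * h ξ)‖ = 1 := norm_ee _
    rw [h2, mul_one]
  have hw' : SV ρ A n (fun x => w (x - (-z.1))) := hw.comp_sub (-z.1)
  have e1 : WE w (fun ξ => cap win (cen ρ m) ρ ξ * g ξ) =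
      WE (fun x => w (x - (-z.1))) (sl h (fun ξ => cap win (cen ρ m) ρ ξ * tr h z g ξ) (-z.2)) := by
    refine WE_modulate w (-z.1) fun ξ => ?_
    simp only [sl, tr]
    have e2 : ee (inner ℝ (-z.1) ξ) * ((cap win (cen ρ m) ρ ξ *
        (g ξ * ee (inner ℝ z.1 ξ + z.2 * h ξ))) * ee (-z.2 * h ξ)) =
        (cap win (cen ρ m) ρ ξ * g ξ) * (ee (inner ℝ (-z.1) ξ) * (ee (inner ℝ z.1 ξ + z.2 * h ξ) *
          ee (-z.2 * h ξ))) := by ring
    rw [e2, ← ee_add, ← ee_add, inner_neg_left]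
    have e3 : -inner ℝ z.1 ξ + (inner ℝ z.1 ξ + z.2 * h ξ + -z.2 * h ξ) = 0 := by ring
    rw [e3, ee_zero, mul_one]
  rw [e1]
  have a1 := hT h hh ρ A _ hρ hρ1 hw' (cen ρ m) (fun ξ => cap win (cen ρ m) ρ ξ * tr h z g ξ)
    (win_int hfi m) (win_l2 hf2 m) (fun ξ hξ =>
      (capwin_supp hρ m ξ (left_ne_zero_of_mul hξ)).trans (by linarith)) 0 (-z.2)
      (by rw [abs_neg]; exact hz)
  rw [zero_add, sl_zero] at a1
  refine a1.trans (le_of_eq ?_)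
  congr 2
  funext x
  congr 1
  rw [neg_smul]
  abel

theorem tr_int {h : E2 → ℝ} (hhc : Continuous h) {g : E2 → ℂ} (hg : Integrable g) (z : E2 × ℝ) :
    Integrable (tr h z g) := by
  have hwt : Continuous (fun ξ : E2 => ee (inner ℝ z.1 ξ + z.2 * h ξ)) :=
    contDiff_ee.continuous.comp ((continuous_const.inner continuous_id).add
      (continuous_const.mul hhc))
  unfold tr
  exact hg.mul_bdd (c := 1) hwt.aestronglyMeasurable
    (Filter.Eventually.of_forall fun ξ => (norm_ee _).le)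

theorem enorm_tr (h : E2 → ℝ) (g : E2 → ℂ) (z : E2 × ℝ) (ξ : E2) : ‖tr h z g ξ‖ₑ = ‖g ξ‖ₑ := by
  have h1 : ‖tr h z g ξ‖ = ‖g ξ‖ := by
    unfold tr
    rw [norm_mul]
    have h2 : ‖ee (inner ℝ z.1 ξ + z.2 * h ξ)‖ = 1 := norm_ee _
    rw [h2, mul_one]
  rw [← ofReal_norm, ← ofReal_norm, h1]

theorem tr_l2 {h : E2 → ℝ} (hhc : Continuous h) {g : E2 → ℂ} (hg2 : MemLp g 2) (z : E2 × ℝ) :
    MemLp (tr h z g) 2 := by
  have hwt : Continuous (fun ξ : E2 => ee (inner ℝ z.1 ξ + z.2 * h ξ)) :=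
    contDiff_ee.continuous.comp ((continuous_const.inner continuous_id).add
      (continuous_const.mul hhc))
  unfold tr
  refine MemLp.of_le hg2 (hg2.1.mul hwt.aestronglyMeasurable) (Filter.Eventually.of_forall
    fun ξ => ?_)
  rw [norm_mul]
  have h2 : ‖ee (inner ℝ z.1 ξ + z.2 * h ξ)‖ = 1 := norm_ee _
  rw [h2, mul_one]

theorem tr_zero {h : E2 → ℝ} {g : E2 → ℂ} (z : E2 × ℝ) {ξ : E2} (hg : g ξ = 0) :
    tr h z g ξ = 0 := by
  unfold tr; rw [hg, zero_mul]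

/-- a function supported in the ball of radius `2` and in the cap `m` is the sum of its pieces in
the near caps of scale `ρ'`. -/
theorem sum_nearS {ρ ρ' : ℝ} (hρ : 0 < ρ) (hρ' : ρ ≤ ρ') {g : E2 → ℂ}
    (hg : ∀ ξ, 2 < ‖ξ‖ → g ξ = 0) (m : ℤ × ℤ) (ξ : E2) :
    ∑ m' ∈ nearS ρ ρ' m, cap win (cen ρ m) ρ ξ * (cap win (cen ρ' m') ρ' ξ * g ξ) =
      cap win (cen ρ m) ρ ξ * g ξ := by
  classical
  have h1 := sum_win (lt_of_lt_of_le hρ hρ') (g := fun ξ => cap win (cen ρ m) ρ ξ * g ξ)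
    (fun ξ hξ => by rw [hg ξ hξ, mul_zero]) ξ
  refine Eq.trans ?_ h1
  unfold nearS
  rw [Finset.sum_filter_of_ne]
  · refine Finset.sum_congr rfl fun m' _ => ?_
    ring
  intro m' _ hne
  by_contra hc
  apply hne
  rw [← mul_assoc, capwin_prod hρ hρ' hc, zero_mul]

/-- the shifted union of the selections near `m'`. -/
def Us (h : E2 → ℝ) (ρ ρ' : ℝ) (z : E2 × ℝ) (S : ℤ × ℤ → Set E2) (m' : ℤ × ℤ) : Set E2 :=
  {x | ∃ m ∈ nearL ρ ρ' m', ∃ y ∈ S m, x = y - (z.1 + z.2 • gradient h (cen ρ m))}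

open Classical in
theorem loc_ge1 (B : ℕ → ℝ) (n : ℕ) (L : ℝ) (hL : 1 ≤ L) : ∃ C : ℝ, 0 ≤ C ∧ ∀ h, ParB B h →
    ∀ (ρ ρ' : ℝ), 0 < ρ → ρ ≤ ρ' → ρ ≤ 1 → ∀ g : E2 → ℂ,
    Integrable g → MemLp g 2 → (∀ ξ, 2 < ‖ξ‖ → g ξ = 0) → ∀ z : E2 × ℝ, |z.2| * ρ ^ 2 ≤ L →
    ∀ S : ℤ × ℤ → Set E2, (∀ m ∈ caps ρ, MeasurableSet (S m)) →
    en ρ g S ≤ ENNReal.ofReal C * ∑ m' ∈ caps ρ', if (Us h ρ ρ' z S m').Nonempty then
      ∫⁻ x, ENNReal.ofReal (wS ρ n (Us h ρ ρ' z S m') x) * ‖um ρ' (tr h z g) m' x‖ₑ ^ 2 else 0 := by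
  obtain ⟨C1, hC1, h1⟩ := loc_back B n L hL
  obtain ⟨C2, hC2, h2⟩ := sv_row n
  obtain ⟨C3, hC3, h3⟩ := sv_col n
  obtain ⟨K, hK, hwin⟩ := win_kbound (n + 2)
  refine ⟨C1 * (C2 * 36) * (C3 * K ^ 2 * 36), by positivity, ?_⟩
  intro h hh ρ ρ' hρ hρ' hρ1 g hg hg2 hgs z hz S hS
  have hpos' : 0 < ρ' := lt_of_lt_of_le hρ hρ'
  have hhc : Continuous h := hh.1.continuous
  set f := tr h z g with hf
  have hfi : Integrable f := tr_int hhc hg z
  have hf2 : MemLp f 2 := tr_l2 hhc hg2 z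
  have hfs : ∀ ξ, 2 < ‖ξ‖ → f ξ = 0 := fun ξ hξ => tr_zero z (hgs ξ hξ)
  set W : ℤ × ℤ → E2 → ℝ := fun m' => wS ρ n (Us h ρ ρ' z S m') with hW
  have hSVW : ∀ m', SV ρ 1 n (W m') := fun m' => SV_wS hρ.le n _
  -- one long cap
  have key1 : ∀ m ∈ caps ρ, ∫⁻ x in S m, ‖um ρ g m x‖ₑ ^ 2 ≤
      ENNReal.ofReal (C1 * (C2 * 36)) * ∑ m' ∈ nearS ρ ρ' m, if (Us h ρ ρ' z S m').Nonempty then
        WE (W m') (fun ξ => cap win (cen ρ m) ρ ξ * (cap win (cen ρ' m') ρ' ξ * f ξ)) else 0 := by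
    intro m hm
    rcases (S m).eq_empty_or_nonempty with he | hne
    · rw [he]; simp
    · have b1 := h1 h hh ρ 1 _ hρ hρ1 (SV_wS hρ.le n (S m)) g hg hg2 z hz m
      rw [one_pow, mul_one] at b1
      have hw' : SV ρ 1 n (fun x => wS ρ n (S m) (x + (z.1 + z.2 • gradient h (cen ρ m)))) := by
        have := (SV_wS hρ.le n (S m)).comp_sub (-(z.1 + z.2 • gradient h (cen ρ m)))
        simpa only [sub_neg_eq_add] using this
      have b2 := h2 ρ 1 _ hρ hw' (ℤ × ℤ) (nearS ρ ρ' m) (fun _ => Set.univ)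
        (fun m' ξ => cap win (cen ρ m) ρ ξ * (cap win (cen ρ' m') ρ' ξ * f ξ)) 36 (by norm_num)
        (fun ξ => ?_) (fun _ _ ξ _ => Set.mem_univ ξ)
        (fun m' _ => win_int (win_int hfi m') m) (fun m' _ => win_l2 (win_l2 hf2 m') m)
      · rw [one_pow, mul_one] at b2
        have e1 : (fun ξ => ∑ m' ∈ nearS ρ ρ' m,
            cap win (cen ρ m) ρ ξ * (cap win (cen ρ' m') ρ' ξ * f ξ)) =
            fun ξ => cap win (cen ρ m) ρ ξ * f ξ := by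
          funext ξ
          exact sum_nearS hρ hρ' hfs m ξ
        rw [e1] at b2
        refine (set_le_wS n (hS m hm) _).trans (b1.trans ?_)
        rw [ENNReal.ofReal_mul (p := C1) hC1, mul_assoc]
        refine mul_le_mul' le_rfl (b2.trans (mul_le_mul' le_rfl (Finset.sum_le_sum
          fun m' hm' => ?_)))
        obtain ⟨hmc, hmn⟩ := mem_nearS.1 hm'
        have hU : ∀ y ∈ S m, y - (z.1 + z.2 • gradient h (cen ρ m)) ∈ Us h ρ ρ' z S m' :=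
          fun y hy => ⟨m, mem_nearL.2 ⟨hm, hmn⟩, y, hy, rfl⟩
        have hUne : (Us h ρ ρ' z S m').Nonempty := by
          obtain ⟨y, hy⟩ := hne
          exact ⟨_, hU y hy⟩
        rw [if_pos hUne]
        exact WE_mono (fun x => wS_shift hρ.le n hne hU x) _
      · have hs : {i | i ∈ nearS ρ ρ' m ∧ ξ ∈ Metric.thickening ρ (Set.univ : Set E2)} ⊆
            ((nearS ρ ρ' m : Finset (ℤ × ℤ)) : Set (ℤ × ℤ)) := fun i hi => hi.1
        have h6 := Set.ncard_le_ncard hs (Finset.finite_toSet _)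
        rw [Set.ncard_coe_finset] at h6
        exact_mod_cast h6.trans (card_nearS hpos' m)
  -- one short cap
  have key2 : ∀ m' ∈ caps ρ', ∑ m ∈ nearL ρ ρ' m', WE (W m')
      (fun ξ => cap win (cen ρ m) ρ ξ * (cap win (cen ρ' m') ρ' ξ * f ξ)) ≤
      ENNReal.ofReal (C3 * K ^ 2 * 36) * WE (W m') (fun ξ => cap win (cen ρ' m') ρ' ξ * f ξ) := by
    intro m' hm'
    have b3 := h3 ρ 1 _ hρ (hSVW m') (ℤ × ℤ) (nearL ρ ρ' m') (fun m => cap win (cen ρ m) ρ)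
      (fun ξ => cap win (cen ρ' m') ρ' ξ * f ξ) K 36 hK (by norm_num)
      (fun m _ => temperate_cap win_contDiff (fun ζ hζ => win_zero' hζ) _ hρ)
      (fun m _ j hj ξ => hwin ρ ρ hρ le_rfl m j hj ξ) (fun ξ => ?_) (win_int hfi m')
      (win_l2 hf2 m')
    · rw [one_pow, mul_one] at b3
      exact b3
    · have h6 := card_near hρ ξ (fun m => m ∈ nearL ρ ρ' m' ∧
        ξ ∈ tsupport (cap win (cen ρ m) ρ)) (fun m hm => ?_)
      · exact_mod_cast h6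
      · have h7 : tsupport (cap win (cen ρ m) ρ) ⊆ Metric.closedBall (cen ρ m) (71 / 50 * ρ) := by
          refine closure_minimal (fun ξ hξ => ?_) Metric.isClosed_closedBall
          rw [Metric.mem_closedBall, dist_eq_norm]
          exact capwin_supp hρ m ξ hξ
        have h8 := h7 hm.2
        rw [Metric.mem_closedBall, dist_eq_norm] at h8
        linarith
  have e3 : C1 * (C2 * 36) * (C3 * K ^ 2 * 36) = (C1 * (C2 * 36)) * (C3 * K ^ 2 * 36) := rfl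
  calc en ρ g S ≤ ∑ m ∈ caps ρ, ENNReal.ofReal (C1 * (C2 * 36)) *
        ∑ m' ∈ nearS ρ ρ' m, (if (Us h ρ ρ' z S m').Nonempty then
          WE (W m') (fun ξ => cap win (cen ρ m) ρ ξ * (cap win (cen ρ' m') ρ' ξ * f ξ)) else 0) :=
        Finset.sum_le_sum key1
    _ = ENNReal.ofReal (C1 * (C2 * 36)) * ∑ m' ∈ caps ρ', ∑ m ∈ nearL ρ ρ' m',
        (if (Us h ρ ρ' z S m').Nonempty then
          WE (W m') (fun ξ => cap win (cen ρ m) ρ ξ * (cap win (cen ρ' m') ρ' ξ * f ξ)) else 0) := by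
        rw [← Finset.mul_sum]
        congr 1
        refine Finset.sum_comm' fun m m' => ?_
        rw [mem_nearL, mem_nearS]
        tauto
    _ ≤ ENNReal.ofReal (C1 * (C2 * 36)) * ∑ m' ∈ caps ρ', ENNReal.ofReal (C3 * K ^ 2 * 36) *
        (if (Us h ρ ρ' z S m').Nonempty then
          WE (W m') (fun ξ => cap win (cen ρ' m') ρ' ξ * f ξ) else 0) := by
        refine mul_le_mul' le_rfl (Finset.sum_le_sum fun m' hm' => ?_)
        split_ifs with hc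
        · exact key2 m' hm'
        · simp
    _ = _ := by
        rw [← Finset.mul_sum, ← mul_assoc, ← ENNReal.ofReal_mul (by positivity)]
        rfl

/-- **LOC (lower)**: the energy of the long packets of `g` in `S` is controlled by the energy of the
short packets of `tr h z g` met by `S`. -/
theorem loc_ge (B : ℕ → ℝ) (n : ℕ) (L : ℝ) (hL : 1 ≤ L) : ∃ C : ℝ, 0 ≤ C ∧ ∀ h, ParB B h →
    ∀ (ρ ρ' : ℝ), 0 < ρ → ρ ≤ ρ' → ρ' ≤ 1 → ∀ g : E2 → ℂ,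
    Integrable g → MemLp g 2 → (∀ ξ, 2 < ‖ξ‖ → g ξ = 0) → ∀ z : E2 × ℝ, |z.2| * ρ ^ 2 ≤ L →
    ∀ S Sp' : ℤ × ℤ → Set E2, (∀ m ∈ caps ρ, MeasurableSet (S m)) →
    (∀ m' ∈ caps ρ', MeasurableSet (Sp' m')) → ∀ X : ℝ, 0 < X →
    (∀ m ∈ caps ρ, ∀ m' ∈ caps ρ', Near ρ ρ' m' m → ∀ y ∈ S m, ∀ x : E2,
      ρ * ‖x - (y - (z.1 + z.2 • gradient h (cen ρ m)))‖ ≤ X → x ∈ Sp' m') →
    en ρ g S ≤ ENNReal.ofReal C * en ρ' (tr h z g) Sp' +
      ENNReal.ofReal (C * (X ^ n)⁻¹) * ∫⁻ ξ, ‖g ξ‖ₑ ^ 2 := by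
  classical
  obtain ⟨C1, hC1, h1⟩ := loc_ge1 B n L hL
  obtain ⟨C2, hC2, h2⟩ := en_le
  refine ⟨C1 * (C2 + 1), by positivity, ?_⟩
  intro h hh ρ ρ' hρ hρ' hρ1 g hg hg2 hgs z hz S Sp' hS hSp X hX hX2
  have hhc : Continuous h := hh.1.continuous
  have b1 := h1 h hh ρ ρ' hρ hρ' (hρ'.trans hρ1) g hg hg2 hgs z hz S hS
  have b2 : ∑ m' ∈ caps ρ', (if (Us h ρ ρ' z S m').Nonempty then
      ∫⁻ x, ENNReal.ofReal (wS ρ n (Us h ρ ρ' z S m') x) * ‖um ρ' (tr h z g) m' x‖ₑ ^ 2 else 0) ≤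
      ∑ m' ∈ caps ρ', ((∫⁻ x in Sp' m', ‖um ρ' (tr h z g) m' x‖ₑ ^ 2) +
        ENNReal.ofReal ((X ^ n)⁻¹) * ∫⁻ x, ‖um ρ' (tr h z g) m' x‖ₑ ^ 2) := by
    refine Finset.sum_le_sum fun m' hm' => ?_
    split_ifs with hc
    · refine split_le (hSp m' hm') (fun y => wS_le_one hρ.le _ _ _) (fun x hx => ?_) _
      refine wS_far hX n ?_
      have h5 : X / ρ ≤ Metric.infDist x (Us h ρ ρ' z S m') := by
        rw [Metric.le_infDist hc]
        rintro _ ⟨m, hm, y, hy, rfl⟩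
        obtain ⟨hmc, hmn⟩ := mem_nearL.1 hm
        rw [div_le_iff₀' hρ]
        by_contra hcc
        push Not at hcc
        apply hx
        refine hX2 m hmc m' hm' hmn y hy x ?_
        rw [dist_eq_norm] at hcc
        exact hcc.le
      rwa [div_le_iff₀' hρ] at h5
    · exact zero_le
  rw [Finset.sum_add_distrib, ← Finset.mul_sum] at b2
  have h6 := h2 ρ' (lt_of_lt_of_le hρ hρ') hρ1 (tr h z g) (tr_int hhc hg z) (tr_l2 hhc hg2 z)
    (fun _ => Set.univ)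
  unfold en at h6
  simp only [Measure.restrict_univ, enorm_tr] at h6
  refine b1.trans ((mul_le_mul' le_rfl (b2.trans (add_le_add le_rfl
    (mul_le_mul' le_rfl h6)))).trans ?_)
  rw [mul_add]
  have hXn : 0 < (X ^ n)⁻¹ := by positivity
  refine add_le_add (mul_le_mul' (ENNReal.ofReal_le_ofReal ?_) le_rfl) ?_
  · nlinarith [mul_nonneg hC1 hC2]
  · rw [← mul_assoc, ← mul_assoc, ← ENNReal.ofReal_mul hC1, ← ENNReal.ofReal_mul (by positivity)]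
    refine mul_le_mul' (ENNReal.ofReal_le_ofReal ?_) le_rfl
    have : C1 * (X ^ n)⁻¹ * C2 ≤ C1 * (X ^ n)⁻¹ * (C2 + 1) := by
      gcongr
      linarith
    refine this.trans (le_of_eq (by ring))

end Crest.Agent.R138.Loc878
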