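import Mathlib

/-! Polynomial weights and the lattice `w ℤ²` (R138, dictionary waves -> weighted tubes, part 1). -/

set_option autoImplicit false

open MeasureTheory
open scoped ENNReal

namespace Crest.Agent.R138.Tub70

/-- the plane -/
abbrev E2 := EuclideanSpace ℝ (Fin 2)

/-- the weight of the ball `B(c, w)`. -/
noncomputable def pw (w : ℝ) (n : ℕ) (c x : E2) : ℝ := ((1 + (‖x - c‖ / w) ^ 2) ^ n)⁻¹

theorem pw_pos (w : ℝ) (n : ℕ) (c x : E2) : 0 < pw w n c x := by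
  unfold pw; positivity

theorem pw_le_one (w : ℝ) (n : ℕ) (c x : E2) : pw w n c x ≤ 1 := by
  unfold pw
  apply inv_le_one_of_one_le₀
  apply one_le_pow₀
  nlinarith [sq_nonneg (‖x - c‖ / w)]

theorem pw_comm (w : ℝ) (n : ℕ) (c x : E2) : pw w n c x = pw w n x c := by
  unfold pw; rw [norm_sub_rev]

theorem pw_eq (w : ℝ) (n : ℕ) (c x : E2) : pw w n c x = pw w n 0 (x - c) := by
  unfold pw; simp

theorem pw_add (w : ℝ) (n : ℕ) (c x v : E2) : pw w n (c + v) (x + v) = pw w n c x := by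
  unfold pw; congr 4; abel_nf

theorem continuous_pw (w : ℝ) (n : ℕ) (c : E2) : Continuous (fun x => pw w n c x) := by
  unfold pw
  apply Continuous.inv₀
  · fun_prop
  · intro x; positivity

theorem pw_shift {w : ℝ} (hw : 0 < w) (n : ℕ) {A : ℝ} {c c' : E2}
    (h : ‖c - c'‖ ≤ A * w) (x : E2) : pw w n c x ≤ (2 * (1 + A ^ 2)) ^ n * pw w n c' x := by
  unfold pw
  have h1 : ‖x - c'‖ ≤ ‖x - c‖ + A * w := by
    calc ‖x - c'‖ = ‖(x - c) + (c - c')‖ := by congr 1; abel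
      _ ≤ ‖x - c‖ + ‖c - c'‖ := norm_add_le _ _
      _ ≤ _ := by linarith
  have h2 : ‖x - c'‖ / w ≤ ‖x - c‖ / w + A := by
    rw [div_add' _ _ _ hw.ne']
    exact div_le_div_of_nonneg_right h1 hw.le
  have h0 : 0 ≤ ‖x - c‖ / w := by positivity
  have h0' : 0 ≤ ‖x - c'‖ / w := by positivity
  have h3 : 1 + (‖x - c'‖ / w) ^ 2 ≤ (2 * (1 + A ^ 2)) * (1 + (‖x - c‖ / w) ^ 2) := by
    have : (‖x - c'‖ / w) ^ 2 ≤ (‖x - c‖ / w + A) ^ 2 := by gcongr
    nlinarith [sq_nonneg (‖x - c‖ / w - A), sq_nonneg (‖x - c‖ / w * A), sq_nonneg A]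
  have h4 : (1 + (‖x - c'‖ / w) ^ 2) ^ n ≤ (2 * (1 + A ^ 2)) ^ n * (1 + (‖x - c‖ / w) ^ 2) ^ n := by
    rw [← mul_pow]; gcongr
  rw [inv_le_iff_one_le_mul₀ (by positivity)]
  rw [mul_assoc, mul_comm ((1 + (‖x - c'‖ / w) ^ 2) ^ n)⁻¹, ← mul_assoc]
  rw [le_mul_inv_iff₀ (by positivity), one_mul]
  exact h4

/-- lattice points. -/
noncomputable def Lat (w : ℝ) (k : ℤ × ℤ) : E2 := WithLp.toLp 2 ![w * k.1, w * k.2]

/-- nearest lattice point. -/
noncomputable def nr (w : ℝ) (x : E2) : ℤ × ℤ := (round (x 0 / w), round (x 1 / w))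

@[simp] theorem Lat_zero_coord (w : ℝ) (k : ℤ × ℤ) : Lat w k 0 = w * k.1 := by simp [Lat]
@[simp] theorem Lat_one_coord (w : ℝ) (k : ℤ × ℤ) : Lat w k 1 = w * k.2 := by simp [Lat]

theorem Lat_add (w : ℝ) (k l : ℤ × ℤ) : Lat w (k + l) = Lat w k + Lat w l := by
  ext i; fin_cases i <;> simp [Lat, mul_add]

theorem Lat_sub (w : ℝ) (k l : ℤ × ℤ) : Lat w (k - l) = Lat w k - Lat w l := by
  ext i; fin_cases i <;> simp [Lat, mul_sub]

theorem Lat_neg (w : ℝ) (k : ℤ × ℤ) : Lat w (-k) = - Lat w k := by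
  ext i; fin_cases i <;> simp [Lat]

theorem Lat_injective {w : ℝ} (hw : w ≠ 0) : Function.Injective (Lat w) := by
  intro k l h
  have h0 := congrArg (fun v : E2 => v 0) h
  have h1 := congrArg (fun v : E2 => v 1) h
  simp only [Lat_zero_coord, Lat_one_coord, mul_eq_mul_left_iff, hw, or_false, Int.cast_inj] at h0 h1
  exact Prod.ext h0 h1

theorem norm_sub_nr {w : ℝ} (hw : 0 < w) (x : E2) : ‖x - Lat w (nr w x)‖ ≤ w := by
  rw [EuclideanSpace.norm_eq]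
  have key : ∀ t : ℝ, |t - w * (round (t / w) : ℤ)| ≤ w / 2 := by
    intro t
    have h := abs_sub_round (t / w)
    have : t - w * (round (t / w) : ℤ) = w * (t / w - (round (t / w) : ℤ)) := by
      field_simp
    rw [this, abs_mul, abs_of_pos hw]
    nlinarith
  have h0 := key (x 0)
  have h1 := key (x 1)
  rw [Real.sqrt_le_left hw.le]
  simp only [Fin.sum_univ_two, Real.norm_eq_abs, PiLp.sub_apply, Lat_zero_coord, Lat_one_coord, nr,
    sq_abs]
  have h0' := sq_le_sq' (by linarith [abs_le.mp h0]) (abs_le.mp h0).2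
  have h1' := sq_le_sq' (by linarith [abs_le.mp h1]) (abs_le.mp h1).2
  nlinarith

theorem nr_add_Lat {w : ℝ} (hw : 0 < w) (x : E2) (k : ℤ × ℤ) :
    nr w (Lat w k + x) = k + nr w x := by
  unfold nr
  ext
  · simp only [PiLp.add_apply, Lat_zero_coord, Prod.fst_add]
    rw [add_div, mul_div_cancel_left₀ _ hw.ne', round_intCast_add]
  · simp only [PiLp.add_apply, Lat_one_coord, Prod.snd_add]
    rw [add_div, mul_div_cancel_left₀ _ hw.ne', round_intCast_add]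


/-! ### lattice sums -/

/-- the lattice constant. -/
noncomputable def LS : ℝ≥0∞ :=
  ∑' k : ℤ × ℤ, ENNReal.ofReal ((1 + (k.1 : ℝ) ^ 2)⁻¹ * (1 + (k.2 : ℝ) ^ 2)⁻¹)

theorem summable_int : Summable fun k : ℤ => (1 + (k : ℝ) ^ 2)⁻¹ := by
  have h1 : Summable fun k : ℤ => 1 / (k : ℝ) ^ 2 := Real.summable_one_div_int_pow.mpr (by norm_num)
  have h2 : Summable fun k : ℤ => if k = 0 then (1 : ℝ) else 0 :=
    summable_of_ne_finset_zero (s := {0}) (by intro b hb; simp at hb; simp [hb])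
  refine Summable.of_nonneg_of_le (fun k => by positivity) (fun k => ?_) (h1.add h2)
  by_cases hk : k = 0
  · subst hk; simp
  · have : 0 < (k : ℝ) ^ 2 := by
      have : (k : ℝ) ≠ 0 := by exact_mod_cast hk
      positivity
    simp only [hk, if_false, add_zero, one_div]
    gcongr
    linarith

theorem LS_ne_top : LS ≠ ⊤ := by
  unfold LS
  rw [ENNReal.tsum_prod']
  have h : ∀ a b : ℤ, ENNReal.ofReal ((1 + (a : ℝ) ^ 2)⁻¹ * (1 + (b : ℝ) ^ 2)⁻¹) =
      ENNReal.ofReal ((1 + (a : ℝ) ^ 2)⁻¹) * ENNReal.ofReal ((1 + (b : ℝ) ^ 2)⁻¹) := by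
    intro a b
    rw [ENNReal.ofReal_mul (by positivity)]
  simp only [h]
  simp only [ENNReal.tsum_mul_left, ENNReal.tsum_mul_right]
  have hs : (∑' k : ℤ, ENNReal.ofReal ((1 + (k : ℝ) ^ 2)⁻¹)) ≠ ⊤ := by
    rw [← ENNReal.ofReal_tsum_of_nonneg (fun k => by positivity) summable_int]
    exact ENNReal.ofReal_ne_top
  exact ENNReal.mul_ne_top hs hs

theorem pw_two_le {w : ℝ} (hw : 0 < w) (k : ℤ × ℤ) (x : E2) :
    pw w 2 (Lat w k) x ≤ 4 * ((1 + ((k - nr w x).1 : ℝ) ^ 2)⁻¹ * (1 + ((k - nr w x).2 : ℝ) ^ 2)⁻¹) := by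
  have hsq : (‖x - Lat w k‖ / w) ^ 2 = (x 0 / w - k.1) ^ 2 + (x 1 / w - k.2) ^ 2 := by
    rw [div_pow, EuclideanSpace.norm_sq_eq]
    simp only [Fin.sum_univ_two, Real.norm_eq_abs, PiLp.sub_apply, Lat_zero_coord, Lat_one_coord,
      sq_abs]
    field_simp
  have key : ∀ (t : ℝ) (m : ℤ), 1 + ((m - round t : ℤ) : ℝ) ^ 2 ≤ 2 * (1 + (t - m) ^ 2) := by
    intro t m
    have h := abs_le.mp (abs_sub_round t)
    push_cast
    have e : (m : ℝ) - (round t : ℝ) = -(t - m) + (t - round t) := by ring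
    rw [e]
    nlinarith [sq_nonneg ((t - m) + (t - round t))]
  have k0 := key (x 0 / w) k.1
  have k1 := key (x 1 / w) k.2
  unfold pw
  rw [hsq]
  have e0 : ((k - nr w x).1 : ℝ) = ((k.1 - round (x 0 / w) : ℤ) : ℝ) := by simp [nr]
  have e1 : ((k - nr w x).2 : ℝ) = ((k.2 - round (x 1 / w) : ℤ) : ℝ) := by simp [nr]
  rw [e0, e1]
  set a := x 0 / w - k.1
  set b := x 1 / w - k.2
  set p := ((k.1 - round (x 0 / w) : ℤ) : ℝ)
  set q := ((k.2 - round (x 1 / w) : ℤ) : ℝ)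
  rw [← mul_inv, inv_le_iff_one_le_mul₀ (by positivity)]
  have h1 : (1 + p ^ 2) * (1 + q ^ 2) ≤ (2 * (1 + a ^ 2)) * (2 * (1 + b ^ 2)) := by gcongr
  have h2 : (1 + a ^ 2) * (1 + b ^ 2) ≤ (1 + (a ^ 2 + b ^ 2)) ^ 2 := by
    nlinarith [sq_nonneg a, sq_nonneg b, mul_nonneg (sq_nonneg a) (sq_nonneg b)]
  rw [mul_assoc, mul_comm _ ((1 + (a ^ 2 + b ^ 2)) ^ 2), ← mul_assoc, le_mul_inv_iff₀ (by positivity)]
  nlinarith

theorem pw_antitone_n {w : ℝ} {m n : ℕ} (h : m ≤ n) (c x : E2) : pw w n c x ≤ pw w m c x := by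
  unfold pw
  gcongr
  nlinarith [sq_nonneg (‖x - c‖ / w)]

theorem tsum_pw_le {w : ℝ} (hw : 0 < w) {n : ℕ} (hn : 2 ≤ n) (x : E2) :
    ∑' k : ℤ × ℤ, ENNReal.ofReal (pw w n (Lat w k) x) ≤ 4 * LS := by
  calc ∑' k : ℤ × ℤ, ENNReal.ofReal (pw w n (Lat w k) x)
      ≤ ∑' k : ℤ × ℤ, 4 * ENNReal.ofReal ((1 + ((k - nr w x).1 : ℝ) ^ 2)⁻¹ *
          (1 + ((k - nr w x).2 : ℝ) ^ 2)⁻¹) := by
        apply ENNReal.tsum_le_tsum
        intro k
        rw [show (4 : ℝ≥0∞) = ENNReal.ofReal 4 by simp, ← ENNReal.ofReal_mul (by norm_num)]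
        exact ENNReal.ofReal_le_ofReal ((pw_antitone_n hn _ _).trans (pw_two_le hw k x))
    _ = 4 * LS := by
        rw [ENNReal.tsum_mul_left]
        congr 1
        unfold LS
        exact (Equiv.subRight (nr w x)).tsum_eq
          (fun k : ℤ × ℤ => ENNReal.ofReal ((1 + (k.1 : ℝ) ^ 2)⁻¹ * (1 + (k.2 : ℝ) ^ 2)⁻¹))

/-- tail of the lattice sum. -/
theorem tsum_pw_tail {w r : ℝ} (hw : 0 < w) (hr : 0 < r) {n : ℕ} (hn : 2 ≤ n) :
    ∑' k : ℤ × ℤ, (if r ≤ ‖Lat w k‖ then ENNReal.ofReal (pw w n (Lat w k) 0) else 0) ≤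
      ENNReal.ofReal ((w / r) ^ (2 * (n - 2))) * (4 * LS) := by
  calc ∑' k : ℤ × ℤ, (if r ≤ ‖Lat w k‖ then ENNReal.ofReal (pw w n (Lat w k) 0) else 0)
      ≤ ∑' k : ℤ × ℤ, ENNReal.ofReal ((w / r) ^ (2 * (n - 2))) *
          ENNReal.ofReal (pw w 2 (Lat w k) 0) := by
        apply ENNReal.tsum_le_tsum
        intro k
        split_ifs with h
        · rw [← ENNReal.ofReal_mul (by positivity)]
          apply ENNReal.ofReal_le_ofReal
          unfold pw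
          simp only [zero_sub, norm_neg]
          have e : n = 2 + (n - 2) := by omega
          have h1 : ((1 + (‖Lat w k‖ / w) ^ 2) ^ n)⁻¹ =
              ((1 + (‖Lat w k‖ / w) ^ 2) ^ (n - 2))⁻¹ * ((1 + (‖Lat w k‖ / w) ^ 2) ^ 2)⁻¹ := by
            conv_lhs => rw [e]
            rw [pow_add, mul_inv, mul_comm]
          rw [h1]
          gcongr
          rw [pow_mul, ← inv_pow]
          apply pow_le_pow_left₀ (by positivity)
          rw [inv_le_comm₀ (by positivity) (by positivity), ← inv_pow, inv_div]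
          have : (r / w) ^ 2 ≤ (‖Lat w k‖ / w) ^ 2 := by gcongr
          linarith
        · positivity
    _ ≤ _ := by
        rw [ENNReal.tsum_mul_left]
        gcongr
        exact tsum_pw_le hw le_rfl 0

end Crest.Agent.R138.Tub70
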