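import Crest.Agent.R138.Cohu_101

/-!
# R138 / R139: WAVE side (helper101): from the measurable classes `clsAd` to `Chi` and `Coh` of
PDef_654.

`clsR` = class of a phase point of the child level with respect to the frame `b` of its own plate:
dyadic index of the density `Ad` and of the coherence count `pot`.
-/

set_option autoImplicit false

open MeasureTheory
open scoped ENNReal

namespace Crest.Agent.R138.Chi101

open Crest.Agent.R138.Defs Crest.Agent.R138.W188 Crest.Agent.R138.Wpk685 Crest.Agent.R138.Loc878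
  Crest.Agent.R138.Ad480 Crest.Agent.R138.Rect779 Crest.Agent.R138.P654

/-! ### number of caps in a thin rectangle -/

theorem card_rect_le {N : E2} (hN : ‖N‖ = 1) {ρ : ℝ} (hρ : 0 < ρ) {T : Finset (ℤ × ℤ)} {ξ0 : E2}
    {L K : ℝ} (hL : 0 ≤ L) (hK : 0 ≤ K) (hT : ∀ m ∈ T, cen ρ m ∈ RectF N ξ0 L (K * ρ)) :
    (T.card : ℝ) ≤ (2 * (L / ρ + 1) + 1) * (2 * (1 + 2 * K) + 1) ^ 2 := by
  classical
  set c : ℤ × ℤ → ℤ := fun m => ⌊(inner ℝ N (cen ρ m - ξ0) : ℝ) / ρ⌋ with hc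
  have hM : ((T.image c).card : ℝ) ≤ 2 * (L / ρ + 1) + 1 := by
    refine card_int_le (x := 0) (by positivity) ?_
    intro a ha
    obtain ⟨m, hm, rfl⟩ := Finset.mem_image.1 ha
    have h1 := Int.floor_le ((inner ℝ N (cen ρ m - ξ0) : ℝ) / ρ)
    have h2 := Int.lt_floor_add_one ((inner ℝ N (cen ρ m - ξ0) : ℝ) / ρ)
    have h3 : |(inner ℝ N (cen ρ m - ξ0) : ℝ) / ρ| ≤ L / ρ := by
      rw [abs_div, abs_of_pos hρ]
      gcongr
      exact (abs_inner_le hN _).trans (hT m hm).1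
    have h4 := abs_le.1 h3
    simp only [hc, sub_zero]
    rw [abs_le]
    constructor <;> linarith
  have hf : ∀ a ∈ T.image c, ((T.filter fun m => c m = a).card : ℝ) ≤ (2 * (1 + 2 * K) + 1) ^ 2 := by
    intro a ha
    obtain ⟨m0, hm0, rfl⟩ := Finset.mem_image.1 ha
    refine card_caps_le hρ (by positivity) (ξ0 := cen ρ m0) fun m hm => ?_
    rw [Finset.mem_filter] at hm
    have h1 := Int.abs_sub_lt_one_of_floor_eq_floor hm.2
    rw [← sub_div, abs_div, abs_of_pos hρ, div_lt_one hρ, ← inner_sub_right] at h1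
    have e : cen ρ m - ξ0 - (cen ρ m0 - ξ0) = cen ρ m - cen ρ m0 := by abel
    have h2 := norm_le_orth hN (cen ρ m - cen ρ m0)
    have h3 : ‖orth N (cen ρ m - cen ρ m0)‖ ≤ 2 * (K * ρ) := by
      rw [← e, orth_sub]
      exact (norm_sub_le _ _).trans (by linarith [(hT m hm.1).2, (hT m0 hm0).2])
    rw [e] at h1
    linarith
  have h1 : (T.card : ℝ) = ∑ a ∈ T.image c, ((T.filter fun m => c m = a).card : ℝ) := by
    exact_mod_cast Finset.card_eq_sum_card_image c T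
  rw [h1]
  refine (Finset.sum_le_sum hf).trans ?_
  rw [Finset.sum_const, nsmul_eq_mul]
  gcongr

/-- constant of the trivial bound of the coherence count. -/
noncomputable def CP : ℝ := 35 * 259 ^ 2

theorem CP_pos : 0 < CP := by unfold CP; norm_num

variable {n : ℕ} {h : E2 → ℝ} {g : E2 → ℂ} {S : ℤ × ℤ → Set E2}

/-- **trivial bound of the coherence count**. -/
theorem pot_le {θ θ' θ'' K0 : ℝ} (hθ' : 0 < θ') (hθ : θ' ≤ θ'') (b : OrthonormalBasis (Fin 2) ℝ E2)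
    (z : E2 × ℝ) (m : ℤ × ℤ) (y : E2) :
    (pot n h θ θ' θ'' K0 g S b z m y : ℝ) ≤ CP * (θ'' / θ') := by
  classical
  unfold pot
  refine (card_rect_le (N := b 0) (b.orthonormal.1 0) hθ' (ξ0 := cen θ' m) (L := 16 * θ'')
    (K := 64) (by linarith) (by norm_num) fun m' hm' => (Finset.mem_filter.1 hm').2.1).trans ?_
  have h1 : 1 ≤ θ'' / θ' := by rwa [le_div_iff₀ hθ', one_mul]
  rw [mul_div_assoc]
  unfold CP
  have : (2 * (16 * (θ'' / θ') + 1) + 1 : ℝ) ≤ 35 * (θ'' / θ') := by linarith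
  calc (2 * (16 * (θ'' / θ') + 1) + 1) * (2 * (1 + 2 * 64) + 1) ^ 2
      ≤ 35 * (θ'' / θ') * (2 * (1 + 2 * 64) + 1) ^ 2 := by gcongr
    _ = _ := by ring

theorem an_div {r dl : ℝ} (hr : 0 < r) (hd : 0 < dl) :
    an (dl * r) / an r = dl ^ (-(1/2) : ℝ) := by
  unfold an
  rw [Real.mul_rpow hd.le hr.le]
  exact mul_div_cancel_right₀ _ (Real.rpow_pos_of_pos hr _).ne'

/-- **trivial bound of the coherence count**, three consecutive levels. -/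
theorem pot_le' {r dl K0 : ℝ} (hr : 0 < r) (hd : 0 < dl) (hd1 : dl ≤ 1) (θ : ℝ)
    (b : OrthonormalBasis (Fin 2) ℝ E2) (z : E2 × ℝ) (m : ℤ × ℤ) (y : E2) :
    (pot n h θ (an r) (an (dl * r)) K0 g S b z m y : ℝ) ≤ CP * dl ^ (-(1/2) : ℝ) := by
  have h1 : 0 < an r := Real.rpow_pos_of_pos hr _
  rw [← an_div hr hd]
  refine pot_le h1 ?_ b z m y
  unfold an
  exact Real.rpow_le_rpow_of_nonpos (mul_pos hd hr) (mul_le_of_le_one_left hr.le hd1) (by norm_num)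

/-! ### the class -/

/-- rectangle relation of `pot`. -/
def RcR (θ' θ'' : ℝ) (b : OrthonormalBasis (Fin 2) ℝ E2) (m m' : ℤ × ℤ) : Prop :=
  cen θ' m' ∈ RectF (b 0) (cen θ' m) (16 * θ'') (64 * θ')

theorem RcR_refl {θ' θ'' : ℝ} (h1 : 0 ≤ θ') (h2 : 0 ≤ θ'') (b : OrthonormalBasis (Fin 2) ℝ E2)
    (m : ℤ × ℤ) : RcR θ' θ'' b m m := by
  unfold RcR RectF
  simp only [Set.mem_setOf_eq, sub_self, norm_zero]
  refine ⟨by positivity, ?_⟩
  unfold orth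
  simp only [inner_zero_right, zero_smul, sub_self, norm_zero]
  positivity

theorem pot_eq (θ θ' θ'' K0 : ℝ) (b : OrthonormalBasis (Fin 2) ℝ E2) (z : E2 × ℝ) (m : ℤ × ℤ)
    (y : E2) : pot n h θ θ' θ'' K0 g S b z m y =
      Acl101.pcnt (caps θ') (fun m' y => Ad n h θ θ' g S m' z y) (RcR θ' θ'')
        (ENNReal.ofReal K0) b m y := rfl

/-- **the class** of a child phase point `(m, y)` in the relative frame `z`, with respect to the
frame `b` of its plate. -/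
noncomputable def clsR (nA : ℕ) (T0 K0 : ℝ) (n : ℕ) (h : E2 → ℝ) (θ θ' θ'' : ℝ) (g : E2 → ℂ)
    (S : ℤ × ℤ → Set E2) (z : E2 × ℝ) (b : OrthonormalBasis (Fin 2) ℝ E2) (m : ℤ × ℤ) (y : E2) : ℕ :=
  Acl101.clsAd nA (ENNReal.ofReal T0) (ENNReal.ofReal K0) (RcR θ' θ'') n h θ θ' g S z b m y

variable {nA : ℕ} {T0 K0 : ℝ}

theorem measurable_clsR {θ θ' θ'' : ℝ} (hθ : 0 ≤ θ) (hg : Integrable g) (z : E2 × ℝ)
    (b : OrthonormalBasis (Fin 2) ℝ E2) (m : ℤ × ℤ) :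
    Measurable (clsR nA T0 K0 n h θ θ' θ'' g S z b m) :=
  Acl101.measurable_clsAd hθ hg b m

theorem clsR_lt {θ θ' θ'' : ℝ} (z : E2 × ℝ) (b : OrthonormalBasis (Fin 2) ℝ E2) (m : ℤ × ℤ)
    (y : E2) : clsR nA T0 K0 n h θ θ' θ'' g S z b m y < (nA + 1) * (Nat.log 2 (caps θ').card + 1) :=
  Acl101.clsAd_lt b m y

/-- the density of the class `c`. -/
noncomputable def A0 (nA : ℕ) (T0 : ℝ) (c : ℕ) : ℝ := T0 / 2 ^ (c % (nA + 1) + 1)

/-- the coherence number of the class `c`. -/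
noncomputable def p0 (nA : ℕ) (c : ℕ) : ℝ := 2 ^ (c / (nA + 1))

theorem A0_nonneg (hT0 : 0 ≤ T0) (c : ℕ) : 0 ≤ A0 nA T0 c := by unfold A0; positivity

theorem p0_ge (c : ℕ) : 1 ≤ p0 nA c := one_le_pow₀ (by norm_num)

theorem ofReal_A0 (hT0 : 0 ≤ T0) (c : ℕ) :
    ENNReal.ofReal (A0 nA T0 c) = ENNReal.ofReal T0 / 2 ^ (c % (nA + 1) + 1) := by
  unfold A0
  rw [ENNReal.ofReal_div_of_pos (by positivity), ENNReal.ofReal_pow (by norm_num)]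
  norm_num

/-- **density and count of a point of the class `c`** (not clipped). -/
theorem cls_point {θ θ' θ'' : ℝ} (h1 : 0 ≤ θ') (h2 : 0 ≤ θ'') (hT0 : 0 ≤ T0) (hK0 : 1 ≤ K0)
    {z : E2 × ℝ} {b : OrthonormalBasis (Fin 2) ℝ E2} {m : ℤ × ℤ} {y : E2} {c : ℕ}
    (hc : clsR nA T0 K0 n h θ θ' θ'' g S z b m y = c) (hcn : c % (nA + 1) < nA)
    (hT : Ad n h θ θ' g S m z y ≤ ENNReal.ofReal T0) (hm : m ∈ caps θ') :
    ENNReal.ofReal (A0 nA T0 c) ≤ Ad n h θ θ' g S m z y ∧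
      Ad n h θ θ' g S m z y ≤ ENNReal.ofReal (2 * A0 nA T0 c) ∧
      p0 nA c ≤ (pot n h θ θ' θ'' K0 g S b z m y : ℝ) ∧
      (pot n h θ θ' θ'' K0 g S b z m y : ℝ) < 2 * p0 nA c := by
  obtain ⟨a1, a2, a3, a4⟩ := Acl101.clsA_spec (A := fun m' y => Ad n h θ θ' g S m' z y) hc hcn hT hm
    (RcR_refl h1 h2 b m) (ENNReal.one_le_ofReal.2 hK0)
  rw [ofReal_A0 hT0, ENNReal.ofReal_mul (by norm_num), ofReal_A0 hT0, ENNReal.ofReal_ofNat, pot_eq]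
  refine ⟨a1.le, a2, ?_, ?_⟩
  · unfold p0; exact_mod_cast a3
  · unfold p0; exact_mod_cast a4

/-- tiny class: the density is at most `T0 / 2 ^ nA`. -/
theorem cls_tiny {θ θ' θ'' : ℝ} (hT0 : 0 ≤ T0)
    {z : E2 × ℝ} {b : OrthonormalBasis (Fin 2) ℝ E2} {m : ℤ × ℤ} {y : E2} {c : ℕ}
    (hc : clsR nA T0 K0 n h θ θ' θ'' g S z b m y = c) (hcn : ¬ c % (nA + 1) < nA)
    (hT : Ad n h θ θ' g S m z y ≤ ENNReal.ofReal T0) :
    Ad n h θ θ' g S m z y ≤ ENNReal.ofReal (T0 / 2 ^ nA) := by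
  have := Acl101.cls_tiny_Ad hc hcn hT
  rwa [ENNReal.ofReal_div_of_pos (by positivity), ENNReal.ofReal_pow (by norm_num),
    ENNReal.ofReal_ofNat]

/-- **child classes**: all points of the plates are in the class `c`. -/
theorem chi_of {dl r1 : ℝ} (hr : 0 < r1) (hd : 0 < dl) (hT0 : 0 ≤ T0) (hK0 : 1 ≤ K0) {c : ℕ}
    (hcn : c % (nA + 1) < nA) {I : Finset ℕ} {P : ℕ → Plate}
    (hcap : ∀ i ∈ I, ∀ m, m ∉ caps (an (dl * r1)) → (P i).S m = ∅)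
    (hT : ∀ i ∈ I, ∀ m, ∀ y ∈ (P i).S m,
      Ad n h (an r1) (an (dl * r1)) g S m (P i).z y ≤ ENNReal.ofReal T0)
    (hc : ∀ i ∈ I, ∀ m, ∀ y ∈ (P i).S m,
      clsR nA T0 K0 n h (an r1) (an (dl * r1)) (an (dl * (dl * r1))) g S (P i).z (P i).b m y = c) :
    Chi n K0 h g dl r1 (A0 nA T0 c) (p0 nA c) S I P := by
  have p1 : 0 ≤ an (dl * r1) := (Real.rpow_pos_of_pos (mul_pos hd hr) _).le
  have p2 : 0 ≤ an (dl * (dl * r1)) := (Real.rpow_pos_of_pos (mul_pos hd (mul_pos hd hr)) _).le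
  have key : ∀ i ∈ I, ∀ m, ∀ y ∈ (P i).S m, m ∈ caps (an (dl * r1)) := by
    intro i hi m y hy
    by_contra hcon
    rw [hcap i hi m hcon] at hy
    exact hy
  refine ⟨fun i hi m y hy => ?_, fun i hi m y hy => ?_, fun i hi m y hy => ?_⟩
  · exact (cls_point p1 p2 hT0 hK0 (hc i hi m y hy) hcn (hT i hi m y hy) (key i hi m y hy)).1
  · refine (cls_point p1 p2 hT0 hK0 (hc i hi m y hy) hcn (hT i hi m y hy)
      (key i hi m y hy)).2.1.trans (ENNReal.ofReal_le_ofReal ?_)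
    have := A0_nonneg (nA := nA) hT0 c
    linarith
  · exact (cls_point p1 p2 hT0 hK0 (hc i hi m y hy) hcn (hT i hi m y hy) (key i hi m y hy)).2.2.1

/-- the coherence number is bounded by `CP dl^(-1/2)` as soon as the class has a point. -/
theorem p0_le {r dl θ : ℝ} (hr : 0 < r) (hd : 0 < dl) (hd1 : dl ≤ 1) (hT0 : 0 ≤ T0)
    (hK0 : 1 ≤ K0) {z : E2 × ℝ} {b : OrthonormalBasis (Fin 2) ℝ E2} {m : ℤ × ℤ} {y : E2} {c : ℕ}
    (hc : clsR nA T0 K0 n h θ (an r) (an (dl * r)) g S z b m y = c) (hcn : c % (nA + 1) < nA)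
    (hT : Ad n h θ (an r) g S m z y ≤ ENNReal.ofReal T0) (hm : m ∈ caps (an r)) :
    p0 nA c ≤ CP * dl ^ (-(1/2) : ℝ) :=
  (cls_point (Real.rpow_pos_of_pos hr _).le (Real.rpow_pos_of_pos (mul_pos hd hr) _).le hT0 hK0 hc
    hcn hT hm).2.2.1.trans (pot_le' hr hd hd1 θ b z m y)

/-- the potential: `p0`, truncated at `CP dl^(-1/2)`. -/
noncomputable def pv (nA : ℕ) (dl : ℝ) (c : ℕ) : ℝ := min (p0 nA c) (CP * dl ^ (-(1/2) : ℝ))

theorem pv_ge {dl : ℝ} (hd : 0 < dl) (hd1 : dl ≤ 1) (c : ℕ) : 1 ≤ pv nA dl c := by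
  refine le_min (p0_ge c) ?_
  have h1 : (1:ℝ) ≤ dl ^ (-(1/2) : ℝ) := Real.one_le_rpow_of_pos_of_le_one_of_nonpos hd hd1 (by norm_num)
  unfold CP
  linarith

theorem pv_le (dl : ℝ) (c : ℕ) : pv nA dl c ≤ CP * dl ^ (-(1/2) : ℝ) := min_le_right _ _

theorem pv_eq {dl : ℝ} {c : ℕ} (hc : p0 nA c ≤ CP * dl ^ (-(1/2) : ℝ)) : pv nA dl c = p0 nA c :=
  min_eq_left hc

/-- **coherence of the parent** (level `i`, scale `dl * r0`) from its classes relative to the level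
`h` (scale `r0`), in one frame `ζ`: `pp = 2 p0`. -/
theorem coh_of (B : ℕ → ℝ) (n : ℕ) : ∃ Kc : ℝ, 1 ≤ Kc ∧ ∀ K0 : ℝ, Kc ≤ K0 →
    ∀ h, ParB B h → fderiv ℝ h 0 = 0 → ∀ (r0 dl Y T0 : ℝ) (nA c : ℕ) (g0 : E2 → ℂ)
    (S0 : ℤ × ℤ → Set E2) (ζ : E2 × ℝ) (I1 : Finset ℕ) (P1 : ℕ → Plate),
    1 ≤ dl * r0 → 0 < dl → dl ≤ 1 → 1 ≤ Y → Y ≤ dl ^ (-(1/4) : ℝ) → |ζ.2| ≤ r0 → 0 ≤ T0 →
    c % (nA + 1) < nA → (∀ m, MeasurableSet (S0 m)) →
    (∀ i ∈ I1, ∀ m, m ∉ caps (an (dl * r0)) → (P1 i).S m = ∅) →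
    (∀ i ∈ I1, ∀ m, ∀ y ∈ (P1 i).S m,
      Ad n h (an r0) (an (dl * r0)) g0 S0 m ζ y ≤ ENNReal.ofReal T0) →
    (∀ i ∈ I1, ∀ m, ∀ y ∈ (P1 i).S m,
      clsR nA T0 K0 n h (an r0) (an (dl * r0)) (an (dl * (dl * r0))) g0 S0 ζ (P1 i).b m y = c) →
    Coh h (an (dl * r0)) (an (dl * (dl * r0))) (dl ^ (1/2 : ℝ)) Y (2 * (dl * r0)) I1 P1
      (2 * p0 nA c) := by
  obtain ⟨d0, hd0, hd01, H⟩ := Cohu101.cohuOne B
  obtain ⟨Kc, hKc, H⟩ := H n
  refine ⟨Kc, hKc, ?_⟩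
  intro K0 hK0 h hh h1 r0 dl Y T0 nA c g0 S0 ζ I1 P1 hr hd hd1 hY1 hY2 hζ hT0 hcn hS0 hcap hT hc
  subst hd0
  have hr0 : 0 < r0 := by
    by_contra hcon
    push Not at hcon
    nlinarith
  have p1 : 0 ≤ an (dl * r0) := (Real.rpow_pos_of_pos (mul_pos hd hr0) _).le
  have p2 : 0 ≤ an (dl * (dl * r0)) := (Real.rpow_pos_of_pos (mul_pos hd (mul_pos hd hr0)) _).le
  have hA := A0_nonneg (nA := nA) hT0 c
  refine H K0 hK0 h hh h1 r0 dl Y (A0 nA T0 c) (2 * p0 nA c) g0 S0 ζ I1 P1 hr hd hd1 hY1 hY2 hζ hA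
    (by linarith [p0_ge (nA := nA) c]) hS0 ?_
  intro i hi m y hy
  have hm : m ∈ caps (an (dl * r0)) := by
    by_contra hcon
    rw [hcap i hi m hcon] at hy
    exact hy
  obtain ⟨a1, a2, -, a4⟩ := cls_point p1 p2 hT0 (hKc.trans hK0) (hc i hi m y hy) hcn
    (hT i hi m y hy) hm
  exact ⟨a1, a2.trans (ENNReal.ofReal_le_ofReal (by linarith)), a4.le⟩

end Crest.Agent.R138.Chi101
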