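import Mathlib
import Crest.Agent.R138.MkDef_163
import Crest.Agent.R138.Pf_926

/-!
# R138, TEXT I, leaf L8 (helper774): refinement of the marked extremal sequence

* `prune_all`: countably many partitions with prescribed lower bounds (up to `d^ε`) for the class
  sizes in `I`: every dense part contains a dense part with the same lower bounds.
* `refine_mk : Refine ..`: a dense part of a marked sequence contains a dense marked sequence.
-/

set_option autoImplicit false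
set_option linter.unusedVariables false
set_option linter.unusedSectionVars false

open Finset Filter Topology

namespace Crest.Agent.R138.MkRef774

open Crest.Agent.R138.Ex926
open Crest.Agent.R138.Flag51 (Ln E2 cr dt InPlank)
open Crest.Agent.R138.Tilt51 (DMax Near)
open Crest.Agent.R138.Dp76
open Crest.Agent.R138.Mk163

section Prune

variable {B : Base} {ι κ : ℕ → Type*} [∀ n, DecidableEq (ι n)] [∀ n, DecidableEq (κ n)]

/-- **Pruning, countably many partitions.** -/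
theorem prune_all {I J : ∀ n, Finset (ι n)} (hJ : Dense B J I) (f : ℕ → ∀ n, ι n → κ n)
    (M : ℕ → ℕ → ℝ) (hM0 : ∀ j n, 0 ≤ M j n)
    (hM : ∀ j, ∀ ε : ℝ, 0 < ε → ∀ᶠ n in (U : Filter ℕ), ∀ x ∈ I n,
      B.d n ^ ε * M j n ≤ ((cls (I n) (f j n) x).card : ℝ)) :
    ∃ J' : ∀ n, Finset (ι n), Dense B J' J ∧ ∀ j, ∀ ε : ℝ, 0 < ε →
      ∀ᶠ n in (U : Filter ℕ), ∀ x ∈ J' n, B.d n ^ ε * M j n ≤ ((cls (J' n) (f j n) x).card : ℝ) := by
  classical
  have hP : ∀ k : ℕ, ∀ᶠ n in (U : Filter ℕ), ∃ A' : Finset (ι n), A' ⊆ J n ∧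
      ((J n).card : ℝ) ≤ 2 * A'.card ∧ ∀ j ≤ k, ∀ x ∈ A',
        B.d n ^ (1 / ((k : ℝ) + 1)) * M j n ≤ ((cls A' (f j n) x).card : ℝ) := by
    intro k
    have hk : (0 : ℝ) < (k : ℝ) + 1 := by positivity
    set e : ℝ := 1 / (4 * ((k : ℝ) + 1)) with he
    have he0 : 0 < e := by rw [he]; positivity
    have h4 : 1 / ((k : ℝ) + 1) = e + (e + (e + e)) := by rw [he]; field_simp; norm_num
    have hall : ∀ᶠ n in (U : Filter ℕ), ∀ j ∈ range (k + 1), ∀ x ∈ I n,
        B.d n ^ e * M j n ≤ ((cls (I n) (f j n) x).card : ℝ) := by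
      rw [Filter.eventually_all_finset]
      intro j _
      exact hM j e he0
    have hlog : ∀ᶠ n in (U : Filter ℕ), 2 * ((k : ℝ) + 1) < B.d n ^ (-e) :=
      Base.ex_lt_iff_dpow (Base.PB.const (by positivity)) (by rw [Base.ex_const]; exact he0)
    filter_upwards [hall, hlog, hJ.1, hJ.2 e he0] with n h1 h2 h3 h5
    obtain ⟨A', hA1, hA2, hA3⟩ := uniform_stable (J := Fin (k + 1)) (I n) (J n)
      (fun j => f j n) (fun j => M j n) (S := B.d n ^ (-e)) (p := B.d n ^ e)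
      (dpow_pos B n _) (dpow_pos B n _).le (fun j => hM0 j n) (by
        intro j x hx
        have h6 := h1 j (mem_range.2 j.2) x hx
        have h7 : B.d n ^ (-e) * B.d n ^ e = 1 := by rw [← dpow_add]; simp
        calc M j n = B.d n ^ (-e) * (B.d n ^ e * M j n) := by rw [← mul_assoc, h7, one_mul]
          _ ≤ _ := mul_le_mul_of_nonneg_left h6 (dpow_pos B n _).le) h3 h5
    refine ⟨A', hA1, by linarith, fun j hj x hx => ?_⟩
    have h8 := hA3 ⟨j, Nat.lt_succ_of_le hj⟩ x hx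
    refine le_trans ?_ h8
    refine mul_le_mul_of_nonneg_right ?_ (hM0 j n)
    rw [Fintype.card_fin, h4]
    push_cast
    have hp := dpow_pos B n e
    have hpm := dpow_pos B n (-e)
    have e1 : B.d n ^ (-e) * B.d n ^ e = 1 := by rw [← dpow_add]; simp
    rw [dpow_add, dpow_add, dpow_add, le_div_iff₀ (by positivity)]
    have h9 : B.d n ^ e * (2 * ((k : ℝ) + 1)) ≤ 1 := by
      calc B.d n ^ e * (2 * ((k : ℝ) + 1)) ≤ B.d n ^ e * B.d n ^ (-e) :=
            mul_le_mul_of_nonneg_left h2.le hp.le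
        _ = 1 := by rw [mul_comm]; exact e1
    have hd1 : B.d n ^ e ≤ 1 := dpow_le_one B n he0.le
    calc B.d n ^ e * (B.d n ^ e * (B.d n ^ e * B.d n ^ e)) * (2 * ((k : ℝ) + 1) * B.d n ^ (-e))
        = (B.d n ^ e * (2 * ((k : ℝ) + 1))) * (B.d n ^ (-e) * B.d n ^ e) *
            (B.d n ^ e * B.d n ^ e) := by ring
      _ ≤ 1 * 1 * (1 * B.d n ^ e) := by
          rw [e1]
          have := mul_le_mul_of_nonneg_right hd1 hp.le
          have h10 : 0 ≤ B.d n ^ e * B.d n ^ e := by positivity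
          nlinarith
      _ = B.d n ^ e := by ring
  obtain ⟨k, hk, hk2⟩ := exists_diag _ hP
  have hex : ∀ n, ∃ A' : Finset (ι n), (∀ j ≤ k n, ∃ A' : Finset (ι n), A' ⊆ J n ∧
      ((J n).card : ℝ) ≤ 2 * A'.card ∧ ∀ j' ≤ j, ∀ x ∈ A',
        B.d n ^ (1 / ((j : ℝ) + 1)) * M j' n ≤ ((cls A' (f j' n) x).card : ℝ)) →
      A' ⊆ J n ∧ ((J n).card : ℝ) ≤ 2 * A'.card ∧ ∀ j' ≤ k n, ∀ x ∈ A',
        B.d n ^ (1 / ((k n : ℝ) + 1)) * M j' n ≤ ((cls A' (f j' n) x).card : ℝ) := by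
    intro n
    by_cases h : (∀ j ≤ k n, ∃ A' : Finset (ι n), A' ⊆ J n ∧
      ((J n).card : ℝ) ≤ 2 * A'.card ∧ ∀ j' ≤ j, ∀ x ∈ A',
        B.d n ^ (1 / ((j : ℝ) + 1)) * M j' n ≤ ((cls A' (f j' n) x).card : ℝ))
    · obtain ⟨A', hA⟩ := h (k n) le_rfl
      exact ⟨A', fun _ => hA⟩
    · exact ⟨∅, fun h' => absurd h' h⟩
  choose J' hJ' using hex
  have hev : ∀ᶠ n in (U : Filter ℕ), J' n ⊆ J n ∧ ((J n).card : ℝ) ≤ 2 * (J' n).card ∧
      ∀ j' ≤ k n, ∀ x ∈ J' n,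
        B.d n ^ (1 / ((k n : ℝ) + 1)) * M j' n ≤ ((cls (J' n) (f j' n) x).card : ℝ) := by
    filter_upwards [hk2] with n hn using hJ' n hn
  refine ⟨J', dense_of_sub (S := fun _ => 2) (Base.Sub.const two_pos)
    (hev.mono fun n hn => ⟨hn.1, hn.2.1⟩), fun j ε hε => ?_⟩
  have h1 : ∀ᶠ n in (U : Filter ℕ), 1 / ((k n : ℝ) + 1) ≤ ε := by
    have h2 : Tendsto (fun n => 1 / ((k n : ℝ) + 1)) U (𝓝 0) :=
      tendsto_one_div_add_atTop_nhds_zero_nat.comp hk
    exact h2.eventually_le_const hε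
  filter_upwards [hev, h1, hk.eventually_ge_atTop j] with n h2 h3 h4 x hx
  exact (mul_le_mul_of_nonneg_right (dpow_le B n h3) (hM0 j n)).trans (h2.2.2 j h4 x hx)

end Prune

/-! ### counting -/

open Classical in
/-- the partition of the incidences by line and cell -/
noncomputable def pl (i : ℕ) (x : ℕ × ℝ) : ℕ × ℤ := (x.1, zc i x.2)

open Classical in
/-- the partition of the incidences by label and cell -/
noncomputable def ql (i : ℕ) (f : ℕ → ℤ → ℕ) (x : ℕ × ℝ) : ℕ × ℤ := (f x.1 (zc i x.2), zc i x.2)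

open Classical in
theorem own_card_le (I : Finset (ℕ × ℝ)) (i j : ℕ) (x : ℕ × ℝ) :
    (own I i j x).card ≤ (cls I (pl i) x).card := by
  refine card_image_le.trans (card_le_card ?_)
  intro y hy
  rw [mem_filter] at hy
  rw [mem_cls]
  exact ⟨hy.1, Prod.ext hy.2.1 hy.2.2⟩

open Classical in
theorem cls_card_le_own {I : Finset (ℕ × ℝ)} {i j : ℕ} {x : ℕ × ℝ}
    (h : ∀ y ∈ I, ∀ z ∈ I, y.1 = z.1 → zc j y.2 = zc j z.2 → y = z) :
    (cls I (pl i) x).card ≤ (own I i j x).card := by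
  refine card_le_card_of_injOn (fun y => zc j y.2) ?_ ?_
  · intro y hy
    rw [mem_coe, mem_cls] at hy
    rw [mem_coe]
    refine mem_image.2 ⟨y, mem_filter.2 ⟨hy.1, ?_, ?_⟩, rfl⟩
    · exact (Prod.ext_iff.1 hy.2).1
    · exact (Prod.ext_iff.1 hy.2).2
  · intro y hy z hz hyz
    rw [mem_coe, mem_cls] at hy hz
    refine h y hy.1 z hz.1 ?_ hyz
    exact ((Prod.ext_iff.1 hy.2).1).trans (Prod.ext_iff.1 hz.2).1.symm

open Classical in
/-- incidences of one label class: lower bound. -/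
theorem ql_lower {I : Finset (ℕ × ℝ)} {i : ℕ} {f : ℕ → ℤ → ℕ} {m : ℝ}
    (hm : ∀ x ∈ I, m ≤ ((cls I (pl i) x).card : ℝ)) {x : ℕ × ℝ} (hx : x ∈ I) :
    m * ((∑ s ∈ alive I i (zc i x.2) with f s (zc i x.2) = f x.1 (zc i x.2), (1 : ℝ))) ≤
      ((cls I (ql i f) x).card : ℝ) := by
  have h1 := mul_card_image_le (Subset.refl (cls I (ql i f) x)) (fun _ => (1 : ℝ))
    (fun _ _ => zero_le_one) Prod.fst (M := m) (by
      intro y hy
      rw [sum_const, nsmul_eq_mul, mul_one]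
      obtain ⟨hy1, hy2⟩ := mem_cls.1 hy
      refine (hm y hy1).trans ?_
      have h2 : cls I (pl i) y ⊆ cls (cls I (ql i f) x) Prod.fst y := by
        intro z hz
        obtain ⟨hz1, hz2⟩ := mem_cls.1 hz
        have e1 : z.1 = y.1 := (Prod.ext_iff.1 hz2).1
        have e2 : zc i z.2 = zc i y.2 := (Prod.ext_iff.1 hz2).2
        refine mem_cls.2 ⟨mem_cls.2 ⟨hz1, ?_⟩, e1⟩
        rw [← hy2]
        show (f z.1 (zc i z.2), zc i z.2) = (f y.1 (zc i y.2), zc i y.2)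
        rw [e1, e2]
      exact_mod_cast card_le_card h2)
  rw [sum_const, nsmul_eq_mul, mul_one] at h1
  rcases le_or_gt m 0 with hm0 | hm0
  · exact (mul_nonpos_of_nonpos_of_nonneg hm0 (sum_nonneg fun _ _ => zero_le_one)).trans
      (Nat.cast_nonneg _)
  refine le_trans (mul_le_mul_of_nonneg_left ?_ hm0.le) h1
  rw [sum_const, nsmul_eq_mul, mul_one]
  have h3 : (alive I i (zc i x.2)).filter (fun s => f s (zc i x.2) = f x.1 (zc i x.2)) ⊆
      (cls I (ql i f) x).image Prod.fst := by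
    intro s hs
    rw [mem_filter] at hs
    obtain ⟨hs1, hs2⟩ := hs
    obtain ⟨y, hy, rfl⟩ := mem_image.1 hs1
    obtain ⟨hy1, hy2⟩ := mem_filter.1 hy
    refine mem_image.2 ⟨y, mem_cls.2 ⟨hy1, ?_⟩, rfl⟩
    show (f y.1 (zc i y.2), zc i y.2) = (f x.1 (zc i x.2), zc i x.2)
    rw [hy2, hs2]
  exact_mod_cast card_le_card h3

open Classical in
/-- incidences of one label class: upper bound. -/
theorem ql_upper {I J : Finset (ℕ × ℝ)} (hJI : J ⊆ I) {i : ℕ} {f : ℕ → ℤ → ℕ} {m : ℝ}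
    (hm : ∀ x ∈ I, ((cls I (pl i) x).card : ℝ) ≤ m) (hm0 : 0 ≤ m) {x : ℕ × ℝ} (hx : x ∈ J) :
    ((cls J (ql i f) x).card : ℝ) ≤
      m * ((∑ s ∈ alive J i (zc i x.2) with f s (zc i x.2) = f x.1 (zc i x.2), (1 : ℝ))) := by
  have h1 := le_count_mul (cls J (ql i f) x) (fun _ => (1 : ℝ)) Prod.fst (m := m) (by
      intro y hy
      rw [sum_const, nsmul_eq_mul, mul_one]
      obtain ⟨hy1, hy2⟩ := mem_cls.1 hy
      refine le_trans ?_ (hm y (hJI hy1))
      have h2 : cls (cls J (ql i f) x) Prod.fst y ⊆ cls I (pl i) y := by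
        intro z hz
        obtain ⟨hz1, hz2⟩ := mem_cls.1 hz
        obtain ⟨hz3, hz4⟩ := mem_cls.1 hz1
        refine mem_cls.2 ⟨hJI hz3, Prod.ext hz2 ?_⟩
        have e1 : zc i z.2 = zc i x.2 := (Prod.ext_iff.1 hz4).2
        have e2 : zc i y.2 = zc i x.2 := (Prod.ext_iff.1 hy2).2
        show zc i z.2 = zc i y.2
        rw [e1, e2]
      exact_mod_cast card_le_card h2)
  rw [sum_const, nsmul_eq_mul, mul_one] at h1
  refine h1.trans (mul_le_mul_of_nonneg_left ?_ hm0)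
  rw [sum_const, nsmul_eq_mul, mul_one]
  have h3 : (cls J (ql i f) x).image Prod.fst ⊆
      (alive J i (zc i x.2)).filter (fun s => f s (zc i x.2) = f x.1 (zc i x.2)) := by
    intro s hs
    obtain ⟨y, hy, rfl⟩ := mem_image.1 hs
    obtain ⟨hy1, hy2⟩ := mem_cls.1 hy
    have e1 : zc i y.2 = zc i x.2 := (Prod.ext_iff.1 hy2).2
    have e2 : f y.1 (zc i y.2) = f x.1 (zc i x.2) := (Prod.ext_iff.1 hy2).1
    rw [mem_filter]
    refine ⟨mem_image.2 ⟨y, mem_filter.2 ⟨hy1, e1⟩, rfl⟩, ?_⟩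
    rw [← e1, e2, e1]
  exact_mod_cast card_le_card h3

open Classical in
/-- cells of level `j` of a line inside a cell of level `i`: lower bound. -/
theorem own_lower {I J : Finset (ℕ × ℝ)} (hJI : J ⊆ I) {i j : ℕ} {m : ℝ}
    (hm : ∀ x ∈ I, ((cls I (pl j) x).card : ℝ) ≤ m) {x : ℕ × ℝ} :
    ((cls J (pl i) x).card : ℝ) ≤ m * ((own J i j x).card : ℝ) := by
  have h1 := le_count_mul (cls J (pl i) x) (fun _ => (1 : ℝ)) (fun y => zc j y.2) (m := m) (by
      intro y hy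
      rw [sum_const, nsmul_eq_mul, mul_one]
      obtain ⟨hy1, hy2⟩ := mem_cls.1 hy
      refine le_trans ?_ (hm y (hJI hy1))
      have h2 : cls (cls J (pl i) x) (fun y => zc j y.2) y ⊆ cls I (pl j) y := by
        intro z hz
        obtain ⟨hz1, hz2⟩ := mem_cls.1 hz
        obtain ⟨hz3, hz4⟩ := mem_cls.1 hz1
        refine mem_cls.2 ⟨hJI hz3, Prod.ext ?_ hz2⟩
        exact ((Prod.ext_iff.1 hz4).1).trans ((Prod.ext_iff.1 hy2).1).symm
      exact_mod_cast card_le_card h2)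
  rw [sum_const, nsmul_eq_mul, mul_one] at h1
  refine h1.trans (le_of_eq ?_)
  congr 2
  unfold own
  congr 1
  ext y
  simp only [mem_cls, mem_filter, mem_image]
  constructor
  · rintro ⟨z, ⟨h1, h2⟩, rfl⟩
    exact ⟨z, ⟨h1, (Prod.ext_iff.1 h2).1, (Prod.ext_iff.1 h2).2⟩, rfl⟩
  · rintro ⟨z, ⟨h1, h2, h3⟩, rfl⟩
    exact ⟨z, ⟨h1, Prod.ext h2 h3⟩, rfl⟩


/-! ### the refinement -/

section Main

variable {B : Base} {I : ℕ → Finset (ℕ × ℝ)} {L : ℕ → ℕ → Ln} {lev : ℕ → ℚ → ℕ}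
    {r0 A : ℕ → ℝ} {q g : ℝ} {Λ τ : ℝ → ℝ} {f : ℕ → ℚ → ℕ → ℤ → ℕ} {b : ℕ → ℚ → ℕ → Ln}
    {e : ℕ → ℚ → ℕ → E2} {w1 w2 : ℕ → ℚ → ℝ}

/-- incidences per line and cell of level `v`, in the exponent -/
noncomputable def nu (B : Base) (Λ : ℝ → ℝ) (n : ℕ) (v : ℚ) : ℝ :=
  B.d n ^ (-((1 : ℝ) - v) + (Λ 1 - Λ v))

theorem nu_pos (B : Base) (Λ : ℝ → ℝ) (n : ℕ) (v : ℚ) : 0 < nu B Λ n v := dpow_pos B n _

open Classical in
/-- incidences of one line in one cell of level `v`: two-sided. -/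
theorem Mk.line_cell (h : Mk B I L lev r0 A q g Λ τ f b e w1 w2) {v : ℚ} (h0 : 0 ≤ v) (h1 : v ≤ 1)
    {ε : ℝ} (hε : 0 < ε) : ∀ᶠ n in (U : Filter ℕ), ∀ x ∈ I n,
      B.d n ^ ε * nu B Λ n v ≤ ((cls (I n) (pl (lev n v)) x).card : ℝ) ∧
      ((cls (I n) (pl (lev n v)) x).card : ℝ) ≤ B.d n ^ (-ε) * nu B Λ n v := by
  filter_upwards [h.own v 1 h0 h1 le_rfl ε hε, h.one] with n hn h1 x hx
  obtain ⟨a, c⟩ := hn x hx
  have e1 : B.d n ^ ε * nu B Λ n v = B.d n ^ (-(((1 : ℚ) : ℝ) - v) + (Λ ((1 : ℚ) : ℝ) - Λ v) + ε) := by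
    unfold nu
    rw [← dpow_add]
    congr 1
    push_cast
    ring
  have e2 : B.d n ^ (-ε) * nu B Λ n v =
      B.d n ^ (-(((1 : ℚ) : ℝ) - v) + (Λ ((1 : ℚ) : ℝ) - Λ v) - ε) := by
    unfold nu
    rw [← dpow_add]
    congr 1
    push_cast
    ring
  rw [e1, e2]
  refine ⟨a.trans ?_, le_trans ?_ c⟩
  · exact_mod_cast own_card_le (I n) (lev n v) (lev n 1) x
  · exact_mod_cast cls_card_le_own h1

open Classical in
/-- lower bound for the label classes. -/
theorem Mk.label_cell (h : Mk B I L lev r0 A q g Λ τ f b e w1 w2) {v : ℚ} (h0 : 0 ≤ v) (h1 : v ≤ 1)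
    {ε : ℝ} (hε : 0 < ε) : ∀ᶠ n in (U : Filter ℕ), ∀ x ∈ I n,
      B.d n ^ ε * (amp B lev A q g Λ n v * w1 n v ^ (1 + (0 : ℝ)) * w2 n v ^ (1 + q) * nu B Λ n v) ≤
        ((cls (I n) (ql (lev n v) (f n v)) x).card : ℝ) := by
  filter_upwards [Mk.line_cell h h0 h1 (half_pos hε), h.near v h0 h1 (ε / 2) (half_pos hε)]
    with n h2 h3 x hx
  have h4 := ql_lower (f := f n v) (fun y hy => (h2 y hy).1) hx
  refine le_trans ?_ h4
  have h5 := (h3 (zc (lev n v) x.2)).low x.1 (mem_image.2 ⟨x, mem_filter.2 ⟨hx, rfl⟩, rfl⟩)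
  have e1 : B.d n ^ ε = B.d n ^ (ε / 2) * B.d n ^ (ε / 2) := by rw [← dpow_add]; congr 1; ring
  have e2 : B.d n ^ (ε / 2) * B.d n ^ (-(ε / 2)) = 1 := by rw [← dpow_add]; simp
  have hp := dpow_pos B n (ε / 2)
  have hnu := nu_pos B Λ n v
  rw [e1]
  calc B.d n ^ (ε / 2) * B.d n ^ (ε / 2) *
        (amp B lev A q g Λ n v * w1 n v ^ (1 + (0 : ℝ)) * w2 n v ^ (1 + q) * nu B Λ n v)
      = (B.d n ^ (ε / 2) * nu B Λ n v) * (B.d n ^ (ε / 2) *
        (amp B lev A q g Λ n v * w1 n v ^ (1 + (0 : ℝ)) * w2 n v ^ (1 + q))) := by ring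
    _ ≤ (B.d n ^ (ε / 2) * nu B Λ n v) * (B.d n ^ (ε / 2) * (B.d n ^ (-(ε / 2)) *
        ∑ s ∈ alive (I n) (lev n v) (zc (lev n v) x.2) with
          f n v s (zc (lev n v) x.2) = f n v x.1 (zc (lev n v) x.2), (1 : ℝ))) := by
        refine mul_le_mul_of_nonneg_left ?_ (by positivity)
        refine mul_le_mul_of_nonneg_left ?_ hp.le
        refine h5.trans (le_of_eq ?_)
        congr 1
        refine Finset.sum_congr ?_ fun _ _ => rfl
        congr!
    _ = _ := by rw [← mul_assoc (B.d n ^ (ε / 2)) (B.d n ^ (-(ε / 2))), e2, one_mul]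

theorem alive_mono {I J : Finset (ℕ × ℝ)} (h : J ⊆ I) (i : ℕ) (z : ℤ) :
    alive J i z ⊆ alive I i z := by
  classical
  unfold alive
  exact image_subset_image (filter_subset_filter _ h)

theorem own_mono {I J : Finset (ℕ × ℝ)} (h : J ⊆ I) (i j : ℕ) (x : ℕ × ℝ) :
    own J i j x ⊆ own I i j x := by
  classical
  unfold own
  exact image_subset_image (filter_subset_filter _ h)

/-- **L8.** -/
theorem refine_mk (B : Base) (I : ℕ → Finset (ℕ × ℝ)) (L : ℕ → ℕ → Ln) (lev : ℕ → ℚ → ℕ)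
    (r0 A : ℕ → ℝ) (q g : ℝ) (Λ τ : ℝ → ℝ) (f : ℕ → ℚ → ℕ → ℤ → ℕ) (b : ℕ → ℚ → ℕ → Ln)
    (e : ℕ → ℚ → ℕ → E2) (w1 w2 : ℕ → ℚ → ℝ) : Refine B I L lev r0 A q g Λ τ f b e w1 w2 := by
  classical
  intro hMk J hJ
  obtain ⟨G, hG⟩ := exists_surjective_nat (Bool × ℚ)
  set F : ℕ → ∀ n : ℕ, ℕ × ℝ → ℕ × ℤ := fun j n =>
    if (G j).1 then pl (lev n (G j).2) else ql (lev n (G j).2) (f n (G j).2) with hF
  set M : ℕ → ℕ → ℝ := fun j n => if 0 ≤ (G j).2 ∧ (G j).2 ≤ 1 then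
    (if (G j).1 then nu B Λ n (G j).2 else max 0 (amp B lev A q g Λ n (G j).2 *
      w1 n (G j).2 ^ (1 + (0 : ℝ)) * w2 n (G j).2 ^ (1 + q) * nu B Λ n (G j).2)) else 0 with hM
  obtain ⟨J', hJ'd, hJ'⟩ := prune_all hJ F M (by
      intro j n
      simp only [hM]
      split_ifs
      · exact (nu_pos B Λ n _).le
      · exact le_max_left _ _
      · exact le_rfl) (by
      intro j ε hε
      simp only [hM, hF]
      by_cases hv : 0 ≤ (G j).2 ∧ (G j).2 ≤ 1
      · by_cases hb : (G j).1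
        · simp only [hv, hb, and_self, if_true]
          filter_upwards [Mk.line_cell hMk hv.1 hv.2 hε] with n hn x hx
          exact (hn x hx).1
        · simp only [hv, hb, and_self, if_true]
          filter_upwards [Mk.label_cell hMk hv.1 hv.2 hε] with n hn x hx
          have h1 := hn x hx
          rcases max_choice 0 (amp B lev A q g Λ n (G j).2 *
              w1 n (G j).2 ^ (1 + (0 : ℝ)) * w2 n (G j).2 ^ (1 + q) * nu B Λ n (G j).2) with h2 | h2
          · rw [if_neg (by simp), h2, mul_zero]; exact Nat.cast_nonneg _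
          · rw [if_neg (by simp), if_neg (by simp), h2]; exact h1
      · filter_upwards with n x hx
        rw [if_neg hv, mul_zero]
        exact Nat.cast_nonneg _)
  have hsub : ∀ᶠ n in (U : Filter ℕ), J' n ⊆ I n := by
    filter_upwards [hJ'd.1, hJ.1] with n a c using a.trans c
  have hP : ∀ v : ℚ, 0 ≤ v → v ≤ 1 → ∀ ε : ℝ, 0 < ε → ∀ᶠ n in (U : Filter ℕ), ∀ x ∈ J' n,
      B.d n ^ ε * nu B Λ n v ≤ ((cls (J' n) (pl (lev n v)) x).card : ℝ) := by
    intro v h0 h1 ε hε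
    obtain ⟨j, hj⟩ := hG (true, v)
    have := hJ' j ε hε
    simp only [hM, hF, hj, h0, h1, and_self, if_true] at this
    exact this
  have hQ : ∀ v : ℚ, 0 ≤ v → v ≤ 1 → ∀ ε : ℝ, 0 < ε → ∀ᶠ n in (U : Filter ℕ), ∀ x ∈ J' n,
      B.d n ^ ε * (amp B lev A q g Λ n v * w1 n v ^ (1 + (0 : ℝ)) * w2 n v ^ (1 + q) * nu B Λ n v) ≤
        ((cls (J' n) (ql (lev n v) (f n v)) x).card : ℝ) := by
    intro v h0 h1 ε hε
    obtain ⟨j, hj⟩ := hG (false, v)
    have := hJ' j ε hε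
    simp only [hM, hF, hj, h0, h1, and_self, if_true, Bool.false_eq_true, if_false] at this
    filter_upwards [this] with n hn x hx
    exact (mul_le_mul_of_nonneg_left (le_max_right _ _) (dpow_pos B n _).le).trans (hn x hx)
  refine ⟨J', hJ'd, ?_⟩
  refine
    { ne := (hJ'd.trans hJ).nonempty hMk.ne
      card := ?_
      q0 := hMk.q0
      q2 := hMk.q2
      g0 := hMk.g0
      Apos := hMk.Apos
      rpos := hMk.rpos
      lam0 := hMk.lam0
      lam := hMk.lam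
      tau1 := hMk.tau1
      lev_mono := hMk.lev_mono
      lev_lim := hMk.lev_lim
      cell0 := ?_
      one := ?_
      own := ?_
      dmax := ?_
      near := ?_
      dims := hMk.dims
      tau := hMk.tau }
  · first
    | (obtain ⟨C, hC⟩ := hMk.card
       refine ⟨C, ?_⟩
       filter_upwards [hC, hsub] with n h1 h2
       exact le_trans (by exact_mod_cast card_le_card h2) h1)
    | (intro ε hε
       filter_upwards [hMk.card ε hε, hsub, (hJ'd.trans hJ).nonempty hMk.ne] with n h1 h2 h3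
       refine le_trans (Real.log_le_log ?_ ?_) h1
       · exact_mod_cast card_pos.2 h3
       · exact_mod_cast card_le_card h2)
  · filter_upwards [hMk.cell0, hsub] with n h1 h2 x hx y hy
    exact h1 x (h2 hx) y (h2 hy)
  · filter_upwards [hMk.one, hsub] with n h1 h2 x hx y hy
    exact h1 x (h2 hx) y (h2 hy)
  · intro u v hu huv hv ε hε
    filter_upwards [hMk.own u v hu huv hv ε hε, hsub, hP u hu (huv.trans hv) (ε / 2) (half_pos hε),
      Mk.line_cell hMk (hu.trans huv) hv (half_pos hε)] with n h1 h2 h3 h4 x hx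
    constructor
    · have h5 := own_lower (i := lev n u) h2 (fun y hy => (h4 y hy).2) (x := x)
      have h6 := (h3 x hx).trans h5
      have hpos : 0 < B.d n ^ (-(ε / 2)) * nu B Λ n v := mul_pos (dpow_pos B n _) (nu_pos B Λ n v)
      refine le_of_mul_le_mul_left (le_trans (le_of_eq ?_) h6) hpos
      unfold nu
      rw [← dpow_add, ← dpow_add, ← dpow_add]
      congr 1
      ring
    · exact le_trans (by exact_mod_cast card_le_card (own_mono h2 _ _ x)) (h1 x (h2 hx)).2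
  · intro v h0 h1 ε hε
    filter_upwards [hMk.dmax v h0 h1 ε hε, hsub] with n h2 h3 z
    exact (h2 z).subset (alive_mono h3 _ z) (fun _ _ => zero_le_one)
  · intro v h0 h1 ε hε
    filter_upwards [hMk.near v h0 h1 ε hε, hsub, hQ v h0 h1 (ε / 2) (half_pos hε),
      Mk.line_cell hMk h0 h1 (half_pos hε)] with n h2 h3 h4 h5 z
    refine ⟨fun t ht => (h2 z).unit t (alive_mono h3 _ z ht),
      fun t ht => (h2 z).mem t (alive_mono h3 _ z ht), fun t ht => ?_⟩
    obtain ⟨x, hx, rfl⟩ := mem_image.1 ht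
    obtain ⟨hx1, hx2⟩ := mem_filter.1 hx
    have h6 := ql_upper (f := f n v) h3 (fun y hy => (h5 y hy).2)
      (mul_pos (dpow_pos B n _) (nu_pos B Λ n v)).le hx1
    have h7 := (h4 x hx1).trans h6
    rw [hx2] at h7
    have e1 : B.d n ^ (ε / 2) * B.d n ^ (-(ε / 2)) = 1 := by rw [← dpow_add]; simp
    have e2 : B.d n ^ (-ε) = B.d n ^ (-(ε / 2)) * B.d n ^ (-(ε / 2)) := by
      rw [← dpow_add]; congr 1; ring
    have hpos : 0 < B.d n ^ (ε / 2) * nu B Λ n v := mul_pos (dpow_pos B n _) (nu_pos B Λ n v)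
    refine le_of_mul_le_mul_left ?_ hpos
    rw [e2]
    calc B.d n ^ (ε / 2) * nu B Λ n v *
          (amp B lev A q g Λ n v * w1 n v ^ (1 + (0 : ℝ)) * w2 n v ^ (1 + q))
        = B.d n ^ (ε / 2) *
          (amp B lev A q g Λ n v * w1 n v ^ (1 + (0 : ℝ)) * w2 n v ^ (1 + q) * nu B Λ n v) := by ring
      _ ≤ _ := h7
      _ = (B.d n ^ (ε / 2) * B.d n ^ (-(ε / 2))) * (B.d n ^ (-(ε / 2)) * nu B Λ n v *
          ∑ s ∈ alive (J' n) (lev n v) z with f n v s z = f n v x.1 z, (1 : ℝ)) := by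
          rw [e1, one_mul]
      _ = B.d n ^ (ε / 2) * nu B Λ n v * (B.d n ^ (-(ε / 2)) * B.d n ^ (-(ε / 2)) *
          ∑ s ∈ alive (J' n) (lev n v) z with f n v s z = f n v x.1 z, (1 : ℝ)) := by ring
      _ = _ := by
          congr 2
          refine Finset.sum_congr ?_ fun _ _ => rfl
          congr!

end Main

end Crest.Agent.R138.MkRef774
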