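import Mathlib
import Crest.Agent.R138.MkDef_163
import Crest.Agent.R138.Ps1_926

/-!
# R138, TEXT I, leaf L14c (helper76): the twist of the second zoom

`RotF` does not pass to a zoom (the drop of the own exponent beyond the rotation may be
super-linear), so the lower bound `(tw)` of the rotation of the second zoom is proved INSIDE it:
`Rotates k0` (Lemma A for marks) at `(u, v)`, `v → u+`, plus naturality (flags = marks up to the
precision, precision = `sc d^(k v)`).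

* `exists_avoid` : a dense part avoids countably many negligible sets.
* `Mk.congr_fam`, `Mk.own_le_of_dense` : transfer.
* `tw_of_rotates` : the twist outside a negligible set.
* `nat5_of` : marks + naturality + upper rotation + `Rotates` + `Refine` give `Nat5` on a dense part.
-/

set_option autoImplicit false
set_option linter.unusedVariables false
set_option linter.unusedSectionVars false

open Finset Filter Topology

namespace Crest.Agent.R138.NatTw76

open Crest.Agent.R138.Ex926 (Base U exists_diag)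
open Crest.Agent.R138.Flag51 (Ln E2 cr dt InPlank)
open Crest.Agent.R138.Tilt51 (DMax Near abs_cr_triangle abs_cr_swap)
open Crest.Agent.R138.Dp76
open Crest.Agent.R138.Ps926 (dpow_small)
open Crest.Agent.R138.Mk163

/-! ### a dense part avoids countably many negligible sets -/

open Classical in
theorem exists_avoid {B : Base} {I : ℕ → Finset (ℕ × ℝ)} (P : ℕ → ℕ → ℕ × ℝ → Prop)
    (h : ∀ j, Negl B I (P j)) :
    ∃ J : ℕ → Finset (ℕ × ℝ), (∀ n, J n ⊆ I n) ∧ Dense B J I ∧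
      ∀ j, ∀ᶠ n in (U : Filter ℕ), ∀ x ∈ J n, ¬ P j n x := by
  -- for every `k` the union of the first `k + 1` sets has at most half of `I`
  have hk : ∀ k : ℕ, ∀ᶠ n in (U : Filter ℕ),
      (((I n).filter fun x => ∃ j ≤ k, P j n x).card : ℝ) ≤ (1 / 2) * (I n).card := by
    intro k
    have h1 : ∀ j : ℕ, ∀ᶠ n in (U : Filter ℕ),
        (((I n).filter (P j n)).card : ℝ) ≤ (1 / (2 * ((k : ℝ) + 1))) * (I n).card := by
      intro j
      obtain ⟨γ, hγ, hj⟩ := h j
      have h2 := dpow_small B hγ (ε := 1 / (2 * ((k : ℝ) + 1))) (by positivity)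
      filter_upwards [hj, h2] with n a b
      exact a.trans (mul_le_mul_of_nonneg_right b.le (Nat.cast_nonneg _))
    have h3 : ∀ᶠ n in (U : Filter ℕ), ∀ j ∈ Finset.range (k + 1),
        (((I n).filter (P j n)).card : ℝ) ≤ (1 / (2 * ((k : ℝ) + 1))) * (I n).card := by
      rw [Filter.eventually_all_finset]
      intro j _
      exact h1 j
    filter_upwards [h3] with n hn
    have hsub : ((I n).filter fun x => ∃ j ≤ k, P j n x) ⊆
        (Finset.range (k + 1)).biUnion fun j => (I n).filter (P j n) := by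
      intro x hx
      obtain ⟨hx1, j, hj, hx2⟩ := mem_filter.1 hx
      rw [mem_biUnion]
      exact ⟨j, mem_range.2 (Nat.lt_succ_of_le hj), mem_filter.2 ⟨hx1, hx2⟩⟩
    have h4 : (((I n).filter fun x => ∃ j ≤ k, P j n x).card : ℝ) ≤
        ∑ j ∈ Finset.range (k + 1), (((I n).filter (P j n)).card : ℝ) := by
      have h5 := (card_le_card hsub).trans card_biUnion_le
      exact_mod_cast h5
    refine h4.trans ((sum_le_sum hn).trans ?_)
    rw [sum_const, card_range, nsmul_eq_mul]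
    push_cast
    have hk1 : (0 : ℝ) < (k : ℝ) + 1 := by positivity
    have : ((k : ℝ) + 1) * (1 / (2 * ((k : ℝ) + 1)) * ((I n).card : ℝ)) = 1 / 2 * (I n).card := by
      field_simp
    exact this.le
  obtain ⟨k, hk1, hk2⟩ := exists_diag (fun k n =>
    (((I n).filter fun x => ∃ j ≤ k, P j n x).card : ℝ) ≤ (1 / 2) * (I n).card) hk
  refine ⟨fun n => (I n).filter fun x => ¬ ∃ j ≤ k n, P j n x, fun n => filter_subset _ _,
    ⟨Eventually.of_forall fun n => filter_subset _ _, ?_⟩, ?_⟩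
  · intro η hη
    have h2 := dpow_small B hη (ε := 1 / 2) (by norm_num)
    filter_upwards [hk2, h2] with n a b
    have h3 := a (k n) le_rfl
    have h4 : (((I n).filter fun x => ∃ j ≤ k n, P j n x).card : ℝ) +
        (((I n).filter fun x => ¬ ∃ j ≤ k n, P j n x).card : ℝ) = (I n).card := by
      exact_mod_cast card_filter_add_card_filter_not (s := I n) (fun x => ∃ j ≤ k n, P j n x)
    have h5 : B.d n ^ η * ((I n).card : ℝ) ≤ 1 / 2 * (I n).card :=
      mul_le_mul_of_nonneg_right b.le (Nat.cast_nonneg _)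
    linarith
  · intro j
    have h3 : ∀ᶠ n in (U : Filter ℕ), j ≤ k n := hk1.eventually_ge_atTop j
    filter_upwards [h3] with n hn x hx hP
    exact (mem_filter.1 hx).2 ⟨j, hn, hP⟩

/-! ### counting -/

theorem card_le_image_mul {α β : Type*} [DecidableEq β] (s : Finset α) (f : α → β) {K : ℝ}
    (h : ∀ y ∈ s, ((s.filter fun z => f z = f y).card : ℝ) ≤ K) :
    (s.card : ℝ) ≤ ((s.image f).card : ℝ) * K := by
  rw [card_eq_sum_card_image f s]
  push_cast
  refine (sum_le_card_nsmul _ _ K ?_).trans ?_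
  · intro c hc
    obtain ⟨y, hy, rfl⟩ := mem_image.1 hc
    exact h y hy
  · rw [nsmul_eq_mul]

section main

variable {B : Base} {I : ℕ → Finset (ℕ × ℝ)} {L : ℕ → ℕ → Ln} {lev : ℕ → ℚ → ℕ}
    {r0 A : ℕ → ℝ} {q g : ℝ} {Λ τ : ℝ → ℝ} {f : ℕ → ℚ → ℕ → ℤ → ℕ} {b : ℕ → ℚ → ℕ → Ln}
    {e : ℕ → ℚ → ℕ → E2} {w1 w2 : ℕ → ℚ → ℝ}

theorem mem_alive {I : Finset (ℕ × ℝ)} {i : ℕ} {x : ℕ × ℝ} (hx : x ∈ I) :
    x.1 ∈ alive I i (zc i x.2) := by
  unfold alive
  exact mem_image_of_mem _ (mem_filter.2 ⟨hx, rfl⟩)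

/-- frames are unit vectors. -/
theorem fr_unit (hM : Mk B I L lev r0 A q g Λ τ f b e w1 w2) {v : ℚ} (h0 : 0 ≤ v) (h1 : v ≤ 1) :
    ∀ᶠ n in (U : Filter ℕ), ∀ x ∈ I n, dt (fr lev f e n v x) (fr lev f e n v x) = 1 := by
  filter_upwards [hM.near v h0 h1 1 one_pos] with n hn x hx
  exact (hn (zc (lev n v) x.2)).unit x.1 (mem_alive hx)

theorem prec_pos (hM : Mk B I L lev r0 A q g Λ τ f b e w1 w2) {v : ℚ} (h0 : 0 ≤ v) (h1 : v ≤ 1) :
    ∀ᶠ n in (U : Filter ℕ), 0 < prec w1 w2 n v := by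
  filter_upwards [hM.dims v h0 h1] with n hn
  have h2 := hM.rpos n
  exact div_pos (h2.trans_le hn.1) (h2.trans_le (hn.1.trans hn.2.1))

open Classical in
/-- the number of incidences of a line inside a cell of level `v` is its own count at level `1`. -/
theorem card_fibre (hM : Mk B I L lev r0 A q g Λ τ f b e w1 w2) :
    ∀ᶠ n in (U : Filter ℕ), ∀ (i : ℕ) (x : ℕ × ℝ), x ∈ I n →
      (((I n).filter fun y => y.1 = x.1 ∧ zc i y.2 = zc i x.2).card : ℕ) =
        (Mk163.own (I n) i (lev n 1) x).card := by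
  filter_upwards [hM.one] with n hn i x hx
  unfold Mk163.own
  rw [card_image_of_injOn]
  intro y hy z hz hyz
  rw [mem_coe, mem_filter] at hy hz
  exact hn y hy.1 z hz.1 (hy.2.1.trans hz.2.1.symm) hyz

open Classical in
/-- **the twist from `Rotates`**: outside a negligible set only a `d^γ`-part of the flags of one line
in one cell of level `u` agrees with a given one up to `sc d^r`, `r > k u`. -/
theorem tw_of_rotates (hM : Mk B I L lev r0 A q g Λ τ f b e w1 w2) {k0 : ℝ}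
    (hA : Rotates B I lev f e w1 w2 k0) (hk0 : 0 < k0) {fl : ℕ → ℕ × ℝ → E2} {sc : ℕ → ℝ} {k : ℝ}
    (hfl : ∀ᶠ n in (U : Filter ℕ), ∀ x ∈ I n, dt (fl n x) (fl n x) = 1) (hsc : ∀ n, 0 < sc n)
    (hpr : ∀ v : ℚ, 0 ≤ v → v ≤ 1 →
      Tendsto (fun n => Real.log (sc n / prec w1 w2 n v) / B.L n) U (𝓝 (k * v)))
    (hcl : ∀ v : ℚ, 0 ≤ v → v ≤ 1 → ∀ ε : ℝ, 0 < ε → ∀ᶠ n in (U : Filter ℕ), ∀ x ∈ I n,
      |cr (fl n x) (fr lev f e n v x)| ≤ prec w1 w2 n v * B.d n ^ (-ε))
    {u : ℚ} (hu0 : 0 ≤ u) (hu1 : u < 1) {r : ℝ} (hr : k * u < r) :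
    ∃ γ : ℝ, 0 < γ ∧ Negl B I fun n x =>
      B.d n ^ γ * ((Mk163.own (I n) (lev n u) (lev n 1) x).card : ℝ) <
        ((((I n).filter fun y => y.1 = x.1 ∧ zc (lev n u) y.2 = zc (lev n u) x.2 ∧
          |cr (fl n x) (fl n y)| ≤ sc n * B.d n ^ r).card : ℕ) : ℝ) := by
  -- choice of the second level
  set δ : ℝ := (r - k * u) / (|k - k0| + 1) with hδ
  have hδ0 : 0 < δ := div_pos (by linarith) (by positivity)
  have hlt : (u : ℝ) < min 1 ((u : ℝ) + δ) := lt_min (by exact_mod_cast hu1) (by linarith)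
  obtain ⟨v, hv1, hv2⟩ := exists_rat_btwn hlt
  have huv : u < v := by exact_mod_cast hv1
  have hv1' : v ≤ 1 := by
    have : (v : ℝ) < 1 := hv2.trans_le (min_le_left _ _)
    exact_mod_cast this.le
  have hv0 : (0 : ℚ) ≤ v := hu0.trans huv.le
  have hvu : (0 : ℝ) < (v : ℝ) - u := by linarith
  have hvδ : (v : ℝ) - u < δ := by
    have := hv2.trans_le (min_le_right _ _); linarith
  have h1u : (0 : ℝ) ≤ u := by exact_mod_cast hu0
  have hkey : 0 < r - k * v + k0 * ((v : ℝ) - u) := by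
    have h1 : (k - k0) * ((v : ℝ) - u) ≤ |k - k0| * ((v : ℝ) - u) :=
      mul_le_mul_of_nonneg_right (le_abs_self _) hvu.le
    have h2 : |k - k0| * ((v : ℝ) - u) ≤ |k - k0| * δ :=
      mul_le_mul_of_nonneg_left hvδ.le (abs_nonneg _)
    have h3 : (|k - k0| + 1) * δ = r - k * u := by
      rw [hδ]; field_simp
    nlinarith
  set e1 : ℝ := (r - k * v + k0 * ((v : ℝ) - u)) / 2 with he1
  have he1p : 0 < e1 := half_pos hkey
  set e0 : ℝ := k0 * ((v : ℝ) - u) / 2 with he0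
  have he0p : 0 < e0 := half_pos (mul_pos hk0 hvu)
  obtain ⟨γ, hγ, γ', hγ', hN⟩ := hA u v hu0 huv hv1'
  refine ⟨γ / 2, half_pos hγ, γ', hγ', ?_⟩
  have hpr1 : ∀ᶠ n in (U : Filter ℕ),
      Real.log (sc n / prec w1 w2 n v) / B.L n < k * v + e1 :=
    (hpr v hv0 hv1').eventually_lt_const (by linarith)
  filter_upwards [hN, hM.own u v hu0 huv.le hv1' (γ / 6) (by linarith),
    hM.own v 1 hv0 hv1' le_rfl (γ / 6) (by linarith),
    hM.own u 1 hu0 hu1.le le_rfl (γ / 6) (by linarith), card_fibre hM, fr_unit hM hv0 hv1',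
    prec_pos hM hv0 hv1', hfl, hcl v hv0 hv1' e0 he0p, hpr1, dpow_small B he0p (ε := 1 / 4) (by norm_num),
    dpow_small B he1p (ε := 1 / 2) (by norm_num)] with n hN1 ho1 ho2 ho3 hfib hun hpp hfu hcl1 hpr2
      hs1 hs2
  refine le_trans ?_ hN1
  have hsub : ((I n).filter fun x => B.d n ^ (γ / 2) *
      ((Mk163.own (I n) (lev n u) (lev n 1) x).card : ℝ) <
        ((((I n).filter fun y => y.1 = x.1 ∧ zc (lev n u) y.2 = zc (lev n u) x.2 ∧
          |cr (fl n x) (fl n y)| ≤ sc n * B.d n ^ r).card : ℕ) : ℝ)) ⊆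
      (I n).filter fun x => B.d n ^ γ * ((Mk163.own (I n) (lev n u) (lev n v) x).card : ℝ) ≤
        ((((I n).filter fun y => y.1 = x.1 ∧ zc (lev n u) y.2 = zc (lev n u) x.2 ∧
          |cr (fr lev f e n v x) (fr lev f e n v y)| ≤
            prec w1 w2 n v * B.d n ^ (-(k0 * ((v : ℝ) - u)))).image
              fun y => zc (lev n v) y.2).card : ℝ) := by
    intro x hx
    obtain ⟨hxI, hx2⟩ := mem_filter.1 hx
    refine mem_filter.2 ⟨hxI, ?_⟩
    by_contra hcon
    push Not at hcon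
    -- size of `sc` against the precision
    have hsc1 : sc n ≤ prec w1 w2 n v * B.d n ^ (-(k * v + e1)) := by
      rw [div_lt_iff₀ (B.L_pos n)] at hpr2
      have h1 : sc n / prec w1 w2 n v < B.d n ^ (-(k * v + e1)) := by
        rw [← Real.log_lt_log_iff (div_pos (hsc n) hpp) (dpow_pos B n _), Real.log_rpow (B.pos n)]
        have hL2 : Real.log (B.d n) = - B.L n := by simp [Base.L]
        rw [hL2]; linarith
      rw [div_lt_iff₀ hpp] at h1
      linarith [mul_comm (B.d n ^ (-(k * v + e1))) (prec w1 w2 n v)]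
    have hscr : sc n * B.d n ^ r ≤
        prec w1 w2 n v * (1 / 2 * B.d n ^ (-(k0 * ((v : ℝ) - u)))) := by
      have hp := dpow_pos B n r
      calc sc n * B.d n ^ r ≤ prec w1 w2 n v * B.d n ^ (-(k * v + e1)) * B.d n ^ r :=
            mul_le_mul_of_nonneg_right hsc1 hp.le
        _ = prec w1 w2 n v * (B.d n ^ e1 * B.d n ^ (-(k0 * ((v : ℝ) - u)))) := by
            rw [mul_assoc, ← dpow_add, ← dpow_add]
            congr 2
            rw [he1]; ring
        _ ≤ prec w1 w2 n v * (1 / 2 * B.d n ^ (-(k0 * ((v : ℝ) - u)))) := by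
            apply mul_le_mul_of_nonneg_left _ hpp.le
            exact mul_le_mul_of_nonneg_right hs2.le (dpow_pos B n _).le
    have hprc : 2 * (prec w1 w2 n v * B.d n ^ (-e0)) ≤
        prec w1 w2 n v * (1 / 2 * B.d n ^ (-(k0 * ((v : ℝ) - u)))) := by
      have h1 : B.d n ^ (-e0) = B.d n ^ e0 * B.d n ^ (-(k0 * ((v : ℝ) - u))) := by
        rw [← dpow_add]; congr 1; rw [he0]; ring
      have hp := dpow_pos B n (-(k0 * ((v : ℝ) - u)))
      rw [h1]
      have h2 : B.d n ^ e0 * B.d n ^ (-(k0 * ((v : ℝ) - u))) ≤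
          1 / 4 * B.d n ^ (-(k0 * ((v : ℝ) - u))) := mul_le_mul_of_nonneg_right hs1.le hp.le
      nlinarith [mul_le_mul_of_nonneg_left h2 hpp.le]
    set G : Finset (ℕ × ℝ) := (I n).filter fun y => y.1 = x.1 ∧
      zc (lev n u) y.2 = zc (lev n u) x.2 ∧ |cr (fl n x) (fl n y)| ≤ sc n * B.d n ^ r with hG
    have himg : G.image (fun y => zc (lev n v) y.2) ⊆
        ((I n).filter fun y => y.1 = x.1 ∧ zc (lev n u) y.2 = zc (lev n u) x.2 ∧
          |cr (fr lev f e n v x) (fr lev f e n v y)| ≤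
            prec w1 w2 n v * B.d n ^ (-(k0 * ((v : ℝ) - u)))).image
              fun y => zc (lev n v) y.2 := by
      refine image_subset_image ?_
      intro y hy
      obtain ⟨hyI, hy1, hy2, hy3⟩ := mem_filter.1 hy
      refine mem_filter.2 ⟨hyI, hy1, hy2, ?_⟩
      have t1 := abs_cr_triangle (hun x hxI) (hfu x hxI) (hun y hyI)
      have t2 := abs_cr_triangle (hfu x hxI) (hfu y hyI) (hun y hyI)
      have t3 := hcl1 x hxI
      have t4 := hcl1 y hyI
      rw [abs_cr_swap (fl n x) (fr lev f e n v x)] at t1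
      linarith
    have hfibK : ∀ y ∈ G, ((G.filter fun z => zc (lev n v) z.2 = zc (lev n v) y.2).card : ℝ) ≤
        B.d n ^ (-(1 - (v : ℝ)) + (Λ 1 - Λ v) - γ / 6) := by
      intro y hy
      obtain ⟨hyI, hy1, hy2, hy3⟩ := mem_filter.1 hy
      have h1 : (G.filter fun z => zc (lev n v) z.2 = zc (lev n v) y.2) ⊆
          (I n).filter fun z => z.1 = y.1 ∧ zc (lev n v) z.2 = zc (lev n v) y.2 := by
        intro z hz
        obtain ⟨hz1, hz2⟩ := mem_filter.1 hz
        obtain ⟨hzI, hz3, -⟩ := mem_filter.1 hz1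
        exact mem_filter.2 ⟨hzI, hz3.trans hy1.symm, hz2⟩
      have h2 := card_le_card h1
      rw [hfib (lev n v) y hyI] at h2
      have h3 := (ho2 y hyI).2
      have h4 : ((G.filter fun z => zc (lev n v) z.2 = zc (lev n v) y.2).card : ℝ) ≤
          ((Mk163.own (I n) (lev n v) (lev n 1) y).card : ℝ) := by exact_mod_cast h2
      refine h4.trans ?_
      simpa using h3
    have hcount := card_le_image_mul G (fun y => zc (lev n v) y.2) hfibK
    have hi1 : ((G.image (fun y => zc (lev n v) y.2)).card : ℝ) ≤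
        B.d n ^ γ * ((Mk163.own (I n) (lev n u) (lev n v) x).card : ℝ) := by
      refine le_trans ?_ hcon.le
      exact_mod_cast card_le_card himg
    have hi2 := (ho1 x hxI).2
    have hi3 := (ho3 x hxI).1
    have hp1 := dpow_pos B n (-(1 - (v : ℝ)) + (Λ 1 - Λ v) - γ / 6)
    have hp2 := dpow_pos B n γ
    have hp3 := dpow_pos B n (γ / 2)
    have hfin : (G.card : ℝ) ≤ B.d n ^ (γ / 2) *
        ((Mk163.own (I n) (lev n u) (lev n 1) x).card : ℝ) := by
      calc (G.card : ℝ) ≤ ((G.image (fun y => zc (lev n v) y.2)).card : ℝ) *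
            B.d n ^ (-(1 - (v : ℝ)) + (Λ 1 - Λ v) - γ / 6) := hcount
        _ ≤ (B.d n ^ γ * B.d n ^ (-((v : ℝ) - u) + (Λ v - Λ u) - γ / 6)) *
            B.d n ^ (-(1 - (v : ℝ)) + (Λ 1 - Λ v) - γ / 6) := by
            apply mul_le_mul_of_nonneg_right _ hp1.le
            exact hi1.trans (mul_le_mul_of_nonneg_left hi2 hp2.le)
        _ = B.d n ^ (γ / 2) * B.d n ^ (-((1 : ℚ) - (u : ℝ)) + (Λ (1 : ℚ) - Λ u) + γ / 6) := by
            rw [← dpow_add, ← dpow_add, ← dpow_add]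
            congr 1
            push_cast
            ring
        _ ≤ B.d n ^ (γ / 2) * ((Mk163.own (I n) (lev n u) (lev n 1) x).card : ℝ) :=
            mul_le_mul_of_nonneg_left hi3 hp3.le
    exact absurd hx2 (not_lt.2 hfin)
  exact_mod_cast card_le_card hsub

/-- transfer of a marked sequence to an eventually equal family. -/
theorem Mk.congr_fam (h : Mk B I L lev r0 A q g Λ τ f b e w1 w2) {I' : ℕ → Finset (ℕ × ℝ)}
    (hI : ∀ᶠ n in (U : Filter ℕ), I n = I' n) : Mk B I' L lev r0 A q g Λ τ f b e w1 w2 where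
  ne := by filter_upwards [h.ne, hI] with n a b; exact b ▸ a
  card := by
    first
      | exact fun ε hε => by filter_upwards [h.card ε hε, hI] with n a b; exact b ▸ a
      | (obtain ⟨C, hC⟩ := h.card
         exact ⟨C, by filter_upwards [hC, hI] with n a b; exact b ▸ a⟩)
  q0 := h.q0
  q2 := h.q2
  g0 := h.g0
  Apos := h.Apos
  rpos := h.rpos
  lam0 := h.lam0
  lam := h.lam
  tau1 := h.tau1
  lev_mono := h.lev_mono
  lev_lim := h.lev_lim
  cell0 := by filter_upwards [h.cell0, hI] with n a b; exact b ▸ a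
  one := by filter_upwards [h.one, hI] with n a b; exact b ▸ a
  own := fun u v h1 h2 h3 ε hε => by
    filter_upwards [h.own u v h1 h2 h3 ε hε, hI] with n a b; exact b ▸ a
  dmax := fun v h1 h2 ε hε => by
    filter_upwards [h.dmax v h1 h2 ε hε, hI] with n a b; exact b ▸ a
  near := fun v h1 h2 ε hε => by
    filter_upwards [h.near v h1 h2 ε hε, hI] with n a b; exact b ▸ a
  dims := h.dims
  tau := h.tau

theorem Dense.congr_fam {J J' I : ℕ → Finset (ℕ × ℝ)} (h : Dense B J I)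
    (hJ : ∀ᶠ n in (U : Filter ℕ), J n = J' n) : Dense B J' I :=
  ⟨by filter_upwards [h.1, hJ] with n a b; exact b ▸ a, fun η hη => by
    filter_upwards [h.2 η hη, hJ] with n a b; exact b ▸ a⟩

open Classical in
/-- **Naturality + `Rotates` give the output of the second zoom.** -/
theorem nat5_of {s θ : ℝ} (hθ : 0 < θ)
    (hM : Mk B I L lev r0 A q g (fun v => s * v) (fun v => θ * (1 - v)) f b e w1 w2)
    (href : Refine B I L lev r0 A q g (fun v => s * v) (fun v => θ * (1 - v)) f b e w1 w2)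
    {k0 : ℝ} (hA : Rotates B I lev f e w1 w2 k0) (hk0 : 0 < k0) {fl : ℕ → ℕ × ℝ → E2}
    {sc : ℕ → ℝ} {k : ℝ} (hk : 0 < k)
    (hfl : ∀ᶠ n in (U : Filter ℕ), ∀ x ∈ I n, dt (fl n x) (fl n x) = 1) (hsc : ∀ n, 0 < sc n)
    (hpr : ∀ v : ℚ, 0 ≤ v → v ≤ 1 →
      Tendsto (fun n => Real.log (sc n / prec w1 w2 n v) / B.L n) U (𝓝 (k * v)))
    (hcl : ∀ v : ℚ, 0 ≤ v → v ≤ 1 → ∀ ε : ℝ, 0 < ε → ∀ᶠ n in (U : Filter ℕ), ∀ x ∈ I n,
      |cr (fl n x) (fr lev f e n v x)| ≤ prec w1 w2 n v * B.d n ^ (-ε))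
    (hrot : ∀ u : ℚ, 0 ≤ u → u ≤ 1 → ∀ ε : ℝ, 0 < ε → ∀ᶠ n in (U : Filter ℕ), ∀ x ∈ I n,
      ∀ y ∈ I n, y.1 = x.1 → zc (lev n u) y.2 = zc (lev n u) x.2 →
        |cr (fl n x) (fl n y)| ≤ sc n * B.d n ^ (k * u - ε)) :
    ∃ J : ℕ → Finset (ℕ × ℝ), Dense B J I ∧ (∀ n, J n ⊆ I n) ∧
      Nat5 B J L lev r0 A q g f b e w1 w2 fl sc k s θ := by
  -- all rational pairs
  set T : Type := {p : ℚ × ℚ // 0 ≤ p.1 ∧ p.1 < 1 ∧ k * p.1 < p.2} with hT
  have htw : ∀ p : T, ∃ γ : ℝ, 0 < γ ∧ Negl B I fun n x =>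
      B.d n ^ γ * ((Mk163.own (I n) (lev n p.1.1) (lev n 1) x).card : ℝ) <
        ((((I n).filter fun y => y.1 = x.1 ∧ zc (lev n p.1.1) y.2 = zc (lev n p.1.1) x.2 ∧
          |cr (fl n x) (fl n y)| ≤ sc n * B.d n ^ (p.1.2 : ℝ)).card : ℕ) : ℝ) := fun p =>
    tw_of_rotates hM hA hk0 hfl hsc hpr hcl p.2.1 p.2.2.1 p.2.2.2
  choose γ hγ hN using htw
  -- enumerate
  have hTc : Countable T := by rw [hT]; infer_instance
  have hTn : Nonempty T := ⟨⟨(0, 1), le_rfl, by norm_num, by push_cast; simp⟩⟩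
  obtain ⟨en, hen⟩ := exists_surjective_nat T
  obtain ⟨J, hJI, hJd, hJ⟩ := exists_avoid (B := B) (I := I)
    (fun j n x => B.d n ^ γ (en j) *
      ((Mk163.own (I n) (lev n (en j).1.1) (lev n 1) x).card : ℝ) <
        ((((I n).filter fun y => y.1 = x.1 ∧ zc (lev n (en j).1.1) y.2 = zc (lev n (en j).1.1) x.2 ∧
          |cr (fl n x) (fl n y)| ≤ sc n * B.d n ^ ((en j).1.2 : ℝ)).card : ℕ) : ℝ))
    (fun j => hN (en j))
  obtain ⟨J', hJ'd, hJ'⟩ := href hM J hJd
  -- make the inclusion hold for every `n`, and the flags unit vectors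
  set K : ℕ → Finset (ℕ × ℝ) := fun n => (J' n).filter fun x => x ∈ I n ∧
    dt (fl n x) (fl n x) = 1 with hK
  have hKI : ∀ n, K n ⊆ I n := fun n x hx => (mem_filter.1 hx).2.1
  have hJ'I : ∀ᶠ n in (U : Filter ℕ), J' n ⊆ I n := by
    filter_upwards [hJ'd.1] with n h1 using h1.trans (hJI n)
  have hKJ : ∀ᶠ n in (U : Filter ℕ), J' n = K n := by
    filter_upwards [hJ'I, hfl] with n h1 h2
    ext x
    simp only [hK, mem_filter]
    exact ⟨fun hx => ⟨hx, h1 hx, h2 x (h1 hx)⟩, fun hx => hx.1⟩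
  have hMK := Mk.congr_fam hJ' hKJ
  have hKd : Dense B K I := Dense.congr_fam (hJ'd.trans hJd) hKJ
  have hKsJ : ∀ᶠ n in (U : Filter ℕ), K n ⊆ J n := by
    filter_upwards [hKJ, hJ'd.1] with n h1 h2
    rw [← h1]; exact h2
  refine ⟨K, hKd, hKI, ?_⟩
  refine ⟨hMK, hk, hθ, fun n x hx => (mem_filter.1 hx).2.2, hpr, ?_, ?_⟩
  · refine ⟨hsc, ?_, ?_, ?_, ?_⟩
    · intro u h0 h1
      constructor
      · positivity
      · show k * u ≤ k + 1
        nlinarith
    · intro u hu v hv huv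
      exact mul_le_mul_of_nonneg_left huv hk.le
    · intro u h0 h1 ε hε
      filter_upwards [hrot u h0 h1 ε hε] with n hn x hx y hy
      exact hn x (hKI n hx) y (hKI n hy)
    · intro u h0 h1 r hr hrC
      obtain ⟨r', hr1, hr2⟩ := exists_rat_btwn hr
      obtain ⟨j, hj⟩ := hen ⟨(u, r'), h0, h1, hr1⟩
      have hγj := hγ (en j)
      refine ⟨γ (en j) / 2, half_pos hγj, ?_⟩
      have h3 := hJ j
      rw [hj] at h3
      rw [hj] at hγj
      rw [hj]
      set γ0 := γ ⟨(u, r'), h0, h1, hr1⟩ with hγ0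
      filter_upwards [h3, hKsJ, hM.own u 1 h0 h1.le le_rfl (γ0 / 4) (by linarith),
        hMK.own u 1 h0 h1.le le_rfl (γ0 / 4) (by linarith)] with n a1 a2 a3 a4 x hx
      have b1 := not_lt.1 (a1 x (a2 hx))
      have b2 := (a3 x (hKI n hx)).2
      have b3 := (a4 x hx).1
      have c1 : ((((K n).filter fun y => y.1 = x.1 ∧ zc (lev n u) y.2 = zc (lev n u) x.2 ∧
          |cr (fl n x) (fl n y)| ≤ sc n * B.d n ^ r).card : ℕ) : ℝ) ≤
          ((((I n).filter fun y => y.1 = x.1 ∧ zc (lev n u) y.2 = zc (lev n u) x.2 ∧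
          |cr (fl n x) (fl n y)| ≤ sc n * B.d n ^ (r' : ℝ)).card : ℕ) : ℝ) := by
        have : ((K n).filter fun y => y.1 = x.1 ∧ zc (lev n u) y.2 = zc (lev n u) x.2 ∧
          |cr (fl n x) (fl n y)| ≤ sc n * B.d n ^ r) ⊆
          (I n).filter fun y => y.1 = x.1 ∧ zc (lev n u) y.2 = zc (lev n u) x.2 ∧
          |cr (fl n x) (fl n y)| ≤ sc n * B.d n ^ (r' : ℝ) := by
          intro y hy
          obtain ⟨hy1, hy2, hy3, hy4⟩ := mem_filter.1 hy
          refine mem_filter.2 ⟨hKI n hy1, hy2, hy3, hy4.trans ?_⟩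
          exact mul_le_mul_of_nonneg_left (dpow_le B n hr2.le) (hsc n).le
        exact_mod_cast card_le_card this
      refine c1.trans (b1.trans ?_)
      have p1 := dpow_pos B n γ0
      have p2 := dpow_pos B n (γ0 / 2)
      calc B.d n ^ γ0 * ((Mk163.own (I n) (lev n u) (lev n 1) x).card : ℝ) ≤
          B.d n ^ γ0 * B.d n ^ (-(((1 : ℚ) : ℝ) - u) + (s * ((1 : ℚ) : ℝ) - s * u) - γ0 / 4) :=
            mul_le_mul_of_nonneg_left b2 p1.le
        _ = B.d n ^ (γ0 / 2) *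
            B.d n ^ (-(((1 : ℚ) : ℝ) - u) + (s * ((1 : ℚ) : ℝ) - s * u) + γ0 / 4) := by
            rw [← dpow_add, ← dpow_add]; congr 1; ring
        _ ≤ B.d n ^ (γ0 / 2) * ((Mk163.own (K n) (lev n u) (lev n 1) x).card : ℝ) :=
            mul_le_mul_of_nonneg_left b3 p2.le
  · intro v h0 h1 ε hε
    filter_upwards [hcl v h0 h1 ε hε] with n hn x hx
    exact hn x (hKI n hx)

end main

end Crest.Agent.R138.NatTw76
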