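import Mathlib
import Crest.Agent.R138.TiltG_51
import Crest.Agent.R138.MkDef_163

/-!
# R138, leaf L10, part 1 (helper51): cells, summation, exponents
-/

set_option autoImplicit false
set_option linter.unusedVariables false

open Finset Filter Topology

namespace Crest.Agent.R138.TiltU51

open Crest.Agent.R138.Ex926 (Base U)
open Crest.Agent.R138.Flag51 (Ln E2 cr dt InPlank)
open Crest.Agent.R138.Tilt51 (DMax Near)
open Crest.Agent.R138.Mk163

noncomputable section

/-! ### dyadic cells -/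

theorem zc_mul_le {i j : ℕ} (h : i ≤ j) (z : ℝ) : 2 ^ (j - i) * zc i z ≤ zc j z := by
  unfold zc
  rw [Int.le_floor]
  push_cast
  have h1 : ((⌊(2 : ℝ) ^ i * z⌋ : ℤ) : ℝ) ≤ 2 ^ i * z := Int.floor_le _
  have h2 : (2 : ℝ) ^ j = 2 ^ (j - i) * 2 ^ i := by rw [← pow_add, Nat.sub_add_cancel h]
  rw [h2, mul_assoc]
  exact mul_le_mul_of_nonneg_left h1 (by positivity)

theorem zc_lt_mul {i j : ℕ} (h : i ≤ j) (z : ℝ) : zc j z < 2 ^ (j - i) * (zc i z + 1) := by
  unfold zc
  rw [Int.floor_lt]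
  push_cast
  have h1 : 2 ^ i * z < ((⌊(2 : ℝ) ^ i * z⌋ : ℤ) : ℝ) + 1 := Int.lt_floor_add_one _
  have h2 : (2 : ℝ) ^ j = 2 ^ (j - i) * 2 ^ i := by rw [← pow_add, Nat.sub_add_cancel h]
  rw [h2, mul_assoc]
  exact mul_lt_mul_of_pos_left h1 (by positivity)

theorem zc_nest {i j : ℕ} (h : i ≤ j) {z z' : ℝ} (hz : zc j z = zc j z') : zc i z = zc i z' := by
  have a1 := zc_mul_le h z
  have a2 := zc_lt_mul h z
  have a3 := zc_mul_le h z'
  have a4 := zc_lt_mul h z'
  rw [hz] at a1 a2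
  have hp : (0 : ℤ) < 2 ^ (j - i) := by positivity
  have b1 : zc i z < zc i z' + 1 := lt_of_mul_lt_mul_left (a1.trans_lt a4) hp.le
  have b2 : zc i z' < zc i z + 1 := lt_of_mul_lt_mul_left (a3.trans_lt a2) hp.le
  omega

theorem rho_pos (i : ℕ) : 0 < rho i := by unfold rho; positivity

theorem rho_le {i j : ℕ} (h : i ≤ j) : rho j ≤ rho i := by
  unfold rho
  exact one_div_le_one_div_of_le (by positivity) (pow_le_pow_right₀ (by norm_num) h)

theorem rho_div {i j : ℕ} (h : i ≤ j) : rho i / rho j = 2 ^ (j - i) := by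
  unfold rho
  have h2 : (2 : ℝ) ^ j = 2 ^ (j - i) * 2 ^ i := by rw [← pow_add, Nat.sub_add_cancel h]
  rw [h2]; field_simp

theorem abs_zl_sub {i j : ℕ} (h : i ≤ j) (z : ℝ) :
    |zl j (zc j z) - zl i (zc i z)| ≤ rho i := by
  have a1 : ((2 ^ (j - i) * zc i z : ℤ) : ℝ) ≤ (zc j z : ℝ) := by exact_mod_cast zc_mul_le h z
  have a2 : ((zc j z : ℤ) : ℝ) < ((2 ^ (j - i) * (zc i z + 1) : ℤ) : ℝ) := by
    exact_mod_cast zc_lt_mul h z
  push_cast at a1 a2
  have h2 : (2 : ℝ) ^ j = 2 ^ (j - i) * 2 ^ i := by rw [← pow_add, Nat.sub_add_cancel h]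
  have hj : (0:ℝ) < 2 ^ j := by positivity
  have hi : (0:ℝ) < 2 ^ i := by positivity
  have e1 : zl i (zc i z) = 2 ^ (j - i) * (zc i z : ℝ) / 2 ^ j := by
    unfold zl; rw [h2]; field_simp
  have e2 : rho i = 2 ^ (j - i) / 2 ^ j := by
    unfold rho; rw [h2]; field_simp
  have e3 : zl j (zc j z) = (zc j z : ℝ) / 2 ^ j := rfl
  rw [e1, e2, e3, ← sub_div, abs_div, abs_of_pos hj]
  refine div_le_div_of_nonneg_right ?_ hj.le
  rw [abs_le]
  constructor <;> nlinarith [show (0:ℝ) < 2 ^ (j - i) by positivity]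

/-- number of cells of level `j` in one cell of level `i` -/
theorem card_cells {i j : ℕ} (h : i ≤ j) (I : Finset (ℕ × ℝ)) (k : ℤ) :
    ((I.filter fun x => zc i x.2 = k).image fun x => zc j x.2).card ≤ 2 ^ (j - i) := by
  have h1 : ((I.filter fun x => zc i x.2 = k).image fun x => zc j x.2) ⊆
      Ico (2 ^ (j - i) * k) (2 ^ (j - i) * (k + 1)) := by
    intro J hJ
    rw [mem_image] at hJ
    obtain ⟨x, hx, rfl⟩ := hJ
    rw [mem_filter] at hx
    rw [mem_Ico, ← hx.2]
    exact ⟨zc_mul_le h _, zc_lt_mul h _⟩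
  refine (card_le_card h1).trans (le_of_eq ?_)
  rw [Int.card_Ico]
  have : (2 : ℤ) ^ (j - i) * (k + 1) - 2 ^ (j - i) * k = ((2 ^ (j - i) : ℕ) : ℤ) := by
    push_cast; ring
  rw [this, Int.toNat_natCast]

theorem mem_alive {I : Finset (ℕ × ℝ)} {i : ℕ} {J : ℤ} {t : ℕ} :
    t ∈ alive I i J ↔ ∃ x ∈ I, zc i x.2 = J ∧ x.1 = t := by
  classical
  unfold alive
  simp only [mem_image, mem_filter]
  constructor
  · rintro ⟨x, ⟨h1, h2⟩, h3⟩; exact ⟨x, h1, h2, h3⟩
  · rintro ⟨x, h1, h2, h3⟩; exact ⟨x, ⟨h1, h2⟩, h3⟩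

theorem alive_subset {I : Finset (ℕ × ℝ)} {i j : ℕ} (h : i ≤ j) {x : ℕ × ℝ} (hx : x ∈ I) :
    alive I j (zc j x.2) ⊆ alive I i (zc i x.2) := by
  intro t ht
  rw [mem_alive] at ht ⊢
  obtain ⟨y, hy, h1, h2⟩ := ht
  exact ⟨y, hy, zc_nest h h1, h2⟩

/-! ### the summation over the cells -/

open Classical in
/-- bad incidences from bad lines per small cell -/
theorem sum_bad {ι Λ κ κ' : Type*} [DecidableEq Λ] [DecidableEq κ] [DecidableEq κ'] {I : Finset ι} {obj : ι → Λ} {c : ι → κ} {c' : ι → κ'}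
    {bad : ι → Prop} {K N ν1 ν2 : ℝ} (hK : 0 ≤ K)
    (hcc : ∀ x ∈ I, ∀ y ∈ I, c' x = c' y → c x = c y)
    (hcell : ∀ x0 ∈ I, (((I.filter fun x => c' x = c' x0 ∧ bad x).image obj).card : ℝ) ≤
      K * (((I.filter fun x => c x = c x0).image obj).card : ℝ))
    (hν2 : 0 ≤ ν2) (hν1 : 0 ≤ ν1)
    (hN : ∀ x ∈ I, (((I.filter fun y => c y = c x).image c').card : ℝ) ≤ N)
    (hup : ∀ x ∈ I, ((I.filter fun y => obj y = obj x ∧ c' y = c' x).card : ℝ) ≤ ν2)
    (hlo : ∀ x ∈ I, ν1 ≤ ((I.filter fun y => obj y = obj x ∧ c y = c x).card : ℝ)) :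
    ((I.filter bad).card : ℝ) * ν1 ≤ ν2 * N * K * I.card := by
  rcases I.eq_empty_or_nonempty with hE | ⟨x00, hx00⟩
  · rw [hE]; simp
  have hN0 : 0 ≤ N := le_trans (by positivity) (hN x00 hx00)
  -- number of lines alive in a big cell
  set s1 : κ → ℝ := fun k => (((I.filter fun x => c x = k).image obj).card : ℝ) with hs1
  -- big cell of a small cell
  let kk : κ' → κ := fun k' => if h : ∃ x ∈ I, c' x = k' then c h.choose else c x00
  have hkk : ∀ x ∈ I, kk (c' x) = c x := by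
    intro x hx
    have h : ∃ y ∈ I, c' y = c' x := ⟨x, hx, rfl⟩
    have h1 : kk (c' x) = c h.choose := dif_pos h
    obtain ⟨h2, h3⟩ := h.choose_spec
    rw [h1]
    exact hcc _ h2 _ hx h3
  -- step A
  have hA : ((I.filter bad).card : ℝ) ≤ ∑ k' ∈ I.image c', ν2 * (K * s1 (kk k')) := by
    have h1 : ((I.filter bad).card : ℝ) =
        ∑ k' ∈ I.image c', (((I.filter bad).filter fun x => c' x = k').card : ℝ) := by
      rw [← Nat.cast_sum]
      congr 1
      exact card_eq_sum_card_fiberwise fun x hx => by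
        rw [mem_coe, mem_filter] at hx
        exact mem_image_of_mem _ hx.1
    rw [h1]
    refine sum_le_sum fun k' hk' => ?_
    rw [mem_image] at hk'
    obtain ⟨x0, hx0, rfl⟩ := hk'
    rw [hkk x0 hx0]
    have h2 := hcell x0 hx0
    have h3 : (((I.filter bad).filter fun x => c' x = c' x0).card : ℝ) ≤
        ν2 * (((I.filter fun x => c' x = c' x0 ∧ bad x).image obj).card : ℝ) := by
      set A := (I.filter bad).filter fun x => c' x = c' x0 with hA
      have hAe : A = I.filter fun x => c' x = c' x0 ∧ bad x := by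
        ext x; simp only [hA, mem_filter]; tauto
      rw [← hAe]
      have h4 : (A.card : ℝ) = ∑ T ∈ A.image obj, ((A.filter fun x => obj x = T).card : ℝ) := by
        rw [← Nat.cast_sum]
        congr 1
        exact card_eq_sum_card_fiberwise fun x hx => mem_image_of_mem _ hx
      rw [h4]
      have h5 : ∀ T ∈ A.image obj, ((A.filter fun x => obj x = T).card : ℝ) ≤ ν2 := by
        intro T hT
        rw [mem_image] at hT
        obtain ⟨x, hx, rfl⟩ := hT
        rw [hAe, mem_filter] at hx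
        refine le_trans ?_ (hup x hx.1)
        norm_cast
        refine card_le_card ?_
        intro y hy
        rw [mem_filter, hAe, mem_filter] at hy
        rw [mem_filter]
        exact ⟨hy.1.1, hy.2, hy.1.2.1.trans hx.2.1.symm⟩
      calc ∑ T ∈ A.image obj, ((A.filter fun x => obj x = T).card : ℝ)
          ≤ ∑ T ∈ A.image obj, ν2 := sum_le_sum h5
        _ = ν2 * ((A.image obj).card : ℝ) := by rw [sum_const, nsmul_eq_mul]; ring
    exact h3.trans (mul_le_mul_of_nonneg_left h2 hν2)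
  -- step C
  have hC : ∑ k' ∈ I.image c', s1 (kk k') ≤ N * ∑ k ∈ I.image c, s1 k := by
    have h1 : ∑ k' ∈ I.image c', s1 (kk k') =
        ∑ k ∈ I.image c, ∑ k' ∈ (I.image c').filter (fun k' => kk k' = k), s1 (kk k') := by
      rw [Finset.sum_fiberwise_of_maps_to]
      intro k' hk'
      rw [mem_image] at hk'
      obtain ⟨x, hx, rfl⟩ := hk'
      rw [hkk x hx]
      exact mem_image_of_mem _ hx
    rw [h1, mul_sum]
    refine sum_le_sum fun k hk => ?_
    rw [mem_image] at hk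
    obtain ⟨x, hx, rfl⟩ := hk
    have h2 : ∑ k' ∈ (I.image c').filter (fun k' => kk k' = c x), s1 (kk k') =
        (((I.image c').filter (fun k' => kk k' = c x)).card : ℝ) * s1 (c x) := by
      rw [← nsmul_eq_mul, ← sum_const]
      refine sum_congr rfl fun k' hk' => ?_
      rw [(mem_filter.1 hk').2]
    rw [h2]
    refine mul_le_mul_of_nonneg_right ?_ (by rw [hs1]; positivity)
    refine le_trans ?_ (hN x hx)
    norm_cast
    refine card_le_card ?_
    intro k' hk'
    rw [mem_filter, mem_image] at hk'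
    obtain ⟨⟨y, hy, rfl⟩, h3⟩ := hk'
    rw [hkk y hy] at h3
    exact mem_image_of_mem _ (mem_filter.2 ⟨hy, h3⟩)
  -- step D
  have hD : ν1 * ∑ k ∈ I.image c, s1 k ≤ (I.card : ℝ) := by
    have h1 : (I.card : ℝ) = ∑ k ∈ I.image c, ((I.filter fun x => c x = k).card : ℝ) := by
      rw [← Nat.cast_sum]
      congr 1
      exact card_eq_sum_card_fiberwise fun x hx => mem_image_of_mem _ hx
    rw [h1, mul_sum]
    refine sum_le_sum fun k hk => ?_
    set A := I.filter fun x => c x = k with hA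
    have h4 : (A.card : ℝ) = ∑ T ∈ A.image obj, ((A.filter fun x => obj x = T).card : ℝ) := by
      rw [← Nat.cast_sum]
      congr 1
      exact card_eq_sum_card_fiberwise fun x hx => mem_image_of_mem _ hx
    rw [h4]
    have h5 : ∀ T ∈ A.image obj, ν1 ≤ ((A.filter fun x => obj x = T).card : ℝ) := by
      intro T hT
      rw [mem_image] at hT
      obtain ⟨x, hx, rfl⟩ := hT
      rw [hA, mem_filter] at hx
      refine (hlo x hx.1).trans ?_
      norm_cast
      refine card_le_card ?_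
      intro y hy
      rw [mem_filter] at hy
      rw [mem_filter, hA, mem_filter]
      exact ⟨⟨hy.1, hy.2.2.trans hx.2⟩, hy.2.1⟩
    calc ν1 * s1 k = ∑ T ∈ A.image obj, ν1 := by
          rw [sum_const, nsmul_eq_mul]; simp only [hs1]; ring
      _ ≤ _ := sum_le_sum h5
  calc ((I.filter bad).card : ℝ) * ν1
      ≤ (∑ k' ∈ I.image c', ν2 * (K * s1 (kk k'))) * ν1 := mul_le_mul_of_nonneg_right hA hν1
    _ = ν2 * K * (∑ k' ∈ I.image c', s1 (kk k')) * ν1 := by
        rw [mul_sum]; congr 1; refine sum_congr rfl fun _ _ => by ring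
    _ ≤ ν2 * K * (N * ∑ k ∈ I.image c, s1 k) * ν1 := by
        refine mul_le_mul_of_nonneg_right (mul_le_mul_of_nonneg_left hC ?_) hν1
        exact mul_nonneg hν2 hK
    _ = ν2 * N * K * (ν1 * ∑ k ∈ I.image c, s1 k) := by ring
    _ ≤ ν2 * N * K * I.card := by
        refine mul_le_mul_of_nonneg_left hD ?_
        positivity

/-! ### exponents -/

theorem le_dpow {B : Base} {n : ℕ} {y t : ℝ} (hy : 0 < y) (h : Real.log y / B.L n ≤ t) :
    y ≤ B.d n ^ (-t) := by
  have hL := B.L_pos n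
  rw [div_le_iff₀ hL] at h
  have h1 : B.d n ^ (-t) = Real.exp (t * B.L n) := by
    rw [Real.rpow_def_of_pos (B.pos n)]
    congr 1
    unfold Base.L; ring
  rw [h1, ← Real.exp_log hy]
  exact Real.exp_le_exp.2 h

theorem dpow_le {B : Base} {n : ℕ} {y t : ℝ} (hy : 0 < y) (h : t ≤ Real.log y / B.L n) :
    B.d n ^ (-t) ≤ y := by
  have hL := B.L_pos n
  rw [le_div_iff₀ hL] at h
  have h1 : B.d n ^ (-t) = Real.exp (t * B.L n) := by
    rw [Real.rpow_def_of_pos (B.pos n)]
    congr 1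
    unfold Base.L; ring
  calc B.d n ^ (-t) = Real.exp (t * B.L n) := h1
    _ ≤ Real.exp (Real.log y) := Real.exp_le_exp.2 h
    _ = y := Real.exp_log hy

theorem ev_const (B : Base) (C : ℝ) {η : ℝ} (hη : 0 < η) :
    ∀ᶠ n in (U : Filter ℕ), C ≤ B.d n ^ (-η) := by
  filter_upwards [B.ev_L_ge (C / η)] with n hn
  have h1 : B.d n ^ (-η) = Real.exp (η * B.L n) := by
    rw [Real.rpow_def_of_pos (B.pos n)]
    congr 1
    unfold Base.L; ring
  rw [h1]
  rw [div_le_iff₀ hη] at hn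
  have := Real.add_one_le_exp (η * B.L n)
  linarith [mul_comm η (B.L n)]

end

end Crest.Agent.R138.TiltU51
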