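import Mathlib
import Crest.Agent.R138.MkDef_163
import Crest.Agent.R138.MkRef_774
import Crest.Agent.R138.Ps1_926
import Crest.Agent.R138.NatTw_76
import Crest.Agent.R138.TiltU1_51

/-!
# R138, TEXT I, leaf L13 (helper76): the own rotation function of a family of flags

`exRot : ExRot ..` for all data: if outside a negligible set all flags of one line agree up to `sc`,
then a dense marked part has an own rotation function.

`Phi (u, r) J` = largest number of incidences of `J` on one line, in one cell of level `u`, whose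
flags agree with one of them up to `sc d^r`.  Stable dense part for all rational `(u, r)`;
`R x = sup {r : ∃ q ≤ x, Phi (q, r) is as large as the own count}`.
-/

set_option autoImplicit false
set_option linter.unusedVariables false
set_option linter.unusedSectionVars false

open Finset Filter Topology

namespace Crest.Agent.R138.Rot76

open Crest.Agent.R138.Ex926
open Crest.Agent.R138.Flag51 (Ln E2 cr dt InPlank)
open Crest.Agent.R138.Tilt51 (DMax Near abs_cr_triangle abs_cr_swap)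
open Crest.Agent.R138.Dp76
open Crest.Agent.R138.Ps926
open Crest.Agent.R138.Mk163
open Crest.Agent.R138.MkRef774 (pl nu refine_mk nu_pos)
open Crest.Agent.R138.NatTw76 (exists_avoid)
open Crest.Agent.R138.TiltU51 (zc_nest)

/-! ### diagonal over countably many hereditary conditions -/

/-- **Sequential refinement.** -/
theorem exists_seq_dense {B : Base} {I : ℕ → Finset (ℕ × ℝ)}
    (C : ℕ → ℕ → Finset (ℕ × ℝ) → Prop)
    (hered : ∀ j n K K', K' ⊆ K → C j n K → C j n K')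
    (step : ∀ (j : ℕ) (K : ℕ → Finset (ℕ × ℝ)), Dense B K I →
      ∃ K' : ℕ → Finset (ℕ × ℝ), Dense B K' K ∧ ∀ᶠ n in (U : Filter ℕ), C j n (K' n)) :
    ∃ J : ℕ → Finset (ℕ × ℝ), Dense B J I ∧ ∀ j, ∀ᶠ n in (U : Filter ℕ), C j n (J n) := by
  classical
  choose nx hnx1 hnx2 using step
  let S : ℕ → {K : ℕ → Finset (ℕ × ℝ) // Dense B K I} := fun j =>
    Nat.rec ⟨I, Dense.refl B I⟩ (fun j K => ⟨nx j K.1 K.2, (hnx1 j K.1 K.2).trans K.2⟩) j
  have hS1 : ∀ j, Dense B (S (j + 1)).1 (S j).1 := fun j => hnx1 j (S j).1 (S j).2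
  have hS2 : ∀ j, ∀ᶠ n in (U : Filter ℕ), C j n ((S (j + 1)).1 n) := fun j =>
    hnx2 j (S j).1 (S j).2
  have hP : ∀ k : ℕ, ∀ᶠ n in (U : Filter ℕ), ((S (k + 1)).1 n ⊆ (S k).1 n ∧
      C k n ((S (k + 1)).1 n)) ∧
      B.d n ^ (1 / ((k : ℝ) + 1)) * ((I n).card : ℝ) ≤ (((S (k + 1)).1 n).card : ℝ) := by
    intro k
    filter_upwards [(hS1 k).1, hS2 k, (S (k + 1)).2.2 (1 / ((k : ℝ) + 1)) (by positivity)]
      with n a b c using ⟨⟨a, b⟩, c⟩
  obtain ⟨k, hk1, hk2⟩ := exists_diag (fun k n => ((S (k + 1)).1 n ⊆ (S k).1 n ∧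
      C k n ((S (k + 1)).1 n)) ∧
      B.d n ^ (1 / ((k : ℝ) + 1)) * ((I n).card : ℝ) ≤ (((S (k + 1)).1 n).card : ℝ)) hP
  have hnest : ∀ᶠ n in (U : Filter ℕ), ∀ j ≤ k n + 1, (S (k n + 1)).1 n ⊆ (S j).1 n := by
    filter_upwards [hk2] with n hn
    have h1 : ∀ i, ∀ j, j + i = k n + 1 → (S (k n + 1)).1 n ⊆ (S j).1 n := by
      intro i
      induction i with
      | zero => intro j hj; rw [← hj]; exact Finset.Subset.refl _
      | succ i ih =>
        intro j hj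
        have h2 := ih (j + 1) (by omega)
        exact h2.trans (hn j (by omega)).1.1
    intro j hj
    exact h1 (k n + 1 - j) j (by omega)
  refine ⟨fun n => (S (k n + 1)).1 n, ⟨?_, ?_⟩, ?_⟩
  · filter_upwards [hnest] with n hn
    exact hn 0 (Nat.zero_le _)
  · intro η hη
    have h1 : Tendsto (fun n => 1 / ((k n : ℝ) + 1)) U (𝓝 0) :=
      tendsto_one_div_add_atTop_nhds_zero_nat.comp hk1
    filter_upwards [hk2, h1.eventually_lt_const hη] with n hn h2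
    refine le_trans ?_ (hn (k n) le_rfl).2
    exact mul_le_mul_of_nonneg_right (dpow_le B n h2.le) (Nat.cast_nonneg _)
  · intro j
    filter_upwards [hk2, hnest, hk1.eventually_ge_atTop j] with n hn h2 h3
    exact hered j n _ _ (h2 (j + 1) (by omega)) (hn j h3).1.2

section main

variable {B : Base} {I : ℕ → Finset (ℕ × ℝ)} {L : ℕ → ℕ → Ln} {lev : ℕ → ℚ → ℕ}
    {r0 A : ℕ → ℝ} {q g : ℝ} {Λ τ : ℝ → ℝ} {f : ℕ → ℚ → ℕ → ℤ → ℕ} {b : ℕ → ℚ → ℕ → Ln}
    {e : ℕ → ℚ → ℕ → E2} {w1 w2 : ℕ → ℚ → ℝ} {fl : ℕ → ℕ × ℝ → E2} {sc : ℕ → ℝ}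

theorem cr_self (x : E2) : cr x x = 0 := by simp only [cr]; ring

open Classical in
/-- incidences of `J` in the cell of `x` whose flags agree with the flag of `x` up to `sc d^r` -/
noncomputable def cnt (B : Base) (lev : ℕ → ℚ → ℕ) (fl : ℕ → ℕ × ℝ → E2) (sc : ℕ → ℝ) (u r : ℚ)
    (n : ℕ) (J : Finset (ℕ × ℝ)) (x : ℕ × ℝ) : ℕ :=
  ((cls J (pl (lev n u)) x).filter fun y =>
    |cr (fl n x) (fl n y)| ≤ sc n * B.d n ^ (r : ℝ)).card

/-- the largest such number -/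
noncomputable def Phi (B : Base) (lev : ℕ → ℚ → ℕ) (fl : ℕ → ℕ × ℝ → E2) (sc : ℕ → ℝ) (u r : ℚ)
    (n : ℕ) (J : Finset (ℕ × ℝ)) : ℝ := ((J.sup (cnt B lev fl sc u r n J) : ℕ) : ℝ)

theorem cnt_le_Phi {u r : ℚ} {n : ℕ} {J : Finset (ℕ × ℝ)} {x : ℕ × ℝ} (hx : x ∈ J) :
    (cnt B lev fl sc u r n J x : ℝ) ≤ Phi B lev fl sc u r n J := by
  unfold Phi
  exact_mod_cast Finset.le_sup (f := cnt B lev fl sc u r n J) hx

theorem Phi_le {u r : ℚ} {n : ℕ} {J : Finset (ℕ × ℝ)} {X : ℝ} (hX : 0 ≤ X)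
    (h : ∀ x ∈ J, (cnt B lev fl sc u r n J x : ℝ) ≤ X) : Phi B lev fl sc u r n J ≤ X := by
  unfold Phi
  rcases J.eq_empty_or_nonempty with h0 | h0
  · subst h0; simpa using hX
  · obtain ⟨x, hx, hx2⟩ := Finset.exists_mem_eq_sup J h0 (cnt B lev fl sc u r n J)
    rw [hx2]
    exact h x hx

theorem cnt_mono {u r : ℚ} {n : ℕ} {J J' : Finset (ℕ × ℝ)} (h : J ⊆ J') (x : ℕ × ℝ) :
    cnt B lev fl sc u r n J x ≤ cnt B lev fl sc u r n J' x := by
  classical
  unfold cnt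
  refine card_le_card fun y hy => ?_
  rw [mem_filter, mem_cls] at hy ⊢
  exact ⟨⟨h hy.1.1, hy.1.2⟩, hy.2⟩

theorem cnt_le_cls {u r : ℚ} {n : ℕ} {J : Finset (ℕ × ℝ)} (x : ℕ × ℝ) :
    cnt B lev fl sc u r n J x ≤ (cls J (pl (lev n u)) x).card := by
  classical
  unfold cnt
  exact card_le_card (filter_subset _ _)

theorem one_le_cnt {u r : ℚ} {n : ℕ} {J : Finset (ℕ × ℝ)} (hsc : ∀ n, 0 < sc n) {x : ℕ × ℝ}
    (hx : x ∈ J) : 1 ≤ cnt B lev fl sc u r n J x := by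
  classical
  unfold cnt
  refine card_pos.2 ⟨x, mem_filter.2 ⟨?_, ?_⟩⟩
  · rw [mem_cls]; exact ⟨hx, rfl⟩
  · rw [cr_self, abs_zero]
    exact (mul_pos (hsc n) (dpow_pos B n _)).le

theorem monoF_Phi (hM : Mk B I L lev r0 A q g Λ τ f b e w1 w2) (hsc : ∀ n, 0 < sc n) (u r : ℚ) :
    MonoF B I (fun n J => Phi B lev fl sc u r n J) := by
  classical
  refine ⟨Eventually.of_forall fun n J J' hJ h h2 => ?_, 2, ?_⟩
  · refine Phi_le ?_ fun x hx => ?_
    · unfold Phi; positivity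
    · refine le_trans ?_ (cnt_le_Phi (h hx))
      exact_mod_cast cnt_mono h x
  · filter_upwards [MkRef774.Mk.line_cell hM (v := 0) le_rfl (by norm_num) one_pos, hM.cell0]
      with n h1 h0 J hJ hJI
    constructor
    · obtain ⟨x, hx⟩ := hJ
      have a1 : (1 : ℝ) ≤ cnt B lev fl sc u r n J x := by exact_mod_cast one_le_cnt hsc hx
      exact (dpow_le_one B n (by norm_num)).trans (a1.trans (cnt_le_Phi hx))
    · refine Phi_le (dpow_pos B n _).le fun x hx => ?_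
      have a1 : (cnt B lev fl sc u r n J x : ℝ) ≤ ((cls (I n) (pl (lev n 0)) x).card : ℝ) := by
        have a2 : cnt B lev fl sc u r n J x ≤ (cls (I n) (pl (lev n 0)) x).card := by
          refine (cnt_le_cls x).trans (card_le_card fun y hy => ?_)
          rw [mem_cls] at hy ⊢
          refine ⟨hJI hy.1, Prod.ext (congrArg Prod.fst hy.2 : _) ?_⟩
          exact h0 y (hJI hy.1) x (hJI hx)
        exact_mod_cast a2
      refine a1.trans ((h1 x (hJI hx)).2.trans ?_)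
      unfold nu
      rw [← dpow_add]
      apply dpow_le B n
      have := (hM.lam 0 1 le_rfl zero_le_one le_rfl).1
      push_cast
      linarith

/-- exponent of the own count of level `u` -/
noncomputable def al (Λ : ℝ → ℝ) (u : ℚ) : ℝ := (1 - (u : ℝ)) - (Λ 1 - Λ u)

theorem nu_eq (n : ℕ) (u : ℚ) : nu B Λ n u = B.d n ^ (-(al Λ u)) := by
  unfold nu al; congr 1; ring

theorem pb_Phi (hM : Mk B I L lev r0 A q g Λ τ f b e w1 w2) (hsc : ∀ n, 0 < sc n) (u r : ℚ) :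
    B.PB (fun n => Phi B lev fl sc u r n (I n)) :=
  (monoF_Phi hM hsc u r).pb (Eventually.of_forall fun n => Finset.Subset.refl _) hM.ne

theorem ex_Phi_le (hM : Mk B I L lev r0 A q g Λ τ f b e w1 w2) (hsc : ∀ n, 0 < sc n) {u r : ℚ}
    (h0 : 0 ≤ u) (h1 : u ≤ 1) : B.ex (fun n => Phi B lev fl sc u r n (I n)) ≤ al Λ u := by
  refine le_of_forall_pos_le_add fun ε hε => ?_
  have h2 : B.ex (fun n => B.d n ^ (-(al Λ u + ε))) = al Λ u + ε := by
    rw [Base.ex_dpow]; ring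
  rw [← h2]
  refine Base.ex_le (pb_Phi hM hsc u r) (Base.PB.dpow _) ?_
  filter_upwards [MkRef774.Mk.line_cell hM h0 h1 hε] with n hn
  refine Phi_le (dpow_pos B n _).le fun x hx => ?_
  have a1 : (cnt B lev fl sc u r n (I n) x : ℝ) ≤ ((cls (I n) (pl (lev n u)) x).card : ℝ) := by
    exact_mod_cast cnt_le_cls x
  refine a1.trans ((hn x hx).2.trans ?_)
  rw [nu_eq, ← dpow_add]
  apply le_of_eq
  congr 1
  ring

theorem ex_Phi_zero (hM : Mk B I L lev r0 A q g Λ τ f b e w1 w2) (hsc : ∀ n, 0 < sc n)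
    (hline : ∀ᶠ n in (U : Filter ℕ), ∀ x ∈ I n, ∀ y ∈ I n, y.1 = x.1 →
      |cr (fl n x) (fl n y)| ≤ sc n) :
    B.ex (fun n => Phi B lev fl sc 0 0 n (I n)) = al Λ 0 := by
  classical
  refine le_antisymm (ex_Phi_le hM hsc le_rfl (by norm_num)) ?_
  refine le_of_forall_pos_le_add fun ε hε => ?_
  have h2 : B.ex (fun n => B.d n ^ (-(al Λ 0 - ε))) = al Λ 0 - ε := by
    rw [Base.ex_dpow]; ring
  have h3 : B.ex (fun n => B.d n ^ (-(al Λ 0 - ε))) ≤
      B.ex (fun n => Phi B lev fl sc 0 0 n (I n)) := by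
    refine Base.ex_le (Base.PB.dpow _) (pb_Phi hM hsc 0 0) ?_
    filter_upwards [MkRef774.Mk.line_cell hM (v := 0) le_rfl (by norm_num) hε, hline, hM.ne]
      with n hn hl hne
    obtain ⟨x, hx⟩ := hne
    refine le_trans ?_ (cnt_le_Phi hx)
    have a1 : cnt B lev fl sc 0 0 n (I n) x = (cls (I n) (pl (lev n 0)) x).card := by
      unfold cnt
      congr 1
      refine filter_true_of_mem fun y hy => ?_
      rw [mem_cls] at hy
      have := hl x hx y hy.1 (congrArg Prod.fst hy.2 : _)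
      simpa using this
    rw [a1]
    refine le_trans ?_ (hn x hx).1
    rw [nu_eq, ← dpow_add]
    apply le_of_eq
    congr 1
    ring
  linarith

/-- **selection of one flag cell per line and cell of level `u`.** -/
theorem good_step (hM : Mk B I L lev r0 A q g Λ τ f b e w1 w2) (hsc : ∀ n, 0 < sc n)
    (hfl : ∀ᶠ n in (U : Filter ℕ), ∀ x ∈ I n, dt (fl n x) (fl n x) = 1) {u r : ℚ}
    (h0 : 0 ≤ u) (h1 : u ≤ 1)
    (hst : StableF B (fun n J => Phi B lev fl sc u r n J) I)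
    (hφ : B.ex (fun n => Phi B lev fl sc u r n (I n)) = al Λ u)
    {K : ℕ → Finset (ℕ × ℝ)} (hK : Dense B K I) :
    ∃ K' : ℕ → Finset (ℕ × ℝ), Dense B K' K ∧ ∀ᶠ n in (U : Filter ℕ), ∀ x ∈ K' n, ∀ y ∈ K' n,
      pl (lev n u) y = pl (lev n u) x →
        |cr (fl n x) (fl n y)| ≤ 2 * (sc n * B.d n ^ (r : ℝ)) := by
  classical
  obtain ⟨K1, hK1d, hK1⟩ := refine_mk B I L lev r0 A q g Λ τ f b e w1 w2 hM K hK
  have hK1I : Dense B K1 I := hK1d.trans hK
  have hst1 : StableF B (fun n J => Phi B lev fl sc u r n J) K1 := hst.dense hK1I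
  have hφ1 : B.ex (fun n => Phi B lev fl sc u r n (K1 n)) = al Λ u := (hst K1 hK1I).trans hφ
  obtain ⟨mem, hmem⟩ : ∃ mem : ∀ n : ℕ, ℝ → ℕ × ℝ → ℕ × ℝ → Prop, ∀ n a s y, mem n a s y ↔
      (s ∈ I n ∧ |cr (fl n s) (fl n y)| ≤ sc n * B.d n ^ a) := ⟨_, fun _ _ _ _ => Iff.rfl⟩
  have hbad : ∀ c : ℝ, 0 < c → ∀ᶠ n in (U : Filter ℕ),
      B.d n ^ c * ((K1 n).card : ℝ) <
        ((bad B (fun n => pl (lev n u)) mem K1 (r : ℝ) c n).card : ℝ) := by
    intro c hc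
    set N : ℕ → Finset (ℕ × ℝ) := fun n => (K1 n).filter fun x =>
      (cnt B lev fl sc u r n (K1 n) x : ℝ) ≤ B.d n ^ c * ((cls (K1 n) (pl (lev n u)) x).card : ℝ)
      with hN
    have hnd : ¬ Dense B N K1 := by
      refine hst1.not_dense_of_le (monoF_Phi hK1 hsc u r) hK1.ne
        (X := fun n => B.d n ^ (-(al Λ u - c / 2))) (Base.PB.dpow _) ?_ ?_
      · rw [Base.ex_dpow, hφ1]; linarith
      · filter_upwards [MkRef774.Mk.line_cell hK1 h0 h1 (half_pos hc)] with n hn hne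
        refine Phi_le (dpow_pos B n _).le fun x hx => ?_
        obtain ⟨hx1, hx2⟩ := mem_filter.1 hx
        have a1 : (cnt B lev fl sc u r n (N n) x : ℝ) ≤ cnt B lev fl sc u r n (K1 n) x := by
          exact_mod_cast cnt_mono (filter_subset _ _) x
        refine a1.trans (hx2.trans ?_)
        have a2 := mul_le_mul_of_nonneg_left (hn x hx1).2 (dpow_pos B n c).le
        refine a2.trans ?_
        rw [nu_eq, ← dpow_add, ← dpow_add]
        apply le_of_eq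
        congr 1
        ring
    obtain ⟨c', hc', hsmall⟩ := small_of_not_dense
      (Eventually.of_forall fun n => filter_subset _ _) hnd
    filter_upwards [hsmall, dpow_small B hc' (ε := 1 / 2) (by norm_num),
      dpow_small B hc (ε := 1 / 2) (by norm_num), hK1I.1, hK1.ne] with n hs a1 a2 hsub hne
    have hpos : (0 : ℝ) < (K1 n).card := by exact_mod_cast card_pos.2 hne
    have a3 : ((N n).card : ℝ) < 1 / 2 * (K1 n).card :=
      hs.trans_le (mul_le_mul_of_nonneg_right a1.le hpos.le)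
    have a4 : ((K1 n \ N n).card : ℝ) = (K1 n).card - (N n).card := by
      rw [card_sdiff_of_subset (filter_subset _ _), Nat.cast_sub (card_le_card (filter_subset _ _))]
    have a5 : K1 n \ N n ⊆ bad B (fun n => pl (lev n u)) mem K1 (r : ℝ) c n := by
      intro x hx
      rw [Finset.mem_sdiff] at hx
      obtain ⟨hx1, hx2⟩ := hx
      have hx3 : B.d n ^ c * ((cls (K1 n) (pl (lev n u)) x).card : ℝ) <
          (cnt B lev fl sc u r n (K1 n) x : ℝ) := by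
        by_contra hcon
        exact hx2 (mem_filter.2 ⟨hx1, not_lt.1 hcon⟩)
      unfold bad
      rw [Finset.mem_filter]
      refine ⟨hx1, x, hx3.trans_le ?_⟩
      unfold cnt
      refine Nat.cast_le.2 (card_le_card fun y hy => ?_)
      rw [Finset.mem_filter] at hy ⊢
      exact ⟨hy.1, (hmem n _ x y).2 ⟨hsub hx1, hy.2⟩⟩
    have a6 : ((K1 n \ N n).card : ℝ) ≤
        ((bad B (fun n => pl (lev n u)) mem K1 (r : ℝ) c n).card : ℝ) := by
      exact_mod_cast card_le_card a5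
    have a7 : B.d n ^ c * ((K1 n).card : ℝ) ≤ 1 / 2 * (K1 n).card :=
      mul_le_mul_of_nonneg_right a2.le hpos.le
    linarith
  obtain ⟨K', hK'd, hK'⟩ := exists_of_bad (g := fun n => pl (lev n u)) (mem := mem) (J := K1)
    (a := (r : ℝ)) hbad
  refine ⟨K', hK'd.trans hK1d, ?_⟩
  filter_upwards [hK', hfl, (hK'd.trans hK1I).1] with n hn hu hsub x hx y hy hxy
  obtain ⟨s, hs⟩ := hn x hx
  have b1 := (hmem n _ s x).1 (hs x (mem_cls.2 ⟨hx, rfl⟩))
  have b2 := (hmem n _ s y).1 (hs y (mem_cls.2 ⟨hy, hxy⟩))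
  have b3 := abs_cr_triangle (hu x (hsub hx)) (hu s b1.1) (hu y (hsub hy))
  rw [abs_cr_swap (fl n s) (fl n x)] at b3
  have b4 : |cr (fl n s) (fl n x)| ≤ sc n * B.d n ^ (r : ℝ) := b1.2
  have b5 : |cr (fl n s) (fl n y)| ≤ sc n * B.d n ^ (r : ℝ) := b2.2
  linarith

end main

/-- **L13**: existence of the own rotation function, for all data. -/
theorem exRot (B : Base) (I : ℕ → Finset (ℕ × ℝ)) (L : ℕ → ℕ → Ln) (lev : ℕ → ℚ → ℕ)
    (r0 A : ℕ → ℝ) (q g : ℝ) (Λ τ : ℝ → ℝ) (f : ℕ → ℚ → ℕ → ℤ → ℕ) (b : ℕ → ℚ → ℕ → Ln)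
    (e : ℕ → ℚ → ℕ → E2) (w1 w2 : ℕ → ℚ → ℝ) (fl : ℕ → ℕ × ℝ → E2) (sc : ℕ → ℝ) (C0 : ℝ) :
    ExRot B I L lev r0 A q g Λ τ f b e w1 w2 fl sc C0 := by
  classical
  intro hM hsc hC0 hfl hneg
  -- one flag scale per line
  obtain ⟨J0, hJ0I, hJ0d, hJ0⟩ := exists_avoid (B := B) (I := I)
    (fun _ n x => ∃ y ∈ I n, y.1 = x.1 ∧ sc n < |cr (fl n x) (fl n y)|) (fun _ => hneg)
  obtain ⟨J1, hJ1d, hJ1⟩ := refine_mk B I L lev r0 A q g Λ τ f b e w1 w2 hM J0 hJ0d
  have hJ1I : Dense B J1 I := hJ1d.trans hJ0d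
  have hline1 : ∀ᶠ n in (U : Filter ℕ), ∀ x ∈ J1 n, ∀ y ∈ J1 n, y.1 = x.1 →
      |cr (fl n x) (fl n y)| ≤ sc n := by
    filter_upwards [hJ0 0, hJ1d.1, hJ1I.1] with n a1 a2 a3 x hx y hy hxy
    by_contra hcon
    exact a1 x (a2 hx) ⟨y, a3 hy, hxy, not_le.1 hcon⟩
  -- stable part
  obtain ⟨en, hen⟩ := exists_surjective_nat (ℚ × ℚ)
  obtain ⟨J2, hJ2d, hJ2s⟩ := exists_stableF (B := B) hJ1.ne
    (fun j n J => Phi B lev fl sc (en j).1 (en j).2 n J)
    (fun j => monoF_Phi hJ1 hsc (en j).1 (en j).2)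
  obtain ⟨X, hXd, hX⟩ := refine_mk B J1 L lev r0 A q g Λ τ f b e w1 w2 hJ1 J2 hJ2d
  have hXJ1 : Dense B X J1 := hXd.trans hJ2d
  have hXI : Dense B X I := hXJ1.trans hJ1I
  have hst : ∀ u r : ℚ, StableF B (fun n J => Phi B lev fl sc u r n J) X := by
    intro u r
    obtain ⟨j, hj⟩ := hen (u, r)
    have h1 := hJ2s j
    rw [hj] at h1
    exact h1.dense hXd
  have hlineX : ∀ᶠ n in (U : Filter ℕ), ∀ x ∈ X n, ∀ y ∈ X n, y.1 = x.1 →
      |cr (fl n x) (fl n y)| ≤ sc n := by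
    filter_upwards [hline1, hXJ1.1] with n a1 a2 x hx y hy hxy using a1 x (a2 hx) y (a2 hy) hxy
  have hflX : ∀ᶠ n in (U : Filter ℕ), ∀ x ∈ X n, dt (fl n x) (fl n x) = 1 := by
    filter_upwards [hXI.1] with n a1 x hx using hfl n x (a1 hx)
  set φ : ℚ → ℚ → ℝ := fun u r => B.ex (fun n => Phi B lev fl sc u r n (X n)) with hφ
  -- all good pairs at once
  obtain ⟨J3, hJ3d, hJ3⟩ := exists_seq_dense (B := B) (I := X)
    (fun j n K => (0 ≤ (en j).1 ∧ (en j).1 ≤ 1 ∧ φ (en j).1 (en j).2 = al Λ (en j).1) →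
      ∀ x ∈ K, ∀ y ∈ K, pl (lev n (en j).1) y = pl (lev n (en j).1) x →
        |cr (fl n x) (fl n y)| ≤ 2 * (sc n * B.d n ^ (((en j).2 : ℚ) : ℝ)))
    (fun j n K K' hKK h hg x hx y hy hxy => h hg x (hKK hx) y (hKK hy) hxy)
    (by
      intro j K hK
      by_cases hg : 0 ≤ (en j).1 ∧ (en j).1 ≤ 1 ∧ φ (en j).1 (en j).2 = al Λ (en j).1
      · obtain ⟨K', h1, h2⟩ := good_step hX hsc hflX hg.1 hg.2.1 (hst _ _) hg.2.2 hK
        exact ⟨K', h1, by filter_upwards [h2] with n hn _ using hn⟩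
      · exact ⟨K, Dense.refl B K, Eventually.of_forall fun n h => absurd h hg⟩)
  obtain ⟨J, hJd, hJ⟩ := refine_mk B X L lev r0 A q g Λ τ f b e w1 w2 hX J3 hJ3d
  have hJX : Dense B J X := hJd.trans hJ3d
  -- the rotation function
  set S : ℝ → Set ℝ := fun x => {y : ℝ | ∃ p r : ℚ, 0 ≤ p ∧ (p : ℝ) ≤ x ∧ p ≤ 1 ∧ 0 ≤ r ∧
    (r : ℝ) ≤ C0 ∧ φ p r = al Λ p ∧ y = (r : ℝ)} with hS
  have hSb : ∀ x, BddAbove (S x) := fun x => ⟨C0, by
    rintro y ⟨p, r, -, -, -, -, hr, -, rfl⟩; exact hr⟩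
  have hS0 : ∀ x : ℝ, 0 ≤ x → (0 : ℝ) ∈ S x := by
    intro x hx
    refine ⟨0, 0, le_rfl, by simpa using hx, by norm_num, le_rfl, by simpa using hC0, ?_, by simp⟩
    exact ex_Phi_zero hX hsc hlineX
  refine ⟨J, fun x => sSup (S x), hJX.trans hXI, hJ, ⟨hsc, ?_, ?_, ?_, ?_⟩⟩
  · intro u h0 h1
    exact ⟨le_csSup (hSb u) (hS0 u h0), csSup_le ⟨0, hS0 u h0⟩ (by
      rintro y ⟨p, r, -, -, -, -, hr, -, rfl⟩; exact hr)⟩
  · intro x hx y hy hxy
    refine csSup_le_csSup (hSb y) ⟨0, hS0 x hx.1⟩ ?_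
    rintro z ⟨p, r, h1, h2, h3⟩
    exact ⟨p, r, h1, h2.trans hxy, h3⟩
  · intro u h0 h1 ε hε
    obtain ⟨y, hy, hy2⟩ := exists_lt_of_lt_csSup ⟨0, hS0 u (by exact_mod_cast h0)⟩
      (show sSup (S u) - ε / 2 < sSup (S u) by linarith)
    obtain ⟨p, r, hp0, hpu, hp1, hr0, hrC, hgood, rfl⟩ := hy
    obtain ⟨j, hj⟩ := hen (p, r)
    have h3 := hJ3 j
    rw [hj] at h3
    have hpu' : p ≤ u := by exact_mod_cast hpu
    filter_upwards [h3, hJd.1, hX.lev_mono p u hp0 hpu' h1,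
      dpow_small B (half_pos hε) (ε := 1 / 2) (by norm_num)] with n a1 a2 a3 a4 x hx z hz hzx hzc
    have b1 := a1 ⟨hp0, hp1, hgood⟩ x (a2 hx) z (a2 hz) (Prod.ext hzx (zc_nest a3 hzc))
    refine b1.trans ?_
    have b2 : B.d n ^ (r : ℝ) ≤ B.d n ^ (ε / 2) * B.d n ^ (sSup (S u) - ε) := by
      rw [← dpow_add]
      apply dpow_le B n
      linarith
    have b3 := dpow_pos B n (sSup (S u) - ε)
    have b4 : B.d n ^ (ε / 2) * B.d n ^ (sSup (S u) - ε) ≤ 1 / 2 * B.d n ^ (sSup (S u) - ε) :=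
      mul_le_mul_of_nonneg_right a4.le b3.le
    have b5 := mul_le_mul_of_nonneg_left (b2.trans b4) (hsc n).le
    linarith
  · intro u h0 h1 r hr hrC
    obtain ⟨r', hr1, hr2⟩ := exists_rat_btwn hr
    have hu0 : (0 : ℝ) ≤ u := by exact_mod_cast h0
    have hR0 : 0 ≤ sSup (S u) := le_csSup (hSb u) (hS0 u hu0)
    have hne : φ u r' ≠ al Λ u := by
      intro hcon
      have : (r' : ℝ) ∈ S u := by
        refine ⟨u, r', h0, le_rfl, h1.le, ?_, (hr2.le).trans hrC, hcon, rfl⟩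
        have h2 : (0 : ℝ) < (r' : ℝ) := lt_of_le_of_lt hR0 hr1
        exact_mod_cast h2.le
      exact absurd (le_csSup (hSb u) this) (not_le.2 hr1)
    have hlt : φ u r' < al Λ u :=
      lt_of_le_of_ne (ex_Phi_le hX hsc h0 h1.le) hne
    set γ : ℝ := (al Λ u - φ u r') / 4 with hγ
    have hγ0 : 0 < γ := by rw [hγ]; linarith
    refine ⟨γ, hγ0, ?_⟩
    have h5 : ∀ᶠ n in (U : Filter ℕ), Phi B lev fl sc u r' n (X n) < B.d n ^ (-(φ u r' + γ)) :=
      Base.ex_lt_iff_dpow (pb_Phi hX hsc u r') (by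
        show B.ex (fun n => Phi B lev fl sc u r' n (X n)) < φ u r' + γ
        have : B.ex (fun n => Phi B lev fl sc u r' n (X n)) = φ u r' := rfl
        rw [this]; linarith)
    filter_upwards [h5, hJX.1, hJ.own u 1 h0 h1.le le_rfl γ hγ0] with n a1 a2 a3 x hx
    have b1 : ((((J n).filter fun y => y.1 = x.1 ∧ zc (lev n u) y.2 = zc (lev n u) x.2 ∧
          |cr (fl n x) (fl n y)| ≤ sc n * B.d n ^ r).card : ℕ) : ℝ) ≤
        (cnt B lev fl sc u r' n (X n) x : ℝ) := by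
      have : ((J n).filter fun y => y.1 = x.1 ∧ zc (lev n u) y.2 = zc (lev n u) x.2 ∧
          |cr (fl n x) (fl n y)| ≤ sc n * B.d n ^ r) ⊆
          (cls (X n) (pl (lev n u)) x).filter fun y =>
            |cr (fl n x) (fl n y)| ≤ sc n * B.d n ^ (r' : ℝ) := by
        intro y hy
        obtain ⟨hy1, hy2, hy3, hy4⟩ := mem_filter.1 hy
        refine mem_filter.2 ⟨mem_cls.2 ⟨a2 hy1, Prod.ext hy2 hy3⟩, hy4.trans ?_⟩
        exact mul_le_mul_of_nonneg_left (dpow_le B n hr2.le) (hsc n).le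
      unfold cnt
      exact_mod_cast card_le_card this
    have b2 := (b1.trans (cnt_le_Phi (a2 hx))).trans a1.le
    have b3 := (a3 x hx).1
    refine b2.trans ?_
    have b4 := mul_le_mul_of_nonneg_left b3 (dpow_pos B n γ).le
    refine le_trans ?_ b4
    rw [← dpow_add]
    apply dpow_le B n
    have e1 : al Λ u = (1 - (u : ℝ)) - (Λ 1 - Λ u) := rfl
    push_cast
    linarith

end Crest.Agent.R138.Rot76
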