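import Mathlib
import Crest.Agent.R138.MkDef_163

/-!
# R138, TEXT I, leaf L9b: the point of the zoom (helper627)

* `exists_affine` : rational affine zoom levels `m k x = u_k + h_k x` at a point `v0 ∈ (0,1)`; all
  difference quotients of a function differentiable at `v0` converge.
* `ae_diff`       : monotone on `[0,1]` ⇒ differentiable a.e. in `(0,1)`.
* `exists_ext`    : antitone extension of a function seen at the rationals of `[0,1]`.
* `exists_point`, `exists_point₂` : a common differentiability point of `Λ`, `τ` (and `R`).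
* `Mk.congr_tau`  : a marked sequence sees `τ` at rationals only.
* `mk_linear`     : zoom to linear `Λ`, `τ` (J1 of doc 1983).
-/

set_option autoImplicit false
set_option linter.unusedVariables false

open Finset Filter Topology Set MeasureTheory

namespace Crest.Agent.R138.MkPoint627

open Crest.Agent.R138.Ex926 (Base U)
open Crest.Agent.R138.Mk163
open Crest.Agent.R138.Flag51 (Ln E2 cr dt InPlank)

/-- **(a) rational affine zoom levels.** -/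
theorem exists_affine {v0 : ℝ} (h0 : 0 < v0) (h1 : v0 < 1) :
    ∃ (h : ℕ → ℝ) (m : ℕ → ℚ → ℚ), (∀ k, 0 < h k) ∧ (∀ k, h k ≤ 1) ∧ Tendsto h atTop (𝓝 0) ∧
      (∀ k, ∀ x : ℚ, 0 ≤ x → x ≤ 1 → 0 ≤ m k x ∧ m k x ≤ 1) ∧
      (∀ k, ∀ x y : ℚ, x ≤ y → m k x ≤ m k y) ∧
      (∀ k, ∀ x y : ℚ, ((m k y : ℝ) - m k x) / h k = (y : ℝ) - x) ∧
      (∀ x : ℚ, Tendsto (fun k => ((m k x : ℚ) : ℝ)) atTop (𝓝 v0)) ∧
      ∀ (F : ℝ → ℝ) (F' : ℝ), HasDerivAt F F' v0 → ∀ x y : ℚ,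
        Tendsto (fun k => (F (m k y) - F (m k x)) / h k) atTop (𝓝 (F' * ((y : ℝ) - x))) := by
  obtain ⟨K, hK⟩ := exists_nat_gt (max (1 / v0) (2 / (1 - v0)))
  have hK1 : 1 / v0 < K := (le_max_left _ _).trans_lt hK
  have hK2 : 2 / (1 - v0) < K := (le_max_right _ _).trans_lt hK
  have hv1 : 0 < 1 - v0 := by linarith
  have hKpos : (0 : ℝ) < K := lt_trans (by positivity) hK1
  have hKnat : 0 < K := by exact_mod_cast hKpos
  set hq : ℕ → ℚ := fun k => 1 / ((k : ℚ) + K) with hhq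
  set h : ℕ → ℝ := fun k => 1 / ((k : ℝ) + K) with hh
  have hcast : ∀ k, ((hq k : ℚ) : ℝ) = h k := by
    intro k; simp only [hhq, hh]; push_cast; rfl
  have hpos : ∀ k, 0 < h k := fun k => by simp only [hh]; positivity
  have hle : ∀ k, h k ≤ 1 / K := by
    intro k
    simp only [hh]
    exact one_div_le_one_div_of_le hKpos (by
      have : (0 : ℝ) ≤ k := Nat.cast_nonneg k
      linarith)
  have hK1' : (1 : ℝ) ≤ K := by exact_mod_cast hKnat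
  have hle1 : ∀ k, h k ≤ 1 := fun k => (hle k).trans (by
    rw [div_le_one hKpos]; exact hK1')
  have hlev : ∀ k, h k ≤ v0 := fun k => (hle k).trans (by
    rw [div_le_iff₀ hKpos]
    rw [div_lt_iff₀ h0] at hK1
    linarith)
  have hlev2 : ∀ k, 2 * h k ≤ 1 - v0 := fun k => by
    have h2 : 2 * (1 / (K : ℝ)) ≤ 1 - v0 := by
      rw [mul_one_div, div_le_iff₀ hKpos]
      rw [div_lt_iff₀ hv1] at hK2
      linarith
    have := hle k
    linarith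
  have hsq : ∀ k, h k ^ 2 ≤ h k := fun k => by
    have := hpos k; have := hle1 k; nlinarith
  have hu : ∀ k, ∃ u : ℚ, v0 - h k ^ 2 < u ∧ (u : ℝ) < v0 + h k ^ 2 := fun k =>
    exists_rat_btwn (by have := pow_pos (hpos k) 2; linarith)
  choose u hu1 hu2 using hu
  have htend : Tendsto h atTop (𝓝 0) := by
    have h2 : Tendsto (fun k : ℕ => (k : ℝ) + K) atTop atTop :=
      tendsto_atTop_add_const_right _ _ tendsto_natCast_atTop_atTop
    have := h2.inv_tendsto_atTop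
    refine this.congr fun k => ?_
    simp only [hh, Pi.inv_apply, one_div]
  have hmcast : ∀ (k : ℕ) (x : ℚ), ((u k + hq k * x : ℚ) : ℝ) = (u k : ℝ) + h k * x := by
    intro k x; push_cast; rw [hcast]
  have hmabs : ∀ (k : ℕ) (x : ℚ), |((u k + hq k * x : ℚ) : ℝ) - v0| ≤ (1 + |(x : ℝ)|) * h k := by
    intro k x
    rw [hmcast]
    have h3 : |(u k : ℝ) - v0| ≤ h k ^ 2 := by
      rw [abs_le]; constructor <;> linarith [hu1 k, hu2 k]
    have h4 : (u k : ℝ) + h k * x - v0 = ((u k : ℝ) - v0) + h k * x := by ring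
    rw [h4]
    refine (abs_add_le _ _).trans ?_
    rw [abs_mul, abs_of_pos (hpos k)]
    have := hsq k
    nlinarith
  have hmlim : ∀ x : ℚ, Tendsto (fun k => ((u k + hq k * x : ℚ) : ℝ)) atTop (𝓝 v0) := by
    intro x
    rw [tendsto_iff_norm_sub_tendsto_zero]
    refine squeeze_zero (fun k => norm_nonneg _) (fun k => ?_) ((htend.const_mul (1 + |(x : ℝ)|)).trans
      (by rw [mul_zero]))
    rw [Real.norm_eq_abs]
    exact hmabs k x
  refine ⟨h, fun k x => u k + hq k * x, hpos, hle1, htend, ?_, ?_, ?_, hmlim, ?_⟩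
  · intro k x hx0 hx1
    have hx0' : (0 : ℝ) ≤ x := by exact_mod_cast hx0
    have hx1' : (x : ℝ) ≤ 1 := by exact_mod_cast hx1
    have e := hmcast k x
    have := hpos k
    have := hsq k
    have := hlev k
    have := hlev2 k
    have := hu1 k
    have := hu2 k
    constructor
    · have : (0 : ℝ) ≤ ((u k + hq k * x : ℚ) : ℝ) := by rw [e]; nlinarith
      exact_mod_cast this
    · have : ((u k + hq k * x : ℚ) : ℝ) ≤ 1 := by rw [e]; nlinarith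
      exact_mod_cast this
  · intro k x y hxy
    have hq0 : 0 ≤ hq k := by simp only [hhq]; positivity
    have := mul_le_mul_of_nonneg_left hxy hq0
    linarith
  · intro k x y
    rw [hmcast, hmcast, div_eq_iff (hpos k).ne']
    ring
  · intro F F' hF x y
    have key : ∀ x : ℚ, Tendsto (fun k => (F ((u k + hq k * x : ℚ) : ℝ) - F v0 -
        (((u k + hq k * x : ℚ) : ℝ) - v0) * F') / h k) atTop (𝓝 0) := by
      intro x
      have h5 := hF.isLittleO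
      have h6 := h5.comp_tendsto (hmlim x)
      have h7 : (fun k => ((u k + hq k * x : ℚ) : ℝ) - v0) =O[atTop] h := by
        refine Asymptotics.IsBigO.of_bound (1 + |(x : ℝ)|) (Eventually.of_forall fun k => ?_)
        rw [Real.norm_eq_abs, Real.norm_eq_abs, abs_of_pos (hpos k)]
        exact hmabs k x
      have h8 := h6.trans_isBigO h7
      have h9 := h8.tendsto_div_nhds_zero
      refine h9.congr fun k => ?_
      simp only [Function.comp_apply, smul_eq_mul]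
    have h10 := (key y).sub (key x)
    rw [sub_zero] at h10
    have h11 : Tendsto (fun k => F' * (((y : ℝ)) - x) + ((F ((u k + hq k * y : ℚ) : ℝ) - F v0 -
        (((u k + hq k * y : ℚ) : ℝ) - v0) * F') / h k - (F ((u k + hq k * x : ℚ) : ℝ) - F v0 -
        (((u k + hq k * x : ℚ) : ℝ) - v0) * F') / h k)) atTop (𝓝 (F' * ((y : ℝ) - x) + 0)) :=
      h10.const_add _
    rw [add_zero] at h11
    refine h11.congr fun k => ?_
    rw [hmcast, hmcast]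
    field_simp [(hpos k).ne']
    ring

/-- monotone on `[0,1]` ⇒ differentiable a.e. in `(0,1)`. -/
theorem ae_diff {R : ℝ → ℝ} (hR : MonotoneOn R (Icc 0 1)) :
    ∀ᵐ v : ℝ, v ∈ Ioo (0 : ℝ) 1 → DifferentiableAt ℝ R v := by
  have h := hR.ae_differentiableWithinAt_of_mem
  filter_upwards [h] with v hv hv2
  exact (hv (Ioo_subset_Icc_self hv2)).differentiableAt (Icc_mem_nhds hv2.1 hv2.2)

theorem ae_diff_anti {R : ℝ → ℝ} (hR : AntitoneOn R (Icc 0 1)) :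
    ∀ᵐ v : ℝ, v ∈ Ioo (0 : ℝ) 1 → DifferentiableAt ℝ R v := by
  filter_upwards [ae_diff (R := fun v => - R v) (fun a ha b hb hab => neg_le_neg (hR ha hb hab))]
    with v hv hv2
  simpa using (hv hv2).neg

/-- a point of `(0,1)` outside a null set. -/
theorem exists_of_ae {P : ℝ → Prop} (h : ∀ᵐ v : ℝ, v ∈ Ioo (0 : ℝ) 1 → P v) :
    ∃ v ∈ Ioo (0 : ℝ) 1, P v := by
  by_contra hcon
  push Not at hcon
  have h1 : ∀ᵐ v : ℝ, v ∉ Ioo (0 : ℝ) 1 := by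
    filter_upwards [h] with v hv hv2
    exact hcon v hv2 (hv hv2)
  have h2 : volume (Ioo (0 : ℝ) 1) = 0 := by
    have h3 := ae_iff.1 h1
    simpa only [not_not, ofPred_mem_eq] using h3
  rw [Real.volume_Ioo] at h2
  simp at h2

/-- **antitone extension** of a function seen at the rationals of `[0,1]`. -/
theorem exists_ext {τ : ℝ → ℝ} (h : ∀ u v : ℚ, 0 ≤ u → u ≤ v → v ≤ 1 → τ v ≤ τ u) :
    ∃ τ' : ℝ → ℝ, (∀ v : ℚ, 0 ≤ v → v ≤ 1 → τ' v = τ v) ∧ AntitoneOn τ' (Icc 0 1) := by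
  set S : ℝ → Set ℝ := fun v => {t | ∃ u : ℚ, 0 ≤ u ∧ u ≤ 1 ∧ (u : ℝ) ≤ v ∧ t = τ u} with hS
  have hbd : ∀ v, BddBelow (S v) := fun v => by
    refine ⟨τ ((1 : ℚ) : ℝ), ?_⟩
    rintro t ⟨u, hu0, hu1, -, rfl⟩
    exact h u 1 hu0 hu1 le_rfl
  refine ⟨fun v => sInf (S v), fun v hv0 hv1 => ?_, fun a ha b hb hab => ?_⟩
  · refine le_antisymm (csInf_le (hbd _) ⟨v, hv0, hv1, le_rfl, rfl⟩) ?_
    refine le_csInf ⟨τ v, v, hv0, hv1, le_rfl, rfl⟩ ?_
    rintro t ⟨u, hu0, hu1, huv, rfl⟩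
    exact h u v hu0 (by exact_mod_cast huv) hv1
  · refine csInf_le_csInf (hbd _) ⟨τ ((0 : ℚ) : ℝ), 0, le_rfl, zero_le_one, by simpa using ha.1, rfl⟩
      ?_
    rintro t ⟨u, hu0, hu1, hua, rfl⟩
    exact ⟨u, hu0, hu1, hua.trans hab, rfl⟩

/-- derivative bounds from rational difference quotients. -/
theorem deriv_bounds {F : ℝ → ℝ} {F' v0 c C : ℝ} (h0 : 0 < v0) (h1 : v0 < 1)
    (hF : HasDerivAt F F' v0)
    (h : ∀ u v : ℚ, 0 ≤ u → u ≤ v → v ≤ 1 → c * ((v : ℝ) - u) ≤ F v - F u ∧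
      F v - F u ≤ C * ((v : ℝ) - u)) : c ≤ F' ∧ F' ≤ C := by
  obtain ⟨η, m, hη, -, -, hm, hmono, hq, -, hlim⟩ := exists_affine h0 h1
  have h2 := hlim F F' hF 0 1
  have e : F' * (((1 : ℚ) : ℝ) - ((0 : ℚ) : ℝ)) = F' := by push_cast; ring
  rw [e] at h2
  have h3 : ∀ k, c ≤ (F (m k 1) - F (m k 0)) / η k ∧ (F (m k 1) - F (m k 0)) / η k ≤ C := by
    intro k
    obtain ⟨a, b⟩ := h (m k 0) (m k 1) (hm k 0 le_rfl zero_le_one).1 (hmono k 0 1 zero_le_one)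
      (hm k 1 zero_le_one le_rfl).2
    have h4 := hq k 0 1
    rw [div_eq_iff (hη k).ne'] at h4
    push_cast at h4
    rw [h4] at a b
    constructor
    · rw [le_div_iff₀ (hη k)]; linarith
    · rw [div_le_iff₀ (hη k)]; linarith
  exact ⟨ge_of_tendsto' h2 fun k => (h3 k).1, le_of_tendsto' h2 fun k => (h3 k).2⟩

/-- **(b) a common differentiability point** (with a third function `R`, monotone on `[0,1]`). -/
theorem exists_point₂ {Λ τ R : ℝ → ℝ} {κ : ℝ} (hκ : 0 < κ)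
    (lam : ∀ u v : ℝ, 0 ≤ u → u ≤ v → v ≤ 1 → 0 ≤ Λ v - Λ u ∧ Λ v - Λ u ≤ v - u)
    (hτ : ∀ u v : ℚ, 0 ≤ u → u ≤ v → v ≤ 1 → κ * ((v : ℝ) - u) ≤ τ u - τ v)
    (hR : MonotoneOn R (Icc 0 1)) :
    ∃ τ' : ℝ → ℝ, (∀ v : ℚ, 0 ≤ v → v ≤ 1 → τ' v = τ v) ∧ AntitoneOn τ' (Icc 0 1) ∧
      ∃ v0 ∈ Ioo (0 : ℝ) 1, ∃ s θ ρ : ℝ, 0 ≤ s ∧ s ≤ 1 ∧ κ ≤ θ ∧ 0 ≤ ρ ∧ HasDerivAt Λ s v0 ∧
        HasDerivAt τ' (-θ) v0 ∧ HasDerivAt R ρ v0 := by
  have hanti : ∀ u v : ℚ, 0 ≤ u → u ≤ v → v ≤ 1 → τ v ≤ τ u := by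
    intro u v hu huv hv
    have h1 := hτ u v hu huv hv
    have h2 : (u : ℝ) ≤ v := by exact_mod_cast huv
    nlinarith
  obtain ⟨τ', hτ', hA⟩ := exists_ext hanti
  have hΛ : MonotoneOn Λ (Icc 0 1) := fun a ha b hb hab => by
    have := (lam a b ha.1 hab hb.2).1
    linarith
  have hae : ∀ᵐ v : ℝ, v ∈ Ioo (0 : ℝ) 1 →
      (DifferentiableAt ℝ Λ v ∧ DifferentiableAt ℝ τ' v ∧ DifferentiableAt ℝ R v) := by
    filter_upwards [ae_diff hΛ, ae_diff_anti hA, ae_diff hR] with v a b c hv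
    exact ⟨a hv, b hv, c hv⟩
  obtain ⟨v0, hv0, d1, d2, d3⟩ := exists_of_ae hae
  have e1 : 0 ≤ deriv Λ v0 ∧ deriv Λ v0 ≤ 1 := by
    refine deriv_bounds hv0.1 hv0.2 d1.hasDerivAt fun u v hu huv hv => ?_
    have hu' : (0 : ℝ) ≤ u := by exact_mod_cast hu
    have huv' : (u : ℝ) ≤ v := by exact_mod_cast huv
    have hv' : (v : ℝ) ≤ 1 := by exact_mod_cast hv
    have := lam u v hu' huv' hv'
    constructor <;> linarith [this.1, this.2]
  have e2 : κ ≤ - deriv τ' v0 := by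
    obtain ⟨η, m, hη, -, -, hm, hmono, hq, -, hlim⟩ := exists_affine hv0.1 hv0.2
    have h2 := hlim τ' _ d2.hasDerivAt 0 1
    have e : deriv τ' v0 * (((1 : ℚ) : ℝ) - ((0 : ℚ) : ℝ)) = deriv τ' v0 := by push_cast; ring
    rw [e] at h2
    have h3 : ∀ k, (τ' (m k 1) - τ' (m k 0)) / η k ≤ -κ := by
      intro k
      have m0 := hm k 0 le_rfl zero_le_one
      have m1 := hm k 1 zero_le_one le_rfl
      have a := hτ (m k 0) (m k 1) m0.1 (hmono k 0 1 zero_le_one) m1.2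
      have h4 := hq k 0 1
      rw [div_eq_iff (hη k).ne'] at h4
      push_cast at h4
      rw [hτ' _ m1.1 m1.2, hτ' _ m0.1 m0.2, div_le_iff₀ (hη k)]
      rw [h4] at a
      linarith
    have := le_of_tendsto' h2 h3
    linarith
  have e3 : 0 ≤ deriv R v0 := by
    obtain ⟨η, m, hη, -, -, hm, hmono, hq, -, hlim⟩ := exists_affine hv0.1 hv0.2
    have h2 := hlim R _ d3.hasDerivAt 0 1
    have e : deriv R v0 * (((1 : ℚ) : ℝ) - ((0 : ℚ) : ℝ)) = deriv R v0 := by push_cast; ring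
    rw [e] at h2
    refine ge_of_tendsto' h2 fun k => ?_
    have m0 := hm k 0 le_rfl zero_le_one
    have m1 := hm k 1 zero_le_one le_rfl
    refine div_nonneg (sub_nonneg.2 (hR ⟨?_, ?_⟩ ⟨?_, ?_⟩ ?_)) (hη k).le
    · exact_mod_cast m0.1
    · exact_mod_cast m0.2
    · exact_mod_cast m1.1
    · exact_mod_cast m1.2
    · exact_mod_cast hmono k 0 1 zero_le_one
  refine ⟨τ', hτ', hA, v0, hv0, deriv Λ v0, - deriv τ' v0, deriv R v0, e1.1, e1.2, e2, e3,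
    d1.hasDerivAt, ?_, d3.hasDerivAt⟩
  rw [neg_neg]
  exact d2.hasDerivAt

/-- **(b)** without the third function. -/
theorem exists_point {Λ τ : ℝ → ℝ} {κ : ℝ} (hκ : 0 < κ)
    (lam : ∀ u v : ℝ, 0 ≤ u → u ≤ v → v ≤ 1 → 0 ≤ Λ v - Λ u ∧ Λ v - Λ u ≤ v - u)
    (hτ : ∀ u v : ℚ, 0 ≤ u → u ≤ v → v ≤ 1 → κ * ((v : ℝ) - u) ≤ τ u - τ v) :
    ∃ τ' : ℝ → ℝ, (∀ v : ℚ, 0 ≤ v → v ≤ 1 → τ' v = τ v) ∧
      ∃ v0 ∈ Ioo (0 : ℝ) 1, ∃ s θ : ℝ, 0 ≤ s ∧ s ≤ 1 ∧ κ ≤ θ ∧ HasDerivAt Λ s v0 ∧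
        HasDerivAt τ' (-θ) v0 := by
  obtain ⟨τ', h1, -, v0, hv0, s, θ, ρ, a, b, c, -, d, e, -⟩ := exists_point₂ (R := fun _ => 0) hκ lam hτ
    (fun _ _ _ _ _ => le_rfl)
  exact ⟨τ', h1, v0, hv0, s, θ, a, b, c, d, e⟩

section

variable {B : Base} {I : ℕ → Finset (ℕ × ℝ)} {L : ℕ → ℕ → Ln} {lev : ℕ → ℚ → ℕ}
    {r0 A : ℕ → ℝ} {q g : ℝ} {Λ τ : ℝ → ℝ} {f : ℕ → ℚ → ℕ → ℤ → ℕ} {b : ℕ → ℚ → ℕ → Ln}
    {e : ℕ → ℚ → ℕ → E2} {w1 w2 : ℕ → ℚ → ℝ}

/-- a marked sequence sees `τ` at the rationals of `[0,1]` only. -/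
theorem Mk.congr_tau (h : Mk B I L lev r0 A q g Λ τ f b e w1 w2) {τ' : ℝ → ℝ}
    (hτ : ∀ v : ℚ, 0 ≤ v → v ≤ 1 → τ' v = τ v) : Mk B I L lev r0 A q g Λ τ' f b e w1 w2 :=
  { ne := h.ne
    card := h.card
    q0 := h.q0
    q2 := h.q2
    g0 := h.g0
    Apos := h.Apos
    rpos := h.rpos
    lam0 := h.lam0
    lam := h.lam
    tau1 := by
      have h1 := hτ 1 zero_le_one le_rfl
      have e1 : ((1 : ℚ) : ℝ) = 1 := by norm_num
      rw [e1] at h1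
      rw [h1]; exact h.tau1
    lev_mono := h.lev_mono
    lev_lim := h.lev_lim
    cell0 := h.cell0
    one := h.one
    own := h.own
    dmax := h.dmax
    near := h.near
    dims := h.dims
    tau := fun v hv0 hv1 => by rw [hτ v hv0 hv1]; exact h.tau v hv0 hv1 }

/-- **(c)** zoom to linear `Λ`, `τ` (J1 of doc 1983). -/
theorem mk_linear
    (hz : ∀ (B : Base) (I : ℕ → Finset (ℕ × ℝ)) (L : ℕ → ℕ → Ln) (lev : ℕ → ℚ → ℕ)
      (r0 A : ℕ → ℝ) (q g : ℝ) (Λ τ : ℝ → ℝ) (f : ℕ → ℚ → ℕ → ℤ → ℕ) (b : ℕ → ℚ → ℕ → Ln)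
      (e : ℕ → ℚ → ℕ → E2) (w1 w2 : ℕ → ℚ → ℝ),
      Mk163.Zoom B I L lev r0 A q g Λ τ f b e w1 w2)
    (h : Mk B I L lev r0 A q g Λ τ f b e w1 w2) {κ : ℝ} (hκ : 0 < κ)
    (hτ : ∀ u v : ℚ, 0 ≤ u → u ≤ v → v ≤ 1 → κ * ((v : ℝ) - u) ≤ τ u - τ v) :
    ∃ (B' : Base) (I' : ℕ → Finset (ℕ × ℝ)) (lev' : ℕ → ℚ → ℕ) (A' : ℕ → ℝ)
      (f' : ℕ → ℚ → ℕ → ℤ → ℕ) (b' : ℕ → ℚ → ℕ → Ln) (e' : ℕ → ℚ → ℕ → E2)
      (w1' w2' : ℕ → ℚ → ℝ) (s θ : ℝ), 0 ≤ s ∧ s ≤ 1 ∧ κ ≤ θ ∧ (∀ n, I' n ⊆ I n) ∧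
      Mk B' I' L lev' r0 A' q g (fun v => s * v) (fun v => θ * (1 - v)) f' b' e' w1' w2' := by
  obtain ⟨τ', hτ', v0, hv0, s, θ, hs0, hs1, hθ, d1, d2⟩ := exists_point hκ h.lam hτ
  have h' := Mk.congr_tau h hτ'
  obtain ⟨η, m, hη, hη1, -, hm, hmono, hq, -, hlim⟩ := exists_affine hv0.1 hv0.2
  obtain ⟨s0, hs0t, hz'⟩ := hz B I L lev r0 A q g Λ τ' f b e w1 w2 h' η m (fun v => s * v)
    (fun v => θ * (1 - v)) hη hη1 hm (fun x y _ hxy _ => Eventually.of_forall fun k => hmono k x y hxy)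
    (fun x y _ _ _ => by
      simp only [hq]
      exact tendsto_const_nhds)
    (fun x _ _ => by
      have := hlim Λ s d1 0 x
      simpa using this)
    (fun x _ _ => by
      have := hlim τ' (-θ) d2 1 x
      have e1 : -θ * ((x : ℝ) - ((1 : ℚ) : ℝ)) = θ * (1 - (x : ℝ)) := by push_cast; ring
      rw [e1] at this
      exact this)
    (fun u v hu huv hv => by
      constructor
      · nlinarith
      · nlinarith) (by simp) (by simp)
  obtain ⟨B', I', A', -, hI', hMk⟩ := hz' s0 hs0t (Eventually.of_forall fun n => le_rfl)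
  exact ⟨B', I', _, A', _, _, _, _, _, s, θ, hs0, hs1, hθ, hI', hMk⟩

end

end Crest.Agent.R138.MkPoint627
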