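import Crest.Agent.R138.MkDef_163

/-!
# R138, TEXT I, leaf L9: the zoom of a marked extremal sequence (helper779)

`zoom`: the literal target `Mk163.Zoom`.  Window set = representatives (one incidence per line and
cell of level `m 1`) inside one cell of level `m 0`.
-/

set_option autoImplicit false

open Finset Filter Topology

namespace Crest.Agent.R138.MkZoom779

open Crest.Agent.R138.Ex926 (Base U exists_diag)
open Crest.Agent.R138.Flag51 (Ln E2 cr dt InPlank)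
open Crest.Agent.R138.Tilt51 (DMax Near)
open Crest.Agent.R138.Mk163

/-! ### cells -/

theorem zc_eq {i j : ℕ} (h : i ≤ j) (z : ℝ) : zc i z = zc j z / ((2 ^ (j - i) : ℕ) : ℤ) := by
  unfold zc
  rw [← Int.floor_div_natCast]
  congr 1
  push_cast
  have e : (2 : ℝ) ^ j = 2 ^ i * 2 ^ (j - i) := by rw [← pow_add, Nat.add_sub_cancel' h]
  rw [e]
  field_simp

theorem zc_nested {i j : ℕ} (h : i ≤ j) {z z' : ℝ} (hz : zc j z = zc j z') :
    zc i z = zc i z' := by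
  rw [zc_eq h, zc_eq h, hz]

/-! ### representatives -/

/-- `I'` = one representative for every line and every cell of level `i1` met by `I` inside the cell
`J0` of level `i0`. -/
structure IsWin (I I' : Finset (ℕ × ℝ)) (i0 i1 : ℕ) (J0 : ℤ) : Prop where
  sub : I' ⊆ I
  cell : ∀ x ∈ I', zc i0 x.2 = J0
  one : ∀ x ∈ I', ∀ y ∈ I', x.1 = y.1 → zc i1 x.2 = zc i1 y.2 → x = y
  full : ∀ y ∈ I, zc i0 y.2 = J0 → ∃ x ∈ I', x.1 = y.1 ∧ zc i1 x.2 = zc i1 y.2

theorem exists_rep (S : Finset (ℕ × ℝ)) (i : ℕ) : ∃ T ⊆ S,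
    (∀ x ∈ T, ∀ y ∈ T, x.1 = y.1 → zc i x.2 = zc i y.2 → x = y) ∧
    ∀ y ∈ S, ∃ x ∈ T, x.1 = y.1 ∧ zc i x.2 = zc i y.2 := by
  classical
  set κ : ℕ × ℝ → ℕ × ℤ := fun x => (x.1, zc i x.2) with hκ
  have hsurj : (S : Set (ℕ × ℝ)).SurjOn κ (S.image κ : Finset (ℕ × ℤ)) := by
    intro p hp
    obtain ⟨x, hx, rfl⟩ := Finset.mem_image.1 (Finset.mem_coe.1 hp)
    exact ⟨x, Finset.mem_coe.2 hx, rfl⟩
  obtain ⟨T, hTS, hinj, himg⟩ := Finset.exists_subset_injOn_image_eq_of_surjOn _ _ hsurj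
  refine ⟨T, by exact_mod_cast hTS, ?_, ?_⟩
  · intro x hx y hy h1 h2
    exact hinj (Finset.mem_coe.2 hx) (Finset.mem_coe.2 hy) (Prod.ext h1 h2)
  · intro y hy
    have : κ y ∈ T.image κ := by
      rw [himg]
      exact Finset.mem_image_of_mem _ hy
    obtain ⟨x, hx, hxy⟩ := Finset.mem_image.1 this
    have hxy' : (x.1, zc i x.2) = (y.1, zc i y.2) := hxy
    exact ⟨x, hx, (Prod.mk.inj hxy').1, (Prod.mk.inj hxy').2⟩

theorem exists_win (I : Finset (ℕ × ℝ)) (i0 i1 : ℕ) : ∃ (I' : Finset (ℕ × ℝ)) (J0 : ℤ),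
    IsWin I I' i0 i1 J0 ∧ (I.Nonempty → I'.Nonempty) := by
  classical
  rcases I.eq_empty_or_nonempty with rfl | ⟨x0, hx0⟩
  · exact ⟨∅, 0, ⟨Finset.Subset.refl _, by simp, by simp, by simp⟩, fun h => h⟩
  · obtain ⟨T, hTS, h1, h2⟩ := exists_rep (I.filter fun x => zc i0 x.2 = zc i0 x0.2) i1
    refine ⟨T, zc i0 x0.2, ⟨fun x hx => (Finset.mem_filter.1 (hTS hx)).1,
      fun x hx => (Finset.mem_filter.1 (hTS hx)).2, h1,
      fun y hy hy2 => h2 y (Finset.mem_filter.2 ⟨hy, hy2⟩)⟩, fun _ => ?_⟩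
    obtain ⟨x, hx, -⟩ := h2 x0 (Finset.mem_filter.2 ⟨hx0, rfl⟩)
    exact ⟨x, hx⟩

section win

variable {I I' : Finset (ℕ × ℝ)} {i0 i1 i j : ℕ} {J0 : ℤ}

theorem mem_alive {J : ℤ} {t : ℕ} :
    t ∈ alive I i J ↔ ∃ x ∈ I, zc i x.2 = J ∧ x.1 = t := by
  unfold alive
  simp only [Finset.mem_image, Finset.mem_filter, and_assoc]

theorem mem_own {x : ℕ × ℝ} {c : ℤ} :
    c ∈ own I i j x ↔ ∃ y ∈ I, y.1 = x.1 ∧ zc i y.2 = zc i x.2 ∧ zc j y.2 = c := by
  unfold own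
  simp only [Finset.mem_image, Finset.mem_filter, and_assoc]

theorem own_eq (hw : IsWin I I' i0 i1 J0) (h0 : i0 ≤ i) (hi : i ≤ i1) (hj : j ≤ i1) {x : ℕ × ℝ}
    (hx : x ∈ I') : own I' i j x = own I i j x := by
  ext c
  rw [mem_own, mem_own]
  constructor
  · rintro ⟨y, hy, h⟩
    exact ⟨y, hw.sub hy, h⟩
  · rintro ⟨y, hy, h1, h2, h3⟩
    have h4 : zc i0 y.2 = J0 := by rw [zc_nested h0 h2, hw.cell x hx]
    obtain ⟨y', hy', h5, h6⟩ := hw.full y hy h4
    exact ⟨y', hy', h5.trans h1, (zc_nested hi h6).trans h2, (zc_nested hj h6).trans h3⟩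

theorem alive_sub (hw : IsWin I I' i0 i1 J0) (J : ℤ) : alive I' i J ⊆ alive I i J := by
  intro t ht
  rw [mem_alive] at ht ⊢
  obtain ⟨x, hx, h⟩ := ht
  exact ⟨x, hw.sub hx, h⟩

theorem alive_eq (hw : IsWin I I' i0 i1 J0) (h0 : i0 ≤ i) (hi : i ≤ i1) {J : ℤ}
    (hne : (alive I' i J).Nonempty) : alive I' i J = alive I i J := by
  refine Finset.Subset.antisymm (alive_sub hw J) ?_
  intro t ht
  obtain ⟨t0, ht0⟩ := hne
  rw [mem_alive] at ht ht0 ⊢
  obtain ⟨x0, hx0, hx0J, -⟩ := ht0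
  obtain ⟨y, hy, hyJ, rfl⟩ := ht
  have h4 : zc i0 y.2 = J0 := by
    rw [zc_nested h0 (hyJ.trans hx0J.symm), hw.cell x0 hx0]
  obtain ⟨y', hy', h5, h6⟩ := hw.full y hy h4
  exact ⟨y', hy', (zc_nested hi h6).trans hyJ, h5⟩

end win

/-! ### constants in `DMax`, `Near` -/

theorem DMax.const {ι : Type*} {S : Finset ι} {L : ι → Ln} {m : ι → ℝ}
    {z0 ρ M M' p q r0 R0 : ℝ} (h : DMax S L m z0 ρ M p q r0 R0) (hM : M ≤ M') (hr : 0 ≤ r0) :
    DMax S L m z0 ρ M' p q r0 R0 := by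
  intro l e a1 a2 he h1 h2 h3
  refine (h l e a1 a2 he h1 h2 h3).trans ?_
  have ha1 : 0 ≤ a1 := hr.trans h1
  have ha2 : 0 ≤ a2 := ha1.trans h2
  gcongr

theorem Near.const {ι α : Type*} {S : Finset ι} {L : ι → Ln} {m : ι → ℝ} {f : ι → α} {b : α → Ln}
    {e : α → E2} {w1 w2 z0 ρ M M' E E' c p q : ℝ} (h : Near S L m f b e w1 w2 z0 ρ M E p q)
    (hm : ∀ t, 0 ≤ m t) (hw1 : 0 ≤ w1) (hw2 : 0 ≤ w2) (hc : 0 ≤ c) (hM : M' ≤ c * M)
    (hE : c * E ≤ E') : Near S L m f b e w1 w2 z0 ρ M' E' p q := by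
  classical
  refine ⟨h.unit, h.mem, fun t ht => ?_⟩
  have h1 := h.low t ht
  have h2 : 0 ≤ ∑ s ∈ S with f s = f t, m s := Finset.sum_nonneg fun s _ => hm s
  calc M' * w1 ^ (1 + p) * w2 ^ (1 + q) ≤ (c * M) * w1 ^ (1 + p) * w2 ^ (1 + q) := by
        have h3 : 0 ≤ w1 ^ (1 + p) := Real.rpow_nonneg hw1 _
        have h4 : 0 ≤ w2 ^ (1 + q) := Real.rpow_nonneg hw2 _
        gcongr
    _ = c * (M * w1 ^ (1 + p) * w2 ^ (1 + q)) := by ring
    _ ≤ c * (E * ∑ s ∈ S with f s = f t, m s) := by gcongr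
    _ = (c * E) * ∑ s ∈ S with f s = f t, m s := by ring
    _ ≤ _ := by gcongr

/-! ### base -/

theorem dpow_pos (B : Base) (n : ℕ) (a : ℝ) : 0 < B.d n ^ a := Real.rpow_pos_of_pos (B.pos n) a

theorem dpow_le (B : Base) (n : ℕ) {a b : ℝ} (h : a ≤ b) : B.d n ^ b ≤ B.d n ^ a :=
  Real.rpow_le_rpow_of_exponent_ge (B.pos n) (B.lt n).le h

/-- the base `d^h`. -/
theorem exists_base (B : Base) {t : ℕ → ℝ} (ht : ∀ n, 0 < t n)
    (hlim : Tendsto (fun n => t n * B.L n) U atTop) :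
    ∃ B' : Base, (∀ n, B'.d n = B.d n ^ t n) ∧ ∀ n, B'.L n = t n * B.L n := by
  have hL : ∀ n, Real.log (B.d n ^ t n) = -(t n * B.L n) := by
    intro n
    rw [Real.log_rpow (B.pos n)]
    unfold Base.L
    ring
  refine ⟨⟨fun n => B.d n ^ t n, fun n => dpow_pos B n _,
    fun n => Real.rpow_lt_one (B.pos n).le (B.lt n) (ht n), ?_⟩, fun n => rfl, fun n => ?_⟩
  · have e : (fun n => B.d n ^ t n) = fun n => Real.exp (-(t n * B.L n)) := by
      funext n
      rw [← hL n, Real.exp_log (dpow_pos B n _)]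
    rw [e]
    exact Real.tendsto_exp_neg_atTop_nhds_zero.comp hlim
  · unfold Base.L
    simp only
    rw [hL n]
    unfold Base.L
    ring

/-! ### finite sets of rationals exhausting `[0,1]` -/

open Classical in
/-- the first `k` rationals of `[0,1]`, with `0` and `1`. -/
noncomputable def Fq (k : ℕ) : Finset ℚ :=
  insert 0 (insert 1 (((Finset.range (k + 1)).image (Denumerable.ofNat ℚ)).filter
    fun x => 0 ≤ x ∧ x ≤ 1))

theorem Fq_mem {k : ℕ} {x : ℚ} (hx : x ∈ Fq k) : 0 ≤ x ∧ x ≤ 1 := by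
  unfold Fq at hx
  rw [Finset.mem_insert, Finset.mem_insert, Finset.mem_filter] at hx
  rcases hx with rfl | rfl | ⟨-, h⟩
  · exact ⟨le_rfl, zero_le_one⟩
  · exact ⟨zero_le_one, le_rfl⟩
  · exact h

theorem zero_mem_Fq (k : ℕ) : (0 : ℚ) ∈ Fq k := Finset.mem_insert_self _ _

theorem one_mem_Fq (k : ℕ) : (1 : ℚ) ∈ Fq k :=
  Finset.mem_insert_of_mem (Finset.mem_insert_self _ _)

theorem ev_mem_Fq {x : ℚ} (h0 : 0 ≤ x) (h1 : x ≤ 1) : ∀ᶠ k in atTop, x ∈ Fq k := by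
  filter_upwards [eventually_ge_atTop (@Encodable.encode ℚ Rat.instDenumerable.toEncodable x)]
    with k hk
  unfold Fq
  refine Finset.mem_insert_of_mem (Finset.mem_insert_of_mem (Finset.mem_filter.2 ⟨?_, h0, h1⟩))
  rw [Finset.mem_image]
  exact ⟨_, Finset.mem_range.2 (Nat.lt_succ_of_le hk), Denumerable.ofNat_encode x⟩

/-- composition with a speed. -/
theorem err {a h : ℕ → ℝ} {c : ℝ} (hp : ∀ k, 0 < h k)
    (ht : Tendsto (fun k => a k / h k) atTop (𝓝 c)) {s : ℕ → ℕ} (hs : Tendsto s U atTop) {ε : ℝ}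
    (hε : 0 < ε) : ∀ᶠ n in (U : Filter ℕ), |a (s n) - h (s n) * c| ≤ ε * h (s n) := by
  have h1 : Tendsto (fun n => a (s n) / h (s n)) U (𝓝 c) := ht.comp hs
  have h2 := (Metric.tendsto_nhds.1 h1) ε hε
  filter_upwards [h2] with n hn
  rw [Real.dist_eq] at hn
  have hh := hp (s n)
  have e : a (s n) - h (s n) * c = (a (s n) / h (s n) - c) * h (s n) := by field_simp
  rw [e, abs_mul, abs_of_pos hh]
  exact mul_le_mul_of_nonneg_right hn.le hh.le


section main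

variable (B : Base) (I : ℕ → Finset (ℕ × ℝ)) (L : ℕ → ℕ → Ln) (lev : ℕ → ℚ → ℕ)
    (r0 A : ℕ → ℝ) (q g : ℝ) (Λ τ : ℝ → ℝ) (f : ℕ → ℚ → ℕ → ℤ → ℕ) (b : ℕ → ℚ → ℕ → Ln)
    (e : ℕ → ℚ → ℕ → E2) (w1 w2 : ℕ → ℚ → ℝ)

/-- error of stage `k` -/
noncomputable def del (h : ℕ → ℝ) (k : ℕ) : ℝ := h k / ((k : ℝ) + 1)

theorem del_pos {h : ℕ → ℝ} (hp : ∀ k, 0 < h k) (k : ℕ) : 0 < del h k := by
  unfold del
  have := hp k
  positivity

theorem ev_del {h : ℕ → ℝ} (hp : ∀ k, 0 < h k) {s : ℕ → ℕ} (hs : Tendsto s U atTop) {ε : ℝ}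
    (hε : 0 < ε) : ∀ᶠ n in (U : Filter ℕ), del h (s n) ≤ ε * h (s n) := by
  have h1 : Tendsto (fun n => 1 / ((s n : ℝ) + 1)) U (𝓝 0) :=
    tendsto_one_div_add_atTop_nhds_zero_nat.comp hs
  filter_upwards [h1.eventually_lt_const hε] with n hn
  unfold del
  have hh := hp (s n)
  calc h (s n) / ((s n : ℝ) + 1) = 1 / ((s n : ℝ) + 1) * h (s n) := by ring
    _ ≤ ε * h (s n) := mul_le_mul_of_nonneg_right hn.le hh.le

/-- one level statements at stage `k` -/
structure P1 (lv : ℚ) (δ : ℝ) (n : ℕ) : Prop where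
  dm : ∀ J : ℤ, DMax (alive (I n) (lev n lv) J) (L n) (fun _ => 1) (zl (lev n lv) J)
    (rho (lev n lv)) (B.d n ^ (-δ) * amp B lev A q g Λ n lv) 0 q (r0 n) (100 * rho (lev n lv))
  nr : ∀ J : ℤ, Near (alive (I n) (lev n lv) J) (L n) (fun _ => 1) (fun t => f n lv t J) (b n lv)
    (e n lv) (w1 n lv) (w2 n lv) (zl (lev n lv) J) (rho (lev n lv)) (amp B lev A q g Λ n lv)
    (B.d n ^ (-δ)) 0 q
  di : r0 n ≤ w1 n lv ∧ w1 n lv ≤ w2 n lv ∧ w2 n lv ≤ rho (lev n lv)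
  ta : |Real.log ((rho (lev n lv) / w2 n lv) / (rho (lev n 1) / w2 n 1)) / B.L n - τ lv| ≤ δ

/-- two level statements at stage `k` -/
structure P2 (u v : ℚ) (δ : ℝ) (n : ℕ) : Prop where
  le : lev n u ≤ lev n v
  ll : |((lev n v : ℝ) - lev n u) * Real.log 2 / B.L n - ((v : ℝ) - u)| ≤ δ
  ow : ∀ x ∈ I n, B.d n ^ (-((v : ℝ) - u) + (Λ v - Λ u) + δ) ≤
      ((own (I n) (lev n u) (lev n v) x).card : ℝ) ∧
    ((own (I n) (lev n u) (lev n v) x).card : ℝ) ≤ B.d n ^ (-((v : ℝ) - u) + (Λ v - Λ u) - δ)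

variable {B I L lev r0 A q g Λ τ f b e w1 w2}

theorem ev_P1 (H : Mk B I L lev r0 A q g Λ τ f b e w1 w2) {lv : ℚ} (h0 : 0 ≤ lv) (h1 : lv ≤ 1)
    {δ : ℝ} (hδ : 0 < δ) :
    ∀ᶠ n in (U : Filter ℕ), P1 B I L lev r0 A q g Λ τ f b e w1 w2 lv δ n := by
  have ht := (Metric.tendsto_nhds.1 (H.tau lv h0 h1)) δ hδ
  filter_upwards [H.dmax lv h0 h1 δ hδ, H.near lv h0 h1 δ hδ, H.dims lv h0 h1, ht] with n a1 a2 a3 a4
  rw [Real.dist_eq] at a4
  exact ⟨a1, a2, a3, a4.le⟩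

theorem ev_P2 (H : Mk B I L lev r0 A q g Λ τ f b e w1 w2) {u v : ℚ} (h0 : 0 ≤ u) (huv : u ≤ v)
    (h1 : v ≤ 1) {δ : ℝ} (hδ : 0 < δ) :
    ∀ᶠ n in (U : Filter ℕ), P2 B I lev Λ u v δ n := by
  have ht := (Metric.tendsto_nhds.1 (H.lev_lim u v h0 huv h1)) δ hδ
  filter_upwards [H.lev_mono u v h0 huv h1, H.own u v h0 huv h1 δ hδ, ht] with n a1 a2 a3
  rw [Real.dist_eq] at a3
  exact ⟨a1, a3.le, a2⟩

/-- **L9** zoom. -/
theorem zoom : Zoom B I L lev r0 A q g Λ τ f b e w1 w2 := by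
  classical
  intro H h m Λ' τ' hpos hle hmem hmono hlev hΛ hτ hlam hΛ0 hτ1
  -- the stages
  obtain ⟨s0, hs0, hs0'⟩ := exists_diag (fun k n =>
    ((k : ℝ) + 1) ≤ h k * B.L n ∧ Real.log ((I n).card : ℝ) ≤ B.d n ^ (-(del h k)) ∧
    (I n).Nonempty ∧ (∀ x ∈ Fq k, P1 B I L lev r0 A q g Λ τ f b e w1 w2 (m k x) (del h k) n) ∧
    ∀ x ∈ Fq k, ∀ y ∈ Fq k, m k x ≤ m k y → P2 B I lev Λ (m k x) (m k y) (del h k) n) (by
    intro k
    have hd := del_pos hpos k
    have e1 : ∀ᶠ n in (U : Filter ℕ), ((k : ℝ) + 1) ≤ h k * B.L n := by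
      filter_upwards [B.ev_L_ge (((k : ℝ) + 1) / h k)] with n hn
      rw [div_le_iff₀ (hpos k)] at hn
      linarith
    have e4 : ∀ᶠ n in (U : Filter ℕ), ∀ x ∈ Fq k,
        P1 B I L lev r0 A q g Λ τ f b e w1 w2 (m k x) (del h k) n := by
      rw [Filter.eventually_all_finset]
      intro x hx
      obtain ⟨hx0, hx1⟩ := Fq_mem hx
      exact ev_P1 H (hmem k x hx0 hx1).1 (hmem k x hx0 hx1).2 hd
    have e5 : ∀ᶠ n in (U : Filter ℕ), ∀ x ∈ Fq k, ∀ y ∈ Fq k, m k x ≤ m k y →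
        P2 B I lev Λ (m k x) (m k y) (del h k) n := by
      rw [Filter.eventually_all_finset]
      intro x hx
      rw [Filter.eventually_all_finset]
      intro y hy
      obtain ⟨hx0, hx1⟩ := Fq_mem hx
      obtain ⟨hy0, hy1⟩ := Fq_mem hy
      rcases le_or_gt (m k x) (m k y) with hxy | hxy
      · filter_upwards [ev_P2 H (hmem k x hx0 hx1).1 hxy (hmem k y hy0 hy1).2 hd] with n hn _
        exact hn
      · exact Eventually.of_forall fun n hn => absurd hn (not_le.2 hxy)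
    filter_upwards [e1, H.card (del h k) hd, H.ne, e4, e5] with n a1 a2 a3 a4 a5
    exact ⟨a1, a2, a3, a4, a5⟩)
  refine ⟨s0, hs0, fun s hs hsle => ?_⟩
  have hP := (hs0'.and hsle).mono fun n hn => hn.1 (s n) hn.2
  have hF : ∀ x : ℚ, 0 ≤ x → x ≤ 1 → ∀ᶠ n in (U : Filter ℕ), x ∈ Fq (s n) := fun x h0 h1 =>
    hs.eventually (ev_mem_Fq h0 h1)
  have hM : ∀ x y : ℚ, 0 ≤ x → x ≤ y → y ≤ 1 → ∀ᶠ n in (U : Filter ℕ), m (s n) x ≤ m (s n) y :=
    fun x y h0 h1 h2 => hs.eventually (hmono x y h0 h1 h2)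
  -- the base
  have hlim : Tendsto (fun n => h (s n) * B.L n) U atTop := by
    have h1 : Tendsto (fun n => (s n : ℝ)) U atTop := tendsto_natCast_atTop_atTop.comp hs
    refine tendsto_atTop_mono' _ ?_ h1
    filter_upwards [hP] with n hn
    linarith [hn.1]
  obtain ⟨B', hB', hL'⟩ := exists_base B (fun n => hpos (s n)) hlim
  have hBp : ∀ n a, B'.d n ^ a = B.d n ^ (h (s n) * a) := by
    intro n a
    rw [hB', ← Real.rpow_mul (B.pos n).le]
  -- the window sets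
  choose I' J0 hwin hne using fun n => exists_win (I n) (lev n (m (s n) 0)) (lev n (m (s n) 1))
  -- amplitude
  set A' : ℕ → ℝ := fun n => A n * B.d n ^ (-(2 * Λ (m (s n) 0) + g * m (s n) 0)) with hA'
  -- errors
  have hem : ∀ x : ℚ, 0 ≤ x → x ≤ 1 → ∀ ε : ℝ, 0 < ε → ∀ᶠ n in (U : Filter ℕ),
      |((m (s n) x : ℝ) - m (s n) 0) - h (s n) * x| ≤ ε * h (s n) := by
    intro x h0 h1 ε hε
    have h2 := hlev 0 x le_rfl h0 h1
    rw [Rat.cast_zero, sub_zero] at h2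
    exact err (a := fun k => (m k x : ℝ) - m k 0) hpos h2 hs hε
  have heΛ : ∀ x : ℚ, 0 ≤ x → x ≤ 1 → ∀ ε : ℝ, 0 < ε → ∀ᶠ n in (U : Filter ℕ),
      |(Λ (m (s n) x) - Λ (m (s n) 0)) - h (s n) * Λ' x| ≤ ε * h (s n) := by
    intro x h0 h1 ε hε
    exact err (a := fun k => Λ (m k x) - Λ (m k 0)) hpos (hΛ x h0 h1) hs hε
  have heτ : ∀ x : ℚ, 0 ≤ x → x ≤ 1 → ∀ ε : ℝ, 0 < ε → ∀ᶠ n in (U : Filter ℕ),
      |(τ (m (s n) x) - τ (m (s n) 1)) - h (s n) * τ' x| ≤ ε * h (s n) := by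
    intro x h0 h1 ε hε
    exact err (a := fun k => τ (m k x) - τ (m k 1)) hpos (hτ x h0 h1) hs hε
  -- comparison of the amplitudes
  have hamp : ∀ x : ℚ, 0 ≤ x → x ≤ 1 → ∀ ε : ℝ, 0 < ε → ∀ᶠ n in (U : Filter ℕ),
      amp B lev A q g Λ n (m (s n) x) ≤ B.d n ^ (-(ε * h (s n))) *
        amp B' (fun n x => lev n (m (s n) x)) A' q g Λ' n x ∧
      amp B' (fun n x => lev n (m (s n) x)) A' q g Λ' n x ≤ B.d n ^ (-(ε * h (s n))) *
        amp B lev A q g Λ n (m (s n) x) := by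
    intro x h0 h1 ε hε
    have hg := H.g0
    filter_upwards [hem x h0 h1 (ε / (2 * g)) (by positivity), heΛ x h0 h1 (ε / 4) (by positivity)]
      with n a1 a2
    obtain ⟨a1, a1'⟩ := abs_le.1 a1
    obtain ⟨a2, a2'⟩ := abs_le.1 a2
    have b1 := mul_le_mul_of_nonneg_left a1 hg.le
    have b1' := mul_le_mul_of_nonneg_left a1' hg.le
    have e1 : g * (ε / (2 * g) * h (s n)) = ε / 2 * h (s n) := by field_simp
    have e2 : g * -(ε / (2 * g) * h (s n)) = -(ε / 2 * h (s n)) := by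
      rw [mul_neg, e1]
    rw [e2] at b1
    rw [e1] at b1'
    have hr : 0 < (rho (lev n (m (s n) x))) ^ (-q) := by
      apply Real.rpow_pos_of_pos
      unfold rho
      positivity
    have hAn := H.Apos n
    unfold amp
    rw [hBp, hA']
    simp only
    constructor
    · have e3 : B.d n ^ (-(ε * h (s n))) * (A n * B.d n ^ (-(2 * Λ (m (s n) 0) + g * m (s n) 0)) *
          B.d n ^ (h (s n) * (-(2 * Λ' x + g * x))) * rho (lev n (m (s n) x)) ^ (-q)) =
          A n * B.d n ^ (-(ε * h (s n)) + -(2 * Λ (m (s n) 0) + g * m (s n) 0) +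
            h (s n) * (-(2 * Λ' x + g * x))) * rho (lev n (m (s n) x)) ^ (-q) := by
        rw [Real.rpow_add (B.pos n), Real.rpow_add (B.pos n)]
        ring
      rw [e3]
      have h2 := dpow_le B n (a := -(ε * h (s n)) + -(2 * Λ (m (s n) 0) + g * m (s n) 0) +
            h (s n) * (-(2 * Λ' x + g * x))) (b := -(2 * Λ (m (s n) x) + g * m (s n) x))
            (by linarith)
      gcongr
    · have e3 : B.d n ^ (-(ε * h (s n))) * (A n * B.d n ^ (-(2 * Λ (m (s n) x) + g * m (s n) x)) *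
          rho (lev n (m (s n) x)) ^ (-q)) = A n * B.d n ^ (-(ε * h (s n)) +
            -(2 * Λ (m (s n) x) + g * m (s n) x)) * rho (lev n (m (s n) x)) ^ (-q) := by
        rw [Real.rpow_add (B.pos n)]
        ring
      have e4 : A n * B.d n ^ (-(2 * Λ (m (s n) 0) + g * m (s n) 0)) *
          B.d n ^ (h (s n) * (-(2 * Λ' x + g * x))) * rho (lev n (m (s n) x)) ^ (-q) =
          A n * B.d n ^ (-(2 * Λ (m (s n) 0) + g * m (s n) 0) +
            h (s n) * (-(2 * Λ' x + g * x))) * rho (lev n (m (s n) x)) ^ (-q) := by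
        rw [Real.rpow_add (B.pos n)]
        ring
      rw [e3, e4]
      have h2 := dpow_le B n (a := -(ε * h (s n)) + -(2 * Λ (m (s n) x) + g * m (s n) x))
        (b := -(2 * Λ (m (s n) 0) + g * m (s n) 0) + h (s n) * (-(2 * Λ' x + g * x)))
            (by linarith)
      gcongr
  have hamp0 : ∀ n x, 0 < amp B lev A q g Λ n x := by
    intro n x
    unfold amp
    have h1 := H.Apos n
    have h2 := dpow_pos B n (-(2 * Λ x + g * x))
    have h3 : 0 < (rho (lev n x)) ^ (-q) := by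
      apply Real.rpow_pos_of_pos
      unfold rho
      positivity
    positivity
  -- nested levels
  have hlv0 : ∀ x : ℚ, 0 ≤ x → x ≤ 1 → ∀ᶠ n in (U : Filter ℕ),
      lev n (m (s n) 0) ≤ lev n (m (s n) x) ∧ lev n (m (s n) x) ≤ lev n (m (s n) 1) := by
    intro x h0 h1
    filter_upwards [hP, hF x h0 h1, hM 0 x le_rfl h0 h1, hM x 1 h0 h1 le_rfl] with n a1 a2 a3 a4
    exact ⟨(a1.2.2.2.2 0 (zero_mem_Fq _) x a2 a3).le, (a1.2.2.2.2 x a2 1 (one_mem_Fq _) a4).le⟩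
  refine ⟨B', I', A', hB', fun n => (hwin n).sub, ?_⟩
  refine
    { ne := ?_, card := ?_, q0 := H.q0, q2 := H.q2, g0 := H.g0, Apos := ?_, rpos := H.rpos
      lam0 := hΛ0, lam := hlam, tau1 := hτ1, lev_mono := ?_, lev_lim := ?_, cell0 := ?_, one := ?_
      own := ?_, dmax := ?_, near := ?_, dims := ?_, tau := ?_ }
  · -- ne
    filter_upwards [hP] with n hn using hne n hn.2.2.1
  · -- card
    intro ε hε
    filter_upwards [hP, ev_del hpos hs hε] with n hn hd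
    rw [hBp]
    have h1 : (0 : ℝ) < (I' n).card := by exact_mod_cast Finset.card_pos.2 (hne n hn.2.2.1)
    have h2 : ((I' n).card : ℝ) ≤ (I n).card := by
      exact_mod_cast Finset.card_le_card (hwin n).sub
    refine (Real.log_le_log h1 h2).trans (hn.2.1.trans (dpow_le B n ?_))
    linarith
  · -- Apos
    intro n
    exact mul_pos (H.Apos n) (dpow_pos B n _)
  · -- lev_mono
    intro u v h0 huv h1
    filter_upwards [hP, hF u h0 (huv.trans h1), hF v (h0.trans huv) h1, hM u v h0 huv h1]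
      with n a1 a2 a3 a4
    exact (a1.2.2.2.2 u a2 v a3 a4).le
  · -- lev_lim
    intro u v h0 huv h1
    rw [Metric.tendsto_nhds]
    intro ε hε
    filter_upwards [hP, hF u h0 (huv.trans h1), hF v (h0.trans huv) h1, hM u v h0 huv h1,
      hem u h0 (huv.trans h1) (ε / 8) (by positivity),
      hem v (h0.trans huv) h1 (ε / 8) (by positivity), ev_del hpos hs (ε := ε / 4) (by positivity)]
      with n a1 a2 a3 a4 a5 a6 a7
    have hh := hpos (s n)
    have hLn := B.L_pos n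
    have h2 := (a1.2.2.2.2 u a2 v a3 a4).ll
    rw [Real.dist_eq, hL']
    set X : ℝ := ((lev n (m (s n) v) : ℝ) - lev n (m (s n) u)) * Real.log 2 / B.L n with hX
    have e1 : ((lev n (m (s n) v) : ℝ) - lev n (m (s n) u)) * Real.log 2 / (h (s n) * B.L n) -
        ((v : ℝ) - u) = (X - h (s n) * (v - u)) / h (s n) := by
      rw [hX]
      field_simp
    rw [e1, abs_div, abs_of_pos hh, div_lt_iff₀ hh]
    have h3 : |X - h (s n) * (v - u)| ≤ 3 / 4 * ε * h (s n) := by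
      rw [abs_le] at h2 a5 a6 ⊢
      constructor <;> nlinarith
    have : 0 < ε * h (s n) := mul_pos hε hh
    linarith
  · -- cell0
    refine Eventually.of_forall fun n x hx y hy => ?_
    exact ((hwin n).cell x hx).trans ((hwin n).cell y hy).symm
  · -- one
    exact Eventually.of_forall fun n x hx y hy h1 h2 => (hwin n).one x hx y hy h1 h2
  · -- own
    intro u v h0 huv h1 ε hε
    filter_upwards [hP, hF u h0 (huv.trans h1), hF v (h0.trans huv) h1, hM u v h0 huv h1,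
      hem u h0 (huv.trans h1) (ε / 8) (by positivity),
      hem v (h0.trans huv) h1 (ε / 8) (by positivity),
      heΛ u h0 (huv.trans h1) (ε / 8) (by positivity),
      heΛ v (h0.trans huv) h1 (ε / 8) (by positivity),
      ev_del hpos hs (ε := ε / 4) (by positivity), hlv0 u h0 (huv.trans h1),
      hlv0 v (h0.trans huv) h1]
      with n a1 a2 a3 a4 a5 a6 b5 b6 a7 c1 c2 x hx
    have h2 := (a1.2.2.2.2 u a2 v a3 a4).ow x ((hwin n).sub hx)
    rw [own_eq (hwin n) c1.1 c1.2 c2.2 hx, hBp, hBp]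
    have hh := hpos (s n)
    rw [abs_le] at a5 a6 b5 b6
    constructor
    · refine le_trans (dpow_le B n ?_) h2.1
      nlinarith
    · refine h2.2.trans (dpow_le B n ?_)
      nlinarith
  · -- dmax
    intro v h0 h1 ε hε
    filter_upwards [hP, hF v h0 h1, hamp v h0 h1 (ε / 2) (by positivity),
      ev_del hpos hs (ε := ε / 2) (by positivity)] with n a1 a2 a3 a4 J
    have h2 := (a1.2.2.2.1 v a2).dm J
    have h3 := h2.subset (alive_sub (hwin n) J) (fun _ _ => zero_le_one)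
    refine DMax.const h3 ?_ (H.rpos n).le
    rw [hBp]
    calc B.d n ^ (-del h (s n)) * amp B lev A q g Λ n (m (s n) v)
        ≤ B.d n ^ (-(ε / 2 * h (s n))) * (B.d n ^ (-(ε / 2 * h (s n))) *
          amp B' (fun n x => lev n (m (s n) x)) A' q g Λ' n v) := by
          have h4 := dpow_le B n (a := -(ε / 2 * h (s n))) (b := -del h (s n)) (by linarith)
          have h5 := (hamp0 n (m (s n) v)).le
          have h6 := (dpow_pos B n (-(ε / 2 * h (s n)))).le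
          exact mul_le_mul h4 a3.1 h5 h6
      _ = _ := by
          rw [← mul_assoc, ← Real.rpow_add (B.pos n)]
          congr 2
          ring
  · -- near
    intro v h0 h1 ε hε
    filter_upwards [hP, hF v h0 h1, hamp v h0 h1 (ε / 2) (by positivity),
      ev_del hpos hs (ε := ε / 2) (by positivity), hlv0 v h0 h1] with n a1 a2 a3 a4 c1 J
    have hp1 := a1.2.2.2.1 v a2
    rcases (alive (I' n) (lev n (m (s n) v)) J).eq_empty_or_nonempty with hem0 | hne0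
    · rw [hem0]
      exact ⟨by simp, by simp, by simp⟩
    · rw [alive_eq (hwin n) c1.1 c1.2 hne0]
      have hw1 : 0 ≤ w1 n (m (s n) v) := (H.rpos n).le.trans hp1.di.1
      refine Near.const (hp1.nr J) (fun _ => zero_le_one) hw1 (hw1.trans hp1.di.2.1)
        (dpow_pos B n _).le a3.2 ?_
      rw [hBp, ← Real.rpow_add (B.pos n)]
      refine dpow_le B n ?_
      linarith
  · -- dims
    intro v h0 h1
    filter_upwards [hP, hF v h0 h1] with n a1 a2
    exact (a1.2.2.2.1 v a2).di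
  · -- tau
    intro v h0 h1
    rw [Metric.tendsto_nhds]
    intro ε hε
    filter_upwards [hP, hF v h0 h1, heτ v h0 h1 (ε / 4) (by positivity),
      ev_del hpos hs (ε := ε / 4) (by positivity), H.dims 1 zero_le_one le_rfl]
      with n a1 a2 a5 a7 a8
    have hh := hpos (s n)
    have hLn := B.L_pos n
    have hp1 := a1.2.2.2.1 v a2
    have hp2 := a1.2.2.2.1 1 (one_mem_Fq _)
    have t1 := hp1.ta
    have t2 := hp2.ta
    have hr : ∀ i : ℕ, 0 < rho i := fun i => by unfold rho; positivity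
    have hw2v : 0 < w2 n (m (s n) v) := ((H.rpos n).trans_le hp1.di.1).trans_le hp1.di.2.1
    have hw21 : 0 < w2 n (m (s n) 1) := ((H.rpos n).trans_le hp2.di.1).trans_le hp2.di.2.1
    have hw1 : 0 < w2 n 1 := ((H.rpos n).trans_le a8.1).trans_le a8.2.1
    rw [Real.dist_eq, hL']
    set Rv : ℝ := rho (lev n (m (s n) v)) / w2 n (m (s n) v) with hRv
    set Rm : ℝ := rho (lev n (m (s n) 1)) / w2 n (m (s n) 1) with hRm
    set R1 : ℝ := rho (lev n 1) / w2 n 1 with hR1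
    have pv : 0 < Rv := div_pos (hr _) hw2v
    have pm : 0 < Rm := div_pos (hr _) hw21
    have p1 : 0 < R1 := div_pos (hr _) hw1
    rw [Real.log_div pv.ne' p1.ne'] at t1
    rw [Real.log_div pm.ne' p1.ne'] at t2
    rw [Real.log_div pv.ne' pm.ne']
    set X : ℝ := (Real.log Rv - Real.log R1) / B.L n with hX
    set Y : ℝ := (Real.log Rm - Real.log R1) / B.L n with hY
    have e1 : (Real.log Rv - Real.log Rm) / (h (s n) * B.L n) - τ' v =
        ((X - Y) - h (s n) * τ' v) / h (s n) := by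
      rw [hX, hY]
      field_simp
      ring
    rw [e1, abs_div, abs_of_pos hh, div_lt_iff₀ hh]
    have h3 : |(X - Y) - h (s n) * τ' v| ≤ 3 / 4 * ε * h (s n) := by
      rw [abs_le] at t1 t2 a5 ⊢
      constructor <;> nlinarith
    have : 0 < ε * h (s n) := mul_pos hε hh
    linarith

end main

end Crest.Agent.R138.MkZoom779
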