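import Crest.Agent.R138.Wpk12_685

/-!
# R138 / R139: selectable wave packets, part 13 (helper685): greedy data with classes, labels.
-/

set_option autoImplicit false
set_option linter.unusedSectionVars false
set_option linter.unusedVariables false

open MeasureTheory FourierTransform
open scoped ContDiff ENNReal

namespace Crest.Agent.R138.Wpk685

open Crest.Agent.R138.Defs Crest.Agent.R138.W188

/-! ### greedy data -/

/-- phase box as a subset of phase space. -/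
def PB (h : E2 → ℝ) (r : ℝ) (p : Tst) : Set Ph :=
  {w | w.2 ∈ pbox h r p.c p.b (fun i => sg (r ^ (-(1/2) : ℝ)) (p.a i)) p.y w.1}

theorem PB_meas (h : E2 → ℝ) (r : ℝ) (p : Tst) : MeasurableSet (PB h r p) :=
  meas_of_sli fun m => pbox_meas _ _ _ _ _ _ m

/-- test set of a pair (plank, class). -/
def TT (h : E2 → ℝ) (r : ℝ) (cls : OrthonormalBasis (Fin 2) ℝ E2 → ℤ × ℤ → E2 → ℕ)
    (p : Tst × ℕ) : Set Ph :=
  PB h r p.1 ∩ {w | cls p.1.b w.1 w.2 = p.2}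

theorem TT_meas (h : E2 → ℝ) (r : ℝ) {cls : OrthonormalBasis (Fin 2) ℝ E2 → ℤ × ℤ → E2 → ℕ}
    (hc : ∀ b m, Measurable (cls b m)) (p : Tst × ℕ) : MeasurableSet (TT h r cls p) :=
  (PB_meas h r p.1).inter (meas_of_sli fun m => hc p.1.b m (measurableSet_singleton _))

theorem cst_ge {q : ℝ} (hq : 0 ≤ q) {r : ℝ} (hr : 1 ≤ r) (a : Fin 2 → ℕ) :
    (r ^ (-(1/2) : ℝ)) ^ q ≤ cst q (r ^ (-(1/2) : ℝ)) r a := by
  obtain ⟨hρ, hρ1, hρ2⟩ := rp_facts hr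
  have hr0 : 0 < r := by linarith
  set ρ : ℝ := r ^ (-(1/2) : ℝ) with hρdef
  have e0 := sg_ge hρ hρ1 (a 0)
  have e1 := sg_ge hρ hρ1 (a 1)
  have e2 : ρ ^ q ≤ (sg ρ (a 1)) ^ q := Real.rpow_le_rpow hρ.le e1 hq
  have e3 : 1 ≤ sg ρ (a 0) * sg ρ (a 1) * r ^ 2 := by
    calc (1:ℝ) ≤ r := hr
      _ = ρ ^ 2 * r ^ 2 := by rw [hρ2]; field_simp
      _ = ρ * ρ * r ^ 2 := by ring
      _ ≤ _ := by
        have hs0 : 0 < sg ρ (a 0) := hρ.trans_le e0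
        gcongr
  have e6 : 0 < ρ ^ q := Real.rpow_pos_of_pos hρ _
  unfold cst
  calc ρ ^ q = ρ ^ q * 1 := (mul_one _).symm
    _ ≤ _ := mul_le_mul e2 e3 zero_le_one (e6.le.trans e2)

theorem rpq {r : ℝ} (hr : 1 ≤ r) (q : ℝ) : (r ^ (-(1/2) : ℝ)) ^ q * r ^ (q / 2) = 1 := by
  have hr0 : 0 < r := by linarith
  rw [← Real.rpow_mul hr0.le, ← Real.rpow_add hr0]
  have : -(1/2) * q + q / 2 = 0 := by ring
  rw [this, Real.rpow_zero]

theorem greedyM {q : ℝ} (hq : 0 ≤ q) {h : E2 → ℝ} {r : ℝ} (hr : 1 ≤ r) {g : E2 → ℂ} (n nb : ℕ)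
    {cls : OrthonormalBasis (Fin 2) ℝ E2 → ℤ × ℤ → E2 → ℕ} (hc : ∀ b m, Measurable (cls b m))
    {X0 : Set Ph} (hX0 : MeasurableSet X0) {E0 : ℝ} (hE0 : 0 ≤ E0)
    (H0 : mu (r ^ (-(1/2) : ℝ)) g X0 ≤ ENNReal.ofReal E0) :
    ∃ (X : ℕ → Set Ph) (nn : ℕ → ℕ) (P : ℕ → ℕ → Tst) (κ : ℕ → ℕ → ℕ) (A : ℕ → ℕ → Set Ph),
      X 0 = X0 ∧ (∀ j, MeasurableSet (X j)) ∧
      (∀ j, ∀ i < nn j, MeasurableSet (A j i) ∧ A j i ⊆ X j ∧ (P j i).a 0 ≤ (P j i).a 1 ∧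
        (P j i).a 1 ≤ n ∧ κ j i < nb ∧ A j i ⊆ TT h r cls (P j i, κ j i) ∧
        ENNReal.ofReal (E0 * r ^ (q / 2) / 2 ^ (j + 1) * cst q (r ^ (-(1/2) : ℝ)) r (P j i).a) <
          mu (r ^ (-(1/2) : ℝ)) g (A j i)) ∧
      (∀ j, ∀ i < nn j, ∀ i' < nn j, i ≠ i' → Disjoint (A j i) (A j i')) ∧
      (∀ j, ∀ x, x ∈ X (j + 1) ↔ x ∈ X j ∧ ∀ i < nn j, x ∉ A j i) ∧
      ∀ j, ∀ p : Tst, p.a 0 ≤ p.a 1 → p.a 1 ≤ n → ∀ β < nb,
        mu (r ^ (-(1/2) : ℝ)) g (X j ∩ TT h r cls (p, β)) ≤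
          ENNReal.ofReal (E0 * r ^ (q / 2) / 2 ^ j * cst q (r ^ (-(1/2) : ℝ)) r p.a) := by
  classical
  obtain ⟨hρ, hρ1, hρ2⟩ := rp_facts hr
  have hr0 : 0 < r := by linarith
  have hqr := rpq hr q
  have hcg := cst_ge hq hr
  set ρ : ℝ := r ^ (-(1/2) : ℝ) with hρdef
  have hρq : 0 < ρ ^ q := Real.rpow_pos_of_pos hρ _
  have hrq : 0 < r ^ (q / 2) := Real.rpow_pos_of_pos hr0 _
  obtain ⟨X, nn, P, A, hXz, H⟩ := levelsM (mu ρ g) (TT h r cls) (TT_meas h r hc)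
    (fun j p => if p.1.a 0 ≤ p.1.a 1 ∧ p.1.a 1 ≤ n ∧ p.2 < nb then
      ENNReal.ofReal (E0 * r ^ (q / 2) / 2 ^ (j + 1) * cst q ρ r p.1.a) else ⊤)
    (fun j => ENNReal.ofReal (E0 / 2 ^ (j + 1))) (fun j => ENNReal.ofReal_ne_top) (by
      intro j p
      split_ifs
      · refine ENNReal.ofReal_le_ofReal ?_
        calc E0 / 2 ^ (j + 1) = E0 / 2 ^ (j + 1) * (ρ ^ q * r ^ (q / 2)) := by rw [hqr, mul_one]
          _ = E0 * r ^ (q / 2) / 2 ^ (j + 1) * ρ ^ q := by ring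
          _ ≤ _ := by
            have := hcg p.1.a
            gcongr
      · exact le_top) X0 hX0 (fun j => 2 ^ (j + 1)) (by
      intro j
      refine H0.trans ?_
      have h1 : ((2 ^ (j + 1) : ℕ) : ℝ≥0∞) = ENNReal.ofReal (2 ^ (j + 1)) := by
        rw [ENNReal.ofReal_pow (by norm_num), ENNReal.ofReal_ofNat]
        push_cast
        rfl
      rw [h1, ← ENNReal.ofReal_mul (by positivity)]
      refine ENNReal.ofReal_le_ofReal (le_of_eq ?_)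
      field_simp)
  refine ⟨X, nn, fun j i => ((P j i).getD (⟨0, EuclideanSpace.basisFun (Fin 2) ℝ, 0, fun _ => 0⟩, 0)).1,
    fun j i => ((P j i).getD (⟨0, EuclideanSpace.basisFun (Fin 2) ℝ, 0, fun _ => 0⟩, 0)).2, A,
    hXz, fun j => (H j).1, ?_, fun j => (H j).2.2.1, fun j => (H j).2.2.2.1, ?_⟩
  · intro j i hi
    obtain ⟨h0, h1, p, hp, h2, h3⟩ := (H j).2.1 i hi
    simp only [hp, Option.getD_some]
    by_cases hc : p.1.a 0 ≤ p.1.a 1 ∧ p.1.a 1 ≤ n ∧ p.2 < nb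
    · simp only [if_pos hc] at h3
      exact ⟨h0, h1, hc.1, hc.2.1, hc.2.2, h2, h3⟩
    · simp only [if_neg hc] at h3
      exact absurd h3 not_top_lt
  · intro j
    rcases j with _ | j
    · intro p _ _ β _
      rw [hXz, pow_zero, div_one]
      refine (measure_mono Set.inter_subset_left).trans (H0.trans (ENNReal.ofReal_le_ofReal ?_))
      calc E0 = E0 * (ρ ^ q * r ^ (q / 2)) := by rw [hqr, mul_one]
        _ = E0 * r ^ (q / 2) * ρ ^ q := by ring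
        _ ≤ _ := by
          have := hcg p.a
          gcongr
    · intro p h1 h2 β hβ
      have h3 := (H j).2.2.2.2 (p, β)
      simp only [if_pos (And.intro h1 (And.intro h2 hβ))] at h3
      exact h3

theorem de_of {q : ℝ} (hq : 0 ≤ q) {h : E2 → ℝ} {r : ℝ} (hr : 1 ≤ r) {g : E2 → ℂ} {n nb : ℕ}
    {cls : OrthonormalBasis (Fin 2) ℝ E2 → ℤ × ℤ → E2 → ℕ}
    (hcb : ∀ b m y, cls b m y < nb) {X : Set Ph} (hX : MeasurableSet X) {Δ : ℝ} (hΔ : 0 ≤ Δ)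
    (H : ∀ p : Tst, p.a 0 ≤ p.a 1 → p.a 1 ≤ n → ∀ β < nb,
        mu (r ^ (-(1/2) : ℝ)) g (X ∩ TT h r cls (p, β)) ≤
          ENNReal.ofReal (Δ * cst q (r ^ (-(1/2) : ℝ)) r p.a)) :
    DE q h r g n (sli X) (nb * Δ) := by
  classical
  obtain ⟨hρ, hρ1, hρ2⟩ := rp_facts hr
  have hr0 : 0 < r := by linarith
  intro p h1 h2
  have e1 : (fun m => sli X m ∩ pbox h r p.c p.b (fun i => sg (r ^ (-(1/2) : ℝ)) (p.a i)) p.y m) =
      sli (X ∩ PB h r p) := rfl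
  rw [e1, ← mu_apply _ _ (hX.inter (PB_meas h r p))]
  have h3 : X ∩ PB h r p ⊆ ⋃ β ∈ Finset.range nb, X ∩ TT h r cls (p, β) := by
    intro w hw
    refine Set.mem_biUnion (Finset.mem_coe.2 (Finset.mem_range.2 (hcb p.b w.1 w.2))) ?_
    exact ⟨hw.1, hw.2, rfl⟩
  refine (measure_mono h3).trans ((measure_biUnion_finset_le _ _).trans ?_)
  refine (Finset.sum_le_sum fun β hβ => H p h1 h2 β (Finset.mem_range.1 hβ)).trans ?_
  have hc : 0 < cst q (r ^ (-(1/2) : ℝ)) r p.a := cst_pos hρ hρ1 hr0 _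
  rw [Finset.sum_const, Finset.card_range, nsmul_eq_mul, ← ENNReal.ofReal_natCast,
    ← ENNReal.ofReal_mul (by positivity), mul_assoc]

/-! ### combinatorics of the levels -/

section combM

variable {α : Type*} {X : ℕ → Set α} {nn : ℕ → ℕ} {A : ℕ → ℕ → Set α}
  (hA : ∀ j, ∀ i < nn j, A j i ⊆ X j)
  (hd : ∀ j, ∀ i < nn j, ∀ i' < nn j, i ≠ i' → Disjoint (A j i) (A j i'))
  (hX : ∀ j, ∀ x, x ∈ X (j + 1) ↔ x ∈ X j ∧ ∀ i < nn j, x ∉ A j i)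

include hX in
theorem X_antiM {j j' : ℕ} (h : j ≤ j') : X j' ⊆ X j := by
  induction j', h using Nat.le_induction with
  | base => exact Set.Subset.refl _
  | succ k hk ih => exact fun x hx => ih ((hX k x).1 hx).1

include hA hd hX in
theorem A_uniqM {j i j' i' : ℕ} (hi : i < nn j) (hi' : i' < nn j') {x : α} (hx : x ∈ A j i)
    (hx' : x ∈ A j' i') : j = j' ∧ i = i' := by
  have key : ∀ {j i j' i' : ℕ}, i < nn j → i' < nn j' → x ∈ A j i → x ∈ A j' i' → ¬ j < j' := by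
    intro j i j' i' hi hi' hx hx' hlt
    have h1 := X_antiM hX (Nat.succ_le_of_lt hlt) (hA j' i' hi' hx')
    exact ((hX j x).1 h1).2 i hi hx
  have hjj : j = j' := le_antisymm (not_lt.1 (key hi' hi hx' hx)) (not_lt.1 (key hi hi' hx hx'))
  subst hjj
  refine ⟨rfl, ?_⟩
  by_contra hne
  exact Set.disjoint_left.1 (hd j i hi i' hi' hne) hx hx'

include hA hX in
theorem X_partM (J : ℕ) (x : α) :
    x ∈ X 0 ↔ x ∈ X J ∨ ∃ j < J, ∃ i < nn j, x ∈ A j i := by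
  induction J with
  | zero => simp
  | succ J ih =>
    rw [ih, hX]
    constructor
    · rintro (h | ⟨j, hj, i, hi, h⟩)
      · by_cases h2 : ∃ i < nn J, x ∈ A J i
        · obtain ⟨i, hi, h3⟩ := h2
          exact Or.inr ⟨J, by omega, i, hi, h3⟩
        · push Not at h2
          exact Or.inl ⟨h, h2⟩
      · exact Or.inr ⟨j, by omega, i, hi, h⟩
    · rintro (h | ⟨j, hj, i, hi, h⟩)
      · exact Or.inl h.1
      · rcases Nat.lt_succ_iff_lt_or_eq.1 hj with h2 | h2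
        · exact Or.inr ⟨j, h2, i, hi, h⟩
        · subst h2
          exact Or.inl (hA j i hi h)

end combM

/-! ### labels with classes -/

/-- geometric part of the label. -/
def k1 (k : ℕ) : ℕ := (Nat.unpair k).1
/-- class of the label. -/
def k2 (k : ℕ) : ℕ := (Nat.unpair k).2

theorem k1_pair (a b : ℕ) : k1 (Nat.pair a b) = a := by simp [k1]
theorem k2_pair (a b : ℕ) : k2 (Nat.pair a b) = b := by simp [k2]
theorem k_self (k : ℕ) : Nat.pair (k1 k) (k2 k) = k := Nat.pair_unpair k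

/-- labels with classes. -/
def LamC (n J nb : ℕ) : Finset ℕ :=
  (Lam n J ×ˢ Finset.range nb).image (fun t => Nat.pair t.1 t.2)

theorem mem_LamC {n J nb k : ℕ} : k ∈ LamC n J nb ↔ k1 k ∈ Lam n J ∧ k2 k < nb := by
  unfold LamC
  rw [Finset.mem_image]
  constructor
  · rintro ⟨t, ht, rfl⟩
    rw [k1_pair, k2_pair]
    rw [Finset.mem_product, Finset.mem_range] at ht
    exact ht
  · intro h
    exact ⟨(k1 k, k2 k), Finset.mem_product.2 ⟨h.1, Finset.mem_range.2 h.2⟩, k_self k⟩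

theorem card_LamC (n J nb : ℕ) : (LamC n J nb).card ≤ (Lam n J).card * nb := by
  unfold LamC
  refine Finset.card_image_le.trans ?_
  rw [Finset.card_product, Finset.card_range]

section labM

variable (nn : ℕ → ℕ) (P : ℕ → ℕ → Tst) (κ : ℕ → ℕ → ℕ) (A : ℕ → ℕ → Set Ph)

/-- plates of a label. -/
def IIM (k : ℕ) : Finset ℕ :=
  (Finset.range (nn (lj (k1 k)))).filter (fun i => (P (lj (k1 k)) i).a 0 = la0 (k1 k) ∧
    (P (lj (k1 k)) i).a 1 = la1 (k1 k) ∧ κ (lj (k1 k)) i = k2 k)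

/-- phase points of a label. -/
def XM (k : ℕ) : Set Ph := ⋃ i ∈ IIM nn P κ k, A (lj (k1 k)) i

variable {nn P κ A}

theorem mem_IIM {k i : ℕ} : i ∈ IIM nn P κ k ↔ i < nn (lj (k1 k)) ∧
    (P (lj (k1 k)) i).a 0 = la0 (k1 k) ∧ (P (lj (k1 k)) i).a 1 = la1 (k1 k) ∧
    κ (lj (k1 k)) i = k2 k := by
  unfold IIM
  rw [Finset.mem_filter, Finset.mem_range]

theorem mem_XM {k : ℕ} {x : Ph} : x ∈ XM nn P κ A k ↔ ∃ i ∈ IIM nn P κ k, x ∈ A (lj (k1 k)) i := by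
  unfold XM
  simp only [Set.mem_iUnion, exists_prop]

variable {X : ℕ → Set Ph}
  (hA : ∀ j, ∀ i < nn j, A j i ⊆ X j)
  (hd : ∀ j, ∀ i < nn j, ∀ i' < nn j, i ≠ i' → Disjoint (A j i) (A j i'))
  (hX : ∀ j, ∀ x, x ∈ X (j + 1) ↔ x ∈ X j ∧ ∀ i < nn j, x ∉ A j i)

include hA in
theorem XM_sub (k : ℕ) : XM nn P κ A k ⊆ X (lj (k1 k)) := by
  intro x hx
  obtain ⟨i, hi, h4⟩ := mem_XM.1 hx
  exact hA _ i (mem_IIM.1 hi).1 h4

include hA hd hX in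
theorem XM_disj {k k' : ℕ} (hne : k ≠ k') : Disjoint (XM nn P κ A k) (XM nn P κ A k') := by
  rw [Set.disjoint_left]
  intro x hx hx'
  obtain ⟨i, h, h4⟩ := mem_XM.1 hx
  obtain ⟨i', h', h4'⟩ := mem_XM.1 hx'
  obtain ⟨h1, h2, h3, h5⟩ := mem_IIM.1 h
  obtain ⟨h1', h2', h3', h5'⟩ := mem_IIM.1 h'
  obtain ⟨e1, e2⟩ := A_uniqM hA hd hX h1 h1' h4 h4'
  apply hne
  rw [← k_self k, ← k_self k']
  have e3 : k1 k = k1 k' := by
    rw [← lab_self (k1 k), ← lab_self (k1 k'), ← h2, ← h3, ← h2', ← h3', ← e2, ← e1]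
  have e4 : k2 k = k2 k' := by
    rw [← h5, ← h5', ← e2, ← e1]
  rw [e3, e4]

include hA hX in
theorem XM_union {n J nb : ℕ} (hP : ∀ j, ∀ i < nn j, (P j i).a 0 ≤ (P j i).a 1 ∧
    (P j i).a 1 ≤ n ∧ κ j i < nb)
    (x : Ph) : x ∈ X 0 \ X J ↔ ∃ k ∈ LamC n J nb, x ∈ XM nn P κ A k := by
  rw [Set.mem_sdiff, X_partM hA hX J]
  constructor
  · rintro ⟨h1 | ⟨j, hj, i, hi, h1⟩, h2⟩
    · exact absurd h1 h2
    · refine ⟨Nat.pair (lab ((P j i).a 0) ((P j i).a 1) j) (κ j i), ?_, ?_⟩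
      · rw [mem_LamC, k1_pair, k2_pair, mem_Lam, la0_lab, la1_lab, lj_lab]
        exact ⟨⟨(hP j i hi).1, (hP j i hi).2.1, hj⟩, (hP j i hi).2.2⟩
      · rw [mem_XM]
        refine ⟨i, ?_, ?_⟩
        · rw [mem_IIM, k1_pair, k2_pair, la0_lab, la1_lab, lj_lab]
          exact ⟨hi, rfl, rfl, rfl⟩
        · rw [k1_pair, lj_lab]
          exact h1
  · rintro ⟨k, hk, hx⟩
    obtain ⟨i, hi, h4⟩ := mem_XM.1 hx
    rw [mem_LamC, mem_Lam] at hk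
    have h1 := (mem_IIM.1 hi).1
    refine ⟨Or.inr ⟨lj (k1 k), hk.1.2.2, i, h1, h4⟩, fun h5 => ?_⟩
    have h6 := X_antiM hX (Nat.succ_le_of_lt hk.1.2.2) h5
    exact ((hX (lj (k1 k)) x).1 h6).2 i h1 h4

end labM

end Crest.Agent.R138.Wpk685
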