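import Mathlib

/-! Literal statements of R138 / R139: class of phases, extension operator, box bound, (EB), (EInf), (C3). -/

set_option autoImplicit false

open MeasureTheory FourierTransform
open scoped ContDiff

namespace Crest.Agent.R138.Defs

/-- the plane of the parameters. -/
abbrev E2 := EuclideanSpace ℝ (Fin 2)

/-- Three-space. -/
abbrev V := EuclideanSpace ℝ (Fin 3)

/-- phases close to the paraboloid (closed under parabolic rescaling). -/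
def Par (c0 : ℝ) (K : ℕ) (h : E2 → ℝ) : Prop :=
  ContDiff ℝ ∞ h ∧ ∀ k : ℕ, 2 ≤ k → k ≤ K → ∀ ξ : E2,
    ‖iteratedFDeriv ℝ k (fun ξ : E2 => h ξ - ‖ξ‖ ^ 2 / 2) ξ‖ ≤ c0

/-- phases close to the paraboloid, all derivatives bounded by a sequence. -/
def ParB (B : ℕ → ℝ) (h : E2 → ℝ) : Prop :=
  ContDiff ℝ ∞ h ∧ ∀ k : ℕ, 2 ≤ k → ∀ ξ : E2,
    ‖iteratedFDeriv ℝ k (fun ξ : E2 => h ξ - ‖ξ‖ ^ 2 / 2) ξ‖ ≤ B k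

/-- `e(t) = exp(2 π i t)`. -/
noncomputable def ee (t : ℝ) : ℂ := Complex.exp (((2 * Real.pi * t : ℝ) : ℂ) * Complex.I)

/-- the extension operator of the graph of `h`. -/
noncomputable def ext (h : E2 → ℝ) (g : E2 → ℂ) (x : E2) (t : ℝ) : ℂ :=
  ∫ ξ, g ξ * ee (inner ℝ x ξ + t * h ξ)

/-- admissible bumps. -/
def Adm (N : ℕ) (ψ : E2 → ℂ) : Prop :=
  ContDiff ℝ ∞ ψ ∧ (∀ y, ψ y ≠ 0 → ∀ i, |y i| ≤ 2) ∧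
    ∀ j : ℕ, j ≤ N → ∀ y, ‖iteratedFDeriv ℝ j ψ y‖ ≤ 1

/-- the cut-off adapted to the rectangle with centre `c`, frame `b`, sides `s` in direction space. -/
noncomputable def chi (h : E2 → ℝ) (c : E2) (b : OrthonormalBasis (Fin 2) ℝ E2) (s : Fin 2 → ℝ)
    (ψ : E2 → ℂ) (ξ : E2) : ℂ :=
  ψ (WithLp.toLp 2 fun i => inner ℝ (gradient h ξ - c) (b i) / s i)

/-- the dual plank of length `R` based at `(x0, t0)`. -/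
def plank (c : E2) (b : OrthonormalBasis (Fin 2) ℝ E2) (s : Fin 2 → ℝ) (R : ℝ) (x0 : E2) (t0 : ℝ) :
    Set (E2 × ℝ) :=
  {p | |p.2 - t0| ≤ R ∧ ∀ i, |inner ℝ (p.1 - x0 + (p.2 - t0) • c) (b i)| ≤ s i * R}

/-- every piece of `ext h g` has energy density at most `D` on every dual plank based in the
cylinder of size `4R`. -/
def BoxBound (N : ℕ) (h : E2 → ℝ) (g : E2 → ℂ) (R D : ℝ) : Prop :=
  ∀ (c : E2) (b : OrthonormalBasis (Fin 2) ℝ E2) (s : Fin 2 → ℝ),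
    (∀ i, R ^ (-(1/2) : ℝ) ≤ s i ∧ s i ≤ 1) → ∀ ψ, Adm N ψ → ∀ (x0 : E2) (t0 : ℝ),
      ‖x0‖ ≤ 4 * R → |t0| ≤ 4 * R →
      ∫⁻ p in plank c b s R x0 t0, ‖ext h (fun ξ => g ξ * chi h c b s ψ ξ) p.1 p.2‖ₑ ^ 2 ≤
        ENNReal.ofReal (D * (s 0 * s 1 * R ^ 3))

/-- the cylinder of size `R`. -/
def cyl (R : ℝ) : Set (E2 × ℝ) := {p | ‖p.1‖ ≤ R ∧ |p.2| ≤ R}

/-- **(EB)**: the local estimate with the box bound (wave side output). -/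
def EB : Prop :=
  ∃ c0 : ℝ, 0 < c0 ∧ ∃ K0 : ℕ, ∀ B : ℕ → ℝ, (∀ k, 2 ≤ k → k ≤ K0 → B k ≤ c0) →
    ∀ ε : ℝ, 0 < ε → ∀ N : ℕ, ∃ C : ℝ, 0 ≤ C ∧
    ∀ h, ParB B h → ∀ R D : ℝ, 1 ≤ R → 0 ≤ D → ∀ g : E2 → ℂ, Measurable g →
      (∃ M : ℝ, ∀ ξ, ‖g ξ‖ ≤ M) → (∀ ξ, 1 < ‖ξ‖ → g ξ = 0) → BoxBound N h g R D →
        ∫⁻ p in cyl R, ‖ext h g p.1 p.2‖ₑ ^ 3 ≤
          ENNReal.ofReal (C * R ^ ε * (R * ∫ ξ, ‖g ξ‖ ^ 2) * Real.sqrt D)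

/-- **(EInf)**: the local estimate for `|g| ≤ 1`. -/
def EInf (B : ℕ → ℝ) : Prop :=
  ∀ ε : ℝ, 0 < ε → ∃ C : ℝ, 0 ≤ C ∧ ∀ h, ParB B h → ∀ R : ℝ, 1 ≤ R → ∀ g : E2 → ℂ,
    Measurable g → (∀ ξ, ‖g ξ‖ ≤ 1) → (∀ ξ, 1 < ‖ξ‖ → g ξ = 0) →
      ∫⁻ p in cyl R, ‖ext h g p.1 p.2‖ₑ ^ 3 ≤ ENNReal.ofReal (C * R ^ ε * ∫ ξ, ‖g ξ‖ ^ 2)

/-- the Bochner-Riesz kernel at scale `1/R`. -/
noncomputable def KR (φ : ℝ → ℝ) (R : ℝ) : V → ℂ :=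
  𝓕⁻ (fun ξ : V => ((φ (R * (1 - ‖ξ‖ ^ 2)) : ℝ) : ℂ))

/-- **(C3)**: restricted type at `p = 3`, all scales. -/
def C3 : Prop :=
  ∀ φ : ℝ → ℝ, ContDiff ℝ ∞ φ → HasCompactSupport φ → ∀ ε : ℝ, 0 < ε → ∃ C : ℝ, 0 ≤ C ∧
    ∀ R : ℝ, 1 ≤ R → ∀ Ω : Set V, MeasurableSet Ω → volume Ω < ⊤ → ∀ f : V → ℂ, Measurable f →
      (∀ x, ‖f x‖ ≤ Ω.indicator (fun _ => (1:ℝ)) x) →
        ∫⁻ x, ‖∫ y, KR φ R (x - y) * f y‖ₑ ^ 3 ≤ ENNReal.ofReal (C * R ^ ε) * volume Ω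

end Crest.Agent.R138.Defs
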