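import Mathlib
import Crest.Agent.R138.Defs_665

/-! Coordinates `V = E2 × ℝ` with an arbitrary axis. -/

set_option autoImplicit false

open MeasureTheory Filter Topology
open scoped ENNReal FourierTransform ContDiff

noncomputable section

namespace Crest.Agent.R138.Fq665

open Crest.Agent.R138.Defs

/-- the euclidean product -/
abbrev PR := WithLp 2 (E2 × ℝ)

/-- coordinates. -/
def up (J : PR ≃ₗᵢ[ℝ] V) (x : E2) (t : ℝ) : V := J (WithLp.toLp 2 (x, t))

variable (J : PR ≃ₗᵢ[ℝ] V)

theorem inner_up (x : E2) (t : ℝ) (y : E2) (s : ℝ) :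
    inner ℝ (up J x t) (up J y s) = inner ℝ x y + t * s := by
  simp [up, LinearIsometryEquiv.inner_map_map, WithLp.prod_inner_apply, mul_comm]

theorem norm_up_sq (x : E2) (t : ℝ) : ‖up J x t‖ ^ 2 = ‖x‖ ^ 2 + t ^ 2 := by
  rw [← real_inner_self_eq_norm_sq, inner_up, real_inner_self_eq_norm_sq]
  ring

theorem up_sub (x y : E2) (t s : ℝ) : up J x t - up J y s = up J (x - y) (t - s) := by
  unfold up
  rw [← map_sub]
  rfl

theorem up_add (x y : E2) (t s : ℝ) : up J x t + up J y s = up J (x + y) (t + s) := by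
  unfold up
  rw [← map_add]
  rfl

theorem continuous_up : Continuous fun p : E2 × ℝ => up J p.1 p.2 := by
  unfold up
  exact J.continuous.comp (WithLp.prod_continuous_toLp 2 E2 ℝ)

theorem contDiff_up : ContDiff ℝ ∞ fun p : E2 × ℝ => up J p.1 p.2 := by
  have : (fun p : E2 × ℝ => up J p.1 p.2) =
      fun p => J ((WithLp.prodContinuousLinearEquiv 2 ℝ E2 ℝ).symm p) := by
    ext p; rfl
  rw [this]
  exact J.contDiff.comp (ContinuousLinearEquiv.contDiff _)

theorem mp_up : MeasurePreserving (fun p : E2 × ℝ => up J p.1 p.2) volume volume := by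
  have h1 : MeasurePreserving (WithLp.toLp 2 : E2 × ℝ → PR) volume volume :=
    WithLp.volume_preserving_toLp E2 ℝ
  exact (J.measurePreserving).comp h1

theorem lintegral_up (f : V → ℝ≥0∞) (hf : Measurable f) :
    ∫⁻ v, f v = ∫⁻ p : E2 × ℝ, f (up J p.1 p.2) :=
  ((mp_up J).lintegral_comp hf).symm

theorem measurableEmbedding_up : MeasurableEmbedding fun p : E2 × ℝ => up J p.1 p.2 := by
  have : (fun p : E2 × ℝ => up J p.1 p.2) =
      fun p => J ((WithLp.prodContinuousLinearEquiv 2 ℝ E2 ℝ).symm p) := by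
    ext p; rfl
  rw [this]
  exact (J.toHomeomorph.measurableEmbedding).comp
    ((WithLp.prodContinuousLinearEquiv 2 ℝ E2 ℝ).symm.toHomeomorph.measurableEmbedding)

theorem integral_up (f : V → ℂ) : ∫ v, f v = ∫ p : E2 × ℝ, f (up J p.1 p.2) :=
  ((mp_up J).integral_comp (measurableEmbedding_up J) f).symm

theorem integrable_up {f : V → ℂ} (hf : Integrable f) :
    Integrable fun p : E2 × ℝ => f (up J p.1 p.2) :=
  (mp_up J).integrable_comp_of_integrable hf

theorem exists_up_eq (w : V) (hw : ‖w‖ = 1) : ∃ J : PR ≃ₗᵢ[ℝ] V, up J 0 1 = w := by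
  have hd : Module.finrank ℝ PR = Module.finrank ℝ V := by
    rw [(WithLp.linearEquiv 2 ℝ (E2 × ℝ)).finrank_eq]
    simp
  let J0 : PR ≃ₗᵢ[ℝ] V :=
    (stdOrthonormalBasis ℝ PR).equiv (stdOrthonormalBasis ℝ V) (finCongr hd)
  set v := up J0 0 1 with hv
  have hv1 : ‖v‖ = 1 := by
    have := norm_up_sq J0 0 1
    rw [← hv] at this
    have h2 : ‖v‖ ^ 2 = 1 := by rw [this]; simp
    nlinarith [norm_nonneg v]
  refine ⟨J0.trans (Submodule.reflection (ℝ ∙ (v - w))ᗮ), ?_⟩
  have := Submodule.reflection_sub (v := v) (w := w) (by rw [hv1, hw])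
  exact this

end Crest.Agent.R138.Fq665
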