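import Crest.Agent.R138.Fr1_665

/-!
R138: the literal interface `(C3)` between the outer shell (S0189 ⇐ (C3), helper200) and the
front (`(C3)` ⇐ (EB), helper665).
-/

set_option autoImplicit false

open MeasureTheory FourierTransform
open scoped ContDiff

namespace Crest.Agent.R138.Sh200

/-- Three-space. -/
abbrev V := EuclideanSpace ℝ (Fin 3)

/-- the smooth multiplier living at distance `1/R` of the unit sphere. -/
noncomputable def mR (φ : ℝ → ℝ) (R : ℝ) (ξ : V) : ℂ := ((φ (R * (1 - ‖ξ‖ ^ 2)) : ℝ) : ℂ)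

/-- its convolution kernel. -/
noncomputable def KR (φ : ℝ → ℝ) (R : ℝ) : V → ℂ := 𝓕⁻ (mR φ R)

/-- `(C3)`: restricted type at `p = 3` with loss `R^ε`. -/
def C3 : Prop :=
  ∀ φ : ℝ → ℝ, ContDiff ℝ ∞ φ → HasCompactSupport φ → ∀ ε : ℝ, 0 < ε →
    ∃ C : ℝ, ∀ R : ℝ, 1 ≤ R → ∀ Ω : Set V, MeasurableSet Ω → volume Ω ≠ ⊤ →
      ∀ f : V → ℂ, Measurable f → (∀ x, ‖f x‖ ≤ Ω.indicator (fun _ => (1:ℝ)) x) →
        ∫⁻ x, ENNReal.ofReal (‖Fr665.cv (KR φ R) f x‖ ^ (3:ℝ))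
          ≤ ENNReal.ofReal (C * R ^ ε) * volume Ω

end Crest.Agent.R138.Sh200
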