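import Mathlib
import Crest.Agent.R138.Defs_665
import Crest.Agent.R138.Fq3_665
import Crest.Agent.R138.ShDefs_200

/-! Literal interfaces: the normalised weak form (EBn) of (EB) and the local sector estimate
(LocSec).  Plan: `EB → EBn → LocSec → Sh200.C3`. -/

set_option autoImplicit false

open MeasureTheory FourierTransform
open scoped ContDiff

namespace Crest.Agent.R138.Defs

/-- box bound on planks based in the cylinder of size `L0 * R`. -/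
def BoxBoundL (L0 : ℝ) (N : ℕ) (h : E2 → ℝ) (g : E2 → ℂ) (R D : ℝ) : Prop :=
  ∀ (c : E2) (b : OrthonormalBasis (Fin 2) ℝ E2) (s : Fin 2 → ℝ),
    (∀ i, R ^ (-(1/2) : ℝ) ≤ s i ∧ s i ≤ 1) → ∀ ψ, Adm N ψ → ∀ (x0 : E2) (t0 : ℝ),
      ‖x0‖ ≤ L0 * R → |t0| ≤ L0 * R →
      ∫⁻ p in plank c b s R x0 t0, ‖ext h (fun ξ => g ξ * chi h c b s ψ ξ) p.1 p.2‖ₑ ^ 2 ≤
        ENNReal.ofReal (D * (s 0 * s 1 * R ^ 3))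

/-- **(EBn)**: weakest form of (EB) that the fronts need: normalised phases (`h 0 = 0`,
`fderiv ℝ h 0 = 0`), box bound in a cylinder of any fixed size `L0 * R`. -/
def EBn : Prop :=
  ∃ c0 : ℝ, 0 < c0 ∧ ∃ K0 : ℕ, ∃ L0 : ℝ, ∀ B : ℕ → ℝ, (∀ k, 2 ≤ k → k ≤ K0 → B k ≤ c0) →
    ∀ ε : ℝ, 0 < ε → ∀ N : ℕ, ∃ C : ℝ, 0 ≤ C ∧
    ∀ h, ParB B h → h 0 = 0 → fderiv ℝ h 0 = 0 → ∀ R D : ℝ, 1 ≤ R → 0 ≤ D →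
      ∀ g : E2 → ℂ, Measurable g → (∃ M : ℝ, ∀ ξ, ‖g ξ‖ ≤ M) → (∀ ξ, 1 < ‖ξ‖ → g ξ = 0) →
        BoxBoundL L0 N h g R D →
        ∫⁻ p in cyl R, ‖ext h g p.1 p.2‖ₑ ^ 3 ≤
          ENNReal.ofReal (C * R ^ ε * (R * ∫ ξ, ‖g ξ‖ ^ 2) * Real.sqrt D)

theorem EBn_of_EB (h : EB) : EBn := by
  obtain ⟨c0, hc0, K0, H⟩ := h
  refine ⟨c0, hc0, K0, 4, fun B hB ε hε N => ?_⟩
  obtain ⟨C, hC, H'⟩ := H B hB ε hε N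
  exact ⟨C, hC, fun h hh _ _ R D hR hD g hg hgb hgs hbox => H' h hh R D hR hD g hg hgb hgs hbox⟩

/-- **(LocSec)**: the local estimate for one small sector of the Bochner-Riesz multiplier. -/
def LocSec : Prop :=
  ∃ ρ : ℝ, 0 < ρ ∧ ρ ≤ 1/8 ∧ ∀ (J : Fq665.PR ≃ₗᵢ[ℝ] V) (a : V → ℂ), ContDiff ℝ ∞ a →
    (∀ v, a v ≠ 0 → ‖v - Fq665.up J 0 1‖ ≤ ρ / 2) →
    ∀ φ : ℝ → ℝ, ContDiff ℝ ∞ φ → HasCompactSupport φ → ∀ δ : ℝ, 0 < δ → δ ≤ 1 →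
    ∃ C : ℝ, 0 ≤ C ∧ ∀ R : ℝ, 1 ≤ R → ∀ f : V → ℂ, Measurable f → (∀ v, ‖f v‖ ≤ 1) →
      (∀ v, 2 * R ^ (1 + δ) < ‖v‖ → f v = 0) →
      ∫⁻ v in Metric.closedBall (0 : V) (R ^ (1 + δ)),
        ‖Fr665.cv (𝓕⁻ (fun v => a v * Sh200.mR φ R v)) f v‖ₑ ^ 3 ≤
          ENNReal.ofReal (C * R ^ (6 * δ)) * ∫⁻ v, ‖f v‖ₑ ^ 2

end Crest.Agent.R138.Defs

namespace Crest.Agent.R138.Defs

/-- **(GlobSec)**: the global restricted estimate for one small sector. -/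
def GlobSec : Prop :=
  ∃ ρ : ℝ, 0 < ρ ∧ ρ ≤ 1/8 ∧ ∀ (J : Fq665.PR ≃ₗᵢ[ℝ] V) (a : V → ℂ), ContDiff ℝ ∞ a →
    (∀ v, a v ≠ 0 → ‖v - Fq665.up J 0 1‖ ≤ ρ / 2) →
    ∀ φ : ℝ → ℝ, ContDiff ℝ ∞ φ → HasCompactSupport φ → ∀ ε : ℝ, 0 < ε →
    ∃ C : ℝ, 0 ≤ C ∧ ∀ R : ℝ, 1 ≤ R → ∀ Ω : Set V, MeasurableSet Ω → volume Ω ≠ ⊤ →
      ∀ f : V → ℂ, Measurable f → (∀ x, ‖f x‖ ≤ Ω.indicator (fun _ => (1:ℝ)) x) →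
      ∫⁻ x, ‖Fr665.cv (𝓕⁻ (fun v => a v * Sh200.mR φ R v)) f x‖ₑ ^ 3 ≤
          ENNReal.ofReal (C * R ^ ε) * volume Ω

end Crest.Agent.R138.Defs
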