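import Crest.Agent.R138.Wpk3_685

/-!
# R138 / R139: selectable wave packets, definitions (helper685).

Scale `r ≥ 1`, `ρ = r^(-1/2)`, caps `m : ℤ × ℤ` of centre `cen ρ m = ρ m`, smooth partition of unity
`cap win (cen ρ m) ρ`, `∑_m = 1`; `um ρ g m = 𝓕⁻ (χ_m g)`; a selection is any family
`S : ℤ × ℤ → Set E2` of measurable sets; `en ρ g S = ∑_m ∫_{S m} |u_m|²`;
`sel ρ g S = ∑_m χ~_m 𝓕 (1_{S m} u_m)`.
-/

set_option autoImplicit false
set_option linter.unusedSectionVars false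

open MeasureTheory FourierTransform
open scoped ContDiff ENNReal

namespace Crest.Agent.R138.Wpk685

open Crest.Agent.R138.Defs

/-- one dimensional partition of unity. -/
noncomputable def th (x : ℝ) : ℝ := Real.smoothTransition (x + 1) - Real.smoothTransition x

/-- the window of the partition of unity, supported in the square of side `2`. -/
noncomputable def win (ζ : E2) : ℂ := ((th (ζ 0) * th (ζ 1) : ℝ) : ℂ)

/-- the fat window: one on the ball of radius `71/50 > √2`, supported in the ball of radius `3/2`. -/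
noncomputable def fat : E2 → ℂ := bmp (71 / 50) (3 / 2) (by norm_num) (by norm_num)

/-- centre of the cap `m`. -/
noncomputable def cen (ρ : ℝ) (m : ℤ × ℤ) : E2 := !₂[ρ * m.1, ρ * m.2]

/-- the caps which meet the ball of radius `2`. -/
noncomputable def caps (ρ : ℝ) : Finset (ℤ × ℤ) :=
  Finset.Icc (-⌈2 / ρ⌉ - 1) (⌈2 / ρ⌉ + 1) ×ˢ Finset.Icc (-⌈2 / ρ⌉ - 1) (⌈2 / ρ⌉ + 1)

/-- the piece of `g` in the cap `m`, physical side. -/
noncomputable def um (ρ : ℝ) (g : E2 → ℂ) (m : ℤ × ℤ) : E2 → ℂ :=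
  𝓕⁻ (fun ξ => cap win (cen ρ m) ρ ξ * g ξ)

/-- energy of a selection. -/
noncomputable def en (ρ : ℝ) (g : E2 → ℂ) (S : ℤ × ℤ → Set E2) : ℝ≥0∞ :=
  ∑ m ∈ caps ρ, ∫⁻ x in S m, ‖um ρ g m x‖ₑ ^ 2

/-- one selected piece. -/
noncomputable def piece (ρ : ℝ) (g : E2 → ℂ) (m : ℤ × ℤ) (S : Set E2) : E2 → ℂ :=
  fun ξ => cap fat (cen ρ m) ρ ξ * 𝓕 (S.indicator (um ρ g m)) ξ

/-- the selected wave. -/
noncomputable def sel (ρ : ℝ) (g : E2 → ℂ) (S : ℤ × ℤ → Set E2) : E2 → ℂ :=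
  fun ξ => ∑ m ∈ caps ρ, piece ρ g m (S m) ξ

/-- the phase box at time `0` of the plank `(c, b, s, y0)` of length `r` (base point `y0` at time
`0`). -/
def pbox (h : E2 → ℝ) (r : ℝ) (c : E2) (b : OrthonormalBasis (Fin 2) ℝ E2) (s : Fin 2 → ℝ)
    (y0 : E2) (m : ℤ × ℤ) : Set E2 :=
  {y | (∀ i, |inner ℝ (gradient h (cen (r ^ (-(1/2) : ℝ)) m) - c) (b i)| ≤ s i) ∧
    ∀ i, |inner ℝ (y - y0) (b i)| ≤ s i * r}

/-! ### the partition of unity -/

theorem th_nonneg (x : ℝ) : 0 ≤ th x := by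
  unfold th
  have := Real.smoothTransition.monotone (show x ≤ x + 1 by linarith)
  linarith

theorem th_le_one (x : ℝ) : th x ≤ 1 := by
  unfold th
  have h1 := Real.smoothTransition.le_one (x + 1)
  have h2 := Real.smoothTransition.nonneg x
  linarith

theorem th_contDiff : ContDiff ℝ ∞ th := by
  unfold th
  exact (Real.smoothTransition.contDiff.comp (contDiff_id.add contDiff_const)).sub
    Real.smoothTransition.contDiff

theorem th_zero {x : ℝ} (hx : 1 ≤ |x|) : th x = 0 := by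
  unfold th
  rcases le_abs.1 hx with h | h
  · rw [Real.smoothTransition.one_of_one_le (by linarith), Real.smoothTransition.one_of_one_le h,
      sub_self]
  · rw [Real.smoothTransition.zero_of_nonpos (by linarith),
      Real.smoothTransition.zero_of_nonpos (by linarith), sub_self]

theorem th_sum {x : ℝ} {N : ℤ} (hx : |x| ≤ N) : ∑ m ∈ Finset.Icc (-N) N, th (x - m) = 1 := by
  have hN : (0:ℤ) ≤ N := by
    have : (0:ℝ) ≤ N := (abs_nonneg x).trans hx
    exact_mod_cast this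
  obtain ⟨hx1, hx2⟩ := abs_le.1 hx
  have key : ∀ k : ℕ, ∑ m ∈ Finset.Icc (-N) (-N + k), th (x - m) =
      Real.smoothTransition (x + N + 1) - Real.smoothTransition (x + N - k) := by
    intro k
    induction k with
    | zero =>
      simp only [Nat.cast_zero, add_zero, Finset.Icc_self, Finset.sum_singleton, sub_zero]
      unfold th
      push_cast
      congr 2 <;> ring
    | succ k ih =>
      have e1 : Finset.Icc (-N) (-N + ((k + 1 : ℕ) : ℤ)) =
          insert (-N + ((k + 1 : ℕ) : ℤ)) (Finset.Icc (-N) (-N + k)) := by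
        ext j
        simp only [Finset.mem_Icc, Finset.mem_insert]
        push_cast
        omega
      rw [e1, Finset.sum_insert (by simp), ih]
      unfold th
      push_cast
      have e2 : x - (-(N:ℝ) + (k + 1)) + 1 = x + N - k := by ring
      have e3 : x - (-(N:ℝ) + (k + 1)) = x + N - (k + 1) := by ring
      rw [e2, e3]
      ring
  have h1 := key (2 * N).toNat
  have h2 : (((2 * N).toNat : ℕ) : ℤ) = 2 * N := Int.toNat_of_nonneg (by omega)
  have h3 : (((2 * N).toNat : ℕ) : ℝ) = 2 * N := by exact_mod_cast h2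
  rw [h2, h3, show -N + 2 * N = N by ring] at h1
  rw [h1, Real.smoothTransition.one_of_one_le (by linarith),
    Real.smoothTransition.zero_of_nonpos (by linarith), sub_zero]

theorem win_contDiff : ContDiff ℝ ∞ win := by
  unfold win
  refine Complex.ofRealCLM.contDiff.comp (ContDiff.mul ?_ ?_)
  · exact th_contDiff.comp (EuclideanSpace.proj (𝕜 := ℝ) (0 : Fin 2)).contDiff
  · exact th_contDiff.comp (EuclideanSpace.proj (𝕜 := ℝ) (1 : Fin 2)).contDiff

theorem win_zero {ζ : E2} (hζ : 2 < ‖ζ‖ ^ 2) : win ζ = 0 := by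
  rw [EuclideanSpace.norm_sq_eq] at hζ
  simp only [Fin.sum_univ_two, Real.norm_eq_abs, sq_abs] at hζ
  unfold win
  rcases le_or_gt (|ζ 0|) 1 with h0 | h0
  · have h1 : 1 ≤ |ζ 1| := by
      by_contra h
      push Not at h
      have a0 := abs_nonneg (ζ 0)
      have a1 := abs_nonneg (ζ 1)
      have b0 := sq_abs (ζ 0)
      have b1 := sq_abs (ζ 1)
      nlinarith
    rw [th_zero h1]; simp
  · rw [th_zero h0.le]; simp

theorem win_zero' {ζ : E2} (hζ : 71 / 50 < ‖ζ‖) : win ζ = 0 :=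
  win_zero (by nlinarith)

theorem norm_win_le (ζ : E2) : ‖win ζ‖ ≤ 1 := by
  unfold win
  rw [Complex.norm_real, Real.norm_eq_abs, abs_of_nonneg (mul_nonneg (th_nonneg _) (th_nonneg _))]
  exact mul_le_one₀ (th_le_one _) (th_nonneg _) (th_le_one _)

theorem fat_one {ζ : E2} (hζ : ‖ζ‖ ≤ 71 / 50) : fat ζ = 1 := bmp_one _ _ _ _ hζ

theorem fat_zero {ζ : E2} (hζ : 3 / 2 ≤ ‖ζ‖) : fat ζ = 0 := bmp_zero _ _ _ _ hζ

theorem fat_contDiff : ContDiff ℝ ∞ fat := bmp_smooth _ _ _ _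

theorem cen_zero (ρ : ℝ) (m : ℤ × ℤ) : cen ρ m 0 = ρ * m.1 := rfl

theorem cen_one (ρ : ℝ) (m : ℤ × ℤ) : cen ρ m 1 = ρ * m.2 := rfl

theorem cap_win_sum {ρ : ℝ} (hρ : 0 < ρ) {ξ : E2} (hξ : ‖ξ‖ ≤ 2) :
    ∑ m ∈ caps ρ, cap win (cen ρ m) ρ ξ = 1 := by
  have hc : ∀ i : Fin 2, |ρ⁻¹ * ξ i| ≤ ((⌈2 / ρ⌉ + 1 : ℤ) : ℝ) := by
    intro i
    have h1 : |ξ i| ≤ 2 := (PiLp.norm_apply_le ξ i).trans hξ
    rw [abs_mul, abs_of_pos (inv_pos.2 hρ)]
    have h2 : (2 / ρ : ℝ) ≤ ⌈2 / ρ⌉ := Int.le_ceil _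
    push_cast
    calc ρ⁻¹ * |ξ i| ≤ ρ⁻¹ * 2 := by gcongr
      _ = 2 / ρ := by rw [div_eq_mul_inv, mul_comm]
      _ ≤ _ := by linarith
  have h0 := th_sum (hc 0)
  have h1 := th_sum (hc 1)
  have e1 : -(⌈2 / ρ⌉ + 1) = -⌈2 / ρ⌉ - 1 := by ring
  rw [e1] at h0 h1
  unfold caps
  rw [Finset.sum_product]
  have e2 : ∀ a b : ℤ, cap win (cen ρ (a, b)) ρ ξ =
      ((th (ρ⁻¹ * ξ 0 - a) * th (ρ⁻¹ * ξ 1 - b) : ℝ) : ℂ) := by
    intro a b
    unfold cap win
    congr 2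
    · congr 1
      simp only [PiLp.smul_apply, PiLp.sub_apply, cen_zero, smul_eq_mul]
      field_simp
    · congr 1
      simp only [PiLp.smul_apply, PiLp.sub_apply, cen_one, smul_eq_mul]
      field_simp
  simp only [e2]
  rw [← Complex.ofReal_one, ← h0]
  push_cast
  refine Finset.sum_congr rfl fun a _ => ?_
  rw [← Finset.mul_sum]
  have h3 : ∑ b ∈ Finset.Icc (-⌈2 / ρ⌉ - 1) (⌈2 / ρ⌉ + 1), ((th (ρ⁻¹ * ξ 1 - b) : ℝ) : ℂ) = 1 := by
    rw [← Complex.ofReal_sum, h1, Complex.ofReal_one]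
  rw [h3, mul_one]

end Crest.Agent.R138.Wpk685
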