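import Crest.Agent.R138.Bil6_882
import Crest.Agent.R138.WpkDef_685
import Crest.Agent.R138.Loc_665

/-!
# R138 / R139: WAVE side, literal objects and interface Props (helper188), doc 1812, version 2

`NN` = local square averages at scale `w` in `L^{3/2}`, `PBox` = penalised box bound,
`St` = state (phase, function, scale, density), `SS` = normalising quantity,
`Plates` = finite system of plates with disjoint selections of packets, `SIG` = its functional.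
-/

set_option autoImplicit false

open MeasureTheory FourierTransform
open scoped ContDiff ENNReal

namespace Crest.Agent.R138.W188

open Crest.Agent.R138.Defs Crest.Agent.R138.Bil882 Crest.Agent.R138.Wpk685

/-- translation: `ext h (tr h z g) p = ext h g (p + z)`. -/
noncomputable def tr (h : E2 → ℝ) (z : E2 × ℝ) (g : E2 → ℂ) (ξ : E2) : ℂ :=
  g ξ * ee (inner ℝ z.1 ξ + z.2 * h ξ)

/-- `∫ (local square average at scale w)^{3/2}` over the cylinder of size `R`. -/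
noncomputable def NN (N : ℕ) (h : E2 → ℝ) (g : E2 → ℂ) (w R : ℝ) : ℝ≥0∞ :=
  ∫⁻ z in cyl R, (ENNReal.ofReal ((w ^ 3)⁻¹) *
    ∫⁻ p, ‖ext h g p.1 p.2‖ₑ ^ 2 * ENNReal.ofReal (wt N w z.1 z.2 p)) ^ (3 / 2 : ℝ)

/-- the cubic integral over the cylinder of size `R`. -/
noncomputable def CC (h : E2 → ℝ) (g : E2 → ℂ) (R : ℝ) : ℝ≥0∞ :=
  ∫⁻ p in cyl R, ‖ext h g p.1 p.2‖ₑ ^ 3

/-- penalised box bound: `D * (wide side)^q` instead of `D`. -/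
def PBox (q : ℝ) (Na : ℕ) (h : E2 → ℝ) (g : E2 → ℂ) (R D : ℝ) : Prop :=
  ∀ (c : E2) (b : OrthonormalBasis (Fin 2) ℝ E2) (s : Fin 2 → ℝ),
    (∀ i, R ^ (-(1/2) : ℝ) ≤ s i ∧ s i ≤ 1) → ∀ ψ, Adm Na ψ → ∀ (x0 : E2) (t0 : ℝ),
      ‖x0‖ ≤ 4 * R → |t0| ≤ 4 * R →
      ∫⁻ p in plank c b s R x0 t0, ‖ext h (fun ξ => g ξ * chi h c b s ψ ξ) p.1 p.2‖ₑ ^ 2 ≤
        ENNReal.ofReal (D * (max (s 0) (s 1)) ^ q * (s 0 * s 1 * R ^ 3))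

/-- energy `∫ |g|²`. -/
noncomputable def En (g : E2 → ℂ) : ℝ := ∫ ξ, ‖g ξ‖ ^ 2

/-- normalising quantity `(R ∫ |g|²) √D`. -/
noncomputable def SS (g : E2 → ℂ) (R D : ℝ) : ℝ := R * En g * Real.sqrt D

/-- a state of the wave argument; `σ` bounds the support of `g`, `M0` is the exponent of
nondegeneracy. -/
structure St (B : ℕ → ℝ) (q : ℝ) (Na : ℕ) (M0 σ : ℝ) (h : E2 → ℝ) (g : E2 → ℂ) (R D : ℝ) :
    Prop where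
  par : ParB B h
  h0 : h 0 = 0
  h1 : fderiv ℝ h 0 = 0
  meas : Measurable g
  bdd : ∃ M : ℝ, ∀ ξ, ‖g ξ‖ ≤ M
  supp : ∀ ξ, σ < ‖ξ‖ → g ξ = 0
  R1 : 1 ≤ R
  D0 : 0 ≤ D
  box : PBox q Na h g R D
  nd : En g ≤ R ^ M0 * D

/-- **LB(q,c)** for functions supported in the ball of radius `σ`. -/
def LB (B : ℕ → ℝ) (q σ c : ℝ) : Prop :=
  ∀ ε : ℝ, 0 < ε → ∀ (Na : ℕ) (M0 : ℝ), ∃ N : ℕ, ∃ C : ℝ, 0 ≤ C ∧
    ∀ h g R D w, St B q Na M0 σ h g R D → 1 ≤ w → w ≤ R ^ (1/2 : ℝ) →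
      NN N h g w R ≤ ENNReal.ofReal (C * R ^ ε * (R / w ^ 2) ^ (c / 2) * SS g R D)

/-- **END(q,c)**. -/
def END (B : ℕ → ℝ) (q c : ℝ) : Prop :=
  ∀ ε : ℝ, 0 < ε → ∀ (Na : ℕ) (M0 : ℝ), ∃ C : ℝ, 0 ≤ C ∧ ∀ h g R D, St B q Na M0 1 h g R D →
      CC h g R ≤ ENNReal.ofReal (C * R ^ (c / 2 + ε) * SS g R D)

/-- **KMw** (70): Kakeya at resolution `R^{1/2} ≤ w ≤ R^{1-ε}`. -/
def KMw (B : ℕ → ℝ) (q : ℝ) : Prop :=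
  ∀ ε : ℝ, 0 < ε → ∀ (Na : ℕ) (M0 : ℝ), ∃ N : ℕ, ∃ C : ℝ, 0 ≤ C ∧
    ∀ h g R D w, St B q Na M0 1 h g R D → R ^ (1/2 : ℝ) ≤ w → w ≤ R ^ (1 - ε) →
      NN N h g w R ≤ ENNReal.ofReal (C * R ^ ε * SS g R D)

section packets

/-- plate of level `r`: frame (ball) `z`, direction centre `c`, orthonormal frame `b`, position `x`
(at time `0` of the frame `z`), selection `S` of packets of level `r`. -/
structure Plate where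
  z : E2 × ℝ
  c : E2
  b : OrthonormalBasis (Fin 2) ℝ E2
  x : E2
  S : ℤ × ℤ → Set E2

/-- finite plate system of level `r`, sides `s1 ≤ s2`, in the cylinder of size `R`; the selections
lie in the phase boxes dilated by `A`. -/
structure Plates (A : ℝ) (h : E2 → ℝ) (r s1 s2 R : ℝ) (I : Finset ℕ) (P : ℕ → Plate) : Prop where
  /-- the frames lie in the cylinder and are equal or `r`-separated. -/
  mem : ∀ i ∈ I, (P i).z ∈ cyl R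
  sep : ∀ i ∈ I, ∀ j ∈ I, (P i).z = (P j).z ∨
    r ≤ ‖(P i).z.1 - (P j).z.1‖ ∨ r ≤ |(P i).z.2 - (P j).z.2|
  x : ∀ i ∈ I, ‖(P i).x‖ ≤ A * r
  meas : ∀ i ∈ I, ∀ m, MeasurableSet ((P i).S m)
  /-- selections lie in the phase box of the plate (constant `A`). -/
  box : ∀ i ∈ I, ∀ m, (P i).S m ⊆ pbox h r (P i).c (P i).b (fun k => A * (![s1, s2] k)) (P i).x m
  /-- selections of the same frame are disjoint. -/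
  disj : ∀ i ∈ I, ∀ j ∈ I, i ≠ j → (P i).z = (P j).z → ∀ m, Disjoint ((P i).S m) ((P j).S m)

/-- value of a plate system: `∑ |P| d_P^{3/2}`, `|P| d_P = r e_P`. -/
noncomputable def val (h : E2 → ℝ) (g : E2 → ℂ) (r s1 s2 : ℝ) (I : Finset ℕ) (P : ℕ → Plate) :
    ℝ≥0∞ :=
  ∑ i ∈ I, ENNReal.ofReal ((s1 * s2 * r ^ 3) ^ (-(1/2) : ℝ)) *
    (ENNReal.ofReal r * en (r ^ (-(1/2) : ℝ)) (tr h (P i).z g) (P i).S) ^ (3 / 2 : ℝ)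

/-- **SIG**: supremum over all plate systems. -/
noncomputable def SIG (A : ℝ) (r s1 s2 : ℝ) (h : E2 → ℝ) (g : E2 → ℂ) (R : ℝ) : ℝ≥0∞ :=
  ⨆ (I : Finset ℕ) (P : ℕ → Plate) (_ : Plates A h r s1 s2 R I P), val h g r s1 s2 I P

end packets

/-! ### the derived leaves, in transformer form (`F r s1 s2 h g R` is any functional; the consumer
takes `F = SIG A`). -/

section leaves

variable (B : ℕ → ℝ) (q : ℝ) (F : ℝ → ℝ → ℝ → (E2 → ℝ) → (E2 → ℂ) → ℝ → ℝ≥0∞)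

/-- admissible sides. -/
structure Sd (r s1 s2 : ℝ) : Prop where
  lo : r ^ (-(1/2) : ℝ) ≤ s1
  le : s1 ≤ s2
  hi : s2 ≤ 1

/-- **TRIV1** (only `nd` is used, exponent `M0/2`). -/
def TRIV1 : Prop := ∀ (Na : ℕ) (M0 : ℝ), ∃ N : ℕ, ∃ C : ℝ, 0 ≤ C ∧
  ∀ h g R D w, St B q Na M0 1 h g R D → 1 ≤ w →
    NN N h g w R ≤ ENNReal.ofReal (C * R ^ (M0 / 2) * SS g R D)

/-- **TRIV2** (LOW + energy count), only for `K0 r ≤ R`. -/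
def TRIV2 : Prop := ∃ K0 : ℝ, 1 ≤ K0 ∧ ∀ ε : ℝ, 0 < ε → ∀ (Na : ℕ) (M0 : ℝ), ∃ C : ℝ, 0 ≤ C ∧
  ∀ h g R D r s1 s2, St B q Na M0 1 h g R D → R ^ (1/2 : ℝ) ≤ r → K0 * r ≤ R → Sd r s1 s2 →
    ENNReal.ofReal (s2 ^ (-q / 2)) * F r s1 s2 h g R ≤
      ENNReal.ofReal (C * R ^ ε * (R / r) ^ (2 : ℝ) * SS g R D)

/-- **HALF**: reduction of the support. -/
def HALF : Prop := ∀ c : ℝ, 0 ≤ c → LB B q (1/2) c → LB B q 1 c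

/-- **A1** = T12 + DEC (D6): a bound for the children at level `r` gives a bound for the root.
The children have parameters `Na'` (depending on `ε` only) and `M0 = 4`. -/
def A1 : Prop := ∀ ε : ℝ, 0 < ε → ∃ Na' : ℕ, ∀ (Na : ℕ) (M0 : ℝ),
  ∃ N0 : ℕ, ∀ N : ℕ, N0 ≤ N → ∃ C : ℝ, 0 ≤ C ∧
  ∀ h g R D, St B q Na M0 (1/2) h g R D → ∀ r w, R ^ (1/2 : ℝ) ≤ r → r ≤ R → 1 ≤ w →
    w ≤ r ^ (1/2 : ℝ) → ∀ Q : ℝ, 1 ≤ Q →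
      (∀ g' D', St B q Na' 4 1 h g' r D' → NN N h g' w r ≤ ENNReal.ofReal (Q * SS g' r D')) →
      ∃ s1 s2, Sd r s1 s2 ∧ NN N h g w R ≤
        ENNReal.ofReal (C * R ^ ε * Q) * (ENNReal.ofReal (s2 ^ (-q / 2)) * F r s1 s2 h g R) +
          ENNReal.ofReal (C * SS g R D)

/-- **A2** = SUP + ZOOM: a bound for `NN` in the zoomed class bounds `F` (thickness `s1 r` below
`R^{1/2}`). The pieces may have other parameters `Na'`, `M0'` (chosen before `N`). -/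
def A2 : Prop := ∃ c0 : ℝ, 0 < c0 ∧ c0 ≤ 1 ∧ ∀ ε : ℝ, 0 < ε → ∀ (Na : ℕ) (M0 : ℝ),
  ∃ (Na' : ℕ) (M0' : ℝ), ∀ N : ℕ, ∃ C : ℝ, 0 ≤ C ∧
  ∀ h g R D, St B q Na M0 1 h g R D → ∀ r s1 s2, R ^ (1/2 : ℝ) ≤ r → r ≤ R ^ (1 - ε) →
    Sd r s1 s2 → s1 * r ≤ R ^ (1/2 : ℝ) → ∀ Q : ℝ, 1 ≤ Q →
      (∀ h' g' R' D' w', St B q Na' M0' 1 h' g' R' D' → c0 * (s2 ^ 2 * R) ≤ R' →
        R' ≤ s2 ^ 2 * R → s2 * s1 * r ≤ w' → w' ≤ c0⁻¹ * (s2 * s1 * r) →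
          NN N h' g' w' R' ≤ ENNReal.ofReal (Q * SS g' R' D')) →
      ENNReal.ofReal (s2 ^ (-q / 2)) * F r s1 s2 h g R ≤ ENNReal.ofReal (C * R ^ ε * Q * SS g R D)

/-- **A2K** = SUP + KM: thickness `s1 r` above `R^{1/2}`. -/
def A2K : Prop := ∀ ε : ℝ, 0 < ε → ∀ (Na : ℕ) (M0 : ℝ), ∃ C : ℝ, 0 ≤ C ∧
  ∀ h g R D, St B q Na M0 1 h g R D → ∀ r s1 s2, R ^ (1/2 : ℝ) ≤ r → r ≤ R ^ (1 - ε) →
    Sd r s1 s2 → R ^ (1/2 : ℝ) ≤ s1 * r →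
      ENNReal.ofReal (s2 ^ (-q / 2)) * F r s1 s2 h g R ≤ ENNReal.ofReal (C * R ^ ε * SS g R D)

/-- **A3** = RR + DEC (D6): re-rooting at level `r1`. -/
def A3 : Prop := ∀ ε : ℝ, 0 < ε → ∃ Na' : ℕ, ∀ (Na : ℕ) (M0 : ℝ), ∃ C : ℝ, 0 ≤ C ∧
  ∀ h g R D, St B q Na M0 (1/2) h g R D → ∀ r1 r2 s1 s2, R ^ (1/2 : ℝ) ≤ r2 → r2 ≤ r1 → r1 ≤ R →
    Sd r2 s1 s2 → ∀ Q : ℝ, 1 ≤ Q →
      (∀ g' D', St B q Na' 4 1 h g' r1 D' →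
        ENNReal.ofReal (s2 ^ (-q / 2)) * F r2 s1 s2 h g' r1 ≤ ENNReal.ofReal (Q * SS g' r1 D')) →
      ∃ s1' s2', Sd r1 s1' s2' ∧ ENNReal.ofReal (s2 ^ (-q / 2)) * F r2 s1 s2 h g R ≤
        ENNReal.ofReal (C * R ^ ε * Q) * (ENNReal.ofReal (s2' ^ (-q / 2)) * F r1 s1' s2' h g R) +
          ENNReal.ofReal (C * SS g R D)

/-- **A4** = BN2 + ZOOM: broad / narrow. The exponent `A` may depend on `εb` (loss of the trilinear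
term) but not on `ε`, `Na`, `M0`, `N`, `k1`, `k`. -/
def A4 : Prop := ∃ c0 : ℝ, 0 < c0 ∧ c0 ≤ 1 ∧ ∀ εb : ℝ, 0 < εb → ∃ A : ℝ, 1 ≤ A ∧
  ∀ k1 k : ℝ, 0 < k1 → k1 ≤ k → k ≤ 1/4 →
  ∀ ε : ℝ, 0 < ε → ∀ (Na : ℕ) (M0 : ℝ), ∃ (Na' : ℕ) (M0' : ℝ), ∀ N : ℕ, ∃ C : ℝ, 0 ≤ C ∧
    ∀ h g R D, St B q Na M0 1 h g R D →
    ∀ Q1 Q2 : ℝ, 1 ≤ Q1 → 1 ≤ Q2 →
      (∀ h' g' R' D', St B q Na' M0' 1 h' g' R' D' → c0 * R ^ (1 - 2 * k1) ≤ R' →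
        R' ≤ R ^ (1 - 2 * k1) → CC h' g' R' ≤ ENNReal.ofReal (Q1 * SS g' R' D')) →
      (∀ h' g' R' D' w', St B q Na' M0' 1 h' g' R' D' → c0 * R ≤ R' → R' ≤ R → R ^ k ≤ w' →
        w' ≤ c0⁻¹ * R ^ k → NN N h' g' w' R' ≤ ENNReal.ofReal (Q2 * SS g' R' D')) →
      CC h g R ≤
        ENNReal.ofReal (C * R ^ ε * (Q1 + R ^ (A * k1) * Q2 + R ^ (A * k + εb)) * SS g R D)

/-- **A5a**: cubes are bounded by local averages at scale one. -/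
def A5a : Prop := ∀ (Na : ℕ) (M0 : ℝ) (N : ℕ), ∃ C : ℝ, 0 ≤ C ∧
  ∀ h g R D, St B q Na M0 1 h g R D → CC h g R ≤ ENNReal.ofReal C * NN N h g 1 R

/-- **A5b**: local averages are bounded by cubes. -/
def A5b : Prop := ∃ c0 : ℝ, 0 < c0 ∧ c0 ≤ 1 ∧ ∀ ε : ℝ, 0 < ε → ∀ (Na : ℕ) (M0 : ℝ),
  ∃ (N Na' : ℕ) (M0' : ℝ) (C : ℝ), 0 ≤ C ∧
    ∀ h g R D, St B q Na M0 1 h g R D → ∀ w, 1 ≤ w → w ≤ R ^ (1/2 : ℝ) → ∀ Q : ℝ, 1 ≤ Q →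
      (∀ h' g' R' D', St B q Na' M0' 1 h' g' R' D' → c0 * R ≤ R' → R' ≤ R →
        CC h' g' R' ≤ ENNReal.ofReal (Q * SS g' R' D')) →
      NN N h g w R ≤ ENNReal.ofReal (C * R ^ ε * Q * SS g R D)

/-- **W3z**: boundary slabs do not grow (two-level statement), only for `d ≤ c3`. -/
def W3z : Prop := ∃ c3 : ℝ, 0 < c3 ∧ c3 ≤ 1 ∧ ∀ η : ℝ, 0 < η → ∃ A η' : ℝ, 1 ≤ A ∧ 0 < η' ∧
  ∀ ε : ℝ, 0 < ε → ∀ Na : ℕ,
  ∃ C : ℝ, 0 ≤ C ∧ ∀ h g R D, St B q Na 4 1 h g R D → ∀ d s1 s2 : ℝ, 0 < d → d ≤ c3 →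
    d ^ (-A) ≤ R → Sd (d * R) s1 s2 → s1 ≤ d ^ (-η') * (d * R) ^ (-(1/2) : ℝ) →
    d ^ (-A) * s1 ≤ s2 →
      ENNReal.ofReal (s2 ^ (-q / 2)) * F (d * R) s1 s2 h g R ≤
        ENNReal.ofReal (C * R ^ ε * d ^ (-η) * SS g R D)

end leaves

end Crest.Agent.R138.W188
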