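import Crest.Agent.R138.Wpk5_685
import Crest.Agent.R138.WDef_188

/-!
# R138 / R139: selectable wave packets, part 6 (helper685): direction cut-offs are good multipliers;
density of the packets in the phase boxes ⟹ penalised box bound (P5 / Q2).
-/

set_option autoImplicit false
set_option linter.unusedSectionVars false

open MeasureTheory FourierTransform
open scoped ContDiff ENNReal

namespace Crest.Agent.R138.Wpk685

open Crest.Agent.R138.Defs
open Crest.Agent.R138.Wf448 (wE dw gw sl LI)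

/-! ### the direction cut-off -/

/-- `v ↦ (⟨v, b i⟩ / s i)_i`. -/
noncomputable def Ls (b : OrthonormalBasis (Fin 2) ℝ E2) (s : Fin 2 → ℝ) : E2 →L[ℝ] E2 :=
  LinearMap.toContinuousLinearMap
    { toFun := fun v => WithLp.toLp 2 fun i => inner ℝ v (b i) / s i
      map_add' := fun v w => by
        ext i
        simp only [inner_add_left, add_div, PiLp.add_apply]
      map_smul' := fun a v => by
        ext i
        simp only [real_inner_smul_left, PiLp.smul_apply, smul_eq_mul, RingHom.id_apply]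
        ring }

theorem Ls_apply (b : OrthonormalBasis (Fin 2) ℝ E2) (s : Fin 2 → ℝ) (v : E2) :
    Ls b s v = WithLp.toLp 2 fun i => inner ℝ v (b i) / s i := rfl

theorem norm_Ls_le (b : OrthonormalBasis (Fin 2) ℝ E2) (s : Fin 2 → ℝ) {ρ : ℝ} (hρ : 0 < ρ)
    (hs : ∀ i, ρ ≤ s i) : ‖Ls b s‖ ≤ ρ⁻¹ := by
  refine ContinuousLinearMap.opNorm_le_bound _ (by positivity) fun v => ?_
  rw [Ls_apply]
  refine le_of_sq_le_sq ?_ (by positivity)
  rw [EuclideanSpace.norm_sq_eq, mul_pow]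
  have h1 : ‖v‖ ^ 2 = ∑ i, (inner ℝ v (b i)) ^ 2 := by
    have := b.sum_sq_norm_inner_left v
    rw [← this]
    refine Finset.sum_congr rfl fun i _ => ?_
    rw [Real.norm_eq_abs, sq_abs]
  rw [h1, Finset.mul_sum]
  refine Finset.sum_le_sum fun i _ => ?_
  simp only [Real.norm_eq_abs, sq_abs]
  rw [div_pow, div_eq_mul_inv, mul_comm]
  refine mul_le_mul_of_nonneg_right ?_ (sq_nonneg _)
  rw [inv_pow]
  exact inv_anti₀ (by positivity) (pow_le_pow_left₀ hρ.le (hs i) 2)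

theorem grad_contDiff {h : E2 → ℝ} (hh : ContDiff ℝ ∞ h) : ContDiff ℝ ∞ (gradient h) := by
  have h1 : ContDiff ℝ ∞ (fderiv ℝ h) := hh.fderiv_right (m := ∞) (by simp)
  exact (InnerProductSpace.toDual ℝ E2).symm.contDiff.comp h1

theorem norm_iteratedFDeriv_grad {B : ℕ → ℝ} {h : E2 → ℝ} (hh : ParB B h) (i : ℕ) (hi : 1 ≤ i)
    (ξ : E2) : ‖iteratedFDeriv ℝ i (gradient h) ξ‖ ≤ 1 + B (i + 1) := by
  have e1 : gradient h = (InnerProductSpace.toDual ℝ E2).symm ∘ (fderiv ℝ h) := rfl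
  rw [e1, LinearIsometryEquiv.norm_iteratedFDeriv_comp_left, norm_iteratedFDeriv_fderiv]
  exact norm_phase_le hh (i + 1) (by omega) ξ

theorem chi_eq (h : E2 → ℝ) (c : E2) (b : OrthonormalBasis (Fin 2) ℝ E2) (s : Fin 2 → ℝ)
    (ψ : E2 → ℂ) : chi h c b s ψ = ψ ∘ fun ξ => Ls b s (gradient h ξ - c) := rfl

theorem chi_contDiff {h : E2 → ℝ} (hh : ContDiff ℝ ∞ h) (c : E2)
    (b : OrthonormalBasis (Fin 2) ℝ E2) (s : Fin 2 → ℝ) {ψ : E2 → ℂ} (hψ : ContDiff ℝ ∞ ψ) :
    ContDiff ℝ ∞ (chi h c b s ψ) := by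
  rw [chi_eq]
  exact hψ.comp ((Ls b s).contDiff.comp ((grad_contDiff hh).sub contDiff_const))

theorem norm_iteratedFDeriv_chi (B : ℕ → ℝ) (N : ℕ) : ∃ K : ℝ, 1 ≤ K ∧ ∀ h, ParB B h →
    ∀ (c : E2) (b : OrthonormalBasis (Fin 2) ℝ E2) (s : Fin 2 → ℝ) (ρ : ℝ), 0 < ρ → ρ ≤ 1 →
    (∀ i, ρ ≤ s i) → ∀ ψ, Adm N ψ → ∀ j ≤ N, ∀ ξ,
    ‖iteratedFDeriv ℝ j (chi h c b s ψ) ξ‖ ≤ K * (ρ⁻¹) ^ j := by
  set D : ℝ := 1 + ∑ k ∈ Finset.range (N + 3), (1 + |B k|) with hD
  have hDs : ∀ k < N + 3, 1 + |B k| ≤ D := by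
    intro k hk
    have : 1 + |B k| ≤ ∑ k ∈ Finset.range (N + 3), (1 + |B k|) :=
      Finset.single_le_sum (f := fun k => 1 + |B k|) (fun i _ => by positivity)
        (Finset.mem_range.2 hk)
    rw [hD]; linarith
  have hD1 : 1 ≤ D := by
    have := hDs 0 (by omega)
    have h2 : 0 ≤ |B 0| := abs_nonneg _
    linarith
  refine ⟨N.factorial * D ^ N, ?_, ?_⟩
  · have h1 : (1:ℝ) ≤ N.factorial := by exact_mod_cast Nat.one_le_iff_ne_zero.2 N.factorial_ne_zero
    have h2 : (1:ℝ) ≤ D ^ N := one_le_pow₀ hD1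
    nlinarith
  intro h hh c b s ρ hρ hρ1 hs ψ hψ j hj ξ
  have hρi : 1 ≤ ρ⁻¹ := (one_le_inv₀ hρ).2 hρ1
  have hL := norm_Ls_le b s hρ hs
  have hf : ContDiff ℝ ∞ (fun ξ => Ls b s (gradient h ξ - c)) :=
    (Ls b s).contDiff.comp ((grad_contDiff hh.1).sub contDiff_const)
  rw [chi_eq]
  have h1 := norm_iteratedFDeriv_comp_le (g := ψ) (f := fun ξ => Ls b s (gradient h ξ - c))
    (n := j) (N := ∞) hψ.1 hf (mod_cast le_top) ξ (C := 1) (D := D * ρ⁻¹)
    (fun i hi => hψ.2.2 i (hi.trans hj) _) ?_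
  · refine h1.trans ?_
    rw [mul_one, mul_pow, ← mul_assoc]
    have h2 : (j.factorial : ℝ) ≤ N.factorial := by exact_mod_cast Nat.factorial_le hj
    have h3 : D ^ j ≤ D ^ N := pow_le_pow_right₀ hD1 hj
    gcongr
  · intro i hi1 hij
    have e1 : (fun ξ => Ls b s (gradient h ξ - c)) = Ls b s ∘ (fun ξ => gradient h ξ - c) := rfl
    rw [e1]
    have hg : ContDiff ℝ ∞ (fun ξ => gradient h ξ - c) := (grad_contDiff hh.1).sub contDiff_const
    have h2 := ContinuousLinearMap.norm_iteratedFDeriv_comp_left (Ls b s) (x := ξ)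
      (hg.contDiffAt) (n := i) (N := ∞) (mod_cast le_top)
    refine h2.trans ?_
    have h3 : iteratedFDeriv ℝ i (fun ξ => gradient h ξ - c) ξ =
        iteratedFDeriv ℝ i (gradient h) ξ := by
      have : (fun ξ => gradient h ξ - c) = (gradient h) - (fun _ => c) := rfl
      rw [this, iteratedFDeriv_sub_apply ((grad_contDiff hh.1).of_le (mod_cast le_top)).contDiffAt
        contDiff_const.contDiffAt, iteratedFDeriv_const_of_ne (by omega)]
      simp
    rw [h3]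
    have h4 := norm_iteratedFDeriv_grad hh i hi1 ξ
    have h5 := hDs (i + 1) (by omega)
    have h6 : B (i + 1) ≤ |B (i + 1)| := le_abs_self _
    calc ‖Ls b s‖ * ‖iteratedFDeriv ℝ i (gradient h) ξ‖ ≤ ρ⁻¹ * D := by
          refine mul_le_mul hL (by linarith) (norm_nonneg _) (by positivity)
      _ = D * ρ⁻¹ := mul_comm _ _
      _ ≤ (D * ρ⁻¹) ^ i := le_self_pow₀ (by nlinarith) (by omega)

/-- cut-off equal to one on the ball of radius `5`. -/
noncomputable def cut5 : E2 → ℂ := cap fw 0 (5 / 2)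

theorem fw_supp : ∀ ζ, 3 < ‖ζ‖ → fw ζ = 0 := fun ζ hζ => bmp_zero 2 3 (by norm_num) (by norm_num) hζ.le

theorem fw_contDiff : ContDiff ℝ ∞ fw := bmp_smooth 2 3 (by norm_num) (by norm_num)

theorem cut5_contDiff : ContDiff ℝ ∞ cut5 := contDiff_cap fw_contDiff 0 _

theorem cut5_hcs : HasCompactSupport cut5 := hcs_cap fw_supp 0 (by norm_num)

theorem cut5_one {ξ : E2} (hξ : ‖ξ‖ ≤ 5) : cut5 ξ = 1 := by
  unfold cut5 cap
  refine bmp_one 2 3 (by norm_num) (by norm_num) ?_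
  rw [sub_zero, norm_smul, Real.norm_eq_abs, abs_of_pos (by norm_num : (0:ℝ) < (5/2)⁻¹)]
  norm_num
  linarith

/-- **direction cut-offs are good multipliers**. -/
theorem chi_mult (B : ℕ → ℝ) (n : ℕ) : ∃ C : ℝ, 0 ≤ C ∧ ∀ h, ParB B h → ∀ (ρ A : ℝ) (w : E2 → ℝ),
    0 < ρ → ρ ≤ 1 → SV ρ A n w → ∀ (c : E2) (b : OrthonormalBasis (Fin 2) ℝ E2) (s : Fin 2 → ℝ),
    (∀ i, ρ ≤ s i) → ∀ ψ, Adm (n + 2) ψ → ∀ G : E2 → ℂ, Integrable G → MemLp G 2 →
    (∀ ξ, G ξ ≠ 0 → ‖ξ‖ ≤ 5) → ∀ t : ℝ,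
    WE w (sl h (fun ξ => G ξ * chi h c b s ψ ξ) t) ≤ ENNReal.ofReal (C * A ^ 2) * WE w (sl h G t) := by
  obtain ⟨C1, hC1, h1⟩ := sv_mult n
  obtain ⟨K, hK, h2⟩ := norm_iteratedFDeriv_chi B (n + 2)
  obtain ⟨Aw, hAw, hwin⟩ := exists_win fw_contDiff fw_supp (n + 2)
  set K2 : ℝ := (∑ j ∈ Finset.range (n + 3), ∑ i ∈ Finset.range (j + 1), (j.choose i : ℝ)) *
    (Aw * K) + 1 with hK2
  have hK0 : 0 ≤ K := by linarith
  refine ⟨C1 * K2 ^ 2, by positivity, ?_⟩
  intro h hh ρ A w hρ hρ1 hw c b s hs ψ hψ G hG hG2 hGs t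
  have hhc : Continuous h := hh.1.continuous
  have hρi : 1 ≤ ρ⁻¹ := (one_le_inv₀ hρ).2 hρ1
  set m : E2 → ℂ := fun ξ => cut5 ξ * chi h c b s ψ ξ with hm
  have hmc : ContDiff ℝ ∞ m := cut5_contDiff.mul (chi_contDiff hh.1 c b s hψ.1)
  have hmt : m.HasTemperateGrowth := (cut5_hcs.mul_right).hasTemperateGrowth hmc
  have e1 : sl h (fun ξ => G ξ * chi h c b s ψ ξ) t = fun ξ => m ξ * sl h G t ξ := by
    funext ξ
    unfold sl
    by_cases h0 : G ξ = 0
    · simp [h0]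
    · rw [hm]
      simp only
      rw [cut5_one (hGs ξ h0)]
      ring
  rw [e1]
  refine (h1 ρ A w hρ hw m (sl h G t) K2 (by positivity) hmt ?_ (sl_int hhc hG t)
    (sl_l2 hhc hG2 t)).trans (le_of_eq ?_)
  · intro j hj ξ
    have h3 := norm_iteratedFDeriv_mul_le (𝕜 := ℝ) (N := ∞) cut5_contDiff
      (chi_contDiff hh.1 c b s hψ.1) ξ (n := j) (mod_cast le_top)
    refine h3.trans ?_
    have h4 : ∑ i ∈ Finset.range (j + 1), (j.choose i : ℝ) * ‖iteratedFDeriv ℝ i cut5 ξ‖ *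
        ‖iteratedFDeriv ℝ (j - i) (chi h c b s ψ) ξ‖ ≤
        ∑ i ∈ Finset.range (j + 1), (j.choose i : ℝ) * ((Aw * K) * (ρ⁻¹) ^ j) := by
      refine Finset.sum_le_sum fun i hi => ?_
      have hi' := Finset.mem_range.1 hi
      have h5 : ‖iteratedFDeriv ℝ i cut5 ξ‖ ≤ Aw := by
        have h6 := norm_iteratedFDeriv_cap_le fw_contDiff 0 (l := 5 / 2) (by norm_num) i
          (fun ζ => hwin.bd i (by omega) ζ) ξ
        refine h6.trans ?_
        refine mul_le_of_le_one_right hAw (pow_le_one₀ (by norm_num) (by norm_num))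
      have h7 := h2 h hh c b s ρ hρ hρ1 hs ψ hψ (j - i) (by omega) ξ
      have h8 : (ρ⁻¹) ^ (j - i) ≤ (ρ⁻¹) ^ j := pow_le_pow_right₀ hρi (by omega)
      calc (j.choose i : ℝ) * ‖iteratedFDeriv ℝ i cut5 ξ‖ *
            ‖iteratedFDeriv ℝ (j - i) (chi h c b s ψ) ξ‖ ≤
            (j.choose i : ℝ) * Aw * (K * (ρ⁻¹) ^ j) := by
              have : ‖iteratedFDeriv ℝ (j - i) (chi h c b s ψ) ξ‖ ≤ K * (ρ⁻¹) ^ j :=
                h7.trans (mul_le_mul_of_nonneg_left h8 hK0)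
              gcongr
        _ = _ := by ring
    refine h4.trans ?_
    rw [← Finset.sum_mul, ← mul_assoc]
    refine mul_le_mul_of_nonneg_right ?_ (by positivity)
    rw [hK2]
    have h9 : ∑ i ∈ Finset.range (j + 1), (j.choose i : ℝ) ≤
        ∑ j ∈ Finset.range (n + 3), ∑ i ∈ Finset.range (j + 1), (j.choose i : ℝ) :=
      Finset.single_le_sum (f := fun j => ∑ i ∈ Finset.range (j + 1), (j.choose i : ℝ))
        (fun j _ => Finset.sum_nonneg fun i _ => by positivity) (Finset.mem_range.2 (by omega))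
    have h10 : 0 ≤ Aw * K := by positivity
    nlinarith
  · congr 2
    ring

/-! ### covering by boxes -/

/-- one dimensional profile. -/
noncomputable def pf (ρ L u : ℝ) : ℝ := ((1 + ρ * max (|u| - L) 0) ^ 2)⁻¹

theorem pf_pos {ρ : ℝ} (hρ : 0 ≤ ρ) (L u : ℝ) : 0 < pf ρ L u := by
  unfold pf
  have : 0 ≤ max (|u| - L) 0 := le_max_right _ _
  positivity

theorem pf_le_one {ρ : ℝ} (hρ : 0 ≤ ρ) (L u : ℝ) : pf ρ L u ≤ 1 := by
  unfold pf
  have h1 : 0 ≤ max (|u| - L) 0 := le_max_right _ _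
  refine inv_le_one_of_one_le₀ (one_le_pow₀ ?_)
  have := mul_nonneg hρ h1
  linarith

theorem pf_anti {ρ : ℝ} (hρ : 0 ≤ ρ) {L u L' u' : ℝ} (h : |u'| - L' ≤ |u| - L) :
    pf ρ L u ≤ pf ρ L' u' := by
  unfold pf
  have h1 : max (|u'| - L') 0 ≤ max (|u| - L) 0 := max_le_max_right 0 h
  have h0 : 0 ≤ max (|u'| - L') 0 := le_max_right _ _
  refine inv_anti₀ (by positivity) (pow_le_pow_left₀ (by positivity) ?_ 2)
  have := mul_le_mul_of_nonneg_left h1 hρ
  linarith

theorem pf_sv {ρ : ℝ} (hρ : 0 ≤ ρ) (L u v : ℝ) : pf ρ L u ≤ (1 + ρ * |u - v|) ^ 2 * pf ρ L v := by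
  unfold pf
  have h0 : 0 ≤ max (|u| - L) 0 := le_max_right _ _
  have h1 : 0 ≤ max (|v| - L) 0 := le_max_right _ _
  rw [← div_eq_mul_inv, inv_eq_one_div, div_le_div_iff₀ (by positivity) (by positivity), one_mul,
    ← mul_pow]
  refine pow_le_pow_left₀ (by positivity) ?_ 2
  have h2 : max (|v| - L) 0 ≤ |u - v| + max (|u| - L) 0 := by
    refine max_le ?_ (by positivity)
    have h3 : |v| ≤ |u - v| + |u| := by
      have := abs_sub_abs_le_abs_sub v u
      rw [abs_sub_comm] at this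
      linarith
    have h4 := le_max_left (|u| - L) 0
    linarith
  have h5 := mul_le_mul_of_nonneg_left h2 hρ
  have h6 : 0 ≤ ρ * |u - v| := by positivity
  have h7 : 0 ≤ ρ * max (|u| - L) 0 := by positivity
  nlinarith [mul_nonneg h6 h7]

/-- weight adapted to a box. -/
noncomputable def wbx (ρ : ℝ) (b : OrthonormalBasis (Fin 2) ℝ E2) (L : Fin 2 → ℝ) (x0 x : E2) : ℝ :=
  pf ρ (L 0) (inner ℝ (x - x0) (b 0)) * pf ρ (L 1) (inner ℝ (x - x0) (b 1))

theorem SV_wbx {ρ : ℝ} (hρ : 0 ≤ ρ) (b : OrthonormalBasis (Fin 2) ℝ E2) (L : Fin 2 → ℝ) (x0 : E2) :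
    SV ρ 1 4 (wbx ρ b L x0) := by
  refine ⟨?_, fun x => mul_pos (pf_pos hρ _ _) (pf_pos hρ _ _), fun x y => ?_⟩
  · unfold wbx pf
    fun_prop
  · unfold wbx
    have h1 : ∀ i, |inner ℝ (x - x0) (b i) - inner ℝ (y - x0) (b i)| ≤ ‖x - y‖ := by
      intro i
      rw [← inner_sub_left]
      have e1 : x - x0 - (y - x0) = x - y := by abel
      rw [e1]
      refine (abs_real_inner_le_norm _ _).trans ?_
      rw [b.norm_eq_one, mul_one]
    have h2 : ∀ i, pf ρ (L i) (inner ℝ (x - x0) (b i)) ≤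
        (1 + ρ * ‖x - y‖) ^ 2 * pf ρ (L i) (inner ℝ (y - x0) (b i)) := by
      intro i
      refine (pf_sv hρ _ _ (inner ℝ (y - x0) (b i))).trans ?_
      have := h1 i
      have h3 := (pf_pos hρ (L i) (inner ℝ (y - x0) (b i))).le
      gcongr
    have h3 := (pf_pos hρ (L 1) (inner ℝ (x - x0) (b 1))).le
    have h4 := (pf_pos hρ (L 0) (inner ℝ (y - x0) (b 0))).le
    calc _ ≤ ((1 + ρ * ‖x - y‖) ^ 2 * pf ρ (L 0) (inner ℝ (y - x0) (b 0))) *
          ((1 + ρ * ‖x - y‖) ^ 2 * pf ρ (L 1) (inner ℝ (y - x0) (b 1))) :=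
          mul_le_mul (h2 0) (h2 1) h3 (by positivity)
      _ = _ := by ring

theorem summable_int : Summable (fun k : ℤ => ((1 + |(k:ℝ)|) ^ 2)⁻¹) := by
  have h1 : Summable (fun n : ℕ => ((1 + (n:ℝ)) ^ 2)⁻¹) := by
    have h2 := (summable_nat_add_iff 1).2 (Real.summable_nat_pow_inv.2 one_lt_two)
    refine h2.congr fun n => ?_
    push_cast
    rw [add_comm]
  refine Summable.of_nat_of_neg ?_ ?_
  · refine h1.congr fun n => ?_
    simp
  · refine h1.congr fun n => ?_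
    simp

/-- the covering constant. -/
noncomputable def ccov (K : ℝ) : ℝ := (1 + K) ^ 2 * ∑' k : ℤ, ((1 + |(k:ℝ)|) ^ 2)⁻¹

theorem ccov_nonneg (K : ℝ) : 0 ≤ ccov K :=
  mul_nonneg (sq_nonneg _) (tsum_nonneg fun k => by positivity)

theorem pf_int_le {K : ℝ} (hK : 0 ≤ K) (k : ℤ) :
    pf 1 K (2 * k) ≤ (1 + K) ^ 2 * ((1 + |(k:ℝ)|) ^ 2)⁻¹ := by
  unfold pf
  rw [← div_eq_mul_inv, inv_eq_one_div, div_le_div_iff₀ (by
    have : 0 ≤ max (|2 * (k:ℝ)| - K) 0 := le_max_right _ _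
    positivity) (by positivity), one_mul, ← mul_pow, one_mul]
  have h0 : 0 ≤ max (|2 * (k:ℝ)| - K) 0 := le_max_right _ _
  refine pow_le_pow_left₀ (by positivity) ?_ 2
  have h1 : |2 * (k:ℝ)| = 2 * |(k:ℝ)| := by rw [abs_mul, abs_of_pos (by norm_num : (0:ℝ) < 2)]
  rw [h1] at h0 ⊢
  have h2 : 0 ≤ |(k:ℝ)| := abs_nonneg _
  rcases le_or_gt (|(k:ℝ)|) K with h3 | h3
  · nlinarith
  · have h4 := le_max_left (2 * |(k:ℝ)| - K) 0
    nlinarith

theorem tsum_pf {K : ℝ} (hK : 0 ≤ K) :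
    ∑' k : ℤ, ENNReal.ofReal (pf 1 K (2 * k)) ≤ ENNReal.ofReal (ccov K) := by
  calc _ ≤ ∑' k : ℤ, ENNReal.ofReal ((1 + K) ^ 2 * ((1 + |(k:ℝ)|) ^ 2)⁻¹) :=
        ENNReal.tsum_le_tsum fun k => ENNReal.ofReal_le_ofReal (pf_int_le hK k)
    _ = ENNReal.ofReal (∑' k : ℤ, (1 + K) ^ 2 * ((1 + |(k:ℝ)|) ^ 2)⁻¹) :=
        (ENNReal.ofReal_tsum_of_nonneg (fun k => by positivity) (summable_int.mul_left _)).symm
    _ = _ := by rw [tsum_mul_left]; rfl

/-- point with coordinates `a` in the frame `b`. -/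
noncomputable def sh (b : OrthonormalBasis (Fin 2) ℝ E2) (a : Fin 2 → ℝ) : E2 := ∑ i, a i • b i

theorem inner_sh (b : OrthonormalBasis (Fin 2) ℝ E2) (a : Fin 2 → ℝ) (i : Fin 2) :
    inner ℝ (sh b a) (b i) = a i := by
  unfold sh
  rw [sum_inner]
  simp only [real_inner_smul_left, orthonormal_iff_ite.1 b.orthonormal]
  simp

/-- box in position space. -/
def bx (b : OrthonormalBasis (Fin 2) ℝ E2) (L : Fin 2 → ℝ) (y0 : E2) : Set E2 :=
  {y | ∀ i, |inner ℝ (y - y0) (b i)| ≤ L i}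

theorem bx_meas (b : OrthonormalBasis (Fin 2) ℝ E2) (L : Fin 2 → ℝ) (y0 : E2) :
    MeasurableSet (bx b L y0) := by
  have : bx b L y0 = ⋂ i, {y | |inner ℝ (y - y0) (b i)| ≤ L i} := by
    ext y; simp [bx]
  rw [this]
  refine MeasurableSet.iInter fun i => ?_
  exact measurableSet_le (by fun_prop) measurable_const

/-- **covering lemma**. -/
theorem box_cover {K : ℝ} (hK : 0 ≤ K) {κ : Type*} (s : Finset κ) (F : κ → E2 → ℝ≥0∞)
    (hF : ∀ m ∈ s, Measurable (F m)) (W : κ → E2 → ℝ) {ρ : ℝ} (hρ : 0 < ρ)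
    (b : OrthonormalBasis (Fin 2) ℝ E2) (L : Fin 2 → ℝ) (hL : ∀ i, 1 ≤ ρ * L i) (y0 : E2)
    (T : ℝ≥0∞) (hT : ∀ y1, ∑ m ∈ s, ∫⁻ y in bx b L y1, F m y ≤ T)
    (hW : ∀ m ∈ s, ∀ y, W m y ≤ wbx ρ b (fun i => K * L i) y0 y) :
    ∑ m ∈ s, ∫⁻ y, ENNReal.ofReal (W m y) * F m y ≤ ENNReal.ofReal (ccov (K + 1) ^ 2) * T := by
  have hL0 : ∀ i, 0 < L i := by
    intro i
    have := hL i
    by_contra h
    push Not at h
    nlinarith
  set q : ℤ × ℤ → E2 := fun k => y0 + sh b ![2 * k.1 * L 0, 2 * k.2 * L 1] with hq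
  have hpt : ∀ m ∈ s, ∀ y, ENNReal.ofReal (W m y) * F m y ≤
      ∑' k : ℤ × ℤ, (ENNReal.ofReal (pf 1 (K + 1) (2 * k.1)) *
        ENNReal.ofReal (pf 1 (K + 1) (2 * k.2))) * (bx b L (q k)).indicator (F m) y := by
    intro m hm y
    set k : ℤ × ℤ := (round (inner ℝ (y - y0) (b 0) / (2 * L 0)),
      round (inner ℝ (y - y0) (b 1) / (2 * L 1))) with hk
    have hr : ∀ (i : Fin 2) (z : ℤ), z = round (inner ℝ (y - y0) (b i) / (2 * L i)) →
        |inner ℝ (y - y0) (b i) - 2 * z * L i| ≤ L i := by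
      intro i z hz
      have h1 := abs_sub_round (inner ℝ (y - y0) (b i) / (2 * L i))
      rw [← hz] at h1
      have h2 : inner ℝ (y - y0) (b i) - 2 * z * L i =
          (inner ℝ (y - y0) (b i) / (2 * L i) - z) * (2 * L i) := by
        have := (hL0 i).ne'
        field_simp
      rw [h2, abs_mul, abs_of_pos (by have := hL0 i; positivity : 0 < 2 * L i)]
      have := hL0 i
      nlinarith
    have h0 := hr 0 k.1 rfl
    have h1 := hr 1 k.2 rfl
    have hmem : y ∈ bx b L (q k) := by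
      intro i
      have e1 : y - q k = (y - y0) - sh b ![2 * k.1 * L 0, 2 * k.2 * L 1] :=
        sub_add_eq_sub_sub _ _ _
      rw [e1, inner_sub_left, inner_sh]
      fin_cases i
      · simpa using h0
      · simpa using h1
    have hpf : ∀ (i : Fin 2) (z : ℤ), |inner ℝ (y - y0) (b i) - 2 * z * L i| ≤ L i →
        pf ρ (K * L i) (inner ℝ (y - y0) (b i)) ≤ pf 1 (K + 1) (2 * z) := by
      intro i z hz
      unfold pf
      have h3 : |2 * (z:ℝ) * L i| ≤ |inner ℝ (y - y0) (b i)| + L i := by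
        have e2 : 2 * (z:ℝ) * L i = inner ℝ (y - y0) (b i) -
          (inner ℝ (y - y0) (b i) - 2 * z * L i) := by ring
        rw [e2]
        exact (abs_sub _ _).trans (by linarith)
      rw [abs_mul, abs_of_pos (hL0 i)] at h3
      have h4 : max (|2 * (z:ℝ)| - (K + 1)) 0 ≤
          ρ * max (|inner ℝ (y - y0) (b i)| - K * L i) 0 := by
        have h5 := le_max_left (|inner ℝ (y - y0) (b i)| - K * L i) 0
        have h6 := le_max_right (|inner ℝ (y - y0) (b i)| - K * L i) 0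
        refine max_le ?_ (by positivity)
        by_cases h7 : |2 * (z:ℝ)| - (K + 1) ≤ 0
        · exact h7.trans (by positivity)
        · push Not at h7
          have h8 : L i * (|2 * (z:ℝ)| - (K + 1)) ≤
              max (|inner ℝ (y - y0) (b i)| - K * L i) 0 := by nlinarith
          calc |2 * (z:ℝ)| - (K + 1) ≤ (ρ * L i) * (|2 * (z:ℝ)| - (K + 1)) := by
                have := hL i
                nlinarith
            _ = ρ * (L i * (|2 * (z:ℝ)| - (K + 1))) := by ring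
            _ ≤ _ := by gcongr
      have h9 : 0 ≤ max (|2 * (z:ℝ)| - (K + 1)) 0 := le_max_right _ _
      rw [one_mul]
      refine inv_anti₀ (by positivity) (pow_le_pow_left₀ (by positivity) (by linarith) 2)
    refine le_trans ?_ (ENNReal.le_tsum k)
    rw [Set.indicator_of_mem hmem]
    refine mul_le_mul_left ?_ _
    rw [← ENNReal.ofReal_mul (pf_pos zero_le_one _ _).le]
    refine ENNReal.ofReal_le_ofReal ((hW m hm y).trans ?_)
    unfold wbx
    exact mul_le_mul (hpf 0 k.1 h0) (hpf 1 k.2 h1) (pf_pos hρ.le _ _).le (pf_pos zero_le_one _ _).le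
  calc ∑ m ∈ s, ∫⁻ y, ENNReal.ofReal (W m y) * F m y ≤ ∑ m ∈ s, ∫⁻ y,
        ∑' k : ℤ × ℤ, (ENNReal.ofReal (pf 1 (K + 1) (2 * k.1)) *
        ENNReal.ofReal (pf 1 (K + 1) (2 * k.2))) * (bx b L (q k)).indicator (F m) y :=
        Finset.sum_le_sum fun m hm => lintegral_mono (hpt m hm)
    _ = ∑ m ∈ s, ∑' k : ℤ × ℤ, (ENNReal.ofReal (pf 1 (K + 1) (2 * k.1)) *
        ENNReal.ofReal (pf 1 (K + 1) (2 * k.2))) * ∫⁻ y in bx b L (q k), F m y := by
        refine Finset.sum_congr rfl fun m hm => ?_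
        rw [lintegral_tsum]
        · refine tsum_congr fun k => ?_
          rw [lintegral_const_mul' _ _ (ENNReal.mul_ne_top ENNReal.ofReal_ne_top
            ENNReal.ofReal_ne_top), lintegral_indicator (bx_meas b L (q k))]
        · intro k
          exact (((hF m hm).indicator (bx_meas b L (q k))).const_mul _).aemeasurable
    _ = ∑' k : ℤ × ℤ, ∑ m ∈ s, (ENNReal.ofReal (pf 1 (K + 1) (2 * k.1)) *
        ENNReal.ofReal (pf 1 (K + 1) (2 * k.2))) * ∫⁻ y in bx b L (q k), F m y :=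
        (Summable.tsum_finsetSum fun m _ => ENNReal.summable).symm
    _ ≤ ∑' k : ℤ × ℤ, (ENNReal.ofReal (pf 1 (K + 1) (2 * k.1)) *
        ENNReal.ofReal (pf 1 (K + 1) (2 * k.2))) * T := by
        refine ENNReal.tsum_le_tsum fun k => ?_
        rw [← Finset.mul_sum]
        exact mul_le_mul_right (hT (q k)) _
    _ = (∑' k : ℤ, ENNReal.ofReal (pf 1 (K + 1) (2 * k))) *
        (∑' k : ℤ, ENNReal.ofReal (pf 1 (K + 1) (2 * k))) * T := by
        rw [ENNReal.tsum_mul_right, ENNReal.tsum_prod (f := fun a b : ℤ =>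
          ENNReal.ofReal (pf 1 (K + 1) (2 * a)) * ENNReal.ofReal (pf 1 (K + 1) (2 * b)))]
        congr 1
        simp only [ENNReal.tsum_mul_left, ENNReal.tsum_mul_right]
    _ ≤ ENNReal.ofReal (ccov (K + 1)) * ENNReal.ofReal (ccov (K + 1)) * T := by
        have := tsum_pf (K := K + 1) (by linarith)
        gcongr
    _ = _ := by
        rw [← ENNReal.ofReal_mul (ccov_nonneg _), sq]

/-! ### density of packets ⟹ box bound -/

theorem rp_facts {r : ℝ} (hr : 1 ≤ r) : 0 < r ^ (-(1/2) : ℝ) ∧ r ^ (-(1/2) : ℝ) ≤ 1 ∧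
    (r ^ (-(1/2) : ℝ)) ^ 2 = r⁻¹ := by
  have hr0 : 0 < r := by linarith
  refine ⟨Real.rpow_pos_of_pos hr0 _, Real.rpow_le_one_of_one_le_of_nonpos hr (by norm_num), ?_⟩
  rw [← Real.rpow_natCast, ← Real.rpow_mul hr0.le]
  norm_num
  rw [Real.rpow_neg_one]

theorem pbox_meas (h : E2 → ℝ) (r : ℝ) (c : E2) (b : OrthonormalBasis (Fin 2) ℝ E2)
    (s : Fin 2 → ℝ) (y0 : E2) (m : ℤ × ℤ) : MeasurableSet (pbox h r c b s y0 m) := by
  by_cases hc : ∀ i, |inner ℝ (gradient h (cen (r ^ (-(1/2) : ℝ)) m) - c) (b i)| ≤ s i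
  · have : pbox h r c b s y0 m = bx b (fun i => s i * r) y0 := by
      ext y
      simp only [pbox, bx, Set.mem_ofPred_eq]
      exact and_iff_right hc
    rw [this]
    exact bx_meas _ _ _
  · have : pbox h r c b s y0 m = ∅ := by
      ext y
      simp only [pbox, Set.mem_ofPred_eq, Set.mem_empty_iff_false, iff_false, not_and]
      exact fun h => absurd h hc
    rw [this]
    exact MeasurableSet.empty

/-- every selection inside an honest phase box has penalised density at most `Δ`. -/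
def Dens (q : ℝ) (h : E2 → ℝ) (r : ℝ) (g : E2 → ℂ) (S : ℤ × ℤ → Set E2) (Δ : ℝ) : Prop :=
  ∀ (c : E2) (b : OrthonormalBasis (Fin 2) ℝ E2) (s : Fin 2 → ℝ) (y0 : E2),
    (∀ i, r ^ (-(1/2) : ℝ) ≤ s i ∧ s i ≤ 1) →
    en (r ^ (-(1/2) : ℝ)) g (fun m => S m ∩ pbox h r c b s y0 m) ≤
      ENNReal.ofReal (Δ * (max (s 0) (s 1)) ^ q * (s 0 * s 1 * r ^ 2))

/-- shifts of the direction box. -/
theorem near_shift {K : ℝ} (hK : 1 ≤ K) (b : OrthonormalBasis (Fin 2) ℝ E2) {s : Fin 2 → ℝ}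
    (hs : ∀ i, 0 < s i) (v : E2) (hv : ∀ i, |inner ℝ v (b i)| ≤ K * s i) :
    ∃ j ∈ Finset.Icc (-⌈K⌉) ⌈K⌉ ×ˢ Finset.Icc (-⌈K⌉) ⌈K⌉,
      ∀ i, |inner ℝ (v - sh b ![2 * (j : ℤ × ℤ).1 * s 0, 2 * j.2 * s 1]) (b i)| ≤ s i := by
  have hr : ∀ (i : Fin 2), |inner ℝ v (b i) - 2 * (round (inner ℝ v (b i) / (2 * s i)) : ℤ) * s i| ≤
      s i ∧ round (inner ℝ v (b i) / (2 * s i)) ∈ Finset.Icc (-⌈K⌉) ⌈K⌉ := by
    intro i
    have hsi := hs i
    have h1 := abs_sub_round (inner ℝ v (b i) / (2 * s i))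
    set z := round (inner ℝ v (b i) / (2 * s i)) with hz
    constructor
    · have h2 : inner ℝ v (b i) - 2 * z * s i = (inner ℝ v (b i) / (2 * s i) - z) * (2 * s i) := by
        field_simp
      rw [h2, abs_mul, abs_of_pos (by positivity : 0 < 2 * s i)]
      nlinarith
    · have h3 : |inner ℝ v (b i) / (2 * s i)| ≤ K / 2 := by
        rw [abs_div, abs_of_pos (by positivity : 0 < 2 * s i), div_le_div_iff₀ (by positivity)
          (by norm_num)]
        have := hv i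
        nlinarith
      have h4 : |(z:ℝ)| ≤ K := by
        have h5 : (z:ℝ) = inner ℝ v (b i) / (2 * s i) - (inner ℝ v (b i) / (2 * s i) - z) := by ring
        rw [h5]
        refine (abs_sub _ _).trans ?_
        linarith
      have h6 : |(z:ℝ)| ≤ ⌈K⌉ := h4.trans (Int.le_ceil K)
      have h7 : |z| ≤ ⌈K⌉ := by exact_mod_cast h6
      rw [Finset.mem_Icc]
      exact abs_le.1 h7
  refine ⟨(round (inner ℝ v (b 0) / (2 * s 0)), round (inner ℝ v (b 1) / (2 * s 1))), ?_, ?_⟩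
  · rw [Finset.mem_product]
    exact ⟨(hr 0).2, (hr 1).2⟩
  · intro i
    rw [inner_sub_left, inner_sh]
    fin_cases i
    · simpa using (hr 0).1
    · simpa using (hr 1).1

theorem slice_dens (B : ℕ → ℝ) (q : ℝ) (L : ℝ) (hL : 1 ≤ L) : ∃ C : ℝ, 0 ≤ C ∧ ∀ h, ParB B h →
    ∀ r : ℝ, 1 ≤ r → ∀ g : E2 → ℂ, Integrable g → (∀ ξ, 2 < ‖ξ‖ → g ξ = 0) →
    ∀ S : ℤ × ℤ → Set E2, Bs (r ^ (-(1/2) : ℝ)) S → ∀ Δ : ℝ, 0 ≤ Δ → Dens q h r g S Δ →
    ∀ (c : E2) (b : OrthonormalBasis (Fin 2) ℝ E2) (s : Fin 2 → ℝ),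
    (∀ i, r ^ (-(1/2) : ℝ) ≤ s i ∧ s i ≤ 1) → ∀ ψ, Adm 6 ψ → ∀ (xt : E2) (t : ℝ), |t| ≤ L * r →
    ∫⁻ x in bx b (fun i => s i * r) xt,
      ‖ext h (fun ξ => sel (r ^ (-(1/2) : ℝ)) g S ξ * chi h c b s ψ ξ) x t‖ₑ ^ 2 ≤
      ENNReal.ofReal (C * (Δ * (max (s 0) (s 1)) ^ q * (s 0 * s 1 * r ^ 2))) := by
  obtain ⟨C1, hC1, h1⟩ := chi_mult B 4
  obtain ⟨C2, hC2, h2⟩ := thmA B 4 L hL
  set K2 : ℝ := 2 + 3 / 2 * (1 + |B 2|) with hK2
  have hB2 : 0 ≤ |B 2| := abs_nonneg _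
  have hK21 : 1 ≤ K2 := by rw [hK2]; linarith
  set K : ℝ := 1 + L * K2 with hK
  have hK0 : 0 ≤ K := by rw [hK]; positivity
  set J : Finset (ℤ × ℤ) := Finset.Icc (-⌈K2⌉) ⌈K2⌉ ×ˢ Finset.Icc (-⌈K2⌉) ⌈K2⌉ with hJ
  have hcc := ccov_nonneg (K + 1)
  refine ⟨C1 * C2 * (ccov (K + 1) ^ 2 * J.card), by positivity, ?_⟩
  intro h hh r hr g hg hgs S hS Δ hΔ hD c b s hs ψ hψ xt t ht
  obtain ⟨hρ, hρ1, hρ2⟩ := rp_facts hr
  set ρ : ℝ := r ^ (-(1/2) : ℝ) with hρdef
  have hr0 : 0 < r := by linarith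
  have hs0 : ∀ i, 0 < s i := fun i => hρ.trans_le (hs i).1
  have hhc : Continuous h := hh.1.continuous
  have hts : |t| * ρ ^ 2 ≤ L := by
    rw [hρ2]
    calc |t| * r⁻¹ ≤ (L * r) * r⁻¹ := by gcongr
      _ = L := by field_simp
  set MP : Finset (ℤ × ℤ) :=
    (caps ρ).filter (fun m => ∀ i, |inner ℝ (gradient h (cen ρ m) - c) (b i)| ≤ K2 * s i) with hMP
  set G' : E2 → ℂ := fun ξ => ∑ m ∈ MP, piece ρ g m (S m) ξ with hG'
  have hG'c : Continuous G' := continuous_finsetSum _ fun m hm =>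
    piece_cont hg m (hS.meas m (Finset.mem_filter.1 hm).1) (hS.bdd m (Finset.mem_filter.1 hm).1)
  have hG's : ∀ ξ, G' ξ ≠ 0 → ‖ξ‖ ≤ 5 := by
    intro ξ hξ
    obtain ⟨m, hm, hm2⟩ := Finset.exists_ne_zero_of_sum_ne_zero hξ
    have h3 := piece_supp hρ m ξ hm2
    by_cases hc : 2 + 71 / 50 * ρ < ‖cen ρ m‖
    · exfalso
      apply hm2
      unfold piece
      rw [um_zero hρ hgs hc]
      have e2 : (S m).indicator (fun _ : E2 => (0:ℂ)) = fun _ => 0 := by
        funext y; simp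
      rw [e2, fourier_eq_int]
      simp
    · push Not at hc
      have h4 : ‖ξ‖ ≤ ‖ξ - cen ρ m‖ + ‖cen ρ m‖ := by
        calc ‖ξ‖ = ‖(ξ - cen ρ m) + cen ρ m‖ := by congr 1; abel
          _ ≤ _ := norm_add_le _ _
      linarith
  have hG'h : HasCompactSupport G' := by
    refine HasCompactSupport.of_support_subset_isCompact (isCompact_closedBall (0 : E2) 5)
      fun ξ hξ => ?_
    rw [Metric.mem_closedBall, dist_zero_right]
    exact hG's ξ hξ
  have hG'i : Integrable G' := hG'c.integrable_of_hasCompactSupport hG'h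
  have hG'2 : MemLp G' 2 := hG'c.memLp_of_hasCompactSupport hG'h
  -- only the caps in `MP` matter
  have hsel : (fun ξ => sel ρ g S ξ * chi h c b s ψ ξ) = fun ξ => G' ξ * chi h c b s ψ ξ := by
    funext ξ
    by_cases hχ : chi h c b s ψ ξ = 0
    · rw [hχ, mul_zero, mul_zero]
    · congr 1
      rw [hG']
      simp only
      rw [hMP, Finset.sum_filter_of_ne]
      · rfl
      · intro m hm hne i
        have h3 := piece_supp hρ m ξ hne
        have h4 := hψ.2.1 _ hχ i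
        simp only at h4
        rw [abs_div, abs_of_pos (hs0 i), div_le_iff₀ (hs0 i)] at h4
        have h5 := Crest.Agent.R138.Wf448.gradient_lip hh.1 (M := 1 + |B 2|)
          (fun ξ => (norm_phase_le hh 2 le_rfl ξ).trans (by linarith [le_abs_self (B 2)]))
          (cen ρ m) ξ
        have h6 : |inner ℝ (gradient h (cen ρ m) - gradient h ξ) (b i)| ≤
            (1 + |B 2|) * (3 / 2 * ρ) := by
          refine (abs_real_inner_le_norm _ _).trans ?_
          rw [b.norm_eq_one, mul_one]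
          refine h5.trans ?_
          rw [norm_sub_rev]
          gcongr
        have h7 : gradient h (cen ρ m) - c = (gradient h (cen ρ m) - gradient h ξ) +
            (gradient h ξ - c) := by abel
        rw [h7, inner_add_left]
        refine (abs_add_le _ _).trans ?_
        have h8 : (1 + |B 2|) * (3 / 2 * ρ) ≤ (1 + |B 2|) * (3 / 2 * s i) := by
          have := (hs i).1
          gcongr
        rw [hK2]
        linarith
  rw [hsel]
  set w : E2 → ℝ := wbx ρ b (fun i => s i * r) xt with hw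
  have hSV : SV ρ 1 4 w := SV_wbx hρ.le b _ xt
  have a1 : ∫⁻ x in bx b (fun i => s i * r) xt,
      ‖ext h (fun ξ => G' ξ * chi h c b s ψ ξ) x t‖ₑ ^ 2 ≤
      WE w (sl h (fun ξ => G' ξ * chi h c b s ψ ξ) t) := by
    unfold WE
    refine (setLIntegral_mono' (bx_meas _ _ _) fun x hx => ?_).trans (setLIntegral_le_lintegral _ _)
    have h3 : w x = 1 := by
      rw [hw]
      unfold wbx pf
      have h4 : ∀ i : Fin 2, max (|inner ℝ (x - xt) (b i)| - s i * r) 0 = 0 := fun i =>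
        max_eq_right (by have := hx i; simp only at this; linarith)
      rw [h4 0, h4 1]
      norm_num
    rw [h3, ENNReal.ofReal_one, one_mul, Crest.Agent.R138.Wf448.ext_eq]
  have a2 := h1 h hh ρ 1 w hρ hρ1 hSV c b s (fun i => (hs i).1) ψ hψ G' hG'i hG'2 hG's t
  have a3 := h2 h hh ρ 1 w hρ hρ1 hSV MP (fun m => piece ρ g m (S m))
    (fun m => (S m).indicator (um ρ g m))
    (fun m hm => piece_rep hρ hg m (hS.meas m (Finset.mem_filter.1 hm).1)
      (hS.bdd m (Finset.mem_filter.1 hm).1)) t hts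
  rw [one_pow, mul_one] at a2 a3
  -- covering
  set cost : ℝ≥0∞ := ENNReal.ofReal (Δ * (max (s 0) (s 1)) ^ q * (s 0 * s 1 * r ^ 2)) with hcost
  have a4 := box_cover hK0 MP (fun m y => ‖(S m).indicator (um ρ g m) y‖ₑ ^ 2)
    (fun m hm => (((um_cont hg m).measurable.indicator
      (hS.meas m (Finset.mem_filter.1 hm).1)).enorm).pow_const 2)
    (fun m y => w (y - t • gradient h (cen ρ m))) hρ b (fun i => s i * r)
    (fun i => by
      have h3 := (hs i).1
      have h4 : ρ * (ρ * r) = 1 := by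
        rw [← mul_assoc, ← sq, hρ2]
        field_simp
      calc (1:ℝ) = ρ * (ρ * r) := h4.symm
        _ ≤ ρ * (s i * r) := by gcongr)
    (xt + t • c) (J.card * cost) ?_ ?_
  · calc _ ≤ _ := a1
      _ ≤ ENNReal.ofReal C1 * (ENNReal.ofReal C2 * (ENNReal.ofReal (ccov (K + 1) ^ 2) *
          (J.card * cost))) :=
          a2.trans (mul_le_mul_right (a3.trans (mul_le_mul_right a4 _)) _)
      _ = _ := by
          rw [hcost]
          have hcn : 0 ≤ Δ * (max (s 0) (s 1)) ^ q * (s 0 * s 1 * r ^ 2) := by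
            have h3 := hs0 0
            have h4 := hs0 1
            have h5 : 0 ≤ (max (s 0) (s 1)) ^ q := Real.rpow_nonneg (le_max_of_le_left h3.le) _
            positivity
          rw [← ENNReal.ofReal_natCast J.card, ← ENNReal.ofReal_mul (by positivity),
            ← ENNReal.ofReal_mul (by positivity), ← ENNReal.ofReal_mul (by positivity),
            ← ENNReal.ofReal_mul (by positivity)]
          congr 1
          ring
  · -- energies in the boxes
    intro y1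
    have h3 : ∀ m ∈ MP, ∫⁻ y in bx b (fun i => s i * r) y1, ‖(S m).indicator (um ρ g m) y‖ₑ ^ 2 ≤
        ∑ j ∈ J, ∫⁻ y in S m ∩ pbox h r (c + sh b ![2 * j.1 * s 0, 2 * j.2 * s 1]) b s y1 m,
          ‖um ρ g m y‖ₑ ^ 2 := by
      intro m hm
      obtain ⟨hm1, hm2⟩ := Finset.mem_filter.1 hm
      obtain ⟨j, hj, hj2⟩ := near_shift hK21 b hs0 (gradient h (cen ρ m) - c) hm2
      refine le_trans ?_ (Finset.single_le_sum (f := fun j : ℤ × ℤ =>
        ∫⁻ y in S m ∩ pbox h r (c + sh b ![2 * j.1 * s 0, 2 * j.2 * s 1]) b s y1 m,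
          ‖um ρ g m y‖ₑ ^ 2) (fun _ _ => zero_le) hj)
      have e1 := lint_ind (hS.meas m hm1)
        ((bx b (fun i => s i * r) y1).indicator (fun _ => (1:ℝ≥0∞))) (um ρ g m)
      have e2 : ∫⁻ y in bx b (fun i => s i * r) y1, ‖(S m).indicator (um ρ g m) y‖ₑ ^ 2 =
          ∫⁻ y, (bx b (fun i => s i * r) y1).indicator (fun _ => (1:ℝ≥0∞)) y *
            ‖(S m).indicator (um ρ g m) y‖ₑ ^ 2 := by
        rw [← lintegral_indicator (bx_meas _ _ _)]
        refine lintegral_congr fun y => ?_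
        by_cases hy : y ∈ bx b (fun i => s i * r) y1
        · rw [Set.indicator_of_mem hy, Set.indicator_of_mem hy, one_mul]
        · rw [Set.indicator_of_notMem hy, Set.indicator_of_notMem hy, zero_mul]
      rw [e2, e1, ← lintegral_indicator (hS.meas m hm1),
        ← lintegral_indicator ((hS.meas m hm1).inter (pbox_meas _ _ _ _ _ _ _))]
      refine lintegral_mono fun y => ?_
      by_cases hyS : y ∈ S m
      · rw [Set.indicator_of_mem hyS]
        by_cases hy : y ∈ bx b (fun i => s i * r) y1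
        · have h5 : y ∈ S m ∩ pbox h r (c + sh b ![2 * j.1 * s 0, 2 * j.2 * s 1]) b s y1 m := by
            refine ⟨hyS, fun i => ?_, fun i => hy i⟩
            rw [← sub_sub]
            exact hj2 i
          rw [Set.indicator_of_mem hy, one_mul, Set.indicator_of_mem h5]
        · rw [Set.indicator_of_notMem hy, zero_mul]
          exact zero_le
      · rw [Set.indicator_of_notMem hyS]
        exact zero_le
    calc _ ≤ ∑ m ∈ MP, ∑ j ∈ J,
          ∫⁻ y in S m ∩ pbox h r (c + sh b ![2 * j.1 * s 0, 2 * j.2 * s 1]) b s y1 m,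
            ‖um ρ g m y‖ₑ ^ 2 := Finset.sum_le_sum h3
      _ = ∑ j ∈ J, ∑ m ∈ MP,
          ∫⁻ y in S m ∩ pbox h r (c + sh b ![2 * j.1 * s 0, 2 * j.2 * s 1]) b s y1 m,
            ‖um ρ g m y‖ₑ ^ 2 := Finset.sum_comm
      _ ≤ ∑ j ∈ J, cost := by
          refine Finset.sum_le_sum fun j _ => ?_
          refine le_trans ?_ (hD (c + sh b ![2 * j.1 * s 0, 2 * j.2 * s 1]) b s y1 hs)
          exact Finset.sum_le_sum_of_subset (Finset.filter_subset _ _)
      _ = J.card * cost := by rw [Finset.sum_const, nsmul_eq_mul]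
  · -- the weights
    intro m hm y
    obtain ⟨hm1, hm2⟩ := Finset.mem_filter.1 hm
    rw [hw]
    unfold wbx
    have h3 : ∀ i, pf ρ (s i * r) (inner ℝ (y - t • gradient h (cen ρ m) - xt) (b i)) ≤
        pf ρ (K * (s i * r)) (inner ℝ (y - (xt + t • c)) (b i)) := by
      intro i
      refine pf_anti hρ.le ?_
      have e1 : inner ℝ (y - (xt + t • c)) (b i) =
          inner ℝ (y - t • gradient h (cen ρ m) - xt) (b i) +
            t * inner ℝ (gradient h (cen ρ m) - c) (b i) := by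
        rw [← real_inner_smul_left, ← inner_add_left]
        congr 1
        rw [smul_sub]; abel
      have h4 := hm2 i
      have h5 : |t * inner ℝ (gradient h (cen ρ m) - c) (b i)| ≤ (L * r) * (K2 * s i) := by
        rw [abs_mul]
        have := abs_nonneg t
        exact mul_le_mul ht h4 (abs_nonneg _) (by positivity)
      have h6 : |inner ℝ (y - (xt + t • c)) (b i)| ≤
          |inner ℝ (y - t • gradient h (cen ρ m) - xt) (b i)| + (L * r) * (K2 * s i) := by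
        rw [e1]
        exact (abs_add_le _ _).trans (by linarith)
      rw [hK]
      nlinarith
    exact mul_le_mul (h3 0) (h3 1) (pf_pos hρ.le _ _).le (pf_pos hρ.le _ _).le

theorem ext_cont {h : E2 → ℝ} (hh : Continuous h) {g : E2 → ℂ} (hg : Integrable g) :
    Continuous (fun z : E2 × ℝ => ext h g z.1 z.2) := by
  unfold ext
  have hee : Continuous ee := contDiff_ee.continuous
  refine continuous_of_dominated (bound := fun ξ => ‖g ξ‖) ?_ ?_ hg.norm ?_
  · intro z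
    exact hg.aestronglyMeasurable.mul
      ((hee.comp ((continuous_const.inner continuous_id).add
        (continuous_const.mul hh))).aestronglyMeasurable)
  · intro z
    refine Filter.Eventually.of_forall fun ξ => ?_
    rw [norm_mul]
    have : ‖Crest.Agent.R138.Defs.ee (inner ℝ z.1 ξ + z.2 * h ξ)‖ = 1 := norm_ee _
    rw [this, mul_one]
  · refine Filter.Eventually.of_forall fun ξ => ?_
    exact continuous_const.mul (hee.comp ((continuous_fst.inner continuous_const).add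
      (continuous_snd.mul continuous_const)))

/-- plank integrals by slices. -/
theorem plank_slices (c : E2) (b : OrthonormalBasis (Fin 2) ℝ E2) (s : Fin 2 → ℝ) (r : ℝ) (x0 : E2)
    (t0 : ℝ) {F : E2 × ℝ → ℝ≥0∞} (hF : Measurable F) :
    ∫⁻ p in plank c b s r x0 t0, F p = ∫⁻ t in Set.Icc (t0 - r) (t0 + r),
      ∫⁻ x in bx b (fun i => s i * r) (x0 - (t - t0) • c), F (x, t) := by
  have hm : MeasurableSet (plank c b s r x0 t0) := by
    have : plank c b s r x0 t0 = {p | |p.2 - t0| ≤ r} ∩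
        ⋂ i, {p | |inner ℝ (p.1 - x0 + (p.2 - t0) • c) (b i)| ≤ s i * r} := by
      ext p; simp [plank]
    rw [this]
    refine (measurableSet_le (by fun_prop) measurable_const).inter (MeasurableSet.iInter fun i => ?_)
    exact measurableSet_le (by fun_prop) measurable_const
  rw [← lintegral_indicator hm, Measure.volume_eq_prod, lintegral_prod_symm _
    (hF.indicator hm).aemeasurable, ← lintegral_indicator measurableSet_Icc]
  refine lintegral_congr fun t => ?_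
  by_cases ht : t ∈ Set.Icc (t0 - r) (t0 + r)
  · rw [Set.indicator_of_mem ht, ← lintegral_indicator (bx_meas _ _ _)]
    refine lintegral_congr fun x => ?_
    have h1 : |t - t0| ≤ r := by
      rw [abs_le]
      obtain ⟨h2, h3⟩ := ht
      constructor <;> linarith
    have h2 : ((x, t) ∈ plank c b s r x0 t0) ↔ x ∈ bx b (fun i => s i * r) (x0 - (t - t0) • c) := by
      simp only [plank, bx, Set.mem_ofPred_eq]
      have e1 : x - (x0 - (t - t0) • c) = x - x0 + (t - t0) • c := by abel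
      rw [e1]
      exact and_iff_right h1
    by_cases hx : x ∈ bx b (fun i => s i * r) (x0 - (t - t0) • c)
    · rw [Set.indicator_of_mem hx, Set.indicator_of_mem (h2.2 hx)]
    · rw [Set.indicator_of_notMem hx, Set.indicator_of_notMem (fun h => hx (h2.1 h))]
  · rw [Set.indicator_of_notMem ht]
    refine (lintegral_congr fun x => ?_).trans lintegral_zero
    rw [Set.indicator_of_notMem]
    rintro ⟨h2, _⟩
    apply ht
    simp only at h2
    rw [abs_le] at h2
    constructor <;> linarith [h2.1, h2.2]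

/-- **(P5 / Q2)**: density of the selected packets gives the penalised box bound. -/
theorem pbox_sel (B : ℕ → ℝ) (q : ℝ) : ∃ C : ℝ, 0 ≤ C ∧ ∀ h, ParB B h →
    ∀ r : ℝ, 1 ≤ r → ∀ g : E2 → ℂ, Integrable g → (∀ ξ, 2 < ‖ξ‖ → g ξ = 0) →
    ∀ S : ℤ × ℤ → Set E2, Bs (r ^ (-(1/2) : ℝ)) S → ∀ Δ : ℝ, 0 ≤ Δ → Dens q h r g S Δ →
    W188.PBox q 6 h (sel (r ^ (-(1/2) : ℝ)) g S) r (C * Δ) := by
  obtain ⟨C, hC, h1⟩ := slice_dens B q 5 (by norm_num)
  refine ⟨2 * C, by positivity, ?_⟩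
  intro h hh r hr g hg hgs S hS Δ hΔ hD c b s hs ψ hψ x0 t0 hx0 ht0
  obtain ⟨hρ, hρ1, hρ2⟩ := rp_facts hr
  have hr0 : 0 < r := by linarith
  have hhc : Continuous h := hh.1.continuous
  have hint : Integrable (fun ξ => sel (r ^ (-(1/2) : ℝ)) g S ξ * chi h c b s ψ ξ) := by
    refine (sel_int hρ hg hS).1.mul_bdd (c := 1)
      (chi_contDiff hh.1 c b s hψ.1).continuous.aestronglyMeasurable
      (Filter.Eventually.of_forall fun ξ => ?_)
    have := hψ.2.2 0 (Nat.zero_le _) (WithLp.toLp 2 fun i => inner ℝ (gradient h ξ - c) (b i) / s i)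
    rwa [norm_iteratedFDeriv_zero] at this
  have hF : Measurable (fun p : E2 × ℝ =>
      ‖ext h (fun ξ => sel (r ^ (-(1/2) : ℝ)) g S ξ * chi h c b s ψ ξ) p.1 p.2‖ₑ ^ 2) :=
    ((ext_cont hhc hint).measurable.enorm).pow_const 2
  rw [plank_slices c b s r x0 t0 hF]
  have hs0 : ∀ i, 0 < s i := fun i => hρ.trans_le (hs i).1
  have hcn : 0 ≤ Δ * (max (s 0) (s 1)) ^ q * (s 0 * s 1 * r ^ 2) := by
    have h3 := hs0 0
    have h4 := hs0 1
    have h5 : 0 ≤ (max (s 0) (s 1)) ^ q := Real.rpow_nonneg (le_max_of_le_left h3.le) _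
    positivity
  calc _ ≤ ∫⁻ t in Set.Icc (t0 - r) (t0 + r),
        ENNReal.ofReal (C * (Δ * (max (s 0) (s 1)) ^ q * (s 0 * s 1 * r ^ 2))) := by
        refine setLIntegral_mono' measurableSet_Icc fun t ht => ?_
        refine h1 h hh r hr g hg hgs S hS Δ hΔ hD c b s hs ψ hψ _ t ?_
        rw [abs_le] at ht0 ⊢
        obtain ⟨h2, h3⟩ := ht
        constructor <;> linarith
    _ = _ := by
        rw [setLIntegral_const, Real.volume_Icc, ← ENNReal.ofReal_mul (by positivity)]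
        congr 1
        ring

end Crest.Agent.R138.Wpk685
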