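import Crest.Agent.R138.WDef_188
import Crest.Agent.R138.Wpk6_685

/-!
# R138 / R139: WAVE side, literal form of DECc (helper685) = DEC with classes.

Greedy selection over pairs (plank, class): the plates of the label `k` have sides `s k` and every
selected phase point `(m, y)` of the plate `P` satisfies `cls P.b m y = cl k` (the class may depend
on the frame `P.b`, i.e. on the normal `P.b 0` of the plate).
-/

set_option autoImplicit false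

open MeasureTheory FourierTransform
open scoped ENNReal

namespace Crest.Agent.R138.W188

open Crest.Agent.R138.Defs Crest.Agent.R138.Bil882 Crest.Agent.R138.Wpk685

/-- union of the selections of a finite plate system. -/
def uS (I : Finset ℕ) (P : ℕ → Plate) (m : ℤ × ℤ) : Set E2 := ⋃ i ∈ I, (P i).S m

/-- output of DECc at the frame `z`, level `r`, for the function `g` of level `R`. -/
structure DecOut (q A σ Cn : ℝ) (B : ℕ → ℝ) (nb M : ℕ) (h : E2 → ℝ) (g : E2 → ℂ) (R r : ℝ)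
    (z : E2 × ℝ) (cls : OrthonormalBasis (Fin 2) ℝ E2 → ℤ × ℤ → E2 → ℕ)
    (Λ : Finset ℕ) (s : ℕ → ℝ × ℝ) (cl : ℕ → ℕ)
    (G : ℕ → E2 → ℂ) (D' : ℕ → ℝ) (rest : E2 → ℂ) (I : ℕ → Finset ℕ) (P : ℕ → ℕ → Plate) :
    Prop where
  /-- decomposition. -/
  sum : ∀ ξ, tr h z g ξ = ∑ k ∈ Λ, G k ξ + rest ξ
  /-- the pieces are the selected waves of the plate systems. -/
  eq : ∀ k ∈ Λ, G k = sel (r ^ (-(1/2) : ℝ)) (tr h z g) (uS (I k) (P k))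
  /-- the pieces are states of level `r`. -/
  st : ∀ k ∈ Λ, St B q 6 4 (σ + 3 * r ^ (-(1/2) : ℝ)) h (G k) r (D' k)
  /-- also every measurable sub-selection satisfies the box bound with the same constant. -/
  sub : ∀ k ∈ Λ, ∀ S' : ℤ × ℤ → Set E2, (∀ m, MeasurableSet (S' m)) →
    (∀ m, S' m ⊆ uS (I k) (P k) m) →
    PBox q 6 h (sel (r ^ (-(1/2) : ℝ)) (tr h z g) S') r (D' k)
  /-- the selections have penalised density `D'` (hereditary). -/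
  dens : ∀ k ∈ Λ, Dens q h r (tr h z g) (uS (I k) (P k)) (D' k)
  /-- the selections are bounded and live on the caps. -/
  bd : ∀ k ∈ Λ, ∀ m, uS (I k) (P k) m ⊆ Metric.closedBall 0 (A * r)
  cp : ∀ k ∈ Λ, ∀ m, m ∉ caps (r ^ (-(1/2) : ℝ)) → uS (I k) (P k) m = ∅
  /-- the selections of different labels are disjoint. -/
  disj : ∀ k ∈ Λ, ∀ k' ∈ Λ, k ≠ k' → ∀ m, Disjoint (uS (I k) (P k) m) (uS (I k') (P k') m)
  /-- plate systems with frame `z`. -/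
  pl : ∀ k ∈ Λ, Plates A h r (s k).1 (s k).2 R (I k) (P k) ∧ ∀ i ∈ I k, (P k i).z = z
  /-- classes. -/
  cls : ∀ k ∈ Λ, ∀ i ∈ I k, ∀ m, ∀ y ∈ (P k i).S m, cls (P k i).b m y = cl k
  /-- every plate is dense: `D' s₂^q s₁ s₂ r² ≤ C nb e_P`. -/
  dense : ∀ k ∈ Λ, ∀ i ∈ I k,
    ENNReal.ofReal (D' k * ((s k).2 ^ q * ((s k).1 * (s k).2 * r ^ 2))) ≤
      ENNReal.ofReal (Cn * nb) * en (r ^ (-(1/2) : ℝ)) (tr h z g) (P k i).S
  /-- energy. -/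
  energy : ∀ k ∈ Λ, ENNReal.ofReal (En (G k)) ≤
    ENNReal.ofReal Cn * ∑ i ∈ I k, en (r ^ (-(1/2) : ℝ)) (tr h z g) (P k i).S
  /-- (D6). -/
  ss : ∀ k ∈ Λ, ENNReal.ofReal (SS (G k) r (D' k)) ≤
    ENNReal.ofReal (Cn * nb) * (ENNReal.ofReal ((s k).2 ^ (-q / 2)) *
      val h g r (s k).1 (s k).2 (I k) (P k))
  rmeas : Measurable rest
  rbdd : ∃ L : ℝ, ∀ ξ, ‖rest ξ‖ ≤ L
  rsupp : ∀ ξ, 2 < ‖ξ‖ → rest ξ = 0
  ren : En rest ≤ Cn * En g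
  small : ∀ p : E2 × ℝ, ‖p.1‖ ≤ 8 * r → |p.2| ≤ 8 * r →
    ‖ext h rest p.1 p.2‖ ≤ Cn * nb * R ^ (-(M : ℝ)) * Real.sqrt (En g)

/-- **DECc**: decomposition with classes. `nb` = number of classes (may depend on everything),
losses `nb` explicit; `Λ, s, cl` depend on `r, R, nb` only; support radius `σ ≤ 3/2` arbitrary,
children in the ball of radius `σ + 3 r^(-1/2)`. -/
def DECc (B : ℕ → ℝ) (q A : ℝ) : Prop :=
  ∀ ε : ℝ, 0 < ε → ∀ (Na : ℕ) (M0 : ℝ) (M : ℕ), ∃ C : ℝ, 0 ≤ C ∧ ∀ R r : ℝ, 1 ≤ R →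
  R ^ (1/2 : ℝ) ≤ r → r ≤ R → ∀ nb : ℕ, 1 ≤ nb →
  ∃ (Λ : Finset ℕ) (s : ℕ → ℝ × ℝ) (cl : ℕ → ℕ), (Λ.card : ℝ) ≤ C * R ^ ε * nb ∧
    (∀ k ∈ Λ, Sd r (s k).1 (s k).2) ∧ (∀ k ∈ Λ, cl k < nb) ∧
    ∀ σ h g D, σ ≤ 3/2 → St B q Na M0 σ h g R D → ∀ z ∈ cyl R,
      ∀ cls : OrthonormalBasis (Fin 2) ℝ E2 → ℤ × ℤ → E2 → ℕ,
        (∀ b m, Measurable (cls b m)) → (∀ b m y, cls b m y < nb) →
        ∃ (G : ℕ → E2 → ℂ) (D' : ℕ → ℝ) (rest : E2 → ℂ) (I : ℕ → Finset ℕ) (P : ℕ → ℕ → Plate),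
          DecOut q A σ C B nb M h g R r z cls Λ s cl G D' rest I P

end Crest.Agent.R138.W188
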