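import Crest.Agent.R138.RR6_323
import Crest.Agent.R138.DecC_685

/-!
# R138 / R139, wave side: DOMINATION (helper878)

The label `k` dominates at the phase point `(m, y)` if `|u_m(H k)(y)|` is maximal. Since
`f = ∑_k H k + e`, the packet energy of `f` on a selection dominated by `k` is at most
`2 n² ·` the one of `H k` (+ rest). Consequence for plate systems (`dom_core`).
-/

set_option autoImplicit false

open MeasureTheory FourierTransform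
open scoped ContDiff ENNReal

namespace Crest.Agent.R138.Dom878

open Crest.Agent.R138.Defs Crest.Agent.R138.Bil882 Crest.Agent.R138.W188
open Crest.Agent.R138.Wpk685 Crest.Agent.R138.W323

/-- `k` dominates at the phase point `(m, y)`. -/
def Dom (ρ : ℝ) (H : ℕ → E2 → ℂ) (Λ : Finset ℕ) (k : ℕ) (m : ℤ × ℤ) (y : E2) : Prop :=
  ∀ k' ∈ Λ, ‖um ρ (H k') m y‖ ≤ ‖um ρ (H k) m y‖

/-- the labels in increasing order. -/
noncomputable def lbl (Λ : Finset ℕ) (i : ℕ) : ℕ := (Λ.sort (· ≤ ·)).getD i 0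

theorem lbl_mem {Λ : Finset ℕ} {i : ℕ} (hi : i < Λ.card) : lbl Λ i ∈ Λ := by
  unfold lbl
  have h1 : i < (Λ.sort (· ≤ ·)).length := by rwa [Finset.length_sort]
  rw [List.getD_eq_getElem _ _ h1]
  exact (Finset.mem_sort (· ≤ ·)).1 (List.getElem_mem h1)

theorem lbl_surj {Λ : Finset ℕ} {k : ℕ} (hk : k ∈ Λ) : ∃ i < Λ.card, lbl Λ i = k := by
  have h1 := (Finset.mem_sort (· ≤ ·)).2 hk
  obtain ⟨i, hi, h2⟩ := List.getElem_of_mem h1
  refine ⟨i, by rwa [Finset.length_sort] at hi, ?_⟩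
  unfold lbl
  rw [List.getD_eq_getElem _ _ hi, h2]

open Classical in
/-- index of the first dominating label. -/
noncomputable def argi (ρ : ℝ) (H : ℕ → E2 → ℂ) (Λ : Finset ℕ) (m : ℤ × ℤ) (y : E2) : ℕ :=
  if h : ∃ i, i < Λ.card ∧ Dom ρ H Λ (lbl Λ i) m y then Nat.find h else 0

theorem exists_dom (ρ : ℝ) (H : ℕ → E2 → ℂ) {Λ : Finset ℕ} (hΛ : Λ.Nonempty) (m : ℤ × ℤ) (y : E2) :
    ∃ i, i < Λ.card ∧ Dom ρ H Λ (lbl Λ i) m y := by
  obtain ⟨k, hk, hmax⟩ := Finset.exists_max_image Λ (fun k => ‖um ρ (H k) m y‖) hΛ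
  obtain ⟨i, hi, rfl⟩ := lbl_surj hk
  exact ⟨i, hi, hmax⟩

theorem argi_lt (ρ : ℝ) (H : ℕ → E2 → ℂ) {Λ : Finset ℕ} {n : ℕ} (hn : 0 < n) (hΛ : Λ.card ≤ n)
    (m : ℤ × ℤ) (y : E2) : argi ρ H Λ m y < n := by
  classical
  unfold argi
  split_ifs with h
  · exact (Nat.find_spec h).1.trans_le hΛ
  · exact hn

theorem argi_dom (ρ : ℝ) (H : ℕ → E2 → ℂ) {Λ : Finset ℕ} (hΛ : Λ.Nonempty)
    (m : ℤ × ℤ) (y : E2) : Dom ρ H Λ (lbl Λ (argi ρ H Λ m y)) m y := by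
  classical
  unfold argi
  rw [dif_pos (exists_dom ρ H hΛ m y)]
  exact (Nat.find_spec (exists_dom ρ H hΛ m y)).2

theorem isClosed_dom {ρ : ℝ} {H : ℕ → E2 → ℂ} {Λ : Finset ℕ} {k : ℕ}
    (hH : ∀ k ∈ Λ, Integrable (H k)) (hk : k ∈ Λ) (m : ℤ × ℤ) :
    MeasurableSet {y | Dom ρ H Λ k m y} := by
  have h1 : {y | Dom ρ H Λ k m y} =
      ⋂ k' ∈ Λ, {y | ‖um ρ (H k') m y‖ ≤ ‖um ρ (H k) m y‖} := by
    ext y
    simp [Dom]
  rw [h1]
  refine Finset.measurableSet_biInter Λ fun k' hk' => ?_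
  exact measurableSet_le (continuous_um (hH k' hk') m).norm.measurable
    (continuous_um (hH k hk) m).norm.measurable

theorem measurable_argi {ρ : ℝ} {H : ℕ → E2 → ℂ} {Λ : Finset ℕ}
    (hH : ∀ k ∈ Λ, Integrable (H k)) (m : ℤ × ℤ) : Measurable (argi ρ H Λ m) := by
  classical
  rcases Λ.eq_empty_or_nonempty with hΛ | hΛ
  · have : argi ρ H Λ m = fun _ => 0 := by
      funext y
      unfold argi
      rw [dif_neg]
      rintro ⟨i, hi, -⟩
      rw [hΛ] at hi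
      simp at hi
    rw [this]
    exact measurable_const
  · refine measurable_to_countable' fun n => ?_
    have hset : ∀ i, MeasurableSet {y | i < Λ.card ∧ Dom ρ H Λ (lbl Λ i) m y} := by
      intro i
      by_cases hi : i < Λ.card
      · simp only [hi, true_and]
        exact isClosed_dom hH (lbl_mem hi) m
      · simp [hi]
    have h1 : argi ρ H Λ m ⁻¹' {n} = {y | n < Λ.card ∧ Dom ρ H Λ (lbl Λ n) m y} \
        ⋃ i ∈ Finset.range n, {y | i < Λ.card ∧ Dom ρ H Λ (lbl Λ i) m y} := by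
      ext y
      have hex := exists_dom ρ H hΛ m y
      have e1 : argi ρ H Λ m y = Nat.find hex := by
        unfold argi
        rw [dif_pos hex]
      simp only [Set.mem_preimage, Set.mem_singleton_iff, e1, Nat.find_eq_iff, Set.mem_sdiff,
        Set.mem_ofPred_eq, Set.mem_iUnion, Finset.mem_range, exists_prop, not_exists, not_and]
    rw [h1]
    exact (hset n).diff (Finset.measurableSet_biUnion _ fun i _ => hset i)

/-- **domination**: energy of a selection. -/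
theorem en_dom {ρ : ℝ} {Λ : Finset ℕ} {H : ℕ → E2 → ℂ} {e : E2 → ℂ}
    (hH : ∀ k ∈ Λ, Integrable (H k)) (he : Integrable e) {k : ℕ} (hk : k ∈ Λ)
    {S : ℤ × ℤ → Set E2} (hSm : ∀ m ∈ caps ρ, MeasurableSet (S m))
    (hS : ∀ m ∈ caps ρ, ∀ y ∈ S m, Dom ρ H Λ k m y) :
    en ρ (fun ξ => ∑ k' ∈ Λ, H k' ξ + e ξ) S ≤
      2 * (Λ.card : ℝ≥0∞) ^ 2 * en ρ (H k) S + 2 * en ρ e S := by
  unfold en
  rw [Finset.mul_sum, Finset.mul_sum, ← Finset.sum_add_distrib]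
  refine Finset.sum_le_sum fun m hm => ?_
  calc ∫⁻ x in S m, ‖um ρ (fun ξ => ∑ k' ∈ Λ, H k' ξ + e ξ) m x‖ₑ ^ 2
      ≤ ∫⁻ x in S m, (2 * (Λ.card : ℝ≥0∞) ^ 2 * ‖um ρ (H k) m x‖ₑ ^ 2 +
          2 * ‖um ρ e m x‖ₑ ^ 2) := by
        refine setLIntegral_mono' (hSm m hm) fun x hx => ?_
        rw [um_sum Λ hH he m x]
        have h1 : ‖∑ k' ∈ Λ, um ρ (H k') m x + um ρ e m x‖ₑ ≤
            (Λ.card : ℝ≥0∞) * ‖um ρ (H k) m x‖ₑ + ‖um ρ e m x‖ₑ := by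
          refine (enorm_add_le _ _).trans ?_
          gcongr
          refine (enorm_sum_le _ _).trans ?_
          calc ∑ k' ∈ Λ, ‖um ρ (H k') m x‖ₑ ≤ ∑ k' ∈ Λ, ‖um ρ (H k) m x‖ₑ := by
                refine Finset.sum_le_sum fun k' hk' => ?_
                have := hS m hm x hx k' hk'
                rw [← ofReal_norm, ← ofReal_norm]
                exact ENNReal.ofReal_le_ofReal this
            _ = _ := by rw [Finset.sum_const, nsmul_eq_mul]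
        have h2 := ENNReal.rpow_add_le_mul_rpow_add_rpow ((Λ.card : ℝ≥0∞) * ‖um ρ (H k) m x‖ₑ)
          (‖um ρ e m x‖ₑ) (p := 2) (by norm_num)
        have h3 : ∀ x : ℝ≥0∞, x ^ (2 : ℝ) = x ^ 2 := fun x => by
          rw [show (2 : ℝ) = ((2 : ℕ) : ℝ) by norm_num, ENNReal.rpow_natCast]
        simp only [h3] at h2
        refine (pow_le_pow_left' h1 2).trans (h2.trans (le_of_eq ?_))
        rw [show (2 : ℝ) - 1 = 1 by norm_num, ENNReal.rpow_one, mul_pow]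
        ring
    _ = _ := by
        have m1 : Measurable fun x => 2 * (Λ.card : ℝ≥0∞) ^ 2 * ‖um ρ (H k) m x‖ₑ ^ 2 :=
          (measurable_umsq (hH k hk) m).const_mul _
        rw [lintegral_add_left m1, lintegral_const_mul _ (measurable_umsq (hH k hk) m),
          lintegral_const_mul _ (measurable_umsq he m)]

/-- the power `3/2` of a sum of two terms. -/
theorem pow32_add (a b r c : ℝ≥0∞) :
    (r * (2 * c ^ 2 * a + 2 * b)) ^ (3 / 2 : ℝ) ≤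
      4 * (c ^ 3 * (r * a) ^ (3 / 2 : ℝ) + (r * b) ^ (3 / 2 : ℝ)) := by
  have e1 : r * (2 * c ^ 2 * a + 2 * b) = 2 * (c ^ 2 * (r * a) + r * b) := by ring
  rw [e1, ENNReal.mul_rpow_of_nonneg _ _ (by norm_num)]
  have h1 := ENNReal.rpow_add_le_mul_rpow_add_rpow (c ^ 2 * (r * a)) (r * b)
    (p := 3 / 2) (by norm_num)
  have h2 : (2 : ℝ≥0∞) ^ (3 / 2 : ℝ) * 2 ^ ((3 / 2 : ℝ) - 1) = 4 := by
    rw [← ENNReal.rpow_add _ _ (by norm_num) (by norm_num)]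
    norm_num
  have h3 : (c ^ 2 * (r * a)) ^ (3 / 2 : ℝ) = c ^ 3 * (r * a) ^ (3 / 2 : ℝ) := by
    rw [ENNReal.mul_rpow_of_nonneg _ _ (by norm_num)]
    congr 1
    rw [← ENNReal.rpow_natCast, ← ENNReal.rpow_mul, ← ENNReal.rpow_natCast]
    norm_num
  calc (2 : ℝ≥0∞) ^ (3 / 2 : ℝ) * (c ^ 2 * (r * a) + r * b) ^ (3 / 2 : ℝ)
      ≤ 2 ^ (3 / 2 : ℝ) * (2 ^ ((3 / 2 : ℝ) - 1) * ((c ^ 2 * (r * a)) ^ (3 / 2 : ℝ) +
          (r * b) ^ (3 / 2 : ℝ))) := by gcongr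
    _ = _ := by rw [← mul_assoc, h2, h3]

/-- the contribution of one dominated plate. -/
theorem tm_dom_le {h : E2 → ℝ} (hh : Continuous h) {r s1 s2 : ℝ} (p : Plate) (z : E2 × ℝ)
    {g : E2 → ℂ} (Λ : Finset ℕ) (G : ℕ → E2 → ℂ) (e : E2 → ℂ) (hG : ∀ k ∈ Λ, Gd (G k))
    (he : Gd e) (hdec : tr h z g = fun ξ => ∑ k ∈ Λ, G k ξ + e ξ) {k : ℕ} (hk : k ∈ Λ)
    (hSm : ∀ m, MeasurableSet (p.S m))
    (hdom : ∀ m ∈ caps (r ^ (-(1/2) : ℝ)), ∀ y ∈ p.S m,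
      Dom (r ^ (-(1/2) : ℝ)) (fun k' => tr h (p.z - z) (G k')) Λ k m y) :
    tm h g r s1 s2 p ≤ 4 * ((Λ.card : ℝ≥0∞) ^ 3 * tm h (G k) r s1 s2 (shift z p) +
      tm h e r s1 s2 (shift z p)) := by
  rw [← tm_shift h g r s1 s2 z p, hdec]
  unfold tm
  rw [tr_sum]
  have h1 := en_dom (ρ := r ^ (-(1/2) : ℝ)) (Λ := Λ) (H := fun k => tr h (shift z p).z (G k))
    (e := tr h (shift z p).z e) (fun k hk => (W323.Gd.tr hh (hG k hk) _).int)
    (W323.Gd.tr hh he _).int hk (S := (shift z p).S) (fun m _ => hSm m)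
    (fun m hm y hy => hdom m hm y hy)
  calc ENNReal.ofReal ((s1 * s2 * r ^ 3) ^ (-(1/2) : ℝ)) * (ENNReal.ofReal r *
        en (r ^ (-(1/2) : ℝ)) (fun ξ => ∑ k ∈ Λ, tr h (shift z p).z (G k) ξ +
          tr h (shift z p).z e ξ) (shift z p).S) ^ (3 / 2 : ℝ)
      ≤ ENNReal.ofReal ((s1 * s2 * r ^ 3) ^ (-(1/2) : ℝ)) * (ENNReal.ofReal r *
        (2 * (Λ.card : ℝ≥0∞) ^ 2 * en (r ^ (-(1/2) : ℝ)) (tr h (shift z p).z (G k))
          (shift z p).S + 2 * en (r ^ (-(1/2) : ℝ)) (tr h (shift z p).z e) (shift z p).S)) ^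
            (3 / 2 : ℝ) := by
        gcongr
    _ ≤ ENNReal.ofReal ((s1 * s2 * r ^ 3) ^ (-(1/2) : ℝ)) *
        (4 * ((Λ.card : ℝ≥0∞) ^ 3 * (ENNReal.ofReal r *
          en (r ^ (-(1/2) : ℝ)) (tr h (shift z p).z (G k)) (shift z p).S) ^ (3 / 2 : ℝ) +
            (ENNReal.ofReal r * en (r ^ (-(1/2) : ℝ)) (tr h (shift z p).z e) (shift z p).S) ^
              (3 / 2 : ℝ))) := by
        gcongr
        exact pow32_add _ _ _ _
    _ = _ := by ring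

end Crest.Agent.R138.Dom878
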