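import Mathlib

set_option autoImplicit false

open MeasureTheory ENNReal

namespace Crest.Agent.R138.Fr665

/-- Three-space. -/
abbrev V := EuclideanSpace ℝ (Fin 3)

/-- convolution operator with kernel `K`. -/
noncomputable def cv (K g : V → ℂ) (x : V) : ℂ := ∫ y, K (x - y) * g y

/-- absolute convolution. -/
noncomputable def acv (K g : V → ℂ) (x : V) : ℝ≥0∞ := ∫⁻ y, ‖K (x - y)‖ₑ * ‖g y‖ₑ

theorem enorm_cv_le (K g : V → ℂ) (x : V) : ‖cv K g x‖ₑ ≤ acv K g x := by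
  refine (enorm_integral_le_lintegral_enorm _).trans_eq ?_
  simp [acv, enorm_mul]

theorem measurable_acv {K g : V → ℂ} (hK : Measurable K) (hg : Measurable g) :
    Measurable (acv K g) := by
  unfold acv
  apply Measurable.lintegral_prod_right' (f := fun p : V × V => ‖K (p.1 - p.2)‖ₑ * ‖g p.2‖ₑ)
  fun_prop

theorem lint_sub (K : V → ℂ) (x : V) : ∫⁻ y, ‖K (x - y)‖ₑ = ∫⁻ y, ‖K y‖ₑ :=
  lintegral_sub_left_eq_self (fun y => ‖K y‖ₑ) x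

theorem lint_sub' (K : V → ℂ) (y : V) : ∫⁻ x, ‖K (x - y)‖ₑ = ∫⁻ x, ‖K x‖ₑ :=
  lintegral_sub_right_eq_self (fun y => ‖K y‖ₑ) y

/-- pointwise Hoelder. -/
theorem acv_rpow_le {K g : V → ℂ} (hK : Measurable K) (hg : Measurable g) {p : ℝ} (hp : 1 ≤ p)
    (x : V) : acv K g x ^ p ≤
      (∫⁻ y, ‖K y‖ₑ) ^ (p - 1) * ∫⁻ y, ‖K (x - y)‖ₑ * ‖g y‖ₑ ^ p := by
  have hp0 : 0 < p := by linarith
  have h1 : acv K g x ≤ (∫⁻ y, ‖K (x - y)‖ₑ) ^ (1 - 1 / p) *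
      (∫⁻ y, ‖K (x - y)‖ₑ * ‖g y‖ₑ ^ p) ^ (1 / p) := by
    have := lintegral_mul_norm_pow_le (μ := (volume : Measure V))
      (f := fun y => ‖K (x - y)‖ₑ) (g := fun y => ‖K (x - y)‖ₑ * ‖g y‖ₑ ^ p)
      (by fun_prop) (by fun_prop) (p := 1 - 1 / p) (q := 1 / p)
      (by rw [sub_nonneg, div_le_one hp0]; exact hp) (by positivity) (by ring)
    refine le_trans (le_of_eq ?_) this
    unfold acv
    congr 1
    ext y
    rw [ENNReal.mul_rpow_of_nonneg _ _ (by positivity : 0 ≤ 1 / p), ← mul_assoc,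
      ← ENNReal.rpow_add_of_nonneg _ _ (by rw [sub_nonneg, div_le_one hp0]; exact hp)
        (by positivity), ← ENNReal.rpow_mul]
    rw [sub_add_cancel, ENNReal.rpow_one, mul_one_div, div_self hp0.ne', ENNReal.rpow_one]
  calc acv K g x ^ p ≤ ((∫⁻ y, ‖K (x - y)‖ₑ) ^ (1 - 1 / p) *
      (∫⁻ y, ‖K (x - y)‖ₑ * ‖g y‖ₑ ^ p) ^ (1 / p)) ^ p := ENNReal.rpow_le_rpow h1 hp0.le
    _ = _ := by
      rw [ENNReal.mul_rpow_of_nonneg _ _ hp0.le, ← ENNReal.rpow_mul, ← ENNReal.rpow_mul, lint_sub,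
        one_div_mul_cancel hp0.ne', ENNReal.rpow_one, sub_mul, one_div_mul_cancel hp0.ne', one_mul]

/-- Young's inequality `L¹ * L^p`. -/
theorem lint_acv_rpow {K g : V → ℂ} (hK : Measurable K) (hg : Measurable g) {p : ℝ} (hp : 1 ≤ p) :
    ∫⁻ x, acv K g x ^ p ≤ (∫⁻ y, ‖K y‖ₑ) ^ p * ∫⁻ y, ‖g y‖ₑ ^ p := by
  have hp0 : 0 < p := by linarith
  calc ∫⁻ x, acv K g x ^ p ≤ ∫⁻ x, (∫⁻ y, ‖K y‖ₑ) ^ (p - 1) * ∫⁻ y, ‖K (x - y)‖ₑ * ‖g y‖ₑ ^ p :=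
        lintegral_mono fun x => acv_rpow_le hK hg hp x
    _ = (∫⁻ y, ‖K y‖ₑ) ^ (p - 1) * ∫⁻ x, ∫⁻ y, ‖K (x - y)‖ₑ * ‖g y‖ₑ ^ p := by
        rw [lintegral_const_mul]
        apply Measurable.lintegral_prod_right'
          (f := fun p' : V × V => ‖K (p'.1 - p'.2)‖ₑ * ‖g p'.2‖ₑ ^ p)
        fun_prop
    _ = (∫⁻ y, ‖K y‖ₑ) ^ (p - 1) * ∫⁻ y, ∫⁻ x, ‖K (x - y)‖ₑ * ‖g y‖ₑ ^ p := by
        rw [lintegral_lintegral_swap]
        fun_prop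
    _ = (∫⁻ y, ‖K y‖ₑ) ^ (p - 1) * ((∫⁻ y, ‖K y‖ₑ) * ∫⁻ y, ‖g y‖ₑ ^ p) := by
        congr 1
        rw [← lintegral_const_mul _ (by fun_prop)]
        congr 1
        ext y
        rw [lintegral_mul_const _ (by fun_prop), lint_sub']
    _ = _ := by
        rw [← mul_assoc]
        congr 1
        nth_rw 2 [← ENNReal.rpow_one (∫⁻ y, ‖K y‖ₑ)]
        rw [← ENNReal.rpow_add_of_nonneg _ _ (by linarith) (by norm_num)]
        congr 1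
        ring

theorem lint_cv_rpow {K g : V → ℂ} (hK : Measurable K) (hg : Measurable g) {p : ℝ} (hp : 1 ≤ p) :
    ∫⁻ x, ‖cv K g x‖ₑ ^ p ≤ (∫⁻ y, ‖K y‖ₑ) ^ p * ∫⁻ y, ‖g y‖ₑ ^ p :=
  (lintegral_mono fun x => ENNReal.rpow_le_rpow (enorm_cv_le K g x) (by linarith)).trans
    (lint_acv_rpow hK hg hp)

theorem acv_le_sup {K g : V → ℂ} (hK : Measurable K) {M : ℝ≥0∞} (hg : ∀ y, ‖g y‖ₑ ≤ M) (x : V) :
    acv K g x ≤ (∫⁻ y, ‖K y‖ₑ) * M := by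
  unfold acv
  calc ∫⁻ y, ‖K (x - y)‖ₑ * ‖g y‖ₑ ≤ ∫⁻ y, ‖K (x - y)‖ₑ * M :=
        lintegral_mono fun y => mul_le_mul_right (hg y) _
    _ = _ := by rw [lintegral_mul_const _ (by fun_prop), lint_sub]

end Crest.Agent.R138.Fr665
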