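import Mathlib
import Crest.Agent.R138.Fq3_665
import Crest.Agent.R138.Fr1_665

/-! The slice formula: `T f` is a superposition of extensions of one surface. -/

set_option autoImplicit false

open MeasureTheory Filter Topology
open scoped ENNReal FourierTransform ContDiff

noncomputable section

namespace Crest.Agent.R138.Fq665

open Crest.Agent.R138.Defs
open Crest.Agent.R138.Fr665 (cv)

theorem norm_ee (t : ℝ) : ‖ee t‖ = 1 := by
  unfold ee
  exact Complex.norm_exp_ofReal_mul_I _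

theorem ee_add (s t : ℝ) : ee (s + t) = ee s * ee t := by
  unfold ee
  rw [← Complex.exp_add]
  congr 1
  push_cast
  ring

theorem continuous_ee : Continuous ee := by
  unfold ee
  fun_prop

theorem fourierInv_eq_ee (G : V → ℂ) (x : V) : 𝓕⁻ G x = ∫ ξ, G ξ * ee (inner ℝ x ξ) := by
  rw [Real.fourierInv_eq']
  refine integral_congr_ae (Eventually.of_forall fun ξ => ?_)
  simp only [smul_eq_mul, ee]
  rw [mul_comm, real_inner_comm]

theorem fourier_eq_ee (f : V → ℂ) (ξ : V) : 𝓕 f ξ = ∫ y, f y * ee (-inner ℝ y ξ) := by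
  rw [Real.fourier_eq']
  refine integral_congr_ae (Eventually.of_forall fun y => ?_)
  simp only [smul_eq_mul, ee]
  rw [mul_comm]
  congr 3
  ring_nf

theorem cv_eq {G f : V → ℂ} (hG : Integrable G) (hf : Integrable f) (x : V) :
    cv (𝓕⁻ G) f x = ∫ ξ, G ξ * 𝓕 f ξ * ee (inner ℝ x ξ) := by
  unfold cv
  have h1 : ∀ y, 𝓕⁻ G (x - y) * f y = ∫ ξ, G ξ * ee (inner ℝ (x - y) ξ) * f y := by
    intro y
    rw [fourierInv_eq_ee, ← integral_mul_const]
  simp only [h1]
  rw [integral_integral_swap]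
  · refine integral_congr_ae (Eventually.of_forall fun ξ => ?_)
    simp only
    rw [fourier_eq_ee, mul_right_comm, ← integral_const_mul]
    refine integral_congr_ae (Eventually.of_forall fun y => ?_)
    simp only
    rw [inner_sub_left, sub_eq_add_neg, ee_add]
    ring
  · have h2 : Integrable (fun p : V × V => f p.1 * G p.2) (volume.prod volume) := hf.mul_prod hG
    have h3 : AEStronglyMeasurable (fun p : V × V => ee (inner ℝ (x - p.1) p.2))
        (volume.prod volume) :=
      (continuous_ee.comp (by fun_prop : Continuous fun p : V × V => (inner ℝ (x - p.1) p.2 : ℝ))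
        ).aestronglyMeasurable
    have h4 := h2.bdd_mul (c := 1) h3 (Eventually.of_forall fun p => (norm_ee _).le)
    refine h4.congr (Eventually.of_forall fun p => ?_)
    simp only [Function.uncurry]
    ring

/-- the density on the slice `τ`. -/
def gs (J : PR ≃ₗᵢ[ℝ] V) (H : E2 → ℝ) (ρ : ℝ) (G f : V → ℂ) (τ : ℝ) (η : E2) : ℂ :=
  G (up J (ρ • η) (1 - ρ ^ 2 * H η + τ)) * 𝓕 f (up J (ρ • η) (1 - ρ ^ 2 * H η + τ))

variable (J : PR ≃ₗᵢ[ℝ] V) {H : E2 → ℝ} {ρ : ℝ}

/-- the change of variables. -/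
def cw (J : PR ≃ₗᵢ[ℝ] V) (H : E2 → ℝ) (ρ : ℝ) (q : ℝ × E2) : V :=
  up J (ρ • q.2) (1 - ρ ^ 2 * H q.2 + q.1)

theorem continuous_cw (hH : Continuous H) : Continuous (cw J H ρ) := by
  unfold cw
  exact (continuous_up J).comp (by fun_prop :
    Continuous fun q : ℝ × E2 => ((ρ • q.2, 1 - ρ ^ 2 * H q.2 + q.1) : E2 × ℝ))

/-- lower Lebesgue version of the change of variables. -/
theorem lintegral_cw (hH : Continuous H) (hρ : 0 < ρ) {u : V → ℝ≥0∞} (hu : Measurable u) :
    ∫⁻ q : ℝ × E2, u (cw J H ρ q) = ENNReal.ofReal (ρ⁻¹ ^ 2) * ∫⁻ v, u v := by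
  have hm : Measurable fun q : ℝ × E2 => u (cw J H ρ q) := hu.comp (continuous_cw J hH).measurable
  have hup : Measurable fun p : E2 × ℝ => u (up J p.1 p.2) := hu.comp (continuous_up J).measurable
  rw [Measure.volume_eq_prod, lintegral_prod_symm _ hm.aemeasurable]
  have h1 : ∀ η : E2, ∫⁻ τ : ℝ, u (cw J H ρ (τ, η)) = ∫⁻ τ : ℝ, u (up J (ρ • η) τ) := by
    intro η
    exact lintegral_add_left_eq_self (fun τ => u (up J (ρ • η) τ)) (1 - ρ ^ 2 * H η)
  simp only [h1]
  have h2 : ∫⁻ η : E2, ∫⁻ τ : ℝ, u (up J (ρ • η) τ) =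
      ENNReal.ofReal (ρ⁻¹ ^ 2) * ∫⁻ ξ : E2, ∫⁻ τ : ℝ, u (up J ξ τ) := by
    have hd : Module.finrank ℝ E2 = 2 := by simp
    have := Measure.map_addHaar_smul (volume : Measure E2) hρ.ne'
    have hms : Measurable fun ξ : E2 => ∫⁻ τ : ℝ, u (up J ξ τ) :=
      Measurable.lintegral_prod_right' hup
    calc ∫⁻ η : E2, ∫⁻ τ : ℝ, u (up J (ρ • η) τ)
        = ∫⁻ ξ, (∫⁻ τ : ℝ, u (up J ξ τ)) ∂(Measure.map (ρ • · ) (volume : Measure E2)) := by
          rw [lintegral_map hms (measurable_const_smul ρ)]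
      _ = _ := by
          rw [this, lintegral_smul_measure, hd]
          congr 2
          rw [abs_of_nonneg (by positivity)]
          simp
  rw [h2, lintegral_up J u hu, Measure.volume_eq_prod, lintegral_prod _ hup.aemeasurable]

end Crest.Agent.R138.Fq665
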