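import Mathlib
import Crest.Agent.R138.Fq4_665
import Crest.Agent.R138.Fq2_665

/-! The slice formula: pointwise identity and the `L³` bound. -/

set_option autoImplicit false

open MeasureTheory Filter Topology
open scoped ENNReal FourierTransform ContDiff

noncomputable section

namespace Crest.Agent.R138.Fq665

open Crest.Agent.R138.Defs
open Crest.Agent.R138.Fr665 (cv)

variable (J : PR ≃ₗᵢ[ℝ] V) {H : E2 → ℝ} {ρ : ℝ}

theorem map_cw (hH : Continuous H) (hρ : 0 < ρ) :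
    Measure.map (cw J H ρ) volume = ENNReal.ofReal (ρ⁻¹ ^ 2) • (volume : Measure V) := by
  ext s hs
  rw [Measure.map_apply (continuous_cw J hH).measurable hs]
  have := lintegral_cw J hH hρ (u := s.indicator 1) (measurable_one.indicator hs)
  rw [lintegral_indicator_one hs] at this
  rw [Measure.smul_apply, smul_eq_mul, ← this]
  rw [← lintegral_indicator_one ((continuous_cw J hH).measurable hs)]
  rfl

theorem integral_cw (hH : Continuous H) (hρ : 0 < ρ) {F : V → ℂ} (hF : Integrable F) :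
    ∫ v, F v = (ρ ^ 2 : ℝ) • ∫ τ : ℝ, ∫ η : E2, F (cw J H ρ (τ, η)) := by
  have hc := (continuous_cw J (H := H) (ρ := ρ) hH)
  have hm := map_cw J hH hρ
  have hF' : Integrable F (Measure.map (cw J H ρ) volume) := by
    rw [hm]; exact hF.smul_measure (by simp)
  have hi : Integrable (fun q : ℝ × E2 => F (cw J H ρ q)) volume :=
    (integrable_map_measure hF'.1 hc.measurable.aemeasurable).1 hF'
  have h1 : ∫ q : ℝ × E2, F (cw J H ρ q) = (ρ⁻¹ ^ 2 : ℝ) • ∫ v, F v := by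
    rw [← integral_map hc.measurable.aemeasurable hF'.1, hm, integral_smul_measure,
      ENNReal.toReal_ofReal (by positivity)]
  rw [Measure.volume_eq_prod, integral_prod _ hi] at h1
  rw [h1, smul_smul]
  have : ρ ^ 2 * ρ⁻¹ ^ 2 = 1 := by field_simp
  rw [this, one_smul]

theorem continuous_fourier {f : V → ℂ} (hf : Integrable f) : Continuous (𝓕 f) := by
  simpa using! VectorFourier.fourierIntegral_continuous (V := V) (W := V)
    Real.continuous_fourierChar (L := innerₗ V) continuous_inner hf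

theorem cv_eq_slices (hH : Continuous H) (hρ : 0 < ρ) {G f : V → ℂ} (hGc : Continuous G)
    (hGs : HasCompactSupport G) (hf : Integrable f) (x : E2) (t : ℝ) :
    cv (𝓕⁻ G) f (up J x t) = (ρ ^ 2 : ℝ) • ∫ τ : ℝ,
      ee (t * (1 + τ)) * ext H (gs J H ρ G f τ) (ρ • x) (-(ρ ^ 2 * t)) := by
  have hG : Integrable G := hGc.integrable_of_hasCompactSupport hGs
  rw [cv_eq hG hf]
  have hcf := continuous_fourier hf
  have hF : Integrable fun ξ => G ξ * 𝓕 f ξ * ee (inner ℝ (up J x t) ξ) := by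
    apply Continuous.integrable_of_hasCompactSupport
    · exact (hGc.mul hcf).mul (continuous_ee.comp (by fun_prop))
    · exact (hGs.mul_right).mul_right
  rw [integral_cw J hH hρ hF]
  congr 1
  refine integral_congr_ae (Eventually.of_forall fun τ => ?_)
  simp only
  unfold ext
  rw [← integral_const_mul]
  refine integral_congr_ae (Eventually.of_forall fun η => ?_)
  simp only [cw, gs]
  have he : inner ℝ (up J x t) (up J (ρ • η) (1 - ρ ^ 2 * H η + τ)) =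
      t * (1 + τ) + (inner ℝ (ρ • x) η + -(ρ ^ 2 * t) * H η) := by
    rw [inner_up, inner_smul_right, inner_smul_left]
    simp only [conj_trivial]
    ring
  rw [he, ee_add]
  ring

theorem measurable_ext_slices (hH : Continuous H) {G f : V → ℂ} (hGc : Continuous G)
    (hf : Integrable f) :
    Measurable fun q : ℝ × (E2 × ℝ) => ext H (gs J H ρ G f q.1) q.2.1 q.2.2 := by
  have hcf := continuous_fourier hf
  have hc : Continuous fun z : (ℝ × (E2 × ℝ)) × E2 =>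
      gs J H ρ G f z.1.1 z.2 * ee (inner ℝ z.1.2.1 z.2 + z.1.2.2 * H z.2) := by
    unfold gs
    have h1 : Continuous fun z : (ℝ × (E2 × ℝ)) × E2 => cw J H ρ (z.1.1, z.2) :=
      (continuous_cw J hH).comp (by fun_prop)
    exact ((hGc.comp h1).mul (hcf.comp h1)).mul (continuous_ee.comp (by fun_prop))
  exact (StronglyMeasurable.integral_prod_right' (ν := (volume : Measure E2))
    hc.stronglyMeasurable).measurable

/-- anisotropic scaling. -/
theorem lintegral_scale (hρ : 0 < ρ) {u : E2 × ℝ → ℝ≥0∞} (hu : Measurable u) :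
    ∫⁻ p : E2 × ℝ, u (ρ • p.1, -(ρ ^ 2 * p.2)) = ENNReal.ofReal (ρ⁻¹ ^ 4) * ∫⁻ p, u p := by
  have hm : Measurable fun p : E2 × ℝ => u (ρ • p.1, -(ρ ^ 2 * p.2)) :=
    hu.comp (by fun_prop)
  rw [Measure.volume_eq_prod, lintegral_prod _ hm.aemeasurable]
  have hd : Module.finrank ℝ E2 = 2 := by simp
  have h1 : ∀ x : E2, ∫⁻ t : ℝ, u (ρ • x, -(ρ ^ 2 * t)) =
      ENNReal.ofReal (ρ⁻¹ ^ 2) * ∫⁻ t : ℝ, u (ρ • x, t) := by
    intro x
    have hr : -(ρ ^ 2) ≠ 0 := by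
      have : (0:ℝ) < ρ ^ 2 := by positivity
      linarith
    have h2 := Measure.map_addHaar_smul (volume : Measure ℝ) hr
    have hms : Measurable fun t : ℝ => u (ρ • x, t) := hu.comp (by fun_prop)
    calc ∫⁻ t : ℝ, u (ρ • x, -(ρ ^ 2 * t))
        = ∫⁻ t, u (ρ • x, t) ∂(Measure.map ((-(ρ ^ 2)) • · ) (volume : Measure ℝ)) := by
          rw [lintegral_map hms (measurable_const_smul _)]
          refine lintegral_congr fun t => ?_
          congr 2
          simp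
      _ = _ := by
          rw [h2, lintegral_smul_measure]
          congr 2
          simp only [Module.finrank_self, pow_one, inv_neg, abs_neg]
          rw [abs_of_nonneg (by positivity)]
          simp
  simp only [h1]
  have hms : Measurable fun x : E2 => ∫⁻ t : ℝ, u (x, t) := Measurable.lintegral_prod_right' hu
  rw [lintegral_const_mul (f := fun x : E2 => ∫⁻ t : ℝ, u (ρ • x, t)) _
    (hms.comp (measurable_const_smul ρ))]
  have h2 : ∫⁻ x : E2, ∫⁻ t : ℝ, u (ρ • x, t) =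
      ENNReal.ofReal (ρ⁻¹ ^ 2) * ∫⁻ x : E2, ∫⁻ t : ℝ, u (x, t) := by
    have := Measure.map_addHaar_smul (volume : Measure E2) hρ.ne'
    calc ∫⁻ x : E2, ∫⁻ t : ℝ, u (ρ • x, t)
        = ∫⁻ x, (∫⁻ t : ℝ, u (x, t)) ∂(Measure.map (ρ • · ) (volume : Measure E2)) := by
          rw [lintegral_map hms (measurable_const_smul ρ)]
      _ = _ := by
          rw [this, lintegral_smul_measure, hd]
          congr 2
          rw [abs_of_nonneg (by positivity)]
          simp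
  rw [h2, lintegral_prod _ hu.aemeasurable, ← mul_assoc, ← ENNReal.ofReal_mul (by positivity)]
  congr 2
  ring

theorem measurableSet_cyl (R : ℝ) : MeasurableSet (cyl R) := by
  unfold cyl
  exact (measurableSet_le (continuous_fst.norm.measurable) measurable_const).inter
    (measurableSet_le (continuous_snd.abs.measurable) measurable_const)

/-- the cube of an integral over a short interval. -/
theorem lint_cube_le {T : ℝ} (hT : 0 ≤ T) {u : ℝ → ℝ≥0∞} (hu : Measurable u)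
    (h0 : ∀ τ, T < |τ| → u τ = 0) :
    (∫⁻ τ, u τ) ^ 3 ≤ ENNReal.ofReal ((2 * T) ^ 2) * ∫⁻ τ, u τ ^ 3 := by
  set I : ℝ → ℝ≥0∞ := (Set.Icc (-T) T).indicator 1 with hI
  have hIm : Measurable I := measurable_one.indicator measurableSet_Icc
  have hII : ∫⁻ τ, I τ = ENNReal.ofReal (2 * T) := by
    rw [hI, lintegral_indicator_one measurableSet_Icc, Real.volume_Icc]
    congr 1; ring
  have h1 : ∀ τ, u τ = I τ ^ (2/3 : ℝ) * (u τ ^ 3) ^ (1/3 : ℝ) := by
    intro τ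
    have h3 : (u τ ^ 3) ^ (1/3 : ℝ) = u τ := by
      rw [← ENNReal.rpow_natCast, ← ENNReal.rpow_mul]; norm_num
    rw [h3]
    by_cases hτ : |τ| ≤ T
    · have : τ ∈ Set.Icc (-T) T := abs_le.1 hτ
      simp [hI, this]
    · push Not at hτ
      simp [h0 τ hτ]
  have h2 : ∫⁻ τ, u τ ≤ (∫⁻ τ, I τ) ^ (2/3 : ℝ) * (∫⁻ τ, u τ ^ 3) ^ (1/3 : ℝ) := by
    calc ∫⁻ τ, u τ = ∫⁻ τ, I τ ^ (2/3 : ℝ) * (u τ ^ 3) ^ (1/3 : ℝ) := lintegral_congr h1
      _ ≤ _ := ENNReal.lintegral_mul_norm_pow_le hIm.aemeasurable (hu.pow_const 3).aemeasurable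
        (by norm_num) (by norm_num) (by norm_num)
  calc (∫⁻ τ, u τ) ^ 3 ≤ ((∫⁻ τ, I τ) ^ (2/3 : ℝ) * (∫⁻ τ, u τ ^ 3) ^ (1/3 : ℝ)) ^ 3 := by
        gcongr
    _ = _ := by
        rw [mul_pow, ← ENNReal.rpow_natCast, ← ENNReal.rpow_mul, ← ENNReal.rpow_natCast,
          ← ENNReal.rpow_mul, hII, ENNReal.ofReal_pow (by positivity), ← ENNReal.rpow_natCast]
        norm_num

/-- **the `L³` bound by slices.** -/
theorem slices_bound (hH : Continuous H) (hρ : 0 < ρ) (hρ1 : ρ ≤ 1) {G f : V → ℂ}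
    (hGc : Continuous G) (hGs : HasCompactSupport G) (hf : Integrable f) {T : ℝ} (hT : 0 ≤ T)
    (hG0 : ∀ τ η, T < |τ| → G (cw J H ρ (τ, η)) = 0) (R : ℝ) :
    ∫⁻ p in cyl R, ‖cv (𝓕⁻ G) f (up J p.1 p.2)‖ₑ ^ 3 ≤
      ENNReal.ofReal (ρ ^ 2 * (2 * T) ^ 2) *
        ∫⁻ τ : ℝ, ∫⁻ p in cyl R, ‖ext H (gs J H ρ G f τ) p.1 p.2‖ₑ ^ 3 := by
  have hm := measurable_ext_slices (ρ := ρ) J hH hGc hf
  have hg0 : ∀ τ, T < |τ| → gs J H ρ G f τ = 0 := by
    intro τ hτ; ext η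
    have := hG0 τ η hτ
    simp only [cw] at this
    simp [gs, this]
  have hpt : ∀ p : E2 × ℝ, ‖cv (𝓕⁻ G) f (up J p.1 p.2)‖ₑ ^ 3 ≤
      ENNReal.ofReal (ρ ^ 6 * (2 * T) ^ 2) *
        ∫⁻ τ : ℝ, ‖ext H (gs J H ρ G f τ) (ρ • p.1) (-(ρ ^ 2 * p.2))‖ₑ ^ 3 := by
    intro p
    rw [cv_eq_slices J hH hρ hGc hGs hf, enorm_smul]
    have h1 : ‖∫ τ : ℝ, ee (p.2 * (1 + τ)) *
        ext H (gs J H ρ G f τ) (ρ • p.1) (-(ρ ^ 2 * p.2))‖ₑ ≤
        ∫⁻ τ : ℝ, ‖ext H (gs J H ρ G f τ) (ρ • p.1) (-(ρ ^ 2 * p.2))‖ₑ := by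
      refine (enorm_integral_le_lintegral_enorm _).trans_eq ?_
      refine lintegral_congr fun τ => ?_
      rw [enorm_mul]
      have : ‖ee (p.2 * (1 + τ))‖ₑ = 1 := by
        rw [← ofReal_norm, norm_ee, ENNReal.ofReal_one]
      rw [this, one_mul]
    have h2 := lint_cube_le hT
      (u := fun τ => ‖ext H (gs J H ρ G f τ) (ρ • p.1) (-(ρ ^ 2 * p.2))‖ₑ)
      ((hm.comp (by fun_prop : Measurable fun τ : ℝ => (τ, (ρ • p.1, -(ρ ^ 2 * p.2))))).enorm)
      (fun τ hτ => by simp [hg0 τ hτ, ext])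
    calc (‖(ρ ^ 2 : ℝ)‖ₑ * ‖∫ τ : ℝ, ee (p.2 * (1 + τ)) *
        ext H (gs J H ρ G f τ) (ρ • p.1) (-(ρ ^ 2 * p.2))‖ₑ) ^ 3
        ≤ (‖(ρ ^ 2 : ℝ)‖ₑ * ∫⁻ τ : ℝ,
            ‖ext H (gs J H ρ G f τ) (ρ • p.1) (-(ρ ^ 2 * p.2))‖ₑ) ^ 3 := by gcongr
      _ = ‖(ρ ^ 2 : ℝ)‖ₑ ^ 3 * (∫⁻ τ : ℝ,
            ‖ext H (gs J H ρ G f τ) (ρ • p.1) (-(ρ ^ 2 * p.2))‖ₑ) ^ 3 := by rw [mul_pow]
      _ ≤ ‖(ρ ^ 2 : ℝ)‖ₑ ^ 3 * (ENNReal.ofReal ((2 * T) ^ 2) * ∫⁻ τ : ℝ,
            ‖ext H (gs J H ρ G f τ) (ρ • p.1) (-(ρ ^ 2 * p.2))‖ₑ ^ 3) := by gcongr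
      _ = _ := by
        rw [← mul_assoc]
        congr 1
        rw [← ofReal_norm, Real.norm_of_nonneg (by positivity), ← ENNReal.ofReal_pow (by positivity),
          ← ENNReal.ofReal_mul (by positivity)]
        congr 1
        ring
  have hm2 : Measurable fun q : ℝ × (E2 × ℝ) =>
      ‖ext H (gs J H ρ G f q.1) (ρ • q.2.1) (-(ρ ^ 2 * q.2.2))‖ₑ ^ 3 :=
    ((hm.comp (by fun_prop : Measurable fun q : ℝ × (E2 × ℝ) =>
      (q.1, (ρ • q.2.1, -(ρ ^ 2 * q.2.2))))).enorm).pow_const 3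
  calc ∫⁻ p in cyl R, ‖cv (𝓕⁻ G) f (up J p.1 p.2)‖ₑ ^ 3
      ≤ ∫⁻ p in cyl R, ENNReal.ofReal (ρ ^ 6 * (2 * T) ^ 2) *
        ∫⁻ τ : ℝ, ‖ext H (gs J H ρ G f τ) (ρ • p.1) (-(ρ ^ 2 * p.2))‖ₑ ^ 3 :=
        lintegral_mono fun p => hpt p
    _ = ENNReal.ofReal (ρ ^ 6 * (2 * T) ^ 2) * ∫⁻ p in cyl R,
        ∫⁻ τ : ℝ, ‖ext H (gs J H ρ G f τ) (ρ • p.1) (-(ρ ^ 2 * p.2))‖ₑ ^ 3 := by
        rw [lintegral_const_mul]
        exact Measurable.lintegral_prod_left' (f := fun q : ℝ × (E2 × ℝ) =>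
          ‖ext H (gs J H ρ G f q.1) (ρ • q.2.1) (-(ρ ^ 2 * q.2.2))‖ₑ ^ 3) hm2
    _ = ENNReal.ofReal (ρ ^ 6 * (2 * T) ^ 2) * ∫⁻ τ : ℝ, ∫⁻ p in cyl R,
        ‖ext H (gs J H ρ G f τ) (ρ • p.1) (-(ρ ^ 2 * p.2))‖ₑ ^ 3 := by
        congr 1
        rw [lintegral_lintegral_swap]
        exact (hm2.comp measurable_swap).aemeasurable
    _ ≤ ENNReal.ofReal (ρ ^ 6 * (2 * T) ^ 2) * ∫⁻ τ : ℝ, ENNReal.ofReal (ρ⁻¹ ^ 4) *
        ∫⁻ p in cyl R, ‖ext H (gs J H ρ G f τ) p.1 p.2‖ₑ ^ 3 := by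
        gcongr with τ
        set u : E2 × ℝ → ℝ≥0∞ := (cyl R).indicator fun p => ‖ext H (gs J H ρ G f τ) p.1 p.2‖ₑ ^ 3
        have hu : Measurable u :=
          (((hm.comp (by fun_prop : Measurable fun p : E2 × ℝ => (τ, p))).enorm).pow_const
            3).indicator (measurableSet_cyl R)
        rw [← lintegral_indicator (measurableSet_cyl R), ← lintegral_indicator (measurableSet_cyl R),
          ← lintegral_scale hρ hu]
        refine lintegral_mono fun p => ?_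
        by_cases hp : p ∈ cyl R
        · have hp' : (ρ • p.1, -(ρ ^ 2 * p.2)) ∈ cyl R := by
            obtain ⟨h1, h2⟩ := hp
            refine ⟨?_, ?_⟩
            · simp only [norm_smul, Real.norm_eq_abs, abs_of_pos hρ]
              calc ρ * ‖p.1‖ ≤ 1 * ‖p.1‖ := by gcongr
                _ ≤ R := by linarith
            · simp only [abs_neg, abs_mul, abs_of_nonneg (sq_nonneg ρ)]
              have : ρ ^ 2 ≤ 1 := by nlinarith
              calc ρ ^ 2 * |p.2| ≤ 1 * |p.2| := by gcongr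
                _ ≤ R := by linarith
          simp only [u, Set.indicator_of_mem hp, Set.indicator_of_mem hp']
          rfl
        · simp [Set.indicator_of_notMem hp]
    _ = _ := by
        rw [lintegral_const_mul, ← mul_assoc, ← ENNReal.ofReal_mul (by positivity)]
        · congr 2
          field_simp
        · exact Measurable.lintegral_prod_right' (f := fun q : ℝ × (E2 × ℝ) =>
            ‖ext H (gs J H ρ G f q.1) q.2.1 q.2.2‖ₑ ^ 3) (hm.enorm.pow_const 3)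

end Crest.Agent.R138.Fq665
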