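import Mathlib
import Crest.Agent.R138.Fq5_665

/-! Energy of the slices and the consumption of the extension estimate. -/

set_option autoImplicit false

open MeasureTheory Filter Topology
open scoped ENNReal FourierTransform ContDiff

noncomputable section

namespace Crest.Agent.R138.Fq665

open Crest.Agent.R138.Defs
open Crest.Agent.R138.Fr665 (cv)

variable (J : PR ≃ₗᵢ[ℝ] V) {H : E2 → ℝ} {ρ : ℝ}

theorem continuous_gs (hH : Continuous H) {G f : V → ℂ} (hGc : Continuous G) (hf : Integrable f)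
    (τ : ℝ) : Continuous (gs J H ρ G f τ) := by
  have hcf := continuous_fourier hf
  have h1 : Continuous fun η : E2 => cw J H ρ (τ, η) := (continuous_cw J hH).comp (by fun_prop)
  exact (hGc.comp h1).mul (hcf.comp h1)

/-- energy of the slices. -/
theorem energy_slices (hH : Continuous H) (hρ : 0 < ρ) {G f : V → ℂ} (hGc : Continuous G)
    (hf : Integrable f) (hf2 : MemLp f 2) {M : ℝ} (hM : ∀ ξ, ‖G ξ‖ ≤ M) :
    ∫⁻ τ : ℝ, ∫⁻ η, ‖gs J H ρ G f τ η‖ₑ ^ 2 ≤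
      ENNReal.ofReal (ρ⁻¹ ^ 2 * M ^ 2) * ∫⁻ v, ‖f v‖ₑ ^ 2 := by
  have hM0 : 0 ≤ M := (norm_nonneg _).trans (hM 0)
  have hcf := continuous_fourier hf
  have hm : Measurable fun v => ‖G v * 𝓕 f v‖ₑ ^ 2 := ((hGc.mul hcf).measurable.enorm).pow_const 2
  have h1 := lintegral_cw J (ρ := ρ) hH hρ hm
  have hm' : Measurable fun q : ℝ × E2 => ‖G (cw J H ρ q) * 𝓕 f (cw J H ρ q)‖ₑ ^ 2 :=
    hm.comp (continuous_cw J hH).measurable
  have h2 := lintegral_prod (μ := (volume : Measure ℝ)) (ν := (volume : Measure E2)) _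
    hm'.aemeasurable
  rw [← Measure.volume_eq_prod] at h2
  replace h1 := h2.symm.trans h1
  calc ∫⁻ τ : ℝ, ∫⁻ η, ‖gs J H ρ G f τ η‖ₑ ^ 2
      = ENNReal.ofReal (ρ⁻¹ ^ 2) * ∫⁻ v, ‖G v * 𝓕 f v‖ₑ ^ 2 := h1
    _ ≤ ENNReal.ofReal (ρ⁻¹ ^ 2) * ∫⁻ v, ENNReal.ofReal (M ^ 2) * ‖𝓕 f v‖ₑ ^ 2 := by
        gcongr with v
        rw [enorm_mul, mul_pow, ENNReal.ofReal_pow hM0]
        gcongr
        rw [← ofReal_norm]
        exact ENNReal.ofReal_le_ofReal (hM v)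
    _ = _ := by
        rw [lintegral_const_mul _ ((hcf.measurable.enorm).pow_const 2), plancherel hf hf2, ← mul_assoc,
          ← ENNReal.ofReal_mul (by positivity)]

/-- consumption of the extension estimate. -/
theorem slices_consume (hH : Continuous H) (hρ : 0 < ρ) (hρ1 : ρ ≤ 1) {G f : V → ℂ}
    (hGc : Continuous G) (hGs : HasCompactSupport G) (hf : Integrable f) (hf2 : MemLp f 2)
    {M : ℝ} (hM : ∀ ξ, ‖G ξ‖ ≤ M) {T : ℝ} (hT : 0 ≤ T)
    (hG0 : ∀ τ η, T < |τ| → G (cw J H ρ (τ, η)) = 0)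
    (hG1 : ∀ τ η, |τ| ≤ T → 1 < ‖η‖ → G (cw J H ρ (τ, η)) = 0) {R A : ℝ} (hA : 0 ≤ A)
    (hE : ∀ τ, |τ| ≤ T → ∫⁻ p in cyl R, ‖ext H (gs J H ρ G f τ) p.1 p.2‖ₑ ^ 3 ≤
      ENNReal.ofReal (A * ∫ ξ, ‖gs J H ρ G f τ ξ‖ ^ 2)) :
    ∫⁻ p in cyl R, ‖cv (𝓕⁻ G) f (up J p.1 p.2)‖ₑ ^ 3 ≤
      ENNReal.ofReal ((2 * T) ^ 2 * A * M ^ 2) * ∫⁻ v, ‖f v‖ₑ ^ 2 := by
  have hM0 : 0 ≤ M := (norm_nonneg _).trans (hM 0)
  refine (slices_bound J hH hρ hρ1 hGc hGs hf hT hG0 R).trans ?_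
  have h1 : ∀ τ : ℝ, ∫⁻ p in cyl R, ‖ext H (gs J H ρ G f τ) p.1 p.2‖ₑ ^ 3 ≤
      ENNReal.ofReal A * ∫⁻ η, ‖gs J H ρ G f τ η‖ₑ ^ 2 := by
    intro τ
    by_cases hτ : |τ| ≤ T
    · refine (hE τ hτ).trans (le_of_eq ?_)
      rw [ENNReal.ofReal_mul hA]
      congr 1
      rw [ofReal_integral_eq_lintegral_ofReal]
      · refine lintegral_congr fun η => ?_
        rw [ENNReal.ofReal_pow (norm_nonneg _), ofReal_norm]
      · have hc := continuous_gs J (ρ := ρ) hH hGc hf τ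
        apply Continuous.integrable_of_hasCompactSupport (hc.norm.pow 2)
        apply HasCompactSupport.of_support_subset_isCompact (isCompact_closedBall (0 : E2) 1)
        intro η hη
        by_contra hη'
        simp only [Metric.mem_closedBall, dist_zero_right, not_le] at hη'
        apply hη
        have := hG1 τ η hτ hη'
        simp only [cw] at this
        simp [gs, this]
      · exact Eventually.of_forall fun η => by positivity
    · push Not at hτ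
      have hg0 : gs J H ρ G f τ = 0 := by
        ext η
        have := hG0 τ η hτ
        simp only [cw] at this
        simp [gs, this]
      simp [hg0, ext]
  calc ENNReal.ofReal (ρ ^ 2 * (2 * T) ^ 2) *
        ∫⁻ τ : ℝ, ∫⁻ p in cyl R, ‖ext H (gs J H ρ G f τ) p.1 p.2‖ₑ ^ 3
      ≤ ENNReal.ofReal (ρ ^ 2 * (2 * T) ^ 2) *
        ∫⁻ τ : ℝ, ENNReal.ofReal A * ∫⁻ η, ‖gs J H ρ G f τ η‖ₑ ^ 2 := by
        gcongr with τ; exact h1 τ
    _ ≤ ENNReal.ofReal (ρ ^ 2 * (2 * T) ^ 2) * (ENNReal.ofReal A *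
        (ENNReal.ofReal (ρ⁻¹ ^ 2 * M ^ 2) * ∫⁻ v, ‖f v‖ₑ ^ 2)) := by
        rw [lintegral_const_mul' _ _ ENNReal.ofReal_ne_top]
        gcongr
        exact energy_slices J hH hρ hGc hf hf2 hM
    _ = _ := by
        rw [← mul_assoc, ← mul_assoc, ← ENNReal.ofReal_mul (by positivity),
          ← ENNReal.ofReal_mul (by positivity)]
        congr 2
        field_simp

end Crest.Agent.R138.Fq665
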