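import Mathlib
import Crest.Agent.R138.Fq6_665

/-! Volumes of rectangles, near and far parts: the box bound from kernel decay. -/

set_option autoImplicit false

open MeasureTheory Filter Topology
open scoped ENNReal FourierTransform ContDiff

noncomputable section

namespace Crest.Agent.R138.Fq665

open Crest.Agent.R138.Defs
open Crest.Agent.R138.Fr665 (cv)

/-- a rectangle in the plane. -/
def rect (b : OrthonormalBasis (Fin 2) ℝ E2) (p : E2) (r : Fin 2 → ℝ) : Set E2 :=
  {x : E2 | ∀ i, |inner ℝ (x - p) (b i)| ≤ r i}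

theorem measurableSet_rect (b : OrthonormalBasis (Fin 2) ℝ E2) (p : E2) (r : Fin 2 → ℝ) :
    MeasurableSet (rect b p r) := by
  unfold rect
  rw [Set.ofPred_forall]
  exact MeasurableSet.iInter fun i => measurableSet_le (by fun_prop) measurable_const

theorem vol_rect (b : OrthonormalBasis (Fin 2) ℝ E2) (p : E2) (r : Fin 2 → ℝ)
    (hr : ∀ i, 0 ≤ r i) : volume (rect b p r) = ENNReal.ofReal (4 * (r 0 * r 1)) := by
  set f : E2 → (Fin 2 → ℝ) := fun x => WithLp.ofLp (b.repr (x - p)) with hf
  have hmp : MeasurePreserving f volume volume := by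
    have h1 : MeasurePreserving (fun x : E2 => x - p) volume volume :=
      measurePreserving_sub_right volume p
    have h2 : MeasurePreserving b.repr volume volume := b.repr.measurePreserving
    have h3 : MeasurePreserving (WithLp.ofLp : E2 → (Fin 2 → ℝ)) volume volume :=
      PiLp.volume_preserving_ofLp (Fin 2)
    exact h3.comp (h2.comp h1)
  have hs : rect b p r = f ⁻¹' (Set.univ.pi fun i => Set.Icc (-r i) (r i)) := by
    ext x
    simp only [rect, Set.mem_ofPred_eq, Set.mem_preimage, Set.mem_pi, Set.mem_univ, true_imp_iff,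
      Set.mem_Icc, hf, abs_le]
    refine forall_congr' fun i => ?_
    rw [OrthonormalBasis.repr_apply_apply, real_inner_comm]
  rw [hs, hmp.measure_preimage (MeasurableSet.univ_pi fun i => measurableSet_Icc).nullMeasurableSet,
    volume_pi_pi]
  simp only [Real.volume_Icc, Fin.prod_univ_two]
  rw [← ENNReal.ofReal_mul (by have := hr 0; linarith)]
  congr 1
  ring

/-- the plank as a family of rectangles. -/
theorem plank_slice (c : E2) (b : OrthonormalBasis (Fin 2) ℝ E2) (s : Fin 2 → ℝ) (R : ℝ) (x0 : E2)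
    (t0 t : ℝ) (x : E2) : (x, t) ∈ plank c b s R x0 t0 ↔
      |t - t0| ≤ R ∧ x ∈ rect b (x0 - (t - t0) • c) (fun i => s i * R) := by
  simp only [plank, rect, Set.mem_ofPred_eq]
  have : x - x0 + (t - t0) • c = x - (x0 - (t - t0) • c) := by abel
  rw [this]

theorem measurableSet_plank (c : E2) (b : OrthonormalBasis (Fin 2) ℝ E2) (s : Fin 2 → ℝ) (R : ℝ)
    (x0 : E2) (t0 : ℝ) : MeasurableSet (plank c b s R x0 t0) := by
  unfold plank
  rw [Set.ofPred_and, Set.ofPred_forall]
  refine (measurableSet_le (by fun_prop) measurable_const).inter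
    (MeasurableSet.iInter fun i => measurableSet_le (by fun_prop) measurable_const)

/-- volume of a family of rectangles over an interval. -/
theorem vol_fam_le (b : OrthonormalBasis (Fin 2) ℝ E2) (c x0 : E2) (r : Fin 2 → ℝ)
    (hr : ∀ i, 0 ≤ r i) (t0 t1 L : ℝ) (hL : 0 ≤ L) (S : Set (E2 × ℝ)) (hS : MeasurableSet S)
    (h : ∀ x t, (x, t) ∈ S → |t - t1| ≤ L ∧ x ∈ rect b (x0 - (t - t0) • c) r) :
    volume S ≤ ENNReal.ofReal (2 * L * (4 * (r 0 * r 1))) := by
  rw [Measure.volume_eq_prod, Measure.prod_apply_symm hS]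
  calc ∫⁻ t : ℝ, volume ((fun x : E2 => (x, t)) ⁻¹' S)
      ≤ ∫⁻ t : ℝ, (Set.Icc (t1 - L) (t1 + L)).indicator
          (fun _ => ENNReal.ofReal (4 * (r 0 * r 1))) t := by
        refine lintegral_mono fun t => ?_
        by_cases ht : t ∈ Set.Icc (t1 - L) (t1 + L)
        · rw [Set.indicator_of_mem ht, ← vol_rect b (x0 - (t - t0) • c) r hr]
          exact measure_mono fun x hx => (h x t hx).2
        · have : (fun x : E2 => (x, t)) ⁻¹' S = ∅ := by
            ext x
            simp only [Set.mem_preimage, Set.mem_empty_iff_false, iff_false]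
            intro hx
            have h1 := (h x t hx).1
            rw [abs_le] at h1
            exact ht ⟨by linarith, by linarith⟩
          rw [this]; simp
    _ = _ := by
        rw [lintegral_indicator measurableSet_Icc, lintegral_const, Measure.restrict_apply_univ,
          Real.volume_Icc, mul_comm, ← ENNReal.ofReal_mul (by linarith)]
        congr 1
        ring

theorem vol_plank_le (c : E2) (b : OrthonormalBasis (Fin 2) ℝ E2) (s : Fin 2 → ℝ)
    (hs : ∀ i, 0 ≤ s i) {R : ℝ} (hR : 0 ≤ R) (x0 : E2) (t0 : ℝ) :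
    volume (plank c b s R x0 t0) ≤ ENNReal.ofReal (8 * (s 0 * s 1 * R ^ 3)) := by
  refine (vol_fam_le b c x0 (fun i => s i * R) (fun i => mul_nonneg (hs i) hR) t0 t0 R hR _
    (measurableSet_plank c b s R x0 t0) fun x t hx => (plank_slice c b s R x0 t0 t x).1 hx).trans
    (le_of_eq ?_)
  congr 1
  ring

end Crest.Agent.R138.Fq665
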