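import Mathlib
import Crest.Agent.R138.Fq7_665

/-! Near and far parts of `ext H (κ · Ft F)`. -/

set_option autoImplicit false

open MeasureTheory Filter Topology
open scoped ENNReal FourierTransform ContDiff

noncomputable section

namespace Crest.Agent.R138.Fq665

open Crest.Agent.R138.Defs
open Crest.Agent.R138.Fr665 (cv)

/-- adjoint extension. -/
def Ft (H : E2 → ℝ) (F : E2 × ℝ → ℂ) (η : E2) : ℂ :=
  ∫ w : E2 × ℝ, F w * ee (-(inner ℝ w.1 η + w.2 * H η))

variable {H : E2 → ℝ}

theorem ext_Ft (hH : Continuous H) {κ : E2 → ℂ} (hκ : Integrable κ) {F : E2 × ℝ → ℂ}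
    (hF : Integrable F) (x : E2) (t : ℝ) :
    ext H (fun η => κ η * Ft H F η) x t = ∫ w : E2 × ℝ, F w * ext H κ (x - w.1) (t - w.2) := by
  unfold ext Ft
  have h1 : ∀ η, κ η * (∫ w : E2 × ℝ, F w * ee (-(inner ℝ w.1 η + w.2 * H η))) *
      ee (inner ℝ x η + t * H η) = ∫ w : E2 × ℝ, κ η * F w *
        ee (inner ℝ (x - w.1) η + (t - w.2) * H η) := by
    intro η
    rw [mul_assoc, ← integral_mul_const, ← integral_const_mul]
    refine integral_congr_ae (Eventually.of_forall fun w => ?_)
    simp only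
    have : (inner ℝ (x - w.1) η + (t - w.2) * H η : ℝ) = -(inner ℝ w.1 η + w.2 * H η) +
        (inner ℝ x η + t * H η) := by rw [inner_sub_left]; ring
    rw [this, ee_add (-(inner ℝ w.1 η + w.2 * H η)) (inner ℝ x η + t * H η)]
    ring
  simp only [h1]
  rw [integral_integral_swap]
  · refine integral_congr_ae (Eventually.of_forall fun w => ?_)
    simp only
    rw [← integral_const_mul]
    refine integral_congr_ae (Eventually.of_forall fun η => ?_)
    simp only
    ring
  · have h2 : Integrable (fun p : E2 × (E2 × ℝ) => κ p.1 * F p.2) (volume.prod volume) :=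
      hκ.mul_prod hF
    have h3 : AEStronglyMeasurable (fun p : E2 × (E2 × ℝ) =>
        ee (inner ℝ (x - p.2.1) p.1 + (t - p.2.2) * H p.1)) (volume.prod volume) :=
      (continuous_ee.comp (by fun_prop : Continuous fun p : E2 × (E2 × ℝ) =>
        (inner ℝ (x - p.2.1) p.1 + (t - p.2.2) * H p.1 : ℝ))).aestronglyMeasurable
    have h4 := h2.bdd_mul (c := 1) h3 (Eventually.of_forall fun p => (norm_ee _).le)
    refine h4.congr (Eventually.of_forall fun p => ?_)
    simp only [Function.uncurry]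
    ring

/-- convolution in the plane with the kernel of a bounded multiplier. -/
theorem plane_l2 (hH : Continuous H) {κ : E2 → ℂ} (hκ : Continuous κ) (hκs : HasCompactSupport κ)
    {M : ℝ} (hM : ∀ η, ‖κ η‖ ≤ M) {u : E2 → ℂ} (hu : Integrable u) (hu2 : MemLp u 2) (t : ℝ) :
    ∫⁻ x : E2, ‖∫ w : E2, u w * ext H κ (x - w) t‖ₑ ^ 2 ≤
      ENNReal.ofReal (M ^ 2) * ∫⁻ w, ‖u w‖ₑ ^ 2 := by
  have hM0 : 0 ≤ M := (norm_nonneg _).trans (hM 0)
  have hcu : Continuous (𝓕 u) := by
    simpa using! VectorFourier.fourierIntegral_continuous (V := E2) (W := E2)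
      Real.continuous_fourierChar (L := innerₗ E2) continuous_inner hu
  set g : E2 → ℂ := fun η => κ η * ee (t * H η) * 𝓕 u η with hg
  have hgc : Continuous g := (hκ.mul (continuous_ee.comp (by fun_prop))).mul hcu
  have hgs : HasCompactSupport g := (hκs.mul_right).mul_right
  have hg1 : Integrable g := hgc.integrable_of_hasCompactSupport hgs
  have hg2 : MemLp g 2 := hgc.memLp_of_hasCompactSupport hgs
  have hkey : ∀ x, ∫ w : E2, u w * ext H κ (x - w) t = 𝓕⁻ g x := by
    intro x
    rw [Real.fourierInv_eq']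
    unfold ext
    have h1 : ∀ w, u w * ∫ ξ, κ ξ * ee (inner ℝ (x - w) ξ + t * H ξ) =
        ∫ ξ, u w * (κ ξ * ee (inner ℝ (x - w) ξ + t * H ξ)) := by
      intro w; rw [integral_const_mul]
    simp only [h1]
    rw [integral_integral_swap]
    · refine integral_congr_ae (Eventually.of_forall fun ξ => ?_)
      simp only [hg, smul_eq_mul]
      have hfu : 𝓕 u ξ = ∫ w, u w * ee (-inner ℝ w ξ) := by
        rw [Real.fourier_eq']
        refine integral_congr_ae (Eventually.of_forall fun y => ?_)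
        simp only [smul_eq_mul, ee]
        rw [mul_comm]
        congr 3
        ring_nf
      rw [hfu, ← integral_const_mul, ← integral_const_mul]
      refine integral_congr_ae (Eventually.of_forall fun w => ?_)
      simp only
      have e1 : Complex.exp (((2 * Real.pi * inner ℝ ξ x : ℝ) : ℂ) * Complex.I) =
          ee (inner ℝ x ξ) := by rw [ee, real_inner_comm]
      have e2 : ee (inner ℝ (x - w) ξ + t * H ξ) = ee (inner ℝ x ξ) * ee (-inner ℝ w ξ) *
          ee (t * H ξ) := by
        rw [← ee_add, ← ee_add, inner_sub_left]; congr 1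
      rw [e1, e2]
      ring
    · have h2 : Integrable (fun p : E2 × E2 => u p.1 * κ p.2) (volume.prod volume) :=
        hu.mul_prod (hκ.integrable_of_hasCompactSupport hκs)
      have h3 : AEStronglyMeasurable (fun p : E2 × E2 =>
          ee (inner ℝ (x - p.1) p.2 + t * H p.2)) (volume.prod volume) :=
        (continuous_ee.comp (by fun_prop : Continuous fun p : E2 × E2 =>
          (inner ℝ (x - p.1) p.2 + t * H p.2 : ℝ))).aestronglyMeasurable
      have h4 := h2.bdd_mul (c := 1) h3 (Eventually.of_forall fun p => (norm_ee _).le)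
      refine h4.congr (Eventually.of_forall fun p => ?_)
      simp only [Function.uncurry]
      ring
  simp only [hkey]
  rw [plancherel_inv hg1 hg2]
  calc ∫⁻ η, ‖g η‖ₑ ^ 2 ≤ ∫⁻ η, ENNReal.ofReal (M ^ 2) * ‖𝓕 u η‖ₑ ^ 2 := by
        refine lintegral_mono fun η => ?_
        simp only [hg]
        rw [enorm_mul, enorm_mul, mul_pow, ENNReal.ofReal_pow hM0, mul_pow]
        have : ‖ee (t * H η)‖ₑ = 1 := by rw [← ofReal_norm, norm_ee, ENNReal.ofReal_one]
        rw [this, one_pow, mul_one]
        gcongr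
        rw [← ofReal_norm]
        exact ENNReal.ofReal_le_ofReal (hM η)
    _ = _ := by
        rw [lintegral_const_mul _ ((hcu.measurable.enorm).pow_const 2), plancherel hu hu2]

/-- the square of an integral over a short interval. -/
theorem lint_sq_le {T : ℝ} {u : ℝ → ℝ≥0∞} (hu : Measurable u)
    (h0 : ∀ τ, T < |τ| → u τ = 0) :
    (∫⁻ τ, u τ) ^ 2 ≤ ENNReal.ofReal (2 * T) * ∫⁻ τ, u τ ^ 2 := by
  set I : ℝ → ℝ≥0∞ := (Set.Icc (-T) T).indicator 1 with hI
  have hIm : Measurable I := measurable_one.indicator measurableSet_Icc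
  have hII : ∫⁻ τ, I τ = ENNReal.ofReal (2 * T) := by
    rw [hI, lintegral_indicator_one measurableSet_Icc, Real.volume_Icc]
    congr 1; ring
  have h1 : ∀ τ, u τ = I τ ^ (1/2 : ℝ) * (u τ ^ 2) ^ (1/2 : ℝ) := by
    intro τ
    have h3 : (u τ ^ 2) ^ (1/2 : ℝ) = u τ := by
      rw [← ENNReal.rpow_natCast, ← ENNReal.rpow_mul]; norm_num
    rw [h3]
    by_cases hτ : |τ| ≤ T
    · have : τ ∈ Set.Icc (-T) T := abs_le.1 hτ
      simp [hI, this]
    · push Not at hτ
      simp [h0 τ hτ]
  have h2 : ∫⁻ τ, u τ ≤ (∫⁻ τ, I τ) ^ (1/2 : ℝ) * (∫⁻ τ, u τ ^ 2) ^ (1/2 : ℝ) := by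
    calc ∫⁻ τ, u τ = ∫⁻ τ, I τ ^ (1/2 : ℝ) * (u τ ^ 2) ^ (1/2 : ℝ) := lintegral_congr h1
      _ ≤ _ := ENNReal.lintegral_mul_norm_pow_le hIm.aemeasurable (hu.pow_const 2).aemeasurable
        (by norm_num) (by norm_num) (by norm_num)
  calc (∫⁻ τ, u τ) ^ 2 ≤ ((∫⁻ τ, I τ) ^ (1/2 : ℝ) * (∫⁻ τ, u τ ^ 2) ^ (1/2 : ℝ)) ^ 2 := by
        gcongr
    _ = _ := by
        rw [mul_pow, ← ENNReal.rpow_natCast, ← ENNReal.rpow_mul, ← ENNReal.rpow_natCast,
          ← ENNReal.rpow_mul, hII]
        norm_num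

/-- the class of the sources. -/
structure Src (L : ℝ) (F : E2 × ℝ → ℂ) : Prop where
  meas : Measurable F
  le_one : ∀ w, ‖F w‖ ≤ 1
  supp : ∀ w, (L < ‖w.1‖ ∨ L < |w.2|) → F w = 0

theorem Src.slice_int {L : ℝ} {F : E2 × ℝ → ℂ} (h : Src L F) (t : ℝ) :
    Integrable (fun x : E2 => F (x, t)) ∧ MemLp (fun x : E2 => F (x, t)) 2 := by
  have hm : Measurable fun x : E2 => F (x, t) := h.meas.comp (by fun_prop)
  have h1 : MemLp (fun x : E2 => F (x, t)) ⊤ := memLp_top_of_bound hm.aestronglyMeasurable 1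
    (Eventually.of_forall fun x => h.le_one _)
  have hs : Function.support (fun x : E2 => F (x, t)) ⊆ Metric.closedBall 0 L := by
    intro x hx
    by_contra hx'
    simp only [Metric.mem_closedBall, dist_zero_right, not_le] at hx'
    exact hx (h.supp _ (Or.inl hx'))
  have hfin : volume (Metric.closedBall (0 : E2) L) ≠ ⊤ := measure_closedBall_lt_top.ne
  have key : ∀ p : ℝ≥0∞, MemLp (fun x : E2 => F (x, t)) p := by
    intro p
    have h2 : MemLp (fun x : E2 => F (x, t)) p (volume.restrict (Metric.closedBall (0 : E2) L)) :=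
      haveI : IsFiniteMeasure (volume.restrict (Metric.closedBall (0 : E2) L)) :=
        ⟨by rw [Measure.restrict_apply_univ]; exact hfin.lt_top⟩
      (h1.restrict _).mono_exponent le_top
    have h3 := (memLp_indicator_iff_restrict Metric.isClosed_closedBall.measurableSet).2 h2
    rwa [Set.indicator_eq_self.2 hs] at h3
  exact ⟨memLp_one_iff_integrable.1 (key 1), key 2⟩

theorem Src.int {L : ℝ} {F : E2 × ℝ → ℂ} (h : Src L F) : Integrable F := by
  have h1 : MemLp F ⊤ (volume : Measure (E2 × ℝ)) := memLp_top_of_bound h.meas.aestronglyMeasurable 1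
    (Eventually.of_forall fun x => h.le_one _)
  have hs : Function.support F ⊆ Metric.closedBall 0 L := by
    intro w hw
    by_contra hw'
    simp only [Metric.mem_closedBall, dist_zero_right, not_le, Prod.norm_def, lt_sup_iff,
      Real.norm_eq_abs] at hw'
    exact hw (h.supp _ hw')
  have h2 : MemLp F 1 (volume.restrict (Metric.closedBall (0 : E2 × ℝ) L)) :=
    haveI : IsFiniteMeasure (volume.restrict (Metric.closedBall (0 : E2 × ℝ) L)) :=
      ⟨by rw [Measure.restrict_apply_univ]; exact measure_closedBall_lt_top⟩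
    (h1.restrict _).mono_exponent le_top
  have h3 := (memLp_indicator_iff_restrict Metric.isClosed_closedBall.measurableSet).2 h2
  rw [Set.indicator_eq_self.2 hs] at h3
  exact memLp_one_iff_integrable.1 h3

end Crest.Agent.R138.Fq665
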