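import Mathlib
import Crest.Agent.R138.Fq8_665

/-! Near and far parts of `ext H (κ · Ft F)`; the box bound. -/

set_option autoImplicit false

open MeasureTheory Filter Topology
open scoped ENNReal FourierTransform ContDiff

noncomputable section

namespace Crest.Agent.R138.Fq665

open Crest.Agent.R138.Defs
open Crest.Agent.R138.Fr665 (cv)

variable {H : E2 → ℝ}

theorem measurable_ext (hH : Continuous H) {κ : E2 → ℂ} (hκ : Continuous κ) :
    Measurable fun q : E2 × ℝ => ext H κ q.1 q.2 := by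
  have hc : Continuous fun z : (E2 × ℝ) × E2 =>
      κ z.2 * ee (inner ℝ z.1.1 z.2 + z.1.2 * H z.2) := by
    exact (hκ.comp continuous_snd).mul (continuous_ee.comp (by fun_prop))
  exact (StronglyMeasurable.integral_prod_right' (ν := (volume : Measure E2))
    hc.stronglyMeasurable).measurable

theorem measurable_ext_comp {α : Type*} [MeasurableSpace α] (hH : Continuous H) {κ : E2 → ℂ}
    (hκ : Continuous κ) {a : α → E2} {b : α → ℝ} (ha : Measurable a) (hb : Measurable b) :
    Measurable fun z => ext H κ (a z) (b z) := by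
  have h1 := measurable_ext hH hκ
  have h2 : Measurable fun z => (a z, b z) := ha.prodMk hb
  have h3 := h1.comp h2
  exact h3

theorem norm_ext_le (H : E2 → ℝ) (κ : E2 → ℂ) (x : E2) (t : ℝ) : ‖ext H κ x t‖ ≤ ∫ η, ‖κ η‖ := by
  unfold ext
  refine (norm_integral_le_integral_norm _).trans (le_of_eq ?_)
  refine integral_congr_ae (Eventually.of_forall fun η => ?_)
  simp [norm_ee]

theorem near_le (hH : Continuous H) {κ : E2 → ℂ} (hκ : Continuous κ) (hκs : HasCompactSupport κ)
    {M : ℝ} (hM : ∀ η, ‖κ η‖ ≤ M) {L : ℝ} (hL : 0 ≤ L) {F : E2 × ℝ → ℂ} (hF : Src L F) (t : ℝ) :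
    ∫⁻ x : E2, ‖ext H (fun η => κ η * Ft H F η) x t‖ₑ ^ 2 ≤
      ENNReal.ofReal (2 * L * M ^ 2) * ∫⁻ w, ‖F w‖ₑ ^ 2 := by
  have hκi := hκ.integrable_of_hasCompactSupport (μ := volume) hκs
  have hme := measurable_ext hH hκ
  have hint : ∀ x : E2, Integrable (fun w : E2 × ℝ => F w * ext H κ (x - w.1) (t - w.2)) := by
    intro x
    have h3 : Measurable fun w : E2 × ℝ => ext H κ (x - w.1) (t - w.2) :=
      measurable_ext_comp hH hκ (by fun_prop) (by fun_prop)
    have := hF.int.bdd_mul (c := ∫ η, ‖κ η‖) h3.aestronglyMeasurable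
      (Eventually.of_forall fun w => norm_ext_le H κ _ _)
    refine this.congr (Eventually.of_forall fun p => ?_)
    simp only
    ring
  set u : E2 → ℝ → ℝ≥0∞ := fun x s => ‖∫ y : E2, F (y, s) * ext H κ (x - y) (t - s)‖ₑ with hu
  have hum : Measurable fun q : E2 × ℝ => u q.1 q.2 := by
    have hm : Measurable fun z : (E2 × ℝ) × E2 =>
        F (z.2, z.1.2) * ext H κ (z.1.1 - z.2) (t - z.1.2) := by
      apply Measurable.mul
      · exact hF.meas.comp (by fun_prop)
      · exact measurable_ext_comp hH hκ (by fun_prop) (by fun_prop)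
    exact (StronglyMeasurable.integral_prod_right' (ν := (volume : Measure E2))
      hm.stronglyMeasurable).measurable.enorm
  have h1 : ∀ x : E2, ‖ext H (fun η => κ η * Ft H F η) x t‖ₑ ≤ ∫⁻ s, u x s := by
    intro x
    rw [ext_Ft hH hκi hF.int, Measure.volume_eq_prod, integral_prod_symm _ (hint x)]
    exact enorm_integral_le_lintegral_enorm _
  have h0 : ∀ x s, L < |s| → u x s = 0 := by
    intro x s hs
    simp only [hu]
    have : ∀ y : E2, F (y, s) * ext H κ (x - y) (t - s) = 0 := by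
      intro y
      rw [hF.supp (y, s) (Or.inr hs), zero_mul]
    simp [this]
  calc ∫⁻ x : E2, ‖ext H (fun η => κ η * Ft H F η) x t‖ₑ ^ 2
      ≤ ∫⁻ x : E2, ENNReal.ofReal (2 * L) * ∫⁻ s, u x s ^ 2 := by
        refine lintegral_mono fun x => ?_
        have hux : Measurable (u x) := by
          have h2 : Measurable fun s : ℝ => ((x, s) : E2 × ℝ) := by fun_prop
          have h3 := hum.comp h2
          exact h3
        calc ‖ext H (fun η => κ η * Ft H F η) x t‖ₑ ^ 2 ≤ (∫⁻ s, u x s) ^ 2 := by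
              gcongr; exact h1 x
          _ ≤ _ := lint_sq_le hux (h0 x)
    _ = ENNReal.ofReal (2 * L) * ∫⁻ s : ℝ, ∫⁻ x : E2, u x s ^ 2 := by
        rw [lintegral_const_mul' _ _ ENNReal.ofReal_ne_top, lintegral_lintegral_swap]
        exact (hum.pow_const 2).aemeasurable
    _ ≤ ENNReal.ofReal (2 * L) * ∫⁻ s : ℝ, ENNReal.ofReal (M ^ 2) *
          ∫⁻ y : E2, ‖F (y, s)‖ₑ ^ 2 := by
        gcongr with s
        obtain ⟨h2, h3⟩ := hF.slice_int s
        exact plane_l2 hH hκ hκs hM h2 h3 (t - s)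
    _ = _ := by
        rw [lintegral_const_mul' _ _ ENNReal.ofReal_ne_top, ← mul_assoc,
          ← ENNReal.ofReal_mul (by positivity), Measure.volume_eq_prod,
          lintegral_prod_symm _ ((hF.meas.enorm.pow_const 2).aemeasurable)]

theorem vol_src_le {L : ℝ} (hL : 0 ≤ L) {F : E2 × ℝ → ℂ} (hF : Src L F) :
    volume {w | F w ≠ 0} ≤ ENNReal.ofReal (8 * L ^ 3) := by
  have hm : MeasurableSet {w | F w ≠ 0} := (hF.meas (measurableSet_singleton 0)).compl
  refine (vol_fam_le (EuclideanSpace.basisFun (Fin 2) ℝ) 0 0 (fun _ => L) (fun _ => hL) 0 0 L hL _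
    hm fun x t hx => ?_).trans (le_of_eq ?_)
  · have h1 : ¬ (L < ‖x‖ ∨ L < |t|) := fun h => hx (hF.supp (x, t) h)
    push Not at h1
    refine ⟨by simpa using h1.2, fun i => ?_⟩
    simp only [smul_zero, sub_zero]
    refine (abs_real_inner_le_norm _ _).trans ?_
    rw [OrthonormalBasis.norm_eq_one, mul_one]
    exact h1.1
  · congr 1
    ring

theorem far_le (hH : Continuous H) {κ : E2 → ℂ} (hκi : Integrable κ)
    {L : ℝ} (hL : 0 ≤ L) {F : E2 × ℝ → ℂ} (hF : Src L F) {x : E2} {t : ℝ} {Q : ℝ}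
    (hQ : ∀ w, F w ≠ 0 → ‖ext H κ (x - w.1) (t - w.2)‖ ≤ Q) :
    ‖ext H (fun η => κ η * Ft H F η) x t‖ₑ ≤ ENNReal.ofReal (8 * L ^ 3 * Q) := by
  rw [ext_Ft hH hκi hF.int]
  refine (enorm_integral_le_lintegral_enorm _).trans ?_
  have hm : MeasurableSet {w | F w ≠ 0} := (hF.meas (measurableSet_singleton 0)).compl
  calc ∫⁻ w : E2 × ℝ, ‖F w * ext H κ (x - w.1) (t - w.2)‖ₑ
      ≤ ∫⁻ w, {w | F w ≠ 0}.indicator (fun _ => ENNReal.ofReal Q) w := by
        refine lintegral_mono fun w => ?_
        by_cases hw : F w ≠ 0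
        · have : w ∈ {w | F w ≠ 0} := hw
          rw [Set.indicator_of_mem this, ← ofReal_norm, norm_mul]
          apply ENNReal.ofReal_le_ofReal
          calc ‖F w‖ * ‖ext H κ (x - w.1) (t - w.2)‖ ≤ 1 * Q :=
                mul_le_mul (hF.le_one w) (hQ w hw) (norm_nonneg _) zero_le_one
            _ = Q := one_mul _
        · push Not at hw
          simp [hw]
    _ = ENNReal.ofReal Q * volume {w | F w ≠ 0} := by
        rw [lintegral_indicator hm, lintegral_const, Measure.restrict_apply_univ]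
    _ ≤ ENNReal.ofReal Q * ENNReal.ofReal (8 * L ^ 3) := by gcongr; exact vol_src_le hL hF
    _ = _ := by
        rw [mul_comm, ← ENNReal.ofReal_mul (by positivity)]

end Crest.Agent.R138.Fq665
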