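import Mathlib
import Crest.Agent.R138.Fq9_665
import Crest.Agent.R138.Loc_665

/-! The box bound from kernel decay. -/

set_option autoImplicit false

open MeasureTheory Filter Topology
open scoped ENNReal FourierTransform ContDiff

noncomputable section

namespace Crest.Agent.R138.Fq665

open Crest.Agent.R138.Defs
open Crest.Agent.R138.Fr665 (cv)

variable {H : E2 → ℝ}

theorem continuous_chi (hH : ContDiff ℝ ∞ H) (c : E2) (b : OrthonormalBasis (Fin 2) ℝ E2)
    (s : Fin 2 → ℝ) {N : ℕ} {ψ : E2 → ℂ} (hψ : Adm N ψ) : Continuous (chi H c b s ψ) := by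
  have hg : Continuous (gradient H) := by
    unfold gradient
    exact (InnerProductSpace.toDual ℝ E2).symm.continuous.comp (hH.continuous_fderiv (by simp))
  have h1 : Continuous fun ξ : E2 => (fun i => inner ℝ (gradient H ξ - c) (b i) / s i) := by
    refine continuous_pi fun i => ?_
    exact ((hg.sub continuous_const).inner continuous_const).div_const _
  exact hψ.1.continuous.comp ((PiLp.continuous_toLp 2 (fun _ : Fin 2 => ℝ)).comp h1)

theorem norm_chi_le (c : E2) (b : OrthonormalBasis (Fin 2) ℝ E2)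
    (s : Fin 2 → ℝ) {N : ℕ} {ψ : E2 → ℂ} (hψ : Adm N ψ) (ξ : E2) : ‖chi H c b s ψ ξ‖ ≤ 1 := by
  have := hψ.2.2 0 (Nat.zero_le _) (WithLp.toLp 2 fun i => inner ℝ (gradient H ξ - c) (b i) / s i)
  rwa [norm_iteratedFDeriv_zero] at this

theorem Src.indicator {L : ℝ} {F : E2 × ℝ → ℂ} (h : Src L F) {S : Set (E2 × ℝ)}
    (hS : MeasurableSet S) : Src L (S.indicator F) where
  meas := h.meas.indicator hS
  le_one w := (norm_indicator_le_norm_self _ _).trans (h.le_one w)
  supp w hw := by
    by_cases hs : w ∈ S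
    · rw [Set.indicator_of_mem hs, h.supp w hw]
    · rw [Set.indicator_of_notMem hs]

theorem Ft_add {L : ℝ} (hH : Continuous H) {F F' : E2 × ℝ → ℂ} (h : Src L F) (h' : Src L F')
    (η : E2) : Ft H (fun w => F w + F' w) η = Ft H F η + Ft H F' η := by
  have key : ∀ {F : E2 × ℝ → ℂ}, Src L F →
      Integrable fun w : E2 × ℝ => F w * ee (-(inner ℝ w.1 η + w.2 * H η)) := by
    intro F hF
    have h3 : AEStronglyMeasurable (fun w : E2 × ℝ => ee (-(inner ℝ w.1 η + w.2 * H η))) volume :=
      (continuous_ee.comp (by fun_prop)).aestronglyMeasurable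
    have h4 := hF.int.bdd_mul (c := 1) h3 (Eventually.of_forall fun p => (norm_ee _).le)
    refine h4.congr (Eventually.of_forall fun p => ?_)
    simp only
    ring
  unfold Ft
  rw [← integral_add (key h) (key h')]
  refine integral_congr_ae (Eventually.of_forall fun w => ?_)
  simp only
  ring

theorem ext_add (hH : Continuous H) {g g' : E2 → ℂ} (h : Integrable g) (h' : Integrable g')
    (x : E2) (t : ℝ) : ext H (fun η => g η + g' η) x t = ext H g x t + ext H g' x t := by
  have key : ∀ {g : E2 → ℂ}, Integrable g →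
      Integrable fun η : E2 => g η * ee (inner ℝ x η + t * H η) := by
    intro g hg
    have h3 : AEStronglyMeasurable (fun η : E2 => ee (inner ℝ x η + t * H η)) volume :=
      (continuous_ee.comp (by fun_prop)).aestronglyMeasurable
    have h4 := hg.bdd_mul (c := 1) h3 (Eventually.of_forall fun p => (norm_ee _).le)
    refine h4.congr (Eventually.of_forall fun p => ?_)
    simp only
    ring
  unfold ext
  rw [← integral_add (key h) (key h')]
  refine integral_congr_ae (Eventually.of_forall fun w => ?_)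
  simp only
  ring

theorem continuous_Ft (hH : Continuous H) {F : E2 × ℝ → ℂ} (hF : Integrable F) :
    Continuous (Ft H F) := by
  unfold Ft
  refine continuous_of_dominated (bound := fun w => ‖F w‖) (fun η => ?_) (fun η => ?_) hF.norm ?_
  · exact hF.1.mul (continuous_ee.comp (by fun_prop)).aestronglyMeasurable
  · refine Eventually.of_forall fun w => ?_
    rw [norm_mul, norm_ee, mul_one]
  · refine Eventually.of_forall fun w => ?_
    exact continuous_const.mul (continuous_ee.comp (by fun_prop))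

theorem enorm_add_sq (a b : ℂ) : ‖a + b‖ₑ ^ 2 ≤ 2 * (‖a‖ₑ ^ 2 + ‖b‖ₑ ^ 2) := by
  calc ‖a + b‖ₑ ^ 2 ≤ (‖a‖ₑ + ‖b‖ₑ) ^ 2 := by gcongr; exact enorm_add_le _ _
    _ ≤ _ := by
      have := ENNReal.rpow_add_le_mul_rpow_add_rpow ‖a‖ₑ ‖b‖ₑ (p := 2) (by norm_num)
      norm_num at this
      exact this

/-- integral over a plank. -/
theorem lint_plank_le (c : E2) (b : OrthonormalBasis (Fin 2) ℝ E2) (s : Fin 2 → ℝ) {R : ℝ}
    (x0 : E2) (t0 : ℝ) {u : E2 × ℝ → ℝ≥0∞} (hu : Measurable u) {B : ℝ≥0∞}
    (hB : ∀ t : ℝ, ∫⁻ x : E2, u (x, t) ≤ B) :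
    ∫⁻ p in plank c b s R x0 t0, u p ≤ ENNReal.ofReal (2 * R) * B := by
  set I : ℝ → ℝ≥0∞ := (Set.Icc (t0 - R) (t0 + R)).indicator 1 with hI
  have hIm : Measurable I := measurable_one.indicator measurableSet_Icc
  have hmu : Measurable fun p : E2 × ℝ => I p.2 * u p := (hIm.comp measurable_snd).mul hu
  calc ∫⁻ p in plank c b s R x0 t0, u p ≤ ∫⁻ p : E2 × ℝ, I p.2 * u p := by
        rw [← lintegral_indicator (measurableSet_plank c b s R x0 t0)]
        refine lintegral_mono fun p => ?_
        by_cases hp : p ∈ plank c b s R x0 t0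
        · rw [Set.indicator_of_mem hp]
          have : p.2 ∈ Set.Icc (t0 - R) (t0 + R) := by
            have := hp.1
            rw [abs_le] at this
            exact ⟨by linarith, by linarith⟩
          simp [hI, this]
        · rw [Set.indicator_of_notMem hp]; exact zero_le
    _ = ∫⁻ t : ℝ, I t * ∫⁻ x : E2, u (x, t) := by
        rw [Measure.volume_eq_prod, lintegral_prod_symm _ hmu.aemeasurable]
        refine lintegral_congr fun t => ?_
        simp only
        rw [lintegral_const_mul]
        exact hu.comp (by fun_prop)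
    _ ≤ ∫⁻ t : ℝ, I t * B := by
        gcongr with t; exact hB t
    _ = _ := by
        rw [lintegral_mul_const _ hIm, hI, lintegral_indicator_one measurableSet_Icc,
          Real.volume_Icc]
        congr 2
        ring

/-- **the box bound from kernel decay.** -/
theorem box_of_decay (hH : ContDiff ℝ ∞ H) {β : E2 → ℂ} (hβ : Continuous β)
    (hβs : HasCompactSupport β) {M : ℝ} (hM : ∀ η, ‖β η‖ ≤ M) {L : ℝ} (hL : 0 ≤ L)
    {F : E2 × ℝ → ℂ} (hF : Src L F) {R lam Q L0 : ℝ} (hR : 1 ≤ R) (hlam : 1 ≤ lam) (hQ0 : 0 ≤ Q)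
    {N : ℕ}
    (hdec : ∀ (c : E2) (b : OrthonormalBasis (Fin 2) ℝ E2) (s : Fin 2 → ℝ),
      (∀ i, R ^ (-(1/2) : ℝ) ≤ s i ∧ s i ≤ 1) → ∀ ψ, Adm N ψ → ∀ (y : E2) (u : ℝ),
      |u| ≤ L0 * R + R + L → (∃ i, 3 * lam * (s i * R) ≤ |inner ℝ (y + u • c) (b i)|) →
      ‖ext H (fun η => β η * chi H c b s ψ η) y u‖ ≤ Q) :
    BoxBoundL L0 N H (fun η => β η * Ft H F η) R
      (1024 * (M ^ 2 * lam ^ 2 * L ^ 2 + L ^ 6 * Q ^ 2)) := by
  intro c b s hs ψ hψ x0 t0 hx0 ht0
  have hHc : Continuous H := hH.continuous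
  have hM0 : 0 ≤ M := (norm_nonneg _).trans (hM 0)
  have hR0 : 0 < R := by linarith
  have hs0 : ∀ i, 0 ≤ s i := fun i => (Real.rpow_nonneg hR0.le _).trans (hs i).1
  set κ : E2 → ℂ := fun η => β η * chi H c b s ψ η with hκ
  have hκc : Continuous κ := hβ.mul (continuous_chi hH c b s hψ)
  have hκs : HasCompactSupport κ := hβs.mul_right
  have hκM : ∀ η, ‖κ η‖ ≤ M := by
    intro η
    rw [hκ, norm_mul]
    calc ‖β η‖ * ‖chi H c b s ψ η‖ ≤ M * 1 :=
          mul_le_mul (hM η) (norm_chi_le c b s hψ η) (norm_nonneg _) hM0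
      _ = M := mul_one M
  have hκi : Integrable κ := hκc.integrable_of_hasCompactSupport hκs
  set S : Set (E2 × ℝ) := {w | ∀ i, |inner ℝ (w.1 - x0 + (w.2 - t0) • c) (b i)| ≤
    4 * lam * (s i * R)} with hS
  have hSm : MeasurableSet S := by
    rw [hS, Set.ofPred_forall]
    exact MeasurableSet.iInter fun i => measurableSet_le (by fun_prop) measurable_const
  set Fn := S.indicator F with hFn
  set Ff := Sᶜ.indicator F with hFf
  have hFn' : Src L Fn := hF.indicator hSm
  have hFf' : Src L Ff := hF.indicator hSm.compl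
  have hsplit : F = fun w => Fn w + Ff w := by
    ext w
    rw [hFn, hFf]
    exact (congrFun (Set.indicator_self_add_compl S F) w).symm
  have hcn : Continuous fun η => κ η * Ft H Fn η := hκc.mul (continuous_Ft hHc hFn'.int)
  have hcf : Continuous fun η => κ η * Ft H Ff η := hκc.mul (continuous_Ft hHc hFf'.int)
  have hin : Integrable fun η => κ η * Ft H Fn η :=
    hcn.integrable_of_hasCompactSupport hκs.mul_right
  have hif : Integrable fun η => κ η * Ft H Ff η :=
    hcf.integrable_of_hasCompactSupport hκs.mul_right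
  have hU : ∀ x t, ext H (fun ξ => β ξ * Ft H F ξ * chi H c b s ψ ξ) x t =
      ext H (fun η => κ η * Ft H Fn η) x t + ext H (fun η => κ η * Ft H Ff η) x t := by
    intro x t
    rw [← ext_add hHc hin hif]
    congr 1
    ext η
    have : Ft H F η = Ft H Fn η + Ft H Ff η := by
      rw [← Ft_add hHc hFn' hFf']
      congr 1
    rw [this, hκ]
    ring
  have hmn : Measurable fun p : E2 × ℝ => ‖ext H (fun η => κ η * Ft H Fn η) p.1 p.2‖ₑ ^ 2 :=
    ((measurable_ext hHc hcn).enorm).pow_const 2
  have hmf : Measurable fun p : E2 × ℝ => ‖ext H (fun η => κ η * Ft H Ff η) p.1 p.2‖ₑ ^ 2 :=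
    ((measurable_ext hHc hcf).enorm).pow_const 2
  -- near
  have hvol : ∫⁻ w, ‖Fn w‖ₑ ^ 2 ≤ ENNReal.ofReal (2 * L * (4 * ((4 * lam * (s 0 * R)) *
      (4 * lam * (s 1 * R))))) := by
    have hFm : MeasurableSet {w | Fn w ≠ 0} := (hFn'.meas (measurableSet_singleton 0)).compl
    calc ∫⁻ w, ‖Fn w‖ₑ ^ 2 ≤ ∫⁻ w, {w | Fn w ≠ 0}.indicator 1 w := by
          refine lintegral_mono fun w => ?_
          by_cases hw : Fn w ≠ 0
          · have : w ∈ {w | Fn w ≠ 0} := hw
            rw [Set.indicator_of_mem this, Pi.one_apply]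
            have h1 : ‖Fn w‖ₑ ≤ 1 := by
              rw [← ofReal_norm, ← ENNReal.ofReal_one]
              exact ENNReal.ofReal_le_ofReal (hFn'.le_one w)
            exact pow_le_one₀ zero_le h1
          · push Not at hw
            simp [hw]
      _ = volume {w | Fn w ≠ 0} := lintegral_indicator_one hFm
      _ ≤ _ := by
          refine vol_fam_le b c x0 (fun i => 4 * lam * (s i * R))
            (fun i => by have := hs0 i; positivity) t0 0 L hL _ hFm fun x t hx => ?_
          have h1 : ¬ (L < ‖x‖ ∨ L < |t|) := fun h => hx (hFn'.supp (x, t) h)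
          push Not at h1
          refine ⟨by simpa using h1.2, ?_⟩
          have h2 : (x, t) ∈ S := by
            by_contra h
            exact hx (Set.indicator_of_notMem h F)
          intro i
          have := h2 i
          simp only at this
          have e : x - x0 + (t - t0) • c = x - (x0 - (t - t0) • c) := by abel
          rwa [e] at this
  have hnear : ∫⁻ p in plank c b s R x0 t0, ‖ext H (fun η => κ η * Ft H Fn η) p.1 p.2‖ₑ ^ 2 ≤
      ENNReal.ofReal (512 * (M ^ 2 * lam ^ 2 * L ^ 2) * (s 0 * s 1 * R ^ 3)) := by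
    refine (lint_plank_le c b s x0 t0 hmn fun t => near_le hHc hκc hκs hκM hL hFn' t).trans ?_
    calc ENNReal.ofReal (2 * R) * (ENNReal.ofReal (2 * L * M ^ 2) * ∫⁻ w, ‖Fn w‖ₑ ^ 2)
        ≤ ENNReal.ofReal (2 * R) * (ENNReal.ofReal (2 * L * M ^ 2) *
          ENNReal.ofReal (2 * L * (4 * ((4 * lam * (s 0 * R)) * (4 * lam * (s 1 * R)))))) := by
          gcongr
      _ = _ := by
          rw [← ENNReal.ofReal_mul (by positivity), ← ENNReal.ofReal_mul (by positivity)]
          congr 1
          ring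
  -- far
  have hfar : ∫⁻ p in plank c b s R x0 t0, ‖ext H (fun η => κ η * Ft H Ff η) p.1 p.2‖ₑ ^ 2 ≤
      ENNReal.ofReal (512 * (L ^ 6 * Q ^ 2) * (s 0 * s 1 * R ^ 3)) := by
    calc ∫⁻ p in plank c b s R x0 t0, ‖ext H (fun η => κ η * Ft H Ff η) p.1 p.2‖ₑ ^ 2
        ≤ ∫⁻ _p in plank c b s R x0 t0, ENNReal.ofReal (8 * L ^ 3 * Q) ^ 2 := by
          refine setLIntegral_mono measurable_const fun p hp => ?_
          gcongr
          refine far_le hHc hκi hL hFf' fun w hw => ?_
          have hwS : w ∉ S := by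
            intro h
            exact hw (Set.indicator_of_notMem (by simpa using h) F)
          have h1 : ¬ (L < ‖w.1‖ ∨ L < |w.2|) := fun h => hw (hFf'.supp w h)
          push Not at h1
          have hS' : ∃ i, 4 * lam * (s i * R) < |inner ℝ (w.1 - x0 + (w.2 - t0) • c) (b i)| := by
            by_contra h
            push Not at h
            exact hwS h
          obtain ⟨i, hi⟩ := hS'
          refine hdec c b s hs ψ hψ _ _ ?_ ⟨i, ?_⟩
          · have h2 := hp.1
            have h3 := h1.2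
            rw [abs_le] at h2 h3 ht0 ⊢
            constructor <;> linarith [h2.1, h2.2, h3.1, h3.2, ht0.1, ht0.2]
          · have h2 := hp.2 i
            have e : p.1 - w.1 + (p.2 - w.2) • c = (p.1 - x0 + (p.2 - t0) • c) -
                (w.1 - x0 + (w.2 - t0) • c) := by
              rw [sub_smul, sub_smul, sub_smul]; abel
            rw [e, inner_sub_left]
            have h4 := abs_sub_abs_le_abs_sub (inner ℝ (w.1 - x0 + (w.2 - t0) • c) (b i))
              (inner ℝ (p.1 - x0 + (p.2 - t0) • c) (b i))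
            rw [abs_sub_comm] at h4
            have h5 : s i * R ≤ lam * (s i * R) :=
              le_mul_of_one_le_left (mul_nonneg (hs0 i) hR0.le) hlam
            linarith
      _ = ENNReal.ofReal (8 * L ^ 3 * Q) ^ 2 * volume (plank c b s R x0 t0) := by
          rw [setLIntegral_const]
      _ ≤ ENNReal.ofReal (8 * L ^ 3 * Q) ^ 2 * ENNReal.ofReal (8 * (s 0 * s 1 * R ^ 3)) := by
          gcongr; exact vol_plank_le c b s hs0 hR0.le x0 t0
      _ = _ := by
          rw [← ENNReal.ofReal_pow (by positivity), ← ENNReal.ofReal_mul (by positivity)]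
          congr 1
          ring
  calc ∫⁻ p in plank c b s R x0 t0,
        ‖ext H (fun ξ => β ξ * Ft H F ξ * chi H c b s ψ ξ) p.1 p.2‖ₑ ^ 2
      ≤ ∫⁻ p in plank c b s R x0 t0, 2 * (‖ext H (fun η => κ η * Ft H Fn η) p.1 p.2‖ₑ ^ 2 +
          ‖ext H (fun η => κ η * Ft H Ff η) p.1 p.2‖ₑ ^ 2) := by
        refine lintegral_mono fun p => ?_
        simp only
        rw [hU]
        exact enorm_add_sq _ _
    _ = 2 * ((∫⁻ p in plank c b s R x0 t0, ‖ext H (fun η => κ η * Ft H Fn η) p.1 p.2‖ₑ ^ 2) +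
          ∫⁻ p in plank c b s R x0 t0, ‖ext H (fun η => κ η * Ft H Ff η) p.1 p.2‖ₑ ^ 2) := by
        rw [← lintegral_add_left hmn]
        exact lintegral_const_mul _ (hmn.add hmf)
    _ ≤ 2 * (ENNReal.ofReal (512 * (M ^ 2 * lam ^ 2 * L ^ 2) * (s 0 * s 1 * R ^ 3)) +
          ENNReal.ofReal (512 * (L ^ 6 * Q ^ 2) * (s 0 * s 1 * R ^ 3))) := by gcongr
    _ = _ := by
        have h0 := hs0 0
        have h1 := hs0 1
        rw [← ENNReal.ofReal_add (by positivity) (by positivity),
          show (2 : ℝ≥0∞) = ENNReal.ofReal 2 by simp, ← ENNReal.ofReal_mul (by norm_num)]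
        congr 1
        ring

end Crest.Agent.R138.Fq665
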