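import Mathlib
import Crest.Agent.R138.Fq10_665

/-! The Fourier transform of `f` along the slices as `Ft H F`. -/

set_option autoImplicit false

open MeasureTheory Filter Topology
open scoped ENNReal FourierTransform ContDiff

noncomputable section

namespace Crest.Agent.R138.Fq665

open Crest.Agent.R138.Defs
open Crest.Agent.R138.Fr665 (cv)

variable (J : PR ≃ₗᵢ[ℝ] V) {H : E2 → ℝ} {ρ : ℝ}

/-- anisotropic dilation. -/
def sc (ρ : ℝ) (p : E2 × ℝ) : E2 × ℝ := (ρ • p.1, -(ρ ^ 2 * p.2))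

theorem continuous_sc : Continuous (sc ρ) := by
  unfold sc; fun_prop

theorem map_sc (hρ : 0 < ρ) :
    Measure.map (sc ρ) volume = ENNReal.ofReal (ρ⁻¹ ^ 4) • (volume : Measure (E2 × ℝ)) := by
  ext s hs
  rw [Measure.map_apply continuous_sc.measurable hs]
  have := lintegral_scale hρ (u := s.indicator 1) (measurable_one.indicator hs)
  rw [lintegral_indicator_one hs] at this
  rw [Measure.smul_apply, smul_eq_mul, ← this]
  rw [← lintegral_indicator_one (continuous_sc.measurable hs)]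
  rfl

theorem integral_sc (hρ : 0 < ρ) {Φ : E2 × ℝ → ℂ} (hΦ : Measurable Φ) :
    ∫ p, Φ (sc ρ p) = (ρ⁻¹ ^ 4 : ℝ) • ∫ p, Φ p := by
  rw [← integral_map continuous_sc.measurable.aemeasurable hΦ.aestronglyMeasurable, map_sc hρ,
    integral_smul_measure, ENNReal.toReal_ofReal (by positivity)]

/-- the source. -/
def src (ρ : ℝ) (f : V → ℂ) (τ : ℝ) (w : E2 × ℝ) : ℂ :=
  f (up J (ρ⁻¹ • w.1) (-(ρ⁻¹ ^ 2 * w.2))) * ee (ρ⁻¹ ^ 2 * w.2 * (1 + τ))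

theorem measurable_src {f : V → ℂ} (hf : Measurable f) (τ : ℝ) : Measurable (src J ρ f τ) := by
  unfold src
  refine Measurable.mul ?_ (continuous_ee.comp (by fun_prop)).measurable
  have h2 : Measurable fun w : E2 × ℝ => ((ρ⁻¹ • w.1, -(ρ⁻¹ ^ 2 * w.2)) : E2 × ℝ) := by fun_prop
  exact hf.comp ((continuous_up J).measurable.comp h2)

theorem Src_src (hρ : 0 < ρ) (hρ1 : ρ ≤ 1) {f : V → ℂ} (hf : Measurable f) (h1 : ∀ v, ‖f v‖ ≤ 1)
    {L : ℝ} (h0 : ∀ v, L < ‖v‖ → f v = 0) (τ : ℝ) : Src L (src J ρ f τ) where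
  meas := measurable_src J hf τ
  le_one w := by
    unfold src
    rw [norm_mul, norm_ee, mul_one]
    exact h1 _
  supp w hw := by
    unfold src
    rw [h0, zero_mul]
    have hi : 1 ≤ ρ⁻¹ := (one_le_inv₀ hρ).2 hρ1
    have hi2 : 1 ≤ ρ⁻¹ ^ 2 := one_le_pow₀ hi
    have hn := norm_up_sq J (ρ⁻¹ • w.1) (-(ρ⁻¹ ^ 2 * w.2))
    rcases hw with hw | hw
    · have h3 : ‖w.1‖ ≤ ‖ρ⁻¹ • w.1‖ := by
        rw [norm_smul, Real.norm_eq_abs, abs_of_pos (by positivity)]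
        exact le_mul_of_one_le_left (norm_nonneg _) hi
      have h4 : ‖w.1‖ ^ 2 ≤ ‖up J (ρ⁻¹ • w.1) (-(ρ⁻¹ ^ 2 * w.2))‖ ^ 2 := by
        rw [hn]
        have : ‖w.1‖ ^ 2 ≤ ‖ρ⁻¹ • w.1‖ ^ 2 := by gcongr
        nlinarith [sq_nonneg (-(ρ⁻¹ ^ 2 * w.2))]
      exact hw.trans_le (le_of_sq_le_sq h4 (norm_nonneg _))
    · have h3 : |w.2| ≤ |-(ρ⁻¹ ^ 2 * w.2)| := by
        rw [abs_neg, abs_mul, abs_of_nonneg (by positivity : (0:ℝ) ≤ ρ⁻¹ ^ 2)]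
        exact le_mul_of_one_le_left (abs_nonneg _) hi2
      have h4 : |w.2| ^ 2 ≤ ‖up J (ρ⁻¹ • w.1) (-(ρ⁻¹ ^ 2 * w.2))‖ ^ 2 := by
        rw [hn]
        have : |w.2| ^ 2 ≤ |-(ρ⁻¹ ^ 2 * w.2)| ^ 2 := by gcongr
        rw [sq_abs (-(ρ⁻¹ ^ 2 * w.2))] at this
        nlinarith [sq_nonneg ‖ρ⁻¹ • w.1‖]
      exact hw.trans_le (le_of_sq_le_sq h4 (norm_nonneg _))

theorem fourier_cw (hρ : 0 < ρ) {f : V → ℂ} (hf : Measurable f) (τ : ℝ)
    (η : E2) : 𝓕 f (cw J H ρ (τ, η)) = (ρ⁻¹ ^ 4 : ℝ) • Ft H (src J ρ f τ) η := by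
  rw [fourier_eq_ee, integral_up J]
  unfold Ft
  rw [← integral_sc hρ]
  · refine integral_congr_ae (Eventually.of_forall fun p => ?_)
    simp only [cw, sc, src]
    have e1 : ρ⁻¹ • ρ • p.1 = p.1 := by rw [smul_smul, inv_mul_cancel₀ hρ.ne', one_smul]
    have e2 : -(ρ⁻¹ ^ 2 * -(ρ ^ 2 * p.2)) = p.2 := by field_simp
    have e3 : ρ⁻¹ ^ 2 * -(ρ ^ 2 * p.2) = -p.2 := by field_simp
    rw [e1, e2, e3, mul_assoc, ← ee_add, inner_up, inner_smul_left, inner_smul_right]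
    congr 2
    simp only [conj_trivial]
    ring
  · exact (measurable_src J hf τ).mul (continuous_ee.comp (by fun_prop)).measurable

theorem gs_eq (hρ : 0 < ρ) (G : V → ℂ) {f : V → ℂ} (hf : Measurable f) (τ : ℝ) :
    gs J H ρ G f τ = fun η => ((ρ⁻¹ ^ 4 : ℝ) : ℂ) * G (cw J H ρ (τ, η)) *
      Ft H (src J ρ f τ) η := by
  ext η
  have h1 := fourier_cw J (H := H) hρ hf τ η
  have h2 : gs J H ρ G f τ η = G (cw J H ρ (τ, η)) * 𝓕 f (cw J H ρ (τ, η)) := rfl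
  rw [h2, h1, Complex.real_smul]
  ring

end Crest.Agent.R138.Fq665
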