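import Mathlib
import Crest.Agent.R138.Defs_665

set_option autoImplicit false

open MeasureTheory
open scoped ContDiff

namespace Crest.Agent.R138.Fq665

open Crest.Agent.R138.Defs

/-- a cut-off on the line. -/
noncomputable def kap : ContDiffBump (0 : ℝ) := ⟨1/4, 1/2, by norm_num, by norm_num⟩

/-- a cut-off on the plane. -/
noncomputable def th : ContDiffBump (0 : E2) := ⟨2, 3, by norm_num, by norm_num⟩

noncomputable def qq (u : ℝ) : ℝ := Real.sqrt (1 - u * kap u)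

theorem qq_pos' (u : ℝ) : 0 < 1 - u * kap u := by
  have h0 : 0 ≤ kap u := kap.nonneg
  have h1 : kap u ≤ 1 := kap.le_one
  by_cases hu : u ≤ 0
  · nlinarith
  · push Not at hu
    by_cases hu2 : u < 1/2
    · nlinarith
    · have : kap u = 0 := by
        apply kap.zero_of_le_dist
        simp only [Real.dist_eq, sub_zero]
        rw [abs_of_pos hu]
        push Not at hu2
        exact hu2
      rw [this]; norm_num

theorem contDiff_qq : ContDiff ℝ ∞ qq := by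
  unfold qq
  apply ContDiff.sqrt
  · exact contDiff_const.sub (contDiff_id.mul kap.contDiff)
  · intro u; exact (qq_pos' u).ne'

noncomputable def GG (u : ℝ) : ℝ := 1 / (2 * (1 + qq u) ^ 2)

theorem contDiff_GG : ContDiff ℝ ∞ GG := by
  unfold GG
  apply ContDiff.div contDiff_const
  · exact contDiff_const.mul ((contDiff_const.add contDiff_qq).pow 2)
  · intro u
    have : 0 ≤ qq u := Real.sqrt_nonneg _
    positivity

/-- the perturbation. -/
noncomputable def PP (z : ℝ × E2) : ℝ := th z.2 * (‖z.2‖ ^ 2) ^ 2 * GG (z.1 ^ 2 * ‖z.2‖ ^ 2)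

theorem contDiff_PP : ContDiff ℝ ∞ PP := by
  unfold PP
  have h1 : ContDiff ℝ ∞ fun z : ℝ × E2 => ‖z.2‖ ^ 2 := (contDiff_norm_sq ℝ).comp contDiff_snd
  have h2 : ContDiff ℝ ∞ fun z : ℝ × E2 => th z.2 := th.contDiff.comp contDiff_snd
  exact (h2.mul (h1.pow 2)).mul (contDiff_GG.comp ((contDiff_fst.pow 2).mul h1))

/-- The rescaled sphere. -/
noncomputable def Hr (ρ : ℝ) (η : E2) : ℝ := ‖η‖ ^ 2 / 2 + ρ ^ 2 * PP (ρ, η)

theorem contDiff_Hr (ρ : ℝ) : ContDiff ℝ ∞ (Hr ρ) := by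
  unfold Hr
  have h1 : ContDiff ℝ ∞ fun z : E2 => ‖z‖ ^ 2 := contDiff_norm_sq ℝ
  have h2 : ContDiff ℝ ∞ fun η : E2 => PP (ρ, η) :=
    contDiff_PP.comp (contDiff_const.prodMk contDiff_id)
  exact (h1.div_const 2).add (contDiff_const.mul h2)

theorem Hr_eq {ρ : ℝ} (hρ : 0 < ρ) (hρ1 : ρ ≤ 1/8) {η : E2} (hη : ‖η‖ ≤ 2) :
    Hr ρ η = (1 - Real.sqrt (1 - ρ ^ 2 * ‖η‖ ^ 2)) / ρ ^ 2 := by
  have hth : th η = 1 := th.one_of_mem_closedBall (by simpa [th] using hη)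
  set u := ρ ^ 2 * ‖η‖ ^ 2 with hu
  have hu0 : 0 ≤ u := by positivity
  have hu1 : u ≤ 1/16 := by
    have : ρ ^ 2 ≤ (1/8) ^ 2 := by gcongr
    have h2 : ‖η‖ ^ 2 ≤ 2 ^ 2 := by gcongr
    calc u ≤ (1/8) ^ 2 * 2 ^ 2 := by rw [hu]; gcongr
      _ = 1/16 := by norm_num
  have hk : kap u = 1 := by
    apply kap.one_of_mem_closedBall
    simp only [Metric.mem_closedBall, Real.dist_eq, sub_zero]
    rw [abs_of_nonneg hu0]
    exact hu1.trans (by simp [kap]; norm_num)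
  have hq : qq u = Real.sqrt (1 - u) := by simp [qq, hk]
  set q := Real.sqrt (1 - u) with hqd
  have hq0 : 0 ≤ q := Real.sqrt_nonneg _
  have hq2 : q ^ 2 = 1 - u := Real.sq_sqrt (by linarith)
  have hη2 : ‖η‖ ^ 2 = u / ρ ^ 2 := by rw [hu]; field_simp
  simp only [Hr, PP, hth, one_mul]
  rw [← hu, GG, hq, hη2]
  have h3 : (1 + q) ≠ 0 := by positivity
  have hρ2 : ρ ≠ 0 := hρ.ne'
  have hu' : u = 1 - q ^ 2 := by linarith
  rw [hu']
  field_simp
  ring

/-- the derivatives of a slice are bounded by the derivatives of the joint function. -/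
theorem norm_iteratedFDeriv_slice {F : ℝ × E2 → ℝ} (hF : ContDiff ℝ ∞ F) (k : ℕ) (ρ : ℝ) (η : E2) :
    ‖iteratedFDeriv ℝ k (fun η => F (ρ, η)) η‖ ≤ ‖iteratedFDeriv ℝ k F (ρ, η)‖ := by
  set L : E2 →L[ℝ] ℝ × E2 := ContinuousLinearMap.inr ℝ ℝ E2
  have h1 : (fun η => F (ρ, η)) = (fun z => F ((ρ, 0) + z)) ∘ L := by
    ext η; simp [L]
  have hF' : ContDiff ℝ ∞ (fun z : ℝ × E2 => F ((ρ, 0) + z)) :=
    hF.comp (contDiff_const.add contDiff_id)
  rw [h1, ContinuousLinearMap.iteratedFDeriv_comp_right L hF' η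
    (i := k) (mod_cast le_top), iteratedFDeriv_comp_add_left]
  refine (ContinuousMultilinearMap.norm_compContinuousLinearMap_le _ _).trans ?_
  have hL : ‖L‖ ≤ 1 := ContinuousLinearMap.norm_inr_le_one ℝ ℝ E2
  have : ∏ _i : Fin k, ‖L‖ ≤ 1 := Finset.prod_le_one (fun _ _ => norm_nonneg _) fun _ _ => hL
  calc _ ≤ ‖iteratedFDeriv ℝ k F ((ρ, 0) + L η)‖ * 1 := by gcongr
    _ = _ := by simp [L]

theorem exists_bound (k : ℕ) : ∃ C : ℝ, 0 ≤ C ∧ ∀ ρ : ℝ, 0 ≤ ρ → ρ ≤ 1 → ∀ η : E2,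
    ‖iteratedFDeriv ℝ k (fun η => PP (ρ, η)) η‖ ≤ C := by
  have hc : Continuous fun z => iteratedFDeriv ℝ k PP z :=
    contDiff_PP.continuous_iteratedFDeriv (mod_cast le_top)
  obtain ⟨C, hC⟩ := ((isCompact_Icc (a := (0:ℝ)) (b := 1)).prod
    (isCompact_closedBall (0 : E2) 4)).exists_bound_of_continuousOn hc.continuousOn
  refine ⟨max C 0, le_max_right _ _, fun ρ h0 h1 η => ?_⟩
  by_cases hη : ‖η‖ ≤ 4
  · exact (norm_iteratedFDeriv_slice contDiff_PP k ρ η).trans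
      ((hC (ρ, η) ⟨⟨h0, h1⟩, by simpa using hη⟩).trans (le_max_left _ _))
  · have hz : iteratedFDeriv ℝ k (fun η => PP (ρ, η)) η = 0 := by
      have hη' : η ∉ tsupport (fun η => PP (ρ, η)) := by
        intro hmem
        have hsub : tsupport (fun η => PP (ρ, η)) ⊆ Metric.closedBall 0 3 := by
          apply closure_minimal _ Metric.isClosed_closedBall
          intro x hx
          by_contra hx'
          apply hx
          have : th x = 0 := by
            apply th.zero_of_le_dist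
            simp only [Metric.mem_closedBall, not_le] at hx'
            exact hx'.le
          simp [PP, this]
        have := hsub hmem
        simp only [Metric.mem_closedBall, dist_zero_right] at this
        linarith
      have := support_iteratedFDeriv_subset (𝕜 := ℝ) k (f := fun η => PP (ρ, η))
      by_contra hne
      exact hη' (this hne)
    rw [hz, norm_zero]
    exact le_max_right _ _

theorem exists_par (c0 : ℝ) (hc0 : 0 < c0) (K : ℕ) : ∃ ρ0 : ℝ, 0 < ρ0 ∧ ρ0 ≤ 1/8 ∧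
    ∀ ρ : ℝ, 0 < ρ → ρ ≤ ρ0 → Par c0 K (Hr ρ) := by
  choose C hC0 hC using exists_bound
  set B := ∑ k ∈ Finset.range (K + 1), C k with hB
  have hB0 : 0 ≤ B := Finset.sum_nonneg fun k _ => hC0 k
  refine ⟨min (1/8) (Real.sqrt (c0 / (B + 1))), lt_min (by norm_num) (by positivity),
    min_le_left _ _, fun ρ hρ hρ1 => ⟨contDiff_Hr ρ, fun k _ hkK ξ => ?_⟩⟩
  have h8 : ρ ≤ 1/8 := hρ1.trans (min_le_left _ _)
  have hs : ρ ^ 2 ≤ c0 / (B + 1) := by
    have h2 : ρ ≤ Real.sqrt (c0 / (B + 1)) := hρ1.trans (min_le_right _ _)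
    calc ρ ^ 2 ≤ Real.sqrt (c0 / (B + 1)) ^ 2 := by gcongr
      _ = _ := Real.sq_sqrt (by positivity)
  have he : (fun ξ : E2 => Hr ρ ξ - ‖ξ‖ ^ 2 / 2) = fun ξ => (ρ ^ 2) • PP (ρ, ξ) := by
    ext ξ; simp [Hr]
  have hcd : ContDiff ℝ ∞ fun η : E2 => PP (ρ, η) :=
    contDiff_PP.comp (contDiff_const.prodMk contDiff_id)
  rw [he, iteratedFDeriv_const_smul_apply' (hcd.contDiffAt.of_le (mod_cast le_top)), norm_smul,
    Real.norm_eq_abs, abs_of_nonneg (sq_nonneg ρ)]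
  have hk : C k ≤ B := Finset.single_le_sum (fun k _ => hC0 k) (by simp; omega)
  calc ρ ^ 2 * ‖iteratedFDeriv ℝ k (fun η => PP (ρ, η)) ξ‖
      ≤ c0 / (B + 1) * (B + 1) := by
        gcongr
        exact ((hC k ρ hρ.le (by linarith) ξ).trans hk).trans (by linarith)
    _ = c0 := by field_simp

theorem exists_parB (c0 : ℝ) (hc0 : 0 < c0) (K : ℕ) : ∃ ρ0 : ℝ, 0 < ρ0 ∧ ρ0 ≤ 1/8 ∧
    ∀ ρ : ℝ, 0 < ρ → ρ ≤ ρ0 → ∃ B : ℕ → ℝ, (∀ k, 2 ≤ k → k ≤ K → B k ≤ c0) ∧ ParB B (Hr ρ) := by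
  obtain ⟨ρ0, h0, h1, h2⟩ := exists_par c0 hc0 K
  choose C hC0 hC using exists_bound
  refine ⟨ρ0, h0, h1, fun ρ hρ hρ1 => ⟨fun k => if k ≤ K then c0 else ρ ^ 2 * C k,
    fun k _ hk => by simp [hk], contDiff_Hr ρ, fun k hk ξ => ?_⟩⟩
  by_cases hkK : k ≤ K
  · simp only [hkK, if_true]
    exact (h2 ρ hρ hρ1).2 k hk hkK ξ
  · simp only [hkK, if_false]
    have he : (fun ξ : E2 => Hr ρ ξ - ‖ξ‖ ^ 2 / 2) = fun ξ => (ρ ^ 2) • PP (ρ, ξ) := by
      ext ξ; simp [Hr]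
    have hcd : ContDiff ℝ ∞ fun η : E2 => PP (ρ, η) :=
      contDiff_PP.comp (contDiff_const.prodMk contDiff_id)
    rw [he, iteratedFDeriv_const_smul_apply' (hcd.contDiffAt.of_le (mod_cast le_top)), norm_smul,
      Real.norm_eq_abs, abs_of_nonneg (sq_nonneg ρ)]
    gcongr
    exact hC k ρ hρ.le (by linarith) ξ

end Crest.Agent.R138.Fq665
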