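import Mathlib
import Crest.Agent.R138.Fq11_665
import Crest.Agent.R138.Fq1_665
import Crest.Agent.R138.ShDefs_200

/-! Amplitudes on the slices: support and uniform bounds of the derivatives. -/

set_option autoImplicit false

open MeasureTheory Filter Topology
open scoped ENNReal FourierTransform ContDiff

noncomputable section

namespace Crest.Agent.R138.Fq665

open Crest.Agent.R138.Defs
open Crest.Agent.R138.Fr665 (cv)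
open Crest.Agent.R138.Sh200 (mR KR)

theorem norm_iteratedFDeriv_slice_gen {P : Type*} [NormedAddCommGroup P] [NormedSpace ℝ P]
    {F : P × E2 → ℂ} (hF : ContDiff ℝ ∞ F) (k : ℕ) (p : P) (η : E2) :
    ‖iteratedFDeriv ℝ k (fun η => F (p, η)) η‖ ≤ ‖iteratedFDeriv ℝ k F (p, η)‖ := by
  set L : E2 →L[ℝ] P × E2 := ContinuousLinearMap.inr ℝ P E2
  have h1 : (fun η => F (p, η)) = (fun z => F ((p, 0) + z)) ∘ L := by
    ext η; simp [L]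
  have hF' : ContDiff ℝ ∞ (fun z : P × E2 => F ((p, 0) + z)) :=
    hF.comp (contDiff_const.add contDiff_id)
  rw [h1, ContinuousLinearMap.iteratedFDeriv_comp_right L hF' η
    (i := k) (mod_cast le_top), iteratedFDeriv_comp_add_left]
  refine (ContinuousMultilinearMap.norm_compContinuousLinearMap_le _ _).trans ?_
  have hL : ‖L‖ ≤ 1 := ContinuousLinearMap.norm_inr_le_one ℝ P E2
  have : ∏ _i : Fin k, ‖L‖ ≤ 1 := Finset.prod_le_one (fun _ _ => norm_nonneg _) fun _ _ => hL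
  calc _ ≤ ‖iteratedFDeriv ℝ k F ((p, 0) + L η)‖ * 1 := by gcongr
    _ = _ := by simp [L]

theorem exists_bound_gen {P : Type*} [NormedAddCommGroup P] [NormedSpace ℝ P]
    {F : P × E2 → ℂ} (hF : ContDiff ℝ ∞ F) {K : Set P} (hK : IsCompact K)
    (h0 : ∀ p ∈ K, ∀ η : E2, 1 < ‖η‖ → F (p, η) = 0) (k : ℕ) : ∃ C : ℝ, 0 ≤ C ∧ ∀ p ∈ K,
      ∀ η : E2, ‖iteratedFDeriv ℝ k (fun η => F (p, η)) η‖ ≤ C := by
  have hc : Continuous fun z => iteratedFDeriv ℝ k F z :=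
    hF.continuous_iteratedFDeriv (mod_cast le_top)
  obtain ⟨C, hC⟩ := (hK.prod (isCompact_closedBall (0 : E2) 2)).exists_bound_of_continuousOn
    hc.continuousOn
  refine ⟨max C 0, le_max_right _ _, fun p hp η => ?_⟩
  by_cases hη : ‖η‖ ≤ 2
  · exact (norm_iteratedFDeriv_slice_gen hF k p η).trans
      ((hC (p, η) ⟨hp, by simpa using hη⟩).trans (le_max_left _ _))
  · have hz : iteratedFDeriv ℝ k (fun η => F (p, η)) η = 0 := by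
      have hη' : η ∉ tsupport (fun η => F (p, η)) := by
        intro hmem
        have hsub : tsupport (fun η => F (p, η)) ⊆ Metric.closedBall 0 1 := by
          apply closure_minimal _ Metric.isClosed_closedBall
          intro x hx
          by_contra hx'
          simp only [Metric.mem_closedBall, dist_zero_right, not_le] at hx'
          exact hx (h0 p hp x hx')
        have := hsub hmem
        simp only [Metric.mem_closedBall, dist_zero_right] at this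
        linarith
      have := support_iteratedFDeriv_subset (𝕜 := ℝ) k (f := fun η => F (p, η))
      by_contra hne
      exact hη' (this hne)
    rw [hz, norm_zero]
    exact le_max_right _ _

variable (J : PR ≃ₗᵢ[ℝ] V)

/-- cut-offs of the sector. -/
structure Sec (J : PR ≃ₗᵢ[ℝ] V) (ρ : ℝ) (a : V → ℂ) : Prop where
  smooth : ContDiff ℝ ∞ a
  supp : ∀ v, a v ≠ 0 → ‖v - up J 0 1‖ ≤ ρ / 2

/-- profile supported in `[-Λ, Λ]`. -/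
structure Prof (Λ : ℝ) (φ : ℝ → ℝ) : Prop where
  smooth : ContDiff ℝ ∞ φ
  supp : ∀ u, φ u ≠ 0 → |u| ≤ Λ

theorem norm_cw_sub (H : E2 → ℝ) (ρ τ : ℝ) (η : E2) : ‖cw J H ρ (τ, η) - up J 0 1‖ ^ 2 =
    ρ ^ 2 * ‖η‖ ^ 2 + (τ - ρ ^ 2 * H η) ^ 2 := by
  unfold cw
  rw [up_sub, norm_up_sq]
  simp only [sub_zero, norm_smul, Real.norm_eq_abs]
  rw [mul_pow, sq_abs]
  ring

theorem Sec.loc {J : PR ≃ₗᵢ[ℝ] V} {ρ : ℝ} (hρ : 0 < ρ) {a : V → ℂ} (ha : Sec J ρ a) {H : E2 → ℝ}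
    {τ : ℝ} {η : E2} (h : a (cw J H ρ (τ, η)) ≠ 0) : ‖η‖ ≤ 1/2 ∧ |τ - ρ ^ 2 * H η| ≤ ρ / 2 := by
  have h1 := ha.supp _ h
  have h2 := norm_cw_sub J H ρ τ η
  have h3 : ρ ^ 2 * ‖η‖ ^ 2 + (τ - ρ ^ 2 * H η) ^ 2 ≤ (ρ / 2) ^ 2 := by
    rw [← h2]; gcongr
  constructor
  · have h4 : (ρ * ‖η‖) ^ 2 ≤ (ρ / 2) ^ 2 := by nlinarith [sq_nonneg (τ - ρ ^ 2 * H η)]
    have h5 := le_of_sq_le_sq h4 (by positivity)
    have : ρ * ‖η‖ ≤ ρ * (1/2) := by linarith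
    exact le_of_mul_le_mul_left this hρ
  · apply abs_le_of_sq_le_sq _ (by positivity)
    nlinarith [mul_nonneg (sq_nonneg ρ) (sq_nonneg ‖η‖)]

/-- geometry of the sphere. -/
theorem sphere_eq {ρ : ℝ} (hρ : 0 < ρ) (hρ1 : ρ ≤ 1/8) {η : E2} (hη : ‖η‖ ≤ 2) :
    (1 - ρ ^ 2 * Hr ρ η) ^ 2 = 1 - ρ ^ 2 * ‖η‖ ^ 2 ∧ 0 ≤ 1 - ρ ^ 2 * Hr ρ η := by
  have h1 := Hr_eq hρ hρ1 hη
  have h2 : 1 - ρ ^ 2 * Hr ρ η = Real.sqrt (1 - ρ ^ 2 * ‖η‖ ^ 2) := by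
    rw [h1]; field_simp; ring
  rw [h2]
  refine ⟨Real.sq_sqrt ?_, Real.sqrt_nonneg _⟩
  have : ρ ^ 2 ≤ (1/8) ^ 2 := by gcongr
  have h2 : ‖η‖ ^ 2 ≤ 2 ^ 2 := by gcongr
  have : ρ ^ 2 * ‖η‖ ^ 2 ≤ (1/8) ^ 2 * 2 ^ 2 := by gcongr
  nlinarith

theorem norm_cw {ρ : ℝ} (hρ : 0 < ρ) (hρ1 : ρ ≤ 1/8) {η : E2} (hη : ‖η‖ ≤ 2) (τ : ℝ) :
    1 - ‖cw J (Hr ρ) ρ (τ, η)‖ ^ 2 = -(τ * (2 * (1 - ρ ^ 2 * Hr ρ η) + τ)) := by
  unfold cw
  rw [norm_up_sq]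
  have h := (sphere_eq hρ hρ1 hη).1
  simp only [norm_smul, Real.norm_eq_abs]
  rw [mul_pow, sq_abs]
  have : (1 - ρ ^ 2 * Hr ρ η + τ) ^ 2 = (1 - ρ ^ 2 * Hr ρ η) ^ 2 +
    2 * (1 - ρ ^ 2 * Hr ρ η) * τ + τ ^ 2 := by ring
  rw [this, h]
  ring

/-- the joint amplitude. -/
def amp (J : PR ≃ₗᵢ[ℝ] V) (ρ : ℝ) (a : V → ℂ) (φ : ℝ → ℝ) (z : (ℝ × ℝ) × E2) : ℂ :=
  ((ρ⁻¹ ^ 4 : ℝ) : ℂ) * (a (cw J (Hr ρ) ρ (z.1.1, z.2)) *
    ((φ (-(z.1.2 * (2 * (1 - ρ ^ 2 * Hr ρ z.2) + z.1.1))) : ℝ) : ℂ))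

theorem contDiff_cw {H : E2 → ℝ} (hH : ContDiff ℝ ∞ H) (ρ : ℝ) : ContDiff ℝ ∞ (cw J H ρ) := by
  unfold cw
  have h1 : ContDiff ℝ ∞ fun q : ℝ × E2 => ((ρ • q.2, 1 - ρ ^ 2 * H q.2 + q.1) : E2 × ℝ) := by
    refine ContDiff.prodMk (contDiff_snd.const_smul ρ) ?_
    exact (contDiff_const.sub (contDiff_const.mul (hH.comp contDiff_snd))).add contDiff_fst
  exact (contDiff_up J).comp h1

theorem contDiff_amp {ρ Λ : ℝ} {a : V → ℂ} (ha : Sec J ρ a) {φ : ℝ → ℝ} (hφ : Prof Λ φ) :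
    ContDiff ℝ ∞ (amp J ρ a φ) := by
  unfold amp
  refine contDiff_const.mul (ContDiff.mul ?_ ?_)
  · have h1 : ContDiff ℝ ∞ fun z : (ℝ × ℝ) × E2 => ((z.1.1, z.2) : ℝ × E2) :=
      (contDiff_fst.comp contDiff_fst).prodMk contDiff_snd
    exact ha.smooth.comp ((contDiff_cw J (contDiff_Hr ρ) ρ).comp h1)
  · refine Complex.ofRealCLM.contDiff.comp (hφ.smooth.comp ?_)
    have h2 : ContDiff ℝ ∞ fun z : (ℝ × ℝ) × E2 => Hr ρ z.2 := (contDiff_Hr ρ).comp contDiff_snd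
    have h3 : ContDiff ℝ ∞ fun z : (ℝ × ℝ) × E2 => z.1.1 := contDiff_fst.comp contDiff_fst
    have h4 : ContDiff ℝ ∞ fun z : (ℝ × ℝ) × E2 => z.1.2 := contDiff_snd.comp contDiff_fst
    exact (h4.mul ((contDiff_const.mul (contDiff_const.sub (contDiff_const.mul h2))).add h3)).neg

theorem amp_eq {ρ : ℝ} (hρ : 0 < ρ) (hρ1 : ρ ≤ 1/8) {a : V → ℂ} (ha : Sec J ρ a) (φ : ℝ → ℝ)
    (R τ : ℝ) (η : E2) : amp J ρ a φ ((τ, R * τ), η) = ((ρ⁻¹ ^ 4 : ℝ) : ℂ) *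
      (a (cw J (Hr ρ) ρ (τ, η)) * mR φ R (cw J (Hr ρ) ρ (τ, η))) := by
  unfold amp mR
  by_cases h : a (cw J (Hr ρ) ρ (τ, η)) = 0
  · simp [h]
  · have h1 := (ha.loc hρ h).1
    have h2 := norm_cw J hρ hρ1 (η := η) (by linarith) τ
    simp only
    rw [h2]
    congr 5
    ring

theorem amp_supp {ρ : ℝ} (hρ : 0 < ρ) {a : V → ℂ} (ha : Sec J ρ a) (φ : ℝ → ℝ)
    (p : ℝ × ℝ) (η : E2) (hη : 1/2 < ‖η‖) : amp J ρ a φ (p, η) = 0 := by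
  unfold amp
  by_cases h : a (cw J (Hr ρ) ρ (p.1, η)) = 0
  · simp [h]
  · exact absurd (ha.loc hρ h).1 (not_le.2 hη)

theorem G_supp_tau {ρ Λ : ℝ} (hρ : 0 < ρ) (hρ1 : ρ ≤ 1/8) {a : V → ℂ} (ha : Sec J ρ a) {φ : ℝ → ℝ}
    (hφ : Prof Λ φ) {R : ℝ} (hR : 0 < R) {τ : ℝ} {η : E2} (hτ : Λ / R < |τ|) :
    a (cw J (Hr ρ) ρ (τ, η)) * mR φ R (cw J (Hr ρ) ρ (τ, η)) = 0 := by
  by_contra h
  have h1 : a (cw J (Hr ρ) ρ (τ, η)) ≠ 0 := left_ne_zero_of_mul h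
  have h2 : mR φ R (cw J (Hr ρ) ρ (τ, η)) ≠ 0 := right_ne_zero_of_mul h
  obtain ⟨h3, h4⟩ := ha.loc hρ h1
  have h5 := norm_cw J hρ hρ1 (η := η) (by linarith) τ
  have h6 : φ (R * (1 - ‖cw J (Hr ρ) ρ (τ, η)‖ ^ 2)) ≠ 0 := by
    intro h0; apply h2; simp [mR, h0]
  have h7 := hφ.supp _ h6
  obtain ⟨h8, h9⟩ := sphere_eq hρ hρ1 (η := η) (by linarith)
  rw [h5] at h7
  set q := 1 - ρ ^ 2 * Hr ρ η with hq
  have h10 : 1/2 ≤ q := by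
    have : ρ ^ 2 ≤ (1/8) ^ 2 := by gcongr
    have h2 : ‖η‖ ^ 2 ≤ (1/2) ^ 2 := by gcongr
    have : ρ ^ 2 * ‖η‖ ^ 2 ≤ (1/8) ^ 2 * (1/2) ^ 2 := by gcongr
    nlinarith
  have h11 : 1/2 ≤ q + τ := by
    rw [abs_le] at h4
    have : q + τ = 1 + (τ - ρ ^ 2 * Hr ρ η) := by rw [hq]; ring
    rw [this]; linarith [h4.1]
  have h12 : R * |τ| ≤ Λ := by
    calc R * |τ| = R * |τ| * 1 := by ring
      _ ≤ R * |τ| * (2 * q + τ) := by gcongr; linarith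
      _ = |R * -(τ * (2 * q + τ))| := by
        rw [abs_mul, abs_of_pos hR, abs_neg, abs_mul, abs_of_pos (by linarith : 0 < 2 * q + τ)]
        ring
      _ ≤ Λ := h7
  have : |τ| ≤ Λ / R := by rw [le_div_iff₀ hR]; linarith
  linarith

theorem G_supp_eta {ρ : ℝ} (hρ : 0 < ρ) {a : V → ℂ} (ha : Sec J ρ a) (φ : ℝ → ℝ)
    (R : ℝ) {τ : ℝ} {η : E2} (hη : 1 < ‖η‖) :
    a (cw J (Hr ρ) ρ (τ, η)) * mR φ R (cw J (Hr ρ) ρ (τ, η)) = 0 := by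
  by_contra h
  have h1 : a (cw J (Hr ρ) ρ (τ, η)) ≠ 0 := left_ne_zero_of_mul h
  have := (ha.loc hρ h1).1
  linarith

end Crest.Agent.R138.Fq665
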