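import Crest.Agent.R138.Ker6_858

/-! Kernel bound for the class `ParB`. -/

set_option autoImplicit false

open MeasureTheory
open scoped ContDiff ENNReal

namespace Crest.Agent.R138.Ker858

open Crest.Agent.R138.Defs

/-- **(W2)** for the class `ParB B` with `B 2 ≤ 1/16`. -/
theorem kernel_bound_parB (N : ℕ) (B : ℕ → ℝ) (hB2 : B 2 ≤ 1 / 16) : ∃ C : ℝ, 0 ≤ C ∧
    ∀ h : E2 → ℝ, ParB B h →
    ∀ (R : ℝ), 1 ≤ R → ∀ (c : E2) (b : OrthonormalBasis (Fin 2) ℝ E2) (s : Fin 2 → ℝ),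
    (∀ a, R ^ (-(1/2) : ℝ) ≤ s a ∧ s a ≤ 1) → ∀ ψ, Adm N ψ → ∀ am : E2 → ℂ, ContDiff ℝ ∞ am →
    (∀ m ≤ N, ∀ ξ ∈ crect h c b s 3, ‖iteratedFDeriv ℝ m am ξ‖ ≤ 1) → ∀ (x : E2) (t : ℝ), |t| ≤ R →
    ∀ a : Fin 2, ‖∫ ξ, chi h c b s ψ ξ * am ξ * ee (inner ℝ x ξ + t * h ξ)‖ ≤
      C * (s 0 * s 1) * ((1 + |inner ℝ (x + t • c) (b a)| / (s a * R)) ^ N)⁻¹ := by
  obtain ⟨C, hC, H⟩ := kernel_bound N (∑ k ∈ Finset.range (N + 4), |B k|)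
    (Finset.sum_nonneg fun _ _ => abs_nonneg _)
  refine ⟨C, hC, ?_⟩
  intro h hh
  refine H h hh.1 (fun ξ => (hh.2 2 le_rfl ξ).trans hB2) ?_
  intro k hk hkN ξ
  refine (hh.2 k hk ξ).trans ((le_abs_self _).trans ?_)
  exact Finset.single_le_sum (f := fun k => |B k|) (fun _ _ => abs_nonneg _)
    (Finset.mem_range.2 (by omega))

/-- the same for the class `Par c0 K`. -/
theorem kernel_bound_par (N : ℕ) {c0 : ℝ} (hc0 : c0 ≤ 1 / 16) {K : ℕ} (hK : N + 3 ≤ K) :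
    ∃ C : ℝ, 0 ≤ C ∧ ∀ h : E2 → ℝ, Par c0 K h →
    ∀ (R : ℝ), 1 ≤ R → ∀ (c : E2) (b : OrthonormalBasis (Fin 2) ℝ E2) (s : Fin 2 → ℝ),
    (∀ a, R ^ (-(1/2) : ℝ) ≤ s a ∧ s a ≤ 1) → ∀ ψ, Adm N ψ → ∀ am : E2 → ℂ, ContDiff ℝ ∞ am →
    (∀ m ≤ N, ∀ ξ ∈ crect h c b s 3, ‖iteratedFDeriv ℝ m am ξ‖ ≤ 1) → ∀ (x : E2) (t : ℝ), |t| ≤ R →
    ∀ a : Fin 2, ‖∫ ξ, chi h c b s ψ ξ * am ξ * ee (inner ℝ x ξ + t * h ξ)‖ ≤
      C * (s 0 * s 1) * ((1 + |inner ℝ (x + t • c) (b a)| / (s a * R)) ^ N)⁻¹ := by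
  obtain ⟨C, hC, H⟩ := kernel_bound N 1 zero_le_one
  refine ⟨C, hC, ?_⟩
  intro h hh
  refine H h hh.1 (fun ξ => (hh.2 2 le_rfl (by omega) ξ).trans hc0) ?_
  intro k hk hkN ξ
  exact (hh.2 k hk (by omega) ξ).trans (by linarith)

/-- weighted form: product of the decays in the two directions. -/
theorem kernel_bound_prod (N : ℕ) (B : ℕ → ℝ) (hB2 : B 2 ≤ 1 / 16) : ∃ C : ℝ, 0 ≤ C ∧
    ∀ h : E2 → ℝ, ParB B h →
    ∀ (R : ℝ), 1 ≤ R → ∀ (c : E2) (b : OrthonormalBasis (Fin 2) ℝ E2) (s : Fin 2 → ℝ),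
    (∀ a, R ^ (-(1/2) : ℝ) ≤ s a ∧ s a ≤ 1) → ∀ ψ, Adm (N + N) ψ → ∀ am : E2 → ℂ,
    ContDiff ℝ ∞ am →
    (∀ m ≤ N + N, ∀ ξ ∈ crect h c b s 3, ‖iteratedFDeriv ℝ m am ξ‖ ≤ 1) →
    ∀ (x : E2) (t : ℝ), |t| ≤ R →
    ‖∫ ξ, chi h c b s ψ ξ * am ξ * ee (inner ℝ x ξ + t * h ξ)‖ ≤
      C * (s 0 * s 1) * ∏ a : Fin 2, ((1 + |inner ℝ (x + t • c) (b a)| / (s a * R)) ^ N)⁻¹ := by
  obtain ⟨C, hC, H⟩ := kernel_bound_parB (N + N) B hB2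
  refine ⟨C, hC, ?_⟩
  intro h hh R hR c b s hs ψ hψ am ham hamb x t ht
  have hR0 : 0 < R := by linarith
  have hs' : ∀ a, 0 < s a := fun a => (Real.rpow_pos_of_pos hR0 _).trans_le (hs a).1
  set M : Fin 2 → ℝ := fun a => |inner ℝ (x + t • c) (b a)| / (s a * R) with hM
  have hM0 : ∀ a, 0 ≤ M a := fun a => by
    have := hs' a
    simp only [hM]; positivity
  obtain ⟨j, hj⟩ : ∃ j, ∀ a, M a ≤ M j := by
    rcases le_total (M 0) (M 1) with h1 | h1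
    · exact ⟨1, fun a => by fin_cases a <;> simp [h1]⟩
    · exact ⟨0, fun a => by fin_cases a <;> simp [h1]⟩
  have h1 := H h hh R hR c b s hs ψ hψ am ham hamb x t ht j
  refine h1.trans (mul_le_mul_of_nonneg_left ?_
    (mul_nonneg hC (mul_nonneg (hs' 0).le (hs' 1).le)))
  rw [Finset.prod_inv_distrib, Fin.prod_univ_two]
  have p0 : 0 < 1 + M 0 := by linarith [hM0 0]
  have p1 : 0 < 1 + M 1 := by linarith [hM0 1]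
  refine inv_anti₀ (mul_pos (pow_pos p0 N) (pow_pos p1 N)) ?_
  rw [pow_add]
  exact mul_le_mul (pow_le_pow_left₀ p0.le (by linarith [hj 0]) N)
    (pow_le_pow_left₀ p1.le (by linarith [hj 1]) N) (pow_pos p1 N).le
    (pow_pos (by linarith [hM0 j]) N).le

end Crest.Agent.R138.Ker858
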