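import Mathlib
import Crest.Agent.R138.Fq12_665
import Crest.Agent.R138.Ker7_858

/-! The box bound for the slices. -/

set_option autoImplicit false

open MeasureTheory Filter Topology
open scoped ENNReal FourierTransform ContDiff

noncomputable section

namespace Crest.Agent.R138.Fq665

open Crest.Agent.R138.Defs
open Crest.Agent.R138.Fr665 (cv)
open Crest.Agent.R138.Sh200 (mR KR)
open Crest.Agent.R138.Ker858 (kernel_bound_parB)

variable (J : PR ≃ₗᵢ[ℝ] V)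

theorem decay_ext (N : ℕ) {B : ℕ → ℝ} (hB2 : B 2 ≤ 1 / 16) {h : E2 → ℝ} (hh : ParB B h)
    (L1 : ℝ) (hL1 : 1 ≤ L1) : ∃ C : ℝ, 0 ≤ C ∧ ∀ (Cb : ℝ), 0 < Cb → ∀ β : E2 → ℂ,
      ContDiff ℝ ∞ β → (∀ m ≤ N, ∀ ξ, ‖iteratedFDeriv ℝ m β ξ‖ ≤ Cb) → ∀ R lam : ℝ, 1 ≤ R →
      1 ≤ lam → ∀ (c : E2) (b : OrthonormalBasis (Fin 2) ℝ E2) (s : Fin 2 → ℝ),
      (∀ i, R ^ (-(1/2) : ℝ) ≤ s i ∧ s i ≤ 1) → ∀ ψ, Adm N ψ → ∀ (y : E2) (u : ℝ),
      |u| ≤ L1 * R → (∃ i, 3 * lam * (s i * R) ≤ |inner ℝ (y + u • c) (b i)|) →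
      ‖ext h (fun η => β η * chi h c b s ψ η) y u‖ ≤ Cb * (C * (lam ^ N)⁻¹) := by
  obtain ⟨C, hC, H⟩ := kernel_bound_parB N B hB2
  refine ⟨C * (L1 / 3) ^ N, by positivity, ?_⟩
  rintro Cb hCb β hβ hβd R lam hR hlam c b s hs ψ hψ y u hu ⟨i, hi⟩
  have hR0 : 0 < R := by linarith
  have hlam0 : 0 < lam := by linarith
  have hL0 : 0 < L1 := by linarith
  have hLR : R ≤ L1 * R := le_mul_of_one_le_left hR0.le hL1
  have hs' : ∀ a, (L1 * R) ^ (-(1/2) : ℝ) ≤ s a ∧ s a ≤ 1 := by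
    intro a
    refine ⟨le_trans ?_ (hs a).1, (hs a).2⟩
    exact Real.rpow_le_rpow_of_nonpos hR0 hLR (by norm_num)
  have hs0 : ∀ a, 0 < s a := fun a => (Real.rpow_pos_of_pos hR0 _).trans_le (hs a).1
  set am : E2 → ℂ := fun ξ => ((Cb⁻¹ : ℝ) : ℂ) * β ξ with ham
  have ham_eq : am = fun ξ => (Cb⁻¹ : ℝ) • β ξ := by
    ext ξ; rw [ham]; simp [Complex.real_smul]
  have hamd : ∀ m ≤ N, ∀ ξ, ‖iteratedFDeriv ℝ m am ξ‖ ≤ 1 := by
    intro m hm ξ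
    rw [ham_eq, iteratedFDeriv_const_smul_apply' (hβ.contDiffAt.of_le (mod_cast le_top)), norm_smul,
      Real.norm_eq_abs, abs_of_pos (by positivity)]
    calc Cb⁻¹ * ‖iteratedFDeriv ℝ m β ξ‖ ≤ Cb⁻¹ * Cb := by gcongr; exact hβd m hm ξ
      _ = 1 := inv_mul_cancel₀ hCb.ne'
  have hamc : ContDiff ℝ ∞ am := contDiff_const.mul hβ
  have h1 := H h hh (L1 * R) (hR.trans hLR) c b s hs' ψ hψ am hamc (fun m hm ξ _ => hamd m hm ξ) y u
    hu i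
  have h2 : ext h (fun η => β η * chi h c b s ψ η) y u =
      ((Cb : ℝ) : ℂ) * ∫ ξ, chi h c b s ψ ξ * am ξ * ee (inner ℝ y ξ + u * h ξ) := by
    unfold ext
    rw [← integral_const_mul]
    refine integral_congr_ae (Eventually.of_forall fun ξ => ?_)
    simp only [ham]
    have : ((Cb : ℝ) : ℂ) * ((Cb⁻¹ : ℝ) : ℂ) = 1 := by
      rw [← Complex.ofReal_mul, mul_inv_cancel₀ hCb.ne', Complex.ofReal_one]
    calc β ξ * chi h c b s ψ ξ * ee (inner ℝ y ξ + u * h ξ)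
        = (((Cb : ℝ) : ℂ) * ((Cb⁻¹ : ℝ) : ℂ)) * (β ξ * chi h c b s ψ ξ *
          ee (inner ℝ y ξ + u * h ξ)) := by rw [this, one_mul]
      _ = _ := by ring
  rw [h2, norm_mul, Complex.norm_real, Real.norm_eq_abs, abs_of_pos hCb]
  refine mul_le_mul_of_nonneg_left (h1.trans ?_) hCb.le
  have h3 : 3 * lam / L1 ≤ 1 + |inner ℝ (y + u • c) (b i)| / (s i * (L1 * R)) := by
    have hp : 0 < s i * (L1 * R) := mul_pos (hs0 i) (by positivity)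
    have h4 : 3 * lam / L1 ≤ |inner ℝ (y + u • c) (b i)| / (s i * (L1 * R)) := by
      rw [div_le_div_iff₀ hL0 hp]
      calc 3 * lam * (s i * (L1 * R)) = 3 * lam * (s i * R) * L1 := by ring
        _ ≤ _ := by gcongr
    linarith
  have h5 : ((1 + |inner ℝ (y + u • c) (b i)| / (s i * (L1 * R))) ^ N)⁻¹ ≤
      (L1 / 3) ^ N * (lam ^ N)⁻¹ := by
    have h6 : (3 * lam / L1) ^ N ≤ (1 + |inner ℝ (y + u • c) (b i)| / (s i * (L1 * R))) ^ N := by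
      gcongr
    refine (inv_anti₀ (by positivity) h6).trans (le_of_eq ?_)
    rw [div_pow, div_pow, mul_pow]
    field_simp
  have h7 : s 0 * s 1 ≤ 1 := mul_le_one₀ (hs 0).2 (hs0 1).le (hs 1).2
  calc C * (s 0 * s 1) * ((1 + |inner ℝ (y + u • c) (b i)| / (s i * (L1 * R))) ^ N)⁻¹
      ≤ C * 1 * ((L1 / 3) ^ N * (lam ^ N)⁻¹) := by
        have h8 : 0 ≤ 1 + |inner ℝ (y + u • c) (b i)| / (s i * (L1 * R)) :=
          le_trans (by positivity) h3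
        exact mul_le_mul (mul_le_mul_of_nonneg_left h7 hC) h5 (inv_nonneg.2 (pow_nonneg h8 _))
          (by positivity)
    _ = _ := by ring

/-- **box bound for the slices.** -/
theorem box_gs {ρ : ℝ} (hρ : 0 < ρ) (hρ1 : ρ ≤ 1/8) {B : ℕ → ℝ} (hB2 : B 2 ≤ 1 / 16)
    (hh : ParB B (Hr ρ)) {a : V → ℂ} (ha : Sec J ρ a) {φ : ℝ → ℝ} {Λ : ℝ} (hφ : Prof Λ φ)
    (N : ℕ) {L0 : ℝ} (hL0 : 0 ≤ L0) :
    ∃ M C : ℝ, 0 ≤ M ∧ 0 ≤ C ∧ ∀ R : ℝ, 1 ≤ R → ∀ τ : ℝ, |τ| ≤ Λ / R → ∀ R' lam : ℝ, 1 ≤ R' →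
      1 ≤ lam → ∀ f : V → ℂ, Measurable f → (∀ v, ‖f v‖ ≤ 1) → (∀ v, 2 * R' < ‖v‖ → f v = 0) →
      BoxBoundL L0 N (Hr ρ) (gs J (Hr ρ) ρ (fun v => a v * mR φ R v) f τ) R'
        (1024 * (M ^ 2 * lam ^ 2 * (2 * R') ^ 2 + (2 * R') ^ 6 * (C * (lam ^ N)⁻¹) ^ 2)) := by
  set K : Set (ℝ × ℝ) := Set.Icc (-Λ) Λ ×ˢ Set.Icc (-Λ) Λ with hK
  have hKc : IsCompact K := isCompact_Icc.prod isCompact_Icc
  have hamp := contDiff_amp J ha hφ
  have h0 : ∀ p ∈ K, ∀ η : E2, 1 < ‖η‖ → amp J ρ a φ (p, η) = 0 :=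
    fun p _ η hη => amp_supp J hρ ha φ p η (by linarith)
  choose Ck hCk0 hCk using fun k => exists_bound_gen hamp hKc h0 k
  set Cb : ℝ := 1 + ∑ k ∈ Finset.range (N + 1), Ck k with hCb
  have hCb0 : 0 < Cb := by
    have : 0 ≤ ∑ k ∈ Finset.range (N + 1), Ck k := Finset.sum_nonneg fun k _ => hCk0 k
    linarith
  obtain ⟨C, hC, hdec⟩ := decay_ext N hB2 hh (L0 + 3) (by linarith)
  refine ⟨Cb, Cb * C, hCb0.le, by positivity, ?_⟩
  intro R hR τ hτ R' lam hR' hlam f hf hf1 hf0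
  have hR0 : 0 < R := by linarith
  have hΛ : 0 ≤ Λ := by
    have : 0 ≤ Λ / R := (abs_nonneg τ).trans hτ
    by_contra h
    push Not at h
    have := div_neg_of_neg_of_pos h hR0
    linarith
  have hmem : (τ, R * τ) ∈ K := by
    have h1 : |τ| ≤ Λ := hτ.trans (div_le_self hΛ hR)
    have h2 : |R * τ| ≤ Λ := by
      rw [abs_mul, abs_of_pos hR0]
      rw [le_div_iff₀ hR0] at hτ
      linarith
    exact ⟨abs_le.1 h1, abs_le.1 h2⟩
  set β : E2 → ℂ := fun η => amp J ρ a φ ((τ, R * τ), η) with hβ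
  have hβc : ContDiff ℝ ∞ β := hamp.comp (contDiff_const.prodMk contDiff_id)
  have hβd : ∀ m ≤ N, ∀ ξ, ‖iteratedFDeriv ℝ m β ξ‖ ≤ Cb := by
    intro m hm ξ
    refine (hCk m _ hmem ξ).trans ?_
    have := Finset.single_le_sum (f := Ck) (s := Finset.range (N + 1)) (fun k _ => hCk0 k)
      (Finset.mem_range.2 (by omega : m < N + 1))
    linarith
  have hβM : ∀ η, ‖β η‖ ≤ Cb := by
    intro η
    have := hβd 0 (Nat.zero_le _) η
    rwa [norm_iteratedFDeriv_zero] at this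
  have hβs : HasCompactSupport β := by
    apply HasCompactSupport.of_support_subset_isCompact (isCompact_closedBall (0 : E2) 1)
    intro η hη
    by_contra hη'
    simp only [Metric.mem_closedBall, dist_zero_right, not_le] at hη'
    exact hη (h0 _ hmem η hη')
  have hgs : gs J (Hr ρ) ρ (fun v => a v * mR φ R v) f τ =
      fun η => β η * Ft (Hr ρ) (src J ρ f τ) η := by
    rw [gs_eq J hρ _ hf]
    ext η
    simp only [hβ]
    rw [amp_eq J hρ hρ1 ha]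
  rw [hgs]
  have hS : Src (2 * R') (src J ρ f τ) := Src_src J hρ (by linarith) hf hf1 hf0 τ
  have key := box_of_decay (H := Hr ρ) (contDiff_Hr ρ) hβc.continuous hβs hβM (L := 2 * R')
    (by linarith) hS (R := R') (lam := lam) (Q := Cb * (C * (lam ^ N)⁻¹)) (L0 := L0) hR' hlam
    (by positivity) (N := N) ?_
  · intro c b s hs ψ hψ x0 t0 hx0 ht0
    refine (key c b s hs ψ hψ x0 t0 hx0 ht0).trans (le_of_eq ?_)
    congr 2
    ring
  · intro c b s hs ψ hψ y u hu hi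
    exact hdec Cb hCb0 β hβc hβd R' lam hR' hlam c b s hs ψ hψ y u
      (by linarith) hi

end Crest.Agent.R138.Fq665
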