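import Mathlib
import Crest.Agent.R138.Fq13_665

/-! `EBn → LocSec`. -/

set_option autoImplicit false

open MeasureTheory Filter Topology
open scoped ENNReal FourierTransform ContDiff

noncomputable section

namespace Crest.Agent.R138.Fq665

open Crest.Agent.R138.Defs
open Crest.Agent.R138.Fr665 (cv)
open Crest.Agent.R138.Sh200 (mR KR)

theorem Hr_zero (ρ : ℝ) : Hr ρ 0 = 0 := by
  simp [Hr, PP]

theorem Hr_neg (ρ : ℝ) (η : E2) : Hr ρ (-η) = Hr ρ η := by
  simp [Hr, PP, ContDiffBump.neg]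

theorem fderiv_Hr_zero (ρ : ℝ) : fderiv ℝ (Hr ρ) 0 = 0 := by
  have hd : DifferentiableAt ℝ (Hr ρ) 0 := (contDiff_Hr ρ).differentiable (by simp) 0
  have h1 := hd.hasFDerivAt
  have h2 : HasFDerivAt (fun η : E2 => Hr ρ (-η)) ((fderiv ℝ (Hr ρ) 0).comp
      (-ContinuousLinearMap.id ℝ E2)) 0 := by
    have h3 : HasFDerivAt (fun η : E2 => -η) (-ContinuousLinearMap.id ℝ E2) 0 :=
      (hasFDerivAt_id 0).neg
    have h4 : HasFDerivAt (Hr ρ) (fderiv ℝ (Hr ρ) 0) (-(0 : E2)) := by rw [neg_zero]; exact h1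
    exact HasFDerivAt.comp 0 h4 h3
  simp only [Hr_neg] at h2
  have h3 := h1.unique h2
  ext v
  have h4 := congrArg (fun L : E2 →L[ℝ] ℝ => L v) h3
  simp only [ContinuousLinearMap.comp_apply, neg_apply,
    ContinuousLinearMap.id_apply, map_neg] at h4
  simp only [zero_apply]
  linarith

theorem measurable_cv {K f : V → ℂ} (hK : Measurable K) (hf : Measurable f) :
    Measurable (cv K f) := by
  unfold cv
  have hm : Measurable fun p : V × V => K (p.1 - p.2) * f p.2 := by fun_prop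
  exact (StronglyMeasurable.integral_prod_right' (ν := (volume : Measure V))
    hm.stronglyMeasurable).measurable

theorem continuous_fourierInv {G : V → ℂ} (hG : Integrable G) : Continuous (𝓕⁻ G) := by
  have h := continuous_fourier hG
  have : 𝓕⁻ G = fun x => 𝓕 G (-x) := by
    ext x; rw [Real.fourierInv_eq_fourier_neg]
  rw [this]
  exact h.comp continuous_neg

theorem bdd_memLp {f : V → ℂ} (hf : Measurable f) (h1 : ∀ v, ‖f v‖ ≤ 1) {L : ℝ}
    (h0 : ∀ v, L < ‖v‖ → f v = 0) : Integrable f ∧ MemLp f 2 := by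
  have ht : MemLp f ⊤ (volume : Measure V) := memLp_top_of_bound hf.aestronglyMeasurable 1
    (Eventually.of_forall fun x => h1 _)
  have hs : Function.support f ⊆ Metric.closedBall 0 L := by
    intro x hx
    by_contra hx'
    simp only [Metric.mem_closedBall, dist_zero_right, not_le] at hx'
    exact hx (h0 _ hx')
  have key : ∀ p : ℝ≥0∞, MemLp f p := by
    intro p
    have h2 : MemLp f p (volume.restrict (Metric.closedBall (0 : V) L)) :=
      haveI : IsFiniteMeasure (volume.restrict (Metric.closedBall (0 : V) L)) :=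
        ⟨by rw [Measure.restrict_apply_univ]; exact measure_closedBall_lt_top⟩
      (ht.restrict _).mono_exponent le_top
    have h3 := (memLp_indicator_iff_restrict Metric.isClosed_closedBall.measurableSet).2 h2
    rwa [Set.indicator_eq_self.2 hs] at h3
  exact ⟨memLp_one_iff_integrable.1 (key 1), key 2⟩

theorem mR_continuous {φ : ℝ → ℝ} (hφ : Continuous φ) (R : ℝ) : Continuous (mR φ R) := by
  unfold mR
  fun_prop

theorem ball_le_cyl (J : PR ≃ₗᵢ[ℝ] V) {u : V → ℝ≥0∞} (hu : Measurable u) {R : ℝ} (hR : 0 ≤ R) :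
    ∫⁻ v in Metric.closedBall (0 : V) R, u v ≤ ∫⁻ p in cyl R, u (up J p.1 p.2) := by
  have hm : MeasurableSet (Metric.closedBall (0 : V) R) := Metric.isClosed_closedBall.measurableSet
  rw [← lintegral_indicator hm, lintegral_up J _ (hu.indicator hm),
    ← lintegral_indicator (measurableSet_cyl R)]
  refine lintegral_mono fun p => ?_
  by_cases hp : up J p.1 p.2 ∈ Metric.closedBall (0 : V) R
  · have hn := norm_up_sq J p.1 p.2
    have h1 : ‖up J p.1 p.2‖ ≤ R := by simpa using hp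
    have h2 : ‖up J p.1 p.2‖ ^ 2 ≤ R ^ 2 := by gcongr
    have hp' : p ∈ cyl R := by
      constructor
      · apply le_of_sq_le_sq _ hR
        nlinarith [sq_nonneg p.2]
      · apply abs_le_of_sq_le_sq _ hR
        nlinarith [sq_nonneg ‖p.1‖]
    simp only [Set.indicator_of_mem hp']
    exact Set.indicator_le_self _ _ _
  · rw [Set.indicator_of_notMem hp]
    exact zero_le

theorem numer {R δ Λ CE Mp sD D1 : ℝ} (hR : 1 ≤ R) (hδ : 0 < δ) (hδ1 : δ ≤ 1)
    (hCE : 0 ≤ CE) (hD1 : 0 ≤ D1)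
    (hsD : sD ≤ D1 * (R ^ (1 + δ) * (R ^ (1 + δ)) ^ δ)) :
    (2 * (Λ / R)) ^ 2 * (CE * (R ^ (1 + δ)) ^ δ * R ^ (1 + δ) * sD) * Mp ^ 2 ≤
      4 * Λ ^ 2 * CE * D1 * Mp ^ 2 * R ^ (6 * δ) := by
  have hR0 : 0 < R := by linarith
  have e0 : (R ^ (1 + δ)) ^ δ = R ^ ((1 + δ) * δ) := by rw [← Real.rpow_mul hR0.le]
  rw [e0] at hsD ⊢
  have e4 : (R ^ 2)⁻¹ = R ^ (-2 : ℝ) := by
    rw [Real.rpow_neg hR0.le]; norm_num
  have e3 : R ^ ((1 + δ) * δ) * R ^ (1 + δ) * (R ^ (1 + δ) * R ^ ((1 + δ) * δ)) =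
      R ^ (2 * (1 + δ) ^ 2) := by
    rw [← Real.rpow_add hR0, ← Real.rpow_add hR0, ← Real.rpow_add hR0]
    congr 1
    ring
  have e2 : (R ^ 2)⁻¹ * (R ^ ((1 + δ) * δ) * R ^ (1 + δ) * (R ^ (1 + δ) * R ^ ((1 + δ) * δ))) ≤
      R ^ (6 * δ) := by
    rw [e3, e4, ← Real.rpow_add hR0]
    exact Real.rpow_le_rpow_of_exponent_le hR (by nlinarith)
  have hP1 : 0 ≤ R ^ ((1 + δ) * δ) := Real.rpow_nonneg hR0.le _
  have hP2 : 0 ≤ R ^ (1 + δ) := Real.rpow_nonneg hR0.le _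
  have h1 : (2 * (Λ / R)) ^ 2 * (CE * R ^ ((1 + δ) * δ) * R ^ (1 + δ) * sD) * Mp ^ 2 =
      4 * Λ ^ 2 * CE * Mp ^ 2 * (R ^ 2)⁻¹ * (R ^ ((1 + δ) * δ) * R ^ (1 + δ)) * sD := by
    rw [div_eq_mul_inv, mul_pow, mul_pow, inv_pow]
    ring
  rw [h1]
  calc 4 * Λ ^ 2 * CE * Mp ^ 2 * (R ^ 2)⁻¹ * (R ^ ((1 + δ) * δ) * R ^ (1 + δ)) * sD
      ≤ 4 * Λ ^ 2 * CE * Mp ^ 2 * (R ^ 2)⁻¹ * (R ^ ((1 + δ) * δ) * R ^ (1 + δ)) *
        (D1 * (R ^ (1 + δ) * R ^ ((1 + δ) * δ))) := by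
        gcongr
    _ = 4 * Λ ^ 2 * CE * D1 * Mp ^ 2 *
        ((R ^ 2)⁻¹ * (R ^ ((1 + δ) * δ) * R ^ (1 + δ) * (R ^ (1 + δ) * R ^ ((1 + δ) * δ)))) := by
        ring
    _ ≤ _ := by gcongr

set_option maxHeartbeats 1000000 in
theorem LocSec_of_EBn (h : EBn) : LocSec := by
  obtain ⟨c0, hc0, K0, L0', H⟩ := h
  set L0 := max L0' 0 with hL0
  have hL00 : 0 ≤ L0 := le_max_right _ _
  obtain ⟨ρ, hρ, hρ1, hpar⟩ := exists_parB (min c0 (1/16)) (by positivity) (max K0 2)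
  obtain ⟨B, hB, hParB⟩ := hpar ρ hρ le_rfl
  have hB2 : B 2 ≤ 1/16 := (hB 2 le_rfl (le_max_right _ _)).trans (min_le_right _ _)
  have hBc : ∀ k, 2 ≤ k → k ≤ K0 → B k ≤ c0 := fun k h2 hk =>
    (hB k h2 (hk.trans (le_max_left _ _))).trans (min_le_left _ _)
  refine ⟨ρ, hρ, hρ1, ?_⟩
  intro J a hac has φ hφ hφs δ hδ hδ1
  have ha : Sec J ρ a := ⟨hac, has⟩
  -- profile
  obtain ⟨Λ', hΛ'⟩ := (hφs : IsCompact (tsupport φ)).isBounded.exists_norm_le
  set Λ := max Λ' 0 with hΛ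
  have hΛ0 : 0 ≤ Λ := le_max_right _ _
  have hprof : Prof Λ φ := ⟨hφ, fun u hu => by
    have := hΛ' u (subset_tsupport _ hu)
    rw [Real.norm_eq_abs] at this
    exact this.trans (le_max_left _ _)⟩
  -- bounds of the multiplier
  have hacs : HasCompactSupport a := by
    apply HasCompactSupport.of_support_subset_isCompact
      (isCompact_closedBall (up J 0 1) (ρ / 2))
    intro v hv
    rw [Metric.mem_closedBall, dist_eq_norm]
    exact has v hv
  obtain ⟨Ma, hMa⟩ := hac.continuous.bounded_above_of_compact_support hacs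
  obtain ⟨Mφ, hMφ⟩ := hφ.continuous.bounded_above_of_compact_support hφs
  have hMa0 : 0 ≤ Ma := (norm_nonneg _).trans (hMa 0)
  have hMφ0 : 0 ≤ Mφ := (norm_nonneg _).trans (hMφ 0)
  set N : ℕ := ⌈2 / δ⌉₊ with hN
  have hNδ : 2 ≤ δ * N := by
    have := Nat.le_ceil (2 / δ)
    rw [div_le_iff₀ hδ] at this
    linarith
  obtain ⟨CE, hCE, HE⟩ := H B hBc δ hδ N
  obtain ⟨M, C, hM, hC, hbox⟩ := box_gs J hρ hρ1 hB2 hParB ha hprof N hL00
  set D1 : ℝ := Real.sqrt (1024 * (4 * M ^ 2 + 64 * C ^ 2)) with hD1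
  have hD10 : 0 ≤ D1 := Real.sqrt_nonneg _
  refine ⟨4 * Λ ^ 2 * CE * D1 * (Ma * Mφ) ^ 2, by positivity, ?_⟩
  intro R hR f hf hf1 hf0
  have hR0 : 0 < R := by linarith
  set R' := R ^ (1 + δ) with hR'
  have hR'1 : 1 ≤ R' := Real.one_le_rpow hR (by linarith)
  have hR'0 : 0 < R' := by linarith
  set lam := R' ^ δ with hlam
  have hlam1 : 1 ≤ lam := Real.one_le_rpow hR'1 hδ.le
  have hlam0 : 0 < lam := by linarith
  set G : V → ℂ := fun v => a v * mR φ R v with hG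
  have hGc : Continuous G := hac.continuous.mul (mR_continuous hφ.continuous R)
  have hGs : HasCompactSupport G := hacs.mul_right
  have hGM : ∀ v, ‖G v‖ ≤ Ma * Mφ := by
    intro v
    rw [hG, norm_mul]
    refine mul_le_mul (hMa v) ?_ (norm_nonneg _) hMa0
    simp only [mR, Complex.norm_real]
    exact hMφ _
  obtain ⟨hfi, hf2⟩ := bdd_memLp hf hf1 hf0
  set T : ℝ := Λ / R with hT
  have hT0 : 0 ≤ T := by positivity
  set D : ℝ := 1024 * (M ^ 2 * lam ^ 2 * (2 * R') ^ 2 + (2 * R') ^ 6 * (C * (lam ^ N)⁻¹) ^ 2)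
    with hD
  have hD0 : 0 ≤ D := by positivity
  have hDle : Real.sqrt D ≤ D1 * (R' * lam) := by
    have h1 : R' ^ 2 ≤ lam ^ N := by
      rw [hlam, ← Real.rpow_natCast, ← Real.rpow_natCast, ← Real.rpow_mul hR'0.le]
      exact Real.rpow_le_rpow_of_exponent_le hR'1 (by push_cast; linarith)
    have h2 : (lam ^ N)⁻¹ ≤ (R' ^ 2)⁻¹ := inv_anti₀ (by positivity) h1
    have h3 : D ≤ (1024 * (4 * M ^ 2 + 64 * C ^ 2)) * (R' * lam) ^ 2 := by
      have h4 : (2 * R') ^ 6 * (C * (lam ^ N)⁻¹) ^ 2 ≤ 64 * C ^ 2 * (R' * lam) ^ 2 := by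
        calc (2 * R') ^ 6 * (C * (lam ^ N)⁻¹) ^ 2 ≤ (2 * R') ^ 6 * (C * (R' ^ 2)⁻¹) ^ 2 := by
              gcongr
          _ = 64 * C ^ 2 * (R' * 1) ^ 2 := by field_simp; ring
          _ ≤ _ := by gcongr
      rw [hD]
      nlinarith [h4]
    calc Real.sqrt D ≤ Real.sqrt ((1024 * (4 * M ^ 2 + 64 * C ^ 2)) * (R' * lam) ^ 2) :=
          Real.sqrt_le_sqrt h3
      _ = _ := by
          rw [Real.sqrt_mul (by positivity), Real.sqrt_sq (by positivity)]
  set A : ℝ := CE * R' ^ δ * R' * Real.sqrt D with hA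
  have hA0 : 0 ≤ A := by positivity
  have hHc : Continuous (Hr ρ) := (contDiff_Hr ρ).continuous
  have hG1 : ∀ τ η, |τ| ≤ T → 1 < ‖η‖ → G (cw J (Hr ρ) ρ (τ, η)) = 0 :=
    fun τ η _ hη => G_supp_eta J hρ ha φ R hη
  have hcons := slices_consume J (H := Hr ρ) hHc hρ (by linarith) hGc hGs hfi hf2 hGM hT0
    (fun τ η hτ => G_supp_tau J hρ hρ1 ha hprof hR0 hτ) hG1 (R := R') hA0 ?_
  · have hKc : Continuous (𝓕⁻ G) :=
      continuous_fourierInv (hGc.integrable_of_hasCompactSupport hGs)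
    refine (ball_le_cyl J ((measurable_cv hKc.measurable hf).enorm.pow_const 3) hR'0.le).trans ?_
    refine hcons.trans ?_
    exact mul_le_mul' (ENNReal.ofReal_le_ofReal (numer hR hδ hδ1 hCE hD10 hDle)) le_rfl
  · intro τ hτ
    have hgc := continuous_gs J (ρ := ρ) hHc hGc hfi τ
    have hg0 : ∀ ξ : E2, 1 < ‖ξ‖ → gs J (Hr ρ) ρ G f τ ξ = 0 := by
      intro ξ hξ
      have := hG1 τ ξ hτ hξ
      simp only [cw] at this
      simp [gs, this]
    have hgs : HasCompactSupport (gs J (Hr ρ) ρ G f τ) := by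
      apply HasCompactSupport.of_support_subset_isCompact (isCompact_closedBall (0 : E2) 1)
      intro η hη
      by_contra hη'
      simp only [Metric.mem_closedBall, dist_zero_right, not_le] at hη'
      exact hη (hg0 η hη')
    obtain ⟨Mg, hMg⟩ := hgc.bounded_above_of_compact_support hgs
    have hb := hbox R hR τ hτ R' lam hR'1 hlam1 f hf hf1 hf0
    have hb' : BoxBoundL L0' N (Hr ρ) (gs J (Hr ρ) ρ G f τ) R' D := by
      intro c b s hs ψ hψ x0 t0 hx0 ht0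
      exact hb c b s hs ψ hψ x0 t0 (hx0.trans (by gcongr; exact le_max_left _ _))
        (ht0.trans (by gcongr; exact le_max_left _ _))
    refine (HE (Hr ρ) hParB (Hr_zero ρ) (fderiv_Hr_zero ρ) R' D hR'1 hD0 _ hgc.measurable
      ⟨Mg, hMg⟩ hg0 hb').trans (le_of_eq ?_)
    congr 1
    rw [hA]
    ring

end Crest.Agent.R138.Fq665
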