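import Mathlib
import Crest.Agent.R138.Fq14_665

/-! Decay of the kernel of one sector. -/

set_option autoImplicit false

open MeasureTheory Filter Topology
open scoped ENNReal FourierTransform ContDiff

noncomputable section

namespace Crest.Agent.R138.Fq665

open Crest.Agent.R138.Defs
open Crest.Agent.R138.Fr665 (cv)
open Crest.Agent.R138.Sh200 (mR KR)

theorem contDiff_mR {φ : ℝ → ℝ} (hφ : ContDiff ℝ ∞ φ) (R : ℝ) : ContDiff ℝ ∞ (mR φ R) := by
  have h1 : ContDiff ℝ ∞ fun ξ : V => φ (R * (1 - ‖ξ‖ ^ 2)) :=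
    hφ.comp (contDiff_const.mul (contDiff_const.sub (contDiff_norm_sq ℝ)))
  exact Complex.ofRealCLM.contDiff.comp h1

/-- derivatives of a compactly supported function are bounded. -/
theorem deriv_bdd {E F : Type*} [NormedAddCommGroup E] [NormedSpace ℝ E]
    [NormedAddCommGroup F] [NormedSpace ℝ F] {g : E → F} (hg : ContDiff ℝ ∞ g)
    (hs : HasCompactSupport g) (n : ℕ) : ∃ C : ℝ, 0 ≤ C ∧ ∀ x, ‖iteratedFDeriv ℝ n g x‖ ≤ C := by
  have hc : Continuous (iteratedFDeriv ℝ n g) := hg.continuous_iteratedFDeriv (mod_cast le_top)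
  obtain ⟨C, hC⟩ := hc.bounded_above_of_compact_support (hs.iteratedFDeriv n)
  exact ⟨C, (norm_nonneg _).trans (hC 0), hC⟩

theorem deriv_mR {φ : ℝ → ℝ} (hφ : ContDiff ℝ ∞ φ) (hφs : HasCompactSupport φ) (n : ℕ) :
    ∃ C : ℝ, 0 ≤ C ∧ ∀ R : ℝ, 1 ≤ R → ∀ v : V, ‖v‖ ≤ 2 →
      ‖iteratedFDeriv ℝ n (mR φ R) v‖ ≤ C * R ^ n := by
  set g : ℝ → ℂ := fun t => ((φ t : ℝ) : ℂ) with hg
  have hgc : ContDiff ℝ ∞ g := Complex.ofRealCLM.contDiff.comp hφ
  have hgs : HasCompactSupport g := by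
    have := hφs.comp_left (g := fun t : ℝ => (t : ℂ)) (by simp)
    exact this
  choose Cg hCg0 hCg using deriv_bdd hgc hgs
  set f : V → ℝ := fun v => 1 - ‖v‖ ^ 2 with hf
  have hfc : ContDiff ℝ ∞ f := contDiff_const.sub (contDiff_norm_sq ℝ)
  have hfb : ∀ i : ℕ, ∃ c : ℝ, 0 ≤ c ∧ ∀ v : V, ‖v‖ ≤ 2 → ‖iteratedFDeriv ℝ i f v‖ ≤ c := by
    intro i
    have hc : Continuous (iteratedFDeriv ℝ i f) := hfc.continuous_iteratedFDeriv (mod_cast le_top)
    obtain ⟨c, hc⟩ := (isCompact_closedBall (0 : V) 2).exists_bound_of_continuousOn hc.continuousOn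
    exact ⟨max c 0, le_max_right _ _, fun v hv => (hc v (by simpa using hv)).trans (le_max_left _ _)⟩
  choose cf hcf0 hcf using hfb
  set c : ℝ := 1 + ∑ i ∈ Finset.range (n + 1), cf i with hc
  have hc1 : 1 ≤ c := by
    have : 0 ≤ ∑ i ∈ Finset.range (n + 1), cf i := Finset.sum_nonneg fun i _ => hcf0 i
    linarith
  set C0 : ℝ := ∑ i ∈ Finset.range (n + 1), Cg i with hC0
  have hC00 : 0 ≤ C0 := Finset.sum_nonneg fun i _ => hCg0 i
  refine ⟨n.factorial * C0 * c ^ n, by positivity, fun R hR v hv => ?_⟩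
  have hR0 : 0 < R := by linarith
  have hu : mR φ R = g ∘ (fun v => R • f v) := by
    ext v; simp [mR, g, f]
  have huc : ContDiff ℝ ∞ fun v => R • f v := hfc.const_smul R
  rw [hu]
  have key := norm_iteratedFDeriv_comp_le (𝕜 := ℝ) (g := g) (f := fun v => R • f v) (n := n)
    (N := ∞) hgc huc (mod_cast le_top) v (C := C0) (D := R * c) ?_ ?_
  · refine key.trans (le_of_eq ?_)
    rw [mul_pow]; ring
  · intro i hi
    refine (hCg i _).trans ?_
    exact Finset.single_le_sum (f := Cg) (fun i _ => hCg0 i) (Finset.mem_range.2 (by omega))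
  · intro i hi1 hin
    rw [iteratedFDeriv_const_smul_apply' (hfc.contDiffAt.of_le (mod_cast le_top)), norm_smul,
      Real.norm_eq_abs, abs_of_pos hR0]
    have h1 : ‖iteratedFDeriv ℝ i f v‖ ≤ c := by
      refine (hcf i v hv).trans ?_
      have := Finset.single_le_sum (f := cf) (s := Finset.range (n + 1)) (fun i _ => hcf0 i)
        (Finset.mem_range.2 (by omega : i < n + 1))
      linarith
    calc R * ‖iteratedFDeriv ℝ i f v‖ ≤ R * c := by gcongr
      _ ≤ (R * c) ^ i := by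
        apply le_self_pow₀ _ (by omega)
        nlinarith

theorem sec_norm_le {ρ : ℝ} (hρ1 : ρ ≤ 1/8) {J : PR ≃ₗᵢ[ℝ] V} {a : V → ℂ} (ha : Sec J ρ a) {v : V}
    (hv : a v ≠ 0) : ‖v‖ ≤ 2 := by
  have h1 := ha.supp v hv
  have h2 := norm_up_sq J 0 1
  have h3 : ‖up J 0 1‖ = 1 := by
    have : ‖up J 0 1‖ ^ 2 = 1 := by rw [h2]; simp
    nlinarith [norm_nonneg (up J 0 1)]
  calc ‖v‖ = ‖(v - up J 0 1) + up J 0 1‖ := by rw [sub_add_cancel]
    _ ≤ ‖v - up J 0 1‖ + ‖up J 0 1‖ := norm_add_le _ _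
    _ ≤ 2 := by rw [h3]; linarith

theorem deriv_G {ρ : ℝ} (hρ1 : ρ ≤ 1/8) {J : PR ≃ₗᵢ[ℝ] V} {a : V → ℂ} (ha : Sec J ρ a)
    {φ : ℝ → ℝ} (hφ : ContDiff ℝ ∞ φ) (hφs : HasCompactSupport φ) (n : ℕ) :
    ∃ C : ℝ, 0 ≤ C ∧ ∀ R : ℝ, 1 ≤ R → ∀ v : V,
      ‖iteratedFDeriv ℝ n (fun v => a v * mR φ R v) v‖ ≤
        (Metric.closedBall (0 : V) 2).indicator (fun _ => C * R ^ n) v := by
  have has : HasCompactSupport a := by
    apply HasCompactSupport.of_support_subset_isCompact (isCompact_closedBall (0 : V) 2)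
    intro v hv
    simpa using sec_norm_le hρ1 ha hv
  choose Ca hCa0 hCa using deriv_bdd ha.smooth has
  choose Cm hCm0 hCm using deriv_mR hφ hφs
  refine ⟨∑ i ∈ Finset.range (n + 1), (n.choose i : ℝ) * Ca i * Cm (n - i),
    Finset.sum_nonneg fun i _ => by have := hCa0 i; have := hCm0 (n - i); positivity,
    fun R hR v => ?_⟩
  by_cases hv : ‖v‖ ≤ 2
  · have hv' : v ∈ Metric.closedBall (0 : V) 2 := by simpa using hv
    rw [Set.indicator_of_mem hv']
    refine (norm_iteratedFDeriv_mul_le (N := ∞) ha.smooth (contDiff_mR hφ R) v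
      (mod_cast le_top)).trans ?_
    rw [Finset.sum_mul]
    refine Finset.sum_le_sum fun i hi => ?_
    have h1 := hCa i v
    have h2 := hCm (n - i) R hR v hv
    have h3 : R ^ (n - i) ≤ R ^ n := pow_le_pow_right₀ hR (by omega)
    have h4 := hCa0 i
    have h5 := hCm0 (n - i)
    calc (n.choose i : ℝ) * ‖iteratedFDeriv ℝ i a v‖ * ‖iteratedFDeriv ℝ (n - i) (mR φ R) v‖
        ≤ (n.choose i : ℝ) * Ca i * (Cm (n - i) * R ^ n) := by
          gcongr
          exact h2.trans (by gcongr)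
      _ = _ := by ring
  · have hv' : v ∉ Metric.closedBall (0 : V) 2 := by simpa using hv
    rw [Set.indicator_of_notMem hv']
    have hz : iteratedFDeriv ℝ n (fun v => a v * mR φ R v) v = 0 := by
      by_contra hne
      have h1 := support_iteratedFDeriv_subset (𝕜 := ℝ) n (f := fun v => a v * mR φ R v) hne
      have h2 : tsupport (fun v => a v * mR φ R v) ⊆ Metric.closedBall (0 : V) 2 := by
        apply closure_minimal _ Metric.isClosed_closedBall
        intro x hx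
        simpa using sec_norm_le hρ1 ha (left_ne_zero_of_mul hx)
      exact hv' (h2 h1)
    rw [hz, norm_zero]

theorem kernel_pow {ρ : ℝ} (hρ1 : ρ ≤ 1/8) {J : PR ≃ₗᵢ[ℝ] V} {a : V → ℂ} (ha : Sec J ρ a)
    {φ : ℝ → ℝ} (hφ : ContDiff ℝ ∞ φ) (hφs : HasCompactSupport φ) (n : ℕ) :
    ∃ C : ℝ, 0 ≤ C ∧ ∀ R : ℝ, 1 ≤ R → ∀ x : V,
      ‖x‖ ^ n * ‖𝓕⁻ (fun v => a v * mR φ R v) x‖ ≤ C * R ^ n := by
  choose Cd hCd0 hCd using deriv_G hρ1 ha hφ hφs
  set vol := (volume (Metric.closedBall (0 : V) 2)).toReal with hvol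
  have hvol0 : 0 ≤ vol := ENNReal.toReal_nonneg
  refine ⟨2 ^ n * ∑ j ∈ Finset.range (n + 1), Cd j * vol, by
    have := Finset.sum_nonneg (s := Finset.range (n + 1)) fun j _ => mul_nonneg (hCd0 j) hvol0
    positivity, fun R hR x => ?_⟩
  have hR0 : 0 < R := by linarith
  set G : V → ℂ := fun v => a v * mR φ R v with hG
  have hGc : ContDiff ℝ ∞ G := ha.smooth.mul (contDiff_mR hφ R)
  have hGs : HasCompactSupport G := by
    apply HasCompactSupport.of_support_subset_isCompact (isCompact_closedBall (0 : V) 2)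
    intro v hv
    simpa using sec_norm_le hρ1 ha (left_ne_zero_of_mul hv)
  have hint : ∀ (k n : ℕ), Integrable (fun v : V ↦ ‖v‖ ^ k * ‖iteratedFDeriv ℝ n G v‖) := by
    intro k n
    apply Continuous.integrable_of_hasCompactSupport
    · exact (continuous_norm.pow k).mul
        (hGc.continuous_iteratedFDeriv (m := n) (mod_cast le_top)).norm
    · exact (hGs.iteratedFDeriv n).norm.mul_left
  have h1 := Real.pow_mul_norm_iteratedFDeriv_fourier_le (K := 0) (N := ⊤) (f := G) (k := 0)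
    (n := n) (mod_cast hGc) (fun k n _ _ => hint k n) le_rfl le_top (-x)
  rw [norm_neg, norm_iteratedFDeriv_zero, ← Real.fourierInv_eq_fourier_neg] at h1
  refine h1.trans ?_
  simp only [pow_zero, Nat.cast_zero, mul_zero, zero_add, one_mul]
  rw [Finset.sum_product, Finset.sum_range_one, mul_assoc, Finset.sum_mul]
  simp only [pow_zero, one_mul]
  gcongr with j hj
  have h2 : ∫ v, ‖iteratedFDeriv ℝ j G v‖ ≤
      ∫ v, (Metric.closedBall (0 : V) 2).indicator (fun _ => Cd j * R ^ j) v := by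
    apply integral_mono
    · simpa using hint 0 j
    · exact (integrable_indicator_iff Metric.isClosed_closedBall.measurableSet).2
        (integrableOn_const measure_closedBall_lt_top.ne)
    · intro v
      exact hCd j R hR v
  refine h2.trans ?_
  rw [integral_indicator_const _ Metric.isClosed_closedBall.measurableSet]
  have h3 : R ^ j ≤ R ^ n := pow_le_pow_right₀ hR (by simp at hj; omega)
  have h4 := hCd0 j
  simp only [smul_eq_mul, Measure.real]
  rw [← hvol]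
  calc vol * (Cd j * R ^ j) ≤ vol * (Cd j * R ^ n) := by gcongr
    _ = Cd j * vol * R ^ n := by ring

/-- the far part of the kernel is dominated by a fixed integrable function. -/
theorem kernel_tail {ρ : ℝ} (hρ1 : ρ ≤ 1/8) {J : PR ≃ₗᵢ[ℝ] V} {a : V → ℂ} (ha : Sec J ρ a)
    {φ : ℝ → ℝ} (hφ : ContDiff ℝ ∞ φ) (hφs : HasCompactSupport φ) {δ : ℝ} (hδ : 0 < δ)
    (hδ1 : δ ≤ 1) :
    ∃ C : ℝ, 0 ≤ C ∧ ∀ R : ℝ, 1 ≤ R →
      ∫⁻ x : V, ‖({x : V | R ^ (1 + δ) < ‖x‖}.indicator (𝓕⁻ (fun v => a v * mR φ R v)) x : ℂ)‖ₑ ≤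
        ENNReal.ofReal C := by
  set n : ℕ := ⌈8 / δ⌉₊ + 4 with hn
  have hn4 : 4 ≤ n := by omega
  have hnδ : 8 ≤ δ * ((n : ℝ) - 4) := by
    have := Nat.le_ceil (8 / δ)
    rw [div_le_iff₀ hδ] at this
    have h2 : (n : ℝ) - 4 = (⌈8 / δ⌉₊ : ℝ) := by rw [hn]; push_cast; ring
    rw [h2]; linarith
  obtain ⟨C, hC, hk⟩ := kernel_pow hρ1 ha hφ hφs n
  have hint : Integrable (fun x : V => (1 + ‖x‖) ^ (-(4:ℝ))) :=
    integrable_one_add_norm (by simp; norm_num)
  refine ⟨C * 16 * ∫ x : V, (1 + ‖x‖) ^ (-(4:ℝ)), by positivity, fun R hR => ?_⟩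
  have hR0 : 0 < R := by linarith
  have hpt : ∀ x : V, ‖({x : V | R ^ (1 + δ) < ‖x‖}.indicator
      (𝓕⁻ (fun v => a v * mR φ R v)) x : ℂ)‖ₑ ≤
      ENNReal.ofReal (C * 16 * (1 + ‖x‖) ^ (-(4:ℝ))) := by
    intro x
    by_cases hx : R ^ (1 + δ) < ‖x‖
    · have hx' : x ∈ {x : V | R ^ (1 + δ) < ‖x‖} := hx
      rw [Set.indicator_of_mem hx', ← ofReal_norm]
      apply ENNReal.ofReal_le_ofReal
      have hR1 : 1 ≤ R ^ (1 + δ) := Real.one_le_rpow hR (by linarith)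
      have hx1 : 1 < ‖x‖ := hR1.trans_lt hx
      have hx0 : 0 < ‖x‖ := by linarith
      have h1 := hk R hR x
      have h2 : R ^ n ≤ ‖x‖ ^ (n - 4) := by
        calc R ^ n = R ^ ((n : ℝ)) := (Real.rpow_natCast _ _).symm
          _ ≤ R ^ ((1 + δ) * ((n : ℝ) - 4)) := by
            apply Real.rpow_le_rpow_of_exponent_le hR
            nlinarith
          _ = (R ^ (1 + δ)) ^ (n - 4) := by
            rw [Real.rpow_mul hR0.le, ← Real.rpow_natCast, Nat.cast_sub hn4]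
            norm_num
          _ ≤ ‖x‖ ^ (n - 4) := by gcongr
      have h3 : ‖x‖ ^ 4 * ‖𝓕⁻ (fun v => a v * mR φ R v) x‖ ≤ C := by
        have h4 : 0 < ‖x‖ ^ (n - 4) := by positivity
        refine le_of_mul_le_mul_left ?_ h4
        calc ‖x‖ ^ (n - 4) * (‖x‖ ^ 4 * ‖𝓕⁻ (fun v => a v * mR φ R v) x‖)
            = ‖x‖ ^ n * ‖𝓕⁻ (fun v => a v * mR φ R v) x‖ := by
              rw [← mul_assoc, ← pow_add, Nat.sub_add_cancel hn4]
          _ ≤ C * R ^ n := h1
          _ ≤ C * ‖x‖ ^ (n - 4) := by gcongr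
          _ = _ := mul_comm _ _
      have h5 : (1 + ‖x‖) ^ (-(4:ℝ)) = ((1 + ‖x‖) ^ 4)⁻¹ := by
        rw [Real.rpow_neg (by positivity)]; norm_num
      rw [h5, ← div_eq_mul_inv, le_div_iff₀ (by positivity)]
      have h6 : (1 + ‖x‖) ^ 4 ≤ 16 * ‖x‖ ^ 4 := by
        calc (1 + ‖x‖) ^ 4 ≤ (2 * ‖x‖) ^ 4 := by gcongr; linarith
          _ = _ := by ring
      calc ‖𝓕⁻ (fun v => a v * mR φ R v) x‖ * (1 + ‖x‖) ^ 4
          ≤ ‖𝓕⁻ (fun v => a v * mR φ R v) x‖ * (16 * ‖x‖ ^ 4) := by gcongr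
        _ = 16 * (‖x‖ ^ 4 * ‖𝓕⁻ (fun v => a v * mR φ R v) x‖) := by ring
        _ ≤ 16 * C := by gcongr
        _ = C * 16 := by ring
    · have hx' : x ∉ {x : V | R ^ (1 + δ) < ‖x‖} := hx
      rw [Set.indicator_of_notMem hx', enorm_zero]
      exact zero_le
  refine (lintegral_mono hpt).trans ?_
  rw [← integral_const_mul, ofReal_integral_eq_lintegral_ofReal (hint.const_mul _)
    (Eventually.of_forall fun x => by positivity)]

end Crest.Agent.R138.Fq665
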