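import Mathlib
import Crest.Agent.R138.Fs1_665

/-! From the local to the global sector estimate: averaging over balls. -/

set_option autoImplicit false

open MeasureTheory Filter Topology
open scoped ENNReal FourierTransform ContDiff

noncomputable section

namespace Crest.Agent.R138.Fq665

open Crest.Agent.R138.Defs
open Crest.Agent.R138.Fr665 (cv)
open Crest.Agent.R138.Sh200 (mR KR)

theorem enorm_add_cube (a b : ℂ) : ‖a + b‖ₑ ^ 3 ≤ 4 * (‖a‖ₑ ^ 3 + ‖b‖ₑ ^ 3) := by
  calc ‖a + b‖ₑ ^ 3 ≤ (‖a‖ₑ + ‖b‖ₑ) ^ 3 := by gcongr; exact enorm_add_le _ _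
    _ ≤ _ := by
      have := ENNReal.rpow_add_le_mul_rpow_add_rpow ‖a‖ₑ ‖b‖ₑ (p := 3) (by norm_num)
      norm_num at this
      exact this

theorem lint_cv_cube {K g : V → ℂ} (hK : Measurable K) (hg : Measurable g) :
    ∫⁻ x, ‖cv K g x‖ₑ ^ 3 ≤ (∫⁻ y, ‖K y‖ₑ) ^ 3 * ∫⁻ y, ‖g y‖ₑ ^ 3 := by
  have := Fr665.lint_cv_rpow hK hg (p := 3) (by norm_num)
  norm_cast at this

theorem cv_add {K K' g : V → ℂ} (x : V) (h : Integrable fun y => K (x - y) * g y)
    (h' : Integrable fun y => K' (x - y) * g y) :
    cv (fun v => K v + K' v) g x = cv K g x + cv K' g x := by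
  unfold cv
  rw [← integral_add h h']
  refine integral_congr_ae (Eventually.of_forall fun y => ?_)
  simp only
  ring

theorem int_cv {K g : V → ℂ} (hK : Measurable K) {M : ℝ} (hM : ∀ v, ‖K v‖ ≤ M)
    (hg : Integrable g) (x : V) : Integrable fun y => K (x - y) * g y :=
  hg.bdd_mul (c := M) (hK.comp (by fun_prop)).aestronglyMeasurable
    (Eventually.of_forall fun _ => hM _)

/-- translation invariance. -/
theorem cv_translate (K g : V → ℂ) (b x : V) : cv K g (x + b) = cv K (fun y => g (y + b)) x := by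
  unfold cv
  rw [← integral_add_right_eq_self (fun y => K (x + b - y) * g y) b]
  refine integral_congr_ae (Eventually.of_forall fun y => ?_)
  simp only
  congr 2
  abel

/-- Fubini over balls. -/
theorem lint_balls (r : ℝ) {u : V → ℝ≥0∞} (hu : Measurable u) :
    ∫⁻ b : V, ∫⁻ x in Metric.closedBall b r, u x =
      volume (Metric.closedBall (0 : V) r) * ∫⁻ x, u x := by
  have hS : MeasurableSet {p : V × V | dist p.2 p.1 ≤ r} :=
    measurableSet_le (by fun_prop) measurable_const
  have h1 : ∀ b : V, ∫⁻ x in Metric.closedBall b r, u x =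
      ∫⁻ x, {p : V × V | dist p.2 p.1 ≤ r}.indicator (fun p => u p.2) (b, x) := by
    intro b
    rw [← lintegral_indicator Metric.isClosed_closedBall.measurableSet]
    refine lintegral_congr fun x => ?_
    by_cases hx : dist x b ≤ r
    · rw [Set.indicator_of_mem (by simpa using hx : x ∈ Metric.closedBall b r),
        Set.indicator_of_mem (by simpa using hx)]
    · rw [Set.indicator_of_notMem (by simpa using hx : x ∉ Metric.closedBall b r),
        Set.indicator_of_notMem (by simpa using hx)]
  simp only [h1]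
  rw [lintegral_lintegral_swap]
  · rw [← lintegral_const_mul _ hu]
    refine lintegral_congr fun x => ?_
    have h2 : ∀ b : V, {p : V × V | dist p.2 p.1 ≤ r}.indicator (fun p => u p.2) (b, x) =
        (Metric.closedBall x r).indicator (fun _ => u x) b := by
      intro b
      by_cases hx : dist x b ≤ r
      · rw [Set.indicator_of_mem (by simpa [dist_comm] using hx : b ∈ Metric.closedBall x r),
          Set.indicator_of_mem (by simpa using hx)]
      · rw [Set.indicator_of_notMem (by simpa [dist_comm] using hx : b ∉ Metric.closedBall x r),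
          Set.indicator_of_notMem (by simpa using hx)]
    simp only [h2]
    rw [lintegral_indicator Metric.isClosed_closedBall.measurableSet, lintegral_const,
      Measure.restrict_apply_univ, mul_comm, Measure.addHaar_closedBall_center]
  · exact ((hu.comp measurable_snd).indicator hS).aemeasurable

theorem vol_double {r : ℝ} (hr : 0 < r) : volume (Metric.closedBall (0 : V) (2 * r)) =
    8 * volume (Metric.closedBall (0 : V) r) := by
  have hd : Module.finrank ℝ V = 3 := by simp
  rw [Measure.addHaar_closedBall _ _ (by linarith), Measure.addHaar_closedBall _ _ hr.le, hd,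
    ← mul_assoc]
  congr 1
  rw [mul_pow, ENNReal.ofReal_mul (by norm_num)]
  norm_num

/-- **local ⟹ global.** -/
theorem glob_of_loc {K : V → ℂ} (hK : Measurable K) {M : ℝ} (hM : ∀ v, ‖K v‖ ≤ M) {R' : ℝ}
    (hR' : 0 < R') {Ct : ℝ≥0∞}
    (htail : ∫⁻ x : V, ‖({x : V | R' < ‖x‖}.indicator K x : ℂ)‖ₑ ≤ Ct) {Cl : ℝ≥0∞}
    (hloc : ∀ f : V → ℂ, Measurable f → (∀ v, ‖f v‖ ≤ 1) → (∀ v, 2 * R' < ‖v‖ → f v = 0) →
      ∫⁻ v in Metric.closedBall (0 : V) R', ‖cv K f v‖ₑ ^ 3 ≤ Cl * ∫⁻ v, ‖f v‖ₑ ^ 2)
    {Ω : Set V} (hΩ : MeasurableSet Ω) (hΩf : volume Ω ≠ ⊤) {f : V → ℂ} (hf : Measurable f)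
    (hfΩ : ∀ x, ‖f x‖ ≤ Ω.indicator (fun _ => (1:ℝ)) x) :
    ∫⁻ x, ‖cv K f x‖ₑ ^ 3 ≤ (128 * (Cl + Ct ^ 3) + 4 * Ct ^ 3) * volume Ω := by
  set K2 : V → ℂ := {x : V | R' < ‖x‖}.indicator K with hK2
  set K1 : V → ℂ := {x : V | R' < ‖x‖}ᶜ.indicator K with hK1
  have hSm : MeasurableSet {x : V | R' < ‖x‖} := measurableSet_lt measurable_const (by fun_prop)
  have hK2m : Measurable K2 := hK.indicator hSm
  have hK1m : Measurable K1 := hK.indicator hSm.compl
  have hM2 : ∀ v, ‖K2 v‖ ≤ M := fun v => (norm_indicator_le_norm_self _ _).trans (hM v)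
  have hM1 : ∀ v, ‖K1 v‖ ≤ M := fun v => (norm_indicator_le_norm_self _ _).trans (hM v)
  have hKs : K = fun v => K1 v + K2 v := by
    ext v
    rw [hK1, hK2, add_comm]
    exact (congrFun (Set.indicator_self_add_compl _ K) v).symm
  -- functions dominated by an indicator
  have hf1 : ∀ x, ‖f x‖ ≤ 1 := fun x => (hfΩ x).trans (Set.indicator_le_self' (by simp) x)
  have hfi : Integrable f := by
    have h1 : Integrable (Ω.indicator (fun _ => (1:ℝ))) :=
      (integrable_indicator_iff hΩ).2 (integrableOn_const hΩf)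
    exact h1.mono' hf.aestronglyMeasurable (Eventually.of_forall hfΩ)
  have hcube : ∀ S : Set V, MeasurableSet S → ∀ k : ℕ, k ≠ 0 →
      ∫⁻ x, ‖S.indicator f x‖ₑ ^ k ≤ volume (Ω ∩ S) := by
    intro S hS k hk
    rw [← lintegral_indicator_one (hΩ.inter hS)]
    refine lintegral_mono fun x => ?_
    by_cases hx : x ∈ S
    · rw [Set.indicator_of_mem hx]
      by_cases hx2 : x ∈ Ω
      · rw [Set.indicator_of_mem (Set.mem_inter hx2 hx), Pi.one_apply]
        have h1 : ‖f x‖ₑ ≤ 1 := by
          rw [← ofReal_norm, ← ENNReal.ofReal_one]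
          exact ENNReal.ofReal_le_ofReal (hf1 x)
        exact pow_le_one₀ zero_le h1
      · have h1 := hfΩ x
        rw [Set.indicator_of_notMem hx2] at h1
        have h2 : f x = 0 := norm_le_zero_iff.1 h1
        simp [h2, hk]
    · rw [Set.indicator_of_notMem hx]
      simp [hk]
  -- tail
  have htail2 : ∀ g : V → ℂ, Measurable g → ∫⁻ x, ‖cv K2 g x‖ₑ ^ 3 ≤
      Ct ^ 3 * ∫⁻ x, ‖g x‖ₑ ^ 3 := by
    intro g hg
    refine (lint_cv_cube hK2m hg).trans ?_
    gcongr
  -- one ball
  have hball : ∀ b : V, ∫⁻ x in Metric.closedBall b R', ‖cv K1 f x‖ₑ ^ 3 ≤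
      4 * (Cl + Ct ^ 3) * volume (Ω ∩ Metric.closedBall b (2 * R')) := by
    intro b
    set B := Metric.closedBall b (2 * R') with hB
    have hBm : MeasurableSet B := Metric.isClosed_closedBall.measurableSet
    set fb := B.indicator f with hfb
    have hfbm : Measurable fb := hf.indicator hBm
    have hfbi : Integrable fb := hfi.indicator hBm
    have hpt : ∀ x ∈ Metric.closedBall b R', cv K1 f x = cv K fb x + cv (fun v => -K2 v) fb x := by
      intro x hx
      have e1 : cv K1 f x = cv K1 fb x := by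
        unfold cv
        refine integral_congr_ae (Eventually.of_forall fun y => ?_)
        simp only
        by_cases hy : y ∈ B
        · rw [hfb, Set.indicator_of_mem hy]
        · rw [hfb, Set.indicator_of_notMem hy]
          have : K1 (x - y) = 0 := by
            rw [hK1]
            apply Set.indicator_of_notMem
            simp only [Set.mem_compl_iff, not_not]
            show R' < ‖x - y‖
            rw [← dist_eq_norm]
            simp only [hB, Metric.mem_closedBall, not_le] at hy hx
            have := dist_triangle y x b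
            rw [dist_comm y x] at this
            linarith
          rw [this]; ring
      rw [e1, ← cv_add (K := K) (K' := fun v => -K2 v) x (int_cv hK hM hfbi x)
        (int_cv (K := fun v => -K2 v) hK2m.neg (fun v => by simpa using hM2 v) hfbi x)]
      congr 1
      ext v
      have hv : K v = K1 v + K2 v := congrFun hKs v
      rw [hv]; ring
    have hneg : ∀ x, ‖cv (fun v => -K2 v) fb x‖ₑ = ‖cv K2 fb x‖ₑ := by
      intro x
      have : cv (fun v => -K2 v) fb x = -cv K2 fb x := by
        unfold cv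
        rw [← integral_neg]
        refine integral_congr_ae (Eventually.of_forall fun y => ?_)
        simp only
        ring
      rw [this, enorm_neg]
    have hm1 : Measurable fun x => ‖cv K fb x‖ₑ ^ 3 := (measurable_cv hK hfbm).enorm.pow_const 3
    have hloc' : ∫⁻ x in Metric.closedBall b R', ‖cv K fb x‖ₑ ^ 3 ≤
        Cl * volume (Ω ∩ B) := by
      have e2 : ∫⁻ x in Metric.closedBall b R', ‖cv K fb x‖ₑ ^ 3 =
          ∫⁻ x in Metric.closedBall (0 : V) R', ‖cv K (fun y => fb (y + b)) x‖ₑ ^ 3 := by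
        rw [← lintegral_indicator Metric.isClosed_closedBall.measurableSet,
          ← lintegral_indicator Metric.isClosed_closedBall.measurableSet,
          ← lintegral_add_right_eq_self _ b]
        refine lintegral_congr fun x => ?_
        by_cases hx : ‖x‖ ≤ R'
        · rw [Set.indicator_of_mem (by simpa [dist_eq_norm] using hx : x + b ∈
              Metric.closedBall b R'), Set.indicator_of_mem (by simpa using hx : x ∈
              Metric.closedBall (0 : V) R'), cv_translate]
        · rw [Set.indicator_of_notMem (by simpa [dist_eq_norm] using hx : x + b ∉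
              Metric.closedBall b R'), Set.indicator_of_notMem (by simpa using hx : x ∉
              Metric.closedBall (0 : V) R')]
      rw [e2]
      refine (hloc (fun y => fb (y + b)) (hfbm.comp (measurable_add_const b)) (fun v => ?_)
        (fun v hv => ?_)).trans ?_
      · exact (norm_indicator_le_norm_self _ _).trans (hf1 _)
      · rw [hfb]
        apply Set.indicator_of_notMem
        simp only [hB, Metric.mem_closedBall, not_le, dist_eq_norm, add_sub_cancel_right]
        exact hv
      · rw [lintegral_add_right_eq_self (fun v => ‖fb v‖ₑ ^ 2) b]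
        gcongr
        exact hcube B hBm 2 (by norm_num)
    calc ∫⁻ x in Metric.closedBall b R', ‖cv K1 f x‖ₑ ^ 3
        ≤ ∫⁻ x in Metric.closedBall b R', 4 * (‖cv K fb x‖ₑ ^ 3 + ‖cv K2 fb x‖ₑ ^ 3) := by
          refine setLIntegral_mono' Metric.isClosed_closedBall.measurableSet fun x hx => ?_
          rw [hpt x hx, ← hneg x]
          exact enorm_add_cube _ _
      _ = 4 * ((∫⁻ x in Metric.closedBall b R', ‖cv K fb x‖ₑ ^ 3) +
            ∫⁻ x in Metric.closedBall b R', ‖cv K2 fb x‖ₑ ^ 3) := by
          rw [← lintegral_add_left hm1]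
          exact lintegral_const_mul' _ _ (by norm_num)
      _ ≤ 4 * (Cl * volume (Ω ∩ B) + Ct ^ 3 * volume (Ω ∩ B)) := by
          gcongr
          refine (setLIntegral_le_lintegral _ _).trans ((htail2 fb hfbm).trans ?_)
          gcongr
          exact hcube B hBm 3 (by norm_num)
      _ = _ := by ring
  -- averaging
  have hv0 : volume (Metric.closedBall (0 : V) R') ≠ 0 := by
    have : 0 < volume (Metric.closedBall (0 : V) R') :=
      Metric.measure_closedBall_pos volume 0 hR'
    exact this.ne'
  have hvt : volume (Metric.closedBall (0 : V) R') ≠ ⊤ := measure_closedBall_lt_top.ne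
  have hK1b : ∫⁻ x, ‖cv K1 f x‖ₑ ^ 3 ≤ 32 * (Cl + Ct ^ 3) * volume Ω := by
    have h1 := lint_balls R' (u := fun x => ‖cv K1 f x‖ₑ ^ 3)
      ((measurable_cv hK1m hf).enorm.pow_const 3)
    have h2 : ∫⁻ b : V, volume (Ω ∩ Metric.closedBall b (2 * R')) =
        8 * volume (Metric.closedBall (0 : V) R') * volume Ω := by
      have h3 := lint_balls (2 * R') (u := Ω.indicator 1) (measurable_one.indicator hΩ)
      rw [lintegral_indicator_one hΩ, vol_double hR'] at h3
      rw [← h3]
      refine lintegral_congr fun b => ?_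
      rw [lintegral_indicator_one₀ hΩ.nullMeasurableSet, Measure.restrict_apply hΩ]
    have h4 : volume (Metric.closedBall (0 : V) R') * ∫⁻ x, ‖cv K1 f x‖ₑ ^ 3 ≤
        volume (Metric.closedBall (0 : V) R') * (32 * (Cl + Ct ^ 3) * volume Ω) := by
      rw [← h1]
      calc ∫⁻ b : V, ∫⁻ x in Metric.closedBall b R', ‖cv K1 f x‖ₑ ^ 3
          ≤ ∫⁻ b : V, 4 * (Cl + Ct ^ 3) * volume (Ω ∩ Metric.closedBall b (2 * R')) :=
            lintegral_mono hball
        _ ≤ 4 * (Cl + Ct ^ 3) * ∫⁻ b : V, volume (Ω ∩ Metric.closedBall b (2 * R')) := by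
            rw [lintegral_const_mul'']
            have h5 : (fun b : V => volume (Ω ∩ Metric.closedBall b (2 * R'))) =
                fun b => ∫⁻ x, {p : V × V | dist p.2 p.1 ≤ 2 * R'}.indicator
                  (fun p => Ω.indicator (1 : V → ℝ≥0∞) p.2) (b, x) := by
              ext b
              rw [← lintegral_indicator_one
                (hΩ.inter Metric.isClosed_closedBall.measurableSet)]
              refine lintegral_congr fun x => ?_
              by_cases hx : dist x b ≤ 2 * R'
              · rw [Set.indicator_of_mem (show (b, x) ∈ {p : V × V | dist p.2 p.1 ≤ 2 * R'} from hx)]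
                by_cases hx2 : x ∈ Ω
                · have hx3 : x ∈ Ω ∩ Metric.closedBall b (2 * R') :=
                    Set.mem_inter hx2 (Metric.mem_closedBall.2 hx)
                  rw [Set.indicator_of_mem hx3, Set.indicator_of_mem hx2]
                · rw [Set.indicator_of_notMem (fun h => hx2 h.1), Set.indicator_of_notMem hx2]
              · rw [Set.indicator_of_notMem
                  (show (b, x) ∉ {p : V × V | dist p.2 p.1 ≤ 2 * R'} from hx),
                  Set.indicator_of_notMem (fun h => hx h.2)]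
            rw [h5]
            apply Measurable.aemeasurable
            have hS : MeasurableSet {p : V × V | dist p.2 p.1 ≤ 2 * R'} :=
              measurableSet_le (by fun_prop) measurable_const
            exact Measurable.lintegral_prod_right' (f := fun q : V × V =>
              {p : V × V | dist p.2 p.1 ≤ 2 * R'}.indicator
                  (fun p => Ω.indicator (1 : V → ℝ≥0∞) p.2) q)
              (((measurable_one.indicator hΩ).comp measurable_snd).indicator hS)
        _ = _ := by rw [h2]; ring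
    exact (ENNReal.mul_le_mul_iff_right hv0 hvt).1 h4
  calc ∫⁻ x, ‖cv K f x‖ₑ ^ 3 ≤ ∫⁻ x, 4 * (‖cv K1 f x‖ₑ ^ 3 + ‖cv K2 f x‖ₑ ^ 3) := by
        refine lintegral_mono fun x => ?_
        have : cv K f x = cv K1 f x + cv K2 f x := by
          rw [← cv_add x (int_cv hK1m hM1 hfi x) (int_cv hK2m hM2 hfi x), ← hKs]
        simp only
        rw [this]
        exact enorm_add_cube _ _
    _ = 4 * ((∫⁻ x, ‖cv K1 f x‖ₑ ^ 3) + ∫⁻ x, ‖cv K2 f x‖ₑ ^ 3) := by
        rw [← lintegral_add_left ((measurable_cv hK1m hf).enorm.pow_const 3)]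
        exact lintegral_const_mul' _ _ (by norm_num)
    _ ≤ 4 * (32 * (Cl + Ct ^ 3) * volume Ω + Ct ^ 3 * volume Ω) := by
        gcongr
        refine (htail2 f hf).trans ?_
        gcongr
        have := hcube Set.univ MeasurableSet.univ 3 (by norm_num)
        simpa using this
    _ = _ := by ring

theorem GlobSec_of_LocSec (h : LocSec) : GlobSec := by
  obtain ⟨ρ, hρ, hρ1, H⟩ := h
  refine ⟨ρ, hρ, hρ1, ?_⟩
  intro J a hac has φ hφ hφs ε hε
  have ha : Sec J ρ a := ⟨hac, has⟩
  set δ : ℝ := min (ε / 6) 1 with hδ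
  have hδ0 : 0 < δ := by positivity
  have hδ1 : δ ≤ 1 := min_le_right _ _
  have h6 : 6 * δ ≤ ε := by
    have : δ ≤ ε / 6 := min_le_left _ _
    linarith
  obtain ⟨Cl, hCl, hloc⟩ := H J a hac has φ hφ hφs δ hδ0 hδ1
  obtain ⟨Ct, hCt, htail⟩ := kernel_tail hρ1 ha hφ hφs hδ0 hδ1
  refine ⟨128 * (Cl + Ct ^ 3) + 4 * Ct ^ 3, by positivity, ?_⟩
  intro R hR Ω hΩ hΩf f hf hfΩ
  have hR0 : 0 < R := by linarith
  set G : V → ℂ := fun v => a v * mR φ R v with hG
  have hGc : Continuous G := hac.continuous.mul (mR_continuous hφ.continuous R)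
  have hGs : HasCompactSupport G := by
    apply HasCompactSupport.of_support_subset_isCompact (isCompact_closedBall (0 : V) 2)
    intro v hv
    simpa using sec_norm_le hρ1 ha (left_ne_zero_of_mul hv)
  have hGi : Integrable G := hGc.integrable_of_hasCompactSupport hGs
  have hKc : Continuous (𝓕⁻ G) := continuous_fourierInv hGi
  have hKM : ∀ v, ‖𝓕⁻ G v‖ ≤ ∫ ξ, ‖G ξ‖ := by
    intro v
    rw [fourierInv_eq_ee]
    refine (norm_integral_le_integral_norm _).trans (le_of_eq ?_)
    refine integral_congr_ae (Eventually.of_forall fun ξ => ?_)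
    simp [norm_ee]
  have key := glob_of_loc hKc.measurable hKM (R' := R ^ (1 + δ)) (by positivity) (htail R hR)
    (Cl := ENNReal.ofReal (Cl * R ^ (6 * δ))) (fun f hf h1 h0 => hloc R hR f hf h1 h0) hΩ hΩf hf hfΩ
  refine key.trans ?_
  gcongr
  rw [← ENNReal.ofReal_pow hCt, ← ENNReal.ofReal_add (by positivity) (by positivity),
    show (128 : ℝ≥0∞) = ENNReal.ofReal 128 by simp, show (4 : ℝ≥0∞) = ENNReal.ofReal 4 by simp,
    ← ENNReal.ofReal_mul (by norm_num), ← ENNReal.ofReal_mul (by norm_num),
    ← ENNReal.ofReal_add (by positivity) (by positivity)]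
  apply ENNReal.ofReal_le_ofReal
  have h1 : R ^ (6 * δ) ≤ R ^ ε := Real.rpow_le_rpow_of_exponent_le hR h6
  have h2 : 1 ≤ R ^ ε := Real.one_le_rpow hR hε.le
  have h3 : Ct ^ 3 ≤ Ct ^ 3 * R ^ ε := le_mul_of_one_le_right (by positivity) h2
  calc 128 * (Cl * R ^ (6 * δ) + Ct ^ 3) + 4 * Ct ^ 3
      ≤ 128 * (Cl * R ^ ε + Ct ^ 3 * R ^ ε) + 4 * (Ct ^ 3 * R ^ ε) := by gcongr
    _ = _ := by ring

end Crest.Agent.R138.Fq665
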