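import Crest.Agent.R138.Wpk11_685
import Crest.Agent.R138.DecC_685

/-!
# R138 / R139: selectable wave packets, part 12 (helper685): measurable greedy selection over pairs
(plank, class), densities for arbitrary selections.
-/

set_option autoImplicit false
set_option linter.unusedSectionVars false
set_option linter.unusedVariables false

open MeasureTheory FourierTransform
open scoped ContDiff ENNReal

namespace Crest.Agent.R138.Wpk685

open Crest.Agent.R138.Defs Crest.Agent.R138.W188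

/-! ### phase space -/

/-- phase space. -/
abbrev Ph : Type := (ℤ × ℤ) × E2

/-- slices. -/
def sli (U : Set Ph) (m : ℤ × ℤ) : Set E2 := {y | (m, y) ∈ U}

theorem mem_sli {U : Set Ph} {m : ℤ × ℤ} {y : E2} : y ∈ sli U m ↔ (m, y) ∈ U := Iff.rfl

theorem sli_meas {U : Set Ph} (hU : MeasurableSet U) (m : ℤ × ℤ) : MeasurableSet (sli U m) :=
  measurable_prodMk_left hU

theorem meas_of_sli {U : Set Ph} (h : ∀ m, MeasurableSet (sli U m)) : MeasurableSet U := by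
  have h1 : U = ⋃ m : ℤ × ℤ, ({m} : Set (ℤ × ℤ)) ×ˢ sli U m := by
    ext ⟨m, y⟩
    simp only [Set.mem_iUnion, Set.mem_prod, Set.mem_singleton_iff, exists_eq_left', mem_sli]
  rw [h1]
  exact MeasurableSet.iUnion fun m => (measurableSet_singleton m).prod (h m)

/-- energy measure on phase space. -/
noncomputable def mu (ρ : ℝ) (g : E2 → ℂ) : Measure Ph :=
  ∑ m ∈ caps ρ, (volume.withDensity (fun y : E2 => ‖um ρ g m y‖ₑ ^ 2)).map (fun y => (m, y))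

theorem mu_apply (ρ : ℝ) (g : E2 → ℂ) {U : Set Ph} (hU : MeasurableSet U) :
    mu ρ g U = en ρ g (sli U) := by
  unfold mu en
  rw [Measure.finsetSum_apply]
  refine Finset.sum_congr rfl fun m _ => ?_
  rw [Measure.map_apply measurable_prodMk_left hU]
  exact withDensity_apply _ (sli_meas hU m)

/-! ### greedy -/

theorem extractM {α π : Type*} [MeasurableSpace α] (μ : Measure α) (T : π → Set α)
    (hT : ∀ p, MeasurableSet (T p)) (cost : π → ℝ≥0∞) (c0 : ℝ≥0∞) (hc : c0 ≠ ⊤)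
    (hcost : ∀ p, c0 ≤ cost p) (N : ℕ) : ∀ X : Set α, MeasurableSet X → μ X ≤ N * c0 →
    ∃ (n : ℕ) (P : ℕ → Option π) (A : ℕ → Set α),
      (∀ i < n, MeasurableSet (A i) ∧ A i ⊆ X ∧ ∃ p, P i = some p ∧ A i ⊆ T p ∧
        cost p < μ (A i)) ∧
      (∀ i < n, ∀ j < n, i ≠ j → Disjoint (A i) (A j)) ∧
      ∀ p, μ (X ∩ T p ∩ {x | ∀ i < n, x ∉ A i}) ≤ cost p := by
  induction N with
  | zero =>
    intro X hX h0
    refine ⟨0, fun _ => none, fun _ => ∅, by simp, by simp, fun p => ?_⟩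
    refine (measure_mono (fun x hx => hx.1.1)).trans (h0.trans ?_)
    simp
  | succ N ih =>
    intro X hX h0
    by_cases h : ∀ p, μ (X ∩ T p) ≤ cost p
    · refine ⟨0, fun _ => none, fun _ => ∅, by simp, by simp, fun p => ?_⟩
      exact (measure_mono (fun x hx => hx.1)).trans (h p)
    · push Not at h
      obtain ⟨p, hp⟩ := h
      have hA0 : MeasurableSet (X ∩ T p) := hX.inter (hT p)
      have hX' : MeasurableSet (X \ T p) := hX.diff (hT p)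
      have h1 : μ (X \ T p) ≤ N * c0 := by
        have h2 : μ (X ∩ T p) + μ (X \ T p) = μ X := measure_inter_add_sdiff X (hT p)
        have h3 : c0 + μ (X \ T p) ≤ c0 + N * c0 := by
          calc c0 + μ (X \ T p) ≤ μ (X ∩ T p) + μ (X \ T p) := by
                gcongr
                exact (hcost p).trans hp.le
            _ = μ X := h2
            _ ≤ _ := h0
            _ = c0 + N * c0 := by push_cast; ring
        exact (ENNReal.add_le_add_iff_left hc).1 h3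
      obtain ⟨n, P, A, h2, h3, h4⟩ := ih _ hX' h1
      refine ⟨n + 1, fun i => if i = 0 then some p else P (i - 1),
        fun i => if i = 0 then X ∩ T p else A (i - 1), ?_, ?_, ?_⟩
      · intro i hi
        rcases Nat.eq_zero_or_pos i with rfl | hpos
        · simp only [if_true]
          exact ⟨hA0, Set.inter_subset_left, p, rfl, Set.inter_subset_right, hp⟩
        · have hi0 : i ≠ 0 := by omega
          obtain ⟨h5, h6, h7⟩ := h2 (i - 1) (by omega)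
          simp only [if_neg hi0]
          exact ⟨h5, h6.trans Set.sdiff_subset, h7⟩
      · intro i hi j hj hij
        rcases Nat.eq_zero_or_pos i with rfl | hpos
        · have hj0 : j ≠ 0 := fun h => hij h.symm
          simp only [if_true, if_neg hj0]
          have h5 := (h2 (j - 1) (by omega)).2.1
          exact Set.disjoint_left.2 fun x hx hx' => (h5 hx').2 hx.2
        · have hi0 : i ≠ 0 := by omega
          rcases Nat.eq_zero_or_pos j with rfl | hpos'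
          · simp only [if_true, if_neg hi0]
            have h5 := (h2 (i - 1) (by omega)).2.1
            exact Set.disjoint_left.2 fun x hx hx' => (h5 hx).2 hx'.2
          · have hj0 : j ≠ 0 := by omega
            simp only [if_neg hi0, if_neg hj0]
            exact h3 (i - 1) (by omega) (j - 1) (by omega) (by omega)
      · intro p'
        refine le_trans (measure_mono ?_) (h4 p')
        rintro x ⟨⟨hxX, hxT⟩, hxn⟩
        have hx0 := hxn 0 (by omega)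
        simp only [if_true] at hx0
        refine ⟨⟨⟨hxX, fun hc => hx0 ⟨hxX, hc⟩⟩, hxT⟩, fun i hi => ?_⟩
        have := hxn (i + 1) (by omega)
        simpa using this

theorem levelsM {α π : Type*} [MeasurableSpace α] (μ : Measure α) (T : π → Set α)
    (hT : ∀ p, MeasurableSet (T p)) (cost : ℕ → π → ℝ≥0∞) (c0 : ℕ → ℝ≥0∞) (hc : ∀ j, c0 j ≠ ⊤)
    (hcost : ∀ j p, c0 j ≤ cost j p) (X0 : Set α) (hX0 : MeasurableSet X0) (N : ℕ → ℕ)
    (hN : ∀ j, μ X0 ≤ N j * c0 j) :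
    ∃ (X : ℕ → Set α) (n : ℕ → ℕ) (P : ℕ → ℕ → Option π) (A : ℕ → ℕ → Set α), X 0 = X0 ∧
      ∀ j, MeasurableSet (X j) ∧
        (∀ i < n j, MeasurableSet (A j i) ∧ A j i ⊆ X j ∧ ∃ p, P j i = some p ∧ A j i ⊆ T p ∧
          cost j p < μ (A j i)) ∧
        (∀ i < n j, ∀ i' < n j, i ≠ i' → Disjoint (A j i) (A j i')) ∧
        (∀ x, x ∈ X (j + 1) ↔ x ∈ X j ∧ ∀ i < n j, x ∉ A j i) ∧
        ∀ p, μ (X (j + 1) ∩ T p) ≤ cost j p := by
  classical
  have H := fun (j : ℕ) (X : {X : Set α // MeasurableSet X ∧ X ⊆ X0}) =>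
    extractM μ T hT (cost j) (c0 j) (hc j) (hcost j) (N j) X.1 X.2.1
      ((measure_mono X.2.2).trans (hN j))
  choose nn PP AA h1 h2 h3 using H
  have hstep : ∀ (j : ℕ) (X : {X : Set α // MeasurableSet X ∧ X ⊆ X0}),
      MeasurableSet (X.1 ∩ {x | ∀ i < nn j X, x ∉ AA j X i}) := by
    intro j X
    have h4 : {x | ∀ i < nn j X, x ∉ AA j X i} = ⋂ i ∈ Finset.range (nn j X), (AA j X i)ᶜ := by
      ext x
      simp only [Set.mem_ofPred_eq, Set.mem_iInter, Finset.mem_range, Set.mem_compl_iff]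
    rw [h4]
    exact X.2.1.inter (Finset.measurableSet_biInter _ fun i hi =>
      (h1 j X i (Finset.mem_range.1 hi)).1.compl)
  let Xs : ℕ → {X : Set α // MeasurableSet X ∧ X ⊆ X0} := fun j => Nat.rec
    ⟨X0, hX0, Set.Subset.refl _⟩
    (fun j Y => ⟨Y.1 ∩ {x | ∀ i < nn j Y, x ∉ AA j Y i}, hstep j Y, fun x hx => Y.2.2 hx.1⟩) j
  have hXs : ∀ j, (Xs (j + 1)).1 = (Xs j).1 ∩ {x | ∀ i < nn j (Xs j), x ∉ AA j (Xs j) i} :=
    fun j => rfl
  refine ⟨fun j => (Xs j).1, fun j => nn j (Xs j), fun j => PP j (Xs j), fun j => AA j (Xs j), rfl,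
    fun j => ⟨(Xs j).2.1, h1 j (Xs j), h2 j (Xs j), ?_, ?_⟩⟩
  · intro x
    simp only [hXs]
    rfl
  · intro p
    refine le_trans (le_of_eq ?_) (h3 j (Xs j) p)
    simp only [hXs]
    congr 1
    ext x
    simp only [Set.mem_inter_iff, Set.mem_ofPred_eq]
    tauto

/-! ### densities -/

/-- discrete density bound for arbitrary selections. -/
def DE (q : ℝ) (h : E2 → ℝ) (r : ℝ) (g : E2 → ℂ) (n : ℕ) (S : ℤ × ℤ → Set E2) (Δ : ℝ) : Prop :=
  ∀ p : Tst, p.a 0 ≤ p.a 1 → p.a 1 ≤ n →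
    en (r ^ (-(1/2) : ℝ)) g (fun m => S m ∩ pbox h r p.c p.b
      (fun i => sg (r ^ (-(1/2) : ℝ)) (p.a i)) p.y m) ≤
      ENNReal.ofReal (Δ * cst q (r ^ (-(1/2) : ℝ)) r p.a)

theorem DE.mono {q : ℝ} {h : E2 → ℝ} {r : ℝ} {g : E2 → ℂ} {n : ℕ} {S S' : ℤ × ℤ → Set E2} {Δ : ℝ}
    (H : DE q h r g n S Δ) (hS : ∀ m ∈ caps (r ^ (-(1/2) : ℝ)), S' m ⊆ S m) :
    DE q h r g n S' Δ :=
  fun p h1 h2 => (en_mono fun m hm => Set.inter_subset_inter_left _ (hS m hm)).trans (H p h1 h2)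

theorem dens_coreM {q : ℝ} (hq : 0 ≤ q) {h : E2 → ℝ} {r : ℝ} (hr : 1 ≤ r) {g : E2 → ℂ} {n : ℕ}
    (hn : 1 ≤ 2 ^ n * r ^ (-(1/2) : ℝ)) {S : ℤ × ℤ → Set E2} {Δ : ℝ} (hΔ : 0 ≤ Δ)
    (H : DE q h r g n S Δ)
    (c : E2) (b : OrthonormalBasis (Fin 2) ℝ E2) (s : Fin 2 → ℝ) (y0 : E2)
    (hs : ∀ i, r ^ (-(1/2) : ℝ) ≤ s i ∧ s i ≤ 1) (hs01 : s 0 ≤ s 1) :
    en (r ^ (-(1/2) : ℝ)) g (fun m => S m ∩ pbox h r c b s y0 m) ≤
      ENNReal.ofReal ((2 ^ (q + 2) * Δ) * (max (s 0) (s 1)) ^ q * (s 0 * s 1 * r ^ 2)) := by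
  obtain ⟨hρ, hρ1, hρ2⟩ := rp_facts hr
  have hr0 : 0 < r := by linarith
  obtain ⟨a0, ha0n, ha01, ha02, ha03⟩ := exists_side hρ hn (hs 0).1 (hs 0).2
  obtain ⟨a1, ha1n, ha11, ha12, ha13⟩ := exists_side hρ hn (hs 1).1 (hs 1).2
  have ha : a0 ≤ a1 := ha03 a1 (hs01.trans ha11)
  have hs0 : 0 < s 0 := hρ.trans_le (hs 0).1
  have hs1 : 0 < s 1 := hρ.trans_le (hs 1).1
  set a : Fin 2 → ℕ := ![a0, a1] with hadef
  have hsa : ∀ i, s i ≤ sg (r ^ (-(1/2) : ℝ)) (a i) := by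
    intro i; fin_cases i
    · exact ha01
    · exact ha11
  have h1 := H ⟨c, b, y0, a⟩ ha ha1n
  refine ((en_mono fun m _ => ?_).trans h1).trans (ENNReal.ofReal_le_ofReal ?_)
  · refine Set.inter_subset_inter_right _ fun y hy => ?_
    exact ⟨fun i => (hy.1 i).trans (hsa i), fun i => (hy.2 i).trans (by
      have := hsa i
      gcongr)⟩
  · rw [max_eq_right hs01]
    unfold cst
    simp only
    have e0 : sg (r ^ (-(1/2) : ℝ)) (a 0) ≤ 2 * s 0 := ha02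
    have e1 : sg (r ^ (-(1/2) : ℝ)) (a 1) ≤ 2 * s 1 := ha12
    have hg0 : 0 < sg (r ^ (-(1/2) : ℝ)) (a 0) := hρ.trans_le (sg_ge hρ hρ1 _)
    have hg1 : 0 < sg (r ^ (-(1/2) : ℝ)) (a 1) := hρ.trans_le (sg_ge hρ hρ1 _)
    have h14 : (sg (r ^ (-(1/2) : ℝ)) (a 1)) ^ q ≤ (2 * s 1) ^ q := by
      gcongr
    have h15 : sg (r ^ (-(1/2) : ℝ)) (a 0) * sg (r ^ (-(1/2) : ℝ)) (a 1) * r ^ 2 ≤
        (2 * s 0) * (2 * s 1) * r ^ 2 := by
      gcongr
    have h16 : (2 * s 1) ^ q = 2 ^ q * s 1 ^ q := Real.mul_rpow (by norm_num) hs1.le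
    have h17 : (2:ℝ) ^ (q + 2) = 2 ^ q * 4 := by
      rw [Real.rpow_add (by norm_num)]; norm_num
    have hsq : 0 ≤ s 1 ^ q := by positivity
    calc Δ * ((sg (r ^ (-(1/2) : ℝ)) (a 1)) ^ q *
          (sg (r ^ (-(1/2) : ℝ)) (a 0) * sg (r ^ (-(1/2) : ℝ)) (a 1) * r ^ 2)) ≤
        Δ * ((2 * s 1) ^ q * ((2 * s 0) * (2 * s 1) * r ^ 2)) := by
          gcongr
      _ = _ := by
          rw [h16, h17]; ring

theorem dens_of_de {q : ℝ} (hq : 0 ≤ q) {h : E2 → ℝ} {r : ℝ} (hr : 1 ≤ r) {g : E2 → ℂ} {n : ℕ}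
    (hn : 1 ≤ 2 ^ n * r ^ (-(1/2) : ℝ)) {S : ℤ × ℤ → Set E2} {Δ : ℝ} (hΔ : 0 ≤ Δ)
    (H : DE q h r g n S Δ) : Dens q h r g S (2 ^ (q + 2) * Δ) := by
  intro c b s y0 hs
  rcases le_total (s 0) (s 1) with h01 | h01
  · exact dens_coreM hq hr hn hΔ H c b s y0 hs h01
  · have h1 := dens_coreM hq hr hn hΔ H c (b.reindex (Equiv.swap 0 1))
      (fun i => s (Equiv.swap 0 1 i)) y0 (fun i => hs _) (by simpa using h01)
    have h2 : ∀ m, pbox h r c (b.reindex (Equiv.swap 0 1)) (fun i => s (Equiv.swap 0 1 i)) y0 m =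
        pbox h r c b s y0 m := by
      intro m
      ext y
      simp only [pbox, Set.mem_ofPred_eq, Fin.forall_fin_two, OrthonormalBasis.reindex_apply,
        Equiv.symm_swap, Equiv.swap_apply_left, Equiv.swap_apply_right]
      tauto
    simp only [h2, Equiv.swap_apply_left, Equiv.swap_apply_right] at h1
    rw [max_comm, mul_comm (s 1) (s 0)] at h1
    exact h1

theorem en_cover {ρ : ℝ} {g : E2 → ℂ} {κ : Type*} (J : Finset κ) (S : ℤ × ℤ → Set E2)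
    (T : κ → ℤ × ℤ → Set E2) (h : ∀ m ∈ caps ρ, ∀ y ∈ S m, ∃ j ∈ J, y ∈ T j m) :
    en ρ g S ≤ ∑ j ∈ J, en ρ g (fun m => S m ∩ T j m) := by
  unfold en
  rw [Finset.sum_comm]
  refine Finset.sum_le_sum fun m hm => ?_
  have h1 : S m ⊆ ⋃ j ∈ J, (S m ∩ T j m) := by
    intro y hy
    obtain ⟨j, hj, hy2⟩ := h m hm y hy
    exact Set.mem_biUnion hj ⟨hy, hy2⟩
  refine (lintegral_mono_set h1).trans ?_
  have h2 : ∀ s : Finset κ, ∫⁻ y in ⋃ j ∈ s, (S m ∩ T j m), ‖um ρ g m y‖ₑ ^ 2 ≤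
      ∑ j ∈ s, ∫⁻ y in S m ∩ T j m, ‖um ρ g m y‖ₑ ^ 2 := by
    classical
    intro s
    induction s using Finset.induction_on with
    | empty => simp
    | insert a s ha ih =>
      rw [Finset.sum_insert ha, Finset.set_biUnion_insert]
      exact (lintegral_union_le _ _ _).trans (by gcongr)
  exact h2 J

theorem caps_norm {ρ : ℝ} (hρ : 0 < ρ) (hρ1 : ρ ≤ 1) : ∀ m ∈ caps ρ, ‖cen ρ m‖ ≤ 6 := by
  intro m hm
  have h2 : ∀ z : ℤ, z ∈ Finset.Icc (-⌈2 / ρ⌉ - 1) (⌈2 / ρ⌉ + 1) → |ρ * z| ≤ 4 := by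
    intro z hz
    obtain ⟨hz1, hz2⟩ := Finset.mem_Icc.1 hz
    have h3 : (⌈2 / ρ⌉ : ℝ) < 2 / ρ + 1 := Int.ceil_lt_add_one _
    have h4 : (z : ℝ) ≤ ⌈2 / ρ⌉ + 1 := by exact_mod_cast hz2
    have h5 : (-⌈2 / ρ⌉ - 1 : ℝ) ≤ z := by exact_mod_cast hz1
    have h6 : ρ * (2 / ρ) = 2 := by field_simp
    rw [abs_le]
    constructor <;> nlinarith
  have hm' := Finset.mem_product.1 hm
  have h3 := h2 _ hm'.1
  have h4 := h2 _ hm'.2
  refine le_of_sq_le_sq ?_ (by norm_num)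
  rw [EuclideanSpace.norm_sq_eq, Fin.sum_univ_two, cen_zero, cen_one]
  simp only [Real.norm_eq_abs]
  have a0 := abs_nonneg (ρ * (m.1 : ℝ))
  have a1 := abs_nonneg (ρ * (m.2 : ℝ))
  nlinarith

/-- total energy bound from the discrete density. -/
theorem tot_leM (B : ℕ → ℝ) {q : ℝ} {h : E2 → ℝ} (hh : ParB B h) (h1 : fderiv ℝ h 0 = 0) {r : ℝ}
    (hr : 1 ≤ r) {g : E2 → ℂ} {n : ℕ} (hn : 1 ≤ 2 ^ n * r ^ (-(1/2) : ℝ))
    {S : ℤ × ℤ → Set E2} {K : ℝ} (hK : 1 ≤ K)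
    (hS : ∀ m ∈ caps (r ^ (-(1/2) : ℝ)), ∀ y ∈ S m, ‖y‖ ≤ K * r)
    {Δ : ℝ} (hΔ : 0 ≤ Δ) (H : DE q h r g n S Δ) :
    en (r ^ (-(1/2) : ℝ)) g S ≤ ENNReal.ofReal (NB (B 2) K * (Δ * r ^ 2)) := by
  classical
  obtain ⟨hρ, hρ1, hρ2⟩ := rp_facts hr
  have hr0 : 0 < r := by linarith
  set V : ℝ := 6 * (1 + |B 2|) with hV
  have hB2 : 0 ≤ |B 2| := abs_nonneg _
  have hV1 : 1 ≤ V := by rw [hV]; linarith
  set J : Finset ((ℤ × ℤ) × (ℤ × ℤ)) := (Finset.Icc (-⌈V⌉) ⌈V⌉ ×ˢ Finset.Icc (-⌈V⌉) ⌈V⌉) ×ˢ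
        (Finset.Icc (-⌈K⌉) ⌈K⌉ ×ˢ Finset.Icc (-⌈K⌉) ⌈K⌉) with hJ
  have hJc : ((NB (B 2) K : ℕ) : ℝ≥0∞) = (J.card : ℝ≥0∞) := rfl
  set b : OrthonormalBasis (Fin 2) ℝ E2 := EuclideanSpace.basisFun (Fin 2) ℝ with hb
  have hsn : sg (r ^ (-(1/2) : ℝ)) n = 1 := by unfold sg; rw [min_eq_right hn]
  set tp : (ℤ × ℤ) × (ℤ × ℤ) → Tst := fun j => ⟨sh b ![2 * j.1.1 * 1, 2 * j.1.2 * 1], b,
    sh b ![2 * j.2.1 * r, 2 * j.2.2 * r], ![n, n]⟩ with htp
  have hsn' : ∀ (j : (ℤ × ℤ) × (ℤ × ℤ)) (i : Fin 2),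
      sg (r ^ (-(1/2) : ℝ)) ((tp j).a i) = 1 := by
    intro j i
    rw [htp]; fin_cases i <;> exact hsn
  have step : en (r ^ (-(1/2) : ℝ)) g S ≤ ∑ j ∈ J, en (r ^ (-(1/2) : ℝ)) g
      (fun m => S m ∩ pbox h r (tp j).c (tp j).b (fun i => sg (r ^ (-(1/2) : ℝ)) ((tp j).a i))
        (tp j).y m) := by
    refine en_cover J S _ fun m hm y hy => ?_
    have h5 : ∀ i, |inner ℝ (gradient h (cen (r ^ (-(1/2) : ℝ)) m)) (b i)| ≤
        V * (fun _ : Fin 2 => (1:ℝ)) i := by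
      intro i
      refine (abs_real_inner_le_norm _ _).trans ?_
      rw [b.norm_eq_one, mul_one]
      refine (grad_le hh h1 _).trans ?_
      have := caps_norm hρ hρ1 m hm
      simp only [mul_one]
      rw [hV]
      nlinarith
    obtain ⟨j1, hj1, hj1'⟩ := near_shift hV1 b (s := fun _ => (1:ℝ)) (fun _ => one_pos) _ h5
    have h6 : ∀ i, |inner ℝ y (b i)| ≤ K * (fun _ : Fin 2 => r) i := by
      intro i
      refine (abs_real_inner_le_norm _ _).trans ?_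
      rw [b.norm_eq_one, mul_one]
      exact hS m hm y hy
    obtain ⟨j2, hj2, hj2'⟩ := near_shift hK b (s := fun _ => r) (fun _ => hr0) _ h6
    refine ⟨(j1, j2), Finset.mem_product.2 ⟨hj1, hj2⟩, fun i => ?_, fun i => ?_⟩
    · simp only [hsn']
      exact hj1' i
    · simp only [hsn', one_mul]
      exact hj2' i
  refine step.trans ?_
  have step3 : ∑ j ∈ J, en (r ^ (-(1/2) : ℝ)) g
      (fun m => S m ∩ pbox h r (tp j).c (tp j).b (fun i => sg (r ^ (-(1/2) : ℝ)) ((tp j).a i))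
        (tp j).y m) ≤ ∑ j ∈ J, ENNReal.ofReal (Δ * r ^ 2) := by
    refine Finset.sum_le_sum fun j _ => (H (tp j) le_rfl le_rfl).trans ?_
    refine ENNReal.ofReal_le_ofReal (le_of_eq ?_)
    have e0 : (tp j).a 0 = n := rfl
    have e1 : (tp j).a 1 = n := rfl
    unfold cst
    rw [e0, e1, hsn]
    simp
  refine step3.trans ?_
  rw [Finset.sum_const, nsmul_eq_mul, ← hJc, ← ENNReal.ofReal_natCast,
    ← ENNReal.ofReal_mul (by positivity)]

/-! ### additivity -/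

theorem en_biUnion {ρ : ℝ} {g : E2 → ℂ} {κ : Type*} (s : Finset κ) (S : κ → ℤ × ℤ → Set E2)
    (hm : ∀ i ∈ s, ∀ m ∈ caps ρ, MeasurableSet (S i m))
    (hd : ∀ i ∈ s, ∀ j ∈ s, i ≠ j → ∀ m ∈ caps ρ, Disjoint (S i m) (S j m)) :
    en ρ g (fun m => ⋃ i ∈ s, S i m) = ∑ i ∈ s, en ρ g (S i) := by
  unfold en
  rw [Finset.sum_comm]
  refine Finset.sum_congr rfl fun m hmc => ?_
  rw [lintegral_biUnion_finset]
  · intro i hi j hj hij
    exact hd i hi j hj hij m hmc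
  · exact fun i hi => hm i hi m hmc

theorem sel_sumM {ρ : ℝ} {g : E2 → ℂ} (hg : Integrable g) {κ : Type*}
    (s : Finset κ) (X : κ → ℤ × ℤ → Set E2) (Y : ℤ × ℤ → Set E2) (hX : ∀ i ∈ s, Bs ρ (X i))
    (hdis : ∀ i ∈ s, ∀ j ∈ s, i ≠ j → ∀ m ∈ caps ρ, Disjoint (X i m) (X j m))
    (hY : ∀ m ∈ caps ρ, ∀ y, y ∈ Y m ↔ ∃ i ∈ s, y ∈ X i m)
    (ξ : E2) : sel ρ g Y ξ = ∑ i ∈ s, sel ρ g (X i) ξ := by
  classical
  unfold sel
  rw [Finset.sum_comm]
  refine Finset.sum_congr rfl fun m hmc => ?_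
  unfold piece
  rw [← Finset.mul_sum]
  congr 1
  obtain ⟨M, _, hM⟩ := um_bdd (ρ := ρ) (g := g) m
  have hi : ∀ i ∈ s, Integrable ((X i m).indicator (um ρ g m)) := fun i hi =>
    (ind_int (um_cont hg m) hM ((hX i hi).meas m hmc) ((hX i hi).bdd m hmc)).1
  rw [← fourier_sum s _ hi]
  have hfun : (Y m).indicator (um ρ g m) =
      fun y => ∑ i ∈ s, (X i m).indicator (um ρ g m) y := by
    funext y
    by_cases hy : y ∈ Y m
    · obtain ⟨i, hi1, hi2⟩ := (hY m hmc y).1 hy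
      rw [Set.indicator_of_mem hy, Finset.sum_eq_single_of_mem i hi1]
      · rw [Set.indicator_of_mem hi2]
      · intro j hj hne
        rw [Set.indicator_of_notMem]
        intro hj2
        exact Set.disjoint_left.1 (hdis j hj i hi1 hne m hmc) hj2 hi2
    · rw [Set.indicator_of_notMem hy]
      symm
      refine Finset.sum_eq_zero fun i hi1 => ?_
      rw [Set.indicator_of_notMem]
      intro h2
      exact hy ((hY m hmc y).2 ⟨i, hi1, h2⟩)
  rw [hfun]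

end Crest.Agent.R138.Wpk685
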