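import Crest.Agent.R138.Fal4_658

/-!
R138 (helper658): planar Falconer, energy form at a real scale with an arbitrary bound `E` for
`(mass of boxes of radius r) * (mass of parameter intervals of radius r) / r^2`.
-/

set_option autoImplicit false
set_option linter.unusedVariables false

namespace Crest.Agent.R138.Fal658

open Real MeasureTheory Finset

noncomputable section

variable {ι κ : Type*}

/-- the mass of the centred box -/
def mB (I' : Finset ι) (w n c : ι → ℝ) (r : ℝ) (i : ι) : ℝ :=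
  ∑ j ∈ I' with |n j - n i| ≤ r ∧ |c j - c i| ≤ r, w j

/-- the mass of the centred interval -/
def mI (J : Finset κ) (v t : κ → ℝ) (r : ℝ) (z : κ) : ℝ :=
  ∑ z' ∈ J with |t z' - t z| ≤ r, v z'

theorem cell_close (k : ℕ) (x y : ℝ) (h : ⌊(2 : ℝ) ^ k * x⌋ = ⌊(2 : ℝ) ^ k * y⌋) : |x - y| ≤ (1 / 2) ^ k := by
  have h1 := Int.abs_sub_lt_one_of_floor_eq_floor h
  rw [← mul_sub, abs_mul, abs_of_pos (show (0 : ℝ) < 2 ^ k by positivity)] at h1
  rw [one_div, inv_pow, ← one_div, le_div_iff₀ (by positivity)]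
  linarith

/-- **Falconer, energy form with a sup bound.** -/
theorem falconer_sup (I' : Finset ι) (w n c : ι → ℝ) (J : Finset κ) (v t : κ → ℝ) (δ E : ℝ)
    (hδ : 0 < δ) (hδ1 : δ ≤ 1) (hE : 0 ≤ E)
    (hw : ∀ i ∈ I', 0 ≤ w i) (hv : ∀ z ∈ J, 0 ≤ v z) (hc : ∀ i ∈ I', |c i| ≤ 1) (ht : ∀ z ∈ J, |t z| ≤ 1)
    (hm : ∀ r, δ ≤ r → r ≤ 1 → ∀ i ∈ I', ∀ z ∈ J, mB I' w n c r i * mI J v t r z ≤ E * r ^ 2) :
    ∑ z ∈ J, v z * ∑ i ∈ I', ∑ j ∈ I' with |(n i - n j) + t z * (c i - c j)| ≤ δ, w i * w j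
      ≤ 4 * CF * δ * (1 + Real.log (1 / δ)) * (∑ i ∈ I', w i) * E := by
  classical
  have hCF := CF_pos
  have hW : 0 ≤ ∑ i ∈ I', w i := Finset.sum_nonneg hw
  have hlog : 0 ≤ Real.log (1 / δ) := Real.log_nonneg (by rw [le_div_iff₀ hδ]; linarith)
  have hR0 : 0 ≤ 4 * CF * δ * (1 + Real.log (1 / δ)) * (∑ i ∈ I', w i) * E := by positivity
  rcases I'.eq_empty_or_nonempty with rfl | hI
  · simpa using hR0
  rcases J.eq_empty_or_nonempty with rfl | hJ
  · simpa using hR0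
  obtain ⟨L, hL1, hL2⟩ : ∃ L : ℕ, (2 : ℝ) ^ L ≤ 1 / δ ∧ 1 / δ < (2 : ℝ) ^ (L + 1) :=
    exists_nat_pow_near (by rw [le_div_iff₀ hδ]; linarith) (by norm_num)
  have hk : ∀ k ≤ L, δ ≤ (1 / 2 : ℝ) ^ k := by
    intro k hk
    have h1 : (2 : ℝ) ^ k ≤ 1 / δ := (pow_le_pow_right₀ (by norm_num) hk).trans hL1
    rw [one_div, inv_pow, ← one_div, le_div_iff₀ (by positivity)]
    rw [le_div_iff₀ hδ] at h1
    linarith
  have hk1 : ∀ k : ℕ, (1 / 2 : ℝ) ^ k ≤ 1 := fun k => pow_le_one₀ (by norm_num) (by norm_num)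
  set f : ℕ → ℝ := fun k => I'.sup' hI (mB I' w n c ((1 / 2) ^ k)) with hf
  set g : ℕ → ℝ := fun k => J.sup' hJ (mI J v t ((1 / 2) ^ k)) with hg
  have hB0 : ∀ r, ∀ i, 0 ≤ mB I' w n c r i := fun r i =>
    Finset.sum_nonneg fun j hj => hw j (Finset.mem_filter.1 hj).1
  have hI0 : ∀ r, ∀ z, 0 ≤ mI J v t r z := fun r z =>
    Finset.sum_nonneg fun j hj => hv j (Finset.mem_filter.1 hj).1
  have hf0 : ∀ k, 0 ≤ f k := by
    intro k
    obtain ⟨i, hi⟩ := hI
    exact (hB0 _ i).trans (Finset.le_sup' (mB I' w n c ((1 / 2) ^ k)) hi)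
  have hg0 : ∀ k, 0 ≤ g k := by
    intro k
    obtain ⟨i, hi⟩ := hJ
    exact (hI0 _ i).trans (Finset.le_sup' (mI J v t ((1 / 2) ^ k)) hi)
  have h0 := falconer I' w n c J v t L f g hw hv hc ht
    (fun k hkL a b => by
      rcases (I'.filter fun i => ⌊(2 : ℝ) ^ k * n i⌋ = a ∧ ⌊(2 : ℝ) ^ k * c i⌋ = b).eq_empty_or_nonempty with h | ⟨i0, hi0⟩
      · rw [h, Finset.sum_empty]
        exact hf0 k
      · have hi0' := Finset.mem_filter.1 hi0
        refine le_trans ?_ (Finset.le_sup' (mB I' w n c ((1 / 2) ^ k)) hi0'.1)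
        refine Finset.sum_le_sum_of_subset_of_nonneg ?_ ?_
        · intro j hj
          have hj' := Finset.mem_filter.1 hj
          exact Finset.mem_filter.2 ⟨hj'.1, cell_close k _ _ (hj'.2.1.trans hi0'.2.1.symm), cell_close k _ _ (hj'.2.2.trans hi0'.2.2.symm)⟩
        · intro j hj _
          exact hw j (Finset.mem_filter.1 hj).1)
    (fun k hkL a => by
      rcases (J.filter fun z => ⌊(2 : ℝ) ^ k * t z⌋ = a).eq_empty_or_nonempty with h | ⟨i0, hi0⟩
      · rw [h, Finset.sum_empty]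
        exact hg0 k
      · have hi0' := Finset.mem_filter.1 hi0
        refine le_trans ?_ (Finset.le_sup' (mI J v t ((1 / 2) ^ k)) hi0'.1)
        refine Finset.sum_le_sum_of_subset_of_nonneg ?_ ?_
        · intro j hj
          have hj' := Finset.mem_filter.1 hj
          exact Finset.mem_filter.2 ⟨hj'.1, cell_close k _ _ (hj'.2.trans hi0'.2.symm)⟩
        · intro j hj _
          exact hv j (Finset.mem_filter.1 hj).1)
  have h1 : ∑ k ∈ Finset.range (L + 1), (4 : ℝ) ^ k * f k * g k ≤ (L + 1) * E := by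
    have h2 : ∀ k ∈ Finset.range (L + 1), (4 : ℝ) ^ k * f k * g k ≤ E := by
      intro k hk'
      have hkL : k ≤ L := by have := Finset.mem_range.1 hk'; omega
      obtain ⟨i, hi, hi2⟩ := Finset.exists_mem_eq_sup' hI (mB I' w n c ((1 / 2) ^ k))
      obtain ⟨z, hz, hz2⟩ := Finset.exists_mem_eq_sup' hJ (mI J v t ((1 / 2) ^ k))
      have h3 := hm ((1 / 2) ^ k) (hk k hkL) (hk1 k) i hi z hz
      rw [← hi2, ← hz2] at h3
      have h4 := mul_le_mul_of_nonneg_left h3 (show (0 : ℝ) ≤ 4 ^ k by positivity)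
      have h5 : (4 : ℝ) ^ k * (E * ((1 / 2) ^ k) ^ 2) = E := by
        rw [← pow_mul, mul_comm k 2, pow_mul]
        have : (4 : ℝ) ^ k * ((1 / 2 : ℝ) ^ 2) ^ k = 1 := by rw [← mul_pow]; norm_num
        linear_combination E * this
      rw [h5] at h4
      simp only [hf, hg]
      linarith
    refine (Finset.sum_le_sum h2).trans ?_
    rw [Finset.sum_const, Finset.card_range, nsmul_eq_mul]
    push_cast
    exact le_rfl
  have h2 : (L : ℝ) + 1 ≤ 2 * (1 + Real.log (1 / δ)) := by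
    have h3 : (L : ℝ) * Real.log 2 ≤ Real.log (1 / δ) := by
      rw [← Real.log_pow]
      exact Real.log_le_log (by positivity) hL1
    have h4 : (1 / 2 : ℝ) < Real.log 2 := by have := Real.log_two_gt_d9; linarith
    have h5 : (0 : ℝ) ≤ L := Nat.cast_nonneg _
    nlinarith
  have h3 : (1 / 2 : ℝ) ^ L ≤ 2 * δ := by
    rw [div_lt_iff₀ hδ] at hL2
    rw [one_div, inv_pow, ← one_div, div_le_iff₀ (by positivity)]
    rw [pow_succ] at hL2
    linarith
  have h4 : ∑ z ∈ J, v z * ∑ i ∈ I', ∑ j ∈ I' with |(n i - n j) + t z * (c i - c j)| ≤ δ, w i * w j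
      ≤ ∑ z ∈ J, v z * ∑ i ∈ I', ∑ j ∈ I' with |(n i - n j) + t z * (c i - c j)| ≤ (1 / 2) ^ L, w i * w j := by
    refine Finset.sum_le_sum fun z hz => mul_le_mul_of_nonneg_left ?_ (hv z hz)
    refine Finset.sum_le_sum fun i hi => ?_
    refine Finset.sum_le_sum_of_subset_of_nonneg ?_ ?_
    · intro j hj
      have hj' := Finset.mem_filter.1 hj
      exact Finset.mem_filter.2 ⟨hj'.1, hj'.2.trans (hk L le_rfl)⟩
    · intro j hj _
      exact mul_nonneg (hw i hi) (hw j (Finset.mem_filter.1 hj).1)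
  refine h4.trans (h0.trans ?_)
  have h5 : 0 ≤ ∑ k ∈ Finset.range (L + 1), (4 : ℝ) ^ k * f k * g k :=
    Finset.sum_nonneg fun k _ => by have := hf0 k; have := hg0 k; positivity
  have h6 : ∑ k ∈ Finset.range (L + 1), (4 : ℝ) ^ k * f k * g k ≤ 2 * (1 + Real.log (1 / δ)) * E :=
    h1.trans (mul_le_mul_of_nonneg_right h2 hE)
  have h7 : (1 / 2 : ℝ) ^ L * ∑ k ∈ Finset.range (L + 1), (4 : ℝ) ^ k * f k * g k
      ≤ (2 * δ) * (2 * (1 + Real.log (1 / δ)) * E) := mul_le_mul h3 h6 h5 (by positivity)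
  have h8 := mul_le_mul_of_nonneg_left h7 (show 0 ≤ CF * ∑ i ∈ I', w i by positivity)
  unfold CF at *
  refine le_trans (le_of_eq (by ring)) (h8.trans (le_of_eq (by ring)))

end

end Crest.Agent.R138.Fal658
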