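import Mathlib

/-!
# R138: ultrafilter exponents (helper926)

`U` is a fixed free ultrafilter on `ℕ`, a `Base` is a sequence `d n ∈ (0,1)` with `d → 0` along `U`.
For a polynomially bounded positive sequence `X` (`B.PB X`), `B.ex X = lim_U log (X n) / log (1/d n)`.
"Equality up to `δ^{o(1)}`" becomes equality of real numbers.
-/

set_option autoImplicit false

open Filter Topology

namespace Crest.Agent.R138.Ex926

/-- the fixed free ultrafilter on `ℕ` -/
noncomputable def U : Ultrafilter ℕ := hyperfilter ℕ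

theorem U_le_atTop : (U : Filter ℕ) ≤ atTop := Nat.hyperfilter_le_atTop

theorem ev_of_atTop {p : ℕ → Prop} (h : ∀ᶠ n in atTop, p n) : ∀ᶠ n in (U : Filter ℕ), p n :=
  U_le_atTop h

theorem ev_ge (k : ℕ) : ∀ᶠ n in (U : Filter ℕ), k ≤ n := ev_of_atTop (eventually_ge_atTop k)

instance U_neBot : (U : Filter ℕ).NeBot := U.neBot

/-- every bounded real sequence converges along `U`. -/
theorem exists_tendsto {f : ℕ → ℝ} {C : ℝ} (h : ∀ᶠ n in (U : Filter ℕ), |f n| ≤ C) :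
    ∃ x, Tendsto f U (𝓝 x) ∧ |x| ≤ C := by
  have hc : IsCompact (Set.Icc (-C) C) := isCompact_Icc
  have h1 : (↑(U.map f) : Filter ℝ) ≤ 𝓟 (Set.Icc (-C) C) := by
    rw [le_principal_iff]
    change ∀ᶠ n in (U : Filter ℕ), f n ∈ Set.Icc (-C) C
    filter_upwards [h] with n hn
    exact abs_le.1 hn
  obtain ⟨x, hx, hx2⟩ := hc.ultrafilter_le_nhds _ h1
  refine ⟨x, hx2, abs_le.2 hx⟩

theorem ev_em (p : ℕ → Prop) : (∀ᶠ n in (U : Filter ℕ), p n) ∨ (∀ᶠ n in (U : Filter ℕ), ¬ p n) := by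
  by_cases h : ∀ᶠ n in (U : Filter ℕ), p n
  · exact Or.inl h
  · right
    rw [← Ultrafilter.eventually_not] at h
    exact h

/-- a base sequence -/
structure Base where
  d : ℕ → ℝ
  pos : ∀ n, 0 < d n
  lt : ∀ n, d n < 1
  lim0 : Tendsto d U (𝓝 0)

namespace Base

variable (B : Base)

/-- `log (1/d)` -/
noncomputable def L (n : ℕ) : ℝ := - Real.log (B.d n)

theorem L_pos (n : ℕ) : 0 < B.L n := by
  unfold L
  have := Real.log_neg (B.pos n) (B.lt n)
  linarith

theorem L_tendsto : Tendsto B.L U atTop := by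
  have h0 : Tendsto B.d U (𝓝[>] 0) := by
    rw [tendsto_nhdsWithin_iff]
    exact ⟨B.lim0, Eventually.of_forall fun n => B.pos n⟩
  have := Real.tendsto_log_nhdsGT_zero.comp h0
  exact tendsto_neg_atBot_atTop.comp this

theorem ev_L_ge (C : ℝ) : ∀ᶠ n in (U : Filter ℕ), C ≤ B.L n := B.L_tendsto.eventually_ge_atTop C

/-- finite level exponent -/
noncomputable def lg (X : ℕ → ℝ) (n : ℕ) : ℝ := Real.log (X n) / B.L n

/-- polynomially bounded (from above and below) positive sequences -/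
def PB (X : ℕ → ℝ) : Prop := ∃ C : ℝ, ∀ᶠ n in (U : Filter ℕ), 0 < X n ∧ |B.lg X n| ≤ C

/-- the exponent -/
noncomputable def ex (X : ℕ → ℝ) : ℝ :=
  open Classical in if h : ∃ x, Tendsto (B.lg X) U (𝓝 x) then h.choose else 0

variable {B} {X Y Z : ℕ → ℝ}

theorem tendsto_ex {x : ℝ} (h : Tendsto (B.lg X) U (𝓝 x)) : Tendsto (B.lg X) U (𝓝 (B.ex X)) := by
  have h' : ∃ x, Tendsto (B.lg X) U (𝓝 x) := ⟨x, h⟩
  unfold ex
  rw [dif_pos h']
  exact h'.choose_spec

theorem PB.tendsto (h : B.PB X) : Tendsto (B.lg X) U (𝓝 (B.ex X)) := by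
  obtain ⟨C, hC⟩ := h
  obtain ⟨x, hx, -⟩ := exists_tendsto (hC.mono fun n hn => hn.2)
  exact tendsto_ex hx

theorem PB.pos (h : B.PB X) : ∀ᶠ n in (U : Filter ℕ), 0 < X n := by
  obtain ⟨C, hC⟩ := h
  exact hC.mono fun n hn => hn.1

theorem ex_eq_of_tendsto {x : ℝ} (h : Tendsto (B.lg X) U (𝓝 x)) : B.ex X = x :=
  tendsto_nhds_unique (tendsto_ex h) h

theorem PB.of_tendsto {x : ℝ} (hp : ∀ᶠ n in (U : Filter ℕ), 0 < X n)
    (h : Tendsto (B.lg X) U (𝓝 x)) : B.PB X := by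
  refine ⟨|x| + 1, ?_⟩
  have h1 : ∀ᶠ n in (U : Filter ℕ), |B.lg X n - x| < 1 := by
    have := (Metric.tendsto_nhds.1 h) 1 one_pos
    simpa [Real.dist_eq] using this
  filter_upwards [hp, h1] with n hn h2
  refine ⟨hn, ?_⟩
  have := abs_sub_abs_le_abs_sub (B.lg X n) x
  linarith

theorem lg_congr (h : ∀ᶠ n in (U : Filter ℕ), X n = Y n) :
    B.lg X =ᶠ[(U : Filter ℕ)] B.lg Y := by
  filter_upwards [h] with n hn
  simp [lg, hn]

theorem PB.congr (hX : B.PB X) (h : ∀ᶠ n in (U : Filter ℕ), X n = Y n) : B.PB Y := by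
  obtain ⟨C, hC⟩ := hX
  refine ⟨C, ?_⟩
  filter_upwards [hC, h] with n hn h2
  refine ⟨h2 ▸ hn.1, ?_⟩
  have : B.lg Y n = B.lg X n := by simp [lg, h2]
  rw [this]; exact hn.2

theorem ex_congr (hX : B.PB X) (h : ∀ᶠ n in (U : Filter ℕ), X n = Y n) : B.ex X = B.ex Y :=
  tendsto_nhds_unique_of_eventuallyEq hX.tendsto (hX.congr h).tendsto (lg_congr h)

/-- the basic criterion: `d^C ≤ X ≤ d^{-C}`. -/
theorem PB.of_bounds {C : ℝ} (h1 : ∀ᶠ n in (U : Filter ℕ), B.d n ^ C ≤ X n)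
    (h2 : ∀ᶠ n in (U : Filter ℕ), X n ≤ B.d n ^ (-C)) : B.PB X := by
  refine ⟨|C|, ?_⟩
  filter_upwards [h1, h2] with n h1 h2
  have hd := B.pos n
  have hp : 0 < X n := lt_of_lt_of_le (Real.rpow_pos_of_pos hd _) h1
  refine ⟨hp, ?_⟩
  have hL := B.L_pos n
  unfold lg
  rw [abs_div, abs_of_pos hL, div_le_iff₀ hL]
  have e1 : Real.log (B.d n ^ C) ≤ Real.log (X n) :=
    Real.log_le_log (Real.rpow_pos_of_pos hd _) h1
  have e2 : Real.log (X n) ≤ Real.log (B.d n ^ (-C)) := Real.log_le_log hp h2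
  rw [Real.log_rpow hd] at e1 e2
  have hL2 : Real.log (B.d n) = - B.L n := by simp [L]
  rw [hL2] at e1 e2
  have hC : C * B.L n ≤ |C| * B.L n := mul_le_mul_of_nonneg_right (le_abs_self C) hL.le
  rw [abs_le]
  constructor
  · nlinarith [neg_abs_le C]
  · nlinarith [le_abs_self C]

theorem PB.bounds (h : B.PB X) : ∃ C : ℝ, 0 < C ∧ (∀ᶠ n in (U : Filter ℕ), B.d n ^ C ≤ X n) ∧
    ∀ᶠ n in (U : Filter ℕ), X n ≤ B.d n ^ (-C) := by
  obtain ⟨C, hC⟩ := h
  refine ⟨|C| + 1, by positivity, ?_, ?_⟩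
  · filter_upwards [hC] with n hn
    obtain ⟨hp, hb⟩ := hn
    have hL := B.L_pos n
    have hd := B.pos n
    unfold lg at hb
    rw [abs_div, abs_of_pos hL, div_le_iff₀ hL] at hb
    rw [← Real.log_le_log_iff (Real.rpow_pos_of_pos hd _) hp, Real.log_rpow hd]
    have hL2 : Real.log (B.d n) = - B.L n := by simp [L]
    rw [hL2]
    have := (abs_le.1 hb).1
    nlinarith [le_abs_self C]
  · filter_upwards [hC] with n hn
    obtain ⟨hp, hb⟩ := hn
    have hL := B.L_pos n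
    have hd := B.pos n
    unfold lg at hb
    rw [abs_div, abs_of_pos hL, div_le_iff₀ hL] at hb
    rw [← Real.log_le_log_iff hp (Real.rpow_pos_of_pos hd _), Real.log_rpow hd]
    have hL2 : Real.log (B.d n) = - B.L n := by simp [L]
    rw [hL2]
    have := (abs_le.1 hb).2
    nlinarith [le_abs_self C]

theorem PB.of_le_of_le (hX : B.PB X) (hZ : B.PB Z) (h1 : ∀ᶠ n in (U : Filter ℕ), X n ≤ Y n)
    (h2 : ∀ᶠ n in (U : Filter ℕ), Y n ≤ Z n) : B.PB Y := by
  obtain ⟨C, hC, a1, -⟩ := hX.bounds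
  obtain ⟨D, hD, -, b2⟩ := hZ.bounds
  refine PB.of_bounds (C := max C D) ?_ ?_
  · filter_upwards [a1, h1] with n a1 h1
    exact (Real.rpow_le_rpow_of_exponent_ge (B.pos n) (B.lt n).le (le_max_left _ _)).trans
      (a1.trans h1)
  · filter_upwards [b2, h2] with n b2 h2
    refine h2.trans (b2.trans ?_)
    exact Real.rpow_le_rpow_of_exponent_ge (B.pos n) (B.lt n).le (neg_le_neg (le_max_right _ _))

/-! ### algebra -/

theorem lg_mul (hX : B.PB X) (hY : B.PB Y) :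
    ∀ᶠ n in (U : Filter ℕ), B.lg (fun n => X n * Y n) n = B.lg X n + B.lg Y n := by
  filter_upwards [hX.pos, hY.pos] with n h1 h2
  simp only [lg]
  rw [Real.log_mul h1.ne' h2.ne', add_div]

theorem PB.mul (hX : B.PB X) (hY : B.PB Y) : B.PB (fun n => X n * Y n) := by
  refine PB.of_tendsto (x := B.ex X + B.ex Y) ?_ ?_
  · filter_upwards [hX.pos, hY.pos] with n h1 h2 using mul_pos h1 h2
  · exact (hX.tendsto.add hY.tendsto).congr' ((lg_mul hX hY).mono fun n hn => hn.symm)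

theorem ex_mul (hX : B.PB X) (hY : B.PB Y) : B.ex (fun n => X n * Y n) = B.ex X + B.ex Y :=
  ex_eq_of_tendsto
    ((hX.tendsto.add hY.tendsto).congr' ((lg_mul hX hY).mono fun n hn => hn.symm))

theorem PB.inv (hX : B.PB X) : B.PB (fun n => (X n)⁻¹) := by
  refine PB.of_tendsto (x := - B.ex X) ?_ ?_
  · filter_upwards [hX.pos] with n h1 using inv_pos.2 h1
  · refine hX.tendsto.neg.congr fun _ => ?_
    simp only [lg, Real.log_inv, neg_div]

theorem ex_inv (hX : B.PB X) : B.ex (fun n => (X n)⁻¹) = - B.ex X :=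
  ex_eq_of_tendsto (hX.tendsto.neg.congr fun _ => by simp only [lg, Real.log_inv, neg_div])

theorem PB.div (hX : B.PB X) (hY : B.PB Y) : B.PB (fun n => X n / Y n) := by
  simpa [div_eq_mul_inv] using hX.mul hY.inv

theorem ex_div (hX : B.PB X) (hY : B.PB Y) : B.ex (fun n => X n / Y n) = B.ex X - B.ex Y := by
  have := ex_mul hX hY.inv
  rw [ex_inv hY] at this
  simpa [div_eq_mul_inv, sub_eq_add_neg] using this

theorem PB.rpow (hX : B.PB X) (a : ℝ) : B.PB (fun n => X n ^ a) := by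
  refine PB.of_tendsto (x := a * B.ex X) ?_ ?_
  · filter_upwards [hX.pos] with n h1 using Real.rpow_pos_of_pos h1 a
  · refine (hX.tendsto.const_mul a).congr' ?_
    filter_upwards [hX.pos] with n h1
    simp only [lg, Real.log_rpow h1, mul_div_assoc]

theorem ex_rpow (hX : B.PB X) (a : ℝ) : B.ex (fun n => X n ^ a) = a * B.ex X := by
  refine ex_eq_of_tendsto ((hX.tendsto.const_mul a).congr' ?_)
  filter_upwards [hX.pos] with n h1
  simp only [lg, Real.log_rpow h1, mul_div_assoc]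

theorem PB.pow (hX : B.PB X) (k : ℕ) : B.PB (fun n => X n ^ k) := by
  simpa using hX.rpow (k : ℝ)

theorem ex_pow (hX : B.PB X) (k : ℕ) : B.ex (fun n => X n ^ k) = k * B.ex X := by
  simpa using ex_rpow hX (k : ℝ)

theorem PB.sqrt (hX : B.PB X) : B.PB (fun n => Real.sqrt (X n)) := by
  simpa [Real.sqrt_eq_rpow] using hX.rpow (1 / 2)

theorem ex_sqrt (hX : B.PB X) : B.ex (fun n => Real.sqrt (X n)) = B.ex X / 2 := by
  have := ex_rpow hX (1 / 2)
  simp only [Real.sqrt_eq_rpow]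
  rw [this]; ring

theorem tendsto_const {c : ℝ} : Tendsto (B.lg (fun _ => c)) U (𝓝 0) :=
  B.L_tendsto.const_div_atTop (Real.log c)

theorem PB.const {c : ℝ} (hc : 0 < c) : B.PB (fun _ => c) :=
  PB.of_tendsto (Eventually.of_forall fun _ => hc) tendsto_const

theorem ex_const (c : ℝ) : B.ex (fun _ => c) = 0 := ex_eq_of_tendsto tendsto_const

theorem lg_dpow (a : ℝ) (n : ℕ) : B.lg (fun n => B.d n ^ a) n = -a := by
  simp only [lg]
  rw [Real.log_rpow (B.pos n)]
  have hL2 : Real.log (B.d n) = - B.L n := by simp [L]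
  rw [hL2]
  field_simp [(B.L_pos n).ne']

theorem PB.dpow (a : ℝ) : B.PB (fun n => B.d n ^ a) :=
  PB.of_tendsto (x := -a) (Eventually.of_forall fun n => Real.rpow_pos_of_pos (B.pos n) a)
    (by
      have : B.lg (fun n => B.d n ^ a) = fun _ => -a := funext fun n => lg_dpow a n
      rw [this]; exact tendsto_const_nhds)

theorem ex_dpow (a : ℝ) : B.ex (fun n => B.d n ^ a) = -a :=
  ex_eq_of_tendsto (by
      have : B.lg (fun n => B.d n ^ a) = fun _ => -a := funext fun n => lg_dpow a n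
      rw [this]; exact tendsto_const_nhds)

theorem PB.d : B.PB B.d := by simpa using PB.dpow (B := B) 1

theorem ex_d : B.ex B.d = -1 := by simpa using ex_dpow (B := B) 1

/-- variable exponents: `d^(a n)` with `a n → a`. -/
theorem lim_dpow_var {a : ℕ → ℝ} {x : ℝ} (h : Tendsto a U (𝓝 x)) :
    B.PB (fun n => B.d n ^ a n) ∧ B.ex (fun n => B.d n ^ a n) = -x := by
  have h1 : Tendsto (B.lg (fun n => B.d n ^ a n)) U (𝓝 (-x)) := by
    refine h.neg.congr fun n => ?_
    simp only [lg]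
    rw [Real.log_rpow (B.pos n)]
    have hL2 : Real.log (B.d n) = - B.L n := by simp [L]
    rw [hL2]
    field_simp [(B.L_pos n).ne']
  exact ⟨PB.of_tendsto (Eventually.of_forall fun n => Real.rpow_pos_of_pos (B.pos n) _) h1,
    ex_eq_of_tendsto h1⟩

/-! ### order -/

theorem lg_le_of_le (hX : B.PB X) (h : ∀ᶠ n in (U : Filter ℕ), X n ≤ Y n) :
    ∀ᶠ n in (U : Filter ℕ), B.lg X n ≤ B.lg Y n := by
  filter_upwards [hX.pos, h] with n h1 h2
  simp only [lg]
  exact div_le_div_of_nonneg_right (Real.log_le_log h1 h2) (B.L_pos n).le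

theorem ex_le (hX : B.PB X) (hY : B.PB Y) (h : ∀ᶠ n in (U : Filter ℕ), X n ≤ Y n) :
    B.ex X ≤ B.ex Y :=
  le_of_tendsto_of_tendsto hX.tendsto hY.tendsto (lg_le_of_le hX h)

theorem ex_lt_iff_dpow (hX : B.PB X) {a : ℝ} (h : B.ex X < a) :
    ∀ᶠ n in (U : Filter ℕ), X n < B.d n ^ (-a) := by
  have h1 := hX.tendsto.eventually_lt_const h
  filter_upwards [h1, hX.pos] with n h1 h2
  simp only [lg] at h1
  rw [div_lt_iff₀ (B.L_pos n)] at h1
  rw [← Real.log_lt_log_iff h2 (Real.rpow_pos_of_pos (B.pos n) _), Real.log_rpow (B.pos n)]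
  have hL2 : Real.log (B.d n) = - B.L n := by simp [L]
  rw [hL2]; linarith

theorem lt_ex_dpow (hX : B.PB X) {a : ℝ} (h : a < B.ex X) :
    ∀ᶠ n in (U : Filter ℕ), B.d n ^ (-a) < X n := by
  have h1 := hX.tendsto.eventually_const_lt h
  filter_upwards [h1, hX.pos] with n h1 h2
  simp only [lg] at h1
  rw [lt_div_iff₀ (B.L_pos n)] at h1
  rw [← Real.log_lt_log_iff (Real.rpow_pos_of_pos (B.pos n) _) h2, Real.log_rpow (B.pos n)]
  have hL2 : Real.log (B.d n) = - B.L n := by simp [L]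
  rw [hL2]; linarith

theorem ex_lt_of_dpow_of_le (hX : B.PB X) {a : ℝ}
    (h : ∀ᶠ n in (U : Filter ℕ), X n ≤ B.d n ^ (-a)) : B.ex X ≤ a := by
  have := ex_le hX (PB.dpow (-a)) h
  rwa [ex_dpow, neg_neg] at this

theorem le_ex_of_dpow (hX : B.PB X) {a : ℝ}
    (h : ∀ᶠ n in (U : Filter ℕ), B.d n ^ (-a) ≤ X n) : a ≤ B.ex X := by
  have := ex_le (PB.dpow (-a)) hX h
  rwa [ex_dpow, neg_neg] at this

/-- `ex X < ex Y` implies `X ≤ d^ε Y` eventually (with room). -/
theorem ev_lt_of_ex_lt (hX : B.PB X) (hY : B.PB Y) (h : B.ex X < B.ex Y) :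
    ∃ ε : ℝ, 0 < ε ∧ ∀ᶠ n in (U : Filter ℕ), X n ≤ B.d n ^ ε * Y n := by
  refine ⟨(B.ex Y - B.ex X) / 2, by linarith, ?_⟩
  have h1 := hX.div hY
  have h2 : B.ex (fun n => X n / Y n) < -((B.ex Y - B.ex X) / 2) := by
    rw [ex_div hX hY]; linarith
  have h3 := ex_lt_iff_dpow h1 h2
  filter_upwards [h3, hY.pos] with n h3 h4
  rw [div_lt_iff₀ h4, neg_neg] at h3
  exact h3.le

/-- sub-polynomial sequences: exponent zero -/
def Sub (B : Base) (X : ℕ → ℝ) : Prop := B.PB X ∧ B.ex X = 0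

theorem Sub.mul (hX : B.Sub X) (hY : B.Sub Y) : B.Sub (fun n => X n * Y n) :=
  ⟨hX.1.mul hY.1, by rw [ex_mul hX.1 hY.1, hX.2, hY.2, add_zero]⟩

theorem Sub.inv (hX : B.Sub X) : B.Sub (fun n => (X n)⁻¹) :=
  ⟨hX.1.inv, by rw [ex_inv hX.1, hX.2, neg_zero]⟩

theorem Sub.const {c : ℝ} (hc : 0 < c) : B.Sub (fun _ => c) := ⟨PB.const hc, ex_const c⟩

theorem Sub.rpow (hX : B.Sub X) (a : ℝ) : B.Sub (fun n => X n ^ a) :=
  ⟨hX.1.rpow a, by rw [ex_rpow hX.1, hX.2, mul_zero]⟩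

theorem Sub.pow (hX : B.Sub X) (k : ℕ) : B.Sub (fun n => X n ^ k) :=
  ⟨hX.1.pow k, by rw [ex_pow hX.1, hX.2, mul_zero]⟩

theorem Sub.L : B.Sub B.L := by
  have h1 : Tendsto (B.lg B.L) U (𝓝 0) := by
    have h2 : Tendsto (fun x : ℝ => Real.log x / x) atTop (𝓝 0) :=
      Real.isLittleO_log_id_atTop.tendsto_div_nhds_zero
    exact h2.comp B.L_tendsto
  have hp : ∀ᶠ n in (U : Filter ℕ), 0 < B.L n := Eventually.of_forall fun n => B.L_pos n
  exact ⟨PB.of_tendsto hp h1, ex_eq_of_tendsto h1⟩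

theorem Sub.one_add_L : B.Sub (fun n => 1 + B.L n) := by
  have h1 : B.PB (fun n => 1 + B.L n) := by
    refine PB.of_le_of_le Sub.L.1 ((PB.const two_pos).mul Sub.L.1) ?_ ?_
    · exact Eventually.of_forall fun n => by linarith
    · filter_upwards [B.ev_L_ge 1] with n hn
      linarith
  refine ⟨h1, le_antisymm ?_ ?_⟩
  · have h2 : B.ex (fun n => 1 + B.L n) ≤ B.ex (fun n => 2 * B.L n) := by
      refine ex_le h1 ((PB.const two_pos).mul Sub.L.1) ?_
      filter_upwards [B.ev_L_ge 1] with n hn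
      linarith
    rw [ex_mul (PB.const two_pos) Sub.L.1, ex_const, Sub.L.2] at h2
    simpa using h2
  · have h2 := ex_le (B := B) Sub.L.1 h1 (Eventually.of_forall fun n => by linarith)
    rwa [Sub.L.2] at h2

/-- `X ≤ S·Y` with `S` subpolynomial. -/
theorem ex_le_of_sub {S : ℕ → ℝ} (hX : B.PB X) (hY : B.PB Y) (hS : B.Sub S)
    (h : ∀ᶠ n in (U : Filter ℕ), X n ≤ S n * Y n) : B.ex X ≤ B.ex Y := by
  have := ex_le hX (hS.1.mul hY) h
  rwa [ex_mul hS.1 hY, hS.2, zero_add] at this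

theorem ex_le_of_const_mul {C : ℝ} (hC : 0 < C) (hX : B.PB X) (hY : B.PB Y)
    (h : ∀ᶠ n in (U : Filter ℕ), X n ≤ C * Y n) : B.ex X ≤ B.ex Y :=
  ex_le_of_sub hX hY (Sub.const hC) h

/-- the form in which theorems with `ε`-loss enter. -/
theorem ex_le_of_eps (hX : B.PB X) (hY : B.PB Y)
    (h : ∀ ε : ℝ, 0 < ε → ∃ C : ℝ, ∀ᶠ n in (U : Filter ℕ), X n ≤ C * B.d n ^ (-ε) * Y n) :
    B.ex X ≤ B.ex Y := by
  refine le_of_forall_pos_le_add fun ε hε => ?_
  obtain ⟨C, hC⟩ := h ε hε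
  have h2 : ∀ᶠ n in (U : Filter ℕ), X n ≤ (max C 1 * B.d n ^ (-ε)) * Y n := by
    filter_upwards [hC, hY.pos] with n h1 h2
    refine h1.trans ?_
    have h3 : 0 < B.d n ^ (-ε) := Real.rpow_pos_of_pos (B.pos n) _
    have h4 : C ≤ max C 1 := le_max_left _ _
    gcongr
  have hm : (0:ℝ) < max C 1 := lt_of_lt_of_le one_pos (le_max_right _ _)
  have h3 := ex_le hX (((PB.const hm).mul (PB.dpow (-ε))).mul hY) h2
  rw [ex_mul ((PB.const hm).mul (PB.dpow (-ε))) hY, ex_mul (PB.const hm) (PB.dpow _), ex_const,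
    ex_dpow] at h3
  linarith

theorem ex_nonneg (hX : B.PB X) (h : ∀ᶠ n in (U : Filter ℕ), 1 ≤ X n) : 0 ≤ B.ex X := by
  have := ex_le (PB.const one_pos) hX h
  rwa [ex_const] at this

theorem ex_nonpos (hX : B.PB X) (h : ∀ᶠ n in (U : Filter ℕ), X n ≤ 1) : B.ex X ≤ 0 := by
  have := ex_le hX (PB.const one_pos) h
  rwa [ex_const] at this

/-- sums -/
theorem PB.add (hX : B.PB X) (hY : B.PB Y) : B.PB (fun n => X n + Y n) := by
  have hm : ∀ᶠ n in (U : Filter ℕ), X n ≤ X n + Y n := by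
    filter_upwards [hY.pos] with n h using by linarith
  obtain ⟨C, hC, a1, a2⟩ := hX.bounds
  obtain ⟨D, hD, b1, b2⟩ := hY.bounds
  refine PB.of_le_of_le hX ((PB.const two_pos).mul (PB.dpow (-(max C D)))) hm ?_
  filter_upwards [a2, b2] with n a2 b2
  have e1 : B.d n ^ (-C) ≤ B.d n ^ (-(max C D)) :=
    Real.rpow_le_rpow_of_exponent_ge (B.pos n) (B.lt n).le (neg_le_neg (le_max_left _ _))
  have e2 : B.d n ^ (-D) ≤ B.d n ^ (-(max C D)) :=
    Real.rpow_le_rpow_of_exponent_ge (B.pos n) (B.lt n).le (neg_le_neg (le_max_right _ _))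
  linarith

theorem ex_add (hX : B.PB X) (hY : B.PB Y) :
    B.ex (fun n => X n + Y n) = max (B.ex X) (B.ex Y) := by
  apply le_antisymm
  · rcases ev_em (fun n => X n ≤ Y n) with h | h
    · refine le_trans ?_ (le_max_right _ _)
      refine ex_le_of_const_mul two_pos (hX.add hY) hY ?_
      filter_upwards [h] with n h using by linarith
    · refine le_trans ?_ (le_max_left _ _)
      refine ex_le_of_const_mul two_pos (hX.add hY) hX ?_
      filter_upwards [h] with n h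
      push Not at h
      linarith
  · refine max_le ?_ ?_
    · refine ex_le hX (hX.add hY) ?_
      filter_upwards [hY.pos] with n h using by linarith
    · refine ex_le hY (hX.add hY) ?_
      filter_upwards [hX.pos] with n h using by linarith

theorem PB.max (hX : B.PB X) (hY : B.PB Y) : B.PB (fun n => max (X n) (Y n)) := by
  refine PB.of_le_of_le hX (hX.add hY) (Eventually.of_forall fun n => le_max_left _ _) ?_
  filter_upwards [hX.pos, hY.pos] with n h1 h2
  exact max_le (by linarith) (by linarith)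

theorem ex_max (hX : B.PB X) (hY : B.PB Y) :
    B.ex (fun n => max (X n) (Y n)) = max (B.ex X) (B.ex Y) := by
  apply le_antisymm
  · rw [← ex_add hX hY]
    refine ex_le (hX.max hY) (hX.add hY) ?_
    filter_upwards [hX.pos, hY.pos] with n h1 h2
    exact max_le (by linarith) (by linarith)
  · exact max_le (ex_le hX (hX.max hY) (Eventually.of_forall fun n => le_max_left _ _))
      (ex_le hY (hX.max hY) (Eventually.of_forall fun n => le_max_right _ _))

/-- If `Z ≤ S (X + Y)`, then `ex Z ≤ max (ex X) (ex Y)`; the usual dichotomy. -/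
theorem ex_le_max_of_le_add {S : ℕ → ℝ} (hZ : B.PB Z) (hX : B.PB X) (hY : B.PB Y) (hS : B.Sub S)
    (h : ∀ᶠ n in (U : Filter ℕ), Z n ≤ S n * (X n + Y n)) :
    B.ex Z ≤ max (B.ex X) (B.ex Y) := by
  rw [← ex_add hX hY]
  exact ex_le_of_sub hZ (hX.add hY) hS h

/-! ### change of base -/

/-- new base `d ^ w n` with `0 < w n` and `d^w → 0`. -/
noncomputable def chg (B : Base) (w : ℕ → ℝ) (hw : ∀ n, 0 < w n)
    (hl : Tendsto (fun n => w n * B.L n) U atTop) : Base where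
  d n := B.d n ^ w n
  pos n := Real.rpow_pos_of_pos (B.pos n) _
  lt n := Real.rpow_lt_one (B.pos n).le (B.lt n) (hw n)
  lim0 := by
    have h1 : Tendsto (fun n => Real.exp (-(w n * B.L n))) U (𝓝 0) :=
      Real.tendsto_exp_neg_atTop_nhds_zero.comp hl
    refine h1.congr fun n => ?_
    rw [Real.rpow_def_of_pos (B.pos n)]
    congr 1
    simp only [L]; ring

theorem chg_L (w : ℕ → ℝ) (hw : ∀ n, 0 < w n)
    (hl : Tendsto (fun n => w n * B.L n) U atTop) (n : ℕ) :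
    (B.chg w hw hl).L n = w n * B.L n := by
  simp only [L, chg]
  rw [Real.log_rpow (B.pos n)]; ring

theorem chg_lg (w : ℕ → ℝ) (hw : ∀ n, 0 < w n)
    (hl : Tendsto (fun n => w n * B.L n) U atTop) (X : ℕ → ℝ) (n : ℕ) :
    (B.chg w hw hl).lg X n = B.lg X n / w n := by
  simp only [lg, chg_L]
  rw [div_div, mul_comm]

/-- constant exponent `w > 0`. -/
noncomputable def chgc (B : Base) (w : ℝ) (hw : 0 < w) : Base :=
  B.chg (fun _ => w) (fun _ => hw) (B.L_tendsto.const_mul_atTop hw)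

theorem chgc_d {w : ℝ} (hw : 0 < w) (n : ℕ) : (B.chgc w hw).d n = B.d n ^ w := rfl

theorem chgc_PB {w : ℝ} (hw : 0 < w) : (B.chgc w hw).PB X ↔ B.PB X := by
  unfold PB
  constructor
  · rintro ⟨C, hC⟩
    refine ⟨C * w, ?_⟩
    filter_upwards [hC] with n hn
    refine ⟨hn.1, ?_⟩
    have h := hn.2
    unfold chgc at h
    rw [chg_lg, abs_div, abs_of_pos hw, div_le_iff₀ hw] at h
    exact h
  · rintro ⟨C, hC⟩
    refine ⟨C / w, ?_⟩
    filter_upwards [hC] with n hn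
    refine ⟨hn.1, ?_⟩
    unfold chgc
    rw [chg_lg, abs_div, abs_of_pos hw]
    exact div_le_div_of_nonneg_right hn.2 hw.le

theorem chgc_ex {w : ℝ} (hw : 0 < w) (hX : B.PB X) : (B.chgc w hw).ex X = B.ex X / w := by
  refine ex_eq_of_tendsto ?_
  refine (hX.tendsto.div_const w).congr fun n => ?_
  unfold chgc
  rw [chg_lg]

end Base

/-! ### saturation / diagonal -/

/-- Saturation: conditions `P k`, each true for `U`-almost all `n`, can be satisfied for all
`j ≤ k n` with `k n → ∞`. -/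
theorem exists_diag (P : ℕ → ℕ → Prop) (h : ∀ k, ∀ᶠ n in (U : Filter ℕ), P k n) :
    ∃ k : ℕ → ℕ, Tendsto k U atTop ∧ ∀ᶠ n in (U : Filter ℕ), ∀ j ≤ k n, P j n := by
  classical
  -- `k n` = largest `m ≤ n` such that all `P j n`, `j ≤ m`.
  have h0 : ∀ᶠ n in (U : Filter ℕ), P 0 n := h 0
  refine ⟨fun n => Nat.findGreatest (fun m => ∀ j ≤ m, P j n) n, ?_, ?_⟩
  · rw [tendsto_atTop]
    intro K
    have h1 : ∀ᶠ n in (U : Filter ℕ), ∀ j ∈ Finset.range (K + 1), P j n := by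
      rw [Filter.eventually_all_finset]
      intro j _
      exact h j
    filter_upwards [h1, ev_ge K] with n hn hK
    refine Nat.le_findGreatest hK ?_
    intro j hj
    exact hn j (Finset.mem_range.2 (Nat.lt_succ_of_le hj))
  · filter_upwards [h0] with n hn
    have := Nat.findGreatest_spec (P := fun m => ∀ j ≤ m, P j n) (m := 0) (n := n) (Nat.zero_le n)
      (by intro j hj; have : j = 0 := Nat.le_zero.1 hj; rw [this]; exact hn)
    exact this

/-- value form: real sequences `x n` indexed by a parameter `k`, converging for each `k`. -/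
theorem exists_diag_tendsto (f : ℕ → ℕ → ℝ) (a : ℕ → ℝ) {x : ℝ}
    (h : ∀ k, Tendsto (f k) U (𝓝 (a k))) (ha : Tendsto a atTop (𝓝 x)) :
    ∃ k : ℕ → ℕ, Tendsto k U atTop ∧ ∀ k' : ℕ → ℕ, Tendsto k' U atTop → (∀ᶠ n in (U : Filter ℕ), k' n ≤ k n) →
      Tendsto (fun n => f (k' n) n) U (𝓝 x) := by
  obtain ⟨k, hk, hk2⟩ := exists_diag (fun k n => |f k n - a k| < 1 / ((k : ℝ) + 1)) (by
    intro k
    have := (Metric.tendsto_nhds.1 (h k)) (1 / ((k : ℝ) + 1)) (by positivity)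
    simpa [Real.dist_eq] using this)
  refine ⟨k, hk, fun k' hk' hle => ?_⟩
  have h1 : Tendsto (fun n => a (k' n)) U (𝓝 x) := ha.comp hk'
  have h2 : Tendsto (fun n => f (k' n) n - a (k' n)) U (𝓝 0) := by
    have h3 : Tendsto (fun n => 1 / ((k' n : ℝ) + 1)) U (𝓝 0) :=
      tendsto_one_div_add_atTop_nhds_zero_nat.comp hk'
    refine squeeze_zero_norm' ?_ h3
    filter_upwards [hk2, hle] with n h4 h5
    exact (h4 _ h5).le
  have := h2.add h1
  simpa using this

end Crest.Agent.R138.Ex926
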