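import Crest.Agent.R138.Sup_926

/-!
# R138: the generic zoom lemma (helper926)

* `unif_of_lip`: pointwise limits along `U` of asymptotically equi-Lipschitz functions on a compact
  set are uniform.
* `exists_zoom`: countably many such families of functions, whose limits are differentiable at a
  point `x₀`: there is a slow scale `w n → 0` such that after rescaling by `w` all of them are
  exactly linear in the limit.
* `exists_generic`: a common point of differentiability of countably many Lipschitz functions.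
* `sub_le_sub_of_ae_deriv_le`, `exists_generic_deriv_gt`: integration of a.e. differential
  inequalities.
-/

set_option autoImplicit false

open Filter Topology MeasureTheory
open scoped NNReal

namespace Crest.Agent.R138.Ex926

/-- `φ n` is asymptotically `K`-Lipschitz on `S`: Lipschitz up to an additive error `s n → 0`. -/
def ALip {E : Type*} [PseudoMetricSpace E] (S : Set E) (K : ℝ) (φ : ℕ → E → ℝ) : Prop :=
  ∀ ε : ℝ, 0 < ε → ∀ᶠ n in (U : Filter ℕ), ∀ x ∈ S, ∀ y ∈ S,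
    |φ n x - φ n y| ≤ K * dist x y + ε

theorem ALip.mono {E : Type*} [PseudoMetricSpace E] {S T : Set E} {K : ℝ} {φ : ℕ → E → ℝ}
    (h : ALip S K φ) (hT : T ⊆ S) : ALip T K φ := fun ε hε =>
  (h ε hε).mono fun _ hn x hx y hy => hn x (hT hx) y (hT hy)

theorem ALip.limit {E : Type*} [PseudoMetricSpace E] {S : Set E} {K : ℝ} {φ : ℕ → E → ℝ}
    {ψ : E → ℝ} (h : ALip S K φ) (hψ : ∀ x ∈ S, Tendsto (fun n => φ n x) U (𝓝 (ψ x))) :
    ∀ x ∈ S, ∀ y ∈ S, |ψ x - ψ y| ≤ K * dist x y := by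
  intro x hx y hy
  refine le_of_forall_pos_le_add fun ε hε => ?_
  have h1 : Tendsto (fun n => |φ n x - φ n y|) U (𝓝 |ψ x - ψ y|) :=
    ((hψ x hx).sub (hψ y hy)).abs
  exact le_of_tendsto h1 ((h ε hε).mono fun n hn => hn x hx y hy)

theorem unif_of_lip {E : Type*} [PseudoMetricSpace E] {S : Set E} (hS : IsCompact S) {K : ℝ}
    (hK : 0 ≤ K) {φ : ℕ → E → ℝ} {ψ : E → ℝ} (h : ALip S K φ)
    (hψ : ∀ x ∈ S, Tendsto (fun n => φ n x) U (𝓝 (ψ x))) {ε : ℝ} (hε : 0 < ε) :
    ∀ᶠ n in (U : Filter ℕ), ∀ x ∈ S, |φ n x - ψ x| ≤ ε := by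
  classical
  have hl := h.limit hψ
  set r : ℝ := ε / (8 * (K + 1)) with hr
  have hrp : 0 < r := by positivity
  obtain ⟨t, htS, ht⟩ := hS.finite_cover_balls hrp
  obtain ⟨htf, ht⟩ := ht
  have h1 : ∀ᶠ n in (U : Filter ℕ), ∀ y ∈ htf.toFinset, |φ n y - ψ y| < ε / 4 := by
    rw [Filter.eventually_all_finset]
    intro y hy
    have := (Metric.tendsto_nhds.1 (hψ y (htS (htf.mem_toFinset.1 hy)))) (ε / 4) (by positivity)
    simpa [Real.dist_eq] using this
  filter_upwards [h1, h (ε / 4) (by positivity)] with n h1 h2 x hx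
  obtain ⟨y, hy, hxy⟩ : ∃ y ∈ t, dist x y < r := by
    have := ht hx
    simp only [Set.mem_iUnion, Metric.mem_ball, exists_prop] at this
    exact this
  have a1 := h1 y (htf.mem_toFinset.2 hy)
  have a2 := h2 x hx y (htS hy)
  have a3 := hl y (htS hy) x hx
  have e1 : K * dist x y ≤ ε / 8 := by
    have : K * dist x y ≤ (K + 1) * r := by
      have hd := dist_nonneg (x := x) (y := y)
      nlinarith
    refine this.trans (le_of_eq ?_)
    rw [hr]; field_simp
  rw [dist_comm] at a3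
  have : φ n x - ψ x = (φ n x - φ n y) + (φ n y - ψ y) + (ψ y - ψ x) := by ring
  rw [this]
  refine (abs_add_three _ _ _).trans ?_
  linarith

/-- **Generic zoom.** `φ j n` (`j` countable) asymptotically Lipschitz functions on a ball around
`x₀`, with limits `ψ j`, differentiable at `x₀` with derivative `ψ' j`. There is `k n → ∞` such that
for every slower `k' → ∞`, with `w = 1/(k'+1)`, the rescaled functions
`v ↦ (φ j n (x₀ + w v) - φ j n x₀)/w` converge to the linear function `ψ' j`, uniformly on bounded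
sets. -/
theorem exists_zoom {E : Type*} [NormedAddCommGroup E] [NormedSpace ℝ E] [FiniteDimensional ℝ E]
    {x₀ : E} {r : ℝ} (hr : 0 < r) (K : ℕ → ℝ) (hK : ∀ j, 0 ≤ K j)
    (φ : ℕ → ℕ → E → ℝ) (ψ : ℕ → E → ℝ) (ψ' : ℕ → E →L[ℝ] ℝ)
    (hφ : ∀ j, ALip (Metric.closedBall x₀ r) (K j) (φ j))
    (hψ : ∀ j, ∀ x ∈ Metric.closedBall x₀ r, Tendsto (fun n => φ j n x) U (𝓝 (ψ j x)))
    (hd : ∀ j, HasFDerivAt (ψ j) (ψ' j) x₀) :
    ∃ k : ℕ → ℕ, Tendsto k U atTop ∧ ∀ k' : ℕ → ℕ, Tendsto k' U atTop →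
      (∀ᶠ n in (U : Filter ℕ), k' n ≤ k n) → ∀ (j : ℕ) (C ε : ℝ), 0 < ε →
        ∀ᶠ n in (U : Filter ℕ), ∀ v : E, ‖v‖ ≤ C →
          |(φ j n (x₀ + (1 / ((k' n : ℝ) + 1)) • v) - φ j n x₀) / (1 / ((k' n : ℝ) + 1)) - ψ' j v|
            ≤ ε := by
  have hcomp : IsCompact (Metric.closedBall x₀ r) := isCompact_closedBall x₀ r
  obtain ⟨k, hk, hk2⟩ := exists_diag
    (fun m n => ∀ j ≤ m, ∀ x ∈ Metric.closedBall x₀ r,
      |φ j n x - ψ j x| ≤ 1 / ((m : ℝ) + 1) ^ 2) (by
    intro m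
    have : ∀ᶠ n in (U : Filter ℕ), ∀ j ∈ Finset.range (m + 1), ∀ x ∈ Metric.closedBall x₀ r,
        |φ j n x - ψ j x| ≤ 1 / ((m : ℝ) + 1) ^ 2 := by
      rw [Filter.eventually_all_finset]
      intro j _
      exact unif_of_lip hcomp (hK j) (hφ j) (hψ j) (by positivity)
    filter_upwards [this] with n hn j hj
    exact hn j (Finset.mem_range.2 (Nat.lt_succ_of_le hj)))
  refine ⟨k, hk, fun k' hk' hle j C ε hε => ?_⟩
  -- differentiability of `ψ j`
  set C' : ℝ := max C 1 with hC'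
  have hC'p : 0 < C' := lt_of_lt_of_le one_pos (le_max_right _ _)
  have hdj := (hd j).isLittleO
  rw [Asymptotics.isLittleO_iff] at hdj
  have hdj2 := hdj (c := ε / (2 * C')) (by positivity)
  rw [Metric.eventually_nhds_iff] at hdj2
  obtain ⟨ρ, hρ, hdj3⟩ := hdj2
  -- choose `n` large
  have hw : Tendsto (fun n => 1 / ((k' n : ℝ) + 1)) U (𝓝 0) :=
    tendsto_one_div_add_atTop_nhds_zero_nat.comp hk'
  have hmin : 0 < min (ε / 4) (min r ρ / (2 * C')) := by
    have : 0 < min r ρ := lt_min hr hρ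
    positivity
  have hw2 := hw.eventually_lt_const hmin
  have hj2 : ∀ᶠ n in (U : Filter ℕ), j ≤ k' n := hk'.eventually_ge_atTop j
  filter_upwards [hk2, hle, hw2, hj2] with n h1 h2 h3 h4 v hv
  set w : ℝ := 1 / ((k' n : ℝ) + 1) with hwdef
  have hwp : 0 < w := by positivity
  have hv' : ‖v‖ ≤ C' := hv.trans (le_max_left _ _)
  have hw4 : w ≤ ε / 4 := (h3.trans_le (min_le_left _ _)).le
  have hw5 : w < min r ρ / (2 * C') := h3.trans_le (min_le_right _ _)
  have hwv : ‖w • v‖ < min r ρ := by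
    rw [norm_smul, Real.norm_of_nonneg hwp.le]
    have hm : 0 < min r ρ := lt_min hr hρ
    calc w * ‖v‖ ≤ w * C' := by gcongr
      _ ≤ (min r ρ / (2 * C')) * C' := by gcongr
      _ = min r ρ / 2 := by field_simp
      _ < min r ρ := by linarith
  have hx : x₀ + w • v ∈ Metric.closedBall x₀ r := by
    rw [Metric.mem_closedBall, dist_eq_norm]
    simpa using (hwv.le.trans (min_le_left _ _))
  have hx0 : x₀ ∈ Metric.closedBall x₀ r := Metric.mem_closedBall_self hr.le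
  have a1 := h1 (k' n) h2 j h4 _ hx
  have a2 := h1 (k' n) h2 j h4 _ hx0
  have hww : 1 / ((k' n : ℝ) + 1) ^ 2 = w ^ 2 := by rw [hwdef, one_div_pow]
  rw [hww] at a1 a2
  have a3 := hdj3 (y := x₀ + w • v) (by
    rw [dist_eq_norm]; simpa using (hwv.trans_le (min_le_right _ _)))
  have hsub : x₀ + w • v - x₀ = w • v := by abel
  rw [hsub, Real.norm_eq_abs, norm_smul, Real.norm_of_nonneg hwp.le, map_smul, smul_eq_mul] at a3
  have a4 : |ψ j (x₀ + w • v) - ψ j x₀ - w * ψ' j v| ≤ w * (ε / 2) := by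
    refine a3.trans ?_
    calc ε / (2 * C') * (w * ‖v‖) ≤ ε / (2 * C') * (w * C') := by gcongr
      _ = w * (ε / 2) := by field_simp
  have key : |φ j n (x₀ + w • v) - φ j n x₀ - w * ψ' j v| ≤ 2 * w ^ 2 + w * (ε / 2) := by
    have : φ j n (x₀ + w • v) - φ j n x₀ - w * ψ' j v =
        (φ j n (x₀ + w • v) - ψ j (x₀ + w • v)) + -(φ j n x₀ - ψ j x₀) +
          (ψ j (x₀ + w • v) - ψ j x₀ - w * ψ' j v) := by ring
    rw [this]
    refine (abs_add_three _ _ _).trans ?_
    rw [abs_neg]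
    linarith
  have : (φ j n (x₀ + w • v) - φ j n x₀) / w - ψ' j v =
      (φ j n (x₀ + w • v) - φ j n x₀ - w * ψ' j v) / w := by
    field_simp
  rw [this, abs_div, abs_of_pos hwp, div_le_iff₀ hwp]
  refine key.trans ?_
  nlinarith

/-- the form with limits, after fixing the zoom speed; `B` any base, `s` any countable family of
error sequences tending to `0`: the speed `w = 1/(k+1)` can be chosen such that `d^w → 0` and
`s i n / w n → 0`. -/
theorem exists_speed (B : Base) (s : ℕ → ℕ → ℝ) (hs : ∀ i, Tendsto (s i) U (𝓝 0)) :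
    ∃ k : ℕ → ℕ, Tendsto k U atTop ∧ ∀ k' : ℕ → ℕ, Tendsto k' U atTop →
      (∀ᶠ n in (U : Filter ℕ), k' n ≤ k n) →
        Tendsto (fun n => (1 / ((k' n : ℝ) + 1)) * B.L n) U atTop ∧
        ∀ i, Tendsto (fun n => s i n / (1 / ((k' n : ℝ) + 1))) U (𝓝 0) := by
  obtain ⟨k, hk, hk2⟩ := exists_diag
    (fun m n => ((m : ℝ) + 1) ^ 2 ≤ B.L n ∧ ∀ i ≤ m, |s i n| ≤ 1 / ((m : ℝ) + 1) ^ 2) (by
    intro m
    have h1 : ∀ᶠ n in (U : Filter ℕ), ∀ i ∈ Finset.range (m + 1),
        |s i n| < 1 / ((m : ℝ) + 1) ^ 2 := by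
      rw [Filter.eventually_all_finset]
      intro i _
      have := (Metric.tendsto_nhds.1 (hs i)) (1 / ((m : ℝ) + 1) ^ 2) (by positivity)
      simpa [Real.dist_eq] using this
    filter_upwards [h1, B.ev_L_ge (((m : ℝ) + 1) ^ 2)] with n h1 h2
    exact ⟨h2, fun i hi => (h1 i (Finset.mem_range.2 (Nat.lt_succ_of_le hi))).le⟩)
  refine ⟨k, hk, fun k' hk' hle => ⟨?_, fun i => ?_⟩⟩
  · have hk1 : Tendsto (fun n => (k' n : ℝ)) U atTop := tendsto_natCast_atTop_atTop.comp hk'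
    refine tendsto_atTop_mono' _ ?_ hk1
    filter_upwards [hk2, hle] with n h1 h2
    have h3 := (h1 _ h2).1
    have h4 : (0 : ℝ) ≤ k' n := Nat.cast_nonneg _
    rw [one_div, ← div_eq_inv_mul, le_div_iff₀ (by positivity)]
    nlinarith
  · have hw : Tendsto (fun n => 1 / ((k' n : ℝ) + 1)) U (𝓝 0) :=
      tendsto_one_div_add_atTop_nhds_zero_nat.comp hk'
    refine squeeze_zero_norm' ?_ hw
    filter_upwards [hk2, hle, hk'.eventually_ge_atTop i] with n h1 h2 h3
    have h4 := (h1 _ h2).2 i h3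
    have h5 : (0 : ℝ) ≤ k' n := Nat.cast_nonneg _
    rw [norm_div, Real.norm_eq_abs, Real.norm_of_nonneg (by positivity), div_le_iff₀ (by positivity)]
    refine h4.trans (le_of_eq ?_)
    field_simp

/-- slowing down two speeds simultaneously. -/
theorem exists_min_speed {k₁ k₂ : ℕ → ℕ} (h₁ : Tendsto k₁ U atTop) (h₂ : Tendsto k₂ U atTop) :
    Tendsto (fun n => min (k₁ n) (k₂ n)) U atTop := by
  rw [tendsto_atTop] at *
  intro b
  filter_upwards [h₁ b, h₂ b] with n a1 a2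
  exact le_min a1 a2

/-! ### generic points -/

/-- Countably many functions, Lipschitz on an open set `Ω` of a finite-dimensional space, and a
measurable `A ⊆ Ω` of positive measure: a point of `A` where all of them are differentiable. -/
theorem exists_generic {E : Type*} [NormedAddCommGroup E] [NormedSpace ℝ E]
    [FiniteDimensional ℝ E] [MeasurableSpace E] [BorelSpace E] (μ : Measure E)
    [μ.IsAddHaarMeasure] {Ω A : Set E} (hΩ : IsOpen Ω) (hA : A ⊆ Ω) (hμ : μ A ≠ 0)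
    (K : ℕ → ℝ≥0) (ψ : ℕ → E → ℝ) (hψ : ∀ j, LipschitzOnWith (K j) (ψ j) Ω) :
    ∃ x ∈ A, ∀ j, DifferentiableAt ℝ (ψ j) x := by
  have h1 : ∀ᵐ x ∂μ, ∀ j, x ∈ Ω → DifferentiableWithinAt ℝ (ψ j) Ω x := by
    rw [ae_all_iff]
    intro j
    exact (hψ j).ae_differentiableWithinAt_of_mem
  by_contra hcon
  push Not at hcon
  apply hμ
  have h2 : A ⊆ {x | ¬ ∀ j, x ∈ Ω → DifferentiableWithinAt ℝ (ψ j) Ω x} := by
    intro x hx hx2
    obtain ⟨j, hj⟩ := hcon x hx
    exact hj ((hx2 j (hA hx)).differentiableAt (hΩ.mem_nhds (hA hx)))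
  exact measure_mono_null h2 h1

theorem lip_of_abs {f : ℝ → ℝ} {K : ℝ} {S : Set ℝ} (hK : 0 ≤ K)
    (h : ∀ x ∈ S, ∀ y ∈ S, |f x - f y| ≤ K * |x - y|) : LipschitzOnWith K.toNNReal f S := by
  refine LipschitzOnWith.of_dist_le_mul fun x hx y hy => ?_
  rw [Real.coe_toNNReal _ hK, Real.dist_eq, Real.dist_eq]
  exact h x hx y hy

/-- Integration of an a.e. differential inequality. -/
theorem sub_le_sub_of_ae_deriv_le {f g : ℝ → ℝ} {K : ℝ≥0} {a b : ℝ} (hab : a ≤ b)
    (hf : LipschitzOnWith K f (Set.Icc a b)) (hg : LipschitzOnWith K g (Set.Icc a b))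
    (h : ∀ᵐ x, x ∈ Set.Ioo a b → DifferentiableAt ℝ f x → DifferentiableAt ℝ g x →
      deriv f x ≤ deriv g x) : f b - f a ≤ g b - g a := by
  have huIcc : Set.uIcc a b = Set.Icc a b := Set.uIcc_of_le hab
  have hf' : AbsolutelyContinuousOnInterval f a b :=
    LipschitzOnWith.absolutelyContinuousOnInterval (K := K) (by rwa [huIcc])
  have hg' : AbsolutelyContinuousOnInterval g a b :=
    LipschitzOnWith.absolutelyContinuousOnInterval (K := K) (by rwa [huIcc])
  rw [← hf'.integral_deriv_eq_sub, ← hg'.integral_deriv_eq_sub]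
  have hdf : ∀ᵐ x, x ∈ Set.Icc a b → DifferentiableWithinAt ℝ f (Set.Icc a b) x :=
    hf.ae_differentiableWithinAt_of_mem
  have hdg : ∀ᵐ x, x ∈ Set.Icc a b → DifferentiableWithinAt ℝ g (Set.Icc a b) x :=
    hg.ae_differentiableWithinAt_of_mem
  refine intervalIntegral.integral_mono_ae_restrict hab hf'.intervalIntegrable_deriv
    hg'.intervalIntegrable_deriv ?_
  rw [EventuallyLE, ae_restrict_iff' measurableSet_Icc]
  have hne : ∀ᵐ x : ℝ, x ≠ a ∧ x ≠ b := by
    have h1 : ∀ᵐ x : ℝ, x ≠ a := by simp [ae_iff]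
    have h2 : ∀ᵐ x : ℝ, x ≠ b := by simp [ae_iff]
    filter_upwards [h1, h2] with x h1 h2 using ⟨h1, h2⟩
  filter_upwards [h, hdf, hdg, hne] with x h1 h2 h3 h4 hx
  have hxo : x ∈ Set.Ioo a b :=
    ⟨lt_of_le_of_ne hx.1 (Ne.symm h4.1), lt_of_le_of_ne hx.2 h4.2⟩
  have hn : Set.Icc a b ∈ 𝓝 x := Icc_mem_nhds hxo.1 hxo.2
  exact h1 hxo ((h2 hx).differentiableAt hn) ((h3 hx).differentiableAt hn)

/-- If `f b - f a > c (b - a)` there is a generic point where `f' > c` and all other functions are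
differentiable. -/
theorem exists_generic_deriv_gt {f : ℝ → ℝ} {K₀ : ℝ≥0} {a b c : ℝ} (hab : a < b)
    (hf : LipschitzOnWith K₀ f (Set.Icc a b)) (hc : c * (b - a) < f b - f a)
    (K : ℕ → ℝ≥0) (ψ : ℕ → ℝ → ℝ) (hψ : ∀ j, LipschitzOnWith (K j) (ψ j) (Set.Ioo a b)) :
    ∃ x ∈ Set.Ioo a b, DifferentiableAt ℝ f x ∧ c < deriv f x ∧
      ∀ j, DifferentiableAt ℝ (ψ j) x := by
  by_contra hcon
  push Not at hcon
  have h1 : ∀ᵐ x, ∀ j, x ∈ Set.Ioo a b → DifferentiableWithinAt ℝ (ψ j) (Set.Ioo a b) x := by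
    rw [ae_all_iff]
    intro j
    exact (hψ j).ae_differentiableWithinAt_of_mem
  set g : ℝ → ℝ := fun x => c * x with hg
  have hgl : LipschitzOnWith (Real.toNNReal |c|) g (Set.Icc a b) := by
    refine lip_of_abs (abs_nonneg c) fun x _ y _ => ?_
    rw [hg]
    simp only
    rw [← mul_sub, abs_mul]
  have hm := sub_le_sub_of_ae_deriv_le (K := max K₀ (Real.toNNReal |c|)) hab.le
    (hf.weaken (le_max_left _ _)) (hgl.weaken (le_max_right _ _)) (by
      filter_upwards [h1] with x h1 hx hdf _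
      have hψx : ∀ j, DifferentiableAt ℝ (ψ j) x := fun j =>
        (h1 j hx).differentiableAt (isOpen_Ioo.mem_nhds hx)
      by_contra hlt
      push Not at hlt
      have hdg : deriv g x = c := by
        rw [hg]
        simp
      rw [hdg] at hlt
      obtain ⟨j, hj⟩ := hcon x hx hdf hlt
      exact hj (hψx j))
  rw [hg] at hm
  simp only at hm
  nlinarith

end Crest.Agent.R138.Ex926
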