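import Crest.Agent.R138.Qf2_926
import Crest.Agent.R138.Zoom_926

/-!
# R138: zoom of profiles along blow-up sequences (helper926)

`IsTan P D ν x h lam` : along the sequence `x l` with scales `h l → 0`, the rescaled increments of
`ν` converge to `lam`, uniformly on the bounded subsets of the cone `D`.

`exists_qzoom` : finitely many profiles, one blow-up sequence: there is a speed `k → ∞` such that at
every slower speed `k'` the new base `d' = d ^ h (k' n)` sees the tangent functions `lam j` as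
profiles (`ZProf`) and all given sub-polynomial losses are still sub-polynomial.
-/

set_option autoImplicit false
set_option linter.unusedSectionVars false
set_option linter.unusedVariables false

open Filter Topology MeasureTheory
open scoped NNReal

namespace Crest.Agent.R138.Ex926

open Finset

variable {B : Base} {ι κ : ℕ → Type*} [∀ n, DecidableEq (ι n)] [∀ n, DecidableEq (κ n)] {m : ℕ}

/-- `lam` is the tangent function of `ν` along `(x l, h l)`, uniformly on bounded subsets of the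
cone `D` -/
def IsTan {V : Type*} [NormedAddCommGroup V] [NormedSpace ℝ V] (P D : Set V) (ν : V → ℝ)
    (x : ℕ → V) (h : ℕ → ℝ) (lam : V → ℝ) : Prop :=
  ∀ C ε : ℝ, 0 < ε → ∀ᶠ l in (atTop : Filter ℕ), ∀ c ∈ D, ‖c‖ ≤ C →
    x l + h l • c ∈ P ∧ |ν (x l + h l • c) - ν (x l) - h l * lam c| ≤ ε * h l

/-- **Zoomed profile**: `T n` = size of the class at the origin, the class of size parameter `c`
has size `T n * d ^ (-lam c)`. -/
structure ZProf (B : Base) {ι κ : ℕ → Type*} [∀ n, DecidableEq (ι n)] [∀ n, DecidableEq (κ n)]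
    {V : Type*} [LE V] [Norm V] (I : ∀ n, Finset (ι n)) (g : ∀ n, V → ι n → κ n) (D : Set V)
    (T : ℕ → ℝ) (lam : V → ℝ) : Prop where
  up : ∀ C ε : ℝ, 0 < ε → ∀ᶠ n in (U : Filter ℕ), ∀ c ∈ D, ‖c‖ ≤ C → ∀ i ∈ I n,
    ((cls (I n) (g n c) i).card : ℝ) ≤ T n * B.d n ^ (-(lam c + ε))
  num : ∀ C ε : ℝ, 0 < ε → ∀ᶠ n in (U : Filter ℕ), ∀ c ∈ D, ‖c‖ ≤ C → ∀ c' ∈ D, ‖c'‖ ≤ C →
    c ≤ c' → ∀ i ∈ I n,
    (((cls (I n) (g n c) i).image (g n c')).card : ℝ) ≤ B.d n ^ (-(lam c - lam c' + ε))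
  root : ∀ C ε : ℝ, 0 < ε → ∀ᶠ n in (U : Filter ℕ), ∀ c ∈ D, ‖c‖ ≤ C →
    (((I n).image (g n c)).card : ℝ) * T n ≤ (I n).card * B.d n ^ (lam c - ε)

theorem exists_qzoom (B : Base) {J : Type*} [Finite J] {I : ∀ n, Finset (ι n)}
    {κ : J → ℕ → Type*} [∀ j n, DecidableEq (κ j n)]
    {f : ∀ (j : J) (n : ℕ), (Fin m → ℝ) → ι n → κ j n} {P D : J → Set (Fin m → ℝ)}
    {ν lam : J → (Fin m → ℝ) → ℝ} (hν : ∀ j, QProf B I (f j) (P j) (ν j))
    {x : ℕ → (Fin m → ℝ)} {h : ℕ → ℝ} (hpos : ∀ l, 0 < h l)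
    (hD : ∀ j, 0 ∈ D j) (htan : ∀ j, IsTan (P j) (D j) (ν j) x h (lam j))
    (s : ℕ → ℕ → ℝ) (hs : ∀ i, B.Sub (s i)) :
    ∃ k : ℕ → ℕ, Tendsto k U atTop ∧ ∀ k' : ℕ → ℕ, Tendsto k' U atTop →
      (∀ᶠ n in (U : Filter ℕ), k' n ≤ k n) → ∃ B' : Base,
        (∀ n, B'.d n = B.d n ^ h (k' n)) ∧ (∀ n, B'.L n = h (k' n) * B.L n) ∧
        (∀ i, B'.Sub (s i)) ∧
        ∀ j, ZProf B' I (fun n c => f j n (x (k' n) + h (k' n) • c)) (D j)
          (fun n => B.d n ^ (-(ν j (x (k' n))))) (lam j) := by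
  classical
  set e : ℕ → ℝ := fun l => h l / ((l : ℝ) + 1) with he
  have he0 : ∀ l, 0 < e l := fun l => div_pos (hpos l) (by positivity)
  obtain ⟨k, hk, hk2⟩ := exists_diag (fun l n =>
    ((l : ℝ) ≤ h l * B.L n) ∧ (∀ i ≤ l, 0 < s i n ∧ |B.lg (s i) n| ≤ e l) ∧
    (∀ j, (∀ p ∈ P j, ∀ i ∈ I n,
        ((cls (I n) (f j n p) i).card : ℝ) ≤ B.d n ^ (-(ν j p + e l))) ∧
      (∀ q ∈ P j, ∀ p ∈ P j, q ≤ p → ∀ i ∈ I n,
        (((cls (I n) (f j n q) i).image (f j n p)).card : ℝ) ≤ B.d n ^ (-(ν j q - ν j p + e l))) ∧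
      (∀ p ∈ P j, (((I n).image (f j n p)).card : ℝ) ≤ (I n).card * B.d n ^ (ν j p - e l)))) (by
    intro l
    have h1 : ∀ᶠ n in (U : Filter ℕ), ∀ i ∈ Finset.range (l + 1), 0 < s i n ∧ |B.lg (s i) n| ≤ e l := by
      rw [Filter.eventually_all_finset]
      intro i _
      obtain ⟨a1, a2⟩ := Base.Sub.iff.1 (hs i)
      have a3 := (Metric.tendsto_nhds.1 a2) (e l) (he0 l)
      filter_upwards [a1, a3] with n b1 b2
      rw [Real.dist_eq, sub_zero] at b2
      exact ⟨b1, b2.le⟩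
    have h2 : ∀ᶠ n in (U : Filter ℕ), (l : ℝ) ≤ h l * B.L n := by
      filter_upwards [B.ev_L_ge ((l : ℝ) / h l)] with n hn
      rw [div_le_iff₀ (hpos l)] at hn
      linarith
    have h3 := Filter.eventually_all.2 fun j => ((hν j).up (e l) (he0 l)).and
      (((hν j).num (e l) (he0 l)).and ((hν j).root (e l) (he0 l)))
    filter_upwards [h1, h2, h3] with n a1 a2 a3
    exact ⟨a2, fun i hi => a1 i (Finset.mem_range.2 (Nat.lt_succ_of_le hi)), a3⟩)
  refine ⟨k, hk, fun k' hk' hle => ?_⟩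
  have hev : ∀ᶠ n in (U : Filter ℕ), (((k' n : ℕ) : ℝ) ≤ h (k' n) * B.L n) ∧
      (∀ i ≤ k' n, 0 < s i n ∧ |B.lg (s i) n| ≤ e (k' n)) ∧
    (∀ j, (∀ p ∈ P j, ∀ i ∈ I n,
        ((cls (I n) (f j n p) i).card : ℝ) ≤ B.d n ^ (-(ν j p + e (k' n)))) ∧
      (∀ q ∈ P j, ∀ p ∈ P j, q ≤ p → ∀ i ∈ I n,
        (((cls (I n) (f j n q) i).image (f j n p)).card : ℝ) ≤
          B.d n ^ (-(ν j q - ν j p + e (k' n)))) ∧
      (∀ p ∈ P j, (((I n).image (f j n p)).card : ℝ) ≤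
        (I n).card * B.d n ^ (ν j p - e (k' n)))) := by
    filter_upwards [hk2, hle] with n h1 h2
    exact h1 _ h2
  have hL : Tendsto (fun n => h (k' n) * B.L n) U atTop := by
    have h1 : Tendsto (fun n => (k' n : ℝ)) U atTop := tendsto_natCast_atTop_atTop.comp hk'
    exact tendsto_atTop_mono' _ (hev.mono fun n hn => hn.1) h1
  set B' : Base := B.chg (fun n => h (k' n)) (fun n => hpos _) hL with hB'
  have hsm : ∀ ε : ℝ, 0 < ε → ∀ᶠ n in (U : Filter ℕ), e (k' n) ≤ ε * h (k' n) := by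
    intro ε hε
    obtain ⟨N, hN⟩ := exists_nat_gt (1 / ε)
    filter_upwards [hk'.eventually_ge_atTop N] with n hn
    have h2 : (N : ℝ) ≤ k' n := by exact_mod_cast hn
    have h3 : 1 / ((k' n : ℝ) + 1) ≤ ε := by
      rw [div_le_iff₀ (by positivity)]
      rw [div_lt_iff₀ hε] at hN
      nlinarith
    have h4 := mul_le_mul_of_nonneg_right h3 (hpos (k' n)).le
    calc e (k' n) = 1 / ((k' n : ℝ) + 1) * h (k' n) := by rw [he]; simp only; ring
      _ ≤ _ := h4
  have hd' : ∀ n t, B'.d n ^ t = B.d n ^ (h (k' n) * t) := by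
    intro n t
    show (B.d n ^ h (k' n)) ^ t = _
    rw [← Real.rpow_mul (B.pos n).le]
  have hmon : ∀ n {a b : ℝ}, a ≤ b → B.d n ^ b ≤ B.d n ^ a := fun n a b hab =>
    Real.rpow_le_rpow_of_exponent_ge (B.pos n) (B.lt n).le hab
  refine ⟨B', fun n => rfl, fun n => B.chg_L _ _ hL n, fun i => ?_, fun j => ⟨?_, ?_, ?_⟩⟩
  · rw [Base.Sub.iff]
    refine ⟨(hs i).1.pos, ?_⟩
    rw [Metric.tendsto_nhds]
    intro ε hε
    filter_upwards [hev, hsm (ε / 2) (by positivity), hk'.eventually_ge_atTop i] with n h1 h2 h3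
    rw [Real.dist_eq, sub_zero, hB', Base.chg_lg, abs_div, abs_of_pos (hpos _),
      div_lt_iff₀ (hpos _)]
    have h4 := (h1.2.1 i h3).2
    have h5 := hpos (k' n)
    nlinarith
  · intro C ε hε
    have ht := hk'.eventually (htan j (max C 0) (ε / 2) (by positivity))
    filter_upwards [hev, hsm (ε / 2) (by positivity), ht] with n h1 h2 h3 c hc hcC i hi
    obtain ⟨a1, a2⟩ := h3 c hc (hcC.trans (le_max_left _ _))
    refine ((h1.2.2 j).1 _ a1 i hi).trans ?_
    rw [hd', ← Real.rpow_add (B.pos n)]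
    refine hmon n ?_
    obtain ⟨b1, b2⟩ := abs_le.1 a2
    nlinarith
  · intro C ε hε
    have ht := hk'.eventually (htan j (max C 0) (ε / 3) (by positivity))
    filter_upwards [hev, hsm (ε / 3) (by positivity), ht] with n h1 h2 h3 c hc hcC c' hc' hcC' hcc i hi
    obtain ⟨a1, a2⟩ := h3 c hc (hcC.trans (le_max_left _ _))
    obtain ⟨a1', a2'⟩ := h3 c' hc' (hcC'.trans (le_max_left _ _))
    have hord : x (k' n) + h (k' n) • c ≤ x (k' n) + h (k' n) • c' := by
      intro a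
      have := mul_le_mul_of_nonneg_left (hcc a) (hpos (k' n)).le
      simp only [Pi.add_apply, Pi.smul_apply, smul_eq_mul]
      linarith
    refine ((h1.2.2 j).2.1 _ a1 _ a1' hord i hi).trans ?_
    rw [hd']
    refine hmon n ?_
    obtain ⟨b1, b2⟩ := abs_le.1 a2
    obtain ⟨b1', b2'⟩ := abs_le.1 a2'
    nlinarith
  · intro C ε hε
    have ht := hk'.eventually (htan j (max C 0) (ε / 2) (by positivity))
    filter_upwards [hev, hsm (ε / 2) (by positivity), ht] with n h1 h2 h3 c hc hcC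
    obtain ⟨a1, a2⟩ := h3 c hc (hcC.trans (le_max_left _ _))
    have h4 := (h1.2.2 j).2.2 _ a1
    have hdp := Real.rpow_pos_of_pos (B.pos n) (-(ν j (x (k' n))))
    calc _ ≤ ((I n).card * B.d n ^ (ν j (x (k' n) + h (k' n) • c) - e (k' n))) *
          B.d n ^ (-(ν j (x (k' n)))) := mul_le_mul_of_nonneg_right h4 hdp.le
      _ = (I n).card * B.d n ^ (ν j (x (k' n) + h (k' n) • c) - e (k' n) - ν j (x (k' n))) := by
          rw [mul_assoc, ← Real.rpow_add (B.pos n)]; congr 2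
      _ ≤ (I n).card * B'.d n ^ (lam j c - ε) := by
          refine mul_le_mul_of_nonneg_left ?_ (Nat.cast_nonneg _)
          rw [hd']
          refine hmon n ?_
          obtain ⟨b1, b2⟩ := abs_le.1 a2
          nlinarith

end Crest.Agent.R138.Ex926
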