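import Crest.Agent.R138.Wpk9_685

/-!
# R138 / R139: WAVE side, leaf W-f (helper101): dyadic classes of densities and coherence counts

Everything is generic in the density `A : α → Y → ℝ≥0∞` (`α` = caps, `Y` = positions), in the
relation `Rc : β → α → α → Prop` (thin rectangle with respect to a plate / frame `β`) and in the
finite set `U` of caps.
* `dy n T a` : dyadic index of `a ≤ T`, clipped at `n`;
* `pcnt U A Rc K0 b m y` = number of caps `m' ∈ U` with `Rc b m m'` and `A m y ≤ K0 * A m' y`;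
* `pr n c1 c2 = c1 + n * c2` : pairing of a class `c1 < n` with a class `c2`;
* `clsA` : the class (dyadic index of `A`, dyadic index of `pcnt`);
* `coh_upper` / `coh_lower` : the coherence property (upper and lower count).
-/

set_option autoImplicit false

open scoped ENNReal

namespace Crest.Agent.R138.Acl101

/-! ### dyadic index -/

open Classical in
/-- dyadic index of `a ≤ T`, clipped at `n`. -/
noncomputable def dy (n : ℕ) (T a : ℝ≥0∞) : ℕ :=
  ((Finset.range n).filter fun k => a ≤ T / 2 ^ (k + 1)).card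

theorem dy_le (n : ℕ) (T a : ℝ≥0∞) : dy n T a ≤ n := by
  classical
  unfold dy
  exact (Finset.card_filter_le _ _).trans (Finset.card_range n).le

theorem half_anti (T : ℝ≥0∞) {k k' : ℕ} (h : k ≤ k') : T / 2 ^ k' ≤ T / 2 ^ k := by
  refine ENNReal.div_le_div_left ?_ _
  exact pow_le_pow_right₀ (by norm_num) h

/-- the filter is an initial segment. -/
theorem dy_filter (n : ℕ) (T a : ℝ≥0∞) :
    ∃ j ≤ n, dy n T a = j ∧ (∀ k < j, a ≤ T / 2 ^ (k + 1)) ∧ (j < n → T / 2 ^ (j + 1) < a) := by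
  classical
  by_cases hall : ∀ k < n, a ≤ T / 2 ^ (k + 1)
  · refine ⟨n, le_rfl, ?_, hall, fun h => absurd h (lt_irrefl _)⟩
    unfold dy
    rw [Finset.filter_true_of_mem fun k hk => hall k (Finset.mem_range.1 hk), Finset.card_range]
  · push Not at hall
    set j := Nat.find hall with hj
    obtain ⟨hjn, hja⟩ := Nat.find_spec hall
    have hmin : ∀ k < j, a ≤ T / 2 ^ (k + 1) := by
      intro k hk
      have := Nat.find_min hall hk
      push Not at this
      exact this (hk.trans hjn)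
    refine ⟨j, hjn.le, ?_, hmin, fun _ => hja⟩
    unfold dy
    have e : (Finset.range n).filter (fun k => a ≤ T / 2 ^ (k + 1)) = Finset.range j := by
      ext k
      rw [Finset.mem_filter, Finset.mem_range, Finset.mem_range]
      constructor
      · rintro ⟨_, h2⟩
        by_contra hk
        exact absurd (h2.trans (half_anti T (by omega))) (not_le.2 hja)
      · intro hk
        exact ⟨hk.trans hjn, hmin k hk⟩
    rw [e, Finset.card_range]

theorem le_of_dy {n : ℕ} {T a : ℝ≥0∞} (ha : a ≤ T) : a ≤ T / 2 ^ dy n T a := by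
  obtain ⟨j, _, h1, h2, _⟩ := dy_filter n T a
  rw [h1]
  rcases j with _ | j
  · simpa using ha
  · exact h2 j (Nat.lt_succ_self j)

theorem lt_of_dy {n : ℕ} {T a : ℝ≥0∞} (h : dy n T a < n) : T / 2 ^ (dy n T a + 1) < a := by
  obtain ⟨j, _, h1, _, h3⟩ := dy_filter n T a
  rw [h1] at h ⊢
  exact h3 h

theorem half_double (T : ℝ≥0∞) (k : ℕ) : T / 2 ^ k = 2 * (T / 2 ^ (k + 1)) := by
  rw [pow_succ, div_eq_mul_inv, div_eq_mul_inv,
    ENNReal.mul_inv (Or.inl (pow_ne_zero _ (by norm_num))) (Or.inr (by norm_num))]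
  calc T * (2 ^ k)⁻¹ = T * (2 ^ k)⁻¹ * (2 * 2⁻¹) := by
        rw [ENNReal.mul_inv_cancel (by norm_num) (by norm_num), mul_one]
    _ = _ := by ring

/-- two values of the same (not clipped) index are comparable. -/
theorem le_two_mul_of_dy {n : ℕ} {T a a' : ℝ≥0∞} (ha : a ≤ T) (h : dy n T a = dy n T a')
    (hn : dy n T a < n) : a ≤ 2 * a' := by
  have h1 := le_of_dy (n := n) ha
  have h2 := lt_of_dy (T := T) (a := a') (n := n) (h ▸ hn)
  rw [half_double, h] at h1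
  exact h1.trans (by gcongr)

/-! ### coherence count -/

section count

variable {α β Y : Type*}

open Classical in
/-- number of caps of `U` in the rectangle of `m` (with respect to `b`) with comparable density. -/
noncomputable def pcnt (U : Finset α) (A : α → Y → ℝ≥0∞) (Rc : β → α → α → Prop) (K0 : ℝ≥0∞)
    (b : β) (m : α) (y : Y) : ℕ :=
  (U.filter fun m' => Rc b m m' ∧ A m y ≤ K0 * A m' y).card

variable {U : Finset α} {A : α → Y → ℝ≥0∞} {Rc : β → α → α → Prop} {K0 : ℝ≥0∞}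

theorem pcnt_le (b : β) (m : α) (y : Y) : pcnt U A Rc K0 b m y ≤ U.card := by
  classical
  exact Finset.card_filter_le _ _

/-- all the caps in the rectangle. -/
theorem pcnt_le_card {R : Finset α} {b : β} {m : α} (hR : ∀ m' ∈ U, Rc b m m' → m' ∈ R) (y : Y) :
    pcnt U A Rc K0 b m y ≤ R.card := by
  classical
  refine Finset.card_le_card fun m' hm' => ?_
  rw [Finset.mem_filter] at hm'
  exact hR m' hm'.1 hm'.2.1

theorem pcnt_pos {b : β} {m : α} {y : Y} (hm : m ∈ U) (hr : Rc b m m) (hK : 1 ≤ K0) :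
    0 < pcnt U A Rc K0 b m y := by
  classical
  refine Finset.card_pos.2 ⟨m, ?_⟩
  rw [Finset.mem_filter]
  exact ⟨hm, hr, le_mul_of_one_le_left zero_le hK⟩

/-- a set of caps which are all counted. -/
theorem le_pcnt {S : Finset α} {b : β} {m : α} {y : Y} (hS : S ⊆ U)
    (h : ∀ m' ∈ S, Rc b m m' ∧ A m y ≤ K0 * A m' y) : S.card ≤ pcnt U A Rc K0 b m y := by
  classical
  refine Finset.card_le_card fun m' hm' => ?_
  rw [Finset.mem_filter]
  exact ⟨hS hm', h m' hm'⟩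

/-- the counted set. -/
theorem exists_pcnt (b : β) (m : α) (y : Y) : ∃ S : Finset α, S ⊆ U ∧
    S.card = pcnt U A Rc K0 b m y ∧ ∀ m' ∈ S, Rc b m m' ∧ A m y ≤ K0 * A m' y := by
  classical
  refine ⟨U.filter fun m' => Rc b m m' ∧ A m y ≤ K0 * A m' y, Finset.filter_subset _ _, rfl,
    fun m' hm' => (Finset.mem_filter.1 hm').2⟩

/-! ### classes -/

/-- pairing of a class `c1 < n` with a class `c2`. -/
def pr (n c1 c2 : ℕ) : ℕ := c1 + n * c2

theorem pr_lt {n n' c1 c2 : ℕ} (h1 : c1 < n) (h2 : c2 < n') : pr n c1 c2 < n * n' := by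
  unfold pr
  have h3 : n * (c2 + 1) ≤ n * n' := Nat.mul_le_mul_left n h2
  rw [Nat.mul_add, Nat.mul_one] at h3
  omega

theorem pr_fst {n c1 c2 : ℕ} (h1 : c1 < n) : pr n c1 c2 % n = c1 := by
  unfold pr
  rw [Nat.add_mul_mod_self_left, Nat.mod_eq_of_lt h1]

theorem pr_snd {n c1 c2 : ℕ} (h1 : c1 < n) : pr n c1 c2 / n = c2 := by
  unfold pr
  rw [Nat.add_mul_div_left _ _ (by omega), Nat.div_eq_of_lt h1, zero_add]

theorem pr_inj {n c1 c2 c1' c2' : ℕ} (h1 : c1 < n) (h1' : c1' < n)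
    (h : pr n c1 c2 = pr n c1' c2') : c1 = c1' ∧ c2 = c2' := by
  constructor
  · rw [← pr_fst (c2 := c2) h1, h, pr_fst h1']
  · rw [← pr_snd (c2 := c2) h1, h, pr_snd h1']

/-- the class of `(m, y)` with respect to `b`: dyadic index of the density and of the count. -/
noncomputable def clsA (nA : ℕ) (T : ℝ≥0∞) (U : Finset α) (A : α → Y → ℝ≥0∞)
    (Rc : β → α → α → Prop) (K0 : ℝ≥0∞) (b : β) (m : α) (y : Y) : ℕ :=
  pr (nA + 1) (dy nA T (A m y)) (Nat.log 2 (pcnt U A Rc K0 b m y))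

variable {nA : ℕ} {T : ℝ≥0∞}

theorem clsA_lt (b : β) (m : α) (y : Y) :
    clsA nA T U A Rc K0 b m y < (nA + 1) * (Nat.log 2 U.card + 1) := by
  unfold clsA
  refine pr_lt (Nat.lt_succ_of_le (dy_le _ _ _)) (Nat.lt_succ_of_le ?_)
  exact Nat.log_mono_right (pcnt_le b m y)

theorem clsA_dy (b : β) (m : α) (y : Y) :
    clsA nA T U A Rc K0 b m y % (nA + 1) = dy nA T (A m y) :=
  pr_fst (Nat.lt_succ_of_le (dy_le _ _ _))

theorem clsA_log (b : β) (m : α) (y : Y) :
    clsA nA T U A Rc K0 b m y / (nA + 1) = Nat.log 2 (pcnt U A Rc K0 b m y) :=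
  pr_snd (Nat.lt_succ_of_le (dy_le _ _ _))

/-- **class specification**: in the class `c` with `c % (nA+1) < nA` the density is in
`(A0, 2 A0]`, `A0 = T / 2^(c % (nA+1) + 1)`, and the count in `[p, 2p)`, `p = 2^(c / (nA+1))`. -/
theorem clsA_spec {b : β} {m : α} {y : Y} {c : ℕ} (hc : clsA nA T U A Rc K0 b m y = c)
    (hcn : c % (nA + 1) < nA) (hT : A m y ≤ T) (hm : m ∈ U) (hr : Rc b m m) (hK : 1 ≤ K0) :
    T / 2 ^ (c % (nA + 1) + 1) < A m y ∧ A m y ≤ 2 * (T / 2 ^ (c % (nA + 1) + 1)) ∧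
      2 ^ (c / (nA + 1)) ≤ pcnt U A Rc K0 b m y ∧
      pcnt U A Rc K0 b m y < 2 * 2 ^ (c / (nA + 1)) := by
  rw [← hc, clsA_dy] at hcn
  have hp := pcnt_pos (A := A) (y := y) hm hr hK
  rw [← hc, clsA_dy, clsA_log]
  refine ⟨lt_of_dy hcn, ?_, Nat.pow_log_le_self 2 hp.ne', ?_⟩
  · rw [← half_double]; exact le_of_dy hT
  · have := Nat.lt_pow_succ_log_self (b := 2) (by norm_num) (pcnt U A Rc K0 b m y)
    rwa [Nat.succ_eq_add_one, pow_succ, mul_comm] at this

/-- **tiny class**: clipped index. -/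
theorem clsA_tiny {b : β} {m : α} {y : Y} {c : ℕ} (hc : clsA nA T U A Rc K0 b m y = c)
    (hcn : ¬ c % (nA + 1) < nA) (hT : A m y ≤ T) : A m y ≤ T / 2 ^ nA := by
  rw [← hc, clsA_dy] at hcn
  have h1 : dy nA T (A m y) = nA := le_antisymm (dy_le _ _ _) (not_lt.1 hcn)
  have := le_of_dy (n := nA) hT
  rwa [h1] at this

/-! ### coherence -/

/-- **coherence, upper count.** `near y y0` implies `A m y ≤ c1 * A m y0` for all caps `m`
(slowly varying), `2 * c1 ≤ K0`.  Every cap `m` in the rectangle of `m0` (with respect to `b0`)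
which has a point `y` of the same class near `y0` is counted at `(b0, m0, y0)`. -/
theorem coh_upper {near : Y → Y → Prop} {c1 : ℝ≥0∞}
    (hsv : ∀ m ∈ U, ∀ y y', near y y' → A m y ≤ c1 * A m y') (hc1 : 2 * c1 ≤ K0)
    {b0 : β} {m0 : α} {y0 : Y} {c : ℕ} (hc0 : clsA nA T U A Rc K0 b0 m0 y0 = c)
    (hcn : c % (nA + 1) < nA) (hT : A m0 y0 ≤ T) {S : Finset α} (hS : S ⊆ U)
    (hSc : ∀ m ∈ S, Rc b0 m0 m ∧ ∃ b y, near y y0 ∧ clsA nA T U A Rc K0 b m y = c) :
    S.card < 2 * 2 ^ (c / (nA + 1)) := by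
  have h1 : S.card ≤ pcnt U A Rc K0 b0 m0 y0 := by
    refine le_pcnt hS fun m hm => ?_
    obtain ⟨hr, b, y, hny, hcy⟩ := hSc m hm
    refine ⟨hr, ?_⟩
    have e : dy nA T (A m0 y0) = dy nA T (A m y) := by
      rw [← clsA_dy (U := U) (Rc := Rc) (K0 := K0) b0 m0 y0, hc0, ← hcy, clsA_dy]
    have hcn' : dy nA T (A m0 y0) < nA := by
      rwa [← clsA_dy (U := U) (Rc := Rc) (K0 := K0) b0 m0 y0, hc0]
    have h2 := le_two_mul_of_dy hT e hcn'
    calc A m0 y0 ≤ 2 * A m y := h2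
      _ ≤ 2 * (c1 * A m y0) := by gcongr; exact hsv m (hS hm) y y0 hny
      _ = 2 * c1 * A m y0 := by rw [mul_assoc]
      _ ≤ K0 * A m y0 := by gcongr
  have h3 := Nat.lt_pow_succ_log_self (b := 2) (by norm_num) (pcnt U A Rc K0 b0 m0 y0)
  rw [← clsA_log (nA := nA) (T := T) (A := A) b0 m0 y0, hc0, Nat.succ_eq_add_one, pow_succ,
    mul_comm] at h3
  exact h1.trans_lt h3

/-- **coherence, lower count.** A point of the class `c` has `2^(c/(nA+1))` caps in its rectangle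
with density at least `A0 / K0`, `A0 = T / 2^(c % (nA+1) + 1)`. -/
theorem coh_lower {b : β} {m : α} {y : Y} {c : ℕ} (hc : clsA nA T U A Rc K0 b m y = c)
    (hcn : c % (nA + 1) < nA) (hm : m ∈ U) (hr : Rc b m m) (hK : 1 ≤ K0) :
    ∃ S : Finset α, S ⊆ U ∧ 2 ^ (c / (nA + 1)) ≤ S.card ∧
      ∀ m' ∈ S, Rc b m m' ∧ T / 2 ^ (c % (nA + 1) + 1) ≤ K0 * A m' y := by
  obtain ⟨S, h1, h2, h3⟩ := exists_pcnt (U := U) (A := A) (Rc := Rc) (K0 := K0) b m y
  have hp := pcnt_pos (A := A) (y := y) hm hr hK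
  refine ⟨S, h1, ?_, fun m' hm' => ⟨(h3 m' hm').1, ?_⟩⟩
  · rw [h2, ← hc, clsA_log]
    exact Nat.pow_log_le_self 2 hp.ne'
  · rw [← hc, clsA_dy] at hcn ⊢
    exact (lt_of_dy hcn).le.trans (h3 m' hm').2

end count

/-! ### measurability -/

theorem card_filter_eq {κ : Type*} (s : Finset κ) (p : κ → Prop) [DecidablePred p] :
    (s.filter p).card = ∑ k ∈ s, if p k then 1 else 0 := by
  rw [Finset.card_filter]

theorem measurable_dy (n : ℕ) (T : ℝ≥0∞) : Measurable (dy n T) := by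
  classical
  have e : dy n T = fun a => ∑ k ∈ Finset.range n, if a ≤ T / 2 ^ (k + 1) then 1 else 0 := by
    funext a
    unfold dy
    rw [Finset.card_filter]
  rw [e]
  refine Finset.measurable_sum _ fun k _ => ?_
  exact Measurable.ite (measurableSet_le measurable_id measurable_const) measurable_const
    measurable_const

theorem measurable_pcnt {α β Y : Type*} [MeasurableSpace Y] (U : Finset α) {A : α → Y → ℝ≥0∞}
    (hA : ∀ m, Measurable (A m)) (Rc : β → α → α → Prop) (K0 : ℝ≥0∞) (b : β) (m : α) :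
    Measurable fun y => pcnt U A Rc K0 b m y := by
  classical
  have e : (fun y => pcnt U A Rc K0 b m y) = fun y => ∑ m' ∈ U,
      if Rc b m m' ∧ A m y ≤ K0 * A m' y then 1 else 0 := by
    funext y
    unfold pcnt
    rw [Finset.card_filter]
  rw [e]
  refine Finset.measurable_sum _ fun m' _ => ?_
  refine Measurable.ite ?_ measurable_const measurable_const
  have : {y | Rc b m m' ∧ A m y ≤ K0 * A m' y} = {_y | Rc b m m'} ∩ {y | A m y ≤ K0 * A m' y} := rfl
  rw [this]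
  exact (MeasurableSet.const _).inter (measurableSet_le (hA m) ((hA m').const_mul _))

theorem measurable_clsA {α β Y : Type*} [MeasurableSpace Y] (nA : ℕ) (T : ℝ≥0∞) (U : Finset α)
    {A : α → Y → ℝ≥0∞} (hA : ∀ m, Measurable (A m)) (Rc : β → α → α → Prop) (K0 : ℝ≥0∞) (b : β)
    (m : α) : Measurable fun y => clsA nA T U A Rc K0 b m y := by
  unfold clsA pr
  have h1 : Measurable fun y => Nat.log 2 (pcnt U A Rc K0 b m y) :=
    (measurable_from_top (f := Nat.log 2)).comp (measurable_pcnt U hA Rc K0 b m)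
  exact ((measurable_dy nA T).comp (hA m)).add (h1.const_mul _)

/-! ### number of classes -/

theorem logb_ceil_le {ε : ℝ} (hε : 0 < ε) {R : ℝ} (hR : 1 ≤ R) :
    (⌈Real.logb 2 R⌉₊ : ℝ) + 1 ≤ (2 / ε + 2) * R ^ ε := by
  have hR0 : 0 < R := by linarith
  have h1 : (⌈Real.logb 2 R⌉₊ : ℝ) < Real.logb 2 R + 1 :=
    Nat.ceil_lt_add_one (Real.logb_nonneg (by norm_num) hR)
  have h2 : Real.logb 2 R ≤ 2 * Real.log R := by
    unfold Real.logb
    have h3 := Real.log_two_gt_d9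
    have h4 : 0 ≤ Real.log R := Real.log_nonneg hR
    rw [div_le_iff₀ (by linarith)]
    nlinarith
  have h3 : Real.log R ≤ R ^ ε / ε := Real.log_le_rpow_div hR0.le hε
  have h4 : 1 ≤ R ^ ε := Real.one_le_rpow hR hε.le
  have h7 : (2 / ε + 2) * R ^ ε = 2 * (R ^ ε / ε) + 2 * R ^ ε := by ring
  rw [h7]
  linarith

/-- the number of classes: `nA = M ⌈log₂ R⌉`, `#U ≤ R^M`. -/
theorem nb_bound {ε : ℝ} (hε : 0 < ε) (M : ℕ) : ∃ C : ℝ, 0 ≤ C ∧ ∀ (R : ℝ) (c : ℕ), 1 ≤ R →
    (c : ℝ) ≤ R ^ M →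
    (((M * ⌈Real.logb 2 R⌉₊ + 1) * (Nat.log 2 c + 1) : ℕ) : ℝ) ≤ C * R ^ ε := by
  refine ⟨(M + 1) * (2 / (ε / 2) + 2) * ((M + 1) * (2 / (ε / 2) + 2)), by positivity, ?_⟩
  intro R c hR hc
  have hR0 : 0 < R := by linarith
  have h1 := logb_ceil_le (half_pos hε) hR
  have h4 : 1 ≤ R ^ (ε / 2) := Real.one_le_rpow hR (by positivity)
  have hl : (Nat.log 2 c : ℝ) ≤ M * ⌈Real.logb 2 R⌉₊ := by
    rcases Nat.eq_zero_or_pos c with rfl | hc0
    · simp; positivity
    have h5 : (2:ℝ) ^ Nat.log 2 c ≤ R ^ M := by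
      refine le_trans ?_ hc
      exact_mod_cast Nat.pow_log_le_self 2 hc0.ne'
    have h6 : R ^ M ≤ (2 ^ ⌈Real.logb 2 R⌉₊) ^ M := by
      have := Wpk685.two_pow_logb hR
      gcongr
    rw [← pow_mul] at h6
    have h7 : Nat.log 2 c ≤ ⌈Real.logb 2 R⌉₊ * M := by
      by_contra hcon
      push Not at hcon
      have := pow_lt_pow_right₀ (a := (2:ℝ)) (by norm_num) hcon
      linarith
    calc (Nat.log 2 c : ℝ) ≤ ((⌈Real.logb 2 R⌉₊ * M : ℕ) : ℝ) := by exact_mod_cast h7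
      _ = _ := by push_cast; ring
  have h8 : (M:ℝ) * ⌈Real.logb 2 R⌉₊ + 1 ≤ (M + 1) * (2 / (ε / 2) + 2) * R ^ (ε / 2) := by
    have h9 : (M:ℝ) * ⌈Real.logb 2 R⌉₊ + 1 ≤ (M + 1) * (⌈Real.logb 2 R⌉₊ + 1) := by
      have : (0:ℝ) ≤ M := Nat.cast_nonneg _
      have : (0:ℝ) ≤ ⌈Real.logb 2 R⌉₊ := Nat.cast_nonneg _
      nlinarith
    refine h9.trans ?_
    rw [mul_assoc]
    gcongr
  have e : R ^ ε = R ^ (ε / 2) * R ^ (ε / 2) := by
    rw [← Real.rpow_add hR0]
    congr 1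
    ring
  push_cast
  calc ((M:ℝ) * ⌈Real.logb 2 R⌉₊ + 1) * (Nat.log 2 c + 1)
      ≤ ((M + 1) * (2 / (ε / 2) + 2) * R ^ (ε / 2)) * ((M + 1) * (2 / (ε / 2) + 2) * R ^ (ε / 2)) := by
        gcongr
        linarith
    _ = _ := by rw [e]; ring

end Crest.Agent.R138.Acl101
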