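import Mathlib
import Crest.Agent.R138.Uni_926

/-!
# R138, TEXT I: sampling of lines (helper628)

After a zoom every finest class contains a super-polynomial number of lines.  `sample` keeps a
`1/K`-part of the **lines** (with all their incidences: the own structure is untouched), such that a
dense part of the remaining incidences has at most `16` incidences in every finest class.

* `kcut` : greedy colouring (a `K`-cut) : at most a `1/K`-part of a weighted graph is monochromatic;
* `sample_aux` : finite sampling lemma, all classes of size at most `K`;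
* `sample` : no hypothesis on the sizes of the classes (one dyadic pigeonhole, loss `log #I`).
-/

set_option autoImplicit false
set_option linter.unusedSectionVars false
set_option linter.unusedVariables false

open Finset

namespace Crest.Agent.R138.Samp628

open Crest.Agent.R138.Ex926 (cls mem_cls)

section kcut

variable {α : Type*} [DecidableEq α]

/-- weight of the monochromatic pairs -/
noncomputable def mono {K : ℕ} (w : α → α → ℝ) (T : Finset α) (col : α → Fin K) : ℝ :=
  ∑ a ∈ T, ∑ b ∈ T, if a ≠ b ∧ col a = col b then w a b else 0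

/-- total weight off the diagonal -/
noncomputable def tot (w : α → α → ℝ) (T : Finset α) : ℝ :=
  ∑ a ∈ T, ∑ b ∈ T, if a ≠ b then w a b else 0

theorem mono_insert {K : ℕ} (w : α → α → ℝ) {T : Finset α} {a : α} (ha : a ∉ T)
    (col : α → Fin K) (k : Fin K) :
    mono w (insert a T) (Function.update col a k) =
      mono w T col + ∑ b ∈ T, (if k = col b then w a b + w b a else 0) := by
  unfold mono
  have hup : ∀ b ∈ T, Function.update col a k b = col b := by
    intro b hb
    have hba : b ≠ a := fun h => ha (h ▸ hb)
    exact Function.update_of_ne hba _ _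
  have hne : ∀ b ∈ T, b ≠ a := fun b hb h => ha (h ▸ hb)
  rw [sum_insert ha, sum_insert ha]
  simp only [ne_eq, not_true_eq_false, false_and, if_false, zero_add]
  have h1 : ∑ b ∈ T, (if ¬a = b ∧ Function.update col a k a = Function.update col a k b then
      w a b else 0) = ∑ b ∈ T, (if k = col b then w a b else 0) := by
    apply sum_congr rfl
    intro b hb
    rw [hup b hb, Function.update_self]
    have : ¬ a = b := fun h => hne b hb h.symm
    simp [this]
  have h2 : ∑ x ∈ T, ∑ b ∈ insert a T,
      (if ¬x = b ∧ Function.update col a k x = Function.update col a k b then w x b else 0) =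
      ∑ x ∈ T, (if k = col x then w x a else 0) +
        ∑ x ∈ T, ∑ b ∈ T, (if ¬x = b ∧ col x = col b then w x b else 0) := by
    rw [← sum_add_distrib]
    apply sum_congr rfl
    intro x hx
    rw [sum_insert ha]
    congr 1
    · rw [hup x hx, Function.update_self]
      have : ¬ x = a := hne x hx
      simp only [this, not_false_eq_true, true_and]
      by_cases h : k = col x
      · simp [h]
      · have h' : ¬ col x = k := fun e => h e.symm
        simp [h, h']
    · apply sum_congr rfl
      intro b hb
      rw [hup x hx, hup b hb]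
  rw [h1, h2]
  have h3 : ∑ b ∈ T, (if k = col b then w a b + w b a else 0) =
      ∑ b ∈ T, (if k = col b then w a b else 0) + ∑ b ∈ T, (if k = col b then w b a else 0) := by
    rw [← sum_add_distrib]
    apply sum_congr rfl
    intro b _
    split_ifs <;> simp
  rw [h3]
  ring

theorem tot_insert (w : α → α → ℝ) {T : Finset α} {a : α} (ha : a ∉ T) :
    tot w (insert a T) = tot w T + ∑ b ∈ T, (w a b + w b a) := by
  unfold tot
  have hne : ∀ b ∈ T, b ≠ a := fun b hb h => ha (h ▸ hb)
  rw [sum_insert ha, sum_insert ha]
  simp only [ne_eq, not_true_eq_false, if_false, zero_add]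
  have h1 : ∑ b ∈ T, (if ¬a = b then w a b else 0) = ∑ b ∈ T, w a b := by
    apply sum_congr rfl
    intro b hb
    have : ¬ a = b := fun h => hne b hb h.symm
    simp [this]
  have h2 : ∑ x ∈ T, ∑ b ∈ insert a T, (if ¬x = b then w x b else 0) =
      ∑ x ∈ T, w x a + ∑ x ∈ T, ∑ b ∈ T, (if ¬x = b then w x b else 0) := by
    rw [← sum_add_distrib]
    apply sum_congr rfl
    intro x hx
    rw [sum_insert ha]
    congr 1
    have : ¬ x = a := hne x hx
    simp [this]
  rw [h1, h2, sum_add_distrib]
  ring

/-- **greedy `K`-cut** -/
theorem kcut {K : ℕ} (hK : 0 < K) (w : α → α → ℝ) (T : Finset α) :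
    ∃ col : α → Fin K, (K : ℝ) * mono w T col ≤ tot w T := by
  have : Nonempty (Fin K) := ⟨⟨0, hK⟩⟩
  induction T using Finset.induction_on with
  | empty => exact ⟨fun _ => ⟨0, hK⟩, by simp [mono, tot]⟩
  | @insert a T ha ih =>
    obtain ⟨col, hcol⟩ := ih
    obtain ⟨k, hk⟩ := Finite.exists_min
      (fun k : Fin K => ∑ b ∈ T, (if k = col b then w a b + w b a else 0))
    refine ⟨Function.update col a k, ?_⟩
    rw [mono_insert w ha, tot_insert w ha, mul_add]
    refine add_le_add hcol ?_
    have h1 : ∑ j : Fin K, ∑ b ∈ T, (if j = col b then w a b + w b a else 0) =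
        ∑ b ∈ T, (w a b + w b a) := by
      rw [sum_comm]
      apply sum_congr rfl
      intro b _
      simp
    rw [← h1]
    calc (K : ℝ) * ∑ b ∈ T, (if k = col b then w a b + w b a else 0)
        = ∑ j : Fin K, ∑ b ∈ T, (if k = col b then w a b + w b a else 0) := by
          rw [sum_const, card_univ, Fintype.card_fin, nsmul_eq_mul]
      _ ≤ _ := sum_le_sum fun j _ => hk j

end kcut

section samp

variable {ι κ α : Type*} [DecidableEq ι] [DecidableEq κ] [DecidableEq α]

/-- number of ordered pairs of one class -/
def prs (A : Finset ι) (c : ι → κ) : ℕ := ∑ i ∈ A, (cls A c i).card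

theorem prs_eq (A : Finset ι) (c : ι → κ) :
    prs A c = ∑ i ∈ A, ∑ j ∈ A, (if c j = c i then 1 else 0) := by
  unfold prs
  apply sum_congr rfl
  intro i _
  rw [cls, card_filter]

/-- the part of colour `k` -/
def part {K : ℕ} (I : Finset ι) (line : ι → α) (col : α → Fin K) (k : Fin K) : Finset ι :=
  I.filter fun i => col (line i) = k

theorem sum_part {K : ℕ} (I : Finset ι) (line : ι → α) (col : α → Fin K) :
    ∑ k : Fin K, (part I line col k).card = I.card := by
  unfold part
  exact (card_eq_sum_card_fiberwise (s := I) (t := (univ : Finset (Fin K)))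
    (f := fun i => col (line i)) (fun i _ => mem_univ _)).symm

/-- there is a colouring of the lines such that the colour classes contain together at most
`#I + T #I` ordered pairs, if all classes have at most `K T` elements. -/
theorem exists_col {K : ℕ} (hK : 0 < K) {T : ℕ} (I : Finset ι) (line : ι → α) (c : ι → κ)
    (hinj : ∀ i ∈ I, ∀ j ∈ I, c i = c j → line i = line j → i = j)
    (hsz : ∀ i ∈ I, (cls I c i).card ≤ K * T) :
    ∃ col : α → Fin K, ∑ k : Fin K, prs (part I line col k) c ≤ (1 + T) * I.card := by
  set w : α → α → ℝ := fun a b => ∑ i ∈ I, ∑ j ∈ I,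
    (if line i = a ∧ line j = b ∧ c j = c i then (1 : ℝ) else 0) with hw
  obtain ⟨col, hcol⟩ := kcut hK w (I.image line)
  refine ⟨col, ?_⟩
  -- total weight
  have htot : tot w (I.image line) ≤ K * T * I.card := by
    have h1 : tot w (I.image line) ≤ ∑ a ∈ I.image line, ∑ b ∈ I.image line, w a b := by
      unfold tot
      apply sum_le_sum; intro a _
      apply sum_le_sum; intro b _
      split_ifs
      · exact le_rfl
      · exact sum_nonneg fun i _ => sum_nonneg fun j _ => by split_ifs <;> norm_num
    have h2 : ∑ a ∈ I.image line, ∑ b ∈ I.image line, w a b =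
        ∑ i ∈ I, ∑ j ∈ I, (if c j = c i then (1 : ℝ) else 0) := by
      simp only [hw]
      calc ∑ a ∈ I.image line, ∑ b ∈ I.image line, ∑ i ∈ I, ∑ j ∈ I,
            (if line i = a ∧ line j = b ∧ c j = c i then (1 : ℝ) else 0)
          = ∑ a ∈ I.image line, ∑ i ∈ I, ∑ j ∈ I, ∑ b ∈ I.image line,
            (if line i = a ∧ line j = b ∧ c j = c i then (1 : ℝ) else 0) := by
            apply sum_congr rfl; intro a _
            rw [sum_comm]
            apply sum_congr rfl; intro i _
            rw [sum_comm]
        _ = ∑ i ∈ I, ∑ j ∈ I, ∑ a ∈ I.image line, ∑ b ∈ I.image line,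
            (if line i = a ∧ line j = b ∧ c j = c i then (1 : ℝ) else 0) := by
            rw [sum_comm]
            apply sum_congr rfl; intro i _
            rw [sum_comm]
        _ = _ := by
            apply sum_congr rfl; intro i hi
            apply sum_congr rfl; intro j hj
            have hi' : line i ∈ I.image line := mem_image_of_mem _ hi
            have hj' : line j ∈ I.image line := mem_image_of_mem _ hj
            rw [sum_eq_single_of_mem (line i) hi']
            · rw [sum_eq_single_of_mem (line j) hj']
              · simp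
              · intro b _ hb
                have : ¬ line j = b := fun h => hb h.symm
                simp [this]
            · intro a _ ha
              apply sum_eq_zero
              intro b _
              have : ¬ line i = a := fun h => ha h.symm
              simp [this]
    have h3 : ∑ i ∈ I, ∑ j ∈ I, (if c j = c i then (1 : ℝ) else 0) ≤ ∑ i ∈ I, (K * T : ℝ) := by
      apply sum_le_sum
      intro i hi
      have : ∑ j ∈ I, (if c j = c i then (1 : ℝ) else 0) = ((cls I c i).card : ℝ) := by
        rw [cls, card_filter]; push_cast; rfl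
      rw [this]
      exact_mod_cast hsz i hi
    rw [sum_const, nsmul_eq_mul] at h3
    linarith [h1, h2.le, h3]
  -- monochromatic weight
  have hmono : (∑ k : Fin K, (prs (part I line col k) c : ℝ)) ≤
      I.card + mono w (I.image line) col := by
    have h1 : ∀ k : Fin K, (prs (part I line col k) c : ℝ) =
        ∑ i ∈ I, ∑ j ∈ I, (if col (line i) = k ∧ col (line j) = k ∧ c j = c i then (1 : ℝ) else 0) := by
      intro k
      rw [prs_eq]
      push_cast
      unfold part
      rw [sum_filter]
      apply sum_congr rfl; intro i _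
      rw [sum_filter]
      by_cases h : col (line i) = k
      · simp only [h, if_true, true_and]
        apply sum_congr rfl; intro j _
        by_cases h2 : col (line j) = k <;> simp [h2]
      · simp [h]
    have h2 : (∑ k : Fin K, (prs (part I line col k) c : ℝ)) =
        ∑ i ∈ I, ∑ j ∈ I, (if col (line i) = col (line j) ∧ c j = c i then (1 : ℝ) else 0) := by
      simp only [h1]
      rw [sum_comm]
      apply sum_congr rfl; intro i _
      rw [sum_comm]
      apply sum_congr rfl; intro j _
      rw [sum_eq_single_of_mem (col (line i)) (mem_univ _)]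
      · by_cases h : col (line i) = col (line j)
        · simp [h]
        · have h' : ¬ col (line j) = col (line i) := fun e => h e.symm
          simp [h, h']
      · intro k _ hk
        have : ¬ col (line i) = k := fun h => hk h.symm
        simp [this]
    rw [h2]
    have h3 : mono w (I.image line) col = ∑ i ∈ I, ∑ j ∈ I,
        (if line i ≠ line j ∧ col (line i) = col (line j) ∧ c j = c i then (1 : ℝ) else 0) := by
      unfold mono
      calc ∑ a ∈ I.image line, ∑ b ∈ I.image line, (if a ≠ b ∧ col a = col b then w a b else 0)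
          = ∑ a ∈ I.image line, ∑ b ∈ I.image line, ∑ i ∈ I, ∑ j ∈ I,
            (if line i = a ∧ line j = b ∧ (a ≠ b ∧ col a = col b ∧ c j = c i)
              then (1 : ℝ) else 0) := by
            apply sum_congr rfl; intro a _
            apply sum_congr rfl; intro b _
            by_cases h : a ≠ b ∧ col a = col b
            · rw [if_pos h, hw]
              apply sum_congr rfl; intro i _
              apply sum_congr rfl; intro j _
              simp only [h.1, h.2, ne_eq, not_false_eq_true, true_and]
            · rw [if_neg h]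
              symm
              apply sum_eq_zero; intro i _
              apply sum_eq_zero; intro j _
              rw [if_neg]
              intro h0
              exact h ⟨h0.2.2.1, h0.2.2.2.1⟩
        _ = ∑ a ∈ I.image line, ∑ i ∈ I, ∑ j ∈ I, ∑ b ∈ I.image line,
            (if line i = a ∧ line j = b ∧ (a ≠ b ∧ col a = col b ∧ c j = c i)
              then (1 : ℝ) else 0) := by
            apply sum_congr rfl; intro a _
            rw [sum_comm]
            apply sum_congr rfl; intro i _
            rw [sum_comm]
        _ = ∑ i ∈ I, ∑ j ∈ I, ∑ a ∈ I.image line, ∑ b ∈ I.image line,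
            (if line i = a ∧ line j = b ∧ (a ≠ b ∧ col a = col b ∧ c j = c i)
              then (1 : ℝ) else 0) := by
            rw [sum_comm]
            apply sum_congr rfl; intro i _
            rw [sum_comm]
        _ = _ := by
            apply sum_congr rfl; intro i hi
            apply sum_congr rfl; intro j hj
            have hi' : line i ∈ I.image line := mem_image_of_mem _ hi
            have hj' : line j ∈ I.image line := mem_image_of_mem _ hj
            rw [sum_eq_single_of_mem (line i) hi']
            · rw [sum_eq_single_of_mem (line j) hj']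
              · simp
              · intro b _ hb
                have : ¬ line j = b := fun h => hb h.symm
                simp [this]
            · intro a _ ha
              apply sum_eq_zero
              intro b _
              have : ¬ line i = a := fun h => ha h.symm
              simp [this]
    have h4 : (I.card : ℝ) = ∑ i ∈ I, ∑ j ∈ I, (if j = i then (1 : ℝ) else 0) := by
      rw [card_eq_sum_ones]
      push_cast
      apply sum_congr rfl
      intro i hi
      rw [sum_ite_eq' I i]
      simp [hi]
    rw [h3, h4, ← sum_add_distrib]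
    apply sum_le_sum; intro i hi
    rw [← sum_add_distrib]
    apply sum_le_sum; intro j hj
    by_cases h : col (line i) = col (line j) ∧ c j = c i
    · rw [if_pos h]
      by_cases h5 : line i = line j
      · have h6 : i = j := hinj i hi j hj h.2.symm h5
        subst h6
        simp
      · have h6 : line i ≠ line j ∧ col (line i) = col (line j) ∧ c j = c i := ⟨h5, h.1, h.2⟩
        rw [if_pos h6]
        split_ifs <;> norm_num
    · rw [if_neg h]
      split_ifs <;> norm_num
  have hKr : (0 : ℝ) < K := by exact_mod_cast hK
  have h5 : mono w (I.image line) col ≤ T * I.card := by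
    have : (K : ℝ) * mono w (I.image line) col ≤ K * (T * I.card) := by
      calc (K : ℝ) * mono w (I.image line) col ≤ tot w (I.image line) := hcol
        _ ≤ _ := by rw [← mul_assoc]; exact htot
    exact le_of_mul_le_mul_left this hKr
  have h6 : (∑ k : Fin K, (prs (part I line col k) c : ℝ)) ≤ (1 + T) * I.card := by
    linarith
  exact_mod_cast h6

/-- the incidences in classes of at most `A` elements -/
def good (J : Finset ι) (c : ι → κ) (A : ℕ) : Finset ι := J.filter fun i => (cls J c i).card ≤ A

theorem cls_good {J : Finset ι} {c : ι → κ} {A : ℕ} {i : ι} (hi : i ∈ good J c A) :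
    cls (good J c A) c i = cls J c i := by
  ext j
  simp only [mem_cls, good, mem_filter] at hi ⊢
  constructor
  · rintro ⟨⟨h1, -⟩, h3⟩; exact ⟨h1, h3⟩
  · rintro ⟨h1, h3⟩
    refine ⟨⟨h1, ?_⟩, h3⟩
    rw [Ex926.cls_congr h3]
    exact hi.2

theorem card_bad (J : Finset ι) (c : ι → κ) (A : ℕ) :
    A * (J.card - (good J c A).card : ℝ) ≤ prs J c := by
  have h1 : (J.card : ℝ) - (good J c A).card = ((J.filter fun i => ¬ (cls J c i).card ≤ A).card : ℝ) := by
    have := card_filter_add_card_filter_not (s := J) (fun i => (cls J c i).card ≤ A)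
    have h2 : ((J.filter fun i => (cls J c i).card ≤ A).card : ℝ) +
        ((J.filter fun i => ¬ (cls J c i).card ≤ A).card : ℝ) = J.card := by exact_mod_cast this
    unfold good
    linarith
  rw [h1]
  unfold prs
  push_cast
  calc (A : ℝ) * ((J.filter fun i => ¬ (cls J c i).card ≤ A).card : ℝ)
      = ∑ i ∈ J.filter (fun i => ¬ (cls J c i).card ≤ A), (A : ℝ) := by
        rw [sum_const, nsmul_eq_mul, mul_comm]
    _ ≤ ∑ i ∈ J.filter (fun i => ¬ (cls J c i).card ≤ A), ((cls J c i).card : ℝ) := by
        apply sum_le_sum
        intro i hi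
        have := (mem_filter.1 hi).2
        exact_mod_cast (not_le.1 this).le
    _ ≤ _ := by
        apply sum_le_sum_of_subset_of_nonneg (filter_subset _ _)
        intro i _ _
        positivity

/-- **Sampling of lines**, finite form, relative to a part `I1` of `I` (sizes measured in `I1`). -/
theorem sample_aux {K : ℕ} (hK : 0 < K) {m : ℝ} (hm : 1 ≤ m) (I I1 : Finset ι) (hI1 : I1 ⊆ I)
    (hd : (I.card : ℝ) ≤ m * I1.card) (line : ι → α) (c : ι → κ)
    (hinj : ∀ i ∈ I1, ∀ j ∈ I1, c i = c j → line i = line j → i = j)
    (hsz : ∀ i ∈ I1, (cls I1 c i).card ≤ K) :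
    ∃ (col : α → Fin K) (k : Fin K) (I' : Finset ι),
      I' = good (part I1 line col k) c 8 ∧ I' ⊆ I1 ∧ (∀ i ∈ I', col (line i) = k) ∧
      ((part I line col k).card : ℝ) ≤ 4 * m * I'.card ∧ (I1.card : ℝ) ≤ 2 * K * I'.card ∧
      ∀ i ∈ I', (cls I' c i).card ≤ 8 := by
  have hKr : (0 : ℝ) < K := by exact_mod_cast hK
  have : Nonempty (Fin K) := ⟨⟨0, hK⟩⟩
  obtain ⟨col, hcol⟩ := exists_col hK (T := 1) I1 line c hinj (by simpa using hsz)
  have hcol' : (∑ k : Fin K, (prs (part I1 line col k) c : ℝ)) ≤ 2 * I1.card := by
    have : (∑ k : Fin K, (prs (part I1 line col k) c : ℝ)) ≤ ((1 + 1) * I1.card : ℕ) := by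
      exact_mod_cast hcol
    push_cast at this
    linarith
  -- good part of colour k
  set F : Fin K → ℝ := fun k => ((good (part I1 line col k) c 8).card : ℝ) -
    (1 / (4 * m)) * ((part I line col k).card : ℝ) with hF
  have hsum : (1 / 2 : ℝ) * I1.card ≤ ∑ k : Fin K, F k := by
    have h1 : ∀ k : Fin K, ((part I1 line col k).card : ℝ) -
        (1/8) * (prs (part I1 line col k) c : ℝ) ≤ ((good (part I1 line col k) c 8).card : ℝ) := by
      intro k
      have := card_bad (part I1 line col k) c 8
      push_cast at this
      linarith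
    have h2 : ∑ k : Fin K, (((part I1 line col k).card : ℝ) -
        (1/8) * (prs (part I1 line col k) c : ℝ) -
          (1 / (4 * m)) * ((part I line col k).card : ℝ)) ≤ ∑ k : Fin K, F k := by
      apply sum_le_sum
      intro k _
      have := h1 k
      simp only [hF]
      linarith
    rw [sum_sub_distrib, sum_sub_distrib, ← mul_sum, ← mul_sum] at h2
    have h3 : (∑ k : Fin K, ((part I1 line col k).card : ℝ)) = I1.card := by
      exact_mod_cast sum_part I1 line col
    have h4 : (∑ k : Fin K, ((part I line col k).card : ℝ)) = I.card := by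
      exact_mod_cast sum_part I line col
    rw [h3, h4] at h2
    have h5 : (1 / (4 * m)) * (I.card : ℝ) ≤ (1/4) * I1.card := by
      rw [div_mul_eq_mul_div, one_mul, div_le_iff₀ (by linarith)]
      calc (I.card : ℝ) ≤ m * I1.card := hd
        _ = 1 / 4 * (I1.card : ℝ) * (4 * m) := by ring
    linarith
  obtain ⟨k, hk⟩ := Finite.exists_max F
  have hk2 : (1 / 2 : ℝ) * I1.card ≤ K * F k := by
    calc (1 / 2 : ℝ) * I1.card ≤ ∑ j : Fin K, F j := hsum
      _ ≤ ∑ j : Fin K, F k := sum_le_sum fun j _ => hk j
      _ = K * F k := by rw [sum_const, card_univ, Fintype.card_fin, nsmul_eq_mul]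
  refine ⟨col, k, good (part I1 line col k) c 8, rfl, ?_, ?_, ?_, ?_, ?_⟩
  · exact (filter_subset _ _).trans (filter_subset _ _)
  · intro i hi
    exact (mem_filter.1 (mem_filter.1 hi).1).2
  · have h6 : 0 ≤ F k := by
      by_contra h
      push Not at h
      have : (K : ℝ) * F k < 0 := mul_neg_of_pos_of_neg hKr h
      have : (0 : ℝ) ≤ (1 / 2 : ℝ) * I1.card := by positivity
      linarith
    simp only [hF] at h6
    have h7 : (1 / (4 * m)) * ((part I line col k).card : ℝ) ≤
        ((good (part I1 line col k) c 8).card : ℝ) := by linarith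
    rw [div_mul_eq_mul_div, one_mul, div_le_iff₀ (by linarith)] at h7
    linarith
  · have h8 : F k ≤ ((good (part I1 line col k) c 8).card : ℝ) := by
      simp only [hF]
      have : 0 ≤ (1 / (4 * m)) * ((part I line col k).card : ℝ) := by positivity
      linarith
    have h9 : (K : ℝ) * F k ≤ K * ((good (part I1 line col k) c 8).card : ℝ) :=
      mul_le_mul_of_nonneg_left h8 hKr.le
    linarith
  · intro i hi
    rw [cls_good hi]
    exact (mem_filter.1 hi).2

/-- one dyadic pigeonhole on the sizes of the classes -/
theorem exists_dyadic (I : Finset ι) (hI : I.Nonempty) (c : ι → κ) :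
    ∃ k : ℕ, k ≤ Nat.log 2 I.card ∧
      (I.card : ℝ) ≤ ((Nat.log 2 I.card : ℕ) + 1 : ℝ) *
        ((I.filter fun i => Nat.log 2 (cls I c i).card = k).card : ℝ) := by
  set N := Nat.log 2 I.card with hN
  have hmem : ∀ i ∈ I, Nat.log 2 (cls I c i).card ∈ Finset.range (N + 1) := by
    intro i _
    rw [mem_range, Nat.lt_succ_iff]
    exact Nat.log_mono_right (card_le_card (Ex926.cls_subset I c i))
  have hsum : (I.card : ℝ) = ∑ k ∈ Finset.range (N + 1),
      ((I.filter fun i => Nat.log 2 (cls I c i).card = k).card : ℝ) := by
    have := card_eq_sum_card_fiberwise (s := I) (t := Finset.range (N + 1))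
      (f := fun i => Nat.log 2 (cls I c i).card) (fun i hi => by exact_mod_cast hmem i hi)
    exact_mod_cast this
  obtain ⟨k, hk, hmax⟩ := Finset.exists_max_image (Finset.range (N + 1))
    (fun k => ((I.filter fun i => Nat.log 2 (cls I c i).card = k).card : ℝ)) ⟨0, by simp⟩
  refine ⟨k, by simpa [Nat.lt_succ_iff] using hk, ?_⟩
  calc (I.card : ℝ) = ∑ k ∈ Finset.range (N + 1),
      ((I.filter fun i => Nat.log 2 (cls I c i).card = k).card : ℝ) := hsum
    _ ≤ ∑ _j ∈ Finset.range (N + 1),
      ((I.filter fun i => Nat.log 2 (cls I c i).card = k).card : ℝ) :=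
        sum_le_sum fun j hj => hmax j hj
    _ = _ := by rw [sum_const, card_range, nsmul_eq_mul]; push_cast; ring

/-- **Sampling of lines.** `I` incidences, `c` finest class (at most one incidence of a line in a
class).  There are `K ≥ 1`, a set of lines `Λ` and a part `I'` of the incidences of `Λ` such that
`I'` is dense in the set of all incidences of `Λ`, `#I ≤ 2 m K #I'`, every class of `I'` has at most
`8` elements, and for every property `P` the part of `I'` in `P` is at most a `16/K`-part of the part
of `I` in the union of the classes meeting `P`. (`m = 1 + log₂ #I`) -/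
theorem sample (I : Finset ι) (hI : I.Nonempty) (line : ι → α) (c : ι → κ)
    (hinj : ∀ i ∈ I, ∀ j ∈ I, c i = c j → line i = line j → i = j) :
    ∃ (K : ℕ) (Λ : Set α) (I' : Finset ι), 1 ≤ K ∧ K ≤ 2 * I.card ∧ I' ⊆ I ∧ I'.Nonempty ∧
      (∀ i ∈ I', line i ∈ Λ) ∧
      (∀ J : Finset ι, J ⊆ I → (∀ i ∈ J, line i ∈ Λ) →
        (J.card : ℝ) ≤ 4 * ((Nat.log 2 I.card : ℕ) + 1 : ℝ) * I'.card) ∧
      (I.card : ℝ) ≤ 2 * ((Nat.log 2 I.card : ℕ) + 1 : ℝ) * K * I'.card ∧
      (∀ i ∈ I', (cls I' c i).card ≤ 8) ∧
      (∀ i ∈ I', K ≤ 2 * (cls I c i).card ∧ (cls I c i).card ≤ K) ∧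
      ∀ A : Finset ι, A ⊆ I' → ∀ A' : Finset ι, A' ⊆ I →
        (∀ i ∈ A, ∀ j ∈ I, c j = c i → j ∈ A') → K * A.card ≤ 16 * A'.card := by
  obtain ⟨k, hk, hcard⟩ := exists_dyadic I hI c
  set m : ℝ := ((Nat.log 2 I.card : ℕ) + 1 : ℝ) with hm
  have hm1 : 1 ≤ m := by
    have : (0 : ℝ) ≤ (Nat.log 2 I.card : ℕ) := by positivity
    linarith
  set I1 : Finset ι := I.filter fun i => Nat.log 2 (cls I c i).card = k with hI1
  have hI1s : I1 ⊆ I := filter_subset _ _
  -- classes of I1 are full classes of I
  have hcls : ∀ i ∈ I1, cls I1 c i = cls I c i := by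
    intro i hi
    ext j
    simp only [mem_cls, hI1, mem_filter] at hi ⊢
    constructor
    · rintro ⟨⟨h1, -⟩, h3⟩; exact ⟨h1, h3⟩
    · rintro ⟨h1, h3⟩
      refine ⟨⟨h1, ?_⟩, h3⟩
      rw [Ex926.cls_congr h3]
      exact hi.2
  have hsize : ∀ i ∈ I1, 2 ^ (k + 1) ≤ 2 * (cls I c i).card ∧ (cls I c i).card ≤ 2 ^ (k + 1) := by
    intro i hi
    have h1 := (mem_filter.1 hi).2
    have h0 : (cls I c i).card ≠ 0 := by
      have : i ∈ cls I c i := mem_cls.2 ⟨(mem_filter.1 hi).1, rfl⟩
      exact (card_pos.2 ⟨i, this⟩).ne'
    have h2 := Nat.pow_log_le_self 2 h0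
    have h3 := Nat.lt_pow_succ_log_self (b := 2) (by norm_num) (cls I c i).card
    rw [h1] at h2 h3
    constructor
    · rw [pow_succ]; omega
    · exact h3.le
  have hI1ne : I1.Nonempty := by
    rw [nonempty_iff_ne_empty]
    intro h
    rw [h, card_empty] at hcard
    have : (0 : ℝ) < I.card := by exact_mod_cast card_pos.2 hI
    simp at hcard
    rw [hcard] at hI
    exact not_nonempty_empty hI
  obtain ⟨col, k0, I', hI', hsub, hline, h1, h2, h3⟩ := sample_aux (K := 2 ^ (k + 1))
    (by positivity) hm1 I I1 hI1s hcard line c
    (fun i hi j hj => hinj i (hI1s hi) j (hI1s hj))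
    (fun i hi => by rw [hcls i hi]; exact (hsize i hi).2)
  have hKc : (2 ^ (k + 1) : ℕ) ≤ 2 * I.card := by
    obtain ⟨i, hi⟩ := hI1ne
    have h4 := (hsize i hi).1
    have h5 : (cls I c i).card ≤ I.card := card_le_card (Ex926.cls_subset I c i)
    omega
  have hI'ne : I'.Nonempty := by
    rw [nonempty_iff_ne_empty]
    intro h
    rw [h, card_empty] at h2
    have : (0 : ℝ) < I1.card := by exact_mod_cast card_pos.2 hI1ne
    simp at h2
    rw [h2] at hI1ne
    exact not_nonempty_empty hI1ne
  refine ⟨2 ^ (k + 1), {a | col a = k0}, I', Nat.one_le_two_pow, hKc, hsub.trans hI1s, hI'ne,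
    hline, ?_, ?_, h3, fun i hi => hsize i (hsub hi), ?_⟩
  · intro J hJ hJl
    refine le_trans ?_ h1
    have : J ⊆ part I line col k0 := fun i hi => mem_filter.2 ⟨hJ hi, hJl i hi⟩
    exact_mod_cast card_le_card this
  · have e1 : (I.card : ℝ) ≤ m * (2 * (2 ^ (k + 1) : ℕ) * I'.card) :=
      hcard.trans (mul_le_mul_of_nonneg_left h2 (by linarith))
    calc (I.card : ℝ) ≤ m * (2 * (2 ^ (k + 1) : ℕ) * I'.card) := e1
      _ = _ := by ring
  · intro A hA A' hA' hAA
    -- count over the classes
    have h4 : A.card ≤ 8 * (A.image c).card := by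
      have := card_le_mul_card_image (s := A) (f := c) 8 (by
        intro b hb
        obtain ⟨i, hi, rfl⟩ := mem_image.1 hb
        refine le_trans (card_le_card ?_) (h3 i (hA hi))
        intro j hj
        rw [mem_filter] at hj
        exact mem_cls.2 ⟨hA hj.1, hj.2⟩)
      exact this
    have h5 : 2 ^ (k + 1) * (A.image c).card ≤ 2 * A'.card := by
      have h6 : (A.image c).card • (2 ^ (k + 1)) ≤
          ∑ b ∈ A.image c, 2 * (A'.filter fun j => c j = b).card := by
        apply card_nsmul_le_sum
        intro b hb
        obtain ⟨i, hi, rfl⟩ := mem_image.1 hb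
        have h7 := (hsize i (hsub (hA hi))).1
        refine h7.trans ?_
        apply Nat.mul_le_mul_left
        apply card_le_card
        intro j hj
        rw [mem_cls] at hj
        exact mem_filter.2 ⟨hAA i hi j hj.1 hj.2, hj.2⟩
      rw [← mul_sum] at h6
      have h8 : ∑ b ∈ A.image c, (A'.filter fun j => c j = b).card ≤ A'.card := by
        have : ∑ b ∈ A.image c, (A'.filter fun j => c j = b).card =
            (A'.filter fun j => c j ∈ A.image c).card := by
          rw [card_eq_sum_card_fiberwise (s := A'.filter fun j => c j ∈ A.image c)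
            (t := A.image c) (f := c) (fun j hj => by
              have hj' : j ∈ A'.filter fun j => c j ∈ A.image c := by exact_mod_cast hj
              exact_mod_cast (mem_filter.1 hj').2)]
          apply sum_congr rfl
          intro b hb
          congr 1
          ext j
          simp only [mem_filter]
          constructor
          · rintro ⟨h1, h2⟩; exact ⟨⟨h1, h2 ▸ hb⟩, h2⟩
          · rintro ⟨⟨h1, -⟩, h2⟩; exact ⟨h1, h2⟩
        rw [this]
        exact card_le_card (filter_subset _ _)
      rw [smul_eq_mul, mul_comm] at h6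
      omega
    calc 2 ^ (k + 1) * A.card ≤ 2 ^ (k + 1) * (8 * (A.image c).card) := Nat.mul_le_mul_left _ h4
      _ = 8 * (2 ^ (k + 1) * (A.image c).card) := by ring
      _ ≤ 8 * (2 * A'.card) := Nat.mul_le_mul_left _ h5
      _ = 16 * A'.card := by ring

end samp

end Crest.Agent.R138.Samp628
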