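import Mathlib
import Crest.Agent.R138.Samp_628
import Crest.Agent.R138.Dp1_76

/-!
# R138, TEXT I: sampling of lines, sequence form (helper628)
-/

set_option autoImplicit false
set_option linter.unusedSectionVars false
set_option linter.unusedVariables false

open Finset Filter Topology

namespace Crest.Agent.R138.Samp628

open Crest.Agent.R138.Ex926 (cls mem_cls Base U)
open Crest.Agent.R138.Dp76 (Dense)

/-- `log₂ N + 1` is sub-polynomial -/
theorem ev_log2 (B : Base) {N : ℕ → ℕ}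
    (hlog : ∀ ε : ℝ, 0 < ε → ∀ᶠ n in (U : Filter ℕ), Real.log (N n : ℝ) ≤ B.d n ^ (-ε))
    {C η : ℝ} (hC : 0 < C) (hη : 0 < η) :
    ∀ᶠ n in (U : Filter ℕ), C * ((Nat.log 2 (N n) : ℕ) + 1 : ℝ) ≤ B.d n ^ (-η) := by
  have h1 := hlog (η / 2) (by linarith)
  have h2 : ∀ᶠ n in (U : Filter ℕ), 3 * C * B.d n ^ (η / 2) ≤ 1 := by
    have h3 : Tendsto (fun n => 3 * C * B.d n ^ (η / 2)) U (𝓝 (3 * C * (0 : ℝ) ^ (η / 2))) :=
      (B.lim0.rpow_const (Or.inr (by linarith))).const_mul _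
    rw [Real.zero_rpow (by linarith), mul_zero] at h3
    exact h3.eventually_le_const one_pos
  filter_upwards [h1, h2] with n h1 h2
  have hd := B.pos n
  have hd1 := (B.lt n).le
  have h5 : (Nat.log 2 (N n) : ℝ) ≤ 2 * B.d n ^ (-(η / 2)) := by
    rcases Nat.eq_zero_or_pos (N n) with h0 | h0
    · rw [h0]; simp; positivity
    · have h6 := Nat.pow_log_le_self 2 h0.ne'
      have h7 : ((2 : ℝ) ^ (Nat.log 2 (N n))) ≤ N n := by exact_mod_cast h6
      have h8 : Real.log ((2 : ℝ) ^ (Nat.log 2 (N n))) ≤ Real.log (N n) :=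
        Real.log_le_log (by positivity) h7
      rw [Real.log_pow] at h8
      have h9 : (0.5 : ℝ) ≤ Real.log 2 := by
        have := Real.log_two_gt_d9; linarith
      have h10 : (0 : ℝ) ≤ (Nat.log 2 (N n) : ℝ) := by positivity
      nlinarith
  have h6 : (1 : ℝ) ≤ B.d n ^ (-(η / 2)) := by
    apply Real.one_le_rpow_of_pos_of_le_one_of_nonpos hd hd1; linarith
  have h7 : B.d n ^ (-η) = B.d n ^ (-(η / 2)) * B.d n ^ (-(η / 2)) := by
    rw [← Real.rpow_add hd]; congr 1; ring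
  have h8 : B.d n ^ (-(η / 2)) * B.d n ^ (η / 2) = 1 := by
    rw [← Real.rpow_add hd]; simp
  have h9 : 0 < B.d n ^ (-(η / 2)) := Real.rpow_pos_of_pos hd _
  have h10 : 3 * C ≤ B.d n ^ (-(η / 2)) := by
    calc 3 * C = 3 * C * B.d n ^ (η / 2) * B.d n ^ (-(η / 2)) := by
          rw [mul_assoc, mul_comm (B.d n ^ (η / 2)), h8, mul_one]
      _ ≤ 1 * B.d n ^ (-(η / 2)) := mul_le_mul_of_nonneg_right h2 h9.le
      _ = _ := one_mul _
  calc C * ((Nat.log 2 (N n) : ℕ) + 1 : ℝ) ≤ C * (3 * B.d n ^ (-(η / 2))) :=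
        mul_le_mul_of_nonneg_left (by linarith) hC.le
    _ = 3 * C * B.d n ^ (-(η / 2)) := by ring
    _ ≤ B.d n ^ (-(η / 2)) * B.d n ^ (-(η / 2)) := mul_le_mul_of_nonneg_right h10 h9.le
    _ = _ := h7.symm

/-- **Sampling of lines, sequence form.** -/
theorem sample_seq (B : Base) {ι κ : ℕ → Type*} {α : Type*} [∀ n, DecidableEq (ι n)]
    [∀ n, DecidableEq (κ n)] [DecidableEq α] (I : ∀ n, Finset (ι n)) (line : ∀ n, ι n → α)
    (c : ∀ n, ι n → κ n) (hne : ∀ᶠ n in (U : Filter ℕ), (I n).Nonempty)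
    (hlog : ∀ ε : ℝ, 0 < ε → ∀ᶠ n in (U : Filter ℕ), Real.log ((I n).card : ℝ) ≤ B.d n ^ (-ε))
    (hinj : ∀ᶠ n in (U : Filter ℕ), ∀ i ∈ I n, ∀ j ∈ I n, c n i = c n j →
      line n i = line n j → i = j) :
    ∃ (K : ℕ → ℕ) (Λ : ℕ → Set α) (I' : ∀ n, Finset (ι n)), (∀ n, 1 ≤ K n) ∧
      (∀ n, I' n ⊆ I n) ∧
      (∀ᶠ n in (U : Filter ℕ), (I' n).Nonempty ∧ K n ≤ 2 * (I n).card ∧
        (∀ i ∈ I' n, line n i ∈ Λ n) ∧
        (∀ i ∈ I' n, (cls (I' n) (c n) i).card ≤ 8) ∧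
        (∀ i ∈ I' n, K n ≤ 2 * (cls (I n) (c n) i).card ∧ (cls (I n) (c n) i).card ≤ K n) ∧
        (∀ A : Finset (ι n), A ⊆ I' n → ∀ A' : Finset (ι n), A' ⊆ I n →
          (∀ i ∈ A, ∀ j ∈ I n, c n j = c n i → j ∈ A') → K n * A.card ≤ 16 * A'.card)) ∧
      (∀ η : ℝ, 0 < η → ∀ᶠ n in (U : Filter ℕ),
        (∀ J : Finset (ι n), J ⊆ I n → (∀ i ∈ J, line n i ∈ Λ n) →
          B.d n ^ η * (J.card : ℝ) ≤ (I' n).card) ∧
        B.d n ^ η * ((I n).card : ℝ) ≤ K n * (I' n).card) := by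
  classical
  have key : ∀ n, ∃ (K : ℕ) (Λ : Set α) (I' : Finset (ι n)), 1 ≤ K ∧ I' ⊆ I n ∧
      ((I n).Nonempty → (∀ i ∈ I n, ∀ j ∈ I n, c n i = c n j → line n i = line n j → i = j) →
        I'.Nonempty ∧ K ≤ 2 * (I n).card ∧ (∀ i ∈ I', line n i ∈ Λ) ∧
        (∀ i ∈ I', (cls I' (c n) i).card ≤ 8) ∧
        (∀ i ∈ I', K ≤ 2 * (cls (I n) (c n) i).card ∧ (cls (I n) (c n) i).card ≤ K) ∧
        (∀ A : Finset (ι n), A ⊆ I' → ∀ A' : Finset (ι n), A' ⊆ I n →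
          (∀ i ∈ A, ∀ j ∈ I n, c n j = c n i → j ∈ A') → K * A.card ≤ 16 * A'.card) ∧
        (∀ J : Finset (ι n), J ⊆ I n → (∀ i ∈ J, line n i ∈ Λ) →
          (J.card : ℝ) ≤ 4 * ((Nat.log 2 (I n).card : ℕ) + 1 : ℝ) * I'.card) ∧
        ((I n).card : ℝ) ≤ 2 * ((Nat.log 2 (I n).card : ℕ) + 1 : ℝ) * K * I'.card) := by
    intro n
    by_cases h : (I n).Nonempty ∧
        (∀ i ∈ I n, ∀ j ∈ I n, c n i = c n j → line n i = line n j → i = j)
    · obtain ⟨K, Λ, I', h1, h2, h3, h4, h5, h6, h7, h8, h9, h10⟩ :=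
        sample (I n) h.1 (line n) (c n) h.2
      exact ⟨K, Λ, I', h1, h3, fun _ _ => ⟨h4, h2, h5, h8, h9, h10, h6, h7⟩⟩
    · refine ⟨1, ∅, ∅, le_rfl, empty_subset _, fun ha hb => absurd ⟨ha, hb⟩ h⟩
  choose K Λ I' hK hsub hrest using key
  refine ⟨K, Λ, I', hK, hsub, ?_, ?_⟩
  · filter_upwards [hne, hinj] with n h1 h2
    obtain ⟨a1, a2, a3, a4, a5, a6, -, -⟩ := hrest n h1 h2
    exact ⟨a1, a2, a3, a4, a5, a6⟩
  · intro η hη
    filter_upwards [hne, hinj, ev_log2 B hlog (C := 4) (by norm_num) hη] with n h1 h2 h3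
    obtain ⟨-, -, -, -, -, -, a7, a8⟩ := hrest n h1 h2
    have hd := B.pos n
    have hp : 0 < B.d n ^ η := Real.rpow_pos_of_pos hd _
    have h8 : B.d n ^ η * B.d n ^ (-η) = 1 := by
      rw [← Real.rpow_add hd]; simp
    constructor
    · intro J hJ hJl
      have h4 := a7 J hJ hJl
      calc B.d n ^ η * (J.card : ℝ)
          ≤ B.d n ^ η * (4 * ((Nat.log 2 (I n).card : ℕ) + 1 : ℝ) * (I' n).card) :=
            mul_le_mul_of_nonneg_left h4 hp.le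
        _ ≤ B.d n ^ η * (B.d n ^ (-η) * (I' n).card) :=
            mul_le_mul_of_nonneg_left (mul_le_mul_of_nonneg_right h3 (Nat.cast_nonneg _)) hp.le
        _ = (I' n).card := by rw [← mul_assoc, h8, one_mul]
    · have h5 : 2 * ((Nat.log 2 (I n).card : ℕ) + 1 : ℝ) ≤ B.d n ^ (-η) := by
        have : (0 : ℝ) ≤ ((Nat.log 2 (I n).card : ℕ) + 1 : ℝ) := by positivity
        linarith
      calc B.d n ^ η * ((I n).card : ℝ)
          ≤ B.d n ^ η * (2 * ((Nat.log 2 (I n).card : ℕ) + 1 : ℝ) * K n * (I' n).card) :=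
            mul_le_mul_of_nonneg_left a8 hp.le
        _ = B.d n ^ η * (2 * ((Nat.log 2 (I n).card : ℕ) + 1 : ℝ) * (K n * (I' n).card)) := by ring
        _ ≤ B.d n ^ η * (B.d n ^ (-η) * (K n * (I' n).card)) :=
            mul_le_mul_of_nonneg_left (mul_le_mul_of_nonneg_right h5 (by positivity)) hp.le
        _ = K n * (I' n).card := by rw [← mul_assoc, h8, one_mul]

end Crest.Agent.R138.Samp628
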