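import Mathlib
import Crest.Agent.R138.Samp2_628

/-!
# R138, TEXT I, L15: the abstract combinatorial block COMB (helper628)

Input: a family whose (line, cell)-fibres and class-fibres have lower bounds, inside one container.
Output: the sampled family of polynomial cardinality (text of helper196, msg 11578).
-/

set_option autoImplicit false
set_option linter.unusedSectionVars false
set_option linter.unusedVariables false

open Finset Filter Topology

namespace Crest.Agent.R138.Comb628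

open Crest.Agent.R138.Ex926 (cls mem_cls Base U)
open Crest.Agent.R138.Samp628

theorem image_mul_le {ι κ : Type*} [DecidableEq ι] [DecidableEq κ] {f : ι → κ} {A S : Finset ι}
    {m : ℝ} (hA : ∀ x ∈ A, m ≤ ((S.filter fun y => f y = f x).card : ℝ)) :
    ((A.image f).card : ℝ) * m ≤ ((S.filter fun y => f y ∈ A.image f).card : ℝ) := by
  have h1 : ((S.filter fun y => f y ∈ A.image f).card : ℝ) =
      ∑ b ∈ A.image f, ((S.filter fun y => f y = b).card : ℝ) := by
    have := card_eq_sum_card_fiberwise (s := S.filter fun y => f y ∈ A.image f)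
      (t := A.image f) (f := f) (fun j hj => by
        have hj' : j ∈ S.filter fun y => f y ∈ A.image f := by exact_mod_cast hj
        exact_mod_cast (mem_filter.1 hj').2)
    rw [this]
    push_cast
    apply sum_congr rfl
    intro b hb
    congr 2
    ext j
    simp only [mem_filter]
    constructor
    · rintro ⟨⟨h1, -⟩, h2⟩; exact ⟨h1, h2⟩
    · rintro ⟨h1, h2⟩; exact ⟨⟨h1, h2 ▸ hb⟩, h2⟩
  rw [h1]
  calc ((A.image f).card : ℝ) * m = ∑ _b ∈ A.image f, m := by
        rw [sum_const, nsmul_eq_mul]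
    _ ≤ _ := by
        apply sum_le_sum
        intro b hb
        obtain ⟨x, hx, rfl⟩ := mem_image.1 hb
        exact hA x hx

/-- **COMB**, after the choice of the container (`I2` = the part of `I` in one container; `I2 = I`
is allowed). -/
theorem comb (B : Base) {ι κ : ℕ → Type*} {α : Type*} [∀ n, DecidableEq (ι n)]
    [∀ n, DecidableEq (κ n)] [DecidableEq α] (I I2 : ∀ n, Finset (ι n)) (h2 : ∀ n, I2 n ⊆ I n)
    (hne : ∀ᶠ n in (U : Filter ℕ), (I2 n).Nonempty)
    (hlog : ∀ ε : ℝ, 0 < ε → ∀ᶠ n in (U : Filter ℕ), Real.log ((I n).card : ℝ) ≤ B.d n ^ (-ε))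
    (line : ∀ n, ι n → α) (c : ∀ n, ι n → κ n)
    (hinj : ∀ᶠ n in (U : Filter ℕ), ∀ i ∈ I n, ∀ j ∈ I n, c n i = c n j →
      line n i = line n j → i = j)
    (hc : ∃ C : ℝ, ∀ᶠ n in (U : Filter ℕ), (((I2 n).image (c n)).card : ℝ) ≤ B.d n ^ (-C))
    {J J' : Type*} {β : J → ℕ → Type*} {γ : J' → ℕ → Type*} [∀ j n, DecidableEq (β j n)]
    [∀ j n, DecidableEq (γ j n)] (a : ∀ j n, ι n → β j n) (al : J → ℝ)
    (ha : ∀ j n, ∀ i ∈ I n, ∀ i' ∈ I n, a j n i = a j n i' → line n i = line n i')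
    (hfa : ∀ j, ∀ ε : ℝ, 0 < ε → ∀ᶠ n in (U : Filter ℕ), ∀ x ∈ I2 n,
      B.d n ^ (-al j + ε) ≤ (((I2 n).filter fun y => a j n y = a j n x).card : ℝ))
    (g : ∀ j n, ι n → γ j n) (H : J' → ℕ → ℝ) (hH : ∀ j n, 0 < H j n)
    (hfg : ∀ j, ∀ ε : ℝ, 0 < ε → ∀ᶠ n in (U : Filter ℕ), ∀ x ∈ I2 n,
      B.d n ^ ε * H j n ≤ (((I2 n).filter fun y => g j n y = g j n x).card : ℝ)) :
    ∃ (K : ℕ → ℕ) (I3 : ∀ n, Finset (ι n)), (∀ n, 1 ≤ K n) ∧ (∀ n, I3 n ⊆ I2 n) ∧
      (∀ᶠ n in (U : Filter ℕ), (I3 n).Nonempty ∧ K n ≤ 2 * (I n).card) ∧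
      (∃ C : ℝ, 0 ≤ C ∧ ∀ᶠ n in (U : Filter ℕ), ((I3 n).card : ℝ) ≤ B.d n ^ (-C)) ∧
      (∀ j, ∀ ε : ℝ, 0 < ε → ∀ᶠ n in (U : Filter ℕ),
        (((I3 n).image (a j n)).card : ℝ) ≤ (I3 n).card * B.d n ^ (al j - ε)) ∧
      (∀ j, ∀ ε : ℝ, 0 < ε → ∀ᶠ n in (U : Filter ℕ),
        (((I3 n).image (g j n)).card : ℝ) ≤ (I3 n).card * (K n / H j n) * B.d n ^ (-ε)) ∧
      (∀ᶠ n in (U : Filter ℕ), ∀ F : Finset (ι n), F ⊆ I3 n → ∀ F' : Finset (ι n), F' ⊆ I n →
        (∀ i ∈ F, ∀ j ∈ I2 n, c n j = c n i → j ∈ F') → K n * F.card ≤ 16 * F'.card) ∧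
      (∀ ε : ℝ, 0 < ε → ∀ᶠ n in (U : Filter ℕ),
        B.d n ^ ε * ((I2 n).card : ℝ) ≤ K n * (I3 n).card) := by
  classical
  have hlog2 : ∀ ε : ℝ, 0 < ε → ∀ᶠ n in (U : Filter ℕ),
      Real.log ((I2 n).card : ℝ) ≤ B.d n ^ (-ε) := by
    intro ε hε
    filter_upwards [hlog ε hε, hne] with n h3 h4
    refine le_trans (Real.log_le_log ?_ ?_) h3
    · exact_mod_cast card_pos.2 h4
    · exact_mod_cast card_le_card (h2 n)
  obtain ⟨K, Λ, I3, hK, hsub, hev, hden⟩ := sample_seq B I2 line c hne hlog2 (by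
    filter_upwards [hinj] with n hn
    exact fun i hi j hj => hn i (h2 n hi) j (h2 n hj))
  refine ⟨K, I3, hK, hsub, ?_, ?_, ?_, ?_, ?_, fun ε hε => (hden ε hε).mono fun n hn => hn.2⟩
  · filter_upwards [hev] with n hn
    refine ⟨hn.1, hn.2.1.trans ?_⟩
    have := card_le_card (h2 n)
    omega
  · obtain ⟨C, hC⟩ := hc
    refine ⟨|C| + 1, by positivity, ?_⟩
    have h8 : ∀ᶠ n in (U : Filter ℕ), (8 : ℝ) ≤ B.d n ^ (-(1 : ℝ)) := by
      have h9 : ∀ᶠ n in (U : Filter ℕ), B.d n ≤ 1 / 8 := B.lim0.eventually_le_const (by norm_num)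
      filter_upwards [h9] with n hn
      have hd := B.pos n
      rw [Real.rpow_neg hd.le, Real.rpow_one]
      rw [le_inv_comm₀ (by norm_num) hd]
      linarith
    filter_upwards [hev, hC, h8] with n hn hCn h8
    have hd := B.pos n
    have h3 : (I3 n).card ≤ 8 * ((I3 n).image (c n)).card := by
      apply card_le_mul_card_image
      intro b hb
      obtain ⟨i, hi, rfl⟩ := mem_image.1 hb
      refine le_trans (card_le_card ?_) (hn.2.2.2.1 i hi)
      intro j hj
      rw [mem_filter] at hj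
      exact mem_cls.2 hj
    have h4 : ((I3 n).image (c n)).card ≤ ((I2 n).image (c n)).card :=
      card_le_card (image_subset_image (hsub n))
    have h5 : ((I3 n).card : ℝ) ≤ 8 * (((I2 n).image (c n)).card : ℝ) := by
      exact_mod_cast h3.trans (Nat.mul_le_mul_left _ h4)
    have h6 : B.d n ^ (-C) ≤ B.d n ^ (-|C|) :=
      Real.rpow_le_rpow_of_exponent_ge hd (B.lt n).le (neg_le_neg (le_abs_self C))
    have h7 : B.d n ^ (-(|C| + 1)) = B.d n ^ (-(1 : ℝ)) * B.d n ^ (-|C|) := by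
      rw [← Real.rpow_add hd]; congr 1; ring
    rw [h7]
    calc ((I3 n).card : ℝ) ≤ 8 * (((I2 n).image (c n)).card : ℝ) := h5
      _ ≤ 8 * B.d n ^ (-|C|) := by
          apply mul_le_mul_of_nonneg_left (hCn.trans h6) (by norm_num)
      _ ≤ _ := mul_le_mul_of_nonneg_right h8 (Real.rpow_nonneg hd.le _)
  · intro j ε hε
    filter_upwards [hev, hden (ε / 2) (by linarith), hfa j (ε / 2) (by linarith)]
      with n hn hdn hfn
    have hd := B.pos n
    have h3 := image_mul_le (f := a j n) (A := I3 n) (S := I2 n)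
      (m := B.d n ^ (-al j + ε / 2)) (fun x hx => hfn x (hsub n hx))
    have h4 : B.d n ^ (ε / 2) * (((I2 n).filter fun y => a j n y ∈ (I3 n).image (a j n)).card : ℝ) ≤
        (I3 n).card := by
      apply hdn.1 _ (filter_subset _ _)
      intro i hi
      obtain ⟨hi1, hi2⟩ := mem_filter.1 hi
      obtain ⟨z, hz, hzi⟩ := mem_image.1 hi2
      rw [ha j n i (h2 n hi1) z (h2 n (hsub n hz)) hzi.symm]
      exact hn.2.2.1 z hz
    have h5 : ((I3 n).image (a j n)).card * B.d n ^ (-al j + ε / 2) * B.d n ^ (ε / 2) ≤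
        ((I3 n).card : ℝ) := by
      calc ((I3 n).image (a j n)).card * B.d n ^ (-al j + ε / 2) * B.d n ^ (ε / 2)
          ≤ (((I2 n).filter fun y => a j n y ∈ (I3 n).image (a j n)).card : ℝ) *
            B.d n ^ (ε / 2) := mul_le_mul_of_nonneg_right h3 (Real.rpow_nonneg hd.le _)
        _ = B.d n ^ (ε / 2) * (((I2 n).filter fun y => a j n y ∈ (I3 n).image (a j n)).card : ℝ) :=
            mul_comm _ _
        _ ≤ _ := h4
    rw [mul_assoc, ← Real.rpow_add hd] at h5
    have e1 : -al j + ε / 2 + ε / 2 = -(al j - ε) := by ring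
    rw [e1, Real.rpow_neg hd.le] at h5
    have hp := Real.rpow_pos_of_pos hd (al j - ε)
    rwa [mul_inv_le_iff₀ hp] at h5
  · intro j ε hε
    filter_upwards [hden (ε / 2) (by linarith), hfg j (ε / 2) (by linarith)] with n hdn hfn
    have hd := B.pos n
    have hHp := hH j n
    have h3 := image_mul_le (f := g j n) (A := I3 n) (S := I2 n)
      (m := B.d n ^ (ε / 2) * H j n) (fun x hx => hfn x (hsub n hx))
    have h4 : (((I2 n).filter fun y => g j n y ∈ (I3 n).image (g j n)).card : ℝ) ≤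
        (I2 n).card := by exact_mod_cast card_le_card (filter_subset _ _)
    have h5 : ((I3 n).image (g j n)).card * (B.d n ^ (ε / 2) * H j n) * B.d n ^ (ε / 2) ≤
        (K n * (I3 n).card : ℝ) := by
      calc ((I3 n).image (g j n)).card * (B.d n ^ (ε / 2) * H j n) * B.d n ^ (ε / 2)
          ≤ ((I2 n).card : ℝ) * B.d n ^ (ε / 2) :=
            mul_le_mul_of_nonneg_right (h3.trans h4) (Real.rpow_nonneg hd.le _)
        _ = B.d n ^ (ε / 2) * (I2 n).card := mul_comm _ _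
        _ ≤ _ := hdn.2
    have h6 : B.d n ^ (ε / 2) * B.d n ^ (ε / 2) = B.d n ^ ε := by
      rw [← Real.rpow_add hd]; congr 1; ring
    have h7 : (((I3 n).image (g j n)).card : ℝ) * (H j n * B.d n ^ ε) ≤ K n * (I3 n).card := by
      calc (((I3 n).image (g j n)).card : ℝ) * (H j n * B.d n ^ ε)
          = ((I3 n).image (g j n)).card * (B.d n ^ (ε / 2) * H j n) * B.d n ^ (ε / 2) := by
            rw [← h6]; ring
        _ ≤ _ := h5
    have hp := Real.rpow_pos_of_pos hd ε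
    rw [← le_div_iff₀ (mul_pos hHp hp)] at h7
    refine h7.trans (le_of_eq ?_)
    rw [Real.rpow_neg hd.le]
    field_simp
  · filter_upwards [hev] with n hn F hF F' hF' hFF
    -- enlarge inside `I2`
    have h3 := hn.2.2.2.2.2 F hF (F'.filter fun j => j ∈ I2 n)
      (fun j hj => (mem_filter.1 hj).2)
      (fun i hi j hj hcj => mem_filter.2 ⟨hFF i hi j hj hcj, hj⟩)
    exact h3.trans (Nat.mul_le_mul_left _ (card_le_card (filter_subset _ _)))

end Crest.Agent.R138.Comb628
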