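import Mathlib
import Crest.Agent.R138.MkRef_627

/-!
# R138, TEXT I, leaf L15: container selection by pruning (helper627)

* `cont_seq`    : one class `Q = const` keeps all fibres of countably many maps up to `d^ε`, if every
                  fibre meets sub-polynomially many `Q`-classes.
* `RotF.of_fib`, `Nat5.of_fib` : parts which keep their fibres are again natural marked sequences.
* `Nat5.cont`   : a natural marked sequence inside one container class.
-/

set_option autoImplicit false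
set_option linter.unusedVariables false
set_option linter.unusedSectionVars false

open Finset Filter Topology

namespace Crest.Agent.R138.Cont627

open Crest.Agent.R138.Ex926 Crest.Agent.R138.Dp76 Crest.Agent.R138.Ps627 Crest.Agent.R138.Mk163
open Crest.Agent.R138.MkRef627
open Crest.Agent.R138.Flag51 (Ln E2 cr dt InPlank)

section Finite

open Classical in
/-- the incidences in small `(h, Q)`-pieces of their `h`-fibre are few. -/
theorem small_pieces {α η γ : Type*} (I : Finset α) (h : α → η) (Q : α → γ) {δ N : ℝ}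
    (hδ : 0 ≤ δ)
    (hN : ∀ x ∈ I, (((I.filter fun y => h y = h x).image Q).card : ℝ) ≤ N) :
    ((I.filter fun x => ((I.filter fun y => h y = h x ∧ Q y = Q x).card : ℝ) <
      δ * ((I.filter fun y => h y = h x).card : ℝ)).card : ℝ) ≤ N * δ * (I.card : ℝ) := by
  set S := I.filter fun x => ((I.filter fun y => h y = h x ∧ Q y = Q x).card : ℝ) <
      δ * ((I.filter fun y => h y = h x).card : ℝ) with hS
  have hSI : S ⊆ I := filter_subset _ _
  have e1 : (S.card : ℝ) = ∑ c ∈ I.image h, ((S.filter fun y => h y = c).card : ℝ) := by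
    rw [card_eq_sum_card_fiberwise (f := h) (s := S) (t := I.image h)
      (fun x hx => by
        simp only [coe_image]
        exact ⟨x, hSI hx, rfl⟩)]
    push_cast; rfl
  have e2 : (I.card : ℝ) = ∑ c ∈ I.image h, ((I.filter fun y => h y = c).card : ℝ) := by
    rw [card_eq_sum_card_image h I]; push_cast; rfl
  rw [e1, e2, mul_sum]
  refine sum_le_sum fun c hc => ?_
  obtain ⟨x, hx, rfl⟩ := mem_image.1 hc
  set F := I.filter fun y => h y = h x with hF
  have e3 : ((S.filter fun y => h y = h x).card : ℝ) = ∑ a ∈ F.image Q,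
      (((S.filter fun y => h y = h x).filter fun y => Q y = a).card : ℝ) := by
    rw [card_eq_sum_card_fiberwise (f := Q) (s := S.filter fun y => h y = h x) (t := F.image Q)
      (fun y hy => by
        simp only [coe_filter, Set.mem_ofPred_eq] at hy
        simp only [coe_image]
        exact ⟨y, by simp only [hF, coe_filter, Set.mem_ofPred_eq]; exact ⟨hSI hy.1, hy.2⟩, rfl⟩)]
    push_cast; rfl
  rw [e3]
  have e4 : ∀ a ∈ F.image Q, (((S.filter fun y => h y = h x).filter fun y => Q y = a).card : ℝ) ≤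
      δ * (F.card : ℝ) := by
    intro a ha
    by_cases hne : ((S.filter fun y => h y = h x).filter fun y => Q y = a).Nonempty
    · obtain ⟨y, hy⟩ := hne
      rw [mem_filter, mem_filter] at hy
      obtain ⟨⟨hyS, hyh⟩, hyQ⟩ := hy
      have h1 := (mem_filter.1 hyS).2
      rw [hyh] at h1
      refine le_trans ?_ h1.le
      have : ((S.filter fun y => h y = h x).filter fun y => Q y = a) ⊆
          I.filter fun z => h z = h x ∧ Q z = Q y := by
        intro z hz
        rw [mem_filter, mem_filter] at hz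
        rw [mem_filter]
        exact ⟨hSI hz.1.1, hz.1.2, by rw [hz.2, hyQ]⟩
      exact_mod_cast card_le_card this
    · rw [not_nonempty_iff_eq_empty] at hne
      rw [hne]
      simp only [card_empty, Nat.cast_zero]
      positivity
  have e5 := sum_le_card_nsmul _ _ _ e4
  refine e5.trans ?_
  rw [nsmul_eq_mul]
  have e6 := hN x hx
  have e7 : (0 : ℝ) ≤ δ * (F.card : ℝ) := mul_nonneg hδ (Nat.cast_nonneg _)
  calc ((F.image Q).card : ℝ) * (δ * (F.card : ℝ)) ≤ N * (δ * (F.card : ℝ)) :=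
        mul_le_mul_of_nonneg_right e6 e7
    _ = N * δ * (F.card : ℝ) := by ring

open Classical in
/-- finite step of `cont_seq`. -/
theorem cont_step {α : Type*} (I : Finset α) (hI : I.Nonempty) {k : ℕ} {η : ℕ → Type} {γ : Type}
    (h : ∀ j, α → η j) (Q : α → γ) {δ : ℝ} (hδ : 0 < δ) (hδk : 4 * ((k : ℝ) + 1) * δ ≤ 1)
    (hN : ∀ j ≤ k, ∀ x ∈ I, (((I.filter fun y => h j y = h j x).image Q).card : ℝ) ≤ δ⁻¹) :
    ∃ I' ⊆ I, I'.Nonempty ∧ (∀ x ∈ I', ∀ y ∈ I', Q x = Q y) ∧ ∀ j ≤ k, ∀ x ∈ I',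
      δ ^ 3 * ((I.filter fun y => h j y = h j x).card : ℝ) ≤
        ((I'.filter fun y => h j y = h j x).card : ℝ) := by
  have hIc : (0 : ℝ) < I.card := by exact_mod_cast card_pos.2 hI
  set A : Finset α := I.filter fun x => ∀ j ≤ k, δ ^ 2 * ((I.filter fun y => h j y = h j x).card : ℝ) ≤
    ((I.filter fun y => h j y = h j x ∧ Q y = Q x).card : ℝ) with hA
  have hAc : (3 / 4) * (I.card : ℝ) ≤ (A.card : ℝ) := by
    have hsub : I \ A ⊆ univ.biUnion fun j : Fin (k + 1) => I.filter fun x =>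
        ((I.filter fun y => h j y = h j x ∧ Q y = Q x).card : ℝ) <
          δ ^ 2 * ((I.filter fun y => h j y = h j x).card : ℝ) := by
      intro x hx
      rw [Finset.mem_sdiff, hA, Finset.mem_filter] at hx
      obtain ⟨hx1, hx2⟩ := hx
      have : ¬ ∀ j ≤ k, δ ^ 2 * ((I.filter fun y => h j y = h j x).card : ℝ) ≤
        ((I.filter fun y => h j y = h j x ∧ Q y = Q x).card : ℝ) := fun hh => hx2 ⟨hx1, hh⟩
      push Not at this
      obtain ⟨j, hj, hlt⟩ := this
      rw [mem_biUnion]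
      exact ⟨⟨j, Nat.lt_succ_of_le hj⟩, mem_univ _, mem_filter.2 ⟨hx1, hlt⟩⟩
    have hc1 : ((I \ A).card : ℝ) ≤ ∑ j : Fin (k + 1), ((I.filter fun x =>
        ((I.filter fun y => h j y = h j x ∧ Q y = Q x).card : ℝ) <
          δ ^ 2 * ((I.filter fun y => h j y = h j x).card : ℝ)).card : ℝ) := by
      exact_mod_cast (card_le_card hsub).trans card_biUnion_le
    have hc2 : ((I \ A).card : ℝ) = (I.card : ℝ) - (A.card : ℝ) := by
      have := card_sdiff_add_card_eq_card (filter_subset _ _ : A ⊆ I)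
      have h' : ((I \ A).card : ℝ) + (A.card : ℝ) = (I.card : ℝ) := by exact_mod_cast this
      linarith
    have hc3 : ∑ j : Fin (k + 1), ((I.filter fun x =>
        ((I.filter fun y => h j y = h j x ∧ Q y = Q x).card : ℝ) <
          δ ^ 2 * ((I.filter fun y => h j y = h j x).card : ℝ)).card : ℝ) ≤
        ∑ j : Fin (k + 1), δ * (I.card : ℝ) := by
      refine sum_le_sum fun j _ => ?_
      have h3 := small_pieces I (h j) Q (δ := δ ^ 2) (N := δ⁻¹) (by positivity)
        (hN j (Nat.lt_succ_iff.1 j.2))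
      refine h3.trans (le_of_eq ?_)
      field_simp
    rw [sum_const, card_univ, Fintype.card_fin, nsmul_eq_mul] at hc3
    push_cast at hc3
    have h4 : ((k : ℝ) + 1) * (δ * (I.card : ℝ)) ≤ (1 / 4) * (I.card : ℝ) := by
      have := mul_le_mul_of_nonneg_right (show ((k : ℝ) + 1) * δ ≤ 1 / 4 by linarith) hIc.le
      linarith
    linarith
  obtain ⟨A', hA'A, hA'c, hA'f⟩ := prune_rel (M := Fin (k + 1)) (η := fun j => η j × γ)
    (fun j x => (h j x, Q x)) (A := A) (I := I) (filter_subset _ _) hδ.le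
  have hA'ne : A'.Nonempty := by
    rw [Fintype.card_fin] at hA'c
    push_cast at hA'c
    have h4 : ((k : ℝ) + 1) * δ * (I.card : ℝ) ≤ (1 / 4) * (I.card : ℝ) :=
      mul_le_mul_of_nonneg_right (show ((k : ℝ) + 1) * δ ≤ 1 / 4 by linarith) hIc.le
    have h5 : (0 : ℝ) < A'.card := by linarith
    exact card_pos.1 (by exact_mod_cast h5)
  obtain ⟨x₀, hx₀⟩ := hA'ne
  have hA'I : A' ⊆ I := hA'A.trans (filter_subset _ _)
  refine ⟨A'.filter fun y => Q y = Q x₀, (filter_subset _ _).trans hA'I, ⟨x₀, mem_filter.2 ⟨hx₀, rfl⟩⟩,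
    ?_, ?_⟩
  · intro x hx y hy
    rw [mem_filter] at hx hy
    rw [hx.2, hy.2]
  · intro j hj x hx
    rw [mem_filter] at hx
    obtain ⟨hxA', hxQ⟩ := hx
    have hxA := (mem_filter.1 (hA'A hxA')).2 j hj
    have h5 := hA'f ⟨j, Nat.lt_succ_of_le hj⟩ x hxA'
    simp only [Prod.mk.injEq] at h5
    have h6 : (A'.filter fun y => h j y = h j x ∧ Q y = Q x) ⊆
        (A'.filter fun y => Q y = Q x₀).filter fun y => h j y = h j x := by
      intro y hy
      rw [mem_filter] at hy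
      rw [mem_filter, mem_filter]
      exact ⟨⟨hy.1, by rw [hy.2.2, hxQ]⟩, hy.2.1⟩
    have h7 : ((A'.filter fun y => h j y = h j x ∧ Q y = Q x).card : ℝ) ≤
        (((A'.filter fun y => Q y = Q x₀).filter fun y => h j y = h j x).card : ℝ) := by
      exact_mod_cast card_le_card h6
    refine le_trans ?_ h7
    calc δ ^ 3 * ((I.filter fun y => h j y = h j x).card : ℝ)
        = δ * (δ ^ 2 * ((I.filter fun y => h j y = h j x).card : ℝ)) := by ring
      _ ≤ δ * ((I.filter fun y => h j y = h j x ∧ Q y = Q x).card : ℝ) :=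
          mul_le_mul_of_nonneg_left hxA hδ.le
      _ ≤ _ := h5

end Finite

section Seq

variable {B : Base} {α : ℕ → Type*} {I : ∀ n, Finset (α n)}

open Classical in
/-- **Container selection.** Countably many maps `h j`, a label `Q` with sub-polynomially many
values on every fibre: one class of `Q` keeps all fibres up to `d^ε`. -/
theorem cont_seq (hI : ∀ᶠ n in (U : Filter ℕ), (I n).Nonempty) {η : ℕ → ℕ → Type} {γ : ℕ → Type}
    (h : ∀ j n, α n → η j n) (Q : ∀ n, α n → γ n)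
    (hN : ∀ j, ∀ ε : ℝ, 0 < ε → ∀ᶠ n in (U : Filter ℕ), ∀ x ∈ I n,
      ((((I n).filter fun y => h j n y = h j n x).image (Q n)).card : ℝ) ≤ B.d n ^ (-ε)) :
    ∃ I' : ∀ n, Finset (α n), (∀ n, I' n ⊆ I n) ∧ (∀ᶠ n in (U : Filter ℕ), (I' n).Nonempty) ∧
      (∀ n, ∀ x ∈ I' n, ∀ y ∈ I' n, Q n x = Q n y) ∧
      ∀ j, ∀ ε : ℝ, 0 < ε → ∀ᶠ n in (U : Filter ℕ), ∀ x ∈ I' n,
        B.d n ^ ε * (((I n).filter fun y => h j n y = h j n x).card : ℝ) ≤
          (((I' n).filter fun y => h j n y = h j n x).card : ℝ) := by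
  set e : ℕ → ℝ := fun k => 1 / ((k : ℝ) + 1) with he
  have he0 : ∀ k, 0 < e k := fun k => by simp only [he]; positivity
  set P : ℕ → ℕ → Prop := fun k n => (I n).Nonempty ∧ B.d n ^ e k ≤ 1 / (4 * ((k : ℝ) + 1)) ∧
    ∀ j ≤ k, ∀ x ∈ I n,
      ((((I n).filter fun y => h j n y = h j n x).image (Q n)).card : ℝ) ≤ (B.d n ^ e k)⁻¹ with hP
  have hPev : ∀ k, ∀ᶠ n in (U : Filter ℕ), P k n := by
    intro k
    have h1 : ∀ᶠ n in (U : Filter ℕ), ∀ j ∈ Finset.range (k + 1), ∀ x ∈ I n,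
      ((((I n).filter fun y => h j n y = h j n x).image (Q n)).card : ℝ) ≤ (B.d n ^ e k)⁻¹ := by
      rw [Filter.eventually_all_finset]
      intro j _
      filter_upwards [hN j (e k) (he0 k)] with n hn x hx
      rw [← Real.rpow_neg (B.pos n).le]
      exact hn x hx
    filter_upwards [hI, Ps926.dpow_small B (he0 k) (ε := 1 / (4 * ((k : ℝ) + 1))) (by positivity), h1]
      with n a b c
    exact ⟨a, b.le, fun j hj => c j (Finset.mem_range.2 (Nat.lt_succ_of_le hj))⟩
  obtain ⟨k, hk, hk2⟩ := exists_diag P hPev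
  have hgood : ∀ᶠ n in (U : Filter ℕ), P (k n) n := by
    filter_upwards [hk2] with n hn using hn _ le_rfl
  have hstep : ∀ n, ∃ I' : Finset (α n), I' ⊆ I n ∧ (∀ x ∈ I', ∀ y ∈ I', Q n x = Q n y) ∧
      (P (k n) n → I'.Nonempty ∧ ∀ j ≤ k n, ∀ x ∈ I',
        (B.d n ^ e (k n)) ^ 3 * (((I n).filter fun y => h j n y = h j n x).card : ℝ) ≤
          ((I'.filter fun y => h j n y = h j n x).card : ℝ)) := by
    intro n
    by_cases hq : P (k n) n
    · obtain ⟨a, b, c⟩ := hq
      have hp := dpow_pos B n (e (k n))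
      obtain ⟨I', h1, h2, h3, h4⟩ := cont_step (I n) a (k := k n) (fun j => h j n) (Q n) hp (by
        have h5 : (0 : ℝ) < 4 * ((k n : ℝ) + 1) := by positivity
        have h6 := mul_le_mul_of_nonneg_left b h5.le
        refine h6.trans (le_of_eq ?_)
        field_simp) c
      exact ⟨I', h1, h3, fun _ => ⟨h2, h4⟩⟩
    · exact ⟨∅, empty_subset _, fun x hx => absurd hx (notMem_empty x), fun h => absurd h hq⟩
  choose I' hI' hI'Q hI'2 using hstep
  refine ⟨I', hI', ?_, hI'Q, fun j ε hε => ?_⟩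
  · filter_upwards [hgood] with n hn using (hI'2 n hn).1
  · have hk3 : ∀ᶠ n in (U : Filter ℕ), 3 * e (k n) ≤ ε := by
      have h4 : Tendsto (fun n => 1 / ((k n : ℝ) + 1)) U (𝓝 0) :=
        tendsto_one_div_add_atTop_nhds_zero_nat.comp hk
      have h5 := (h4.const_mul 3)
      rw [mul_zero] at h5
      filter_upwards [(tendsto_order.1 h5).2 ε hε] with n hn using hn.le
    filter_upwards [hgood, hk.eventually_ge_atTop j, hk3] with n hn hj h3 x hx
    refine le_trans (mul_le_mul_of_nonneg_right ?_ (Nat.cast_nonneg _)) ((hI'2 n hn).2 j hj x hx)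
    have e1 : (B.d n ^ e (k n)) ^ 3 = B.d n ^ (e (k n) + e (k n) + e (k n)) := by
      rw [dpow_add, dpow_add]; ring
    rw [e1]
    exact dpow_le B n (by linarith)

end Seq

section

variable {B : Base} {I : ℕ → Finset (ℕ × ℝ)} {L : ℕ → ℕ → Ln} {lev : ℕ → ℚ → ℕ}
    {r0 A : ℕ → ℝ} {q g : ℝ} {Λ τ : ℝ → ℝ} {f : ℕ → ℚ → ℕ → ℤ → ℕ} {b : ℕ → ℚ → ℕ → Ln}
    {e : ℕ → ℚ → ℕ → E2} {w1 w2 : ℕ → ℚ → ℝ} {fl : ℕ → ℕ × ℝ → E2} {sc : ℕ → ℝ}

open Classical in
/-- a part which keeps its (line, cell) fibres keeps the own rotation function. -/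
theorem RotF.of_fib {C0 : ℝ} {R : ℝ → ℝ} (h : RotF B I lev fl sc C0 R) {J' : ℕ → Finset (ℕ × ℝ)}
    (hsub : ∀ n, J' n ⊆ I n)
    (one : ∀ᶠ n in (U : Filter ℕ), ∀ x ∈ I n, ∀ y ∈ I n, x.1 = y.1 →
      zc (lev n 1) x.2 = zc (lev n 1) y.2 → x = y)
    (fib : ∀ v : ℚ, 0 ≤ v → v ≤ 1 → ∀ ε : ℝ, 0 < ε → ∀ᶠ n in (U : Filter ℕ), ∀ x ∈ J' n,
      B.d n ^ ε * (((I n).filter fun y => lc (lev n v) y = lc (lev n v) x).card : ℝ) ≤
        (((J' n).filter fun y => lc (lev n v) y = lc (lev n v) x).card : ℝ)) :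
    RotF B J' lev fl sc C0 R where
  scpos := h.scpos
  bd := h.bd
  mono := h.mono
  rot := fun u hu0 hu1 ε hε => by
    filter_upwards [h.rot u hu0 hu1 ε hε] with n hn x hx y hy
    exact hn x (hsub n hx) y (hsub n hy)
  tw := fun u hu0 hu1 r hr hrC => by
    obtain ⟨γ, hγ, h1⟩ := h.tw u hu0 hu1 r hr hrC
    refine ⟨γ / 2, by linarith, ?_⟩
    filter_upwards [h1, one, fib u hu0 hu1.le (γ / 2) (by linarith)] with n a hone c x hx
    have e1 := a x (hsub n hx)
    have e2 := c x hx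
    rw [own_one hone] at e1
    have hone' : ∀ x ∈ J' n, ∀ y ∈ J' n, x.1 = y.1 →
        zc (lev n 1) x.2 = zc (lev n 1) y.2 → x = y := fun x hx y hy =>
      hone x (hsub n hx) y (hsub n hy)
    rw [own_one hone']
    refine le_trans ?_ (mul_le_mul_of_nonneg_left e2 (dpow_pos B n (γ / 2)).le)
    rw [← mul_assoc, ← dpow_add]
    have e3 : γ / 2 + γ / 2 = γ := by ring
    rw [e3]
    refine le_trans ?_ e1
    exact_mod_cast card_le_card (filter_subset_filter _ (hsub n))

open Classical in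
/-- a part which keeps its fibres is again a natural marked sequence. -/
theorem Nat5.of_fib {k s θ : ℝ} (h : Nat5 B I L lev r0 A q g f b e w1 w2 fl sc k s θ)
    {J' : ℕ → Finset (ℕ × ℝ)} (hsub : ∀ n, J' n ⊆ I n)
    (hne : ∀ᶠ n in (U : Filter ℕ), (J' n).Nonempty)
    (fib : ∀ v : ℚ, 0 ≤ v → v ≤ 1 → ∀ ε : ℝ, 0 < ε → ∀ᶠ n in (U : Filter ℕ), ∀ x ∈ J' n,
      B.d n ^ ε * (((I n).filter fun y => lc (lev n v) y = lc (lev n v) x).card : ℝ) ≤
        (((J' n).filter fun y => lc (lev n v) y = lc (lev n v) x).card : ℝ))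
    (fk : ∀ v : ℚ, 0 ≤ v → v ≤ 1 → ∀ ε : ℝ, 0 < ε → ∀ᶠ n in (U : Filter ℕ), ∀ x ∈ J' n,
      B.d n ^ ε * (((I n).filter fun y => kc (lev n v) (f n v) y = kc (lev n v) (f n v) x).card : ℝ)
        ≤ (((J' n).filter fun y => kc (lev n v) (f n v) y = kc (lev n v) (f n v) x).card : ℝ)) :
    Nat5 B J' L lev r0 A q g f b e w1 w2 fl sc k s θ where
  base := MkRef627.Mk.of_fib h.base hsub hne fib fk
  k0 := h.k0
  θ0 := h.θ0
  unit := fun n x hx => h.unit n x (hsub n hx)
  pr := h.pr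
  rot := RotF.of_fib h.rot hsub h.base.one fib
  close := fun v hv0 hv1 ε hε => by
    filter_upwards [h.close v hv0 hv1 ε hε] with n hn x hx
    exact hn x (hsub n hx)

open Classical in
/-- **A natural marked sequence inside one container class.** -/
theorem Nat5.cont {k s θ : ℝ} (h : Nat5 B I L lev r0 A q g f b e w1 w2 fl sc k s θ)
    {γ : ℕ → Type} (Q : ∀ n, ℕ × ℝ → γ n)
    (hl : ∀ v : ℚ, 0 ≤ v → v ≤ 1 → ∀ ε : ℝ, 0 < ε → ∀ᶠ n in (U : Filter ℕ), ∀ x ∈ I n,
      ((((I n).filter fun y => lc (lev n v) y = lc (lev n v) x).image (Q n)).card : ℝ) ≤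
        B.d n ^ (-ε))
    (hk : ∀ v : ℚ, 0 ≤ v → v ≤ 1 → ∀ ε : ℝ, 0 < ε → ∀ᶠ n in (U : Filter ℕ), ∀ x ∈ I n,
      ((((I n).filter fun y => kc (lev n v) (f n v) y = kc (lev n v) (f n v) x).image (Q n)).card : ℝ)
        ≤ B.d n ^ (-ε)) :
    ∃ I' : ℕ → Finset (ℕ × ℝ), (∀ n, I' n ⊆ I n) ∧ (∀ n, ∀ x ∈ I' n, ∀ y ∈ I' n, Q n x = Q n y) ∧
      Nat5 B I' L lev r0 A q g f b e w1 w2 fl sc k s θ := by
  -- maps: clamp the rational level to `[0,1]`
  set cv : ℚ → ℚ := fun v => max 0 (min 1 v) with hcv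
  have hcv0 : ∀ v, 0 ≤ cv v := fun v => le_max_left _ _
  have hcv1 : ∀ v, cv v ≤ 1 := fun v => max_le zero_le_one (min_le_left _ _)
  have hcvid : ∀ v : ℚ, 0 ≤ v → v ≤ 1 → cv v = v := fun v h0 h1 => by
    simp only [hcv]; rw [min_eq_right h1, max_eq_right h0]
  set lev' : ℕ → ℚ → ℕ := fun n v => lev n (cv v) with hlev'
  set f' : ℕ → ℚ → ℕ → ℤ → ℕ := fun n v => f n (cv v) with hf'
  obtain ⟨I', h1, h2, h3, h4⟩ := cont_seq (B := B) (I := I) h.base.ne (η := fun _ _ => ℕ × ℤ)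
    (hh lev' f') Q (by
      intro j ε hε
      obtain ⟨i, hi | hi⟩ : ∃ i, j = 2 * i ∨ j = 2 * i + 1 := ⟨j / 2, by omega⟩
      · subst hi
        simp only [hh_even]
        exact hl _ (hcv0 _) (hcv1 _) ε hε
      · subst hi
        simp only [hh_odd]
        exact hk _ (hcv0 _) (hcv1 _) ε hε)
  refine ⟨I', h1, h3, Nat5.of_fib h h1 h2 ?_ ?_⟩
  · intro v hv0 hv1 ε hε
    obtain ⟨j, rfl⟩ := exists_num v
    filter_upwards [h4 (2 * j) ε hε] with n hn x hx
    have := hn x hx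
    simp only [hh_even, hlev', hcvid _ hv0 hv1] at this
    exact this
  · intro v hv0 hv1 ε hε
    obtain ⟨j, rfl⟩ := exists_num v
    filter_upwards [h4 (2 * j + 1) ε hε] with n hn x hx
    have := hn x hx
    simp only [hh_odd, hlev', hf', hcvid _ hv0 hv1] at this
    exact this

end

end Crest.Agent.R138.Cont627
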