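import Crest.Agent.R138.L15Def_196

/-!
# R138, TEXT I, leaf L15, piece [A] (helper196): `Raw → ExtP`
-/

set_option autoImplicit false
set_option linter.unusedVariables false
set_option linter.unusedSectionVars false

open Finset Filter Topology

namespace Crest.Agent.R138.L15

open Crest.Agent.R138.Ex926
open Crest.Agent.R138.Flg101

section gen

variable {B : Base} {ι : ℕ → Type} [∀ n, DecidableEq (ι n)] {κ : ℕ → Type*}
  [∀ n, DecidableEq (κ n)] {V : Type*} [LE V] {I I' : ∀ n, Finset (ι n)}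
  {f : ∀ n, V → ι n → κ n} {P : Set V} {ν : V → ℝ}

/-- the profile is at most an upper bound for the classes -/
theorem prof_le (hν : QProf B I' f P ν) (hne : ∀ᶠ n in (U : Filter ℕ), (I' n).Nonempty) {p : V}
    (hp : p ∈ P) {a : ℝ}
    (h : ∀ ε : ℝ, 0 < ε → ∀ᶠ n in (U : Filter ℕ), ∀ i ∈ I' n,
      ((cls (I' n) (f n p) i).card : ℝ) ≤ B.d n ^ (-(a + ε))) : ν p ≤ a := by
  refine le_of_forall_pos_le_add fun ε hε => ?_
  obtain ⟨n, h1, h2⟩ := ((hν.ev_big hne (half_pos hε)).and (h (ε / 2) (half_pos hε))).exists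
  obtain ⟨i, hi, hb⟩ := h1 p hp
  have h3 := h2 i hi
  have hL := B.L_pos n
  have h4 := Real.log_le_log (by linarith [cls_card_pos (f := f n p) hi]) h3
  rw [Real.log_rpow (B.pos n), B.log_d] at h4
  have h5 : (ν p - ε / 2) * B.L n ≤ (a + ε / 2) * B.L n := by linarith
  have h6 := le_of_mul_le_mul_right h5 hL
  linarith

/-- the profile is at least an upper bound for the number of classes -/
theorem prof_ge (hν : QProf B I' f P ν) {S : ℕ → ℝ} (hS : B.Sub S)
    (hbasic : ∀ᶠ n in (U : Filter ℕ), I' n ⊆ I n ∧ (I' n).Nonempty ∧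
      ((I n).card : ℝ) ≤ S n * (I' n).card ∧ 1 ≤ S n) {p : V} (hp : p ∈ P) {a : ℝ}
    (h : ∀ ε : ℝ, 0 < ε → ∀ᶠ n in (U : Filter ℕ),
      (((I n).image (f n p)).card : ℝ) ≤ (I n).card * B.d n ^ (a - ε)) : a ≤ ν p := by
  refine le_of_forall_pos_le_add fun ε hε => ?_
  have hε3 : 0 < ε / 3 := by positivity
  obtain ⟨n, h1, h2, h3, h4⟩ := ((hν.up _ hε3).and ((h _ hε3).and (hbasic.and
    (hS.ev_le hε3)))).exists
  obtain ⟨hsub, ⟨i, hi⟩, hc, hS1⟩ := h3
  have hL := B.L_pos n
  have hpos : ∀ t : ℝ, 0 < B.d n ^ t := fun t => Real.rpow_pos_of_pos (B.pos n) t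
  have k1 : ((I' n).card : ℝ) ≤ B.d n ^ (-(ν p + ε / 3)) * ((I' n).image (f n p)).card := by
    have := le_count_mul (I' n) (fun _ => (1 : ℝ)) (f n p)
      (m := B.d n ^ (-(ν p + ε / 3))) (fun x hx => by
        rw [sum_const, nsmul_eq_mul, mul_one]
        exact h1 p hp x hx)
    rwa [sum_const, nsmul_eq_mul, mul_one] at this
  have k2 : (((I' n).image (f n p)).card : ℝ) ≤ ((I n).image (f n p)).card := by
    exact_mod_cast card_le_card (image_subset_image hsub)
  have hc0 : (0 : ℝ) < (I' n).card := by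
    exact_mod_cast card_pos.2 ⟨i, hi⟩
  have k3 : ((I' n).card : ℝ) ≤ B.d n ^ (-(ν p + ε / 3)) *
      ((S n * (I' n).card) * B.d n ^ (a - ε / 3)) := by
    refine k1.trans (mul_le_mul_of_nonneg_left ?_ (hpos _).le)
    refine k2.trans (h2.trans ?_)
    exact mul_le_mul_of_nonneg_right hc (hpos _).le
  have k4 : (1 : ℝ) ≤ S n * (B.d n ^ (-(ν p + ε / 3)) * B.d n ^ (a - ε / 3)) := by
    have : (I' n).card * 1 ≤ ((I' n).card : ℝ) *
        (S n * (B.d n ^ (-(ν p + ε / 3)) * B.d n ^ (a - ε / 3))) := by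
      rw [mul_one]
      refine k3.trans (le_of_eq ?_)
      ring
    exact le_of_mul_le_mul_left this hc0
  rw [← Real.rpow_add (B.pos n)] at k4
  have k5 := Real.log_le_log one_pos k4
  rw [Real.log_one, Real.log_mul h4.1.ne' (hpos _).ne', Real.log_rpow (B.pos n), B.log_d] at k5
  have h4' := h4.2
  have k6 : a * B.L n ≤ (ν p + ε) * B.L n := by nlinarith
  exact le_of_mul_le_mul_right k6 hL

/-- the profile drops at most by the exponent of the number of children -/
theorem prof_child (hν : QProf B I' f P ν) (hne : ∀ᶠ n in (U : Filter ℕ), (I' n).Nonempty)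
    {p p' : V} (hp : p ∈ P) (hp' : p' ∈ P) {D : ℝ}
    (h : ∀ ε : ℝ, 0 < ε → ∀ᶠ n in (U : Filter ℕ), ∀ i ∈ I' n,
      (((cls (I' n) (f n p) i).image (f n p')).card : ℝ) ≤ B.d n ^ (-(D + ε))) :
    ν p - ν p' ≤ D := by
  refine le_of_forall_pos_le_add fun ε hε => ?_
  have hε3 : 0 < ε / 3 := by positivity
  obtain ⟨n, h1, h2, h3⟩ := ((hν.ev_big hne hε3).and ((hν.up _ hε3).and (h _ hε3))).exists
  obtain ⟨i, hi, hb⟩ := h1 p hp
  have hL := B.L_pos n
  have hpos : ∀ t : ℝ, 0 < B.d n ^ t := fun t => Real.rpow_pos_of_pos (B.pos n) t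
  have k1 : ((cls (I' n) (f n p) i).card : ℝ) ≤
      B.d n ^ (-(ν p' + ε / 3)) * ((cls (I' n) (f n p) i).image (f n p')).card := by
    have := le_count_mul (cls (I' n) (f n p) i) (fun _ => (1 : ℝ)) (f n p')
      (m := B.d n ^ (-(ν p' + ε / 3))) (fun x hx => by
        rw [sum_const, nsmul_eq_mul, mul_one]
        refine le_trans ?_ (h2 p' hp' x (mem_cls.1 hx).1)
        exact_mod_cast card_le_card (cls_mono (cls_subset _ _ _) _ _))
    rwa [sum_const, nsmul_eq_mul, mul_one] at this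
  have k2 := h3 i hi
  have k3 : ((cls (I' n) (f n p) i).card : ℝ) ≤ B.d n ^ (-(ν p' + ε / 3)) *
      B.d n ^ (-(D + ε / 3)) := k1.trans (mul_le_mul_of_nonneg_left k2 (hpos _).le)
  rw [← Real.rpow_add (B.pos n)] at k3
  have k4 := Real.log_le_log (by linarith [cls_card_pos (f := f n p) hi]) k3
  rw [Real.log_rpow (B.pos n), B.log_d] at k4
  have k5 : (ν p - ν p') * B.L n ≤ (D + ε) * B.L n := by nlinarith
  exact le_of_mul_le_mul_right k5 hL

/-- a Lipschitz function on `[0,1]` which is nonnegative inside is nonnegative -/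
theorem ext01 {F : ℝ → ℝ} {C : ℝ}
    (hl : ∀ v w : ℝ, 0 ≤ v → v ≤ 1 → 0 ≤ w → w ≤ 1 → |F v - F w| ≤ C * |v - w|)
    (h : ∀ v : ℝ, 0 < v → v < 1 → 0 ≤ F v) {v : ℝ} (hv0 : 0 ≤ v) (hv1 : v ≤ 1) : 0 ≤ F v := by
  have hC : 0 ≤ C := by
    have := hl 0 1 le_rfl zero_le_one zero_le_one le_rfl
    have h2 := (abs_nonneg _).trans this
    simpa using h2
  refine le_of_forall_pos_le_add fun ε hε => ?_
  set t : ℝ := min 1 (ε / (C + 1)) with ht
  have ht0 : 0 < t := lt_min one_pos (by positivity)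
  have ht1 : t ≤ 1 := min_le_left _ _
  have htC : C * t ≤ ε := by
    have h1 : t ≤ ε / (C + 1) := min_le_right _ _
    rw [le_div_iff₀ (by positivity)] at h1
    nlinarith
  set w : ℝ := v + t * (1 / 2 - v) with hw
  have hw0 : 0 < w := by rw [hw]; nlinarith
  have hw1 : w < 1 := by rw [hw]; nlinarith
  have h1 := h w hw0 hw1
  have h2 := hl v w hv0 hv1 hw0.le hw1.le
  have h3 : |v - w| ≤ t := by
    rw [hw, abs_le]; constructor <;> nlinarith
  have h4 := (abs_le.1 (h2.trans (mul_le_mul_of_nonneg_left h3 hC))).1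
  linarith

end gen

section olab

variable {B : Base} {ι : ℕ → Type} [∀ n, DecidableEq (ι n)] {I : ∀ n, Finset (ι n)}
  {x : ∀ n, ι n → Inc} {line : ∀ n, ι n → ℕ}

theorem Icc_eq_WP (M : ℝ) : (Set.Icc 0 (fun _ => M) : Set (Fin 2 → ℝ)) = WP ∅ M := by
  ext p
  simp only [WP, Set.mem_Icc, Set.mem_ofPred_eq, Pi.le_def, Pi.zero_apply]
  constructor
  · rintro ⟨a, b⟩; exact ⟨fun i => ⟨a i, b i⟩, fun w hw => absurd hw (Set.notMem_empty _)⟩
  · rintro ⟨a, b⟩; exact ⟨fun i => (a i).1, fun i => (a i).2⟩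

theorem Icc_snet (M : ℝ) : SNet (Set.Icc 0 (fun _ => M) : Set (Fin 2 → ℝ)) := by
  rw [Icc_eq_WP]
  exact WP.snet ∅ M (fun _ => 1) (fun _ => one_pos) (fun w hw => absurd hw (Set.notMem_empty _))

theorem Icc_sup (M : ℝ) : ∀ p ∈ (Set.Icc 0 (fun _ => M) : Set (Fin 2 → ℝ)),
    ∀ q ∈ (Set.Icc 0 (fun _ => M) : Set (Fin 2 → ℝ)), p ⊔ q ∈ (Set.Icc 0 (fun _ => M) : Set (Fin 2 → ℝ)) := by
  rw [Icc_eq_WP]
  exact WP.sup ∅ M

theorem levc_diff (B : Base) (n : ℕ) {a b : ℝ} (hb : 0 ≤ b) (hab : a ≤ b) :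
    ((B.levc n b - B.levc n a : ℕ) : ℝ) * Real.log 2 ≤ (b - a) * B.L n + Real.log 2 := by
  have hl2 : 0 < Real.log 2 := Real.log_pos (by norm_num)
  have hL := B.L_pos n
  rw [Nat.cast_sub (B.levc_mono n hab)]
  have e1 : ((B.levc n b : ℕ) : ℝ) < b * B.L n / Real.log 2 + 1 :=
    Nat.ceil_lt_add_one (by positivity)
  have e2 : a * B.L n / Real.log 2 ≤ ((B.levc n a : ℕ) : ℝ) := Nat.le_ceil _
  have e3 : b * B.L n / Real.log 2 * Real.log 2 = b * B.L n := by field_simp
  have e4 : a * B.L n / Real.log 2 * Real.log 2 = a * B.L n := by field_simp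
  nlinarith

theorem lev_diff (B : Base) (n : ℕ) {a b : ℝ} (hb : 0 ≤ b) (hab : a ≤ b) :
    ((B.lev n b - B.lev n a : ℕ) : ℝ) * Real.log 2 ≤ (b - a) * B.L n + Real.log 2 := by
  have hl2 : 0 < Real.log 2 := Real.log_pos (by norm_num)
  have hL := B.L_pos n
  rw [Nat.cast_sub (B.lev_mono n hab)]
  have e1 : ((B.lev n b : ℕ) : ℝ) ≤ b * B.L n / Real.log 2 := Nat.floor_le (by positivity)
  have e2 : a * B.L n / Real.log 2 < (B.lev n a : ℝ) + 1 := Nat.lt_floor_add_one _
  have e3 : b * B.L n / Real.log 2 * Real.log 2 = b * B.L n := by field_simp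
  have e4 : a * B.L n / Real.log 2 * Real.log 2 = a * B.L n := by field_simp
  nlinarith

theorem two_pow_eq (m : ℕ) : (2 : ℝ) ^ m = Real.exp ((m : ℝ) * Real.log 2) := by
  rw [← Real.rpow_natCast, Real.rpow_def_of_pos (by norm_num), mul_comm]

theorem olab_QFam (B : Base) (I : ∀ n, Finset (ι n)) (x : ∀ n, ι n → Inc)
    (line : ∀ n, ι n → ℕ) (M : ℝ) :
    QFam B I (olab B x line) 2 (Set.Icc 0 (fun _ => M)) where
  nest := by
    refine ⟨fun _ => 1, Base.Sub.const one_pos, Eventually.of_forall fun n p hp p' hp' hpp i hi => ?_⟩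
    have hs : (two (I n) (olab B x line n p) (olab B x line n p') i).image (olab B x line n p) ⊆
        {olab B x line n p i} := by
      intro c hc
      obtain ⟨z, hz, rfl⟩ := mem_image.1 hc
      obtain ⟨h1, y, h2, h3, h4⟩ := mem_two.1 hz
      rw [mem_singleton, ← h3]
      simp only [olab, Prod.mk.injEq] at h4 ⊢
      obtain ⟨e1, e2⟩ := h4
      refine ⟨e1, ?_⟩
      exact cell_nested (B.levc_mono n (hpp 0)) (B.levc_mono n (hpp 1)) e2
    have := card_le_card hs
    rw [card_singleton] at this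
    show (_ : ℝ) ≤ (1 : ℝ)
    exact_mod_cast this
  child := fun ε hε => by
    have hl2 : 0 < Real.log 2 := Real.log_pos (by norm_num)
    filter_upwards [B.ev_const_log (2 * Real.log 2) hε] with n hn p hp p' hp' hpp i hi
    have hL := B.L_pos n
    have h0 : ∀ a, 0 ≤ p' a := fun a => hp'.1 a
    set A := cls (I n) (olab B x line n p) i with hA
    have hcell : ∀ t ∈ A, (x n t).cell (B.levc n (p 0)) (B.levc n (p 1)) =
        (x n i).cell (B.levc n (p 0)) (B.levc n (p 1)) := by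
      intro t ht
      have := (mem_cls.1 ht).2
      simp only [olab, Prod.mk.injEq] at this
      exact this.2
    have hline : ∀ t ∈ A, line n t = line n i := by
      intro t ht
      have := (mem_cls.1 ht).2
      simp only [olab, Prod.mk.injEq] at this
      exact this.1
    have h1 := card_cell_le A (x n) (B.levc_mono n (hpp 0)) (B.levc_mono n (hpp 1)) (x n i) hcell
    have h2 : (A.image (olab B x line n p')).card ≤
        (A.image fun t => (x n t).cell (B.levc n (p' 0)) (B.levc n (p' 1))).card := by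
      have hs : A.image (olab B x line n p') ⊆ (A.image fun t =>
          (x n t).cell (B.levc n (p' 0)) (B.levc n (p' 1))).image fun c => (line n i, c) := by
        intro c hc
        obtain ⟨t, ht, rfl⟩ := mem_image.1 hc
        rw [mem_image]
        refine ⟨_, mem_image_of_mem _ ht, ?_⟩
        simp only [olab, hline t ht]
      exact (card_le_card hs).trans card_image_le
    have h3 : ((A.image (olab B x line n p')).card : ℝ) ≤
        2 ^ ((B.levc n (p' 0) - B.levc n (p 0)) + (B.levc n (p' 1) - B.levc n (p 1))) := by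
      rw [pow_add]
      exact_mod_cast h2.trans h1
    refine h3.trans ?_
    rw [two_pow_eq, ← B.exp_eq]
    refine Real.exp_le_exp.2 ?_
    have d0 := levc_diff B n (h0 0) (hpp 0)
    have d1 := levc_diff B n (h0 1) (hpp 1)
    have hpd : ∀ a, p' a - p a ≤ ‖p' - p‖ := fun a => by
      have := norm_le_pi_norm (p' - p) a
      rw [Pi.sub_apply, Real.norm_eq_abs] at this
      exact (le_abs_self _).trans this
    have e0 := mul_le_mul_of_nonneg_right (hpd 0) hL.le
    have e1 := mul_le_mul_of_nonneg_right (hpd 1) hL.le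
    push_cast
    nlinarith

theorem flab_child (B : Base) (I : ∀ n, Finset (ι n)) (x : ∀ n, ι n → Inc) {M : ℝ}
    {p p' : Fin 6 → ℝ} (hp : p ∈ LEG M) (hp' : p' ∈ LEG M) (hpp : p ≤ p') {ε : ℝ} (hε : 0 < ε) :
    ∀ᶠ n in (U : Filter ℕ), ∀ i ∈ I n,
      (((cls (I n) (flab B x n p) i).image (flab B x n p')).card : ℝ) ≤
        B.d n ^ (-(∑ a, (p' a - p a) + ε)) := by
  have hl2 : 0 < Real.log 2 := Real.log_pos (by norm_num)
  filter_upwards [B.ev_const_log (Real.log 675 + 6 * Real.log 2) hε] with n hn i hi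
  have hL := B.L_pos n
  have h := card_fine_le (I n) (x n) (B.levc_mono n (hpp 4)) (B.levc_mono n (hpp 5))
    (p := vlev B n p) (p' := vlev B n p') (fun k => by
      fin_cases k
      · exact B.lev_mono n (hpp 0)
      · exact B.levc_mono n (hpp 1)
      · exact B.levc_mono n (hpp 2)
      · exact B.lev_mono n (hpp 3)) (wall_of_LEG B n hp) i
  have h' : (((cls (I n) (flab B x n p) i).image (flab B x n p')).card : ℝ) ≤
      675 * 2 ^ ((B.levc n (p' 4) - B.levc n (p 4)) + (B.levc n (p' 5) - B.levc n (p 5)) +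
        ∑ k, (vlev B n p' k - vlev B n p k)) := by exact_mod_cast h
  refine h'.trans ?_
  have h0 : ∀ a, 0 ≤ p' a := fun a => ((mem_LEG.1 hp').1 a).1
  rw [two_pow_eq, ← B.exp_eq, ← Real.exp_log (show (0:ℝ) < 675 by norm_num), ← Real.exp_add]
  refine Real.exp_le_exp.2 ?_
  rw [Fin.sum_univ_four, Fin.sum_univ_six]
  have s0 := lev_diff B n (h0 0) (hpp 0)
  have s1 := levc_diff B n (h0 1) (hpp 1)
  have s2 := levc_diff B n (h0 2) (hpp 2)
  have s3 := lev_diff B n (h0 3) (hpp 3)
  have s4 := levc_diff B n (h0 4) (hpp 4)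
  have s5 := levc_diff B n (h0 5) (hpp 5)
  have v0 : vlev B n p' 0 - vlev B n p 0 = B.lev n (p' 0) - B.lev n (p 0) := rfl
  have v1 : vlev B n p' 1 - vlev B n p 1 = B.levc n (p' 1) - B.levc n (p 1) := rfl
  have v2 : vlev B n p' 2 - vlev B n p 2 = B.levc n (p' 2) - B.levc n (p 2) := rfl
  have v3 : vlev B n p' 3 - vlev B n p 3 = B.lev n (p' 3) - B.lev n (p 3) := rfl
  rw [v0, v1, v2, v3]
  push_cast
  nlinarith

/-- few slope cells -/
theorem card_floor_le {α : Type*} [DecidableEq α] (A : Finset α) (g : α → ℝ) {D : ℝ} (hD : 0 ≤ D)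
    (h : ∀ t ∈ A, ∀ t' ∈ A, |g t - g t'| ≤ D) (j : ℕ) :
    ((A.image fun t => ⌊(2 : ℝ) ^ j * g t⌋).card : ℝ) ≤ 2 * (2 ^ j * D) + 3 := by
  classical
  rcases A.eq_empty_or_nonempty with h0 | ⟨t0, ht0⟩
  · rw [h0]; simp; positivity
  set K : ℕ := ⌈(2 : ℝ) ^ j * D⌉₊ with hK
  have hs : (A.image fun t => ⌊(2 : ℝ) ^ j * g t⌋) ⊆
      Finset.Icc (⌊(2 : ℝ) ^ j * g t0⌋ - K) (⌊(2 : ℝ) ^ j * g t0⌋ + K) := by
    intro c hc
    obtain ⟨t, ht, rfl⟩ := mem_image.1 hc
    have h1 := h t ht t0 ht0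
    have h2 : |g t - g t0| ≤ K * (1 / 2) ^ j := by
      refine h1.trans ?_
      have h3 : (2 : ℝ) ^ j * D ≤ K := Nat.le_ceil _
      have h4 : (1 / 2 : ℝ) ^ j = 1 / 2 ^ j := by rw [div_pow, one_pow]
      rw [h4, mul_one_div, le_div_iff₀ (by positivity)]
      linarith
    have h3 := floor_of_dist h2
    rw [abs_le] at h3
    rw [Finset.mem_Icc]
    constructor <;> linarith [h3.1, h3.2]
  have h1 := card_le_card hs
  rw [Int.card_Icc] at h1
  have h2 : ⌊(2 : ℝ) ^ j * g t0⌋ + (K : ℤ) + 1 - (⌊(2 : ℝ) ^ j * g t0⌋ - (K : ℤ)) =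
      ((2 * K + 1 : ℕ) : ℤ) := by push_cast; ring
  rw [h2, Int.toNat_natCast] at h1
  have h3 : ((A.image fun t => ⌊(2 : ℝ) ^ j * g t⌋).card : ℝ) ≤ 2 * K + 1 := by exact_mod_cast h1
  have h4 : (K : ℝ) < 2 ^ j * D + 1 := Nat.ceil_lt_add_one (by positivity)
  linarith

end olab

section main

variable {B : Base} {ι : ℕ → Type} [∀ n, DecidableEq (ι n)] {I : ∀ n, Finset (ι n)}
  {x : ∀ n, ι n → Inc} {line : ∀ n, ι n → ℕ} {M s b q k θ c₀ : ℝ}

theorem Raw.mem_path (h : Raw B I x line M s b q k θ c₀) {v : ℝ} (hv0 : 0 ≤ v) (hv1 : v ≤ 1) :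
    Bx6 v (θ * (1 - v)) (θ * (1 - v) + k * v) (k * v) ∈ LEG M := by
  have hk := h.k0
  have hθ := h.θ0
  obtain ⟨m1, m2⟩ := h.M0
  have a1 : 0 ≤ θ * (1 - v) := mul_nonneg hθ.le (by linarith)
  have a2 : 0 ≤ k * v := mul_nonneg hk.le hv0
  have a3 : v + (θ * (1 - v) + k * v) ≤ M := by
    have : v + (θ * (1 - v) + k * v) = v * (1 + k) + (1 - v) * θ := by ring
    rw [this]
    nlinarith [mul_le_mul_of_nonneg_left m1 hv0, mul_le_mul_of_nonneg_left m2 (by linarith : 0 ≤ 1 - v)]
  rw [mem_LEG]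
  refine ⟨fun a => ?_, ?_, ?_, ?_, ?_⟩
  · fin_cases a
    · show 0 ≤ v + (θ * (1 - v) + k * v) ∧ v + (θ * (1 - v) + k * v) ≤ M
      exact ⟨by linarith, a3⟩
    · show 0 ≤ θ * (1 - v) + k * v ∧ θ * (1 - v) + k * v ≤ M
      exact ⟨by linarith, by linarith⟩
    · show 0 ≤ θ * (1 - v) ∧ θ * (1 - v) ≤ M
      exact ⟨by linarith, by linarith⟩
    · show 0 ≤ v + θ * (1 - v) ∧ v + θ * (1 - v) ≤ M
      exact ⟨by linarith, by linarith⟩
    · show 0 ≤ v ∧ v ≤ M
      exact ⟨by linarith, by linarith⟩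
    · show 0 ≤ k * v ∧ k * v ≤ M
      exact ⟨by linarith, by linarith⟩
  · show v + (θ * (1 - v) + k * v) ≤ θ * (1 - v) + k * v + v
    linarith
  · show v + θ * (1 - v) ≤ θ * (1 - v) + v
    linarith
  · show v + (θ * (1 - v) + k * v) ≤ k * v + (v + θ * (1 - v))
    linarith
  · show θ * (1 - v) + k * v ≤ k * v + θ * (1 - v)
    linarith

/-- number of olab classes at `(v, r)`, `r ≤ k v` -/
theorem Raw.card_olab (h : Raw B I x line M s b q k θ c₀) {v r : ℝ} (hv0 : 0 < v) (hv1 : v < 1)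
    (hr0 : 0 ≤ r) (hr : r ≤ k * v) {ε : ℝ} (hε : 0 < ε) : ∀ᶠ n in (U : Filter ℕ),
    (((I n).image (olab B x line n ![v, r])).card : ℝ) ≤
      (I n).card * B.d n ^ ((1 - s) * (1 - v) - ε) := by
  have hε4 : 0 < ε / 4 := by positivity
  filter_upwards [h.ownL v hv0 hv1 _ hε4, h.rot v hv0 hv1 _ hε4,
    B.ev_const_log (Real.log 7) hε4] with n h1 h2 h3
  have hL := B.L_pos n
  have hpos : ∀ t : ℝ, 0 < B.d n ^ t := fun t => Real.rpow_pos_of_pos (B.pos n) t
  have k1 : (((I n).image (olab B x line n ![v, r])).card : ℝ) ≤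
      7 * B.d n ^ (-(ε / 4)) * ((I n).image (lz x line n (B.levc n v))).card := by
    refine card_image_le_mul _ _ _ fun i hi => ?_
    set A := cls (I n) (lz x line n (B.levc n v)) i with hA
    have hlz : ∀ t ∈ A, lz x line n (B.levc n v) t = lz x line n (B.levc n v) i :=
      fun t ht => (mem_cls.1 ht).2
    have hs : A.image (olab B x line n ![v, r]) ⊆
        (A.image fun t => ⌊(2 : ℝ) ^ (B.levc n r) * (x n t).θ⌋).image fun c =>
          (line n i, (⌊(2 : ℝ) ^ (B.levc n v) * (x n i).z⌋, c)) := by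
      intro c hc
      obtain ⟨t, ht, rfl⟩ := mem_image.1 hc
      rw [mem_image]
      refine ⟨_, mem_image_of_mem _ ht, ?_⟩
      have h5 := hlz t ht
      simp only [lz, Prod.mk.injEq] at h5
      show (line n i, (⌊(2 : ℝ) ^ (B.levc n v) * (x n i).z⌋, ⌊(2 : ℝ) ^ (B.levc n r) * (x n t).θ⌋)) =
        (line n t, (⌊(2 : ℝ) ^ (B.levc n v) * (x n t).z⌋, ⌊(2 : ℝ) ^ (B.levc n r) * (x n t).θ⌋))
      rw [h5.1, h5.2]
    have h4 : ((A.image (olab B x line n ![v, r])).card : ℝ) ≤
        (A.image fun t => ⌊(2 : ℝ) ^ (B.levc n r) * (x n t).θ⌋).card := by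
      exact_mod_cast (card_le_card hs).trans card_image_le
    refine h4.trans ?_
    have h5 := card_floor_le A (fun t => (x n t).θ) (D := B.d n ^ (k * v - ε / 4)) (hpos _).le
      (fun t ht t' ht' => h2 t (mem_cls.1 ht).1 t' (mem_cls.1 ht').1
        ((hlz t ht).trans (hlz t' ht').symm)) (B.levc n r)
    refine h5.trans ?_
    have h6 := B.pow_levc_le n hr0
    have h7 : (2 : ℝ) ^ (B.levc n r) * B.d n ^ (k * v - ε / 4) ≤ 2 * B.d n ^ (-(ε / 4)) := by
      calc (2 : ℝ) ^ (B.levc n r) * B.d n ^ (k * v - ε / 4) ≤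
          2 * B.d n ^ (-r) * B.d n ^ (k * v - ε / 4) := mul_le_mul_of_nonneg_right h6 (hpos _).le
        _ = 2 * B.d n ^ ((k * v - r) - ε / 4) := by
            rw [mul_assoc, ← Real.rpow_add (B.pos n)]; congr 2; ring
        _ ≤ 2 * B.d n ^ (-(ε / 4)) := by
            refine mul_le_mul_of_nonneg_left ?_ two_pos.le
            exact Real.rpow_le_rpow_of_exponent_ge (B.pos n) (B.lt n).le (by linarith)
    have h8 : (1 : ℝ) ≤ B.d n ^ (-(ε / 4)) :=
      Real.one_le_rpow_of_pos_of_le_one_of_nonpos (B.pos n) (B.lt n).le (by linarith)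
    linarith
  have k2 : (7 : ℝ) ≤ B.d n ^ (-(ε / 4)) := by
    rw [← B.exp_eq, ← Real.log_le_iff_le_exp (by norm_num)]
    exact h3
  have hI : (0 : ℝ) ≤ (I n).card := Nat.cast_nonneg _
  calc (((I n).image (olab B x line n ![v, r])).card : ℝ)
      ≤ 7 * B.d n ^ (-(ε / 4)) * ((I n).image (lz x line n (B.levc n v))).card := k1
    _ ≤ B.d n ^ (-(ε / 4)) * B.d n ^ (-(ε / 4)) *
        ((I n).card * B.d n ^ ((1 - s) * (1 - v) - ε / 4)) := by
        refine mul_le_mul (mul_le_mul_of_nonneg_right k2 (hpos _).le) h1 (Nat.cast_nonneg _) ?_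
        exact mul_nonneg (hpos _).le (hpos _).le
    _ = (I n).card * B.d n ^ ((1 - s) * (1 - v) - 3 * (ε / 4)) := by
        rw [mul_left_comm, ← Real.rpow_add (B.pos n), ← Real.rpow_add (B.pos n)]
        congr 2; ring
    _ ≤ (I n).card * B.d n ^ ((1 - s) * (1 - v) - ε) := by
        refine mul_le_mul_of_nonneg_left ?_ hI
        exact Real.rpow_le_rpow_of_exponent_ge (B.pos n) (B.lt n).le (by linarith)

/-- sizes of the two families -/
def mF : Bool → ℕ
  | true => 6
  | false => 2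

/-- labels of the two families -/
def kF : Bool → ℕ → Type
  | true, _ => (ℤ × ℤ) × (Fin 4 → ℤ)
  | false, _ => ℕ × (ℤ × ℤ)

instance kFdec : ∀ j n, DecidableEq (kF j n)
  | true, _ => inferInstanceAs (DecidableEq ((ℤ × ℤ) × (Fin 4 → ℤ)))
  | false, _ => inferInstanceAs (DecidableEq (ℕ × (ℤ × ℤ)))

/-- the two families -/
noncomputable def fF (B : Base) (x : ∀ n, ι n → Inc) (line : ∀ n, ι n → ℕ) :
    ∀ j n, (Fin (mF j) → ℝ) → ι n → kF j n
  | true, n => flab B x n
  | false, n => olab B x line n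

/-- the parameter sets -/
def PF (M : ℝ) : ∀ j, Set (Fin (mF j) → ℝ)
  | true => LEG M
  | false => Set.Icc 0 (fun _ => M)

/-- the Lipschitz constants -/
def KF : Bool → ℝ
  | true => 6
  | false => 2

theorem exists_two (I : ∀ n, Finset (ι n)) (x : ∀ n, ι n → Inc) (line : ∀ n, ι n → ℕ) (M : ℝ)
    (hne : ∀ᶠ n in (U : Filter ℕ), (I n).Nonempty)
    (hcard : ∃ C : ℝ, ∀ᶠ n in (U : Filter ℕ), ((I n).card : ℝ) ≤ B.d n ^ (-C)) :
    ∃ (I' : ∀ n, Finset (ι n)) (S : ℕ → ℝ), B.Sub S ∧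
      (∀ᶠ n in (U : Filter ℕ), I' n ⊆ I n ∧ (I' n).Nonempty ∧
        ((I n).card : ℝ) ≤ S n * (I' n).card ∧ 1 ≤ S n) ∧
      (∃ ν : (Fin 6 → ℝ) → ℝ, QProf B I' (flab B x) (LEG M) ν ∧
        (∀ p ∈ LEG M, ∀ q ∈ LEG M, |ν p - ν q| ≤ 6 * ‖p - q‖) ∧
        (∀ p ∈ LEG M, ∀ q ∈ LEG M, p ≤ q → ν q ≤ ν p)) ∧
      ∃ own : (Fin 2 → ℝ) → ℝ, QProf B I' (olab B x line) (Set.Icc 0 (fun _ => M)) own ∧
        (∀ p ∈ (Set.Icc 0 (fun _ => M) : Set (Fin 2 → ℝ)),
          ∀ q ∈ (Set.Icc 0 (fun _ => M) : Set (Fin 2 → ℝ)), |own p - own q| ≤ 2 * ‖p - q‖) ∧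
        (∀ p ∈ (Set.Icc 0 (fun _ => M) : Set (Fin 2 → ℝ)),
          ∀ q ∈ (Set.Icc 0 (fun _ => M) : Set (Fin 2 → ℝ)), p ≤ q → own q ≤ own p) := by
  obtain ⟨C, hC⟩ := hcard
  have hC' : ∀ᶠ n in (U : Filter ℕ), ((I n).card : ℝ) ≤ B.d n ^ (-(max C 0)) := by
    filter_upwards [hC] with n hn
    refine hn.trans (Real.rpow_le_rpow_of_exponent_ge (B.pos n) (B.lt n).le ?_)
    have := le_max_left C 0
    linarith
  obtain ⟨I', S, hS, hb, hJ⟩ := exists_qprof_many (B := B) (I := I) (m := mF) (f := fF B x line)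
    (K := KF) (fun j => by cases j <;> simp [KF]) (P := PF M)
    (fun j => by
      cases j
      · exact Icc_snet M
      · exact LEG.snet M)
    (fun j => by
      cases j
      · exact isCompact_Icc
      · exact LEG.isCompact M)
    (fun j => by
      cases j
      · exact Icc_sup M
      · exact LEG.sup M)
    (fun j => by
      cases j
      · exact olab_QFam B I x line M
      · exact flab_QFam B I x M)
    hne (le_max_right C 0) hC'
  exact ⟨I', S, hS, hb, hJ true, hJ false⟩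

theorem Raw.exists_ext (h : Raw B I x line M s b q k θ c₀) :
    ∃ (I' : ∀ n, Finset (ι n)) (ν : (Fin 6 → ℝ) → ℝ) (own : (Fin 2 → ℝ) → ℝ),
      (∀ᶠ n in (U : Filter ℕ), I' n ⊆ I n) ∧ ExtP B I' x line ν own M s b q k θ c₀ := by
  have hk := h.k0
  have hθ := h.θ0
  obtain ⟨hM1, hM2⟩ := h.M0
  obtain ⟨I', S, hS, hb, ⟨ν, hν, hνl, hνa⟩, own, ho, hol, hoa⟩ :=
    exists_two I x line M h.ne h.card
  have hne : ∀ᶠ n in (U : Filter ℕ), (I' n).Nonempty := hb.mono fun n hn => hn.2.1
  have hsub : ∀ᶠ n in (U : Filter ℕ), I' n ⊆ I n := hb.mono fun n hn => hn.1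
  have mP : ∀ v r : ℝ, 0 ≤ v → v ≤ 1 → 0 ≤ r → r ≤ M →
      (![v, r] : Fin 2 → ℝ) ∈ (Set.Icc 0 (fun _ => M) : Set (Fin 2 → ℝ)) := by
    intro v r h0 h1 h2 h3
    constructor <;> intro a <;> fin_cases a
    · exact h0
    · exact h2
    · show v ≤ M
      linarith
    · exact h3
  -- own, upper bound
  have oU : ∀ v r : ℝ, 0 ≤ v → v ≤ 1 → 0 ≤ r → r ≤ M → own ![v, r] ≤ (1 - s) * (1 - v) := by
    intro v r h0 h1 h2 h3
    refine prof_le ho hne (mP v r h0 h1 h2 h3) fun ε hε => ?_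
    filter_upwards [h.ownU v h0 h1 ε hε, hsub] with n hn hs i hi
    refine le_trans ?_ (hn i (hs hi))
    refine Nat.cast_le.2 (card_le_card fun t ht => ?_)
    obtain ⟨t1, t2⟩ := mem_cls.1 ht
    have t3 : (line n t, (x n t).cell (B.levc n v) (B.levc n r)) =
      (line n i, (x n i).cell (B.levc n v) (B.levc n r)) := t2
    simp only [Inc.cell, Prod.mk.injEq] at t3
    rw [mem_filter]
    refine ⟨hs t1, ?_⟩
    simp only [lz, Prod.mk.injEq]
    exact ⟨t3.1, t3.2.1⟩
  -- own, lower bound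
  have oL : ∀ ρ v : ℝ, 0 ≤ ρ → ρ ≤ k → 0 ≤ v → v ≤ 1 → (1 - s) * (1 - v) ≤ own ![v, ρ * v] := by
    intro ρ v hρ0 hρ hv0 hv1
    have hin : ∀ w : ℝ, 0 ≤ w → w ≤ 1 → 0 ≤ ρ * w ∧ ρ * w ≤ M := by
      intro w hw0 hw1
      refine ⟨mul_nonneg hρ0 hw0, ?_⟩
      nlinarith
    have key := ext01 (F := fun w => own ![w, ρ * w] - (1 - s) * (1 - w))
      (C := 2 * (1 + ρ) + |1 - s|) ?_ ?_ hv0 hv1
    · linarith
    · intro w w' h1 h2 h3 h4
      have e1 := hol _ (mP w (ρ * w) h1 h2 (hin w h1 h2).1 (hin w h1 h2).2) _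
        (mP w' (ρ * w') h3 h4 (hin w' h3 h4).1 (hin w' h3 h4).2)
      have e2 : ‖(![w, ρ * w] : Fin 2 → ℝ) - ![w', ρ * w']‖ ≤ (1 + ρ) * |w - w'| := by
        refine (pi_norm_le_iff_of_nonneg (by positivity)).2 fun a => ?_
        fin_cases a
        · show ‖w - w'‖ ≤ _
          rw [Real.norm_eq_abs]
          nlinarith [abs_nonneg (w - w')]
        · show ‖ρ * w - ρ * w'‖ ≤ _
          rw [← mul_sub, Real.norm_eq_abs, abs_mul, abs_of_nonneg hρ0]
          nlinarith [abs_nonneg (w - w')]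
      have e3 : own ![w, ρ * w] - (1 - s) * (1 - w) - (own ![w', ρ * w'] - (1 - s) * (1 - w')) =
        (own ![w, ρ * w] - own ![w', ρ * w']) + (1 - s) * (w - w') := by ring
      show |own ![w, ρ * w] - (1 - s) * (1 - w) - (own ![w', ρ * w'] - (1 - s) * (1 - w'))| ≤ _
      rw [e3]
      refine (abs_add_le _ _).trans ?_
      rw [abs_mul]
      nlinarith
    · intro w hw0 hw1
      have hw := hin w hw0.le hw1.le
      have := prof_ge ho hS hb (mP w (ρ * w) hw0.le hw1.le hw.1 hw.2)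
        (fun ε hε => h.card_olab hw0 hw1 hw.1 (by nlinarith) hε)
      show 0 ≤ own ![w, ρ * w] - (1 - s) * (1 - w)
      linarith
  have oz : ∀ v : ℝ, 0 ≤ v → v ≤ 1 → own ![v, 0] = (1 - s) * (1 - v) := by
    intro v h0 h1
    have e1 := oU v 0 h0 h1 le_rfl (by linarith)
    have e2 := oL 0 v le_rfl hk.le h0 h1
    rw [zero_mul] at e2
    exact le_antisymm e1 e2
  -- D-max
  have hdmax : ∀ v l nn : ℝ, 0 ≤ v → v ≤ 1 → 0 ≤ l → l ≤ nn → Bx6 v l nn (k * v) ∈ LEG M →
      ν (Bx6 v l nn (k * v)) ≤ c₀ + bex s b q v l nn := by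
    intro v l nn h0 h1 h2 h3 hp
    refine prof_le hν hne hp fun ε hε => ?_
    filter_upwards [h.dmax v l nn (k * v) h0 h1 h2 h3 hp ε hε, hsub] with n hn hs i hi
    refine le_trans ?_ (hn i (hs hi))
    refine Nat.cast_le.2 (card_le_card fun t ht => ?_)
    obtain ⟨t1, t2⟩ := mem_cls.1 ht
    rw [mem_filter]
    exact ⟨hs t1, t2⟩
  refine ⟨I', ν, own, hsub, ?_⟩
  exact
    { ne := hne
      s0 := h.s0
      s1 := h.s1
      bs := h.bs
      q0 := h.q0
      k0 := h.k0
      θ0 := h.θ0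
      M0 := h.M0
      line_eq := fun n i _ j _ e => h.line_eq n i j e
      prof := hν
      lip := by
        intro p hp p' hp' hpp
        refine ⟨sub_nonneg.2 (hνa p hp p' hp' hpp), ?_⟩
        exact prof_child hν hne hp hp' fun ε hε => flab_child B I' x hp hp' hpp hε
      submod := by
        intro p hp p' hp' hi
        exact QProf.submod hν (flab_QJoin B I' x M) hne hp hp' hi (LEG.sup M p hp p' hp')
      oprof := ho
      own_z := oz
      own_rot := by
        intro v r h0 h1 h2 h3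
        have hrM : r ≤ M := by nlinarith
        rw [oz v h0 h1]
        refine le_antisymm (oU v r h0 h1 h2 hrM) ?_
        rcases h0.eq_or_lt with h4 | h4
        · have hr0 : r = 0 := le_antisymm (by rw [← h4] at h3; linarith) h2
          have := oL 0 v le_rfl hk.le h0 h1
          rw [zero_mul] at this
          rw [hr0]
          exact this
        · have := oL (r / v) v (by positivity) (by rw [div_le_iff₀ h4]; exact h3) h0 h1
          rwa [div_mul_cancel₀ _ h4.ne'] at this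
      own_tw := by
        intro v r h0 h1 h2 h3
        have hr0 : 0 ≤ r := by nlinarith
        obtain ⟨γ, hγ, hev⟩ := h.tw v r h0 h1 h2
        have h5 : own ![v, r] ≤ (1 - s) * (1 - v) - γ := by
          refine prof_le ho hne (mP v r h0 h1.le hr0 h3) fun ε hε => ?_
          filter_upwards [hev, hsub] with n hn hs i hi
          have h6 : (cls (I' n) (olab B x line n ![v, r]) i).card ≤
              ((I n).filter fun j => lz x line n (B.levc n v) j = lz x line n (B.levc n v) i ∧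
                |(x n i).θ - (x n j).θ| ≤ B.d n ^ r).card := by
            refine card_le_card fun t ht => ?_
            obtain ⟨t1, t2⟩ := mem_cls.1 ht
            have t3 : (line n t, (x n t).cell (B.levc n v) (B.levc n r)) =
              (line n i, (x n i).cell (B.levc n v) (B.levc n r)) := t2
            simp only [Inc.cell, Prod.mk.injEq] at t3
            rw [mem_filter]
            refine ⟨hs t1, ?_, ?_⟩
            · simp only [lz, Prod.mk.injEq]
              exact ⟨t3.1, t3.2.1⟩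
            · exact (dist_of_floor t3.2.2.symm).trans (half_pow_levc_le B n r)
          refine le_trans (Nat.cast_le.2 h6) ((hn i (hs hi)).trans ?_)
          exact Real.rpow_le_rpow_of_exponent_ge (B.pos n) (B.lt n).le (by linarith)
        rw [oz v h0 h1.le]
        linarith
      dmax := by
        intro v l nn h0 h1 h2 h3 h4 hp
        have := hdmax v l nn h0 h1 h2 h3 hp
        rw [oz v h0 h1]
        unfold bex at this
        linarith
      record := by
        intro v h0 h1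
        have hp := h.mem_path h0 h1
        have a1 : 0 ≤ θ * (1 - v) := mul_nonneg hθ.le (by linarith)
        have a2 : 0 ≤ k * v := mul_nonneg hk.le h0
        have e1 := hdmax v (θ * (1 - v)) (θ * (1 - v) + k * v) h0 h1 a1 (by linarith) hp
        have e2 : c₀ + bex s b q v (θ * (1 - v)) (θ * (1 - v) + k * v) ≤
            ν (Bx6 v (θ * (1 - v)) (θ * (1 - v) + k * v) (k * v)) := by
          have key := ext01 (F := fun w => ν (Bx6 w (θ * (1 - w)) (θ * (1 - w) + k * w) (k * w)) -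
              (c₀ + bex s b q w (θ * (1 - w)) (θ * (1 - w) + k * w)))
            (C := 6 * (1 + θ + k) + (|b| + q * θ + 3 + 2 * θ + k + |1 - s|)) ?_ ?_ h0 h1
          · linarith
          · intro w w' h1 h2 h3 h4
            have e1 := hνl _ (h.mem_path h1 h2) _ (h.mem_path h3 h4)
            have e2 : ‖Bx6 w (θ * (1 - w)) (θ * (1 - w) + k * w) (k * w) -
                Bx6 w' (θ * (1 - w')) (θ * (1 - w') + k * w') (k * w')‖ ≤
                (1 + θ + k) * |w - w'| := by
              refine (pi_norm_le_iff_of_nonneg (by positivity)).2 fun a => ?_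
              have hb : ∀ c : ℝ, |c| ≤ 1 + θ + k → ‖c * (w - w')‖ ≤ (1 + θ + k) * |w - w'| := by
                intro c hc
                rw [Real.norm_eq_abs, abs_mul]
                exact mul_le_mul_of_nonneg_right hc (abs_nonneg _)
              fin_cases a
              · show ‖w + (θ * (1 - w) + k * w) - (w' + (θ * (1 - w') + k * w'))‖ ≤ _
                rw [show w + (θ * (1 - w) + k * w) - (w' + (θ * (1 - w') + k * w')) =
                  (1 - θ + k) * (w - w') by ring]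
                exact hb _ (abs_le.2 ⟨by linarith, by linarith⟩)
              · show ‖(θ * (1 - w) + k * w) - (θ * (1 - w') + k * w')‖ ≤ _
                rw [show (θ * (1 - w) + k * w) - (θ * (1 - w') + k * w') =
                  (k - θ) * (w - w') by ring]
                exact hb _ (abs_le.2 ⟨by linarith, by linarith⟩)
              · show ‖θ * (1 - w) - θ * (1 - w')‖ ≤ _
                rw [show θ * (1 - w) - θ * (1 - w') = (-θ) * (w - w') by ring]
                exact hb _ (abs_le.2 ⟨by linarith, by linarith⟩)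
              · show ‖w + θ * (1 - w) - (w' + θ * (1 - w'))‖ ≤ _
                rw [show w + θ * (1 - w) - (w' + θ * (1 - w')) = (1 - θ) * (w - w') by ring]
                exact hb _ (abs_le.2 ⟨by linarith, by linarith⟩)
              · have h5 := hb 1 (abs_le.2 ⟨by linarith, by linarith⟩)
                rw [one_mul] at h5
                exact h5
              · show ‖k * w - k * w'‖ ≤ _
                rw [show k * w - k * w' = k * (w - w') by ring]
                exact hb _ (abs_le.2 ⟨by linarith, by linarith⟩)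
            have e3 : (ν (Bx6 w (θ * (1 - w)) (θ * (1 - w) + k * w) (k * w)) -
                (c₀ + bex s b q w (θ * (1 - w)) (θ * (1 - w) + k * w))) -
                (ν (Bx6 w' (θ * (1 - w')) (θ * (1 - w') + k * w') (k * w')) -
                (c₀ + bex s b q w' (θ * (1 - w')) (θ * (1 - w') + k * w'))) =
                (ν (Bx6 w (θ * (1 - w)) (θ * (1 - w) + k * w) (k * w)) -
                  ν (Bx6 w' (θ * (1 - w')) (θ * (1 - w') + k * w') (k * w'))) +
                (-b - q * θ + 2 - 2 * θ + k + (1 - s)) * (w - w') := by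
              unfold bex; ring
            show |(ν (Bx6 w (θ * (1 - w)) (θ * (1 - w) + k * w) (k * w)) -
                (c₀ + bex s b q w (θ * (1 - w)) (θ * (1 - w) + k * w))) -
                (ν (Bx6 w' (θ * (1 - w')) (θ * (1 - w') + k * w') (k * w')) -
                (c₀ + bex s b q w' (θ * (1 - w')) (θ * (1 - w') + k * w')))| ≤ _
            rw [e3]
            refine (abs_add_le _ _).trans ?_
            rw [abs_mul]
            have e4 : |-b - q * θ + 2 - 2 * θ + k + (1 - s)| ≤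
                |b| + q * θ + 3 + 2 * θ + k + |1 - s| := by
              have q0 := h.q0
              have := mul_pos q0 hθ
              rw [abs_le]
              constructor <;> linarith [le_abs_self b, neg_abs_le b, le_abs_self (1 - s),
                neg_abs_le (1 - s)]
            have e5 := mul_le_mul_of_nonneg_right e4 (abs_nonneg (w - w'))
            have e6 := mul_le_mul_of_nonneg_left e2 (by norm_num : (0:ℝ) ≤ 6)
            nlinarith
          · intro w hw0 hw1
            have := prof_ge hν hS hb (h.mem_path hw0.le hw1.le) (fun ε hε => h.record w hw0 hw1 ε hε)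
            show 0 ≤ ν (Bx6 w (θ * (1 - w)) (θ * (1 - w) + k * w) (k * w)) -
              (c₀ + bex s b q w (θ * (1 - w)) (θ * (1 - w) + k * w))
            linarith
        rw [oz v h0 h1]
        unfold bex at e1 e2
        linarith }

end main

end Crest.Agent.R138.L15
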