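import Crest.Agent.R138.FM_501

/-!
# R138: F-model, basic counting lemmas and the finite Kaufman energy inequality (helper501)
-/

set_option autoImplicit false
set_option linter.unusedVariables false
set_option linter.unusedSectionVars false

open Filter Topology Finset

namespace Crest.Agent.R138.TwA501

open Crest.Agent.R138.Ex926 Crest.Agent.R138.FM501

/-! ## finite lemmas -/

/-- fibrewise bound -/
theorem card_le_of_fibers {α β : Type*} [DecidableEq β] (s : Finset α) (g : α → β) (M : ℝ)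
    (h : ∀ a ∈ s, ((s.filter fun x => g x = g a).card : ℝ) ≤ M) :
    (s.card : ℝ) ≤ (s.image g).card * M := by
  have h1 : s.card = ∑ b ∈ s.image g, (s.filter fun x => g x = b).card :=
    card_eq_sum_card_image g s
  rw [h1]
  push_cast
  calc ∑ b ∈ s.image g, ((s.filter fun x => g x = b).card : ℝ) ≤ ∑ b ∈ s.image g, M := by
        refine sum_le_sum fun b hb => ?_
        obtain ⟨a, ha, rfl⟩ := mem_image.1 hb
        exact h a ha
    _ = (s.image g).card * M := by rw [sum_const, nsmul_eq_mul]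

/-- Cauchy-Schwarz over labels -/
theorem sq_card_le {α β : Type*} [DecidableEq α] [DecidableEq β] (s : Finset α) (g : α → β) :
    ((s.card : ℝ)) ^ 2 ≤ (s.image g).card *
      (((s ×ˢ s).filter fun q => g q.1 = g q.2).card : ℝ) := by
  have h1 : (s.card : ℝ) = ∑ b ∈ s.image g, ((s.filter fun x => g x = b).card : ℝ) := by
    have := card_eq_sum_card_image g s
    exact_mod_cast this
  have h2 : (((s ×ˢ s).filter fun q => g q.1 = g q.2).card : ℝ) =
      ∑ b ∈ s.image g, ((s.filter fun x => g x = b).card : ℝ) ^ 2 := by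
    have h3 : ((s ×ˢ s).filter fun q => g q.1 = g q.2) =
        (s.image g).biUnion fun b => (s.filter fun x => g x = b) ×ˢ (s.filter fun x => g x = b) := by
      ext q
      simp only [mem_filter, mem_product, mem_biUnion, mem_image]
      constructor
      · rintro ⟨⟨h4, h5⟩, h6⟩
        exact ⟨g q.2, ⟨q.2, h5, rfl⟩, ⟨h4, h6⟩, h5, rfl⟩
      · rintro ⟨b, _, ⟨h4, h5⟩, h6, h7⟩
        exact ⟨⟨h4, h6⟩, h5.trans h7.symm⟩
    rw [h3, card_biUnion]
    · push_cast
      refine sum_congr rfl fun b _ => ?_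
      rw [card_product]; push_cast; ring
    · intro b _ b' _ hbb'
      refine disjoint_left.2 fun q hq hq' => hbb' ?_
      simp only [mem_product, mem_filter] at hq hq'
      exact hq.1.2.symm.trans hq'.1.2
  rw [h1, h2]
  exact sq_sum_le_card_mul_sum_sq

/-- **finite energy inequality** (lower bound side of Kaufman) -/
theorem energy {S K : Finset ℕ} (A : ℕ → Finset ℕ) (hA : ∀ k ∈ K, A k ⊆ S)
    (lab : ℕ → ℕ → ℤ) (Q : ℕ → ℕ → ℕ → Prop) [∀ k i i', Decidable (Q k i i')] (M : ℝ)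
    (hlab : ∀ k ∈ K, ∀ i ∈ A k, ∀ i' ∈ A k, lab k i = lab k i' → Q k i i')
    (hM : ∀ k ∈ K, (((A k).image (lab k)).card : ℝ) ≤ M) :
    (∑ k ∈ K, ((A k).card : ℝ)) ^ 2 ≤ (K.card : ℝ) * (M *
      ∑ i ∈ S, ∑ i' ∈ S, ((K.filter fun k => Q k i i').card : ℝ)) := by
  refine (sq_sum_le_card_mul_sum_sq).trans ?_
  refine mul_le_mul_of_nonneg_left ?_ (Nat.cast_nonneg _)
  have h1 : ∀ k ∈ K, ((A k).card : ℝ) ^ 2 ≤
      M * ∑ i ∈ S, ∑ i' ∈ S, (if Q k i i' then (1 : ℝ) else 0) := by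
    intro k hk
    refine (sq_card_le (A k) (lab k)).trans ?_
    have hM0 := hM k hk
    refine mul_le_mul hM0 ?_ (Nat.cast_nonneg _) ((Nat.cast_nonneg _).trans hM0)
    have h2 : ∑ i ∈ S, ∑ i' ∈ S, (if Q k i i' then (1 : ℝ) else 0) =
        (((S ×ˢ S).filter fun q => Q k q.1 q.2).card : ℝ) := by
      rw [card_filter, ← sum_product']
      push_cast
      rfl
    rw [h2]
    exact_mod_cast card_le_card (by
      intro q hq
      simp only [mem_filter, mem_product] at hq ⊢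
      exact ⟨⟨hA k hk hq.1.1, hA k hk hq.1.2⟩, hlab k hk _ hq.1.1 _ hq.1.2 hq.2⟩)
  refine (sum_le_sum h1).trans (le_of_eq ?_)
  rw [← mul_sum]
  congr 1
  rw [sum_comm]
  refine sum_congr rfl fun i _ => ?_
  rw [sum_comm]
  refine sum_congr rfl fun i' _ => ?_
  rw [card_filter]
  push_cast
  rfl

/-- **dyadic splitting of a pair sum** (upper bound side of Kaufman). `D` = distance, `t` =
decreasing thresholds, `b j` = bound for pairs with `D > t (j+1)`. -/
theorem pair_sum_le {S : Finset ℕ} (h D : ℕ → ℕ → ℝ) (t b : ℕ → ℝ) (J : ℕ)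
    (hb : ∀ j ≤ J, 0 ≤ b j)
    (h0 : ∀ i ∈ S, ∀ i' ∈ S, D i i' ≤ t 0)
    (h1 : ∀ j < J, ∀ i ∈ S, ∀ i' ∈ S, t (j + 1) < D i i' → h i i' ≤ b j)
    (h2 : ∀ i ∈ S, ∀ i' ∈ S, h i i' ≤ b J)
    (a : ℕ → ℝ) (ha : ∀ j ≤ J, ∀ i ∈ S, ((S.filter fun i' => D i i' ≤ t j).card : ℝ) ≤ a j) :
    ∑ i ∈ S, ∑ i' ∈ S, h i i' ≤ S.card * ∑ j ∈ range (J + 1), a j * b j := by
  have key : ∀ i ∈ S, ∀ i' ∈ S, h i i' ≤ ∑ j ∈ range (J + 1), (if D i i' ≤ t j then b j else 0) := by
    intro i hi i' hi'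
    have hex : ∃ j ≤ J, D i i' ≤ t j ∧ h i i' ≤ b j := by
      by_contra hcon
      push Not at hcon
      have hall : ∀ j ≤ J, D i i' ≤ t j := by
        intro j
        induction j with
        | zero => intro _; exact h0 i hi i' hi'
        | succ j ih =>
          intro hj
          by_contra h3
          push Not at h3
          have h4 := hcon j (by omega) (ih (by omega))
          exact absurd (h1 j (by omega) i hi i' hi' h3) (not_le.2 h4)
      exact absurd (h2 i hi i' hi') (not_le.2 (hcon J le_rfl (hall J le_rfl)))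
    obtain ⟨j, hj, hD, hh⟩ := hex
    refine hh.trans ?_
    have h5 : (if D i i' ≤ t j then b j else 0) = b j := if_pos hD
    rw [← h5]
    exact single_le_sum (f := fun j => if D i i' ≤ t j then b j else 0)
      (fun j' hj' => by
        have := hb j' (by simpa [Nat.lt_succ_iff] using hj')
        split_ifs
        · exact this
        · exact le_rfl) (by simp; omega)
  calc ∑ i ∈ S, ∑ i' ∈ S, h i i'
      ≤ ∑ i ∈ S, ∑ i' ∈ S, ∑ j ∈ range (J + 1), (if D i i' ≤ t j then b j else 0) :=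
        sum_le_sum fun i hi => sum_le_sum fun i' hi' => key i hi i' hi'
    _ = ∑ i ∈ S, ∑ j ∈ range (J + 1), ((S.filter fun i' => D i i' ≤ t j).card : ℝ) * b j := by
        refine sum_congr rfl fun i _ => ?_
        rw [sum_comm]
        refine sum_congr rfl fun j _ => ?_
        rw [← sum_filter, sum_const, nsmul_eq_mul]
    _ ≤ ∑ i ∈ S, ∑ j ∈ range (J + 1), a j * b j := by
        refine sum_le_sum fun i hi => sum_le_sum fun j hj => ?_
        have hj' : j ≤ J := by simpa [Nat.lt_succ_iff] using hj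
        exact mul_le_mul_of_nonneg_right (ha j hj' i hi) (hb j hj')
    _ = S.card * ∑ j ∈ range (J + 1), a j * b j := by rw [sum_const, nsmul_eq_mul]

/-! ## asymptotics of the base -/

section base

variable (B : Base)

theorem ev_const (C : ℝ) {ε : ℝ} (hε : 0 < ε) : ∀ᶠ n in (U : Filter ℕ), C * B.d n ^ ε ≤ 1 := by
  have h1 : Tendsto (fun n => B.d n ^ ε) U (𝓝 0) := by
    have h2 : Tendsto (fun x : ℝ => x ^ ε) (𝓝 0) (𝓝 0) := by
      have := (Real.continuousAt_rpow_const 0 ε (Or.inr hε.le)).tendsto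
      rwa [Real.zero_rpow hε.ne'] at this
    exact h2.comp B.lim0
  have h3 : Tendsto (fun n => C * B.d n ^ ε) U (𝓝 (C * 0)) := h1.const_mul C
  rw [mul_zero] at h3
  exact h3.eventually_le_const one_pos

theorem dpow_pos (n : ℕ) (x : ℝ) : 0 < B.d n ^ x := Real.rpow_pos_of_pos (B.pos n) x

theorem dpow_anti (n : ℕ) {x y : ℝ} (h : x ≤ y) : B.d n ^ y ≤ B.d n ^ x :=
  Real.rpow_le_rpow_of_exponent_ge (B.pos n) (B.lt n).le h

theorem dpow_add (n : ℕ) (x y : ℝ) : B.d n ^ (x + y) = B.d n ^ x * B.d n ^ y :=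
  Real.rpow_add (B.pos n) x y

theorem dpow_le_one (n : ℕ) {x : ℝ} (h : 0 ≤ x) : B.d n ^ x ≤ 1 :=
  Real.rpow_le_one (B.pos n).le (B.lt n).le h

theorem one_le_dpow (n : ℕ) {x : ℝ} (h : x ≤ 0) : 1 ≤ B.d n ^ x :=
  Real.one_le_rpow_of_pos_of_le_one_of_nonpos (B.pos n) (B.lt n).le h

/-- absorb a constant in an exponent -/
theorem ev_const_mul (C : ℝ) {x y : ℝ} (h : x < y) :
    ∀ᶠ n in (U : Filter ℕ), C * B.d n ^ y ≤ B.d n ^ x := by
  filter_upwards [ev_const B C (sub_pos.2 h)] with n hn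
  have : B.d n ^ y = B.d n ^ (y - x) * B.d n ^ x := by rw [← dpow_add]; congr 1; ring
  rw [this, ← mul_assoc]
  exact (mul_le_mul_of_nonneg_right hn (dpow_pos B n x).le).trans_eq (one_mul _)

/-- comparison of exponents -/
theorem exists_exp_le (e : ℝ) (J : ℕ) (e' : ℕ → ℝ) (C : ℝ)
    (h : ∀ᶠ n in (U : Filter ℕ), B.d n ^ e ≤ C * ∑ j ∈ range J, B.d n ^ e' j) :
    ∃ j < J, e' j ≤ e := by
  by_contra hcon
  push Not at hcon
  have h1 : ∀ᶠ n in (U : Filter ℕ), ∀ j ∈ range J,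
      (|C| + 1) * (J + 1) * B.d n ^ e' j ≤ B.d n ^ e := by
    rw [Filter.eventually_all_finset]
    intro j hj
    exact ev_const_mul B _ (hcon j (by simpa using hj))
  obtain ⟨n, hn, hn1⟩ := (h.and h1).exists
  have hp := dpow_pos B n e
  have hs : 0 ≤ ∑ j ∈ range J, B.d n ^ e' j := sum_nonneg fun j _ => (dpow_pos B n _).le
  have h2 : (|C| + 1) * (J + 1) * ∑ j ∈ range J, B.d n ^ e' j ≤ J * B.d n ^ e := by
    rw [mul_sum]
    refine (sum_le_sum hn1).trans (le_of_eq ?_)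
    rw [sum_const, nsmul_eq_mul, card_range]
  have h3 : C * ∑ j ∈ range J, B.d n ^ e' j ≤ (|C| + 1) * ∑ j ∈ range J, B.d n ^ e' j :=
    mul_le_mul_of_nonneg_right (by linarith [le_abs_self C]) hs
  have h4 : (J + 1 : ℝ) * B.d n ^ e ≤ J * B.d n ^ e := by
    calc (J + 1 : ℝ) * B.d n ^ e ≤ (J + 1) * ((|C| + 1) * ∑ j ∈ range J, B.d n ^ e' j) :=
          mul_le_mul_of_nonneg_left (hn.trans h3) (by positivity)
      _ = (|C| + 1) * (J + 1) * ∑ j ∈ range J, B.d n ^ e' j := by ring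
      _ ≤ _ := h2
  nlinarith

end base


/-! ## counting in the F-model -/

section fm

variable {B : Base} {G : ℕ → Cfg} {σ R : ℝ} {ν : (Fin 4 → ℝ) → ℝ}

theorem mem_slice {G : Cfg} {i k : ℕ} : i ∈ G.slice k ↔ i ∈ G.L ∧ (i, k) ∈ G.I := by
  simp [Cfg.slice]

theorem mem_hts {G : Cfg} {i k : ℕ} : k ∈ G.hts i ↔ k ∈ G.Z ∧ (i, k) ∈ G.I := by
  simp [Cfg.hts]

theorem mem_slice_iff_I (h : FModel B G σ R ν) {n i k : ℕ} :
    i ∈ (G n).slice k ↔ (i, k) ∈ (G n).I := by
  rw [mem_slice]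
  refine ⟨fun h => h.2, fun h1 => ⟨?_, h1⟩⟩
  exact (mem_product.1 (h.sub n h1)).1

theorem mem_Z_of_I (h : FModel B G σ R ν) {n i k : ℕ} (hi : (i, k) ∈ (G n).I) : k ∈ (G n).Z :=
  (mem_product.1 (h.sub n hi)).2

theorem mem_L_of_I (h : FModel B G σ R ν) {n i k : ℕ} (hi : (i, k) ∈ (G n).I) : i ∈ (G n).L :=
  (mem_product.1 (h.sub n hi)).1

theorem mem_hts_iff_I (h : FModel B G σ R ν) {n i k : ℕ} :
    k ∈ (G n).hts i ↔ (i, k) ∈ (G n).I := by
  rw [mem_hts]
  exact ⟨fun h => h.2, fun h1 => ⟨mem_Z_of_I h h1, h1⟩⟩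

/-- double counting of incidences over subsets -/
theorem sum_slice_inter (G : Cfg) (S K : Finset ℕ) (hS : S ⊆ G.L) (hK : K ⊆ G.Z) :
    ∑ k ∈ K, ((S ∩ G.slice k).card : ℝ) = ∑ i ∈ S, ((G.hts i ∩ K).card : ℝ) := by
  have h1 : ∀ k ∈ K, ((S ∩ G.slice k).card : ℝ) = ∑ i ∈ S, (if (i, k) ∈ G.I then (1 : ℝ) else 0) := by
    intro k _
    rw [← sum_filter, sum_const, nsmul_eq_mul, mul_one]
    congr 2
    ext i
    simp only [mem_inter, mem_slice, mem_filter]
    exact ⟨fun h => ⟨h.1, h.2.2⟩, fun h => ⟨h.1, hS h.1, h.2⟩⟩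
  have h2 : ∀ i ∈ S, ((G.hts i ∩ K).card : ℝ) = ∑ k ∈ K, (if (i, k) ∈ G.I then (1 : ℝ) else 0) := by
    intro i _
    rw [← sum_filter, sum_const, nsmul_eq_mul, mul_one]
    congr 2
    ext k
    simp only [mem_inter, mem_hts, mem_filter]
    exact ⟨fun h => ⟨h.2, h.1.2⟩, fun h => ⟨⟨hK h.1, h.2⟩, h.1⟩⟩
  rw [sum_congr rfl h1, sum_congr rfl h2, sum_comm]

/-! ### bounds on coordinates -/

theorem abs_X_le {G : Cfg} (hb : G.Bd) {i k : ℕ} (hi : i ∈ G.L) (hk : k ∈ G.Z) :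
    |G.X i k| ≤ 1 / 4 := by
  unfold Cfg.X
  have h1 := hb.a i hi; have h2 := hb.c i hi; have h3 := hb.z k hk
  calc |G.a i + G.c i * G.z k| ≤ |G.a i| + |G.c i| * |G.z k| := by
        rw [← abs_mul]; exact abs_add_le _ _
    _ ≤ 1 / 8 + 1 / 8 * 1 := by
        refine add_le_add h1 (mul_le_mul h2 h3 (abs_nonneg _) (by norm_num))
    _ = 1 / 4 := by norm_num

theorem abs_N_le {G : Cfg} (hb : G.Bd) {i k : ℕ} (hi : i ∈ G.L) (hk : k ∈ G.Z) :
    |G.N i k| ≤ 1 / 2 := by
  unfold Cfg.N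
  have h1 := hb.b i hi; have h2 := hb.d i hi; have h3 := hb.z k hk; have h4 := hb.f k hk
  have h5 := abs_X_le hb hi hk
  calc |G.b i + G.d i * G.z k - G.f k * G.X i k|
      ≤ |G.b i + G.d i * G.z k| + |G.f k * G.X i k| := abs_sub _ _
    _ ≤ (|G.b i| + |G.d i| * |G.z k|) + |G.f k| * |G.X i k| := by
        rw [← abs_mul, ← abs_mul]; gcongr; exact abs_add_le _ _
    _ ≤ (1 / 8 + 1 / 8 * 1) + 1 * (1 / 4) := by
        gcongr
    _ = 1 / 2 := by norm_num

theorem abs_P_le {G : Cfg} (hb : G.Bd) {i k : ℕ} (hi : i ∈ G.L) (hk : k ∈ G.Z) :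
    |G.P i k| ≤ 1 / 4 := by
  unfold Cfg.P
  have h2 := hb.d i hi; have h3 := hb.c i hi; have h4 := hb.f k hk
  calc |G.d i - G.f k * G.c i| ≤ |G.d i| + |G.f k| * |G.c i| := by
        rw [← abs_mul]; exact abs_sub _ _
    _ ≤ 1 / 8 + 1 * (1 / 8) := by gcongr
    _ = 1 / 4 := by norm_num

theorem abs_co_le {G : Cfg} (hb : G.Bd) {i k : ℕ} (hi : i ∈ G.L) (hk : k ∈ G.Z) (j : Fin 4) :
    |G.co k i j| ≤ 1 / 2 := by
  fin_cases j
  · exact abs_N_le hb hi hk
  · exact (abs_P_le hb hi hk).trans (by norm_num)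
  · exact (hb.c i hi).trans (by norm_num)
  · exact (abs_X_le hb hi hk).trans (by norm_num)

theorem abs_co_sub_le {G : Cfg} (hb : G.Bd) {i i' k : ℕ} (hi : i ∈ G.L) (hi' : i' ∈ G.L)
    (hk : k ∈ G.Z) (j : Fin 4) : |G.co k i' j - G.co k i j| ≤ 1 := by
  refine (abs_sub _ _).trans ?_
  have := abs_co_le hb hi hk j; have := abs_co_le hb hi' hk j
  linarith

/-! ### pairwise close sets -/

/-- a subset of a slice which is pairwise close at scale `C ρ^p` has at most `ρ^(-ν p - ε)`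
elements. -/
theorem card_pw (h : FModel B G σ R ν) (C : ℕ) (p : Fin 4 → ℝ) (hp : ∀ j, 0 ≤ p j ∧ p j ≤ R)
    {ε : ℝ} (hε : 0 < ε) :
    ∀ᶠ n in (U : Filter ℕ), ∀ k, ∀ T ⊆ (G n).slice k,
      (∀ i ∈ T, ∀ i' ∈ T, ∀ j, |(G n).co k i' j - (G n).co k i j| ≤ C * B.d n ^ p j) →
      (T.card : ℝ) ≤ B.d n ^ (-ν p - ε) := by
  classical
  filter_upwards [h.unif p hp (ε / 2) (half_pos hε),
    ev_const_mul B ((2 * C + 1 : ℝ) ^ 4) (show -ν p - ε < -ν p - ε / 2 by linarith)] with n hn hC k T hT hclose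
  rcases T.eq_empty_or_nonempty with rfl | ⟨i0, hi0⟩
  · simp only [card_empty, Nat.cast_zero]; exact (dpow_pos B n _).le
  -- labels
  set lab : ℕ → Fin 4 → ℤ := fun i j => ⌊((G n).co k i j - (G n).co k i0 j) / B.d n ^ p j⌋ with hlab
  have hlabmem : T.image lab ⊆ Fintype.piFinset fun _ : Fin 4 => Finset.Icc (-(C : ℤ)) (C : ℤ) := by
    intro l hl
    obtain ⟨i, hi, rfl⟩ := mem_image.1 hl
    rw [Fintype.mem_piFinset]
    intro j
    have h1 := hclose i0 hi0 i hi j
    have hpos := dpow_pos B n (p j)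
    rw [abs_le] at h1
    rw [Finset.mem_Icc]
    constructor
    · rw [hlab]
      simp only
      rw [Int.le_floor, le_div_iff₀ hpos]
      push_cast
      linarith [h1.1]
    · rw [hlab]
      simp only
      have h2 : ((G n).co k i j - (G n).co k i0 j) / B.d n ^ p j ≤ C := by
        rw [div_le_iff₀ hpos]; linarith [h1.2]
      have h3 := Int.floor_le (((G n).co k i j - (G n).co k i0 j) / B.d n ^ p j)
      have h4 : ((⌊((G n).co k i j - (G n).co k i0 j) / B.d n ^ p j⌋ : ℤ) : ℝ) ≤ ((C : ℤ) : ℝ) := by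
        push_cast; linarith
      exact_mod_cast h4
  have hcard : ((T.image lab).card : ℝ) ≤ (2 * C + 1 : ℝ) ^ 4 := by
    have h1 := card_le_card hlabmem
    rw [Fintype.card_piFinset] at h1
    simp only [Int.card_Icc, prod_const, card_univ, Fintype.card_fin] at h1
    have h2 : ((C : ℤ) + 1 - -(C : ℤ)).toNat = 2 * C + 1 := by omega
    rw [h2] at h1
    exact_mod_cast h1
  have hfib : ∀ a ∈ T, ((T.filter fun x => lab x = lab a).card : ℝ) ≤ B.d n ^ (-ν p - ε / 2) := by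
    intro a ha
    have haI : (a, k) ∈ (G n).I := (mem_slice_iff_I h).1 (hT ha)
    refine le_trans ?_ (hn a k haI).2
    have hsub : (T.filter fun x => lab x = lab a) ⊆ (G n).box p a k := by
      intro x hx
      rw [mem_filter] at hx
      unfold Cfg.box
      rw [mem_filter]
      refine ⟨hT hx.1, fun j => ?_⟩
      have h1 := congrFun hx.2 j
      rw [h.base n]
      have hpos := dpow_pos B n (p j)
      simp only [hlab] at h1
      have h2 := Int.abs_sub_lt_one_of_floor_eq_floor h1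
      rw [← sub_div, abs_div, abs_of_pos hpos, div_lt_one hpos] at h2
      have h3 : (G n).co k x j - (G n).co k i0 j - ((G n).co k a j - (G n).co k i0 j) =
        (G n).co k x j - (G n).co k a j := by ring
      rw [h3] at h2
      exact h2.le
    exact_mod_cast card_le_card hsub
  calc (T.card : ℝ) ≤ (T.image lab).card * B.d n ^ (-ν p - ε / 2) := card_le_of_fibers T lab _ hfib
    _ ≤ (2 * C + 1 : ℝ) ^ 4 * B.d n ^ (-ν p - ε / 2) :=
        mul_le_mul_of_nonneg_right hcard (dpow_pos B n _).le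
    _ ≤ _ := hC

/-- label of coordinate `j` at scale `ρ^x` -/
noncomputable def clab (G : Cfg) (x : ℝ) (j : Fin 4) (k i : ℕ) : ℤ := ⌊G.co k i j / G.ρ ^ x⌋

theorem clab_close {G : Cfg} (hρ : 0 < G.ρ) {x : ℝ} {j : Fin 4} {k i i' : ℕ}
    (h : clab G x j k i = clab G x j k i') : |G.co k i j - G.co k i' j| ≤ G.ρ ^ x := by
  have hpos : 0 < G.ρ ^ x := Real.rpow_pos_of_pos hρ _
  have h2 := Int.abs_sub_lt_one_of_floor_eq_floor h
  rw [← sub_div, abs_div, abs_of_pos hpos, div_lt_one hpos] at h2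
  exact h2.le

theorem hρ (h : FModel B G σ R ν) (n : ℕ) : 0 < (G n).ρ := by
  rw [h.base n]; exact B.pos n

/-- the box with one restricted coordinate -/
def one (j : Fin 4) (x : ℝ) : Fin 4 → ℝ := Function.update 0 j x

theorem one_mem {j : Fin 4} {x : ℝ} (h0 : 0 ≤ x) (h1 : x ≤ R) (hR : 0 ≤ R) (l : Fin 4) :
    0 ≤ one j x l ∧ one j x l ≤ R := by
  unfold one
  by_cases hl : l = j
  · subst hl; simp [h0, h1]
  · simp [Function.update_of_ne hl, hR]

/-- number of cells of one coordinate in a slice -/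
theorem card_cells (h : FModel B G σ R ν) (j : Fin 4) (x : ℝ) (hx0 : 0 ≤ x) (hxR : x ≤ R)
    {ε : ℝ} (hε : 0 < ε) :
    ∀ᶠ n in (U : Filter ℕ), ∀ k ∈ (G n).Z, ∀ T ⊆ (G n).slice k,
      ((T.image (clab (G n) x j k)).card : ℝ) ≤
        ((G n).slice k).card * B.d n ^ (ν (one j x) - ε) := by
  classical
  have hp := fun l => one_mem (j := j) hx0 hxR h.R_pos.le l
  filter_upwards [h.unif (one j x) hp (ε / 2) (half_pos hε),
    ev_const_mul B 3 (show ν (one j x) - ε < ν (one j x) - ε / 2 by linarith)] with n hn hC k hk T hT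
  have hρn := hρ h n
  have hpos : 0 < (G n).ρ ^ x := Real.rpow_pos_of_pos hρn _
  set lab := clab (G n) x j k with hlab
  -- choose representatives
  have hrep : ∀ l ∈ T.image lab, ∃ i ∈ T, lab i = l := fun l hl => by simpa using hl
  choose! rep hrep1 hrep2 using hrep
  set S := (G n).slice k with hS
  have hbox : ∀ l ∈ T.image lab, B.d n ^ (-ν (one j x) + ε / 2) ≤
      ((S.filter fun i => |lab i - l| ≤ 1).card : ℝ) := by
    intro l hl
    have hI : (rep l, k) ∈ (G n).I := (mem_slice_iff_I h).1 (hT (hrep1 l hl))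
    refine (hn _ _ hI).1.trans ?_
    have hsub : (G n).box (one j x) (rep l) k ⊆ S.filter fun i => |lab i - l| ≤ 1 := by
      intro i hi
      unfold Cfg.box at hi
      rw [mem_filter] at hi ⊢
      refine ⟨hi.1, ?_⟩
      have h1 := hi.2 j
      simp only [one, Function.update_self] at h1
      have h2 : |(G n).co k i j / (G n).ρ ^ x - (G n).co k (rep l) j / (G n).ρ ^ x| ≤ 1 := by
        rw [← sub_div, abs_div, abs_of_pos hpos, div_le_one hpos]; exact h1
      have h3 : lab i = ⌊(G n).co k i j / (G n).ρ ^ x⌋ := rfl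
      have h4 : l = ⌊(G n).co k (rep l) j / (G n).ρ ^ x⌋ := (hrep2 l hl).symm
      rw [h3, h4, abs_le]
      rw [abs_le] at h2
      have f1 := Int.floor_le ((G n).co k i j / (G n).ρ ^ x)
      have f2 := Int.lt_floor_add_one ((G n).co k i j / (G n).ρ ^ x)
      have f3 := Int.floor_le ((G n).co k (rep l) j / (G n).ρ ^ x)
      have f4 := Int.lt_floor_add_one ((G n).co k (rep l) j / (G n).ρ ^ x)
      constructor
      · by_contra hcon
        push Not at hcon
        have : (⌊(G n).co k i j / (G n).ρ ^ x⌋ : ℝ) - ⌊(G n).co k (rep l) j / (G n).ρ ^ x⌋ ≤ -2 := by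
          have : ⌊(G n).co k i j / (G n).ρ ^ x⌋ - ⌊(G n).co k (rep l) j / (G n).ρ ^ x⌋ ≤ -2 := by omega
          exact_mod_cast this
        linarith [h2.1]
      · by_contra hcon
        push Not at hcon
        have : (2 : ℝ) ≤ (⌊(G n).co k i j / (G n).ρ ^ x⌋ : ℝ) - ⌊(G n).co k (rep l) j / (G n).ρ ^ x⌋ := by
          have : 2 ≤ ⌊(G n).co k i j / (G n).ρ ^ x⌋ - ⌊(G n).co k (rep l) j / (G n).ρ ^ x⌋ := by omega
          exact_mod_cast this
        linarith [h2.2]
    exact_mod_cast card_le_card hsub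
  have hsum : ∑ l ∈ T.image lab, ((S.filter fun i => |lab i - l| ≤ 1).card : ℝ) ≤ 3 * S.card := by
    have h1 : ∀ l ∈ T.image lab, ((S.filter fun i => |lab i - l| ≤ 1).card : ℝ) =
        ∑ i ∈ S, (if |lab i - l| ≤ 1 then (1 : ℝ) else 0) := by
      intro l _
      rw [card_filter]; push_cast; rfl
    rw [sum_congr rfl h1, sum_comm]
    calc ∑ i ∈ S, ∑ l ∈ T.image lab, (if |lab i - l| ≤ 1 then (1 : ℝ) else 0)
        ≤ ∑ i ∈ S, (3 : ℝ) := by
          refine sum_le_sum fun i _ => ?_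
          rw [← sum_filter, sum_const, nsmul_eq_mul, mul_one]
          have h2 : ((T.image lab).filter fun l => |lab i - l| ≤ 1) ⊆ Finset.Icc (lab i - 1) (lab i + 1) := by
            intro l hl
            rw [mem_filter, abs_le] at hl
            rw [Finset.mem_Icc]
            constructor <;> linarith [hl.2.1, hl.2.2]
          have h3 := card_le_card h2
          rw [Int.card_Icc] at h3
          have h4 : (lab i + 1 + 1 - (lab i - 1)).toNat = 3 := by omega
          rw [h4] at h3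
          exact_mod_cast h3
      _ = 3 * S.card := by rw [sum_const, nsmul_eq_mul]; ring
  have hlow : ((T.image lab).card : ℝ) * B.d n ^ (-ν (one j x) + ε / 2) ≤ 3 * S.card := by
    refine le_trans ?_ hsum
    rw [← nsmul_eq_mul, ← sum_const]
    exact sum_le_sum hbox
  have hinv : B.d n ^ (-ν (one j x) + ε / 2) * B.d n ^ (ν (one j x) - ε / 2) = 1 := by
    rw [← dpow_add]; simp
  calc ((T.image lab).card : ℝ)
      = ((T.image lab).card : ℝ) * B.d n ^ (-ν (one j x) + ε / 2) * B.d n ^ (ν (one j x) - ε / 2) := by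
        rw [mul_assoc, hinv, mul_one]
    _ ≤ 3 * S.card * B.d n ^ (ν (one j x) - ε / 2) :=
        mul_le_mul_of_nonneg_right hlow (dpow_pos B n _).le
    _ = S.card * (3 * B.d n ^ (ν (one j x) - ε / 2)) := by ring
    _ ≤ S.card * B.d n ^ (ν (one j x) - ε) := mul_le_mul_of_nonneg_left hC (Nat.cast_nonneg _)

/-- slices and the set of lines have `ρ^(-ν 0)` elements -/
theorem card_slice_le (h : FModel B G σ R ν) {ε : ℝ} (hε : 0 < ε) :
    ∀ᶠ n in (U : Filter ℕ), ∀ k ∈ (G n).Z, (((G n).slice k).card : ℝ) ≤ B.d n ^ (-ν 0 - ε) := by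
  filter_upwards [card_pw h 1 0 (fun j => ⟨le_rfl, h.R_pos.le⟩) hε] with n hn k hk
  refine hn k _ subset_rfl fun i hi i' hi' j => ?_
  rw [mem_slice_iff_I h] at hi hi'
  have := abs_co_sub_le (h.bd n) (mem_L_of_I h hi) (mem_L_of_I h hi') hk j
  simpa using this

theorem slice_nonempty (h : FModel B G σ R ν) :
    ∀ᶠ n in (U : Filter ℕ), ∀ k ∈ (G n).Z, ((G n).slice k).Nonempty := by
  filter_upwards [h.slice 1 one_pos] with n hn k hk
  obtain ⟨q, hq⟩ := h.nonempty n
  have h1 : 0 < (G n).L.card := card_pos.2 ⟨q.1, mem_L_of_I h (i := q.1) (k := q.2) hq⟩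
  have h2 := hn k hk
  have h3 : (0 : ℝ) < ((G n).slice k).card := by
    refine lt_of_lt_of_le ?_ h2
    have := dpow_pos B n 1
    positivity
  rw [← card_pos]
  exact_mod_cast h3

theorem le_card_slice (h : FModel B G σ R ν) {ε : ℝ} (hε : 0 < ε) :
    ∀ᶠ n in (U : Filter ℕ), ∀ k ∈ (G n).Z, B.d n ^ (-ν 0 + ε) ≤ (((G n).slice k).card : ℝ) := by
  filter_upwards [h.unif 0 (fun j => ⟨le_rfl, h.R_pos.le⟩) ε hε, slice_nonempty h] with n hn hne k hk
  obtain ⟨i, hi⟩ := hne k hk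
  rw [mem_slice_iff_I h] at hi
  refine (hn i k hi).1.trans ?_
  have : (G n).box 0 i k ⊆ (G n).slice k := by
    classical
    unfold Cfg.box; exact filter_subset _ _
  exact_mod_cast card_le_card this

theorem card_L_le (h : FModel B G σ R ν) {ε : ℝ} (hε : 0 < ε) :
    ∀ᶠ n in (U : Filter ℕ), ((G n).L.card : ℝ) ≤ B.d n ^ (-ν 0 - ε) := by
  filter_upwards [card_slice_le h (half_pos hε), h.slice (ε / 2) (half_pos hε)] with n h1 h2
  obtain ⟨q, hq⟩ := h.nonempty n
  have hk := mem_Z_of_I h (i := q.1) (k := q.2) hq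
  have h3 := (h2 _ hk).trans (h1 _ hk)
  have h4 : B.d n ^ (-ν 0 - ε) * B.d n ^ (ε / 2) = B.d n ^ (-ν 0 - ε / 2) := by
    rw [← dpow_add]; congr 1; ring
  rw [← h4, mul_comm] at h3
  exact le_of_mul_le_mul_right h3 (dpow_pos B n _)

theorem le_card_L (h : FModel B G σ R ν) {ε : ℝ} (hε : 0 < ε) :
    ∀ᶠ n in (U : Filter ℕ), B.d n ^ (-ν 0 + ε) ≤ ((G n).L.card : ℝ) := by
  filter_upwards [le_card_slice h hε] with n h1
  obtain ⟨q, hq⟩ := h.nonempty n
  have hk := mem_Z_of_I h (i := q.1) (k := q.2) hq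
  refine (h1 _ hk).trans ?_
  have : (G n).slice q.2 ⊆ (G n).L := by unfold Cfg.slice; exact filter_subset _ _
  exact_mod_cast card_le_card this

/-- number of cells, final form -/
theorem card_cells' (h : FModel B G σ R ν) (j : Fin 4) (x : ℝ) (hx0 : 0 ≤ x) (hxR : x ≤ R)
    {ε : ℝ} (hε : 0 < ε) :
    ∀ᶠ n in (U : Filter ℕ), ∀ k ∈ (G n).Z, ∀ T ⊆ (G n).slice k,
      ((T.image (clab (G n) x j k)).card : ℝ) ≤ B.d n ^ (-(ν 0 - ν (one j x)) - ε) := by
  filter_upwards [card_cells h j x hx0 hxR (half_pos hε), card_slice_le h (half_pos hε)]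
    with n h1 h2 k hk T hT
  refine (h1 k hk T hT).trans ?_
  have h3 : B.d n ^ (-(ν 0 - ν (one j x)) - ε) =
      B.d n ^ (-ν 0 - ε / 2) * B.d n ^ (ν (one j x) - ε / 2) := by
    rw [← dpow_add]; congr 1; ring
  rw [h3]
  exact mul_le_mul_of_nonneg_right (h2 k hk) (dpow_pos B n _).le

/-- monotonicity of `ν` -/
theorem nu_anti (h : FModel B G σ R ν) (p q : Fin 4 → ℝ) (hp : ∀ j, 0 ≤ p j ∧ p j ≤ R)
    (hq : ∀ j, 0 ≤ q j ∧ q j ≤ R) (hpq : p ≤ q) : ν q ≤ ν p := by
  by_contra hcon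
  push Not at hcon
  set ε := (ν q - ν p) / 4 with hε
  have hε0 : 0 < ε := by rw [hε]; linarith
  obtain ⟨n, h1, h2, h3⟩ := ((h.unif p hp ε hε0).and ((h.unif q hq ε hε0).and
    (ev_const_mul B 2 (show -ν q + ε < -ν p - ε by rw [hε]; linarith)))).exists
  obtain ⟨⟨i, k⟩, hik⟩ := h.nonempty n
  have g1 := (h1 i k hik).2
  have g2 := (h2 i k hik).1
  have hsub : (G n).box q i k ⊆ (G n).box p i k := by
    classical
    unfold Cfg.box
    intro x hx
    rw [mem_filter] at hx ⊢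
    refine ⟨hx.1, fun j => (hx.2 j).trans ?_⟩
    rw [h.base n]
    exact dpow_anti B n (hpq j)
  have g3 : (((G n).box q i k).card : ℝ) ≤ ((G n).box p i k).card := by
    exact_mod_cast card_le_card hsub
  have g4 := dpow_pos B n (-ν p - ε)
  linarith

end fm

end Crest.Agent.R138.TwA501
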