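import Crest.Agent.R138.TwB_501

/-!
# R138: F-model, Kaufman inequality in a box, lateral Kaufman (F1), heavy strips (helper501)
-/

set_option autoImplicit false
set_option linter.unusedVariables false
set_option linter.unusedSectionVars false

open Filter Topology Finset

namespace Crest.Agent.R138.TwC501

open Crest.Agent.R138.Ex926 Crest.Agent.R138.FM501 Crest.Agent.R138.TwA501
open Crest.Agent.R138.TwB501

variable {B : Base} {G : ℕ → Cfg} {σ R : ℝ} {ν : (Fin 4 → ℝ) → ℝ}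

open Classical in
/-- **Kaufman inequality in a box of the F-model**. -/
theorem kauf_box (h : FModel B G σ R ν) (j0 : Fin 4) {y : ℝ} (hy0 : 0 ≤ y) (hyR : y ≤ R) (J : ℕ)
    (x b : ℕ → ℝ) {ε : ℝ} (hε : 0 < ε) (p : Fin 4 → ℝ) (hp : ∀ l, 0 ≤ p l ∧ p l ≤ R)
    (q : ℕ → Fin 4 → ℝ) (hq : ∀ j ≤ J, ∀ l, 0 ≤ q j l ∧ q j l ≤ R) (C : ℕ)
    (D : ℕ → ℕ → ℕ → ℕ → ℝ) (hx0 : x 0 = 0) (hbJ : b J = 0)
    (H : ∀ᶠ n in (U : Filter ℕ), ∃ Z' ⊆ (G n).Z, Z'.Nonempty ∧ ∀ k₀ ∈ Z', ∃ K ⊆ Z',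
      (((Z' \ K).card : ℝ) ≤ B.d n ^ (2 * ε) * Z'.card) ∧
      ∀ i₀ ∈ (G n).slice k₀,
        (∀ i ∈ (G n).box p i₀ k₀, ∀ i' ∈ (G n).box p i₀ k₀, D n k₀ i i' ≤ 1) ∧
        (∀ j ≤ J, ∀ i ∈ (G n).box p i₀ k₀, ∀ i' ∈ (G n).box p i₀ k₀, D n k₀ i i' ≤ B.d n ^ x j →
          ∀ l, |(G n).co k₀ i' l - (G n).co k₀ i l| ≤ C * B.d n ^ q j l) ∧
        (∀ j < J, ∀ i ∈ (G n).box p i₀ k₀, ∀ i' ∈ (G n).box p i₀ k₀,
          B.d n ^ x (j + 1) < D n k₀ i i' →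
          ((K.filter fun k => |(G n).co k i j0 - (G n).co k i' j0| ≤ (G n).ρ ^ y).card : ℝ) ≤
            B.d n ^ (b j + 2 * ε) * Z'.card)) :
    ∃ j ≤ J, (ν p - ν (q j)) + b j ≤ (ν 0 - ν (one j0 y)) + 7 * ε := by
  have hpw : ∀ᶠ n in (U : Filter ℕ), ∀ j ∈ range (J + 1), ∀ k, ∀ T ⊆ (G n).slice k,
      (∀ i ∈ T, ∀ i' ∈ T, ∀ l, |(G n).co k i' l - (G n).co k i l| ≤
        ((2 * C : ℕ) : ℝ) * B.d n ^ q j l) → (T.card : ℝ) ≤ B.d n ^ (-ν (q j) - ε) := by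
    rw [Filter.eventually_all_finset]
    intro j hj
    exact card_pw h (2 * C) (q j) (hq j (by simpa [Nat.lt_succ_iff] using hj)) hε
  have key := kauf h j0 y J x (fun j => ν p - ν (q j) - 2 * ε) b (2 * ε)
    (ν 0 - ν (one j0 y) + ε) hx0 hbJ ?_
  · obtain ⟨j, hj, hj2⟩ := key
    exact ⟨j, hj, by linarith⟩
  filter_upwards [H, pick h p hp hε, h.unif p hp ε hε, hpw, card_cells' h j0 y hy0 hyR hε,
    ev_const_mul B 2 (show ε < 2 * ε by linarith)] with n hH hpick hun hpwn hcell hc2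
  obtain ⟨Z', hZ', hne, hH⟩ := hH
  obtain ⟨k₀, hk₀, i₀, hi₀, hinc⟩ := hpick Z' hZ' hne
  obtain ⟨K, hKZ, hbad, hH⟩ := hH k₀ hk₀
  obtain ⟨hD1, hnear, hhts⟩ := hH i₀ hi₀
  have hSsl : (G n).box p i₀ k₀ ⊆ (G n).slice k₀ := box_sub_slice
  have hSne : ((G n).box p i₀ k₀).Nonempty := ⟨i₀, self_mem_box h hi₀⟩
  have hSlow := (hun i₀ k₀ ((mem_slice_iff_I h).1 hi₀)).1
  set S := (G n).box p i₀ k₀ with hS
  have hSc : (0 : ℝ) < S.card := by exact_mod_cast card_pos.2 hSne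
  have hZc : (0 : ℝ) < Z'.card := by exact_mod_cast card_pos.2 hne
  have hd2 := dpow_pos B n (2 * ε)
  have hK1 : B.d n ^ (2 * ε) * ((S.card : ℝ) * Z'.card) ≤
      ∑ k ∈ K, ((S ∩ (G n).slice k).card : ℝ) := by
    have h1 : ∑ k ∈ Z', ((S ∩ (G n).slice k).card : ℝ) =
        ∑ k ∈ Z' \ K, ((S ∩ (G n).slice k).card : ℝ) + ∑ k ∈ K, ((S ∩ (G n).slice k).card : ℝ) :=
      (sum_sdiff hKZ).symm
    have h2 : ∑ k ∈ Z' \ K, ((S ∩ (G n).slice k).card : ℝ) ≤ (Z' \ K).card * S.card := by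
      rw [← nsmul_eq_mul, ← sum_const]
      refine sum_le_sum fun k _ => ?_
      exact_mod_cast card_le_card inter_subset_left
    have h3 : ((Z' \ K).card : ℝ) * S.card ≤ B.d n ^ (2 * ε) * Z'.card * S.card :=
      mul_le_mul_of_nonneg_right hbad hSc.le
    have h4 : 2 * B.d n ^ (2 * ε) * ((S.card : ℝ) * Z'.card) ≤ B.d n ^ ε * ((S.card : ℝ) * Z'.card) :=
      mul_le_mul_of_nonneg_right hc2 (by positivity)
    have h5 : B.d n ^ ε * ((S.card : ℝ) * Z'.card) ≤ ∑ k ∈ Z', ((S ∩ (G n).slice k).card : ℝ) :=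
      hinc
    have h6 : B.d n ^ (2 * ε) * Z'.card * S.card = B.d n ^ (2 * ε) * ((S.card : ℝ) * Z'.card) := by
      ring
    have h7 : 2 * B.d n ^ (2 * ε) * ((S.card : ℝ) * Z'.card) =
      2 * (B.d n ^ (2 * ε) * ((S.card : ℝ) * Z'.card)) := by ring
    linarith
  have hK2 : ∑ k ∈ K, ((S ∩ (G n).slice k).card : ℝ) ≤ K.card * S.card := by
    rw [← nsmul_eq_mul, ← sum_const]
    refine sum_le_sum fun k _ => ?_
    exact_mod_cast card_le_card inter_subset_left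
  have hK3 : B.d n ^ (2 * ε) * (Z'.card : ℝ) ≤ K.card := by
    refine le_of_mul_le_mul_right ?_ hSc
    calc B.d n ^ (2 * ε) * (Z'.card : ℝ) * S.card = B.d n ^ (2 * ε) * ((S.card : ℝ) * Z'.card) := by
          ring
      _ ≤ _ := hK1.trans hK2
  have hKc : (0 : ℝ) < K.card := lt_of_lt_of_le (by positivity) hK3
  refine ⟨S, K, fun k => S ∩ (G n).slice k, fun i i' => D n k₀ i i', ?_⟩
  refine ⟨hSne, card_pos.1 (by exact_mod_cast hKc), fun k _ => inter_subset_left, ?_, ?_, hD1, ?_, ?_⟩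
  · refine le_trans ?_ hK1
    refine mul_le_mul_of_nonneg_left ?_ hd2.le
    refine mul_le_mul_of_nonneg_left ?_ hSc.le
    exact_mod_cast card_le_card hKZ
  · intro k hk
    refine (hcell k (hZ' (hKZ hk)) _ inter_subset_right).trans (le_of_eq ?_)
    congr 1; ring
  · intro j hj i hi i' hi' hD
    refine (hhts j hj i hi i' hi' hD).trans ?_
    rw [dpow_add, mul_assoc]
    exact mul_le_mul_of_nonneg_left hK3 (dpow_pos B n _).le
  · intro j hj i hi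
    have h1 : ((S.filter fun i' => D n k₀ i i' ≤ B.d n ^ x j).card : ℝ) ≤
        B.d n ^ (-ν (q j) - ε) := by
      refine hpwn j (by simp; omega) k₀ _ ((filter_subset _ _).trans hSsl) ?_
      intro i1 hi1 i2 hi2 l
      rw [mem_filter] at hi1 hi2
      have g1 := hnear j hj i hi i1 hi1.1 hi1.2 l
      have g2 := hnear j hj i hi i2 hi2.1 hi2.2 l
      have g3 : (G n).co k₀ i2 l - (G n).co k₀ i1 l = ((G n).co k₀ i2 l - (G n).co k₀ i l) -
        ((G n).co k₀ i1 l - (G n).co k₀ i l) := by ring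
      rw [g3]
      refine (abs_sub _ _).trans ?_
      push_cast
      linarith
    refine h1.trans ?_
    have h2 : B.d n ^ (-ν (q j) - ε) = B.d n ^ (ν p - ν (q j) - 2 * ε) * B.d n ^ (-ν p + ε) := by
      rw [← dpow_add]; congr 1; ring
    rw [h2]
    exact mul_le_mul_of_nonneg_left hSlow (dpow_pos B n _).le

/-! ## geometry of roots -/

theorem root_lin {A c u u' e w : ℝ} (h1 : |A + u * c| ≤ e) (h2 : |A + u' * c| ≤ e)
    (hu : |u| ≤ 2) (hw : w < max |A| |c|) (he : 2 * e ≤ w) : |u - u'| * w ≤ 8 * e := by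
  have he0 : 0 ≤ e := (abs_nonneg _).trans h1
  have hc : w ≤ 4 * |c| := by
    rcases lt_max_iff.1 hw with h | h
    · have h3 : |A| ≤ e + 2 * |c| := by
        calc |A| = |(A + u * c) - u * c| := by ring_nf
          _ ≤ |A + u * c| + |u * c| := abs_sub _ _
          _ ≤ e + 2 * |c| := by
            rw [abs_mul]; gcongr
      linarith
    · linarith [abs_nonneg c]
  have h3 : |u - u'| * |c| ≤ 2 * e := by
    rw [← abs_mul]
    calc |(u - u') * c| = |(A + u * c) - (A + u' * c)| := by ring_nf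
      _ ≤ |A + u * c| + |A + u' * c| := abs_sub _ _
      _ ≤ 2 * e := by linarith
  calc |u - u'| * w ≤ |u - u'| * (4 * |c|) := mul_le_mul_of_nonneg_left hc (abs_nonneg _)
    _ = 4 * (|u - u'| * |c|) := by ring
    _ ≤ 8 * e := by linarith

theorem root_sq {A c u u' e w μ M m0 s : ℝ} (h1 : |A - μ * u ^ 2 * c| ≤ e)
    (h2 : |A - μ * u' ^ 2 * c| ≤ e) (hu : |u| ≤ 2) (hM : 1 ≤ M) (hμM : |μ| ≤ M)
    (hm0 : m0 ≤ |μ|) (hm00 : 0 < m0) (hs : 0 < s) (hsign : (s ≤ u ∧ s ≤ u') ∨ (u ≤ -s ∧ u' ≤ -s))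
    (hw0 : 0 < w) (hw : w < max |A| |c|) (he : 2 * e ≤ w) : |u - u'| * (m0 * s * w) ≤ 8 * M * e := by
  have he0 : 0 ≤ e := (abs_nonneg _).trans h1
  have hc : w ≤ 8 * M * |c| := by
    rcases lt_max_iff.1 hw with h | h
    · have h4 : |μ * u ^ 2 * c| ≤ M * 4 * |c| := by
        rw [abs_mul, abs_mul]
        have : |u ^ 2| ≤ 4 := by
          rw [abs_pow]
          nlinarith [abs_nonneg u]
        gcongr
      have h3 : |A| ≤ e + M * 4 * |c| := by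
        calc |A| = |(A - μ * u ^ 2 * c) + μ * u ^ 2 * c| := by ring_nf
          _ ≤ |A - μ * u ^ 2 * c| + |μ * u ^ 2 * c| := abs_add_le _ _
          _ ≤ e + M * 4 * |c| := by linarith
      linarith
    · nlinarith [abs_nonneg c]
  have h3 : |μ| * (|u - u'| * |u + u'|) * |c| ≤ 2 * e := by
    rw [← abs_mul, ← abs_mul, ← abs_mul]
    calc |μ * ((u - u') * (u + u')) * c| = |(A - μ * u' ^ 2 * c) - (A - μ * u ^ 2 * c)| := by ring_nf
      _ ≤ |A - μ * u' ^ 2 * c| + |A - μ * u ^ 2 * c| := abs_sub _ _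
      _ ≤ 2 * e := by linarith
  have h4 : 2 * s ≤ |u + u'| := by
    rcases hsign with ⟨g1, g2⟩ | ⟨g1, g2⟩
    · have := le_abs_self (u + u'); linarith
    · have := neg_le_abs (u + u'); linarith
  have h5 : m0 * (|u - u'| * (2 * s)) * |c| ≤ 2 * e := by
    refine le_trans ?_ h3
    gcongr
  calc |u - u'| * (m0 * s * w) ≤ |u - u'| * (m0 * s * (8 * M * |c|)) := by
        gcongr
    _ = 4 * M * (m0 * (|u - u'| * (2 * s)) * |c|) := by ring
    _ ≤ 4 * M * (2 * e) := by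
        refine mul_le_mul_of_nonneg_left h5 (by linarith)
    _ = 8 * M * e := by ring

theorem root_slope {A c u g u' g' e w s : ℝ} (h1 : |u * c - g * A| ≤ e)
    (h2 : |u' * c - g' * A| ≤ e) (hg : |g| ≤ 2) (hs : 0 < s) (hs1 : s ≤ 1) (hu : s ≤ |u|)
    (hu' : s ≤ |u'|)
    (hw0 : 0 < w) (hw : w < max |c| |A|) (he : 2 * e ≤ s * w) :
    |g / u - g' / u'| * (s ^ 2 * w) ≤ 8 * e := by
  have he0 : 0 ≤ e := (abs_nonneg _).trans h1
  have hu0 : 0 < |u| := hs.trans_le hu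
  have hu0' : 0 < |u'| := hs.trans_le hu'
  have hc : s * w ≤ 4 * |A| := by
    rcases lt_max_iff.1 hw with h | h
    · have h4 : |u| * |c| ≤ e + 2 * |A| := by
        rw [← abs_mul]
        calc |u * c| = |(u * c - g * A) + g * A| := by ring_nf
          _ ≤ |u * c - g * A| + |g * A| := abs_add_le _ _
          _ ≤ e + 2 * |A| := by rw [abs_mul]; gcongr
      have h5 : s * w ≤ |u| * |c| := by
        have := abs_nonneg c
        gcongr
      linarith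
    · have := abs_nonneg A
      nlinarith
  have hA0 : 0 < |A| := by
    have : 0 < s * w := by positivity
    linarith
  have key : ∀ v g : ℝ, |v * c - g * A| ≤ e → s ≤ |v| → |g / v - c / A| * (s * |A|) ≤ e := by
    intro v g hv hsv
    have hv0 : 0 < |v| := hs.trans_le hsv
    have hv1 : v ≠ 0 := abs_pos.1 hv0
    have hA1 : A ≠ 0 := abs_pos.1 hA0
    have e1 : |g / v - c / A| * (|v| * |A|) = |v * c - g * A| := by
      rw [← abs_mul, ← abs_mul, ← abs_neg]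
      congr 1
      field_simp
      ring
    calc |g / v - c / A| * (s * |A|) ≤ |g / v - c / A| * (|v| * |A|) := by gcongr
      _ = |v * c - g * A| := e1
      _ ≤ e := hv
  have k1 := key u g h1 hu
  have k2 := key u' g' h2 hu'
  have h6 : |g / u - g' / u'| ≤ |g / u - c / A| + |g' / u' - c / A| := by
    calc |g / u - g' / u'| = |(g / u - c / A) - (g' / u' - c / A)| := by ring_nf
      _ ≤ _ := abs_sub _ _
  calc |g / u - g' / u'| * (s ^ 2 * w) = |g / u - g' / u'| * (s * (s * w)) := by ring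
    _ ≤ |g / u - g' / u'| * (s * (4 * |A|)) := by gcongr
    _ ≤ (|g / u - c / A| + |g' / u' - c / A|) * (s * (4 * |A|)) := by gcongr
    _ = 4 * (|g / u - c / A| * (s * |A|)) + 4 * (|g' / u' - c / A| * (s * |A|)) := by ring
    _ ≤ 8 * e := by linarith

/-! ## Frostman on a mesh -/

theorem frost_mesh (h : FModel B G σ R ν) {hh : ℝ} (hh0 : 0 ≤ hh) {N : ℕ} (hN : N * hh ≤ R)
    {ε : ℝ} (hε : 0 < ε) :
    ∀ᶠ n in (U : Filter ℕ), ∀ j ∈ range (N + 1), ∀ T ⊆ (G n).Z,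
      (∀ k ∈ T, ∀ k' ∈ T, |(G n).z k' - (G n).z k| ≤ B.d n ^ ((j : ℝ) * hh)) →
        (T.card : ℝ) ≤ B.d n ^ (σ * ((j : ℝ) * hh) - ε) * (G n).Z.card := by
  rw [Filter.eventually_all_finset]
  intro j hj
  have hj1 : (j : ℝ) ≤ N := by
    have : j ≤ N := by simpa [Nat.lt_succ_iff] using hj
    exact_mod_cast this
  refine frost_set h (by positivity) ?_ hε
  nlinarith

/-! ## half coupled exponents -/

theorem hc_zero {a m : ℝ} {β : ℝ → ℝ → ℝ} (h : FModel B G σ R ν) (hc : HalfCoupled ν R a m β) :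
    β 0 0 = 0 := by
  have := hc 0 (fun j => ⟨le_rfl, h.R_pos.le⟩)
  simp only [Pi.zero_apply, mul_zero, zero_add] at this
  linarith

theorem hc_one0 {a m : ℝ} {β : ℝ → ℝ → ℝ} (h : FModel B G σ R ν) (hc : HalfCoupled ν R a m β)
    {y : ℝ} (h0 : 0 ≤ y) (hR : y ≤ R) : ν 0 - ν (one 0 y) = a * y := by
  have := hc (one 0 y) (fun j => one_mem h0 hR h.R_pos.le j)
  have e0 := hc_zero h hc
  have e1 : one 0 y 0 = y := by simp [one]
  have e2 : one 0 y 1 = 0 := by simp [one]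
  have e3 : one 0 y 2 = 0 := by simp [one]
  have e4 : one 0 y 3 = 0 := by simp [one]
  rw [e1, e2, e3, e4, e0] at this
  linarith

theorem hc_one3 {a m : ℝ} {β : ℝ → ℝ → ℝ} (h : FModel B G σ R ν) (hc : HalfCoupled ν R a m β)
    {y : ℝ} (h0 : 0 ≤ y) (hR : y ≤ R) : ν 0 - ν (one 3 y) = β 0 y := by
  have := hc (one 3 y) (fun j => one_mem h0 hR h.R_pos.le j)
  have e1 : one 3 y 0 = 0 := by simp [one]
  have e2 : one 3 y 1 = 0 := by simp [one]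
  have e3 : one 3 y 2 = 0 := by simp [one]
  have e4 : one 3 y 3 = y := by simp [one]
  rw [e1, e2, e3, e4] at this
  linarith

theorem mem4 {p : Fin 4 → ℝ} {p0 p1 p2 p3 : ℝ} (h0 : 0 ≤ p0 ∧ p0 ≤ R) (h1 : 0 ≤ p1 ∧ p1 ≤ R)
    (h2 : 0 ≤ p2 ∧ p2 ≤ R) (h3 : 0 ≤ p3 ∧ p3 ≤ R) :
    ∀ l, 0 ≤ (![p0, p1, p2, p3] : Fin 4 → ℝ) l ∧ (![p0, p1, p2, p3] : Fin 4 → ℝ) l ≤ R := by
  intro l
  fin_cases l
  · exact h0
  · exact h1
  · exact h2
  · exact h3

theorem hc4 {a m : ℝ} {β : ℝ → ℝ → ℝ} (hc : HalfCoupled ν R a m β) {p0 p1 p2 p3 : ℝ}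
    (h0 : 0 ≤ p0 ∧ p0 ≤ R) (h1 : 0 ≤ p1 ∧ p1 ≤ R)
    (h2 : 0 ≤ p2 ∧ p2 ≤ R) (h3 : 0 ≤ p3 ∧ p3 ≤ R) :
    ν ![p0, p1, p2, p3] = ν 0 - (a * p0 + m * p2 + β p1 p3) := by
  have := hc ![p0, p1, p2, p3] (mem4 (p := 0) h0 h1 h2 h3)
  simpa using this

theorem hc_nonneg {a m : ℝ} {β : ℝ → ℝ → ℝ} (h : FModel B G σ R ν) (hc : HalfCoupled ν R a m β) :
    0 ≤ a ∧ 0 ≤ m := by
  have hR := h.R_pos
  have z : (0 : ℝ) ≤ 0 ∧ (0 : ℝ) ≤ R := ⟨le_rfl, hR.le⟩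
  have r : (0 : ℝ) ≤ R ∧ R ≤ R := ⟨hR.le, le_rfl⟩
  have e0 := hc_zero h hc
  constructor
  · have h1 := nu_anti h 0 ![R, 0, 0, 0] (fun j => ⟨le_rfl, hR.le⟩) (mem4 (p := 0) r z z z) (by
      intro j; fin_cases j <;> simp [hR.le])
    rw [hc4 hc r z z z, e0] at h1
    by_contra hcon
    push Not at hcon
    nlinarith
  · have h1 := nu_anti h 0 ![0, 0, R, 0] (fun j => ⟨le_rfl, hR.le⟩) (mem4 (p := 0) z z r z) (by
      intro j; fin_cases j <;> simp [hR.le])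
    rw [hc4 hc z z r z, e0] at h1
    by_contra hcon
    push Not at hcon
    nlinarith

theorem hc_beta_mono {a m : ℝ} {β : ℝ → ℝ → ℝ} (h : FModel B G σ R ν) (hc : HalfCoupled ν R a m β)
    {x y x' y' : ℝ} (hx : 0 ≤ x) (hy : 0 ≤ y) (hx' : x' ≤ R) (hy' : y' ≤ R) (hxx : x ≤ x')
    (hyy : y ≤ y') : β x y ≤ β x' y' := by
  have hR := h.R_pos
  have z : (0 : ℝ) ≤ 0 ∧ (0 : ℝ) ≤ R := ⟨le_rfl, hR.le⟩
  have h1 := nu_anti h ![0, x, 0, y] ![0, x', 0, y']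
    (mem4 (p := 0) z ⟨hx, hxx.trans hx'⟩ z ⟨hy, hyy.trans hy'⟩)
    (mem4 (p := 0) z ⟨hx.trans hxx, hx'⟩ z ⟨hy.trans hyy, hy'⟩) (by
      intro j; fin_cases j <;> simp [hxx, hyy])
  rw [hc4 hc z ⟨hx, hxx.trans hx'⟩ z ⟨hy, hyy.trans hy'⟩,
    hc4 hc z ⟨hx.trans hxx, hx'⟩ z ⟨hy.trans hyy, hy'⟩] at h1
  linarith

theorem hc_beta_nonneg {a m : ℝ} {β : ℝ → ℝ → ℝ} (h : FModel B G σ R ν)
    (hc : HalfCoupled ν R a m β) {x y : ℝ} (hx : 0 ≤ x) (hy : 0 ≤ y) (hx' : x ≤ R) (hy' : y ≤ R) :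
    0 ≤ β x y := by
  rw [← hc_zero h hc]
  exact hc_beta_mono h hc le_rfl le_rfl hx' hy' hx hy

end Crest.Agent.R138.TwC501
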