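import Mathlib
import Crest.Agent.R138.Tub1_70
import Crest.Agent.R138.Defs_665

/-! Dictionary waves -> weighted tubes, part 2: the abstract tube lemma. -/

set_option autoImplicit false

open MeasureTheory
open scoped ENNReal

namespace Crest.Agent.R138.Tub70

open Crest.Agent.R138.Defs (plank)

/-- weighted energy of a slice near `c` at scale `w`. -/
noncomputable def En (w : ℝ) (n : ℕ) (f : E2 → ℂ) (c : E2) : ℝ≥0∞ :=
  ∫⁻ x, ‖f x‖ₑ ^ 2 * ENNReal.ofReal (pw w n c x)

theorem En_shift {w : ℝ} (hw : 0 < w) (n : ℕ) {A : ℝ} {c c' : E2} (h : ‖c - c'‖ ≤ A * w)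
    (f : E2 → ℂ) : En w n f c ≤ ENNReal.ofReal ((2 * (1 + A ^ 2)) ^ n) * En w n f c' := by
  unfold En
  rw [← lintegral_const_mul' _ _ ENNReal.ofReal_ne_top]
  apply lintegral_mono
  intro x
  calc ‖f x‖ₑ ^ 2 * ENNReal.ofReal (pw w n c x)
      ≤ ‖f x‖ₑ ^ 2 * ENNReal.ofReal ((2 * (1 + A ^ 2)) ^ n * pw w n c' x) := by
        gcongr
        exact pw_shift hw n h x
    _ = _ := by
        rw [ENNReal.ofReal_mul (by positivity)]
        ring

/-- the four to the n constant -/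
theorem En_shift_one {w : ℝ} (hw : 0 < w) (n : ℕ) {c c' : E2} (h : ‖c - c'‖ ≤ w)
    (f : E2 → ℂ) : En w n f c ≤ 4 ^ n * En w n f c' := by
  have := En_shift hw n (A := 1) (c := c) (c' := c') (by linarith) f
  refine this.trans (le_of_eq ?_)
  congr 1
  rw [ENNReal.ofReal_pow (by norm_num)]
  norm_num

/-- the pieces of a wave: transport of the weighted energies. -/
def Transp (w R : ℝ) (n : ℕ) (C : ℝ≥0∞) {κ : Type*} (S : Finset κ) (u : κ → E2 → ℝ → ℂ)
    (c : κ → E2) : Prop :=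
  ∀ k ∈ S, ∀ t t' : ℝ, |t| ≤ 2 * R → |t'| ≤ 2 * R → ∀ x,
    En w n (fun y => u k y t') x ≤ C * En w n (fun y => u k y t) (x + (t' - t) • c k)

/-- local orthogonality. -/
def Ortho (w R : ℝ) (n : ℕ) (C : ℝ≥0∞) {κ : Type*} (S : Finset κ) (u : κ → E2 → ℝ → ℂ)
    (U : E2 → ℝ → ℂ) : Prop :=
  ∀ t : ℝ, |t| ≤ 2 * R → ∀ x, En w n (fun y => U y t) x ≤ C * ∑ k ∈ S, En w n (fun y => u k y t) x

/-- converse local orthogonality (Bessel). -/
def Bessel (w R : ℝ) (n : ℕ) (C : ℝ≥0∞) {κ : Type*} (S : Finset κ) (u : κ → E2 → ℝ → ℂ)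
    (U : E2 → ℝ → ℂ) : Prop :=
  ∀ t : ℝ, |t| ≤ 2 * R → ∀ x, ∑ k ∈ S, En w n (fun y => u k y t) x ≤ C * En w n (fun y => U y t) x

/-- the weight of the tube `(k, y)`. -/
noncomputable def wgt (w : ℝ) (n : ℕ) {κ : Type*} (u : κ → E2 → ℝ → ℂ) (k : κ) (y : ℤ × ℤ) : ℝ≥0∞ :=
  En w n (fun x => u k x 0) (Lat w y)

/-- (a): pointwise domination by the tube function. -/
theorem point_le {w R : ℝ} (hw : 0 < w) (hwR : w ≤ R) {n : ℕ} {C : ℝ≥0∞} {κ : Type*}
    {S : Finset κ} {u : κ → E2 → ℝ → ℂ} {c : κ → E2} {U : E2 → ℝ → ℂ}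
    (hT : Transp w R n C S u c) (hO : Ortho w R n C S u U) {V : ℝ} (hV : ∀ k ∈ S, ‖c k‖ ≤ V)
    {t t' : ℝ} (ht : |t| ≤ R) (htt : |t' - t| ≤ w) (x : E2) :
    En w n (fun y => U y t') x ≤ C * (C * (ENNReal.ofReal ((2 * (1 + (V + 1) ^ 2)) ^ n) *
      ∑ k ∈ S, wgt w n u k (nr w (x + t • c k)))) := by
  have ht' : |t'| ≤ 2 * R := by
    have := abs_add_le t (t' - t)
    rw [add_sub_cancel] at this
    linarith
  refine (hO t' ht' x).trans ?_
  gcongr
  rw [Finset.mul_sum, Finset.mul_sum]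
  apply Finset.sum_le_sum
  intro k hk
  have hR : 0 ≤ R := hw.le.trans hwR
  refine (hT k hk 0 t' (by simpa using hR) ht' x).trans ?_
  gcongr
  unfold wgt
  apply En_shift hw
  have e : x + (t' - 0) • c k - Lat w (nr w (x + t • c k)) =
      (x + t • c k - Lat w (nr w (x + t • c k))) + (t' - t) • c k := by
    rw [sub_zero, sub_smul]; abel
  rw [e]
  calc _ ≤ ‖x + t • c k - Lat w (nr w (x + t • c k))‖ + ‖(t' - t) • c k‖ := norm_add_le _ _
    _ ≤ w + w * V := by
        rw [norm_smul, Real.norm_eq_abs]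
        have := hV k hk
        gcongr
        exact norm_sub_nr hw _
    _ = (V + 1) * w := by ring

/-- inner lemma: the sum of the weights of the lattice points of a slice. -/
theorem sum_pw_le {w : ℝ} (hw : 0 < w) (n : ℕ) (Z : Finset (ℤ × ℤ)) (P : E2 → Prop)
    [DecidablePred P] (x : E2) (hZ : ∀ z ∈ Z, ∀ v : E2, ‖v‖ ≤ w → P (Lat w z + v)) :
    ∑ z ∈ Z, ENNReal.ofReal (pw w n (Lat w z) x) ≤
      4 ^ n * ∑' v : ℤ × ℤ, (if P (x - Lat w v) then ENNReal.ofReal (pw w n (Lat w v) 0) else 0) := by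
  classical
  calc ∑ z ∈ Z, ENNReal.ofReal (pw w n (Lat w z) x)
      ≤ ∑ z ∈ Z, 4 ^ n * (if P (x - Lat w (nr w x - z)) then
          ENNReal.ofReal (pw w n (Lat w (nr w x - z)) 0) else 0) := by
        apply Finset.sum_le_sum
        intro z hz
        have h1 : P (x - Lat w (nr w x - z)) := by
          have := hZ z hz (x - Lat w (nr w x)) (norm_sub_nr hw x)
          rw [Lat_sub]
          convert this using 1
          abel
        rw [if_pos h1]
        rw [show (4 : ℝ≥0∞) ^ n = ENNReal.ofReal ((2 * (1 + 1 ^ 2)) ^ n) by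
          rw [ENNReal.ofReal_pow (by norm_num)]; norm_num]
        rw [← ENNReal.ofReal_mul (by positivity)]
        apply ENNReal.ofReal_le_ofReal
        have h2 : pw w n (Lat w z) x = pw w n (Lat w z - x) 0 := by
          have := pw_add w n (Lat w z - x) 0 x
          simpa using this
        have h3 : pw w n (Lat w (nr w x - z)) 0 = pw w n (-Lat w (nr w x - z)) 0 := by
          unfold pw; simp
        rw [h2, h3]
        apply pw_shift hw n
        rw [Lat_sub]
        have e : Lat w z - x - -(Lat w (nr w x) - Lat w z) = -(x - Lat w (nr w x)) := by abel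
        rw [e, norm_neg, one_mul]
        exact norm_sub_nr hw x
    _ = 4 ^ n * ∑ z ∈ Z, (if P (x - Lat w (nr w x - z)) then
          ENNReal.ofReal (pw w n (Lat w (nr w x - z)) 0) else 0) := by rw [Finset.mul_sum]
    _ = 4 ^ n * ∑ v ∈ Z.image (fun z => nr w x - z), (if P (x - Lat w v) then
          ENNReal.ofReal (pw w n (Lat w v) 0) else 0) := by
        rw [Finset.sum_image]
        intro a _ b _ h
        simpa using h
    _ ≤ _ := by
        gcongr
        exact ENNReal.sum_le_tsum _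


/-- the slice at time `t` of the plank. -/
def sl {ι : Type*} (c : E2) (b : ι → E2) (s : ι → ℝ) (x0 : E2) (t : ℝ) (x : E2) : Prop :=
  ∀ i, |inner ℝ (x - x0 + t • c) (b i)| ≤ s i

theorem sl_add {ι : Type*} {c : E2} {b : ι → E2} {s s' : ι → ℝ} {x0 : E2} {t : ℝ} {x v : E2}
    {A : ℝ} (hb : ∀ i, ‖b i‖ ≤ 1) (h : sl c b s x0 t x) (hv : ‖v‖ ≤ A) (hs : ∀ i, s i + A ≤ s' i) :
    sl c b s' x0 t (x + v) := by
  intro i
  have e : x + v - x0 + t • c = (x - x0 + t • c) + v := by abel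
  rw [e, inner_add_left]
  have h1 : |inner ℝ v (b i)| ≤ A := by
    calc |inner ℝ v (b i)| ≤ ‖v‖ * ‖b i‖ := abs_real_inner_le_norm _ _
      _ ≤ A * 1 := by
        have := hb i
        have h0 := norm_nonneg v
        have h00 := norm_nonneg (b i)
        gcongr
        linarith
      _ = A := mul_one A
  calc _ ≤ |inner ℝ (x - x0 + t • c) (b i)| + |inner ℝ v (b i)| := abs_add_le _ _
    _ ≤ s i + A := add_le_add (h i) h1
    _ ≤ s' i := hs i

theorem isClosed_sl {ι : Type*} (c : E2) (b : ι → E2) (s : ι → ℝ) (x0 : E2) (v : E2) :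
    IsClosed {p : E2 × ℝ | sl c b s x0 p.2 (p.1 - v)} := by
  have : {p : E2 × ℝ | sl c b s x0 p.2 (p.1 - v)} =
      ⋂ i, {p : E2 × ℝ | |inner ℝ (p.1 - v - x0 + p.2 • c) (b i)| ≤ s i} := by
    ext p; simp [sl]
  rw [this]
  apply isClosed_iInter
  intro i
  apply isClosed_le
  · fun_prop
  · fun_prop

theorem measurableSet_sl {ι : Type*} (c : E2) (b : ι → E2) (s : ι → ℝ) (x0 : E2) (v : E2) (t : ℝ) :
    MeasurableSet {x : E2 | sl c b s x0 t (x - v)} := by
  have h := (isClosed_sl c b s x0 v).measurableSet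
  exact measurable_prodMk_right h (y := t)

/-- (c) at a fixed time. -/
theorem slice_sum_le {w R : ℝ} (hw : 0 < w) (hR : 0 ≤ R) {n : ℕ} {C C' : ℝ≥0∞} {κ : Type*}
    [DecidableEq κ] {S : Finset κ} {u : κ → E2 → ℝ → ℂ} {c : κ → E2} {U : E2 → ℝ → ℂ}
    (hT : Transp w R n C S u c) {ι : Type*} {c0 : E2} {b : ι → E2} (hb : ∀ i, ‖b i‖ ≤ 1)
    {s s' : ι → ℝ} (hs : ∀ i, s i + 2 * w ≤ s' i) {x0 : E2} (P : Finset (κ × (ℤ × ℤ)))
    (hUm : Measurable fun p : E2 × ℝ => U p.1 p.2)
    (hPS : ∀ p ∈ P, p.1 ∈ S) {t : ℝ} (ht : |t| ≤ R)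
    (hP : ∀ p ∈ P, sl c0 b s x0 t (Lat w p.2 - t • c p.1))
    (hB : Bessel w R n C' (P.image Prod.fst) u U)
    [DecidablePred (sl c0 b s' x0 t)] :
    ∑ p ∈ P, wgt w n u p.1 p.2 ≤ C * (4 ^ n * (C' * (4 ^ n *
      ∑' v : ℤ × ℤ, ENNReal.ofReal (pw w n (Lat w v) 0) *
        ∫⁻ x, (if sl c0 b s' x0 t (x - Lat w v) then ‖U x t‖ₑ ^ 2 else 0)))) := by
  classical
  have ht2 : |t| ≤ 2 * R := by linarith
  set m : κ → ℤ × ℤ := fun k => nr w (-(t • c k)) with hm
  set Z : Finset (ℤ × ℤ) := P.image (fun p => p.2 + m p.1) with hZ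
  -- step 1
  have s1 : ∀ p ∈ P, wgt w n u p.1 p.2 ≤ C * (4 ^ n *
      En w n (fun y => u p.1 y t) (Lat w (p.2 + m p.1))) := by
    intro p hp
    unfold wgt
    refine (hT p.1 (hPS p hp) t 0 ht2 (by simpa using hR) _).trans ?_
    gcongr
    apply En_shift_one hw
    rw [Lat_add]
    have e : Lat w p.2 + (0 - t) • c p.1 - (Lat w p.2 + Lat w (m p.1)) =
        -(t • c p.1) - Lat w (m p.1) := by
      rw [zero_sub, neg_smul]; abel
    rw [e]
    exact norm_sub_nr hw _
  -- step 2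
  have s2 : ∑ p ∈ P, En w n (fun y => u p.1 y t) (Lat w (p.2 + m p.1)) ≤
      ∑ z ∈ Z, ∑ k ∈ P.image Prod.fst, En w n (fun y => u k y t) (Lat w z) := by
    rw [← Finset.sum_product']
    calc ∑ p ∈ P, En w n (fun y => u p.1 y t) (Lat w (p.2 + m p.1))
        = ∑ q ∈ P.image (fun p => (p.2 + m p.1, p.1)),
            En w n (fun y => u q.2 y t) (Lat w q.1) := by
          rw [Finset.sum_image]
          intro a _ b _ h
          simp only [Prod.mk.injEq] at h
          obtain ⟨h1, h2⟩ := h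
          rw [h2] at h1
          exact Prod.ext h2 (by simpa using h1)
      _ ≤ _ := by
          apply Finset.sum_le_sum_of_subset_of_nonneg
          · intro q hq
            rw [Finset.mem_image] at hq
            obtain ⟨p, hp, rfl⟩ := hq
            rw [Finset.mem_product]
            exact ⟨Finset.mem_image_of_mem _ hp, Finset.mem_image_of_mem _ hp⟩
          · intros; positivity
  -- step 3
  have s3 : ∀ z ∈ Z, ∑ k ∈ P.image Prod.fst, En w n (fun y => u k y t) (Lat w z) ≤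
      C' * En w n (fun y => U y t) (Lat w z) := fun z _ => hB t ht2 _
  -- the lattice points of Z are in the slice
  have hZs : ∀ z ∈ Z, ∀ v : E2, ‖v‖ ≤ w → sl c0 b s' x0 t (Lat w z + v) := by
    intro z hz v hv
    rw [hZ, Finset.mem_image] at hz
    obtain ⟨p, hp, rfl⟩ := hz
    have h1 := hP p hp
    have h2 : ‖(Lat w (m p.1) + t • c p.1) + v‖ ≤ 2 * w := by
      have h3 := norm_sub_nr hw (-(t • c p.1))
      have h4 : ‖Lat w (m p.1) + t • c p.1‖ ≤ w := by
        have e4 : Lat w (m p.1) + t • c p.1 =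
            -(-(t • c p.1) - Lat w (nr w (-(t • c p.1)))) := by
          rw [hm]; abel
        rw [e4, norm_neg]
        exact h3
      calc _ ≤ ‖Lat w (m p.1) + t • c p.1‖ + ‖v‖ := norm_add_le _ _
        _ ≤ 2 * w := by linarith
    have h5 := sl_add hb h1 h2 hs
    convert h5 using 1
    rw [Lat_add]
    abel
  -- step 4
  have s4 : ∑ z ∈ Z, En w n (fun y => U y t) (Lat w z) ≤
      4 ^ n * ∑' v : ℤ × ℤ, ENNReal.ofReal (pw w n (Lat w v) 0) *
        ∫⁻ x, (if sl c0 b s' x0 t (x - Lat w v) then ‖U x t‖ₑ ^ 2 else 0) := by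
    have hU' : Measurable fun x : E2 => ‖U x t‖ₑ ^ 2 := by
      have : Measurable fun x : E2 => U x t := hUm.comp measurable_prodMk_right
      exact this.enorm.pow_const 2
    have hmeas : ∀ v : ℤ × ℤ, Measurable fun x : E2 =>
        (if sl c0 b s' x0 t (x - Lat w v) then ‖U x t‖ₑ ^ 2 else 0) := fun v =>
      Measurable.ite (measurableSet_sl c0 b s' x0 (Lat w v) t) hU' measurable_const
    have e1 : ∑ z ∈ Z, En w n (fun y => U y t) (Lat w z) =
        ∫⁻ x, ‖U x t‖ₑ ^ 2 * ∑ z ∈ Z, ENNReal.ofReal (pw w n (Lat w z) x) := by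
      unfold En
      rw [← lintegral_finsetSum]
      · simp only [Finset.mul_sum]
      · intro z _
        exact hU'.mul (continuous_pw w n _).measurable.ennreal_ofReal
    rw [e1]
    calc ∫⁻ x, ‖U x t‖ₑ ^ 2 * ∑ z ∈ Z, ENNReal.ofReal (pw w n (Lat w z) x)
        ≤ ∫⁻ x, 4 ^ n * ∑' v : ℤ × ℤ, ENNReal.ofReal (pw w n (Lat w v) 0) *
            (if sl c0 b s' x0 t (x - Lat w v) then ‖U x t‖ₑ ^ 2 else 0) := by
          apply lintegral_mono
          intro x
          calc ‖U x t‖ₑ ^ 2 * ∑ z ∈ Z, ENNReal.ofReal (pw w n (Lat w z) x)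
              ≤ ‖U x t‖ₑ ^ 2 * (4 ^ n * ∑' v : ℤ × ℤ, (if sl c0 b s' x0 t (x - Lat w v) then
                  ENNReal.ofReal (pw w n (Lat w v) 0) else 0)) := by
                gcongr
                exact sum_pw_le hw n Z (sl c0 b s' x0 t) x hZs
            _ = _ := by
                rw [← mul_assoc, mul_comm (‖U x t‖ₑ ^ 2), mul_assoc, ← ENNReal.tsum_mul_left]
                congr 2
                funext v
                split_ifs
                · rw [mul_comm]
                · simp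
      _ = _ := by
          rw [lintegral_const_mul _ (Measurable.tsum fun v => (hmeas v).const_mul _)]
          congr 1
          rw [lintegral_tsum (fun v => ((hmeas v).const_mul _).aemeasurable)]
          congr 1
          funext v
          rw [lintegral_const_mul _ (hmeas v)]
  calc ∑ p ∈ P, wgt w n u p.1 p.2
      ≤ ∑ p ∈ P, C * (4 ^ n * En w n (fun y => u p.1 y t) (Lat w (p.2 + m p.1))) :=
        Finset.sum_le_sum s1
    _ = C * (4 ^ n * ∑ p ∈ P, En w n (fun y => u p.1 y t) (Lat w (p.2 + m p.1))) := by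
        rw [Finset.mul_sum, Finset.mul_sum]
    _ ≤ C * (4 ^ n * ∑ z ∈ Z, C' * En w n (fun y => U y t) (Lat w z)) := by
        gcongr
        exact s2.trans (Finset.sum_le_sum s3)
    _ ≤ _ := by
        rw [← Finset.mul_sum]
        gcongr


/-- the plank, read as an iterated integral. -/
theorem lintegral_plank {R : ℝ} {c0 : E2} (b : OrthonormalBasis (Fin 2) ℝ E2) (s : Fin 2 → ℝ)
    (x0 v : E2) {f : E2 × ℝ → ℝ≥0∞} (hf : Measurable f) [∀ t, DecidablePred (sl c0 b (fun i => s i * R) x0 t)] :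
    ∫⁻ t in Set.Icc (-R) R, ∫⁻ x, (if sl c0 b (fun i => s i * R) x0 t (x - v) then f (x, t) else 0) =
      ∫⁻ p in plank c0 b s R (x0 + v) 0, f p := by
  classical
  have hcl : MeasurableSet {p : E2 × ℝ | sl c0 b (fun i => s i * R) x0 p.2 (p.1 - v)} :=
    (isClosed_sl c0 b _ x0 v).measurableSet
  have hset : plank c0 b s R (x0 + v) 0 =
      {p : E2 × ℝ | p.2 ∈ Set.Icc (-R) R} ∩ {p : E2 × ℝ | sl c0 b (fun i => s i * R) x0 p.2 (p.1 - v)} := by
    ext p
    simp only [plank, sl, Set.mem_ofPred_eq, Set.mem_inter_iff, sub_zero, Set.mem_Icc, abs_le]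
    constructor
    · rintro ⟨h1, h2⟩
      refine ⟨h1, fun i => ?_⟩
      have := h2 i
      convert this using 4 <;> abel
    · rintro ⟨h1, h2⟩
      refine ⟨h1, fun i => ?_⟩
      have := h2 i
      convert this using 4 <;> abel
  have hI : MeasurableSet {p : E2 × ℝ | p.2 ∈ Set.Icc (-R) R} := measurable_snd measurableSet_Icc
  have hPm : MeasurableSet (plank c0 b s R (x0 + v) 0) := by
    rw [hset]; exact hI.inter hcl
  rw [← lintegral_indicator hPm, Measure.volume_eq_prod, lintegral_prod_symm,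
    ← lintegral_indicator measurableSet_Icc]
  · congr 1
    funext t
    by_cases ht : t ∈ Set.Icc (-R) R
    · rw [Set.indicator_of_mem ht]
      congr 1
      funext x
      rw [Set.indicator_apply, hset]
      simp only [Set.mem_inter_iff, Set.mem_ofPred_eq, ht, true_and]
    · rw [Set.indicator_of_notMem ht]
      symm
      rw [lintegral_eq_zero_iff']
      · apply Filter.Eventually.of_forall
        intro x
        simp only [Pi.zero_apply]
        rw [Set.indicator_apply, hset, if_neg]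
        exact fun h => ht h.1
      · apply Measurable.aemeasurable
        have : Measurable ((plank c0 b s R (x0 + v) 0).indicator f) :=
          hf.indicator hPm
        exact this.comp measurable_prodMk_right
  · exact (hf.indicator hPm).aemeasurable

/-- (c): the total weight of the tubes in a plank. -/
theorem plank_sum_le {w R : ℝ} (hw : 0 < w) (hR : 0 < R) {n : ℕ} {C C' : ℝ≥0∞} (hC : C ≠ ⊤)
    (hC' : C' ≠ ⊤) {κ : Type*}
    [DecidableEq κ] {S : Finset κ} {u : κ → E2 → ℝ → ℂ} {c : κ → E2} {U : E2 → ℝ → ℂ}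
    (hT : Transp w R n C S u c) {c0 : E2} (b : OrthonormalBasis (Fin 2) ℝ E2)
    {s s' : Fin 2 → ℝ} (hs : ∀ i, s i * R + 2 * w ≤ s' i * R) {x0 : E2} (P : Finset (κ × (ℤ × ℤ)))
    (hUm : Measurable fun p : E2 × ℝ => U p.1 p.2)
    (hPS : ∀ p ∈ P, p.1 ∈ S)
    (hP : ∀ p ∈ P, ∀ t : ℝ, |t| ≤ R → sl c0 b (fun i => s i * R) x0 t (Lat w p.2 - t • c p.1))
    (hB : Bessel w R n C' (P.image Prod.fst) u U) :
    ENNReal.ofReal (2 * R) * ∑ p ∈ P, wgt w n u p.1 p.2 ≤ C * (4 ^ n * (C' * (4 ^ n *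
      ∑' v : ℤ × ℤ, ENNReal.ofReal (pw w n (Lat w v) 0) *
        ∫⁻ p in plank c0 b s' R (x0 + Lat w v) 0, ‖U p.1 p.2‖ₑ ^ 2))) := by
  classical
  have hb : ∀ i, ‖b i‖ ≤ 1 := fun i => (b.norm_eq_one i).le
  have hf : Measurable fun p : E2 × ℝ => ‖U p.1 p.2‖ₑ ^ 2 := hUm.enorm.pow_const 2
  have hcl : ∀ v : ℤ × ℤ, MeasurableSet {p : E2 × ℝ | sl c0 b (fun i => s' i * R) x0 p.2 (p.1 - Lat w v)} :=
    fun v => (isClosed_sl c0 b _ x0 (Lat w v)).measurableSet
  have hm : ∀ v : ℤ × ℤ, Measurable fun t : ℝ => ∫⁻ x,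
      (if sl c0 b (fun i => s' i * R) x0 t (x - Lat w v) then ‖U x t‖ₑ ^ 2 else 0) := by
    intro v
    have : Measurable fun p : E2 × ℝ =>
        (if sl c0 b (fun i => s' i * R) x0 p.2 (p.1 - Lat w v) then ‖U p.1 p.2‖ₑ ^ 2 else 0) :=
      Measurable.ite (hcl v) hf measurable_const
    exact this.lintegral_prod_left'
  calc ENNReal.ofReal (2 * R) * ∑ p ∈ P, wgt w n u p.1 p.2
      = ∫⁻ t in Set.Icc (-R) R, ∑ p ∈ P, wgt w n u p.1 p.2 := by
        rw [setLIntegral_const, Real.volume_Icc, mul_comm]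
        congr 2; ring
    _ ≤ ∫⁻ t in Set.Icc (-R) R, C * (4 ^ n * (C' * (4 ^ n *
          ∑' v : ℤ × ℤ, ENNReal.ofReal (pw w n (Lat w v) 0) *
          ∫⁻ x, (if sl c0 b (fun i => s' i * R) x0 t (x - Lat w v) then ‖U x t‖ₑ ^ 2 else 0)))) := by
        apply setLIntegral_mono' measurableSet_Icc
        intro t ht
        have ht' : |t| ≤ R := abs_le.mpr ht
        exact slice_sum_le hw hR.le hT hb hs P hUm hPS ht' (fun p hp => hP p hp t ht') hB
    _ = _ := by
        rw [lintegral_const_mul' _ _ hC, lintegral_const_mul' _ _ (by simp),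
          lintegral_const_mul' _ _ hC', lintegral_const_mul' _ _ (by simp),
          lintegral_tsum (fun v => ((hm v).const_mul _).aemeasurable)]
        congr 5
        funext v
        rw [lintegral_const_mul _ (hm v)]
        congr 1
        exact lintegral_plank b s' x0 (Lat w v) hf

end Crest.Agent.R138.Tub70
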