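import Mathlib
import Crest.Agent.R138.Tub2_70

/-! Dictionary waves -> weighted tubes, part 3: Kakeya in `L^{3/2}` form and its consequence for
functions dominated by tubes. -/

set_option autoImplicit false

open MeasureTheory
open scoped ENNReal

namespace Crest.Agent.R138.Tub70

/-- the line `z ↦ p + z v` stays in the plank `(p0, v0, b, s)` for `|z| ≤ 1`. -/
def InPl (b : OrthonormalBasis (Fin 2) ℝ E2) (s : Fin 2 → ℝ) (p0 v0 p v : E2) : Prop :=
  ∀ z : ℝ, |z| ≤ 1 → ∀ j, |inner ℝ (p - p0 + z • (v - v0)) (b j)| ≤ s j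

open Classical in
/-- **Kakeya in `L^{3/2}` form**: weighted lines `p i + z v i`, resolution `δ`, density at most `Δ`
on every plank. -/
def KM32 (V : ℝ) : Prop :=
  ∀ ε : ℝ, 0 < ε → ∃ C : ℝ, 0 ≤ C ∧ ∀ δ : ℝ, 0 < δ → δ ≤ 1 →
    ∀ (ι : Type) [Fintype ι] (p v : ι → E2) (a : ι → ℝ), (∀ i, 0 ≤ a i) →
      (∀ i, ‖p i‖ ≤ V) → (∀ i, ‖v i‖ ≤ V) → ∀ Δ : ℝ, 0 ≤ Δ →
      (∀ (b : OrthonormalBasis (Fin 2) ℝ E2) (s : Fin 2 → ℝ) (p0 v0 : E2),
        (∀ j, δ ≤ s j ∧ s j ≤ 1) →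
          ∑ i, (if InPl b s p0 v0 (p i) (v i) then a i * δ ^ 2 else 0) ≤ Δ * (s 0 * s 1)) →
      ∫⁻ z in Set.Icc (-1 : ℝ) 1, ∫⁻ x : E2,
          (∑ i, (if ‖x - p i - z • v i‖ ≤ δ then ENNReal.ofReal (a i) else 0)) ^ (3/2 : ℝ) ≤
        ENNReal.ofReal (C * δ ^ (-ε) * Real.sqrt Δ * ∑ i, a i * δ ^ 2)

theorem lintegral_smul_E2 {r : ℝ} (hr : 0 < r) (f : E2 → ℝ≥0∞) :
    ∫⁻ x, f x = ENNReal.ofReal (r ^ 2) * ∫⁻ x, f (r • x) := by
  have h := Measure.map_addHaar_smul (volume : Measure E2) hr.ne'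
  have hemb : MeasurableEmbedding (fun x : E2 => r • x) :=
    (Homeomorph.smulOfNeZero r hr.ne').measurableEmbedding
  have h2 : ∫⁻ x, f x ∂(Measure.map (fun x : E2 => r • x) volume) = ∫⁻ x, f (r • x) :=
    hemb.lintegral_map f
  rw [← h2, h, lintegral_smul_measure, smul_eq_mul, ← mul_assoc,
    ← ENNReal.ofReal_mul (by positivity)]
  have : r ^ 2 * |(r ^ Module.finrank ℝ E2)⁻¹| = 1 := by
    rw [finrank_euclideanSpace_fin, abs_of_pos (by positivity)]
    field_simp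
  rw [this]; simp

theorem lintegral_Icc_mul {R : ℝ} (hR : 0 < R) (g : ℝ → ℝ≥0∞) :
    ∫⁻ t in Set.Icc (-R) R, g t = ENNReal.ofReal R * ∫⁻ z in Set.Icc (-1 : ℝ) 1, g (R * z) := by
  have h := Real.map_volume_mul_left (a := R) hR.ne'
  have hemb : MeasurableEmbedding (fun x : ℝ => R * x) :=
    (Homeomorph.mulLeft₀ R hR.ne').measurableEmbedding
  have e1 : ∫⁻ t in Set.Icc (-R) R, g t = ∫⁻ t, (Set.Icc (-R) R).indicator g t := by
    rw [lintegral_indicator measurableSet_Icc]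
  have e2 : ∫⁻ z in Set.Icc (-1 : ℝ) 1, g (R * z) = ∫⁻ z, (Set.Icc (-R) R).indicator g (R * z) := by
    rw [← lintegral_indicator measurableSet_Icc]
    congr 1
    funext z
    have : z ∈ Set.Icc (-1 : ℝ) 1 ↔ R * z ∈ Set.Icc (-R) R := by
      simp only [Set.mem_Icc]
      constructor
      · rintro ⟨h1, h2⟩; constructor <;> nlinarith
      · rintro ⟨h1, h2⟩; constructor <;> nlinarith
    by_cases hz : z ∈ Set.Icc (-1 : ℝ) 1
    · rw [Set.indicator_of_mem hz, Set.indicator_of_mem (this.mp hz)]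
    · rw [Set.indicator_of_notMem hz, Set.indicator_of_notMem (fun h' => hz (this.mpr h'))]
  have h2 : ∫⁻ x, (Set.Icc (-R) R).indicator g x ∂(Measure.map (fun x : ℝ => R * x) volume) =
      ∫⁻ z, (Set.Icc (-R) R).indicator g (R * z) := hemb.lintegral_map _
  rw [e1, e2, ← h2, h, lintegral_smul_measure, smul_eq_mul, ← mul_assoc,
    ← ENNReal.ofReal_mul hR.le]
  have : R * |R⁻¹| = 1 := by
    rw [abs_of_pos (by positivity)]; field_simp
  rw [this]; simp


theorem inPl_iff {R : ℝ} (hR : 0 < R) (b : OrthonormalBasis (Fin 2) ℝ E2) (s : Fin 2 → ℝ)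
    (p0 v0 y c : E2) :
    InPl b s p0 v0 (R⁻¹ • y) (-c) ↔
      ∀ t : ℝ, |t| ≤ R → sl (-v0) b (fun i => s i * R) (R • p0) t (y - t • c) := by
  unfold InPl sl
  have key : ∀ (z : ℝ) (j : Fin 2), |inner ℝ (R⁻¹ • y - p0 + z • (-c - v0)) (b j)| ≤ s j ↔
      |inner ℝ (y - (R * z) • c - R • p0 + (R * z) • (-v0)) (b j)| ≤ s j * R := by
    intro z j
    have e : y - (R * z) • c - R • p0 + (R * z) • (-v0) =
        R • (R⁻¹ • y - p0 + z • (-c - v0)) := by
      rw [smul_add, smul_sub, smul_smul, mul_inv_cancel₀ hR.ne', one_smul, smul_smul, smul_sub,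
        smul_neg, smul_neg]
      abel
    rw [e, inner_smul_left, abs_mul]
    simp only [conj_trivial]
    rw [abs_of_pos hR, mul_comm (s j), mul_le_mul_iff_right₀ hR]
  constructor
  · intro h t ht j
    have hz : |t / R| ≤ 1 := by
      rw [abs_div, abs_of_pos hR, div_le_one hR]; exact ht
    have := (key (t / R) j).mp (h _ hz j)
    rwa [mul_div_cancel₀ _ hR.ne'] at this
  · intro h z hz j
    rw [key]
    apply h
    rw [abs_mul, abs_of_pos hR]
    nlinarith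

open Classical in
/-- **tubes + Kakeya**: a function dominated by a sum of weighted tubes on the cylinder. -/
theorem tubes_KM {V : ℝ} (hKM : KM32 V) (ε : ℝ) (hε : 0 < ε) : ∃ C : ℝ, 0 ≤ C ∧
    ∀ w R : ℝ, 0 < w → w ≤ R → ∀ (ι : Type) [Fintype ι] (y c : ι → E2) (a : ι → ℝ),
      (∀ i, 0 ≤ a i) → (∀ i, ‖y i‖ ≤ V * R) → (∀ i, ‖c i‖ ≤ V) → ∀ Δ : ℝ, 0 ≤ Δ →
      (∀ (b : OrthonormalBasis (Fin 2) ℝ E2) (s : Fin 2 → ℝ) (x0 c0 : E2),
        (∀ j, w / R ≤ s j ∧ s j ≤ 1) →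
          ∑ i, (if ∀ t : ℝ, |t| ≤ R → sl c0 b (fun i => s i * R) x0 t (y i - t • c i) then
            a i * w ^ 2 else 0) ≤ Δ * (s 0 * s 1 * R ^ 2)) →
      ∀ F : E2 → ℝ → ℝ≥0∞, (∀ x t, ‖x‖ ≤ R → |t| ≤ R →
        F x t ≤ ∑ i, (if ‖x - y i + t • c i‖ ≤ w then ENNReal.ofReal (a i) else 0)) →
      ∫⁻ t in Set.Icc (-R) R, ∫⁻ x in {x : E2 | ‖x‖ ≤ R}, F x t ^ (3/2 : ℝ) ≤
        ENNReal.ofReal (C * (w / R) ^ (-ε) * Real.sqrt Δ * (R * ∑ i, a i * w ^ 2)) := by
  obtain ⟨C, hC, h⟩ := hKM ε hε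
  refine ⟨C, hC, ?_⟩
  intro w R hw hwR ι _ y c a ha hy hc Δ hΔ hpl F hF
  have hR : 0 < R := hw.trans_le hwR
  have hδ : 0 < w / R := by positivity
  have hδ1 : w / R ≤ 1 := by rw [div_le_one hR]; exact hwR
  have key := h (w / R) hδ hδ1 ι (fun i => R⁻¹ • y i) (fun i => - c i) a ha
    (fun i => by
      rw [norm_smul, norm_inv, Real.norm_eq_abs, abs_of_pos hR, inv_mul_le_iff₀ hR, mul_comm]
      exact hy i)
    (fun i => by rw [norm_neg]; exact hc i) Δ hΔ
    (fun b s p0 v0 hs => by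
      have h1 := hpl b s (R • p0) (-v0) hs
      have h2 : ∀ i, (if InPl b s p0 v0 (R⁻¹ • y i) (-c i) then a i * (w / R) ^ 2 else 0) =
          (R ^ 2)⁻¹ * (if ∀ t : ℝ, |t| ≤ R →
            sl (-v0) b (fun i => s i * R) (R • p0) t (y i - t • c i) then a i * w ^ 2 else 0) := by
        intro i
        simp only [inPl_iff hR]
        split_ifs
        · field_simp
        · simp
      simp only [h2]
      rw [← Finset.mul_sum, inv_mul_le_iff₀ (by positivity)]
      calc _ ≤ Δ * (s 0 * s 1 * R ^ 2) := h1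
        _ = R ^ 2 * (Δ * (s 0 * s 1)) := by ring)
  calc ∫⁻ t in Set.Icc (-R) R, ∫⁻ x in {x : E2 | ‖x‖ ≤ R}, F x t ^ (3/2 : ℝ)
      ≤ ∫⁻ t in Set.Icc (-R) R, ∫⁻ x : E2,
          (∑ i, (if ‖x - y i + t • c i‖ ≤ w then ENNReal.ofReal (a i) else 0)) ^ (3/2 : ℝ) := by
        apply setLIntegral_mono' measurableSet_Icc
        intro t ht
        have hm : MeasurableSet {x : E2 | ‖x‖ ≤ R} :=
          (isClosed_le continuous_norm continuous_const).measurableSet
        refine (setLIntegral_mono' hm fun x hx => ?_).trans (setLIntegral_le_lintegral _ _)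
        gcongr
        exact hF x t hx (abs_le.mpr ht)
    _ = ENNReal.ofReal R * ∫⁻ z in Set.Icc (-1 : ℝ) 1, ENNReal.ofReal (R ^ 2) * ∫⁻ x : E2,
          (∑ i, (if ‖x - R⁻¹ • y i - z • (-c i)‖ ≤ w / R then ENNReal.ofReal (a i) else 0)) ^
            (3/2 : ℝ) := by
        rw [lintegral_Icc_mul hR]
        congr 1
        apply lintegral_congr
        intro z
        rw [lintegral_smul_E2 hR]
        congr 1
        apply lintegral_congr
        intro x
        congr 1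
        apply Finset.sum_congr rfl
        intro i _
        have e : ‖R • x - y i + (R * z) • c i‖ ≤ w ↔ ‖x - R⁻¹ • y i - z • (-c i)‖ ≤ w / R := by
          have e1 : R • x - y i + (R * z) • c i = R • (x - R⁻¹ • y i - z • (-c i)) := by
            rw [smul_sub, smul_sub, smul_smul, mul_inv_cancel₀ hR.ne', one_smul, smul_smul,
              smul_neg, sub_neg_eq_add]
          rw [e1, norm_smul, Real.norm_eq_abs, abs_of_pos hR, le_div_iff₀ hR, mul_comm]
        simp only [e]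
    _ ≤ ENNReal.ofReal R * (ENNReal.ofReal (R ^ 2) *
          ENNReal.ofReal (C * (w / R) ^ (-ε) * Real.sqrt Δ * ∑ i, a i * (w / R) ^ 2)) := by
        rw [lintegral_const_mul' _ _ ENNReal.ofReal_ne_top]
        gcongr
    _ = _ := by
        rw [← ENNReal.ofReal_mul (by positivity), ← ENNReal.ofReal_mul hR.le]
        congr 1
        have : ∑ i, a i * (w / R) ^ 2 = (R ^ 2)⁻¹ * ∑ i, a i * w ^ 2 := by
          rw [Finset.mul_sum]
          apply Finset.sum_congr rfl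
          intro i _
          field_simp
        rw [this]
        field_simp

end Crest.Agent.R138.Tub70
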