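import Crest.Agent.R138.L15Def_196
import Crest.Agent.R138.MkRef_627
import Crest.Agent.R138.MkZoom_779

/-!
# R138, TEXT I, leaf L15 [OWN] (helper779): own counts, rotation, twist in normalised form

`own_of : OwnT ...` (literal target of `L15Def_196`).
-/

set_option autoImplicit false
set_option linter.unusedVariables false

open Finset Filter Topology

namespace Crest.Agent.R138.Own779

open Crest.Agent.R138.Ex926 (Base U flab olab Bx6 LEG)
open Crest.Agent.R138.Flg101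
open Crest.Agent.R138.Mk163 (zc zl rho alive amp Mk prec fr Negl RotF Nat5)
open Crest.Agent.R138.Flag51 (Ln E2 cr dt InPlank)
open Crest.Agent.R138.L15
open Crest.Agent.R138.MkRef627 (lc fib_bounds)
open Crest.Agent.R138.MkZoom779 (dpow_pos dpow_le zc_nested)
open Crest.Agent.R138.Nx638 (toInc sl Ch)

variable {B : Base} {I : ℕ → Finset (ℕ × ℝ)} {L : ℕ → ℕ → Ln} {lev : ℕ → ℚ → ℕ}
    {r0 A : ℕ → ℝ} {q g : ℝ} {Λ τ : ℝ → ℝ} {f : ℕ → ℚ → ℕ → ℤ → ℕ} {b : ℕ → ℚ → ℕ → Ln}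
    {e : ℕ → ℚ → ℕ → E2} {w1 w2 : ℕ → ℚ → ℝ} {fl : ℕ → ℕ × ℝ → E2} {sc : ℕ → ℝ} {k s θ : ℝ}
    {c : Bool}

theorem floor_eq (n i : ℕ) (y : ℕ × ℝ) :
    ⌊(2 : ℝ) ^ i * (xx L lev w1 w2 fl c n y).z⌋ = zc (lev n 0 + i) y.2 := by
  unfold xx toInc zc
  simp only
  congr 1
  rw [pow_add]
  ring

theorem lz_eq (n i : ℕ) (y : ℕ × ℝ) :
    lz (xx L lev w1 w2 fl c) (fun _ y => y.1) n i y = (y.1, zc (lev n 0 + i) y.2) := by
  unfold lz
  rw [floor_eq]

/-- the dyadic cell of real level `v` is finer than the cell of rational level `u < v`. -/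
theorem lev_le (H : Mk B I L lev r0 A q g Λ τ f b e w1 w2) {u : ℚ} {v : ℝ} (h0 : 0 ≤ u)
    (h1 : u ≤ 1) (h : (u : ℝ) < v ∨ u = 0) :
    ∀ᶠ n in (U : Filter ℕ), lev n u ≤ lev n 0 + B.levc n v := by
  rcases h with h | rfl
  · have h2 := H.lev_lim 0 u le_rfl h0 h1
    rw [Rat.cast_zero, sub_zero] at h2
    filter_upwards [h2.eventually_lt_const h] with n hn
    have hl2 : 0 < Real.log 2 := Real.log_pos (by norm_num)
    have hL := B.L_pos n
    have h3 : v * B.L n / Real.log 2 ≤ ((B.levc n v : ℕ) : ℝ) := Nat.le_ceil _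
    rw [div_le_iff₀ hl2] at h3
    rw [div_lt_iff₀ hL] at hn
    have h4 : (lev n u : ℝ) - lev n 0 ≤ B.levc n v := by
      have : ((lev n u : ℝ) - lev n 0) * Real.log 2 ≤ B.levc n v * Real.log 2 := by linarith
      exact le_of_mul_le_mul_right this hl2
    have h5 : (lev n u : ℝ) ≤ ((lev n 0 + B.levc n v : ℕ) : ℝ) := by push_cast; linarith
    exact_mod_cast h5
  · exact Eventually.of_forall fun n => Nat.le_add_right _ _

/-- ... and coarser than the cell of rational level `u > v`. -/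
theorem le_lev (H : Mk B I L lev r0 A q g Λ τ f b e w1 w2) {u : ℚ} {v : ℝ} (hv : 0 ≤ v)
    (h1 : u ≤ 1) (h : v < (u : ℝ)) :
    ∀ᶠ n in (U : Filter ℕ), lev n 0 + B.levc n v ≤ lev n u := by
  have h0 : 0 ≤ u := by
    have : (0 : ℝ) ≤ u := hv.trans h.le
    exact_mod_cast this
  have h2 := H.lev_lim 0 u le_rfl h0 h1
  rw [Rat.cast_zero, sub_zero] at h2
  have hl2 : 0 < Real.log 2 := Real.log_pos (by norm_num)
  have hm : (v + u) / 2 < (u : ℝ) := by linarith
  filter_upwards [h2.eventually_const_lt hm, B.ev_L_ge (2 * Real.log 2 / ((u : ℝ) - v))] with n hn hn2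
  have hL := B.L_pos n
  have h3 : ((B.levc n v : ℕ) : ℝ) < v * B.L n / Real.log 2 + 1 :=
    Nat.ceil_lt_add_one (by positivity)
  rw [lt_div_iff₀ hL] at hn
  rw [div_le_iff₀ (by linarith)] at hn2
  have h4 : (B.levc n v : ℝ) * Real.log 2 < v * B.L n + Real.log 2 := by
    have := mul_lt_mul_of_pos_right h3 hl2
    rwa [add_mul, div_mul_cancel₀ _ hl2.ne', one_mul] at this
  have h5 : (B.levc n v : ℝ) * Real.log 2 ≤ ((lev n u : ℝ) - lev n 0) * Real.log 2 := by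
    nlinarith
  have h6 := le_of_mul_le_mul_right h5 hl2
  have h7 : ((lev n 0 + B.levc n v : ℕ) : ℝ) ≤ (lev n u : ℝ) := by push_cast; linarith
  exact_mod_cast h7

theorem exists_rat {v δ : ℝ} (h0 : 0 ≤ v) (h1 : v ≤ 1) (hδ : 0 < δ) :
    ∃ u : ℚ, 0 ≤ u ∧ u ≤ 1 ∧ (u : ℝ) ≤ v ∧ v - u ≤ δ ∧ ((u : ℝ) < v ∨ u = 0) := by
  rcases h0.eq_or_lt with rfl | h0
  · exact ⟨0, le_rfl, zero_le_one, by simp, by simp [hδ.le], Or.inr rfl⟩
  · obtain ⟨u, hu1, hu2⟩ := exists_rat_btwn (show max 0 (v - δ) < v from max_lt h0 (by linarith))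
    have h2 : (0 : ℝ) < u := (le_max_left _ _).trans_lt hu1
    have h3 : v - δ < u := (le_max_right _ _).trans_lt hu1
    refine ⟨u, by exact_mod_cast h2.le, by exact_mod_cast (hu2.le.trans h1), hu2.le, by linarith,
      Or.inl hu2⟩

theorem s_bounds (H : Mk B I L lev r0 A q g (fun v => s * v) τ f b e w1 w2) : 0 ≤ s ∧ s ≤ 1 := by
  have := H.lam 0 1 le_rfl zero_le_one le_rfl
  simp only [mul_one, mul_zero, sub_zero] at this
  exact this

/-- fibres over (line, cell) of a real level. -/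
theorem sub_fib {n i j : ℕ} (h : j ≤ lev n 0 + i) (x : ℕ × ℝ) (P : ℕ × ℝ → Prop)
    [DecidablePred P] [DecidablePred fun y => lz (xx L lev w1 w2 fl c) (fun _ y => y.1) n i y =
      lz (xx L lev w1 w2 fl c) (fun _ y => y.1) n i x ∧ P y] :
    ((I n).filter fun y => lz (xx L lev w1 w2 fl c) (fun _ y => y.1) n i y =
      lz (xx L lev w1 w2 fl c) (fun _ y => y.1) n i x ∧ P y) ⊆
      (I n).filter fun y => lc j y = lc j x := by
  intro y hy
  rw [mem_filter] at hy ⊢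
  obtain ⟨h1, h2, -⟩ := hy
  rw [lz_eq, lz_eq, Prod.mk.injEq] at h2
  refine ⟨h1, ?_⟩
  unfold lc
  rw [h2.1, zc_nested h h2.2]

open Classical in
theorem up_aux (H : Mk B I L lev r0 A q g (fun v => s * v) τ f b e w1 w2) {v : ℝ} (h0 : 0 ≤ v)
    (h1 : v ≤ 1) {ε : ℝ} (hε : 0 < ε) : ∀ᶠ n in (U : Filter ℕ), ∀ x ∈ I n,
    (((I n).filter fun y => lz (xx L lev w1 w2 fl c) (fun _ y => y.1) n (B.levc n v) y =
      lz (xx L lev w1 w2 fl c) (fun _ y => y.1) n (B.levc n v) x).card : ℝ) ≤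
      B.d n ^ (-((1 - s) * (1 - v) + ε)) := by
  obtain ⟨hs0, hs1⟩ := s_bounds H
  obtain ⟨u, hu0, hu1, huv, hvu, hor⟩ := exists_rat h0 h1 (half_pos hε)
  filter_upwards [lev_le H hu0 hu1 hor, fib_bounds H u hu0 hu1 (half_pos hε)] with n a1 a2 x hx
  have h2 := sub_fib (I := I) (L := L) (w1 := w1) (w2 := w2) (fl := fl) (c := c) a1 x
    (fun _ => True)
  simp only [and_true] at h2
  have h3 : (((I n).filter fun y => lz (xx L lev w1 w2 fl c) (fun _ y => y.1) n (B.levc n v) y =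
      lz (xx L lev w1 w2 fl c) (fun _ y => y.1) n (B.levc n v) x).card : ℝ) ≤
      (((I n).filter fun y => lc (lev n u) y = lc (lev n u) x).card : ℝ) := by
    exact_mod_cast Finset.card_le_card h2
  refine h3.trans ((a2 x hx).2.trans (dpow_le B n ?_))
  nlinarith

/-- the slope of `xx` is controlled by the flags. -/
theorem slope_le (hN : NatJ B I L lev r0 A q g f b e w1 w2 fl sc k s θ c) {n : ℕ}
    (hsg : 0 < sg w1 w2 n) {x y : ℕ × ℝ} (hx : x ∈ I n) (hy : y ∈ I n) :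
    |(xx L lev w1 w2 fl c n x).θ - (xx L lev w1 w2 fl c n y).θ| ≤
      2 * |cr (fl n x) (fl n y)| / sg w1 w2 n := by
  have h1 := Nx638.Ch.sl_dist (hN.slope n x hx) (hN.slope n y hy) (hN.nat.unit n x hx)
    (hN.nat.unit n y hy)
  unfold xx toInc
  simp only
  rw [← sub_div, abs_div, abs_of_pos hsg]
  gcongr

theorem cr_le_slope (hN : NatJ B I L lev r0 A q g f b e w1 w2 fl sc k s θ c) {n : ℕ}
    (hsg : 0 < sg w1 w2 n) {x y : ℕ × ℝ} (hx : x ∈ I n) (hy : y ∈ I n) :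
    |cr (fl n x) (fl n y)| ≤ sg w1 w2 n *
      |(xx L lev w1 w2 fl c n x).θ - (xx L lev w1 w2 fl c n y).θ| := by
  have h1 := Nx638.cr_le_sl ((hN.slope n x hx).ne (hN.nat.unit n x hx))
    ((hN.slope n y hy).ne (hN.nat.unit n y hy)) (hN.nat.unit n x hx) (hN.nat.unit n y hy)
  refine h1.trans (le_of_eq ?_)
  unfold xx toInc
  simp only
  rw [← sub_div, abs_div, abs_of_pos hsg]
  field_simp

theorem ev_sg (hN : NatJ B I L lev r0 A q g f b e w1 w2 fl sc k s θ c) {ε : ℝ} (hε : 0 < ε) :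
    ∀ᶠ n in (U : Filter ℕ), 0 < sg w1 w2 n ∧ sc n ≤ sg w1 w2 n * B.d n ^ (-ε) ∧
      sg w1 w2 n ≤ sc n * B.d n ^ (-ε) := by
  have h1 := hN.nat.pr 0 le_rfl zero_le_one
  rw [Rat.cast_zero, mul_zero] at h1
  have h2 := (Metric.tendsto_nhds.1 h1) ε hε
  filter_upwards [h2, hN.nat.base.dims 0 le_rfl zero_le_one] with n a1 a2
  have hr := hN.nat.base.rpos n
  have hw1 : 0 < w1 n 0 := hr.trans_le a2.1
  have hw2 : 0 < w2 n 0 := hw1.trans_le a2.2.1
  have hp : 0 < prec w1 w2 n 0 := div_pos hw1 hw2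
  have hsc := hN.nat.rot.scpos n
  rw [Real.dist_eq, sub_zero, abs_div, abs_of_pos (B.L_pos n), div_lt_iff₀ (B.L_pos n)] at a1
  obtain ⟨b1, b2⟩ := abs_lt.1 a1
  have e1 : Real.exp (ε * B.L n) = B.d n ^ (-ε) := by
    rw [Real.rpow_def_of_pos (B.pos n)]
    unfold Base.L
    congr 1
    ring
  have e2 : sc n / prec w1 w2 n 0 = Real.exp (Real.log (sc n / prec w1 w2 n 0)) :=
    (Real.exp_log (div_pos hsc hp)).symm
  refine ⟨hp, ?_, ?_⟩
  · have h3 : sc n / prec w1 w2 n 0 ≤ B.d n ^ (-ε) := by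
      rw [e2, ← e1]
      exact Real.exp_le_exp.2 b2.le
    rw [div_le_iff₀ hp] at h3
    unfold sg
    linarith
  · have h3 : prec w1 w2 n 0 / sc n ≤ B.d n ^ (-ε) := by
      have e3 : prec w1 w2 n 0 / sc n = Real.exp (-Real.log (sc n / prec w1 w2 n 0)) := by
        rw [Real.exp_neg, Real.exp_log (div_pos hsc hp), inv_div]
      rw [e3, ← e1]
      exact Real.exp_le_exp.2 (by linarith)
    rw [div_le_iff₀ hsc] at h3
    unfold sg
    linarith

theorem ev_const (B : Base) (C : ℝ) {ε : ℝ} (hε : 0 < ε) :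
    ∀ᶠ n in (U : Filter ℕ), C ≤ B.d n ^ (-ε) := by
  filter_upwards [B.ev_L_ge (Real.log (max C 1) / ε)] with n hn
  have h1 : (0 : ℝ) < max C 1 := lt_of_lt_of_le one_pos (le_max_right _ _)
  rw [div_le_iff₀ hε] at hn
  have e1 : Real.exp (ε * B.L n) = B.d n ^ (-ε) := by
    rw [Real.rpow_def_of_pos (B.pos n)]
    unfold Base.L
    congr 1
    ring
  rw [← e1]
  calc C ≤ max C 1 := le_max_left _ _
    _ = Real.exp (Real.log (max C 1)) := (Real.exp_log h1).symm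
    _ ≤ _ := Real.exp_le_exp.2 (by linarith)

theorem rot_aux (hN : NatJ B I L lev r0 A q g f b e w1 w2 fl sc k s θ c) {v : ℝ} (h0 : 0 ≤ v)
    (h1 : v ≤ 1) {ε : ℝ} (hε : 0 < ε) : ∀ᶠ n in (U : Filter ℕ), ∀ x ∈ I n, ∀ y ∈ I n,
    lz (xx L lev w1 w2 fl c) (fun _ y => y.1) n (B.levc n v) y =
      lz (xx L lev w1 w2 fl c) (fun _ y => y.1) n (B.levc n v) x →
      |(xx L lev w1 w2 fl c n x).θ - (xx L lev w1 w2 fl c n y).θ| ≤ B.d n ^ (k * v - ε) := by
  have hk := hN.nat.k0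
  obtain ⟨u, hu0, hu1, huv, hvu, hor⟩ := exists_rat h0 h1 (show 0 < ε / (4 * k) by positivity)
  have hkv : k * (v - u) ≤ ε / 4 := by
    have := mul_le_mul_of_nonneg_left hvu hk.le
    have e1 : k * (ε / (4 * k)) = ε / 4 := by field_simp
    linarith
  filter_upwards [lev_le hN.nat.base hu0 hu1 hor, hN.nat.rot.rot u hu0 hu1 (ε / 4) (by positivity),
    ev_sg hN (show 0 < ε / 4 by positivity), ev_const B 2 (show 0 < ε / 4 by positivity)]
    with n a1 a2 a3 a4 x hx y hy hxy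
  obtain ⟨hsg, hs1, -⟩ := a3
  rw [lz_eq, lz_eq, Prod.mk.injEq] at hxy
  have h2 := a2 x hx y hy hxy.1 (zc_nested a1 hxy.2)
  refine (slope_le hN hsg hx hy).trans ?_
  rw [div_le_iff₀ hsg]
  have hd := dpow_pos B n (k * u - ε / 4)
  calc 2 * |cr (fl n x) (fl n y)| ≤ B.d n ^ (-(ε / 4)) * (sc n * B.d n ^ (k * u - ε / 4)) := by
        have := abs_nonneg (cr (fl n x) (fl n y))
        have := dpow_pos B n (-(ε / 4))
        gcongr
    _ ≤ B.d n ^ (-(ε / 4)) * ((sg w1 w2 n * B.d n ^ (-(ε / 4))) * B.d n ^ (k * u - ε / 4)) := by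
        have := dpow_pos B n (-(ε / 4))
        gcongr
    _ = B.d n ^ (-(ε / 4) + -(ε / 4) + (k * u - ε / 4)) * sg w1 w2 n := by
        rw [Real.rpow_add (B.pos n), Real.rpow_add (B.pos n)]
        ring
    _ ≤ B.d n ^ (k * v - ε) * sg w1 w2 n := by
        refine mul_le_mul_of_nonneg_right (dpow_le B n ?_) hsg.le
        linarith

theorem card_le_mul_image {α β : Type*} [DecidableEq β] (S : Finset α) (φ : α → β) {m : ℝ}
    (h : ∀ y0 ∈ S, ((S.filter fun y => φ y = φ y0).card : ℝ) ≤ m) :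
    (S.card : ℝ) ≤ m * ((S.image φ).card : ℝ) := by
  classical
  have e1 : (S.card : ℝ) = ∑ a ∈ S.image φ, ((S.filter fun y => φ y = a).card : ℝ) := by
    rw [Finset.card_eq_sum_card_image φ S]
    push_cast
    rfl
  rw [e1]
  calc ∑ a ∈ S.image φ, ((S.filter fun y => φ y = a).card : ℝ) ≤ ∑ _a ∈ S.image φ, m := by
        refine Finset.sum_le_sum fun a ha => ?_
        obtain ⟨y0, hy0, rfl⟩ := Finset.mem_image.1 ha
        exact h y0 hy0
    _ = _ := by rw [Finset.sum_const, nsmul_eq_mul]; ring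

open Classical in
theorem tw_aux (hN : NatJ B I L lev r0 A q g f b e w1 w2 fl sc k s θ c) {v r : ℝ} (h0 : 0 ≤ v)
    (h1 : v < 1) (hr : k * v < r) : ∃ γ : ℝ, 0 < γ ∧ ∀ᶠ n in (U : Filter ℕ), ∀ x ∈ I n,
    (((I n).filter fun y => lz (xx L lev w1 w2 fl c) (fun _ y => y.1) n (B.levc n v) y =
      lz (xx L lev w1 w2 fl c) (fun _ y => y.1) n (B.levc n v) x ∧
      |(xx L lev w1 w2 fl c n x).θ - (xx L lev w1 w2 fl c n y).θ| ≤ B.d n ^ r).card : ℝ) ≤
      B.d n ^ (γ - (1 - s) * (1 - v)) := by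
  have hk := hN.nat.k0
  obtain ⟨hs0, hs1⟩ := s_bounds hN.nat.base
  set r1 : ℝ := min r (k + 1) with hr1
  have hr1' : k * v < r1 := lt_min hr (by nlinarith)
  have hr1r : r1 ≤ r := min_le_left _ _
  have hr1k : r1 ≤ k + 1 := min_le_right _ _
  obtain ⟨u, hu1, hu2⟩ := exists_rat_btwn (show v < min 1 (r1 / k) from
    lt_min h1 (by rw [lt_div_iff₀ hk]; linarith))
  have hu3 : (u : ℝ) < 1 := hu2.trans_le (min_le_left _ _)
  have hu4 : k * u < r1 := by
    have := hu2.trans_le (min_le_right _ _)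
    rw [lt_div_iff₀ hk] at this
    linarith
  have hu0 : (0 : ℚ) ≤ u := by
    have : (0 : ℝ) ≤ u := h0.trans hu1.le
    exact_mod_cast this
  have hu1' : u < (1 : ℚ) := by exact_mod_cast hu3
  set r' : ℝ := (k * u + r1) / 2 with hr'
  obtain ⟨γ, hγ, hγ2⟩ := hN.nat.rot.tw u hu0 hu1' r' (by linarith) (by linarith)
  obtain ⟨v', hv0, hv1, hvv, hvd, hor⟩ := exists_rat h0 h1.le (show 0 < γ / 8 by positivity)
  have hv'u : v' ≤ u := by
    have : (v' : ℝ) ≤ u := hvv.trans hu1.le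
    exact_mod_cast this
  refine ⟨γ / 2, by positivity, ?_⟩
  set η : ℝ := (r1 - r') / 2 with hη
  have hη0 : 0 < η := by rw [hη, hr']; linarith
  have h1q : ((1 : ℚ) : ℝ) = 1 := Rat.cast_one
  filter_upwards [hγ2, lev_le hN.nat.base hv0 hv1 hor, le_lev hN.nat.base h0 hu1'.le hu1,
    hN.nat.base.own v' u hv0 hv'u hu1'.le (γ / 8) (by positivity),
    hN.nat.base.own u 1 hu0 hu1'.le le_rfl (γ / 8) (by positivity), ev_sg hN hη0,
    ev_const B 2 hη0] with n a1 a2 a3 a4 a5 a6 a7 x hx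
  obtain ⟨hsg, -, hs2⟩ := a6
  set S := (I n).filter fun y => lz (xx L lev w1 w2 fl c) (fun _ y => y.1) n (B.levc n v) y =
      lz (xx L lev w1 w2 fl c) (fun _ y => y.1) n (B.levc n v) x ∧
      |(xx L lev w1 w2 fl c n x).θ - (xx L lev w1 w2 fl c n y).θ| ≤ B.d n ^ r with hS
  have hSm : ∀ y ∈ S, y ∈ I n ∧ y.1 = x.1 ∧
      zc (lev n 0 + B.levc n v) y.2 = zc (lev n 0 + B.levc n v) x.2 ∧
      |(xx L lev w1 w2 fl c n x).θ - (xx L lev w1 w2 fl c n y).θ| ≤ B.d n ^ r := by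
    intro y hy
    rw [hS, mem_filter, lz_eq, lz_eq, Prod.mk.injEq] at hy
    exact ⟨hy.1, hy.2.1.1, hy.2.1.2, hy.2.2⟩
  -- the image
  have him : ((S.image fun y => zc (lev n u) y.2).card : ℝ) ≤
      B.d n ^ (-((u : ℝ) - v') + (s * u - s * v') - γ / 8) := by
    refine le_trans ?_ (a4 x hx).2
    have : (S.image fun y => zc (lev n u) y.2) ⊆ Mk163.own (I n) (lev n v') (lev n u) x := by
      intro a ha
      obtain ⟨y, hy, rfl⟩ := mem_image.1 ha
      obtain ⟨b1, b2, b3, -⟩ := hSm y hy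
      rw [MkZoom779.mem_own]
      exact ⟨y, b1, b2, zc_nested a2 b3, rfl⟩
    exact_mod_cast Finset.card_le_card this
  -- the fibres
  have hfib : ∀ y0 ∈ S, ((S.filter fun y => zc (lev n u) y.2 = zc (lev n u) y0.2).card : ℝ) ≤
      B.d n ^ γ * B.d n ^ (-((1 : ℝ) - u) + (s * 1 - s * u) - γ / 8) := by
    intro y0 hy0
    obtain ⟨b1, b2, b3, b4⟩ := hSm y0 hy0
    have h2 := a1 y0 b1
    have h3 := (a5 y0 b1).2
    rw [h1q] at h3
    have hdg := dpow_pos B n γ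
    refine le_trans ?_ (h2.trans (mul_le_mul_of_nonneg_left h3 hdg.le))
    have hsub : (S.filter fun y => zc (lev n u) y.2 = zc (lev n u) y0.2) ⊆
        (I n).filter fun y => y.1 = y0.1 ∧ zc (lev n u) y.2 = zc (lev n u) y0.2 ∧
          |cr (fl n y0) (fl n y)| ≤ sc n * B.d n ^ r' := by
      intro y hy
      obtain ⟨hyS, hyc⟩ := mem_filter.1 hy
      obtain ⟨c1, c2, c3, c4⟩ := hSm y hyS
      refine mem_filter.2 ⟨c1, c2.trans b2.symm, hyc, ?_⟩
      refine (cr_le_slope hN hsg b1 c1).trans ?_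
      have h5 : |(xx L lev w1 w2 fl c n y0).θ - (xx L lev w1 w2 fl c n y).θ| ≤
          2 * B.d n ^ r1 := by
        have h6 := abs_sub_le (xx L lev w1 w2 fl c n y0).θ (xx L lev w1 w2 fl c n x).θ
          (xx L lev w1 w2 fl c n y).θ
        have h6' : |(xx L lev w1 w2 fl c n y0).θ - (xx L lev w1 w2 fl c n x).θ| ≤ B.d n ^ r := by
          rw [abs_sub_comm]
          exact b4
        have h7 := dpow_le B n hr1r
        linarith
      calc sg w1 w2 n * |(xx L lev w1 w2 fl c n y0).θ - (xx L lev w1 w2 fl c n y).θ|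
          ≤ (sc n * B.d n ^ (-η)) * (B.d n ^ (-η) * B.d n ^ r1) := by
            have hscp := hN.nat.rot.scpos n
            have hd1 := dpow_pos B n r1
            have hd2 := dpow_pos B n (-η)
            have h8 : 2 * B.d n ^ r1 ≤ B.d n ^ (-η) * B.d n ^ r1 :=
              mul_le_mul_of_nonneg_right a7 hd1.le
            exact mul_le_mul hs2 (h5.trans h8) (abs_nonneg _) (by positivity)
        _ = sc n * B.d n ^ (-η + -η + r1) := by
            rw [Real.rpow_add (B.pos n), Real.rpow_add (B.pos n)]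
            ring
        _ = sc n * B.d n ^ r' := by
            congr 2
            rw [hη]
            ring
    exact_mod_cast Finset.card_le_card hsub
  refine (card_le_mul_image S _ hfib).trans ?_
  have hd := dpow_pos B n (-((1 : ℝ) - u) + (s * 1 - s * u) - γ / 8)
  have hdg := dpow_pos B n γ
  refine (mul_le_mul_of_nonneg_left him (by positivity)).trans ?_
  rw [← Real.rpow_add (B.pos n), ← Real.rpow_add (B.pos n)]
  refine dpow_le B n ?_
  nlinarith

theorem card_int_le {T : Finset ℤ} {x K : ℝ} (hK : 0 ≤ K) (hT : ∀ m ∈ T, |(m : ℝ) - x| ≤ K) :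
    (T.card : ℝ) ≤ 2 * K + 1 := by
  have h1 : T ⊆ Finset.Icc ⌈x - K⌉ ⌊x + K⌋ := by
    intro m hm
    have := abs_le.1 (hT m hm)
    rw [Finset.mem_Icc, Int.ceil_le, Int.le_floor]
    constructor <;> linarith
  have h2 := Finset.card_le_card h1
  rw [Int.card_Icc] at h2
  have h3 : ((⌊x + K⌋ + 1 - ⌈x - K⌉).toNat : ℝ) ≤ 2 * K + 1 := by
    rcases le_or_gt 0 (⌊x + K⌋ + 1 - ⌈x - K⌉) with h | h
    · have e : (((⌊x + K⌋ + 1 - ⌈x - K⌉).toNat : ℤ) : ℝ) = ((⌊x + K⌋ + 1 - ⌈x - K⌉ : ℤ) : ℝ) := by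
        rw [Int.toNat_of_nonneg h]
      rw [Int.cast_natCast] at e
      rw [e]
      push_cast
      have h4 := Int.floor_le (x + K)
      have h5 := Int.le_ceil (x - K)
      linarith
    · rw [Int.toNat_of_nonpos h.le]
      simp
      linarith
  calc (T.card : ℝ) ≤ ((⌊x + K⌋ + 1 - ⌈x - K⌉).toNat : ℝ) := by exact_mod_cast h2
    _ ≤ _ := h3

theorem card_image_le_of_factor {α β γ : Type*} [DecidableEq β] [DecidableEq γ] (F : Finset α)
    (φ : α → β) (ψ : α → γ) (h : ∀ y ∈ F, ∀ y' ∈ F, φ y = φ y' → ψ y = ψ y') :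
    (F.image ψ).card ≤ (F.image φ).card := by
  classical
  have hsurj : (F : Set α).SurjOn φ (F.image φ : Finset β) := by
    intro p hp
    obtain ⟨x, hx, rfl⟩ := Finset.mem_image.1 (Finset.mem_coe.1 hp)
    exact ⟨x, Finset.mem_coe.2 hx, rfl⟩
  obtain ⟨u, huF, hinj, himg⟩ := Finset.exists_subset_injOn_image_eq_of_surjOn _ _ hsurj
  have h1 : F.image ψ ⊆ u.image ψ := by
    intro a ha
    obtain ⟨y, hy, rfl⟩ := Finset.mem_image.1 ha
    have : φ y ∈ u.image φ := by rw [himg]; exact Finset.mem_image_of_mem _ hy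
    obtain ⟨y', hy', he⟩ := Finset.mem_image.1 this
    refine Finset.mem_image.2 ⟨y', hy', ?_⟩
    exact h y' (by exact_mod_cast huF (Finset.mem_coe.2 hy')) y hy he
  calc (F.image ψ).card ≤ (u.image ψ).card := Finset.card_le_card h1
    _ ≤ u.card := Finset.card_image_le
    _ = (u.image φ).card := (Finset.card_image_of_injOn hinj).symm
    _ = _ := by rw [himg]

open Classical in
theorem mult_aux (hN : NatJ B I L lev r0 A q g f b e w1 w2 fl sc k s θ c) {ε : ℝ} (hε : 0 < ε) :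
    ∀ᶠ n in (U : Filter ℕ), ∀ x ∈ I n,
    ((((I n).filter fun y => y.1 = x.1).image (flab B (xx L lev w1 w2 fl c) n 0)).card : ℝ) ≤
      B.d n ^ (-ε) := by
  filter_upwards [rot_aux hN le_rfl zero_le_one (show 0 < ε / 2 by positivity),
    hN.nat.base.cell0, ev_const B 5 (show 0 < ε / 2 by positivity)] with n a1 a2 a3 x hx
  have hl0 : B.levc n 0 = 0 := by
    unfold Base.levc
    simp
  rw [hl0] at a1
  set F := (I n).filter fun y => y.1 = x.1 with hF
  have hFm : ∀ y ∈ F, y ∈ I n ∧ y.1 = x.1 ∧ zc (lev n 0) y.2 = zc (lev n 0) x.2 := by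
    intro y hy
    obtain ⟨h1, h2⟩ := mem_filter.1 hy
    exact ⟨h1, h2, a2 y h1 x hx⟩
  have h1 : (F.image (flab B (xx L lev w1 w2 fl c) n 0)).card ≤
      (F.image fun y => ⌊(2 : ℝ) ^ 0 * (xx L lev w1 w2 fl c n y).θ⌋).card := by
    refine card_image_le_of_factor F _ _ fun y hy y' hy' h => ?_
    obtain ⟨-, b2, b3⟩ := hFm y hy
    obtain ⟨-, c2, c3⟩ := hFm y' hy'
    have hl : L n y.1 = L n y'.1 := by rw [b2, c2]
    have hz : ⌊(2 : ℝ) ^ 0 * (xx L lev w1 w2 fl c n y).z⌋ =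
        ⌊(2 : ℝ) ^ 0 * (xx L lev w1 w2 fl c n y').z⌋ := by
      rw [floor_eq, floor_eq, add_zero, b3, c3]
    have e4 : B.levc n ((0 : Fin 6 → ℝ) 4) = 0 := hl0
    have e5 : B.levc n ((0 : Fin 6 → ℝ) 5) = 0 := hl0
    unfold flab
    rw [e4, e5]
    have hzQ : (xx L lev w1 w2 fl c n y).zQ 0 = (xx L lev w1 w2 fl c n y').zQ 0 := by
      unfold Inc.zQ Inc.fl
      rw [hz]
    have hfQ : (xx L lev w1 w2 fl c n y).fQ 0 = (xx L lev w1 w2 fl c n y').fQ 0 := by
      unfold Inc.fQ Inc.fl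
      rw [h]
    have hcell : (xx L lev w1 w2 fl c n y).cell 0 0 = (xx L lev w1 w2 fl c n y').cell 0 0 := by
      unfold Inc.cell
      rw [hz, h]
    have hco : (xx L lev w1 w2 fl c n y).co 0 0 = (xx L lev w1 w2 fl c n y').co 0 0 := by
      unfold Inc.co
      rw [hzQ, hfQ]
      unfold xx toInc Inc.N Inc.P Inc.X Inc.Y
      simp only [hl]
    unfold Inc.lab
    rw [hcell, hco]
  have h2 : ((F.image fun y => ⌊(2 : ℝ) ^ 0 * (xx L lev w1 w2 fl c n y).θ⌋).card : ℝ) ≤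
      2 * (B.d n ^ (-(ε / 2)) + 1) + 1 := by
    have hd := dpow_pos B n (-(ε / 2))
    refine card_int_le (x := (xx L lev w1 w2 fl c n x).θ) (by positivity) ?_
    intro m hm
    obtain ⟨y, hy, rfl⟩ := mem_image.1 hm
    obtain ⟨b1, b2, b3⟩ := hFm y hy
    have h3 := a1 x hx y b1 (by rw [lz_eq, lz_eq, add_zero, b2, b3])
    have e0 : k * 0 - ε / 2 = -(ε / 2) := by ring
    rw [e0] at h3
    rw [pow_zero, one_mul]
    have h4 := Int.floor_le (xx L lev w1 w2 fl c n y).θ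
    have h5 := Int.lt_floor_add_one (xx L lev w1 w2 fl c n y).θ
    rw [abs_le] at h3 ⊢
    constructor <;> linarith
  calc ((F.image (flab B (xx L lev w1 w2 fl c) n 0)).card : ℝ) ≤
      ((F.image fun y => ⌊(2 : ℝ) ^ 0 * (xx L lev w1 w2 fl c n y).θ⌋).card : ℝ) := by
        exact_mod_cast h1
    _ ≤ 2 * (B.d n ^ (-(ε / 2)) + 1) + 1 := h2
    _ ≤ B.d n ^ (-(ε / 2)) * B.d n ^ (-(ε / 2)) := by nlinarith
    _ = B.d n ^ (-ε) := by
        rw [← Real.rpow_add (B.pos n)]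
        congr 1
        ring

/-- **[OWN]** the literal target. -/
theorem own_of : OwnT B I L lev r0 A q g f b e w1 w2 fl sc k s θ c := by
  classical
  intro hN
  have H := hN.nat.base
  refine ⟨fun v h0 h1 ε hε => up_aux H h0 h1 hε, ?_, fun v h0 h1 ε hε => rot_aux hN h0 h1 hε,
    fun v r h0 h1 hr => tw_aux hN h0 h1 hr, fun ε hε => mult_aux hN hε⟩
  intro u h0 h1 ε hε
  filter_upwards [fib_bounds H u h0 h1 hε] with n a1 x hx
  refine le_trans (le_of_eq ?_) (a1 x hx).1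
  congr 1
  ring

end Crest.Agent.R138.Own779
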