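import Crest.Agent.R138.L15A_196
import Crest.Agent.R138.Own_779
import Crest.Agent.R138.Comb_628
import Crest.Agent.R138.Cont_627
import Crest.Agent.R138.MkRef_774

/-!
# R138, TEXT I, leaf L15, assembly (helper196): `Nat5 → ExtP`
-/

set_option autoImplicit false
set_option linter.unusedVariables false
set_option linter.unusedSectionVars false

open Finset Filter Topology

namespace Crest.Agent.R138.L15

open Crest.Agent.R138.Ex926
open Crest.Agent.R138.Flg101
open Crest.Agent.R138.Mk163 (zc zl rho alive amp Mk prec fr Negl RotF Nat5)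
open Crest.Agent.R138.Flag51 (Ln E2 cr dt InPlank)
open Crest.Agent.R138.Nx638 (toInc sl Ch)

variable {B : Base} {I : ℕ → Finset (ℕ × ℝ)} {L : ℕ → ℕ → Ln} {lev : ℕ → ℚ → ℕ}
    {r0 A : ℕ → ℝ} {q g : ℝ} {f : ℕ → ℚ → ℕ → ℤ → ℕ} {b : ℕ → ℚ → ℕ → Ln}
    {e : ℕ → ℚ → ℕ → E2} {w1 w2 : ℕ → ℚ → ℝ} {fl : ℕ → ℕ × ℝ → E2} {sc : ℕ → ℝ} {k s θ : ℝ}
    {c : Bool}

/-- lower bound for the size of the marked classes of level `u` -/
noncomputable def Hr (B : Base) (lev : ℕ → ℚ → ℕ) (A : ℕ → ℝ) (q g s : ℝ) (w1 w2 : ℕ → ℚ → ℝ)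
    (u : ℚ) (n : ℕ) : ℝ :=
  amp B lev A q g (fun v => s * v) n u * w1 n u * w2 n u ^ (1 + q) *
    B.d n ^ (-((1 - s) * (1 - u)))

theorem ev_w (hN : Nat5 B I L lev r0 A q g f b e w1 w2 fl sc k s θ) {u : ℚ} (h0 : 0 ≤ u)
    (h1 : u ≤ 1) : ∀ᶠ n in (U : Filter ℕ), 0 < w1 n u ∧ 0 < w2 n u := by
  filter_upwards [hN.base.dims u h0 h1] with n hn
  have hr := hN.base.rpos n
  exact ⟨hr.trans_le hn.1, (hr.trans_le hn.1).trans_le hn.2.1⟩

theorem rho_pos (i : ℕ) : 0 < rho i := by unfold rho; positivity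

theorem log_rho (i : ℕ) : Real.log (rho i) = -(i * Real.log 2) := by
  unfold rho
  rw [one_div, Real.log_inv, Real.log_pow]

/-- asymptotics of `Hr / N0` -/
theorem tendsto_Hr (hN : Nat5 B I L lev r0 A q g f b e w1 w2 fl sc k s θ) {u : ℚ} (h0 : 0 ≤ u)
    (h1 : u ≤ 1) : Tendsto (B.lg (fun n => Hr B lev A q g s w1 w2 u n / N0 lev A q w1 w2 n)) U
      (𝓝 (bex s (2 * s + g) q u (θ * (1 - u)) (θ * (1 - u) + k * u))) := by
  have H := hN.base
  -- ingredients
  have tR := H.lev_lim 0 u le_rfl h0 h1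
  have tP := (hN.pr u h0 h1).sub (hN.pr 0 le_rfl zero_le_one)
  have tT := H.tau u h0 h1
  have key : Tendsto (fun n => -(2 * (((lev n u : ℝ) - lev n 0) * Real.log 2 / B.L n)) -
      (Real.log (sc n / prec w1 w2 n u) / B.L n - Real.log (sc n / prec w1 w2 n 0) / B.L n) -
      (2 + q) * (Real.log ((rho (lev n u) / w2 n u) / (rho (lev n 1) / w2 n 1)) / B.L n) +
      ((2 * s + g) * u + (1 - s) * (1 - u))) U
      (𝓝 (bex s (2 * s + g) q u (θ * (1 - u)) (θ * (1 - u) + k * u))) := by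
    have h2 := (((tR.const_mul 2).neg.sub tP).sub (tT.const_mul (2 + q))).add_const
      ((2 * s + g) * u + (1 - s) * (1 - u))
    have e1 : -(2 * ((u : ℝ) - ((0 : ℚ) : ℝ))) - (k * u - k * ((0 : ℚ) : ℝ)) -
        (2 + q) * (θ * (1 - (u : ℝ))) + ((2 * s + g) * u + (1 - s) * (1 - u)) =
        bex s (2 * s + g) q u (θ * (1 - u)) (θ * (1 - u) + k * u) := by
      unfold bex
      rw [Rat.cast_zero]
      ring
    rw [← e1]
    exact h2
  refine key.congr' ?_
  filter_upwards [ev_w hN h0 h1, ev_w hN le_rfl zero_le_one, ev_w hN zero_le_one le_rfl]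
    with n ⟨p1, p2⟩ ⟨p3, p4⟩ ⟨p5, p6⟩
  have hL := B.L_pos n
  have hA := H.Apos n
  have r1 := rho_pos (lev n u)
  have r2 := rho_pos (lev n 0)
  have r3 := rho_pos (lev n 1)
  have hsc := hN.rot.scpos n
  have hd := B.pos n
  have hdp : ∀ t : ℝ, 0 < B.d n ^ t := fun t => Real.rpow_pos_of_pos hd t
  have l1 : Real.log (sc n / prec w1 w2 n u) = Real.log (sc n) - (Real.log (w1 n u) -
      Real.log (w2 n u)) := by
    unfold prec
    rw [Real.log_div hsc.ne' (by positivity), Real.log_div p1.ne' p2.ne']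
  have l2 : Real.log (sc n / prec w1 w2 n 0) = Real.log (sc n) - (Real.log (w1 n 0) -
      Real.log (w2 n 0)) := by
    unfold prec
    rw [Real.log_div hsc.ne' (by positivity), Real.log_div p3.ne' p4.ne']
  have l3 : Real.log ((rho (lev n u) / w2 n u) / (rho (lev n 1) / w2 n 1)) =
      (Real.log (rho (lev n u)) - Real.log (w2 n u)) -
      (Real.log (rho (lev n 1)) - Real.log (w2 n 1)) := by
    rw [Real.log_div (by positivity) (by positivity), Real.log_div r1.ne' p2.ne',
      Real.log_div r3.ne' p6.ne']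
  have l4 : Real.log (Hr B lev A q g s w1 w2 u n) = Real.log (A n) +
      (2 * s + g) * u * B.L n - q * Real.log (rho (lev n u)) + Real.log (w1 n u) +
      (1 + q) * Real.log (w2 n u) + (1 - s) * (1 - u) * B.L n := by
    unfold Hr amp
    have a1 := hdp (-(2 * (s * u) + g * u))
    have a2 : 0 < rho (lev n u) ^ (-q) := Real.rpow_pos_of_pos r1 _
    have a3 : 0 < w2 n u ^ (1 + q) := Real.rpow_pos_of_pos p2 _
    rw [Real.log_mul (by positivity) (hdp _).ne', Real.log_mul (by positivity) a3.ne',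
      Real.log_mul (by positivity) p1.ne', Real.log_mul (by positivity) a2.ne',
      Real.log_mul hA.ne' a1.ne', Real.log_rpow hd, Real.log_rpow hd, Real.log_rpow r1,
      Real.log_rpow p2, B.log_d]
    ring
  have l5 : Real.log (N0 lev A q w1 w2 n) = Real.log (A n) +
      (2 + q) * (Real.log (w2 n 1) - Real.log (rho (lev n 1))) +
      (Real.log (w1 n 0) - Real.log (w2 n 0)) + 2 * Real.log (rho (lev n 0)) := by
    unfold N0 WW sg prec
    have a1 : 0 < (w2 n 1 / rho (lev n 1)) ^ (2 + q) := Real.rpow_pos_of_pos (by positivity) _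
    rw [Real.log_mul (by positivity) (by positivity), Real.log_mul (by positivity) (by positivity),
      Real.log_mul hA.ne' a1.ne', Real.log_rpow (by positivity), Real.log_pow,
      Real.log_div p6.ne' r3.ne', Real.log_div p3.ne' p4.ne']
    push_cast
    ring
  have hH : 0 < Hr B lev A q g s w1 w2 u n := by
    unfold Hr amp
    have a1 := hdp (-(2 * (s * u) + g * u))
    have a2 : 0 < rho (lev n u) ^ (-q) := Real.rpow_pos_of_pos r1 _
    have a3 : 0 < w2 n u ^ (1 + q) := Real.rpow_pos_of_pos p2 _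
    have a4 := hdp (-((1 - s) * (1 - (u : ℝ))))
    positivity
  have hN0 : 0 < N0 lev A q w1 w2 n := by
    unfold N0 WW sg prec
    have a1 : 0 < (w2 n 1 / rho (lev n 1)) ^ (2 + q) := Real.rpow_pos_of_pos (by positivity) _
    positivity
  unfold Base.lg
  rw [Real.log_div hH.ne' hN0.ne', l1, l2, l3, l4, l5]
  simp only [log_rho]
  field_simp
  ring

theorem ev_pos_Hr (hN : Nat5 B I L lev r0 A q g f b e w1 w2 fl sc k s θ) {u : ℚ} (h0 : 0 ≤ u)
    (h1 : u ≤ 1) : ∀ᶠ n in (U : Filter ℕ), 0 < Hr B lev A q g s w1 w2 u n := by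
  filter_upwards [ev_w hN h0 h1] with n ⟨p1, p2⟩
  have hA := hN.base.Apos n
  have r1 := rho_pos (lev n u)
  have hdp : ∀ t : ℝ, 0 < B.d n ^ t := fun t => Real.rpow_pos_of_pos (B.pos n) t
  unfold Hr amp
  have a1 := hdp (-(2 * (s * u) + g * u))
  have a2 : 0 < rho (lev n u) ^ (-q) := Real.rpow_pos_of_pos r1 _
  have a3 : 0 < w2 n u ^ (1 + q) := Real.rpow_pos_of_pos p2 _
  have a4 := hdp (-((1 - s) * (1 - (u : ℝ))))
  positivity

theorem ev_pos_N0 (hN : Nat5 B I L lev r0 A q g f b e w1 w2 fl sc k s θ) :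
    ∀ᶠ n in (U : Filter ℕ), 0 < N0 lev A q w1 w2 n := by
  filter_upwards [ev_w hN le_rfl zero_le_one, ev_w hN zero_le_one le_rfl] with n ⟨p3, p4⟩ ⟨p5, p6⟩
  have hA := hN.base.Apos n
  have r2 := rho_pos (lev n 0)
  have r3 := rho_pos (lev n 1)
  unfold N0 WW sg prec
  have a1 : 0 < (w2 n 1 / rho (lev n 1)) ^ (2 + q) := Real.rpow_pos_of_pos (by positivity) _
  positivity

/-- two-sided bounds from the exponent -/
theorem ev_bounds {X : ℕ → ℝ} {t : ℝ} (h : Tendsto (B.lg X) U (𝓝 t))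
    (hp : ∀ᶠ n in (U : Filter ℕ), 0 < X n) {ε : ℝ} (hε : 0 < ε) : ∀ᶠ n in (U : Filter ℕ),
      B.d n ^ (-(t - ε)) ≤ X n ∧ X n ≤ B.d n ^ (-(t + ε)) := by
  have h1 := (Metric.tendsto_nhds.1 h) ε hε
  filter_upwards [h1, hp] with n h2 h3
  have hL := B.L_pos n
  rw [Real.dist_eq] at h2
  have h4 := abs_lt.1 h2
  unfold Base.lg at h4
  rw [← B.exp_eq, ← B.exp_eq]
  constructor
  · rw [← Real.le_log_iff_exp_le h3]
    have : t - ε ≤ Real.log (X n) / B.L n := by linarith
    rwa [le_div_iff₀ hL] at this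
  · rw [← Real.log_le_iff_le_exp h3]
    have : Real.log (X n) / B.L n ≤ t + ε := by linarith
    rwa [div_le_iff₀ hL] at this

/-- the finest label -/
theorem top_mem (hk : 0 < k) : (fun _ => MM k θ : Fin 6 → ℝ) ∈ LEG (MM k θ) := by
  have : 0 ≤ MM k θ := le_trans (by linarith) (le_max_left (1 + k) θ)
  rw [mem_LEG]
  refine ⟨fun a => ⟨this, le_rfl⟩, ?_, ?_, ?_, ?_⟩ <;> linarith

theorem zero_mem (hk : 0 < k) : (0 : Fin 6 → ℝ) ∈ LEG (MM k θ) := by
  have : 0 ≤ MM k θ := le_trans (by linarith) (le_max_left (1 + k) θ)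
  rw [mem_LEG]
  refine ⟨fun a => ⟨le_rfl, this⟩, ?_, ?_, ?_, ?_⟩ <;> simp

/-- saturation by finest classes enlarges a box at most ten times -/
theorem saturate {ι : ℕ → Type} (x : ∀ n, ι n → Inc) {M v l nn r : ℝ} (hp : Bx6 v l nn r ∈ LEG M)
    {n : ℕ} {i i' j : ι n} (h1 : flab B x n (Bx6 v l nn r) i' = flab B x n (Bx6 v l nn r) i)
    (h2 : flab B x n (fun _ => M) j = flab B x n (fun _ => M) i') :
    (x n j).cell (B.levc n v) (B.levc n r) = (x n i).cell (B.levc n v) (B.levc n r) ∧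
      ∀ a : Fin 4, |(x n j).co (B.levc n v) (B.levc n r) a -
        (x n i).co (B.levc n v) (B.levc n r) a| ≤ 10 * B.d n ^ (![v + nn, nn, l, v + l] a) := by
  have hle : ∀ a, Bx6 v l nn r a ≤ M := fun a => ((mem_LEG.1 hp).1 a).2
  have hi : B.levc n v ≤ B.levc n M := B.levc_mono n (hle 4)
  have hj : B.levc n r ≤ B.levc n M := B.levc_mono n (hle 5)
  have hv : ∀ a, vlev B n (Bx6 v l nn r) a ≤ vlev B n (fun _ => M) a := by
    intro a
    fin_cases a
    · exact B.lev_mono n (hle 0)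
    · exact B.levc_mono n (hle 1)
    · exact B.levc_mono n (hle 2)
    · exact B.lev_mono n (hle 3)
  have hw : Wall (B.levc n v) (B.levc n r) (vlev B n (Bx6 v l nn r)) := wall_of_LEG B n hp
  have h1' : (x n i').lab (B.levc n v) (B.levc n r) (vlev B n (Bx6 v l nn r)) =
      (x n i).lab (B.levc n v) (B.levc n r) (vlev B n (Bx6 v l nn r)) := h1
  have h2' : (x n j).lab (B.levc n M) (B.levc n M) (vlev B n (fun _ => M)) =
      (x n i').lab (B.levc n M) (B.levc n M) (vlev B n (fun _ => M)) := h2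
  have hc := co_coarse_close hi hj hv hw h2'
  rw [lab_eq_iff] at h1'
  have hcell : (x n j).cell (B.levc n v) (B.levc n r) = (x n i').cell (B.levc n v) (B.levc n r) :=
    cell_nested hi hj (lab_eq_iff.1 h2').1
  refine ⟨hcell.trans h1'.1, fun a => ?_⟩
  have k1 := hc a
  have k2 := dist_of_floor (h1'.2 a)
  have k3 : |(x n j).co (B.levc n v) (B.levc n r) a - (x n i).co (B.levc n v) (B.levc n r) a| ≤
      (K4 a + 1) * (1 / 2) ^ vlev B n (Bx6 v l nn r) a := by
    have := abs_sub_le ((x n j).co (B.levc n v) (B.levc n r) a)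
      ((x n i').co (B.levc n v) (B.levc n r) a) ((x n i).co (B.levc n v) (B.levc n r) a)
    linarith
  refine k3.trans ?_
  have hd : ∀ t : ℝ, 0 < B.d n ^ t := fun t => Real.rpow_pos_of_pos (B.pos n) t
  fin_cases a
  · show ((4 : ℕ) + 1 : ℝ) * (1 / 2) ^ (B.lev n (v + nn)) ≤ 10 * B.d n ^ (v + nn)
    have := half_pow_lev_le B n (v + nn)
    push_cast
    linarith
  · show ((2 : ℕ) + 1 : ℝ) * (1 / 2) ^ (B.levc n nn) ≤ 10 * B.d n ^ nn
    have := half_pow_levc_le B n nn
    have := hd nn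
    push_cast
    linarith
  · show ((1 : ℕ) + 1 : ℝ) * (1 / 2) ^ (B.levc n l) ≤ 10 * B.d n ^ l
    have := half_pow_levc_le B n l
    have := hd l
    push_cast
    linarith
  · show ((2 : ℕ) + 1 : ℝ) * (1 / 2) ^ (B.lev n (v + l)) ≤ 10 * B.d n ^ (v + l)
    have := half_pow_lev_le B n (v + l)
    have := hd (v + l)
    push_cast
    linarith

/-- the marked classes in the form used by `comb` -/
theorem nl_lower (hN : Nat5 B I L lev r0 A q g f b e w1 w2 fl sc k s θ) {u : ℚ} (h0 : 0 ≤ u)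
    (h1 : u ≤ 1) {ε : ℝ} (hε : 0 < ε) : ∀ᶠ n in (U : Filter ℕ), ∀ x ∈ I n,
      B.d n ^ ε * Hr B lev A q g s w1 w2 u n ≤
        (((I n).filter fun y => nl lev f n u y = nl lev f n u x).card : ℝ) := by
  filter_upwards [MkRef774.Mk.label_cell hN.base h0 h1 hε] with n hn x hx
  have h2 := hn x hx
  have e1 : cls (I n) (MkRef774.ql (lev n u) (f n u)) x =
      (I n).filter fun y => nl lev f n u y = nl lev f n u x := by
    ext y
    rw [mem_cls, mem_filter]
    simp only [MkRef774.ql, nl, Prod.mk.injEq]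
    tauto
  have e2 : Hr B lev A q g s w1 w2 u n = amp B lev A q g (fun v => s * v) n u *
      w1 n u ^ (1 + (0 : ℝ)) * w2 n u ^ (1 + q) * MkRef774.nu B (fun v => s * v) n u := by
    unfold Hr MkRef774.nu
    rw [add_zero, Real.rpow_one]
    congr 2
    ring
  rw [e2]
  convert h2 using 2
  rw [e1]

theorem raw_of (hN : NatJ B I L lev r0 A q g f b e w1 w2 fl sc k s θ c)
    (hQ : ∀ n, ∀ x ∈ I n, ∀ y ∈ I n, flab B (xx L lev w1 w2 fl c) n 0 x =
      flab B (xx L lev w1 w2 fl c) n 0 y)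
    (gD : GeoD B I L lev r0 A q g f b e w1 w2 fl sc k s θ c)
    (gR : GeoR B I L lev r0 A q g f b e w1 w2 fl sc k s θ c) :
    ∃ (I3 : ℕ → Finset (ℕ × ℝ)) (c₀ : ℝ), (∀ n, I3 n ⊆ I n) ∧
      Raw B I3 (xx L lev w1 w2 fl c) (fun _ y => y.1) (MM k θ) s (2 * s + g) q k θ c₀ := by
  classical
  have H := hN.nat.base
  have O := Own779.own_of (r0 := r0) (A := A) (q := q) (g := g) (f := f) (b := b) (e := e)
    (sc := sc) (θ := θ) hN
  have hk := hN.nat.k0
  have hθ := hN.nat.θ0
  obtain ⟨hs0, hs1⟩ := Own779.s_bounds H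
  have hM1 : 1 < MM k θ := lt_of_lt_of_le (by linarith) (le_max_left (1 + k) θ)
  have hdp : ∀ n, ∀ t : ℝ, 0 < B.d n ^ t := fun n t => Real.rpow_pos_of_pos (B.pos n) t
  have hinj : ∀ᶠ n in (U : Filter ℕ), ∀ i ∈ I n, ∀ j ∈ I n,
      flab B (xx L lev w1 w2 fl c) n (fun _ => MM k θ) i =
        flab B (xx L lev w1 w2 fl c) n (fun _ => MM k θ) j → i.1 = j.1 → i = j := by
    filter_upwards [H.one, Own779.lev_le H (u := 1) (v := MM k θ) zero_le_one le_rfl
      (Or.inl (by rw [Rat.cast_one]; exact hM1))] with n h1 h2 i hi j hj h3 h4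
    have h5 : ⌊(2 : ℝ) ^ (B.levc n (MM k θ)) * (xx L lev w1 w2 fl c n i).z⌋ =
        ⌊(2 : ℝ) ^ (B.levc n (MM k θ)) * (xx L lev w1 w2 fl c n j).z⌋ :=
      congrArg (fun t => t.1.1) h3
    rw [Own779.floor_eq, Own779.floor_eq] at h5
    exact h1 i hi j hj h4 (MkZoom779.zc_nested h2 h5)
  have hc : ∃ C : ℝ, ∀ᶠ n in (U : Filter ℕ),
      (((I n).image (flab B (xx L lev w1 w2 fl c) n (fun _ => MM k θ))).card : ℝ) ≤
        B.d n ^ (-C) := by
    refine ⟨∑ a : Fin 6, ((fun _ => MM k θ : Fin 6 → ℝ) a - (0 : Fin 6 → ℝ) a) + 1, ?_⟩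
    filter_upwards [flab_child B I (xx L lev w1 w2 fl c) (zero_mem (θ := θ) hk) (top_mem hk)
      (fun a => le_trans zero_le_one hM1.le) one_pos, H.ne] with n h1 h2
    obtain ⟨i0, hi0⟩ := h2
    refine le_trans ?_ (h1 i0 hi0)
    refine Nat.cast_le.2 (card_le_card (image_subset_image fun y hy => ?_))
    exact mem_cls.2 ⟨hy, hQ n y hy i0 hi0⟩
  obtain ⟨K, I3, hK, hsub, hev, ⟨C3, hC3, hcard⟩, hi, hii, hiii, -⟩ :=
    Comb628.comb B (ι := fun _ => ℕ × ℝ) (κ := fun _ => (ℤ × ℤ) × (Fin 4 → ℤ)) I I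
      (fun n => Subset.rfl) H.ne H.card (fun _ y => y.1)
      (fun n => flab B (xx L lev w1 w2 fl c) n (fun _ => MM k θ)) hinj hc
      (J := {u : ℚ // 0 ≤ u ∧ u ≤ 1}) (J' := {u : ℚ // 0 ≤ u ∧ u ≤ 1})
      (β := fun _ _ => ℕ × ℤ) (γ := fun _ _ => ℤ × ℕ)
      (fun u n x => (x.1, zc (lev n u) x.2)) (fun u => (1 - s) * (1 - (u : ℚ)))
      (fun u n i _ j _ h => (Prod.mk.inj h).1)
      (fun u ε hε => by
        filter_upwards [O.low u u.2.1 u.2.2 ε hε] with n hn x hx
        exact hn x hx)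
      (fun u n x => nl lev f n u x)
      (fun u n => if 0 < Hr B lev A q g s w1 w2 u n then Hr B lev A q g s w1 w2 u n else 1)
      (fun u n => by split_ifs with h; exacts [h, one_pos])
      (fun u ε hε => by
        filter_upwards [nl_lower hN.nat u.2.1 u.2.2 hε, ev_pos_Hr hN.nat u.2.1 u.2.2]
          with n hn h2 x hx
        rw [if_pos h2]
        exact hn x hx)
  have hKp : ∀ n, (0 : ℝ) < K n := fun n => by exact_mod_cast hK n
  -- the count of one box
  have hbox : ∀ v l nn r : ℝ, 0 ≤ v → v ≤ 1 → 0 ≤ l → l ≤ nn → Bx6 v l nn r ∈ LEG (MM k θ) →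
      ∀ ε : ℝ, 0 < ε → ∀ᶠ n in (U : Filter ℕ), ∀ i ∈ I3 n,
      (((I3 n).filter fun j => flab B (xx L lev w1 w2 fl c) n (Bx6 v l nn r) j =
        flab B (xx L lev w1 w2 fl c) n (Bx6 v l nn r) i).card : ℝ) ≤
        16 * (N0 lev A q w1 w2 n / K n) * B.d n ^ (-(bex s (2 * s + g) q v l nn + ε)) := by
    intro v l nn r h0 h1 h2 h3 hp ε hε
    filter_upwards [hiii, gD hN v l nn r h0 h1 h2 h3 hp ε hε] with n a1 a2 i hi
    have a3 := a2 i (hsub n hi)
    obtain ⟨F', hF'⟩ : ∃ F', F' = (I n).filter fun y =>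
        (xx L lev w1 w2 fl c n y).cell (B.levc n v) (B.levc n r) =
          (xx L lev w1 w2 fl c n i).cell (B.levc n v) (B.levc n r) ∧
        ∀ a : Fin 4, |(xx L lev w1 w2 fl c n y).co (B.levc n v) (B.levc n r) a -
          (xx L lev w1 w2 fl c n i).co (B.levc n v) (B.levc n r) a| ≤
            10 * B.d n ^ (![v + nn, nn, l, v + l] a) := ⟨_, rfl⟩
    have a4 := a1 ((I3 n).filter fun j => flab B (xx L lev w1 w2 fl c) n (Bx6 v l nn r) j =
        flab B (xx L lev w1 w2 fl c) n (Bx6 v l nn r) i) (filter_subset _ _)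
      F' (by rw [hF']; exact filter_subset _ _)
      (fun i' hi' j hj hc => by
        rw [hF']
        exact mem_filter.2 ⟨hj, saturate (xx L lev w1 w2 fl c) hp (mem_filter.1 hi').2 hc⟩)
    have a5 : (K n : ℝ) * (((I3 n).filter fun j =>
        flab B (xx L lev w1 w2 fl c) n (Bx6 v l nn r) j =
        flab B (xx L lev w1 w2 fl c) n (Bx6 v l nn r) i).card : ℝ) ≤
        16 * (N0 lev A q w1 w2 n * B.d n ^ (-(bex s (2 * s + g) q v l nn + ε))) := by
      have a4' : (K n : ℝ) * (((I3 n).filter fun j =>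
        flab B (xx L lev w1 w2 fl c) n (Bx6 v l nn r) j =
        flab B (xx L lev w1 w2 fl c) n (Bx6 v l nn r) i).card : ℝ) ≤ 16 * (F'.card : ℝ) := by
        exact_mod_cast a4
      refine le_trans a4' ?_
      refine mul_le_mul_of_nonneg_left ?_ (by norm_num)
      rw [hF']
      convert a3
    have hKn := hKp n
    rw [← mul_le_mul_iff_right₀ hKn]
    refine a5.trans (le_of_eq ?_)
    field_simp
  -- N0 / K is polynomially bounded
  have hZpos : ∀ᶠ n in (U : Filter ℕ), 0 < N0 lev A q w1 w2 n / K n := by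
    filter_upwards [ev_pos_N0 hN.nat] with n hn
    exact div_pos hn (hKp n)
  have hZ : B.PB (fun n => N0 lev A q w1 w2 n / K n) := by
    have hB0 : Bx6 0 0 0 0 = (0 : Fin 6 → ℝ) := by
      funext a; fin_cases a <;> simp [Bx6]
    have hlow : ∀ᶠ n in (U : Filter ℕ), B.d n ^ (bex s (2 * s + g) q 0 0 0 + 2) ≤
        N0 lev A q w1 w2 n / K n := by
      filter_upwards [hbox 0 0 0 0 le_rfl zero_le_one le_rfl le_rfl
        (by rw [hB0]; exact zero_mem hk) 1 one_pos, hev,
        B.ev_const_log (Real.log 16) one_pos] with n a1 a2 a3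
      obtain ⟨⟨i, hi⟩, -⟩ := a2
      have a4 := a1 i hi
      have a5 : (1 : ℝ) ≤ (((I3 n).filter fun j => flab B (xx L lev w1 w2 fl c) n (Bx6 0 0 0 0) j =
        flab B (xx L lev w1 w2 fl c) n (Bx6 0 0 0 0) i).card : ℝ) := by
        have : 0 < ((I3 n).filter fun j => flab B (xx L lev w1 w2 fl c) n (Bx6 0 0 0 0) j =
          flab B (xx L lev w1 w2 fl c) n (Bx6 0 0 0 0) i).card :=
          card_pos.2 ⟨i, mem_filter.2 ⟨hi, rfl⟩⟩
        exact_mod_cast this
      have a6 : (16 : ℝ) ≤ B.d n ^ (-(1 : ℝ)) := by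
        rw [← B.exp_eq, ← Real.log_le_iff_le_exp (by norm_num)]
        exact a3
      have a7 := a5.trans a4
      have hp1 := hdp n (bex s (2 * s + g) q 0 0 0 + 2)
      have hp2 := hdp n (-(bex s (2 * s + g) q 0 0 0 + 1))
      have hZ0 : 0 ≤ N0 lev A q w1 w2 n / K n := by
        by_contra hneg
        push Not at hneg
        have : 16 * (N0 lev A q w1 w2 n / K n) * B.d n ^ (-(bex s (2 * s + g) q 0 0 0 + 1)) ≤ 0 :=
          mul_nonpos_of_nonpos_of_nonneg (by linarith) hp2.le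
        linarith
      have a8 : 16 * (N0 lev A q w1 w2 n / K n) * B.d n ^ (-(bex s (2 * s + g) q 0 0 0 + 1)) ≤
          B.d n ^ (-(1 : ℝ)) * (N0 lev A q w1 w2 n / K n) *
            B.d n ^ (-(bex s (2 * s + g) q 0 0 0 + 1)) :=
        mul_le_mul_of_nonneg_right (mul_le_mul_of_nonneg_right a6 hZ0) hp2.le
      have a9 : B.d n ^ (-(1 : ℝ)) * (N0 lev A q w1 w2 n / K n) *
            B.d n ^ (-(bex s (2 * s + g) q 0 0 0 + 1)) =
          (N0 lev A q w1 w2 n / K n) * B.d n ^ (-(bex s (2 * s + g) q 0 0 0 + 2)) := by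
        rw [mul_comm (B.d n ^ (-(1 : ℝ))), mul_assoc, ← Real.rpow_add (B.pos n)]
        congr 2; ring
      have a10 : 1 ≤ (N0 lev A q w1 w2 n / K n) * B.d n ^ (-(bex s (2 * s + g) q 0 0 0 + 2)) := by
        linarith
      rw [Real.rpow_neg (B.pos n).le, ← div_eq_mul_inv, le_div_iff₀ hp1, one_mul] at a10
      exact a10
    have hupp : ∀ᶠ n in (U : Filter ℕ), N0 lev A q w1 w2 n / K n ≤
        B.d n ^ (-(C3 + 2 - bex s (2 * s + g) q ((0 : ℚ) : ℝ) (θ * (1 - ((0 : ℚ) : ℝ)))
          (θ * (1 - ((0 : ℚ) : ℝ)) + k * ((0 : ℚ) : ℝ)))) := by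
      have e0 := ev_bounds (tendsto_Hr hN.nat le_rfl zero_le_one) (by
        filter_upwards [ev_pos_Hr hN.nat le_rfl zero_le_one, ev_pos_N0 hN.nat] with n a1 a2
        exact div_pos a1 a2) one_pos
      filter_upwards [e0, hii ⟨0, le_rfl, zero_le_one⟩ 1 one_pos, hev, hcard,
        ev_pos_Hr hN.nat le_rfl zero_le_one, ev_pos_N0 hN.nat] with n a1 a2 a3 a4 a5 a6
      obtain ⟨⟨i, hi⟩, -⟩ := a3
      set bb := bex s (2 * s + g) q ((0 : ℚ) : ℝ) (θ * (1 - ((0 : ℚ) : ℝ)))
          (θ * (1 - ((0 : ℚ) : ℝ)) + k * ((0 : ℚ) : ℝ)) with hbb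
      have a7 : (1 : ℝ) ≤ (((I3 n).image fun x => nl lev f n 0 x).card : ℝ) := by
        have : 0 < ((I3 n).image fun x => nl lev f n 0 x).card :=
          card_pos.2 ⟨_, mem_image_of_mem _ hi⟩
        exact_mod_cast this
      have hKn := hKp n
      have a2' : (((I3 n).image fun x => nl lev f n 0 x).card : ℝ) ≤
          (I3 n).card * (K n / Hr B lev A q g s w1 w2 0 n) * B.d n ^ (-(1 : ℝ)) := by
        have := a2
        rw [if_pos a5] at this
        exact this
      have a8 := a7.trans a2'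
      -- H ≤ #I3 K d^-1
      have a9 : Hr B lev A q g s w1 w2 0 n ≤ B.d n ^ (-C3) * K n * B.d n ^ (-(1 : ℝ)) := by
        have h9 : (I3 n).card * (K n / Hr B lev A q g s w1 w2 0 n) * B.d n ^ (-(1 : ℝ)) =
            ((I3 n).card * K n * B.d n ^ (-(1 : ℝ))) / Hr B lev A q g s w1 w2 0 n := by
          field_simp
        rw [h9, le_div_iff₀ a5, one_mul] at a8
        refine a8.trans ?_
        refine mul_le_mul_of_nonneg_right ?_ (hdp n _).le
        exact mul_le_mul_of_nonneg_right a4 hKn.le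
      have a10 : N0 lev A q w1 w2 n ≤ Hr B lev A q g s w1 w2 0 n * B.d n ^ (bb - 1) := by
        have h10 := a1.1
        rw [le_div_iff₀ a6, Real.rpow_neg (B.pos n).le, inv_mul_le_iff₀ (hdp n _)] at h10
        linarith
      rw [div_le_iff₀ hKn]
      refine a10.trans ((mul_le_mul_of_nonneg_right a9 (hdp n _).le).trans (le_of_eq ?_))
      have : B.d n ^ (-(C3 + 2 - bb)) = B.d n ^ (-C3) * B.d n ^ (-(1 : ℝ)) * B.d n ^ (bb - 1) := by
        rw [← Real.rpow_add (B.pos n), ← Real.rpow_add (B.pos n)]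
        congr 1; ring
      rw [this]; ring
    refine Base.PB.of_bounds (C := max (bex s (2 * s + g) q 0 0 0 + 2)
      (C3 + 2 - bex s (2 * s + g) q ((0 : ℚ) : ℝ) (θ * (1 - ((0 : ℚ) : ℝ)))
          (θ * (1 - ((0 : ℚ) : ℝ)) + k * ((0 : ℚ) : ℝ)))) ?_ ?_
    · filter_upwards [hlow] with n hn
      refine le_trans ?_ hn
      exact Real.rpow_le_rpow_of_exponent_ge (B.pos n) (B.lt n).le (le_max_left _ _)
    · filter_upwards [hupp] with n hn
      refine hn.trans ?_
      refine Real.rpow_le_rpow_of_exponent_ge (B.pos n) (B.lt n).le ?_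
      exact neg_le_neg (le_max_right _ _)
  set c₀ : ℝ := B.ex (fun n => N0 lev A q w1 w2 n / K n) with hc₀
  have hZb : ∀ ε : ℝ, 0 < ε → ∀ᶠ n in (U : Filter ℕ),
      B.d n ^ (-(c₀ - ε)) ≤ N0 lev A q w1 w2 n / K n ∧
      N0 lev A q w1 w2 n / K n ≤ B.d n ^ (-(c₀ + ε)) := fun ε hε =>
    ev_bounds hZ.tendsto hZpos hε
  refine ⟨I3, c₀, hsub, ?_⟩
  exact
    { ne := hev.mono fun n hn => hn.1
      card := ⟨C3, hcard⟩
      s0 := hs0
      s1 := hs1
      bs := by have := H.g0; linarith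
      q0 := H.q0
      k0 := hk
      θ0 := hθ
      M0 := ⟨le_max_left _ _, le_max_right _ _⟩
      line_eq := by
        intro n i j hij
        simp only [xx, toInc]
        have hij' : i.1 = j.1 := hij
        rw [hij']
        exact ⟨rfl, rfl, rfl, rfl⟩
      ownU := by
        intro v h0 h1 ε hε
        filter_upwards [O.up v h0 h1 ε hε] with n hn i hi
        refine le_trans ?_ (hn i (hsub n hi))
        refine Nat.cast_le.2 (card_le_card fun t ht => ?_)
        rw [mem_filter] at ht ⊢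
        exact ⟨hsub n ht.1, ht.2⟩
      ownL := by
        intro v h0 h1 ε hε
        obtain ⟨u, hu1, hu2⟩ := exists_rat_btwn (show v < min 1 (v + ε / 2) from
          lt_min h1 (by linarith))
        have hu1' : (u : ℝ) < 1 := hu2.trans_le (min_le_left _ _)
        have hu2' : (u : ℝ) < v + ε / 2 := hu2.trans_le (min_le_right _ _)
        have u0 : (0 : ℚ) ≤ u := by exact_mod_cast (h0.le.trans hu1.le)
        have u1 : u ≤ (1 : ℚ) := by exact_mod_cast hu1'.le
        filter_upwards [hi ⟨u, u0, u1⟩ (ε / 2) (by positivity),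
          Own779.le_lev H h0.le u1 hu1] with n a1 a2
        have a3 : ((I3 n).image (lz (xx L lev w1 w2 fl c) (fun _ y => y.1) n (B.levc n v))).card ≤
            ((I3 n).image fun x => (x.1, zc (lev n u) x.2)).card := by
          have e1 : (I3 n).image (lz (xx L lev w1 w2 fl c) (fun _ y => y.1) n (B.levc n v)) =
              ((I3 n).image fun x => (x.1, zc (lev n u) x.2)).image
                fun p : ℕ × ℤ => (p.1, p.2 / ((2 ^ (lev n u - (lev n 0 + B.levc n v)) : ℕ) : ℤ)) := by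
            rw [image_image]
            refine image_congr fun x _ => ?_
            rw [Own779.lz_eq]
            simp only [Function.comp]
            rw [MkZoom779.zc_eq a2]
          rw [e1]
          exact card_image_le
        have a4 : (((I3 n).image (lz (xx L lev w1 w2 fl c) (fun _ y => y.1) n
            (B.levc n v))).card : ℝ) ≤ (I3 n).card * B.d n ^ ((1 - s) * (1 - u) - ε / 2) :=
          le_trans (by exact_mod_cast a3) a1
        refine a4.trans (mul_le_mul_of_nonneg_left ?_ (Nat.cast_nonneg _))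
        refine Real.rpow_le_rpow_of_exponent_ge (B.pos n) (B.lt n).le ?_
        nlinarith
      rot := by
        intro v h0 h1 ε hε
        filter_upwards [O.rot v h0.le h1.le ε hε] with n hn i hi j hj hij
        exact hn i (hsub n hi) j (hsub n hj) hij.symm
      tw := by
        intro v r h0 h1 hr
        obtain ⟨γ, hγ, hev⟩ := O.tw v r h0 h1 hr
        refine ⟨γ, hγ, ?_⟩
        filter_upwards [hev] with n hn i hi
        refine le_trans ?_ (hn i (hsub n hi))
        refine Nat.cast_le.2 (card_le_card fun t ht => ?_)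
        rw [mem_filter] at ht ⊢
        exact ⟨hsub n ht.1, ht.2⟩
      dmax := by
        intro v l nn r h0 h1 h2 h3 hp ε hε
        have hε3 : 0 < ε / 3 := by positivity
        filter_upwards [hbox v l nn r h0 h1 h2 h3 hp _ hε3, hZb _ hε3,
          B.ev_const_log (Real.log 16) hε3] with n a1 a2 a3 i hi
        have a6 : (16 : ℝ) ≤ B.d n ^ (-(ε / 3)) := by
          rw [← B.exp_eq, ← Real.log_le_iff_le_exp (by norm_num)]
          exact a3
        refine (a1 i hi).trans ?_
        have hp2 := hdp n (-(bex s (2 * s + g) q v l nn + ε / 3))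
        have hZ0 : 0 ≤ N0 lev A q w1 w2 n / K n := (hdp n _).le.trans a2.1
        calc 16 * (N0 lev A q w1 w2 n / K n) * B.d n ^ (-(bex s (2 * s + g) q v l nn + ε / 3))
            ≤ B.d n ^ (-(ε / 3)) * B.d n ^ (-(c₀ + ε / 3)) *
              B.d n ^ (-(bex s (2 * s + g) q v l nn + ε / 3)) := by
              refine mul_le_mul_of_nonneg_right ?_ hp2.le
              exact mul_le_mul a6 a2.2 hZ0 (hdp n _).le
          _ = B.d n ^ (-(c₀ + bex s (2 * s + g) q v l nn + ε)) := by
              rw [← Real.rpow_add (B.pos n), ← Real.rpow_add (B.pos n)]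
              congr 1; ring
      record := by
        intro v h0 h1 ε hε
        set S0 : ℝ := (2 * s + g) + q * θ - 2 + 2 * θ - k - (1 - s) with hS0
        set D : ℝ := 10 * (1 + k + θ) + |S0| with hD
        have hD0 : 0 < D := by positivity
        obtain ⟨u, hu1, hu2⟩ := exists_rat_btwn (show v < min 1 (v + ε / 2 / D) from
          lt_min h1 (by have : 0 < ε / 2 / D := by positivity
                        linarith))
        have hu1' : (u : ℝ) < 1 := hu2.trans_le (min_le_left _ _)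
        have hu2' : (u : ℝ) < v + ε / 2 / D := hu2.trans_le (min_le_right _ _)
        have u0 : (0 : ℚ) ≤ u := by exact_mod_cast (h0.le.trans hu1.le)
        have u1 : u ≤ (1 : ℚ) := by exact_mod_cast hu1'.le
        have hDu : (u - v) * D ≤ ε / 2 := by
          have : (u : ℝ) - v ≤ ε / 2 / D := by linarith
          rwa [le_div_iff₀ hD0] at this
        have hε8 : 0 < ε / 8 := by positivity
        filter_upwards [hii ⟨u, u0, u1⟩ _ hε8, (gR hN).1 v u h0.le hu1 u1 _ hε8, hZb _ hε8,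
          ev_bounds (tendsto_Hr hN.nat u0 u1) (by
            filter_upwards [ev_pos_Hr hN.nat u0 u1, ev_pos_N0 hN.nat] with n a1 a2
            exact div_pos a1 a2) hε8, ev_pos_Hr hN.nat u0 u1, ev_pos_N0 hN.nat]
          with n a1 a2 a3 a4 a5 a6
        have hKn := hKp n
        set P := Bx6 v (θ * (1 - v)) (θ * (1 - v) + k * v) (k * v) with hP
        set b1 := bex s (2 * s + g) q u (θ * (1 - u)) (θ * (1 - u) + k * u) with hb1
        have k1 : (((I3 n).image (flab B (xx L lev w1 w2 fl c) n P)).card : ℝ) ≤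
            B.d n ^ (-(10 * (1 + k + θ) * (u - v) + ε / 8)) *
              ((I3 n).image fun x => nl lev f n u x).card := by
          refine card_image_le_mul _ _ _ fun x hx => ?_
          refine le_trans ?_ (a2 x (hsub n hx))
          refine Nat.cast_le.2 (card_le_card (image_subset_image fun t ht => ?_))
          obtain ⟨t1, t2⟩ := mem_cls.1 ht
          exact mem_filter.2 ⟨hsub n t1, t2⟩
        have k2 : (((I3 n).image fun x => nl lev f n u x).card : ℝ) ≤
            (I3 n).card * (K n / Hr B lev A q g s w1 w2 u n) * B.d n ^ (-(ε / 8)) := by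
          have := a1
          rw [if_pos a5] at this
          exact this
        have k3 : K n / Hr B lev A q g s w1 w2 u n ≤ B.d n ^ (c₀ - ε / 8) * B.d n ^ (b1 - ε / 8) := by
          have e1 : (K n : ℝ) ≤ N0 lev A q w1 w2 n * B.d n ^ (c₀ - ε / 8) := by
            have := a3.1
            rw [le_div_iff₀ hKn, Real.rpow_neg (B.pos n).le, inv_mul_le_iff₀ (hdp n _)] at this
            linarith
          have e2 : N0 lev A q w1 w2 n ≤ Hr B lev A q g s w1 w2 u n * B.d n ^ (b1 - ε / 8) := by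
            have := a4.1
            rw [le_div_iff₀ a6, Real.rpow_neg (B.pos n).le, inv_mul_le_iff₀ (hdp n _)] at this
            linarith
          rw [div_le_iff₀ a5]
          calc (K n : ℝ) ≤ N0 lev A q w1 w2 n * B.d n ^ (c₀ - ε / 8) := e1
            _ ≤ (Hr B lev A q g s w1 w2 u n * B.d n ^ (b1 - ε / 8)) * B.d n ^ (c₀ - ε / 8) :=
              mul_le_mul_of_nonneg_right e2 (hdp n _).le
            _ = _ := by ring
        have hI : (0 : ℝ) ≤ (I3 n).card := Nat.cast_nonneg _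
        calc (((I3 n).image (flab B (xx L lev w1 w2 fl c) n P)).card : ℝ)
            ≤ B.d n ^ (-(10 * (1 + k + θ) * (u - v) + ε / 8)) *
              ((I3 n).card * (B.d n ^ (c₀ - ε / 8) * B.d n ^ (b1 - ε / 8)) *
                B.d n ^ (-(ε / 8))) := by
              refine k1.trans (mul_le_mul_of_nonneg_left (k2.trans ?_) (hdp n _).le)
              refine mul_le_mul_of_nonneg_right ?_ (hdp n _).le
              exact mul_le_mul_of_nonneg_left k3 hI
          _ = (I3 n).card * B.d n ^ (-(10 * (1 + k + θ) * (u - v) + ε / 8) + ((c₀ - ε / 8) +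
                (b1 - ε / 8) + -(ε / 8))) := by
              rw [Real.rpow_add (B.pos n), Real.rpow_add (B.pos n), Real.rpow_add (B.pos n)]
              ring
          _ ≤ (I3 n).card * B.d n ^ (c₀ + bex s (2 * s + g) q v (θ * (1 - v))
                (θ * (1 - v) + k * v) - ε) := by
              refine mul_le_mul_of_nonneg_left ?_ hI
              refine Real.rpow_le_rpow_of_exponent_ge (B.pos n) (B.lt n).le ?_
              have e1 : b1 = bex s (2 * s + g) q v (θ * (1 - v)) (θ * (1 - v) + k * v) +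
                  S0 * (u - v) := by
                rw [hb1, hS0]; unfold bex; ring
              have e2 : -(|S0| * (u - v)) ≤ S0 * (u - v) := by
                have := mul_le_mul_of_nonneg_right (neg_abs_le S0) (by linarith : 0 ≤ (u : ℝ) - v)
                linarith
              have e3 : (u - v) * D = 10 * (1 + k + θ) * (u - v) + |S0| * (u - v) := by
                rw [hD]; ring
              rw [e1]
              linarith }

end Crest.Agent.R138.L15
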