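import Mathlib

/-!
# R138: Kaufman count, abstract finite form (helper829)

`kaufman_abs`: finitely many objects `i ∈ S`, heights `k ∈ Z`, an alive relation, a value
`F i k = A i + (z k - z0) * V i + O(e)` (differences), few cells of the values at every height
⟹ `lam ^ 2 * #S ≤ K * ∑_j P j * Q j`.
-/

set_option autoImplicit false
set_option linter.unusedVariables false

open Finset

namespace Crest.Agent.R138.Tw829

variable {ι : Type*}

/-- Cauchy–Schwarz: few cells ⟹ many close pairs -/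
theorem close_pairs_lower [DecidableEq ι] (S : Finset ι) (F : ι → ℝ) (r K : ℝ) (hr : 0 < r)
    (hK : ((S.image fun i => ⌊F i / r⌋).card : ℝ) ≤ K) :
    ((S.card : ℝ)) ^ 2 ≤ K * (((S ×ˢ S).filter fun q => |F q.1 - F q.2| ≤ r).card : ℝ) := by
  classical
  set C := S.image fun i => ⌊F i / r⌋ with hC
  have h1 : (S.card : ℝ) = ∑ c ∈ C, ((S.filter fun i => ⌊F i / r⌋ = c).card : ℝ) := by
    have := Finset.card_eq_sum_card_fiberwise (f := fun i => ⌊F i / r⌋) (s := S) (t := C)
      (fun i hi => Finset.mem_image_of_mem _ hi)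
    exact_mod_cast this
  have h2 : ((S.card : ℝ)) ^ 2 ≤ (C.card : ℝ) *
      ∑ c ∈ C, ((S.filter fun i => ⌊F i / r⌋ = c).card : ℝ) ^ 2 := by
    rw [h1]
    exact sq_sum_le_card_mul_sum_sq
  have h3 : ∑ c ∈ C, ((S.filter fun i => ⌊F i / r⌋ = c).card : ℝ) ^ 2
      ≤ (((S ×ˢ S).filter fun q => |F q.1 - F q.2| ≤ r).card : ℝ) := by
    have e1 : ∀ c ∈ C, ((S.filter fun i => ⌊F i / r⌋ = c).card : ℝ) ^ 2
        = ((((S ×ˢ S).filter fun q => |F q.1 - F q.2| ≤ r).filter
            fun q => ⌊F q.1 / r⌋ = c ∧ ⌊F q.2 / r⌋ = c).card : ℝ) := by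
      intro c _
      rw [sq, ← Nat.cast_mul, ← Finset.card_product]
      congr 2
      ext q
      simp only [mem_product, mem_filter]
      constructor
      · rintro ⟨⟨a1, a2⟩, ⟨b1, b2⟩⟩
        refine ⟨⟨⟨a1, b1⟩, ?_⟩, a2, b2⟩
        have l1 := Int.floor_le (F q.1 / r)
        have l2 := Int.lt_floor_add_one (F q.1 / r)
        have l3 := Int.floor_le (F q.2 / r)
        have l4 := Int.lt_floor_add_one (F q.2 / r)
        rw [a2] at l1 l2
        rw [b2] at l3 l4
        have h5 : |F q.1 / r - F q.2 / r| ≤ 1 := by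
          rw [abs_le]; constructor <;> linarith
        rw [← sub_div, abs_div, abs_of_pos hr, div_le_one hr] at h5
        exact h5
      · rintro ⟨⟨⟨a1, b1⟩, _⟩, a2, b2⟩
        exact ⟨⟨a1, a2⟩, ⟨b1, b2⟩⟩
    rw [Finset.sum_congr rfl e1, ← Nat.cast_sum]
    have e2 : ∑ c ∈ C, (((S ×ˢ S).filter fun q => |F q.1 - F q.2| ≤ r).filter
            fun q => ⌊F q.1 / r⌋ = c ∧ ⌊F q.2 / r⌋ = c).card
        ≤ ((S ×ˢ S).filter fun q => |F q.1 - F q.2| ≤ r).card := by
      rw [← Finset.card_biUnion]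
      · apply Finset.card_le_card
        intro q hq
        rw [Finset.mem_biUnion] at hq
        obtain ⟨c, _, hq⟩ := hq
        exact (Finset.mem_filter.1 hq).1
      · intro c _ c' _ hcc
        rw [Function.onFun, Finset.disjoint_left]
        intro q hq hq'
        rw [Finset.mem_filter] at hq hq'
        exact hcc (hq.2.1.symm.trans hq'.2.1)
    exact_mod_cast e2
  calc ((S.card : ℝ)) ^ 2 ≤ (C.card : ℝ) *
      ∑ c ∈ C, ((S.filter fun i => ⌊F i / r⌋ = c).card : ℝ) ^ 2 := h2
    _ ≤ K * (((S ×ˢ S).filter fun q => |F q.1 - F q.2| ≤ r).card : ℝ) := by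
        apply mul_le_mul hK h3 (Finset.sum_nonneg fun _ _ => by positivity)
        exact le_trans (by positivity) hK

/-- every value has `≥ M` close values ⟹ at most `3 #S / M` cells -/
theorem cells_le [DecidableEq ι] (S : Finset ι) (F : ι → ℝ) (r M : ℝ) (hr : 0 < r)
    (hM : ∀ i ∈ S, M ≤ ((S.filter fun i' => |F i' - F i| ≤ r).card : ℝ)) :
    ((S.image fun i => ⌊F i / r⌋).card : ℝ) * M ≤ 3 * (S.card : ℝ) := by
  classical
  rcases S.eq_empty_or_nonempty with hS | ⟨i0, hi0⟩
  · subst hS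
    simp
  set C := S.image fun i => ⌊F i / r⌋ with hC
  have hrep : ∀ c : ℤ, ∃ i : ι, c ∈ C → (i ∈ S ∧ ⌊F i / r⌋ = c) := by
    intro c
    by_cases h : c ∈ C
    · obtain ⟨i, hi, hi2⟩ := Finset.mem_image.1 h
      exact ⟨i, fun _ => ⟨hi, hi2⟩⟩
    · exact ⟨i0, fun h' => absurd h' h⟩
  choose rep hrep using hrep
  have h1 : (C.card : ℝ) * M ≤ ∑ c ∈ C, ((S.filter fun i' => |F i' - F (rep c)| ≤ r).card : ℝ) := by
    rw [← nsmul_eq_mul]
    exact Finset.card_nsmul_le_sum _ _ _ fun c hc => hM _ (hrep c hc).1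
  refine h1.trans ?_
  have h2 : ∑ c ∈ C, (S.filter fun i' => |F i' - F (rep c)| ≤ r).card
      = ∑ i' ∈ S, (C.filter fun c => |F i' - F (rep c)| ≤ r).card := by
    simp only [Finset.card_filter]
    exact Finset.sum_comm
  have h3 : ∀ i' ∈ S, (C.filter fun c => |F i' - F (rep c)| ≤ r).card ≤ 3 := by
    intro i' _
    have : (C.filter fun c => |F i' - F (rep c)| ≤ r) ⊆
        Finset.Icc (⌊F i' / r⌋ - 1) (⌊F i' / r⌋ + 1) := by
      intro c hc
      rw [Finset.mem_filter] at hc
      obtain ⟨hc1, hc2⟩ := hc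
      have h4 := (hrep c hc1).2
      have l1 := Int.floor_le (F (rep c) / r)
      have l2 := Int.lt_floor_add_one (F (rep c) / r)
      have l3 := Int.floor_le (F i' / r)
      have l4 := Int.lt_floor_add_one (F i' / r)
      rw [h4] at l1 l2
      have h5 : |F i' / r - F (rep c) / r| ≤ 1 := by
        rw [← sub_div, abs_div, abs_of_pos hr, div_le_one hr]
        exact hc2
      rw [abs_le] at h5
      rw [Finset.mem_Icc]
      have g1 : (c : ℝ) < ((⌊F i' / r⌋ + 2 : ℤ) : ℝ) := by push_cast; linarith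
      have g2 : ((⌊F i' / r⌋ : ℤ) : ℝ) < ((c + 2 : ℤ) : ℝ) := by push_cast; linarith
      have g1' : c < ⌊F i' / r⌋ + 2 := by exact_mod_cast g1
      have g2' : ⌊F i' / r⌋ < c + 2 := by exact_mod_cast g2
      omega
    have := Finset.card_le_card this
    simp only [Int.card_Icc] at this
    omega
  have h4 : ∑ i' ∈ S, (C.filter fun c => |F i' - F (rep c)| ≤ r).card ≤ 3 * S.card := by
    calc _ ≤ ∑ i' ∈ S, 3 := Finset.sum_le_sum h3
      _ = 3 * S.card := by simp [mul_comm]
  rw [← h2] at h4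
  exact_mod_cast h4

/-- **Kaufman's count**, abstract finite form. -/
theorem kaufman_abs [DecidableEq ι] (S : Finset ι) (Z : Finset ℕ) (z : ℕ → ℝ)
    (al : ι → ℕ → Prop) [∀ i, DecidablePred (al i)] (F : ι → ℕ → ℝ) (A V : ι → ℝ)
    (z0 r e K lam : ℝ) (J : ℕ) (s P Q : ℕ → ℝ)
    (hr : 0 < r) (he : 0 ≤ e) (hK0 : 0 ≤ K) (hlam : 0 ≤ lam)
    (hSn : S.Nonempty) (hZn : Z.Nonempty)
    (hz : ∀ k ∈ Z, |z k - z0| ≤ 2)
    (hF : ∀ k ∈ Z, ∀ i ∈ S, ∀ i' ∈ S,
      |F i k - F i' k - ((A i - A i') + (z k - z0) * (V i - V i'))| ≤ e)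
    (hcell : ∀ k ∈ Z,
      (((S.filter fun i => al i k).image fun i => ⌊F i k / r⌋).card : ℝ) ≤ K)
    (hal : lam * ((S.card : ℝ) * Z.card) ≤ ∑ i ∈ S, ((Z.filter fun k => al i k).card : ℝ))
    (hspos : ∀ j, 0 < s j)
    (hs0 : ∀ i ∈ S, ∀ i' ∈ S, |V i - V i'| ≤ s 0)
    (hP0 : ∀ j, 0 ≤ P j) (hQ0 : ∀ j, 0 ≤ Q j)
    (hP : ∀ j ≤ J, ∀ i ∈ S,
      ((S.filter fun i' => |V i' - V i| ≤ s j ∧ |A i' - A i| ≤ (r + e) + 2 * s j).card : ℝ) ≤ P j)
    (hQ : ∀ j < J, ∀ k ∈ Z,
      ((Z.filter fun k' => |z k' - z k| ≤ 2 * (r + e) / s (j + 1)).card : ℝ) ≤ Q j * Z.card)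
    (hQJ : 1 ≤ Q J) :
    lam ^ 2 * (S.card : ℝ) ≤ K * ∑ j ∈ range (J + 1), P j * Q j := by
  classical
  -- (1) the sum over heights of close pairs
  set Sk : ℕ → Finset ι := fun k => S.filter fun i => al i k with hSk
  have hS0 : 0 < (S.card : ℝ) := by exact_mod_cast hSn.card_pos
  have hZ0 : 0 < (Z.card : ℝ) := by exact_mod_cast hZn.card_pos
  have e1 : ∑ i ∈ S, ((Z.filter fun k => al i k).card : ℝ) = ∑ k ∈ Z, ((Sk k).card : ℝ) := by
    have : ∑ i ∈ S, (Z.filter fun k => al i k).card = ∑ k ∈ Z, (Sk k).card := by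
      simp only [hSk, Finset.card_filter]
      exact Finset.sum_comm
    exact_mod_cast this
  have e2 : (∑ k ∈ Z, ((Sk k).card : ℝ)) ^ 2 ≤ (Z.card : ℝ) * ∑ k ∈ Z, ((Sk k).card : ℝ) ^ 2 :=
    sq_sum_le_card_mul_sum_sq
  have e3 : ∑ k ∈ Z, ((Sk k).card : ℝ) ^ 2 ≤ K * ∑ k ∈ Z,
      (((Sk k ×ˢ Sk k).filter fun q => |F q.1 k - F q.2 k| ≤ r).card : ℝ) := by
    rw [Finset.mul_sum]
    refine Finset.sum_le_sum fun k hk => ?_
    exact close_pairs_lower (Sk k) (fun i => F i k) r K hr (hcell k hk)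
  -- (2) the upper bound
  have e4 : ∑ k ∈ Z, (((Sk k ×ˢ Sk k).filter fun q => |F q.1 k - F q.2 k| ≤ r).card : ℝ)
      ≤ ∑ q ∈ S ×ˢ S, ((Z.filter fun k =>
          |(A q.1 - A q.2) + (z k - z0) * (V q.1 - V q.2)| ≤ r + e).card : ℝ) := by
    have : ∑ k ∈ Z, ((Sk k ×ˢ Sk k).filter fun q => |F q.1 k - F q.2 k| ≤ r).card
      ≤ ∑ q ∈ S ×ˢ S, (Z.filter fun k =>
          |(A q.1 - A q.2) + (z k - z0) * (V q.1 - V q.2)| ≤ r + e).card := by
      calc _ ≤ ∑ k ∈ Z, ((S ×ˢ S).filter fun q =>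
          |(A q.1 - A q.2) + (z k - z0) * (V q.1 - V q.2)| ≤ r + e).card := by
            refine Finset.sum_le_sum fun k hk => Finset.card_le_card ?_
            intro q hq
            rw [Finset.mem_filter, Finset.mem_product] at hq ⊢
            obtain ⟨⟨q1, q2⟩, q3⟩ := hq
            have q1' := (Finset.mem_filter.1 q1).1
            have q2' := (Finset.mem_filter.1 q2).1
            refine ⟨⟨q1', q2'⟩, ?_⟩
            have h := hF k hk q.1 q1' q.2 q2'
            rw [abs_le] at h q3 ⊢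
            constructor <;> linarith [h.1, h.2, q3.1, q3.2]
        _ = _ := by
            simp only [Finset.card_filter]
            exact Finset.sum_comm
    exact_mod_cast this
  -- classes of pairs
  have e5 : ∀ q ∈ S ×ˢ S, ((Z.filter fun k =>
          |(A q.1 - A q.2) + (z k - z0) * (V q.1 - V q.2)| ≤ r + e).card : ℝ)
      ≤ ∑ j ∈ range (J + 1), (if |V q.2 - V q.1| ≤ s j ∧ |A q.2 - A q.1| ≤ (r + e) + 2 * s j
          then Q j * Z.card else 0) := by
    intro q hq
    rw [Finset.mem_product] at hq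
    set N := Z.filter fun k => |(A q.1 - A q.2) + (z k - z0) * (V q.1 - V q.2)| ≤ r + e with hN
    rcases N.eq_empty_or_nonempty with h0 | ⟨k1, hk1⟩
    · rw [h0]
      simp only [card_empty, Nat.cast_zero]
      refine Finset.sum_nonneg fun j _ => ?_
      split_ifs
      · exact mul_nonneg (hQ0 j) hZ0.le
      · exact le_rfl
    · -- the largest good scale
      have hk1' := Finset.mem_filter.1 hk1
      set D := |V q.1 - V q.2| with hD
      have hsym : |V q.2 - V q.1| = D := by rw [abs_sub_comm]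
      have hD0 : D ≤ s 0 := hs0 _ hq.1 _ hq.2
      have hex : ∃ j ≤ J, D ≤ s j ∧ (j = J ∨ s (j + 1) < D) := by
        by_contra hcon
        push Not at hcon
        have : ∀ j ≤ J, D ≤ s j := by
          intro j
          induction j with
          | zero => intro _; exact hD0
          | succ j ih =>
            intro hj
            have := (hcon j (by omega) (ih (by omega))).2
            exact this
        exact (hcon J le_rfl (this J le_rfl)).1 rfl
      obtain ⟨j, hj, hj1, hj2⟩ := hex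
      have hA : |A q.2 - A q.1| ≤ (r + e) + 2 * s j := by
        have h1 := hk1'.2
        have h2 := hz k1 hk1'.1
        have h3 : |(z k1 - z0) * (V q.1 - V q.2)| ≤ 2 * s j := by
          rw [abs_mul]
          exact mul_le_mul h2 hj1 (abs_nonneg _) (by norm_num)
        rw [abs_le] at h1 h3 ⊢
        constructor <;> linarith [h1.1, h1.2, h3.1, h3.2]
      have hterm : (N.card : ℝ) ≤ Q j * Z.card := by
        rcases hj2 with rfl | hj2
        · have : (N.card : ℝ) ≤ Z.card := by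
            exact_mod_cast Finset.card_le_card (Finset.filter_subset _ _)
          nlinarith
        · by_cases hjJ : j = J
          · subst hjJ
            have : (N.card : ℝ) ≤ Z.card := by
              exact_mod_cast Finset.card_le_card (Finset.filter_subset _ _)
            nlinarith
          · have hlt : j < J := lt_of_le_of_ne hj hjJ
            refine le_trans ?_ (hQ j hlt k1 hk1'.1)
            have : N ⊆ Z.filter fun k' => |z k' - z k1| ≤ 2 * (r + e) / s (j + 1) := by
              intro k hk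
              have hk' := Finset.mem_filter.1 hk
              rw [Finset.mem_filter]
              refine ⟨hk'.1, ?_⟩
              have h1 := hk'.2
              have h2 := hk1'.2
              have h3 : |(z k - z k1) * (V q.1 - V q.2)| ≤ 2 * (r + e) := by
                rw [abs_le] at h1 h2 ⊢
                constructor <;> nlinarith [h1.1, h1.2, h2.1, h2.2]
              rw [abs_mul] at h3
              rw [le_div_iff₀ (hspos _)]
              calc |z k - z k1| * s (j + 1) ≤ |z k - z k1| * |V q.1 - V q.2| :=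
                    mul_le_mul_of_nonneg_left hj2.le (abs_nonneg _)
                _ ≤ _ := h3
            exact_mod_cast Finset.card_le_card this
      calc (N.card : ℝ) ≤ Q j * Z.card := hterm
        _ = (if |V q.2 - V q.1| ≤ s j ∧ |A q.2 - A q.1| ≤ (r + e) + 2 * s j
          then Q j * Z.card else 0) := by
            rw [if_pos ⟨by rw [hsym]; exact hj1, hA⟩]
        _ ≤ _ := by
            refine Finset.single_le_sum (f := fun j =>
              (if |V q.2 - V q.1| ≤ s j ∧ |A q.2 - A q.1| ≤ (r + e) + 2 * s j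
                then Q j * (Z.card : ℝ) else 0)) ?_ (Finset.mem_range.2 (by omega))
            intro j _
            split_ifs
            · exact mul_nonneg (hQ0 j) hZ0.le
            · exact le_rfl
  have e6 : ∑ q ∈ S ×ˢ S, ((Z.filter fun k =>
          |(A q.1 - A q.2) + (z k - z0) * (V q.1 - V q.2)| ≤ r + e).card : ℝ)
      ≤ (S.card : ℝ) * Z.card * ∑ j ∈ range (J + 1), P j * Q j := by
    calc _ ≤ ∑ q ∈ S ×ˢ S, ∑ j ∈ range (J + 1),
          (if |V q.2 - V q.1| ≤ s j ∧ |A q.2 - A q.1| ≤ (r + e) + 2 * s j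
          then Q j * Z.card else 0) := Finset.sum_le_sum e5
      _ = ∑ j ∈ range (J + 1), ∑ i ∈ S, ∑ i' ∈ S,
          (if |V i' - V i| ≤ s j ∧ |A i' - A i| ≤ (r + e) + 2 * s j
          then Q j * Z.card else 0) := by
          rw [Finset.sum_comm]
          refine Finset.sum_congr rfl fun j _ => ?_
          rw [Finset.sum_product]
      _ ≤ ∑ j ∈ range (J + 1), ∑ i ∈ S, P j * (Q j * Z.card) := by
          refine Finset.sum_le_sum fun j hj => Finset.sum_le_sum fun i hi => ?_
          rw [← Finset.sum_filter, Finset.sum_const, nsmul_eq_mul]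
          exact mul_le_mul_of_nonneg_right (hP j (by simpa [Nat.lt_succ_iff] using hj) i hi)
            (mul_nonneg (hQ0 j) hZ0.le)
      _ = _ := by
          simp only [Finset.sum_const, nsmul_eq_mul]
          rw [Finset.mul_sum]
          refine Finset.sum_congr rfl fun j _ => ?_
          ring
  set T := ∑ j ∈ range (J + 1), P j * Q j with hT
  have f1 : (lam * ((S.card : ℝ) * Z.card)) ^ 2 ≤ (∑ k ∈ Z, ((Sk k).card : ℝ)) ^ 2 := by
    rw [← e1]
    exact pow_le_pow_left₀ (by positivity) hal 2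
  have f2 : (lam * ((S.card : ℝ) * Z.card)) ^ 2 ≤ (Z.card : ℝ) * (K * ((S.card : ℝ) * Z.card * T)) := by
    refine f1.trans (e2.trans ?_)
    refine mul_le_mul_of_nonneg_left (e3.trans ?_) hZ0.le
    exact mul_le_mul_of_nonneg_left (e4.trans e6) hK0
  have f3 : (S.card : ℝ) * (Z.card : ℝ) ^ 2 * (lam ^ 2 * S.card)
      ≤ (S.card : ℝ) * (Z.card : ℝ) ^ 2 * (K * T) := by
    nlinarith [f2]
  exact le_of_mul_le_mul_left f3 (by positivity)

end Crest.Agent.R138.Tw829
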