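import Crest.Agent.R138.Ex_926

/-!
# R138: the F-model (helper501), literal definition

`Cfg` = finite data at one `n`: fat lines `ℓ` (index set `L`) `X(z) = a + c z`, `Y(z) = b + d z`,
heights `Z`, slope function `f` of the common planes, incidences `I ⊆ L × Z`.
Coordinates of a line at height `z`: normal position `N = Y - f X`, normal velocity `P = d - f c`,
lateral velocity `C = c`, lateral position `X`.
`cnt` = number of lines of the slice in the box `(ρ^p0, ρ^p1, ρ^p2, ρ^p3)` around a line.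
-/

set_option autoImplicit false
set_option linter.unusedVariables false

open Filter Topology Finset

namespace Crest.Agent.R138.FM501

open Crest.Agent.R138.Ex926

/-- one finite configuration of the F-model -/
structure Cfg where
  ρ : ℝ
  L : Finset ℕ
  Z : Finset ℕ
  I : Finset (ℕ × ℕ)
  a : ℕ → ℝ
  b : ℕ → ℝ
  c : ℕ → ℝ
  d : ℕ → ℝ
  z : ℕ → ℝ
  f : ℕ → ℝ

namespace Cfg

variable (G : Cfg)

/-- lateral position -/
def X (i k : ℕ) : ℝ := G.a i + G.c i * G.z k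
/-- normal position in the plane of slope `f` at height `z k` -/
def N (i k : ℕ) : ℝ := G.b i + G.d i * G.z k - G.f k * G.X i k
/-- normal velocity -/
def P (i k : ℕ) : ℝ := G.d i - G.f k * G.c i

/-- the four coordinates at height `k`: normal position, normal velocity, lateral velocity,
lateral position -/
def co (k i : ℕ) : Fin 4 → ℝ := ![G.N i k, G.P i k, G.c i, G.X i k]

/-- `i'` lies in the box of side exponents `p` around `i` at height `k` -/
def near (p : Fin 4 → ℝ) (k i i' : ℕ) : Prop := ∀ j, |G.co k i' j - G.co k i j| ≤ G.ρ ^ p j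

/-- the lines alive at height `k` -/
def slice (k : ℕ) : Finset ℕ := G.L.filter fun i => (i, k) ∈ G.I

/-- the heights at which the line `i` is alive -/
def hts (i : ℕ) : Finset ℕ := G.Z.filter fun k => (i, k) ∈ G.I

open Classical in
/-- the lines alive at height `k` in the box of side exponents `p` around `i` -/
noncomputable def box (p : Fin 4 → ℝ) (i k : ℕ) : Finset ℕ :=
  (G.slice k).filter fun i' => G.near p k i i'

open Classical in
/-- the heights near height `k` -/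
noncomputable def hbox (x : ℝ) (k : ℕ) : Finset ℕ :=
  G.Z.filter fun k' => |G.z k' - G.z k| ≤ G.ρ ^ x

/-- bounds: all coordinates lie in `[-1/2, 1/2]` -/
structure Bd : Prop where
  a : ∀ i ∈ G.L, |G.a i| ≤ 1 / 8
  b : ∀ i ∈ G.L, |G.b i| ≤ 1 / 8
  c : ∀ i ∈ G.L, |G.c i| ≤ 1 / 8
  d : ∀ i ∈ G.L, |G.d i| ≤ 1 / 8
  z : ∀ k ∈ G.Z, |G.z k| ≤ 1
  f : ∀ k ∈ G.Z, |G.f k| ≤ 1

/-- translation between two heights: `N' = N + u P - g X - u g c` -/
theorem N_change (i k k' : ℕ) : G.N i k' = G.N i k + (G.z k' - G.z k) * G.P i k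
    - (G.f k' - G.f k) * G.X i k - (G.z k' - G.z k) * (G.f k' - G.f k) * G.c i := by
  unfold N P X; ring

theorem P_change (i k k' : ℕ) : G.P i k' = G.P i k - (G.f k' - G.f k) * G.c i := by
  unfold P; ring

theorem X_change (i k k' : ℕ) : G.X i k' = G.X i k + (G.z k' - G.z k) * G.c i := by
  unfold X; ring

end Cfg

/-- **F-model** with base sequence `B`, heights of dimension `σ`, resolution `ρ^R`,
counting exponents `ν` (`#box p = ρ^(-ν p)` at every incidence). -/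
structure FModel (B : Base) (G : ℕ → Cfg) (σ R : ℝ) (ν : (Fin 4 → ℝ) → ℝ) : Prop where
  base : ∀ n, (G n).ρ = B.d n
  sub : ∀ n, (G n).I ⊆ (G n).L ×ˢ (G n).Z
  nonempty : ∀ n, (G n).I.Nonempty
  bd : ∀ n, (G n).Bd
  /-- the resolution is positive and `0 ≤ σ ≤ 1` -/
  R_pos : 0 < R
  σ_nonneg : 0 ≤ σ
  σ_le : σ ≤ 1
  /-- every line is alive at a `ρ^o(1)`-part of the common heights -/
  line : ∀ ε : ℝ, 0 < ε → ∀ᶠ n in (U : Filter ℕ), ∀ i ∈ (G n).L,
    B.d n ^ ε * ((G n).Z.card : ℝ) ≤ (((G n).hts i).card : ℝ)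
  /-- every slice contains a `ρ^o(1)`-part of the lines -/
  slice : ∀ ε : ℝ, 0 < ε → ∀ᶠ n in (U : Filter ℕ), ∀ k ∈ (G n).Z,
    B.d n ^ ε * ((G n).L.card : ℝ) ≤ (((G n).slice k).card : ℝ)
  /-- the common heights are `σ`-Frostman down to scale `ρ^R` -/
  frost : ∀ x : ℝ, 0 ≤ x → x ≤ R → ∀ ε : ℝ, 0 < ε → ∀ᶠ n in (U : Filter ℕ), ∀ k ∈ (G n).Z,
    (((G n).hbox x k).card : ℝ) ≤ B.d n ^ (σ * x - ε) * ((G n).Z.card : ℝ)
  /-- uniform counts in boxes of arbitrary side exponents in `[0, R]` -/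
  unif : ∀ p : Fin 4 → ℝ, (∀ j, 0 ≤ p j ∧ p j ≤ R) → ∀ ε : ℝ, 0 < ε →
    ∀ᶠ n in (U : Filter ℕ), ∀ i k, (i, k) ∈ (G n).I →
      B.d n ^ (-ν p + ε) ≤ (((G n).box p i k).card : ℝ) ∧
      (((G n).box p i k).card : ℝ) ≤ B.d n ^ (-ν p - ε)

/-- natural boxes `(ρ^((1+κ)v), ρ^(κv), 1, ρ^v)` grow at rate `c` in density -/
def Growth (ν : (Fin 4 → ℝ) → ℝ) (κ c : ℝ) : Prop :=
  ∀ v : ℝ, 0 ≤ v → v ≤ 1 → ν ![(1 + κ) * v, κ * v, 0, v] = ν 0 - (2 + κ - c) * v

/-- D-max for straight boxes: width `ρ^y`, thickness `ρ^x`, length `1` -/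
def DMax (ν : (Fin 4 → ℝ) → ℝ) (R : ℝ) : Prop :=
  ∀ x y : ℝ, 0 ≤ x → x ≤ R → 0 ≤ y → y ≤ R → ν ![x, x, y, y] ≤ ν 0 - (x + y)

/-- the decoupled form (`κ ≠ 1`) -/
def Decoupled (ν : (Fin 4 → ℝ) → ℝ) (R a q m y : ℝ) : Prop :=
  ∀ p : Fin 4 → ℝ, (∀ j, 0 ≤ p j ∧ p j ≤ R) →
    ν p = ν 0 - (a * p 0 + q * p 1 + m * p 2 + y * p 3)

/-- the half coupled form (`κ = 1`): only (normal velocity, lateral position) may stay coupled -/
def HalfCoupled (ν : (Fin 4 → ℝ) → ℝ) (R a m : ℝ) (β : ℝ → ℝ → ℝ) : Prop :=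
  ∀ p : Fin 4 → ℝ, (∀ j, 0 ≤ p j ∧ p j ≤ R) →
    ν p = ν 0 - (a * p 0 + m * p 2 + β (p 1) (p 3))

/-- **Block TW0** (decoupled case, every `κ ≥ 0`, no twist hypothesis). -/
def TW0 : Prop := ∀ (B : Base) (G : ℕ → Cfg) (σ R : ℝ) (ν : (Fin 4 → ℝ) → ℝ) (κ c a q m y : ℝ),
  FModel B G σ R ν → 0 ≤ κ → 1 + κ ≤ R → Decoupled ν R a q m y → 0 < m → Growth ν κ c → DMax ν R →
  c ≤ 2 * (1 - σ)

/-- **Block TW1** (`κ = 1`, half coupled case). -/
def TW1 : Prop := ∀ (B : Base) (G : ℕ → Cfg) (σ R : ℝ) (ν : (Fin 4 → ℝ) → ℝ) (c a m : ℝ)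
  (β : ℝ → ℝ → ℝ),
  FModel B G σ R ν → 2 ≤ R → HalfCoupled ν R a m β → 0 < m → Growth ν 1 c → DMax ν R →
  c ≤ 2 * (1 - σ)

end Crest.Agent.R138.FM501
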