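import Crest.Agent.R138.Pm_926
import Crest.Agent.R138.FM_501

/-!
# R138: from dense line/height configurations to 501's F-model (helper926)

* `near_card`: counts in centred boxes from the profile of the coordinate family.
* `exists_fmodel`: every dense sequence of configurations has a sub-configuration which is an
  `FModel` (the counting exponents are the profile of the coordinate family).
-/

set_option autoImplicit false
set_option linter.unusedSectionVars false
set_option linter.unusedVariables false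

open Filter Topology MeasureTheory
open scoped NNReal

namespace Crest.Agent.R138.Ex926

section Near

open Finset

variable {m : ℕ} (B : Base) {ι γ : ℕ → Type*} [∀ n, DecidableEq (ι n)] [∀ n, DecidableEq (γ n)]

theorem Base.ev_rpow_small (B : Base) {η c : ℝ} (hη : 0 < η) (hc : 0 < c) :
    ∀ᶠ n in (U : Filter ℕ), B.d n ^ η ≤ c := by
  have h1 := B.lim0.rpow_const (p := η) (Or.inr hη.le)
  rw [Real.zero_rpow hη.ne'] at h1
  exact (h1.eventually_lt_const hc).mono fun n hn => hn.le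

open Classical in
/-- **centred boxes versus dyadic cells.** -/
theorem near_card (I : ∀ n, Finset (ι n)) (g : ∀ n, ι n → γ n) (x : ∀ n, ι n → Fin m → ℝ)
    {ν : (Fin m → ℝ) → ℝ} {R K : ℝ} (hK : 0 ≤ K)
    (hν : IsProfile B I (cfam B g x) (Set.Icc 0 (fun _ => R + 1)) ν)
    (hlip : ∀ p ∈ Set.Icc (0 : Fin m → ℝ) (fun _ => R + 1), ∀ q ∈ Set.Icc (0 : Fin m → ℝ)
      (fun _ => R + 1), |ν p - ν q| ≤ K * ‖p - q‖) :
    ∀ ε : ℝ, 0 < ε → ∀ᶠ n in (U : Filter ℕ), ∀ p ∈ Set.Icc (0 : Fin m → ℝ) (fun _ => R),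
      ∀ i ∈ I n,
      B.d n ^ (-ν p + ε) ≤ (((I n).filter fun i' => g n i' = g n i ∧
        ∀ j, |x n i' j - x n i j| ≤ B.d n ^ p j).card : ℝ) ∧
      (((I n).filter fun i' => g n i' = g n i ∧
        ∀ j, |x n i' j - x n i j| ≤ B.d n ^ p j).card : ℝ) ≤ B.d n ^ (-ν p - ε) := by
  intro ε hε
  set η : ℝ := min 1 (ε / (4 * (K + 1))) with hη
  have hη0 : 0 < η := lt_min one_pos (by positivity)
  have hη1 : η ≤ 1 := min_le_left _ _
  have hKη : K * η ≤ ε / 4 := by
    have h1 : η ≤ ε / (4 * (K + 1)) := min_le_right _ _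
    rw [le_div_iff₀ (by positivity)] at h1
    nlinarith
  have hexp : ∀ n t, B.d n ^ t = Real.exp (-(t * B.L n)) := by
    intro n t
    rw [Real.rpow_def_of_pos (B.pos n)]; congr 1; simp only [Base.L]; ring
  filter_upwards [hν (ε / 2) (by positivity), B.ev_rpow_small hη0 (c := 1 / 2) (by norm_num),
    B.ev_rpow_small (η := ε / 2) (c := 1 / 3 ^ m) (by positivity) (by positivity)] with
    n h1 h2 h3 p hp i hi
  have hL := B.L_pos n
  have hd := B.pos n
  have hp0 : ∀ j, 0 ≤ p j := fun j => hp.1 j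
  have hpP : p ∈ Set.Icc (0 : Fin m → ℝ) (fun _ => R + 1) :=
    ⟨hp.1, fun j => (hp.2 j).trans (by simp)⟩
  set N := (I n).filter fun i' => g n i' = g n i ∧ ∀ j, |x n i' j - x n i j| ≤ B.d n ^ p j with hN
  constructor
  · -- lower bound
    set p' : Fin m → ℝ := fun j => p j + η with hp'
    have hp'P : p' ∈ Set.Icc (0 : Fin m → ℝ) (fun _ => R + 1) :=
      ⟨fun j => by simp only [hp', Pi.zero_apply]; linarith [hp0 j],
        fun j => by simp only [hp']; linarith [hp.2 j]⟩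
    have hsub : cls (I n) (cfam B g x n p') i ⊆ N := by
      intro y hy
      obtain ⟨y1, y2⟩ := mem_cls.1 hy
      simp only [cfam, Prod.mk.injEq] at y2
      rw [hN, mem_filter]
      refine ⟨y1, y2.1, fun j => ?_⟩
      have e1 := congrFun y2.2 j
      simp only [dcell] at e1
      have e2 := Int.abs_sub_lt_one_of_floor_eq_floor e1
      rw [← sub_mul, abs_mul, abs_of_pos (by positivity : (0:ℝ) < 2 ^ (B.lev n (p' j)))] at e2
      have e3 := B.lt_pow_lev n (p' j)
      rw [pow_succ] at e3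
      have e4 : B.d n ^ (-(p' j)) = B.d n ^ (-(p j)) * B.d n ^ (-η) := by
        rw [← Real.rpow_add hd]; congr 1; simp only [hp']; ring
      have e5 : 2 ≤ B.d n ^ (-η) := by
        rw [Real.rpow_neg hd.le]
        have h4 := Real.rpow_pos_of_pos hd η
        rw [le_inv_comm₀ (by norm_num) h4]
        linarith
      have hdp := Real.rpow_pos_of_pos hd (-(p j))
      have e6 : B.d n ^ (-(p j)) ≤ 2 ^ (B.lev n (p' j)) := by
        rw [e4] at e3
        nlinarith
      have e7 : B.d n ^ (-(p j)) * B.d n ^ (p j) = 1 := by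
        rw [← Real.rpow_add hd]; simp
      have hdp2 := Real.rpow_pos_of_pos hd (p j)
      by_contra hcon
      push Not at hcon
      have e8 : 1 < |x n y j - x n i j| * 2 ^ (B.lev n (p' j)) := by
        calc (1 : ℝ) = B.d n ^ (p j) * B.d n ^ (-(p j)) := by rw [mul_comm]; exact e7.symm
          _ < |x n y j - x n i j| * B.d n ^ (-(p j)) := by gcongr
          _ ≤ |x n y j - x n i j| * 2 ^ (B.lev n (p' j)) := by gcongr
      linarith
    have hcard : ((cls (I n) (cfam B g x n p') i).card : ℝ) ≤ N.card := by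
      exact_mod_cast card_le_card hsub
    refine le_trans ?_ hcard
    have e1 := (abs_le.1 (h1 p' hp'P i hi)).1
    have e2 := (abs_le.1 (hlip p' hp'P p hpP)).1
    have e3 : ‖p' - p‖ ≤ η := by
      refine (pi_norm_le_iff_of_nonneg hη0.le).2 fun j => ?_
      simp only [hp', Pi.sub_apply, add_sub_cancel_left, Real.norm_eq_abs]
      rw [abs_of_pos hη0]
    have e4 : K * ‖p' - p‖ ≤ ε / 4 := (mul_le_mul_of_nonneg_left e3 hK).trans hKη
    have e5 : (1 : ℝ) ≤ (cls (I n) (cfam B g x n p') i).card := cls_card_pos hi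
    rw [hexp, ← Real.le_log_iff_exp_le (by linarith)]
    have e6 : ν p - ε ≤ Real.log ((cls (I n) (cfam B g x n p') i).card) / B.L n := by linarith
    rw [le_div_iff₀ hL] at e6
    linarith
  · -- upper bound
    have hiN : (N.image (cfam B g x n p)).card ≤ 3 ^ m := by
      set z : Fin m → ℤ := dcell (fun j => B.lev n (p j)) (x n i) with hz
      have hsub : N.image (cfam B g x n p) ⊆
          (Fintype.piFinset fun j => Finset.Icc (z j - 1) (z j + 1)).image fun c => (g n i, c) := by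
        intro c hc
        obtain ⟨y, hy, rfl⟩ := mem_image.1 hc
        obtain ⟨y1, y2, y3⟩ := mem_filter.1 hy
        refine mem_image.2 ⟨dcell (fun j => B.lev n (p j)) (x n y), ?_, by simp only [cfam, y2]⟩
        rw [Fintype.mem_piFinset]
        intro j
        have e1 := B.pow_lev_le n (hp0 j)
        have e2 : |x n y j * 2 ^ (B.lev n (p j)) - x n i j * 2 ^ (B.lev n (p j))| ≤ 1 := by
          rw [← sub_mul, abs_mul, abs_of_pos (by positivity : (0:ℝ) < 2 ^ (B.lev n (p j)))]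
          calc |x n y j - x n i j| * 2 ^ (B.lev n (p j))
              ≤ B.d n ^ p j * B.d n ^ (-(p j)) := by
                refine mul_le_mul (y3 j) e1 (by positivity) (Real.rpow_pos_of_pos hd _).le
            _ = 1 := by rw [← Real.rpow_add hd]; simp
        obtain ⟨e3, e4⟩ := abs_le.1 e2
        rw [Finset.mem_Icc]
        simp only [hz, dcell]
        constructor
        · have h6 : ⌊x n i j * 2 ^ (B.lev n (p j))⌋ - 1 ≤ ⌊x n y j * 2 ^ (B.lev n (p j))⌋ := by
            rw [Int.le_floor]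
            push_cast
            have := Int.floor_le (x n i j * 2 ^ (B.lev n (p j)))
            linarith
          exact h6
        · have h6 : ⌊x n y j * 2 ^ (B.lev n (p j))⌋ < ⌊x n i j * 2 ^ (B.lev n (p j))⌋ + 2 := by
            rw [Int.floor_lt]
            push_cast
            have := Int.lt_floor_add_one (x n i j * 2 ^ (B.lev n (p j)))
            linarith
          omega
      refine (card_le_card hsub).trans (card_image_le.trans (le_of_eq ?_))
      rw [Fintype.card_piFinset]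
      have : ∀ j, (Finset.Icc (z j - 1) (z j + 1)).card = 3 := by
        intro j
        rw [Int.card_Icc]
        have : z j + 1 + 1 - (z j - 1) = 3 := by ring
        rw [this]; rfl
      simp [this]
    have hc := le_count_mul N (fun _ => (1 : ℝ)) (cfam B g x n p)
      (m := Real.exp ((ν p + ε / 2) * B.L n)) (fun y hy => by
        rw [sum_const, nsmul_eq_mul, mul_one]
        have y1 : y ∈ I n := (mem_filter.1 hy).1
        have e1 : ((cls N (cfam B g x n p) y).card : ℝ) ≤ (cls (I n) (cfam B g x n p) y).card := by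
          exact_mod_cast card_le_card (cls_mono (filter_subset _ _) _ _)
        refine e1.trans ?_
        have e2 := (abs_le.1 (h1 p hpP y y1)).2
        have e3 : (1 : ℝ) ≤ (cls (I n) (cfam B g x n p) y).card := cls_card_pos y1
        rw [← Real.log_le_iff_le_exp (by linarith), ← div_le_iff₀ hL]
        linarith)
    rw [sum_const, nsmul_eq_mul, mul_one] at hc
    have h4 : ((N.image (cfam B g x n p)).card : ℝ) ≤ 3 ^ m := by exact_mod_cast hiN
    have h5 : (3 : ℝ) ^ m ≤ Real.exp (ε / 2 * B.L n) := by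
      rw [hexp] at h3
      have h6 : (3 : ℝ) ^ m * Real.exp (-(ε / 2 * B.L n)) ≤ 1 := by
        have h7 : (0 : ℝ) < 3 ^ m := by positivity
        rw [le_div_iff₀ h7] at h3
        linarith
      rw [Real.exp_neg, ← div_eq_mul_inv, div_le_one (Real.exp_pos _)] at h6
      exact h6
    calc (N.card : ℝ) ≤ Real.exp ((ν p + ε / 2) * B.L n) * ((N.image (cfam B g x n p)).card : ℝ) := hc
      _ ≤ Real.exp ((ν p + ε / 2) * B.L n) * Real.exp (ε / 2 * B.L n) :=
          mul_le_mul_of_nonneg_left (h4.trans h5) (Real.exp_pos _).le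
      _ = B.d n ^ (-ν p - ε) := by
          rw [← Real.exp_add, hexp]; congr 1; ring

end Near

section FModelSec

open Finset FM501

/-- raw data for an F-model: a dense configuration without any uniformity. -/
structure RawM (B : Base) (G : ℕ → Cfg) (σ R : ℝ) : Prop where
  base : ∀ n, (G n).ρ = B.d n
  sub : ∀ n, (G n).I ⊆ (G n).L ×ˢ (G n).Z
  nonempty : ∀ n, (G n).I.Nonempty
  bd : ∀ n, (G n).Bd
  R_pos : 0 < R
  σ_nonneg : 0 ≤ σ
  σ_le : σ ≤ 1
  pb : ∃ C : ℝ, 0 ≤ C ∧ ∀ᶠ n in (U : Filter ℕ),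
    ((G n).L.card : ℝ) * (G n).Z.card ≤ B.d n ^ (-C)
  dense : ∀ ε : ℝ, 0 < ε → ∀ᶠ n in (U : Filter ℕ),
    B.d n ^ ε * (((G n).L.card : ℝ) * (G n).Z.card) ≤ (G n).I.card
  frost : ∀ x : ℝ, 0 ≤ x → x ≤ R → ∀ ε : ℝ, 0 < ε → ∀ᶠ n in (U : Filter ℕ), ∀ k ∈ (G n).Z,
    (((G n).hbox x k).card : ℝ) ≤ B.d n ^ (σ * x - ε) * ((G n).Z.card : ℝ)

/-- `G'` is a sub-configuration of `G`. -/
structure SubCfg (G' G : Cfg) : Prop where
  ρ : G'.ρ = G.ρ
  a : G'.a = G.a
  b : G'.b = G.b
  c : G'.c = G.c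
  d : G'.d = G.d
  z : G'.z = G.z
  f : G'.f = G.f
  I : G'.I ⊆ G.I
  L : G'.L ⊆ G.L
  Z : G'.Z ⊆ G.Z

/-- the coordinate family of a sequence of configurations -/
noncomputable def gfam (B : Base) (G : ℕ → Cfg) (n : ℕ) (p : Fin 4 → ℝ) (i : ℕ × ℕ) :
    ℕ × (Fin 4 → ℤ) :=
  cfam (ι := fun _ => ℕ × ℕ) (γ := fun _ => ℕ) B (fun _ i => i.2)
    (fun n i => (G n).co i.2 i.1) n p i

open Classical in
theorem card_box_eq (G : Cfg) (hsub : G.I ⊆ G.L ×ˢ G.Z) (p : Fin 4 → ℝ) (i k : ℕ) :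
    (G.box p i k).card = ((G.I).filter fun i' => i'.2 = k ∧
      ∀ j, |G.co i'.2 i'.1 j - G.co k i j| ≤ G.ρ ^ p j).card := by
  have h1 : G.box p i k = (((G.I).filter fun i' => i'.2 = k ∧
      ∀ j, |G.co i'.2 i'.1 j - G.co k i j| ≤ G.ρ ^ p j).image Prod.fst) := by
    ext y
    constructor
    · intro hy
      have h1 := mem_filter.1 hy
      have h2 := mem_filter.1 h1.1
      exact mem_image.2 ⟨(y, k), mem_filter.2 ⟨h2.2, rfl, h1.2⟩, rfl⟩
    · intro hy
      obtain ⟨⟨u, v⟩, h, h4⟩ := mem_image.1 hy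
      obtain ⟨h1, h2, h3⟩ := mem_filter.1 h
      simp only at h2 h4 h3
      subst h2; subst h4
      exact mem_filter.2 ⟨mem_filter.2 ⟨(mem_product.1 (hsub h1)).1, h1⟩, h3⟩
  rw [h1, card_image_of_injOn]
  intro x hx y hy hxy
  have e1 := (mem_filter.1 hx).2.1
  have e2 := (mem_filter.1 hy).2.1
  exact Prod.ext hxy (e1.trans e2.symm)

theorem card_hts_eq (G : Cfg) (hsub : G.I ⊆ G.L ×ˢ G.Z) (i k : ℕ) :
    (G.hts i).card = (cls G.I Prod.fst (i, k)).card := by
  have h1 : G.hts i = (cls G.I Prod.fst (i, k)).image Prod.snd := by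
    ext y
    simp only [Cfg.hts, mem_filter, mem_image, mem_cls]
    constructor
    · rintro ⟨h1, h2⟩
      exact ⟨(i, y), ⟨h2, rfl⟩, rfl⟩
    · rintro ⟨⟨u, v⟩, ⟨h1, h2⟩, h4⟩
      simp only at h2 h4
      subst h2; subst h4
      exact ⟨(mem_product.1 (hsub h1)).2, h1⟩
  rw [h1, card_image_of_injOn]
  intro x hx y hy hxy
  have e1 := (mem_cls.1 hx).2
  have e2 := (mem_cls.1 hy).2
  exact Prod.ext (e1.trans e2.symm) hxy

theorem card_slice_eq (G : Cfg) (hsub : G.I ⊆ G.L ×ˢ G.Z) (i k : ℕ) :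
    (G.slice k).card = (cls G.I Prod.snd (i, k)).card := by
  have h1 : G.slice k = (cls G.I Prod.snd (i, k)).image Prod.fst := by
    ext y
    simp only [Cfg.slice, mem_filter, mem_image, mem_cls]
    constructor
    · rintro ⟨h1, h2⟩
      exact ⟨(y, k), ⟨h2, rfl⟩, rfl⟩
    · rintro ⟨⟨u, v⟩, ⟨h1, h2⟩, h4⟩
      simp only at h2 h4
      subst h2; subst h4
      exact ⟨(mem_product.1 (hsub h1)).1, h1⟩
  rw [h1, card_image_of_injOn]
  intro x hx y hy hxy
  have e1 := (mem_cls.1 hx).2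
  have e2 := (mem_cls.1 hy).2
  exact Prod.ext hxy (e1.trans e2.symm)

/-- **Every dense sequence of configurations has a sub-configuration which is an `FModel`.**
The exponents `ν` are `4`-Lipschitz, antitone, supermodular, and the counts in the original boxes are
the same up to `ρ^{o(1)}`. -/
theorem exists_fmodel (B : Base) (G : ℕ → Cfg) {σ R : ℝ} (h : RawM B G σ R) :
    ∃ (G' : ℕ → Cfg) (ν : (Fin 4 → ℝ) → ℝ) (S : ℕ → ℝ), FModel B G' σ R ν ∧
      (∀ n, SubCfg (G' n) (G n)) ∧ B.Sub S ∧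
      (∀ᶠ n in (U : Filter ℕ), ((G n).I.card : ℝ) ≤ S n * (G' n).I.card) ∧
      (∀ ε : ℝ, 0 < ε → ∀ᶠ n in (U : Filter ℕ), ∀ p ∈ Set.Icc (0 : Fin 4 → ℝ) (fun _ => R),
        ∀ i k, (i, k) ∈ (G' n).I →
          B.d n ^ (-ν p + ε) ≤ (((G' n).box p i k).card : ℝ) ∧
          (((G' n).box p i k).card : ℝ) ≤ B.d n ^ (-ν p - ε)) ∧
      (∀ p ∈ Set.Icc (0 : Fin 4 → ℝ) (fun _ => R), ∀ q ∈ Set.Icc (0 : Fin 4 → ℝ) (fun _ => R),
        |ν p - ν q| ≤ 4 * ‖p - q‖) ∧
      (∀ p ∈ Set.Icc (0 : Fin 4 → ℝ) (fun _ => R), ∀ q ∈ Set.Icc (0 : Fin 4 → ℝ) (fun _ => R),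
        p ≤ q → ν q ≤ ν p) ∧
      (∀ p ∈ Set.Icc (0 : Fin 4 → ℝ) (fun _ => R), ∀ q ∈ Set.Icc (0 : Fin 4 → ℝ) (fun _ => R),
        ν p + ν q ≤ ν (p ⊔ q) + ν (p ⊓ q)) := by
  classical
  obtain ⟨C, hC, hpb⟩ := h.pb
  have hR := h.R_pos
  have hLZ : ∀ n, ((G n).I.card : ℝ) ≤ ((G n).L.card : ℝ) * (G n).Z.card := by
    intro n
    have := card_le_card (h.sub n)
    rw [card_product] at this
    exact_mod_cast this
  set f : Fin 3 → ∀ n : ℕ, (Fin 4 → ℝ) → (ℕ × ℕ) → ℕ × (Fin 4 → ℤ) := fun j n p i =>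
    if j = 0 then gfam B G n p i else if j = 1 then (i.1, 0) else (i.2, 0) with hf
  have hf0 : f 0 = gfam B G := by funext n p i; simp [hf]
  have hf1 : f 1 = fun n p i => (i.1, 0) := by funext n p i; simp [hf]
  have hf2 : f 2 = fun n p i => (i.2, 0) := by funext n p i; simp [hf]
  have hfam : ∀ j, PFam B (fun n => (G n).I) (f j) ((4 : ℕ) : ℝ)
      (Set.Icc (0 : Fin 4 → ℝ) (fun _ => R + 1)) := by
    intro j
    fin_cases j
    · change PFam B (fun n => (G n).I) (f 0) _ _
      rw [hf0]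
      exact cfam_PFam (ι := fun _ => ℕ × ℕ) (γ := fun _ => ℕ) B _ _ _ _ _ (fun j => le_rfl)
    · change PFam B (fun n => (G n).I) (f 1) _ _
      rw [hf1]
      exact PFam.const (ι := fun _ => ℕ × ℕ) (κ := fun _ => ℕ × (Fin 4 → ℤ)) B _
        (fun n i => (i.1, 0)) (by positivity) _
    · change PFam B (fun n => (G n).I) (f 2) _ _
      rw [hf2]
      exact PFam.const (ι := fun _ => ℕ × ℕ) (κ := fun _ => ℕ × (Fin 4 → ℤ)) B _
        (fun n i => (i.2, 0)) (by positivity) _
  obtain ⟨I', S, hS, hI', hu⟩ := exists_punif_many (ι := fun _ => ℕ × ℕ) (J := Fin 3)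
    (m := fun _ => 4) (κ := fun _ _ => ℕ × (Fin 4 → ℤ)) (f := f) (K := fun _ => ((4 : ℕ) : ℝ))
    (B := B) (I := fun n => (G n).I)
    (a := fun _ => 0) (b := fun _ _ => R + 1) (fun _ => by positivity)
    (fun _ _ => by simp only [Pi.zero_apply]; linarith) hfam
    (Eventually.of_forall fun n => h.nonempty n) hC
    (hpb.mono fun n hn => (hLZ n).trans hn)
  -- the sub-configuration
  set I'' : ℕ → Finset (ℕ × ℕ) := fun n =>
    if I' n ⊆ (G n).I ∧ (I' n).Nonempty then I' n else (G n).I with hI''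
  have hI''s : ∀ n, I'' n ⊆ (G n).I := by
    intro n
    simp only [hI'']
    split_ifs with h1
    · exact h1.1
    · exact Subset.refl _
  have hI''n : ∀ n, (I'' n).Nonempty := by
    intro n
    simp only [hI'']
    split_ifs with h1
    · exact h1.2
    · exact h.nonempty n
  have hI''e : ∀ᶠ n in (U : Filter ℕ), I'' n = I' n := by
    filter_upwards [hI'] with n hn
    simp only [hI'', if_pos (show I' n ⊆ (G n).I ∧ (I' n).Nonempty from ⟨hn.1, hn.2.1⟩)]
  set G' : ℕ → Cfg := fun n => { G n with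
    I := I'' n, L := (I'' n).image Prod.fst, Z := (I'' n).image Prod.snd } with hG'
  have hsub' : ∀ n, (G' n).I ⊆ (G' n).L ×ˢ (G' n).Z := fun n x hx =>
    mem_product.2 ⟨mem_image_of_mem _ hx, mem_image_of_mem _ hx⟩
  have hL' : ∀ n, (G' n).L ⊆ (G n).L := by
    intro n y hy
    obtain ⟨x, hx, rfl⟩ := mem_image.1 hy
    exact (mem_product.1 (h.sub n (hI''s n hx))).1
  have hZ' : ∀ n, (G' n).Z ⊆ (G n).Z := by
    intro n y hy
    obtain ⟨x, hx, rfl⟩ := mem_image.1 hy
    exact (mem_product.1 (h.sub n (hI''s n hx))).2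
  -- the profile
  have hu0 : PUnif B (fun n => (G n).I) I'' (gfam B G) (Set.Icc (0 : Fin 4 → ℝ) (fun _ => R + 1)) := by
    intro ε hε
    have := hu 0 ε hε
    rw [hf0] at this
    filter_upwards [this, hI''e] with n h1 h2
    rw [h2]; exact h1
  have hsubev : ∀ᶠ n in (U : Filter ℕ), I'' n ⊆ (G n).I := Eventually.of_forall hI''s
  have hfam0 := hfam 0
  rw [hf0] at hfam0
  obtain ⟨ν, hν, -, hlip, hanti, -⟩ := PUnif.exists_profile (ι := fun _ => ℕ × ℕ)
    (κ := fun _ => ℕ × (Fin 4 → ℤ)) (B := B) (I := fun n => (G n).I) (I' := I'')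
    (by positivity) hfam0 hsubev (Eventually.of_forall hI''n)
    (hpb.mono fun n hn => (hLZ n).trans hn) hu0
  have hsm : ∀ p ∈ Set.Icc (0 : Fin 4 → ℝ) (fun _ => R + 1),
      ∀ q ∈ Set.Icc (0 : Fin 4 → ℝ) (fun _ => R + 1), ν p + ν q ≤ ν (p ⊔ q) + ν (p ⊓ q) := by
    intro p hp q hq
    exact IsProfile.submod (ι := fun _ => ℕ × ℕ) (κ := fun _ => ℕ × (Fin 4 → ℤ))
      (Eventually.of_forall hI''n) hν (hfam0.mono hsubev (Set.Subset.refl _))
      (PJoin.mono (cfam_PJoin (ι := fun _ => ℕ × ℕ) (γ := fun _ => ℕ) B (fun n => (G n).I) _ _ _)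
        hsubev (Set.Subset.refl _)) hp hq
  have hnear := near_card (ι := fun _ => ℕ × ℕ) (γ := fun _ => ℕ) B I'' (fun _ i => i.2)
    (fun n i => (G n).co i.2 i.1) (ν := ν) (R := R) (K := ((4 : ℕ) : ℝ)) (by positivity) hν hlip
  have hRR : Set.Icc (0 : Fin 4 → ℝ) (fun _ => R) ⊆ Set.Icc (0 : Fin 4 → ℝ) (fun _ => R + 1) := by
    rintro p ⟨h1, h2⟩
    exact ⟨h1, fun j => (h2 j).trans (by simp)⟩
  have hboxes : ∀ ε : ℝ, 0 < ε → ∀ᶠ n in (U : Filter ℕ),
      ∀ p ∈ Set.Icc (0 : Fin 4 → ℝ) (fun _ => R), ∀ i k, (i, k) ∈ (G' n).I →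
          B.d n ^ (-ν p + ε) ≤ (((G' n).box p i k).card : ℝ) ∧
          (((G' n).box p i k).card : ℝ) ≤ B.d n ^ (-ν p - ε) := by
    intro ε hε
    filter_upwards [hnear ε hε] with n hn p hp i k hik
    have h1 := hn p hp (i, k) hik
    rw [card_box_eq (G' n) (hsub' n)]
    have hρ : (G' n).ρ = B.d n := h.base n
    rw [hρ]
    exact h1
  -- densities
  have hcardI : ∀ᶠ n in (U : Filter ℕ), ((G n).I.card : ℝ) ≤ S n * (G' n).I.card := by
    filter_upwards [hI', hI''e] with n h1 h2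
    have : (G' n).I = I' n := h2
    rw [this]; exact h1.2.2.1
  have hSsmall : ∀ ε : ℝ, 0 < ε → ∀ᶠ n in (U : Filter ℕ), 0 < S n ∧ S n ≤ B.d n ^ (-ε) := by
    intro ε hε
    filter_upwards [hS.1.pos, Base.ex_lt_iff_dpow hS.1 (a := ε) (by rw [hS.2]; exact hε)] with n a1 a2
    exact ⟨a1, a2.le⟩
  have hdense : ∀ ε : ℝ, 0 < ε → ∀ᶠ n in (U : Filter ℕ),
      B.d n ^ ε * (((G n).L.card : ℝ) * (G n).Z.card) ≤ (G' n).I.card := by
    intro ε hε
    filter_upwards [h.dense (ε / 2) (by positivity), hcardI, hSsmall (ε / 2) (by positivity)] with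
      n h1 h2 h3
    have hd := B.pos n
    have e1 : B.d n ^ ε = B.d n ^ (ε / 2) * B.d n ^ (ε / 2) := by
      rw [← Real.rpow_add hd]; congr 1; ring
    have e2 : B.d n ^ (ε / 2) * B.d n ^ (-(ε / 2)) = 1 := by
      rw [← Real.rpow_add hd]; simp
    have hp := Real.rpow_pos_of_pos hd (ε / 2)
    have hI0 : (0 : ℝ) ≤ (G' n).I.card := Nat.cast_nonneg _
    calc B.d n ^ ε * (((G n).L.card : ℝ) * (G n).Z.card)
        = B.d n ^ (ε / 2) * (B.d n ^ (ε / 2) * (((G n).L.card : ℝ) * (G n).Z.card)) := by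
          rw [e1]; ring
      _ ≤ B.d n ^ (ε / 2) * (S n * (G' n).I.card) :=
          mul_le_mul_of_nonneg_left (h1.trans h2) hp.le
      _ ≤ B.d n ^ (ε / 2) * (B.d n ^ (-(ε / 2)) * (G' n).I.card) := by
          refine mul_le_mul_of_nonneg_left (mul_le_mul_of_nonneg_right h3.2 hI0) hp.le
      _ = (G' n).I.card := by rw [← mul_assoc, e2, one_mul]
  have hL0 : ∀ n, (0 : ℝ) < (G n).L.card ∧ (0 : ℝ) < (G n).Z.card := by
    intro n
    obtain ⟨x, hx⟩ := h.nonempty n
    have := mem_product.1 (h.sub n hx)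
    exact ⟨by exact_mod_cast card_pos.2 ⟨_, this.1⟩, by exact_mod_cast card_pos.2 ⟨_, this.2⟩⟩
  have hL'0 : ∀ n, (0 : ℝ) < (G' n).L.card ∧ (0 : ℝ) < (G' n).Z.card := by
    intro n
    obtain ⟨x, hx⟩ := hI''n n
    have := mem_product.1 (hsub' n hx)
    exact ⟨by exact_mod_cast card_pos.2 ⟨_, this.1⟩, by exact_mod_cast card_pos.2 ⟨_, this.2⟩⟩
  have hLL : ∀ n, ((G' n).L.card : ℝ) ≤ (G n).L.card := fun n => by
    exact_mod_cast card_le_card (hL' n)
  have hZZ : ∀ n, ((G' n).Z.card : ℝ) ≤ (G n).Z.card := fun n => by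
    exact_mod_cast card_le_card (hZ' n)
  -- uniformity of lines and slices
  have hself1 : ∀ ε : ℝ, 0 < ε → ∀ᶠ n in (U : Filter ℕ), ∀ i ∈ I'' n, ∀ i₀ ∈ I'' n,
      ((cls (I'' n) Prod.fst i).card : ℝ) ≤ B.d n ^ (-ε) * (cls (I'' n) Prod.fst i₀).card := by
    intro ε hε
    have h1 := PUnif.self (ι := fun _ => ℕ × ℕ) (κ := fun _ => ℕ × (Fin 4 → ℤ)) (hu 1)
      (hI'.mono fun n hn => hn.1) ε hε
    rw [hf1] at h1
    filter_upwards [h1, hI''e] with n h1 h2 i hi i₀ hi₀
    rw [h2] at hi hi₀ ⊢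
    have h3 := h1 0 ⟨le_rfl, fun j => by simp only [Pi.zero_apply]; linarith⟩ i hi i₀ hi₀
    have e : ∀ i, cls (I' n) (fun i : ℕ × ℕ => ((i.1, 0) : ℕ × (Fin 4 → ℤ))) i =
        cls (I' n) Prod.fst i := by
      intro i; ext y; rw [mem_cls, mem_cls]; simp
    rw [e, e] at h3
    exact h3
  have hself2 : ∀ ε : ℝ, 0 < ε → ∀ᶠ n in (U : Filter ℕ), ∀ i ∈ I'' n, ∀ i₀ ∈ I'' n,
      ((cls (I'' n) Prod.snd i).card : ℝ) ≤ B.d n ^ (-ε) * (cls (I'' n) Prod.snd i₀).card := by
    intro ε hε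
    have h1 := PUnif.self (ι := fun _ => ℕ × ℕ) (κ := fun _ => ℕ × (Fin 4 → ℤ)) (hu 2)
      (hI'.mono fun n hn => hn.1) ε hε
    rw [hf2] at h1
    filter_upwards [h1, hI''e] with n h1 h2 i hi i₀ hi₀
    rw [h2] at hi hi₀ ⊢
    have h3 := h1 0 ⟨le_rfl, fun j => by simp only [Pi.zero_apply]; linarith⟩ i hi i₀ hi₀
    have e : ∀ i, cls (I' n) (fun i : ℕ × ℕ => ((i.2, 0) : ℕ × (Fin 4 → ℤ))) i =
        cls (I' n) Prod.snd i := by
      intro i; ext y; rw [mem_cls, mem_cls]; simp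
    rw [e, e] at h3
    exact h3
  have hexpd : ∀ n (s t : ℝ), B.d n ^ s * B.d n ^ t = B.d n ^ (s + t) := fun n s t =>
    (Real.rpow_add (B.pos n) s t).symm
  refine ⟨G', ν, S, ?_, ?_, hS, hcardI, hboxes, ?_, ?_, ?_⟩
  · refine
    { base := fun n => h.base n
      sub := hsub'
      nonempty := hI''n
      bd := fun n => ?_
      R_pos := h.R_pos
      σ_nonneg := h.σ_nonneg
      σ_le := h.σ_le
      line := ?_
      slice := ?_
      frost := ?_
      unif := ?_ }
    · have hb := h.bd n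
      exact ⟨fun i hi => hb.a i (hL' n hi), fun i hi => hb.b i (hL' n hi),
        fun i hi => hb.c i (hL' n hi), fun i hi => hb.d i (hL' n hi),
        fun k hk => hb.z k (hZ' n hk), fun k hk => hb.f k (hZ' n hk)⟩
    · intro ε hε
      filter_upwards [hself1 (ε / 2) (by positivity), hdense (ε / 2) (by positivity)] with
        n h1 h2 i hi
      obtain ⟨x, hx, hxi⟩ := mem_image.1 hi
      have hcard : ((G' n).I.card : ℝ) ≤ (B.d n ^ (-(ε / 2)) *
          (cls (I'' n) Prod.fst x).card) * ((I'' n).image Prod.fst).card := by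
        have := le_count_mul (I'' n) (fun _ => (1 : ℝ)) Prod.fst
          (m := B.d n ^ (-(ε / 2)) * (cls (I'' n) Prod.fst x).card) (fun y hy => by
            rw [sum_const, nsmul_eq_mul, mul_one]; exact h1 y hy x hx)
        rw [sum_const, nsmul_eq_mul, mul_one] at this
        exact this
      have e1 : ((G' n).hts i).card = (cls (I'' n) Prod.fst x).card := by
        rw [card_hts_eq (G' n) (hsub' n) i x.2, ← hxi]
      rw [e1]
      have hd := B.pos n
      have hLp := (hL'0 n).1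
      have e2 : ((G' n).L.card : ℝ) = ((I'' n).image Prod.fst).card := rfl
      rw [← e2] at hcard
      have e3 : B.d n ^ (ε / 2) * (((G' n).L.card : ℝ) * (G' n).Z.card) ≤
          (B.d n ^ (-(ε / 2)) * (cls (I'' n) Prod.fst x).card) * (G' n).L.card := by
        refine le_trans (le_trans ?_ h2) hcard
        refine mul_le_mul_of_nonneg_left ?_ (Real.rpow_pos_of_pos hd _).le
        exact mul_le_mul (hLL n) (hZZ n) (Nat.cast_nonneg _) (Nat.cast_nonneg _)
      have e4 : B.d n ^ (ε / 2) * ((G' n).Z.card : ℝ) ≤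
          B.d n ^ (-(ε / 2)) * (cls (I'' n) Prod.fst x).card := by
        refine le_of_mul_le_mul_right ?_ hLp
        calc _ = B.d n ^ (ε / 2) * (((G' n).L.card : ℝ) * (G' n).Z.card) := by ring
          _ ≤ _ := e3
      have hp := Real.rpow_pos_of_pos hd (ε / 2)
      calc B.d n ^ ε * ((G' n).Z.card : ℝ)
          = B.d n ^ (ε / 2) * (B.d n ^ (ε / 2) * ((G' n).Z.card : ℝ)) := by
            rw [← mul_assoc, hexpd]; congr 2; ring
        _ ≤ B.d n ^ (ε / 2) * (B.d n ^ (-(ε / 2)) * (cls (I'' n) Prod.fst x).card) :=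
            mul_le_mul_of_nonneg_left e4 hp.le
        _ = (cls (I'' n) Prod.fst x).card := by
            rw [← mul_assoc, hexpd]; simp
    · intro ε hε
      filter_upwards [hself2 (ε / 2) (by positivity), hdense (ε / 2) (by positivity)] with
        n h1 h2 k hk
      obtain ⟨x, hx, hxk⟩ := mem_image.1 hk
      have hcard : ((G' n).I.card : ℝ) ≤ (B.d n ^ (-(ε / 2)) *
          (cls (I'' n) Prod.snd x).card) * ((I'' n).image Prod.snd).card := by
        have := le_count_mul (I'' n) (fun _ => (1 : ℝ)) Prod.snd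
          (m := B.d n ^ (-(ε / 2)) * (cls (I'' n) Prod.snd x).card) (fun y hy => by
            rw [sum_const, nsmul_eq_mul, mul_one]; exact h1 y hy x hx)
        rw [sum_const, nsmul_eq_mul, mul_one] at this
        exact this
      have e1 : ((G' n).slice k).card = (cls (I'' n) Prod.snd x).card := by
        rw [card_slice_eq (G' n) (hsub' n) x.1 k, ← hxk]
      rw [e1]
      have hd := B.pos n
      have hZp := (hL'0 n).2
      have e2 : ((G' n).Z.card : ℝ) = ((I'' n).image Prod.snd).card := rfl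
      rw [← e2] at hcard
      have e3 : B.d n ^ (ε / 2) * (((G' n).L.card : ℝ) * (G' n).Z.card) ≤
          (B.d n ^ (-(ε / 2)) * (cls (I'' n) Prod.snd x).card) * (G' n).Z.card := by
        refine le_trans (le_trans ?_ h2) hcard
        refine mul_le_mul_of_nonneg_left ?_ (Real.rpow_pos_of_pos hd _).le
        exact mul_le_mul (hLL n) (hZZ n) (Nat.cast_nonneg _) (Nat.cast_nonneg _)
      have e4 : B.d n ^ (ε / 2) * ((G' n).L.card : ℝ) ≤
          B.d n ^ (-(ε / 2)) * (cls (I'' n) Prod.snd x).card := by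
        refine le_of_mul_le_mul_right ?_ hZp
        calc _ = B.d n ^ (ε / 2) * (((G' n).L.card : ℝ) * (G' n).Z.card) := by ring
          _ ≤ _ := e3
      have hp := Real.rpow_pos_of_pos hd (ε / 2)
      calc B.d n ^ ε * ((G' n).L.card : ℝ)
          = B.d n ^ (ε / 2) * (B.d n ^ (ε / 2) * ((G' n).L.card : ℝ)) := by
            rw [← mul_assoc, hexpd]; congr 2; ring
        _ ≤ B.d n ^ (ε / 2) * (B.d n ^ (-(ε / 2)) * (cls (I'' n) Prod.snd x).card) :=
            mul_le_mul_of_nonneg_left e4 hp.le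
        _ = (cls (I'' n) Prod.snd x).card := by
            rw [← mul_assoc, hexpd]; simp
    · intro x hx0 hxR ε hε
      filter_upwards [h.frost x hx0 hxR (ε / 2) (by positivity), hdense (ε / 2) (by positivity)]
        with n h1 h2 k hk
      have e1 : (((G' n).hbox x k).card : ℝ) ≤ ((G n).hbox x k).card := by
        exact_mod_cast card_le_card (fun y hy => by
          simp only [Cfg.hbox, mem_filter] at hy ⊢
          exact ⟨hZ' n hy.1, hy.2⟩)
      refine e1.trans ((h1 k (hZ' n hk)).trans ?_)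
      have hd := B.pos n
      have hLp := (hL0 n).1
      have e3 : ((G' n).I.card : ℝ) ≤ ((G n).L.card : ℝ) * (G' n).Z.card := by
        have h3 : ((G' n).I.card : ℝ) ≤ ((G' n).L.card : ℝ) * (G' n).Z.card := by
          have := card_le_card (hsub' n)
          rw [card_product] at this
          exact_mod_cast this
        refine h3.trans (mul_le_mul_of_nonneg_right (hLL n) (Nat.cast_nonneg _))
      have e4 : B.d n ^ (ε / 2) * ((G n).Z.card : ℝ) ≤ (G' n).Z.card := by
        refine le_of_mul_le_mul_right ?_ hLp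
        calc _ = B.d n ^ (ε / 2) * (((G n).L.card : ℝ) * (G n).Z.card) := by ring
          _ ≤ (G' n).I.card := h2
          _ ≤ ((G n).L.card : ℝ) * (G' n).Z.card := e3
          _ = (G' n).Z.card * ((G n).L.card : ℝ) := by ring
      calc B.d n ^ (σ * x - ε / 2) * ((G n).Z.card : ℝ)
          = B.d n ^ (σ * x - ε) * (B.d n ^ (ε / 2) * ((G n).Z.card : ℝ)) := by
            rw [← mul_assoc, hexpd]; congr 2; ring
        _ ≤ B.d n ^ (σ * x - ε) * ((G' n).Z.card : ℝ) :=
            mul_le_mul_of_nonneg_left e4 (Real.rpow_pos_of_pos hd _).le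
    · intro p hp ε hε
      filter_upwards [hboxes ε hε] with n hn i k hik
      exact hn p ⟨fun j => (hp j).1, fun j => (hp j).2⟩ i k hik
  · intro n
    exact ⟨rfl, rfl, rfl, rfl, rfl, rfl, rfl, hI''s n, hL' n, hZ' n⟩
  · intro p hp q hq
    have := hlip p (hRR hp) q (hRR hq)
    norm_num at this
    exact this
  · intro p hp q hq hpq
    exact hanti p (hRR hp) q (hRR hq) hpq
  · intro p hp q hq
    exact hsm p (hRR hp) q (hRR hq)

end FModelSec

end Crest.Agent.R138.Ex926
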