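import Mathlib

/-!
# R138 (helper101): flagged cells and grid boxes, literal partitions

A line `ℓ = (a, b, c, d)` is `X z = a + c z`, `Y z = b + d z`.  An incidence is `(ℓ, z, θ)`:
the line, a height and the slope of the plane `Y - θ X = const` attached to the incidence.
For a level pair `(i, j)` the flagged cell is `(⌊2^i z⌋, ⌊2^j θ⌋)`; the box coordinates are
`N = Y - θ_Q X`, `P = d - θ_Q c`, `C = c`, `X` at the corner `(z_Q, θ_Q)` of the cell.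
-/

set_option autoImplicit false
set_option linter.unusedVariables false

namespace Crest.Agent.R138.Flg101

/-- an incidence: line `X z = a + c z`, `Y z = b + d z`, height `z`, slope `θ` -/
structure Inc where
  a : ℝ
  b : ℝ
  c : ℝ
  d : ℝ
  z : ℝ
  θ : ℝ

namespace Inc

/-- lower corner of the dyadic cell of `x` at level `i` -/
noncomputable def fl (i : ℕ) (x : ℝ) : ℝ := (⌊(2:ℝ) ^ i * x⌋ : ℝ) / 2 ^ i

/-- position coordinate `X` at height `h` -/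
def X (w : Inc) (h : ℝ) : ℝ := w.a + w.c * h
/-- position coordinate `Y` at height `h` -/
def Y (w : Inc) (h : ℝ) : ℝ := w.b + w.d * h

/-- normal position of the line at height `h` relative to the plane of slope `f` -/
def N (w : Inc) (h f : ℝ) : ℝ := w.Y h - f * w.X h
/-- normal velocity relative to slope `f` -/
def P (w : Inc) (f : ℝ) : ℝ := w.d - f * w.c

/-- corner height of the flagged cell of level `i` -/
noncomputable def zQ (i : ℕ) (w : Inc) : ℝ := fl i w.z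
/-- corner slope of the flagged cell of level `j` -/
noncomputable def fQ (j : ℕ) (w : Inc) : ℝ := fl j w.θ

/-- the flagged cell -/
noncomputable def cell (i j : ℕ) (w : Inc) : ℤ × ℤ := (⌊(2:ℝ) ^ i * w.z⌋, ⌊(2:ℝ) ^ j * w.θ⌋)

/-- the four coordinates relative to the corner of the flagged cell of level `(i, j)` -/
noncomputable def co (i j : ℕ) (w : Inc) : Fin 4 → ℝ :=
  ![w.N (w.zQ i) (w.fQ j), w.P (w.fQ j), w.c, w.X (w.zQ i)]

/-- the label of the class `(flagged cell, grid box)` -/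
noncomputable def lab (i j : ℕ) (p : Fin 4 → ℕ) (w : Inc) : (ℤ × ℤ) × (Fin 4 → ℤ) :=
  (w.cell i j, fun k => ⌊(2:ℝ) ^ p k * w.co i j k⌋)

end Inc

open Inc

theorem fl_le (i : ℕ) (x : ℝ) : fl i x ≤ x := by
  unfold fl
  rw [div_le_iff₀ (by positivity)]
  calc ((⌊(2:ℝ) ^ i * x⌋ : ℤ) : ℝ) ≤ 2 ^ i * x := Int.floor_le _
    _ = x * 2 ^ i := by ring

theorem lt_fl_add (i : ℕ) (x : ℝ) : x < fl i x + (1 / 2) ^ i := by
  have h := Int.lt_floor_add_one ((2:ℝ) ^ i * x)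
  have h2 : (0:ℝ) < 2 ^ i := by positivity
  have : x * 2 ^ i < ((⌊(2:ℝ) ^ i * x⌋ : ℤ) : ℝ) + 1 := by linarith [mul_comm x ((2:ℝ) ^ i)]
  have h3 : x < (((⌊(2:ℝ) ^ i * x⌋ : ℤ) : ℝ) + 1) / 2 ^ i := by
    rwa [lt_div_iff₀ h2]
  have h4 : (((⌊(2:ℝ) ^ i * x⌋ : ℤ) : ℝ) + 1) / 2 ^ i = fl i x + (1 / 2) ^ i := by
    unfold fl; rw [add_div, div_pow, one_pow]
  linarith

theorem abs_sub_fl (i : ℕ) (x : ℝ) : |x - fl i x| ≤ (1 / 2) ^ i := by
  rw [abs_le]; constructor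
  · have := fl_le i x
    have : (0:ℝ) ≤ (1/2) ^ i := by positivity
    linarith [fl_le i x]
  · linarith [lt_fl_add i x]

/-- same floor at level `p` => distance at most `2^-p` -/
theorem dist_of_floor {p : ℕ} {x y : ℝ} (h : ⌊(2:ℝ) ^ p * x⌋ = ⌊(2:ℝ) ^ p * y⌋) :
    |x - y| ≤ (1 / 2) ^ p := by
  have h1 := Int.abs_sub_lt_one_of_floor_eq_floor h
  have h2 : (0:ℝ) < 2 ^ p := by positivity
  have h3 : |(2:ℝ) ^ p * x - 2 ^ p * y| = 2 ^ p * |x - y| := by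
    rw [← mul_sub, abs_mul, abs_of_pos h2]
  rw [h3] at h1
  have h4 : (1 / 2 : ℝ) ^ p = 1 / 2 ^ p := by rw [div_pow, one_pow]
  rw [h4, le_div_iff₀ h2]
  linarith [mul_comm ((2:ℝ) ^ p) |x - y|]

/-- distance `≤ K 2^-p` => floors at level `p` differ by at most `K + 1` -/
theorem floor_of_dist {p : ℕ} {x y : ℝ} {K : ℕ} (h : |x - y| ≤ K * (1 / 2) ^ p) :
    |⌊(2:ℝ) ^ p * x⌋ - ⌊(2:ℝ) ^ p * y⌋| ≤ K := by
  have h2 : (0:ℝ) < 2 ^ p := by positivity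
  have h3 : |(2:ℝ) ^ p * x - 2 ^ p * y| ≤ K := by
    rw [← mul_sub, abs_mul, abs_of_pos h2]
    calc 2 ^ p * |x - y| ≤ 2 ^ p * (K * (1 / 2) ^ p) := by gcongr
      _ = K := by rw [div_pow, one_pow]; field_simp
  have h4 := Int.floor_le ((2:ℝ) ^ p * x)
  have h5 := Int.lt_floor_add_one ((2:ℝ) ^ p * x)
  have h6 := Int.floor_le ((2:ℝ) ^ p * y)
  have h7 := Int.lt_floor_add_one ((2:ℝ) ^ p * y)
  rw [abs_le] at h3
  have h8 : ((⌊(2:ℝ) ^ p * x⌋ - ⌊(2:ℝ) ^ p * y⌋ : ℤ) : ℝ) < (K : ℝ) + 1 := by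
    push_cast; linarith
  have h9 : -((K : ℝ) + 1) < ((⌊(2:ℝ) ^ p * x⌋ - ⌊(2:ℝ) ^ p * y⌋ : ℤ) : ℝ) := by
    push_cast; linarith
  have h10 : (⌊(2:ℝ) ^ p * x⌋ - ⌊(2:ℝ) ^ p * y⌋ : ℤ) < (K : ℤ) + 1 := by exact_mod_cast h8
  have h11 : -((K : ℤ) + 1) < (⌊(2:ℝ) ^ p * x⌋ - ⌊(2:ℝ) ^ p * y⌋ : ℤ) := by exact_mod_cast h9
  rw [abs_le]; constructor <;> omega

/-- dyadic nestedness of floors -/
theorem floor_nested {i i' : ℕ} (hi : i ≤ i') {x y : ℝ}
    (h : ⌊(2:ℝ) ^ i' * x⌋ = ⌊(2:ℝ) ^ i' * y⌋) : ⌊(2:ℝ) ^ i * x⌋ = ⌊(2:ℝ) ^ i * y⌋ := by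
  obtain ⟨k, rfl⟩ := Nat.exists_eq_add_of_le hi
  have key : ∀ t : ℝ, ⌊(2:ℝ) ^ i * t⌋ = ⌊(2:ℝ) ^ (i + k) * t⌋ / (2 ^ k : ℕ) := by
    intro t
    rw [← Int.floor_div_natCast]
    congr 1
    push_cast
    rw [pow_add]; field_simp
  rw [key x, key y, h]

theorem cell_nested {i i' j j' : ℕ} (hi : i ≤ i') (hj : j ≤ j') {w w' : Inc}
    (h : w.cell i' j' = w'.cell i' j') : w.cell i j = w'.cell i j := by
  unfold Inc.cell at *
  rw [Prod.mk.injEq] at h ⊢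
  exact ⟨floor_nested hi h.1, floor_nested hj h.2⟩

theorem zQ_eq {i j : ℕ} {w w' : Inc} (h : w.cell i j = w'.cell i j) : w.zQ i = w'.zQ i := by
  unfold Inc.cell at h; rw [Prod.mk.injEq] at h
  unfold Inc.zQ fl; rw [h.1]

theorem fQ_eq {i j : ℕ} {w w' : Inc} (h : w.cell i j = w'.cell i j) : w.fQ j = w'.fQ j := by
  unfold Inc.cell at h; rw [Prod.mk.injEq] at h
  unfold Inc.fQ fl; rw [h.2]

/-- distance of the corners of nested cells -/
theorem zQ_dist {i i' : ℕ} (hi : i ≤ i') (w : Inc) : |w.zQ i - w.zQ i'| ≤ (1 / 2) ^ i := by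
  unfold Inc.zQ
  have h1 : fl i w.z ≤ fl i' w.z := by
    obtain ⟨k, rfl⟩ := Nat.exists_eq_add_of_le hi
    unfold fl
    rw [div_le_div_iff₀ (by positivity) (by positivity)]
    have h : ⌊(2:ℝ) ^ i * w.z⌋ * 2 ^ k ≤ ⌊(2:ℝ) ^ (i + k) * w.z⌋ := by
      rw [Int.le_floor]; push_cast
      have := Int.floor_le ((2:ℝ) ^ i * w.z)
      calc ((⌊(2:ℝ) ^ i * w.z⌋ : ℤ) : ℝ) * 2 ^ k ≤ (2 ^ i * w.z) * 2 ^ k := by gcongr
        _ = 2 ^ (i + k) * w.z := by rw [pow_add]; ring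
    have h' : ((⌊(2:ℝ) ^ i * w.z⌋ : ℤ) : ℝ) * 2 ^ k ≤ ((⌊(2:ℝ) ^ (i + k) * w.z⌋ : ℤ) : ℝ) := by
      exact_mod_cast h
    calc ((⌊(2:ℝ) ^ i * w.z⌋ : ℤ) : ℝ) * 2 ^ (i + k)
        = (((⌊(2:ℝ) ^ i * w.z⌋ : ℤ) : ℝ) * 2 ^ k) * 2 ^ i := by rw [pow_add]; ring
      _ ≤ ((⌊(2:ℝ) ^ (i + k) * w.z⌋ : ℤ) : ℝ) * 2 ^ i := by gcongr
  have h2 := fl_le i' w.z
  have h3 := lt_fl_add i w.z
  rw [abs_le]; constructor
  · linarith
  · have : (0:ℝ) ≤ (1/2) ^ i := by positivity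
    linarith

theorem fQ_dist {j j' : ℕ} (hj : j ≤ j') (w : Inc) : |w.fQ j - w.fQ j'| ≤ (1 / 2) ^ j := by
  have := zQ_dist (i := j) (i' := j') hj ⟨0, 0, 0, 0, w.θ, 0⟩
  simpa [Inc.zQ, Inc.fQ] using this

/-- change of corner: `N` -/
theorem N_change (w : Inc) (h h' f f' : ℝ) :
    w.N h' f' = w.N h f + (h' - h) * w.P f - (f' - f) * w.X h - (h' - h) * (f' - f) * w.c := by
  unfold Inc.N Inc.P Inc.X Inc.Y; ring

theorem P_change (w : Inc) (f f' : ℝ) : w.P f' = w.P f - (f' - f) * w.c := by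
  unfold Inc.P; ring

theorem X_change (w : Inc) (h h' : ℝ) : w.X h' = w.X h + (h' - h) * w.c := by
  unfold Inc.X; ring

/-- the four walls: the box `p` is invariant under moves inside a flagged cell of level `(i, j)` -/
structure Wall (i j : ℕ) (p : Fin 4 → ℕ) : Prop where
  w01 : p 0 ≤ p 1 + i
  w32 : p 3 ≤ p 2 + i
  w03 : p 0 ≤ j + p 3
  w12 : p 1 ≤ j + p 2

/-- the constants of the invariance -/
def K4 : Fin 4 → ℕ := ![4, 2, 1, 2]

/-- **(Z1)** two incidences in the same flagged cell of level `(i', j')`, whose coordinates there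
are `2^-p`-close, have `K4 · 2^-p`-close coordinates at every coarser level `(i, j)` for which the
walls hold. -/
theorem co_close {i j i' j' : ℕ} {p : Fin 4 → ℕ} (hi : i ≤ i') (hj : j ≤ j') (hw : Wall i j p)
    {w w' : Inc} (hc : w.cell i' j' = w'.cell i' j')
    (h : ∀ k, |w.co i' j' k - w'.co i' j' k| ≤ (1 / 2) ^ p k) (k : Fin 4) :
    |w.co i j k - w'.co i j k| ≤ K4 k * (1 / 2) ^ p k := by
  have hc' := cell_nested hi hj hc
  have e1 := zQ_eq hc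
  have e2 := fQ_eq hc
  have e3 := zQ_eq hc'
  have e4 := fQ_eq hc'
  have d1 := zQ_dist hi w
  have d2 := fQ_dist hj w
  have h0 := h 0
  have h1 := h 1
  have h2 := h 2
  have h3 := h 3
  simp only [Inc.co, Matrix.cons_val_zero, Matrix.cons_val_one, Matrix.cons_val] at h0 h1 h2 h3
  rw [← e1, ← e2] at h0
  rw [← e2] at h1
  rw [← e1] at h3
  set u := w.zQ i - w.zQ i' with hu
  set g := w.fQ j - w.fQ j' with hg
  have pw : ∀ {m n : ℕ}, m ≤ n → ((1:ℝ) / 2) ^ n ≤ (1 / 2) ^ m := fun {m n} hmn =>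
    pow_le_pow_of_le_one (by norm_num) (by norm_num) hmn
  have q01 : ((1:ℝ) / 2) ^ i * (1 / 2) ^ p 1 ≤ (1 / 2) ^ p 0 := by
    rw [← pow_add]; exact pw (by have := hw.w01; omega)
  have q03 : ((1:ℝ) / 2) ^ j * (1 / 2) ^ p 3 ≤ (1 / 2) ^ p 0 := by
    rw [← pow_add]; exact pw (by have := hw.w03; omega)
  have q02 : ((1:ℝ) / 2) ^ i * (1 / 2) ^ j * (1 / 2) ^ p 2 ≤ (1 / 2) ^ p 0 := by
    rw [← pow_add, ← pow_add]; exact pw (by have := hw.w01; have := hw.w12; omega)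
  have q12 : ((1:ℝ) / 2) ^ j * (1 / 2) ^ p 2 ≤ (1 / 2) ^ p 1 := by
    rw [← pow_add]; exact pw (by have := hw.w12; omega)
  have q32 : ((1:ℝ) / 2) ^ i * (1 / 2) ^ p 2 ≤ (1 / 2) ^ p 3 := by
    rw [← pow_add]; exact pw (by have := hw.w32; omega)
  have nn : ∀ m : ℕ, (0:ℝ) ≤ (1 / 2) ^ m := fun m => by positivity
  fin_cases k
  · -- N
    simp only [Inc.co, Matrix.cons_val_zero, K4, Fin.zero_eta]
    rw [← e3, ← e4, N_change w (w.zQ i') (w.zQ i) (w.fQ j') (w.fQ j),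
      N_change w' (w.zQ i') (w.zQ i) (w.fQ j') (w.fQ j), ← hu, ← hg]
    have a1 : |u * (w.P (w.fQ j') - w'.P (w.fQ j'))| ≤ (1 / 2) ^ p 0 := by
      rw [abs_mul]
      exact (mul_le_mul d1 h1 (abs_nonneg _) (nn _)).trans q01
    have a2 : |g * (w.X (w.zQ i') - w'.X (w.zQ i'))| ≤ (1 / 2) ^ p 0 := by
      rw [abs_mul]
      exact (mul_le_mul d2 h3 (abs_nonneg _) (nn _)).trans q03
    have a3 : |u * g * (w.c - w'.c)| ≤ (1 / 2) ^ p 0 := by
      rw [abs_mul, abs_mul]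
      exact (mul_le_mul (mul_le_mul d1 d2 (abs_nonneg _) (nn _)) h2 (abs_nonneg _)
        (mul_nonneg (nn _) (nn _))).trans q02
    have : w.N (w.zQ i') (w.fQ j') + u * w.P (w.fQ j') - g * w.X (w.zQ i') - u * g * w.c -
        (w'.N (w.zQ i') (w.fQ j') + u * w'.P (w.fQ j') - g * w'.X (w.zQ i') - u * g * w'.c) =
        (w.N (w.zQ i') (w.fQ j') - w'.N (w.zQ i') (w.fQ j')) +
        u * (w.P (w.fQ j') - w'.P (w.fQ j')) - g * (w.X (w.zQ i') - w'.X (w.zQ i')) -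
        u * g * (w.c - w'.c) := by ring
    rw [this]
    rw [abs_le] at *
    push_cast
    constructor <;> linarith [h0.1, h0.2, a1.1, a1.2, a2.1, a2.2, a3.1, a3.2]
  · simp only [Inc.co, Matrix.cons_val_one, K4, Fin.mk_one, Matrix.cons_val_zero]
    rw [← e4, P_change w (w.fQ j') (w.fQ j), P_change w' (w.fQ j') (w.fQ j), ← hg]
    have a3 : |g * (w.c - w'.c)| ≤ (1 / 2) ^ p 1 := by
      rw [abs_mul]
      exact (mul_le_mul d2 h2 (abs_nonneg _) (nn _)).trans q12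
    have : w.P (w.fQ j') - g * w.c - (w'.P (w.fQ j') - g * w'.c) =
        (w.P (w.fQ j') - w'.P (w.fQ j')) - g * (w.c - w'.c) := by ring
    rw [this]
    rw [abs_le] at *
    push_cast
    constructor <;> linarith [h1.1, h1.2, a3.1, a3.2]
  · simp only [Inc.co, K4]
    have : |w.c - w'.c| ≤ ((1:ℕ):ℝ) * (1 / 2) ^ p 2 := by simpa using h2
    simpa using this
  · simp only [Inc.co, K4]
    have e : |w.X (w.zQ i) - w'.X (w'.zQ i)| ≤ ((2:ℕ):ℝ) * (1 / 2) ^ p 3 := by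
      rw [← e3, X_change w (w.zQ i') (w.zQ i), X_change w' (w.zQ i') (w.zQ i), ← hu]
      have a3 : |u * (w.c - w'.c)| ≤ (1 / 2) ^ p 3 := by
        rw [abs_mul]
        exact (mul_le_mul d1 h2 (abs_nonneg _) (nn _)).trans q32
      have : w.X (w.zQ i') + u * w.c - (w'.X (w.zQ i') + u * w'.c) =
          (w.X (w.zQ i') - w'.X (w.zQ i')) + u * (w.c - w'.c) := by ring
      rw [this]
      rw [abs_le] at *
      push_cast
      constructor <;> linarith [h3.1, h3.2, a3.1, a3.2]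
    simpa using e

end Crest.Agent.R138.Flg101
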