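import Crest.Agent.R138.Tilt_51
import Crest.Agent.R138.Flg1_101

/-!
# R138: literal configurations of TEXT I (helper294)

Lines `l : Ln = E2 × E2` (Flag_51: `pos l z = l.1 + z • l.2`), incidences `(l, z)` with real height
`z`, dyadic `z`-cells of level `m` (absolute scales: no rescaling is needed for windows).
A plank `K` of level `m` lives over one cell of level `m`; its objects are pairs (line, cell).
`cap q m K = w1 w2 (w2 2^m)^q` (area times relative wide width to the power `q`);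
density = number of objects / `cap`.
`Cf` = finite configuration of the window `[m, m + M]` with ASSIGNED classes at the deep level
`m + M`.
-/

set_option autoImplicit false
set_option linter.unusedVariables false

open Finset

namespace Crest.Agent.R138.K294

open Crest.Agent.R138.Flag51

noncomputable section

/-- index of the dyadic z-cell of level `m` which contains the height `z` -/
def zc (m : ℕ) (z : ℝ) : ℤ := ⌊(2:ℝ) ^ m * z⌋

/-- centre of the cell `j` of level `m` -/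
def zm (m : ℕ) (j : ℤ) : ℝ := ((j:ℝ) + 1 / 2) / 2 ^ m

/-- radius of the cells of level `m` -/
def zr (m : ℕ) : ℝ := 1 / 2 ^ (m + 1)

/-- a plank over the cell `j` (of a level `m` which is not recorded): base line `l`, unit frame
`e` (direction of the thin side `w1`), wide side `w2` -/
structure Plk where
  j : ℤ
  l : Ln
  e : E2
  w1 : ℝ
  w2 : ℝ

/-- the object `o` = (line, cell of level `m`) lies in the plank `K` -/
def InK (m : ℕ) (K : Plk) (o : Ln × ℤ) : Prop :=
  o.2 = K.j ∧ InPlank o.1 K.l K.e K.w1 K.w2 (zm m K.j) (zr m)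

/-- legal planks of level `m` at resolution `r` -/
structure Legal (m : ℕ) (r : ℝ) (K : Plk) : Prop where
  unit : dt K.e K.e = 1
  r1 : r ≤ K.w1
  w12 : K.w1 ≤ K.w2
  w2 : K.w2 ≤ 1 / 2 ^ m

/-- capacity -/
def cap (q : ℝ) (m : ℕ) (K : Plk) : ℝ := K.w1 * K.w2 * (K.w2 * 2 ^ m) ^ q

/-- the object of level `m` of an incidence -/
def ob (m : ℕ) (x : Ln × ℝ) : Ln × ℤ := (x.1, zc m x.2)

open Classical in
/-- the objects of `I` in the plank `K` -/
def objs (m : ℕ) (I : Finset (Ln × ℝ)) (K : Plk) : Finset (Ln × ℤ) :=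
  (I.image (ob m)).filter (InK m K)

open Classical in
/-- number of cells of level `m'` which the line of `x` has in the `m`-cell of `x` -/
def ownc (m m' : ℕ) (I : Finset (Ln × ℝ)) (x : Ln × ℝ) : ℕ :=
  ((I.filter fun y => ob m y = ob m x).image (ob m')).card

/-- finite configuration of the window `[m, m + M]` (levels), with assigned deep classes -/
structure Cf where
  /-- coarse level -/
  m : ℕ
  /-- number of dyadic levels of the window -/
  M : ℕ
  /-- resolution -/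
  r : ℝ
  /-- incidences -/
  I : Finset (Ln × ℝ)
  /-- class of an object of level `m + M` -/
  cl : Ln × ℤ → ℕ
  /-- plank of a class -/
  K : ℕ → Plk
  /-- upper bound for the densities of level `m` -/
  D0 : ℝ
  /-- lower bound for the class densities of level `m + M` -/
  D1 : ℝ
  /-- lower bound for the own number of cells -/
  nu : ℝ

/-- the deep level -/
def Cf.top (F : Cf) : ℕ := F.m + F.M

open Classical in
/-- the objects of the class of `x` -/
def Cf.cls (F : Cf) (x : Ln × ℝ) : Finset (Ln × ℤ) :=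
  (F.I.image (ob F.top)).filter fun o => F.cl o = F.cl (ob F.top x)

/-- validity of a configuration for the penalty `q` -/
structure Cf.Ok (q : ℝ) (F : Cf) : Prop where
  M1 : 1 ≤ F.M
  r0 : 0 < F.r
  rle : F.r ≤ 1 / 2 ^ F.top
  ne : F.I.Nonempty
  cell : ∀ x ∈ F.I, ∀ y ∈ F.I, zc F.m x.2 = zc F.m y.2
  D1p : 0 < F.D1
  nup : 0 < F.nu
  legal : ∀ x ∈ F.I, Legal F.top F.r (F.K (F.cl (ob F.top x)))
  mem : ∀ x ∈ F.I, InK F.top (F.K (F.cl (ob F.top x))) (ob F.top x)
  low : ∀ x ∈ F.I, F.D1 * cap q F.top (F.K (F.cl (ob F.top x))) ≤ ((F.cls x).card : ℝ)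
  own : ∀ x ∈ F.I, F.nu ≤ (ownc F.m F.top F.I x : ℝ)
  up : ∀ K, Legal F.m F.r K → ((objs F.m F.I K).card : ℝ) ≤ F.D0 * cap q F.m K

/-- the value `(D(1) - D(0) - 2 Λ(1))` of the configuration, in units of the window -/
def Cf.val (F : Cf) : ℝ := Real.logb 2 (F.D1 * F.nu ^ 2 / (4 ^ F.M * F.D0)) / F.M

/-! ### cells -/

theorem zr_pos (m : ℕ) : 0 < zr m := by unfold zr; positivity

theorem two_zr (m : ℕ) : 2 * zr m = 1 / 2 ^ m := by
  unfold zr; rw [pow_succ]; field_simp

theorem abs_sub_zm (m : ℕ) (z : ℝ) : |z - zm m (zc m z)| ≤ zr m := by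
  have h1 := Int.floor_le ((2:ℝ) ^ m * z)
  have h2 := Int.lt_floor_add_one ((2:ℝ) ^ m * z)
  have hp : (0:ℝ) < 2 ^ m := by positivity
  have h3 : z - zm m (zc m z) = (2 ^ m * z - (((⌊(2:ℝ) ^ m * z⌋ : ℤ) : ℝ) + 1 / 2)) / 2 ^ m := by
    unfold zm zc; field_simp
  have h4 : zr m = (1 / 2) / 2 ^ m := by unfold zr; rw [pow_succ]; field_simp
  rw [h3, h4, abs_div, abs_of_pos hp]
  refine div_le_div_of_nonneg_right ?_ hp.le
  rw [abs_le]; constructor <;> linarith

theorem zc_nested {m m' : ℕ} (h : m ≤ m') {z z' : ℝ} (hz : zc m' z = zc m' z') :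
    zc m z = zc m z' := Flg101.floor_nested h hz

/-- the cell of level `m'` of `z` lies in the cell of level `m ≤ m'` of `z` -/
theorem cell_sub {m m' : ℕ} (h : m ≤ m') (z : ℝ) :
    |zm m' (zc m' z) - zm m (zc m z)| + zr m' ≤ zr m := by
  obtain ⟨k, rfl⟩ := Nat.exists_eq_add_of_le h
  have h1 := Int.floor_le ((2:ℝ) ^ m * z)
  have h2 := Int.lt_floor_add_one ((2:ℝ) ^ m * z)
  set a : ℤ := ⌊(2:ℝ) ^ m * z⌋ with ha
  set b : ℤ := ⌊(2:ℝ) ^ (m + k) * z⌋ with hb
  have hk : (0:ℝ) < 2 ^ k := by positivity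
  have hm : (0:ℝ) < 2 ^ m := by positivity
  -- `2^k a ≤ b` and `b + 1 ≤ 2^k (a+1)`
  have e1 : 2 ^ k * a ≤ b := by
    rw [hb, Int.le_floor]
    push_cast
    calc (2:ℝ) ^ k * a ≤ 2 ^ k * (2 ^ m * z) := by gcongr
      _ = 2 ^ (m + k) * z := by rw [pow_add]; ring
  have e2 : b < 2 ^ k * (a + 1) := by
    rw [hb, Int.floor_lt]
    push_cast
    calc (2:ℝ) ^ (m + k) * z = 2 ^ k * (2 ^ m * z) := by rw [pow_add]; ring
      _ < 2 ^ k * (a + 1) := by gcongr
  have e2' : b + 1 ≤ 2 ^ k * (a + 1) := e2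
  have f1 : (2:ℝ) ^ k * a ≤ b := by exact_mod_cast e1
  have f2 : (b:ℝ) + 1 ≤ 2 ^ k * (a + 1) := by exact_mod_cast e2'
  have g1 : zm (m + k) (zc (m + k) z) - zm m (zc m z) =
      ((b + 1 / 2) - 2 ^ k * (a + 1 / 2)) / (2 ^ k * 2 ^ m) := by
    unfold zm zc
    rw [← ha, ← hb, pow_add]; field_simp
  have g2 : zr m - zr (m + k) = (2 ^ k / 2 - 1 / 2) / (2 ^ k * 2 ^ m) := by
    unfold zr; rw [pow_succ, pow_succ, pow_add]; field_simp
  have g3 : |zm (m + k) (zc (m + k) z) - zm m (zc m z)| ≤ zr m - zr (m + k) := by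
    rw [g1, g2, abs_div, abs_of_pos (by positivity : (0:ℝ) < 2 ^ k * 2 ^ m)]
    refine div_le_div_of_nonneg_right ?_ (by positivity)
    rw [abs_le]; constructor <;> linarith
  linarith

theorem zr_anti {m m' : ℕ} (h : m ≤ m') : zr m' ≤ zr m := by
  have := cell_sub h 0
  linarith [abs_nonneg (zm m' (zc m' 0) - zm m (zc m 0))]

/-! ### planks -/

/-- membership has to be checked at the two ends of the cell only -/
theorem inPlank_of_ends {t l : Ln} {e : E2} {a1 a2 z0 ρ : ℝ} (hρ : 0 < ρ)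
    (h1 : |dt (pos t (z0 - ρ) - pos l (z0 - ρ)) e| ≤ a1)
    (h2 : |dt (pos t (z0 + ρ) - pos l (z0 + ρ)) e| ≤ a1)
    (h3 : |cr e (pos t (z0 - ρ) - pos l (z0 - ρ))| ≤ a2)
    (h4 : |cr e (pos t (z0 + ρ) - pos l (z0 + ρ))| ≤ a2) : InPlank t l e a1 a2 z0 ρ := by
  intro z hz
  rw [abs_le] at hz
  -- convex combination
  set s : ℝ := (z - (z0 - ρ)) / (2 * ρ) with hs
  have hs0 : 0 ≤ s := div_nonneg (by linarith) (by linarith)
  have hs1 : s ≤ 1 := by rw [hs, div_le_one (by linarith)]; linarith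
  have hz' : z = (1 - s) * (z0 - ρ) + s * (z0 + ρ) := by
    have : s * (2 * ρ) = z - (z0 - ρ) := by rw [hs]; field_simp
    linarith
  have hd : pos t z - pos l z = (1 - s) • (pos t (z0 - ρ) - pos l (z0 - ρ)) +
      s • (pos t (z0 + ρ) - pos l (z0 + ρ)) := by
    unfold pos
    rw [hz']
    ext i
    simp only [PiLp.sub_apply, PiLp.add_apply, PiLp.smul_apply, smul_eq_mul]
    ring
  have e1 : dt (pos t z - pos l z) e = (1 - s) * dt (pos t (z0 - ρ) - pos l (z0 - ρ)) e +
      s * dt (pos t (z0 + ρ) - pos l (z0 + ρ)) e := by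
    rw [hd]; simp only [dt, PiLp.add_apply, PiLp.smul_apply, smul_eq_mul]; ring
  have e2 : cr e (pos t z - pos l z) = (1 - s) * cr e (pos t (z0 - ρ) - pos l (z0 - ρ)) +
      s * cr e (pos t (z0 + ρ) - pos l (z0 + ρ)) := by
    rw [hd]; simp only [cr, PiLp.add_apply, PiLp.smul_apply, smul_eq_mul]; ring
  have conv : ∀ {A B a : ℝ}, |A| ≤ a → |B| ≤ a → |(1 - s) * A + s * B| ≤ a := by
    intro A B a hA hB
    calc |(1 - s) * A + s * B| ≤ |(1 - s) * A| + |s * B| := abs_add_le _ _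
      _ = (1 - s) * |A| + s * |B| := by
        rw [abs_mul, abs_mul, abs_of_nonneg hs0, abs_of_nonneg (by linarith : 0 ≤ 1 - s)]
      _ ≤ (1 - s) * a + s * a := by
        have : 0 ≤ 1 - s := by linarith
        gcongr
      _ = a := by ring
  rw [e1, e2]
  exact ⟨conv h1 h2, conv h3 h4⟩

/-- the four end coordinates of a line relative to the frame `e` over the cell `(z0, ρ)` -/
def ends (e : E2) (z0 ρ : ℝ) (t : Ln) : Fin 4 → ℝ :=
  ![dt (pos t (z0 - ρ)) e, dt (pos t (z0 + ρ)) e, cr e (pos t (z0 - ρ)), cr e (pos t (z0 + ρ))]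

/-- the grid cell of a line: floors of the end coordinates divided by the widths -/
def gcell (e : E2) (w1 w2 z0 ρ : ℝ) (t : Ln) : Fin 4 → ℤ :=
  ![⌊ends e z0 ρ t 0 / w1⌋, ⌊ends e z0 ρ t 1 / w1⌋, ⌊ends e z0 ρ t 2 / w2⌋,
    ⌊ends e z0 ρ t 3 / w2⌋]

theorem abs_le_of_floor {x y w : ℝ} (hw : 0 < w) (h : ⌊x / w⌋ = ⌊y / w⌋) : |x - y| ≤ w := by
  have h1 := Int.abs_sub_lt_one_of_floor_eq_floor h
  have h2 : |x / w - y / w| = |x - y| / w := by rw [← sub_div, abs_div, abs_of_pos hw]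
  rw [h2, div_lt_one hw] at h1
  exact h1.le

theorem inPlank_of_gcell {e : E2} {w1 w2 z0 ρ : ℝ} (hw1 : 0 < w1) (hw2 : 0 < w2) (hρ : 0 < ρ)
    {t l : Ln} (h : gcell e w1 w2 z0 ρ t = gcell e w1 w2 z0 ρ l) : InPlank t l e w1 w2 z0 ρ := by
  have h0 := congrFun h 0
  have h1 := congrFun h 1
  have h2 := congrFun h 2
  have h3 := congrFun h 3
  simp only [gcell, ends, Matrix.cons_val_zero, Matrix.cons_val_one, Matrix.cons_val] at h0 h1 h2 h3
  refine inPlank_of_ends hρ ?_ ?_ ?_ ?_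
  · rw [dt_sub]; exact abs_le_of_floor hw1 h0
  · rw [dt_sub]; exact abs_le_of_floor hw1 h1
  · rw [cr_sub]; exact abs_le_of_floor hw2 h2
  · rw [cr_sub]; exact abs_le_of_floor hw2 h3

theorem floor_mem_Icc {x y w : ℝ} {n : ℕ} (hw : 0 < w) (h : |x - y| ≤ n * w) :
    ⌊x / w⌋ ∈ Icc (⌊y / w⌋ - n) (⌊y / w⌋ + n) := by
  have h1 : |x / w - y / w| ≤ n := by
    rw [← sub_div, abs_div, abs_of_pos hw, div_le_iff₀ hw]; exact h
  rw [abs_le] at h1
  rw [mem_Icc]
  constructor
  · rw [Int.le_floor]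
    push_cast
    have := Int.floor_le (y / w)
    linarith
  · have h3 := Int.floor_le (x / w)
    have h4 := Int.lt_floor_add_one (y / w)
    have : ((⌊x / w⌋ : ℤ) : ℝ) < ((⌊y / w⌋ + n + 1 : ℤ) : ℝ) := by push_cast; linarith
    have := Int.cast_lt.1 this
    omega

open Classical in
/-- **cover lemma**: a plank of widths `(n w1, n w2)` is covered by `(2n+1)^4` planks of widths
`(w1, w2)` with the same frame, based at lines of the set. -/
theorem cover {ι : Type*} (S : Finset ι) (L : ι → Ln) {e : E2} {w1 w2 z0 ρ : ℝ} (hw1 : 0 < w1)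
    (hw2 : 0 < w2) (hρ : 0 < ρ) {n : ℕ} {l : Ln}
    (hS : ∀ t ∈ S, InPlank (L t) l e (n * w1) (n * w2) z0 ρ) {A : ℝ} (hA0 : 0 ≤ A)
    (hA : ∀ t0 ∈ S, ((S.filter fun t => InPlank (L t) (L t0) e w1 w2 z0 ρ).card : ℝ) ≤ A) :
    (S.card : ℝ) ≤ (2 * n + 1) ^ 4 * A := by
  set g : ι → Fin 4 → ℤ := fun t => gcell e w1 w2 z0 ρ (L t) with hg
  have h1 : (S.card : ℝ) ≤ (S.image g).card * A := by
    have : S.card = ∑ c ∈ S.image g, (S.filter fun t => g t = c).card :=
      card_eq_sum_card_image g S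
    rw [this]
    push_cast
    calc ∑ c ∈ S.image g, ((S.filter fun t => g t = c).card : ℝ) ≤ ∑ c ∈ S.image g, A := by
          refine sum_le_sum fun c hc => ?_
          obtain ⟨t0, ht0, rfl⟩ := mem_image.1 hc
          refine le_trans ?_ (hA t0 ht0)
          refine Nat.cast_le.2 (card_le_card fun t ht => ?_)
          rw [mem_filter] at ht ⊢
          exact ⟨ht.1, inPlank_of_gcell hw1 hw2 hρ ht.2⟩
      _ = (S.image g).card * A := by rw [sum_const, nsmul_eq_mul]
  have hz1 : |z0 - ρ - z0| ≤ ρ := by rw [abs_le]; constructor <;> linarith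
  have hz2 : |z0 + ρ - z0| ≤ ρ := by rw [abs_le]; constructor <;> linarith
  set c0 : Fin 4 → ℤ := gcell e w1 w2 z0 ρ l with hc0
  have h2 : S.image g ⊆ Fintype.piFinset fun i => Icc (c0 i - n) (c0 i + n) := by
    intro c hc
    obtain ⟨t, ht, rfl⟩ := mem_image.1 hc
    have a1 := hS t ht _ hz1
    have a2 := hS t ht _ hz2
    rw [dt_sub, cr_sub] at a1 a2
    rw [Fintype.mem_piFinset]
    intro i
    fin_cases i
    · exact floor_mem_Icc hw1 a1.1
    · exact floor_mem_Icc hw1 a2.1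
    · exact floor_mem_Icc hw2 a1.2
    · exact floor_mem_Icc hw2 a2.2
  have h3 : ((S.image g).card : ℝ) ≤ (2 * n + 1) ^ 4 := by
    have := card_le_card h2
    rw [Fintype.card_piFinset] at this
    have h5 : ∀ i : Fin 4, (Icc (c0 i - n) (c0 i + n)).card = 2 * n + 1 := by
      intro i; rw [Int.card_Icc]; omega
    simp only [h5, prod_const, card_univ, Fintype.card_fin] at this
    exact_mod_cast this
  calc (S.card : ℝ) ≤ (S.image g).card * A := h1
    _ ≤ _ := mul_le_mul_of_nonneg_right h3 hA0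

end

end Crest.Agent.R138.K294
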