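import Mathlib
import Crest.Agent.R138.KDef_294
import Crest.Agent.R138.MkDef_163

/-!
# R138, L12b (helper829): the container of a non-rotating family, finite part

* `popular`: every `c`-class meets at most `C0` labels `Q` => a `1/C0`-dense part where the label
  is a function of the class.
* `Qlab`: label of an incidence = (cell of level `iu`, quantised centre frame, grid cell of the
  line in the representative frame).
* `Qlab_card`: a plank class of level `iv` meets at most `4050` labels.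
* `Qlab_box`: one label = one container plank; `Qlab_rich`: the class of an incidence is close to
  it in the container.
-/

set_option autoImplicit false
set_option linter.unusedVariables false
set_option linter.unusedSectionVars false

open Finset

namespace Crest.Agent.R138.Ctn829

open Crest.Agent.R138.Flag51
open Crest.Agent.R138.K294 (gcell ends inPlank_of_gcell)
open Crest.Agent.R138.Mk163 (zc zl rho)

noncomputable section

/-! ### popular labels -/

open Classical in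
theorem popular {ι κ γ : Type*} (I : Finset ι) (c : ι → κ) (Q : ι → γ) (C0 : ℕ)
    (h : ∀ x ∈ I, ((I.filter fun y => c y = c x).image Q).card ≤ C0) :
    ∃ I' ⊆ I, I.card ≤ C0 * I'.card ∧ (∀ x ∈ I', ∀ y ∈ I', c x = c y → Q x = Q y) ∧
      (∀ x ∈ I', ∀ y ∈ I, c y = c x → Q y = Q x → y ∈ I') := by
  -- the most popular label of a class
  have hex : ∀ k : κ, ∃ g : Option γ, ∀ x ∈ I, c x = k →
      ∃ g0, g = some g0 ∧ (I.filter fun y => c y = k).card ≤
        C0 * (I.filter fun y => c y = k ∧ Q y = g0).card := by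
    intro k
    by_cases hk : ∃ x ∈ I, c x = k
    · obtain ⟨x0, hx0, rfl⟩ := hk
      set S := I.filter fun y => c y = c x0 with hS
      have hne : (S.image Q).Nonempty := ⟨Q x0, mem_image_of_mem _ (by rw [hS, mem_filter]; exact ⟨hx0, rfl⟩)⟩
      obtain ⟨g0, hg0, hmax⟩ := exists_max_image (S.image Q) (fun g => (S.filter fun y => Q y = g).card) hne
      refine ⟨some g0, fun x hx hcx => ⟨g0, rfl, ?_⟩⟩
      have h1 : S.card = ∑ g ∈ S.image Q, (S.filter fun y => Q y = g).card :=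
        card_eq_sum_card_image Q S
      have h2 : S.card ≤ (S.image Q).card * (S.filter fun y => Q y = g0).card := by
        rw [h1]
        refine (sum_le_card_nsmul _ _ _ fun g hg => hmax g hg).trans (le_of_eq ?_)
        rw [smul_eq_mul]
      have h3 : (S.filter fun y => Q y = g0) = I.filter fun y => c y = c x0 ∧ Q y = g0 := by
        rw [hS, filter_filter]
      rw [h3] at h2
      exact h2.trans (Nat.mul_le_mul_right _ (h x0 hx0))
    · exact ⟨none, fun x hx hcx => absurd ⟨x, hx, hcx⟩ hk⟩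
  choose g hg using hex
  set I' := I.filter fun x => g (c x) = some (Q x) with hI'
  refine ⟨I', filter_subset _ _, ?_, ?_, ?_⟩
  · have h1 : I.card = ∑ k ∈ I.image c, (I.filter fun y => c y = k).card :=
      card_eq_sum_card_image c I
    have h2 : I'.card = ∑ k ∈ I.image c, (I'.filter fun y => c y = k).card :=
      card_eq_sum_card_fiberwise (f := c) fun x hx =>
        mem_coe.2 (mem_image_of_mem _ (mem_filter.1 (mem_coe.1 hx)).1)
    rw [h1, h2, mul_sum]
    refine sum_le_sum fun k hk => ?_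
    obtain ⟨x, hx, rfl⟩ := mem_image.1 hk
    obtain ⟨g0, e1, e2⟩ := hg (c x) x hx rfl
    refine e2.trans (Nat.mul_le_mul_left _ (card_le_card ?_))
    intro y hy
    rw [mem_filter] at hy ⊢
    refine ⟨?_, hy.2.1⟩
    rw [hI', mem_filter]
    exact ⟨hy.1, by rw [hy.2.1, e1, hy.2.2]⟩
  · intro x hx y hy hc
    rw [hI', mem_filter] at hx hy
    have := hx.2
    rw [hc, hy.2] at this
    exact (Option.some.inj this).symm
  · intro x hx y hy hc hq
    rw [hI', mem_filter] at hx ⊢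
    exact ⟨hy, by rw [hc, hx.2, hq]⟩

/-! ### frames -/

/-- floor label of a frame -/
def kl (δ : ℝ) (E : E2) : ℤ × ℤ := (⌊E 0 / δ⌋, ⌊E 1 / δ⌋)

open Classical in
/-- a representative unit frame of a label -/
def rep (δ : ℝ) (k : ℤ × ℤ) : E2 :=
  if h : ∃ E : E2, dt E E = 1 ∧ kl δ E = k then h.choose else !₂[1, 0]

theorem rep_spec {δ : ℝ} {E : E2} (hE : dt E E = 1) :
    dt (rep δ (kl δ E)) (rep δ (kl δ E)) = 1 ∧ kl δ (rep δ (kl δ E)) = kl δ E := by
  have h : ∃ E' : E2, dt E' E' = 1 ∧ kl δ E' = kl δ E := ⟨E, hE, rfl⟩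
  unfold rep
  rw [dif_pos h]
  exact h.choose_spec

theorem coord_le {e : E2} (he : dt e e = 1) (i : Fin 2) : |e i| ≤ 1 := by
  have h : e 0 * e 0 + e 1 * e 1 = 1 := he
  fin_cases i
  · show |e 0| ≤ 1
    rw [abs_le]; constructor <;> nlinarith [mul_self_nonneg (e 0), mul_self_nonneg (e 1)]
  · show |e 1| ≤ 1
    rw [abs_le]; constructor <;> nlinarith [mul_self_nonneg (e 0), mul_self_nonneg (e 1)]

/-- the representative is close to every frame which is close to the label frame. -/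
theorem rep_close {δ δ' : ℝ} (hδ : 0 < δ) {E e : E2} (hE : dt E E = 1) (he : dt e e = 1)
    (h : |cr E e| ≤ δ') : |cr (rep δ (kl δ E)) e| ≤ δ' + 2 * δ := by
  obtain ⟨h1, h2⟩ := rep_spec (δ := δ) hE
  set E' := rep δ (kl δ E) with hE'
  have a0 : |E' 0 - E 0| ≤ δ := K294.abs_le_of_floor hδ (congrArg Prod.fst h2)
  have a1 : |E' 1 - E 1| ≤ δ := K294.abs_le_of_floor hδ (congrArg Prod.snd h2)
  have e1 : cr E' e = cr E e + ((E' 0 - E 0) * e 1 - (E' 1 - E 1) * e 0) := by
    simp only [cr]; ring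
  rw [e1]
  refine (abs_add_le _ _).trans ?_
  have b0 := coord_le he 0
  have b1 := coord_le he 1
  have h3 : |(E' 0 - E 0) * e 1| ≤ δ * 1 := by
    rw [abs_mul]; exact mul_le_mul a0 b1 (abs_nonneg _) hδ.le
  have h4 : |(E' 1 - E 1) * e 0| ≤ δ * 1 := by
    rw [abs_mul]; exact mul_le_mul a1 b0 (abs_nonneg _) hδ.le
  have h5 := abs_sub ((E' 0 - E 0) * e 1) ((E' 1 - E 1) * e 0)
  linarith

/-- a unit vector making a small angle with `e` is close to `e` or to `-e`. -/
theorem close_pm {E e : E2} (hE : dt E E = 1) (he : dt e e = 1) {δ : ℝ} (hδ1 : δ ≤ 1)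
    (h : |cr E e| ≤ δ) : ∃ σ : ℝ, (σ = 1 ∨ σ = -1) ∧ ∀ i : Fin 2, |E i - σ * e i| ≤ 2 * δ := by
  have hδ0 : 0 ≤ δ := (abs_nonneg _).trans h
  have hid := unit_id E e
  rw [hE, he, one_mul] at hid
  set c := dt E e with hc
  set s := cr E e with hs
  have hs2 : s ^ 2 ≤ δ ^ 2 := by rw [← sq_abs]; exact pow_le_pow_left₀ (abs_nonneg _) h 2
  have hcabs : |c| ≤ 1 := abs_dt_le_one hE he
  have hc1 : 1 - |c| ≤ δ := by
    have h1 : 1 - |c| ≤ 1 - |c| ^ 2 := by nlinarith [abs_nonneg c]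
    rw [sq_abs] at h1
    nlinarith
  have e0 : E 0 = c * e 0 + s * e 1 := by
    have h1 : E 0 = E 0 * (e 0 * e 0 + e 1 * e 1) := by
      have : e 0 * e 0 + e 1 * e 1 = 1 := he
      rw [this, mul_one]
    rw [h1, hc, hs]; simp only [dt, cr]; ring
  have e1 : E 1 = c * e 1 - s * e 0 := by
    have h1 : E 1 = E 1 * (e 0 * e 0 + e 1 * e 1) := by
      have : e 0 * e 0 + e 1 * e 1 = 1 := he
      rw [this, mul_one]
    rw [h1, hc, hs]; simp only [dt, cr]; ring
  have b0 := coord_le he 0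
  have b1 := coord_le he 1
  rcases le_total 0 c with hc0 | hc0
  · refine ⟨1, Or.inl rfl, ?_⟩
    rw [abs_of_nonneg hc0] at hc1
    have hcc : |c - 1| ≤ δ := by
      rw [abs_of_nonpos (by linarith [le_abs_self c])]; linarith
    intro i
    fin_cases i
    · show |E 0 - 1 * e 0| ≤ 2 * δ
      have : E 0 - 1 * e 0 = (c - 1) * e 0 + s * e 1 := by rw [e0]; ring
      rw [this]
      refine (abs_add_le _ _).trans ?_
      rw [abs_mul, abs_mul]
      have h3 := mul_le_mul hcc b0 (abs_nonneg _) hδ0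
      have h4 := mul_le_mul h b1 (abs_nonneg _) hδ0
      linarith
    · show |E 1 - 1 * e 1| ≤ 2 * δ
      have : E 1 - 1 * e 1 = (c - 1) * e 1 - s * e 0 := by rw [e1]; ring
      rw [this]
      refine (abs_sub _ _).trans ?_
      rw [abs_mul, abs_mul]
      have h3 := mul_le_mul hcc b1 (abs_nonneg _) hδ0
      have h4 := mul_le_mul h b0 (abs_nonneg _) hδ0
      linarith
  · refine ⟨-1, Or.inr rfl, ?_⟩
    rw [abs_of_nonpos hc0] at hc1
    have hcc : |c + 1| ≤ δ := by
      rw [abs_of_nonneg (by linarith [neg_abs_le c])]; linarith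
    intro i
    fin_cases i
    · show |E 0 - -1 * e 0| ≤ 2 * δ
      have : E 0 - -1 * e 0 = (c + 1) * e 0 + s * e 1 := by rw [e0]; ring
      rw [this]
      refine (abs_add_le _ _).trans ?_
      rw [abs_mul, abs_mul]
      have h3 := mul_le_mul hcc b0 (abs_nonneg _) hδ0
      have h4 := mul_le_mul h b1 (abs_nonneg _) hδ0
      linarith
    · show |E 1 - -1 * e 1| ≤ 2 * δ
      have : E 1 - -1 * e 1 = (c + 1) * e 1 - s * e 0 := by rw [e1]; ring
      rw [this]
      refine (abs_sub _ _).trans ?_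
      rw [abs_mul, abs_mul]
      have h3 := mul_le_mul hcc b1 (abs_nonneg _) hδ0
      have h4 := mul_le_mul h b0 (abs_nonneg _) hδ0
      linarith

/-- the possible floor labels of the frames which are `δ`-close to `e` -/
def frs (δ : ℝ) (e : E2) : Finset (ℤ × ℤ) :=
  (Icc (⌊(1 * e 0) / δ⌋ - (2:ℕ)) (⌊(1 * e 0) / δ⌋ + (2:ℕ)) ×ˢ
    Icc (⌊(1 * e 1) / δ⌋ - (2:ℕ)) (⌊(1 * e 1) / δ⌋ + (2:ℕ))) ∪
  (Icc (⌊(-1 * e 0) / δ⌋ - (2:ℕ)) (⌊(-1 * e 0) / δ⌋ + (2:ℕ)) ×ˢ
    Icc (⌊(-1 * e 1) / δ⌋ - (2:ℕ)) (⌊(-1 * e 1) / δ⌋ + (2:ℕ)))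

theorem card_frs (δ : ℝ) (e : E2) : (frs δ e).card ≤ 50 := by
  unfold frs
  refine (card_union_le _ _).trans ?_
  rw [card_product, card_product]
  simp only [Int.card_Icc]
  have h : ∀ a : ℤ, (a + (2:ℕ) + 1 - (a - (2:ℕ))).toNat = 5 := by intro a; omega
  rw [h, h, h, h]

theorem kl_mem {δ : ℝ} (hδ : 0 < δ) (hδ1 : δ ≤ 1) {E e : E2} (hE : dt E E = 1) (he : dt e e = 1)
    (h : |cr E e| ≤ δ) : kl δ E ∈ frs δ e := by
  obtain ⟨σ, hσ, hc⟩ := close_pm hE he hδ1 h
  have h0 : ⌊E 0 / δ⌋ ∈ Icc (⌊(σ * e 0) / δ⌋ - (2:ℕ)) (⌊(σ * e 0) / δ⌋ + (2:ℕ)) :=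
    K294.floor_mem_Icc (n := 2) hδ (by have := hc 0; push_cast; exact this)
  have h1 : ⌊E 1 / δ⌋ ∈ Icc (⌊(σ * e 1) / δ⌋ - (2:ℕ)) (⌊(σ * e 1) / δ⌋ + (2:ℕ)) :=
    K294.floor_mem_Icc (n := 2) hδ (by have := hc 1; push_cast; exact this)
  unfold frs kl
  rw [mem_union, mem_product, mem_product]
  rcases hσ with rfl | rfl
  · exact Or.inl ⟨h0, h1⟩
  · exact Or.inr ⟨h0, h1⟩

/-! ### coordinates in a nearby frame -/

theorem coords {E e : E2} (hE : dt E E = 1) (he : dt e e = 1) {θ A B : ℝ} (h : |cr E e| ≤ θ)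
    {D : E2} (h1 : |dt D e| ≤ A) (h2 : |cr e D| ≤ B) :
    |dt D E| ≤ A + θ * B ∧ |cr E D| ≤ A + B := by
  have hA : 0 ≤ A := (abs_nonneg _).trans h1
  have hB : 0 ≤ B := (abs_nonneg _).trans h2
  have hθ : 0 ≤ θ := (abs_nonneg _).trans h
  have hd := abs_dt_le_one hE he
  have hc := abs_cr_le_one hE he
  constructor
  · rw [dt_of he D]
    refine (abs_sub _ _).trans ?_
    rw [abs_mul, abs_mul]
    have a1 := mul_le_mul hd h1 (abs_nonneg _) zero_le_one
    have a2 := mul_le_mul h h2 (abs_nonneg _) hθ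
    linarith
  · rw [cr_of he D]
    refine (abs_add_le _ _).trans ?_
    rw [abs_mul, abs_mul]
    have a1 := mul_le_mul hd h2 (abs_nonneg _) zero_le_one
    have a2 := mul_le_mul hc h1 (abs_nonneg _) zero_le_one
    linarith

/-! ### the container label -/

/-- label: quantised centre frame and grid cell of the line in the representative frame -/
def Qlab (δ W1 W2 z0 ρ : ℝ) (E : E2) (t : Ln) : (ℤ × ℤ) × (Fin 4 → ℤ) :=
  (kl δ E, gcell (rep δ (kl δ E)) W1 W2 z0 ρ t)

/-- one label = one container plank -/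
theorem Qlab_box {δ W1 W2 z0 ρ : ℝ} {E E' : E2} {t t' : Ln} (hW1 : 0 < W1) (hW2 : 0 < W2)
    (hρ : 0 < ρ) (h : Qlab δ W1 W2 z0 ρ E t = Qlab δ W1 W2 z0 ρ E' t') :
    InPlank t t' (rep δ (kl δ E')) W1 W2 z0 ρ := by
  have h1 : kl δ E = kl δ E' := congrArg Prod.fst h
  have h2 : gcell (rep δ (kl δ E)) W1 W2 z0 ρ t = gcell (rep δ (kl δ E')) W1 W2 z0 ρ t' :=
    congrArg Prod.snd h
  rw [h1] at h2
  exact inPlank_of_gcell hW1 hW2 hρ h2

open Classical in
/-- a plank class of the fine level meets at most `4050` labels -/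
theorem Qlab_card {ι : Type*} (S : Finset ι) (T : ι → Ln) (ce : ι → E2) {b : Ln} {e : E2}
    {w1 w2 δ R z0 ρ z0' ρ' : ℝ} (he : dt e e = 1) (hw2 : 0 < w2) (hw12 : w1 ≤ δ * w2)
    (hδ : 0 < δ) (hδ1 : δ ≤ 1) (hρ' : 0 < ρ') (hR : 1 ≤ R) (hρ : ρ = R * ρ')
    (hz : |z0' - z0| ≤ ρ) (hce : ∀ x ∈ S, dt (ce x) (ce x) = 1)
    (hcl : ∀ x ∈ S, |cr (ce x) e| ≤ δ) (hin : ∀ x ∈ S, InPlank (T x) b e w1 w2 z0' ρ') :
    (S.image fun x => Qlab δ (32 * δ * w2 * R) (32 * w2 * R) z0 ρ (ce x) (T x)).card ≤ 4050 := by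
  have hρ0 : 0 < ρ := by rw [hρ]; positivity
  have hRw : 0 < w2 * R := by positivity
  have hδRw : 0 < δ * (w2 * R) := mul_pos hδ hRw
  have hW1 : 0 < 32 * δ * w2 * R := by
    have : 32 * δ * w2 * R = 32 * (δ * (w2 * R)) := by ring
    rw [this]; positivity
  have hW2 : 0 < 32 * w2 * R := by positivity
  set W1 := 32 * δ * w2 * R with eW1
  set W2 := 32 * w2 * R with eW2
  have hz1 : |z0 - ρ - z0| ≤ ρ := by rw [abs_le]; constructor <;> linarith
  have hz2 : |z0 + ρ - z0| ≤ ρ := by rw [abs_le]; constructor <;> linarith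
  have hsub : (S.image fun x => Qlab δ W1 W2 z0 ρ (ce x) (T x)) ⊆
      (frs δ e).biUnion fun κ =>
        (Fintype.piFinset fun i => Icc (gcell (rep δ κ) W1 W2 z0 ρ b i - (1:ℕ))
          (gcell (rep δ κ) W1 W2 z0 ρ b i + (1:ℕ))).image fun g => (κ, g) := by
    intro c hc
    obtain ⟨x, hx, rfl⟩ := mem_image.1 hc
    rw [mem_biUnion]
    refine ⟨kl δ (ce x), kl_mem hδ hδ1 (hce x hx) he (hcl x hx), ?_⟩
    rw [mem_image]
    refine ⟨gcell (rep δ (kl δ (ce x))) W1 W2 z0 ρ (T x), ?_, rfl⟩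
    have hE := (rep_spec (δ := δ) (hce x hx)).1
    have hEe := rep_close hδ (hce x hx) he (hcl x hx)
    set E := rep δ (kl δ (ce x)) with eE
    have hext := Tilt51.inPlank_extend (hin x hx) hρ' (by rw [hρ]; nlinarith) hz
    have hrr : ρ / ρ' = R := by rw [hρ]; field_simp
    rw [hrr] at hext
    have key : ∀ z, |z - z0| ≤ ρ → |dt (pos (T x) z - pos b z) E| ≤ (1:ℕ) * W1 ∧
        |cr E (pos (T x) z - pos b z)| ≤ (1:ℕ) * W2 := by
      intro z hz'
      have h1 := hext z hz'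
      have h2 := coords hE he hEe h1.1 h1.2
      have e1 : R * w1 ≤ δ * (w2 * R) := by
        have := mul_le_mul_of_nonneg_left hw12 (by linarith : (0:ℝ) ≤ R)
        linarith [this, (by ring : R * (δ * w2) = δ * (w2 * R))]
      have e2 : δ * (w2 * R) ≤ w2 * R := by nlinarith
      constructor
      · refine h2.1.trans ?_
        rw [Nat.cast_one, one_mul, eW1]
        nlinarith
      · refine h2.2.trans ?_
        rw [Nat.cast_one, one_mul, eW2]
        nlinarith
    have k1 := key _ hz1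
    have k2 := key _ hz2
    rw [dt_sub, cr_sub] at k1 k2
    rw [Fintype.mem_piFinset]
    intro i
    fin_cases i
    · exact K294.floor_mem_Icc hW1 k1.1
    · exact K294.floor_mem_Icc hW1 k2.1
    · exact K294.floor_mem_Icc hW2 k1.2
    · exact K294.floor_mem_Icc hW2 k2.2
  refine (card_le_card hsub).trans ?_
  refine (card_biUnion_le_card_mul _ _ 81 fun κ hκ => ?_).trans ?_
  · refine card_image_le.trans ?_
    rw [Fintype.card_piFinset]
    have h5 : ∀ i : Fin 4, (Icc (gcell (rep δ κ) W1 W2 z0 ρ b i - (1:ℕ))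
        (gcell (rep δ κ) W1 W2 z0 ρ b i + (1:ℕ))).card = 3 := by
      intro i; rw [Int.card_Icc]; omega
    simp only [h5, prod_const, card_univ, Fintype.card_fin]
    norm_num
  · have := card_frs δ e
    calc (frs δ e).card * 81 ≤ 50 * 81 := Nat.mul_le_mul_right _ this
      _ = 4050 := by norm_num

/-- two lines of one class are close in the container frame (at the base point of the cell) -/
theorem Qlab_rich {t t' b : Ln} {E e : E2} {w1 w2 δ z0 ρ : ℝ} (hce : dt E E = 1)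
    (he : dt e e = 1) (hw2 : 0 < w2) (hw12 : w1 ≤ δ * w2)
    (hδ : 0 < δ) (hδ1 : δ ≤ 1) (hcl : |cr E e| ≤ δ) (hρ : 0 ≤ ρ)
    (ht : InPlank t b e w1 w2 z0 ρ) (ht' : InPlank t' b e w1 w2 z0 ρ) :
    |cr (rep δ (kl δ E)) (pos t z0 - pos t' z0)| ≤ 32 * w2 ∧
      |dt (pos t z0 - pos t' z0) (rep δ (kl δ E))| ≤ 32 * δ * w2 := by
  have hE := (rep_spec (δ := δ) hce).1
  have hEe := rep_close hδ hce he hcl
  set E' := rep δ (kl δ E) with eE
  have h0 : |z0 - z0| ≤ ρ := by rw [sub_self, abs_zero]; exact hρ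
  have h1 := ht z0 h0
  have h2 := ht' z0 h0
  have e1 : pos t z0 - pos t' z0 = (pos t z0 - pos b z0) - (pos t' z0 - pos b z0) := by abel
  have d1 : |dt (pos t z0 - pos t' z0) e| ≤ 2 * w1 := by
    rw [e1, dt_sub]; exact (abs_sub _ _).trans (by linarith [h1.1, h2.1])
  have d2 : |cr e (pos t z0 - pos t' z0)| ≤ 2 * w2 := by
    rw [e1, cr_sub]; exact (abs_sub _ _).trans (by linarith [h1.2, h2.2])
  have h3 := coords hE he hEe d1 d2
  have e2 : δ * w2 ≤ w2 := by nlinarith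
  have hδw : 0 < δ * w2 := mul_pos hδ hw2
  constructor
  · refine h3.2.trans ?_
    nlinarith
  · refine h3.1.trans ?_
    nlinarith

end

end Crest.Agent.R138.Ctn829
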