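import Crest.Agent.R138.MkDef_163

/-!
# R138, TEXT I, L12 (c) (helper57): arithmetic of Lemma A

For a marked extremal sequence with linear `Λ = s ·`, two levels `u < v` and absolute constants
`η, τ', eps`: intermediate levels `a, a'` with `(v - a)/(v - u) ∈ (η/2, η)` etc. and all the
inequalities between `amp`, `own` and powers of `2` that the finite Lemma A (861, 829) asks for.
-/

set_option autoImplicit false
set_option linter.unusedVariables false

open Finset Filter Topology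

namespace Crest.Agent.R138.LmAN57

open Crest.Agent.R138.Ex926 (Base U)
open Crest.Agent.R138.Flag51 (Ln E2 cr dt InPlank)
open Crest.Agent.R138.Tilt51 (DMax Near)
open Crest.Agent.R138.Dp76 (Dense dpow_pos dpow_add dpow_le dpow_le_one)
open Crest.Agent.R138.Mk163

/-! ### powers of `2` against powers of `d` -/

theorem dpow_exp (B : Base) (n : ℕ) (x : ℝ) : B.d n ^ (-x) = Real.exp (x * B.L n) := by
  rw [Real.rpow_def_of_pos (B.pos n)]
  congr 1
  unfold Base.L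
  ring

theorem two_exp (y : ℝ) : (2 : ℝ) ^ y = Real.exp (y * Real.log 2) := by
  rw [Real.rpow_def_of_pos (by norm_num)]
  congr 1
  ring

theorem two_le {B : Base} {Y : ℕ → ℝ} {y x : ℝ}
    (hY : Tendsto (fun n => Y n * Real.log 2 / B.L n) U (𝓝 y)) (hx : y < x) :
    ∀ᶠ n in (U : Filter ℕ), (2 : ℝ) ^ (Y n) ≤ B.d n ^ (-x) := by
  filter_upwards [hY.eventually_lt_const hx] with n hn
  rw [two_exp, dpow_exp]
  apply Real.exp_le_exp.2
  have := B.L_pos n
  rw [div_lt_iff₀ this] at hn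
  exact hn.le

theorem le_two {B : Base} {Y : ℕ → ℝ} {y x : ℝ}
    (hY : Tendsto (fun n => Y n * Real.log 2 / B.L n) U (𝓝 y)) (hx : x < y) :
    ∀ᶠ n in (U : Filter ℕ), B.d n ^ (-x) ≤ (2 : ℝ) ^ (Y n) := by
  filter_upwards [hY.eventually_const_lt hx] with n hn
  rw [two_exp, dpow_exp]
  apply Real.exp_le_exp.2
  have := B.L_pos n
  rw [lt_div_iff₀ this] at hn
  exact hn.le

/-- linear combinations -/
theorem comb {B : Base} {X Y : ℕ → ℝ} {x y : ℝ} (α β : ℝ)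
    (hX : Tendsto (fun n => X n * Real.log 2 / B.L n) U (𝓝 x))
    (hY : Tendsto (fun n => Y n * Real.log 2 / B.L n) U (𝓝 y)) :
    Tendsto (fun n => (α * X n + β * Y n) * Real.log 2 / B.L n) U (𝓝 (α * x + β * y)) := by
  have := (hX.const_mul α).add (hY.const_mul β)
  refine this.congr fun n => ?_
  ring

section

variable {B : Base} {I : ℕ → Finset (ℕ × ℝ)} {L : ℕ → ℕ → Ln} {lev : ℕ → ℚ → ℕ}
    {r0 A : ℕ → ℝ} {q g s : ℝ} {τ : ℝ → ℝ} {f : ℕ → ℚ → ℕ → ℤ → ℕ} {b : ℕ → ℚ → ℕ → Ln}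
    {e : ℕ → ℚ → ℕ → E2} {w1 w2 : ℕ → ℚ → ℝ}

theorem rho_rpow (i : ℕ) (q : ℝ) : (rho i) ^ (-q) = (2 : ℝ) ^ (q * (i : ℝ)) := by
  have h2 : (0 : ℝ) ≤ 2 := by norm_num
  unfold rho
  rw [one_div, Real.inv_rpow (by positivity), Real.rpow_neg (by positivity), inv_inv,
    ← Real.rpow_natCast, ← Real.rpow_mul h2, mul_comm]

/-- quotient of two amplitudes -/
theorem amp_eq (n : ℕ) (u v : ℚ) :
    amp B lev A q g (fun v => s * v) n v = amp B lev A q g (fun v => s * v) n u *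
      (B.d n ^ (-((2 * s + g) * ((v : ℝ) - u))) *
        (2 : ℝ) ^ (q * ((lev n v : ℝ) - lev n u))) := by
  unfold amp
  rw [rho_rpow, rho_rpow]
  have h1 : B.d n ^ (-(2 * (s * (v : ℝ)) + g * v)) =
      B.d n ^ (-(2 * (s * (u : ℝ)) + g * u)) * B.d n ^ (-((2 * s + g) * ((v : ℝ) - u))) := by
    rw [← dpow_add]; congr 1; ring
  have h2 : (2 : ℝ) ^ (q * (lev n v : ℝ)) =
      (2 : ℝ) ^ (q * (lev n u : ℝ)) * (2 : ℝ) ^ (q * ((lev n v : ℝ) - lev n u)) := by
    rw [← Real.rpow_add (by norm_num)]; congr 1; ring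
  simp only [h1, h2]
  ring

theorem amp_pos (h : ∀ n, 0 < A n) (n : ℕ) (v : ℚ) :
    0 < amp B lev A q g (fun v => s * v) n v := by
  unfold amp
  rw [rho_rpow]
  have := dpow_pos B n (-(2 * (s * (v : ℝ)) + g * v))
  have h2 : (0 : ℝ) < (2 : ℝ) ^ (q * (lev n v : ℝ)) := Real.rpow_pos_of_pos (by norm_num) _
  exact mul_pos (mul_pos (h n) this) h2

/-- one intermediate level -/
theorem one_level (h : Mk B I L lev r0 A q g (fun v => s * v) τ f b e w1 w2) {u v : ℚ}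
    (hu : 0 ≤ u) (huv : u < v) (hv : v ≤ 1) {η eps : ℝ} (hη : 0 < η) (hη1 : η ≤ 1)
    (heps : 0 < eps) :
    ∃ a : ℚ, (u < a ∧ a < v) ∧ ∀ᶠ n in (U : Filter ℕ),
      lev n u ≤ lev n a ∧ lev n a ≤ lev n v ∧
      η / 2 * ((lev n v - lev n u : ℕ) : ℝ) ≤ ((lev n v - lev n a : ℕ) : ℝ) ∧
      ((lev n v - lev n a : ℕ) : ℝ) ≤ η * ((lev n v - lev n u : ℕ) : ℝ) ∧
      amp B lev A q g (fun v => s * v) n a ≤ amp B lev A q g (fun v => s * v) n u *
        (2 : ℝ) ^ ((2 * s + g + q) * (((lev n v - lev n u : ℕ) : ℝ) - ((lev n v - lev n a : ℕ) : ℝ))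
          + eps * ((lev n v - lev n u : ℕ) : ℝ)) ∧
      ∀ x ∈ I n,
        (2 : ℝ) ^ ((1 - s) * ((lev n v - lev n a : ℕ) : ℝ) - eps * ((lev n v - lev n u : ℕ) : ℝ)) ≤
          ((own (I n) (lev n a) (lev n v) x).card : ℝ) ∧
        ((own (I n) (lev n a) (lev n v) x).card : ℝ) ≤
          (2 : ℝ) ^ ((1 - s) * ((lev n v - lev n a : ℕ) : ℝ) +
            eps * ((lev n v - lev n u : ℕ) : ℝ)) := by
  have hvu : (0 : ℝ) < (v : ℝ) - u := by
    have : (u : ℝ) < v := by exact_mod_cast huv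
    linarith
  obtain ⟨a, ha1, ha2⟩ := exists_rat_btwn
    (show (v : ℝ) - η * ((v : ℝ) - u) < (v : ℝ) - η / 2 * ((v : ℝ) - u) by nlinarith)
  have hua : u < a := by
    have : (u : ℝ) < a := by nlinarith
    exact_mod_cast this
  have hav : a < v := by
    have : (a : ℝ) < v := by
      have : 0 < η / 2 * ((v : ℝ) - u) := by positivity
      linarith
    exact_mod_cast this
  have ha0 : 0 ≤ a := hu.trans hua.le
  have hua' : (u : ℝ) < a := by exact_mod_cast hua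
  have hav' : (a : ℝ) < v := by exact_mod_cast hav
  have hM := h.lev_lim u v hu huv.le hv
  have hk := h.lev_lim a v ha0 hav.le hv
  refine ⟨a, ⟨hua, hav⟩, ?_⟩
  -- the powers
  have e1 := comb (B := B) (η / 2) (-1) hM hk
  have e2 := comb (B := B) (-η) 1 hM hk
  have y1 : η / 2 * ((v : ℝ) - u) + -1 * ((v : ℝ) - a) < 0 := by linarith
  have y2 : -η * ((v : ℝ) - u) + 1 * ((v : ℝ) - a) < 0 := by linarith
  have hamp := le_two (B := B) (comb (B := B) ((2 * s + g) + eps) (-(2 * s + g)) hM hk)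
    (x := (2 * s + g) * ((a : ℝ) - u)) (by nlinarith)
  have hO1 := two_le (B := B) (comb (B := B) (-eps) (1 - s) hM hk)
    (x := (1 - s) * ((v : ℝ) - a) - eps * ((v : ℝ) - u) / 2) (by nlinarith)
  have hO2 := le_two (B := B) (comb (B := B) eps (1 - s) hM hk)
    (x := (1 - s) * ((v : ℝ) - a) + eps * ((v : ℝ) - u) / 2) (by nlinarith)
  filter_upwards [h.lev_mono u a hu hua.le (hav.le.trans hv), h.lev_mono a v ha0 hav.le hv,
    e1.eventually_lt_const y1, e2.eventually_lt_const y2, hamp, hO1, hO2,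
    h.own a v ha0 hav.le hv (eps * ((v : ℝ) - u) / 2) (by positivity)]
    with n m1 m2 f1 f2 f3 f4 f5 f6
  have hL := B.L_pos n
  have hlog : 0 < Real.log 2 := Real.log_pos (by norm_num)
  have cM : ((lev n v - lev n u : ℕ) : ℝ) = (lev n v : ℝ) - lev n u :=
    Nat.cast_sub (m1.trans m2)
  have ck : ((lev n v - lev n a : ℕ) : ℝ) = (lev n v : ℝ) - lev n a := Nat.cast_sub m2
  rw [cM, ck]
  refine ⟨m1, m2, ?_, ?_, ?_, ?_⟩
  · rw [div_lt_iff₀ hL, zero_mul] at f1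
    have := (mul_neg_iff.1 f1).resolve_left (by rintro ⟨-, h⟩; linarith)
    linarith [this.1]
  · rw [div_lt_iff₀ hL, zero_mul] at f2
    have := (mul_neg_iff.1 f2).resolve_left (by rintro ⟨-, h⟩; linarith)
    linarith [this.1]
  · rw [amp_eq n u a]
    refine mul_le_mul_of_nonneg_left ?_ (amp_pos h.Apos n u).le
    have e3 : (2 : ℝ) ^ ((2 * s + g + q) * ((lev n v : ℝ) - lev n u - ((lev n v : ℝ) - lev n a)) +
        eps * ((lev n v : ℝ) - lev n u)) =
        (2 : ℝ) ^ (((2 * s + g) + eps) * ((lev n v : ℝ) - lev n u) +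
          -(2 * s + g) * ((lev n v : ℝ) - lev n a)) *
          (2 : ℝ) ^ (q * ((lev n a : ℝ) - lev n u)) := by
      rw [← Real.rpow_add (by norm_num)]; congr 1; ring
    rw [e3]
    exact mul_le_mul_of_nonneg_right f3 (Real.rpow_pos_of_pos (by norm_num) _).le
  · intro x hx
    obtain ⟨g1, g2⟩ := f6 x hx
    constructor
    · have e4 : (1 - s) * ((lev n v : ℝ) - lev n a) - eps * ((lev n v : ℝ) - lev n u) =
          -eps * ((lev n v : ℝ) - lev n u) + (1 - s) * ((lev n v : ℝ) - lev n a) := by ring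
      rw [e4]
      refine f4.trans (le_trans (le_of_eq ?_) g1)
      congr 1
      ring
    · have e4 : (1 - s) * ((lev n v : ℝ) - lev n a) + eps * ((lev n v : ℝ) - lev n u) =
          eps * ((lev n v : ℝ) - lev n u) + (1 - s) * ((lev n v : ℝ) - lev n a) := by ring
      rw [e4]
      refine (g2.trans (le_of_eq ?_)).trans f5
      congr 1
      ring

/-- **arithmetic of L12 (c)**, literal form of 829 -/
theorem arith (h : Mk B I L lev r0 A q g (fun v => s * v) τ f b e w1 w2) {u v : ℚ}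
    (hu : 0 ≤ u) (huv : u < v) (hv : v ≤ 1) {η τ' eps : ℝ} (hη : 0 < η) (hη1 : η ≤ 1)
    (hτ : 0 < τ') (hτ1 : τ' ≤ 1) (heps : 0 < eps) (M0 : ℕ) :
    ∃ a a' : ℚ, (u < a ∧ a < v) ∧ (u < a' ∧ a' < v) ∧ ∃ ε1 : ℝ, 0 < ε1 ∧
      ∀ᶠ n in (U : Filter ℕ),
      lev n u ≤ lev n a ∧ lev n a ≤ lev n v ∧ lev n u ≤ lev n a' ∧ lev n a' ≤ lev n v ∧
      M0 ≤ lev n v - lev n u ∧
      η / 2 * ((lev n v - lev n u : ℕ) : ℝ) ≤ ((lev n v - lev n a : ℕ) : ℝ) ∧
      ((lev n v - lev n a : ℕ) : ℝ) ≤ η * ((lev n v - lev n u : ℕ) : ℝ) ∧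
      τ' / 2 * ((lev n v - lev n u : ℕ) : ℝ) ≤ ((lev n v - lev n a' : ℕ) : ℝ) ∧
      ((lev n v - lev n a' : ℕ) : ℝ) ≤ τ' * ((lev n v - lev n u : ℕ) : ℝ) ∧
      amp B lev A q g (fun v => s * v) n a ≤ amp B lev A q g (fun v => s * v) n u *
        (2 : ℝ) ^ ((2 * s + g + q) * (((lev n v - lev n u : ℕ) : ℝ) - ((lev n v - lev n a : ℕ) : ℝ))
          + eps * ((lev n v - lev n u : ℕ) : ℝ)) ∧
      amp B lev A q g (fun v => s * v) n a' ≤ amp B lev A q g (fun v => s * v) n u *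
        (2 : ℝ) ^ ((2 * s + g + q) *
          (((lev n v - lev n u : ℕ) : ℝ) - ((lev n v - lev n a' : ℕ) : ℝ))
          + eps * ((lev n v - lev n u : ℕ) : ℝ)) ∧
      (∀ x ∈ I n,
        (2 : ℝ) ^ ((1 - s) * ((lev n v - lev n u : ℕ) : ℝ) - eps * ((lev n v - lev n u : ℕ) : ℝ)) ≤
          ((own (I n) (lev n u) (lev n v) x).card : ℝ) ∧
        (2 : ℝ) ^ ((1 - s) * ((lev n v - lev n a : ℕ) : ℝ) - eps * ((lev n v - lev n u : ℕ) : ℝ)) ≤
          ((own (I n) (lev n a) (lev n v) x).card : ℝ) ∧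
        ((own (I n) (lev n a) (lev n v) x).card : ℝ) ≤
          (2 : ℝ) ^ ((1 - s) * ((lev n v - lev n a : ℕ) : ℝ) +
            eps * ((lev n v - lev n u : ℕ) : ℝ)) ∧
        (2 : ℝ) ^ ((1 - s) * ((lev n v - lev n a' : ℕ) : ℝ) - eps * ((lev n v - lev n u : ℕ) : ℝ)) ≤
          ((own (I n) (lev n a') (lev n v) x).card : ℝ) ∧
        ((own (I n) (lev n a') (lev n v) x).card : ℝ) ≤
          (2 : ℝ) ^ ((1 - s) * ((lev n v - lev n a' : ℕ) : ℝ) +
            eps * ((lev n v - lev n u : ℕ) : ℝ))) ∧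
      B.d n ^ (-ε1) * amp B lev A q g (fun v => s * v) n u *
          (32 * min 1 (w1 n v / w2 n v * B.d n ^ (-(eps / 2 * ((v : ℝ) - u)))) * w2 n v *
            2 ^ (lev n v - lev n u)) *
          (32 * w2 n v * 2 ^ (lev n v - lev n u)) ^ (1 + q) *
          (2 : ℝ) ^ (-(2 - (2 * s + g)) * ((lev n v - lev n u : ℕ) : ℝ) -
            eps * ((lev n v - lev n u : ℕ) : ℝ)) ≤
        B.d n ^ ε1 * (amp B lev A q g (fun v => s * v) n v * w1 n v * w2 n v ^ (1 + q)) := by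
  have hvu : (0 : ℝ) < (v : ℝ) - u := by
    have : (u : ℝ) < v := by exact_mod_cast huv
    linarith
  obtain ⟨a, ha, hA⟩ := one_level h hu huv hv hη hη1 heps
  obtain ⟨a', ha', hA'⟩ := one_level h hu huv hv hτ hτ1 heps
  have hM := h.lev_lim u v hu huv.le hv
  have hMt : Tendsto (fun n => (lev n v : ℝ) - lev n u) U atTop := by
    have h1 := hM.pos_mul_atTop hvu B.L_tendsto
    have hlog : 0 < Real.log 2 := Real.log_pos (by norm_num)
    have h2 := h1.const_mul_atTop (inv_pos.2 hlog)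
    refine h2.congr fun n => ?_
    have := (B.L_pos n).ne'
    field_simp
  have hO := two_le (B := B) (comb (B := B) (1 - s) (-eps) hM hM)
    (x := (1 - s) * ((v : ℝ) - u) - eps * ((v : ℝ) - u) / 2) (by nlinarith)
  -- the constant
  have hK : ∀ᶠ n in (U : Filter ℕ), (32 : ℝ) ^ (2 + q) ≤ B.d n ^ (-(eps * ((v : ℝ) - u) / 32)) := by
    filter_upwards [B.ev_L_ge ((2 + q) * Real.log 32 / (eps * ((v : ℝ) - u) / 32))] with n hn
    rw [dpow_exp, Real.rpow_def_of_pos (by norm_num)]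
    apply Real.exp_le_exp.2
    rw [div_le_iff₀ (by positivity)] at hn
    linarith
  have hc := two_le (B := B) (comb (B := B) (2 * s + g) (-eps) hM hM)
    (x := (2 * s + g) * ((v : ℝ) - u) - eps * ((v : ℝ) - u) + eps * ((v : ℝ) - u) / 32)
    (by have : 0 < eps * ((v : ℝ) - u) := by positivity
        linarith)
  refine ⟨a, a', ha, ha', eps * ((v : ℝ) - u) / 8, by positivity, ?_⟩
  filter_upwards [hA, hA', hMt.eventually_ge_atTop (M0 : ℝ), hO, hK, hc, h.dims v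
    (hu.trans huv.le) hv, h.own u v hu huv.le hv (eps * ((v : ℝ) - u) / 2) (by positivity)]
    with n f1 f2 f3 f4 f5 f6 f7 f8
  obtain ⟨m1, m2, m3, m4, m5, m6⟩ := f1
  obtain ⟨p1, p2, p3, p4, p5, p6⟩ := f2
  have cM : ((lev n v - lev n u : ℕ) : ℝ) = (lev n v : ℝ) - lev n u := Nat.cast_sub (m1.trans m2)
  refine ⟨m1, m2, p1, p2, ?_, m3, m4, p3, p4, m5, p5, ?_, ?_⟩
  · have : (M0 : ℝ) ≤ ((lev n v - lev n u : ℕ) : ℝ) := by rw [cM]; exact f3
    exact_mod_cast this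
  · intro x hx
    refine ⟨?_, (m6 x hx).1, (m6 x hx).2, (p6 x hx).1, (p6 x hx).2⟩
    rw [cM]
    have e4 : (1 - s) * ((lev n v : ℝ) - lev n u) - eps * ((lev n v : ℝ) - lev n u) =
        (1 - s) * ((lev n v : ℝ) - lev n u) + -eps * ((lev n v : ℝ) - lev n u) := by ring
    rw [e4]
    refine f4.trans (le_trans (le_of_eq ?_) (f8 x hx).1)
    congr 1
    ring
  · -- RICH
    obtain ⟨d1, d2, d3⟩ := f7
    have hw1 : 0 < w1 n v := (h.rpos n).trans_le d1
    have hw2 : 0 < w2 n v := hw1.trans_le d2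
    set M : ℕ := lev n v - lev n u with hMdef
    have hq := h.q0
    have hau := amp_pos (s := s) (B := B) (lev := lev) (A := A) (q := q) (g := g) h.Apos n u
    have hdm : B.d n ^ (-(eps / 2 * ((v : ℝ) - u))) = B.d n ^ (-(eps * ((v : ℝ) - u) / 2)) := by
      congr 1; ring
    set δ := B.d n ^ (-(eps * ((v : ℝ) - u) / 2)) with hδ
    have hδp : 0 < δ := dpow_pos B n _
    have hdl : min 1 (w1 n v / w2 n v * δ) * w2 n v ≤ w1 n v * δ := by
      refine (mul_le_mul_of_nonneg_right (min_le_right _ _) hw2.le).trans (le_of_eq ?_)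
      field_simp
    have hdl0 : 0 ≤ min 1 (w1 n v / w2 n v * δ) := le_min zero_le_one (by positivity)
    have h2M : (2 : ℝ) ^ M = (2 : ℝ) ^ (M : ℝ) := (Real.rpow_natCast 2 M).symm
    have hE : (32 * w2 n v * (2 : ℝ) ^ M) ^ (1 + q) =
        (32 : ℝ) ^ (1 + q) * w2 n v ^ (1 + q) * (2 : ℝ) ^ ((1 + q) * (M : ℝ)) := by
      rw [h2M, Real.mul_rpow (by positivity) (by positivity),
        Real.mul_rpow (by norm_num) hw2.le, ← Real.rpow_mul (by norm_num), mul_comm (M : ℝ)]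
    have h32 : (32 : ℝ) ^ (2 + q) = 32 * (32 : ℝ) ^ (1 + q) := by
      rw [show (2 + q : ℝ) = 1 + (1 + q) by ring, Real.rpow_add (by norm_num), Real.rpow_one]
    rw [hdm, hE]
    -- collect
    have hP : (2 : ℝ) ^ (M : ℝ) * (2 : ℝ) ^ ((1 + q) * (M : ℝ)) *
        (2 : ℝ) ^ (-(2 - (2 * s + g)) * (M : ℝ) - eps * (M : ℝ)) =
        (2 : ℝ) ^ (q * (M : ℝ)) * (2 : ℝ) ^ ((2 * s + g) * (M : ℝ) + -eps * (M : ℝ)) := by
      rw [← Real.rpow_add (by norm_num), ← Real.rpow_add (by norm_num),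
        ← Real.rpow_add (by norm_num)]
      congr 1; ring
    rw [amp_eq n u v, ← cM, h2M]
    rw [← cM] at f6
    calc B.d n ^ (-(eps * ((v : ℝ) - u) / 8)) * amp B lev A q g (fun v => s * v) n u *
          (32 * min 1 (w1 n v / w2 n v * δ) * w2 n v * (2 : ℝ) ^ (M : ℝ)) *
          ((32 : ℝ) ^ (1 + q) * w2 n v ^ (1 + q) * (2 : ℝ) ^ ((1 + q) * (M : ℝ))) *
          (2 : ℝ) ^ (-(2 - (2 * s + g)) * (M : ℝ) - eps * (M : ℝ))
        = B.d n ^ (-(eps * ((v : ℝ) - u) / 8)) * amp B lev A q g (fun v => s * v) n u *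
          (min 1 (w1 n v / w2 n v * δ) * w2 n v) * (32 * (32 : ℝ) ^ (1 + q)) * w2 n v ^ (1 + q) *
          ((2 : ℝ) ^ (M : ℝ) * (2 : ℝ) ^ ((1 + q) * (M : ℝ)) *
          (2 : ℝ) ^ (-(2 - (2 * s + g)) * (M : ℝ) - eps * (M : ℝ))) := by ring
      _ = B.d n ^ (-(eps * ((v : ℝ) - u) / 8)) * amp B lev A q g (fun v => s * v) n u *
          (min 1 (w1 n v / w2 n v * δ) * w2 n v) * (32 : ℝ) ^ (2 + q) * w2 n v ^ (1 + q) *
          ((2 : ℝ) ^ (q * (M : ℝ)) * (2 : ℝ) ^ ((2 * s + g) * (M : ℝ) + -eps * (M : ℝ))) := by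
          rw [hP, h32]
      _ ≤ B.d n ^ (-(eps * ((v : ℝ) - u) / 8)) * amp B lev A q g (fun v => s * v) n u *
          (w1 n v * δ) * B.d n ^ (-(eps * ((v : ℝ) - u) / 32)) * w2 n v ^ (1 + q) *
          ((2 : ℝ) ^ (q * (M : ℝ)) * B.d n ^ (-((2 * s + g) * ((v : ℝ) - u) -
            eps * ((v : ℝ) - u) + eps * ((v : ℝ) - u) / 32))) := by
          have t1 := dpow_pos B n (-(eps * ((v : ℝ) - u) / 8))
          have t2 := dpow_pos B n (-(eps * ((v : ℝ) - u) / 32))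
          have t3 : (0 : ℝ) < w2 n v ^ (1 + q) := Real.rpow_pos_of_pos hw2 _
          gcongr
      _ = B.d n ^ (-(eps * ((v : ℝ) - u) / 8)) * δ * B.d n ^ (-(eps * ((v : ℝ) - u) / 32)) *
          B.d n ^ (-((2 * s + g) * ((v : ℝ) - u) -
            eps * ((v : ℝ) - u) + eps * ((v : ℝ) - u) / 32)) *
          (amp B lev A q g (fun v => s * v) n u * (2 : ℝ) ^ (q * (M : ℝ)) * w1 n v *
            w2 n v ^ (1 + q)) := by ring
      _ = B.d n ^ (eps * ((v : ℝ) - u) * (5 / 16)) * B.d n ^ (-((2 * s + g) * ((v : ℝ) - u))) *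
          (amp B lev A q g (fun v => s * v) n u * (2 : ℝ) ^ (q * (M : ℝ)) * w1 n v *
            w2 n v ^ (1 + q)) := by
          congr 1
          rw [hδ, ← dpow_add, ← dpow_add, ← dpow_add, ← dpow_add]
          congr 1
          ring
      _ ≤ B.d n ^ (eps * ((v : ℝ) - u) / 8) * B.d n ^ (-((2 * s + g) * ((v : ℝ) - u))) *
          (amp B lev A q g (fun v => s * v) n u * (2 : ℝ) ^ (q * (M : ℝ)) * w1 n v *
            w2 n v ^ (1 + q)) := by
          have t2 := dpow_pos B n (-((2 * s + g) * ((v : ℝ) - u)))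
          have t3 : B.d n ^ (eps * ((v : ℝ) - u) * (5 / 16)) ≤
              B.d n ^ (eps * ((v : ℝ) - u) / 8) := by
            apply dpow_le
            have : 0 < eps * ((v : ℝ) - u) := by positivity
            linarith
          gcongr
      _ = _ := by ring

end

end Crest.Agent.R138.LmAN57
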