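import Mathlib
import Crest.Agent.R138.Ctn_829
import Crest.Agent.R138.MkRef_627

/-!
# R138, L12b (helper829): container of a non-rotating family inside one marked sequence (finite `n`)
-/

set_option autoImplicit false
set_option linter.unusedVariables false
set_option linter.unusedSectionVars false

open Finset

namespace Crest.Agent.R138.Ctn829

open Crest.Agent.R138.Flag51 (Ln E2 cr dt InPlank pos)
open Crest.Agent.R138.Tilt51 (DMax Near)
open Crest.Agent.R138.Mk163 (zc zl rho alive own)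
open Crest.Agent.R138.MkRef627 (lc kc mem_alive)

noncomputable section

/-! ### cells -/

theorem rho_pos (i : ℕ) : 0 < rho i := by unfold rho; positivity

theorem rho_mul {iu iv : ℕ} (h : iu ≤ iv) : rho iu = 2 ^ (iv - iu) * rho iv := by
  unfold rho
  have : (2:ℝ) ^ iv = 2 ^ (iv - iu) * 2 ^ iu := by rw [← pow_add]; congr 1; omega
  rw [this]; field_simp

theorem rho_anti {iu iv : ℕ} (h : iu ≤ iv) : rho iv ≤ rho iu := by
  rw [rho_mul h]
  have h1 : (1:ℝ) ≤ 2 ^ (iv - iu) := one_le_pow₀ (by norm_num)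
  nlinarith [rho_pos iv]

theorem zc_nested {i j : ℕ} (h : i ≤ j) {z z' : ℝ} (hz : zc j z = zc j z') : zc i z = zc i z' :=
  K294.zc_nested h hz

theorem lc_nested {i j : ℕ} (h : i ≤ j) {x y : ℕ × ℝ} (hz : lc j x = lc j y) :
    lc i x = lc i y := by
  simp only [lc, Prod.mk.injEq] at hz ⊢
  exact ⟨hz.1, zc_nested h hz.2⟩

theorem zl_le (i : ℕ) (z : ℝ) : zl i (zc i z) ≤ z ∧ z < zl i (zc i z) + rho i := by
  have hp : (0:ℝ) < 2 ^ i := by positivity
  have h1 := Int.floor_le ((2:ℝ) ^ i * z)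
  have h2 := Int.lt_floor_add_one ((2:ℝ) ^ i * z)
  unfold zl zc rho
  constructor
  · rw [div_le_iff₀ hp]; linarith
  · rw [← add_div, lt_div_iff₀ hp]; linarith

theorem zl_sub {iu iv : ℕ} (h : iu ≤ iv) (z : ℝ) :
    |zl iv (zc iv z) - zl iu (zc iu z)| ≤ rho iu := by
  have h1 := zl_le iv z
  have h2 := zl_le iu z
  have h3 : zl iu (zc iu z) ≤ zl iv (zc iv z) := by
    have hp : (0:ℝ) < 2 ^ iu := by positivity
    have hq : (0:ℝ) < 2 ^ iv := by positivity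
    have e1 : 2 ^ (iv - iu) * zc iu z ≤ zc iv z := by
      unfold zc
      rw [Int.le_floor]
      push_cast
      have : (2:ℝ) ^ iv = 2 ^ (iv - iu) * 2 ^ iu := by rw [← pow_add]; congr 1; omega
      rw [this, mul_assoc]
      exact mul_le_mul_of_nonneg_left (Int.floor_le _) (by positivity)
    have e2 : (2:ℝ) ^ (iv - iu) * (zc iu z : ℝ) ≤ zc iv z := by exact_mod_cast e1
    unfold zl
    rw [div_le_div_iff₀ hp hq]
    have : (2:ℝ) ^ iv = 2 ^ (iv - iu) * 2 ^ iu := by rw [← pow_add]; congr 1; omega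
    rw [this]
    nlinarith
  rw [abs_le]; constructor <;> linarith [rho_pos iu]

/-! ### label -/

/-- the container label of an incidence -/
def Qc (L : ℕ → Ln) (iu : ℕ) (ce : ℕ × ℤ → E2) (δ W1 W2 : ℝ) (x : ℕ × ℝ) :
    ℤ × ((ℤ × ℤ) × (Fin 4 → ℤ)) :=
  (zc iu x.2, Qlab δ W1 W2 (zl iu (zc iu x.2)) (rho iu) (ce (lc iu x)) (L x.1))

theorem Qc_congr (L : ℕ → Ln) {iu : ℕ} (ce : ℕ × ℤ → E2) (δ W1 W2 : ℝ) {x y : ℕ × ℝ}
    (h : lc iu x = lc iu y) : Qc L iu ce δ W1 W2 x = Qc L iu ce δ W1 W2 y := by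
  unfold Qc
  rw [h]
  simp only [lc, Prod.mk.injEq] at h
  rw [h.1, h.2]

open Classical in
/-- popular container labels -/
theorem exists_pop (I : Finset (ℕ × ℝ)) (L : ℕ → Ln) {iu iv : ℕ} (huv : iu ≤ iv)
    (f : ℕ → ℤ → ℕ) (b : ℕ → Ln) (e : ℕ → E2) (ce : ℕ × ℤ → E2) {w1 w2 δ : ℝ} (hw2 : 0 < w2)
    (hw12 : w1 ≤ δ * w2) (hδ : 0 < δ) (hδ1 : δ ≤ 1)
    (hunit : ∀ x ∈ I, dt (e (f x.1 (zc iv x.2))) (e (f x.1 (zc iv x.2))) = 1)
    (hmem : ∀ x ∈ I, InPlank (L x.1) (b (f x.1 (zc iv x.2))) (e (f x.1 (zc iv x.2))) w1 w2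
      (zl iv (zc iv x.2)) (rho iv))
    (hce : ∀ x ∈ I, dt (ce (lc iu x)) (ce (lc iu x)) = 1)
    (hcl : ∀ x ∈ I, |cr (ce (lc iu x)) (e (f x.1 (zc iv x.2)))| ≤ δ) :
    ∃ I' ⊆ I, I.card ≤ 4050 * I'.card ∧ ∀ x ∈ I', ∀ y ∈ I', kc iv f x = kc iv f y →
      Qc L iu ce δ (32 * δ * w2 * 2 ^ (iv - iu)) (32 * w2 * 2 ^ (iv - iu)) x =
        Qc L iu ce δ (32 * δ * w2 * 2 ^ (iv - iu)) (32 * w2 * 2 ^ (iv - iu)) y := by
  set Q : ℕ × ℝ → ℤ × ((ℤ × ℤ) × (Fin 4 → ℤ)) :=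
    Qc L iu ce δ (32 * δ * w2 * 2 ^ (iv - iu)) (32 * w2 * 2 ^ (iv - iu)) with hQ
  obtain ⟨I', h1, h2, h3, -⟩ := popular I (kc iv f) Q 4050 (by
    intro x hx
    set S := I.filter fun y => kc iv f y = kc iv f x with hS
    have hSx : ∀ y ∈ S, y ∈ I ∧ f y.1 (zc iv y.2) = f x.1 (zc iv x.2) ∧
        zc iv y.2 = zc iv x.2 := by
      intro y hy
      rw [hS, mem_filter] at hy
      simp only [kc, Prod.mk.injEq] at hy
      exact ⟨hy.1, hy.2.1, hy.2.2⟩
    set zu := zl iu (zc iu x.2) with hzu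
    have himg : S.image Q = (S.image fun y => Qlab δ (32 * δ * w2 * 2 ^ (iv - iu))
        (32 * w2 * 2 ^ (iv - iu)) zu (rho iu) (ce (lc iu y)) (L y.1)).image
          fun g => (zc iu x.2, g) := by
      rw [image_image]
      refine image_congr fun y hy => ?_
      obtain ⟨a1, a2, a3⟩ := hSx y (mem_coe.1 hy)
      have a4 := zc_nested huv a3
      show Qc L iu ce δ _ _ y = _
      unfold Qc
      rw [a4]
      rfl
    have hfin : (S.image Q).card ≤ 4050 := by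
      rw [himg]
      refine card_image_le.trans ?_
      refine Qlab_card S (fun y => L y.1) (fun y => ce (lc iu y)) (b := b (f x.1 (zc iv x.2)))
        (hunit x hx) hw2 hw12 hδ hδ1 (rho_pos iv) (one_le_pow₀ (by norm_num)) (rho_mul huv)
        (zl_sub huv x.2) ?_ ?_ ?_
      · intro y hy; exact hce y (hSx y hy).1
      · intro y hy
        obtain ⟨a1, a2, a3⟩ := hSx y hy
        rw [← a2]; exact hcl y a1
      · intro y hy
        obtain ⟨a1, a2, a3⟩ := hSx y hy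
        have := hmem y a1
        rw [a2, a3] at this
        exact this
    convert hfin)
  exact ⟨I', h1, h2, h3⟩

open Classical in
/-- own counts of a label class of `I` are those of `I`. -/
theorem own_fiber {I : Finset (ℕ × ℝ)} {iu : ℕ} {γ : Type*} [DecidableEq γ] (Q : ℕ × ℝ → γ)
    (hQ : ∀ x y : ℕ × ℝ, lc iu x = lc iu y → Q x = Q y) {x0 x : ℕ × ℝ}
    (hx : x ∈ I.filter fun y => Q y = Q x0) {i : ℕ} (hi : iu ≤ i) (j : ℕ) :
    own (I.filter fun y => Q y = Q x0) i j x = own I i j x := by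
  unfold own
  congr 1
  ext y
  simp only [mem_filter]
  constructor
  · rintro ⟨⟨h1, h2⟩, h3⟩; exact ⟨h1, h3⟩
  · rintro ⟨h1, h3⟩
    refine ⟨⟨h1, ?_⟩, h3⟩
    rw [mem_filter] at hx
    rw [← hx.2]
    refine hQ y x ?_
    simp only [lc, Prod.mk.injEq]
    exact ⟨h3.1, zc_nested hi h3.2⟩

open Classical in
/-- the class of an incidence is close to it in the container. -/
theorem box_rich {I : Finset (ℕ × ℝ)} {L : ℕ → Ln} {iu iv : ℕ} (huv : iu ≤ iv)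
    {f : ℕ → ℤ → ℕ} {b : ℕ → Ln} {e : ℕ → E2} {ce : ℕ × ℤ → E2} {w1 w2 δ W1 W2 : ℝ}
    (hw2 : 0 < w2) (hw12 : w1 ≤ δ * w2) (hδ : 0 < δ) (hδ1 : δ ≤ 1)
    (hce : ∀ x ∈ I, dt (ce (lc iu x)) (ce (lc iu x)) = 1)
    (hcl : ∀ x ∈ I, |cr (ce (lc iu x)) (e (f x.1 (zc iv x.2)))| ≤ δ)
    (hQ : ∀ x ∈ I, ∀ y ∈ I, kc iv f x = kc iv f y →
      Qc L iu ce δ W1 W2 x = Qc L iu ce δ W1 W2 y)
    {D q η : ℝ} (hη : 0 ≤ η)
    (hn : ∀ J, Near (alive I iv J) L (fun _ => 1) (fun t => f t J) b e w1 w2 (zl iv J) (rho iv)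
      D η 0 q) {x0 x : ℕ × ℝ} (hx : x ∈ I.filter fun y => Qc L iu ce δ W1 W2 y = Qc L iu ce δ W1 W2 x0) :
    D * w1 * w2 ^ (1 + q) ≤ η *
      (((alive (I.filter fun y => Qc L iu ce δ W1 W2 y = Qc L iu ce δ W1 W2 x0) iv
        (zc iv x.2)).filter fun t =>
          |cr (rep δ (kl δ (ce (lc iu x0)))) (pos (L t) (zl iv (zc iv x.2)) -
            pos (L x.1) (zl iv (zc iv x.2)))| ≤ 32 * w2 ∧
          |dt (pos (L t) (zl iv (zc iv x.2)) - pos (L x.1) (zl iv (zc iv x.2)))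
            (rep δ (kl δ (ce (lc iu x0))))| ≤ 32 * δ * w2).card : ℝ) := by
  have hx' := mem_filter.1 hx
  have hxa : x.1 ∈ alive I iv (zc iv x.2) := mem_alive.2 ⟨x, hx'.1, rfl, rfl⟩
  have h1 := (hn (zc iv x.2)).low x.1 hxa
  simp only [add_zero, Real.rpow_one] at h1
  rw [sum_const, nsmul_eq_mul, mul_one] at h1
  refine h1.trans ?_
  have hsub : ((alive I iv (zc iv x.2)).filter fun s => f s (zc iv x.2) = f x.1 (zc iv x.2)) ⊆
      ((alive (I.filter fun y => Qc L iu ce δ W1 W2 y = Qc L iu ce δ W1 W2 x0) iv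
        (zc iv x.2)).filter fun t =>
          |cr (rep δ (kl δ (ce (lc iu x0)))) (pos (L t) (zl iv (zc iv x.2)) -
            pos (L x.1) (zl iv (zc iv x.2)))| ≤ 32 * w2 ∧
          |dt (pos (L t) (zl iv (zc iv x.2)) - pos (L x.1) (zl iv (zc iv x.2)))
            (rep δ (kl δ (ce (lc iu x0))))| ≤ 32 * δ * w2) := by
    intro t ht
    rw [mem_filter] at ht
    obtain ⟨y, hy, hyt, hyz⟩ := mem_alive.1 ht.1
    have hk : kc iv f y = kc iv f x := by
      simp only [kc, Prod.mk.injEq]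
      rw [hyt, hyz]
      exact ⟨ht.2, rfl⟩
    have hqy : Qc L iu ce δ W1 W2 y = Qc L iu ce δ W1 W2 x0 := (hQ y hy x hx'.1 hk).trans hx'.2
    rw [mem_filter]
    refine ⟨mem_alive.2 ⟨y, mem_filter.2 ⟨hy, hqy⟩, hyt, hyz⟩, ?_⟩
    -- the frame label of `x` and of `x0` agree
    have hkl : kl δ (ce (lc iu x)) = kl δ (ce (lc iu x0)) := by
      have := congrArg (fun p => p.2.1) hx'.2
      exact this
    rw [← hkl]
    have m1 := (hn (zc iv x.2)).mem t ht.1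
    have m2 := (hn (zc iv x.2)).mem x.1 hxa
    have u1 := (hn (zc iv x.2)).unit x.1 hxa
    simp only [ht.2] at m1
    exact Qlab_rich (hce x hx'.1) u1 hw2 hw12 hδ hδ1 (hcl x hx'.1) (rho_pos iv).le m1 m2
  refine mul_le_mul_of_nonneg_left ?_ hη
  have h9 := card_le_card hsub
  convert (Nat.cast_le (α := ℝ)).2 h9

end

end Crest.Agent.R138.Ctn829
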