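import Crest.Agent.R138.WDef_188

/-!
# R138 / R139: WAVE side, literal form of DEC (doc 1812), common input of A1 (T12) and A3 (RR)
version 2 (over WDef_188 v3; children in the class `St B q Na0 4 1` with `Na0` absolute)
-/

set_option autoImplicit false

open MeasureTheory FourierTransform
open scoped ENNReal

namespace Crest.Agent.R138.W188

open Crest.Agent.R138.Defs Crest.Agent.R138.Bil882

/-- **DEC**: decomposition of the wave localised at `z`, level `r`.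
(D0) finitely many labels (depending on `r, R` only), admissible sides;
(D1) `tr h z g = ∑ G k + rest`; (D2) the `G k` are states of level `r`;
(D6) `SS (G k) r (D' k)` is bounded by the value of a plate system with frame `z`;
(D5) `rest` is bounded, supported in the ball of radius `2`, of bounded energy and tiny on `cyl (8 r)`. -/
def DEC (B : ℕ → ℝ) (q : ℝ) (A : ℝ) (Na0 : ℕ) : Prop :=
  ∀ ε : ℝ, 0 < ε → ∀ (Na : ℕ) (M0 : ℝ) (M : ℕ), ∃ C : ℝ, 0 ≤ C ∧ ∀ R r : ℝ, 1 ≤ R →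
  R ^ (1/2 : ℝ) ≤ r → r ≤ R →
  ∃ (Λ : Finset ℕ) (s : ℕ → ℝ × ℝ), (Λ.card : ℝ) ≤ C * R ^ ε ∧
    (∀ k ∈ Λ, Sd r (s k).1 (s k).2) ∧
    ∀ h g D, St B q Na M0 (1/2) h g R D → ∀ z ∈ cyl R,
      ∃ (G : ℕ → E2 → ℂ) (D' : ℕ → ℝ) (rest : E2 → ℂ) (I : ℕ → Finset ℕ) (P : ℕ → ℕ → Plate),
        (∀ ξ, tr h z g ξ = ∑ k ∈ Λ, G k ξ + rest ξ) ∧
        (∀ k ∈ Λ, St B q Na0 4 1 h (G k) r (D' k)) ∧
        (∀ k ∈ Λ, Plates A h r (s k).1 (s k).2 R (I k) (P k) ∧ ∀ i ∈ I k, (P k i).z = z) ∧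
        (∀ k ∈ Λ, ENNReal.ofReal (SS (G k) r (D' k)) ≤
          ENNReal.ofReal (C * R ^ ε) * (ENNReal.ofReal ((s k).2 ^ (-q / 2)) *
            val h g r (s k).1 (s k).2 (I k) (P k))) ∧
        Measurable rest ∧ (∃ L : ℝ, ∀ ξ, ‖rest ξ‖ ≤ L) ∧ (∀ ξ, 2 < ‖ξ‖ → rest ξ = 0) ∧
        En rest ≤ C * R ^ ε * En g ∧
        ∀ p : E2 × ℝ, ‖p.1‖ ≤ 8 * r → |p.2| ≤ 8 * r →
          ‖ext h rest p.1 p.2‖ ≤ C * R ^ (-(M : ℝ)) * Real.sqrt (En g)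

/-- **A1** with children in the class `St B q Na0 4 1` (`Na0` absolute). -/
def A1n (B : ℕ → ℝ) (q : ℝ) (F : ℝ → ℝ → ℝ → (E2 → ℝ) → (E2 → ℂ) → ℝ → ℝ≥0∞) (Na0 : ℕ) : Prop :=
  ∀ ε : ℝ, 0 < ε → ∀ (Na : ℕ) (M0 : ℝ), ∃ N0 : ℕ, ∀ N : ℕ, N0 ≤ N → ∃ C : ℝ, 0 ≤ C ∧
  ∀ h g R D, St B q Na M0 (1/2) h g R D → ∀ r w, R ^ (1/2 : ℝ) ≤ r → r ≤ R → 1 ≤ w →
    w ≤ r ^ (1/2 : ℝ) → ∀ Q : ℝ, 1 ≤ Q →
      (∀ g' D', St B q Na0 4 1 h g' r D' → NN N h g' w r ≤ ENNReal.ofReal (Q * SS g' r D')) →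
      ∃ s1 s2, Sd r s1 s2 ∧ NN N h g w R ≤
        ENNReal.ofReal (C * R ^ ε * Q) * (ENNReal.ofReal (s2 ^ (-q / 2)) * F r s1 s2 h g R) +
          ENNReal.ofReal (C * SS g R D)

end Crest.Agent.R138.W188
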