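import Mathlib.Analysis.Calculus.ContDiff.Basic
import Mathlib.Analysis.InnerProductSpace.PiL2
import Mathlib.Analysis.SpecialFunctions.Complex.Circle
import Mathlib.MeasureTheory.Measure.Haar.OfBasis
import Mathlib.MeasureTheory.Measure.Haar.InnerProductSpace
import Mathlib.MeasureTheory.Constructions.HaarToSphere
import Mathlib.MeasureTheory.Integral.Prod

/-!
Common definitions for the R138/R139 fronts (helper134).

* `E2` : Euclidean plane, the parameter space.
* `ee s = exp (2 π i s)`.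
* `Par c0 K h` : the class of phases, smooth `c0`-perturbations of the paraboloid `‖ξ‖²/2` on the
  whole plane, normalised at the origin; closed under parabolic rescaling.
* `ext h g x t = ∫ g ξ e(⟪x, ξ⟫ + t h ξ) dξ`, the extension operator of the graph of `h`.
* `EInf c0 K` : the local estimate in restricted form.
-/

set_option autoImplicit false

namespace Crest.Agent.R138.Rs134

open MeasureTheory
open scoped ContDiff RealInnerProductSpace ENNReal

/-- The Euclidean plane (parameter space). -/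
abbrev E2 : Type := EuclideanSpace ℝ (Fin 2)

/-- `ee s = exp (2 π i s)`. -/
noncomputable def ee (s : ℝ) : ℂ := Complex.exp ((2 * Real.pi * s : ℝ) * Complex.I)

/-- Class of phases: smooth functions on the plane, normalised at `0`, whose derivatives of order
`2, …, K` are `c0`-close to those of `‖ξ‖²/2` everywhere. -/
structure Par (c0 : ℝ) (K : ℕ) (h : E2 → ℝ) : Prop where
  smooth : ContDiff ℝ ∞ h
  zero : h 0 = 0
  grad : fderiv ℝ h 0 = 0
  close : ∀ k : ℕ, 2 ≤ k → k ≤ K → ∀ ξ : E2,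
    ‖iteratedFDeriv ℝ k (fun η : E2 => h η - ‖η‖ ^ 2 / 2) ξ‖ ≤ c0

/-- The phase `⟪x, ξ⟫ + t h ξ` at the physical point `(x, t)`. -/
noncomputable def ph (h : E2 → ℝ) (x : E2) (t : ℝ) (ξ : E2) : ℝ := ⟪x, ξ⟫ + t * h ξ

/-- The extension operator of the graph of `h`. -/
noncomputable def ext (h : E2 → ℝ) (g : E2 → ℂ) (x : E2) (t : ℝ) : ℂ :=
  ∫ ξ, g ξ * ee (ph h x t ξ)

/-- The cylinder `{|x - x₀| ≤ R, |t - t₀| ≤ R}` in physical space. -/
def cyl (x : E2) (t : ℝ) (R : ℝ) : Set (E2 × ℝ) := Metric.closedBall x R ×ˢ Set.Icc (t - R) (t + R)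

/-- The local restricted extension estimate at the exponent three. -/
def EInf (c0 : ℝ) (K : ℕ) : Prop :=
  ∀ ε : ℝ, 0 < ε → ∃ C : ℝ, ∀ h : E2 → ℝ, Par c0 K h → ∀ g : E2 → ℂ, Measurable g →
    (∀ ξ, ‖g ξ‖ ≤ 1) → (∀ ξ, 1 < ‖ξ‖ → g ξ = 0) → ∀ R : ℝ, 1 ≤ R →
      ∫⁻ p in cyl 0 0 R, ‖ext h g p.1 p.2‖ₑ ^ 3 ≤
        ENNReal.ofReal (C * R ^ ε) * ∫⁻ ξ, ‖g ξ‖ₑ ^ 2

/-! ### Elementary facts -/

theorem norm_ee (s : ℝ) : ‖ee s‖ = 1 := by
  unfold ee; exact Complex.norm_exp_ofReal_mul_I _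

theorem ee_add (s t : ℝ) : ee (s + t) = ee s * ee t := by
  unfold ee; rw [← Complex.exp_add]; congr 1; push_cast; ring

theorem ee_zero : ee 0 = 1 := by unfold ee; simp

theorem ee_neg (s : ℝ) : ee (-s) = (starRingEnd ℂ) (ee s) := by
  unfold ee
  rw [← Complex.exp_conj]; congr 1
  rw [map_mul, Complex.conj_ofReal, Complex.conj_I]; push_cast; ring

theorem ee_ne_zero (s : ℝ) : ee s ≠ 0 := Complex.exp_ne_zero _

theorem ee_sub (s t : ℝ) : ee (s - t) = ee s * (starRingEnd ℂ) (ee t) := by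
  rw [sub_eq_add_neg, ee_add, ee_neg]

theorem contDiff_ee {n : WithTop ℕ∞} : ContDiff ℝ n ee := by
  unfold ee
  have : ContDiff ℝ n (fun s : ℝ => (2 * Real.pi * s : ℝ)) := by fun_prop
  exact ((Complex.ofRealCLM.contDiff.comp this).mul contDiff_const).cexp

theorem continuous_ee : Continuous ee := (contDiff_ee (n := 0)).continuous

theorem hasDerivAt_ee (s : ℝ) : HasDerivAt ee ((2 * Real.pi : ℝ) * Complex.I * ee s) s := by
  unfold ee
  have h1 : HasDerivAt (fun s : ℝ => ((2 * Real.pi * s : ℝ) : ℂ) * Complex.I)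
      ((2 * Real.pi : ℝ) * Complex.I) s := by
    have := ((hasDerivAt_id s).const_mul (2 * Real.pi)).ofReal_comp
    simpa using this.mul_const Complex.I
  have := h1.cexp
  simpa [mul_comm, mul_left_comm, mul_assoc] using this

theorem ph_add (h : E2 → ℝ) (x y : E2) (s t : ℝ) (ξ : E2) :
    ph h (x + y) (s + t) ξ = ph h x s ξ + ph h y t ξ := by
  unfold ph; rw [inner_add_left]; ring

theorem ph_neg (h : E2 → ℝ) (x : E2) (t : ℝ) (ξ : E2) : ph h (-x) (-t) ξ = -ph h x t ξ := by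
  unfold ph; rw [inner_neg_left]; ring

theorem ph_sub (h : E2 → ℝ) (x y : E2) (s t : ℝ) (ξ : E2) :
    ph h (x - y) (s - t) ξ = ph h x s ξ - ph h y t ξ := by
  unfold ph; rw [inner_sub_left]; ring

theorem continuous_ph {h : E2 → ℝ} (hh : Continuous h) (x : E2) (t : ℝ) : Continuous (ph h x t) := by
  unfold ph; fun_prop

theorem norm_mul_ee (z : ℂ) (s : ℝ) : ‖z * ee s‖ = ‖z‖ := by rw [norm_mul, norm_ee, mul_one]

theorem norm_ext_le (h : E2 → ℝ) (g : E2 → ℂ) (x : E2) (t : ℝ) : ‖ext h g x t‖ ≤ ∫ ξ, ‖g ξ‖ := by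
  unfold ext
  refine (norm_integral_le_integral_norm _).trans (le_of_eq ?_)
  simp_rw [norm_mul_ee]

/-- Translation in physical space is a modulation of `g`. -/
theorem ext_translate (h : E2 → ℝ) (g : E2 → ℂ) (x y : E2) (s t : ℝ) :
    ext h g (x + y) (s + t) = ext h (fun ξ => g ξ * ee (ph h x s ξ)) y t := by
  unfold ext; congr 1; ext ξ; rw [ph_add, ee_add]; ring

end Crest.Agent.R138.Rs134
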