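import Crest.Agent.R138.Ker7_858
import Crest.Agent.R138.Fq2_665
import Crest.Agent.R138.RsDef_134

/-! **F4**: the restricted local estimate (EInf) follows from (EB). -/

set_option autoImplicit false

open MeasureTheory FourierTransform
open scoped ContDiff ENNReal

namespace Crest.Agent.R138.F4x858

open Crest.Agent.R138.Defs Crest.Agent.R138.Ker858

theorem continuous_ee : Continuous ee := by
  unfold ee; fun_prop

theorem continuous_ext {h : E2 → ℝ} (hh : Continuous h) {g : E2 → ℂ} (hg : Integrable g) :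
    Continuous fun p : E2 × ℝ => ext h g p.1 p.2 := by
  unfold ext
  refine continuous_of_dominated (bound := fun ξ => ‖g ξ‖) ?_ ?_ hg.norm ?_
  · intro p
    refine hg.aestronglyMeasurable.mul (Continuous.aestronglyMeasurable ?_)
    exact continuous_ee.comp ((continuous_const.inner continuous_id).add (continuous_const.mul hh))
  · intro p
    refine Filter.Eventually.of_forall fun ξ => ?_
    rw [norm_mul, norm_ee, mul_one]
  · refine Filter.Eventually.of_forall fun ξ => ?_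
    refine continuous_const.mul (continuous_ee.comp ?_)
    exact (continuous_fst.inner continuous_const).add (continuous_snd.mul continuous_const)

theorem ext_eq (h : E2 → ℝ) (g : E2 → ℂ) (x : E2) (t : ℝ) :
    ext h g x t = 𝓕⁻ (fun ξ => g ξ * ee (t * h ξ)) x := by
  rw [ext, Real.fourierInv_eq]
  refine integral_congr_ae (Filter.Eventually.of_forall fun ξ => ?_)
  simp only [Circle.smul_def, Real.fourierChar_apply, smul_eq_mul, ee]
  rw [real_inner_comm]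
  rw [show ((2 * Real.pi * (inner ℝ ξ x + t * h ξ) : ℝ) : ℂ) * Complex.I =
    ((2 * Real.pi * inner ℝ ξ x : ℝ) : ℂ) * Complex.I +
      ((2 * Real.pi * (t * h ξ) : ℝ) : ℂ) * Complex.I by push_cast; ring, Complex.exp_add]
  ring

/-- Plancherel on a slice. -/
theorem slice {h : E2 → ℝ} (hh : Continuous h) {g : E2 → ℂ} (h1 : Integrable g)
    (h2 : MemLp g 2) (t : ℝ) : ∫⁻ x, ‖ext h g x t‖ₑ ^ 2 = ∫⁻ ξ, ‖g ξ‖ₑ ^ 2 := by
  simp_rw [ext_eq]
  have hm : AEStronglyMeasurable (fun ξ => ee (t * h ξ)) (volume : Measure E2) :=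
    (continuous_ee.comp (continuous_const.mul hh)).aestronglyMeasurable
  have hn : ∀ ξ, ‖g ξ * ee (t * h ξ)‖ = ‖g ξ‖ := fun ξ => by rw [norm_mul, norm_ee, mul_one]
  have i1 : Integrable fun ξ => g ξ * ee (t * h ξ) :=
    h1.mono (h1.aestronglyMeasurable.mul hm) (Filter.Eventually.of_forall fun ξ => (hn ξ).le)
  have i2 : MemLp (fun ξ => g ξ * ee (t * h ξ)) 2 :=
    h2.mono (h1.aestronglyMeasurable.mul hm) (Filter.Eventually.of_forall fun ξ => (hn ξ).le)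
  rw [Fq665.plancherel_inv i1 i2]
  refine lintegral_congr fun ξ => ?_
  rw [enorm_mul]
  have : ‖ee (t * h ξ)‖ₑ = 1 := by
    rw [← ofReal_norm, norm_ee]; simp
  rw [this, mul_one]

theorem memLp_of_bdd {g : E2 → ℂ} (hm : Measurable g) {M : ℝ} (hb : ∀ ξ, ‖g ξ‖ ≤ M)
    {S : Set E2} (hS : volume S < ⊤) (hS' : MeasurableSet S) (hs : ∀ ξ, ξ ∉ S → g ξ = 0)
    (p : ℝ≥0∞) : MemLp g p := by
  have h1 : MemLp (S.indicator fun _ => M) p volume :=
    memLp_indicator_const p hS' M (Or.inr hS.ne)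
  refine h1.mono hm.aestronglyMeasurable (Filter.Eventually.of_forall fun ξ => ?_)
  by_cases hξ : ξ ∈ S
  · rw [Set.indicator_of_mem hξ]
    exact (hb ξ).trans (le_abs_self _)
  · rw [hs ξ hξ, norm_zero]; exact norm_nonneg _

theorem measurable_chi {h : E2 → ℝ} (hh : ContDiff ℝ ∞ h) (c : E2)
    (b : OrthonormalBasis (Fin 2) ℝ E2) (s : Fin 2 → ℝ) {ψ : E2 → ℂ} (hψ : Continuous ψ) :
    Continuous (chi h c b s ψ) := by
  unfold chi
  refine hψ.comp ?_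
  refine (PiLp.continuous_toLp 2 _).comp (continuous_pi fun a => ?_)
  exact (continuous_coord hh c a).div_const _

/-- bounded densities have box bound `288 R⁻²`. -/
theorem boxBound {h : E2 → ℝ} (hh : ContDiff ℝ ∞ h)
    (h2 : ∀ ξ : E2, ‖iteratedFDeriv ℝ 2 (fun ξ : E2 => h ξ - ‖ξ‖ ^ 2 / 2) ξ‖ ≤ 1 / 16)
    {g : E2 → ℂ} (hg : Measurable g) (hg1 : ∀ ξ, ‖g ξ‖ ≤ 1) {R : ℝ} (hR : 1 ≤ R) (N : ℕ) :
    BoxBound N h g R (288 * (R ^ 2)⁻¹) := by
  intro c b s hs ψ hψ x0 t0 _ _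
  have hR0 : 0 < R := by linarith
  have hs' : ∀ a, 0 < s a := fun a => (Real.rpow_pos_of_pos hR0 _).trans_le (hs a).1
  set p : E2 → ℝ := fun ξ => h ξ - ‖ξ‖ ^ 2 / 2 with hpdef
  have hp : Pert 1 1 p :=
    ⟨hh.sub ((contDiff_norm_sq ℝ).div_const 2), h2, fun k hk hk1 => by omega⟩
  have hhp : ∀ ξ, h ξ = p ξ + ‖ξ‖ ^ 2 / 2 := fun ξ => by simp [hpdef]
  have hvol := volume_crect (b := b) hp hhp c s fun a => (hs' a).le
  set S := crect h c b s 3 with hS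
  have hSm : MeasurableSet S := (isOpen_crect hh c s 3).measurableSet
  have hSf : volume S < ⊤ := hvol.trans_lt ENNReal.ofReal_lt_top
  set G : E2 → ℂ := fun ξ => g ξ * chi h c b s ψ ξ with hG
  have hGm : Measurable G := hg.mul (measurable_chi hh c b s hψ.1.continuous).measurable
  have hψ1 : ∀ y, ‖ψ y‖ ≤ 1 := by
    intro y
    have := hψ.2.2 0 (Nat.zero_le _) y
    rwa [norm_iteratedFDeriv_zero] at this
  have hG1 : ∀ ξ, ‖G ξ‖ ≤ 1 := by
    intro ξ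
    rw [hG, norm_mul]
    exact mul_le_one₀ (hg1 ξ) (norm_nonneg _) (hψ1 _)
  have hGs : ∀ ξ, ξ ∉ S → G ξ = 0 := by
    intro ξ hξ
    have : chi h c b s ψ ξ = 0 := by
      by_contra h3
      apply hξ
      refine crectC_subset c s hs' ?_
      intro a
      have h4 := hψ.2.1 _ h3 a
      have h5 : (WithLp.toLp 2 fun i => inner ℝ (gradient h ξ - c) (b i) / s i : E2) a =
        inner ℝ (gradient h ξ - c) (b a) / s a := rfl
      rw [h5, abs_div, abs_of_pos (hs' a), div_le_iff₀ (hs' a)] at h4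
      exact h4
    rw [hG]; simp [this]
  have hGi : Integrable G := memLp_one_iff_integrable.1 (memLp_of_bdd hGm hG1 hSf hSm hGs 1)
  have hG2 : MemLp G 2 := memLp_of_bdd hGm hG1 hSf hSm hGs 2
  have hcont := continuous_ext hh.continuous hGi
  have hE : ∫⁻ ξ, ‖G ξ‖ₑ ^ 2 ≤ ENNReal.ofReal (144 * (s 0 * s 1)) := by
    refine le_trans ?_ hvol
    rw [← lintegral_indicator_one hSm]
    refine lintegral_mono fun ξ => ?_
    by_cases hξ : ξ ∈ S
    · rw [Set.indicator_of_mem hξ]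
      have : ‖G ξ‖ₑ ≤ 1 := by
        rw [← ofReal_norm, ← ENNReal.ofReal_one]
        exact ENNReal.ofReal_le_ofReal (hG1 ξ)
      calc ‖G ξ‖ₑ ^ 2 ≤ 1 ^ 2 := pow_le_pow_left' this 2
        _ = 1 := one_pow 2
    · rw [hGs ξ hξ]; simp
  calc ∫⁻ p in plank c b s R x0 t0, ‖ext h G p.1 p.2‖ₑ ^ 2
      ≤ ∫⁻ p in (Set.univ : Set E2) ×ˢ Set.Icc (t0 - R) (t0 + R), ‖ext h G p.1 p.2‖ₑ ^ 2 := by
        refine lintegral_mono_set ?_
        intro p hp
        refine ⟨Set.mem_univ _, ?_⟩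
        have := abs_le.1 hp.1
        exact ⟨by linarith [this.1], by linarith [this.2]⟩
    _ = ∫⁻ t in Set.Icc (t0 - R) (t0 + R), ∫⁻ x, ‖ext h G x t‖ₑ ^ 2 := by
        rw [Measure.volume_eq_prod, ← Measure.prod_restrict, Measure.restrict_univ,
          lintegral_prod_symm _ ((hcont.enorm.measurable.pow_const 2).aemeasurable)]
    _ = ∫⁻ _ in Set.Icc (t0 - R) (t0 + R), ∫⁻ ξ, ‖G ξ‖ₑ ^ 2 := by
        refine lintegral_congr fun t => slice hh.continuous hGi hG2 t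
    _ = (∫⁻ ξ, ‖G ξ‖ₑ ^ 2) * ENNReal.ofReal (2 * R) := by
        rw [setLIntegral_const, Real.volume_Icc]
        congr 2; ring
    _ ≤ ENNReal.ofReal (144 * (s 0 * s 1)) * ENNReal.ofReal (2 * R) := mul_le_mul_left hE _
    _ = ENNReal.ofReal (288 * (R ^ 2)⁻¹ * (s 0 * s 1 * R ^ 3)) := by
        rw [← ENNReal.ofReal_mul (by have := hs' 0; have := hs' 1; positivity)]
        congr 1
        field_simp
        ring

/-- **F4**. -/
theorem EInf_of_EB (H : EB) : ∃ c0 : ℝ, 0 < c0 ∧ ∃ K0 : ℕ, ∀ B : ℕ → ℝ,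
    (∀ k, 2 ≤ k → k ≤ K0 → B k ≤ c0) → EInf B := by
  obtain ⟨c0, hc0, K0, H⟩ := H
  refine ⟨min c0 (1 / 16), lt_min hc0 (by norm_num), max K0 2, ?_⟩
  intro B hB ε hε
  obtain ⟨C, hC, H⟩ := H B (fun k hk hk2 => (hB k hk (hk2.trans (le_max_left _ _))).trans
    (min_le_left _ _)) ε hε 0
  refine ⟨C * Real.sqrt 288, by positivity, ?_⟩
  intro h hh R hR g hg hg1 hgs
  have hR0 : 0 < R := by linarith
  have h2 : ∀ ξ : E2, ‖iteratedFDeriv ℝ 2 (fun ξ : E2 => h ξ - ‖ξ‖ ^ 2 / 2) ξ‖ ≤ 1 / 16 := fun ξ =>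
    (hh.2 2 le_rfl ξ).trans ((hB 2 le_rfl (le_max_right _ _)).trans (min_le_right _ _))
  have h3 := H h hh R (288 * (R ^ 2)⁻¹) hR (by positivity) g hg ⟨1, hg1⟩ hgs
    (boxBound hh.1 h2 hg hg1 hR 0)
  refine h3.trans (ENNReal.ofReal_le_ofReal (le_of_eq ?_))
  rw [Real.sqrt_mul (by norm_num), Real.sqrt_inv, Real.sqrt_sq hR0.le]
  field_simp

/-- (EInf) for one fixed phase with bounded derivatives, in 134's notation. -/
theorem EInf_fixed (H : EB) : ∃ c0 : ℝ, 0 < c0 ∧ ∃ K0 : ℕ, ∀ h : E2 → ℝ,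
    Rs134.Par c0 K0 h →
    (∀ k : ℕ, ∃ Bk : ℝ, ∀ ξ : E2, ‖iteratedFDeriv ℝ k (fun ξ : E2 => h ξ - ‖ξ‖ ^ 2 / 2) ξ‖ ≤ Bk) →
    ∀ ε : ℝ, 0 < ε → ∃ C : ℝ, 0 ≤ C ∧ ∀ g : E2 → ℂ, Measurable g → (∀ ξ, ‖g ξ‖ ≤ 1) →
      (∀ ξ, 1 < ‖ξ‖ → g ξ = 0) → ∀ R : ℝ, 1 ≤ R →
        ∫⁻ p in Rs134.cyl 0 0 R, ‖Rs134.ext h g p.1 p.2‖ₑ ^ 3 ≤
          ENNReal.ofReal (C * R ^ ε) * ∫⁻ ξ, ‖g ξ‖ₑ ^ 2 := by
  obtain ⟨c0, hc0, K0, H⟩ := EInf_of_EB H
  refine ⟨c0, hc0, K0, ?_⟩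
  intro h hP hbd ε hε
  choose Bk hBk using hbd
  obtain ⟨C, hC, H⟩ := H (fun k => if k ≤ K0 then min (Bk k) c0 else Bk k)
    (fun k _ hk2 => by simp only [hk2, if_true]; exact min_le_right _ _) ε hε
  refine ⟨C, hC, ?_⟩
  intro g hg hg1 hgs R hR
  have hPB : ParB (fun k => if k ≤ K0 then min (Bk k) c0 else Bk k) h := by
    refine ⟨hP.smooth, fun k hk ξ => ?_⟩
    by_cases hk2 : k ≤ K0
    · simp only [hk2, if_true]
      exact le_min (hBk k ξ) (hP.close k hk hk2 ξ)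
    · simp only [hk2, if_false]
      exact hBk k ξ
  have h1 := H h hPB R hR g hg hg1 hgs
  have e1 : ∀ p : E2 × ℝ, Rs134.ext h g p.1 p.2 = ext h g p.1 p.2 := fun p => rfl
  have e2 : Rs134.cyl 0 0 R ⊆ cyl R := by
    intro p hp
    refine ⟨?_, ?_⟩
    · have := hp.1; rwa [mem_closedBall_zero_iff] at this
    · have := hp.2
      rw [abs_le]
      exact ⟨by linarith [this.1], by linarith [this.2]⟩
  have hG2 : MemLp g 2 := memLp_of_bdd hg hg1
    (S := Metric.closedBall 0 1) (measure_closedBall_lt_top) measurableSet_closedBall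
    (fun ξ hξ => hgs ξ (by rw [mem_closedBall_zero_iff, not_le] at hξ; exact hξ)) 2
  have e3 : ENNReal.ofReal (∫ ξ, ‖g ξ‖ ^ 2) = ∫⁻ ξ, ‖g ξ‖ₑ ^ 2 := by
    rw [ofReal_integral_eq_lintegral_ofReal hG2.norm.integrable_sq
      (Filter.Eventually.of_forall fun ξ => by positivity)]
    refine lintegral_congr fun ξ => ?_
    rw [ENNReal.ofReal_pow (norm_nonneg _), ofReal_norm]
  calc ∫⁻ p in Rs134.cyl 0 0 R, ‖Rs134.ext h g p.1 p.2‖ₑ ^ 3
      ≤ ∫⁻ p in cyl R, ‖ext h g p.1 p.2‖ₑ ^ 3 := lintegral_mono_set e2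
    _ ≤ ENNReal.ofReal (C * R ^ ε * ∫ ξ, ‖g ξ‖ ^ 2) := h1
    _ = ENNReal.ofReal (C * R ^ ε) * ∫⁻ ξ, ‖g ξ‖ₑ ^ 2 := by
        rw [ENNReal.ofReal_mul (by positivity), e3]

end Crest.Agent.R138.F4x858
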