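import Crest.Agent.R138.T12_774
import Crest.Agent.R138.DecDef_774
import Crest.Agent.R138.F4_858

/-!
# R138 / R139, WAVE side: A1 (T12 + DEC) (helper774)
-/

set_option autoImplicit false

open MeasureTheory FourierTransform
open scoped ENNReal ContDiff

namespace Crest.Agent.R138.T774

open Crest.Agent.R138.Defs Crest.Agent.R138.Bil882 Crest.Agent.R138.W188

attribute [local instance] haar3

/-! ### nets -/

/-- the relation in `Plates.sep`. -/
def Sep (r : ℝ) (z z' : E2 × ℝ) : Prop := z = z' ∨ r ≤ ‖z.1 - z'.1‖ ∨ r ≤ |z.2 - z'.2|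

theorem Sep.symm {r : ℝ} {z z' : E2 × ℝ} (h : Sep r z z') : Sep r z' z := by
  rcases h with h | h | h
  · exact Or.inl h.symm
  · exact Or.inr (Or.inl (by rwa [norm_sub_rev]))
  · exact Or.inr (Or.inr (by rwa [abs_sub_comm]))

theorem card_net {R r : ℝ} (hr : 0 < r) (hrR : r ≤ R) (Z : Finset (E2 × ℝ))
    (hZ : ∀ z ∈ Z, z ∈ cyl R) (hs : ∀ z ∈ Z, ∀ z' ∈ Z, Sep r z z') :
    (Z.card : ℝ) ≤ 216 * (R / r) ^ 3 := by
  have hR : 0 < R := hr.trans_le hrR
  set v : ℝ≥0∞ := volume (Metric.ball (0 : E2 × ℝ) 1) with hv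
  have hvfin : v < ⊤ := measure_ball_lt_top
  have hvpos : 0 < v := Metric.measure_ball_pos _ _ one_pos
  have hdisj : (Z : Set (E2 × ℝ)).PairwiseDisjoint fun z => Metric.ball z (r / 2) := by
    intro z hz z' hz' hne
    refine Metric.ball_disjoint_ball ?_
    have h1 : r ≤ dist z z' := by
      rcases hs z hz z' hz' with h | h | h
      · exact absurd h hne
      · rw [Prod.dist_eq, dist_eq_norm]; exact h.trans (le_max_left _ _)
      · rw [Prod.dist_eq, Real.dist_eq]; exact h.trans (le_max_right _ _)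
    linarith
  have hsub : (⋃ z ∈ Z, Metric.ball z (r / 2)) ⊆ Metric.ball (0 : E2 × ℝ) (3 * R) := by
    intro p hp
    simp only [Set.mem_iUnion] at hp
    obtain ⟨z, hz, hp⟩ := hp
    have h1 := hZ z hz
    rw [cyl_eq, Metric.mem_closedBall] at h1
    rw [Metric.mem_ball] at hp ⊢
    calc dist p 0 ≤ dist p z + dist z 0 := dist_triangle _ _ _
      _ < r / 2 + R := by linarith
      _ ≤ 3 * R := by linarith
  have h2 : (Z.card : ℝ≥0∞) * (ENNReal.ofReal ((r / 2) ^ 3) * v) ≤ ENNReal.ofReal ((3 * R) ^ 3) * v := by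
    have h3 := measure_mono (μ := (volume : Measure (E2 × ℝ))) hsub
    rw [measure_biUnion_finset hdisj fun z _ => measurableSet_ball] at h3
    have h4 : ∀ z ∈ Z, volume (Metric.ball z (r / 2)) = ENNReal.ofReal ((r / 2) ^ 3) * v := by
      intro z _
      rw [Measure.addHaar_ball _ _ (by positivity), finrank3]
    rw [Finset.sum_congr rfl h4, Finset.sum_const, nsmul_eq_mul,
      Measure.addHaar_ball _ _ (by positivity), finrank3] at h3
    exact h3
  rw [← mul_assoc, ENNReal.mul_le_mul_iff_left hvpos.ne' hvfin.ne, ← ENNReal.ofReal_natCast,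
    ← ENNReal.ofReal_mul (by positivity), ENNReal.ofReal_le_ofReal_iff (by positivity)] at h2
  have h5 : (Z.card : ℝ) ≤ (3 * R) ^ 3 / (r / 2) ^ 3 := by
    rw [le_div_iff₀ (by positivity)]; exact h2
  refine h5.trans_eq ?_
  field_simp
  norm_num

/-- a maximal `r`-separated net of the cylinder. -/
theorem exists_net {R r : ℝ} (hr : 0 < r) (hrR : r ≤ R) : ∃ Z : Finset (E2 × ℝ),
    (∀ z ∈ Z, z ∈ cyl R) ∧ (∀ z ∈ Z, ∀ z' ∈ Z, Sep r z z') ∧
    (∀ p ∈ cyl R, ∃ z ∈ Z, p - z ∈ cyl r) ∧ (Z.card : ℝ) ≤ 216 * (R / r) ^ 3 := by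
  classical
  let Q : ℕ → Prop := fun n => ∃ Z : Finset (E2 × ℝ), Z.card = n ∧ (∀ z ∈ Z, z ∈ cyl R) ∧
    (∀ z ∈ Z, ∀ z' ∈ Z, Sep r z z')
  have hQ0 : Q 0 := ⟨∅, rfl, by simp, by simp⟩
  set n0 : ℕ := ⌊216 * (R / r) ^ 3⌋₊ with hn0
  have hb : ∀ n, Q n → n ≤ n0 := by
    rintro n ⟨Z, rfl, h1, h2⟩
    exact Nat.le_floor (card_net hr hrR Z h1 h2)
  obtain ⟨Z, hc, h1, h2⟩ := Nat.findGreatest_spec (P := Q) (Nat.zero_le n0) hQ0
  refine ⟨Z, h1, h2, fun p hp => ?_, card_net hr hrR Z h1 h2⟩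
  by_contra hcon
  push Not at hcon
  have hpZ : p ∉ Z := by
    intro hpZ
    refine hcon p hpZ ?_
    rw [sub_self, cyl_eq]
    exact Metric.mem_closedBall_self hr.le
  have h3 : ∀ z ∈ Z, Sep r p z := by
    intro z hz
    have h4 := hcon z hz
    have h5 : ¬ (‖(p - z).1‖ ≤ r ∧ |(p - z).2| ≤ r) := h4
    rw [not_and_or, not_le, not_le] at h5
    rcases h5 with h5 | h5
    · exact Or.inr (Or.inl h5.le)
    · exact Or.inr (Or.inr h5.le)
  have hQ : Q (Z.card + 1) := by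
    refine ⟨insert p Z, Finset.card_insert_of_notMem hpZ, ?_, ?_⟩
    · intro z hz
      rcases Finset.mem_insert.1 hz with rfl | hz
      · exact hp
      · exact h1 z hz
    · intro z hz z' hz'
      rcases Finset.mem_insert.1 hz with hz1 | hz1 <;>
        rcases Finset.mem_insert.1 hz' with hz2 | hz2
      · exact Or.inl (hz1.trans hz2.symm)
      · rw [hz1]; exact h3 z' hz2
      · rw [hz2]; exact (h3 z hz1).symm
      · exact h2 z hz1 z' hz2
  have h6 := Nat.le_findGreatest (P := Q) (hb _ hQ) hQ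
  omega

/-! ### plate systems indexed by a finite type -/

/-- a plate system indexed by a finite type is bounded by `SIG`. -/
theorem val_fintype_le_SIG (A : ℝ) (h : E2 → ℝ) (g : E2 → ℂ)
    (r s1 s2 R : ℝ) {J : Type} [Fintype J] (P : J → Plate) (hm : ∀ j, (P j).z ∈ cyl R)
    (hs : ∀ i j, Sep r (P i).z (P j).z) (hx : ∀ i, ‖(P i).x‖ ≤ A * r)
    (hS : ∀ i m, MeasurableSet ((P i).S m))
    (hb : ∀ i, ∀ m, (P i).S m ⊆ Wpk685.pbox h r (P i).c (P i).b (fun k => A * (![s1, s2] k)) (P i).x m)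
    (hd : ∀ i j, i ≠ j → (P i).z = (P j).z → ∀ m, Disjoint ((P i).S m) ((P j).S m)) :
    ∑ j, ENNReal.ofReal ((s1 * s2 * r ^ 3) ^ (-(1/2) : ℝ)) *
      (ENNReal.ofReal r * Wpk685.en (r ^ (-(1/2) : ℝ)) (tr h (P j).z g) (P j).S) ^ (3 / 2 : ℝ) ≤
      SIG A r s1 s2 h g R := by
  classical
  rcases isEmpty_or_nonempty J with hJ | ⟨⟨j0⟩⟩
  · simp
  let e := Fintype.equivFin J
  let P' : ℕ → Plate := fun i => if hi : i < Fintype.card J then P (e.symm ⟨i, hi⟩) else P j0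
  have hP' : ∀ j, P' (e j) = P j := by
    intro j
    simp [P']
  have hrange : ∀ i ∈ Finset.range (Fintype.card J), ∃ j, i = e j := by
    intro i hi
    exact ⟨e.symm ⟨i, Finset.mem_range.1 hi⟩, by simp⟩
  have hpl : Plates A h r s1 s2 R (Finset.range (Fintype.card J)) P' := by
    constructor
    · intro i hi; obtain ⟨j, rfl⟩ := hrange i hi; rw [hP']; exact hm j
    · intro i hi i' hi'
      obtain ⟨j, rfl⟩ := hrange i hi
      obtain ⟨j', rfl⟩ := hrange i' hi'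
      rw [hP', hP']; exact hs j j'
    · intro i hi; obtain ⟨j, rfl⟩ := hrange i hi; rw [hP']; exact hx j
    · intro i hi m; obtain ⟨j, rfl⟩ := hrange i hi; rw [hP']; exact hS j m
    · intro i hi m; obtain ⟨j, rfl⟩ := hrange i hi; rw [hP']; exact hb j m
    · intro i hi i' hi' hne
      obtain ⟨j, rfl⟩ := hrange i hi
      obtain ⟨j', rfl⟩ := hrange i' hi'
      rw [hP', hP']
      exact hd j j' (fun h => hne (by rw [h]))
  have h1 : val h g r s1 s2 (Finset.range (Fintype.card J)) P' ≤ SIG A r s1 s2 h g R := by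
    unfold SIG
    exact le_iSup_of_le _ (le_iSup_of_le P' (le_iSup_of_le hpl le_rfl))
  refine le_trans (le_of_eq ?_) h1
  unfold val
  rw [Finset.sum_range]
  rw [← Equiv.sum_comp e]
  refine Finset.sum_congr rfl fun j _ => ?_
  rw [hP']

/-- plate systems over the frames of a net are bounded by `SIG`. -/
theorem sum_val_le_SIG (A : ℝ) (h : E2 → ℝ) (g : E2 → ℂ)
    (r s1 s2 R : ℝ) (Z : Finset (E2 × ℝ)) (hZ : ∀ z ∈ Z, z ∈ cyl R)
    (hsep : ∀ z ∈ Z, ∀ z' ∈ Z, Sep r z z') (I : E2 × ℝ → Finset ℕ) (P : E2 × ℝ → ℕ → Plate)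
    (hP : ∀ z ∈ Z, Plates A h r s1 s2 R (I z) (P z) ∧ ∀ i ∈ I z, (P z i).z = z) :
    ∑ z ∈ Z, val h g r s1 s2 (I z) (P z) ≤ SIG A r s1 s2 h g R := by
  classical
  have h1 := val_fintype_le_SIG A h g r s1 s2 R (J := Σ z : Z, I z) (fun j => P j.1 j.2)
    (fun j => by rw [(hP _ j.1.2).2 _ j.2.2]; exact hZ _ j.1.2)
    (fun i j => by
      rw [(hP _ i.1.2).2 _ i.2.2, (hP _ j.1.2).2 _ j.2.2]
      exact hsep _ i.1.2 _ j.1.2)
    (fun i => (hP _ i.1.2).1.x _ i.2.2)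
    (fun i m => (hP _ i.1.2).1.meas _ i.2.2 m)
    (fun i m => (hP _ i.1.2).1.box _ i.2.2 m)
    (fun i j hne hz m => by
      rw [(hP _ i.1.2).2 _ i.2.2, (hP _ j.1.2).2 _ j.2.2] at hz
      obtain ⟨⟨z, hzZ⟩, ⟨a, ha⟩⟩ := i
      obtain ⟨⟨z', hzZ'⟩, ⟨b, hb⟩⟩ := j
      simp only at hz
      subst hz
      refine (hP z hzZ).1.disj a ha b hb ?_
        (((hP z hzZ).2 a ha).trans ((hP z hzZ).2 b hb).symm) m
      rintro rfl
      exact hne rfl)
  refine le_trans (le_of_eq ?_) h1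
  rw [Fintype.sum_sigma]
  unfold val
  rw [← Finset.sum_coe_sort Z]
  refine Finset.sum_congr rfl fun z _ => ?_
  rw [← Finset.sum_coe_sort (I z)]

/-! ### the extension operator -/

theorem ee_add (s t : ℝ) : ee (s + t) = ee s * ee t := by
  unfold ee
  rw [← Complex.exp_add]
  congr 1
  push_cast
  ring

theorem ext_tr (h : E2 → ℝ) (z : E2 × ℝ) (g : E2 → ℂ) (x : E2) (t : ℝ) :
    ext h (tr h z g) x t = ext h g (x + z.1) (t + z.2) := by
  unfold ext tr
  refine integral_congr_ae (Filter.Eventually.of_forall fun ξ => ?_)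
  simp only
  rw [mul_assoc, ← ee_add, inner_add_left]
  congr 2
  ring

theorem integ {g : E2 → ℂ} (hm : Measurable g) (hb : ∃ M : ℝ, ∀ ξ, ‖g ξ‖ ≤ M) {σ : ℝ}
    (hs : ∀ ξ, σ < ‖ξ‖ → g ξ = 0) (p : ℝ≥0∞) : MemLp g p := by
  obtain ⟨M, hM⟩ := hb
  refine F4x858.memLp_of_bdd hm hM (S := Metric.closedBall 0 σ) ?_ ?_ ?_ p
  · exact measure_closedBall_lt_top
  · exact Metric.isClosed_closedBall.measurableSet
  · intro ξ hξ
    refine hs ξ ?_
    simpa using hξ

theorem ext_dec {h : E2 → ℝ} (hh : Continuous h) (Λ : Finset ℕ) {G : ℕ → E2 → ℂ} {rest : E2 → ℂ}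
    (hG : ∀ k ∈ Λ, Integrable (G k)) (hr : Integrable rest) (x : E2) (t : ℝ) :
    ext h (fun ξ => ∑ k ∈ Λ, G k ξ + rest ξ) x t = ∑ k ∈ Λ, ext h (G k) x t + ext h rest x t := by
  have hc : Continuous fun ξ : E2 => ee (inner ℝ x ξ + t * h ξ) :=
    F4x858.continuous_ee.comp ((continuous_const.inner continuous_id).add (continuous_const.mul hh))
  have hi : ∀ {f : E2 → ℂ}, Integrable f → Integrable fun ξ => f ξ * ee (inner ℝ x ξ + t * h ξ) := by
    intro f hf
    refine hf.mul_bdd (c := 1) hc.aestronglyMeasurable (Filter.Eventually.of_forall fun ξ => ?_)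
    rw [Ker858.norm_ee]
  unfold ext
  simp_rw [add_mul, Finset.sum_mul]
  rw [integral_add (integrable_finsetSum _ fun k hk => hi (hG k hk)) (hi hr),
    integral_finsetSum _ fun k hk => hi (hG k hk)]

/-- sup bound by the energy. -/
theorem ext_le : ∃ C : ℝ, 0 ≤ C ∧ ∀ (h : E2 → ℝ) (g : E2 → ℂ), Measurable g →
    (∃ M : ℝ, ∀ ξ, ‖g ξ‖ ≤ M) → (∀ ξ, 2 < ‖ξ‖ → g ξ = 0) → ∀ (x : E2) (t : ℝ),
    ‖ext h g x t‖ ≤ C * Real.sqrt (En g) := by
  have hfin : volume (Metric.closedBall (0 : E2) 2) < ⊤ := measure_closedBall_lt_top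
  refine ⟨Real.sqrt (volume (Metric.closedBall (0 : E2) 2)).toReal, Real.sqrt_nonneg _,
    fun h g hm hb hs x t => ?_⟩
  have h1 : ‖ext h g x t‖ ≤ ∫ ξ, ‖g ξ‖ := by
    unfold ext
    refine (norm_integral_le_integral_norm _).trans_eq ?_
    refine integral_congr_ae (Filter.Eventually.of_forall fun ξ => ?_)
    simp only
    rw [norm_mul, Ker858.norm_ee, mul_one]
  have h2 := integral_mul_le_Lp_mul_Lq_of_nonneg (μ := (volume : Measure E2))
    Real.HolderConjugate.two_two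
    (f := (Metric.closedBall (0 : E2) 2).indicator fun _ => (1:ℝ)) (g := fun ξ => ‖g ξ‖)
    (Filter.Eventually.of_forall fun ξ => Set.indicator_nonneg (fun _ _ => zero_le_one) ξ)
    (Filter.Eventually.of_forall fun ξ => norm_nonneg _)
    (memLp_indicator_const _ Metric.isClosed_closedBall.measurableSet _ (Or.inr hfin.ne))
    (integ hm hb hs _).norm
  have e1 : ∀ ξ : E2, (Metric.closedBall (0 : E2) 2).indicator (fun _ => (1:ℝ)) ξ * ‖g ξ‖ = ‖g ξ‖ := by
    intro ξ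
    by_cases hξ : ξ ∈ Metric.closedBall (0 : E2) 2
    · rw [Set.indicator_of_mem hξ, one_mul]
    · rw [Set.indicator_of_notMem hξ, zero_mul, hs ξ (by simpa using hξ), norm_zero]
  have e2 : ∀ ξ : E2, (Metric.closedBall (0 : E2) 2).indicator (fun _ => (1:ℝ)) ξ ^ (2:ℝ)
      = (Metric.closedBall (0 : E2) 2).indicator (fun _ => (1:ℝ)) ξ := by
    intro ξ
    by_cases hξ : ξ ∈ Metric.closedBall (0 : E2) 2
    · rw [Set.indicator_of_mem hξ, Real.one_rpow]
    · rw [Set.indicator_of_notMem hξ]; norm_num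
  simp only [e1, e2] at h2
  rw [integral_indicator_const _ Metric.isClosed_closedBall.measurableSet] at h2
  have e3 : ∀ ξ, ‖g ξ‖ ^ (2:ℝ) = ‖g ξ‖ ^ 2 := fun ξ => by
    rw [show (2:ℝ) = ((2:ℕ):ℝ) by norm_num, Real.rpow_natCast]
  simp only [e3] at h2
  refine h1.trans (h2.trans_eq ?_)
  unfold En
  rw [Real.sqrt_eq_rpow, Real.sqrt_eq_rpow]
  simp [Measure.real]

end Crest.Agent.R138.T774
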