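import Crest.Agent.R138.A1_774

/-!
# R138 / R139, WAVE side: A1 from DEC (helper774)
-/

set_option autoImplicit false
set_option linter.unusedVariables false

open MeasureTheory FourierTransform
open scoped ENNReal ContDiff

namespace Crest.Agent.R138.T774

open Crest.Agent.R138.Defs Crest.Agent.R138.Bil882 Crest.Agent.R138.W188

attribute [local instance] haar3

theorem Sd_one {r : ℝ} (hr : 1 ≤ r) : Sd r 1 1 :=
  ⟨Real.rpow_le_one_of_one_le_of_nonpos hr (by norm_num), le_rfl, le_rfl⟩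

/-- the numerical part of the error term. -/
theorem err_le {C1 C2 C3 R r w e D ε' n z B S M0 : ℝ} {K : ℕ} (hC1 : 0 ≤ C1) (hC2 : 0 ≤ C2)
    (hR : 1 ≤ R) (hr1 : R ^ (1/2 : ℝ) ≤ r) (hw : 0 < w) (hwr : w ≤ r ^ (1/2 : ℝ))
    (he : 0 ≤ e) (hD0 : 0 ≤ D) (hD : e ≤ R ^ M0 * D) (hε1 : ε' ≤ 1) (hn0 : 0 ≤ n)
    (hn : n ≤ C2 * R ^ ε') (hz0 : 0 ≤ z) (hz : z ≤ 216 * (R / r) ^ 3)
    (hB : B = C2 * R ^ (-(K:ℝ)) * Real.sqrt e)
    (hS : S ^ 2 ≤ C3 ^ 2 * (C2 * R ^ ε' * e)) (hK5 : 5 ≤ K) (hKM : M0 + 5 ≤ K) {N : ℕ}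
    (hN : 4 * K + 4 ≤ N) :
    (n + 1) ^ 2 * (z * (C1 * r ^ 3 * (B ^ 2 + S ^ 2 * (w / r) ^ (N - 4)) ^ (3 / 2 : ℝ))) ≤
      ((C2 + 1) ^ 2 * 216 * C1 * (C2 ^ 2 + C3 ^ 2 * C2) ^ (3 / 2 : ℝ)) *
        (R * e * Real.sqrt D) := by
  have hR0 : 0 < R := by linarith
  have hr : 1 ≤ r := (Real.one_le_rpow hR (by norm_num)).trans hr1
  have hr0 : 0 < r := by linarith
  have hK5' : (5:ℝ) ≤ K := by exact_mod_cast hK5
  have h1 : w / r ≤ R ^ (-(1/4) : ℝ) := by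
    have h2 : w / r ≤ r ^ (-(1/2) : ℝ) := by
      rw [div_le_iff₀ hr0]
      refine hwr.trans_eq ?_
      nth_rw 3 [← Real.rpow_one r]
      rw [← Real.rpow_add hr0]
      norm_num
    refine h2.trans ?_
    have h3 : (R ^ (1/2 : ℝ)) ^ (-(1/2) : ℝ) = R ^ (-(1/4) : ℝ) := by
      rw [← Real.rpow_mul hR0.le]; norm_num
    rw [← h3]
    exact Real.rpow_le_rpow_of_nonpos (by positivity) hr1 (by norm_num)
  have h4 : (w / r) ^ (N - 4) ≤ R ^ (-(K:ℝ)) := by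
    calc (w / r) ^ (N - 4) ≤ (R ^ (-(1/4) : ℝ)) ^ (N - 4) := by gcongr
      _ ≤ (R ^ (-(1/4) : ℝ)) ^ (4 * K) := by
          refine pow_le_pow_of_le_one (by positivity) ?_ (by omega)
          exact Real.rpow_le_one_of_one_le_of_nonpos hR (by norm_num)
      _ = R ^ (-(K:ℝ)) := by
          rw [← Real.rpow_natCast, ← Real.rpow_mul hR0.le]
          congr 1
          push_cast
          ring
  have h5 : B ^ 2 + S ^ 2 * (w / r) ^ (N - 4) ≤
      (C2 ^ 2 + C3 ^ 2 * C2) * (R ^ (1 - (K:ℝ)) * e) := by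
    have h6 : B ^ 2 ≤ C2 ^ 2 * (R ^ (1 - (K:ℝ)) * e) := by
      rw [hB, mul_pow, mul_pow, Real.sq_sqrt he, ← Real.rpow_natCast (R ^ (-(K:ℝ))) 2,
        ← Real.rpow_mul hR0.le]
      have : R ^ (-(K:ℝ) * ((2:ℕ):ℝ)) ≤ R ^ (1 - (K:ℝ)) :=
        Real.rpow_le_rpow_of_exponent_le hR (by push_cast; linarith)
      calc C2 ^ 2 * R ^ (-(K:ℝ) * ((2:ℕ):ℝ)) * e ≤ C2 ^ 2 * R ^ (1 - (K:ℝ)) * e := by gcongr
        _ = _ := by ring
    have h7 : S ^ 2 * (w / r) ^ (N - 4) ≤ C3 ^ 2 * C2 * (R ^ (1 - (K:ℝ)) * e) := by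
      calc S ^ 2 * (w / r) ^ (N - 4) ≤ (C3 ^ 2 * (C2 * R ^ ε' * e)) * R ^ (-(K:ℝ)) := by
            gcongr
        _ = C3 ^ 2 * C2 * ((R ^ ε' * R ^ (-(K:ℝ))) * e) := by ring
        _ ≤ C3 ^ 2 * C2 * (R ^ (1 - (K:ℝ)) * e) := by
            gcongr
            rw [← Real.rpow_add hR0]
            exact Real.rpow_le_rpow_of_exponent_le hR (by linarith)
    have h8 := add_mul (C2 ^ 2) (C3 ^ 2 * C2) (R ^ (1 - (K:ℝ)) * e)
    linarith
  have h8 : (B ^ 2 + S ^ 2 * (w / r) ^ (N - 4)) ^ (3 / 2 : ℝ) ≤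
      (C2 ^ 2 + C3 ^ 2 * C2) ^ (3 / 2 : ℝ) *
        (R ^ ((1 - (K:ℝ)) * (3/2)) * (e * (R ^ (M0 / 2) * Real.sqrt D))) := by
    calc (B ^ 2 + S ^ 2 * (w / r) ^ (N - 4)) ^ (3 / 2 : ℝ)
        ≤ ((C2 ^ 2 + C3 ^ 2 * C2) * (R ^ (1 - (K:ℝ)) * e)) ^ (3 / 2 : ℝ) := by
          gcongr
      _ = (C2 ^ 2 + C3 ^ 2 * C2) ^ (3 / 2 : ℝ) * (R ^ ((1 - (K:ℝ)) * (3/2)) * e ^ (3 / 2 : ℝ)) := by
          rw [Real.mul_rpow (by positivity) (by positivity), Real.mul_rpow (by positivity) he,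
            ← Real.rpow_mul hR0.le]
      _ ≤ _ := by
          gcongr
          have h9 : e ^ (3 / 2 : ℝ) = e * Real.sqrt e := by
            rcases he.eq_or_lt with h0 | h0
            · rw [← h0]; norm_num
            · rw [Real.sqrt_eq_rpow]
              nth_rw 2 [← Real.rpow_one e]
              rw [← Real.rpow_add h0]; norm_num
          rw [h9]
          gcongr
          have h10 : R ^ (M0 / 2) = Real.sqrt (R ^ M0) := by
            rw [Real.sqrt_eq_rpow, ← Real.rpow_mul hR0.le]; congr 1; ring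
          rw [h10, ← Real.sqrt_mul (by positivity)]
          exact Real.sqrt_le_sqrt hD
  have h10 : (n + 1) ^ 2 ≤ (C2 + 1) ^ 2 * R ^ 2 := by
    have h11 : n + 1 ≤ (C2 + 1) * R := by
      have : R ^ ε' ≤ R := by
        calc R ^ ε' ≤ R ^ (1:ℝ) := Real.rpow_le_rpow_of_exponent_le hR hε1
          _ = R := Real.rpow_one R
      nlinarith
    calc (n + 1) ^ 2 ≤ ((C2 + 1) * R) ^ 2 := by gcongr
      _ = _ := by ring
  have h12 : z * (C1 * r ^ 3 * (B ^ 2 + S ^ 2 * (w / r) ^ (N - 4)) ^ (3 / 2 : ℝ)) ≤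
      216 * C1 * R ^ 3 * ((C2 ^ 2 + C3 ^ 2 * C2) ^ (3 / 2 : ℝ) *
        (R ^ ((1 - (K:ℝ)) * (3/2)) * (e * (R ^ (M0 / 2) * Real.sqrt D)))) := by
    calc z * (C1 * r ^ 3 * (B ^ 2 + S ^ 2 * (w / r) ^ (N - 4)) ^ (3 / 2 : ℝ))
        ≤ (216 * (R / r) ^ 3) * (C1 * r ^ 3 * ((C2 ^ 2 + C3 ^ 2 * C2) ^ (3 / 2 : ℝ) *
          (R ^ ((1 - (K:ℝ)) * (3/2)) * (e * (R ^ (M0 / 2) * Real.sqrt D))))) := by gcongr
      _ = _ := by
          field_simp
  have h13 : R ^ 5 * (R ^ ((1 - (K:ℝ)) * (3/2)) * R ^ (M0 / 2)) ≤ R := by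
    rw [← Real.rpow_add hR0, ← Real.rpow_natCast, ← Real.rpow_add hR0]
    nth_rw 2 [← Real.rpow_one R]
    refine Real.rpow_le_rpow_of_exponent_le hR ?_
    push_cast
    rcases le_or_gt M0 0 with h0 | h0 <;> linarith
  calc _ ≤ ((C2 + 1) ^ 2 * R ^ 2) * (216 * C1 * R ^ 3 * ((C2 ^ 2 + C3 ^ 2 * C2) ^ (3 / 2 : ℝ) *
        (R ^ ((1 - (K:ℝ)) * (3/2)) * (e * (R ^ (M0 / 2) * Real.sqrt D))))) := by gcongr
    _ = ((C2 + 1) ^ 2 * 216 * C1 * (C2 ^ 2 + C3 ^ 2 * C2) ^ (3 / 2 : ℝ)) *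
        ((R ^ 5 * (R ^ ((1 - (K:ℝ)) * (3/2)) * R ^ (M0 / 2))) * e * Real.sqrt D) := by ring
    _ ≤ _ := by gcongr

/-- **A1** from **DEC**. -/
theorem A1_of_DEC {B : ℕ → ℝ} {q : ℝ} {A : ℝ} {Na0 : ℕ}
    (H : DEC B q A Na0) : A1n B q (SIG A) Na0 := by
  intro ε hε Na M0
  set K : ℕ := ⌈M0⌉₊ + 5 with hK
  set ε' : ℝ := min ε 1 / 4 with hε'
  have hε'0 : 0 < ε' := by rw [hε']; have := lt_min hε one_pos; positivity
  have hε'1 : ε' ≤ 1 := by
    rw [hε']; have := min_le_right ε 1; linarith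
  have hε'4 : 4 * ε' ≤ ε := by
    rw [hε']; have := min_le_left ε 1; linarith
  have hKM : M0 + 5 ≤ K := by
    rw [hK]; push_cast
    have := Nat.le_ceil M0
    linarith
  obtain ⟨C2, hC2, HD⟩ := H ε' hε'0 Na M0 K
  obtain ⟨C3, hC3, hext⟩ := ext_le
  refine ⟨4 * K + 4, fun N hN => ?_⟩
  obtain ⟨C1, hC1, HT⟩ := T12_abs (N := N) (by omega)
  refine ⟨max ((C2 + 1) ^ 4) ((C2 + 1) ^ 2 * 216 * C1 * (C2 ^ 2 + C3 ^ 2 * C2) ^ (3 / 2 : ℝ)),
    le_max_of_le_left (by positivity), ?_⟩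
  set C : ℝ := max ((C2 + 1) ^ 4)
    ((C2 + 1) ^ 2 * 216 * C1 * (C2 ^ 2 + C3 ^ 2 * C2) ^ (3 / 2 : ℝ)) with hCdef
  intro h g R D hSt r w hr1 hrR hw1 hwr Q hQ hNN
  have hR : 1 ≤ R := hSt.R1
  have hR0 : 0 < R := by linarith
  have hr : 1 ≤ r := (Real.one_le_rpow hR (by norm_num)).trans hr1
  have hr0 : 0 < r := by linarith
  have hw0 : 0 < w := by linarith
  have hhc : Continuous h := hSt.par.1.continuous
  obtain ⟨Λ, s, hcard, hSd, HD⟩ := HD R r hR hr1 hrR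
  obtain ⟨Z, hZ1, hZ2, hZ3, hZ4⟩ := exists_net hr0 hrR
  have : Inhabited Plate := ⟨⟨0, 0, EuclideanSpace.basisFun (Fin 2) ℝ, 0, fun _ => ∅⟩⟩
  have HD' := fun z : E2 × ℝ => fun hz : z ∈ cyl R => HD h g D hSt z hz
  choose! G D' rest I P hdec hSt' hPl hSS hrm hrb hrs hrE hrt using HD'
  have hiG : ∀ z ∈ Z, ∀ k ∈ Λ, Integrable (G z k) := fun z hz k hk => by
    have := hSt' z (hZ1 z hz) k hk
    exact memLp_one_iff_integrable.1 (integ this.meas this.bdd this.supp 1)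
  have hir : ∀ z ∈ Z, Integrable (rest z) := fun z hz =>
    memLp_one_iff_integrable.1 (integ (hrm z (hZ1 z hz)) (hrb z (hZ1 z hz)) (hrs z (hZ1 z hz)) 1)
  have hEn : 0 ≤ En g := integral_nonneg fun ξ => by positivity
  have hEnr : ∀ z, 0 ≤ En (rest z) := fun z => integral_nonneg fun ξ => by positivity
  -- T12
  have hT := HT w r R (C2 * R ^ (-(K:ℝ)) * Real.sqrt (En g))
    (C3 * Real.sqrt (C2 * R ^ ε' * En g)) hw0 hr0 (by positivity) (by positivity) Z hZ3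
    {k // k ∈ Λ} (fun p => ext h g p.1 p.2) (fun z k p => ext h (G z k) p.1 p.2)
    (fun z p => ext h (rest z) p.1 p.2)
    (fun z hz k => (F4x858.continuous_ext hhc (hiG z hz k k.2)).measurable)
    (fun z hz => (F4x858.continuous_ext hhc (hir z hz)).measurable)
    (fun z hz p => by
      have h1 := ext_tr h z g p.1 p.2
      have h2 : tr h z g = fun ξ => ∑ k ∈ Λ, G z k ξ + rest z ξ := by
        funext ξ; exact hdec z (hZ1 z hz) ξ
      rw [h2, ext_dec hhc Λ (hiG z hz) (hir z hz)] at h1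
      simp only [Prod.fst_add, Prod.snd_add]
      rw [← h1, Finset.sum_coe_sort Λ (fun k => ext h (G z k) p.1 p.2)])
    (fun z hz p hp1 hp2 => by
      exact hrt z (hZ1 z hz) p hp1 hp2)
    (fun z hz p => by
      refine (hext h (rest z) (hrm z (hZ1 z hz)) (hrb z (hZ1 z hz)) (hrs z (hZ1 z hz)) p.1 p.2).trans ?_
      gcongr
      exact hrE z (hZ1 z hz))
  have eNN : ∀ f : E2 → ℂ, ∀ ρ : ℝ, NN N h f w ρ =
      ∫⁻ z in cyl ρ, AA N w (fun p => ext h f p.1 p.2) z ^ (3 / 2 : ℝ) := fun f ρ => rfl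
  rw [← eNN] at hT
  simp only [← eNN] at hT
  -- the maximal label
  have hmain : ∃ s1 s2, Sd r s1 s2 ∧ ∑ z ∈ Z, ∑ k : {k // k ∈ Λ}, NN N h (G z k) w r ≤
      ENNReal.ofReal ((C2 * R ^ ε') * (C2 * R ^ ε') * Q) *
        (ENNReal.ofReal (s2 ^ (-q / 2)) * SIG A r s1 s2 h g R) := by
    rcases Λ.eq_empty_or_nonempty with hΛ | hΛ
    · subst hΛ
      refine ⟨1, 1, Sd_one hr, ?_⟩
      simp
    · obtain ⟨k0, hk0, hmax⟩ := Finset.exists_max_image Λ (fun k =>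
        ENNReal.ofReal ((s k).2 ^ (-q / 2)) * SIG A r (s k).1 (s k).2 h g R) hΛ
      refine ⟨(s k0).1, (s k0).2, hSd k0 hk0, ?_⟩
      have h1 : ∀ z ∈ Z, ∀ k ∈ Λ, NN N h (G z k) w r ≤ ENNReal.ofReal Q *
          (ENNReal.ofReal (C2 * R ^ ε') * (ENNReal.ofReal ((s k).2 ^ (-q / 2)) *
            val h g r (s k).1 (s k).2 (I z k) (P z k))) := by
        intro z hz k hk
        refine (hNN _ _ (hSt' z (hZ1 z hz) k hk)).trans ?_
        rw [ENNReal.ofReal_mul (by linarith)]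
        gcongr
        exact hSS z (hZ1 z hz) k hk
      calc ∑ z ∈ Z, ∑ k : {k // k ∈ Λ}, NN N h (G z k) w r
          = ∑ z ∈ Z, ∑ k ∈ Λ, NN N h (G z k) w r := by
            refine Finset.sum_congr rfl fun z _ => ?_
            exact Finset.sum_coe_sort Λ (fun k => NN N h (G z k) w r)
        _ ≤ ∑ z ∈ Z, ∑ k ∈ Λ, ENNReal.ofReal Q *
          (ENNReal.ofReal (C2 * R ^ ε') * (ENNReal.ofReal ((s k).2 ^ (-q / 2)) *
            val h g r (s k).1 (s k).2 (I z k) (P z k))) :=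
            Finset.sum_le_sum fun z hz => Finset.sum_le_sum fun k hk => h1 z hz k hk
        _ = ∑ k ∈ Λ, ENNReal.ofReal Q * (ENNReal.ofReal (C2 * R ^ ε') *
            (ENNReal.ofReal ((s k).2 ^ (-q / 2)) *
            ∑ z ∈ Z, val h g r (s k).1 (s k).2 (I z k) (P z k))) := by
            rw [Finset.sum_comm]
            refine Finset.sum_congr rfl fun k _ => ?_
            rw [Finset.mul_sum, Finset.mul_sum, Finset.mul_sum]
        _ ≤ ∑ k ∈ Λ, ENNReal.ofReal Q * (ENNReal.ofReal (C2 * R ^ ε') *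
            (ENNReal.ofReal ((s k0).2 ^ (-q / 2)) * SIG A r (s k0).1 (s k0).2 h g R)) := by
            refine Finset.sum_le_sum fun k hk => ?_
            refine mul_le_mul_right (mul_le_mul_right (le_trans (mul_le_mul_right ?_ _)
              (hmax k hk)) _) _
            exact sum_val_le_SIG A h g r (s k).1 (s k).2 R Z hZ1 hZ2 (fun z => I z k)
              (fun z => P z k) (fun z hz => hPl z (hZ1 z hz) k hk)
        _ = (Λ.card : ℝ≥0∞) * (ENNReal.ofReal Q * (ENNReal.ofReal (C2 * R ^ ε') *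
            (ENNReal.ofReal ((s k0).2 ^ (-q / 2)) * SIG A r (s k0).1 (s k0).2 h g R))) := by
            rw [Finset.sum_const, nsmul_eq_mul]
        _ ≤ ENNReal.ofReal (C2 * R ^ ε') * (ENNReal.ofReal Q * (ENNReal.ofReal (C2 * R ^ ε') *
            (ENNReal.ofReal ((s k0).2 ^ (-q / 2)) * SIG A r (s k0).1 (s k0).2 h g R))) := by
            gcongr
            rw [← ENNReal.ofReal_natCast]
            exact ENNReal.ofReal_le_ofReal hcard
        _ = _ := by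
            have e1 : ENNReal.ofReal ((C2 * R ^ ε') * (C2 * R ^ ε') * Q) =
                ENNReal.ofReal (C2 * R ^ ε') * ENNReal.ofReal (C2 * R ^ ε') * ENNReal.ofReal Q := by
              rw [ENNReal.ofReal_mul (p := (C2 * R ^ ε') * (C2 * R ^ ε')) (by positivity),
                ENNReal.ofReal_mul (p := C2 * R ^ ε') (q := C2 * R ^ ε') (by positivity)]
            rw [e1]
            ring
  obtain ⟨s1, s2, hsd, hmain⟩ := hmain
  refine ⟨s1, s2, hsd, hT.trans ?_⟩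
  have ecard : ((Fintype.card {k // k ∈ Λ} : ℕ) : ℝ≥0∞) + 1 = ENNReal.ofReal ((Λ.card : ℝ) + 1) := by
    rw [Fintype.card_coe, ENNReal.ofReal_add (by positivity) zero_le_one, ENNReal.ofReal_natCast,
      ENNReal.ofReal_one]
  rw [ecard]
  gcongr ?_ + ?_
  · calc ENNReal.ofReal ((Λ.card : ℝ) + 1) ^ 2 * ∑ z ∈ Z, ∑ k : {k // k ∈ Λ}, NN N h (G z k) w r
        ≤ ENNReal.ofReal ((Λ.card : ℝ) + 1) ^ 2 * (ENNReal.ofReal ((C2 * R ^ ε') * (C2 * R ^ ε') * Q) *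
          (ENNReal.ofReal (s2 ^ (-q / 2)) * SIG A r s1 s2 h g R)) := by gcongr
      _ = ENNReal.ofReal (((Λ.card : ℝ) + 1) ^ 2 * ((C2 * R ^ ε') * (C2 * R ^ ε') * Q)) *
          (ENNReal.ofReal (s2 ^ (-q / 2)) * SIG A r s1 s2 h g R) := by
          rw [← mul_assoc, ← ENNReal.ofReal_pow (by positivity), ← ENNReal.ofReal_mul (by positivity)]
      _ ≤ _ := by
          refine mul_le_mul_left (ENNReal.ofReal_le_ofReal ?_) _
          have hRe : 1 ≤ R ^ ε' := Real.one_le_rpow hR hε'0.le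
          have h1 : (Λ.card : ℝ) + 1 ≤ (C2 + 1) * R ^ ε' := by nlinarith
          have h2 : C2 * R ^ ε' ≤ (C2 + 1) * R ^ ε' := by gcongr; linarith
          have h3 : (R ^ ε') ^ 4 ≤ R ^ ε := by
            rw [← Real.rpow_natCast, ← Real.rpow_mul hR0.le]
            exact Real.rpow_le_rpow_of_exponent_le hR (by push_cast; linarith)
          calc ((Λ.card : ℝ) + 1) ^ 2 * ((C2 * R ^ ε') * (C2 * R ^ ε') * Q)
              ≤ ((C2 + 1) * R ^ ε') ^ 2 * (((C2 + 1) * R ^ ε') * ((C2 + 1) * R ^ ε') * Q) := by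
                gcongr
            _ = (C2 + 1) ^ 4 * (R ^ ε') ^ 4 * Q := by ring
            _ ≤ C * R ^ ε * Q := by
                gcongr
                exact le_max_left _ _
  · have hD0 := hSt.D0
    have h1 := err_le (C3 := C3) (n := (Λ.card : ℝ)) (z := (Z.card : ℝ)) hC1 hC2 hR hr1 hw0 hwr hEn hD0
      hSt.nd hε'1 (by positivity) hcard (by positivity) hZ4 rfl
      (S := C3 * Real.sqrt (C2 * R ^ ε' * En g))
      (by rw [mul_pow, Real.sq_sqrt (by positivity)]) (by omega) hKM hN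
    calc _ = ENNReal.ofReal (((Λ.card : ℝ) + 1) ^ 2 * ((Z.card : ℝ) * (C1 * r ^ 3 *
          ((C2 * R ^ (-(K:ℝ)) * Real.sqrt (En g)) ^ 2 +
          (C3 * Real.sqrt (C2 * R ^ ε' * En g)) ^ 2 * (w / r) ^ (N - 4)) ^ (3 / 2 : ℝ)))) := by
          rw [← ENNReal.ofReal_pow (by positivity), ← ENNReal.ofReal_natCast,
            ← ENNReal.ofReal_mul (by positivity), ← ENNReal.ofReal_mul (by positivity)]
      _ ≤ ENNReal.ofReal (C * SS g R D) := by
          apply ENNReal.ofReal_le_ofReal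
          refine h1.trans ?_
          unfold SS
          gcongr
          exact le_max_right _ _

end Crest.Agent.R138.T774
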