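import Crest.Agent.R138.A1_774
import Crest.Agent.R138.Wf5_448

/-!
# R138 / R139, WAVE side: A5a (cubes are bounded by local averages at scale one) (helper774)
-/

set_option autoImplicit false

open MeasureTheory FourierTransform
open scoped ENNReal ContDiff

namespace Crest.Agent.R138.T774

open Crest.Agent.R138.Defs Crest.Agent.R138.Bil882 Crest.Agent.R138.W188 Crest.Agent.R138.Wf448

theorem slice_le (B : ℕ → ℝ) (n : ℕ) : ∃ C : ℝ, 0 ≤ C ∧ ∀ h : E2 → ℝ, ParB B h →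
    fderiv ℝ h 0 = 0 → ∀ g : E2 → ℂ, Measurable g → (∃ M : ℝ, ∀ ξ, ‖g ξ‖ ≤ M) →
    (∀ ξ, 1 < ‖ξ‖ → g ξ = 0) → ∀ (x : E2) (t τ : ℝ), |τ| ≤ 1 →
    ‖ext h g x t‖ₑ ^ 2 ≤ ENNReal.ofReal C * wE n (ContinuousLinearMap.id ℝ E2) x (sl h g (t + τ)) := by
  obtain ⟨C1, hC1, h1⟩ := loc_const E2 n
  set M : ℝ := 1 + ∑ k ∈ Finset.range (max n 2 + 1), |B k| with hM
  have hM0 : 1 ≤ M := by
    have : 0 ≤ ∑ k ∈ Finset.range (max n 2 + 1), |B k| := Finset.sum_nonneg fun _ _ => abs_nonneg _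
    linarith
  obtain ⟨C2, hC2, h2⟩ := transport (V := E2) (W := E2) n M
  set l : ℝ := M⁻¹ with hl
  have hl0 : 0 < l := by positivity
  have hl1 : l ≤ 1 := inv_le_one_of_one_le₀ hM0
  set a : ℝ := adet ((ContinuousLinearEquiv.refl ℝ E2 : E2 ≃L[ℝ] E2) : E2 →L[ℝ] E2) with ha
  have ha0 : 0 ≤ a := (adet_pos _).le
  refine ⟨C1 * a * (C2 * (l⁻¹) ^ (2 * n)), by positivity, ?_⟩
  intro h hh hd0 g hgm hgb hgs x t τ hτ
  have hg1 : Integrable g := memLp_one_iff_integrable.1 (integ hgm hgb hgs 1)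
  have hg2 : MemLp g 2 := integ hgm hgb hgs 2
  have hid : ((ContinuousLinearEquiv.refl ℝ E2 : E2 ≃L[ℝ] E2) : E2 →L[ℝ] E2) =
      ContinuousLinearMap.id ℝ E2 := rfl
  have e1 := h1 (ContinuousLinearEquiv.refl ℝ E2) 0 (sl h g t) (integrable_sl hh.1.continuous hg1 t)
    (by
      intro ξ hξ
      refine ⟨ξ, ?_, ?_⟩
      · by_contra hc
        push Not at hc
        exact hξ (by simp [sl, hgs ξ hc])
      · rw [hid]
        have : ContinuousLinearMap.adjoint (ContinuousLinearMap.id ℝ E2) = ContinuousLinearMap.id ℝ E2 := by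
          exact ContinuousLinearMap.adjoint_id
        rw [zero_add]
        exact (congrFun (congrArg DFunLike.coe this) ξ).symm) x
  rw [← ext_eq] at e1
  rw [← ha, hid] at e1
  -- move the time
  have hgrad0 : gradient h 0 = 0 := by
    unfold gradient
    rw [hd0, map_zero]
  have e2 := h2 (l • ContinuousLinearMap.id ℝ E2) h hh.1 (ParB.bound_max hh n) 1 le_rfl
    (by
      rw [Real.one_rpow, norm_smul, Real.norm_eq_abs, abs_of_pos hl0]
      calc l * ‖ContinuousLinearMap.id ℝ E2‖ ≤ 1 * 1 :=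
            mul_le_mul hl1 ContinuousLinearMap.norm_id_le (norm_nonneg _) zero_le_one
        _ = 1 := one_mul 1)
    0 (Metric.closedBall 0 1) Metric.isBounded_closedBall
    (by
      intro ξ hξ
      have hξ' : ‖ξ‖ ≤ 1 := by simpa using hξ
      have g1 := gradient_lip hh.1 (fun ξ => ParB.bound_max hh n 2 le_rfl (le_max_right _ _) ξ) ξ 0
      rw [hgrad0, sub_zero, sub_zero] at g1
      rw [sub_zero, smul_apply, norm_smul, Real.norm_eq_abs, abs_of_pos hl0,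
        ContinuousLinearMap.id_apply, div_one]
      calc l * ‖gradient h ξ‖ ≤ l * (M * ‖ξ‖) := by gcongr
        _ ≤ l * (M * 1) := by gcongr
        _ = 1 := by rw [hl, mul_one]; exact inv_mul_cancel₀ (by positivity))
    g hg1 hg2
    (by
      intro ξ hξ
      by_contra hc
      simp only [Metric.mem_closedBall, dist_zero_right, not_le] at hc
      exact hξ (hgs ξ hc)) x (t + τ) (-τ) (by rwa [abs_neg])
  rw [smul_zero, sub_zero, add_neg_cancel_right] at e2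
  have e3 : wE n (ContinuousLinearMap.id ℝ E2) x (sl h g t) ≤
      wE n (l • ContinuousLinearMap.id ℝ E2) x (sl h g t) := by
    refine wE_mono fun y => ?_
    rw [smul_apply, norm_smul, Real.norm_eq_abs, abs_of_pos hl0]
    exact mul_le_of_le_one_left (norm_nonneg _) hl1
  have e4 := wE_smul_le (n := n) (A := ContinuousLinearMap.id ℝ E2) hl0 hl1 x (sl h g (t + τ))
  calc ‖ext h g x t‖ₑ ^ 2 ≤ ENNReal.ofReal (C1 * a) * wE n (ContinuousLinearMap.id ℝ E2) x (sl h g t) := e1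
    _ ≤ ENNReal.ofReal (C1 * a) * (ENNReal.ofReal C2 * (ENNReal.ofReal ((l⁻¹) ^ (2 * n)) *
        wE n (ContinuousLinearMap.id ℝ E2) x (sl h g (t + τ)))) := by
        gcongr
        exact e3.trans (e2.trans (mul_le_mul_right e4 _))
    _ = _ := by
        rw [ENNReal.ofReal_mul (p := C1 * a) (by positivity), ENNReal.ofReal_mul (p := C2) hC2]
        ring

theorem dw_le_wt (N : ℕ) (x y : E2) (t s : ℝ) (hs : |s - t| ≤ 1) :
    dw N (ContinuousLinearMap.id ℝ E2) (y - x) ≤ 3 ^ N * wt N 1 x t (y, s) := by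
  unfold dw gw wt
  simp only [ContinuousLinearMap.id_apply, div_one]
  rw [← inv_pow, ← inv_pow, ← mul_pow]
  refine pow_le_pow_left₀ (by positivity) ?_ N
  rw [inv_eq_one_div, ← div_eq_mul_inv, div_le_div_iff₀ (by positivity) (by positivity)]
  nlinarith [sq_nonneg (‖y - x‖ - 1), norm_nonneg (y - x)]

/-- pointwise form: the function is bounded by its local average at scale one. -/
theorem ext_sq_le (B : ℕ → ℝ) (N : ℕ) : ∃ C : ℝ, 0 ≤ C ∧ ∀ h : E2 → ℝ, ParB B h →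
    fderiv ℝ h 0 = 0 → ∀ g : E2 → ℂ, Measurable g → (∃ M : ℝ, ∀ ξ, ‖g ξ‖ ≤ M) →
    (∀ ξ, 1 < ‖ξ‖ → g ξ = 0) → ∀ (x : E2) (t : ℝ),
    ‖ext h g x t‖ₑ ^ 2 ≤ ENNReal.ofReal C *
      ∫⁻ p : E2 × ℝ, ‖ext h g p.1 p.2‖ₑ ^ 2 * ENNReal.ofReal (wt N 1 x t p) := by
  obtain ⟨C, hC, H⟩ := slice_le B N
  refine ⟨C * 3 ^ N, by positivity, ?_⟩
  intro h hh hd0 g hgm hgb hgs x t
  have hg1 : Integrable g := memLp_one_iff_integrable.1 (integ hgm hgb hgs 1)
  have hmeas : Measurable fun p : E2 × ℝ => ‖ext h g p.1 p.2‖ₑ ^ 2 * ENNReal.ofReal (wt N 1 x t p) :=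
    ((F4x858.continuous_ext hh.1.continuous hg1).measurable.enorm.pow_const 2).mul
      (measurable_wt N 1 x t).ennreal_ofReal
  have h1 : ∀ s ∈ Set.Icc t (t + 1), ‖ext h g x t‖ₑ ^ 2 ≤ ENNReal.ofReal (C * 3 ^ N) *
      ∫⁻ y, ‖ext h g y s‖ₑ ^ 2 * ENNReal.ofReal (wt N 1 x t (y, s)) := by
    intro s hs
    have hs' : |s - t| ≤ 1 := by
      rw [abs_le]; constructor <;> linarith [hs.1, hs.2]
    have h2 := H h hh hd0 g hgm hgb hgs x t (s - t) hs'
    rw [add_sub_cancel, wE_sl] at h2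
    refine h2.trans ?_
    rw [ENNReal.ofReal_mul hC, mul_assoc]
    refine mul_le_mul_right ?_ _
    unfold LI
    rw [← lintegral_const_mul' _ _ ENNReal.ofReal_ne_top]
    refine lintegral_mono fun y => ?_
    have h3 := dw_le_wt N x y t s hs'
    calc ENNReal.ofReal (dw N (ContinuousLinearMap.id ℝ E2) (y - x) * ‖ext h g y s‖ ^ 2)
        ≤ ENNReal.ofReal ((3 ^ N * wt N 1 x t (y, s)) * ‖ext h g y s‖ ^ 2) := by
          apply ENNReal.ofReal_le_ofReal; gcongr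
      _ = _ := by
          have h4 := (wt_pos N one_pos x t (y, s)).le
          rw [ENNReal.ofReal_mul (by positivity), ENNReal.ofReal_mul (by positivity),
            ENNReal.ofReal_pow (norm_nonneg _), ofReal_norm]
          ring
  calc ‖ext h g x t‖ₑ ^ 2 = ∫⁻ _ in Set.Icc t (t + 1), ‖ext h g x t‖ₑ ^ 2 := by
        rw [setLIntegral_const, Real.volume_Icc]; simp
    _ ≤ ∫⁻ s in Set.Icc t (t + 1), ENNReal.ofReal (C * 3 ^ N) *
          ∫⁻ y, ‖ext h g y s‖ₑ ^ 2 * ENNReal.ofReal (wt N 1 x t (y, s)) :=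
        setLIntegral_mono' measurableSet_Icc h1
    _ ≤ ∫⁻ s, ENNReal.ofReal (C * 3 ^ N) *
          ∫⁻ y, ‖ext h g y s‖ₑ ^ 2 * ENNReal.ofReal (wt N 1 x t (y, s)) :=
        setLIntegral_le_lintegral _ _
    _ = ENNReal.ofReal (C * 3 ^ N) * ∫⁻ s, ∫⁻ y, ‖ext h g y s‖ₑ ^ 2 *
          ENNReal.ofReal (wt N 1 x t (y, s)) := lintegral_const_mul' _ _ ENNReal.ofReal_ne_top
    _ = _ := by
        congr 1
        rw [Measure.volume_eq_prod, lintegral_prod_symm _ hmeas.aemeasurable]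

theorem A5a_holds (B : ℕ → ℝ) (q : ℝ) : A5a B q := by
  intro Na M0 N
  obtain ⟨C, hC, H⟩ := ext_sq_le B N
  refine ⟨C ^ (3 / 2 : ℝ), by positivity, ?_⟩
  intro h g R D hSt
  unfold CC NN
  rw [← lintegral_const_mul' _ _ ENNReal.ofReal_ne_top]
  refine lintegral_mono fun p => ?_
  have h1 := H h hSt.par hSt.h1 g hSt.meas hSt.bdd hSt.supp p.1 p.2
  have h2 : ‖ext h g p.1 p.2‖ₑ ^ 3 = (‖ext h g p.1 p.2‖ₑ ^ 2) ^ (3 / 2 : ℝ) := by
    rw [← ENNReal.rpow_natCast, ← ENNReal.rpow_natCast, ← ENNReal.rpow_mul]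
    norm_num
  beta_reduce
  rw [h2]
  refine (ENNReal.rpow_le_rpow h1 (by norm_num)).trans ?_
  rw [ENNReal.mul_rpow_of_nonneg _ _ (by norm_num), ENNReal.ofReal_rpow_of_nonneg hC (by norm_num)]
  simp

end Crest.Agent.R138.T774
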