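import Crest.Agent.R138.Acl_101
import Crest.Agent.R138.Ad_480

/-!
# R138 / R139: WAVE side, leaf W-f (helper101), part 2: classes for the combinatorial density `Ad`

`ρ` = level `i`, `ρ'` = level `j` (`ρ ≤ ρ'`), `z` = frame of level `j` relative to the frame of
level `i`, `g`, `S` = function and selection of level `i`.  The density of the cap `m'` of level `j`
at the point `y` is `Ad n h ρ ρ' g S m' z y`.
-/

set_option autoImplicit false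

open MeasureTheory
open scoped ENNReal

namespace Crest.Agent.R138.Acl101

open Crest.Agent.R138.Defs Crest.Agent.R138.Wpk685 Crest.Agent.R138.Ad480 Crest.Agent.R138.Loc878
open Crest.Agent.R138.W188 (En)

variable {n : ℕ} {h : E2 → ℝ} {ρ ρ' : ℝ} {g : E2 → ℂ} {S : ℤ × ℤ → Set E2}

/-- slowly varying in the position, same power. -/
theorem Ad_near {K : ℝ} (hρ : 0 ≤ ρ) (hK : 0 ≤ K) (m' : ℤ × ℤ) (z : E2 × ℝ) {y y' : E2}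
    (hy : ρ * ‖y - y'‖ ≤ K) :
    Ad n h ρ ρ' g S m' z y ≤ ENNReal.ofReal ((1 + K) ^ n) * Ad n h ρ ρ' g S m' z y' := by
  unfold Ad
  refine Ac_shift hρ hK fun m _ => ?_
  have e : z.1 + z.2 • gradient h (cen ρ m) + y' - (z.1 + z.2 • gradient h (cen ρ m) + y) =
      -(y - y') := by abel
  rw [e, norm_neg]
  exact hy

theorem measurable_Ac (M : Finset (ℤ × ℤ)) (hρ : 0 ≤ ρ) (hg : Integrable g)
    (z : E2 × ℝ) : Measurable (Ac n h ρ g S M z) := by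
  unfold Ac
  refine Measurable.const_mul (Finset.measurable_sum _ fun m _ => ?_) _
  have h1 : Measurable fun p : E2 × E2 =>
      ENNReal.ofReal (wa ρ n (p.2 - z.1 - z.2 • gradient h (cen ρ m) - p.1)) *
        ‖um ρ g m p.2‖ₑ ^ 2 := by
    refine Measurable.mul (Measurable.ennreal_ofReal ?_) ?_
    · exact (wa_cont hρ n).measurable.comp (by fun_prop)
    · exact ((um_cont hg m).measurable.comp measurable_snd).enorm.pow_const 2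
  exact h1.lintegral_prod_right'

theorem measurable_Ad (m' : ℤ × ℤ) (hρ : 0 ≤ ρ) (hg : Integrable g) (z : E2 × ℝ) :
    Measurable (Ad n h ρ ρ' g S m' z) := measurable_Ac _ hρ hg z

/-- the class function of level `j` built on `Ad`, for DEC with measurable classes: `Rc b m m'` =
"`m'` lies in the thin rectangle of `m` with respect to the frame `b`". -/
noncomputable def clsAd (nA : ℕ) (T : ℝ≥0∞) (K0 : ℝ≥0∞)
    (Rc : OrthonormalBasis (Fin 2) ℝ E2 → ℤ × ℤ → ℤ × ℤ → Prop) (n : ℕ) (h : E2 → ℝ) (ρ ρ' : ℝ)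
    (g : E2 → ℂ) (S : ℤ × ℤ → Set E2) (z : E2 × ℝ)
    (b : OrthonormalBasis (Fin 2) ℝ E2) (m : ℤ × ℤ) (y : E2) : ℕ :=
  clsA nA T (caps ρ') (fun m' y => Ad n h ρ ρ' g S m' z y) Rc K0 b m y

variable {nA : ℕ} {T : ℝ≥0∞} {K0 : ℝ≥0∞}
  {Rc : OrthonormalBasis (Fin 2) ℝ E2 → ℤ × ℤ → ℤ × ℤ → Prop} {z : E2 × ℝ}

theorem measurable_clsAd (hρ : 0 ≤ ρ) (hg : Integrable g)
    (b : OrthonormalBasis (Fin 2) ℝ E2) (m : ℤ × ℤ) :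
    Measurable (clsAd nA T K0 Rc n h ρ ρ' g S z b m) :=
  measurable_clsA nA T (caps ρ') (fun m' => measurable_Ad m' hρ hg z) Rc K0 b m

theorem clsAd_lt (b : OrthonormalBasis (Fin 2) ℝ E2) (m : ℤ × ℤ) (y : E2) :
    clsAd nA T K0 Rc n h ρ ρ' g S z b m y < (nA + 1) * (Nat.log 2 (caps ρ').card + 1) :=
  clsA_lt b m y

theorem card_caps {ρ : ℝ} (hρ : 0 < ρ) (hρ1 : ρ ≤ 1) : ((caps ρ).card : ℝ) ≤ 81 * (ρ⁻¹) ^ 2 := by
  unfold caps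
  rw [Finset.card_product, Int.card_Icc]
  have h0 : (0:ℤ) ≤ ⌈2 / ρ⌉ := Int.ceil_nonneg (by positivity)
  have h1 : (⌈2 / ρ⌉ : ℝ) < 2 / ρ + 1 := Int.ceil_lt_add_one _
  have h2 : ((⌈2 / ρ⌉ + 1 + 1 - (-⌈2 / ρ⌉ - 1)).toNat : ℝ) = 2 * (⌈2 / ρ⌉ : ℝ) + 3 := by
    have h3 : ((⌈2 / ρ⌉ + 1 + 1 - (-⌈2 / ρ⌉ - 1)).toNat : ℤ) = 2 * ⌈2 / ρ⌉ + 3 := by
      rw [Int.toNat_of_nonneg (by omega)]
      ring
    exact_mod_cast h3
  have h4 : 1 ≤ ρ⁻¹ := (one_le_inv₀ hρ).2 hρ1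
  have h5 : 2 * (⌈2 / ρ⌉ : ℝ) + 3 ≤ 9 * ρ⁻¹ := by
    rw [div_eq_mul_inv] at h1
    rw [div_eq_mul_inv]
    linarith
  have h6 : (0:ℝ) ≤ 2 * (⌈2 / ρ⌉ : ℝ) + 3 := by
    have : (0:ℝ) ≤ (⌈2 / ρ⌉ : ℝ) := by exact_mod_cast h0
    linarith
  push_cast
  rw [h2]
  nlinarith

/-- **coherence, upper count, for `Ad`** (`near` = distance at most `K / ρ`). -/
theorem coh_upper_Ad {K : ℝ} (hρ : 0 ≤ ρ) (hK : 0 ≤ K)
    (hK0 : 2 * ENNReal.ofReal ((1 + K) ^ n) ≤ K0)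
    {b0 : OrthonormalBasis (Fin 2) ℝ E2} {m0 : ℤ × ℤ} {y0 : E2} {c : ℕ}
    (hc0 : clsAd nA T K0 Rc n h ρ ρ' g S z b0 m0 y0 = c) (hcn : c % (nA + 1) < nA)
    (hT : Ad n h ρ ρ' g S m0 z y0 ≤ T) {Q : Finset (ℤ × ℤ)} (hQ : Q ⊆ caps ρ')
    (hQc : ∀ m ∈ Q, Rc b0 m0 m ∧ ∃ b y, ρ * ‖y - y0‖ ≤ K ∧
      clsAd nA T K0 Rc n h ρ ρ' g S z b m y = c) :
    Q.card < 2 * 2 ^ (c / (nA + 1)) :=
  coh_upper (near := fun y y' : E2 => ρ * ‖y - y'‖ ≤ K) (c1 := ENNReal.ofReal ((1 + K) ^ n))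
    (A := fun m' y => Ad n h ρ ρ' g S m' z y)
    (fun m _ _ _ hy => Ad_near hρ hK m z hy) hK0 hc0 hcn hT hQ hQc

/-- **coherence, lower count, for `Ad`**. -/
theorem coh_lower_Ad {b : OrthonormalBasis (Fin 2) ℝ E2} {m : ℤ × ℤ} {y : E2} {c : ℕ}
    (hc : clsAd nA T K0 Rc n h ρ ρ' g S z b m y = c) (hcn : c % (nA + 1) < nA) (hm : m ∈ caps ρ')
    (hr : Rc b m m) (hK : 1 ≤ K0) :
    ∃ Q : Finset (ℤ × ℤ), Q ⊆ caps ρ' ∧ 2 ^ (c / (nA + 1)) ≤ Q.card ∧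
      ∀ m' ∈ Q, Rc b m m' ∧ T / 2 ^ (c % (nA + 1) + 1) ≤ K0 * Ad n h ρ ρ' g S m' z y :=
  coh_lower (A := fun m' y => Ad n h ρ ρ' g S m' z y) hc hcn hm hr hK

/-- the density of a selected point of the class. -/
theorem cls_dens_Ad {b : OrthonormalBasis (Fin 2) ℝ E2} {m : ℤ × ℤ} {y : E2} {c : ℕ}
    (hc : clsAd nA T K0 Rc n h ρ ρ' g S z b m y = c) (hcn : c % (nA + 1) < nA)
    (hT : Ad n h ρ ρ' g S m z y ≤ T) (hm : m ∈ caps ρ') (hr : Rc b m m) (hK : 1 ≤ K0) :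
    T / 2 ^ (c % (nA + 1) + 1) < Ad n h ρ ρ' g S m z y ∧
      Ad n h ρ ρ' g S m z y ≤ 2 * (T / 2 ^ (c % (nA + 1) + 1)) :=
  let H := clsA_spec (A := fun m' y => Ad n h ρ ρ' g S m' z y) hc hcn hT hm hr hK
  ⟨H.1, H.2.1⟩

/-- **tiny class, for `Ad`**. -/
theorem cls_tiny_Ad {b : OrthonormalBasis (Fin 2) ℝ E2} {m : ℤ × ℤ} {y : E2} {c : ℕ}
    (hc : clsAd nA T K0 Rc n h ρ ρ' g S z b m y = c) (hcn : ¬ c % (nA + 1) < nA)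
    (hT : Ad n h ρ ρ' g S m z y ≤ T) : Ad n h ρ ρ' g S m z y ≤ T / 2 ^ nA :=
  clsA_tiny (A := fun m' y => Ad n h ρ ρ' g S m' z y) hc hcn hT

/-- the bound `T` for the densities: `T = C En g`. -/
theorem Ad_le_En : ∃ C : ℝ, 0 ≤ C ∧ ∀ (n : ℕ) (h : E2 → ℝ) (ρ ρ' : ℝ) (g : E2 → ℂ)
    (S : ℤ × ℤ → Set E2), 0 < ρ → ρ ≤ 1 → Integrable g → MemLp g 2 →
    ∀ (m' : ℤ × ℤ) (z : E2 × ℝ) (y : E2),
    Ad n h ρ ρ' g S m' z y ≤ ENNReal.ofReal (C * En g) := by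
  obtain ⟨C, hC, H⟩ := en_le
  refine ⟨C, hC, ?_⟩
  intro n h ρ ρ' g S hρ hρ1 hg hg2 m' z y
  refine (Ad_le_en hρ.le m' z y).trans ?_
  have h1 := H ρ hρ hρ1 g hg hg2 S
  refine (mul_le_mul' (ENNReal.ofReal_le_ofReal (?_ : ρ ^ 2 ≤ 1)) h1).trans ?_
  · exact pow_le_one₀ hρ.le hρ1
  · rw [ENNReal.ofReal_one, one_mul, lintEn hg2, ENNReal.ofReal_mul hC]

end Crest.Agent.R138.Acl101
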