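import Crest.Agent.R138.Ad_480

/-!
# R138 / R139: combinatorial densities, part 2 (helper480).

`upper` : the weighted energy at scale `ρ⁻¹` of one short packet of a selected wave is bounded by
the density `Ad`; `upper_sum` ; `measurable_Ac` ; `lintegral_Ac` ; `tiny`.
-/

set_option autoImplicit false
set_option linter.unusedSectionVars false

open MeasureTheory FourierTransform
open scoped ContDiff ENNReal

namespace Crest.Agent.R138.Ad480

open Crest.Agent.R138.Defs Crest.Agent.R138.Wpk685 Crest.Agent.R138.Loc878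
open Crest.Agent.R138.W188 (tr)

/-- bridge for an arbitrary slowly varying weight. -/
theorem upper_sv (B : ℕ → ℝ) (n : ℕ) (L : ℝ) (hL : 1 ≤ L) : ∃ C : ℝ, 0 ≤ C ∧ ∀ h, ParB B h →
    ∀ (ρ ρ' A : ℝ) (w : E2 → ℝ), 0 < ρ → ρ ≤ ρ' → ρ ≤ 1 → SV ρ A n w → ∀ g : E2 → ℂ, Integrable g →
    ∀ S : ℤ × ℤ → Set E2, Bs ρ S → ∀ z : E2 × ℝ, |z.2| * ρ ^ 2 ≤ L → ∀ m' : ℤ × ℤ,
    ∫⁻ v, ENNReal.ofReal (w v) * ‖um ρ' (tr h z (sel ρ g S)) m' v‖ₑ ^ 2 ≤
      ENNReal.ofReal (C * A ^ 7) * ∑ m ∈ nearL ρ ρ' m', ∫⁻ y in S m,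
        ENNReal.ofReal (w (y - z.1 - z.2 • gradient h (cen ρ m))) * ‖um ρ g m y‖ₑ ^ 2 := by
  obtain ⟨C1, hC1, h1⟩ := loc_core_rep B n L hL
  refine ⟨C1, hC1, ?_⟩
  intro h hh ρ ρ' A w hρ hρ' hρ1 hw g hg S hS z hz m'
  have b1 := h1 h hh ρ ρ' A w hρ hρ' hρ1 hw
    (fun m => piece ρ g m (S m)) (fun m => (S m).indicator (um ρ g m))
    (fun m hm => piece_rep hρ hg m (hS.meas m hm) (hS.bdd m hm)) z hz m'
  refine b1.trans_eq ?_
  congr 1
  refine Finset.sum_congr rfl fun m hm => ?_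
  exact lint_ind (hS.meas m (mem_nearL.1 hm).1)
    (fun y => ENNReal.ofReal (w (y - z.1 - z.2 • gradient h (cen ρ m)))) _

/-- **UPPER bridge**. -/
theorem upper (B : ℕ → ℝ) (n : ℕ) (L : ℝ) (hL : 1 ≤ L) : ∃ C : ℝ, 0 ≤ C ∧ ∀ h, ParB B h →
    ∀ (ρ ρ' : ℝ), 0 < ρ → ρ ≤ ρ' → ρ ≤ 1 → ∀ g : E2 → ℂ, Integrable g →
    ∀ S : ℤ × ℤ → Set E2, Bs ρ S → ∀ z : E2 × ℝ, |z.2| * ρ ^ 2 ≤ L → ∀ (m' : ℤ × ℤ) (x : E2),
    ENNReal.ofReal (ρ ^ 2) * ∫⁻ v, ENNReal.ofReal (wa ρ n (v - x)) *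
      ‖um ρ' (tr h z (sel ρ g S)) m' v‖ₑ ^ 2 ≤ ENNReal.ofReal C * Ad n h ρ ρ' g S m' z x := by
  obtain ⟨C1, hC1, h1⟩ := upper_sv B n L hL
  refine ⟨C1, hC1, ?_⟩
  intro h hh ρ ρ' hρ hρ' hρ1 g hg S hS z hz m' x
  have b1 := h1 h hh ρ ρ' 1 _ hρ hρ' hρ1 (SV_pt hρ.le n x) g hg S hS z hz m'
  rw [one_pow, mul_one] at b1
  unfold Ad Ac
  rw [mul_left_comm]
  exact mul_le_mul' le_rfl b1

/-- **UPPER bridge**, sum over the short caps. -/
theorem upper_sum (B : ℕ → ℝ) (n : ℕ) (L : ℝ) (hL : 1 ≤ L) : ∃ C : ℝ, 0 ≤ C ∧ ∀ h, ParB B h →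
    ∀ (ρ ρ' : ℝ), 0 < ρ → ρ ≤ ρ' → ρ ≤ 1 → ∀ g : E2 → ℂ, Integrable g →
    ∀ S : ℤ × ℤ → Set E2, Bs ρ S → ∀ z : E2 × ℝ, |z.2| * ρ ^ 2 ≤ L →
    ∀ (T : Finset (ℤ × ℤ)), T ⊆ caps ρ' → ∀ M : Finset (ℤ × ℤ), (∀ m' ∈ T, nearL ρ ρ' m' ⊆ M) →
    ∀ x : E2,
    ENNReal.ofReal (ρ ^ 2) * ∑ m' ∈ T, ∫⁻ v, ENNReal.ofReal (wa ρ n (v - x)) *
      ‖um ρ' (tr h z (sel ρ g S)) m' v‖ₑ ^ 2 ≤ ENNReal.ofReal C * Ac n h ρ g S M z x := by
  obtain ⟨C1, hC1, h1⟩ := upper B n L hL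
  refine ⟨C1 * 36, by positivity, ?_⟩
  intro h hh ρ ρ' hρ hρ' hρ1 g hg S hS z hz T hT M hM x
  rw [Finset.mul_sum]
  calc _ ≤ ∑ m' ∈ T, ENNReal.ofReal C1 * Ad n h ρ ρ' g S m' z x :=
        Finset.sum_le_sum fun m' _ => h1 h hh ρ ρ' hρ hρ' hρ1 g hg S hS z hz m' x
    _ = ENNReal.ofReal C1 * ∑ m' ∈ T, Ad n h ρ ρ' g S m' z x := by rw [Finset.mul_sum]
    _ ≤ ENNReal.ofReal C1 * (36 * Ac n h ρ g S M z x) :=
        mul_le_mul' le_rfl (sum_Ad_le (lt_of_lt_of_le hρ hρ') hT hM z x)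
    _ = _ := by
        have e36 : ENNReal.ofReal 36 = 36 := by norm_num
        rw [ENNReal.ofReal_mul hC1, e36, mul_assoc]

/-- the other usual polynomial weight. -/
theorem dw_le_wa {ρ : ℝ} (hρ : 0 ≤ ρ) (n : ℕ) (v : E2) :
    ((1 + (ρ * ‖v‖) ^ 2) ^ n)⁻¹ ≤ 2 ^ n * wa ρ (2 * n) v := by
  unfold wa
  have h0 : 0 ≤ ρ * ‖v‖ := by positivity
  rw [← div_eq_mul_inv, inv_eq_one_div, div_le_div_iff₀ (by positivity) (by positivity), one_mul,
    pow_mul, ← mul_pow]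
  refine pow_le_pow_left₀ (by positivity) ?_ n
  nlinarith [sq_nonneg (1 - ρ * ‖v‖)]

theorem wa_le_dw {ρ : ℝ} (hρ : 0 ≤ ρ) (n : ℕ) (v : E2) :
    wa ρ (2 * n) v ≤ ((1 + (ρ * ‖v‖) ^ 2) ^ n)⁻¹ := by
  unfold wa
  have h0 : 0 ≤ ρ * ‖v‖ := by positivity
  rw [pow_mul]
  refine inv_anti₀ (by positivity) (pow_le_pow_left₀ (by positivity) ?_ n)
  nlinarith

theorem wa_anti {ρ : ℝ} (hρ : 0 ≤ ρ) {n n' : ℕ} (hn : n ≤ n') (v : E2) : wa ρ n' v ≤ wa ρ n v := by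
  unfold wa
  have h0 : 0 ≤ ρ * ‖v‖ := by positivity
  exact inv_anti₀ (by positivity) (pow_le_pow_right₀ (by linarith) hn)

theorem Ac_anti {n n' : ℕ} (hn : n ≤ n') {h : E2 → ℝ} {ρ : ℝ} (hρ : 0 ≤ ρ) {g : E2 → ℂ}
    {S : ℤ × ℤ → Set E2} (M : Finset (ℤ × ℤ)) (z : E2 × ℝ) (x : E2) :
    Ac n' h ρ g S M z x ≤ Ac n h ρ g S M z x := by
  unfold Ac
  refine mul_le_mul' le_rfl (Finset.sum_le_sum fun m _ => lintegral_mono fun y => ?_)
  exact mul_le_mul' (ENNReal.ofReal_le_ofReal (wa_anti hρ hn _)) le_rfl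

/-! ### measurability -/

variable {n : ℕ} {h : E2 → ℝ} {ρ ρ' : ℝ} {g : E2 → ℂ} {S S' : ℤ × ℤ → Set E2}

theorem measurable_Ac (hρ : 0 ≤ ρ) (hg : Integrable g) (M : Finset (ℤ × ℤ)) :
    Measurable (fun p : (E2 × ℝ) × E2 => Ac n h ρ g S M p.1 p.2) := by
  unfold Ac
  refine Measurable.const_mul (Finset.measurable_fun_sum _ fun m _ => ?_) _
  have hf : Measurable (fun q : ((E2 × ℝ) × E2) × E2 =>
      ENNReal.ofReal (wa ρ n (q.2 - q.1.1.1 - q.1.1.2 • gradient h (cen ρ m) - q.1.2)) *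
        ‖um ρ g m q.2‖ₑ ^ 2) := by
    have h1 : Continuous (fun q : ((E2 × ℝ) × E2) × E2 =>
        wa ρ n (q.2 - q.1.1.1 - q.1.1.2 • gradient h (cen ρ m) - q.1.2)) :=
      (wa_cont hρ n).comp (by fun_prop)
    have h2 : Continuous (fun q : ((E2 × ℝ) × E2) × E2 => um ρ g m q.2) :=
      (um_cont hg m).comp (by fun_prop)
    exact h1.measurable.ennreal_ofReal.mul (h2.measurable.enorm.pow_const 2)
  exact hf.lintegral_prod_right'

theorem measurable_Ac_x (hρ : 0 ≤ ρ) (hg : Integrable g) (M : Finset (ℤ × ℤ)) (z : E2 × ℝ) :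
    Measurable (fun x : E2 => Ac n h ρ g S M z x) := by
  have h1 : Measurable (fun x : E2 => ((z, x) : (E2 × ℝ) × E2)) := measurable_prodMk_left
  have h2 := measurable_Ac (n := n) (h := h) (S := S) hρ hg M
  have h3 := h2.comp h1
  exact h3

theorem measurable_Ac_xt (hρ : 0 ≤ ρ) (hg : Integrable g) (M : Finset (ℤ × ℤ)) (z : E2 × ℝ) :
    Measurable (fun p : E2 × ℝ => Ac n h ρ g S M (z.1, z.2 + p.2) p.1) := by
  have h1 : Measurable (fun p : E2 × ℝ => (((z.1, z.2 + p.2), p.1) : (E2 × ℝ) × E2)) :=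
    ((measurable_const).prodMk (measurable_const.add measurable_snd)).prodMk measurable_fst
  have h2 := measurable_Ac (n := n) (h := h) (S := S) hρ hg M
  have h3 := h2.comp h1
  exact h3

theorem measurable_Ad_x (hρ : 0 ≤ ρ) (hg : Integrable g) (m' : ℤ × ℤ) (z : E2 × ℝ) :
    Measurable (fun x : E2 => Ad n h ρ ρ' g S m' z x) := by
  unfold Ad
  exact measurable_Ac_x hρ hg _ z

/-! ### integral in `x` -/

theorem lint_wa_le {n : ℕ} (hn : 3 ≤ n) : ∃ K : ℝ, 0 ≤ K ∧ ∀ (ρ : ℝ), 0 < ρ → ∀ v : E2,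
    ENNReal.ofReal (ρ ^ 2) * ∫⁻ x, ENNReal.ofReal (wa ρ n (v - x)) ≤ ENNReal.ofReal K := by
  have h1 := integrable_one_add_norm (μ := (volume : Measure E2)) (r := 3) (by simp; norm_num)
  set K : ℝ := ∫ y : E2, (1 + ‖y‖) ^ (-(3:ℝ)) with hK
  refine ⟨K, integral_nonneg fun y => by positivity, ?_⟩
  intro ρ hρ v
  have e1 : ∫⁻ x, ENNReal.ofReal (wa ρ n (v - x)) = ∫⁻ x, ENNReal.ofReal (wa ρ n x) :=
    lintegral_sub_left_eq_self (μ := (volume : Measure E2)) (fun x => ENNReal.ofReal (wa ρ n x)) v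
  rw [e1]
  have h2 : ∀ x : E2, wa ρ n x ≤ (1 + ‖ρ • x‖) ^ (-(3:ℝ)) := by
    intro x
    refine (wa_anti hρ.le hn x).trans_eq ?_
    unfold wa
    rw [norm_smul, Real.norm_eq_abs, abs_of_pos hρ, Real.rpow_neg (by positivity)]
    congr 1
    rw [show (3:ℝ) = ((3:ℕ):ℝ) by norm_num, Real.rpow_natCast]
  have h3 : Integrable (fun x : E2 => (1 + ‖ρ • x‖) ^ (-(3:ℝ))) := h1.comp_smul hρ.ne'
  have h4 : ∫ x : E2, (1 + ‖ρ • x‖) ^ (-(3:ℝ)) = (ρ ^ 2)⁻¹ * K := by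
    rw [Measure.integral_comp_smul (volume : Measure E2) (fun y => (1 + ‖y‖) ^ (-(3:ℝ))) ρ,
      finrank_euclideanSpace_fin, abs_of_pos (by positivity), smul_eq_mul]
  calc ENNReal.ofReal (ρ ^ 2) * ∫⁻ x, ENNReal.ofReal (wa ρ n x) ≤
        ENNReal.ofReal (ρ ^ 2) * ∫⁻ x : E2, ENNReal.ofReal ((1 + ‖ρ • x‖) ^ (-(3:ℝ))) :=
        mul_le_mul' le_rfl (lintegral_mono fun x => ENNReal.ofReal_le_ofReal (h2 x))
    _ = ENNReal.ofReal (ρ ^ 2) * ENNReal.ofReal ((ρ ^ 2)⁻¹ * K) := by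
        rw [← ofReal_integral_eq_lintegral_ofReal h3
          (Filter.Eventually.of_forall fun y => by positivity), h4]
    _ = ENNReal.ofReal K := by
        rw [← ENNReal.ofReal_mul (by positivity), ← mul_assoc, mul_inv_cancel₀ (by positivity),
          one_mul]

theorem lintegral_Ac_le {n : ℕ} (hn : 3 ≤ n) : ∃ K : ℝ, 0 ≤ K ∧ ∀ (h : E2 → ℝ) (ρ : ℝ), 0 < ρ →
    ∀ g : E2 → ℂ, Integrable g → ∀ (S : ℤ × ℤ → Set E2) (M : Finset (ℤ × ℤ)) (z : E2 × ℝ),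
    ∫⁻ x, Ac n h ρ g S M z x ≤
      ENNReal.ofReal K * ∑ m ∈ M, ∫⁻ y in S m, ‖um ρ g m y‖ₑ ^ 2 := by
  obtain ⟨K, hK0, hK⟩ := lint_wa_le hn
  refine ⟨K, hK0, ?_⟩
  intro h ρ hρ g hg S M z
  unfold Ac
  have hmeas : ∀ m, Measurable (fun q : E2 × E2 =>
      ENNReal.ofReal (wa ρ n (q.2 - z.1 - z.2 • gradient h (cen ρ m) - q.1)) *
        ‖um ρ g m q.2‖ₑ ^ 2) := by
    intro m
    have h1 : Continuous (fun q : E2 × E2 =>
        wa ρ n (q.2 - z.1 - z.2 • gradient h (cen ρ m) - q.1)) :=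
      (wa_cont hρ.le n).comp (by fun_prop)
    have h2 : Continuous (fun q : E2 × E2 => um ρ g m q.2) := (um_cont hg m).comp (by fun_prop)
    exact h1.measurable.ennreal_ofReal.mul (h2.measurable.enorm.pow_const 2)
  rw [lintegral_const_mul' _ _ ENNReal.ofReal_ne_top, lintegral_finsetSum _ fun m _ =>
    (hmeas m).lintegral_prod_right', Finset.mul_sum, Finset.mul_sum]
  refine Finset.sum_le_sum fun m _ => ?_
  rw [lintegral_lintegral_swap (hmeas m).aemeasurable,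
    ← lintegral_const_mul' _ _ ENNReal.ofReal_ne_top,
    ← lintegral_const_mul' _ _ ENNReal.ofReal_ne_top]
  refine lintegral_mono fun y => ?_
  have e2 : ∫⁻ x, ENNReal.ofReal (wa ρ n (y - z.1 - z.2 • gradient h (cen ρ m) - x)) *
      ‖um ρ g m y‖ₑ ^ 2 = (∫⁻ x, ENNReal.ofReal (wa ρ n (y - z.1 - z.2 • gradient h (cen ρ m) - x))) *
        ‖um ρ g m y‖ₑ ^ 2 := lintegral_mul_const' _ _ (by simp)
  rw [e2, ← mul_assoc]
  exact mul_le_mul' (hK ρ hρ _) le_rfl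

/-! ### energies in a set -/

theorem avg_le {F : E2 → ℝ≥0∞} (hF : Measurable F) {ρ : ℝ} (hρ : 0 < ρ) (n : ℕ) {T : Set E2}
    (hT : MeasurableSet T) :
    ∫⁻ v in T, F v ≤ ENNReal.ofReal (2 ^ n * ρ ^ 2) *
      ∫⁻ x in Metric.cthickening (1 / ρ) T, ∫⁻ v, ENNReal.ofReal (wa ρ n (v - x)) * F v := by
  set U := Metric.cthickening (1 / ρ) T with hU
  have hUm : MeasurableSet U := Metric.isClosed_cthickening.measurableSet
  -- the volume of the ball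
  have hvol : ∀ v : E2, 1 ≤ ENNReal.ofReal (ρ ^ 2) * volume (Metric.closedBall v (1 / ρ)) := by
    intro v
    rw [EuclideanSpace.volume_closedBall]
    simp only [Fintype.card_fin]
    rw [show ((2:ℕ):ℝ) / 2 + 1 = 2 by norm_num, Real.Gamma_two, Real.sq_sqrt Real.pi_pos.le,
      ← ENNReal.ofReal_pow (by positivity), ← ENNReal.ofReal_mul (by positivity),
      ← ENNReal.ofReal_mul (by positivity), ← ENNReal.ofReal_one]
    apply ENNReal.ofReal_le_ofReal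
    have h3 := Real.pi_gt_three
    have e : ρ ^ 2 * ((1 / ρ) ^ 2 * (Real.pi / 1)) = Real.pi := by field_simp
    rw [e]
    linarith
  have hm1 : Measurable (fun q : E2 × E2 =>
      (Metric.closedBall q.1 (1 / ρ)).indicator (fun _ => (1 : ℝ≥0∞)) q.2 * T.indicator F q.1) := by
    have hs : MeasurableSet {q : E2 × E2 | dist q.2 q.1 ≤ 1 / ρ} :=
      (isClosed_le (by fun_prop) continuous_const).measurableSet
    have e : (fun q : E2 × E2 =>
        (Metric.closedBall q.1 (1 / ρ)).indicator (fun _ => (1 : ℝ≥0∞)) q.2 * T.indicator F q.1) =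
        fun q => {q : E2 × E2 | dist q.2 q.1 ≤ 1 / ρ}.indicator (fun _ => (1 : ℝ≥0∞)) q *
          T.indicator F q.1 := by
      funext q
      by_cases hq : dist q.2 q.1 ≤ 1 / ρ
      · rw [Set.indicator_of_mem (show q.2 ∈ Metric.closedBall q.1 (1 / ρ) from hq),
          Set.indicator_of_mem (show q ∈ {q : E2 × E2 | dist q.2 q.1 ≤ 1 / ρ} from hq)]
      · rw [Set.indicator_of_notMem (show q.2 ∉ Metric.closedBall q.1 (1 / ρ) from hq),
          Set.indicator_of_notMem (show q ∉ {q : E2 × E2 | dist q.2 q.1 ≤ 1 / ρ} from hq)]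
    rw [e]
    exact (measurable_const.indicator hs).mul ((hF.indicator hT).comp measurable_fst)
  calc ∫⁻ v in T, F v = ∫⁻ v, T.indicator F v := (lintegral_indicator hT F).symm
    _ ≤ ∫⁻ v, ENNReal.ofReal (ρ ^ 2) *
        ∫⁻ x, (Metric.closedBall v (1 / ρ)).indicator (fun _ => (1 : ℝ≥0∞)) x * T.indicator F v := by
        refine lintegral_mono fun v => ?_
        have e1 : ∫⁻ x, (Metric.closedBall v (1 / ρ)).indicator (fun _ => (1 : ℝ≥0∞)) x *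
            T.indicator F v = volume (Metric.closedBall v (1 / ρ)) * T.indicator F v := by
          rw [lintegral_mul_const _ (measurable_const.indicator
            Metric.isClosed_closedBall.measurableSet),
            lintegral_indicator Metric.isClosed_closedBall.measurableSet, setLIntegral_const, one_mul]
        rw [e1, ← mul_assoc]
        calc T.indicator F v = 1 * T.indicator F v := (one_mul _).symm
          _ ≤ _ := mul_le_mul' (hvol v) le_rfl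
    _ = ENNReal.ofReal (ρ ^ 2) * ∫⁻ x, ∫⁻ v,
        (Metric.closedBall v (1 / ρ)).indicator (fun _ => (1 : ℝ≥0∞)) x * T.indicator F v := by
        rw [lintegral_const_mul' _ _ ENNReal.ofReal_ne_top,
          lintegral_lintegral_swap hm1.aemeasurable]
    _ ≤ ENNReal.ofReal (ρ ^ 2) * ∫⁻ x, U.indicator (fun x => ENNReal.ofReal (2 ^ n) *
        ∫⁻ v, ENNReal.ofReal (wa ρ n (v - x)) * F v) x := by
        refine mul_le_mul' le_rfl (lintegral_mono fun x => ?_)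
        by_cases hx : x ∈ U
        · rw [Set.indicator_of_mem hx, ← lintegral_const_mul' _ _ ENNReal.ofReal_ne_top]
          refine lintegral_mono fun v => ?_
          rw [← mul_assoc, ← ENNReal.ofReal_mul (by positivity)]
          by_cases hv : x ∈ Metric.closedBall v (1 / ρ)
          · rw [Set.indicator_of_mem hv]
            refine mul_le_mul' ?_ (Set.indicator_le_self T F v)
            rw [← ENNReal.ofReal_one]
            apply ENNReal.ofReal_le_ofReal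
            have h1 := wa_ball (X := 1) hρ.le zero_le_one n (v := v - x) (by
              rw [Metric.mem_closedBall, dist_eq_norm, norm_sub_rev] at hv
              calc ρ * ‖v - x‖ ≤ ρ * (1 / ρ) := by gcongr
                _ = 1 := by field_simp)
            rwa [show (1 + 1 : ℝ) = 2 by norm_num] at h1
          · rw [Set.indicator_of_notMem hv, zero_mul]
            exact zero_le
        · rw [Set.indicator_of_notMem hx, nonpos_iff_eq_zero]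
          have : ∀ v, (Metric.closedBall v (1 / ρ)).indicator (fun _ => (1 : ℝ≥0∞)) x *
              T.indicator F v = 0 := by
            intro v
            by_cases hv : v ∈ T
            · rw [Set.indicator_of_notMem, zero_mul]
              intro hxv
              exact hx (Metric.mem_cthickening_of_dist_le x v _ T hv hxv)
            · rw [Set.indicator_of_notMem hv, mul_zero]
          simp only [this, lintegral_zero]
    _ = _ := by
        rw [lintegral_indicator hUm, lintegral_const_mul' _ _ ENNReal.ofReal_ne_top, ← mul_assoc,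
          ← ENNReal.ofReal_mul (by positivity), mul_comm (ρ ^ 2) (2 ^ n)]

/-- the energy of one short packet in a set is bounded by the integral of the density. -/
theorem en_le_Ad (B : ℕ → ℝ) (n : ℕ) (L : ℝ) (hL : 1 ≤ L) : ∃ C : ℝ, 0 ≤ C ∧ ∀ h, ParB B h →
    ∀ (ρ ρ' : ℝ), 0 < ρ → ρ ≤ ρ' → ρ ≤ 1 → ∀ g : E2 → ℂ, Integrable g →
    ∀ S : ℤ × ℤ → Set E2, Bs ρ S → ∀ z : E2 × ℝ, |z.2| * ρ ^ 2 ≤ L → ∀ (m' : ℤ × ℤ) (T : Set E2),
    MeasurableSet T →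
    ∫⁻ v in T, ‖um ρ' (tr h z (sel ρ g S)) m' v‖ₑ ^ 2 ≤
      ENNReal.ofReal C * ∫⁻ x in Metric.cthickening (1 / ρ) T, Ad n h ρ ρ' g S m' z x := by
  obtain ⟨C1, hC1, h1⟩ := upper B n L hL
  refine ⟨2 ^ n * C1, by positivity, ?_⟩
  intro h hh ρ ρ' hρ hρ' hρ1 g hg S hS z hz m' T hT
  have hu : Continuous (um ρ' (tr h z (sel ρ g S)) m') := by
    refine um_cont ?_ m'
    exact tr_int hh.1.continuous (sel_int hρ hg hS).1 z
  refine (avg_le (hu.measurable.enorm.pow_const 2) hρ n hT).trans ?_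
  rw [ENNReal.ofReal_mul (by positivity), mul_assoc, ENNReal.ofReal_mul (by positivity), mul_assoc]
  refine mul_le_mul' le_rfl ?_
  rw [← lintegral_const_mul' _ _ ENNReal.ofReal_ne_top,
    ← lintegral_const_mul' _ _ ENNReal.ofReal_ne_top]
  exact lintegral_mono fun x => h1 h hh ρ ρ' hρ hρ' hρ1 g hg S hS z hz m' x

theorem cthick_near {ρ : ℝ} (hρ : 0 < ρ) {T : Set E2} {x : E2}
    (hx : x ∈ Metric.cthickening (1 / ρ) T) : ∃ v ∈ T, ρ * ‖x - v‖ ≤ 2 := by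
  have h1 : x ∈ Metric.thickening (2 / ρ) T :=
    Metric.cthickening_subset_thickening' (by positivity)
      (by rw [div_lt_div_iff_of_pos_right hρ]; norm_num) T hx
  obtain ⟨v, hv, hd⟩ := Metric.mem_thickening_iff.1 h1
  refine ⟨v, hv, ?_⟩
  rw [dist_eq_norm] at hd
  calc ρ * ‖x - v‖ ≤ ρ * (2 / ρ) := by gcongr
    _ = 2 := by field_simp

/-- **TINY**: short packets in a set where the density is at most `a`. -/
theorem tiny1 (B : ℕ → ℝ) (n : ℕ) (L : ℝ) (hL : 1 ≤ L) : ∃ C : ℝ, 0 ≤ C ∧ ∀ h, ParB B h →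
    ∀ (ρ ρ' : ℝ), 0 < ρ → ρ ≤ ρ' → ρ ≤ 1 → ∀ g : E2 → ℂ, Integrable g →
    ∀ S : ℤ × ℤ → Set E2, Bs ρ S → ∀ z : E2 × ℝ, |z.2| * ρ ^ 2 ≤ L → ∀ (m' : ℤ × ℤ) (T : Set E2),
    MeasurableSet T → ∀ (c : E2) (X : ℝ), 1 / ρ ≤ X → T ⊆ Metric.closedBall c X → ∀ a : ℝ≥0∞,
    (∀ x ∈ T, Ad n h ρ ρ' g S m' z x ≤ a) →
    ∫⁻ v in T, ‖um ρ' (tr h z (sel ρ g S)) m' v‖ₑ ^ 2 ≤ ENNReal.ofReal (C * X ^ 2) * a := by
  obtain ⟨C1, hC1, h1⟩ := en_le_Ad B n L hL
  refine ⟨C1 * (3 ^ n * 16), by positivity, ?_⟩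
  intro h hh ρ ρ' hρ hρ' hρ1 g hg S hS z hz m' T hT c X hX hTX a ha
  have hX0 : 0 < X := lt_of_lt_of_le (by positivity) hX
  refine (h1 h hh ρ ρ' hρ hρ' hρ1 g hg S hS z hz m' T hT).trans ?_
  have h2 : ∀ x ∈ Metric.cthickening (1 / ρ) T, Ad n h ρ ρ' g S m' z x ≤
      ENNReal.ofReal (3 ^ n) * a := by
    intro x hx
    obtain ⟨v, hv, hd⟩ := cthick_near hρ hx
    refine (Ac_shift (δ := 2) hρ.le (by norm_num) (z' := z) (x' := v) fun m _ => ?_).trans ?_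
    · have e : (z.1 + z.2 • gradient h (cen ρ m) + v) - (z.1 + z.2 • gradient h (cen ρ m) + x) =
          v - x := by abel
      rw [e, norm_sub_rev]
      exact hd
    · rw [show (1 + 2 : ℝ) = 3 by norm_num]
      exact mul_le_mul' le_rfl (ha v hv)
  have h3 : Metric.cthickening (1 / ρ) T ⊆ Metric.closedBall c (2 * X) := by
    refine (Metric.cthickening_subset_of_subset _ hTX).trans ?_
    rw [cthickening_closedBall (by positivity) hX0.le]
    exact Metric.closedBall_subset_closedBall (by linarith)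
  have h4 : volume (Metric.closedBall c (2 * X)) ≤ ENNReal.ofReal (16 * X ^ 2) := by
    rw [EuclideanSpace.volume_closedBall]
    simp only [Fintype.card_fin]
    rw [show ((2:ℕ):ℝ) / 2 + 1 = 2 by norm_num, Real.Gamma_two, Real.sq_sqrt Real.pi_pos.le,
      ← ENNReal.ofReal_pow (by positivity), ← ENNReal.ofReal_mul (by positivity)]
    apply ENNReal.ofReal_le_ofReal
    have h5 := Real.pi_lt_four
    nlinarith [mul_pos hX0 hX0]
  calc ENNReal.ofReal C1 * ∫⁻ x in Metric.cthickening (1 / ρ) T, Ad n h ρ ρ' g S m' z x ≤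
        ENNReal.ofReal C1 * ∫⁻ _x in Metric.cthickening (1 / ρ) T, ENNReal.ofReal (3 ^ n) * a :=
        mul_le_mul' le_rfl (setLIntegral_mono' Metric.isClosed_cthickening.measurableSet h2)
    _ = ENNReal.ofReal C1 * (ENNReal.ofReal (3 ^ n) * a *
        volume (Metric.cthickening (1 / ρ) T)) := by rw [setLIntegral_const]
    _ ≤ ENNReal.ofReal C1 * (ENNReal.ofReal (3 ^ n) * a * ENNReal.ofReal (16 * X ^ 2)) := by
        gcongr
        exact (measure_mono h3).trans h4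
    _ = _ := by
        rw [show C1 * (3 ^ n * 16) * X ^ 2 = C1 * (3 ^ n * (16 * X ^ 2)) by ring,
          ENNReal.ofReal_mul hC1, ENNReal.ofReal_mul (p := (3:ℝ) ^ n) (by positivity)]
        ring

theorem tiny (B : ℕ → ℝ) (n : ℕ) (L : ℝ) (hL : 1 ≤ L) : ∃ C : ℝ, 0 ≤ C ∧ ∀ h, ParB B h →
    ∀ (ρ ρ' : ℝ), 0 < ρ → ρ ≤ ρ' → ρ ≤ 1 → ∀ g : E2 → ℂ, Integrable g →
    ∀ S : ℤ × ℤ → Set E2, Bs ρ S → ∀ z : E2 × ℝ, |z.2| * ρ ^ 2 ≤ L →
    ∀ S' : ℤ × ℤ → Set E2, (∀ m' ∈ caps ρ', MeasurableSet (S' m')) → ∀ (c : E2) (X : ℝ), 1 / ρ ≤ X →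
    (∀ m' ∈ caps ρ', S' m' ⊆ Metric.closedBall c X) → ∀ a : ℝ≥0∞,
    (∀ m' ∈ caps ρ', ∀ x ∈ S' m', Ad n h ρ ρ' g S m' z x ≤ a) →
    en ρ' (tr h z (sel ρ g S)) S' ≤ ENNReal.ofReal (C * X ^ 2 * (caps ρ').card) * a := by
  obtain ⟨C1, hC1, h1⟩ := tiny1 B n L hL
  refine ⟨C1, hC1, ?_⟩
  intro h hh ρ ρ' hρ hρ' hρ1 g hg S hS z hz S' hS' c X hX hTX a ha
  unfold en
  refine (Finset.sum_le_sum fun m' hm' => h1 h hh ρ ρ' hρ hρ' hρ1 g hg S hS z hz m' (S' m')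
    (hS' m' hm') c X hX (hTX m' hm') a (ha m' hm')).trans_eq ?_
  rw [Finset.sum_const, nsmul_eq_mul, ENNReal.ofReal_mul (p := C1 * X ^ 2) (by positivity),
    ENNReal.ofReal_natCast]
  ring

end Crest.Agent.R138.Ad480
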