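import Crest.Agent.R138.Qf7_926

/-!
# R138: the interface EXT in profile form (helper926)

`ExtP` = output of TEXT I (extremiser after the blow-up), only input of TEXT II.
Everything is stated for the two profiles of one sequence of flagged incidence sets:
`ν` = profile of 101's partition (flagged cell, grid box) on the legal region `LEG M`,
`own` = profile of the partition (line, flagged cell).
TEXT I proves `¬ KMseq → ∃ ..., ExtP ...`; TEXT II proves `ExtP ... → False`.
-/

set_option autoImplicit false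
set_option linter.unusedSectionVars false
set_option linter.unusedVariables false

open Filter Topology

namespace Crest.Agent.R138.Ex926

open Finset Flg101

/-- own label of an incidence: the line and the flagged cell of level `(p 0, p 1)` -/
noncomputable def olab (B : Base) {ι : ℕ → Type*} (x : ∀ n, ι n → Inc) (line : ∀ n, ι n → ℕ)
    (n : ℕ) (p : Fin 2 → ℝ) (i : ι n) : ℕ × (ℤ × ℤ) :=
  (line n i, (x n i).cell (B.levc n (p 0)) (B.levc n (p 1)))

/-- the straight box of level `v`, lateral angle exponent `l`, normal angle exponent `nn`, over the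
flagged cell of level `(v, r)` -/
def Bx6 (v l nn r : ℝ) : Fin 6 → ℝ := ![v + nn, nn, l, v + l, v, r]

/-- **The interface EXT**, profile form. -/
structure ExtP (B : Base) {ι : ℕ → Type} [∀ n, DecidableEq (ι n)] (I : ∀ n, Finset (ι n))
    (x : ∀ n, ι n → Inc) (line : ∀ n, ι n → ℕ) (ν : (Fin 6 → ℝ) → ℝ) (own : (Fin 2 → ℝ) → ℝ)
    (M s b q k θ c₀ : ℝ) : Prop where
  ne : ∀ᶠ n in (U : Filter ℕ), (I n).Nonempty
  s0 : 0 ≤ s
  s1 : s ≤ 1
  bs : 2 * s < b
  q0 : 0 < q
  k0 : 0 < k
  θ0 : 0 < θ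
  /-- resolution (no further room: record planks may be as thin as the resolution) -/
  M0 : 1 + k ≤ M ∧ θ ≤ M
  /-- `line` is the index of a real line -/
  line_eq : ∀ n, ∀ i ∈ I n, ∀ j ∈ I n, line n i = line n j →
    (x n i).a = (x n j).a ∧ (x n i).b = (x n j).b ∧ (x n i).c = (x n j).c ∧ (x n i).d = (x n j).d
  /-- `ν` is the profile of the flagged classes -/
  prof : QProf B I (flab B x) (LEG M) ν
  /-- one-step growth: at most `d^-(sum of the differences)` children -/
  lip : ∀ p ∈ LEG M, ∀ p' ∈ LEG M, p ≤ p' → 0 ≤ ν p - ν p' ∧ ν p - ν p' ≤ ∑ a, (p' a - p a)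
  submod : ∀ p ∈ LEG M, ∀ p' ∈ LEG M, p ⊓ p' ∈ LEG M →
    ν p + ν p' ≤ ν (p ⊔ p') + ν (p ⊓ p')
  /-- `own` is the profile of the single lines -/
  oprof : QProf B I (olab B x line) (Set.Icc 0 (fun _ => M)) own
  /-- (E1) own shading of dimension `1 - s` -/
  own_z : ∀ v : ℝ, 0 ≤ v → v ≤ 1 → own ![v, 0] = (1 - s) * (1 - v)
  /-- (E2) rotation at distance `d^v` at most `d^(k v)` ... -/
  own_rot : ∀ v r : ℝ, 0 ≤ v → v ≤ 1 → 0 ≤ r → r ≤ k * v → own ![v, r] = own ![v, 0]
  /-- ... and not less -/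
  own_tw : ∀ v r : ℝ, 0 ≤ v → v < 1 → k * v < r → r ≤ M → own ![v, r] < own ![v, 0]
  /-- (E4) D-max for the planks whose planes are the flags: `log density ≤ b v - q l` -/
  dmax : ∀ v l nn : ℝ, 0 ≤ v → v ≤ 1 → 0 ≤ l → l ≤ nn → nn ≤ l + k * v → Bx6 v l nn (k * v) ∈ LEG M →
    ν (Bx6 v l nn (k * v)) - own ![v, 0] + 2 * v + nn + l ≤ c₀ + b * v - q * l
  /-- (E5) the natural box of lateral exponent `θ (1 - v)` is a maximiser -/
  record : ∀ v : ℝ, 0 ≤ v → v ≤ 1 →
    ν (Bx6 v (θ * (1 - v)) (θ * (1 - v) + k * v) (k * v)) - own ![v, 0] + 2 * v +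
      (θ * (1 - v) + k * v) + θ * (1 - v) = c₀ + b * v - q * (θ * (1 - v))

theorem Bx6_nat (v r t : ℝ) : Bx6 v t (t + r) r = X6 v r t := by
  funext i
  fin_cases i
  · show v + (t + r) = t + v + r; ring
  · rfl
  · rfl
  · show v + t = t + v; ring
  · rfl
  · rfl

/-- own classes refine the flagged classes of the same cell level: a class has at least as many
sub-cells as one line -/
theorem olab_le_flab {B : Base} {ι : ℕ → Type} [∀ n, DecidableEq (ι n)] {I : ∀ n, Finset (ι n)}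
    {x : ∀ n, ι n → Inc} {line : ∀ n, ι n → ℕ} {ν : (Fin 6 → ℝ) → ℝ} {own : (Fin 2 → ℝ) → ℝ}
    {M : ℝ} (hne : ∀ᶠ n in (U : Filter ℕ), (I n).Nonempty)
    (hline : ∀ n, ∀ i ∈ I n, ∀ j ∈ I n, line n i = line n j →
      (x n i).a = (x n j).a ∧ (x n i).b = (x n j).b ∧ (x n i).c = (x n j).c ∧
        (x n i).d = (x n j).d)
    (hν : QProf B I (flab B x) (LEG M) ν)
    (ho : QProf B I (olab B x line) (Set.Icc 0 (fun _ => M)) own)
    {p p' : Fin 6 → ℝ} (hp : p ∈ LEG M) (hp' : p' ∈ LEG M) (hpp : p ≤ p') :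
    own ![p 4, p 5] - own ![p' 4, p' 5] ≤ ν p - ν p' := by
  have hb := (mem_LEG.1 hp).1
  have hb' := (mem_LEG.1 hp').1
  refine QProf.own_le hν ho hne hp hp' hpp ?_ ?_ (Eventually.of_forall fun n i hi j hj h => ?_)
    (Eventually.of_forall fun n i hi j hj h h' => ?_)
  · constructor <;> intro a <;> fin_cases a
    · exact (hb 4).1
    · exact (hb 5).1
    · exact (hb 4).2
    · exact (hb 5).2
  · constructor <;> intro a <;> fin_cases a
    · exact (hb' 4).1
    · exact (hb' 5).1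
    · exact (hb' 4).2
    · exact (hb' 5).2
  · simp only [olab, Prod.mk.injEq] at h
    obtain ⟨h1, h2⟩ := h
    obtain ⟨ea, eb, ec, ed⟩ := hline n i hi j hj h1
    simp only [flab]
    rw [lab_eq_iff]
    refine ⟨h2, fun a => ?_⟩
    have ez : (x n i).zQ (B.levc n (p 4)) = (x n j).zQ (B.levc n (p 4)) := zQ_eq h2
    have ef : (x n i).fQ (B.levc n (p 5)) = (x n j).fQ (B.levc n (p 5)) := fQ_eq h2
    have : (x n i).co (B.levc n (p 4)) (B.levc n (p 5)) =
        (x n j).co (B.levc n (p 4)) (B.levc n (p 5)) := by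
      simp only [Inc.co, Inc.N, Inc.P, Inc.X, Inc.Y, ea, eb, ec, ed, ez, ef]
    rw [this]
  · simp only [olab, Prod.mk.injEq] at h ⊢
    simp only [flab] at h'
    exact ⟨h.1, (lab_eq_iff.1 h').1⟩

end Crest.Agent.R138.Ex926
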