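import Crest.Agent.R138.TwA_501

/-!
# R138: F-model, twist facts (helper628)

`TwistMaj` = majority form of the twist (helper480). Cells, Lipschitz bound of `ν`, the good pair
of heights with many common lines, the transfer principle, and `y ≤ a`, `m ≤ q`.
-/

set_option autoImplicit false
set_option linter.unusedVariables false
set_option linter.unusedSectionVars false

open Filter Topology Finset

namespace Crest.Agent.R138.Tw628

open Crest.Agent.R138.Ex926 Crest.Agent.R138.FM501 Crest.Agent.R138.TwA501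

/-- **majority twist** (helper480): for every line at most half of the pairs of its heights have
nearly the same slope. -/
def TwistMaj (B : Base) (G : ℕ → Cfg) : Prop := ∀ ε : ℝ, 0 < ε → ∀ᶠ n in (U : Filter ℕ),
  ∀ i ∈ (G n).L,
    2 * (((((G n).hts i) ×ˢ ((G n).hts i)).filter
      fun q => |(G n).f q.1 - (G n).f q.2| ≤ B.d n ^ ε).card : ℝ) ≤ (((G n).hts i).card : ℝ) ^ 2

variable {B : Base} {G : ℕ → Cfg} {σ R : ℝ} {ν : (Fin 4 → ℝ) → ℝ}

/-- cell label -/
noncomputable def vlab (G : Cfg) (p : Fin 4 → ℝ) (k i : ℕ) : Fin 4 → ℤ :=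
  fun j => clab G (p j) j k i

theorem vlab_close {G : Cfg} (hρ : 0 < G.ρ) {p : Fin 4 → ℝ} {k i i' : ℕ}
    (h : vlab G p k i = vlab G p k i') (j : Fin 4) : |G.co k i j - G.co k i' j| ≤ G.ρ ^ p j :=
  clab_close hρ (congrFun h j)

theorem abs_floor_sub_le {x y : ℝ} (h : |x - y| ≤ 1) : |⌊x⌋ - ⌊y⌋| ≤ 1 := by
  rw [abs_le] at h ⊢
  have f1 := Int.floor_le x
  have f2 := Int.lt_floor_add_one x
  have f3 := Int.floor_le y
  have f4 := Int.lt_floor_add_one y
  constructor
  · by_contra hcon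
    push Not at hcon
    have h1 : ⌊x⌋ - ⌊y⌋ ≤ -2 := by omega
    have h2 : ((⌊x⌋ - ⌊y⌋ : ℤ) : ℝ) ≤ ((-2 : ℤ) : ℝ) := by exact_mod_cast h1
    push_cast at h2
    linarith [h.1]
  · by_contra hcon
    push Not at hcon
    have h1 : 2 ≤ ⌊x⌋ - ⌊y⌋ := by omega
    have h2 : ((2 : ℤ) : ℝ) ≤ ((⌊x⌋ - ⌊y⌋ : ℤ) : ℝ) := by exact_mod_cast h1
    push_cast at h2
    linarith [h.2]

/-- number of cells of a slice -/
theorem card_vlab (h : FModel B G σ R ν) (p : Fin 4 → ℝ) (hp : ∀ j, 0 ≤ p j ∧ p j ≤ R)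
    {ε : ℝ} (hε : 0 < ε) :
    ∀ᶠ n in (U : Filter ℕ), ∀ k, ∀ T ⊆ (G n).slice k,
      ((T.image (vlab (G n) p k)).card : ℝ) ≤
        ((G n).slice k).card * B.d n ^ (ν p - ε) := by
  classical
  filter_upwards [h.unif p hp (ε / 2) (half_pos hε),
    ev_const_mul B 81 (show ν p - ε < ν p - ε / 2 by linarith)] with n hn hC k T hT
  have hρn := hρ h n
  set lab := vlab (G n) p k with hlab
  have hrep : ∀ l ∈ T.image lab, ∃ i ∈ T, lab i = l := fun l hl => by simpa using hl
  choose! rep hrep1 hrep2 using hrep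
  set S := (G n).slice k with hS
  have hbox : ∀ l ∈ T.image lab, B.d n ^ (-ν p + ε / 2) ≤
      ((S.filter fun i => ∀ j, |lab i j - l j| ≤ 1).card : ℝ) := by
    intro l hl
    have hI : (rep l, k) ∈ (G n).I := (mem_slice_iff_I h).1 (hT (hrep1 l hl))
    refine (hn _ _ hI).1.trans ?_
    have hsub : (G n).box p (rep l) k ⊆ S.filter fun i => ∀ j, |lab i j - l j| ≤ 1 := by
      intro i hi
      unfold Cfg.box at hi
      rw [mem_filter] at hi ⊢
      refine ⟨hi.1, fun j => ?_⟩
      have h1 := hi.2 j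
      have hpos : 0 < (G n).ρ ^ p j := Real.rpow_pos_of_pos hρn _
      have h2 : |(G n).co k i j / (G n).ρ ^ p j - (G n).co k (rep l) j / (G n).ρ ^ p j| ≤ 1 := by
        rw [← sub_div, abs_div, abs_of_pos hpos, div_le_one hpos]; exact h1
      have h4 : l j = ⌊(G n).co k (rep l) j / (G n).ρ ^ p j⌋ := by
        have := congrFun (hrep2 l hl) j
        exact this.symm
      rw [h4]
      exact abs_floor_sub_le h2
    exact_mod_cast card_le_card hsub
  have hsum : ∑ l ∈ T.image lab, ((S.filter fun i => ∀ j, |lab i j - l j| ≤ 1).card : ℝ)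
      ≤ 81 * S.card := by
    have h1 : ∀ l ∈ T.image lab, ((S.filter fun i => ∀ j, |lab i j - l j| ≤ 1).card : ℝ) =
        ∑ i ∈ S, (if ∀ j, |lab i j - l j| ≤ 1 then (1 : ℝ) else 0) := by
      intro l _
      rw [card_filter]; push_cast; rfl
    rw [sum_congr rfl h1, sum_comm]
    calc ∑ i ∈ S, ∑ l ∈ T.image lab, (if ∀ j, |lab i j - l j| ≤ 1 then (1 : ℝ) else 0)
        ≤ ∑ i ∈ S, (81 : ℝ) := by
          refine sum_le_sum fun i _ => ?_
          rw [← sum_filter, sum_const, nsmul_eq_mul, mul_one]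
          have h2 : ((T.image lab).filter fun l => ∀ j, |lab i j - l j| ≤ 1) ⊆
              Fintype.piFinset fun j : Fin 4 => Finset.Icc (lab i j - 1) (lab i j + 1) := by
            intro l hl
            rw [mem_filter] at hl
            rw [Fintype.mem_piFinset]
            intro j
            have := abs_le.1 (hl.2 j)
            rw [Finset.mem_Icc]
            constructor <;> linarith [this.1, this.2]
          have h3 := card_le_card h2
          rw [Fintype.card_piFinset] at h3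
          have h4 : ∀ j : Fin 4, (Finset.Icc (lab i j - 1) (lab i j + 1)).card = 3 := by
            intro j
            rw [Int.card_Icc]
            omega
          simp only [h4, prod_const, card_univ, Fintype.card_fin] at h3
          norm_num at h3
          exact_mod_cast h3
      _ = 81 * S.card := by rw [sum_const, nsmul_eq_mul]; ring
  have hlow : ((T.image lab).card : ℝ) * B.d n ^ (-ν p + ε / 2) ≤ 81 * S.card := by
    refine le_trans ?_ hsum
    rw [← nsmul_eq_mul, ← sum_const]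
    exact sum_le_sum hbox
  have hinv : B.d n ^ (-ν p + ε / 2) * B.d n ^ (ν p - ε / 2) = 1 := by
    rw [← dpow_add]; simp
  calc ((T.image lab).card : ℝ)
      = ((T.image lab).card : ℝ) * B.d n ^ (-ν p + ε / 2) * B.d n ^ (ν p - ε / 2) := by
        rw [mul_assoc, hinv, mul_one]
    _ ≤ 81 * S.card * B.d n ^ (ν p - ε / 2) :=
        mul_le_mul_of_nonneg_right hlow (dpow_pos B n _).le
    _ = S.card * (81 * B.d n ^ (ν p - ε / 2)) := by ring
    _ ≤ S.card * B.d n ^ (ν p - ε) := mul_le_mul_of_nonneg_left hC (Nat.cast_nonneg _)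

/-- pairwise closeness in a slice -/
def Pw (G : Cfg) (C : ℝ) (p : Fin 4 → ℝ) (k : ℕ) (S : Finset ℕ) : Prop :=
  ∀ i ∈ S, ∀ i' ∈ S, ∀ j, |G.co k i' j - G.co k i j| ≤ C * G.ρ ^ p j

theorem Pw.mono {G : Cfg} {C : ℝ} {p : Fin 4 → ℝ} {k : ℕ} {S T : Finset ℕ} (h : Pw G C p k T)
    (hST : S ⊆ T) : Pw G C p k S := fun i hi i' hi' j => h i (hST hi) i' (hST hi') j

/-- every part of a slice has a large part in one cell -/
theorem exists_cell (h : FModel B G σ R ν) (p : Fin 4 → ℝ) (hp : ∀ j, 0 ≤ p j ∧ p j ≤ R)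
    {ε : ℝ} (hε : 0 < ε) :
    ∀ᶠ n in (U : Filter ℕ), ∀ k, ∀ T ⊆ (G n).slice k, ∃ S ⊆ T, Pw (G n) 1 p k S ∧
      (T.card : ℝ) ≤ S.card * (((G n).slice k).card * B.d n ^ (ν p - ε)) := by
  classical
  filter_upwards [card_vlab h p hp hε] with n hn k T hT
  rcases T.eq_empty_or_nonempty with rfl | hne
  · exact ⟨∅, subset_rfl, fun i hi => by simp at hi, by simp⟩
  obtain ⟨i0, hi0, hmax⟩ := exists_max_image T
    (fun i => (T.filter fun x => vlab (G n) p k x = vlab (G n) p k i).card) hne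
  refine ⟨T.filter fun x => vlab (G n) p k x = vlab (G n) p k i0, filter_subset _ _, ?_, ?_⟩
  · intro i hi i' hi' j
    rw [mem_filter] at hi hi'
    rw [one_mul]
    exact vlab_close (hρ h n) (hi'.2.trans hi.2.symm) j
  · have h1 := card_le_of_fibers T (vlab (G n) p k)
      ((T.filter fun x => vlab (G n) p k x = vlab (G n) p k i0).card : ℝ)
      (fun a ha => by exact_mod_cast hmax a ha)
    refine h1.trans ?_
    rw [mul_comm]
    exact mul_le_mul_of_nonneg_left (hn k T hT) (Nat.cast_nonneg _)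

/-- **Lipschitz bound** of the counting exponents -/
theorem nu_lip (h : FModel B G σ R ν) (p q : Fin 4 → ℝ) (hp : ∀ j, 0 ≤ p j ∧ p j ≤ R)
    (hq : ∀ j, 0 ≤ q j ∧ q j ≤ R) (hpq : p ≤ q) : ν p ≤ ν q + ∑ j, (q j - p j) := by
  classical
  by_contra hcon
  push Not at hcon
  set γ := ν p - (ν q + ∑ j, (q j - p j)) with hγ
  have hγ0 : 0 < γ := by rw [hγ]; linarith
  obtain ⟨n, h1, h2, h3⟩ := ((h.unif p hp (γ / 4) (by linarith)).and
    ((card_pw h 1 q hq (show (0 : ℝ) < γ / 4 by linarith)).and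
    (ev_const_mul B 4802 (show -ν p + γ / 4 < -ν q - γ / 4 - ∑ j, (q j - p j) by
      rw [hγ]; linarith)))).exists
  obtain ⟨⟨i, k⟩, hik⟩ := h.nonempty n
  have g1 := (h1 i k hik).1
  have hρn := hρ h n
  set T := (G n).box p i k with hTdef
  have hTs : T ⊆ (G n).slice k := by rw [hTdef]; unfold Cfg.box; exact filter_subset _ _
  -- fibres
  have hfib : ∀ a ∈ T, ((T.filter fun x => vlab (G n) q k x = vlab (G n) q k a).card : ℝ) ≤
      B.d n ^ (-ν q - γ / 4) := by
    intro a ha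
    refine h2 k _ ((filter_subset _ _).trans hTs) fun x hx x' hx' j => ?_
    rw [mem_filter] at hx hx'
    have := vlab_close hρn (hx'.2.trans hx.2.symm) j
    rw [h.base n] at this
    simpa using this
  have hlabs : ((T.image (vlab (G n) q k)).card : ℝ) ≤
      2401 * B.d n ^ (-∑ j, (q j - p j)) := by
    -- labels lie in a product of intervals
    have hsub : T.image (vlab (G n) q k) ⊆ Fintype.piFinset fun j : Fin 4 =>
        Finset.Icc (vlab (G n) q k i j - ⌈B.d n ^ (p j - q j)⌉ - 1)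
          (vlab (G n) q k i j + ⌈B.d n ^ (p j - q j)⌉ + 1) := by
      intro l hl
      obtain ⟨x, hx, rfl⟩ := mem_image.1 hl
      rw [Fintype.mem_piFinset]
      intro j
      rw [hTdef] at hx
      unfold Cfg.box at hx
      rw [mem_filter] at hx
      have h4 := hx.2 j
      have hpos : 0 < (G n).ρ ^ q j := Real.rpow_pos_of_pos hρn _
      have h5 : |(G n).co k x j / (G n).ρ ^ q j - (G n).co k i j / (G n).ρ ^ q j| ≤
          B.d n ^ (p j - q j) := by
        rw [← sub_div, abs_div, abs_of_pos hpos, div_le_iff₀ hpos, h.base n, ← dpow_add]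
        rw [h.base n] at h4
        refine h4.trans (le_of_eq ?_)
        congr 1; ring
      have h6 : |(G n).co k x j / (G n).ρ ^ q j - (G n).co k i j / (G n).ρ ^ q j| ≤
          (⌈B.d n ^ (p j - q j)⌉ : ℝ) := h5.trans (Int.le_ceil _)
      rw [abs_le] at h6
      have f1 := Int.floor_le ((G n).co k x j / (G n).ρ ^ q j)
      have f2 := Int.lt_floor_add_one ((G n).co k x j / (G n).ρ ^ q j)
      have f3 := Int.floor_le ((G n).co k i j / (G n).ρ ^ q j)
      have f4 := Int.lt_floor_add_one ((G n).co k i j / (G n).ρ ^ q j)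
      rw [Finset.mem_Icc]
      change ⌊(G n).co k i j / (G n).ρ ^ q j⌋ - ⌈B.d n ^ (p j - q j)⌉ - 1 ≤
          ⌊(G n).co k x j / (G n).ρ ^ q j⌋ ∧ ⌊(G n).co k x j / (G n).ρ ^ q j⌋ ≤
          ⌊(G n).co k i j / (G n).ρ ^ q j⌋ + ⌈B.d n ^ (p j - q j)⌉ + 1
      constructor
      · have : ((⌊(G n).co k i j / (G n).ρ ^ q j⌋ - ⌈B.d n ^ (p j - q j)⌉ - 1 : ℤ) : ℝ) <
            ((⌊(G n).co k x j / (G n).ρ ^ q j⌋ + 1 : ℤ) : ℝ) := by
          push_cast; linarith [h6.1]
        have h7 : ⌊(G n).co k i j / (G n).ρ ^ q j⌋ - ⌈B.d n ^ (p j - q j)⌉ - 1 <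
            ⌊(G n).co k x j / (G n).ρ ^ q j⌋ + 1 := by exact_mod_cast this
        omega
      · have : ((⌊(G n).co k x j / (G n).ρ ^ q j⌋ : ℤ) : ℝ) <
            ((⌊(G n).co k i j / (G n).ρ ^ q j⌋ + ⌈B.d n ^ (p j - q j)⌉ + 1 + 1 : ℤ) : ℝ) := by
          push_cast; linarith [h6.2]
        have h7 : ⌊(G n).co k x j / (G n).ρ ^ q j⌋ <
            ⌊(G n).co k i j / (G n).ρ ^ q j⌋ + ⌈B.d n ^ (p j - q j)⌉ + 1 + 1 := by
          exact_mod_cast this
        omega
    have hc := card_le_card hsub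
    rw [Fintype.card_piFinset] at hc
    have hc' : ((T.image (vlab (G n) q k)).card : ℝ) ≤ ∏ j : Fin 4,
        ((Finset.Icc (vlab (G n) q k i j - ⌈B.d n ^ (p j - q j)⌉ - 1)
          (vlab (G n) q k i j + ⌈B.d n ^ (p j - q j)⌉ + 1)).card : ℝ) := by
      exact_mod_cast hc
    refine hc'.trans ?_
    have hprod : ∏ j : Fin 4, ((Finset.Icc (vlab (G n) q k i j - ⌈B.d n ^ (p j - q j)⌉ - 1)
          (vlab (G n) q k i j + ⌈B.d n ^ (p j - q j)⌉ + 1)).card : ℝ) ≤
        ∏ j : Fin 4, (7 * B.d n ^ (p j - q j)) := by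
      refine prod_le_prod (fun j _ => Nat.cast_nonneg _) fun j _ => ?_
      rw [Int.card_Icc]
      have hone : 1 ≤ B.d n ^ (p j - q j) := one_le_dpow B n (by linarith [hpq j])
      have hce : (⌈B.d n ^ (p j - q j)⌉ : ℝ) < B.d n ^ (p j - q j) + 1 := Int.ceil_lt_add_one _
      have hce0 : 0 ≤ ⌈B.d n ^ (p j - q j)⌉ := Int.ceil_nonneg (by linarith)
      have h8 : ((vlab (G n) q k i j + ⌈B.d n ^ (p j - q j)⌉ + 1 + 1 -
          (vlab (G n) q k i j - ⌈B.d n ^ (p j - q j)⌉ - 1)).toNat : ℤ) =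
          2 * ⌈B.d n ^ (p j - q j)⌉ + 3 := by
        rw [Int.toNat_of_nonneg (by linarith)]; ring
      have h9 : (((vlab (G n) q k i j + ⌈B.d n ^ (p j - q j)⌉ + 1 + 1 -
          (vlab (G n) q k i j - ⌈B.d n ^ (p j - q j)⌉ - 1)).toNat : ℕ) : ℝ) =
          2 * (⌈B.d n ^ (p j - q j)⌉ : ℝ) + 3 := by
        exact_mod_cast h8
      rw [h9]
      linarith
    refine hprod.trans (le_of_eq ?_)
    rw [prod_mul_distrib, prod_const, card_univ, Fintype.card_fin,
      ← Real.rpow_sum_of_pos (B.pos n), ← sum_neg_distrib]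
    norm_num
  have h10 := card_le_of_fibers T (vlab (G n) q k) _ hfib
  have h11 : (T.card : ℝ) ≤ 2401 * B.d n ^ (-∑ j, (q j - p j)) * B.d n ^ (-ν q - γ / 4) :=
    h10.trans (mul_le_mul_of_nonneg_right hlabs (dpow_pos B n _).le)
  rw [mul_assoc, ← dpow_add] at h11
  have h12 : -∑ j, (q j - p j) + (-ν q - γ / 4) = -ν q - γ / 4 - ∑ j, (q j - p j) := by ring
  rw [h12] at h11
  have h13 := dpow_pos B n (-ν q - γ / 4 - ∑ j, (q j - p j))
  linarith

/-- large common part at a rotating pair of heights, inside one cell -/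
theorem good_cell (h : FModel B G σ R ν) (hT : TwistMaj B G) (p : Fin 4 → ℝ)
    (hp : ∀ j, 0 ≤ p j ∧ p j ≤ R) {ε : ℝ} (hε : 0 < ε) :
    ∀ᶠ n in (U : Filter ℕ), ∃ k ∈ (G n).Z, ∃ k' ∈ (G n).Z,
      B.d n ^ ε < |(G n).f k - (G n).f k'| ∧
      ∃ S ⊆ (G n).slice k, S ⊆ (G n).slice k' ∧ Pw (G n) 1 p k S ∧
        B.d n ^ (-ν p + ε) ≤ (S.card : ℝ) := by
  classical
  have hε1 : 0 < ε / 4 := by linarith
  filter_upwards [h.line (ε / 4) hε1, exists_cell h p hp hε1, hT ε hε,
    ev_const_mul B 16 (show -ν p + 3 * (ε / 4) < -ν p + ε by linarith)] with n hline hcell htw hC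
  obtain ⟨q0, hq0⟩ := h.nonempty n
  have hLne : 0 < ((G n).L.card : ℝ) := by
    exact_mod_cast card_pos.2 ⟨q0.1, mem_L_of_I h (i := q0.1) (k := q0.2) hq0⟩
  have hZne : (G n).Z.Nonempty := ⟨q0.2, mem_Z_of_I h (i := q0.1) (k := q0.2) hq0⟩
  -- good heights
  set gd : ℕ → ℕ → Finset ℕ := fun i k =>
    ((G n).hts i).filter fun k' => B.d n ^ ε < |(G n).f k - (G n).f k'| with hgd
  set Gi : ℕ → Finset ℕ := fun i =>
    ((G n).hts i).filter fun k => (((G n).hts i).card : ℝ) / 4 ≤ ((gd i k).card : ℝ) with hGi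
  have hGicard : ∀ i ∈ (G n).L, (((G n).hts i).card : ℝ) / 4 ≤ ((Gi i).card : ℝ) := by
    intro i hi
    set H := (G n).hts i with hH
    have h1 : ∑ k ∈ H, ((gd i k).card : ℝ) ≥ (H.card : ℝ) ^ 2 / 2 := by
      have h2 : ∑ k ∈ H, ((gd i k).card : ℝ) + (((H ×ˢ H).filter
          fun q => |(G n).f q.1 - (G n).f q.2| ≤ B.d n ^ ε).card : ℝ) = (H.card : ℝ) ^ 2 := by
        have h3 : (((H ×ˢ H).filter fun q => |(G n).f q.1 - (G n).f q.2| ≤ B.d n ^ ε).card : ℝ) =
            ∑ k ∈ H, ((H.filter fun k' => |(G n).f k - (G n).f k'| ≤ B.d n ^ ε).card : ℝ) := by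
          rw [card_filter, sum_product]
          push_cast
          refine sum_congr rfl fun k _ => ?_
          rw [card_filter]; push_cast; rfl
        rw [h3, ← sum_add_distrib, sq]
        have h4 : ∀ k ∈ H, ((gd i k).card : ℝ) +
            ((H.filter fun k' => |(G n).f k - (G n).f k'| ≤ B.d n ^ ε).card : ℝ) = H.card := by
          intro k _
          have h5 := card_filter_add_card_filter_not (s := H)
            (fun k' => B.d n ^ ε < |(G n).f k - (G n).f k'|)
          simp only [not_lt] at h5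
          exact_mod_cast h5
        rw [sum_congr rfl h4, sum_const, nsmul_eq_mul]
      have h6 := htw i hi
      linarith
    have h7 : ∑ k ∈ H, ((gd i k).card : ℝ) ≤
        ((Gi i).card : ℝ) * H.card + (H.card : ℝ) * (H.card / 4) := by
      rw [← sum_filter_add_sum_filter_not H (fun k => (H.card : ℝ) / 4 ≤ ((gd i k).card : ℝ))]
      refine add_le_add ?_ ?_
      · have : ∀ k ∈ H.filter (fun k => (H.card : ℝ) / 4 ≤ ((gd i k).card : ℝ)),
            ((gd i k).card : ℝ) ≤ H.card := fun k _ => by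
          exact_mod_cast card_le_card (filter_subset _ _)
        refine (sum_le_sum this).trans (le_of_eq ?_)
        rw [sum_const, nsmul_eq_mul]
      · have : ∀ k ∈ H.filter (fun k => ¬ (H.card : ℝ) / 4 ≤ ((gd i k).card : ℝ)),
            ((gd i k).card : ℝ) ≤ H.card / 4 := fun k hk => by
          rw [mem_filter, not_le] at hk; exact hk.2.le
        refine (sum_le_sum this).trans ?_
        rw [sum_const, nsmul_eq_mul]
        refine mul_le_mul_of_nonneg_right ?_ (by positivity)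
        exact_mod_cast card_le_card (filter_subset _ _)
    rcases Nat.eq_zero_or_pos H.card with h0 | h0
    · rw [h0]; simp
    · have h0' : (0 : ℝ) < H.card := by exact_mod_cast h0
      nlinarith
  -- a height with many good lines
  have hsum1 : ∑ k ∈ (G n).Z, ((((G n).slice k).filter fun i => k ∈ Gi i).card : ℝ) =
      ∑ i ∈ (G n).L, ((Gi i).card : ℝ) := by
    have h1 : ∀ k ∈ (G n).Z, ((((G n).slice k).filter fun i => k ∈ Gi i).card : ℝ) =
        ∑ i ∈ (G n).L, (if k ∈ Gi i then (1 : ℝ) else 0) := by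
      intro k _
      rw [← sum_filter, sum_const, nsmul_eq_mul, mul_one]
      congr 2
      ext i
      simp only [mem_filter, TwA501.mem_slice]
      constructor
      · exact fun h => ⟨h.1.1, h.2⟩
      · intro h1
        refine ⟨⟨h1.1, ?_⟩, h1.2⟩
        have h2 := h1.2
        simp only [hGi, mem_filter] at h2
        exact (mem_hts_iff_I h).1 h2.1
    have h2 : ∀ i ∈ (G n).L, ((Gi i).card : ℝ) =
        ∑ k ∈ (G n).Z, (if k ∈ Gi i then (1 : ℝ) else 0) := by
      intro i _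
      rw [← sum_filter, sum_const, nsmul_eq_mul, mul_one]
      congr 2
      ext k
      simp only [mem_filter]
      constructor
      · intro h1
        refine ⟨?_, h1⟩
        simp only [hGi, mem_filter] at h1
        exact mem_Z_of_I h ((mem_hts_iff_I h).1 h1.1)
      · exact fun h => h.2
    rw [sum_congr rfl h1, sum_congr rfl h2, sum_comm]
  have hsum2 : ∑ k ∈ (G n).Z, ((G n).L.card : ℝ) * B.d n ^ (ε / 4) / 4 ≤
      ∑ k ∈ (G n).Z, ((((G n).slice k).filter fun i => k ∈ Gi i).card : ℝ) := by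
    rw [hsum1]
    calc ∑ k ∈ (G n).Z, ((G n).L.card : ℝ) * B.d n ^ (ε / 4) / 4
        = ∑ i ∈ (G n).L, (B.d n ^ (ε / 4) * (G n).Z.card) / 4 := by
          rw [sum_const, sum_const, nsmul_eq_mul, nsmul_eq_mul]; ring
      _ ≤ ∑ i ∈ (G n).L, ((Gi i).card : ℝ) := by
          refine sum_le_sum fun i hi => ?_
          have h1 := hline i hi
          have h2 := hGicard i hi
          linarith
  obtain ⟨k, hk, hk1⟩ := exists_le_of_sum_le hZne hsum2
  set T := ((G n).slice k).filter fun i => k ∈ Gi i with hTdef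
  obtain ⟨S0, hS0T, hS0p, hS0c⟩ := hcell k T (filter_subset _ _)
  have hsl : (((G n).slice k).card : ℝ) ≤ (G n).L.card := by
    exact_mod_cast card_le_card (filter_subset _ _)
  -- lower bound of S0
  have hS0 : B.d n ^ (-ν p + 2 * (ε / 4)) / 4 ≤ (S0.card : ℝ) := by
    have h1 : ((G n).L.card : ℝ) * B.d n ^ (ε / 4) / 4 ≤
        S0.card * ((G n).L.card * B.d n ^ (ν p - ε / 4)) := by
      refine hk1.trans (hS0c.trans ?_)
      exact mul_le_mul_of_nonneg_left
        (mul_le_mul_of_nonneg_right hsl (dpow_pos B n _).le) (Nat.cast_nonneg _)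
    have h2 : B.d n ^ (ε / 4) / 4 ≤ S0.card * B.d n ^ (ν p - ε / 4) := by
      have h3 : ((G n).L.card : ℝ) * (B.d n ^ (ε / 4) / 4) ≤
          (G n).L.card * (S0.card * B.d n ^ (ν p - ε / 4)) := by linarith
      exact le_of_mul_le_mul_left h3 hLne
    have h4 : B.d n ^ (ε / 4) = B.d n ^ (-ν p + 2 * (ε / 4)) * B.d n ^ (ν p - ε / 4) := by
      rw [← dpow_add]; congr 1; ring
    rw [h4] at h2
    have h5 := dpow_pos B n (ν p - ε / 4)
    have h6 : (B.d n ^ (-ν p + 2 * (ε / 4)) / 4) * B.d n ^ (ν p - ε / 4) ≤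
        S0.card * B.d n ^ (ν p - ε / 4) := by linarith
    exact le_of_mul_le_mul_right h6 h5
  -- a good second height
  have hsum3 : ∑ k' ∈ (G n).Z, (S0.card : ℝ) * B.d n ^ (ε / 4) / 4 ≤
      ∑ k' ∈ (G n).Z, ((S0.filter fun i => k' ∈ gd i k).card : ℝ) := by
    have h1 : ∀ k' ∈ (G n).Z, ((S0.filter fun i => k' ∈ gd i k).card : ℝ) =
        ∑ i ∈ S0, (if k' ∈ gd i k then (1 : ℝ) else 0) := by
      intro k' _
      rw [card_filter]; push_cast; rfl
    rw [sum_congr rfl h1, sum_comm]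
    have h2 : ∀ i ∈ S0, ((G n).Z.card : ℝ) * B.d n ^ (ε / 4) / 4 ≤
        ∑ k' ∈ (G n).Z, (if k' ∈ gd i k then (1 : ℝ) else 0) := by
      intro i hi
      have hiT := hS0T hi
      rw [hTdef, mem_filter] at hiT
      have hiL : i ∈ (G n).L := (TwA501.mem_slice.1 hiT.1).1
      have h3 := hiT.2
      simp only [hGi, mem_filter] at h3
      have h4 : ∑ k' ∈ (G n).Z, (if k' ∈ gd i k then (1 : ℝ) else 0) = ((gd i k).card : ℝ) := by
        rw [← sum_filter, sum_const, nsmul_eq_mul, mul_one]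
        congr 2
        ext k'
        simp only [mem_filter]
        constructor
        · exact fun h => h.2
        · intro h5
          refine ⟨?_, h5⟩
          simp only [hgd, mem_filter] at h5
          exact mem_Z_of_I h ((mem_hts_iff_I h).1 h5.1)
      rw [h4]
      have h5 := hline i hiL
      linarith [h3.2]
    calc ∑ k' ∈ (G n).Z, (S0.card : ℝ) * B.d n ^ (ε / 4) / 4
        = ∑ i ∈ S0, ((G n).Z.card : ℝ) * B.d n ^ (ε / 4) / 4 := by
          rw [sum_const, sum_const, nsmul_eq_mul, nsmul_eq_mul]; ring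
      _ ≤ _ := sum_le_sum h2
  obtain ⟨k', hk', hk1'⟩ := exists_le_of_sum_le hZne hsum3
  set S := S0.filter fun i => k' ∈ gd i k with hSdef
  have hSpos : 0 < (S.card : ℝ) := by
    refine lt_of_lt_of_le ?_ hk1'
    have h1 := dpow_pos B n (-ν p + 2 * (ε / 4))
    have h2 := dpow_pos B n (ε / 4)
    have h3 : 0 < (S0.card : ℝ) := by linarith
    positivity
  have hSne : S.Nonempty := by
    rw [← card_pos]; exact_mod_cast hSpos
  refine ⟨k, hk, k', hk', ?_, S, ?_, ?_, hS0p.mono (filter_subset _ _), ?_⟩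
  · obtain ⟨i, hi⟩ := hSne
    rw [hSdef, mem_filter] at hi
    have h2 := hi.2
    simp only [hgd, mem_filter] at h2
    exact h2.2
  · exact (filter_subset _ _).trans (hS0T.trans (filter_subset _ _))
  · intro i hi
    rw [hSdef, mem_filter] at hi
    have h2 := hi.2
    simp only [hgd, mem_filter] at h2
    exact (mem_slice_iff_I h).2 ((mem_hts_iff_I h).1 h2.1)
  · have h1 : (B.d n ^ (-ν p + 2 * (ε / 4)) / 4) * B.d n ^ (ε / 4) / 4 ≤ (S.card : ℝ) := by
      refine le_trans ?_ hk1'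
      have := dpow_pos B n (ε / 4)
      gcongr
    have h2 : B.d n ^ (-ν p + 2 * (ε / 4)) * B.d n ^ (ε / 4) = B.d n ^ (-ν p + 3 * (ε / 4)) := by
      rw [← dpow_add]; congr 1; ring
    have h3 : (B.d n ^ (-ν p + 2 * (ε / 4)) / 4) * B.d n ^ (ε / 4) / 4 =
        B.d n ^ (-ν p + 3 * (ε / 4)) / 16 := by rw [← h2]; ring
    rw [h3] at h1
    linarith

end Crest.Agent.R138.Tw628
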