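import Crest.Agent.R138.Fm_926
import Crest.Agent.R138.Tw1_628

/-!
# R138: F-models with the majority twist (helper480)

`exists_fmodel` of helper926 loses an unknown sub-polynomial factor. Here its speed is slowed down so
that the loss stays below a prescribed super-polylogarithmic function `T`; then the "raw twist"
`TwRaw` (super-polylogarithmic) survives as 628's `TwistMaj`.
The proofs of `uniform_countable_T`, `exists_punif_many_T`, `exists_fmodel_T` are those of helper926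
with the additional bookkeeping.
-/

set_option autoImplicit false
set_option linter.unusedSectionVars false
set_option linter.unusedVariables false

open Filter Topology MeasureTheory
open scoped NNReal

namespace Crest.Agent.R138.TwMaj480

open Crest.Agent.R138.Ex926 Crest.Agent.R138.FM501 Crest.Agent.R138.Tw628
open Finset

section Uniform

/-- `uniform_countable` with loss at most `T`. -/
theorem uniform_countable_T (B : Base) (T : ℕ → ℝ)
    (hT : ∀ m : ℕ, ∀ᶠ n in (U : Filter ℕ), (1 + B.L n) ^ m ≤ T n) {ι κ : ℕ → Type*} [∀ n, DecidableEq (ι n)]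
    [∀ n, DecidableEq (κ n)] (I : ∀ n, Finset (ι n)) (f : ∀ n, ℕ → ι n → κ n)
    (hI : ∀ᶠ n in (U : Filter ℕ), (I n).Nonempty) {C : ℝ} (hC : 0 ≤ C)
    (hcard : ∀ᶠ n in (U : Filter ℕ), ((I n).card : ℝ) ≤ B.d n ^ (-C)) :
    ∃ (I' : ∀ n, Finset (ι n)) (M : ℕ → ℕ → ℝ) (S : ℕ → ℝ) (k : ℕ → ℕ), B.Sub S ∧
      Tendsto k U atTop ∧
      ∀ᶠ n in (U : Filter ℕ), S n ≤ T n ∧ I' n ⊆ I n ∧ (I' n).Nonempty ∧
        ((I n).card : ℝ) ≤ S n * (I' n).card ∧ 1 ≤ S n ∧ ∀ j ≤ k n, 1 ≤ M n j ∧ ∀ i ∈ I' n,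
          M n j ≤ (cls (I n) (f n j) i).card ∧ ((cls (I n) (f n j) i).card : ℝ) ≤ 2 * M n j ∧
          M n j ≤ S n * (cls (I' n) (f n j) i).card := by
  classical
  -- losses
  set s : ℕ → ℕ → ℝ := fun m n =>
    (2 * ((m : ℝ) + 1) + 2) * ((2 * C + 1) * (1 + B.L n)) ^ (m + 1) with hs
  have hsub : ∀ m, B.Sub (s m) := fun m => (Base.Sub.const (by positivity)).mul
      (((Base.Sub.const (by positivity)).mul Base.Sub.one_add_L).pow (m + 1))
  obtain ⟨k₁, hk₁, hk'⟩ := Base.Sub.diag s hsub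
  have hsT : ∀ m, ∀ᶠ n in (U : Filter ℕ), s m n ≤ T n := by
    intro m
    filter_upwards [hT (m + 2), B.ev_L_ge ((2 * ((m : ℝ) + 1) + 2) * (2 * C + 1) ^ (m + 1))]
      with n h1 h2
    refine le_trans ?_ h1
    have hL := B.L_pos n
    have h3 : s m n = ((2 * ((m : ℝ) + 1) + 2) * (2 * C + 1) ^ (m + 1)) * (1 + B.L n) ^ (m + 1) := by
      simp only [hs]; rw [mul_pow]; ring
    rw [h3, pow_succ (1 + B.L n) (m + 1), mul_comm ((1 + B.L n) ^ (m + 1)) (1 + B.L n)]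
    exact mul_le_mul_of_nonneg_right (by linarith) (by positivity)
  obtain ⟨k₂, hk₂, hk₂'⟩ := exists_diag (fun m n => s m n ≤ T n) hsT
  set k : ℕ → ℕ := fun n => min (k₁ n) (k₂ n) with hkdef
  have hk : Tendsto k U atTop := exists_min_speed hk₁ hk₂
  have hex : ∀ n, ∃ (I' : Finset (ι n)) (M : ℕ → ℝ), (I n).Nonempty → I' ⊆ I n ∧ I'.Nonempty ∧
      ((I n).card : ℝ) ≤ 2 * ((Nat.log 2 (I n).card : ℝ) + 1) ^ (k n + 1) * I'.card ∧
      ∀ j ≤ k n, 1 ≤ M j ∧ ∀ i ∈ I',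
        M j ≤ (cls (I n) (f n j) i).card ∧ ((cls (I n) (f n j) i).card : ℝ) ≤ 2 * M j ∧
        M j ≤ 2 * ((k n : ℝ) + 1) * ((Nat.log 2 (I n).card : ℝ) + 1) ^ (k n + 1) *
          (cls I' (f n j) i).card := by
    intro n
    by_cases h : (I n).Nonempty
    · obtain ⟨I', h1, h2, h3, M, h4, h5⟩ := uniformise_card (J := Fin (k n + 1)) (I n) h
        (fun j => f n j) (H := Nat.log 2 (I n).card) (Nat.lt_pow_succ_log_self one_lt_two _)
      rw [Fintype.card_fin] at h3 h5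
      refine ⟨I', fun j => if hj : j < k n + 1 then M ⟨j, hj⟩ else 1, fun _ =>
        ⟨h1, h2, h3, fun j hj => ?_⟩⟩
      have hj' : j < k n + 1 := Nat.lt_succ_of_le hj
      simp only [dif_pos hj']
      refine ⟨h4 _, fun i hi => ?_⟩
      have := h5 ⟨j, hj'⟩ i hi
      push_cast at this
      exact this
    · exact ⟨∅, fun _ => 1, fun h' => absurd h' h⟩
  choose I' M hIM using hex
  refine ⟨I', M, fun n => s (k n) n, k, hk' k hk (Eventually.of_forall fun n => min_le_left _ _), hk, ?_⟩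
  filter_upwards [hI, log_card_le B hC hcard, hk₂'] with n h1 h2 hT2
  obtain ⟨a1, a2, a3, a4⟩ := hIM n h1
  have hp : ((Nat.log 2 (I n).card : ℝ) + 1) ^ (k n + 1) ≤
      ((2 * C + 1) * (1 + B.L n)) ^ (k n + 1) := pow_le_pow_left₀ (by positivity) h2 _
  have hp1 : (1 : ℝ) ≤ ((Nat.log 2 (I n).card : ℝ) + 1) ^ (k n + 1) :=
    one_le_pow₀ (by have : (0:ℝ) ≤ (Nat.log 2 (I n).card : ℝ) := Nat.cast_nonneg _; linarith)
  have hk0 : (0 : ℝ) ≤ k n := Nat.cast_nonneg _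
  refine ⟨hT2 _ (min_le_right _ _), a1, a2, a3.trans ?_, ?_, fun j hj => ⟨(a4 j hj).1, fun i hi => ⟨((a4 j hj).2 i hi).1,
    ((a4 j hj).2 i hi).2.1, ((a4 j hj).2 i hi).2.2.trans ?_⟩⟩⟩
  · refine mul_le_mul_of_nonneg_right ?_ (Nat.cast_nonneg _)
    rw [hs]; nlinarith
  · rw [hs]; nlinarith
  · refine mul_le_mul_of_nonneg_right ?_ (Nat.cast_nonneg _)
    rw [hs]; nlinarith


variable {B : Base} {ι : ℕ → Type*} [∀ n, DecidableEq (ι n)]

/-- **Uniformisation for countably many families with real parameters at once.** -/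
theorem exists_punif_many_T (T : ℕ → ℝ)
    (hT : ∀ m : ℕ, ∀ᶠ n in (U : Filter ℕ), (1 + B.L n) ^ m ≤ T n) {J : Type*} [Countable J] [Nonempty J] {m : J → ℕ}
    {κ : J → ℕ → Type*} [∀ j n, DecidableEq (κ j n)] {I : ∀ n, Finset (ι n)}
    {f : ∀ j n, (Fin (m j) → ℝ) → ι n → κ j n} {K : J → ℝ} (hK : ∀ j, 0 ≤ K j)
    {a b : ∀ j, Fin (m j) → ℝ} (hab : ∀ j l, a j l < b j l)
    (hf : ∀ j, PFam B I (f j) (K j) (Set.Icc (a j) (b j)))
    (hI : ∀ᶠ n in (U : Filter ℕ), (I n).Nonempty) {C : ℝ} (hC : 0 ≤ C)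
    (hcard : ∀ᶠ n in (U : Filter ℕ), ((I n).card : ℝ) ≤ B.d n ^ (-C)) :
    ∃ (I' : ∀ n, Finset (ι n)) (S : ℕ → ℝ), B.Sub S ∧
      (∀ᶠ n in (U : Filter ℕ), I' n ⊆ I n ∧ (I' n).Nonempty ∧
        ((I n).card : ℝ) ≤ S n * (I' n).card ∧ 1 ≤ S n) ∧
      (∀ j, PUnif B I I' (f j) (Set.Icc (a j) (b j))) ∧
      (∀ᶠ n in (U : Filter ℕ), S n ≤ T n) ∧
      ∀ (j : J) (k₀ : ℕ) (g : Fin (m j) → ℕ), ∀ᶠ n in (U : Filter ℕ), ∀ i ∈ I' n,
        ((cls (I n) (f j n (gridPt (a j) (b j) k₀ g)) i).card : ℝ) ≤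
          2 * S n * (cls (I' n) (f j n (gridPt (a j) (b j) k₀ g)) i).card := by
  classical
  obtain ⟨e, he⟩ := exists_surjective_nat (Σ j : J, ℕ × (Fin (m j) → ℕ))
  obtain ⟨I', M, S, k, hS, hk, hev⟩ := uniform_countable_T B T hT I
    (κ := fun n => Σ j : J, κ j n)
    (fun n l i => (⟨(e l).1, f (e l).1 n (gridPt (a (e l).1) (b (e l).1) (e l).2.1 (e l).2.2) i⟩ :
      Σ j : J, κ j n)) hI hC hcard
  have htag0 : ∀ n (A : Finset (ι n)) (l : ℕ) (g : Σ j : J, ℕ × (Fin (m j) → ℕ)) (i : ι n),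
      e l = g → cls A (fun i => (⟨(e l).1, f (e l).1 n
        (gridPt (a (e l).1) (b (e l).1) (e l).2.1 (e l).2.2) i⟩ : Σ j : J, κ j n)) i =
      cls A (f g.1 n (gridPt (a g.1) (b g.1) g.2.1 g.2.2)) i := by
    intro n A l g i hg
    subst hg
    ext y
    rw [mem_cls, mem_cls]
    simp
  refine ⟨I', S, hS, hev.mono fun n hn => ⟨hn.2.1, hn.2.2.1, hn.2.2.2.1, hn.2.2.2.2.1⟩,
    fun j ε hε => ?_, hev.mono fun n hn => hn.1, fun j k₀ g => ?_⟩
  swap
  · obtain ⟨l, hl⟩ := he ⟨j, (k₀, g)⟩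
    filter_upwards [hev, hk.eventually_ge_atTop l] with n h1 h2 i hi
    have h3 := (h1.2.2.2.2.2 l h2).2 i hi
    simp only [htag0 n _ _ _ _ hl] at h3
    have hS1 := h1.2.2.2.2.1
    calc _ ≤ 2 * M n l := h3.2.1
      _ ≤ 2 * (S n * (cls (I' n) (f j n (gridPt (a j) (b j) k₀ g)) i).card) := by linarith [h3.2.2]
      _ = _ := by ring
  -- the grid level
  obtain ⟨k₀, hk₀⟩ : ∃ k₀ : ℕ, K j * (‖b j - a j‖ / (k₀ + 1)) ≤ ε / 4 := by
    obtain ⟨N, hN⟩ := exists_nat_gt (K j * ‖b j - a j‖ / (ε / 4))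
    refine ⟨N, ?_⟩
    rw [← mul_div_assoc, div_le_iff₀ (by positivity)]
    rw [div_lt_iff₀ (by positivity)] at hN
    nlinarith
  choose idx hidx using he
  have hG : ∀ᶠ n in (U : Filter ℕ), ∀ g ∈ Fintype.piFinset (fun _ : Fin (m j) => range (k₀ + 3)),
      idx ⟨j, (k₀, g)⟩ ≤ k n := by
    rw [Filter.eventually_all_finset]
    intro g _
    exact hk.eventually_ge_atTop _
  have hSlog : ∀ᶠ n in (U : Filter ℕ), Real.log (S n) ≤ ε / 8 * B.L n := by
    have h1 := (Base.Sub.iff.1 hS).2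
    have h2 := h1.eventually_lt_const (show (0 : ℝ) < ε / 8 by positivity)
    filter_upwards [h2] with n hn
    simp only [Base.lg] at hn
    rw [div_lt_iff₀ (B.L_pos n)] at hn
    exact hn.le
  have h2log : ∀ᶠ n in (U : Filter ℕ), 2 * Real.log 2 ≤ ε / 8 * B.L n := by
    filter_upwards [B.ev_L_ge (2 * Real.log 2 / (ε / 8))] with n hn
    rw [div_le_iff₀ (by positivity)] at hn
    linarith
  -- the tag does not change classes
  have htag : ∀ n (A : Finset (ι n)) (l : ℕ) (g : Σ j : J, ℕ × (Fin (m j) → ℕ)) (i : ι n),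
      e l = g → cls A (fun i => (⟨(e l).1, f (e l).1 n
        (gridPt (a (e l).1) (b (e l).1) (e l).2.1 (e l).2.2) i⟩ : Σ j : J, κ j n)) i =
      cls A (f g.1 n (gridPt (a g.1) (b g.1) g.2.1 g.2.2)) i := by
    intro n A l g i hg
    subst hg
    ext y
    rw [mem_cls, mem_cls]
    simp
  filter_upwards [hev, hG, hSlog, h2log, (hf j).nest, (hf j).child (ε / 4) (by positivity)] with
    n h1 h2 h3 h4 h5 h6 p hp i hi i₀ hi₀
  obtain ⟨-, hsub, -, -, hS1, hMM⟩ := h1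
  obtain ⟨q1, q2, q3, q4⟩ := gridPt_sandwich (hab j) k₀ hp
  set g := gridDown (a j) (b j) k₀ p with hg
  set g' : Fin (m j) → ℕ := fun l => g l + 1 with hg'
  have hgm : g ∈ Fintype.piFinset (fun _ : Fin (m j) => range (k₀ + 3)) := by
    rw [Fintype.mem_piFinset]; intro l; rw [mem_range]; have := q4 l; omega
  have hgm' : g' ∈ Fintype.piFinset (fun _ : Fin (m j) => range (k₀ + 3)) := by
    rw [Fintype.mem_piFinset]; intro l; rw [mem_range]; have := q4 l; simp only [hg']; omega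
  have hM1 := hMM (idx ⟨j, (k₀, g)⟩) (h2 g hgm)
  have hM2 := hMM (idx ⟨j, (k₀, g')⟩) (h2 g' hgm')
  simp only [htag n _ _ _ _ (hidx ⟨j, (k₀, g)⟩)] at hM1
  simp only [htag n _ _ _ _ (hidx ⟨j, (k₀, g')⟩)] at hM2
  set pm := gridPt (a j) (b j) k₀ g with hpm
  set pp := gridPt (a j) (b j) k₀ g' with hpp
  have hpmP : pm ∈ Set.Icc (a j) (b j) := gridPt_mem (hab j) k₀ g
  have hppP : pp ∈ Set.Icc (a j) (b j) := gridPt_mem (hab j) k₀ g'
  set Mm := M n (idx ⟨j, (k₀, g)⟩) with hMm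
  set Mp := M n (idx ⟨j, (k₀, g')⟩) with hMp
  have hMm1 : 1 ≤ Mm := hM1.1
  have hMp1 : 1 ≤ Mp := hM2.1
  have hSn : 0 < S n := by linarith
  have hL := B.L_pos n
  have hup : ((cls (I n) (f j n p) i).card : ℝ) ≤ 2 * Mm := by
    refine le_trans ?_ (hM1.2 i hi).2.1
    exact_mod_cast card_le_card (fun x hx => by
      obtain ⟨x1, x2⟩ := mem_cls.1 hx
      exact mem_cls.2 ⟨x1, h5 pm hpmP p hp q1 x x1 i (hsub hi) x2⟩)
  have hlo : Mp ≤ S n * (cls (I' n) (f j n p) i₀).card := by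
    refine (hM2.2 i₀ hi₀).2.2.trans (mul_le_mul_of_nonneg_left ?_ hSn.le)
    exact_mod_cast card_le_card (fun x hx => by
      obtain ⟨x1, x2⟩ := mem_cls.1 hx
      exact mem_cls.2 ⟨x1, h5 p hp pp hppP q2 x (hsub x1) i₀ (hsub hi₀) x2⟩)
  have hrel : Mm ≤ S n * (2 * Mp * B.d n ^ (-(K j * ‖pp - pm‖ + ε / 4))) := by
    refine (hM1.2 i₀ hi₀).2.2.trans (mul_le_mul_of_nonneg_left ?_ hSn.le)
    have hc := le_count_mul (cls (I' n) (f j n pm) i₀) (fun _ => (1 : ℝ)) (f j n pp) (m := 2 * Mp)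
      (fun x hx => by
        rw [sum_const, nsmul_eq_mul, mul_one]
        obtain ⟨x1, x2⟩ := mem_cls.1 hx
        refine le_trans ?_ (hM2.2 x x1).2.1
        exact_mod_cast card_le_card (fun y hy => by
          obtain ⟨y1, y2⟩ := mem_cls.1 hy
          exact mem_cls.2 ⟨hsub (mem_cls.1 y1).1, y2⟩))
    rw [sum_const, nsmul_eq_mul, mul_one] at hc
    refine hc.trans (mul_le_mul_of_nonneg_left ?_ (by positivity))
    refine le_trans ?_ (h6 pm hpmP pp hppP (q1.trans q2) i₀ (hsub hi₀))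
    exact_mod_cast card_le_card (image_subset_image (cls_mono hsub _ _))
  have hci₀ : (1 : ℝ) ≤ (cls (I' n) (f j n p) i₀).card := cls_card_pos hi₀
  have hci : (1 : ℝ) ≤ (cls (I n) (f j n p) i).card := cls_card_pos (hsub hi)
  have hd := B.pos n
  have hLd : Real.log (B.d n) = - B.L n := by simp [Base.L]
  have hdist : K j * ‖pp - pm‖ ≤ ε / 4 := by
    refine le_trans (mul_le_mul_of_nonneg_left ?_ (hK j)) hk₀
    exact q3
  have l1 : Real.log ((cls (I n) (f j n p) i).card) ≤ Real.log 2 + Real.log Mm := by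
    rw [← Real.log_mul (by norm_num) (by linarith)]
    exact Real.log_le_log (by linarith) hup
  have l2 : Real.log Mm ≤ Real.log (S n) + (Real.log 2 + Real.log Mp +
      (K j * ‖pp - pm‖ + ε / 4) * B.L n) := by
    have hdp : 0 < B.d n ^ (-(K j * ‖pp - pm‖ + ε / 4)) := Real.rpow_pos_of_pos hd _
    have h7 := Real.log_le_log (by linarith) hrel
    rw [Real.log_mul hSn.ne' (by positivity), Real.log_mul (by positivity) hdp.ne',
      Real.log_mul (by norm_num) (by linarith), Real.log_rpow hd, hLd] at h7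
    linarith
  have l3 : Real.log Mp ≤ Real.log (S n) + Real.log ((cls (I' n) (f j n p) i₀).card) := by
    rw [← Real.log_mul hSn.ne' (by linarith)]
    exact Real.log_le_log (by linarith) hlo
  have l4 : (K j * ‖pp - pm‖ + ε / 4) * B.L n ≤ (ε / 2) * B.L n :=
    mul_le_mul_of_nonneg_right (by linarith) hL.le
  have l5 := mul_pos hε hL
  linarith


end Uniform

section FM

/-- **Every dense sequence of configurations has a sub-configuration which is an `FModel`.**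
The exponents `ν` are `4`-Lipschitz, antitone, supermodular, and the counts in the original boxes are
the same up to `ρ^{o(1)}`. -/
theorem exists_fmodel_T (B : Base) (G : ℕ → Cfg) {σ R : ℝ} (h : RawM B G σ R) (T : ℕ → ℝ)
    (hT : ∀ m : ℕ, ∀ᶠ n in (U : Filter ℕ), (1 + B.L n) ^ m ≤ T n) :
    ∃ (G' : ℕ → Cfg) (ν : (Fin 4 → ℝ) → ℝ) (S : ℕ → ℝ), FModel B G' σ R ν ∧
      (∀ n, SubCfg (G' n) (G n)) ∧ B.Sub S ∧
      (∀ᶠ n in (U : Filter ℕ), ((G n).I.card : ℝ) ≤ S n * (G' n).I.card) ∧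
      (∀ ε : ℝ, 0 < ε → ∀ᶠ n in (U : Filter ℕ), ∀ p ∈ Set.Icc (0 : Fin 4 → ℝ) (fun _ => R),
        ∀ i k, (i, k) ∈ (G' n).I →
          B.d n ^ (-ν p + ε) ≤ (((G' n).box p i k).card : ℝ) ∧
          (((G' n).box p i k).card : ℝ) ≤ B.d n ^ (-ν p - ε)) ∧
      (∀ p ∈ Set.Icc (0 : Fin 4 → ℝ) (fun _ => R), ∀ q ∈ Set.Icc (0 : Fin 4 → ℝ) (fun _ => R),
        |ν p - ν q| ≤ 4 * ‖p - q‖) ∧
      (∀ p ∈ Set.Icc (0 : Fin 4 → ℝ) (fun _ => R), ∀ q ∈ Set.Icc (0 : Fin 4 → ℝ) (fun _ => R),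
        p ≤ q → ν q ≤ ν p) ∧
      (∀ p ∈ Set.Icc (0 : Fin 4 → ℝ) (fun _ => R), ∀ q ∈ Set.Icc (0 : Fin 4 → ℝ) (fun _ => R),
        ν p + ν q ≤ ν (p ⊔ q) + ν (p ⊓ q)) ∧
      (∀ᶠ n in (U : Filter ℕ), S n ≤ T n) ∧
      (∀ᶠ n in (U : Filter ℕ), ∀ i ∈ (G' n).L,
        (((G n).hts i).card : ℝ) ≤ 2 * S n * ((G' n).hts i).card) := by
  classical
  obtain ⟨C, hC, hpb⟩ := h.pb
  have hR := h.R_pos
  have hLZ : ∀ n, ((G n).I.card : ℝ) ≤ ((G n).L.card : ℝ) * (G n).Z.card := by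
    intro n
    have := card_le_card (h.sub n)
    rw [card_product] at this
    exact_mod_cast this
  set f : Fin 3 → ∀ n : ℕ, (Fin 4 → ℝ) → (ℕ × ℕ) → ℕ × (Fin 4 → ℤ) := fun j n p i =>
    if j = 0 then gfam B G n p i else if j = 1 then (i.1, 0) else (i.2, 0) with hf
  have hf0 : f 0 = gfam B G := by funext n p i; simp [hf]
  have hf1 : f 1 = fun n p i => (i.1, 0) := by funext n p i; simp [hf]
  have hf2 : f 2 = fun n p i => (i.2, 0) := by funext n p i; simp [hf]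
  have hfam : ∀ j, PFam B (fun n => (G n).I) (f j) ((4 : ℕ) : ℝ)
      (Set.Icc (0 : Fin 4 → ℝ) (fun _ => R + 1)) := by
    intro j
    fin_cases j
    · change PFam B (fun n => (G n).I) (f 0) _ _
      rw [hf0]
      exact cfam_PFam (ι := fun _ => ℕ × ℕ) (γ := fun _ => ℕ) B _ _ _ _ _ (fun j => le_rfl)
    · change PFam B (fun n => (G n).I) (f 1) _ _
      rw [hf1]
      exact PFam.const (ι := fun _ => ℕ × ℕ) (κ := fun _ => ℕ × (Fin 4 → ℤ)) B _
        (fun n i => (i.1, 0)) (by positivity) _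
    · change PFam B (fun n => (G n).I) (f 2) _ _
      rw [hf2]
      exact PFam.const (ι := fun _ => ℕ × ℕ) (κ := fun _ => ℕ × (Fin 4 → ℤ)) B _
        (fun n i => (i.2, 0)) (by positivity) _
  obtain ⟨I', S, hS, hI', hu, hST, hgr⟩ := exists_punif_many_T T hT (ι := fun _ => ℕ × ℕ) (J := Fin 3)
    (m := fun _ => 4) (κ := fun _ _ => ℕ × (Fin 4 → ℤ)) (f := f) (K := fun _ => ((4 : ℕ) : ℝ))
    (B := B) (I := fun n => (G n).I)
    (a := fun _ => 0) (b := fun _ _ => R + 1) (fun _ => by positivity)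
    (fun _ _ => by simp only [Pi.zero_apply]; linarith) hfam
    (Eventually.of_forall fun n => h.nonempty n) hC
    (hpb.mono fun n hn => (hLZ n).trans hn)
  -- the sub-configuration
  set I'' : ℕ → Finset (ℕ × ℕ) := fun n =>
    if I' n ⊆ (G n).I ∧ (I' n).Nonempty then I' n else (G n).I with hI''
  have hI''s : ∀ n, I'' n ⊆ (G n).I := by
    intro n
    simp only [hI'']
    split_ifs with h1
    · exact h1.1
    · exact Subset.refl _
  have hI''n : ∀ n, (I'' n).Nonempty := by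
    intro n
    simp only [hI'']
    split_ifs with h1
    · exact h1.2
    · exact h.nonempty n
  have hI''e : ∀ᶠ n in (U : Filter ℕ), I'' n = I' n := by
    filter_upwards [hI'] with n hn
    simp only [hI'', if_pos (show I' n ⊆ (G n).I ∧ (I' n).Nonempty from ⟨hn.1, hn.2.1⟩)]
  set G' : ℕ → Cfg := fun n => { G n with
    I := I'' n, L := (I'' n).image Prod.fst, Z := (I'' n).image Prod.snd } with hG'
  have hsub' : ∀ n, (G' n).I ⊆ (G' n).L ×ˢ (G' n).Z := fun n x hx =>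
    mem_product.2 ⟨mem_image_of_mem _ hx, mem_image_of_mem _ hx⟩
  have hL' : ∀ n, (G' n).L ⊆ (G n).L := by
    intro n y hy
    obtain ⟨x, hx, rfl⟩ := mem_image.1 hy
    exact (mem_product.1 (h.sub n (hI''s n hx))).1
  have hZ' : ∀ n, (G' n).Z ⊆ (G n).Z := by
    intro n y hy
    obtain ⟨x, hx, rfl⟩ := mem_image.1 hy
    exact (mem_product.1 (h.sub n (hI''s n hx))).2
  -- the profile
  have hu0 : PUnif B (fun n => (G n).I) I'' (gfam B G) (Set.Icc (0 : Fin 4 → ℝ) (fun _ => R + 1)) := by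
    intro ε hε
    have := hu 0 ε hε
    rw [hf0] at this
    filter_upwards [this, hI''e] with n h1 h2
    rw [h2]; exact h1
  have hsubev : ∀ᶠ n in (U : Filter ℕ), I'' n ⊆ (G n).I := Eventually.of_forall hI''s
  have hfam0 := hfam 0
  rw [hf0] at hfam0
  obtain ⟨ν, hν, -, hlip, hanti, -⟩ := PUnif.exists_profile (ι := fun _ => ℕ × ℕ)
    (κ := fun _ => ℕ × (Fin 4 → ℤ)) (B := B) (I := fun n => (G n).I) (I' := I'')
    (by positivity) hfam0 hsubev (Eventually.of_forall hI''n)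
    (hpb.mono fun n hn => (hLZ n).trans hn) hu0
  have hsm : ∀ p ∈ Set.Icc (0 : Fin 4 → ℝ) (fun _ => R + 1),
      ∀ q ∈ Set.Icc (0 : Fin 4 → ℝ) (fun _ => R + 1), ν p + ν q ≤ ν (p ⊔ q) + ν (p ⊓ q) := by
    intro p hp q hq
    exact IsProfile.submod (ι := fun _ => ℕ × ℕ) (κ := fun _ => ℕ × (Fin 4 → ℤ))
      (Eventually.of_forall hI''n) hν (hfam0.mono hsubev (Set.Subset.refl _))
      (PJoin.mono (cfam_PJoin (ι := fun _ => ℕ × ℕ) (γ := fun _ => ℕ) B (fun n => (G n).I) _ _ _)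
        hsubev (Set.Subset.refl _)) hp hq
  have hnear := near_card (ι := fun _ => ℕ × ℕ) (γ := fun _ => ℕ) B I'' (fun _ i => i.2)
    (fun n i => (G n).co i.2 i.1) (ν := ν) (R := R) (K := ((4 : ℕ) : ℝ)) (by positivity) hν hlip
  have hRR : Set.Icc (0 : Fin 4 → ℝ) (fun _ => R) ⊆ Set.Icc (0 : Fin 4 → ℝ) (fun _ => R + 1) := by
    rintro p ⟨h1, h2⟩
    exact ⟨h1, fun j => (h2 j).trans (by simp)⟩
  have hboxes : ∀ ε : ℝ, 0 < ε → ∀ᶠ n in (U : Filter ℕ),
      ∀ p ∈ Set.Icc (0 : Fin 4 → ℝ) (fun _ => R), ∀ i k, (i, k) ∈ (G' n).I →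
          B.d n ^ (-ν p + ε) ≤ (((G' n).box p i k).card : ℝ) ∧
          (((G' n).box p i k).card : ℝ) ≤ B.d n ^ (-ν p - ε) := by
    intro ε hε
    filter_upwards [hnear ε hε] with n hn p hp i k hik
    have h1 := hn p hp (i, k) hik
    rw [card_box_eq (G' n) (hsub' n)]
    have hρ : (G' n).ρ = B.d n := h.base n
    rw [hρ]
    exact h1
  -- densities
  have hcardI : ∀ᶠ n in (U : Filter ℕ), ((G n).I.card : ℝ) ≤ S n * (G' n).I.card := by
    filter_upwards [hI', hI''e] with n h1 h2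
    have : (G' n).I = I' n := h2
    rw [this]; exact h1.2.2.1
  have hSsmall : ∀ ε : ℝ, 0 < ε → ∀ᶠ n in (U : Filter ℕ), 0 < S n ∧ S n ≤ B.d n ^ (-ε) := by
    intro ε hε
    filter_upwards [hS.1.pos, Base.ex_lt_iff_dpow hS.1 (a := ε) (by rw [hS.2]; exact hε)] with n a1 a2
    exact ⟨a1, a2.le⟩
  have hdense : ∀ ε : ℝ, 0 < ε → ∀ᶠ n in (U : Filter ℕ),
      B.d n ^ ε * (((G n).L.card : ℝ) * (G n).Z.card) ≤ (G' n).I.card := by
    intro ε hε
    filter_upwards [h.dense (ε / 2) (by positivity), hcardI, hSsmall (ε / 2) (by positivity)] with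
      n h1 h2 h3
    have hd := B.pos n
    have e1 : B.d n ^ ε = B.d n ^ (ε / 2) * B.d n ^ (ε / 2) := by
      rw [← Real.rpow_add hd]; congr 1; ring
    have e2 : B.d n ^ (ε / 2) * B.d n ^ (-(ε / 2)) = 1 := by
      rw [← Real.rpow_add hd]; simp
    have hp := Real.rpow_pos_of_pos hd (ε / 2)
    have hI0 : (0 : ℝ) ≤ (G' n).I.card := Nat.cast_nonneg _
    calc B.d n ^ ε * (((G n).L.card : ℝ) * (G n).Z.card)
        = B.d n ^ (ε / 2) * (B.d n ^ (ε / 2) * (((G n).L.card : ℝ) * (G n).Z.card)) := by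
          rw [e1]; ring
      _ ≤ B.d n ^ (ε / 2) * (S n * (G' n).I.card) :=
          mul_le_mul_of_nonneg_left (h1.trans h2) hp.le
      _ ≤ B.d n ^ (ε / 2) * (B.d n ^ (-(ε / 2)) * (G' n).I.card) := by
          refine mul_le_mul_of_nonneg_left (mul_le_mul_of_nonneg_right h3.2 hI0) hp.le
      _ = (G' n).I.card := by rw [← mul_assoc, e2, one_mul]
  have hL0 : ∀ n, (0 : ℝ) < (G n).L.card ∧ (0 : ℝ) < (G n).Z.card := by
    intro n
    obtain ⟨x, hx⟩ := h.nonempty n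
    have := mem_product.1 (h.sub n hx)
    exact ⟨by exact_mod_cast card_pos.2 ⟨_, this.1⟩, by exact_mod_cast card_pos.2 ⟨_, this.2⟩⟩
  have hL'0 : ∀ n, (0 : ℝ) < (G' n).L.card ∧ (0 : ℝ) < (G' n).Z.card := by
    intro n
    obtain ⟨x, hx⟩ := hI''n n
    have := mem_product.1 (hsub' n hx)
    exact ⟨by exact_mod_cast card_pos.2 ⟨_, this.1⟩, by exact_mod_cast card_pos.2 ⟨_, this.2⟩⟩
  have hLL : ∀ n, ((G' n).L.card : ℝ) ≤ (G n).L.card := fun n => by
    exact_mod_cast card_le_card (hL' n)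
  have hZZ : ∀ n, ((G' n).Z.card : ℝ) ≤ (G n).Z.card := fun n => by
    exact_mod_cast card_le_card (hZ' n)
  -- uniformity of lines and slices
  have hself1 : ∀ ε : ℝ, 0 < ε → ∀ᶠ n in (U : Filter ℕ), ∀ i ∈ I'' n, ∀ i₀ ∈ I'' n,
      ((cls (I'' n) Prod.fst i).card : ℝ) ≤ B.d n ^ (-ε) * (cls (I'' n) Prod.fst i₀).card := by
    intro ε hε
    have h1 := PUnif.self (ι := fun _ => ℕ × ℕ) (κ := fun _ => ℕ × (Fin 4 → ℤ)) (hu 1)
      (hI'.mono fun n hn => hn.1) ε hε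
    rw [hf1] at h1
    filter_upwards [h1, hI''e] with n h1 h2 i hi i₀ hi₀
    rw [h2] at hi hi₀ ⊢
    have h3 := h1 0 ⟨le_rfl, fun j => by simp only [Pi.zero_apply]; linarith⟩ i hi i₀ hi₀
    have e : ∀ i, cls (I' n) (fun i : ℕ × ℕ => ((i.1, 0) : ℕ × (Fin 4 → ℤ))) i =
        cls (I' n) Prod.fst i := by
      intro i; ext y; rw [mem_cls, mem_cls]; simp
    rw [e, e] at h3
    exact h3
  have hself2 : ∀ ε : ℝ, 0 < ε → ∀ᶠ n in (U : Filter ℕ), ∀ i ∈ I'' n, ∀ i₀ ∈ I'' n,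
      ((cls (I'' n) Prod.snd i).card : ℝ) ≤ B.d n ^ (-ε) * (cls (I'' n) Prod.snd i₀).card := by
    intro ε hε
    have h1 := PUnif.self (ι := fun _ => ℕ × ℕ) (κ := fun _ => ℕ × (Fin 4 → ℤ)) (hu 2)
      (hI'.mono fun n hn => hn.1) ε hε
    rw [hf2] at h1
    filter_upwards [h1, hI''e] with n h1 h2 i hi i₀ hi₀
    rw [h2] at hi hi₀ ⊢
    have h3 := h1 0 ⟨le_rfl, fun j => by simp only [Pi.zero_apply]; linarith⟩ i hi i₀ hi₀
    have e : ∀ i, cls (I' n) (fun i : ℕ × ℕ => ((i.2, 0) : ℕ × (Fin 4 → ℤ))) i =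
        cls (I' n) Prod.snd i := by
      intro i; ext y; rw [mem_cls, mem_cls]; simp
    rw [e, e] at h3
    exact h3
  have hexpd : ∀ n (s t : ℝ), B.d n ^ s * B.d n ^ t = B.d n ^ (s + t) := fun n s t =>
    (Real.rpow_add (B.pos n) s t).symm
  refine ⟨G', ν, S, ?_, ?_, hS, hcardI, hboxes, ?_, ?_, ?_, hST, ?_⟩
  · refine
    { base := fun n => h.base n
      sub := hsub'
      nonempty := hI''n
      bd := fun n => ?_
      R_pos := h.R_pos
      σ_nonneg := h.σ_nonneg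
      σ_le := h.σ_le
      line := ?_
      slice := ?_
      frost := ?_
      unif := ?_ }
    · have hb := h.bd n
      exact ⟨fun i hi => hb.a i (hL' n hi), fun i hi => hb.b i (hL' n hi),
        fun i hi => hb.c i (hL' n hi), fun i hi => hb.d i (hL' n hi),
        fun k hk => hb.z k (hZ' n hk), fun k hk => hb.f k (hZ' n hk)⟩
    · intro ε hε
      filter_upwards [hself1 (ε / 2) (by positivity), hdense (ε / 2) (by positivity)] with
        n h1 h2 i hi
      obtain ⟨x, hx, hxi⟩ := mem_image.1 hi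
      have hcard : ((G' n).I.card : ℝ) ≤ (B.d n ^ (-(ε / 2)) *
          (cls (I'' n) Prod.fst x).card) * ((I'' n).image Prod.fst).card := by
        have := le_count_mul (I'' n) (fun _ => (1 : ℝ)) Prod.fst
          (m := B.d n ^ (-(ε / 2)) * (cls (I'' n) Prod.fst x).card) (fun y hy => by
            rw [sum_const, nsmul_eq_mul, mul_one]; exact h1 y hy x hx)
        rw [sum_const, nsmul_eq_mul, mul_one] at this
        exact this
      have e1 : ((G' n).hts i).card = (cls (I'' n) Prod.fst x).card := by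
        rw [card_hts_eq (G' n) (hsub' n) i x.2, ← hxi]
      rw [e1]
      have hd := B.pos n
      have hLp := (hL'0 n).1
      have e2 : ((G' n).L.card : ℝ) = ((I'' n).image Prod.fst).card := rfl
      rw [← e2] at hcard
      have e3 : B.d n ^ (ε / 2) * (((G' n).L.card : ℝ) * (G' n).Z.card) ≤
          (B.d n ^ (-(ε / 2)) * (cls (I'' n) Prod.fst x).card) * (G' n).L.card := by
        refine le_trans (le_trans ?_ h2) hcard
        refine mul_le_mul_of_nonneg_left ?_ (Real.rpow_pos_of_pos hd _).le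
        exact mul_le_mul (hLL n) (hZZ n) (Nat.cast_nonneg _) (Nat.cast_nonneg _)
      have e4 : B.d n ^ (ε / 2) * ((G' n).Z.card : ℝ) ≤
          B.d n ^ (-(ε / 2)) * (cls (I'' n) Prod.fst x).card := by
        refine le_of_mul_le_mul_right ?_ hLp
        calc _ = B.d n ^ (ε / 2) * (((G' n).L.card : ℝ) * (G' n).Z.card) := by ring
          _ ≤ _ := e3
      have hp := Real.rpow_pos_of_pos hd (ε / 2)
      calc B.d n ^ ε * ((G' n).Z.card : ℝ)
          = B.d n ^ (ε / 2) * (B.d n ^ (ε / 2) * ((G' n).Z.card : ℝ)) := by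
            rw [← mul_assoc, hexpd]; congr 2; ring
        _ ≤ B.d n ^ (ε / 2) * (B.d n ^ (-(ε / 2)) * (cls (I'' n) Prod.fst x).card) :=
            mul_le_mul_of_nonneg_left e4 hp.le
        _ = (cls (I'' n) Prod.fst x).card := by
            rw [← mul_assoc, hexpd]; simp
    · intro ε hε
      filter_upwards [hself2 (ε / 2) (by positivity), hdense (ε / 2) (by positivity)] with
        n h1 h2 k hk
      obtain ⟨x, hx, hxk⟩ := mem_image.1 hk
      have hcard : ((G' n).I.card : ℝ) ≤ (B.d n ^ (-(ε / 2)) *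
          (cls (I'' n) Prod.snd x).card) * ((I'' n).image Prod.snd).card := by
        have := le_count_mul (I'' n) (fun _ => (1 : ℝ)) Prod.snd
          (m := B.d n ^ (-(ε / 2)) * (cls (I'' n) Prod.snd x).card) (fun y hy => by
            rw [sum_const, nsmul_eq_mul, mul_one]; exact h1 y hy x hx)
        rw [sum_const, nsmul_eq_mul, mul_one] at this
        exact this
      have e1 : ((G' n).slice k).card = (cls (I'' n) Prod.snd x).card := by
        rw [card_slice_eq (G' n) (hsub' n) x.1 k, ← hxk]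
      rw [e1]
      have hd := B.pos n
      have hZp := (hL'0 n).2
      have e2 : ((G' n).Z.card : ℝ) = ((I'' n).image Prod.snd).card := rfl
      rw [← e2] at hcard
      have e3 : B.d n ^ (ε / 2) * (((G' n).L.card : ℝ) * (G' n).Z.card) ≤
          (B.d n ^ (-(ε / 2)) * (cls (I'' n) Prod.snd x).card) * (G' n).Z.card := by
        refine le_trans (le_trans ?_ h2) hcard
        refine mul_le_mul_of_nonneg_left ?_ (Real.rpow_pos_of_pos hd _).le
        exact mul_le_mul (hLL n) (hZZ n) (Nat.cast_nonneg _) (Nat.cast_nonneg _)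
      have e4 : B.d n ^ (ε / 2) * ((G' n).L.card : ℝ) ≤
          B.d n ^ (-(ε / 2)) * (cls (I'' n) Prod.snd x).card := by
        refine le_of_mul_le_mul_right ?_ hZp
        calc _ = B.d n ^ (ε / 2) * (((G' n).L.card : ℝ) * (G' n).Z.card) := by ring
          _ ≤ _ := e3
      have hp := Real.rpow_pos_of_pos hd (ε / 2)
      calc B.d n ^ ε * ((G' n).L.card : ℝ)
          = B.d n ^ (ε / 2) * (B.d n ^ (ε / 2) * ((G' n).L.card : ℝ)) := by
            rw [← mul_assoc, hexpd]; congr 2; ring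
        _ ≤ B.d n ^ (ε / 2) * (B.d n ^ (-(ε / 2)) * (cls (I'' n) Prod.snd x).card) :=
            mul_le_mul_of_nonneg_left e4 hp.le
        _ = (cls (I'' n) Prod.snd x).card := by
            rw [← mul_assoc, hexpd]; simp
    · intro x hx0 hxR ε hε
      filter_upwards [h.frost x hx0 hxR (ε / 2) (by positivity), hdense (ε / 2) (by positivity)]
        with n h1 h2 k hk
      have e1 : (((G' n).hbox x k).card : ℝ) ≤ ((G n).hbox x k).card := by
        exact_mod_cast card_le_card (fun y hy => by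
          simp only [Cfg.hbox, mem_filter] at hy ⊢
          exact ⟨hZ' n hy.1, hy.2⟩)
      refine e1.trans ((h1 k (hZ' n hk)).trans ?_)
      have hd := B.pos n
      have hLp := (hL0 n).1
      have e3 : ((G' n).I.card : ℝ) ≤ ((G n).L.card : ℝ) * (G' n).Z.card := by
        have h3 : ((G' n).I.card : ℝ) ≤ ((G' n).L.card : ℝ) * (G' n).Z.card := by
          have := card_le_card (hsub' n)
          rw [card_product] at this
          exact_mod_cast this
        refine h3.trans (mul_le_mul_of_nonneg_right (hLL n) (Nat.cast_nonneg _))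
      have e4 : B.d n ^ (ε / 2) * ((G n).Z.card : ℝ) ≤ (G' n).Z.card := by
        refine le_of_mul_le_mul_right ?_ hLp
        calc _ = B.d n ^ (ε / 2) * (((G n).L.card : ℝ) * (G n).Z.card) := by ring
          _ ≤ (G' n).I.card := h2
          _ ≤ ((G n).L.card : ℝ) * (G' n).Z.card := e3
          _ = (G' n).Z.card * ((G n).L.card : ℝ) := by ring
      calc B.d n ^ (σ * x - ε / 2) * ((G n).Z.card : ℝ)
          = B.d n ^ (σ * x - ε) * (B.d n ^ (ε / 2) * ((G n).Z.card : ℝ)) := by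
            rw [← mul_assoc, hexpd]; congr 2; ring
        _ ≤ B.d n ^ (σ * x - ε) * ((G' n).Z.card : ℝ) :=
            mul_le_mul_of_nonneg_left e4 (Real.rpow_pos_of_pos hd _).le
    · intro p hp ε hε
      filter_upwards [hboxes ε hε] with n hn i k hik
      exact hn p ⟨fun j => (hp j).1, fun j => (hp j).2⟩ i k hik
  · intro n
    exact ⟨rfl, rfl, rfl, rfl, rfl, rfl, rfl, hI''s n, hL' n, hZ' n⟩
  · intro p hp q hq
    have := hlip p (hRR hp) q (hRR hq)
    norm_num at this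
    exact this
  · intro p hp q hq hpq
    exact hanti p (hRR hp) q (hRR hq) hpq
  · intro p hp q hq
    exact hsm p (hRR hp) q (hRR hq)
  · filter_upwards [hgr 1 0 0, hI''e] with n h1 h2 i hi
    obtain ⟨x, hx, rfl⟩ := mem_image.1 hi
    rw [h2] at hx
    have h3 := h1 x hx
    rw [hf1] at h3
    have e : ∀ A : Finset (ℕ × ℕ), cls A (fun i : ℕ × ℕ => ((i.1, 0) : ℕ × (Fin 4 → ℤ))) x =
        cls A Prod.fst x := by
      intro A; ext y; rw [mem_cls, mem_cls]; simp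
    rw [e, e] at h3
    rw [card_hts_eq (G n) (h.sub n) x.1 x.2, card_hts_eq (G' n) (hsub' n) x.1 x.2]
    have e2 : (G' n).I = I' n := h2
    rw [e2]
    exact h3

end FM

section Tw

open Classical in
/-- **raw twist**: at every incidence `(i, k)` the heights of the line `i` whose slope is close to the
slope at `k` are at most a `(1 + log)^(-m)`-part of the heights of `i`, for every `m`. -/
def TwRaw (B : Base) (G : ℕ → Cfg) : Prop :=
  ∀ ε : ℝ, 0 < ε → ∀ m : ℕ, ∀ᶠ n in (U : Filter ℕ), ∀ i ∈ (G n).L, ∀ k ∈ (G n).hts i,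
    (1 + B.L n) ^ m * ((((G n).hts i).filter
      fun k' => |(G n).f k - (G n).f k'| ≤ B.d n ^ ε).card : ℝ) ≤ (((G n).hts i).card : ℝ)

open Classical in
/-- a super-polylogarithmic function which works for all `ε` at once -/
theorem TwRaw.exists_T {B : Base} {G : ℕ → Cfg} (h : TwRaw B G) :
    ∃ T : ℕ → ℝ, (∀ m : ℕ, ∀ᶠ n in (U : Filter ℕ), (1 + B.L n) ^ m ≤ T n) ∧
      ∀ ε : ℝ, 0 < ε → ∀ᶠ n in (U : Filter ℕ), ∀ i ∈ (G n).L, ∀ k ∈ (G n).hts i,
        T n ^ 2 * ((((G n).hts i).filter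
          fun k' => |(G n).f k - (G n).f k'| ≤ B.d n ^ ε).card : ℝ) ≤ (((G n).hts i).card : ℝ) := by
  have hj : ∀ j : ℕ, ∀ᶠ n in (U : Filter ℕ), ∀ i ∈ (G n).L, ∀ k ∈ (G n).hts i,
      (1 + B.L n) ^ (2 * j) * ((((G n).hts i).filter
        fun k' => |(G n).f k - (G n).f k'| ≤ B.d n ^ (1 / ((j : ℝ) + 1))).card : ℝ) ≤
          (((G n).hts i).card : ℝ) := fun j => h (1 / ((j : ℝ) + 1)) (by positivity) (2 * j)
  obtain ⟨k, hk, hk2⟩ := exists_diag _ hj
  refine ⟨fun n => (1 + B.L n) ^ (k n), fun m => ?_, fun ε hε => ?_⟩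
  · filter_upwards [hk.eventually_ge_atTop m] with n hn
    exact pow_le_pow_right₀ (by linarith [B.L_pos n]) hn
  · obtain ⟨m, hm⟩ := exists_nat_gt (1 / ε)
    filter_upwards [hk2, hk.eventually_ge_atTop m] with n h1 h2 i hi k' hk'
    have h3 := h1 (k n) le_rfl i hi k' hk'
    rw [← pow_mul, mul_comm (k n) 2]
    refine le_trans ?_ h3
    have h4 : B.d n ^ ε ≤ B.d n ^ (1 / ((k n : ℝ) + 1)) := by
      refine Real.rpow_le_rpow_of_exponent_ge (B.pos n) (B.lt n).le ?_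
      rw [div_le_iff₀ (by positivity)]
      rw [div_lt_iff₀ hε] at hm
      have : (m : ℝ) ≤ k n := by exact_mod_cast h2
      nlinarith
    have h5 : (((((G n).hts i).filter
        fun k'' => |(G n).f k' - (G n).f k''| ≤ B.d n ^ ε).card : ℕ) : ℝ) ≤
        ((((G n).hts i).filter
          fun k'' => |(G n).f k' - (G n).f k''| ≤ B.d n ^ (1 / ((k n : ℝ) + 1))).card : ℝ) := by
      refine Nat.cast_le.2 (card_le_card fun y hy => ?_)
      rw [mem_filter] at hy ⊢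
      exact ⟨hy.1, hy.2.trans h4⟩
    exact mul_le_mul_of_nonneg_left h5 (pow_nonneg (by linarith [B.L_pos n]) _)

/-- **Dense configurations with raw twist contain F-models with the majority twist.** -/
theorem exists_fmodel_tw (B : Base) (G : ℕ → Cfg) {σ R : ℝ} (h : RawM B G σ R) (ht : TwRaw B G) :
    ∃ (G' : ℕ → Cfg) (ν : (Fin 4 → ℝ) → ℝ) (S : ℕ → ℝ), FModel B G' σ R ν ∧
      (∀ n, SubCfg (G' n) (G n)) ∧ B.Sub S ∧
      (∀ᶠ n in (U : Filter ℕ), ((G n).I.card : ℝ) ≤ S n * (G' n).I.card) ∧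
      (∀ ε : ℝ, 0 < ε → ∀ᶠ n in (U : Filter ℕ), ∀ p ∈ Set.Icc (0 : Fin 4 → ℝ) (fun _ => R),
        ∀ i k, (i, k) ∈ (G' n).I →
          B.d n ^ (-ν p + ε) ≤ (((G' n).box p i k).card : ℝ) ∧
          (((G' n).box p i k).card : ℝ) ≤ B.d n ^ (-ν p - ε)) ∧
      (∀ p ∈ Set.Icc (0 : Fin 4 → ℝ) (fun _ => R), ∀ q ∈ Set.Icc (0 : Fin 4 → ℝ) (fun _ => R),
        |ν p - ν q| ≤ 4 * ‖p - q‖) ∧
      (∀ p ∈ Set.Icc (0 : Fin 4 → ℝ) (fun _ => R), ∀ q ∈ Set.Icc (0 : Fin 4 → ℝ) (fun _ => R),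
        p ≤ q → ν q ≤ ν p) ∧
      (∀ p ∈ Set.Icc (0 : Fin 4 → ℝ) (fun _ => R), ∀ q ∈ Set.Icc (0 : Fin 4 → ℝ) (fun _ => R),
        ν p + ν q ≤ ν (p ⊔ q) + ν (p ⊓ q)) ∧
      TwistMaj B G' := by
  classical
  obtain ⟨T, hT, hT2⟩ := ht.exists_T
  obtain ⟨G', ν, S, c1, c2, c3, c4, c5, c6, c7, c8, c9, c10⟩ := exists_fmodel_T B G h T hT
  refine ⟨G', ν, S, c1, c2, c3, c4, c5, c6, c7, c8, fun ε hε => ?_⟩
  filter_upwards [hT2 ε hε, c9, c10, hT 1, B.ev_L_ge 15] with n h1 h2 h3 h4 h5 i hi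
  have hsub := c2 n
  have hT16 : 16 ≤ T n := by rw [pow_one] at h4; linarith
  have hi' : i ∈ (G n).L := hsub.L hi
  have hH : (G' n).hts i ⊆ (G n).hts i := by
    intro y hy
    simp only [Cfg.hts, mem_filter] at hy ⊢
    exact ⟨hsub.Z hy.1, hsub.I hy.2⟩
  set H := (G' n).hts i with hHdef
  set H0 := (G n).hts i with hH0def
  have key : ∀ k ∈ H, ((H.filter fun k' => |(G' n).f k - (G' n).f k'| ≤ B.d n ^ ε).card : ℝ) ≤
      (H.card : ℝ) / 2 := by
    intro k hk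
    have e1 := h1 i hi' k (hH hk)
    have e2 := h3 i hi
    have e3 : ((H.filter fun k' => |(G' n).f k - (G' n).f k'| ≤ B.d n ^ ε).card : ℝ) ≤
        ((H0.filter fun k' => |(G n).f k - (G n).f k'| ≤ B.d n ^ ε).card : ℝ) := by
      rw [hsub.f]
      exact_mod_cast card_le_card (filter_subset_filter _ hH)
    have hc0 : (0 : ℝ) ≤ H.card := Nat.cast_nonneg _
    have e4 : T n ^ 2 * ((H0.filter fun k' => |(G n).f k - (G n).f k'| ≤ B.d n ^ ε).card : ℝ) ≤
        T n ^ 2 * ((H.card : ℝ) / 2) := by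
      refine e1.trans (e2.trans ?_)
      have : 2 * S n * (H.card : ℝ) ≤ 2 * T n * (H.card : ℝ) := by nlinarith
      refine this.trans ?_
      nlinarith
    have e5 := le_of_mul_le_mul_left e4 (by positivity)
    exact e3.trans e5
  have e6 : (((H ×ˢ H).filter fun q => |(G' n).f q.1 - (G' n).f q.2| ≤ B.d n ^ ε).card : ℝ) =
      ∑ k ∈ H, ((H.filter fun k' => |(G' n).f k - (G' n).f k'| ≤ B.d n ^ ε).card : ℝ) := by
    rw [card_filter, sum_product]
    push_cast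
    refine sum_congr rfl fun k _ => ?_
    rw [card_filter]; push_cast; rfl
  rw [e6]
  have e7 := sum_le_sum key
  rw [sum_const, nsmul_eq_mul] at e7
  nlinarith

end Tw

end Crest.Agent.R138.TwMaj480
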