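import Crest.Agent.R138.Qf7_926
import Crest.Agent.R138.TwMaj_480
import Crest.Agent.R138.ExtP_926

/-!
# R138: raw twist of the configurations of one class (helper480)

* `ZD.le_card_hts`, `ZD.card_near_hts_le` : heights of one fat line, counted by the classes of 926's
  partitions;
* `exists_twGd` : strict drop of the profile in the slope direction at every blow-up scale gives a
  choice of the good incidences such that every class inside satisfies `TwRaw`.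
-/

set_option autoImplicit false
set_option linter.unusedSectionVars false
set_option linter.unusedVariables false

open Filter Topology MeasureTheory
open scoped NNReal

namespace Crest.Agent.R138.TwR480

open Crest.Agent.R138.Ex926 Crest.Agent.R138.FM501 Crest.Agent.R138.Tw628
open Crest.Agent.R138.TwMaj480 Crest.Agent.R138.Flg101
open Finset

section Finite

variable {α : Type*} [DecidableEq α] {D : ZD α}

/-- the fat line of `s` meets at least as many heights as it has fine sub-classes (up to 675) -/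
theorem le_card_hts (h : D.Ok) {s : α} (hs : s ∈ D.I) :
    ((Ex926.cls D.I (fun s => (D.x s).lab D.i₀ D.j₀ D.pr) s).image
      fun s => (D.x s).lab D.i₁ D.j₁ D.pr).card ≤ 675 * (D.cfg.hts (D.lcode (D.x s))).card := by
  classical
  set A := Ex926.cls D.I (fun s => (D.x s).lab D.i₀ D.j₀ D.pr) s with hA
  have s1 : (A.image fun s => (D.x s).lab D.i₁ D.j₁ D.pr).card ≤
      675 * (A.image fun s => D.zcode (D.x s)).card := by
    refine Flg101.card_image_le_mul fun s' hs' => ?_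
    rw [← prod_K4]
    refine card_lab_le _ D.x (D.x s') (fun s'' hs'' => ?_) (fun s'' hs'' j => ?_)
    · exact ZD.zcode_eq (mem_filter.1 hs'').2
    · have h1 := (mem_cls.1 (mem_filter.1 hs'').1).2
      have h2 := (mem_cls.1 hs').2
      exact co_fine_close h.hi h.hj h.wall (ZD.zcode_eq (mem_filter.1 hs'').2) (h1.trans h2.symm) j
  refine s1.trans (Nat.mul_le_mul_left _ (card_le_card ?_))
  intro c hc
  obtain ⟨s', hs', rfl⟩ := mem_image.1 hc
  obtain ⟨h1, h2⟩ := mem_cls.1 hs'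
  have hl : D.lcode (D.x s') = D.lcode (D.x s) := by unfold ZD.lcode; rw [h2]
  rw [Cfg.hts, mem_filter]
  exact ⟨mem_image_of_mem _ h1, ZD.mem_I.2 ⟨s', h1, hl, rfl⟩⟩

/-- heights of one fat line with slope close to the slope at one height -/
theorem card_near_hts_le (h : D.Ok) {Y : ℝ} {j : ℕ} (hj0 : D.j₀ ≤ j) (hj1 : j ≤ D.j₁)
    (hY : (1 / 2) ^ D.j₀ * Y ≤ (1 / 2) ^ j) {M : ℕ}
    (hM : ∀ s ∈ D.I, ((Ex926.cls D.I (fun s => (D.x s).lab D.i₀ j D.pr) s).image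
      fun s => (D.x s).lab D.i₁ D.j₁ D.pr).card ≤ M) {l k : ℕ} (hk : k ∈ D.cfg.hts l) :
    ((D.cfg.hts l).filter fun k' => |D.cfg.f k - D.cfg.f k'| ≤ Y).card ≤ M * (675 * 3) := by
  classical
  rw [Cfg.hts, mem_filter] at hk
  obtain ⟨s, hs, hsl, rfl⟩ := ZD.mem_I.1 hk.2
  set A := D.I.filter fun s' => D.lcode (D.x s') = l ∧
    |⌊(2:ℝ) ^ j * (D.x s').θ⌋ - ⌊(2:ℝ) ^ j * (D.x s).θ⌋| ≤ 1 with hA
  have hsub : ((D.cfg.hts l).filter fun k' => |D.cfg.f (D.zcode (D.x s)) - D.cfg.f k'| ≤ Y) ⊆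
      A.image fun s => D.zcode (D.x s) := by
    intro k' hk'
    rw [mem_filter, Cfg.hts, mem_filter] at hk'
    obtain ⟨⟨_, hk2⟩, hk3⟩ := hk'
    obtain ⟨s', hs', hsl', rfl⟩ := ZD.mem_I.1 hk2
    refine mem_image.2 ⟨s', ?_, rfl⟩
    rw [hA, mem_filter]
    refine ⟨hs', hsl', ?_⟩
    have e1 : D.cfg.f (D.zcode (D.x s)) - D.cfg.f (D.zcode (D.x s')) =
        ((D.x s).fQ D.j₁ - (D.x s').fQ D.j₁) * 2 ^ D.j₀ := by
      simp only [ZD.cfg]; rw [ZD.fc_eq hs, ZD.fc_eq hs']; ring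
    rw [e1, abs_mul, abs_of_pos (by positivity : (0:ℝ) < 2 ^ D.j₀)] at hk3
    have h1 : |(D.x s').fQ D.j₁ - (D.x s).fQ D.j₁| ≤ ((1:ℕ):ℝ) * (1 / 2) ^ j := by
      have h2 : |(D.x s').fQ D.j₁ - (D.x s).fQ D.j₁| =
          (1 / 2) ^ D.j₀ * (|(D.x s).fQ D.j₁ - (D.x s').fQ D.j₁| * 2 ^ D.j₀) := by
        have := ZD.half_mul_two_pow D.j₀
        calc |(D.x s').fQ D.j₁ - (D.x s).fQ D.j₁|
            = |(D.x s).fQ D.j₁ - (D.x s').fQ D.j₁| * ((1 / 2) ^ D.j₀ * 2 ^ D.j₀) := by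
              rw [this, mul_one, abs_sub_comm]
          _ = _ := by ring
      rw [h2]
      refine le_trans (mul_le_mul_of_nonneg_left hk3 (by positivity)) ?_
      simpa using hY
    have h3 := floor_of_dist h1
    have e2 : ∀ w : Inc, ⌊(2:ℝ) ^ j * w.fQ D.j₁⌋ = ⌊(2:ℝ) ^ j * w.θ⌋ := fun w =>
      ZD.floor_fl hj1 w.θ
    rw [e2, e2] at h3
    exact_mod_cast h3
  have s1 : (A.image fun s => (D.x s).cell D.i₀ j).card ≤ 3 := by
    have hsub2 : (A.image fun s => (D.x s).cell D.i₀ j) ⊆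
        (Finset.Icc (⌊(2:ℝ) ^ j * (D.x s).θ⌋ - 1) (⌊(2:ℝ) ^ j * (D.x s).θ⌋ + 1)).image fun m =>
          (⌊(2:ℝ) ^ D.i₀ * (D.x s).z⌋, m) := by
      intro c hc
      obtain ⟨s', hs', rfl⟩ := mem_image.1 hc
      obtain ⟨h1, -, h2⟩ := mem_filter.1 hs'
      rw [abs_le] at h2
      refine mem_image.2 ⟨⌊(2:ℝ) ^ j * (D.x s').θ⌋, ?_, ?_⟩
      · rw [Finset.mem_Icc]; constructor <;> linarith [h2.1, h2.2]
      · have e1 := ZD.cell0 h h1
        have e2 := ZD.cell0 h hs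
        unfold Inc.cell at e1 e2 ⊢
        rw [Prod.mk.injEq] at e1 e2
        rw [e1.1, e2.1]
    refine (card_le_card hsub2).trans (card_image_le.trans ?_)
    rw [Int.card_Icc]
    have : ⌊(2:ℝ) ^ j * (D.x s).θ⌋ + 1 + 1 - (⌊(2:ℝ) ^ j * (D.x s).θ⌋ - 1) = 3 := by ring
    rw [this]; rfl
  have s2 : (A.image fun s => (D.x s).lab D.i₀ j D.pr).card ≤
      675 * (A.image fun s => (D.x s).cell D.i₀ j).card := by
    refine Flg101.card_image_le_mul fun s' hs' => ?_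
    rw [← prod_K4]
    refine card_lab_le _ D.x (D.x s') (fun s'' hs'' => (mem_filter.1 hs'').2)
      (fun s'' hs'' k => ?_)
    have h1 := (mem_filter.1 (mem_filter.1 hs'').1).2.1
    have h2 := (mem_filter.1 hs').2.1
    exact co_fine_close le_rfl hj0 h.wall (mem_filter.1 hs'').2
      (ZD.lcode_eq (h1.trans h2.symm)) k
  have s3 : (A.image fun s => (D.x s).lab D.i₁ D.j₁ D.pr).card ≤
      M * (A.image fun s => (D.x s).lab D.i₀ j D.pr).card := by
    refine Flg101.card_image_le_mul fun s' hs' => ?_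
    refine le_trans (card_le_card (image_subset_image ?_)) (hM s' (mem_filter.1 hs').1)
    intro s'' h''
    obtain ⟨h1, h2⟩ := mem_filter.1 h''
    exact mem_cls.2 ⟨(mem_filter.1 h1).1, h2⟩
  have s4 : (A.image fun s => D.zcode (D.x s)).card ≤
      (A.image fun s => (D.x s).lab D.i₁ D.j₁ D.pr).card := by
    have : (A.image fun s => D.zcode (D.x s)) =
        ((A.image fun s => (D.x s).lab D.i₁ D.j₁ D.pr).image Prod.fst).image Encodable.encode := by
      rw [image_image, image_image]; rfl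
    rw [this]; exact card_image_le.trans card_image_le
  calc _ ≤ (A.image fun s => D.zcode (D.x s)).card := card_le_card hsub
    _ ≤ (A.image fun s => (D.x s).lab D.i₁ D.j₁ D.pr).card := s4
    _ ≤ M * (A.image fun s => (D.x s).lab D.i₀ j D.pr).card := s3
    _ ≤ M * (675 * (A.image fun s => (D.x s).cell D.i₀ j).card) := Nat.mul_le_mul_left _ s2
    _ ≤ M * (675 * 3) := Nat.mul_le_mul_left _ (Nat.mul_le_mul_left _ s1)

open Classical in
theorem tw_at (h : D.Ok) {Y A M X : ℝ} {j : ℕ} (hj0 : D.j₀ ≤ j) (hj1 : j ≤ D.j₁)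
    (hY : (1 / 2) ^ D.j₀ * Y ≤ (1 / 2) ^ j) (hX : 0 ≤ X)
    (hA : ∀ s ∈ D.I, A ≤ (((Ex926.cls D.I (fun s => (D.x s).lab D.i₀ D.j₀ D.pr) s).image
      fun s => (D.x s).lab D.i₁ D.j₁ D.pr).card : ℝ))
    (hM : ∀ s ∈ D.I, (((Ex926.cls D.I (fun s => (D.x s).lab D.i₀ j D.pr) s).image
      fun s => (D.x s).lab D.i₁ D.j₁ D.pr).card : ℝ) ≤ M)
    (hXM : X * (675 * (M * (675 * 3))) ≤ A) {l k : ℕ} (hl : l ∈ D.cfg.L)
    (hk : k ∈ D.cfg.hts l) :
    X * ((((D.cfg.hts l).filter fun k' => |D.cfg.f k - D.cfg.f k'| ≤ Y).card : ℕ) : ℝ) ≤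
      ((D.cfg.hts l).card : ℝ) := by
  obtain ⟨s, hs, -, rfl⟩ := ZD.lrep_spec hl
  have hM0 : 0 ≤ M := (Nat.cast_nonneg _).trans (hM s hs)
  have h1 := card_near_hts_le h hj0 hj1 hY (M := ⌊M⌋₊) (fun s hs => Nat.le_floor (hM s hs)) hk
  have h1' : ((((D.cfg.hts (D.lcode (D.x s))).filter
      fun k' => |D.cfg.f k - D.cfg.f k'| ≤ Y).card : ℕ) : ℝ) ≤ M * (675 * 3) := by
    have h2 : ((((D.cfg.hts (D.lcode (D.x s))).filter
      fun k' => |D.cfg.f k - D.cfg.f k'| ≤ Y).card : ℕ) : ℝ) ≤ ((⌊M⌋₊ * (675 * 3) : ℕ) : ℝ) :=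
      Nat.cast_le.2 h1
    push_cast at h2
    have h3 := Nat.floor_le hM0
    linarith
  have h4 := le_card_hts h hs
  have h4' : (((Ex926.cls D.I (fun s => (D.x s).lab D.i₀ D.j₀ D.pr) s).image
      fun s => (D.x s).lab D.i₁ D.j₁ D.pr).card : ℝ) ≤
      675 * ((D.cfg.hts (D.lcode (D.x s))).card : ℝ) := by exact_mod_cast h4
  have h5 := (hA s hs).trans h4'
  have h6 := mul_le_mul_of_nonneg_left h1' hX
  have h7 : X * (675 * (M * (675 * 3))) = 675 * (X * (M * (675 * 3))) := by ring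
  rw [h7] at hXM
  linarith

end Finite

section Asym

variable {ι : ℕ → Type*} [∀ n, DecidableEq (ι n)] {B : Base} {I : ∀ n, Finset (ι n)}
  {x : ∀ n, ι n → Inc} {ν : (Fin 6 → ℝ) → ℝ} {M : ℝ}

open Classical in
/-- the incidences of `H` whose `p`-class (inside `H`) has almost the maximal number of
`p'`-subclasses -/
noncomputable def full (B : Base) (H : ∀ n, Finset (ι n)) (x : ∀ n, ι n → Inc)
    (ν : (Fin 6 → ℝ) → ℝ) (p p' : Fin 6 → ℝ) (η : ℝ) (n : ℕ) : Finset (ι n) :=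
  (H n).filter fun i => B.d n ^ (-(ν p - ν p') + η) ≤
    (((Ex926.cls (H n) (flab B x n p) i).image (flab B x n p')).card : ℝ)

theorem ev_full (hν : QProf B I (flab B x) (LEG M) ν) {H : ∀ n, Finset (ι n)} {c : ℝ} (hc : 0 < c)
    (hH : ∀ᶠ n in (U : Filter ℕ), H n ⊆ I n ∧ c * ((I n).card : ℝ) ≤ (H n).card)
    {p p' : Fin 6 → ℝ} (hp : p ∈ LEG M) (hp' : p' ∈ LEG M) {η : ℝ} (hη : 0 < η) :
    ∀ᶠ n in (U : Filter ℕ), c / 2 * ((I n).card : ℝ) ≤ ((full B H x ν p p' η n).card : ℝ) := by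
  classical
  filter_upwards [hν.up (η / 4) (by positivity), hν.root (η / 4) (by positivity), hH,
    B.ev_rpow_small (η := η / 2) (c := c / 2) (by positivity) (by positivity)] with n h1 h2 h3 h4
  set s : ℝ := B.d n ^ (-ν p + 3 * (η / 4)) with hs
  have hpos : ∀ t : ℝ, 0 < B.d n ^ t := fun t => Real.rpow_pos_of_pos (B.pos n) t
  have hsplit := card_filter_add_card_filter_not (s := H n) (p := fun i =>
    B.d n ^ (-(ν p - ν p') + η) ≤
    (((Ex926.cls (H n) (flab B x n p) i).image (flab B x n p')).card : ℝ))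
  have hbad : (((H n).filter fun i => ¬ (B.d n ^ (-(ν p - ν p') + η) ≤
    (((Ex926.cls (H n) (flab B x n p) i).image (flab B x n p')).card : ℝ))).card : ℝ) ≤
      ((H n).filter fun i => ((Ex926.cls (H n) (flab B x n p) i).card : ℝ) < s).card := by
    refine Nat.cast_le.2 (card_le_card fun i hi => ?_)
    rw [mem_filter] at hi ⊢
    refine ⟨hi.1, ?_⟩
    have hlt := lt_of_not_ge hi.2
    have h5 := le_count_mul (Ex926.cls (H n) (flab B x n p) i) (fun _ => (1 : ℝ)) (flab B x n p')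
      (m := B.d n ^ (-(ν p' + η / 4))) (fun y hy => by
        rw [sum_const, nsmul_eq_mul, mul_one]
        have hy' := (mem_cls.1 hy).1
        refine le_trans ?_ (h1 p' hp' y (h3.1 hy'))
        refine Nat.cast_le.2 (card_le_card fun z hz => ?_)
        obtain ⟨z1, z2⟩ := mem_cls.1 hz
        exact mem_cls.2 ⟨h3.1 (mem_cls.1 z1).1, z2⟩)
    rw [sum_const, nsmul_eq_mul, mul_one] at h5
    refine lt_of_le_of_lt h5 ?_
    have h6 := mul_lt_mul_of_pos_left hlt (hpos (-(ν p' + η / 4)))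
    refine lt_of_lt_of_le h6 (le_of_eq ?_)
    rw [← rp, hs]; congr 1; ring
  have h7 := card_small_cls (H n) (flab B x n p) (hpos (-ν p + 3 * (η / 4))).le
  rw [← hs] at h7
  have h8 : (((H n).image (flab B x n p)).card : ℝ) ≤ ((I n).card : ℝ) * B.d n ^ (ν p - η / 4) :=
    le_trans (Nat.cast_le.2 (card_le_card (image_subset_image h3.1))) (h2 p hp)
  have h9 : s * (((H n).image (flab B x n p)).card : ℝ) ≤ c / 2 * ((I n).card : ℝ) := by
    have e1 : s * B.d n ^ (ν p - η / 4) = B.d n ^ (η / 2) := by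
      rw [hs, ← rp]; congr 1; ring
    calc s * (((H n).image (flab B x n p)).card : ℝ)
        ≤ s * (((I n).card : ℝ) * B.d n ^ (ν p - η / 4)) :=
          mul_le_mul_of_nonneg_left h8 (hpos _).le
      _ = ((I n).card : ℝ) * (s * B.d n ^ (ν p - η / 4)) := by ring
      _ = ((I n).card : ℝ) * B.d n ^ (η / 2) := by rw [e1]
      _ ≤ ((I n).card : ℝ) * (c / 2) := mul_le_mul_of_nonneg_left h4 (Nat.cast_nonneg _)
      _ = _ := by ring
  have hsplit' : ((full B H x ν p p' η n).card : ℝ) +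
      (((H n).filter fun i => ¬ (B.d n ^ (-(ν p - ν p') + η) ≤
        (((Ex926.cls (H n) (flab B x n p) i).image (flab B x n p')).card : ℝ))).card : ℝ) =
      ((H n).card : ℝ) := by exact_mod_cast hsplit
  have := h3.2
  linarith

/-- the classes of `full` are classes of `H` -/
theorem cls_full {H : ∀ n, Finset (ι n)} {p p' : Fin 6 → ℝ} {η : ℝ} {n : ℕ} {i : ι n}
    (hi : i ∈ full B H x ν p p' η n) :
    Ex926.cls (H n) (flab B x n p) i ⊆ full B H x ν p p' η n := by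
  classical
  intro y hy
  obtain ⟨h1, h2⟩ := mem_cls.1 hy
  unfold full at hi ⊢
  rw [mem_filter] at hi ⊢
  have e : Ex926.cls (H n) (flab B x n p) y = Ex926.cls (H n) (flab B x n p) i := by
    ext z; rw [mem_cls, mem_cls, h2]
  exact ⟨h1, by rw [e]; exact hi.2⟩

/-- the natural box is coarser than the fat line -/
theorem ev_nat4_le (B : Base) {v r t w Rp : ℝ} (hv : 0 ≤ v) (hr : 0 ≤ r) (ht : 0 ≤ t) (hw : 0 < w)
    (hRp : 0 < Rp) : ∀ᶠ n in (U : Filter ℕ), ∀ j,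
      nat4 (B.levc n v) (B.levc n r) (B.levc n t) j ≤ QL B n v r t w (fun _ => Rp) j := by
  have hl2 : 0 < Real.log 2 := Real.log_pos (by norm_num)
  have hwR := mul_pos hw hRp
  filter_upwards [B.ev_L_ge (4 * Real.log 2 / (w * Rp))] with n hn j
  have hL := B.L_pos n
  have h4 : 4 ≤ w * Rp * B.L n / Real.log 2 := by
    rw [le_div_iff₀ hl2]
    rw [div_le_iff₀ hwR] at hn
    linarith
  have cu : ∀ {s : ℝ}, 0 ≤ s → (B.levc n s : ℝ) < s * B.L n / Real.log 2 + 1 := fun {s} hs =>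
    Nat.ceil_lt_add_one (by positivity)
  have fl : ∀ s : ℝ, s * B.L n / Real.log 2 < (B.lev n s : ℝ) + 1 := fun s => Nat.lt_floor_add_one _
  have cl : ∀ s : ℝ, s * B.L n / Real.log 2 ≤ (B.levc n s : ℝ) := fun s => Nat.le_ceil _
  have ad : ∀ a b : ℝ, (a + b) * B.L n / Real.log 2 = a * B.L n / Real.log 2 + b * B.L n / Real.log 2 :=
    fun a b => by rw [add_mul, add_div]
  fin_cases j
  · show B.levc n t + B.levc n v + B.levc n r ≤ B.lev n (t + v + r + w * Rp)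
    have h1 := fl (t + v + r + w * Rp)
    rw [ad, ad, ad] at h1
    have : ((B.levc n t + B.levc n v + B.levc n r : ℕ) : ℝ) <
        ((B.lev n (t + v + r + w * Rp) + 1 : ℕ) : ℝ) := by
      push_cast; linarith [cu hv, cu hr, cu ht]
    have : B.levc n t + B.levc n v + B.levc n r < B.lev n (t + v + r + w * Rp) + 1 := by
      exact_mod_cast this
    omega
  · show B.levc n t + B.levc n r ≤ B.levc n (t + r + w * Rp)
    have h1 := cl (t + r + w * Rp)
    rw [ad, ad] at h1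
    have : ((B.levc n t + B.levc n r : ℕ) : ℝ) < ((B.levc n (t + r + w * Rp) + 1 : ℕ) : ℝ) := by
      push_cast; linarith [cu hr, cu ht]
    have : B.levc n t + B.levc n r < B.levc n (t + r + w * Rp) + 1 := by exact_mod_cast this
    omega
  · show B.levc n t ≤ B.levc n (t + w * Rp)
    exact B.levc_mono n (by linarith)
  · show B.levc n t + B.levc n v ≤ B.lev n (t + v + w * Rp)
    have h1 := fl (t + v + w * Rp)
    rw [ad, ad] at h1
    have : ((B.levc n t + B.levc n v : ℕ) : ℝ) < ((B.lev n (t + v + w * Rp) + 1 : ℕ) : ℝ) := by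
      push_cast; linarith [cu hv, cu ht]
    have : B.levc n t + B.levc n v < B.lev n (t + v + w * Rp) + 1 := by exact_mod_cast this
    omega

/-- sides of the slope cells -/
theorem ev_side (B : Base) {r w e : ℝ} (hr : 0 ≤ r) (hw : 0 < w) (he : 0 < e) :
    ∀ᶠ n in (U : Filter ℕ), ((1 : ℝ) / 2) ^ (B.levc n r) * (B.d n ^ w) ^ (2 * e) ≤
      (1 / 2) ^ (B.levc n (r + w * e)) := by
  filter_upwards [B.ev_rpow_small (η := w * e) (c := 1 / 2) (by positivity) (by norm_num)] with n hn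
  have h1 := half_pow_levc_le B n r
  have h2 := le_half_pow_levc B n (t := r + w * e) (by positivity)
  refine le_trans ?_ h2
  have e1 : (B.d n ^ w) ^ (2 * e) = B.d n ^ (w * e) * B.d n ^ (w * e) := by
    rw [← Real.rpow_mul (B.pos n).le, ← rp]; congr 1; ring
  have p1 := Real.rpow_pos_of_pos (B.pos n) r
  have p2 := Real.rpow_pos_of_pos (B.pos n) (w * e)
  rw [e1, rp]
  calc _ ≤ B.d n ^ r * (B.d n ^ (w * e) * (1 / 2)) := by gcongr
    _ = _ := by ring

theorem ev_poly (B : Base) {w η : ℝ} (hw : 0 < w) (hη : 0 < η) (l : ℕ) (K : ℝ) (hK : 0 < K) :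
    ∀ᶠ n in (U : Filter ℕ), (1 + w * B.L n) ^ l * K ≤ B.d n ^ (-η) := by
  have h1 : B.Sub (fun n => ((1 + w) * (1 + B.L n)) ^ l * K) :=
    (((Base.Sub.const (by positivity)).mul Base.Sub.one_add_L).pow l).mul (Base.Sub.const hK)
  filter_upwards [h1.ev_le hη] with n hn
  have hL := B.L_pos n
  have h2 : (1 + w * B.L n) ^ l * K ≤ ((1 + w) * (1 + B.L n)) ^ l * K := by
    refine mul_le_mul_of_nonneg_right ?_ hK.le
    refine pow_le_pow_left₀ (by positivity) ?_ _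
    nlinarith
  refine h2.trans ?_
  rw [← B.exp_eq, ← Real.log_le_iff_le_exp hn.1]
  exact hn.2

/-- **Choice of the good incidences.** If the profile drops strictly in the slope direction at every
blow-up scale, then for every slow speed `k'` and every dense `H ⊆ I` there is a dense `Gd ⊆ H` such that
every class inside `Gd` satisfies the raw twist. -/
theorem exists_twGd (hν : QProf B I (flab B x) (LEG M) ν) {V W T h : ℕ → ℝ}
    (hV : ∀ l, 0 ≤ V l) (hW : ∀ l, 0 ≤ W l) (hT : ∀ l, 0 ≤ T l) (hh : ∀ l, 0 < h l)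
    {Rp R4 R5 : ℝ} (hRp : 0 < Rp) (hR4 : 0 ≤ R4) (hR5 : 0 < R5)
    (hleg : ∀ᶠ l in (atTop : Filter ℕ),
      X6 (V l) (W l) (T l) + h l • dir (fun _ => Rp) R4 R5 ∈ LEG M ∧
      ∀ e, 0 ≤ e → e ≤ R5 → X6 (V l) (W l) (T l) + h l • dir (fun _ => Rp) 0 e ∈ LEG M)
    (hdrop : ∀ᶠ l in (atTop : Filter ℕ), ∀ e, 0 < e → e ≤ R5 →
      ν (X6 (V l) (W l) (T l) + h l • dir (fun _ => Rp) 0 e) <
        ν (X6 (V l) (W l) (T l) + h l • dir (fun _ => Rp) 0 0))
    {H : ∀ n, Finset (ι n)} {c : ℝ} (hc : 0 < c)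
    (hH : ∀ᶠ n in (U : Filter ℕ), H n ⊆ I n ∧ (H n).Nonempty ∧
      c * ((I n).card : ℝ) ≤ (H n).card) :
    ∃ k : ℕ → ℕ, Tendsto k U atTop ∧ ∀ k' : ℕ → ℕ, Tendsto k' U atTop →
      (∀ᶠ n in (U : Filter ℕ), k' n ≤ k n) → ∃ Gd : ∀ n, Finset (ι n),
        (∀ᶠ n in (U : Filter ℕ), Gd n ⊆ H n ∧ (Gd n).Nonempty ∧
          c / 2 * ((I n).card : ℝ) ≤ (Gd n).card) ∧
        ∀ (B' : Base), (∀ n, B'.d n = B.d n ^ h (k' n)) →
        ∀ (s₀ : ∀ n, ι n) (Tc : ℕ → ℝ) (lam : (Fin 6 → ℝ) → ℝ),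
        ClsSeq B B' I x (fun n => V (k' n)) (fun n => W (k' n)) (fun n => T (k' n))
          (fun n => h (k' n)) Tc lam (fun n => cls (Gd n) (natlab B x (fun n => V (k' n))
            (fun n => W (k' n)) (fun n => T (k' n)) n) (s₀ n)) s₀ →
        TwRaw B' (clsCfg B B' x (fun n => V (k' n)) (fun n => W (k' n)) (fun n => T (k' n))
          (fun n => h (k' n)) (fun n => cls (Gd n) (natlab B x (fun n => V (k' n))
            (fun n => W (k' n)) (fun n => T (k' n)) n) (s₀ n)) s₀ Rp R4 R5) := by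
  classical
  set e : ℕ → ℝ := fun l => R5 / ((l : ℝ) + 1) with he
  have he0 : ∀ l, 0 < e l := fun l => div_pos hR5 (by positivity)
  have heR : ∀ l, e l ≤ R5 := fun l => div_le_self hR5.le (by
    have : (0 : ℝ) ≤ l := Nat.cast_nonneg l
    linarith)
  set p0 : ℕ → (Fin 6 → ℝ) := fun l => X6 (V l) (W l) (T l) + h l • dir (fun _ => Rp) 0 0 with hp0
  set pe : ℕ → (Fin 6 → ℝ) := fun l => X6 (V l) (W l) (T l) + h l • dir (fun _ => Rp) 0 (e l) with hpe
  set p1 : ℕ → (Fin 6 → ℝ) := fun l => X6 (V l) (W l) (T l) + h l • dir (fun _ => Rp) R4 R5 with hp1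
  set η : ℕ → ℝ := fun l => (ν (p0 l) - ν (pe l)) / 4 with hη
  obtain ⟨k, hk, hk2⟩ := exists_diag (fun l n =>
    (((p1 l ∈ LEG M) ∧ ∀ e, 0 ≤ e → e ≤ R5 →
        X6 (V l) (W l) (T l) + h l • dir (fun _ => Rp) 0 e ∈ LEG M) ∧
      (∀ e, 0 < e → e ≤ R5 → ν (X6 (V l) (W l) (T l) + h l • dir (fun _ => Rp) 0 e) < ν (p0 l))) →
    (c / 2 * ((I n).card : ℝ) ≤ ((full B H x ν (p0 l) (p1 l) (η l) n).card : ℝ)) ∧
    (∀ i ∈ I n, (((Ex926.cls (I n) (flab B x n (pe l)) i).image (flab B x n (p1 l))).card : ℝ) ≤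
      B.d n ^ (-(ν (pe l) - ν (p1 l) + η l))) ∧
    (((1 : ℝ) / 2) ^ (B.levc n (W l)) * (B.d n ^ h l) ^ (2 * e l) ≤
      (1 / 2) ^ (B.levc n (W l + h l * e l))) ∧
    (∀ j, nat4 (B.levc n (V l)) (B.levc n (W l)) (B.levc n (T l)) j ≤
      QL B n (V l) (W l) (T l) (h l) (fun _ => Rp) j) ∧
    ((1 + h l * B.L n) ^ l * (675 * (675 * 3)) ≤ B.d n ^ (-(2 * η l)))) (by
    intro l
    by_cases hl : (((p1 l ∈ LEG M) ∧ ∀ e, 0 ≤ e → e ≤ R5 →
        X6 (V l) (W l) (T l) + h l • dir (fun _ => Rp) 0 e ∈ LEG M) ∧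
      (∀ e, 0 < e → e ≤ R5 → ν (X6 (V l) (W l) (T l) + h l • dir (fun _ => Rp) 0 e) < ν (p0 l)))
    · have hηl : 0 < η l := by
        have := hl.2 (e l) (he0 l) (heR l)
        simp only [hη, hpe]
        linarith
      have hle : pe l ≤ p1 l := by
        intro i
        have h1 := dir_mono (p := fun _ => Rp) (p' := fun _ => Rp) (fun _ => le_rfl) hR4 (heR l) i
        have h2 := mul_le_mul_of_nonneg_left h1 (hh l).le
        show X6 (V l) (W l) (T l) i + h l * dir (fun _ => Rp) 0 (e l) i ≤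
          X6 (V l) (W l) (T l) i + h l * dir (fun _ => Rp) R4 R5 i
        linarith
      filter_upwards [ev_full hν hc (hH.mono fun n hn => ⟨hn.1, hn.2.2⟩)
          (hl.1.2 0 le_rfl hR5.le) hl.1.1 hηl, hν.num (η l) hηl,
        ev_side B (hW l) (hh l) (he0 l), ev_nat4_le B (hV l) (hW l) (hT l) (hh l) hRp,
        ev_poly B (hh l) (show 0 < 2 * η l by linarith) l (675 * (675 * 3)) (by norm_num)] with
        n a1 a2 a3 a4 a5 _
      exact ⟨a1, fun i hi => a2 (pe l) (hl.1.2 _ (he0 l).le (heR l)) (p1 l) hl.1.1 hle i hi, a3, a4,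
        a5⟩
    · exact Eventually.of_forall fun n hn => absurd hn hl)
  refine ⟨k, hk, fun k' hk' hle => ?_⟩
  have hev : ∀ᶠ n in (U : Filter ℕ),
    (c / 2 * ((I n).card : ℝ) ≤
      ((full B H x ν (p0 (k' n)) (p1 (k' n)) (η (k' n)) n).card : ℝ)) ∧
    (∀ i ∈ I n, (((Ex926.cls (I n) (flab B x n (pe (k' n))) i).image
      (flab B x n (p1 (k' n)))).card : ℝ) ≤
      B.d n ^ (-(ν (pe (k' n)) - ν (p1 (k' n)) + η (k' n)))) ∧
    (((1 : ℝ) / 2) ^ (B.levc n (W (k' n))) * (B.d n ^ h (k' n)) ^ (2 * e (k' n)) ≤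
      (1 / 2) ^ (B.levc n (W (k' n) + h (k' n) * e (k' n)))) ∧
    (∀ j, nat4 (B.levc n (V (k' n))) (B.levc n (W (k' n))) (B.levc n (T (k' n))) j ≤
      QL B n (V (k' n)) (W (k' n)) (T (k' n)) (h (k' n)) (fun _ => Rp) j) ∧
    ((1 + h (k' n) * B.L n) ^ (k' n) * (675 * (675 * 3)) ≤ B.d n ^ (-(2 * η (k' n)))) := by
    filter_upwards [hk2, hle, hk'.eventually hleg, hk'.eventually hdrop] with n h1 h2 h3 h4
    exact h1 _ h2 ⟨h3, h4⟩
  refine ⟨fun n => full B H x ν (p0 (k' n)) (p1 (k' n)) (η (k' n)) n, ?_, ?_⟩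
  · filter_upwards [hev, hH] with n h1 h2
    refine ⟨filter_subset _ _, ?_, h1.1⟩
    have h3 : (0 : ℝ) < (I n).card := by
      exact_mod_cast (card_pos.2 h2.2.1).trans_le (card_le_card h2.1)
    have h4 : (0 : ℝ) < ((full B H x ν (p0 (k' n)) (p1 (k' n)) (η (k' n)) n).card : ℝ) :=
      lt_of_lt_of_le (by positivity) h1.1
    exact card_pos.1 (by exact_mod_cast h4)
  · intro B' hB' s₀ Tc lam hC ε hε m
    have hBL : ∀ n, B'.L n = h (k' n) * B.L n := by
      intro n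
      have h1 : Real.log (B'.d n) = Real.log (B.d n ^ h (k' n)) := by rw [hB' n]
      rw [Real.log_rpow (B.pos n), B.log_d, B'.log_d] at h1
      linarith
    have hke : ∀ᶠ n in (U : Filter ℕ), 2 * e (k' n) ≤ ε := by
      obtain ⟨N, hN⟩ := exists_nat_gt (2 * R5 / ε)
      filter_upwards [hk'.eventually_ge_atTop N] with n hn
      have h2 : (N : ℝ) ≤ k' n := by exact_mod_cast hn
      rw [div_lt_iff₀ hε] at hN
      simp only [he]
      rw [← mul_div_assoc, div_le_iff₀ (by positivity)]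
      nlinarith
    filter_upwards [hev, hke, hC.cfg_eq hRp.le hR4 hR5.le (Rp := Rp) (R4 := R4) (R5 := R5),
      hC.ok hRp.le hR4 hR5.le (Rp := Rp) (R4 := R4) (R5 := R5), hk'.eventually_ge_atTop m, hH,
      hC.cls] with n h1 h2 h3 h4 h5 h6 h7 i hi kk hkk
    rw [h3] at hi hkk ⊢
    obtain ⟨b1, b2, b3, b4, b5⟩ := h1
    set D := zdat B B' x (fun n => V (k' n)) (fun n => W (k' n)) (fun n => T (k' n))
          (fun n => h (k' n)) (fun n => cls (full B H x ν (p0 (k' n)) (p1 (k' n)) (η (k' n)) n)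
            (natlab B x (fun n => V (k' n))
            (fun n => W (k' n)) (fun n => T (k' n)) n) (s₀ n)) s₀ Rp R4 R5 n with hD
    set l := k' n with hl
    have hL' := B'.L_pos n
    have hpos : ∀ t : ℝ, 0 < B.d n ^ t := fun t => Real.rpow_pos_of_pos (B.pos n) t
    have hsubC : ∀ s ∈ D.I, s ∈ full B H x ν (p0 l) (p1 l) (η l) n := fun s hs => (mem_cls.1 hs).1
    have hf0 : flab B x n (p0 l) = fun s => (D.x s).lab D.i₀ D.j₀ D.pr := by
      rw [hp0]; simp only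
      rw [flab_dir, mul_zero, add_zero, add_zero]; rfl
    have hf1 : flab B x n (p1 l) = fun s => (D.x s).lab D.i₁ D.j₁ D.pr := rfl
    have hfe : flab B x n (pe l) =
        fun s => (D.x s).lab D.i₀ (B.levc n (W l + h l * e l)) D.pr := by
      rw [hpe]; simp only
      rw [flab_dir, mul_zero, add_zero]; rfl
    have hA : ∀ s ∈ D.I, B.d n ^ (-(ν (p0 l) - ν (p1 l)) + η l) ≤
        (((Ex926.cls D.I (fun s => (D.x s).lab D.i₀ D.j₀ D.pr) s).image
          fun s => (D.x s).lab D.i₁ D.j₁ D.pr).card : ℝ) := by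
      intro s hs
      have c1 := hsubC s hs
      have c2 := cls_full c1
      have c3 := (mem_filter.1 c1).2
      refine c3.trans (Nat.cast_le.2 (card_le_card ?_))
      rw [hf1]
      refine image_subset_image fun y hy => ?_
      have hy' := mem_cls.1 hy
      have hy2 : flab B x n (p0 l) y = flab B x n (p0 l) s := hy'.2
      rw [hf0] at hy2
      refine mem_cls.2 ⟨mem_cls.2 ⟨c2 hy, ?_⟩, hy2⟩
      exact (lab_nested b4 hy2).trans (mem_cls.1 hs).2
    have hM : ∀ s ∈ D.I, (((Ex926.cls D.I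
        (fun s => (D.x s).lab D.i₀ (B.levc n (W l + h l * e l)) D.pr) s).image
          fun s => (D.x s).lab D.i₁ D.j₁ D.pr).card : ℝ) ≤
        B.d n ^ (-(ν (pe l) - ν (p1 l) + η l)) := by
      intro s hs
      have c1 : ∀ y ∈ D.I, y ∈ I n := fun y hy => h6.1 (filter_subset _ _ (hsubC y hy))
      refine le_trans ?_ (b2 s (c1 s hs))
      rw [hfe, hf1]
      refine Nat.cast_le.2 (card_le_card (image_subset_image fun y hy => ?_))
      obtain ⟨y1, y2⟩ := mem_cls.1 hy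
      exact mem_cls.2 ⟨c1 y y1, y2⟩
    have hY : ((1 : ℝ) / 2) ^ D.j₀ * (B'.d n) ^ (2 * e l) ≤
        (1 / 2) ^ (B.levc n (W l + h l * e l)) := by rw [hB' n]; exact b3
    have hXM : (1 + B'.L n) ^ m * (675 * (B.d n ^ (-(ν (pe l) - ν (p1 l) + η l)) * (675 * 3))) ≤
        B.d n ^ (-(ν (p0 l) - ν (p1 l)) + η l) := by
      have c1 : (1 + B'.L n) ^ m ≤ (1 + h l * B.L n) ^ l := by
        rw [hBL n]
        exact pow_le_pow_right₀ (by rw [← hBL n]; linarith) h5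
      have c2 : B.d n ^ (-(ν (p0 l) - ν (p1 l)) + η l) =
          B.d n ^ (-(ν (pe l) - ν (p1 l) + η l)) * B.d n ^ (-(2 * η l)) := by
        rw [← rp]; congr 1
        simp only [hη]; ring
      rw [c2]
      calc (1 + B'.L n) ^ m * (675 * (B.d n ^ (-(ν (pe l) - ν (p1 l) + η l)) * (675 * 3)))
          = B.d n ^ (-(ν (pe l) - ν (p1 l) + η l)) * ((1 + B'.L n) ^ m * (675 * (675 * 3))) := by ring
        _ ≤ B.d n ^ (-(ν (pe l) - ν (p1 l) + η l)) *
            ((1 + h l * B.L n) ^ l * (675 * (675 * 3))) := by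
            refine mul_le_mul_of_nonneg_left ?_ (hpos _).le
            exact mul_le_mul_of_nonneg_right c1 (by norm_num)
        _ ≤ _ := mul_le_mul_of_nonneg_left b5 (hpos _).le
    have hj0 : D.j₀ ≤ B.levc n (W l + h l * e l) := B.levc_mono n (by
      show W l ≤ W l + h l * e l
      nlinarith [mul_pos (hh l) (he0 l)])
    have hj1 : B.levc n (W l + h l * e l) ≤ D.j₁ := B.levc_mono n (by
      show W l + h l * e l ≤ W l + h l * R5
      nlinarith [mul_le_mul_of_nonneg_left (heR l) (hh l).le])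
    have key := tw_at h4 hj0 hj1 hY (X := (1 + B'.L n) ^ m) (by positivity) hA hM hXM hi hkk
    refine le_trans (mul_le_mul_of_nonneg_left ?_ (by positivity)) key
    refine Nat.cast_le.2 (card_le_card fun y hy => ?_)
    rw [mem_filter] at hy ⊢
    refine ⟨hy.1, hy.2.trans ?_⟩
    exact Real.rpow_le_rpow_of_exponent_ge (B'.pos n) (B'.lt n).le h2

/-- legality along a tangent sequence, in the form needed by `exists_twGd` -/
theorem leg_of_tan {lam : (Fin 6 → ℝ) → ℝ} {X : ℕ → (Fin 6 → ℝ)} {h : ℕ → ℝ}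
    (ht : IsTan (LEG M) D6 ν X h lam) {Rp R4 R5 : ℝ} (hRp : 0 ≤ Rp) (hR4 : 0 ≤ R4) (hR5 : 0 ≤ R5) :
    ∀ᶠ l in (atTop : Filter ℕ), X l + h l • dir (fun _ => Rp) R4 R5 ∈ LEG M ∧
      ∀ e, 0 ≤ e → e ≤ R5 → X l + h l • dir (fun _ => Rp) 0 e ∈ LEG M := by
  filter_upwards [ht (max Rp (max R4 R5)) 1 one_pos] with l hl
  have h1 : Rp ≤ max Rp (max R4 R5) := le_max_left _ _
  have h2 : R4 ≤ max Rp (max R4 R5) := (le_max_left _ _).trans (le_max_right _ _)
  have h3 : R5 ≤ max Rp (max R4 R5) := (le_max_right _ _).trans (le_max_right _ _)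
  refine ⟨(hl _ (dir_const_mem_D6 hRp hR4 hR5) (norm_dir_le (fun _ => ?_) ?_ ?_)).1,
    fun e he0 he => (hl _ (dir_const_mem_D6 hRp le_rfl he0) (norm_dir_le (fun _ => ?_) ?_ ?_)).1⟩
  · rw [abs_of_nonneg hRp]; exact h1
  · rw [abs_of_nonneg hR4]; exact h2
  · rw [abs_of_nonneg hR5]; exact h3
  · rw [abs_of_nonneg hRp]; exact h1
  · rw [abs_zero]; exact hRp.trans h1
  · rw [abs_of_nonneg he0]; exact he.trans h3

end Asym

/-- the strict drop of the profile at a natural point, from the own profile of single lines -/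
theorem drop_of_own {B : Base} {ι : ℕ → Type} [∀ n, DecidableEq (ι n)] {I : ∀ n, Finset (ι n)}
    {x : ∀ n, ι n → Inc} {line : ∀ n, ι n → ℕ} {ν : (Fin 6 → ℝ) → ℝ} {own : (Fin 2 → ℝ) → ℝ}
    {M : ℝ} (hne : ∀ᶠ n in (U : Filter ℕ), (I n).Nonempty)
    (hline : ∀ n, ∀ i ∈ I n, ∀ j ∈ I n, line n i = line n j →
      (x n i).a = (x n j).a ∧ (x n i).b = (x n j).b ∧ (x n i).c = (x n j).c ∧
        (x n i).d = (x n j).d)
    (hν : QProf B I (flab B x) (LEG M) ν)
    (ho : QProf B I (olab B x line) (Set.Icc 0 (fun _ => M)) own) {v r t : ℝ}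
    (hrot : own ![v, r] = own ![v, 0])
    (htw : ∀ r', r < r' → r' ≤ M → own ![v, r'] < own ![v, 0]) {h Rp e : ℝ} (hh : 0 < h)
    (he : 0 < e) (hp : X6 v r t + h • dir (fun _ => Rp) 0 0 ∈ LEG M)
    (hp' : X6 v r t + h • dir (fun _ => Rp) 0 e ∈ LEG M) :
    ν (X6 v r t + h • dir (fun _ => Rp) 0 e) < ν (X6 v r t + h • dir (fun _ => Rp) 0 0) := by
  have hle : X6 v r t + h • dir (fun _ => Rp) 0 0 ≤ X6 v r t + h • dir (fun _ => Rp) 0 e := by
    intro i
    have h1 := dir_mono (p := fun _ => Rp) (p' := fun _ => Rp) (fun _ => le_rfl)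
      (le_refl (0 : ℝ)) he.le i
    have h2 := mul_le_mul_of_nonneg_left h1 hh.le
    show X6 v r t i + h * dir (fun _ => Rp) 0 0 i ≤ X6 v r t i + h * dir (fun _ => Rp) 0 e i
    linarith
  have h1 := olab_le_flab hne hline hν ho hp hp' hle
  have e4 : (X6 v r t + h • dir (fun _ => Rp) 0 0) 4 = v := by
    show v + h * 0 = v; ring
  have e5 : (X6 v r t + h • dir (fun _ => Rp) 0 0) 5 = r := by
    show r + h * 0 = r; ring
  have e4' : (X6 v r t + h • dir (fun _ => Rp) 0 e) 4 = v := by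
    show v + h * 0 = v; ring
  have e5' : (X6 v r t + h • dir (fun _ => Rp) 0 e) 5 = r + h * e := rfl
  have hM := ((mem_LEG.1 hp').1 5).2
  rw [e4, e5, e4', e5'] at h1
  rw [e5'] at hM
  have h3 := htw (r + h * e) (by linarith [mul_pos hh he]) hM
  linarith

/-- `exists_twGd` at one fixed natural point `(v, r, t)`, from the own profile of single lines:
rotation exactly `d ^ r` at distance `d ^ v`. -/
theorem exists_twGd_own {B : Base} {ι : ℕ → Type} [∀ n, DecidableEq (ι n)] {I : ∀ n, Finset (ι n)}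
    {x : ∀ n, ι n → Inc} {line : ∀ n, ι n → ℕ} {ν : (Fin 6 → ℝ) → ℝ} {own : (Fin 2 → ℝ) → ℝ}
    {M : ℝ} (hne : ∀ᶠ n in (U : Filter ℕ), (I n).Nonempty)
    (hline : ∀ n, ∀ i ∈ I n, ∀ j ∈ I n, line n i = line n j →
      (x n i).a = (x n j).a ∧ (x n i).b = (x n j).b ∧ (x n i).c = (x n j).c ∧
        (x n i).d = (x n j).d)
    (hν : QProf B I (flab B x) (LEG M) ν)
    (ho : QProf B I (olab B x line) (Set.Icc 0 (fun _ => M)) own) {v r t : ℝ} (hv0 : 0 ≤ v)
    (hr0 : 0 ≤ r) (ht0 : 0 ≤ t) (hrot : own ![v, r] = own ![v, 0])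
    (htw : ∀ r', r < r' → r' ≤ M → own ![v, r'] < own ![v, 0])
    {h : ℕ → ℝ} (hh : ∀ l, 0 < h l) {lam : (Fin 6 → ℝ) → ℝ}
    (ht : IsTan (LEG M) D6 ν (fun _ => X6 v r t) h lam) {Rp R4 R5 : ℝ} (hRp : 0 < Rp)
    (hR4 : 0 ≤ R4) (hR5 : 0 < R5) {H : ∀ n, Finset (ι n)} {c : ℝ} (hc : 0 < c)
    (hH : ∀ᶠ n in (U : Filter ℕ), H n ⊆ I n ∧ (H n).Nonempty ∧
      c * ((I n).card : ℝ) ≤ (H n).card) :
    ∃ κ : ℕ → ℕ, Tendsto κ U atTop ∧ ∀ k' : ℕ → ℕ, Tendsto k' U atTop →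
      (∀ᶠ n in (U : Filter ℕ), k' n ≤ κ n) → ∃ Gd : ∀ n, Finset (ι n),
        (∀ᶠ n in (U : Filter ℕ), Gd n ⊆ H n ∧ (Gd n).Nonempty ∧
          c / 2 * ((I n).card : ℝ) ≤ (Gd n).card) ∧
        ∀ (B' : Base), (∀ n, B'.d n = B.d n ^ h (k' n)) →
        ∀ (s₀ : ∀ n, ι n) (Tc : ℕ → ℝ) (lam' : (Fin 6 → ℝ) → ℝ),
        ClsSeq B B' I x (fun _ => v) (fun _ => r) (fun _ => t)
          (fun n => h (k' n)) Tc lam' (fun n => cls (Gd n) (natlab B x (fun _ => v)
            (fun _ => r) (fun _ => t) n) (s₀ n)) s₀ →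
        TwRaw B' (clsCfg B B' x (fun _ => v) (fun _ => r) (fun _ => t)
          (fun n => h (k' n)) (fun n => cls (Gd n) (natlab B x (fun _ => v)
            (fun _ => r) (fun _ => t) n) (s₀ n)) s₀ Rp R4 R5) := by
  have hleg := leg_of_tan ht hRp.le hR4 hR5.le
  have hdrop : ∀ᶠ l in (atTop : Filter ℕ), ∀ e, 0 < e → e ≤ R5 →
      ν (X6 v r t + h l • dir (fun _ => Rp) 0 e) <
        ν (X6 v r t + h l • dir (fun _ => Rp) 0 0) := by
    filter_upwards [hleg] with l hl e he0 he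
    exact drop_of_own hne hline hν ho hrot htw (hh l) he0 (hl.2 0 le_rfl hR5.le) (hl.2 e he0.le he)
  exact exists_twGd hν (V := fun _ => v) (W := fun _ => r) (T := fun _ => t) (h := h)
    (fun _ => hv0) (fun _ => hr0) (fun _ => ht0) hh hRp hR4 hR5 hleg hdrop hc hH

/-- the strict drop of the profile at a natural point of level `v < 1`, from `ExtP` -/
theorem drop_of_ext {B : Base} {ι : ℕ → Type} [∀ n, DecidableEq (ι n)] {I : ∀ n, Finset (ι n)}
    {x : ∀ n, ι n → Inc} {line : ∀ n, ι n → ℕ} {ν : (Fin 6 → ℝ) → ℝ} {own : (Fin 2 → ℝ) → ℝ}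
    {M s b q k θ c₀ : ℝ} (hE : ExtP B I x line ν own M s b q k θ c₀) {v t : ℝ} (hv0 : 0 ≤ v)
    (hv1 : v < 1) {h Rp e : ℝ} (hh : 0 < h) (hRp : 0 ≤ Rp) (he : 0 < e)
    (hp : X6 v (k * v) t + h • dir (fun _ => Rp) 0 0 ∈ LEG M)
    (hp' : X6 v (k * v) t + h • dir (fun _ => Rp) 0 e ∈ LEG M) :
    ν (X6 v (k * v) t + h • dir (fun _ => Rp) 0 e) <
      ν (X6 v (k * v) t + h • dir (fun _ => Rp) 0 0) := by
  have hle : X6 v (k * v) t + h • dir (fun _ => Rp) 0 0 ≤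
      X6 v (k * v) t + h • dir (fun _ => Rp) 0 e := by
    intro i
    have h1 := dir_mono (p := fun _ => Rp) (p' := fun _ => Rp) (fun _ => le_rfl)
      (le_refl (0 : ℝ)) he.le i
    have h2 := mul_le_mul_of_nonneg_left h1 hh.le
    show X6 v (k * v) t i + h * dir (fun _ => Rp) 0 0 i ≤
      X6 v (k * v) t i + h * dir (fun _ => Rp) 0 e i
    linarith
  have h1 := olab_le_flab hE.ne hE.line_eq hE.prof hE.oprof hp hp' hle
  have e4 : (X6 v (k * v) t + h • dir (fun _ => Rp) 0 0) 4 = v := by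
    show v + h * 0 = v; ring
  have e5 : (X6 v (k * v) t + h • dir (fun _ => Rp) 0 0) 5 = k * v := by
    show k * v + h * 0 = k * v; ring
  have e4' : (X6 v (k * v) t + h • dir (fun _ => Rp) 0 e) 4 = v := by
    show v + h * 0 = v; ring
  have e5' : (X6 v (k * v) t + h • dir (fun _ => Rp) 0 e) 5 = k * v + h * e := rfl
  have hM := ((mem_LEG.1 hp').1 5).2
  rw [e4, e5, e4', e5'] at h1
  rw [e5'] at hM
  have h2 := hE.own_rot v (k * v) hv0 hv1.le (mul_nonneg hE.k0.le hv0) le_rfl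
  have h3 := hE.own_tw v (k * v + h * e) hv0 hv1 (by linarith [mul_pos hh he]) hM
  linarith

/-- `exists_twGd` at one fixed natural point `(v, k v, t)`, `v < 1`, of `ExtP` data. -/
theorem exists_twGd_ext {B : Base} {ι : ℕ → Type} [∀ n, DecidableEq (ι n)] {I : ∀ n, Finset (ι n)}
    {x : ∀ n, ι n → Inc} {line : ∀ n, ι n → ℕ} {ν : (Fin 6 → ℝ) → ℝ} {own : (Fin 2 → ℝ) → ℝ}
    {M s b q k θ c₀ : ℝ} (hE : ExtP B I x line ν own M s b q k θ c₀) {v t : ℝ} (hv0 : 0 ≤ v)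
    (hv1 : v < 1) (ht0 : 0 ≤ t) {h : ℕ → ℝ} (hh : ∀ l, 0 < h l) {lam : (Fin 6 → ℝ) → ℝ}
    (ht : IsTan (LEG M) D6 ν (fun _ => X6 v (k * v) t) h lam) {Rp R4 R5 : ℝ} (hRp : 0 < Rp)
    (hR4 : 0 ≤ R4) (hR5 : 0 < R5) :
    ∃ κ : ℕ → ℕ, Tendsto κ U atTop ∧ ∀ k' : ℕ → ℕ, Tendsto k' U atTop →
      (∀ᶠ n in (U : Filter ℕ), k' n ≤ κ n) → ∃ Gd : ∀ n, Finset (ι n),
        (∀ᶠ n in (U : Filter ℕ), Gd n ⊆ I n ∧ (Gd n).Nonempty ∧
          1 / 2 * ((I n).card : ℝ) ≤ (Gd n).card) ∧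
        ∀ (B' : Base), (∀ n, B'.d n = B.d n ^ h (k' n)) →
        ∀ (s₀ : ∀ n, ι n) (Tc : ℕ → ℝ) (lam' : (Fin 6 → ℝ) → ℝ),
        ClsSeq B B' I x (fun _ => v) (fun _ => k * v) (fun _ => t)
          (fun n => h (k' n)) Tc lam' (fun n => cls (Gd n) (natlab B x (fun _ => v)
            (fun _ => k * v) (fun _ => t) n) (s₀ n)) s₀ →
        TwRaw B' (clsCfg B B' x (fun _ => v) (fun _ => k * v) (fun _ => t)
          (fun n => h (k' n)) (fun n => cls (Gd n) (natlab B x (fun _ => v)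
            (fun _ => k * v) (fun _ => t) n) (s₀ n)) s₀ Rp R4 R5) := by
  have hleg := leg_of_tan ht hRp.le hR4 hR5.le
  have hdrop : ∀ᶠ l in (atTop : Filter ℕ), ∀ e, 0 < e → e ≤ R5 →
      ν (X6 v (k * v) t + h l • dir (fun _ => Rp) 0 e) <
        ν (X6 v (k * v) t + h l • dir (fun _ => Rp) 0 0) := by
    filter_upwards [hleg] with l hl e he0 he
    exact drop_of_ext hE hv0 hv1 (hh l) hRp.le he0 (hl.2 0 le_rfl hR5.le) (hl.2 e he0.le he)
  have := exists_twGd hE.prof (V := fun _ => v) (W := fun _ => k * v) (T := fun _ => t) (h := h)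
    (fun _ => hv0) (fun _ => mul_nonneg hE.k0.le hv0) (fun _ => ht0) hh hRp hR4 hR5 hleg hdrop
    (H := I) (c := 1) one_pos (hE.ne.mono fun n hn => ⟨Subset.refl _, hn, by rw [one_mul]⟩)
  exact this

end Crest.Agent.R138.TwR480

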