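import Crest.Agent.R138.AeT3_501
import Crest.Agent.R138.TwR_480

/-!
# R138: the frame-free part `ExtB` of the interface EXT; F-models of tangents (helper501)

`ExtB` = local fields only (no `s`, `b`, `q`, `θ`, no D-max, no record), levels `u₀ < v < u₁`, own
profile `own ![v, 0] = w v` with any antitone `1`-Lipschitz `w`.
-/

set_option autoImplicit false
set_option linter.unusedVariables false
set_option linter.unusedSectionVars false

open Filter Topology Finset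

namespace Crest.Agent.R138.AeT501

open Crest.Agent.R138.Ex926 Crest.Agent.R138.FM501 Crest.Agent.R138.Flg101
open Crest.Agent.R138.TwMaj480 Crest.Agent.R138.Tw628

/-- **frame-free interface** -/
structure ExtB (B : Base) {ι : ℕ → Type} [∀ n, DecidableEq (ι n)] (I : ∀ n, Finset (ι n))
    (x : ∀ n, ι n → Inc) (line : ∀ n, ι n → ℕ) (ν : (Fin 6 → ℝ) → ℝ) (own : (Fin 2 → ℝ) → ℝ)
    (M k u₀ u₁ : ℝ) (w : ℝ → ℝ) : Prop where
  ne : ∀ᶠ n in (U : Filter ℕ), (I n).Nonempty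
  k0 : 0 < k
  u0 : 0 ≤ u₀
  /-- `line` is the index of a real line -/
  line_eq : ∀ n, ∀ i ∈ I n, ∀ j ∈ I n, line n i = line n j →
    (x n i).a = (x n j).a ∧ (x n i).b = (x n j).b ∧ (x n i).c = (x n j).c ∧ (x n i).d = (x n j).d
  /-- `ν` is the profile of the flagged classes -/
  prof : QProf B I (flab B x) (LEG M) ν
  /-- one-step growth -/
  lip : ∀ p ∈ LEG M, ∀ p' ∈ LEG M, p ≤ p' → 0 ≤ ν p - ν p' ∧ ν p - ν p' ≤ ∑ a, (p' a - p a)
  submod : ∀ p ∈ LEG M, ∀ p' ∈ LEG M, p ⊓ p' ∈ LEG M →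
    ν p + ν p' ≤ ν (p ⊔ p') + ν (p ⊓ p')
  /-- `own` is the profile of the single lines -/
  oprof : QProf B I (olab B x line) (Set.Icc 0 (fun _ => M)) own
  own_w : ∀ v : ℝ, u₀ < v → v < u₁ → own ![v, 0] = w v
  w_lip : ∀ v v' : ℝ, u₀ < v → v ≤ v' → v' < u₁ → 0 ≤ w v - w v' ∧ w v - w v' ≤ v' - v
  /-- rotation at distance `d^v` at most `d^(k v)` ... -/
  own_rot : ∀ v r : ℝ, u₀ < v → v < u₁ → 0 ≤ r → r ≤ k * v → own ![v, r] = own ![v, 0]
  /-- ... and not less -/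
  own_tw : ∀ v r : ℝ, u₀ < v → v < u₁ → k * v < r → r ≤ M → own ![v, r] < own ![v, 0]

/-- `ExtP` is a special case -/
theorem _root_.Crest.Agent.R138.Ex926.ExtP.toB {B : Base} {ι : ℕ → Type} [∀ n, DecidableEq (ι n)] {I : ∀ n, Finset (ι n)}
    {x : ∀ n, ι n → Inc} {line : ∀ n, ι n → ℕ} {ν : (Fin 6 → ℝ) → ℝ} {own : (Fin 2 → ℝ) → ℝ}
    {M s b q k θ c₀ : ℝ} (h : ExtP B I x line ν own M s b q k θ c₀) :
    ExtB B I x line ν own M k 0 1 (fun v => (1 - s) * (1 - v)) where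
  ne := h.ne
  k0 := h.k0
  u0 := le_rfl
  line_eq := h.line_eq
  prof := h.prof
  lip := h.lip
  submod := h.submod
  oprof := h.oprof
  own_w := fun v h0 h1 => h.own_z v h0.le h1.le
  w_lip := fun v v' _ hvv _ => by
    have h0 := h.s0
    have h1 := h.s1
    constructor <;> nlinarith
  own_rot := fun v r h0 h1 hr hrk => h.own_rot v r h0.le h1.le hr hrk
  own_tw := fun v r h0 h1 hr hrM => h.own_tw v r h0.le h1 hr hrM

/-- one may assume that all `I n` are nonempty -/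
theorem ExtB.exists_nonempty {B : Base} {ι : ℕ → Type} [∀ n, DecidableEq (ι n)]
    {I : ∀ n, Finset (ι n)}
    {x : ∀ n, ι n → Inc} {line : ∀ n, ι n → ℕ} {ν : (Fin 6 → ℝ) → ℝ} {own : (Fin 2 → ℝ) → ℝ}
    {M k u₀ u₁ : ℝ} {w : ℝ → ℝ} (h : ExtB B I x line ν own M k u₀ u₁ w) :
    ∃ (B' : Base) (ι' : ℕ → Type) (_ : ∀ n, DecidableEq (ι' n)) (I' : ∀ n, Finset (ι' n))
      (x' : ∀ n, ι' n → Inc) (line' : ∀ n, ι' n → ℕ), (∀ n, (I' n).Nonempty) ∧
      ExtB B' I' x' line' ν own M k u₀ u₁ w := by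
  classical
  obtain ⟨n₀, hn₀⟩ := h.ne.exists
  set π : ℕ → ℕ := fun n => if (I n).Nonempty then n else n₀ with hπdef
  have hπ : ∀ᶠ n in (U : Filter ℕ), π n = n := h.ne.mono fun n hn => by simp [hπdef, hn]
  refine ⟨pcomp B π hπ, fun n => ι (π n), fun n => inferInstance, fun n => I (π n),
    fun n => x (π n), fun n => line (π n), fun n => ?_, ?_⟩
  · show (I (π n)).Nonempty
    by_cases hn : (I n).Nonempty
    · have : π n = n := by simp [hπdef, hn]
      rw [this]; exact hn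
    · have : π n = n₀ := by simp [hπdef, hn]
      rw [this]; exact hn₀
  · exact
      { ne := ev_comp (Q := fun n => (I n).Nonempty) hπ h.ne
        k0 := h.k0
        u0 := h.u0
        line_eq := fun n i hi j hj hl => h.line_eq (π n) i hi j hj hl
        prof :=
          { up := fun ε hε => ev_comp (Q := fun n => ∀ p ∈ LEG M, ∀ i ∈ I n,
              ((cls (I n) (flab B x n p) i).card : ℝ) ≤ B.d n ^ (-(ν p + ε))) hπ (h.prof.up ε hε)
            num := fun ε hε => ev_comp (Q := fun n => ∀ q ∈ LEG M, ∀ p ∈ LEG M, q ≤ p → ∀ i ∈ I n,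
              (((cls (I n) (flab B x n q) i).image (flab B x n p)).card : ℝ) ≤
                B.d n ^ (-(ν q - ν p + ε))) hπ (h.prof.num ε hε)
            root := fun ε hε => ev_comp (Q := fun n => ∀ p ∈ LEG M,
              (((I n).image (flab B x n p)).card : ℝ) ≤ (I n).card * B.d n ^ (ν p - ε)) hπ
                (h.prof.root ε hε) }
        lip := h.lip
        submod := h.submod
        oprof :=
          { up := fun ε hε => ev_comp (Q := fun n => ∀ p ∈ Set.Icc (0 : Fin 2 → ℝ) (fun _ => M),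
              ∀ i ∈ I n, ((cls (I n) (olab B x line n p) i).card : ℝ) ≤ B.d n ^ (-(own p + ε))) hπ
                (h.oprof.up ε hε)
            num := fun ε hε => ev_comp (Q := fun n => ∀ q ∈ Set.Icc (0 : Fin 2 → ℝ) (fun _ => M),
              ∀ p ∈ Set.Icc (0 : Fin 2 → ℝ) (fun _ => M), q ≤ p → ∀ i ∈ I n,
              (((cls (I n) (olab B x line n q) i).image (olab B x line n p)).card : ℝ) ≤
                B.d n ^ (-(own q - own p + ε))) hπ (h.oprof.num ε hε)
            root := fun ε hε => ev_comp (Q := fun n => ∀ p ∈ Set.Icc (0 : Fin 2 → ℝ) (fun _ => M),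
              (((I n).image (olab B x line n p)).card : ℝ) ≤ (I n).card * B.d n ^ (own p - ε)) hπ
                (h.oprof.root ε hε) }
        own_w := h.own_w
        w_lip := h.w_lip
        own_rot := h.own_rot
        own_tw := h.own_tw }

section

variable {ι : ℕ → Type} [∀ n, DecidableEq (ι n)]
variable {B : Base} {I : ∀ n, Finset (ι n)}
    {x : ∀ n, ι n → Inc} {line : ∀ n, ι n → ℕ} {ν : (Fin 6 → ℝ) → ℝ} {own : (Fin 2 → ℝ) → ℝ}
    {M k u₀ u₁ : ℝ} {w : ℝ → ℝ}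

theorem ExtB.own_at (hE : ExtB B I x line ν own M k u₀ u₁ w) {v r : ℝ} (hv0 : u₀ < v)
    (hv1 : v < u₁) (hr0 : 0 ≤ r) (hr : r ≤ k * v) : own ![v, r] = w v := by
  rw [hE.own_rot v r hv0 hv1 hr0 hr, hE.own_w v hv0 hv1]

/-- the slope of `w` lies in `[0, 1]` -/
theorem ExtB.slope_mem (hE : ExtB B I x line ν own M k u₀ u₁ w) {v σ : ℝ} (hv0 : u₀ < v)
    (hv1 : v < u₁) (hw : HasDerivAt w (-σ) v) : 0 ≤ σ ∧ σ ≤ 1 := by
  have hs := hw.tendsto_slope_zero_right
  have hev : ∀ᶠ y in 𝓝[>] (0 : ℝ), 0 < y ∧ v + y < u₁ := by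
    have h1 : ∀ᶠ y in 𝓝[>] (0 : ℝ), y < u₁ - v := by
      refine Filter.Eventually.filter_mono nhdsWithin_le_nhds ?_
      exact Iio_mem_nhds (by linarith)
    filter_upwards [self_mem_nhdsWithin, h1] with y hy h2
    exact ⟨hy, by linarith⟩
  have hb : ∀ᶠ y in 𝓝[>] (0 : ℝ), -1 ≤ y⁻¹ • (w (v + y) - w v) ∧
      y⁻¹ • (w (v + y) - w v) ≤ 0 := by
    filter_upwards [hev] with y hy
    obtain ⟨h1, h2⟩ := hE.w_lip v (v + y) hv0 (by linarith [hy.1]) hy.2
    rw [smul_eq_mul, ← div_eq_inv_mul]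
    constructor
    · rw [le_div_iff₀ hy.1]; linarith
    · rw [div_le_iff₀ hy.1]; linarith
  constructor
  · have := le_of_tendsto hs (hb.mono fun y hy => hy.2)
    linarith
  · have := ge_of_tendsto hs (hb.mono fun y hy => hy.1)
    linarith

/-- every displacement of a tangent which keeps the slope level at most `k v` loses at least the own
shading -/
theorem ExtB.tan_own_le (hE : ExtB B I x line ν own M k u₀ u₁ w) {v t σ : ℝ} (hv0 : u₀ < v)
    (hv1 : v < u₁) (hw : HasDerivAt w (-σ) v) {h : ℕ → ℝ} (hpos : ∀ l, 0 < h l)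
    (h0 : Tendsto h atTop (𝓝 0)) {lam : (Fin 6 → ℝ) → ℝ}
    (htan : IsTan (LEG M) D6 ν (fun _ => X6 v (k * v) t) h lam) {c c' : Fin 6 → ℝ}
    (hc : c ∈ D6) (hc' : c' ∈ D6) (hcc : c ≤ c') (h5 : c 5 ≤ k * c 4) (h5' : c' 5 ≤ k * c' 4) :
    σ * (c' 4 - c 4) ≤ lam c - lam c' := by
  refine le_of_forall_pos_le_add fun ε hε => ?_
  have hev : ∀ᶠ l in (atTop : Filter ℕ), h l * c' 4 < u₁ - v := by
    have : Tendsto (fun l => h l * c' 4) atTop (𝓝 (0 * c' 4)) := h0.mul_const _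
    rw [zero_mul] at this
    exact this.eventually_lt_const (by linarith)
  -- derivative of `w` along the two displacements
  have hder : ∀ y : ℝ, ∀ᶠ l in (atTop : Filter ℕ),
      |w (v + h l * y) - w v + h l * (σ * y)| ≤ ε / 4 * h l := by
    intro y
    have h1 : (fun z => w z - w v - (z - v) • (-σ)) =o[𝓝 v] fun z => z - v :=
      hasDerivAt_iff_isLittleO.1 hw
    have h2 : Tendsto (fun l => v + h l * y) atTop (𝓝 v) := by
      have : Tendsto (fun l => v + h l * y) atTop (𝓝 (v + 0 * y)) :=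
        tendsto_const_nhds.add (h0.mul_const _)
      rwa [zero_mul, add_zero] at this
    have h3 := (h1.comp_tendsto h2).def (c := ε / 4 / (|y| + 1)) (by positivity)
    filter_upwards [h3] with l hl
    have hlp := hpos l
    simp only [Function.comp_apply, Real.norm_eq_abs, smul_eq_mul] at hl
    have e1 : v + h l * y - v = h l * y := by ring
    rw [e1, abs_mul, abs_of_pos hlp] at hl
    have e2 : w (v + h l * y) - w v - h l * y * -σ = w (v + h l * y) - w v + h l * (σ * y) := by ring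
    rw [e2] at hl
    refine hl.trans ?_
    have h4 : |y| / (|y| + 1) ≤ 1 := by
      rw [div_le_one (by positivity)]; linarith
    calc ε / 4 / (|y| + 1) * (h l * |y|) = ε / 4 * h l * (|y| / (|y| + 1)) := by ring
      _ ≤ ε / 4 * h l * 1 := mul_le_mul_of_nonneg_left h4 (by positivity)
      _ = ε / 4 * h l := mul_one _
  obtain ⟨l, ⟨h1, h2⟩, ⟨h3, h4⟩, h6, hd1, hd2⟩ := ((htan.ev hc (ε := ε / 4) (by positivity)).and
    ((htan.ev hc' (ε := ε / 4) (by positivity)).and (hev.and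
      ((hder (c 4)).and (hder (c' 4)))))).exists
  have hl := hpos l
  have hord : X6 v (k * v) t + h l • c ≤ X6 v (k * v) t + h l • c' := by
    intro a
    have := mul_le_mul_of_nonneg_left (hcc a) hl.le
    simp only [Pi.add_apply, Pi.smul_apply, smul_eq_mul]
    linarith
  have h7 := olab_le_flab hE.ne hE.line_eq hE.prof hE.oprof h1 h3 hord
  have e4 : ∀ y : Fin 6 → ℝ, (X6 v (k * v) t + h l • y) 4 = v + h l * y 4 := fun y => rfl
  have e5 : ∀ y : Fin 6 → ℝ, (X6 v (k * v) t + h l • y) 5 = k * v + h l * y 5 := fun y => rfl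
  rw [e4, e5, e4, e5] at h7
  have c0 := hc.1
  have c0' := hc'.1
  have n4 : 0 ≤ h l * c 4 := mul_nonneg hl.le (c0 4)
  have n4' : 0 ≤ h l * c' 4 := mul_nonneg hl.le (c0' 4)
  have n5 : 0 ≤ h l * c 5 := mul_nonneg hl.le (c0 5)
  have n5' : 0 ≤ h l * c' 5 := mul_nonneg hl.le (c0' 5)
  have m4 : h l * c 4 ≤ h l * c' 4 := mul_le_mul_of_nonneg_left (hcc 4) hl.le
  have hvp : 0 ≤ v := hE.u0.trans hv0.le
  have kv : 0 ≤ k * v := mul_nonneg hE.k0.le hvp
  rw [hE.own_at (by linarith) (by linarith) (by linarith) (by nlinarith),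
    hE.own_at (by linarith) (by linarith) (by linarith) (by nlinarith)] at h7
  have key : h l * (σ * (c' 4 - c 4)) ≤ h l * (lam c - lam c' + ε) := by
    rw [abs_le] at h2 h4 hd1 hd2
    nlinarith
  exact le_of_mul_le_mul_left key hl

/-- strict drop of the profile in the slope direction -/
theorem ExtB.drop (hE : ExtB B I x line ν own M k u₀ u₁ w) {v t : ℝ} (hv0 : u₀ < v)
    (hv1 : v < u₁) {h Rp e : ℝ} (hh : 0 < h) (he : 0 < e)
    (hp : X6 v (k * v) t + h • dir (fun _ => Rp) 0 0 ∈ LEG M)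
    (hp' : X6 v (k * v) t + h • dir (fun _ => Rp) 0 e ∈ LEG M) :
    ν (X6 v (k * v) t + h • dir (fun _ => Rp) 0 e) <
      ν (X6 v (k * v) t + h • dir (fun _ => Rp) 0 0) := by
  have hle : X6 v (k * v) t + h • dir (fun _ => Rp) 0 0 ≤
      X6 v (k * v) t + h • dir (fun _ => Rp) 0 e := by
    intro i
    have h1 := dir_mono (p := fun _ => Rp) (p' := fun _ => Rp) (fun _ => le_rfl)
      (le_refl (0 : ℝ)) he.le i
    have h2 := mul_le_mul_of_nonneg_left h1 hh.le
    show X6 v (k * v) t i + h * dir (fun _ => Rp) 0 0 i ≤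
      X6 v (k * v) t i + h * dir (fun _ => Rp) 0 e i
    linarith
  have h1 := olab_le_flab hE.ne hE.line_eq hE.prof hE.oprof hp hp' hle
  have e4 : (X6 v (k * v) t + h • dir (fun _ => Rp) 0 0) 4 = v := by
    show v + h * 0 = v; ring
  have e5 : (X6 v (k * v) t + h • dir (fun _ => Rp) 0 0) 5 = k * v := by
    show k * v + h * 0 = k * v; ring
  have e4' : (X6 v (k * v) t + h • dir (fun _ => Rp) 0 e) 4 = v := by
    show v + h * 0 = v; ring
  have e5' : (X6 v (k * v) t + h • dir (fun _ => Rp) 0 e) 5 = k * v + h * e := rfl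
  have hM := ((mem_LEG.1 hp').1 5).2
  rw [e4, e5, e4', e5'] at h1
  rw [e5'] at hM
  have hvp : 0 ≤ v := hE.u0.trans hv0.le
  have h2 := hE.own_rot v (k * v) hv0 hv1 (mul_nonneg hE.k0.le hvp) le_rfl
  have h3 := hE.own_tw v (k * v + h * e) hv0 hv1 (by linarith [mul_pos hh he]) hM
  linarith

/-- **The F-model of a tangent** (frame-free form). -/
theorem ExtB.fm_of_tan (hE : ExtB B I x line ν own M k u₀ u₁ w) (hI : ∀ n, (I n).Nonempty)
    {v t σ : ℝ} (hv0 : u₀ < v) (hv1 : v < u₁) (ht : 0 ≤ t) (hw : HasDerivAt w (-σ) v)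
    {h : ℕ → ℝ} (hpos : ∀ l, 0 < h l) (h0 : Tendsto h atTop (𝓝 0))
    {lam : (Fin 6 → ℝ) → ℝ} (htan : IsTan (LEG M) D6 ν (fun _ => X6 v (k * v) t) h lam)
    {R Rp R4 R5 : ℝ} (hR : 0 < R) (hRp : R < Rp) (hR4 : Rp ≤ R4) (hR5 : Rp ≤ R5)
    (hdens : lam (dir (fun _ => Rp) R4 R5) ≤ lam (dir (fun _ => Rp) 0 0) + lam (dir 0 R4 R5)) :
    ∃ (B' : Base) (G' : ℕ → Cfg) (ν' : (Fin 4 → ℝ) → ℝ), FModel B' G' σ R ν' ∧
      TwistMaj B' G' ∧ ∀ p : Fin 4 → ℝ, (∀ j, 0 ≤ p j ∧ p j ≤ R) →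
        ν' p = lam (dir p R4 R5) - lam (dir (fun _ => Rp) R4 R5) := by
  classical
  have hvp : 0 ≤ v := hE.u0.trans hv0.le
  have hRp0 : 0 ≤ Rp := hR.le.trans hRp.le
  have hRpp : 0 < Rp := hR.trans hRp
  have hkv : 0 ≤ k * v := mul_nonneg hE.k0.le hvp
  obtain ⟨hσ0, hσ1⟩ := hE.slope_mem hv0 hv1 hw
  obtain ⟨k₁, hk₁, H⟩ := exists_qzoom B (J := Unit) (I := I)
    (κ := fun _ _ => (ℤ × ℤ) × (Fin 4 → ℤ)) (f := fun _ => flab B x) (P := fun _ => LEG M)
    (D := fun _ => D6) (ν := fun _ => ν) (lam := fun _ => lam) (fun _ => hE.prof) hpos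
    (fun _ => zero_mem_D6) (fun _ => htan) (fun _ _ => 1) (fun _ => Base.Sub.const one_pos)
  have hleg := TwR480.leg_of_tan htan hRp0 (hRp0.trans hR4) (hRp0.trans hR5)
  have hdrop : ∀ᶠ l in (atTop : Filter ℕ), ∀ e, 0 < e → e ≤ R5 →
      ν (X6 v (k * v) t + h l • dir (fun _ => Rp) 0 e) <
        ν (X6 v (k * v) t + h l • dir (fun _ => Rp) 0 0) := by
    filter_upwards [hleg] with l hl e he0 he
    exact hE.drop hv0 hv1 (hpos l) he0 (hl.2 0 le_rfl (hRp0.trans hR5)) (hl.2 e he0.le he)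
  obtain ⟨k₂, hk₂, H2⟩ := TwR480.exists_twGd hE.prof (V := fun _ => v) (W := fun _ => k * v)
    (T := fun _ => t) (h := h) (fun _ => hvp) (fun _ => hkv) (fun _ => ht) hpos hRpp
    (hRp0.trans hR4) (hRpp.trans_le hR5) hleg hdrop
    (H := I) (c := 1) one_pos (hE.ne.mono fun n hn => ⟨Subset.refl _, hn, by rw [one_mul]⟩)
  set k' : ℕ → ℕ := fun n => min (k₁ n) (k₂ n) with hk'def
  have hk' : Tendsto k' U atTop := tendsto_atTop.2 fun N => by
    filter_upwards [hk₁.eventually_ge_atTop N, hk₂.eventually_ge_atTop N] with n h1 h2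
    exact le_min h1 h2
  obtain ⟨B', hd, hL, -, hZ⟩ := H k' hk' (Eventually.of_forall fun n => min_le_left _ _)
  obtain ⟨Gd, hGd, hTw⟩ := H2 k' hk' (Eventually.of_forall fun n => min_le_right _ _)
  have hlam0 : lam 0 = 0 := htan.zero hpos zero_mem_D6
  have hZ1 := hZ ()
  obtain ⟨s₀, hs₀, hcls⟩ := exists_clsSeq (B := B) (B' := B') (I := I) (x := x)
    (v := fun _ => v) (r := fun _ => k * v) (t := fun _ => t) (w := fun n => h (k' n))
    (T := fun n => B.d n ^ (-(ν (X6 v (k * v) t)))) (lam := lam)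
    (fun _ => hvp) (fun _ => hkv) (fun _ => ht) (fun n => hpos _) hd hZ1 hlam0
    (fun n => Real.rpow_pos_of_pos (B.pos n) _) (Gd := Gd) (fun n => (hI n).choose)
    (c := 1 / 2) (by norm_num) hGd
  have htw := hTw B' hd s₀ _ lam hcls
  have hfrost : ∀ y, 0 ≤ y → y ≤ R → lam (dir 0 y 0) ≤ -(σ * y) := by
    intro y hy0 hyR
    have hm : dir 0 y 0 ∈ D6 := by
      refine ⟨fun a => ?_, ?_, ?_, ?_, ?_⟩
      · fin_cases a <;> simp [dir, hy0]
      · simp [dir, hy0]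
      · simp [dir, hy0]
      · simp [dir]
      · simp [dir]
    have h1 := hE.tan_own_le hv0 hv1 hw hpos h0 htan (c := 0) (c' := dir 0 y 0) zero_mem_D6 hm
      (by intro a; fin_cases a <;> simp [dir, hy0]) (by simp)
      (by show (0 : ℝ) ≤ k * y; exact mul_nonneg hE.k0.le hy0)
    rw [hlam0] at h1
    have e : dir 0 y 0 4 = y := rfl
    rw [e, Pi.zero_apply] at h1
    linarith
  have hraw : RawM B' (clsCfg B B' x (fun _ => v) (fun _ => k * v) (fun _ => t)
      (fun n => h (k' n)) (fun n => cls (Gd n) (natlab B x (fun _ => v) (fun _ => k * v)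
        (fun _ => t) n) (s₀ n)) s₀ Rp R4 R5) σ R :=
    rawM_of_class hcls hR hRp0 (hRp.le.trans hR4) (hRp0.trans hR5) hσ0 hσ1 hdens hfrost
  obtain ⟨G', ν', S, hF, hsub, hS, hcard, -, -, -, -, hTM⟩ := exists_fmodel_tw B' _ hraw htw
  refine ⟨B', G', ν', hF, hTM, fun p hp => ?_⟩
  exact fmodel_ident hcls hR hRp hR4 hR5 (K := 6) (by norm_num)
    (htan.lip hpos (nu_lip_of hE.lip)) hF hsub hS hcard hp

end

end Crest.Agent.R138.AeT501
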