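import Crest.Agent.R138.AeT1_501
import Crest.Agent.R138.TwMaj_480

/-!
# R138: the F-model of a tangent at a natural point (helper501)

`ExtP` + tangent function `lam` at `X6 v (k v) t` + `TwGood` (480: raw twist of good classes) +
separation of fat lines and heights ⊢ an F-model with majority twist and profile
`lam (dir p R4 R5) - lam (dir Rp R4 R5)`.
-/

set_option autoImplicit false
set_option linter.unusedVariables false
set_option linter.unusedSectionVars false

open Filter Topology Finset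

namespace Crest.Agent.R138.AeT501

open Crest.Agent.R138.Ex926 Crest.Agent.R138.FM501 Crest.Agent.R138.Flg101
open Crest.Agent.R138.TwMaj480 Crest.Agent.R138.Tw628

/-! ### `ExtP` with everywhere nonempty index types -/

/-- reindexing of a base -/
def pcomp (B : Base) (π : ℕ → ℕ) (h : ∀ᶠ n in (U : Filter ℕ), π n = n) : Base where
  d n := B.d (π n)
  pos n := B.pos _
  lt n := B.lt _
  lim0 := B.lim0.congr' (h.mono fun n hn => by show B.d n = B.d (π n); rw [hn])

theorem ev_comp {Q : ℕ → Prop} {π : ℕ → ℕ} (hπ : ∀ᶠ n in (U : Filter ℕ), π n = n)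
    (hQ : ∀ᶠ n in (U : Filter ℕ), Q n) : ∀ᶠ n in (U : Filter ℕ), Q (π n) := by
  filter_upwards [hπ, hQ] with n h1 h2
  rw [h1]; exact h2

/-- one may assume that all `I n` are nonempty -/
theorem extP_nonempty {B : Base} {ι : ℕ → Type} [∀ n, DecidableEq (ι n)] {I : ∀ n, Finset (ι n)}
    {x : ∀ n, ι n → Inc} {line : ∀ n, ι n → ℕ} {ν : (Fin 6 → ℝ) → ℝ} {own : (Fin 2 → ℝ) → ℝ}
    {M s b q k θ c₀ : ℝ} (h : ExtP B I x line ν own M s b q k θ c₀) :
    ∃ (B' : Base) (ι' : ℕ → Type) (_ : ∀ n, DecidableEq (ι' n)) (I' : ∀ n, Finset (ι' n))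
      (x' : ∀ n, ι' n → Inc) (line' : ∀ n, ι' n → ℕ), (∀ n, (I' n).Nonempty) ∧
      ExtP B' I' x' line' ν own M s b q k θ c₀ := by
  classical
  obtain ⟨n₀, hn₀⟩ := h.ne.exists
  set π : ℕ → ℕ := fun n => if (I n).Nonempty then n else n₀ with hπdef
  have hπ : ∀ᶠ n in (U : Filter ℕ), π n = n := h.ne.mono fun n hn => by simp [hπdef, hn]
  refine ⟨pcomp B π hπ, fun n => ι (π n), fun n => inferInstance, fun n => I (π n),
    fun n => x (π n), fun n => line (π n), fun n => ?_, ?_⟩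
  · show (I (π n)).Nonempty
    by_cases hn : (I n).Nonempty
    · have : π n = n := by simp [hπdef, hn]
      rw [this]; exact hn
    · have : π n = n₀ := by simp [hπdef, hn]
      rw [this]; exact hn₀
  · exact
      { ne := ev_comp (Q := fun n => (I n).Nonempty) hπ h.ne
        s0 := h.s0
        s1 := h.s1
        bs := h.bs
        q0 := h.q0
        k0 := h.k0
        θ0 := h.θ0
        M0 := h.M0
        line_eq := fun n i hi j hj hl => h.line_eq (π n) i hi j hj hl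
        prof :=
          { up := fun ε hε => ev_comp (Q := fun n => ∀ p ∈ LEG M, ∀ i ∈ I n,
              ((cls (I n) (flab B x n p) i).card : ℝ) ≤ B.d n ^ (-(ν p + ε))) hπ (h.prof.up ε hε)
            num := fun ε hε => ev_comp (Q := fun n => ∀ q ∈ LEG M, ∀ p ∈ LEG M, q ≤ p → ∀ i ∈ I n,
              (((cls (I n) (flab B x n q) i).image (flab B x n p)).card : ℝ) ≤
                B.d n ^ (-(ν q - ν p + ε))) hπ (h.prof.num ε hε)
            root := fun ε hε => ev_comp (Q := fun n => ∀ p ∈ LEG M,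
              (((I n).image (flab B x n p)).card : ℝ) ≤ (I n).card * B.d n ^ (ν p - ε)) hπ
                (h.prof.root ε hε) }
        lip := h.lip
        submod := h.submod
        oprof :=
          { up := fun ε hε => ev_comp (Q := fun n => ∀ p ∈ Set.Icc (0 : Fin 2 → ℝ) (fun _ => M),
              ∀ i ∈ I n, ((cls (I n) (olab B x line n p) i).card : ℝ) ≤ B.d n ^ (-(own p + ε))) hπ
                (h.oprof.up ε hε)
            num := fun ε hε => ev_comp (Q := fun n => ∀ q ∈ Set.Icc (0 : Fin 2 → ℝ) (fun _ => M),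
              ∀ p ∈ Set.Icc (0 : Fin 2 → ℝ) (fun _ => M), q ≤ p → ∀ i ∈ I n,
              (((cls (I n) (olab B x line n q) i).image (olab B x line n p)).card : ℝ) ≤
                B.d n ^ (-(own q - own p + ε))) hπ (h.oprof.num ε hε)
            root := fun ε hε => ev_comp (Q := fun n => ∀ p ∈ Set.Icc (0 : Fin 2 → ℝ) (fun _ => M),
              (((I n).image (olab B x line n p)).card : ℝ) ≤ (I n).card * B.d n ^ (own p - ε)) hπ
                (h.oprof.root ε hε) }
        own_z := h.own_z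
        own_rot := h.own_rot
        own_tw := h.own_tw
        dmax := h.dmax
        record := h.record }

/-! ### Raw twist of good classes (interface to 480) -/

section

variable {ι : ℕ → Type} [∀ n, DecidableEq (ι n)]

/-- at slow speed, a half of the incidences generates only classes with raw twist -/
def TwGood (B : Base) (I : ∀ n, Finset (ι n)) (x : ∀ n, ι n → Inc) (v r t : ℝ) (h : ℕ → ℝ)
    (Rp R4 R5 : ℝ) : Prop :=
  ∃ k₂ : ℕ → ℕ, Tendsto k₂ (U : Filter ℕ) atTop ∧ ∀ k' : ℕ → ℕ, Tendsto k' U atTop →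
    (∀ᶠ n in (U : Filter ℕ), k' n ≤ k₂ n) → ∀ B' : Base, (∀ n, B'.d n = B.d n ^ h (k' n)) →
    ∃ Gd : ∀ n, Finset (ι n), (∀ᶠ n in (U : Filter ℕ), Gd n ⊆ I n ∧ (Gd n).Nonempty ∧
        (1 / 2 : ℝ) * ((I n).card : ℝ) ≤ (Gd n).card) ∧
      ∀ (s₀ : ∀ n, ι n) (T : ℕ → ℝ) (lam : (Fin 6 → ℝ) → ℝ), (∀ᶠ n in (U : Filter ℕ), s₀ n ∈ Gd n) →
        ClsSeq B B' I x (fun _ => v) (fun _ => r) (fun _ => t) (fun n => h (k' n)) T lam
          (fun n => cls (Gd n) (natlab B x (fun _ => v) (fun _ => r) (fun _ => t) n) (s₀ n)) s₀ →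
        TwRaw B' (clsCfg B B' x (fun _ => v) (fun _ => r) (fun _ => t) (fun n => h (k' n))
          (fun n => cls (Gd n) (natlab B x (fun _ => v) (fun _ => r) (fun _ => t) n) (s₀ n)) s₀
          Rp R4 R5)

variable {B : Base} {I : ∀ n, Finset (ι n)}
    {x : ∀ n, ι n → Inc} {line : ∀ n, ι n → ℕ} {ν : (Fin 6 → ℝ) → ℝ} {own : (Fin 2 → ℝ) → ℝ}
    {M s b q k θ c₀ : ℝ}

/-- the own profile along flagged levels -/
theorem own_at (hE : ExtP B I x line ν own M s b q k θ c₀) {v r : ℝ} (hv0 : 0 ≤ v) (hv1 : v ≤ 1)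
    (hr0 : 0 ≤ r) (hr : r ≤ k * v) : own ![v, r] = (1 - s) * (1 - v) := by
  rw [hE.own_rot v r hv0 hv1 hr0 hr, hE.own_z v hv0 hv1]

/-- one-level lower bound: along every displacement of a tangent which keeps the slope level at most
`k v`, the class loses at least the own shading -/
theorem tan_own_le (hE : ExtP B I x line ν own M s b q k θ c₀) {v t : ℝ} (hv0 : 0 ≤ v)
    (hv1 : v < 1) (h : ℕ → ℝ) (hpos : ∀ l, 0 < h l) (h0 : Tendsto h atTop (𝓝 0))
    {lam : (Fin 6 → ℝ) → ℝ}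
    (htan : IsTan (LEG M) D6 ν (fun _ => X6 v (k * v) t) h lam) {c c' : Fin 6 → ℝ}
    (hc : c ∈ D6) (hc' : c' ∈ D6) (hcc : c ≤ c') (h5 : c 5 ≤ k * c 4) (h5' : c' 5 ≤ k * c' 4) :
    (1 - s) * (c' 4 - c 4) ≤ lam c - lam c' := by
  refine le_of_forall_pos_le_add fun ε hε => ?_
  have hev : ∀ᶠ l in (atTop : Filter ℕ), h l * c' 4 < 1 - v := by
    have : Tendsto (fun l => h l * c' 4) atTop (𝓝 (0 * c' 4)) := h0.mul_const _
    rw [zero_mul] at this
    exact this.eventually_lt_const (by linarith)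
  obtain ⟨l, ⟨h1, h2⟩, ⟨h3, h4⟩, h6⟩ := ((htan.ev hc (ε := ε / 2) (by positivity)).and
    ((htan.ev hc' (ε := ε / 2) (by positivity)).and hev)).exists
  have hl := hpos l
  have hord : X6 v (k * v) t + h l • c ≤ X6 v (k * v) t + h l • c' := by
    intro a
    have := mul_le_mul_of_nonneg_left (hcc a) hl.le
    simp only [Pi.add_apply, Pi.smul_apply, smul_eq_mul]
    linarith
  have h7 := olab_le_flab hE.ne hE.line_eq hE.prof hE.oprof h1 h3 hord
  have e4 : ∀ y : Fin 6 → ℝ, (X6 v (k * v) t + h l • y) 4 = v + h l * y 4 := fun y => rfl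
  have e5 : ∀ y : Fin 6 → ℝ, (X6 v (k * v) t + h l • y) 5 = k * v + h l * y 5 := fun y => rfl
  rw [e4, e5, e4, e5] at h7
  have c0 := hc.1
  have c0' := hc'.1
  have n4 : 0 ≤ h l * c 4 := mul_nonneg hl.le (c0 4)
  have n4' : 0 ≤ h l * c' 4 := mul_nonneg hl.le (c0' 4)
  have n5 : 0 ≤ h l * c 5 := mul_nonneg hl.le (c0 5)
  have n5' : 0 ≤ h l * c' 5 := mul_nonneg hl.le (c0' 5)
  have m4 : h l * c 4 ≤ h l * c' 4 := mul_le_mul_of_nonneg_left (hcc 4) hl.le
  have kv : 0 ≤ k * v := mul_nonneg hE.k0.le hv0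
  rw [own_at hE (by linarith) (by linarith) (by linarith) (by nlinarith),
    own_at hE (by linarith) (by linarith) (by linarith) (by nlinarith)] at h7
  have key : h l * ((1 - s) * (c' 4 - c 4)) ≤ h l * (lam c - lam c' + ε) := by
    rw [abs_le] at h2 h4
    nlinarith
  exact le_of_mul_le_mul_left key hl

/-- **The F-model of a tangent.** -/
theorem fm_of_tan (hE : ExtP B I x line ν own M s b q k θ c₀) (hI : ∀ n, (I n).Nonempty)
    {v t : ℝ} (hv0 : 0 ≤ v) (hv1 : v < 1) (ht : 0 ≤ t)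
    {h : ℕ → ℝ} (hpos : ∀ l, 0 < h l) (h0 : Tendsto h atTop (𝓝 0))
    {lam : (Fin 6 → ℝ) → ℝ} (htan : IsTan (LEG M) D6 ν (fun _ => X6 v (k * v) t) h lam)
    {R Rp R4 R5 : ℝ} (hR : 0 < R) (hRp : R < Rp) (hR4 : Rp ≤ R4) (hR5 : Rp ≤ R5)
    (hgood : TwGood B I x v (k * v) t h Rp R4 R5)
    (hdens : lam (dir (fun _ => Rp) R4 R5) ≤ lam (dir (fun _ => Rp) 0 0) + lam (dir 0 R4 R5)) :
    ∃ (B' : Base) (G' : ℕ → Cfg) (ν' : (Fin 4 → ℝ) → ℝ), FModel B' G' (1 - s) R ν' ∧
      TwistMaj B' G' ∧ ∀ p : Fin 4 → ℝ, (∀ j, 0 ≤ p j ∧ p j ≤ R) →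
        ν' p = lam (dir p R4 R5) - lam (dir (fun _ => Rp) R4 R5) := by
  classical
  have hRp0 : 0 ≤ Rp := hR.le.trans hRp.le
  have hkv : 0 ≤ k * v := mul_nonneg hE.k0.le hv0
  obtain ⟨k₁, hk₁, H⟩ := exists_qzoom B (J := Unit) (I := I)
    (κ := fun _ _ => (ℤ × ℤ) × (Fin 4 → ℤ)) (f := fun _ => flab B x) (P := fun _ => LEG M)
    (D := fun _ => D6) (ν := fun _ => ν) (lam := fun _ => lam) (fun _ => hE.prof) hpos
    (fun _ => zero_mem_D6) (fun _ => htan) (fun _ _ => 1) (fun _ => Base.Sub.const one_pos)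
  obtain ⟨k₂, hk₂, H2⟩ := hgood
  set k' : ℕ → ℕ := fun n => min (k₁ n) (k₂ n) with hk'def
  have hk' : Tendsto k' U atTop := tendsto_atTop.2 fun N => by
    filter_upwards [hk₁.eventually_ge_atTop N, hk₂.eventually_ge_atTop N] with n h1 h2
    exact le_min h1 h2
  obtain ⟨B', hd, hL, -, hZ⟩ := H k' hk' (Eventually.of_forall fun n => min_le_left _ _)
  obtain ⟨Gd, hGd, hTw⟩ := H2 k' hk' (Eventually.of_forall fun n => min_le_right _ _) B' hd
  have hlam0 : lam 0 = 0 := htan.zero hpos zero_mem_D6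
  have hZ1 := hZ ()
  obtain ⟨s₀, hs₀, hcls⟩ := exists_clsSeq (B := B) (B' := B') (I := I) (x := x)
    (v := fun _ => v) (r := fun _ => k * v) (t := fun _ => t) (w := fun n => h (k' n))
    (T := fun n => B.d n ^ (-(ν (X6 v (k * v) t)))) (lam := lam)
    (fun _ => hv0) (fun _ => hkv) (fun _ => ht) (fun n => hpos _) hd hZ1 hlam0
    (fun n => Real.rpow_pos_of_pos (B.pos n) _) (Gd := Gd) (fun n => (hI n).choose)
    (c := 1 / 2) (by norm_num) hGd
  have htw := hTw s₀ _ lam hs₀ hcls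
  have hfrost : ∀ y, 0 ≤ y → y ≤ R → lam (dir 0 y 0) ≤ -((1 - s) * y) := by
    intro y hy0 hyR
    have hm : dir 0 y 0 ∈ D6 := by
      refine ⟨fun a => ?_, ?_, ?_, ?_, ?_⟩
      · fin_cases a <;> simp [dir, hy0]
      · simp [dir, hy0]
      · simp [dir, hy0]
      · simp [dir]
      · simp [dir]
    have h1 := tan_own_le hE hv0 hv1 h hpos h0 htan (c := 0) (c' := dir 0 y 0) zero_mem_D6 hm
      (by intro a; fin_cases a <;> simp [dir, hy0]) (by simp)
      (by show (0 : ℝ) ≤ k * y; exact mul_nonneg hE.k0.le hy0)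
    rw [hlam0] at h1
    have e : dir 0 y 0 4 = y := rfl
    rw [e, Pi.zero_apply] at h1
    linarith
  have hraw : RawM B' (clsCfg B B' x (fun _ => v) (fun _ => k * v) (fun _ => t)
      (fun n => h (k' n)) (fun n => cls (Gd n) (natlab B x (fun _ => v) (fun _ => k * v)
        (fun _ => t) n) (s₀ n)) s₀ Rp R4 R5) (1 - s) R :=
    rawM_of_class hcls hR hRp0 (hRp.le.trans hR4) (hRp0.trans hR5) (by linarith [hE.s1])
      (by linarith [hE.s0]) hdens hfrost
  obtain ⟨G', ν', S, hF, hsub, hS, hcard, -, -, -, -, hTM⟩ := exists_fmodel_tw B' _ hraw htw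
  refine ⟨B', G', ν', hF, hTM, fun p hp => ?_⟩
  exact fmodel_ident hcls hR hRp hR4 hR5 (K := 6) (by norm_num)
    (htan.lip hpos (nu_lip_of hE.lip)) hF hsub hS hcard hp

end

end Crest.Agent.R138.AeT501
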