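import Crest.Agent.R138.Kcc4_882

/-!
# R138 / R139, wave side: KMC for coefficient energies, part 5 (helper882)

`kmca`: Kakeya maximal estimate for the coefficient densities `Ac` on direction caps.
-/

set_option autoImplicit false

open MeasureTheory
open scoped ENNReal

namespace Crest.Agent.R138.Kcc882

open Crest.Agent.R138.Defs Crest.Agent.R138.Wpk685 Crest.Agent.R138.Ad480

theorem Ac_le_all {n : ℕ} {h : E2 → ℝ} {ρ : ℝ} (hρ : 0 ≤ ρ) {g : E2 → ℂ} {S : ℤ × ℤ → Set E2}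
    {M : Finset (ℤ × ℤ)} (hM : M ⊆ caps ρ) {z : E2 × ℝ} {x : E2} {R E : ℝ}
    (hE : en ρ g S ≤ ENNReal.ofReal E) (hR : ρ ^ 2 * E ≤ R) :
    Ac n h ρ g S M z x ≤ ENNReal.ofReal R := by
  refine (Ac_le_en hρ hM z x).trans ?_
  refine (mul_le_mul' le_rfl hE).trans ?_
  rw [← ENNReal.ofReal_mul (by positivity)]
  exact ENNReal.ofReal_le_ofReal hR

/-- tail on one direction cap. -/
theorem tail_part {h : E2 → ℝ} {ρ : ℝ} (hρ : 0 < ρ) {g : E2 → ℂ} (hg : Integrable g)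
    (S : ℤ × ℤ → Set E2) {M : Finset (ℤ × ℤ)} (hM : M ⊆ caps ρ) {E : ℝ}
    (hE : en ρ g S ≤ ENNReal.ofReal E) (c : ℝ≥0∞) (hc : c ≠ ⊤) (t : ℝ) :
    ∫⁻ x, (c * Ac 3 h ρ g S M (0, t) x) ^ (3/2 : ℝ) ≤
      c ^ (3/2 : ℝ) * (ENNReal.ofReal (ρ ^ 2 * E) ^ (1/2 : ℝ) *
        (W0 * ∑ m ∈ M, ∫⁻ y in S m, ‖um ρ g m y‖ₑ ^ 2)) := by
  have h1 : ∀ x, (c * Ac 3 h ρ g S M (0, t) x) ^ (3/2 : ℝ) ≤
      c ^ (3/2 : ℝ) * (ENNReal.ofReal (ρ ^ 2 * E) ^ (1/2 : ℝ) * Ac 3 h ρ g S M (0, t) x) := by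
    intro x
    rw [ENNReal.mul_rpow_of_nonneg _ _ (by norm_num)]
    exact mul_le_mul' le_rfl (rpow32_le (Ac_le_all hρ.le hM hE le_rfl))
  refine (lintegral_mono h1).trans (le_of_eq ?_)
  rw [lintegral_const_mul' _ _ (ENNReal.rpow_ne_top_of_nonneg (by norm_num) hc),
    lintegral_const_mul' _ _ (ENNReal.rpow_ne_top_of_nonneg (by norm_num) ENNReal.ofReal_ne_top),
    lint_Ac hρ hg]

/-- the power of the cut-off. -/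
theorem tail_real {q e1 R s Δ C2 : ℝ} (hq : 0 ≤ q) (hR : 1 ≤ R) (hs : R ^ (-(1/2) : ℝ) ≤ s)
    (hΔ : 0 ≤ Δ) (hC2 : 0 ≤ C2) {k : ℕ} (hk : 1/2 + q/4 ≤ e1 * k) :
    ENNReal.ofReal (((R ^ e1 / 2) ^ k)⁻¹) ^ (3/2 : ℝ) *
      ENNReal.ofReal ((R ^ (-(1/2) : ℝ)) ^ 2 * (C2 * (Δ * R ^ 2))) ^ (1/2 : ℝ) ≤
      ENNReal.ofReal (((2:ℝ) ^ k) ^ (3/2 : ℝ) * Real.sqrt C2 * (s ^ (q / 2) * Real.sqrt Δ)) := by
  have hR0 : 0 < R := by linarith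
  obtain ⟨hρ, hρ1, hρ2⟩ := rp_facts hR
  rw [ENNReal.ofReal_rpow_of_nonneg (by positivity) (by norm_num),
    ENNReal.ofReal_rpow_of_nonneg (by positivity) (by norm_num), ← ENNReal.ofReal_mul (by positivity)]
  refine ENNReal.ofReal_le_ofReal ?_
  have e1' : ((R ^ e1 / 2) ^ k)⁻¹ = 2 ^ k * R ^ (-(e1 * k)) := by
    rw [div_pow, inv_div, ← Real.rpow_natCast (R ^ e1), ← Real.rpow_mul hR0.le, Real.rpow_neg hR0.le]
    rfl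
  have e2 : (R ^ (-(1/2) : ℝ)) ^ 2 * (C2 * (Δ * R ^ 2)) = C2 * Δ * R := by
    rw [hρ2]; field_simp
  rw [e1', e2, Real.mul_rpow (by positivity) (by positivity), ← Real.sqrt_eq_rpow,
    Real.sqrt_mul (by positivity), Real.sqrt_mul hC2, ← Real.rpow_mul hR0.le]
  have h1 : R ^ (-(e1 * k) * (3/2)) ≤ R ^ (-(1/2 + q/4) : ℝ) :=
    Real.rpow_le_rpow_of_exponent_le hR (by nlinarith)
  have h2 : R ^ (-(1/2 + q/4) : ℝ) * Real.sqrt R = R ^ (-(1/2) * (q/2) : ℝ) := by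
    rw [Real.sqrt_eq_rpow, ← Real.rpow_add hR0]
    congr 1; ring
  have h3 : R ^ (-(1/2) * (q/2) : ℝ) ≤ s ^ (q / 2) := by
    rw [Real.rpow_mul hR0.le]
    exact Real.rpow_le_rpow hρ.le hs (by positivity)
  calc (2 ^ k) ^ (3/2 : ℝ) * R ^ (-(e1 * k) * (3/2)) * (Real.sqrt C2 * Real.sqrt Δ * Real.sqrt R)
      ≤ (2 ^ k) ^ (3/2 : ℝ) * R ^ (-(1/2 + q/4) : ℝ) *
        (Real.sqrt C2 * Real.sqrt Δ * Real.sqrt R) := by gcongr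
    _ = (2 ^ k) ^ (3/2 : ℝ) * Real.sqrt C2 * ((R ^ (-(1/2 + q/4) : ℝ) * Real.sqrt R) *
          Real.sqrt Δ) := by ring
    _ ≤ _ := by
        rw [h2]
        gcongr

set_option maxHeartbeats 1000000 in
/-- **KMC in coefficient form**, abstract velocity bound. -/
theorem kmca_core (hKM : ∀ V : ℝ, Tub70.KM32 V) {q A L Λ V : ℝ} (hq : 0 ≤ q) (hA : 0 ≤ A)
    (hL : 0 ≤ L) (hΛ : 0 ≤ Λ) (hV : 0 ≤ V) (ε : ℝ) (hε : 0 < ε) : ∃ n0 : ℕ, ∀ n, n0 ≤ n →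
    ∃ C : ℝ, 0 ≤ C ∧ ∀ h : E2 → ℝ, ∀ R : ℝ, 1 ≤ R →
      (∀ m ∈ caps (R ^ (-(1/2) : ℝ)), ‖gradient h (cen (R ^ (-(1/2) : ℝ)) m)‖ ≤ V) →
      ∀ g : E2 → ℂ, Integrable g → ∀ S : ℤ × ℤ → Set E2, (∀ m, MeasurableSet (S m)) →
      (∀ m, ∀ y ∈ S m, ‖y‖ ≤ A * R) → ∀ Δ : ℝ, 0 ≤ Δ → Dens q h R g S Δ →
      ∀ s : ℝ, R ^ (-(1/2) : ℝ) ≤ s → s ≤ 1 →
      ∀ (K : Finset (ℤ × ℤ)) (M : ℤ × ℤ → Finset (ℤ × ℤ)),
      (∀ k ∈ K, M k ⊆ caps (R ^ (-(1/2) : ℝ)) ∧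
        ∀ m ∈ M k, ‖gradient h (cen (R ^ (-(1/2) : ℝ)) m) - cen s k‖ ≤ Λ * s) →
      ∑ k ∈ K, ∫⁻ t in Set.Icc (-(L * R)) (L * R), ∫⁻ x,
        (Ac n h (R ^ (-(1/2) : ℝ)) g S (M k) (0, t) x) ^ (3/2 : ℝ) ≤
      ENNReal.ofReal (C * R ^ ε * s ^ (q / 2) * Real.sqrt Δ * R) *
        en (R ^ (-(1/2) : ℝ)) g S := by
  set e1 : ℝ := min (ε / 6) (1 / 2) with he1
  have he10 : 0 < e1 := lt_min (by positivity) (by norm_num)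
  have he12 : e1 ≤ 1 / 2 := min_le_right _ _
  have he16 : e1 ≤ ε / 6 := min_le_left _ _
  obtain ⟨C1, hC1, h1⟩ := sharp_part hKM (q := q) (A := A) (L := L) (Λ := Λ) (V := V) hq hA hL hΛ hV
    hε he10 he12
  refine ⟨3 + ⌈(1/2 + q/4) / e1⌉₊, fun n hn => ?_⟩
  set k0 : ℕ := n - 3 with hk0
  have hn3 : 3 ≤ n := by omega
  have hk : 1/2 + q/4 ≤ e1 * k0 := by
    have h2 : ⌈(1/2 + q/4) / e1⌉₊ ≤ k0 := by omega
    have h3 : (1/2 + q/4) / e1 ≤ k0 := (Nat.le_ceil _).trans (by exact_mod_cast h2)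
    rw [div_le_iff₀ he10] at h3
    linarith
  set C2 : ℝ := (2 * V + 3) ^ 2 * (2 * A + 3) ^ 2 with hC2
  have hC20 : 0 ≤ C2 := by positivity
  set w0 : ℝ := W0.toReal with hw0
  have hw00 : 0 ≤ w0 := ENNReal.toReal_nonneg
  have hW0 : W0 = ENNReal.ofReal w0 := (ENNReal.ofReal_toReal W0_lt.ne).symm
  set C3 : ℝ := ((2:ℝ) ^ k0) ^ (3/2 : ℝ) * Real.sqrt C2 * w0 * (2 * L) with hC3
  have hC30 : 0 ≤ C3 := by positivity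
  refine ⟨(2 * Λ + 1) ^ 2 * ((2:ℝ) ^ (1/2 : ℝ) * (C1 + C3)), by positivity, ?_⟩
  intro h R hR hv g hg S hSm hSA Δ hΔ hD s hs hs1 K M hKMk
  obtain ⟨hρ, hρ1, hρ2⟩ := rp_facts hR
  set ρ : ℝ := R ^ (-(1/2) : ℝ) with hρdef
  have hR0 : 0 < R := by linarith
  have hs0 : 0 < s := hρ.trans_le hs
  have hen := whole_le hR hSm hΔ hD hV hA hv hSA
  have hY : 0 < R ^ e1 / 2 := by positivity
  set c : ℝ≥0∞ := ENNReal.ofReal (((R ^ e1 / 2) ^ k0)⁻¹) with hc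
  set X : ℝ := s ^ (q / 2) * Real.sqrt Δ with hX
  have hX0 : 0 ≤ X := by positivity
  -- one cap
  have one : ∀ k ∈ K, ∫⁻ t in Set.Icc (-(L * R)) (L * R), ∫⁻ x,
        (Ac n h ρ g S (M k) (0, t) x) ^ (3/2 : ℝ) ≤
      ENNReal.ofReal ((2:ℝ) ^ (1/2 : ℝ) * (C1 + C3) * R ^ ε * X * R) *
        ∑ m ∈ M k, ∫⁻ y in S m, ‖um ρ g m y‖ₑ ^ 2 := by
    intro k hkK
    obtain ⟨hMk, hMk'⟩ := hKMk k hkK
    set Ek : ℝ≥0∞ := ∑ m ∈ M k, ∫⁻ y in S m, ‖um ρ g m y‖ₑ ^ 2 with hEk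
    have hAm : Measurable fun p : ℝ × E2 => (0 : ℝ≥0∞) := measurable_const
    have hpt : ∀ t, ∫⁻ x, (Ac n h ρ g S (M k) (0, t) x) ^ (3/2 : ℝ) ≤
        ENNReal.ofReal ((2:ℝ) ^ (1/2 : ℝ)) * (∫⁻ x, (Sh h ρ (R ^ e1 / 2) g S (M k) t x) ^ (3/2 : ℝ)) +
        ENNReal.ofReal ((2:ℝ) ^ (1/2 : ℝ)) * (ENNReal.ofReal (((2:ℝ) ^ k0) ^ (3/2 : ℝ) *
          Real.sqrt C2 * X) * (W0 * Ek)) := by
      intro t
      have h2 : ∀ x, (Ac n h ρ g S (M k) (0, t) x) ^ (3/2 : ℝ) ≤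
          ENNReal.ofReal ((2:ℝ) ^ (1/2 : ℝ)) * (Sh h ρ (R ^ e1 / 2) g S (M k) t x) ^ (3/2 : ℝ) +
          ENNReal.ofReal ((2:ℝ) ^ (1/2 : ℝ)) * (c * Ac 3 h ρ g S (M k) (0, t) x) ^ (3/2 : ℝ) := by
        intro x
        have h3 := Ac_split (n1 := 3) hn3 (h := h) hρ hY hg S (M k) t x
        refine (ENNReal.rpow_le_rpow h3 (by norm_num)).trans ?_
        refine (ENNReal.rpow_add_le_mul_rpow_add_rpow _ _ (by norm_num)).trans (le_of_eq ?_)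
        rw [mul_add]
        have e : (2 : ℝ≥0∞) ^ ((3/2 : ℝ) - 1) = ENNReal.ofReal ((2:ℝ) ^ (1/2 : ℝ)) := by
          rw [← ENNReal.ofReal_rpow_of_nonneg (by norm_num) (by norm_num)]
          norm_num
        rw [e]
      refine (lintegral_mono h2).trans ?_
      rw [lintegral_add_right _ ((((Ac_meas hρ.le hg S (M k) (0, t)).const_mul c).pow_const
        _).const_mul _), lintegral_const_mul' _ _ ENNReal.ofReal_ne_top,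
        lintegral_const_mul' _ _ ENNReal.ofReal_ne_top]
      refine add_le_add le_rfl (mul_le_mul' le_rfl ?_)
      refine (tail_part hρ hg S hMk hen c ENNReal.ofReal_ne_top t).trans ?_
      rw [← mul_assoc]
      exact mul_le_mul' (tail_real hq hR hs hΔ hC20 hk) le_rfl
    have hint : ∫⁻ _t in Set.Icc (-(L * R)) (L * R), (1 : ℝ≥0∞) = ENNReal.ofReal (2 * L * R) := by
      rw [lintegral_one, Measure.restrict_apply_univ, Real.volume_Icc]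
      congr 1; ring
    calc _ ≤ ∫⁻ t in Set.Icc (-(L * R)) (L * R), (ENNReal.ofReal ((2:ℝ) ^ (1/2 : ℝ)) *
          (∫⁻ x, (Sh h ρ (R ^ e1 / 2) g S (M k) t x) ^ (3/2 : ℝ)) +
        ENNReal.ofReal ((2:ℝ) ^ (1/2 : ℝ)) * (ENNReal.ofReal (((2:ℝ) ^ k0) ^ (3/2 : ℝ) *
          Real.sqrt C2 * X) * (W0 * Ek))) := lintegral_mono fun t => hpt t
      _ = ENNReal.ofReal ((2:ℝ) ^ (1/2 : ℝ)) * (∫⁻ t in Set.Icc (-(L * R)) (L * R),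
          ∫⁻ x, (Sh h ρ (R ^ e1 / 2) g S (M k) t x) ^ (3/2 : ℝ)) +
        ENNReal.ofReal ((2:ℝ) ^ (1/2 : ℝ)) * (ENNReal.ofReal (((2:ℝ) ^ k0) ^ (3/2 : ℝ) *
          Real.sqrt C2 * X) * (W0 * Ek)) * ENNReal.ofReal (2 * L * R) := by
          rw [lintegral_add_right _ measurable_const, lintegral_const_mul' _ _ ENNReal.ofReal_ne_top,
            lintegral_const, Measure.restrict_apply_univ, Real.volume_Icc]
          congr 3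
          ring
      _ ≤ ENNReal.ofReal ((2:ℝ) ^ (1/2 : ℝ)) * (ENNReal.ofReal (C1 * R ^ (3 * e1 + ε / 2) *
            s ^ (q / 2) * Real.sqrt Δ * R) * Ek) +
        ENNReal.ofReal ((2:ℝ) ^ (1/2 : ℝ)) * (ENNReal.ofReal (((2:ℝ) ^ k0) ^ (3/2 : ℝ) *
          Real.sqrt C2 * X) * (W0 * Ek)) * ENNReal.ofReal (2 * L * R) := by
          refine add_le_add (mul_le_mul' le_rfl ?_) le_rfl
          exact h1 h R hR hv g S hSm hSA Δ hΔ hD s hs hs1 (cen s k) (M k) hMk hMk'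
      _ = (ENNReal.ofReal ((2:ℝ) ^ (1/2 : ℝ) * (C1 * R ^ (3 * e1 + ε / 2) *
            s ^ (q / 2) * Real.sqrt Δ * R)) +
          ENNReal.ofReal ((2:ℝ) ^ (1/2 : ℝ) * ((((2:ℝ) ^ k0) ^ (3/2 : ℝ) *
          Real.sqrt C2 * X) * w0 * (2 * L * R)))) * Ek := by
          rw [add_mul, ENNReal.ofReal_mul (p := (2:ℝ) ^ (1/2 : ℝ)) (by positivity),
            ENNReal.ofReal_mul (p := (2:ℝ) ^ (1/2 : ℝ)) (by positivity),
            ENNReal.ofReal_mul (p := (((2:ℝ) ^ k0) ^ (3/2 : ℝ) * Real.sqrt C2 * X) * w0)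
              (by positivity),
            ENNReal.ofReal_mul (p := (((2:ℝ) ^ k0) ^ (3/2 : ℝ) * Real.sqrt C2 * X))
              (by positivity), hW0]
          ring
      _ ≤ _ := by
          rw [← ENNReal.ofReal_add (by positivity) (by positivity)]
          refine mul_le_mul' (ENNReal.ofReal_le_ofReal ?_) le_rfl
          have h3 : R ^ (3 * e1 + ε / 2) ≤ R ^ ε :=
            Real.rpow_le_rpow_of_exponent_le hR (by linarith)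
          have h4 : 1 ≤ R ^ ε := Real.one_le_rpow hR hε.le
          calc (2:ℝ) ^ (1/2 : ℝ) * (C1 * R ^ (3 * e1 + ε / 2) * s ^ (q / 2) * Real.sqrt Δ * R) +
                (2:ℝ) ^ (1/2 : ℝ) * ((((2:ℝ) ^ k0) ^ (3/2 : ℝ) * Real.sqrt C2 * X) * w0 * (2 * L * R))
              = (2:ℝ) ^ (1/2 : ℝ) * (C1 * R ^ (3 * e1 + ε / 2) * X * R + C3 * 1 * X * R) := by
                rw [hX, hC3]; ring
            _ ≤ (2:ℝ) ^ (1/2 : ℝ) * (C1 * R ^ ε * X * R + C3 * R ^ ε * X * R) := by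
                gcongr
            _ = _ := by ring
  refine (Finset.sum_le_sum one).trans ?_
  rw [← Finset.mul_sum]
  have h5 := sum_fam (h := h) (ρ := ρ) hs0 hΛ K M (fun k hk => (hKMk k hk).1)
    (fun k hk => (hKMk k hk).2) (fun m => ∫⁻ y in S m, ‖um ρ g m y‖ₑ ^ 2)
  refine (mul_le_mul' le_rfl h5).trans ?_
  rw [← mul_assoc, ← ENNReal.ofReal_mul (by positivity)]
  refine mul_le_mul' (ENNReal.ofReal_le_ofReal (le_of_eq ?_)) le_rfl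
  rw [hX]; ring

theorem norm_cen_le {ρ : ℝ} (hρ : 0 < ρ) (hρ1 : ρ ≤ 1) {m : ℤ × ℤ} (hm : m ∈ caps ρ) :
    ‖cen ρ m‖ ≤ 6 := by
  unfold caps at hm
  rw [Finset.mem_product, Finset.mem_Icc, Finset.mem_Icc] at hm
  obtain ⟨⟨h1, h2⟩, h3, h4⟩ := hm
  have key : ∀ n : ℤ, -⌈2 / ρ⌉ - 1 ≤ n → n ≤ ⌈2 / ρ⌉ + 1 → |ρ * n| ≤ 4 := by
    intro n hn1 hn2
    have h5 := Int.ceil_lt_add_one (2 / ρ)
    have h6 : |(n : ℝ)| ≤ 2 / ρ + 2 := by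
      have h7 : ((-⌈2 / ρ⌉ - 1 : ℤ) : ℝ) ≤ n := by exact_mod_cast hn1
      have h8 : (n : ℝ) ≤ ((⌈2 / ρ⌉ + 1 : ℤ) : ℝ) := by exact_mod_cast hn2
      push_cast at h7 h8
      rw [abs_le]
      constructor <;> linarith
    rw [abs_mul, abs_of_pos hρ]
    calc ρ * |(n : ℝ)| ≤ ρ * (2 / ρ + 2) := mul_le_mul_of_nonneg_left h6 hρ.le
      _ = 2 + 2 * ρ := by field_simp
      _ ≤ 4 := by linarith
  have h5 := key _ h1 h2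
  have h6 := key _ h3 h4
  rw [EuclideanSpace.norm_eq, Real.sqrt_le_left (by norm_num)]
  simp only [Fin.sum_univ_two, Real.norm_eq_abs, cen_zero, cen_one, sq_abs]
  have h7 := sq_le_sq' (by linarith [abs_le.mp h5]) (abs_le.mp h5).2
  have h8 := sq_le_sq' (by linarith [abs_le.mp h6]) (abs_le.mp h6).2
  nlinarith

/-- **KMC in coefficient form.** -/
theorem kmca (hKM : ∀ V : ℝ, Tub70.KM32 V) {q A L Λ : ℝ} (hq : 0 ≤ q) (hA : 0 ≤ A)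
    (hL : 0 ≤ L) (hΛ : 0 ≤ Λ) (ε : ℝ) (hε : 0 < ε) : ∃ n0 : ℕ, ∀ n, n0 ≤ n →
    ∃ C : ℝ, 0 ≤ C ∧ ∀ h : E2 → ℝ, Bil882.NearId h (1 / 10) → fderiv ℝ h 0 = 0 →
      ∀ R : ℝ, 1 ≤ R →
      ∀ g : E2 → ℂ, Integrable g → ∀ S : ℤ × ℤ → Set E2, (∀ m, MeasurableSet (S m)) →
      (∀ m, ∀ y ∈ S m, ‖y‖ ≤ A * R) → ∀ Δ : ℝ, 0 ≤ Δ → Dens q h R g S Δ →
      ∀ s : ℝ, R ^ (-(1/2) : ℝ) ≤ s → s ≤ 1 →
      ∀ (K : Finset (ℤ × ℤ)) (M : ℤ × ℤ → Finset (ℤ × ℤ)),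
      (∀ k ∈ K, M k ⊆ caps (R ^ (-(1/2) : ℝ)) ∧
        ∀ m ∈ M k, ‖gradient h (cen (R ^ (-(1/2) : ℝ)) m) - cen s k‖ ≤ Λ * s) →
      ∑ k ∈ K, ∫⁻ t in Set.Icc (-(L * R)) (L * R), ∫⁻ x,
        (Ac n h (R ^ (-(1/2) : ℝ)) g S (M k) (0, t) x) ^ (3/2 : ℝ) ≤
      ENNReal.ofReal (C * R ^ ε * s ^ (q / 2) * Real.sqrt Δ * R) *
        en (R ^ (-(1/2) : ℝ)) g S := by
  obtain ⟨n0, h0⟩ := kmca_core hKM (q := q) (A := A) (L := L) (Λ := Λ) (V := 7) hq hA hL hΛ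
    (by norm_num) ε hε
  refine ⟨n0, fun n hn => ?_⟩
  obtain ⟨C, hC, h1⟩ := h0 n hn
  refine ⟨C, hC, fun h hh h0' R hR => h1 h R hR ?_⟩
  intro m hm
  obtain ⟨hρ, hρ1, _⟩ := rp_facts hR
  have h2 := norm_cen_le hρ hρ1 hm
  have h3 := Sup882.grad_norm_le hh h0' (cen (R ^ (-(1/2) : ℝ)) m)
  linarith

end Crest.Agent.R138.Kcc882
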