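import Crest.Agent.R138.Ad_480
import Crest.Agent.R138.Rect_779
import Crest.Agent.R138.DecC_685

/-!
# R138 / R139: WAVE side, doc 1979 (helper654), direct chain: literal LOCAL objects and Props.

Level `i` (parent): scale `r1`, angle `θ = an r1`, packets of side `1/θ = ρ_i`.
Level `j` (child): scale `r = dl * r1`, angle `θ' = an r`.  Level `k`: `dl * r`, angle `θ''`.
`g` = the root function in the frame of the parent ball (`tr h z_i g_root`),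
`S = uS I1 P1` = the selection of the parent class, `sel θ g S` = parent wave `F`.
-/

set_option autoImplicit false

open MeasureTheory
open scoped ENNReal

namespace Crest.Agent.R138.P654

open Crest.Agent.R138.Defs Crest.Agent.R138.W188 Crest.Agent.R138.Wpk685 Crest.Agent.R138.Loc878
  Crest.Agent.R138.Ad480 Crest.Agent.R138.Rect779

/-- angle of level `r`. -/
noncomputable abbrev an (r : ℝ) : ℝ := r ^ (-(1/2) : ℝ)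

/-- union of the selections of the plates whose normal satisfies `Q`. -/
def selQ (Q : OrthonormalBasis (Fin 2) ℝ E2 → Prop) (I1 : Finset ℕ) (P1 : ℕ → Plate)
    (m : ℤ × ℤ) : Set E2 :=
  {y | ∃ i ∈ I1, Q (P1 i).b ∧ y ∈ (P1 i).S m}

/-- sine of the angle of the normals `b 0`, `b' 0`. -/
noncomputable def sn (b b' : OrthonormalBasis (Fin 2) ℝ E2) : ℝ := |(inner ℝ (b 0) (b' 1) : ℝ)|

/-- aligned part of the parent selection, with respect to the frame `b` of a child plate. -/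
def Sal (δ : ℝ) (b : OrthonormalBasis (Fin 2) ℝ E2) (I1 : Finset ℕ) (P1 : ℕ → Plate) :
    ℤ × ℤ → Set E2 := selQ (fun b' => sn b b' ≤ δ) I1 P1

/-- misaligned part. -/
def Smis (δ : ℝ) (b : OrthonormalBasis (Fin 2) ℝ E2) (I1 : Finset ℕ) (P1 : ℕ → Plate) :
    ℤ × ℤ → Set E2 := selQ (fun b' => δ < sn b b') I1 P1

open Classical in
/-- coherence count of a child phase point `(m', y)` in the frame `z`, relative to the parent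
selection `S` and the child frame `b` (`b 0` = thin normal): number of child caps in the thin
rectangle with normal `b 0` whose density at `y` is at least `1/K0` times that of `m'`. -/
noncomputable def pot (n : ℕ) (h : E2 → ℝ) (θ θ' θ'' K0 : ℝ) (g : E2 → ℂ) (S : ℤ × ℤ → Set E2)
    (b : OrthonormalBasis (Fin 2) ℝ E2) (z : E2 × ℝ) (m' : ℤ × ℤ) (y : E2) : ℕ :=
  ((caps θ').filter fun m => cen θ' m ∈ RectF (b 0) (cen θ' m') (16 * θ'') (64 * θ') ∧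
    Ad n h θ θ' g S m' z y ≤ ENNReal.ofReal K0 * Ad n h θ θ' g S m z y).card

/-- **coherence bound** of a plate system of level `θ` (next angle `θ'`): at most `pp` caps of a
thin rectangle with normal `b 0` carry an aligned selected packet through the point `(x, z.2)`
(tolerance `Y / θ`). -/
def Coh (h : E2 → ℝ) (θ θ' δ Y T : ℝ) (I1 : Finset ℕ) (P1 : ℕ → Plate) (pp : ℝ) : Prop :=
  ∀ (b : OrthonormalBasis (Fin 2) ℝ E2) (c : E2) (z : E2 × ℝ) (x : E2), |z.2| ≤ T →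
    ∀ M : Finset (ℤ × ℤ), (∀ m ∈ M, m ∈ caps θ ∧ cen θ m ∈ RectF (b 0) c (8 * θ') (4 * θ) ∧
      ∃ y ∈ Sal δ b I1 P1 m, θ * ‖y - z.1 - z.2 • gradient h (cen θ m) - x‖ ≤ Y) →
    (M.card : ℝ) ≤ pp

/-- **parent class** in one frame. `s1 ≤ s2` sides of the plates, `D` density, `c0` = constant of
`dense`. -/
structure Par (q A c0 : ℝ) (h : E2 → ℝ) (g : E2 → ℂ) (r1 s1 s2 D : ℝ) (I1 : Finset ℕ)
    (P1 : ℕ → Plate) : Prop where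
  gi : Integrable g
  g2 : MemLp g 2
  gs : ∀ ξ, 1 < ‖ξ‖ → g ξ = 0
  D0 : 0 ≤ D
  sd : Sd r1 s1 s2
  meas : ∀ i ∈ I1, ∀ m, MeasurableSet ((P1 i).S m)
  cp : ∀ m, m ∉ caps (an r1) → uS I1 P1 m = ∅
  bd : ∀ m, uS I1 P1 m ⊆ Metric.closedBall 0 (A * r1)
  disj : ∀ i ∈ I1, ∀ j ∈ I1, i ≠ j → ∀ m, Disjoint ((P1 i).S m) ((P1 j).S m)
  box : ∀ i ∈ I1, ∀ m,
    (P1 i).S m ⊆ pbox h r1 (P1 i).c (P1 i).b (fun k => A * (![s1, s2] k)) (P1 i).x m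
  dens : Dens q h r1 g (uS I1 P1) D
  dense : ∀ i ∈ I1, ENNReal.ofReal (c0 * D * (s2 ^ q * (s1 * s2 * r1 ^ 2))) ≤
    en (an r1) g (P1 i).S

/-- all points of the child plates are **aligned**. -/
def IsAl (δ : ℝ) (h : E2 → ℝ) (g : E2 → ℂ) (dl r1 : ℝ) (I1 : Finset ℕ) (P1 : ℕ → Plate)
    (I : Finset ℕ) (P : ℕ → Plate) : Prop :=
  ∀ i ∈ I, ∀ m, ∀ y ∈ (P i).S m,
    ‖um (an (dl * r1)) (tr h (P i).z (sel (an r1) g (uS I1 P1))) m y‖ ≤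
      2 * ‖um (an (dl * r1)) (tr h (P i).z (sel (an r1) g (Sal δ (P i).b I1 P1))) m y‖

/-- all points of the child plates are **misaligned**. -/
def IsMis (δ : ℝ) (h : E2 → ℝ) (g : E2 → ℂ) (dl r1 : ℝ) (I1 : Finset ℕ) (P1 : ℕ → Plate)
    (I : Finset ℕ) (P : ℕ → Plate) : Prop :=
  ∀ i ∈ I, ∀ m, ∀ y ∈ (P i).S m,
    ‖um (an (dl * r1)) (tr h (P i).z (sel (an r1) g (uS I1 P1))) m y‖ ≤
      2 * ‖um (an (dl * r1)) (tr h (P i).z (sel (an r1) g (Smis δ (P i).b I1 P1))) m y‖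

/-- coefficient value of the parent class: `r1 · √D · (packet energy)`. -/
noncomputable def SCo (g : E2 → ℂ) (r1 D : ℝ) (S : ℤ × ℤ → Set E2) : ℝ≥0∞ :=
  ENNReal.ofReal (r1 * Real.sqrt D) * en (an r1) g S

/-- the tail: `Y^(-M)` times a power of `r1` times `(energy)^(3/2)`. -/
noncomputable def Tl (C Y : ℝ) (M : ℕ) (g : E2 → ℂ) (r1 : ℝ) : ℝ≥0∞ :=
  ENNReal.ofReal (C * r1 ^ (20 : ℕ) * (Y ^ M)⁻¹) * (ENNReal.ofReal (En g)) ^ (3/2 : ℝ)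

/-- **COHu**: the class of the level `i` phase points (relative to the level `h`, scale `r0`, class
`S0` of `g0`, relative frame `ζ`) implies the coherence bound. -/
def COHu (B : ℕ → ℝ) : Prop :=
  ∃ d0 : ℝ, 0 < d0 ∧ d0 ≤ 1 ∧ ∀ n : ℕ, ∃ K0 : ℝ, 1 ≤ K0 ∧ ∀ K : ℝ, K0 ≤ K →
  ∀ h, ParB B h → fderiv ℝ h 0 = 0 → ∀ (r0 dl Y a pp : ℝ) (g0 : E2 → ℂ)
    (S0 : ℤ × ℤ → Set E2) (ζ : E2 × ℝ) (I1 : Finset ℕ) (P1 : ℕ → Plate),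
    1 ≤ dl * r0 → 0 < dl → dl ≤ d0 → 1 ≤ Y → Y ≤ dl ^ (-(1/4) : ℝ) → |ζ.2| ≤ r0 → 0 ≤ a →
    1 ≤ pp → (∀ m, MeasurableSet (S0 m)) →
    (∀ i ∈ I1, ∀ m, ∀ y ∈ (P1 i).S m,
      ENNReal.ofReal a ≤ Ad n h (an r0) (an (dl * r0)) g0 S0 m ζ y ∧
      Ad n h (an r0) (an (dl * r0)) g0 S0 m ζ y ≤ ENNReal.ofReal (8 * a) ∧
      (pot n h (an r0) (an (dl * r0)) (an (dl * (dl * r0))) K g0 S0 (P1 i).b ζ m y : ℝ) ≤ pp) →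
    Coh h (an (dl * r0)) (an (dl * (dl * r0))) (dl ^ (1/2 : ℝ)) Y (2 * (dl * r0)) I1 P1 pp

/-- common hypotheses of `AL`, `MIS`, `STEP`. -/
structure Ctx (B : ℕ → ℝ) (q A d0 G c0 : ℝ) (h : E2 → ℝ) (g : E2 → ℂ)
    (r1 dl Y Gm s1' s2' s1 s2 D : ℝ) (I1 : Finset ℕ) (P1 : ℕ → Plate) (I : Finset ℕ)
    (P : ℕ → Plate) : Prop where
  parB : ParB B h
  h1 : fderiv ℝ h 0 = 0
  par : Par q A c0 h g r1 s1' s2' D I1 P1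
  c0pos : 0 < c0
  c0le : c0 ≤ 1
  dlpos : 0 < dl
  dlle : dl ≤ d0
  r1ge : dl ^ (-G) ≤ r1
  Gm1 : 1 ≤ Gm
  Y1 : 1 ≤ Y
  Y2 : Y ≤ dl ^ (-(1/4) : ℝ)
  sd : Sd (dl * r1) s1 s2
  pl : Plates A h (dl * r1) s1 s2 r1 I P
  cp : ∀ i ∈ I, ∀ m, m ∉ caps (an (dl * r1)) → (P i).S m = ∅
  thin' : s1' ≤ Gm * an r1
  thin : s1 ≤ Gm * an (dl * r1)

/-- **child class**: the selected points of the child plates have density in `[a, 8a]` and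
coherence count `≥ p` (with respect to their own plate). -/
structure Chi (n : ℕ) (K0 : ℝ) (h : E2 → ℝ) (g : E2 → ℂ) (dl r1 a p : ℝ)
    (S : ℤ × ℤ → Set E2) (I : Finset ℕ) (P : ℕ → Plate) : Prop where
  lo : ∀ i ∈ I, ∀ m, ∀ y ∈ (P i).S m,
    ENNReal.ofReal a ≤ Ad n h (an r1) (an (dl * r1)) g S m (P i).z y
  hi : ∀ i ∈ I, ∀ m, ∀ y ∈ (P i).S m,
    Ad n h (an r1) (an (dl * r1)) g S m (P i).z y ≤ ENNReal.ofReal (8 * a)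
  pot : ∀ i ∈ I, ∀ m, ∀ y ∈ (P i).S m,
    p ≤ (pot n h (an r1) (an (dl * r1)) (an (dl * (dl * r1))) K0 g S (P i).b (P i).z m y : ℝ)

/-- **AL** = UPPER + LOWER + KMC (slab step, aligned plates). -/
def AL (B : ℕ → ℝ) (q : ℝ) : Prop :=
  ∀ A : ℝ, 1 ≤ A → ∃ d0 G : ℝ, 0 < d0 ∧ d0 ≤ 1 ∧ 1 ≤ G ∧
  ∀ ε : ℝ, 0 < ε → ∃ n0 : ℕ, ∀ n : ℕ, n0 ≤ n → ∀ K0 : ℝ, 1 ≤ K0 → ∃ G' : ℝ, 0 ≤ G' ∧
  ∀ M : ℕ, ∃ C : ℝ, 0 ≤ C ∧
  ∀ (c0 : ℝ) (h : E2 → ℝ) (g : E2 → ℂ) (r1 dl Y Gm s1' s2' s1 s2 D a p pp : ℝ)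
    (I1 : Finset ℕ) (P1 : ℕ → Plate) (I : Finset ℕ) (P : ℕ → Plate),
    Ctx B q A d0 G c0 h g r1 dl Y Gm s1' s2' s1 s2 D I1 P1 I P →
    an (dl * (dl * r1)) ≤ s2 →
    Coh h (an r1) (an (dl * r1)) (dl ^ (1/2 : ℝ)) Y (2 * r1) I1 P1 pp → 1 ≤ pp → 0 ≤ a → 1 ≤ p →
    Chi n K0 h g dl r1 a p (uS I1 P1) I P →
    IsAl (dl ^ (1/2 : ℝ)) h g dl r1 I1 P1 I P →
    ENNReal.ofReal (s2 ^ (-q / 2)) * val h (sel (an r1) g (uS I1 P1)) (dl * r1) s1 s2 I P ≤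
      ENNReal.ofReal (C * r1 ^ ε * Y ^ G' * Gm ^ G * (pp / p) ^ (1/2 : ℝ)) *
        SCo g r1 D (uS I1 P1) + Tl C Y M g r1

/-- **MIS**: misaligned plates are a gain, if both levels are thin and wide. -/
def MIS (B : ℕ → ℝ) (q : ℝ) : Prop :=
  ∀ A : ℝ, 1 ≤ A → ∃ d0 G : ℝ, 0 < d0 ∧ d0 ≤ 1 ∧ 1 ≤ G ∧
  ∀ ε : ℝ, 0 < ε → ∃ G' : ℝ, 0 ≤ G' ∧ ∀ M : ℕ, ∃ C : ℝ, 0 ≤ C ∧
  ∀ (c0 : ℝ) (h : E2 → ℝ) (g : E2 → ℂ) (r1 dl Y Gm s1' s2' s1 s2 D : ℝ)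
    (I1 : Finset ℕ) (P1 : ℕ → Plate) (I : Finset ℕ) (P : ℕ → Plate),
    Ctx B q A d0 G c0 h g r1 dl Y Gm s1' s2' s1 s2 D I1 P1 I P →
    dl ^ (-G) * an r1 ≤ s2' → dl ^ (-G) * an (dl * r1) ≤ s2 →
    IsMis (dl ^ (1/2 : ℝ)) h g dl r1 I1 P1 I P →
    ENNReal.ofReal (s2 ^ (-q / 2)) * val h (sel (an r1) g (uS I1 P1)) (dl * r1) s1 s2 I P ≤
      ENNReal.ofReal (C * r1 ^ ε * (Y / c0) ^ G' * Gm ^ G * dl ^ (1/2 : ℝ)) *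
        SCo g r1 D (uS I1 P1) + Tl C Y M g r1

/-- **STEP** = AL + MIS (no alignment hypothesis). -/
def STEP (B : ℕ → ℝ) (q : ℝ) : Prop :=
  ∀ A : ℝ, 1 ≤ A → ∃ d0 G : ℝ, 0 < d0 ∧ d0 ≤ 1 ∧ 1 ≤ G ∧
  ∀ ε : ℝ, 0 < ε → ∃ n0 : ℕ, ∀ n : ℕ, n0 ≤ n → ∀ K0 : ℝ, 1 ≤ K0 → ∃ G' : ℝ, 0 ≤ G' ∧
  ∀ M : ℕ, ∃ C : ℝ, 0 ≤ C ∧
  ∀ (c0 : ℝ) (h : E2 → ℝ) (g : E2 → ℂ) (r1 dl Y Gm s1' s2' s1 s2 D a p pp : ℝ)
    (I1 : Finset ℕ) (P1 : ℕ → Plate) (I : Finset ℕ) (P : ℕ → Plate),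
    Ctx B q A d0 G c0 h g r1 dl Y Gm s1' s2' s1 s2 D I1 P1 I P →
    dl ^ (-G) * an r1 ≤ s2' → dl ^ (-G) * an (dl * r1) ≤ s2 →
    Coh h (an r1) (an (dl * r1)) (dl ^ (1/2 : ℝ)) Y (2 * r1) I1 P1 pp → 1 ≤ pp → 0 ≤ a → 1 ≤ p →
    Chi n K0 h g dl r1 a p (uS I1 P1) I P →
    ENNReal.ofReal (s2 ^ (-q / 2)) * val h (sel (an r1) g (uS I1 P1)) (dl * r1) s1 s2 I P ≤
      ENNReal.ofReal (C * r1 ^ ε * (Y / c0) ^ G' * Gm ^ G *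
        ((pp / p) ^ (1/2 : ℝ) + dl ^ (1/2 : ℝ))) * SCo g r1 D (uS I1 P1) + Tl C Y M g r1

end Crest.Agent.R138.P654
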