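import Crest.Agent.R138.Wpk8_685
import Crest.Agent.R138.DecDef_774

/-!
# R138 / R139: selectable wave packets, part 9 (helper685): greedy data, labels, analytic helpers.
-/

set_option autoImplicit false
set_option linter.unusedSectionVars false
set_option linter.unusedVariables false

open MeasureTheory FourierTransform
open scoped ContDiff ENNReal

namespace Crest.Agent.R138.Wpk685

open Crest.Agent.R138.Defs Crest.Agent.R138.W188

/-! ### analytic helpers -/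

theorem lintEn {f : E2 → ℂ} (hf : MemLp f 2) : ∫⁻ ξ, ‖f ξ‖ₑ ^ 2 = ENNReal.ofReal (En f) := by
  unfold En
  rw [ofReal_integral_eq_lintegral_ofReal hf.norm.integrable_sq
    (Filter.Eventually.of_forall fun _ => by positivity)]
  refine lintegral_congr fun ξ => ?_
  rw [ENNReal.ofReal_pow (norm_nonneg _), ofReal_norm]

theorem En_nn (g : E2 → ℂ) : 0 ≤ En g := integral_nonneg fun _ => by positivity

theorem norm_tr' (h : E2 → ℝ) (z : E2 × ℝ) (g : E2 → ℂ) (ξ : E2) : ‖tr h z g ξ‖ = ‖g ξ‖ := by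
  unfold tr
  rw [norm_mul, norm_ee, mul_one]

theorem En_tr' (h : E2 → ℝ) (z : E2 × ℝ) (g : E2 → ℂ) : En (tr h z g) = En g := by
  unfold En
  simp only [norm_tr']

theorem En_sub_le {f g : E2 → ℂ} (hf : MemLp f 2) (hg : MemLp g 2) :
    En (fun ξ => f ξ - g ξ) ≤ 2 * En f + 2 * En g := by
  unfold En
  rw [← integral_const_mul, ← integral_const_mul, ← integral_add]
  · refine integral_mono_of_nonneg (Filter.Eventually.of_forall fun _ => by positivity) ?_ ?_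
    · exact (hf.norm.integrable_sq.const_mul 2).add (hg.norm.integrable_sq.const_mul 2)
    · refine Filter.Eventually.of_forall fun ξ => ?_
      have h1 := norm_sub_le (f ξ) (g ξ)
      have h2 := norm_nonneg (f ξ - g ξ)
      simp only
      nlinarith [sq_nonneg (‖f ξ‖ - ‖g ξ‖)]
  · exact hf.norm.integrable_sq.const_mul 2
  · exact hg.norm.integrable_sq.const_mul 2

theorem norm_le_of_enorm_sq {z : ℂ} {a : ℝ} (ha : 0 ≤ a) (h : ‖z‖ₑ ^ 2 ≤ ENNReal.ofReal a) :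
    ‖z‖ ≤ Real.sqrt a := by
  rw [← ofReal_norm, ← ENNReal.ofReal_pow (norm_nonneg _), ENNReal.ofReal_le_ofReal_iff ha] at h
  exact Real.le_sqrt_of_sq_le h

theorem phase_cont {h : E2 → ℝ} (hh : Continuous h) (x : E2) (t : ℝ) :
    Continuous fun ξ => ee (inner ℝ x ξ + t * h ξ) :=
  contDiff_ee.continuous.comp
    ((continuous_const.inner continuous_id).add (continuous_const.mul hh))

theorem phase_int {h : E2 → ℝ} (hh : Continuous h) {f : E2 → ℂ} (hf : Integrable f) (x : E2)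
    (t : ℝ) : Integrable (fun ξ => f ξ * ee (inner ℝ x ξ + t * h ξ)) :=
  hf.mul_bdd (c := 1) (phase_cont hh x t).aestronglyMeasurable
    (Filter.Eventually.of_forall fun y => (norm_ee _).le)

theorem ext_lin {h : E2 → ℝ} (hh : Continuous h) {f1 f2 f3 : E2 → ℂ} (h1 : Integrable f1)
    (h2 : Integrable f2) (h3 : Integrable f3) (x : E2) (t : ℝ) :
    ext h (fun ξ => f1 ξ - f2 ξ + f3 ξ) x t = ext h f1 x t - ext h f2 x t + ext h f3 x t := by
  unfold Defs.ext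
  have i1 := phase_int hh h1 x t
  have i2 := phase_int hh h2 x t
  have i3 := phase_int hh h3 x t
  have i12 : Integrable (fun ξ => f1 ξ * ee (inner ℝ x ξ + t * h ξ) -
      f2 ξ * ee (inner ℝ x ξ + t * h ξ)) := i1.sub i2
  rw [← integral_sub i1 i2, ← integral_add i12 i3]
  congr 1
  funext ξ
  ring

theorem sup_ext : ∃ C : ℝ, 0 ≤ C ∧ ∀ (h : E2 → ℝ) (F : E2 → ℂ), MemLp F 2 →
    (∀ ξ, 2 < ‖ξ‖ → F ξ = 0) → ∀ (x : E2) (t : ℝ), ‖ext h F x t‖ ≤ C * Real.sqrt (En F) := by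
  set V : ℝ≥0∞ := volume (Metric.closedBall (0 : E2) 2) with hV
  have hVt : V ≠ ⊤ := measure_closedBall_lt_top.ne
  refine ⟨Real.sqrt V.toReal, by positivity, ?_⟩
  intro h F hF hs x t
  rw [← Real.sqrt_mul ENNReal.toReal_nonneg]
  refine norm_le_of_enorm_sq (mul_nonneg ENNReal.toReal_nonneg (En_nn F)) ?_
  rw [ENNReal.ofReal_mul ENNReal.toReal_nonneg, ENNReal.ofReal_toReal hVt, ← lintEn hF]
  have h1 : ‖ext h F x t‖ₑ ≤ ∫⁻ ξ, ‖F ξ‖ₑ * (Metric.closedBall (0 : E2) 2).indicator 1 ξ := by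
    unfold Defs.ext
    refine (enorm_integral_le_lintegral_enorm _).trans (lintegral_mono fun ξ => ?_)
    simp only
    rw [enorm_mul]
    have h2 : ‖ee (inner ℝ x ξ + t * h ξ)‖ₑ = 1 := by
      rw [← ofReal_norm, norm_ee, ENNReal.ofReal_one]
    rw [h2, mul_one]
    by_cases hξ : ξ ∈ Metric.closedBall (0 : E2) 2
    · rw [Set.indicator_of_mem hξ, Pi.one_apply, mul_one]
    · rw [hs ξ (by rw [Metric.mem_closedBall, dist_zero_right] at hξ; linarith [not_le.1 hξ])]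
      simp
  have hm : Measurable ((Metric.closedBall (0 : E2) 2).indicator (1 : E2 → ℝ≥0∞)) :=
    measurable_one.indicator Metric.isClosed_closedBall.measurableSet
  refine (pow_le_pow_left₀ zero_le h1 2).trans ?_
  refine (lint_sq_le hF.1.enorm hm.aemeasurable).trans ?_
  rw [lintegral_indicator_one Metric.isClosed_closedBall.measurableSet]
  refine mul_le_mul_right ?_ _
  refine lintegral_mono fun ξ => ?_
  calc ‖F ξ‖ₑ ^ 2 * (Metric.closedBall (0 : E2) 2).indicator 1 ξ ≤ ‖F ξ‖ₑ ^ 2 * 1 := by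
        gcongr
        exact Set.indicator_le_self' (fun _ _ => zero_le) ξ
    _ = _ := mul_one _

theorem norm_le_of_inner (b : OrthonormalBasis (Fin 2) ℝ E2) {v : E2} {a : ℝ}
    (h : ∀ i, |inner ℝ v (b i)| ≤ a) : ‖v‖ ≤ 2 * a := by
  have ha : 0 ≤ a := (abs_nonneg _).trans (h 0)
  refine le_of_sq_le_sq ?_ (by positivity)
  rw [← b.sum_sq_inner_left v, Fin.sum_univ_two]
  have h0 := h 0
  have h1 := h 1
  have e0 := sq_abs (inner ℝ v (b 0))
  have e1 := sq_abs (inner ℝ v (b 1))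
  have a0 := abs_nonneg (inner ℝ v (b 0))
  have a1 := abs_nonneg (inner ℝ v (b 1))
  nlinarith

theorem PBox_mono {q : ℝ} {Na : ℕ} {h : E2 → ℝ} {g : E2 → ℂ} {R D D' : ℝ} (hR : 1 ≤ R)
    (H : PBox q Na h g R D) (hD : D ≤ D') : PBox q Na h g R D' := by
  intro c b s hs ψ hψ x0 t0 hx ht
  refine (H c b s hs ψ hψ x0 t0 hx ht).trans (ENNReal.ofReal_le_ofReal ?_)
  have hR0 : 0 < R := by linarith
  have h0 : 0 < s 0 := (Real.rpow_pos_of_pos hR0 _).trans_le (hs 0).1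
  have h1 : 0 < s 1 := (Real.rpow_pos_of_pos hR0 _).trans_le (hs 1).1
  have h2 : 0 < max (s 0) (s 1) := lt_max_of_lt_left h0
  gcongr

/-! ### greedy data -/

theorem greedy {q : ℝ} {h : E2 → ℝ} {ρ l r : ℝ} {g : E2 → ℂ} {n : ℕ} (X0 : Finset Cel) {Δ0 : ℝ}
    (H0 : DD q h ρ l r g n X0 Δ0) :
    ∃ (X : ℕ → Finset Cel) (nn : ℕ → ℕ) (P : ℕ → ℕ → Tst) (A : ℕ → ℕ → Finset Cel),
      X 0 = X0 ∧
      (∀ j, ∀ i < nn j, A j i ⊆ X j ∧ (P j i).a 0 ≤ (P j i).a 1 ∧ (P j i).a 1 ≤ n ∧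
        (∀ x ∈ A j i, inP h ρ l r (P j i) x) ∧
        ENNReal.ofReal (Δ0 / 2 ^ (j + 1) * cst q ρ r (P j i).a) < ∑ x ∈ A j i, ec ρ l g x) ∧
      (∀ j, ∀ i < nn j, ∀ i' < nn j, i ≠ i' → Disjoint (A j i) (A j i')) ∧
      (∀ j, ∀ x, x ∈ X (j + 1) ↔ x ∈ X j ∧ ∀ i < nn j, x ∉ A j i) ∧
      ∀ j, DD q h ρ l r g n (X j) (Δ0 / 2 ^ j) := by
  classical
  obtain ⟨X, nn, P, A, hX0, H⟩ := levels (ec ρ l g) (inP h ρ l r)
    (fun j p => if p.a 0 ≤ p.a 1 ∧ p.a 1 ≤ n then ENNReal.ofReal (Δ0 / 2 ^ (j + 1) * cst q ρ r p.a)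
      else ⊤) X0
  refine ⟨X, nn, fun j i => (P j i).getD ⟨0, EuclideanSpace.basisFun (Fin 2) ℝ, 0, fun _ => 0⟩, A,
    hX0, ?_, fun j => (H j).2.1, fun j => (H j).2.2.1, ?_⟩
  · intro j i hi
    obtain ⟨h1, p, hp, h2, h3⟩ := (H j).1 i hi
    simp only [hp, Option.getD_some]
    by_cases hc : p.a 0 ≤ p.a 1 ∧ p.a 1 ≤ n
    · simp only [if_pos hc] at h3
      exact ⟨h1, hc.1, hc.2, h2, h3⟩
    · simp only [if_neg hc] at h3
      exact absurd h3 not_top_lt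
  · intro j
    rcases j with _ | j
    · rw [hX0, pow_zero, div_one]
      exact H0
    · intro p h1 h2
      have h3 := (H j).2.2.2 p
      simp only [if_pos (And.intro h1 h2)] at h3
      exact h3

section comb

variable {X : ℕ → Finset Cel} {nn : ℕ → ℕ} {A : ℕ → ℕ → Finset Cel}
  (hA : ∀ j, ∀ i < nn j, A j i ⊆ X j)
  (hd : ∀ j, ∀ i < nn j, ∀ i' < nn j, i ≠ i' → Disjoint (A j i) (A j i'))
  (hX : ∀ j, ∀ x, x ∈ X (j + 1) ↔ x ∈ X j ∧ ∀ i < nn j, x ∉ A j i)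

include hX in
theorem X_anti {j j' : ℕ} (h : j ≤ j') : X j' ⊆ X j := by
  induction j', h using Nat.le_induction with
  | base => exact Finset.Subset.refl _
  | succ k hk ih => exact fun x hx => ih ((hX k x).1 hx).1

include hA hd hX in
theorem A_uniq {j i j' i' : ℕ} (hi : i < nn j) (hi' : i' < nn j') {x : Cel} (hx : x ∈ A j i)
    (hx' : x ∈ A j' i') : j = j' ∧ i = i' := by
  have key : ∀ {j i j' i' : ℕ}, i < nn j → i' < nn j' → x ∈ A j i → x ∈ A j' i' → ¬ j < j' := by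
    intro j i j' i' hi hi' hx hx' hlt
    have h1 := X_anti hX (Nat.succ_le_of_lt hlt) (hA j' i' hi' hx')
    exact ((hX j x).1 h1).2 i hi hx
  have hjj : j = j' := le_antisymm (not_lt.1 (key hi' hi hx' hx)) (not_lt.1 (key hi hi' hx hx'))
  subst hjj
  refine ⟨rfl, ?_⟩
  by_contra hne
  exact Finset.disjoint_left.1 (hd j i hi i' hi' hne) hx hx'

include hA hX in
theorem X_part (J : ℕ) (x : Cel) :
    x ∈ X 0 ↔ x ∈ X J ∨ ∃ j < J, ∃ i < nn j, x ∈ A j i := by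
  induction J with
  | zero => simp
  | succ J ih =>
    rw [ih, hX]
    constructor
    · rintro (h | ⟨j, hj, i, hi, h⟩)
      · by_cases h2 : ∃ i < nn J, x ∈ A J i
        · obtain ⟨i, hi, h3⟩ := h2
          exact Or.inr ⟨J, by omega, i, hi, h3⟩
        · push Not at h2
          exact Or.inl ⟨h, h2⟩
      · exact Or.inr ⟨j, by omega, i, hi, h⟩
    · rintro (h | ⟨j, hj, i, hi, h⟩)
      · exact Or.inl h.1
      · rcases Nat.lt_succ_iff_lt_or_eq.1 hj with h2 | h2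
        · exact Or.inr ⟨j, h2, i, hi, h⟩
        · subst h2
          exact Or.inl (hA j i hi h)

end comb

/-! ### labels -/

/-- code of a label. -/
def lab (a0 a1 j : ℕ) : ℕ := Nat.pair (Nat.pair a0 a1) j
def la0 (k : ℕ) : ℕ := (Nat.unpair (Nat.unpair k).1).1
def la1 (k : ℕ) : ℕ := (Nat.unpair (Nat.unpair k).1).2
def lj (k : ℕ) : ℕ := (Nat.unpair k).2

theorem la0_lab (a0 a1 j : ℕ) : la0 (lab a0 a1 j) = a0 := by simp [la0, lab]
theorem la1_lab (a0 a1 j : ℕ) : la1 (lab a0 a1 j) = a1 := by simp [la1, lab]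
theorem lj_lab (a0 a1 j : ℕ) : lj (lab a0 a1 j) = j := by simp [lj, lab]
theorem lab_self (k : ℕ) : lab (la0 k) (la1 k) (lj k) = k := by
  unfold lab la0 la1 lj
  rw [Nat.pair_unpair, Nat.pair_unpair]

/-- the finite set of labels. -/
def Lam (n J : ℕ) : Finset ℕ :=
  (((Finset.range (n + 1) ×ˢ Finset.range (n + 1)) ×ˢ Finset.range J).image
    (fun t => lab t.1.1 t.1.2 t.2)).filter (fun k => la0 k ≤ la1 k)

theorem mem_Lam {n J k : ℕ} : k ∈ Lam n J ↔ la0 k ≤ la1 k ∧ la1 k ≤ n ∧ lj k < J := by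
  unfold Lam
  rw [Finset.mem_filter, Finset.mem_image]
  constructor
  · rintro ⟨⟨t, ht, rfl⟩, h1⟩
    rw [Finset.mem_product, Finset.mem_product, Finset.mem_range, Finset.mem_range,
      Finset.mem_range] at ht
    rw [la0_lab, la1_lab] at h1
    rw [la0_lab, la1_lab, lj_lab]
    exact ⟨h1, by omega, ht.2⟩
  · rintro ⟨h1, h2, h3⟩
    refine ⟨⟨((la0 k, la1 k), lj k), ?_, lab_self k⟩, h1⟩
    rw [Finset.mem_product, Finset.mem_product, Finset.mem_range, Finset.mem_range,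
      Finset.mem_range]
    exact ⟨⟨by simp only; omega, by simp only; omega⟩, h3⟩

theorem card_Lam (n J : ℕ) : (Lam n J).card ≤ (n + 1) ^ 2 * J := by
  unfold Lam
  refine (Finset.card_filter_le _ _).trans (Finset.card_image_le.trans ?_)
  rw [Finset.card_product, Finset.card_product, Finset.card_range, Finset.card_range, sq]

theorem card_bound {ε : ℝ} (hε : 0 < ε) (T : ℕ) : ∃ C : ℝ, 0 ≤ C ∧ ∀ R : ℝ, 1 ≤ R →
    ((Lam ⌈Real.logb 2 R⌉₊ (T * ⌈Real.logb 2 R⌉₊)).card : ℝ) ≤ C * R ^ ε := by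
  refine ⟨T * (6 / ε + 2) ^ 3, by positivity, ?_⟩
  intro R hR
  set n := ⌈Real.logb 2 R⌉₊ with hn
  have hR0 : 0 < R := by linarith
  have h1 : (n : ℝ) < Real.logb 2 R + 1 := Nat.ceil_lt_add_one (Real.logb_nonneg (by norm_num) hR)
  have h2 : Real.logb 2 R ≤ 2 * Real.log R := by
    unfold Real.logb
    have h3 := Real.log_two_gt_d9
    have h4 : 0 ≤ Real.log R := Real.log_nonneg hR
    rw [div_le_iff₀ (by linarith)]
    nlinarith
  have h3 : Real.log R ≤ R ^ (ε / 3) / (ε / 3) := Real.log_le_rpow_div hR0.le (by positivity)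
  have h4 : 1 ≤ R ^ (ε / 3) := Real.one_le_rpow hR (by positivity)
  have h5 : (n : ℝ) + 1 ≤ (6 / ε + 2) * R ^ (ε / 3) := by
    have h6 : R ^ (ε / 3) / (ε / 3) = 3 / ε * R ^ (ε / 3) := by
      field_simp
    rw [h6] at h3
    have h7 : (6 / ε + 2) * R ^ (ε / 3) = 2 * (3 / ε * R ^ (ε / 3)) + 2 * R ^ (ε / 3) := by ring
    rw [h7]
    linarith
  have h8 : ((Lam n (T * n)).card : ℝ) ≤ (n + 1) ^ 2 * (T * n) := by
    exact_mod_cast card_Lam n (T * n)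
  have h9 : (R ^ (ε / 3)) ^ 3 = R ^ ε := by
    rw [← Real.rpow_natCast, ← Real.rpow_mul hR0.le]
    congr 1
    push_cast
    ring
  calc ((Lam n (T * n)).card : ℝ) ≤ (n + 1) ^ 2 * (T * n) := h8
    _ ≤ T * ((n:ℝ) + 1) ^ 3 := by
        have h10 : (0:ℝ) ≤ n := Nat.cast_nonneg _
        have h11 : (0:ℝ) ≤ T := Nat.cast_nonneg _
        have : ((n:ℝ) + 1) ^ 2 * (T * n) ≤ ((n:ℝ) + 1) ^ 2 * (T * (n + 1)) := by
          gcongr
          linarith
        linarith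
    _ ≤ T * ((6 / ε + 2) * R ^ (ε / 3)) ^ 3 := by gcongr
    _ = T * (6 / ε + 2) ^ 3 * R ^ ε := by rw [mul_pow, h9]; ring

theorem two_pow_logb {R : ℝ} (hR : 1 ≤ R) : R ≤ 2 ^ ⌈Real.logb 2 R⌉₊ := by
  have h1 : R = 2 ^ Real.logb 2 R := (Real.rpow_logb (by norm_num) (by norm_num) (by linarith)).symm
  calc R = 2 ^ Real.logb 2 R := h1
    _ ≤ (2:ℝ) ^ ((⌈Real.logb 2 R⌉₊ : ℕ) : ℝ) := by
        exact Real.rpow_le_rpow_of_exponent_le (by norm_num) (Nat.le_ceil _)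
    _ = _ := Real.rpow_natCast _ _

/-! ### the inequality (D6) for one plate -/

theorem d6_real {q s1 s2 r Δ e : ℝ} (hs1 : 0 < s1) (hs2 : 0 < s2) (hr : 0 < r) (hΔ : 0 ≤ Δ)
    (he : Δ / 2 * (s2 ^ q * (s1 * s2 * r ^ 2)) ≤ e) (he0 : 0 ≤ e) :
    Real.sqrt Δ * r * e ≤ Real.sqrt 2 * (s2 ^ (-q / 2) *
      ((s1 * s2 * r ^ 3) ^ (-(1/2) : ℝ) * (r * e) ^ (3 / 2 : ℝ))) := by
  rcases eq_or_lt_of_le he0 with h0 | h0
  · rw [← h0, mul_zero]
    positivity
  set u : ℝ := s2 ^ (q / 2) with hu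
  have hu0 : 0 < u := Real.rpow_pos_of_pos hs2 _
  have e1 : s2 ^ q = u ^ 2 := by
    rw [hu, ← Real.rpow_natCast, ← Real.rpow_mul hs2.le]
    congr 1; push_cast; ring
  have e2 : s2 ^ (-q / 2) = u⁻¹ := by
    rw [hu, ← Real.rpow_neg hs2.le]
    congr 1; ring
  set v : ℝ := Real.sqrt (s1 * s2) with hv
  have hv0 : 0 < v := Real.sqrt_pos.2 (mul_pos hs1 hs2)
  have e3 : s1 * s2 = v ^ 2 := (Real.sq_sqrt (mul_pos hs1 hs2).le).symm
  set w : ℝ := Real.sqrt r with hw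
  have hw0 : 0 < w := Real.sqrt_pos.2 hr
  have e4 : r = w ^ 2 := (Real.sq_sqrt hr.le).symm
  set E : ℝ := Real.sqrt e with hE
  have hE0 : 0 < E := Real.sqrt_pos.2 h0
  have e5 : e = E ^ 2 := (Real.sq_sqrt he0).symm
  set D : ℝ := Real.sqrt Δ with hD
  have hD0 : 0 ≤ D := Real.sqrt_nonneg _
  have e6 : Δ = D ^ 2 := (Real.sq_sqrt hΔ).symm
  set t : ℝ := Real.sqrt 2 with ht
  have ht0 : 0 < t := Real.sqrt_pos.2 (by norm_num)
  have e7 : t ^ 2 = 2 := Real.sq_sqrt (by norm_num)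
  have e8 : (s1 * s2 * r ^ 3) ^ (-(1/2) : ℝ) = (v * w ^ 3)⁻¹ := by
    have : s1 * s2 * r ^ 3 = (v * w ^ 3) ^ 2 := by rw [e3, e4]; ring
    rw [this, ← Real.rpow_natCast, ← Real.rpow_mul (by positivity)]
    have h2 : ((2:ℕ):ℝ) * (-(1/2)) = -1 := by norm_num
    rw [h2, Real.rpow_neg_one]
  have e9 : (r * e) ^ (3 / 2 : ℝ) = (w * E) ^ 3 := by
    have : r * e = (w * E) ^ 2 := by rw [e4, e5]; ring
    rw [this, ← Real.rpow_natCast, ← Real.rpow_mul (by positivity)]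
    have h2 : ((2:ℕ):ℝ) * (3/2) = ((3:ℕ):ℝ) := by norm_num
    rw [h2, Real.rpow_natCast]
  rw [e2, e8, e9]
  have key : D * w ^ 2 * u * v ≤ t * E := by
    refine le_of_sq_le_sq ?_ (by positivity)
    rw [e1, e3, e5, e6, e4] at he
    have : (D * w ^ 2 * u * v) ^ 2 = 2 * (D ^ 2 / 2 * (u ^ 2 * (v ^ 2 * (w ^ 2) ^ 2))) := by ring
    rw [this, mul_pow, e7]
    linarith
  have e10 : D * r * e = (D * w ^ 2 * u * v) * (E ^ 2 * (u⁻¹ * v⁻¹)) := by
    rw [e4, e5]; field_simp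
  have e11 : t * (u⁻¹ * ((v * w ^ 3)⁻¹ * (w * E) ^ 3)) = (t * E) * (E ^ 2 * (u⁻¹ * v⁻¹)) := by
    field_simp
  rw [e10, e11]
  gcongr

theorem d6_enn {q s1 s2 r Δ : ℝ} {e : ℝ≥0∞} (hs1 : 0 < s1) (hs2 : 0 < s2) (hr : 0 < r)
    (hΔ : 0 ≤ Δ) (het : e ≠ ⊤)
    (he : ENNReal.ofReal (Δ / 2 * (s2 ^ q * (s1 * s2 * r ^ 2))) ≤ e) :
    ENNReal.ofReal (Real.sqrt Δ * r) * e ≤ ENNReal.ofReal (Real.sqrt 2) *
      (ENNReal.ofReal (s2 ^ (-q / 2)) * (ENNReal.ofReal ((s1 * s2 * r ^ 3) ^ (-(1/2) : ℝ)) *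
        (ENNReal.ofReal r * e) ^ (3 / 2 : ℝ))) := by
  set e' : ℝ := e.toReal with he'
  have h1 : e = ENNReal.ofReal e' := (ENNReal.ofReal_toReal het).symm
  have h2 : 0 ≤ e' := ENNReal.toReal_nonneg
  rw [h1] at he ⊢
  rw [ENNReal.ofReal_le_ofReal_iff h2] at he
  have h3 := d6_real (q := q) hs1 hs2 hr hΔ he h2
  rw [← ENNReal.ofReal_mul hr.le, ENNReal.ofReal_rpow_of_nonneg (by positivity) (by norm_num),
    ← ENNReal.ofReal_mul (by positivity), ← ENNReal.ofReal_mul (by positivity),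
    ← ENNReal.ofReal_mul (by positivity), ← ENNReal.ofReal_mul (by positivity)]
  exact ENNReal.ofReal_le_ofReal h3

end Crest.Agent.R138.Wpk685
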