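import Crest.Agent.R138.Sm6_858
import Crest.Agent.R138.Kcc5_882
import Crest.Agent.R138.PDef_654
import Crest.Agent.R138.Wpk9_685

/-!
# R138 / R139, wave side (helper858): assembly of `AL` from the pointwise input (H)
-/

set_option autoImplicit false

open MeasureTheory FourierTransform
open scoped ContDiff ENNReal

namespace Crest.Agent.R138.Sm858

open Crest.Agent.R138.Defs Crest.Agent.R138.Wf448
open Crest.Agent.R138.Ker858 (rect)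
open Crest.Agent.R138.Wpk685 (cap win cen caps um sel Bs Dens pbox en)
open Crest.Agent.R138.Bn759 (nearId)
open Crest.Agent.R138.W188 (Plate Plates val Sd tr En uS)
open Crest.Agent.R138.Low448 (fr)
open Crest.Agent.R138.Ad480 (wa Ac Ad measurable_Ac_xt)
open Crest.Agent.R138.P654

/-- **kmca**, from the Kakeya maximal estimate `KM32`. -/
theorem kmca_holds {B : ℕ → ℝ} (hB : B 2 ≤ 1 / 10) (hKM : ∀ V : ℝ, Tub70.KM32 V) {q A L Λ : ℝ}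
    (hq : 0 ≤ q) (hA : 0 ≤ A) (hL : 0 ≤ L) (hΛ : 0 ≤ Λ) : KMCA B q A L Λ := by
  intro ε hε
  obtain ⟨n0, h0⟩ := Kcc882.kmca hKM (q := q) (A := A) (L := L) (Λ := Λ) hq hA hL hΛ ε hε
  refine ⟨n0, fun n hn => ?_⟩
  obtain ⟨C, hC, h1⟩ := h0 n hn
  refine ⟨C, hC, ?_⟩
  intro h hh hh1 R hR g S hg _ hSm hSb Δ hΔ hD s hs hs1 K M hKM'
  exact h1 h (nearId hB hh) hh1 R hR g hg S hSm hSb Δ hΔ hD s hs hs1 K M hKM'

/-- the pointwise input **(H)** of `AL`. -/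
def HIN (B : ℕ → ℝ) (q : ℝ) : Prop :=
  ∀ A : ℝ, 1 ≤ A → ∃ d0 G Λ : ℝ, 0 < d0 ∧ d0 ≤ 1 ∧ 1 ≤ G ∧ ∃ n1 : ℕ, ∀ n : ℕ, n1 ≤ n →
  ∀ K0 : ℝ, 1 ≤ K0 → ∃ G' : ℝ, 0 ≤ G' ∧ ∀ k : ℕ, ∃ N : ℕ, n ≤ 2 * N ∧ ∃ C : ℝ, 0 ≤ C ∧
  ∀ (c0 : ℝ) (h : E2 → ℝ) (g : E2 → ℂ) (r1 dl Y Gm s1' s2' s1 s2 D a p pp : ℝ)
    (I1 : Finset ℕ) (P1 : ℕ → Plate) (I : Finset ℕ) (P : ℕ → Plate),
    Ctx B q A d0 G c0 h g r1 dl Y Gm s1' s2' s1 s2 D I1 P1 I P →
    an (dl * (dl * r1)) ≤ s2 →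
    Coh h (an r1) (an (dl * r1)) (dl ^ (1/2 : ℝ)) Y (2 * r1) I1 P1 pp → 1 ≤ pp → 0 ≤ a → 1 ≤ p →
    Chi n K0 h g dl r1 a p (uS I1 P1) I P →
    IsAl (dl ^ (1/2 : ℝ)) h g dl r1 I1 P1 I P →
    ∀ i ∈ I, ∀ x t, |t| ≤ dl * r1 →
      x ∈ rect ((P i).x - t • (P i).c) (P i).b (fun j => ![s1, s2] j * (dl * r1)) (2 + 2 * A) →
      seP (N + 2) (fr (P i).b ![(dl * r1) ^ (1 / 2 : ℝ), r1 ^ (1/2 : ℝ)]) h (dl * r1)
          (tr h (P i).z (sel (an r1) g (uS I1 P1))) (P i).S x t ≤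
        ENNReal.ofReal ((dl * r1) ^ (1 / 2 : ℝ) * r1 ^ (1/2 : ℝ)) *
          (ENNReal.ofReal (C * Y ^ G' * Gm ^ (2 * G) * (pp / p)) *
              Ac n h (an r1) g (uS I1 P1)
                (Mc h (an r1) s2 Λ (labc s2 (P i).c)) ((P i).z + (0, t)) x +
            ENNReal.ofReal (C * r1 ^ (20 : ℕ) * (Y ^ k)⁻¹ * En g))

theorem En_nn (g : E2 → ℂ) : 0 ≤ En g := integral_nonneg fun ξ => by positivity

/-- enlarging the caps of `Ac`. -/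
theorem Ac_mono_M {n : ℕ} {h : E2 → ℝ} {θ : ℝ} {g : E2 → ℂ} {S : ℤ × ℤ → Set E2}
    {M M' : Finset (ℤ × ℤ)} (hM : M ⊆ M') (z : E2 × ℝ) (x : E2) :
    Ac n h θ g S M z x ≤ Ac n h θ g S M' z x := by
  unfold Ac
  exact mul_le_mul' le_rfl (Finset.sum_le_sum_of_subset hM)

theorem Mc_mono {h : E2 → ℝ} {θ s Λ Λ' : ℝ} (hs : 0 ≤ s) (hΛ : Λ ≤ Λ') (k : ℤ × ℤ) :
    Mc h θ s Λ k ⊆ Mc h θ s Λ' k := fun m hm => by
  obtain ⟨h1, h2⟩ := mem_Mc.1 hm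
  exact mem_Mc.2 ⟨h1, h2.trans (mul_le_mul_of_nonneg_right hΛ hs)⟩

/-- energy of all child plates of a parent selection. -/
theorem sum_en_sel : ∃ C : ℝ, 0 ≤ C ∧ ∀ (A : ℝ) (h : E2 → ℝ), Continuous h → ∀ f : E2 → ℂ,
    Integrable f → MemLp f 2 → ∀ r s1 s2 R : ℝ, 1 ≤ r → r ≤ R →
    ∀ S : ℤ × ℤ → Set E2, Bs (R ^ (-(1/2) : ℝ)) S →
    ∀ (I : Finset ℕ) (P : ℕ → Plate), Plates A h r s1 s2 R I P →
    ∑ i ∈ I, en (r ^ (-(1/2) : ℝ)) (tr h (P i).z (sel (R ^ (-(1/2) : ℝ)) f S)) (P i).S ≤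
      ENNReal.ofReal (C * (R / r) ^ 3 * En f) := by
  obtain ⟨C1, hC1, h1⟩ := sum_en_plates
  obtain ⟨C2, hC2, h2⟩ := Wpk685.sel_energy
  obtain ⟨C3, hC3, h3⟩ := Wpk685.en_le
  refine ⟨C1 * C2 * C3, by positivity, ?_⟩
  intro A h hh f hf hf2 r s1 s2 R hr hrR S hS I P hP
  have hr0 : 0 < r := by linarith
  have hR1 : 1 ≤ R := hr.trans hrR
  have hR0 : 0 < R := by linarith
  have hθ : 0 < R ^ (-(1/2) : ℝ) := Real.rpow_pos_of_pos hR0 _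
  have hθ1 : R ^ (-(1/2) : ℝ) ≤ 1 := Real.rpow_le_one_of_one_le_of_nonpos hR1 (by norm_num)
  obtain ⟨hs1, hs2⟩ := Wpk685.sel_int hθ hf hS
  refine (h1 A h hh _ hs1 hs2 r s1 s2 R hr hrR I P hP).trans ?_
  have h4 := h2 _ hθ hθ1 f hf S hS
  have h5 := h3 _ hθ hθ1 f hf hf2 S
  rw [Wpk685.lintEn hf2] at h5
  calc ENNReal.ofReal (C1 * (R / r) ^ 3) * ∫⁻ ξ, ‖sel (R ^ (-(1/2) : ℝ)) f S ξ‖ₑ ^ 2
      ≤ ENNReal.ofReal (C1 * (R / r) ^ 3) *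
        (ENNReal.ofReal C2 * (ENNReal.ofReal C3 * ENNReal.ofReal (En f))) :=
        mul_le_mul' le_rfl (h4.trans (mul_le_mul' le_rfl h5))
    _ = _ := by
        have : 0 ≤ (R / r) ^ 3 := by positivity
        rw [← ENNReal.ofReal_mul hC3, ← ENNReal.ofReal_mul hC2,
          ← ENNReal.ofReal_mul (by positivity)]
        congr 1
        ring

/-- numerology of the tail. -/
theorem tail_num {q G dl r1 s2 Y E C1 C2 C3 : ℝ} (hq : 0 ≤ q) (hq4 : q ≤ 4) (hG : 1 ≤ G)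
    (hdl : 0 < dl) (hdl1 : dl ≤ 1) (hr1 : dl ^ (-G) ≤ r1) (hY : 1 ≤ Y) (hE : 0 ≤ E)
    (hC1 : 0 ≤ C1) (hC2 : 0 ≤ C2) (hC3 : 0 ≤ C3) (hs2 : an r1 ≤ s2) (M : ℕ) :
    s2 ^ (-q / 2) * C2 * (C1 * r1 ^ (20 : ℕ) * (Y ^ (2 * M))⁻¹ * E) ^ (1 / 2 : ℝ) * (dl * r1) *
      (C3 * (r1 / (dl * r1)) ^ 3 * E) ≤
    C2 * C1 ^ (1 / 2 : ℝ) * C3 * r1 ^ (20 : ℕ) * (Y ^ M)⁻¹ * E ^ (3 / 2 : ℝ) := by
  have h1 : 1 ≤ dl ^ (-G) := Real.one_le_rpow_of_pos_of_le_one_of_nonpos hdl hdl1 (by linarith)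
  have hr : 1 ≤ r1 := h1.trans hr1
  have hr0 : 0 < r1 := by linarith
  have hY0 : 0 < Y := by linarith
  have hdi : dl⁻¹ ≤ r1 := by
    have : dl⁻¹ = dl ^ (-1 : ℝ) := by rw [Real.rpow_neg_one]
    rw [this]
    exact (Real.rpow_le_rpow_of_exponent_ge hdl hdl1 (by linarith)).trans hr1
  have hθ : 0 < an r1 := Real.rpow_pos_of_pos hr0 _
  have hs0 : 0 < s2 := hθ.trans_le hs2
  have e1 : s2 ^ (-q / 2) ≤ r1 := by
    calc s2 ^ (-q / 2) ≤ (an r1) ^ (-q / 2) :=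
          Real.rpow_le_rpow_of_nonpos hθ hs2 (by linarith)
      _ = r1 ^ (q / 4) := by
          rw [← Real.rpow_mul hr0.le]; congr 1; ring
      _ ≤ r1 ^ (1 : ℝ) := Real.rpow_le_rpow_of_exponent_le hr (by linarith)
      _ = r1 := Real.rpow_one _
  have e2 : (C1 * r1 ^ (20 : ℕ) * (Y ^ (2 * M))⁻¹ * E) ^ (1 / 2 : ℝ) =
      C1 ^ (1 / 2 : ℝ) * r1 ^ (10 : ℕ) * (Y ^ M)⁻¹ * E ^ (1 / 2 : ℝ) := by
    rw [Real.mul_rpow (by positivity) hE, Real.mul_rpow (by positivity) (by positivity),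
      Real.mul_rpow hC1 (by positivity)]
    congr 2
    · congr 1
      rw [← Real.rpow_natCast, ← Real.rpow_mul hr0.le, ← Real.rpow_natCast]
      norm_num
    · rw [← Real.sqrt_eq_rpow, Real.sqrt_inv, pow_mul', Real.sqrt_sq (by positivity)]
  have e3 : r1 / (dl * r1) = dl⁻¹ := by field_simp
  rw [e2, e3]
  have e4 : E ^ (1 / 2 : ℝ) * E = E ^ (3 / 2 : ℝ) := by
    rcases hE.eq_or_lt with h | h
    · rw [← h, Real.zero_rpow (by norm_num), Real.zero_rpow (by norm_num)]; ring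
    · nth_rw 2 [← Real.rpow_one E]
      rw [← Real.rpow_add h]; norm_num
  have hp1 : 0 ≤ C1 ^ (1 / 2 : ℝ) := by positivity
  have hp2 : 0 ≤ E ^ (1 / 2 : ℝ) := by positivity
  have hp3 : 0 ≤ s2 ^ (-q / 2) := by positivity
  calc s2 ^ (-q / 2) * C2 * (C1 ^ (1 / 2 : ℝ) * r1 ^ (10 : ℕ) * (Y ^ M)⁻¹ * E ^ (1 / 2 : ℝ)) *
        (dl * r1) * (C3 * dl⁻¹ ^ 3 * E)
      = (s2 ^ (-q / 2) * (dl * r1) * dl⁻¹ ^ 3) * (C2 * C1 ^ (1 / 2 : ℝ) * C3 * r1 ^ (10 : ℕ) *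
          (Y ^ M)⁻¹ * (E ^ (1 / 2 : ℝ) * E)) := by ring
    _ ≤ (r1 * (1 * r1) * r1 ^ 3) * (C2 * C1 ^ (1 / 2 : ℝ) * C3 * r1 ^ (10 : ℕ) *
          (Y ^ M)⁻¹ * (E ^ (1 / 2 : ℝ) * E)) := by
        have : 0 ≤ dl⁻¹ := by positivity
        gcongr
    _ = C2 * C1 ^ (1 / 2 : ℝ) * C3 * r1 ^ (15 : ℕ) * (Y ^ M)⁻¹ * (E ^ (1 / 2 : ℝ) * E) := by ring
    _ ≤ C2 * C1 ^ (1 / 2 : ℝ) * C3 * r1 ^ (20 : ℕ) * (Y ^ M)⁻¹ * (E ^ (1 / 2 : ℝ) * E) := by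
        gcongr
        norm_num
    _ = _ := by rw [e4]

/-- **AL** from the pointwise input (H) and the Kakeya maximal estimate. -/
theorem al_of_hin {B : ℕ → ℝ} (hB : B 2 ≤ 1 / 10) (hKM : ∀ V : ℝ, Tub70.KM32 V) {q : ℝ}
    (hq : 0 ≤ q) (hq4 : q ≤ 4) (HH : HIN B q) : AL B q := by
  classical
  intro A hA
  obtain ⟨d0, G, Λ, hd0, hd01, hG, n1, hn1⟩ := HH A hA
  have hX : 0 < 3 * A + 8 := by linarith
  refine ⟨min d0 (1 / (3 * A + 8)), G, lt_min hd0 (by positivity),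
    (min_le_left _ _).trans hd01, hG, ?_⟩
  intro ε hε
  obtain ⟨n2, hn2⟩ := SUPM_K B hB A hA q (max Λ (2 * A + 6)) (le_max_right _ _)
    (kmca_holds hB hKM hq (by linarith) (by norm_num)
      ((by linarith : (0 : ℝ) ≤ 2 * A + 6).trans (le_max_right _ _))) ε hε
  obtain ⟨C3, hC3, h4⟩ := sum_en_sel
  refine ⟨max n1 n2, ?_⟩
  intro n hn K0 hK0
  obtain ⟨G', hG', h1⟩ := hn1 n ((le_max_left _ _).trans hn) K0 hK0
  refine ⟨G' / 2, by positivity, ?_⟩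
  intro M
  obtain ⟨N, hN, C1, hC1, h2⟩ := h1 (2 * M)
  obtain ⟨C2, hC2, h3⟩ := hn2 n ((le_max_right _ _).trans hn) N hN
  have hC12 : 0 ≤ C2 * C1 ^ (1 / 2 : ℝ) := by positivity
  refine ⟨C2 * C1 ^ (1 / 2 : ℝ) * (1 + C3), by positivity, ?_⟩
  intro c0 h g r1 dl Y Gm s1' s2' s1 s2 D a p pp I1 P1 I P hctx hs2 hcoh hpp ha hp hchi hal
  have hctx' : Ctx B q A d0 G c0 h g r1 dl Y Gm s1' s2' s1 s2 D I1 P1 I P :=
    { hctx with dlle := hctx.dlle.trans (min_le_left _ _) }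
  have hH := h2 c0 h g r1 dl Y Gm s1' s2' s1 s2 D a p pp I1 P1 I P hctx' hs2 hcoh hpp ha hp hchi hal
  have hdl := hctx.dlpos
  have hdl1 : dl ≤ 1 := hctx'.dlle.trans hd01
  have hdlA : (3 * A + 8) * dl ≤ 1 := by
    have := hctx.dlle.trans (min_le_right _ _)
    rw [le_div_iff₀ hX] at this
    linarith
  have hdi : 1 ≤ dl ^ (-G) := Real.one_le_rpow_of_pos_of_le_one_of_nonpos hdl hdl1 (by linarith)
  have hr1 : 1 ≤ r1 := hdi.trans hctx.r1ge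
  have hr10 : 0 < r1 := by linarith
  have hdir : dl⁻¹ ≤ r1 := by
    have : dl⁻¹ = dl ^ (-1 : ℝ) := by rw [Real.rpow_neg_one]
    rw [this]
    exact (Real.rpow_le_rpow_of_exponent_ge hdl hdl1 (by linarith)).trans hctx.r1ge
  have hr : 1 ≤ dl * r1 := by
    have := mul_le_mul_of_nonneg_left hdir hdl.le
    rwa [mul_inv_cancel₀ hdl.ne'] at this
  have hrR : dl * r1 ≤ r1 := mul_le_of_le_one_left hr10.le hdl1
  have hR : (3 * A + 8) * (dl * r1) ≤ r1 := by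
    calc (3 * A + 8) * (dl * r1) = ((3 * A + 8) * dl) * r1 := by ring
      _ ≤ 1 * r1 := mul_le_mul_of_nonneg_right hdlA hr10.le
      _ = r1 := one_mul _
  have hθ : 0 < an r1 := Real.rpow_pos_of_pos hr10 _
  have hY0 : 0 < Y := by linarith [hctx.Y1]
  have hGm0 : 0 < Gm := by linarith [hctx.Gm1]
  have hsR : r1 ^ (1/2 : ℝ) ≤ s2 * (dl * r1) := by
    have e1 : an (dl * (dl * r1)) * (dl * r1) = r1 ^ (1/2 : ℝ) := by
      unfold an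
      have e2 : dl * (dl * r1) = dl ^ (2 : ℝ) * r1 := by
        rw [show (2 : ℝ) = ((2 : ℕ) : ℝ) by norm_num, Real.rpow_natCast]; ring
      rw [e2, Real.mul_rpow (by positivity) hr10.le, ← Real.rpow_mul hdl.le]
      rw [show (2 : ℝ) * -(1/2) = -1 by norm_num, Real.rpow_neg_one]
      rw [show (1 / 2 : ℝ) = -(1/2) + 1 by norm_num, Real.rpow_add hr10, Real.rpow_one]
      rw [show (-(-(1/2) + 1) : ℝ) = -(1/2) by norm_num]
      field_simp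
    rw [← e1]
    exact mul_le_mul_of_nonneg_right hs2 (by positivity)
  have hs2' : an r1 ≤ s2 := by
    refine le_trans ?_ hs2
    unfold an
    refine Real.rpow_le_rpow_of_nonpos (by positivity) ?_ (by norm_num)
    exact (mul_le_of_le_one_left (by positivity) hdl1).trans hrR
  have hs20 : 0 < s2 := hθ.trans_le hs2'
  have hSm : ∀ m, MeasurableSet (uS I1 P1 m) := fun m =>
    Finset.measurableSet_biUnion _ fun i hi => hctx.par.meas i hi m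
  have hSb : ∀ m, ∀ y ∈ uS I1 P1 m, ‖y‖ ≤ A * r1 := fun m y hy => by
    have := hctx.par.bd m hy
    rwa [mem_closedBall_zero_iff] at this
  have hBs : Bs (r1 ^ (-(1/2) : ℝ)) (uS I1 P1) := ⟨fun m _ => hSm m, fun m _ =>
    (Metric.isBounded_closedBall (x := (0 : E2)) (r := A * r1)).subset (hctx.par.bd m)⟩
  have hE := En_nn g
  set Mu : ℝ := C1 * Y ^ G' * Gm ^ (2 * G) * (pp / p) with hMu
  set τ : ℝ := C1 * r1 ^ (20 : ℕ) * (Y ^ (2 * M))⁻¹ * En g with hτ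
  have hMu0 : 0 ≤ Mu := by
    have : 0 ≤ pp / p := by positivity
    positivity
  have hτ0 : 0 ≤ τ := by positivity
  have h5 := h3 h hctx.parB hctx.h1 g hctx.par.gi hctx.par.g2 (dl * r1) s1 s2 r1 hr hR hctx.sd hsR
    (uS I1 P1) hSm hSb D hctx.par.D0 hctx.par.dens I P hctx.pl Mu τ hMu0 hτ0 ?_
  · refine h5.trans (add_le_add ?_ ?_)
    · unfold SCo
      refine mul_le_mul' (ENNReal.ofReal_le_ofReal ?_) le_rfl
      have hpp0 : 0 ≤ pp / p := by positivity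
      have e1 : Mu ^ (1/2 : ℝ) = C1 ^ (1/2 : ℝ) * Y ^ (G' / 2) * Gm ^ G * (pp / p) ^ (1/2 : ℝ) := by
        rw [hMu, Real.mul_rpow (by positivity) hpp0, Real.mul_rpow (by positivity) (by positivity),
          Real.mul_rpow hC1 (by positivity), ← Real.rpow_mul hY0.le, ← Real.rpow_mul hGm0.le]
        congr 3
        · ring_nf
        · ring
      rw [e1]
      calc C2 * (C1 ^ (1/2 : ℝ) * Y ^ (G' / 2) * Gm ^ G * (pp / p) ^ (1/2 : ℝ)) * r1 ^ ε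
          = (C2 * C1 ^ (1/2 : ℝ) * 1) * (r1 ^ ε * Y ^ (G' / 2) * Gm ^ G *
              (pp / p) ^ (1/2 : ℝ)) := by ring
        _ ≤ (C2 * C1 ^ (1/2 : ℝ) * (1 + C3)) * (r1 ^ ε * Y ^ (G' / 2) * Gm ^ G *
              (pp / p) ^ (1/2 : ℝ)) := by
            gcongr
            linarith
        _ = _ := by ring
    · have h6 := h4 A h hctx.parB.1.continuous g hctx.par.gi hctx.par.g2 (dl * r1) s1 s2 r1
        hr hrR (uS I1 P1) hBs I P hctx.pl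
      refine (mul_le_mul' le_rfl h6).trans ?_
      rw [← ENNReal.ofReal_mul (by positivity)]
      unfold Tl
      rw [ENNReal.ofReal_rpow_of_nonneg hE (by norm_num),
        ← ENNReal.ofReal_mul (by positivity)]
      refine ENNReal.ofReal_le_ofReal ?_
      refine (tail_num hq hq4 hG hdl hdl1 hctx.r1ge hctx.Y1 hE hC1 hC2 hC3 hs2' M).trans ?_
      gcongr
      linarith
  · intro i hi x t ht hx
    refine (hH i hi x t ht hx).trans ?_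
    refine mul_le_mul' le_rfl (add_le_add (mul_le_mul' le_rfl ?_) le_rfl)
    exact Ac_mono_M (Mc_mono hs20.le (le_max_left _ _) _) _ _

end Crest.Agent.R138.Sm858
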