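import Crest.Agent.R138.Bil6_882

/-! R138, broad/narrow end, part 2 (helper759): the locally constant property of a wave whose
spectrum lies in a ball of radius `A / K`, with an `L¹` average on the right. -/

set_option autoImplicit false

open MeasureTheory SchwartzMap FourierTransform
open scoped FourierTransform SchwartzMap ENNReal

namespace Crest.Agent.R138.Bn759

open Crest.Agent.R138.Defs (E2 ee ext)
open Crest.Agent.R138.Bil882 (wave wt Gam W norm_fst_le norm_snd_le norm_le_add)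

section general

variable {V : Type*} [NormedAddCommGroup V] [InnerProductSpace ℝ V] [FiniteDimensional ℝ V]
  [MeasurableSpace V] [BorelSpace V]

/-- the bump. -/
noncomputable def bmp (V : Type*) [NormedAddCommGroup V] [InnerProductSpace ℝ V]
    [FiniteDimensional ℝ V] (A : ℝ) (hA : 0 ≤ A) : ContDiffBump (0 : V) :=
  ⟨A + 1, A + 2, by linarith, by linarith⟩

/-- the bump as a Schwartz function. -/
noncomputable def bmpS (A : ℝ) (hA : 0 ≤ A) : 𝓢(V, ℂ) :=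
  HasCompactSupport.toSchwartzMap (f := fun ζ : V => ((bmp V A hA ζ : ℝ) : ℂ))
    ((bmp V A hA).hasCompactSupport.comp_left (g := fun r : ℝ => (r : ℂ)) (by simp))
    (Complex.ofRealCLM.contDiff.comp (bmp V A hA).contDiff)

lemma bmpS_one {A : ℝ} (hA : 0 ≤ A) {ζ : V} (h : ‖ζ‖ ≤ A) : (bmpS (V := V) A hA) ζ = 1 := by
  have h1 : (bmpS (V := V) A hA) ζ = ((bmp V A hA ζ : ℝ) : ℂ) := rfl
  rw [h1, (bmp V A hA).one_of_mem_closedBall]
  · simp
  · rw [mem_closedBall_zero_iff]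
    show ‖ζ‖ ≤ A + 1
    linarith

/-- the reproducing kernel. -/
noncomputable def ker (A : ℝ) (hA : 0 ≤ A) (w0 : V) (K : ℝ) (u : V) : ℂ :=
  ((K ^ Module.finrank ℝ V)⁻¹ : ℝ) *
    ((Real.fourierChar (inner ℝ w0 u) : ℂ) * (𝓕⁻ (bmpS (V := V) A hA)) (K⁻¹ • u))

lemma continuous_char (w0 : V) : Continuous fun u : V => (Real.fourierChar (inner ℝ w0 u) : ℂ) := by
  have : Continuous fun t : ℝ => ((Real.fourierChar t : Circle) : ℂ) := by fun_prop
  exact this.comp (by fun_prop)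

lemma continuous_ker (A : ℝ) (hA : 0 ≤ A) (w0 : V) (K : ℝ) :
    Continuous (ker A hA w0 K) := by
  unfold ker
  refine continuous_const.mul ((continuous_char w0).mul ?_)
  exact (SchwartzMap.continuous _).comp (by fun_prop)

lemma ker_bound (N : ℕ) (A : ℝ) (hA : 0 ≤ A) : ∃ C : ℝ, 0 < C ∧ ∀ (w0 : V) (K : ℝ), 0 < K → ∀ u,
    ‖ker A hA w0 K u‖ ≤ C * (K ^ Module.finrank ℝ V)⁻¹ * ((1 + ‖u‖ / K) ^ N)⁻¹ := by
  have h := fun x => SchwartzMap.one_add_le_sup_seminorm_apply (𝕜 := ℝ) (m := (N, 0)) (k := N)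
    (n := 0) le_rfl le_rfl (𝓕⁻ (bmpS (V := V) A hA)) x
  refine ⟨2 ^ N * (Finset.Iic ((N, 0) : ℕ × ℕ)).sup
      (fun m => SchwartzMap.seminorm ℝ m.1 m.2) (𝓕⁻ (bmpS (V := V) A hA)) + 1, by positivity,
      fun w0 K hK u => ?_⟩
  have h1 := h (K⁻¹ • u)
  simp only [norm_iteratedFDeriv_zero] at h1
  have e : ‖K⁻¹ • u‖ = ‖u‖ / K := by
    rw [norm_smul, norm_inv, Real.norm_of_nonneg hK.le]; ring
  rw [e] at h1
  have h2 : ‖ker A hA w0 K u‖ =
      (K ^ Module.finrank ℝ V)⁻¹ * ‖(𝓕⁻ (bmpS (V := V) A hA)) (K⁻¹ • u)‖ := by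
    unfold ker
    rw [norm_mul, norm_mul, Circle.norm_coe, one_mul, Complex.norm_real,
      Real.norm_of_nonneg (by positivity)]
  rw [h2]
  have h3 : 0 < (1 + ‖u‖ / K) ^ N := by positivity
  have h4 : ‖(𝓕⁻ (bmpS (V := V) A hA)) (K⁻¹ • u)‖ ≤
      (2 ^ N * (Finset.Iic ((N, 0) : ℕ × ℕ)).sup
      (fun m => SchwartzMap.seminorm ℝ m.1 m.2) (𝓕⁻ (bmpS (V := V) A hA)) + 1) *
        ((1 + ‖u‖ / K) ^ N)⁻¹ := by
    rw [← div_eq_mul_inv, le_div_iff₀ h3]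
    linarith
  calc _ ≤ (K ^ Module.finrank ℝ V)⁻¹ * ((2 ^ N * (Finset.Iic ((N, 0) : ℕ × ℕ)).sup
      (fun m => SchwartzMap.seminorm ℝ m.1 m.2) (𝓕⁻ (bmpS (V := V) A hA)) + 1) *
        ((1 + ‖u‖ / K) ^ N)⁻¹) := by gcongr
    _ = _ := by ring

lemma integrable_ker (A : ℝ) (hA : 0 ≤ A) (w0 : V) {K : ℝ} (hK : 0 < K) :
    Integrable (ker A hA w0 K) := by
  unfold ker
  refine Integrable.const_mul ?_ _
  have h1 : Integrable fun u : V => (𝓕⁻ (bmpS (V := V) A hA)) (K⁻¹ • u) :=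
    (integrable_comp_smul_iff volume _ (by positivity)).2 (SchwartzMap.integrable _)
  refine h1.norm.mono' ((continuous_char w0).aestronglyMeasurable.mul h1.1)
    (Filter.Eventually.of_forall fun u => ?_)
  rw [norm_mul, Circle.norm_coe, one_mul]

lemma integral_ker (A : ℝ) (hA : 0 ≤ A) (w0 : V) {K : ℝ} (hK : 0 < K) {ξ : V}
    (hξ : ‖ξ - w0‖ ≤ A / K) :
    ∫ u, (Real.fourierChar (-(inner ℝ ξ u)) : ℂ) * ker A hA w0 K u = 1 := by
  have e1 : ∀ u : V, (Real.fourierChar (-(inner ℝ ξ u)) : ℂ) * ker A hA w0 K u =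
      (fun v : V => (((K ^ Module.finrank ℝ V)⁻¹ : ℝ) : ℂ) *
        ((Real.fourierChar (-(inner ℝ v (K • (ξ - w0)))) : ℂ) *
          (𝓕⁻ (bmpS (V := V) A hA)) v)) (K⁻¹ • u) := by
    intro u
    have e2 : inner ℝ (K⁻¹ • u) (K • (ξ - w0)) = inner ℝ ξ u - inner ℝ w0 u := by
      rw [inner_smul_left, inner_smul_right, inner_sub_right, real_inner_comm u ξ,
        real_inner_comm u w0]
      simp
      field_simp
    simp only [ker]
    rw [e2, show -(inner ℝ ξ u - inner ℝ w0 u) = -(inner ℝ ξ u) + inner ℝ w0 u by ring,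
      AddChar.map_add_eq_mul, Circle.coe_mul]
    ring
  have e0 := Measure.integral_comp_smul (volume : Measure V) (fun v : V =>
    (((K ^ Module.finrank ℝ V)⁻¹ : ℝ) : ℂ) *
        ((Real.fourierChar (-(inner ℝ v (K • (ξ - w0)))) : ℂ) *
          (𝓕⁻ (bmpS (V := V) A hA)) v)) K⁻¹
  rw [integral_congr_ae (Filter.Eventually.of_forall e1), e0, integral_const_mul]
  have e3 : ∫ v : V, (Real.fourierChar (-(inner ℝ v (K • (ξ - w0)))) : ℂ) *
          (𝓕⁻ (bmpS (V := V) A hA)) v = 1 := by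
    have h1 : (𝓕 (𝓕⁻ (bmpS (V := V) A hA))) (K • (ξ - w0)) =
        ∫ v : V, (Real.fourierChar (-(inner ℝ v (K • (ξ - w0)))) : ℂ) *
          (𝓕⁻ (bmpS (V := V) A hA)) v := by
      rw [SchwartzMap.fourier_coe, Real.fourier_eq]
      rfl
    rw [← h1, FourierTransform.fourier_fourierInv_eq]
    apply bmpS_one
    rw [norm_smul, Real.norm_of_nonneg hK.le]
    rw [le_div_iff₀ hK] at hξ
    linarith
  rw [e3, mul_one]
  have hp : 0 < K ^ Module.finrank ℝ V := by positivity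
  rw [inv_pow, inv_inv, abs_of_pos hp, Complex.real_smul, ← Complex.ofReal_mul,
    mul_inv_cancel₀ hp.ne', Complex.ofReal_one]

/-- the reproducing formula. -/
theorem wave_repr (μ : Measure V) [IsFiniteMeasure μ] {g : V → ℂ} (hg : Integrable g μ)
    (A : ℝ) (hA : 0 ≤ A) (w0 : V) {K : ℝ} (hK : 0 < K)
    (hs : ∀ ξ, g ξ ≠ 0 → ‖ξ - w0‖ ≤ A / K) (x : V) :
    wave μ g x = ∫ u, ker A hA w0 K u * wave μ g (x - u) := by
  unfold wave
  have h1 : ∀ ξ : V, (Real.fourierChar (inner ℝ ξ x) : ℂ) * g ξ =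
      ∫ u, ker A hA w0 K u * ((Real.fourierChar (inner ℝ ξ (x - u)) : ℂ) * g ξ) := by
    intro ξ
    by_cases h0 : g ξ = 0
    · simp [h0]
    · have e : ∀ u, ker A hA w0 K u * ((Real.fourierChar (inner ℝ ξ (x - u)) : ℂ) * g ξ) =
          ((Real.fourierChar (inner ℝ ξ x) : ℂ) * g ξ) *
            ((Real.fourierChar (-(inner ℝ ξ u)) : ℂ) * ker A hA w0 K u) := by
        intro u
        rw [inner_sub_right, sub_eq_add_neg, AddChar.map_add_eq_mul, Circle.coe_mul]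
        ring
      simp_rw [e]
      rw [integral_const_mul, integral_ker A hA w0 hK (hs ξ h0), mul_one]
  simp_rw [← integral_const_mul]
  rw [← integral_integral_swap]
  · exact integral_congr_ae (Filter.Eventually.of_forall fun ξ => h1 ξ)
  · have i1 : Integrable (fun p : V × V => g p.1 * ker A hA w0 K p.2) (μ.prod volume) :=
      hg.mul_prod (integrable_ker A hA w0 hK)
    refine i1.norm.mono' ?_ (Filter.Eventually.of_forall fun p => ?_)
    · have hc : Continuous fun p : V × V => (Real.fourierChar (inner ℝ p.1 (x - p.2)) : ℂ) := by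
        have : Continuous fun t : ℝ => ((Real.fourierChar t : Circle) : ℂ) := by fun_prop
        exact this.comp (by fun_prop)
      refine AEStronglyMeasurable.mul ?_ (hc.aestronglyMeasurable.mul ?_)
      · exact ((continuous_ker A hA w0 K).comp continuous_snd).aestronglyMeasurable
      · exact hg.1.comp_fst
    · show ‖ker A hA w0 K p.2 * ((Real.fourierChar (inner ℝ p.1 (x - p.2)) : ℂ) * g p.1)‖ ≤
        ‖g p.1 * ker A hA w0 K p.2‖
      rw [norm_mul, norm_mul, norm_mul, Circle.norm_coe, one_mul, mul_comm]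

/-- **locally constant property**, `L¹` form. -/
theorem wave_loc (N : ℕ) (A : ℝ) (hA : 0 ≤ A) : ∃ C : ℝ, 0 < C ∧ ∀ (μ : Measure V)
    [IsFiniteMeasure μ] (g : V → ℂ), Integrable g μ → ∀ (w0 : V) (K : ℝ), 0 < K →
    (∀ ξ, g ξ ≠ 0 → ‖ξ - w0‖ ≤ A / K) → ∀ x,
    ‖wave μ g x‖ₑ ≤ ENNReal.ofReal (C * (K ^ Module.finrank ℝ V)⁻¹) *
      ∫⁻ y, ‖wave μ g y‖ₑ * ENNReal.ofReal ((1 + ‖x - y‖ / K) ^ N)⁻¹ := by
  obtain ⟨C, hC, hk⟩ := ker_bound (V := V) N A hA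
  refine ⟨C, hC, fun μ _ g hg w0 K hK hs x => ?_⟩
  rw [wave_repr μ hg A hA w0 hK hs x, ← lintegral_const_mul']
  swap
  · exact ENNReal.ofReal_ne_top
  refine (enorm_integral_le_lintegral_enorm _).trans ?_
  rw [← lintegral_sub_left_eq_self _ x]
  refine lintegral_mono fun u => ?_
  rw [enorm_mul, sub_sub_cancel]
  have h1 : ‖ker A hA w0 K (x - u)‖ₑ ≤ ENNReal.ofReal (C * (K ^ Module.finrank ℝ V)⁻¹) *
      ENNReal.ofReal ((1 + ‖x - u‖ / K) ^ N)⁻¹ := by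
    rw [← ENNReal.ofReal_mul (by positivity), ← ofReal_norm]
    exact ENNReal.ofReal_le_ofReal (hk w0 K hK _)
  calc _ ≤ (ENNReal.ofReal (C * (K ^ Module.finrank ℝ V)⁻¹) *
      ENNReal.ofReal ((1 + ‖x - u‖ / K) ^ N)⁻¹) * ‖wave μ g u‖ₑ := by gcongr
    _ = _ := by ring

end general

open Crest.Agent.R138.Bil882 (muG gG ext_eq_wave integrable_gG hasSpec_ext finrank_W
  measurable_wt)

lemma continuous_ext {h : E2 → ℝ} (hh : Continuous h) {g : E2 → ℂ} (hg : Measurable g)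
    (hM : ∃ M, ∀ ξ, ‖g ξ‖ ≤ M) {r : ℝ} (hr : ∀ ξ, r < ‖ξ‖ → g ξ = 0) :
    Continuous fun p : E2 × ℝ => ext h g p.1 p.2 := by
  obtain ⟨M, hM⟩ := hM
  have hc : Continuous (fun w : W => ext h g (WithLp.ofLp w).1 (WithLp.ofLp w).2) :=
    (hasSpec_ext hh hg hM hr Set.univ fun _ _ => Set.mem_univ _).temp.1.continuous
  exact hc.comp (f := fun p : E2 × ℝ => (WithLp.toLp 2 p : W)) (by fun_prop)

/-- the ball of radius `K` around `z` (norm `|x| + |t|`). -/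
def U (K : ℝ) (z : E2 × ℝ) : Set (E2 × ℝ) := {p | ‖p.1 - z.1‖ + |p.2 - z.2| ≤ K}

/-- the weight of the ball `U K z`. -/
noncomputable def wz (N : ℕ) (K : ℝ) (z p : E2 × ℝ) : ℝ := wt N K z.1 z.2 p

lemma wz_eq (N : ℕ) (K : ℝ) (z p : E2 × ℝ) :
    wz N K z p = ((1 + (‖p.1 - z.1‖ + |p.2 - z.2|) / K) ^ N)⁻¹ := rfl

lemma wz_pos (N : ℕ) {K : ℝ} (hK : 0 < K) (z p : E2 × ℝ) : 0 < wz N K z p := by
  rw [wz_eq]; positivity

/-- **locally constant property** of an extension function with small spectrum. -/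
theorem ext_loc (N : ℕ) (A : ℝ) (hA : 0 ≤ A) : ∃ C : ℝ, 0 < C ∧ ∀ h : E2 → ℝ, Continuous h →
    ∀ g : E2 → ℂ, Measurable g → (∃ M, ∀ ξ, ‖g ξ‖ ≤ M) → ∀ r : ℝ, (∀ ξ, r < ‖ξ‖ → g ξ = 0) →
    ∀ (w0 : W) (K : ℝ), 0 < K → (∀ ξ, g ξ ≠ 0 → ‖Gam h ξ - w0‖ ≤ A / K) →
    ∀ z p, p ∈ U K z → ‖ext h g p.1 p.2‖ₑ ≤ ENNReal.ofReal (C * (K ^ 3)⁻¹) *
      ∫⁻ q : E2 × ℝ, ‖ext h g q.1 q.2‖ₑ * ENNReal.ofReal (wz N K z q) := by
  obtain ⟨C, hC, hk⟩ := wave_loc (V := W) N A hA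
  refine ⟨C * 2 ^ N, by positivity, ?_⟩
  intro h hh g hg hM r hr w0 K hK hs z p hp
  have hcont := continuous_ext hh hg hM hr
  obtain ⟨M, hM⟩ := hM
  have e : ∀ w : W, wave (muG h r) (gG h g) w = ext h g (WithLp.ofLp w).1 (WithLp.ofLp w).2 := by
    intro w
    rw [ext_eq_wave hh hg hr]
  have hs' : ∀ w, gG h g w ≠ 0 → ‖w - w0‖ ≤ A / K := by
    intro w hw
    unfold gG at hw
    split_ifs at hw with h1
    · rw [h1]; exact hs _ hw
    · exact absurd rfl hw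
  have h1 := hk (muG h r) (gG h g) (integrable_gG hh hg hM r) w0 K hK hs' (WithLp.toLp 2 p)
  simp only [e, finrank_W] at h1
  refine h1.trans ?_
  rw [ENNReal.ofReal_mul hC.le, ENNReal.ofReal_mul (by positivity), ENNReal.ofReal_mul hC.le]
  have m0 : Measurable fun q : E2 × ℝ => ‖ext h g q.1 q.2‖ₑ * ENNReal.ofReal (wz N K z q) :=
    hcont.measurable.enorm.mul (measurable_wt N K z.1 z.2).ennreal_ofReal
  have h2 : ∫⁻ w : W, ‖ext h g (WithLp.ofLp w).1 (WithLp.ofLp w).2‖ₑ *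
        ENNReal.ofReal ((1 + ‖(WithLp.toLp 2 p : W) - w‖ / K) ^ N)⁻¹ ≤
      ENNReal.ofReal (2 ^ N) *
        ∫⁻ q : E2 × ℝ, ‖ext h g q.1 q.2‖ₑ * ENNReal.ofReal (wz N K z q) := by
    rw [← lintegral_const_mul _ m0,
      ← (WithLp.volume_preserving_ofLp E2 ℝ).lintegral_comp (m0.const_mul _)]
    refine lintegral_mono fun w => ?_
    have h3 : ((1 + ‖(WithLp.toLp 2 p : W) - w‖ / K) ^ N)⁻¹ ≤ 2 ^ N * wz N K z (WithLp.ofLp w) := by
      rw [wz_eq]
      have n1 : ‖p.1 - (WithLp.ofLp w).1‖ ≤ ‖(WithLp.toLp 2 p : W) - w‖ :=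
        norm_fst_le ((WithLp.toLp 2 p : W) - w)
      have n2 : |p.2 - (WithLp.ofLp w).2| ≤ ‖(WithLp.toLp 2 p : W) - w‖ :=
        norm_snd_le ((WithLp.toLp 2 p : W) - w)
      have n3 : ‖(WithLp.ofLp w).1 - z.1‖ ≤ ‖p.1 - z.1‖ + ‖p.1 - (WithLp.ofLp w).1‖ := by
        calc ‖(WithLp.ofLp w).1 - z.1‖ = ‖(p.1 - z.1) - (p.1 - (WithLp.ofLp w).1)‖ := by
              congr 1; abel
          _ ≤ _ := norm_sub_le _ _
      have n4 : |(WithLp.ofLp w).2 - z.2| ≤ |p.2 - z.2| + |p.2 - (WithLp.ofLp w).2| := by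
        calc |(WithLp.ofLp w).2 - z.2| = |(p.2 - z.2) - (p.2 - (WithLp.ofLp w).2)| := by
              congr 1; ring
          _ ≤ _ := abs_sub _ _
      have n5 : (‖(WithLp.ofLp w).1 - z.1‖ + |(WithLp.ofLp w).2 - z.2|) ≤
          K + 2 * ‖(WithLp.toLp 2 p : W) - w‖ := by
        have : ‖p.1 - z.1‖ + |p.2 - z.2| ≤ K := hp
        linarith
      have n6 : 1 + (‖(WithLp.ofLp w).1 - z.1‖ + |(WithLp.ofLp w).2 - z.2|) / K ≤
          2 * (1 + ‖(WithLp.toLp 2 p : W) - w‖ / K) := by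
        have : (‖(WithLp.ofLp w).1 - z.1‖ + |(WithLp.ofLp w).2 - z.2|) / K ≤
            1 + 2 * (‖(WithLp.toLp 2 p : W) - w‖ / K) := by
          rw [div_le_iff₀ hK]
          calc _ ≤ _ := n5
            _ = _ := by field_simp
        linarith
      rw [← div_eq_mul_inv, le_div_iff₀ (by positivity), inv_mul_le_iff₀ (by positivity), ← mul_pow,
        mul_comm _ (2:ℝ)]
      gcongr
    calc _ ≤ ‖ext h g (WithLp.ofLp w).1 (WithLp.ofLp w).2‖ₑ *
          ENNReal.ofReal (2 ^ N * wz N K z (WithLp.ofLp w)) := by gcongr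
      _ = _ := by rw [ENNReal.ofReal_mul (by positivity)]; ring
  calc _ ≤ ENNReal.ofReal C * ENNReal.ofReal (K ^ 3)⁻¹ * (ENNReal.ofReal (2 ^ N) *
        ∫⁻ q : E2 × ℝ, ‖ext h g q.1 q.2‖ₑ * ENNReal.ofReal (wz N K z q)) := by gcongr
    _ = _ := by ring

end Crest.Agent.R138.Bn759
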