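import Crest.Agent.R138.Wf1_448

/-!
# R138 / R139, W0: the F-side foundation, part 2 (helper448)

Plancherel on `L¹ ∩ L²` (`planchL`, `fourierInv_ae`) and the weighted multiplier lemma for
functions in `L¹ ∩ L²` with a centre (`decayL`).
-/

set_option autoImplicit false
set_option linter.unusedSectionVars false

open MeasureTheory FourierTransform SchwartzMap LineDeriv
open scoped ContDiff SchwartzMap ENNReal ComplexInnerProductSpace

namespace Crest.Agent.R138.Wf448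

variable {V : Type*} [NormedAddCommGroup V] [InnerProductSpace ℝ V] [FiniteDimensional ℝ V]
  [MeasurableSpace V] [BorelSpace V]
variable {W : Type*} [NormedAddCommGroup W] [InnerProductSpace ℝ W] [FiniteDimensional ℝ W]

theorem fourierInv_continuous {g : V → ℂ} (hg : Integrable g) : Continuous (𝓕⁻ g : V → ℂ) := by
  have h := VectorFourier.fourierIntegral_continuous (e := Real.fourierChar) (μ := (volume : Measure V))
    (L := -innerₗ V) Real.continuous_fourierChar (by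
      have : Continuous fun p : V × V => inner ℝ p.1 p.2 := continuous_inner
      exact this.neg) hg
  exact h

theorem norm_fourierInv_le {g : V → ℂ} (x : V) : ‖𝓕⁻ g x‖ ≤ ∫ v, ‖g v‖ := by
  rw [Real.fourierInv_eq]
  refine (norm_integral_le_integral_norm _).trans (le_of_eq ?_)
  simp_rw [Circle.norm_smul]

/-- multiplication formula for the inverse transform. -/
theorem integral_fourierInv_mul {f g : V → ℂ} (hf : Integrable f) (hg : Integrable g) :
    ∫ ξ, 𝓕⁻ f ξ * g ξ = ∫ x, f x * 𝓕⁻ g x := by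
  have hL : Continuous fun p : V × V => (-innerₗ V) p.1 p.2 := by
      have : Continuous fun p : V × V => inner ℝ p.1 p.2 := continuous_inner
      exact this.neg
  have h := VectorFourier.integral_fourierIntegral_smul_eq_flip (e := Real.fourierChar)
    (μ := (volume : Measure V)) (ν := (volume : Measure V))
    (L := -innerₗ V) Real.continuous_fourierChar hL hf hg
  have hfl : (-innerₗ V).flip = -innerₗ V := by
    ext x y
    simp [real_inner_comm]
  rw [hfl] at h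
  simpa [smul_eq_mul] using! h

theorem fourierInv_ae {g : V → ℂ} (h1 : Integrable g) (h2 : MemLp g 2) :
    (𝓕⁻ g : V → ℂ) =ᵐ[volume] ((𝓕⁻ (h2.toLp g) : Lp ℂ 2 (volume : Measure V)) : V → ℂ) := by
  set G : Lp ℂ 2 (volume : Measure V) := 𝓕⁻ (h2.toLp g) with hG
  have hGi : LocallyIntegrable (G : V → ℂ) :=
    (Lp.memLp G).locallyIntegrable (by norm_num)
  have hgi : LocallyIntegrable (𝓕⁻ g : V → ℂ) := (fourierInv_continuous h1).locallyIntegrable
  refine ae_eq_of_integral_contDiff_smul_eq hgi hGi fun ψ hψ hψc => ?_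
  have hψ2 : ContDiff ℝ ∞ (fun x => (ψ x : ℂ)) := Complex.ofRealCLM.contDiff.comp hψ
  have hψc2 : HasCompactSupport (fun x => (ψ x : ℂ)) := hψc.comp_left (g := fun r : ℝ => (r : ℂ)) (by simp)
  set Ψ : 𝓢(V, ℂ) := hψc2.toSchwartzMap hψ2 with hΨ
  have hΨx : ∀ x, Ψ x = (ψ x : ℂ) := fun x => rfl
  have e1 : ∫ x, ψ x • G x = ∫ x, Ψ x • G x := by
    refine integral_congr_ae (Filter.Eventually.of_forall fun x => ?_)
    simp [hΨx]
  have e2 : ∫ x, Ψ x • G x = ∫ x, (𝓕⁻ Ψ) x • g x := by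
    have t := congrArg (fun D => D Ψ) (Lp.fourierInv_toTemperedDistribution_eq (h2.toLp g))
    simp only [TemperedDistribution.fourierInv_apply, Lp.toTemperedDistribution_apply] at t
    rw [hG, ← t]
    refine integral_congr_ae ?_
    filter_upwards [h2.coeFn_toLp] with x hx
    rw [hx]
  have e3 : ∫ x, ψ x • (𝓕⁻ g) x = ∫ x, (𝓕⁻ Ψ) x • g x := by
    have h := integral_fourierInv_mul (f := Ψ) (g := g) Ψ.integrable h1
    simp only [smul_eq_mul]
    rw [SchwartzMap.fourierInv_coe, h]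
    refine integral_congr_ae (Filter.Eventually.of_forall fun x => ?_)
    simp [hΨx]
  rw [e1, e2, e3]

/-- Plancherel for `L¹ ∩ L²`. -/
theorem planchL {g : V → ℂ} (h1 : Integrable g) (h2 : MemLp g 2) :
    LI (fun x => ‖𝓕⁻ g x‖ ^ 2) = LI (fun x => ‖g x‖ ^ 2) := by
  have e0 : ∀ (f : V → ℂ), LI (fun x => ‖f x‖ ^ 2) = ∫⁻ x, ‖f x‖ₑ ^ (2:ℝ) := by
    intro f
    unfold LI
    refine lintegral_congr fun x => ?_
    rw [ENNReal.ofReal_pow (norm_nonneg _), ofReal_norm]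
    norm_cast
  have e1 : ∀ (f : V → ℂ), (∫⁻ x, ‖f x‖ₑ ^ (2:ℝ)) = eLpNorm f 2 volume ^ (2:ℝ) := by
    intro f
    rw [eLpNorm_eq_lintegral_rpow_enorm_toReal (by norm_num) (by norm_num)]
    simp only [ENNReal.toReal_ofNat]
    rw [← ENNReal.rpow_mul]; norm_num
  rw [e0, e0, e1, e1, eLpNorm_congr_ae (fourierInv_ae h1 h2)]
  have h3 : ‖(𝓕⁻ (h2.toLp g) : Lp ℂ 2 (volume : Measure V))‖ = ‖h2.toLp g‖ :=
    (Lp.fourierTransformₗᵢ V ℂ).symm.norm_map _
  rw [Lp.norm_def, Lp.norm_def] at h3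
  rw [(ENNReal.toReal_eq_toReal_iff' (Lp.eLpNorm_ne_top _) (Lp.eLpNorm_ne_top _)).1 h3,
    eLpNorm_congr_ae h2.coeFn_toLp]

theorem fourierInv_sub' {f g : V → ℂ} (hf : Integrable f) (hg : Integrable g) (x : V) :
    𝓕⁻ (fun ξ => f ξ - g ξ) x = 𝓕⁻ f x - 𝓕⁻ g x := by
  rw [Real.fourierInv_eq, Real.fourierInv_eq, Real.fourierInv_eq, ← integral_sub]
  · refine integral_congr_ae (Filter.Eventually.of_forall fun ξ => ?_)
    simp only [smul_sub]
  · have := (Real.fourierIntegral_convergent_iff (μ := volume) (f := f) (-x)).2 hf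
    simpa using this
  · have := (Real.fourierIntegral_convergent_iff (μ := volume) (f := g) (-x)).2 hg
    simpa using this

/-- modulation. -/
theorem fourierInv_modulate (f : 𝓢(V, ℂ)) (c : V) : ∃ f' : 𝓢(V, ℂ),
    (∀ ξ, f' ξ = Real.fourierChar (inner ℝ c ξ) • f ξ) ∧ ∀ x, (𝓕⁻ f') x = (𝓕⁻ f) (x + c) := by
  refine ⟨𝓕 (compSubConstCLM ℂ (-c) (𝓕⁻ f)), fun ξ => ?_, fun x => ?_⟩
  · have h := congrFun (VectorFourier.fourierIntegral_comp_add_right Real.fourierChar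
      (volume : Measure V) (innerₗ V) (𝓕⁻ f : 𝓢(V, ℂ)) c) ξ
    have e1 : (compSubConstCLM ℂ (-c) (𝓕⁻ f) : V → ℂ) = (𝓕⁻ f : 𝓢(V, ℂ)) ∘ fun v => v + c := by
      funext v
      simp [compSubConstCLM_apply]
    rw [SchwartzMap.fourier_coe, e1]
    refine h.trans ?_
    have e2 : VectorFourier.fourierIntegral Real.fourierChar (volume : Measure V) (innerₗ V)
        (𝓕⁻ f : 𝓢(V, ℂ)) ξ = (𝓕 (𝓕⁻ f : 𝓢(V, ℂ))) ξ := rfl
    rw [e2, FourierTransform.fourier_fourierInv_eq]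
    rfl
  · rw [FourierTransform.fourierInv_fourier_eq]
    simp [compSubConstCLM_apply]

theorem LI_translate (F : V → ℝ) (c : V) : LI (fun x => F (x + c)) = LI F := by
  unfold LI
  exact lintegral_add_right_eq_self (fun x => ENNReal.ofReal (F x)) c

theorem Nn_zero (A : V →L[ℝ] W) (f : V → ℂ) (ξ : V) : Nn A 0 f ξ = ‖f ξ‖ := by
  unfold Nn
  refine le_antisymm ?_ ?_
  · refine ContinuousMultilinearMap.opNorm_le_bound (norm_nonneg _) fun y => ?_
    simp
  · have := ((iteratedFDeriv ℝ 0 f ξ).compContinuousLinearMap (fun _ => adj A)).le_opNorm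
      (fun i => i.elim0)
    simpa using this

/-- `decay` with a centre. -/
theorem decayC (n : ℕ) : ∃ C : ℝ, 0 ≤ C ∧ ∀ (A : V →L[ℝ] W) (c : V) (ι κ : Type) [Fintype ι]
    [Fintype κ] (m : κ → ι → V → ℂ) (f : ι → 𝓢(V, ℂ)) (F : κ → 𝓢(V, ℂ)) (B : ℝ), 0 < B →
    (∀ k i, (m k i).HasTemperateGrowth) → (∀ k ξ, F k ξ = ∑ i, m k i ξ * f i ξ) →
    (∀ j ≤ n, ∀ ξ, ∑ k, ∑ i, Nn A j (m k i) ξ ^ 2 ≤ B ^ 2) →
    ∑ k, LI (fun x => dw n A (x - c) * ‖(𝓕⁻ (F k)) x‖ ^ 2) ≤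
      ENNReal.ofReal (C * B ^ 2) * ∑ i, LI (fun x => dw n A (x - c) * ‖(𝓕⁻ (f i)) x‖ ^ 2) := by
  obtain ⟨C, hC, h⟩ := decay (V := V) (W := W) n
  refine ⟨C, hC, fun A c ι κ _ _ m f F B hB hm hF hN => ?_⟩
  choose f' hf1 hf2 using fun i => fourierInv_modulate (f i) c
  choose F' hF1 hF2 using fun k => fourierInv_modulate (F k) c
  have h1 := h A ι κ m f' F' B hB hm (fun k ξ => by
    rw [hF1, hF, Finset.smul_sum]
    refine Finset.sum_congr rfl fun i _ => ?_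
    rw [hf1, Circle.smul_def, Circle.smul_def, smul_eq_mul, smul_eq_mul]
    ring) hN
  have e : ∀ g g' : 𝓢(V, ℂ), (∀ x, (𝓕⁻ g') x = (𝓕⁻ g) (x + c)) →
      LI (fun x => dw n A (x - c) * ‖(𝓕⁻ g) x‖ ^ 2) = LI (fun x => dw n A x * ‖(𝓕⁻ g') x‖ ^ 2) := by
    intro g g' hg
    rw [← LI_translate _ c]
    congr 1
    funext x
    rw [hg, add_sub_cancel_right]
  simp_rw [fun k => e (F k) (F' k) (hF2 k), fun i => e (f i) (f' i) (hf2 i)]
  exact h1

theorem exists_schwartz {g : V → ℂ} (h2 : MemLp g 2) {η : ℝ} (hη : 0 < η) :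
    ∃ φ : 𝓢(V, ℂ), LI (fun x => ‖g x - φ x‖ ^ 2) ≤ ENNReal.ofReal η := by
  have hd := SchwartzMap.denseRange_toLpCLM (E := V) (F := ℂ) (μ := (volume : Measure V)) (p := 2)
    (by norm_num)
  obtain ⟨φ, hφ⟩ := hd.exists_dist_lt (h2.toLp g) (Real.sqrt_pos.2 hη)
  refine ⟨φ, ?_⟩
  rw [dist_eq_norm, Lp.norm_def] at hφ
  have e1 : eLpNorm (fun x => g x - φ x) 2 volume =
      eLpNorm ((h2.toLp g - toLpCLM ℝ (E := V) ℂ 2 volume φ : Lp ℂ 2 (volume : Measure V))) 2 volume := by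
    refine eLpNorm_congr_ae ?_
    have hc : (toLpCLM ℝ (E := V) ℂ 2 volume φ : V → ℂ) =ᵐ[volume] φ := φ.coeFn_toLp 2
    filter_upwards [Lp.coeFn_sub (h2.toLp g) (toLpCLM ℝ (E := V) ℂ 2 volume φ), h2.coeFn_toLp,
      hc] with x h1 h3 h4
    rw [h1, Pi.sub_apply, h3, h4]
  have e0 : LI (fun x => ‖g x - φ x‖ ^ 2) = eLpNorm (fun x => g x - φ x) 2 volume ^ (2:ℝ) := by
    rw [eLpNorm_eq_lintegral_rpow_enorm_toReal (by norm_num) (by norm_num)]
    simp only [ENNReal.toReal_ofNat]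
    rw [← ENNReal.rpow_mul]
    norm_num
    unfold LI
    refine lintegral_congr fun x => ?_
    rw [ENNReal.ofReal_pow (norm_nonneg _), ofReal_norm]
  have h3 : eLpNorm (fun x => g x - φ x) 2 volume ≤ ENNReal.ofReal (Real.sqrt η) := by
    rw [e1]
    refine (ENNReal.le_ofReal_iff_toReal_le (Lp.eLpNorm_ne_top _) (Real.sqrt_nonneg _)).2 hφ.le
  rw [e0]
  refine (ENNReal.rpow_le_rpow h3 (by norm_num)).trans (le_of_eq ?_)
  rw [ENNReal.ofReal_rpow_of_nonneg (Real.sqrt_nonneg _) (by norm_num)]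
  congr 1
  rw [Real.rpow_ofNat]
  exact Real.sq_sqrt hη.le

/-- weighted energy of `𝓕⁻ g`: `∫ ‖𝓕⁻ g‖² (1 + ‖A(x-c)‖²)^{-n}`. -/
noncomputable def wE (n : ℕ) (A : V →L[ℝ] W) (c : V) (g : V → ℂ) : ℝ≥0∞ :=
  LI (fun x => dw n A (x - c) * ‖𝓕⁻ g x‖ ^ 2)

theorem continuous_dw (n : ℕ) (A : V →L[ℝ] W) : Continuous (dw n A) :=
  (temperate_dw n A).1.continuous

theorem LI_add {F G : V → ℝ} (hF : ∀ x, 0 ≤ F x) (hG : ∀ x, 0 ≤ G x) (hm : Measurable F) :
    LI (fun x => F x + G x) = LI F + LI G := by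
  unfold LI
  rw [← lintegral_add_left hm.ennreal_ofReal]
  refine lintegral_congr fun x => ?_
  rw [ENNReal.ofReal_add (hF x) (hG x)]

theorem wE_le_two (n : ℕ) (A : V →L[ℝ] W) (c : V) {g φ : V → ℂ} (hg : Integrable g)
    (hφ : Integrable φ) (hg2 : MemLp g 2) (hφ2 : MemLp φ 2) :
    wE n A c g ≤ ENNReal.ofReal 2 * wE n A c φ + ENNReal.ofReal 2 * LI (fun x => ‖g x - φ x‖ ^ 2) := by
  have hcg : Continuous (𝓕⁻ φ : V → ℂ) := fourierInv_continuous hφ
  have h1 : LI (fun x => ‖g x - φ x‖ ^ 2) = LI (fun x => ‖𝓕⁻ (fun ξ => g ξ - φ ξ) x‖ ^ 2) :=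
    (planchL (hg.sub hφ) (hg2.sub hφ2)).symm
  rw [h1, wE, wE, ← LI_const_mul (by norm_num), ← LI_const_mul (by norm_num), ← LI_add]
  · refine LI_mono fun x => ?_
    rw [fourierInv_sub' hg hφ]
    have hw0 := (dw_pos n A (x - c)).le
    have hw1 := dw_le_one n A (x - c)
    have h2 : ‖𝓕⁻ g x‖ ≤ ‖𝓕⁻ φ x‖ + ‖𝓕⁻ g x - 𝓕⁻ φ x‖ := by
      have := norm_add_le (𝓕⁻ φ x) (𝓕⁻ g x - 𝓕⁻ φ x)
      simpa using this
    have h3 : ‖𝓕⁻ g x‖ ^ 2 ≤ 2 * ‖𝓕⁻ φ x‖ ^ 2 + 2 * ‖𝓕⁻ g x - 𝓕⁻ φ x‖ ^ 2 := by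
      nlinarith [norm_nonneg (𝓕⁻ g x), norm_nonneg (𝓕⁻ φ x), norm_nonneg (𝓕⁻ g x - 𝓕⁻ φ x),
        sq_nonneg (‖𝓕⁻ φ x‖ - ‖𝓕⁻ g x - 𝓕⁻ φ x‖)]
    have h4 := mul_le_mul_of_nonneg_left h3 hw0
    have h5 : dw n A (x - c) * ‖𝓕⁻ g x - 𝓕⁻ φ x‖ ^ 2 ≤ ‖𝓕⁻ g x - 𝓕⁻ φ x‖ ^ 2 :=
      mul_le_of_le_one_left (by positivity) hw1
    nlinarith
  · intro x; have := (dw_pos n A (x - c)).le; positivity
  · intro x; positivity
  · refine Continuous.measurable ?_
    have := (continuous_dw n A).comp (continuous_id.sub (continuous_const (y := c)))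
    exact continuous_const.mul (this.mul (hcg.norm.pow 2))

set_option maxHeartbeats 2000000 in
/-- **Weighted multiplier lemma** (matrix form, `L¹ ∩ L²`). -/
theorem decayL (n : ℕ) : ∃ C : ℝ, 0 ≤ C ∧ ∀ (A : V →L[ℝ] W) (c : V) (ι κ : Type) [Fintype ι]
    [Fintype κ] (m : κ → ι → V → ℂ) (g : ι → V → ℂ) (B : ℝ), 0 < B →
    (∀ k i, (m k i).HasTemperateGrowth) → (∀ i, Integrable (g i)) → (∀ i, MemLp (g i) 2) →
    (∀ j ≤ n, ∀ ξ, ∑ k, ∑ i, Nn A j (m k i) ξ ^ 2 ≤ B ^ 2) →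
    ∑ k, wE n A c (fun ξ => ∑ i, m k i ξ * g i ξ) ≤
      ENNReal.ofReal (C * B ^ 2) * ∑ i, wE n A c (g i) := by
  classical
  obtain ⟨C, hC, h⟩ := decayC (V := V) (W := W) n
  refine ⟨4 * C, by positivity, ?_⟩
  intro A c ι κ _ _ m g B hB hm hg hg2 hN
  have hmb : ∀ k i ξ, ‖m k i ξ‖ ≤ B := by
    intro k i ξ
    have h1 := hN 0 (Nat.zero_le _) ξ
    have h2 : Nn A 0 (m k i) ξ ^ 2 ≤ B ^ 2 := by
      refine le_trans ?_ h1
      refine le_trans (Finset.single_le_sum (f := fun i => Nn A 0 (m k i) ξ ^ 2)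
        (fun i _ => sq_nonneg _) (Finset.mem_univ i)) ?_
      exact Finset.single_le_sum (f := fun k => ∑ i, Nn A 0 (m k i) ξ ^ 2)
        (fun k _ => Finset.sum_nonneg fun i _ => sq_nonneg _) (Finset.mem_univ k)
    rw [Nn_zero] at h2
    exact (pow_le_pow_iff_left₀ (norm_nonneg _) hB.le (by norm_num)).1 h2
  have hmc : ∀ k i, Continuous (m k i) := fun k i => (hm k i).1.continuous
  have hI : ∀ k i (f : V → ℂ), Integrable f → Integrable (fun ξ => m k i ξ * f ξ) := by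
    intro k i f hf
    exact hf.bdd_mul (hmc k i).aestronglyMeasurable (Filter.Eventually.of_forall (hmb k i))
  have hL2 : ∀ k i (f : V → ℂ), MemLp f 2 → MemLp (fun ξ => m k i ξ * f ξ) 2 := by
    intro k i f hf
    refine MemLp.of_le_mul (c := B) hf ((hmc k i).aestronglyMeasurable.mul hf.1)
      (Filter.Eventually.of_forall fun ξ => ?_)
    rw [norm_mul]
    exact mul_le_mul_of_nonneg_right (hmb k i ξ) (norm_nonneg _)
  refine ENNReal.le_of_forall_pos_le_add fun ε hε _ => ?_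
  -- choose the approximations
  set η : ℝ := ε / ((4 * C + 2) * B ^ 2 * (Fintype.card ι + 1)) with hη
  have hη0 : 0 < η := by positivity
  choose φ hφ using fun i => exists_schwartz (hg2 i) hη0
  set F : κ → 𝓢(V, ℂ) := fun k => ∑ i, smulLeftCLM ℂ (m k i) (φ i) with hF
  have hFx : ∀ k ξ, F k ξ = ∑ i, m k i ξ * φ i ξ := by
    intro k ξ
    rw [hF]
    simp only [sum_apply]
    exact Finset.sum_congr rfl fun i _ => smulLeftCLM_apply_apply (hm k i) _ _
  have hFe : ∀ k, (fun ξ => ∑ i, m k i ξ * φ i ξ) = (F k : V → ℂ) := fun k =>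
    (funext (hFx k)).symm
  have hE : ∑ i, LI (fun x => ‖g i x - φ i x‖ ^ 2) ≤ ENNReal.ofReal (Fintype.card ι * η) := by
    refine (Finset.sum_le_card_nsmul _ _ _ fun i _ => hφ i).trans (le_of_eq ?_)
    rw [ENNReal.ofReal_mul (by positivity)]
    simp
  set S := ∑ i, LI (fun x => ‖g i x - φ i x‖ ^ 2) with hS
  have h1 : ∀ k, wE n A c (fun ξ => ∑ i, m k i ξ * g i ξ) ≤ ENNReal.ofReal 2 * wE n A c (F k) +
      ENNReal.ofReal 2 * LI (fun ξ => (∑ i, ‖m k i ξ‖ ^ 2) * ∑ i, ‖g i ξ - φ i ξ‖ ^ 2) := by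
    intro k
    refine (wE_le_two n A c (φ := F k) (integrable_finsetSum _ fun i _ => hI k i _ (hg i))
      (F k).integrable (memLp_finsetSum _ fun i _ => hL2 k i _ (hg2 i)) ((F k).memLp 2)).trans ?_
    refine add_le_add le_rfl (mul_le_mul_right (LI_mono fun ξ => ?_) _)
    rw [hFx, ← Finset.sum_sub_distrib]
    have e1 : ∀ i, m k i ξ * g i ξ - m k i ξ * φ i ξ = m k i ξ * (g i ξ - φ i ξ) := fun i => by ring
    simp_rw [e1]
    refine (pow_le_pow_left₀ (norm_nonneg _) (norm_sum_le _ _) 2).trans ?_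
    simp_rw [norm_mul]
    exact Finset.sum_mul_sq_le_sq_mul_sq _ _ _
  have hmes : ∀ k i, Measurable (fun ξ => ‖m k i ξ‖) := fun k i => (hmc k i).norm.measurable
  have h2 : ∑ k, LI (fun ξ => (∑ i, ‖m k i ξ‖ ^ 2) * ∑ i, ‖g i ξ - φ i ξ‖ ^ 2) ≤
      ENNReal.ofReal (B ^ 2) * S := by
    have hae : ∀ i, AEMeasurable (fun ξ => ‖g i ξ - φ i ξ‖ ^ 2) := fun i =>
      (((hg2 i).1.sub (φ i).continuous.aestronglyMeasurable).norm.aemeasurable.pow_const 2)
    have e1 : ∑ k, LI (fun ξ => (∑ i, ‖m k i ξ‖ ^ 2) * ∑ i, ‖g i ξ - φ i ξ‖ ^ 2) =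
        LI (fun ξ => ∑ k, ((∑ i, ‖m k i ξ‖ ^ 2) * ∑ i, ‖g i ξ - φ i ξ‖ ^ 2)) := by
      unfold LI
      rw [← lintegral_finsetSum']
      · refine lintegral_congr fun ξ => ?_
        rw [ENNReal.ofReal_sum_of_nonneg]
        intro k _; positivity
      · intro k _
        refine AEMeasurable.ennreal_ofReal ?_
        refine AEMeasurable.mul (Finset.measurable_sum _ fun i _ => (hmes k i).pow_const 2).aemeasurable ?_
        exact Finset.aemeasurable_fun_sum _ fun i _ => hae i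
    have e2 : S = LI (fun ξ => ∑ i, ‖g i ξ - φ i ξ‖ ^ 2) := by
      rw [hS]
      unfold LI
      rw [← lintegral_finsetSum']
      · refine lintegral_congr fun ξ => ?_
        rw [ENNReal.ofReal_sum_of_nonneg]
        intro k _; positivity
      · intro i _
        exact (hae i).ennreal_ofReal
    rw [e1, e2, ← LI_const_mul (by positivity)]
    refine LI_mono fun ξ => ?_
    rw [← Finset.sum_mul]
    refine mul_le_mul_of_nonneg_right ?_ (Finset.sum_nonneg fun i _ => by positivity)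
    have := hN 0 (Nat.zero_le _) ξ
    simpa [Nn_zero] using this
  have h3 : ∑ k, wE n A c (F k) ≤ ENNReal.ofReal (C * B ^ 2) * ∑ i, wE n A c (φ i) := by
    have := h A c ι κ m φ F B hB hm hFx hN
    simpa [wE, SchwartzMap.fourierInv_coe] using this
  have h4 : ∑ i, wE n A c (φ i) ≤ ENNReal.ofReal 2 * ∑ i, wE n A c (g i) + ENNReal.ofReal 2 * S := by
    rw [Finset.mul_sum, hS, Finset.mul_sum, ← Finset.sum_add_distrib]
    refine Finset.sum_le_sum fun i _ => ?_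
    have := wE_le_two n A c (φ i).integrable (hg i) ((φ i).memLp 2) (hg2 i)
    simpa [norm_sub_rev] using this
  calc ∑ k, wE n A c (fun ξ => ∑ i, m k i ξ * g i ξ)
      ≤ ∑ k, (ENNReal.ofReal 2 * wE n A c (F k) +
      ENNReal.ofReal 2 * LI (fun ξ => (∑ i, ‖m k i ξ‖ ^ 2) * ∑ i, ‖g i ξ - φ i ξ‖ ^ 2)) :=
        Finset.sum_le_sum fun k _ => h1 k
    _ ≤ ENNReal.ofReal 2 * (ENNReal.ofReal (C * B ^ 2) * (ENNReal.ofReal 2 * ∑ i, wE n A c (g i) +
          ENNReal.ofReal 2 * S)) + ENNReal.ofReal 2 * (ENNReal.ofReal (B ^ 2) * S) := by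
        rw [Finset.sum_add_distrib, ← Finset.mul_sum, ← Finset.mul_sum]
        exact add_le_add (mul_le_mul_right (h3.trans (mul_le_mul_right h4 _)) _)
          (mul_le_mul_right h2 _)
    _ = ENNReal.ofReal (4 * C * B ^ 2) * ∑ i, wE n A c (g i) +
          ENNReal.ofReal ((4 * C + 2) * B ^ 2) * S := by
        have e1 : ENNReal.ofReal (4 * C * B ^ 2) = ENNReal.ofReal 2 * (ENNReal.ofReal (C * B ^ 2) *
          ENNReal.ofReal 2) := by
          rw [← ENNReal.ofReal_mul (by positivity), ← ENNReal.ofReal_mul (by positivity)]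
          congr 1; ring
        have e2 : ENNReal.ofReal ((4 * C + 2) * B ^ 2) = ENNReal.ofReal 2 * (ENNReal.ofReal (C * B ^ 2) *
          ENNReal.ofReal 2) + ENNReal.ofReal 2 * ENNReal.ofReal (B ^ 2) := by
          rw [← ENNReal.ofReal_mul (by positivity), ← ENNReal.ofReal_mul (by positivity),
            ← ENNReal.ofReal_mul (by positivity), ← ENNReal.ofReal_add (by positivity) (by positivity)]
          congr 1; ring
        rw [e1, e2]
        ring
    _ ≤ ENNReal.ofReal (4 * C * B ^ 2) * ∑ i, wE n A c (g i) + ε := by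
        refine add_le_add le_rfl ?_
        refine (mul_le_mul_right hE _).trans ?_
        rw [← ENNReal.ofReal_mul (by positivity)]
        rw [← ENNReal.ofReal_coe_nnreal]
        refine ENNReal.ofReal_le_ofReal ?_
        rw [hη]
        have hD : 0 < (4 * C + 2) * B ^ 2 := by positivity
        have : (4 * C + 2) * B ^ 2 * (Fintype.card ι * (ε / ((4 * C + 2) * B ^ 2 * (Fintype.card ι + 1))))
          = ε * (Fintype.card ι / (Fintype.card ι + 1)) := by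
          field_simp
        rw [this]
        have h5 : (Fintype.card ι : ℝ) / (Fintype.card ι + 1) ≤ 1 := by
          rw [div_le_one (by positivity)]; linarith
        exact mul_le_of_le_one_right (by positivity) h5

end Crest.Agent.R138.Wf448
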