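import Crest.Agent.R138.Bn1_759
import Crest.Agent.R138.Bn2_759
import Crest.Agent.R138.Wf2_448

/-! R138, broad/narrow end, part 3 (helper759): smooth cut-offs in direction space, derivative
bounds, the weighted multiplier lemma in space-time. -/

set_option autoImplicit false

open MeasureTheory SchwartzMap FourierTransform
open scoped FourierTransform SchwartzMap ENNReal ContDiff

namespace Crest.Agent.R138.Bn759

open Crest.Agent.R138.Defs (E2 ee ext ParB)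
open Crest.Agent.R138.Bil882 (NearId ee_eq)

/-! ### the gradient -/

lemma hasGradientAt_sq (ξ : E2) : HasGradientAt (fun ξ : E2 => ‖ξ‖ ^ 2 / 2) ξ ξ := by
  rw [hasGradientAt_iff_hasFDerivAt]
  have h := (hasStrictFDerivAt_norm_sq ξ).hasFDerivAt.mul_const (1 / 2 : ℝ)
  refine (h.congr_fderiv ?_).congr_of_eventuallyEq (Filter.Eventually.of_forall fun x => by ring)
  ext v
  simp

lemma gradient_split {h : E2 → ℝ} (hh : Differentiable ℝ h) (ξ : E2) :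
    gradient h ξ = gradient (fun ξ : E2 => h ξ - ‖ξ‖ ^ 2 / 2) ξ + ξ := by
  have h1 := (hh ξ).hasGradientAt
  have h2 := hasGradientAt_sq ξ
  have h3 : HasGradientAt (fun ξ : E2 => h ξ - ‖ξ‖ ^ 2 / 2) (gradient h ξ - ξ) ξ := by
    rw [hasGradientAt_iff_hasFDerivAt] at *
    have := h1.sub h2
    rw [map_sub]
    exact this
  rw [h3.gradient]
  abel

lemma contDiff_gradient {h : E2 → ℝ} (hh : ContDiff ℝ ∞ h) : ContDiff ℝ ∞ (gradient h) := by
  have h1 : ContDiff ℝ ∞ (fderiv ℝ h) := hh.fderiv_right (by simp)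
  exact (InnerProductSpace.toDual ℝ E2).symm.toContinuousLinearEquiv.contDiff.comp h1

lemma norm_iteratedFDeriv_gradient (h : E2 → ℝ) (i : ℕ) (ξ : E2) :
    ‖iteratedFDeriv ℝ i (gradient h) ξ‖ = ‖iteratedFDeriv ℝ (i + 1) h ξ‖ := by
  rw [← norm_iteratedFDeriv_fderiv]
  exact (InnerProductSpace.toDual ℝ E2).symm.norm_iteratedFDeriv_comp_left (fderiv ℝ h) ξ i

lemma norm_iteratedFDeriv_id_le (i : ℕ) (hi : 1 ≤ i) (ξ : E2) :
    ‖iteratedFDeriv ℝ i (fun ξ : E2 => ξ) ξ‖ ≤ 1 := by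
  obtain ⟨k, rfl⟩ : ∃ k, i = k + 1 := ⟨i - 1, by omega⟩
  rw [← norm_iteratedFDeriv_fderiv]
  have : fderiv ℝ (fun ξ : E2 => ξ) = fun _ => ContinuousLinearMap.id ℝ E2 := by
    ext1 v; exact fderiv_fun_id
  rw [this]
  rcases k with _ | k
  · rw [norm_iteratedFDeriv_zero]
    exact ContinuousLinearMap.norm_id_le
  · rw [iteratedFDeriv_const_of_ne (by omega)]
    simp

/-- all derivatives of the gradient, of order `1..n`, are bounded by the class constant. -/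
lemma grad_bound {B : ℕ → ℝ} {h : E2 → ℝ} (hh : ParB B h) (i : ℕ) (hi : 1 ≤ i) (ξ : E2) :
    ‖iteratedFDeriv ℝ i (gradient h) ξ‖ ≤ 1 + |B (i + 1)| := by
  have hq : ContDiff ℝ ∞ (fun ξ : E2 => h ξ - ‖ξ‖ ^ 2 / 2) :=
    hh.1.sub ((contDiff_norm_sq ℝ).div_const 2)
  have e : gradient h = fun ξ => gradient (fun ξ : E2 => h ξ - ‖ξ‖ ^ 2 / 2) ξ + ξ :=
    funext fun ξ => gradient_split (hh.1.differentiable (by simp)) ξ
  rw [e]
  have h1 : iteratedFDeriv ℝ i (fun ξ => gradient (fun ξ : E2 => h ξ - ‖ξ‖ ^ 2 / 2) ξ + ξ) ξ =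
      iteratedFDeriv ℝ i (gradient (fun ξ : E2 => h ξ - ‖ξ‖ ^ 2 / 2)) ξ +
        iteratedFDeriv ℝ i (fun ξ : E2 => ξ) ξ :=
    fun_iteratedFDeriv_add_apply ((contDiff_gradient hq).of_le (by exact_mod_cast le_top)).contDiffAt
      contDiff_id.contDiffAt
  rw [h1]
  refine (norm_add_le _ _).trans ?_
  rw [norm_iteratedFDeriv_gradient, add_comm]
  refine add_le_add (norm_iteratedFDeriv_id_le i hi ξ) ?_
  exact (hh.2 (i + 1) (by omega) ξ).trans (le_abs_self _)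

/-- the class constant. -/
noncomputable def BB (B : ℕ → ℝ) (n : ℕ) : ℝ := 1 + ∑ i ∈ Finset.range (n + 2), |B i|

lemma one_le_BB (B : ℕ → ℝ) (n : ℕ) : 1 ≤ BB B n := by
  unfold BB
  have : 0 ≤ ∑ i ∈ Finset.range (n + 2), |B i| := Finset.sum_nonneg fun i _ => abs_nonneg _
  linarith

lemma grad_bound' {B : ℕ → ℝ} {h : E2 → ℝ} (hh : ParB B h) {n i : ℕ} (hi : 1 ≤ i) (hin : i ≤ n)
    (ξ : E2) : ‖iteratedFDeriv ℝ i (gradient h) ξ‖ ≤ BB B n := by
  refine (grad_bound hh i hi ξ).trans ?_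
  unfold BB
  have := Finset.single_le_sum (f := fun i => |B i|) (fun i _ => abs_nonneg _)
    (Finset.mem_range.2 (show i + 1 < n + 2 by omega))
  linarith

/-- `NearId` from the class. -/
lemma nearId {B : ℕ → ℝ} (hB : B 2 ≤ 1 / 10) {h : E2 → ℝ} (hh : ParB B h) :
    NearId h (1 / 10) := by
  intro ξ η
  have hd := hh.1.differentiable (by simp)
  have hq : ContDiff ℝ ∞ (fun ξ : E2 => h ξ - ‖ξ‖ ^ 2 / 2) :=
    hh.1.sub ((contDiff_norm_sq ℝ).div_const 2)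
  have e : (gradient h ξ - gradient h η) - (ξ - η) =
      gradient (fun ξ : E2 => h ξ - ‖ξ‖ ^ 2 / 2) ξ -
        gradient (fun ξ : E2 => h ξ - ‖ξ‖ ^ 2 / 2) η := by
    rw [gradient_split hd ξ, gradient_split hd η]; abel
  rw [e]
  have hc := contDiff_gradient hq
  refine Convex.norm_image_sub_le_of_norm_fderiv_le (s := Set.univ)
    (fun x _ => (hc.differentiable (by simp)) x) (fun x _ => ?_) convex_univ
    (Set.mem_univ _) (Set.mem_univ _)
  have h1 := norm_iteratedFDeriv_gradient (fun ξ : E2 => h ξ - ‖ξ‖ ^ 2 / 2) 1 x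
  rw [norm_iteratedFDeriv_one] at h1
  rw [h1]
  exact (hh.2 2 le_rfl x).trans hB

/-! ### multipliers through the gradient -/

/-- smooth functions with all derivatives bounded, by `c` up to order `n`. -/
structure Mul (n : ℕ) (c : ℝ) (Φ : E2 → ℂ) : Prop where
  cd : ContDiff ℝ ∞ Φ
  bd : ∀ i ≤ n, ∀ y, ‖iteratedFDeriv ℝ i Φ y‖ ≤ c
  tg : ∀ i, ∃ C, ∀ y, ‖iteratedFDeriv ℝ i Φ y‖ ≤ C

lemma Mul.nonneg {n : ℕ} {c : ℝ} {Φ : E2 → ℂ} (h : Mul n c Φ) : 0 ≤ c :=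
  (norm_nonneg _).trans (h.bd 0 (Nat.zero_le _) 0)

/-- the multiplier. -/
noncomputable def mm (h : E2 → ℝ) (κ : ℝ) (Φ : E2 → ℂ) (ξ : E2) : ℂ := Φ (κ • gradient h ξ)

lemma contDiff_mm {h : E2 → ℝ} (hh : ContDiff ℝ ∞ h) (κ : ℝ) {Φ : E2 → ℂ} (hΦ : ContDiff ℝ ∞ Φ) :
    ContDiff ℝ ∞ (mm h κ Φ) :=
  hΦ.comp ((contDiff_gradient hh).const_smul κ)

lemma mm_bound {B : ℕ → ℝ} {h : E2 → ℝ} (hh : ParB B h) {n : ℕ} {c : ℝ} {Φ : E2 → ℂ}
    (hΦ : Mul n c Φ) {κ K : ℝ} (hκ : 0 ≤ κ) (hκK : κ ≤ K) (hK : 1 ≤ K) {i : ℕ} (hi : i ≤ n) (ξ : E2) :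
    ‖iteratedFDeriv ℝ i (mm h κ Φ) ξ‖ ≤ i.factorial * c * (K * BB B n) ^ i := by
  have h1 := norm_iteratedFDeriv_comp_le (𝕜 := ℝ) (g := Φ) (f := fun ξ => κ • gradient h ξ)
    (n := i) (N := (⊤ : ℕ∞)) (C := c) (D := K * BB B n) hΦ.cd
    ((contDiff_gradient hh.1).const_smul κ) (by exact_mod_cast le_top) ξ
    (fun j hj => hΦ.bd j (hj.trans hi) _) (fun j hj1 hj => ?_)
  · exact h1
  · have e : iteratedFDeriv ℝ j (fun ξ => κ • gradient h ξ) ξ =
        κ • iteratedFDeriv ℝ j (gradient h) ξ :=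
      iteratedFDeriv_const_smul_apply'
        ((contDiff_gradient hh.1).of_le (by exact_mod_cast le_top)).contDiffAt
    rw [e, norm_smul, Real.norm_of_nonneg hκ]
    have h2 := grad_bound' hh hj1 (hj.trans hi) ξ
    have h3 : 1 ≤ K * BB B n := by
      calc (1:ℝ) = 1 * 1 := by ring
        _ ≤ K * BB B n := mul_le_mul hK (one_le_BB B n) (by norm_num) (by linarith)
    calc κ * ‖iteratedFDeriv ℝ j (gradient h) ξ‖ ≤ K * BB B n :=
          mul_le_mul hκK h2 (norm_nonneg _) (by linarith)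
      _ ≤ (K * BB B n) ^ j := le_self_pow₀ h3 (by omega)

lemma temperate_mm {B : ℕ → ℝ} {h : E2 → ℝ} (hh : ParB B h) {Φ : E2 → ℂ}
    (hΦ : ContDiff ℝ ∞ Φ) (hb : ∀ i, ∃ C, ∀ y, ‖iteratedFDeriv ℝ i Φ y‖ ≤ C) (κ : ℝ) :
    (mm h κ Φ).HasTemperateGrowth := by
  have hΦt : Φ.HasTemperateGrowth := by
    refine ⟨hΦ, fun n => ?_⟩
    obtain ⟨C, hC⟩ := hb n
    exact ⟨0, C, fun x => by simpa using hC x⟩
  have hgt : (gradient h).HasTemperateGrowth := by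
    refine Function.HasTemperateGrowth.of_fderiv (k := 1)
      (C := ‖gradient h 0‖ + BB B 1) ?_ ((contDiff_gradient hh.1).differentiable (by simp)) ?_
    · refine ⟨(contDiff_gradient hh.1).fderiv_right (by simp), fun n => ⟨0, BB B (n + 1), fun x => ?_⟩⟩
      rw [norm_iteratedFDeriv_fderiv, pow_zero, mul_one]
      exact grad_bound' hh (by omega) le_rfl x
    · intro x
      have h1 : ‖gradient h x - gradient h 0‖ ≤ BB B 1 * ‖x - 0‖ := by
        refine Convex.norm_image_sub_le_of_norm_fderiv_le (s := Set.univ)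
          (fun x _ => ((contDiff_gradient hh.1).differentiable (by simp)) x) (fun x _ => ?_)
          convex_univ (Set.mem_univ _) (Set.mem_univ _)
        have := grad_bound' hh (le_refl 1) (le_refl 1) x
        rwa [norm_iteratedFDeriv_one] at this
      have h2 : ‖gradient h x‖ ≤ ‖gradient h x - gradient h 0‖ + ‖gradient h 0‖ := by
        calc ‖gradient h x‖ = ‖(gradient h x - gradient h 0) + gradient h 0‖ := by
              rw [sub_add_cancel]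
          _ ≤ _ := norm_add_le _ _
      rw [sub_zero] at h1
      have h3 := one_le_BB B 1
      have h4 := norm_nonneg x
      have h5 := norm_nonneg (gradient h 0)
      rw [pow_one]
      nlinarith [mul_nonneg h4 h5]
  have h4 : (fun ξ => κ • gradient h ξ).HasTemperateGrowth :=
    (Function.HasTemperateGrowth.const κ).smul hgt
  exact hΦt.comp h4

/-! ### slices -/

open Crest.Agent.R138.Wf448 (wE dw gw Nn LI decayL adj)

/-- the slice of `g` at time `t`. -/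
noncomputable def sl (h : E2 → ℝ) (g : E2 → ℂ) (t : ℝ) (ξ : E2) : ℂ := g ξ * ee (t * h ξ)

lemma ee_add (a b : ℝ) : ee (a + b) = ee a * ee b := by
  rw [ee_eq, ee_eq, ee_eq, AddChar.map_add_eq_mul, Circle.coe_mul]

lemma norm_ee (a : ℝ) : ‖ee a‖ = 1 := by rw [ee_eq, Circle.norm_coe]

lemma continuous_ee : Continuous ee := by
  have : ee = fun t => (Real.fourierChar t : ℂ) := funext ee_eq
  rw [this]; fun_prop

lemma ext_eq_slice (h : E2 → ℝ) (g : E2 → ℂ) (x : E2) (t : ℝ) :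
    ext h g x t = 𝓕⁻ (sl h g t) x := by
  rw [Real.fourierInv_eq]
  unfold Crest.Agent.R138.Defs.ext sl
  refine integral_congr_ae (Filter.Eventually.of_forall fun ξ => ?_)
  simp only
  rw [ee_add, ee_eq (inner ℝ x ξ), Circle.smul_def, real_inner_comm]
  simp only [smul_eq_mul]
  ring

lemma sl_mul (h : E2 → ℝ) (g m : E2 → ℂ) (t : ℝ) :
    sl h (fun ξ => m ξ * g ξ) t = fun ξ => m ξ * sl h g t ξ := by
  funext ξ; unfold sl; ring

lemma measurable_sl {h : E2 → ℝ} (hh : Continuous h) {g : E2 → ℂ} (hg : Measurable g) (t : ℝ) :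
    Measurable (sl h g t) :=
  hg.mul (continuous_ee.comp (by fun_prop)).measurable

lemma integrable_of_bdd {g : E2 → ℂ} (hg : Measurable g) (hM : ∃ M, ∀ ξ, ‖g ξ‖ ≤ M) {r : ℝ}
    (hr : ∀ ξ, r < ‖ξ‖ → g ξ = 0) : Integrable g := by
  obtain ⟨M, hM⟩ := hM
  have h1 : g = (Metric.closedBall (0:E2) r).indicator g := by
    funext ξ
    by_cases hξ : ξ ∈ Metric.closedBall (0:E2) r
    · rw [Set.indicator_of_mem hξ]
    · rw [Set.indicator_of_notMem hξ]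
      exact hr ξ (by simpa using hξ)
  rw [h1, integrable_indicator_iff measurableSet_closedBall]
  exact Measure.integrableOn_of_bounded (M := M) measure_closedBall_lt_top.ne hg.aestronglyMeasurable
    (Filter.Eventually.of_forall fun ξ => hM ξ)

lemma memLp_of_bdd {g : E2 → ℂ} (hg : Measurable g) (hM : ∃ M, ∀ ξ, ‖g ξ‖ ≤ M) {r : ℝ}
    (hr : ∀ ξ, r < ‖ξ‖ → g ξ = 0) : MemLp g 2 := by
  obtain ⟨M, hM⟩ := hM
  have h2 : MemLp g ⊤ := memLp_top_of_bound hg.aestronglyMeasurable M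
    (Filter.Eventually.of_forall hM)
  refine h2.mono_exponent_of_measure_support_ne_top (s := Metric.closedBall (0:E2) r)
    (fun ξ hξ => hr ξ (by simpa using hξ)) measure_closedBall_lt_top.ne le_top

/-- the scaling map. -/
noncomputable def sc (K : ℝ) : E2 →L[ℝ] E2 := K⁻¹ • ContinuousLinearMap.id ℝ E2

lemma norm_adj_sc_le {K : ℝ} (hK : 0 < K) : ‖adj (sc K)‖ ≤ K⁻¹ := by
  have h1 : ‖adj (sc K)‖ = ‖sc K‖ := by
    exact LinearIsometryEquiv.norm_map (ContinuousLinearMap.adjoint) (sc K)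
  rw [h1]
  unfold sc
  rw [norm_smul, norm_inv, Real.norm_of_nonneg hK.le]
  have := ContinuousLinearMap.norm_id_le (𝕜 := ℝ) (E := E2)
  calc K⁻¹ * ‖ContinuousLinearMap.id ℝ E2‖ ≤ K⁻¹ * 1 := by gcongr
    _ = K⁻¹ := mul_one _

lemma Nn_le_sc {K : ℝ} (hK : 0 < K) (j : ℕ) (f : E2 → ℂ) (ξ : E2) :
    Nn (sc K) j f ξ ≤ (K⁻¹) ^ j * ‖iteratedFDeriv ℝ j f ξ‖ := by
  unfold Crest.Agent.R138.Wf448.Nn
  refine (ContinuousMultilinearMap.norm_compContinuousLinearMap_le _ _).trans ?_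
  rw [mul_comm]
  refine mul_le_mul_of_nonneg_right ?_ (norm_nonneg _)
  rw [Finset.prod_const, Finset.card_univ, Fintype.card_fin]
  exact pow_le_pow_left₀ (norm_nonneg _) (norm_adj_sc_le hK) j

/-- **weighted multiplier lemma on a slice.** -/
theorem mult_slice (n : ℕ) : ∃ C : ℝ, 0 ≤ C ∧ ∀ (B : ℕ → ℝ) (h : E2 → ℝ), ParB B h →
    ∀ (c : ℝ), 0 < c → ∀ (Φ : E2 → ℂ), Mul n c Φ → ∀ (κ K : ℝ), 0 ≤ κ → κ ≤ K → 1 ≤ K →
    ∀ g : E2 → ℂ, Measurable g → (∃ M, ∀ ξ, ‖g ξ‖ ≤ M) → ∀ r : ℝ, (∀ ξ, r < ‖ξ‖ → g ξ = 0) →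
    ∀ (x0 : E2) (t : ℝ),
      wE n (sc K) x0 (sl h (fun ξ => mm h κ Φ ξ * g ξ) t) ≤
        ENNReal.ofReal (C * (n.factorial * c * BB B n ^ n) ^ 2) * wE n (sc K) x0 (sl h g t) := by
  obtain ⟨C, hC, h0⟩ := decayL (V := E2) (W := E2) n
  refine ⟨C, hC, ?_⟩
  intro B h hh c hc Φ hΦ κ K hκ hκK hK g hg hM r hr x0 t
  have hK0 : 0 < K := by linarith
  have hBB := one_le_BB B n
  have hpos : 0 < (n.factorial : ℝ) * c * BB B n ^ n := by
    have : (0:ℝ) < n.factorial := by exact_mod_cast n.factorial_pos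
    positivity
  have hcont : Continuous h := hh.1.continuous
  have hsb : ∃ M, ∀ ξ, ‖sl h g t ξ‖ ≤ M := by
    obtain ⟨M, hM⟩ := hM
    exact ⟨M, fun ξ => by unfold sl; rw [norm_mul, norm_ee, mul_one]; exact hM ξ⟩
  have hsr : ∀ ξ, r < ‖ξ‖ → sl h g t ξ = 0 := fun ξ hξ => by unfold sl; rw [hr ξ hξ, zero_mul]
  have h1 := h0 (sc K) x0 Unit Unit (fun _ _ => mm h κ Φ) (fun _ => sl h g t)
    ((n.factorial : ℝ) * c * BB B n ^ n) hpos
    (fun _ _ => temperate_mm hh hΦ.cd hΦ.tg κ)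
    (fun _ => integrable_of_bdd (measurable_sl hcont hg t) hsb hsr)
    (fun _ => memLp_of_bdd (measurable_sl hcont hg t) hsb hsr)
    (fun j hj ξ => by
      simp only [Finset.univ_unique, Finset.sum_const, Finset.card_singleton, one_smul]
      refine pow_le_pow_left₀ (norm_nonneg _) ?_ 2
      refine (Nn_le_sc hK0 j _ ξ).trans ?_
      have h2 := mm_bound hh hΦ hκ hκK hK hj ξ
      calc (K⁻¹) ^ j * ‖iteratedFDeriv ℝ j (mm h κ Φ) ξ‖
          ≤ (K⁻¹) ^ j * (j.factorial * c * (K * BB B n) ^ j) := by gcongr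
        _ = j.factorial * c * BB B n ^ j := by
            rw [mul_pow, inv_pow]; field_simp
        _ ≤ n.factorial * c * BB B n ^ n := by
            gcongr)
  simp only [Finset.univ_unique, Finset.sum_const, Finset.card_singleton, one_smul] at h1
  rw [sl_mul]
  exact h1

/-- the product weight of the `K`-ball around `z`. -/
noncomputable def pw (n : ℕ) (K : ℝ) (z p : E2 × ℝ) : ℝ :=
  dw n (sc K) (p.1 - z.1) * ((1 + |p.2 - z.2| / K) ^ (2 * n))⁻¹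

lemma measurable_pw (n : ℕ) (K : ℝ) (z : E2 × ℝ) : Measurable (pw n K z) := by
  have h1 : Continuous (dw n (sc K)) := (Crest.Agent.R138.Wf448.temperate_dw n (sc K)).1.continuous
  unfold pw
  refine Measurable.mul (h1.comp (by fun_prop)).measurable ?_
  fun_prop

lemma dw_sc (n : ℕ) {K : ℝ} (hK : 0 < K) (x : E2) : dw n (sc K) x = ((1 + (‖x‖ / K) ^ 2) ^ n)⁻¹ := by
  unfold Crest.Agent.R138.Wf448.dw Crest.Agent.R138.Wf448.gw sc
  rw [_root_.smul_apply, ContinuousLinearMap.id_apply, norm_smul, norm_inv,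
    Real.norm_of_nonneg hK.le, inv_mul_eq_div]

lemma wz_le_pw (n : ℕ) {K : ℝ} (hK : 0 < K) (z p : E2 × ℝ) : wz (4 * n) K z p ≤ pw n K z p := by
  rw [wz_eq, pw, dw_sc n hK, ← mul_inv]
  set a := ‖p.1 - z.1‖ / K with ha
  set b := |p.2 - z.2| / K with hb
  have ha0 : 0 ≤ a := by positivity
  have hb0 : 0 ≤ b := by positivity
  rw [add_div]
  refine inv_anti₀ (by positivity) ?_
  calc (1 + a ^ 2) ^ n * (1 + b) ^ (2 * n) ≤ ((1 + (a + b)) ^ 2) ^ n * (1 + (a + b)) ^ (2 * n) := by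
        gcongr
        · nlinarith
        · linarith
    _ = (1 + (a + b)) ^ (4 * n) := by
        rw [← pow_mul, ← pow_add]; congr 1; ring

lemma pw_le_wz (n : ℕ) {K : ℝ} (hK : 0 < K) (z p : E2 × ℝ) :
    pw n K z p ≤ 2 ^ n * wz (2 * n) K z p := by
  rw [wz_eq, pw, dw_sc n hK, ← mul_inv]
  set a := ‖p.1 - z.1‖ / K with ha
  set b := |p.2 - z.2| / K with hb
  have ha0 : 0 ≤ a := by positivity
  have hb0 : 0 ≤ b := by positivity
  rw [add_div, ← div_eq_mul_inv, le_div_iff₀ (by positivity), inv_mul_le_iff₀ (by positivity)]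
  have h1 : (1 + (a + b)) ^ 2 ≤ (1 + a ^ 2) * 2 * (1 + b) ^ 2 := by
    have h2 : 1 + (a + b) ≤ (1 + a) * (1 + b) := by nlinarith [mul_nonneg ha0 hb0]
    have h3 : (1 + a) ^ 2 ≤ (1 + a ^ 2) * 2 := by nlinarith [sq_nonneg (1 - a)]
    calc (1 + (a + b)) ^ 2 ≤ ((1 + a) * (1 + b)) ^ 2 := by gcongr
      _ = (1 + a) ^ 2 * (1 + b) ^ 2 := by ring
      _ ≤ (1 + a ^ 2) * 2 * (1 + b) ^ 2 := by gcongr
  calc (1 + (a + b)) ^ (2 * n) = ((1 + (a + b)) ^ 2) ^ n := by rw [pow_mul]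
    _ ≤ ((1 + a ^ 2) * 2 * (1 + b) ^ 2) ^ n := by gcongr
    _ = _ := by rw [mul_pow, mul_pow, ← pow_mul]; ring

lemma wz_anti {N M : ℕ} (h : N ≤ M) {K : ℝ} (hK : 0 < K) (z p : E2 × ℝ) :
    wz M K z p ≤ wz N K z p := by
  rw [wz_eq, wz_eq]
  have : 1 ≤ 1 + (‖p.1 - z.1‖ + |p.2 - z.2|) / K := by
    have : 0 ≤ (‖p.1 - z.1‖ + |p.2 - z.2|) / K := by positivity
    linarith
  exact inv_anti₀ (by positivity) (pow_le_pow_right₀ this h)

lemma contDiff_cont {h : E2 → ℝ} (hh : ContDiff ℝ ∞ h) : Continuous h := hh.continuous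

lemma supp_mul {g m : E2 → ℂ} {r : ℝ} (hr : ∀ ξ : E2, r < ‖ξ‖ → g ξ = 0) :
    ∀ ξ : E2, r < ‖ξ‖ → m ξ * g ξ = 0 := fun ξ hξ => by rw [hr ξ hξ, mul_zero]

lemma bdd_mul {g m : E2 → ℂ} (hM : ∃ M, ∀ ξ, ‖g ξ‖ ≤ M) {c : ℝ} (hm : ∀ ξ, ‖m ξ‖ ≤ c) :
    ∃ M, ∀ ξ, ‖m ξ * g ξ‖ ≤ M := by
  obtain ⟨M, hM⟩ := hM
  refine ⟨c * M, fun ξ => ?_⟩
  rw [norm_mul]
  exact mul_le_mul (hm ξ) (hM ξ) (norm_nonneg _) ((norm_nonneg _).trans (hm ξ))

lemma Mul.le {n : ℕ} {c : ℝ} {Φ : E2 → ℂ} (h : Mul n c Φ) (y : E2) : ‖Φ y‖ ≤ c := by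
  have := h.bd 0 (Nat.zero_le _) y
  simpa using this

/-- **weighted multiplier lemma in space-time.** -/
theorem mult_st (n : ℕ) : ∃ C : ℝ, 0 ≤ C ∧ ∀ (B : ℕ → ℝ) (h : E2 → ℝ), ParB B h →
    ∀ (c : ℝ), 0 < c → ∀ (Φ : E2 → ℂ), Mul n c Φ → ∀ (κ K : ℝ), 0 ≤ κ → κ ≤ K → 1 ≤ K →
    ∀ g : E2 → ℂ, Measurable g → (∃ M, ∀ ξ, ‖g ξ‖ ≤ M) → ∀ r : ℝ, (∀ ξ, r < ‖ξ‖ → g ξ = 0) →
    ∀ z : E2 × ℝ,
      ∫⁻ p : E2 × ℝ, ‖ext h (fun ξ => mm h κ Φ ξ * g ξ) p.1 p.2‖ₑ ^ 2 * ENNReal.ofReal (pw n K z p) ≤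
        ENNReal.ofReal (C * (n.factorial * c * BB B n ^ n) ^ 2) *
          ∫⁻ p : E2 × ℝ, ‖ext h g p.1 p.2‖ₑ ^ 2 * ENNReal.ofReal (pw n K z p) := by
  obtain ⟨C, hC, h0⟩ := mult_slice n
  refine ⟨C, hC, ?_⟩
  intro B h hh c hc Φ hΦ κ K hκ hκK hK g hg hM r hr z
  have hcont : Continuous h := hh.1.continuous
  have key : ∀ g' : E2 → ℂ, Measurable g' → (∃ M, ∀ ξ, ‖g' ξ‖ ≤ M) → (∀ ξ, r < ‖ξ‖ → g' ξ = 0) →
      ∫⁻ p : E2 × ℝ, ‖ext h g' p.1 p.2‖ₑ ^ 2 * ENNReal.ofReal (pw n K z p) =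
        ∫⁻ t : ℝ, ENNReal.ofReal ((1 + |t - z.2| / K) ^ (2 * n))⁻¹ *
          wE n (sc K) z.1 (sl h g' t) := by
    intro g' hg' hM' hr'
    have hm : Measurable fun p : E2 × ℝ =>
        ‖ext h g' p.1 p.2‖ₑ ^ 2 * ENNReal.ofReal (pw n K z p) :=
      ((continuous_ext hcont hg' hM' hr').measurable.enorm.pow_const 2).mul
        (measurable_pw n K z).ennreal_ofReal
    rw [Measure.volume_eq_prod, lintegral_prod_symm _ hm.aemeasurable]
    refine lintegral_congr fun t => ?_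
    unfold Crest.Agent.R138.Wf448.wE Crest.Agent.R138.Wf448.LI
    rw [← lintegral_const_mul' _ _ ENNReal.ofReal_ne_top]
    refine lintegral_congr fun x => ?_
    simp only [pw]
    rw [ext_eq_slice, ENNReal.ofReal_mul (Crest.Agent.R138.Wf448.dw_pos n (sc K) (x - z.1)).le,
      ENNReal.ofReal_mul (Crest.Agent.R138.Wf448.dw_pos n (sc K) (x - z.1)).le,
      ENNReal.ofReal_pow (norm_nonneg _), ofReal_norm]
    ring
  have hmc : Measurable (fun ξ => mm h κ Φ ξ * g ξ) :=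
    (contDiff_mm hh.1 κ hΦ.cd).continuous.measurable.mul hg
  rw [key _ hmc (bdd_mul hM fun ξ => hΦ.le _) (supp_mul hr), key g hg hM hr,
    ← lintegral_const_mul' _ _ ENNReal.ofReal_ne_top]
  refine lintegral_mono fun t => ?_
  have h1 := h0 B h hh c hc Φ hΦ κ K hκ hκK hK g hg hM r hr z.1 t
  calc _ ≤ ENNReal.ofReal ((1 + |t - z.2| / K) ^ (2 * n))⁻¹ *
        (ENNReal.ofReal (C * (n.factorial * c * BB B n ^ n) ^ 2) *
          wE n (sc K) z.1 (sl h g t)) := by gcongr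
    _ = _ := by ring

/-! ### the lattice partition of unity -/

/-- the one-dimensional bump: `∑ k, th (x - k) = 1`. -/
noncomputable def th (x : ℝ) : ℝ := Real.smoothTransition (x + 1) - Real.smoothTransition x

lemma th_nonneg (x : ℝ) : 0 ≤ th x :=
  sub_nonneg.2 (Real.smoothTransition.monotone (by linarith))

lemma th_le_one (x : ℝ) : th x ≤ 1 := by
  unfold th
  have h1 := Real.smoothTransition.le_one (x + 1)
  have h2 := Real.smoothTransition.nonneg x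
  linarith

lemma th_eq_zero {x : ℝ} (h : 1 ≤ |x|) : th x = 0 := by
  unfold th
  rcases le_abs'.1 h with h | h
  · rw [Real.smoothTransition.zero_of_nonpos (by linarith),
      Real.smoothTransition.zero_of_nonpos (by linarith), sub_zero]
  · rw [Real.smoothTransition.one_of_one_le (by linarith),
      Real.smoothTransition.one_of_one_le (by linarith), sub_self]

lemma contDiff_th : ContDiff ℝ ∞ th := by
  unfold th
  have h : ContDiff ℝ ∞ Real.smoothTransition := Real.smoothTransition.contDiff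
  exact (h.comp (contDiff_id.add contDiff_const)).sub h

lemma sum_th {n : ℕ} {x : ℝ} (hx : |x| ≤ n) :
    ∑ k ∈ Finset.Icc (-(n:ℤ)) n, th (x - k) = 1 := by
  have h1 : ∀ m : ℕ, ∑ k ∈ Finset.Icc (-(n:ℤ)) (-(n:ℤ) + m), th (x - k) =
      Real.smoothTransition (x + n + 1) - Real.smoothTransition (x + n - m) := by
    intro m
    induction m with
    | zero =>
      simp only [Nat.cast_zero, add_zero, Finset.Icc_self, Finset.sum_singleton, th, sub_zero]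
      push_cast
      congr 2 <;> ring
    | succ m ih =>
      have e : Finset.Icc (-(n:ℤ)) (-(n:ℤ) + ((m + 1 : ℕ) : ℤ)) =
          insert (-(n:ℤ) + ((m + 1 : ℕ) : ℤ)) (Finset.Icc (-(n:ℤ)) (-(n:ℤ) + m)) := by
        ext k
        simp only [Finset.mem_Icc, Finset.mem_insert]
        push_cast
        omega
      rw [e, Finset.sum_insert, ih]
      · unfold th
        push_cast
        have e1 : x - (-(n:ℝ) + (m + 1)) + 1 = x + n - m := by ring
        have e2 : x - (-(n:ℝ) + (m + 1)) = x + n - (m + 1) := by ring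
        rw [e1, e2]
        ring
      · simp only [Finset.mem_Icc]
        push_cast
        omega
  have h2 := h1 (2 * n)
  have e : -(n:ℤ) + ((2 * n : ℕ) : ℤ) = n := by push_cast; ring
  rw [e] at h2
  rw [h2]
  have h3 := abs_le.1 hx
  rw [Real.smoothTransition.one_of_one_le (by linarith),
    Real.smoothTransition.zero_of_nonpos (by push_cast; linarith), sub_zero]

/-- the two-dimensional bump at the lattice point `a`. -/
noncomputable def th2 (a : ℤ × ℤ) (y : E2) : ℝ := th (y 0 - a.1) * th (y 1 - a.2)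

lemma contDiff_th2 (a : ℤ × ℤ) : ContDiff ℝ ∞ (th2 a) := by
  unfold th2
  have h0 : ContDiff ℝ ∞ fun y : E2 => y 0 - (a.1 : ℝ) :=
    (contDiff_piLp_apply (p := 2)).sub contDiff_const
  have h1 : ContDiff ℝ ∞ fun y : E2 => y 1 - (a.2 : ℝ) :=
    (contDiff_piLp_apply (p := 2)).sub contDiff_const
  exact (contDiff_th.comp h0).mul (contDiff_th.comp h1)

lemma th2_nonneg (a : ℤ × ℤ) (y : E2) : 0 ≤ th2 a y := mul_nonneg (th_nonneg _) (th_nonneg _)

lemma th2_ne_zero {a : ℤ × ℤ} {y : E2} (h : th2 a y ≠ 0) : |y 0 - a.1| < 1 ∧ |y 1 - a.2| < 1 := by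
  constructor
  · by_contra h1
    exact h (by unfold th2; rw [th_eq_zero (not_lt.1 h1), zero_mul])
  · by_contra h1
    exact h (by unfold th2; rw [th_eq_zero (x := y 1 - a.2) (not_lt.1 h1), mul_zero])

/-- the lattice square. -/
noncomputable def sq (n : ℕ) : Finset (ℤ × ℤ) := Finset.Icc (-(n:ℤ)) n ×ˢ Finset.Icc (-(n:ℤ)) n

lemma sum_th2 {n : ℕ} {y : E2} (h : ‖y‖ ≤ n) : ∑ a ∈ sq n, th2 a y = 1 := by
  have h0 : |y 0| ≤ n := (by simpa using PiLp.norm_apply_le y 0 : |y 0| ≤ ‖y‖).trans h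
  have h1 : |y 1| ≤ n := (by simpa using PiLp.norm_apply_le y 1 : |y 1| ≤ ‖y‖).trans h
  unfold sq th2
  rw [Finset.sum_product]
  simp only [← Finset.mul_sum]
  rw [← Finset.sum_mul, sum_th h0, one_mul]
  exact sum_th h1

/-- the lattice vector. -/
noncomputable def lv (a : ℤ × ℤ) : E2 := WithLp.toLp 2 ![(a.1 : ℝ), (a.2 : ℝ)]

lemma th2_eq (a : ℤ × ℤ) (y : E2) : th2 a y = th2 0 (y - lv a) := by
  simp [th2, lv]

lemma hasCompactSupport_th2 : HasCompactSupport (th2 0) := by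
  refine HasCompactSupport.intro (isCompact_closedBall (0:E2) 2) fun y hy => ?_
  by_contra h
  have h1 := th2_ne_zero h
  apply hy
  rw [mem_closedBall_zero_iff]
  have h2 : ‖y‖ ^ 2 = y 0 ^ 2 + y 1 ^ 2 := norm_sq y
  simp only [Prod.fst_zero, Int.cast_zero, sub_zero, Prod.snd_zero] at h1
  have h3 := (sq_lt_one_iff_abs_lt_one _).2 h1.1
  have h4 := (sq_lt_one_iff_abs_lt_one _).2 h1.2
  nlinarith [norm_nonneg y]

lemma deriv_th2_bdd (i : ℕ) : ∃ C : ℝ, 0 < C ∧ ∀ (a : ℤ × ℤ) (y : E2),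
    ‖iteratedFDeriv ℝ i (th2 a) y‖ ≤ C := by
  have h1 : Continuous (iteratedFDeriv ℝ i (th2 0)) :=
    (contDiff_th2 0).continuous_iteratedFDeriv (by exact_mod_cast le_top)
  obtain ⟨C, hC⟩ := (hasCompactSupport_th2.iteratedFDeriv (𝕜 := ℝ) i).exists_bound_of_continuous h1
  refine ⟨|C| + 1, by positivity, fun a y => ?_⟩
  have e : th2 a = fun y => th2 0 (y - lv a) := funext (th2_eq a)
  rw [e, iteratedFDeriv_comp_sub]
  exact (hC _).trans ((le_abs_self C).trans (by linarith))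

lemma deriv_th2_supp {i : ℕ} {a : ℤ × ℤ} {y : E2} (h : iteratedFDeriv ℝ i (th2 a) y ≠ 0) :
    |y 0 - a.1| ≤ 1 ∧ |y 1 - a.2| ≤ 1 := by
  have h1 : y ∈ tsupport (th2 a) := support_iteratedFDeriv_subset i (by simpa using h)
  have h2 : tsupport (th2 a) ⊆ {y : E2 | |y 0 - a.1| ≤ 1 ∧ |y 1 - a.2| ≤ 1} := by
    refine closure_minimal (fun y hy => ?_) ?_
    · have := th2_ne_zero hy
      exact ⟨this.1.le, this.2.le⟩
    · refine IsClosed.inter ?_ ?_
      · exact isClosed_le (f := fun y : E2 => |y 0 - (a.1 : ℝ)|) (g := fun _ => (1:ℝ))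
          (by fun_prop) continuous_const
      · exact isClosed_le (f := fun y : E2 => |y 1 - (a.2 : ℝ)|) (g := fun _ => (1:ℝ))
          (by fun_prop) continuous_const
  exact h2 h1

lemma card_near_le (T : Finset (ℤ × ℤ)) (y : E2) (P : ℤ × ℤ → Prop) [DecidablePred P]
    (hP : ∀ a, P a → |y 0 - a.1| ≤ 1 ∧ |y 1 - a.2| ≤ 1) : (T.filter P).card ≤ 9 := by
  have h1 : T.filter P ⊆ Finset.Icc ⌈y 0 - 1⌉ ⌊y 0 + 1⌋ ×ˢ Finset.Icc ⌈y 1 - 1⌉ ⌊y 1 + 1⌋ := by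
    intro a ha
    have h2 := hP a (Finset.mem_filter.1 ha).2
    have h3 := abs_le.1 h2.1
    have h4 := abs_le.1 h2.2
    simp only [Finset.mem_product, Finset.mem_Icc, Int.ceil_le, Int.le_floor]
    refine ⟨⟨?_, ?_⟩, ?_, ?_⟩ <;> linarith
  have hc : ∀ x : ℝ, (Finset.Icc ⌈x - 1⌉ ⌊x + 1⌋).card ≤ 3 := by
    intro x
    rw [Int.card_Icc]
    have h5 : (⌊x + 1⌋ : ℝ) ≤ x + 1 := Int.floor_le _
    have h6 : x - 1 ≤ (⌈x - 1⌉ : ℝ) := Int.le_ceil _
    have h7 : ((⌊x + 1⌋ + 1 - ⌈x - 1⌉ : ℤ) : ℝ) ≤ 3 := by push_cast; linarith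
    have h8 : (⌊x + 1⌋ + 1 - ⌈x - 1⌉ : ℤ) ≤ 3 := by exact_mod_cast h7
    omega
  calc (T.filter P).card ≤ _ := Finset.card_le_card h1
    _ = (Finset.Icc ⌈y 0 - 1⌉ ⌊y 0 + 1⌋).card * (Finset.Icc ⌈y 1 - 1⌉ ⌊y 1 + 1⌋).card :=
        Finset.card_product _ _
    _ ≤ 3 * 3 := Nat.mul_le_mul (hc _) (hc _)
    _ = 9 := rfl

/-- the sum of the bumps over `T`. -/
noncomputable def Ph (T : Finset (ℤ × ℤ)) (y : E2) : ℂ := ((∑ a ∈ T, th2 a y : ℝ) : ℂ)

lemma contDiff_sum_th2 (T : Finset (ℤ × ℤ)) : ContDiff ℝ ∞ fun y => ∑ a ∈ T, th2 a y :=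
  ContDiff.sum fun a _ => contDiff_th2 a

lemma deriv_Ph {i : ℕ} {C : ℝ} (hC : 0 < C) (h : ∀ (a : ℤ × ℤ) (y : E2),
    ‖iteratedFDeriv ℝ i (th2 a) y‖ ≤ C) (T : Finset (ℤ × ℤ)) (y : E2) :
    ‖iteratedFDeriv ℝ i (Ph T) y‖ ≤ 9 * C := by
  classical
  have e1 : ‖iteratedFDeriv ℝ i (Ph T) y‖ = ‖iteratedFDeriv ℝ i (fun y => ∑ a ∈ T, th2 a y) y‖ := by
    have h1 := Complex.ofRealLI.norm_iteratedFDeriv_comp_left
      (f := fun y => ∑ a ∈ T, th2 a y) (x := y) (n := i) (i := i)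
      ((contDiff_sum_th2 T).of_le (by exact_mod_cast le_top)).contDiffAt le_rfl
    rw [← h1]
    rfl
  rw [e1, iteratedFDeriv_fun_sum_apply fun a _ =>
    ((contDiff_th2 a).of_le (by exact_mod_cast le_top)).contDiffAt]
  calc ‖∑ a ∈ T, iteratedFDeriv ℝ i (th2 a) y‖
      = ‖∑ a ∈ T.filter (fun a => iteratedFDeriv ℝ i (th2 a) y ≠ 0),
          iteratedFDeriv ℝ i (th2 a) y‖ := by rw [Finset.sum_filter_ne_zero]
    _ ≤ ∑ a ∈ T.filter (fun a => iteratedFDeriv ℝ i (th2 a) y ≠ 0),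
          ‖iteratedFDeriv ℝ i (th2 a) y‖ := norm_sum_le _ _
    _ ≤ ∑ a ∈ T.filter (fun a => iteratedFDeriv ℝ i (th2 a) y ≠ 0), C :=
        Finset.sum_le_sum fun a _ => h a y
    _ = ((T.filter (fun a => iteratedFDeriv ℝ i (th2 a) y ≠ 0)).card : ℝ) * C := by simp
    _ ≤ 9 * C := by
        gcongr
        exact_mod_cast card_near_le T y _ fun a ha => deriv_th2_supp ha

lemma mul_Ph (n : ℕ) : ∃ c : ℝ, 0 < c ∧ ∀ T : Finset (ℤ × ℤ), Mul n c (Ph T) := by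
  choose C hC0 hC using deriv_th2_bdd
  refine ⟨9 * ∑ i ∈ Finset.range (n + 1), C i, ?_, fun T => ⟨?_, fun i hi y => ?_, fun i => ?_⟩⟩
  · have : 0 < ∑ i ∈ Finset.range (n + 1), C i :=
      Finset.sum_pos (fun i _ => hC0 i) ⟨0, by simp⟩
    positivity
  · exact Complex.ofRealCLM.contDiff.comp (contDiff_sum_th2 T)
  · refine (deriv_Ph (hC0 i) (hC i) T y).trans ?_
    have := Finset.single_le_sum (f := C) (fun i _ => (hC0 i).le)
      (Finset.mem_range.2 (show i < n + 1 by omega))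
    linarith
  · exact ⟨_, fun y => deriv_Ph (hC0 i) (hC i) T y⟩

lemma norm_Ph_le (T : Finset (ℤ × ℤ)) (y : E2) : ‖Ph T y‖ ≤ 9 := by
  classical
  unfold Ph
  rw [Complex.norm_real, Real.norm_of_nonneg (Finset.sum_nonneg fun a _ => th2_nonneg a y),
    ← Finset.sum_filter_ne_zero]
  calc ∑ a ∈ T.filter (fun a => th2 a y ≠ 0), th2 a y
      ≤ ∑ a ∈ T.filter (fun a => th2 a y ≠ 0), (1:ℝ) := Finset.sum_le_sum fun a _ => by
        unfold th2
        exact mul_le_one₀ (th_le_one _) (th_nonneg _) (th_le_one _)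
    _ = ((T.filter (fun a => th2 a y ≠ 0)).card : ℝ) := by simp
    _ ≤ 9 := by
        exact_mod_cast card_near_le T y _ fun a ha => by
          have := th2_ne_zero ha
          exact ⟨this.1.le, this.2.le⟩

end Crest.Agent.R138.Bn759
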