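import Crest.Agent.R138.WDef_188

/-!
# R138 / R139: WAVE side, ZOOM, literal form (helper858), over WDef_188

`ZIn` = input of the zoom (function supported in a cap of radius `l/4`, penalised box bound on the
planks which are not wider than the cap); `ZoomNN`, `ZoomCC` = the two zoom theorems
(`l = 1` is a pure localisation at scale `θ R`).
-/

set_option autoImplicit false

open MeasureTheory FourierTransform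
open scoped ContDiff ENNReal

namespace Crest.Agent.R138.Zm858

open Crest.Agent.R138.Defs Crest.Agent.R138.Bil882 Crest.Agent.R138.W188

/-- the penalised box bound, restricted to the planks of sides at most `κ`. -/
def PBoxLe (κ q : ℝ) (Na : ℕ) (h : E2 → ℝ) (g : E2 → ℂ) (R D : ℝ) : Prop :=
  ∀ (c : E2) (b : OrthonormalBasis (Fin 2) ℝ E2) (s : Fin 2 → ℝ),
    (∀ i, R ^ (-(1/2) : ℝ) ≤ s i ∧ s i ≤ κ) → ∀ ψ, Adm Na ψ → ∀ (x0 : E2) (t0 : ℝ),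
      ‖x0‖ ≤ 4 * R → |t0| ≤ 4 * R →
      ∫⁻ p in plank c b s R x0 t0, ‖ext h (fun ξ => g ξ * chi h c b s ψ ξ) p.1 p.2‖ₑ ^ 2 ≤
        ENNReal.ofReal (D * (max (s 0) (s 1)) ^ q * (s 0 * s 1 * R ^ 3))

theorem PBox.toLe {κ q : ℝ} (hκ : κ ≤ 1) {Na : ℕ} {h : E2 → ℝ} {g : E2 → ℂ} {R D : ℝ}
    (H : PBox q Na h g R D) : PBoxLe κ q Na h g R D :=
  fun c b s hs ψ hψ x0 t0 hx ht =>
    H c b s (fun i => ⟨(hs i).1, (hs i).2.trans hκ⟩) ψ hψ x0 t0 hx ht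

/-- input of the zoom. -/
structure ZIn (B : ℕ → ℝ) (q : ℝ) (Na : ℕ) (M0 l : ℝ) (ξ0 : E2) (h : E2 → ℝ) (g : E2 → ℂ)
    (R D : ℝ) : Prop where
  par : ParB B h
  h0 : h 0 = 0
  h1 : fderiv ℝ h 0 = 0
  meas : Measurable g
  bdd : ∃ M : ℝ, ∀ ξ, ‖g ξ‖ ≤ M
  supp1 : ∀ ξ, 1 < ‖ξ‖ → g ξ = 0
  supp : ∀ ξ, l / 4 < ‖ξ - ξ0‖ → g ξ = 0
  l0 : 0 < l
  l1 : l ≤ 1
  R1 : 1 ≤ R
  D0 : 0 ≤ D
  box : PBoxLe l q Na h g R D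
  nd : En g ≤ R ^ M0 * D

/-- **ZOOM**, local averages. The pieces are supported in the ball of radius `1/2`. -/
def ZoomNN (B : ℕ → ℝ) (q : ℝ) : Prop := ∃ θ : ℝ, 0 < θ ∧ θ ≤ 1 ∧ ∀ ε : ℝ, 0 < ε →
  ∀ (Na : ℕ) (M0 : ℝ), ∃ (Na' : ℕ) (M0' : ℝ), ∀ N : ℕ, ∃ (N1 : ℕ) (C : ℝ), 0 ≤ C ∧
  ∀ h g R D l ξ0 w, ZIn B q Na M0 l ξ0 h g R D → R ^ ε ≤ l ^ 2 * R → 1 ≤ l * w →
    w ≤ R ^ (1/2 : ℝ) → ∀ Q : ℝ, 1 ≤ Q →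
    (∀ h' g' D', St B q Na' M0' (1/2) h' g' (θ * (l ^ 2 * R)) D' →
      NN N h' g' (l * w) (θ * (l ^ 2 * R)) ≤ ENNReal.ofReal (Q * SS g' (θ * (l ^ 2 * R)) D')) →
    NN N1 h g w (2 * R) ≤ ENNReal.ofReal (C * R ^ ε * Q * l ^ (q / 2) * SS g R D)

/-- **ZOOM**, cubic integrals. -/
def ZoomCC (B : ℕ → ℝ) (q : ℝ) : Prop := ∃ θ : ℝ, 0 < θ ∧ θ ≤ 1 ∧ ∀ ε : ℝ, 0 < ε →
  ∀ (Na : ℕ) (M0 : ℝ), ∃ (Na' : ℕ) (M0' C : ℝ), 0 ≤ C ∧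
  ∀ h g R D l ξ0, ZIn B q Na M0 l ξ0 h g R D → R ^ ε ≤ l ^ 2 * R → ∀ Q : ℝ, 1 ≤ Q →
    (∀ h' g' D', St B q Na' M0' (1/2) h' g' (θ * (l ^ 2 * R)) D' →
      CC h' g' (θ * (l ^ 2 * R)) ≤ ENNReal.ofReal (Q * SS g' (θ * (l ^ 2 * R)) D')) →
    CC h g (2 * R) ≤ ENNReal.ofReal (C * R ^ ε * Q * l ^ (q / 2) * SS g R D)

end Crest.Agent.R138.Zm858
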