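import Crest.Agent.R138.Sup4_882
import Crest.Agent.R138.ZmDef_858
import Crest.Agent.R138.Bn3_759

/-!
# R138 / R139, wave side: direction caps (helper882)

`capf h l k` : smooth partition of unity of the directions at scale `l`; the box bound of the
pieces `g · capf h l k`.
-/

set_option autoImplicit false

open MeasureTheory FourierTransform
open scoped ContDiff ENNReal

namespace Crest.Agent.R138.Sup882

open Crest.Agent.R138.Defs Crest.Agent.R138.Wf448
open Crest.Agent.R138.Wpk685 (cap win cen caps th th_nonneg th_le_one cen_zero cen_one win_contDiff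
  win_zero' cap_win_sum norm_win_le exists_win)
open Crest.Agent.R138.Bil882 (NearId)
open Crest.Agent.R138.Bn759 (contDiff_gradient nearId)
open Crest.Agent.R138.W188 (PBox En SS St)
open Crest.Agent.R138.Zm858 (PBoxLe)

/-- direction caps. -/
noncomputable def capf (h : E2 → ℝ) (l : ℝ) (k : ℤ × ℤ) (ξ : E2) : ℂ :=
  cap win (cen l k) l (gradient h ξ)

theorem capf_eq (h : E2 → ℝ) {l : ℝ} (hl : 0 < l) (k : ℤ × ℤ) (ξ : E2) :
    capf h l k ξ = ((th (l⁻¹ * gradient h ξ 0 - k.1) * th (l⁻¹ * gradient h ξ 1 - k.2) : ℝ) : ℂ) := by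
  unfold capf cap win
  congr 2
  · congr 1
    simp only [PiLp.smul_apply, PiLp.sub_apply, cen_zero, smul_eq_mul]
    field_simp
  · congr 1
    simp only [PiLp.smul_apply, PiLp.sub_apply, cen_one, smul_eq_mul]
    field_simp

theorem norm_capf_le (h : E2 → ℝ) (l : ℝ) (k : ℤ × ℤ) (ξ : E2) : ‖capf h l k ξ‖ ≤ 1 :=
  norm_win_le _

theorem capf_sum (h : E2 → ℝ) {l : ℝ} (hl : 0 < l) {ξ : E2} (hξ : ‖gradient h ξ‖ ≤ 2) :
    ∑ k ∈ caps l, capf h l k ξ = 1 := cap_win_sum hl hξ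

theorem capf_norm_sum (h : E2 → ℝ) {l : ℝ} (hl : 0 < l) {ξ : E2} (hξ : ‖gradient h ξ‖ ≤ 2) :
    ∑ k ∈ caps l, ‖capf h l k ξ‖ = 1 := by
  have h1 := capf_sum h hl hξ
  have h2 : ∀ k, ((‖capf h l k ξ‖ : ℝ) : ℂ) = capf h l k ξ := by
    intro k
    rw [capf_eq h hl, Complex.norm_real, Real.norm_of_nonneg (mul_nonneg (th_nonneg _) (th_nonneg _))]
  have h3 : ((∑ k ∈ caps l, ‖capf h l k ξ‖ : ℝ) : ℂ) = 1 := by
    push_cast
    rw [Finset.sum_congr rfl fun k _ => h2 k]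
    exact h1
  exact_mod_cast h3

theorem capf_supp (h : E2 → ℝ) {l : ℝ} (hl : 0 < l) {k : ℤ × ℤ} {ξ : E2} (hξ : capf h l k ξ ≠ 0) :
    ‖gradient h ξ - cen l k‖ ≤ 71 / 50 * l := by
  by_contra hc
  push Not at hc
  exact hξ (Wpk685.cap_supp (R := 71 / 50) (fun ζ hζ => win_zero' hζ) (cen l k) hl _ hc)

theorem contDiff_capf {h : E2 → ℝ} (hh : ContDiff ℝ ∞ h) (l : ℝ) (k : ℤ × ℤ) :
    ContDiff ℝ ∞ (capf h l k) :=
  (Wpk685.contDiff_cap win_contDiff (cen l k) l).comp (contDiff_gradient hh)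

theorem grad_zero {h : E2 → ℝ} (h1 : fderiv ℝ h 0 = 0) : gradient h 0 = 0 := by
  unfold gradient
  rw [h1, map_zero]

theorem grad_norm_le {h : E2 → ℝ} (hn : NearId h (1 / 10)) (h1 : fderiv ℝ h 0 = 0) (ξ : E2) :
    ‖gradient h ξ‖ ≤ 11 / 10 * ‖ξ‖ := by
  have h2 := hn ξ 0
  rw [grad_zero h1, sub_zero, sub_zero] at h2
  calc ‖gradient h ξ‖ = ‖(gradient h ξ - ξ) + ξ‖ := by rw [sub_add_cancel]
    _ ≤ ‖gradient h ξ - ξ‖ + ‖ξ‖ := norm_add_le _ _
    _ ≤ _ := by linarith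

theorem grad_lip {h : E2 → ℝ} (hn : NearId h (1 / 10)) (ξ ξ' : E2) :
    ‖gradient h ξ - gradient h ξ'‖ ≤ 11 / 10 * ‖ξ - ξ'‖ := by
  have h2 := hn ξ ξ'
  calc ‖gradient h ξ - gradient h ξ'‖
      = ‖((gradient h ξ - gradient h ξ') - (ξ - ξ')) + (ξ - ξ')‖ := by rw [sub_add_cancel]
    _ ≤ ‖(gradient h ξ - gradient h ξ') - (ξ - ξ')‖ + ‖ξ - ξ'‖ := norm_add_le _ _
    _ ≤ _ := by linarith

theorem grad_antilip {h : E2 → ℝ} (hn : NearId h (1 / 10)) (ξ ξ' : E2) :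
    9 / 10 * ‖ξ - ξ'‖ ≤ ‖gradient h ξ - gradient h ξ'‖ := by
  have h2 := hn ξ ξ'
  have h3 : ‖ξ - ξ'‖ ≤ ‖gradient h ξ - gradient h ξ'‖ +
      ‖(gradient h ξ - gradient h ξ') - (ξ - ξ')‖ := by
    calc ‖ξ - ξ'‖ = ‖(gradient h ξ - gradient h ξ') -
        ((gradient h ξ - gradient h ξ') - (ξ - ξ'))‖ := by rw [sub_sub_cancel]
      _ ≤ _ := norm_sub_le _ _
  linarith

/-- the support of a cap is small. -/
theorem capf_supp_ball {h : E2 → ℝ} (hn : NearId h (1 / 10)) {l : ℝ} (hl : 0 < l) {k : ℤ × ℤ}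
    {ξ ξ' : E2} (hξ : capf h l k ξ ≠ 0) (hξ' : capf h l k ξ' ≠ 0) : ‖ξ - ξ'‖ ≤ 4 * l := by
  have h1 := capf_supp h hl hξ
  have h2 := capf_supp h hl hξ'
  have h3 := grad_antilip hn ξ ξ'
  have h4 : ‖gradient h ξ - gradient h ξ'‖ ≤
      ‖gradient h ξ - cen l k‖ + ‖gradient h ξ' - cen l k‖ := by
    calc ‖gradient h ξ - gradient h ξ'‖
        = ‖(gradient h ξ - cen l k) - (gradient h ξ' - cen l k)‖ := by rw [sub_sub_sub_cancel_right]
      _ ≤ _ := norm_sub_le _ _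
  linarith

theorem En_nonneg (g : E2 → ℂ) : 0 ≤ En g := integral_nonneg fun ξ => by positivity

theorem nsq_integrable {g : E2 → ℂ} (hg : MemLp g 2) : Integrable fun ξ => ‖g ξ‖ ^ 2 :=
  (memLp_two_iff_integrable_sq_norm hg.1).1 hg

/-- the pieces do not have more energy than `g`. -/
theorem sum_En_le {h : E2 → ℝ} (hh : ContDiff ℝ ∞ h) {g : E2 → ℂ} (hg : MemLp g 2)
    (hs : ∀ ξ, g ξ ≠ 0 → ‖gradient h ξ‖ ≤ 2) {l : ℝ} (hl : 0 < l) :
    ∑ k ∈ caps l, En (fun ξ => g ξ * capf h l k ξ) ≤ En g := by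
  unfold En
  have hi : ∀ k ∈ caps l, Integrable fun ξ => ‖g ξ * capf h l k ξ‖ ^ 2 := by
    intro k _
    refine (nsq_integrable hg).mono ?_ (Filter.Eventually.of_forall fun ξ => ?_)
    · exact ((hg.1.mul (contDiff_capf hh l k).continuous.aestronglyMeasurable).norm.pow 2)
    · rw [Real.norm_of_nonneg (by positivity), Real.norm_of_nonneg (by positivity), norm_mul]
      gcongr
      exact mul_le_of_le_one_right (norm_nonneg _) (norm_capf_le h l k ξ)
  rw [← integral_finsetSum _ hi]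
  refine integral_mono (integrable_finsetSum _ hi) (nsq_integrable hg) fun ξ => ?_
  by_cases hξ : g ξ = 0
  · simp [hξ]
  · have h1 := capf_norm_sum h hl (hs ξ hξ)
    calc ∑ k ∈ caps l, ‖g ξ * capf h l k ξ‖ ^ 2 ≤ ∑ k ∈ caps l, ‖g ξ‖ ^ 2 * ‖capf h l k ξ‖ := by
          refine Finset.sum_le_sum fun k _ => ?_
          rw [norm_mul, mul_pow]
          gcongr
          have := norm_capf_le h l k ξ
          have := norm_nonneg (capf h l k ξ)
          nlinarith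
      _ = ‖g ξ‖ ^ 2 := by rw [← Finset.mul_sum, h1, mul_one]

theorem En_mul_le {g a : E2 → ℂ} (hg : MemLp g 2) (ha : ∀ ξ, ‖a ξ‖ ≤ 1) :
    En (fun ξ => g ξ * a ξ) ≤ En g := by
  unfold En
  refine integral_mono_of_nonneg (Filter.Eventually.of_forall fun ξ => by positivity)
    (nsq_integrable hg) (Filter.Eventually.of_forall fun ξ => ?_)
  simp only
  rw [norm_mul]
  gcongr
  exact mul_le_of_le_one_right (norm_nonneg _) (ha ξ)

/-! ### affine changes of variables in bumps -/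

/-- diagonal map. -/
noncomputable def dg (σ : Fin 2 → ℝ) : E2 →L[ℝ] E2 :=
  LinearMap.toContinuousLinearMap
    { toFun := fun y => WithLp.toLp 2 fun i => σ i * y i
      map_add' := by intro x y; ext i; simp [mul_add]
      map_smul' := by intro a y; ext i; simp; ring }

theorem dg_apply (σ : Fin 2 → ℝ) (y : E2) (i : Fin 2) : dg σ y i = σ i * y i := rfl

theorem norm_dg_le {σ : Fin 2 → ℝ} {μ : ℝ} (hμ : 0 ≤ μ) (h : ∀ i, |σ i| ≤ μ) : ‖dg σ‖ ≤ μ := by
  refine ContinuousLinearMap.opNorm_le_bound _ hμ fun y => ?_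
  refine le_of_sq_le_sq ?_ (by positivity)
  rw [mul_pow, EuclideanSpace.norm_sq_eq, EuclideanSpace.norm_sq_eq, Finset.mul_sum]
  refine Finset.sum_le_sum fun i _ => ?_
  rw [dg_apply, norm_mul, mul_pow]
  gcongr
  rw [Real.norm_eq_abs, ]
  exact h i

theorem norm_iter_affine {f : E2 → ℂ} (hf : ContDiff ℝ ∞ f) (L : E2 →L[ℝ] E2) (d : E2) (j : ℕ)
    {K : ℝ} (hK : ∀ ζ, ‖iteratedFDeriv ℝ j f ζ‖ ≤ K) (y : E2) :
    ‖iteratedFDeriv ℝ j (fun y => f (L y + d)) y‖ ≤ K * ‖L‖ ^ j := by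
  have hf' : ContDiff ℝ ∞ (fun z => f (z + d)) := hf.comp (contDiff_id.add contDiff_const)
  have e1 : (fun y => f (L y + d)) = (fun z => f (z + d)) ∘ L := rfl
  rw [e1, ContinuousLinearMap.iteratedFDeriv_comp_right L hf' _ (i := j) (mod_cast le_top),
    iteratedFDeriv_comp_add_right]
  refine (ContinuousMultilinearMap.norm_compContinuousLinearMap_le _ _).trans ?_
  rw [Finset.prod_const, Finset.card_fin]
  exact mul_le_mul_of_nonneg_right (hK _) (by positivity)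

/-- the bump of the smaller plank. -/
noncomputable def cut (ψ : E2 → ℂ) (c c' cn : E2) (b : OrthonormalBasis (Fin 2) ℝ E2)
    (s s' : Fin 2 → ℝ) (l : ℝ) (y : E2) : ℂ :=
  ψ (dg (fun i => s' i / s i) y + WithLp.toLp 2 fun i => inner ℝ (c' - c) (b i) / s i) *
    win (l⁻¹ • (b.repr.symm (dg s' y) + (c' - cn)))

theorem cut_chi (h : E2 → ℝ) (ψ : E2 → ℂ) (c c' : E2) (b : OrthonormalBasis (Fin 2) ℝ E2)
    {s s' : Fin 2 → ℝ} (hs' : ∀ i, 0 < s' i) (l : ℝ) (k : ℤ × ℤ) (ξ : E2) :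
    capf h l k ξ * chi h c b s ψ ξ = chi h c' b s' (cut ψ c c' (cen l k) b s s' l) ξ := by
  unfold chi cut capf cap
  rw [mul_comm]
  congr 2
  · ext i
    simp only [PiLp.add_apply, dg_apply]
    have := (hs' i).ne'
    rw [show gradient h ξ - c = (gradient h ξ - c') + (c' - c) by abel, inner_add_left, add_div]
    field_simp
  · congr 1
    have : dg s' (WithLp.toLp 2 fun i => inner ℝ (gradient h ξ - c') (b i) / s' i) =
        b.repr (gradient h ξ - c') := by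
      ext i
      rw [dg_apply, b.repr_apply_apply, real_inner_comm]
      have := (hs' i).ne'
      simp only
      field_simp
    rw [this, LinearIsometryEquiv.symm_apply_apply]
    abel

theorem win_bound (N : ℕ) : ∃ W : ℝ, 1 ≤ W ∧ ∀ j ≤ N, ∀ ζ, ‖iteratedFDeriv ℝ j win ζ‖ ≤ W := by
  obtain ⟨W, hW, h⟩ := exists_win win_contDiff (fun ζ hζ => win_zero' (by linarith)) N
  exact ⟨W + 1, by linarith, fun j hj ζ => (h.bd j hj ζ).trans (by linarith)⟩

/-- the cut bump is admissible up to a constant. -/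
theorem adm_cut (Na : ℕ) (Λ : ℝ) (hΛ : 2 ≤ Λ) : ∃ C0 : ℝ, 1 ≤ C0 ∧ ∀ ψ, Adm Na ψ →
    ∀ (c c' cn : E2) (b : OrthonormalBasis (Fin 2) ℝ E2) (s s' : Fin 2 → ℝ) (l : ℝ), 0 < l →
    (∀ i, 0 < s' i) → (∀ i, s' i ≤ s i) → (∀ i, s' i ≤ Λ * l) →
    (∀ i, (s' i = s i ∧ inner ℝ (c' - c) (b i) = 0) ∨ (s' i = Λ * l ∧ inner ℝ (c' - cn) (b i) = 0)) →
    Adm Na (fun y => (C0⁻¹ : ℂ) * cut ψ c c' cn b s s' l y) := by
  obtain ⟨W, hW1, hW⟩ := win_bound Na
  set C0 : ℝ := 2 ^ Na * (W * Λ ^ Na) with hC0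
  have hΛN : 1 ≤ Λ ^ Na := one_le_pow₀ (by linarith)
  have h2N : (1:ℝ) ≤ 2 ^ Na := one_le_pow₀ (by norm_num)
  have hWΛ : 1 ≤ W * Λ ^ Na := by nlinarith
  have hC01 : 1 ≤ C0 := by rw [hC0]; nlinarith
  have hC00 : 0 < C0 := by linarith
  refine ⟨C0, hC01, ?_⟩
  intro ψ hψ c c' cn b s s' l hl hs'0 hs's hs'l hcase
  have hL1 : ‖dg (fun i => s' i / s i)‖ ≤ 1 := by
    refine norm_dg_le zero_le_one fun i => ?_
    have h0 : 0 < s i := (hs'0 i).trans_le (hs's i)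
    rw [abs_of_nonneg (div_nonneg (hs'0 i).le h0.le), div_le_one h0]
    exact hs's i
  set L2 : E2 →L[ℝ] E2 := l⁻¹ • ((b.repr.symm : E2 ≃L[ℝ] E2) : E2 →L[ℝ] E2).comp (dg s') with hL2def
  have hL2 : ‖L2‖ ≤ Λ := by
    refine ContinuousLinearMap.opNorm_le_bound _ (by linarith) fun y => ?_
    have e : L2 y = l⁻¹ • b.repr.symm (dg s' y) := rfl
    rw [e, norm_smul, LinearIsometryEquiv.norm_map, norm_inv, Real.norm_of_nonneg hl.le]
    have h1 : ‖dg s'‖ ≤ Λ * l := norm_dg_le (by positivity) fun i => by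
      rw [abs_of_pos (hs'0 i)]; exact hs'l i
    calc l⁻¹ * ‖dg s' y‖ ≤ l⁻¹ * (Λ * l * ‖y‖) := by
          gcongr
          exact (ContinuousLinearMap.le_opNorm _ _).trans (by gcongr)
      _ = Λ * ‖y‖ := by field_simp
  set f1 : E2 → ℂ := fun y => ψ (dg (fun i => s' i / s i) y +
    WithLp.toLp 2 fun i => inner ℝ (c' - c) (b i) / s i) with hf1
  set f2 : E2 → ℂ := fun y => win (L2 y + l⁻¹ • (c' - cn)) with hf2
  have hcut : cut ψ c c' cn b s s' l = fun y => f1 y * f2 y := by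
    funext y
    unfold cut
    rw [hf1, hf2]
    simp only
    congr 2
    rw [smul_add]
    rfl
  have hf1c : ContDiff ℝ ∞ f1 :=
    hψ.1.comp ((dg _).contDiff.add contDiff_const)
  have hf2c : ContDiff ℝ ∞ f2 := win_contDiff.comp (L2.contDiff.add contDiff_const)
  rw [hcut]
  refine ⟨contDiff_const.mul (hf1c.mul hf2c), ?_, ?_⟩
  · intro y hy i
    have h12 := right_ne_zero_of_mul hy
    rcases hcase i with ⟨h1, h2⟩ | ⟨h1, h2⟩
    · have h3 := hψ.2.1 _ (left_ne_zero_of_mul h12) i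
      have hsi : s i ≠ 0 := ((hs'0 i).trans_le (hs's i)).ne'
      simp only [PiLp.add_apply, dg_apply, h2, zero_div, add_zero, h1, div_self hsi, one_mul] at h3
      exact h3
    · have h3 : win (L2 y + l⁻¹ • (c' - cn)) ≠ 0 := right_ne_zero_of_mul h12
      have h4 : ‖L2 y + l⁻¹ • (c' - cn)‖ ≤ 71 / 50 := by
        by_contra hcon
        push Not at hcon
        exact h3 (win_zero' hcon)
      have h5 : |inner ℝ (L2 y + l⁻¹ • (c' - cn)) (b i)| ≤ 71 / 50 := by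
        refine (abs_real_inner_le_norm _ _).trans ?_
        rw [b.norm_eq_one, mul_one]; exact h4
      have h6 : inner ℝ (L2 y + l⁻¹ • (c' - cn)) (b i) = Λ * y i := by
        have e : L2 y = l⁻¹ • b.repr.symm (dg s' y) := rfl
        have e2 : inner ℝ (b.repr.symm (dg s' y)) (b i) = s' i * y i := by
          rw [real_inner_comm, ← b.repr_apply_apply, LinearIsometryEquiv.apply_symm_apply, dg_apply]
        rw [inner_add_left, inner_smul_left, h2, mul_zero, add_zero, e, inner_smul_left, e2, h1]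
        simp only [conj_trivial]
        field_simp
      rw [h6, abs_mul, abs_of_pos (by linarith)] at h5
      have := abs_nonneg (y i)
      nlinarith
  · intro j hj y
    have hm := norm_iteratedFDeriv_mul_le (hf1c.of_le (m := j) (mod_cast le_top))
      (hf2c.of_le (m := j) (mod_cast le_top)) y (n := j) le_rfl
    have h1 : ‖iteratedFDeriv ℝ j (fun y => (C0⁻¹ : ℂ) * (f1 y * f2 y)) y‖ =
        C0⁻¹ * ‖iteratedFDeriv ℝ j (fun y => f1 y * f2 y) y‖ := by
      have e : (fun y => (C0⁻¹ : ℂ) * (f1 y * f2 y)) = (C0⁻¹ : ℝ) • fun y => f1 y * f2 y := by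
        funext y
        rw [Pi.smul_apply, Complex.real_smul]; push_cast; rfl
      rw [e, iteratedFDeriv_const_smul_apply ((hf1c.mul hf2c).of_le (mod_cast le_top)).contDiffAt,
        norm_smul, Real.norm_of_nonneg (by positivity)]
    rw [h1]
    have h2 : ‖iteratedFDeriv ℝ j (fun y => f1 y * f2 y) y‖ ≤ C0 := by
      refine hm.trans ?_
      calc ∑ i ∈ Finset.range (j + 1), (j.choose i : ℝ) * ‖iteratedFDeriv ℝ i f1 y‖ *
            ‖iteratedFDeriv ℝ (j - i) f2 y‖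
          ≤ ∑ i ∈ Finset.range (j + 1), (j.choose i : ℝ) * 1 * (W * Λ ^ Na) := by
            refine Finset.sum_le_sum fun i hi => ?_
            have hij : i ≤ j := Nat.lt_succ_iff.1 (Finset.mem_range.1 hi)
            have h3 := norm_iter_affine hψ.1 (dg (fun i => s' i / s i))
              (WithLp.toLp 2 fun i => inner ℝ (c' - c) (b i) / s i) i (K := 1)
              (hψ.2.2 i (hij.trans hj)) y
            have h4 := norm_iter_affine win_contDiff L2 (l⁻¹ • (c' - cn)) (j - i) (K := W)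
              (hW _ ((Nat.sub_le _ _).trans hj)) y
            have h5 : (1:ℝ) * ‖dg (fun i => s' i / s i)‖ ^ i ≤ 1 := by
              rw [one_mul]; exact pow_le_one₀ (norm_nonneg _) hL1
            have h6 : W * ‖L2‖ ^ (j - i) ≤ W * Λ ^ Na := by
              have : ‖L2‖ ^ (j - i) ≤ Λ ^ (j - i) := pow_le_pow_left₀ (norm_nonneg _) hL2 _
              have h7 : Λ ^ (j - i) ≤ Λ ^ Na :=
                pow_le_pow_right₀ (by linarith) ((Nat.sub_le _ _).trans hj)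
              nlinarith
            have h8 : ‖iteratedFDeriv ℝ i f1 y‖ ≤ 1 := h3.trans h5
            have h9 : ‖iteratedFDeriv ℝ (j - i) f2 y‖ ≤ W * Λ ^ Na := h4.trans h6
            gcongr
        _ = 2 ^ j * (W * Λ ^ Na) := by
            rw [← Finset.sum_mul, ← Finset.sum_mul, mul_one]
            congr 1
            have := Nat.sum_range_choose j
            exact_mod_cast this
        _ ≤ C0 := by
            rw [hC0]
            gcongr
            norm_num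
    calc C0⁻¹ * ‖iteratedFDeriv ℝ j (fun y => f1 y * f2 y) y‖ ≤ C0⁻¹ * C0 := by gcongr
      _ = 1 := inv_mul_cancel₀ hC00.ne'

/-- the smaller plank. -/
noncomputable def sm (Λ l : ℝ) (s : Fin 2 → ℝ) (i : Fin 2) : ℝ := if s i ≤ Λ * l then s i else Λ * l

/-- the centre of the smaller plank. -/
noncomputable def cm (Λ l : ℝ) (c cn : E2) (b : OrthonormalBasis (Fin 2) ℝ E2) (s : Fin 2 → ℝ) : E2 :=
  b.repr.symm (WithLp.toLp 2 fun i => if s i ≤ Λ * l then inner ℝ c (b i) else inner ℝ cn (b i))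

theorem inner_cm (Λ l : ℝ) (c cn : E2) (b : OrthonormalBasis (Fin 2) ℝ E2) (s : Fin 2 → ℝ)
    (i : Fin 2) : inner ℝ (cm Λ l c cn b s) (b i) =
      if s i ≤ Λ * l then inner ℝ c (b i) else inner ℝ cn (b i) := by
  unfold cm
  rw [real_inner_comm, ← b.repr_apply_apply, LinearIsometryEquiv.apply_symm_apply]

theorem sm_pos {Λ l : ℝ} (hΛ : 0 < Λ) (hl : 0 < l) {s : Fin 2 → ℝ} (hs : ∀ i, 0 < s i) (i : Fin 2) :
    0 < sm Λ l s i := by
  unfold sm
  split_ifs
  · exact hs i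
  · positivity

theorem sm_le (Λ l : ℝ) (s : Fin 2 → ℝ) (i : Fin 2) : sm Λ l s i ≤ s i := by
  unfold sm
  split_ifs with h
  · exact le_rfl
  · exact (not_le.1 h).le

theorem sm_le' (Λ l : ℝ) (s : Fin 2 → ℝ) (i : Fin 2) : sm Λ l s i ≤ Λ * l := by
  unfold sm
  split_ifs with h
  · exact h
  · exact le_rfl

theorem sm_case (Λ l : ℝ) (c cn : E2) (b : OrthonormalBasis (Fin 2) ℝ E2) (s : Fin 2 → ℝ)
    (i : Fin 2) : (sm Λ l s i = s i ∧ inner ℝ (cm Λ l c cn b s - c) (b i) = 0) ∨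
      (sm Λ l s i = Λ * l ∧ inner ℝ (cm Λ l c cn b s - cn) (b i) = 0) := by
  unfold sm
  split_ifs with h
  · left
    refine ⟨rfl, ?_⟩
    rw [inner_sub_left, inner_cm, if_pos h, sub_self]
  · right
    refine ⟨rfl, ?_⟩
    rw [inner_sub_left, inner_cm, if_neg h, sub_self]

/-- **the piece of a plank**: `capf · chi` is an admissible cut-off of the smaller plank. -/
theorem exists_piece (Na : ℕ) (Λ : ℝ) (hΛ : 2 ≤ Λ) : ∃ C0 : ℝ, 1 ≤ C0 ∧ ∀ (h : E2 → ℝ) (l : ℝ),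
    0 < l → ∀ (k : ℤ × ℤ) (c : E2) (b : OrthonormalBasis (Fin 2) ℝ E2) (s : Fin 2 → ℝ),
    (∀ i, 0 < s i) → ∀ ψ, Adm Na ψ → ∃ ψ', Adm Na ψ' ∧
    ∀ ξ, capf h l k ξ * chi h c b s ψ ξ =
      (C0 : ℂ) * chi h (cm Λ l c (cen l k) b s) b (sm Λ l s) ψ' ξ := by
  obtain ⟨C0, hC0, h0⟩ := adm_cut Na Λ hΛ
  refine ⟨C0, hC0, ?_⟩
  intro h l hl k c b s hs ψ hψ
  have hΛ0 : 0 < Λ := by linarith
  refine ⟨_, h0 ψ hψ c (cm Λ l c (cen l k) b s) (cen l k) b s (sm Λ l s) l hl (sm_pos hΛ0 hl hs)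
    (sm_le Λ l s) (sm_le' Λ l s) (sm_case Λ l c (cen l k) b s), ?_⟩
  intro ξ
  rw [cut_chi h ψ c (cm Λ l c (cen l k) b s) b (sm_pos hΛ0 hl hs) l k ξ]
  unfold chi
  have : (C0 : ℂ) ≠ 0 := by
    have : C0 ≠ 0 := by linarith
    exact_mod_cast this
  simp only
  rw [← mul_assoc, mul_inv_cancel₀ this, one_mul]

theorem ext_const_mul (h : E2 → ℝ) (g : E2 → ℂ) (a : ℂ) (x : E2) (t : ℝ) :
    ext h (fun ξ => a * g ξ) x t = a * ext h g x t := by
  unfold ext
  rw [← integral_const_mul]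
  refine integral_congr_ae (Filter.Eventually.of_forall fun ξ => ?_)
  simp only
  ring

theorem pboxLe_mono {L q : ℝ} {Na : ℕ} {h : E2 → ℝ} {g : E2 → ℂ} {R D D' : ℝ} (hR : 0 < R)
    (hb : PBoxLe L q Na h g R D) (hD : D ≤ D') : PBoxLe L q Na h g R D' := by
  intro c b s hs ψ hψ x0 t0 hx ht
  have h0 : ∀ i, 0 < s i := fun i => (Real.rpow_pos_of_pos hR _).trans_le (hs i).1
  refine (hb c b s hs ψ hψ x0 t0 hx ht).trans (ENNReal.ofReal_le_ofReal ?_)
  have h1 := h0 0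
  have h2 := h0 1
  gcongr

/-- the core: the energy of a piece on a small plank of the piece. -/
theorem lint_piece (Na : ℕ) (Λ : ℝ) (hΛ : 2 ≤ Λ) : ∃ C0 : ℝ, 1 ≤ C0 ∧ ∀ (q : ℝ) (h : E2 → ℝ)
    (g : E2 → ℂ) (R D l : ℝ), PBox q Na h g R D → 0 < l → R ^ (-(1/2) : ℝ) ≤ Λ * l →
    ∀ (k : ℤ × ℤ) (c : E2) (b : OrthonormalBasis (Fin 2) ℝ E2) (s : Fin 2 → ℝ),
    (∀ i, 0 < s i) → (∀ i, R ^ (-(1/2) : ℝ) ≤ s i ∧ s i ≤ 1) → ∀ ψ, Adm Na ψ →
    ∀ (x0 : E2) (t0 : ℝ), ‖x0‖ ≤ 4 * R → |t0| ≤ 4 * R →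
    ∫⁻ p in plank (cm Λ l c (cen l k) b s) b (sm Λ l s) R x0 t0,
      ‖ext h (fun ξ => g ξ * capf h l k ξ * chi h c b s ψ ξ) p.1 p.2‖ₑ ^ 2 ≤
    ENNReal.ofReal (C0 * (D * (max (sm Λ l s 0) (sm Λ l s 1)) ^ q *
      (sm Λ l s 0 * sm Λ l s 1 * R ^ 3))) := by
  obtain ⟨C0, hC0, h0⟩ := exists_piece Na Λ hΛ
  refine ⟨C0 ^ 2, one_le_pow₀ hC0, ?_⟩
  intro q h g R D l hb hl hRl k c b s hs0 hs ψ hψ x0 t0 hx ht
  obtain ⟨ψ', hψ', he⟩ := h0 h l hl k c b s hs0 ψ hψ
  have hside : ∀ i, R ^ (-(1/2) : ℝ) ≤ sm Λ l s i ∧ sm Λ l s i ≤ 1 := by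
    intro i
    refine ⟨?_, (sm_le Λ l s i).trans (hs i).2⟩
    unfold sm
    split_ifs
    · exact (hs i).1
    · exact hRl
  have h1 := hb (cm Λ l c (cen l k) b s) b (sm Λ l s) hside ψ' hψ' x0 t0 hx ht
  have e1 : ∀ p : E2 × ℝ, ‖ext h (fun ξ => g ξ * capf h l k ξ * chi h c b s ψ ξ) p.1 p.2‖ₑ ^ 2 =
      ENNReal.ofReal (C0 ^ 2) * ‖ext h (fun ξ => g ξ *
        chi h (cm Λ l c (cen l k) b s) b (sm Λ l s) ψ' ξ) p.1 p.2‖ₑ ^ 2 := by
    intro p
    have : (fun ξ => g ξ * capf h l k ξ * chi h c b s ψ ξ) = fun ξ => (C0 : ℂ) * (g ξ *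
        chi h (cm Λ l c (cen l k) b s) b (sm Λ l s) ψ' ξ) := by
      funext ξ
      rw [mul_assoc, he ξ]; ring
    rw [this, ext_const_mul, enorm_mul, mul_pow]
    congr 1
    rw [← ofReal_norm, Complex.norm_real, Real.norm_of_nonneg (by linarith),
      ENNReal.ofReal_pow (by linarith)]
  simp_rw [e1]
  rw [lintegral_const_mul' _ _ ENNReal.ofReal_ne_top, ENNReal.ofReal_mul (by positivity)]
  gcongr

/-- planks with sides `≤ Λ l` pass to the pieces. -/
theorem pboxLe_piece (Na : ℕ) (Λ : ℝ) (hΛ : 2 ≤ Λ) : ∃ C0 : ℝ, 1 ≤ C0 ∧ ∀ (q : ℝ) (h : E2 → ℝ)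
    (g : E2 → ℂ) (R D l : ℝ), PBox q Na h g R D → 0 < R → 0 < l → Λ * l ≤ 1 →
    R ^ (-(1/2) : ℝ) ≤ Λ * l →
    ∀ (k : ℤ × ℤ), PBoxLe (Λ * l) q Na h (fun ξ => g ξ * capf h l k ξ) R (C0 * D) := by
  obtain ⟨C0, hC0, h0⟩ := lint_piece Na Λ hΛ
  refine ⟨C0, hC0, ?_⟩
  intro q h g R D l hb hR hl hl1 hRl k c b s hs ψ hψ x0 t0 hx ht
  have hs0 : ∀ i, 0 < s i := fun i => (Real.rpow_pos_of_pos hR _).trans_le (hs i).1
  have h1 := h0 q h g R D l hb hl hRl k c b s hs0 (fun i => ⟨(hs i).1, (hs i).2.trans hl1⟩) ψ hψ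
    x0 t0 hx ht
  have e1 : sm Λ l s = s := by
    funext i
    unfold sm
    rw [if_pos (hs i).2]
  have e2 : cm Λ l c (cen l k) b s = c := by
    unfold cm
    have : (WithLp.toLp 2 fun i => if s i ≤ Λ * l then inner ℝ c (b i) else
        inner ℝ (cen l k) (b i) : E2) = b.repr c := by
      ext i
      simp only [if_pos (hs i).2]
      rw [b.repr_apply_apply, real_inner_comm]
    rw [this, LinearIsometryEquiv.symm_apply_apply]
  rw [e1, e2] at h1
  refine h1.trans (ENNReal.ofReal_le_ofReal (le_of_eq ?_))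
  ring

theorem lint_cover {X J : Type*} [MeasurableSpace X] (μ : Measure X) (f : X → ℝ≥0∞) (s : Finset J)
    (S : Set X) (T : J → Set X) (h : ∀ p ∈ S, ∃ j ∈ s, p ∈ T j) :
    ∫⁻ p in S, f p ∂μ ≤ ∑ j ∈ s, ∫⁻ p in T j, f p ∂μ := by
  have h1 : S ⊆ ⋃ j : s, T j := by
    intro p hp
    obtain ⟨j, hj, hpj⟩ := h p hp
    exact Set.mem_iUnion.2 ⟨⟨j, hj⟩, hpj⟩
  refine (lintegral_mono_set h1).trans ?_
  refine (lintegral_iUnion_le (fun j : s => T j) f).trans ?_
  rw [tsum_fintype, Finset.sum_coe_sort s fun j => ∫⁻ p in T j, f p ∂μ]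

theorem exists_trunc (u : ℝ) : ∃ k : ℤ, |(k : ℝ)| ≤ |u| ∧ |u - k| ≤ 1 := by
  rcases le_total 0 u with h | h
  · refine ⟨⌊u⌋, ?_, ?_⟩
    · rw [abs_of_nonneg h, abs_of_nonneg (by exact_mod_cast Int.floor_nonneg.2 h)]
      exact Int.floor_le u
    · rw [abs_le]
      have := Int.floor_le u
      have := Int.lt_floor_add_one u
      constructor <;> linarith
  · refine ⟨⌈u⌉, ?_, ?_⟩
    · have h1 : ⌈u⌉ ≤ 0 := Int.ceil_le.2 (by simpa using h)
      have h2 : (⌈u⌉ : ℝ) ≤ 0 := by exact_mod_cast h1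
      rw [abs_of_nonpos h, abs_of_nonpos h2]
      have := Int.le_ceil u
      linarith
    · rw [abs_le]
      have := Int.le_ceil u
      have := Int.ceil_lt_add_one u
      constructor <;> linarith

/-- the translates. -/
noncomputable def sft (b : OrthonormalBasis (Fin 2) ℝ E2) (σ : Fin 2 → ℝ) (j : ℤ × ℤ) : E2 :=
  b.repr.symm (WithLp.toLp 2 ![j.1 * σ 0, j.2 * σ 1])

theorem inner_sft0 (b : OrthonormalBasis (Fin 2) ℝ E2) (σ : Fin 2 → ℝ) (j : ℤ × ℤ) :
    inner ℝ (sft b σ j) (b 0) = j.1 * σ 0 := by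
  unfold sft
  rw [real_inner_comm, ← b.repr_apply_apply, LinearIsometryEquiv.apply_symm_apply]
  simp

theorem inner_sft1 (b : OrthonormalBasis (Fin 2) ℝ E2) (σ : Fin 2 → ℝ) (j : ℤ × ℤ) :
    inner ℝ (sft b σ j) (b 1) = j.2 * σ 1 := by
  unfold sft
  rw [real_inner_comm, ← b.repr_apply_apply, LinearIsometryEquiv.apply_symm_apply]
  simp

theorem card_Icc_floor {M : ℝ} (hM : 0 ≤ M) : ((Finset.Icc (-⌊M⌋) ⌊M⌋).card : ℝ) ≤ 2 * M + 1 := by
  rw [Int.card_Icc]
  have h0 : 0 ≤ ⌊M⌋ := Int.floor_nonneg.2 hM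
  have h1 : (((⌊M⌋ + 1 - -⌊M⌋).toNat : ℤ) : ℝ) = 2 * (⌊M⌋ : ℝ) + 1 := by
    rw [Int.toNat_of_nonneg (by omega)]; push_cast; ring
  have h2 : (((⌊M⌋ + 1 - -⌊M⌋).toNat : ℕ) : ℝ) = 2 * (⌊M⌋ : ℝ) + 1 := by exact_mod_cast h1
  rw [h2]
  have := Int.floor_le M
  linarith

theorem plank_shift (F : E2 × ℝ → ℝ≥0∞) (c : E2) (b : OrthonormalBasis (Fin 2) ℝ E2)
    (s : Fin 2 → ℝ) (R : ℝ) (x0 : E2) (t0 : ℝ) (z : E2 × ℝ) :
    ∫⁻ p in plank c b s R x0 t0, F (p + z) = ∫⁻ p in plank c b s R (x0 + z.1) (t0 + z.2), F p := by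
  have hm : ∀ x0 t0, MeasurableSet (plank c b s R x0 t0) := by
    intro x0 t0
    have : plank c b s R x0 t0 = {p : E2 × ℝ | |p.2 - t0| ≤ R} ∩
        ⋂ i, {p : E2 × ℝ | |inner ℝ (p.1 - x0 + (p.2 - t0) • c) (b i)| ≤ s i * R} := by
      ext p; simp [plank]
    rw [this]
    refine MeasurableSet.inter ?_ (MeasurableSet.iInter fun i => ?_)
    · exact (isClosed_le (by fun_prop) continuous_const).measurableSet
    · exact (isClosed_le (by fun_prop) continuous_const).measurableSet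
  rw [← lintegral_indicator (hm _ _), ← lintegral_indicator (hm _ _),
    ← lintegral_add_right_eq_self ((plank c b s R (x0 + z.1) (t0 + z.2)).indicator F) z]
  refine lintegral_congr fun p => ?_
  have h1 : (p + z ∈ plank c b s R (x0 + z.1) (t0 + z.2)) ↔ p ∈ plank c b s R x0 t0 := by
    unfold plank
    simp only [Set.mem_ofPred_eq, Prod.fst_add, Prod.snd_add, add_sub_add_right_eq_sub]
  by_cases hp : p ∈ plank c b s R x0 t0
  · rw [Set.indicator_of_mem hp, Set.indicator_of_mem (h1.2 hp)]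
  · rw [Set.indicator_of_notMem hp, Set.indicator_of_notMem (fun hc => hp (h1.1 hc))]

/-- **box bound of the pieces**, all planks, scale `R / 8`, translated frames. -/
theorem pbox_piece (Na : ℕ) : ∃ C0 : ℝ, 1 ≤ C0 ∧ ∀ (q : ℝ) (h : E2 → ℝ)
    (g : E2 → ℂ) (R D l : ℝ), 0 ≤ q → PBox q Na h g R D → 0 < R → 0 ≤ D → 0 < l →
    R ^ (-(1/2) : ℝ) ≤ 2 * l →
    ∀ (k : ℤ × ℤ) (z : E2 × ℝ), z ∈ cyl (2 * R) →
    PBox 0 Na h (tr h z (fun ξ => g ξ * capf h l k ξ)) (R / 8) (C0 * (D * (2 * l) ^ q)) := by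
  obtain ⟨C0, hC0, h0⟩ := lint_piece Na 2 le_rfl
  refine ⟨2048 * C0, by linarith, ?_⟩
  intro q h g R D l hq hb hR hD hl hRl k z hz c b s hs ψ hψ x0 t0 hx ht
  have hR8 : 0 < R / 8 := by positivity
  have hss : ∀ i, R ^ (-(1/2) : ℝ) ≤ s i ∧ s i ≤ 1 := by
    intro i
    refine ⟨le_trans ?_ (hs i).1, (hs i).2⟩
    exact Real.rpow_le_rpow_of_nonpos hR8 (by linarith) (by norm_num)
  have hs0 : ∀ i, 0 < s i := fun i => (Real.rpow_pos_of_pos hR _).trans_le (hss i).1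
  set c' := cm 2 l c (cen l k) b s with hc'
  set s' := sm 2 l s with hs'
  have hs'0 : ∀ i, 0 < s' i := sm_pos (by norm_num) hl hs0
  have hs's : ∀ i, s' i ≤ s i := sm_le 2 l s
  have hs'l : ∀ i, s' i ≤ 2 * l := sm_le' 2 l s
  set G : E2 → ℂ := fun ξ => g ξ * capf h l k ξ * chi h c b s ψ ξ with hG
  have e1 : ∀ p : E2 × ℝ, ext h (fun ξ => tr h z (fun ξ => g ξ * capf h l k ξ) ξ *
      chi h c b s ψ ξ) p.1 p.2 = ext h G (p + z).1 (p + z).2 := by
    intro p
    rw [Prod.fst_add, Prod.snd_add, ← ext_tr h z G p.1 p.2]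
    congr 1
    funext ξ
    simp only [tr, hG]
    ring
  simp_rw [e1]
  rw [plank_shift (fun p => ‖ext h G p.1 p.2‖ₑ ^ 2) c b s (R / 8) x0 t0 z]
  by_cases hne : ∀ ξ, G ξ = 0
  · have : ∀ p : E2 × ℝ, ext h G p.1 p.2 = 0 := by
      intro p
      unfold ext
      simp [hne]
    simp [this]
  push Not at hne
  obtain ⟨ξ, hξ⟩ := hne
  have hξ1 : capf h l k ξ ≠ 0 := right_ne_zero_of_mul (left_ne_zero_of_mul hξ)
  have hξ2 : chi h c b s ψ ξ ≠ 0 := right_ne_zero_of_mul hξ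
  have hdist : ∀ i, |inner ℝ (c' - c) (b i)| ≤ 3 * s i := by
    intro i
    rcases sm_case 2 l c (cen l k) b s i with ⟨h1, h2⟩ | ⟨h1, h2⟩
    · rw [h2]; simp; exact (hs0 i).le
    · have h3 : 2 * l ≤ s i := by
        rw [← h1]; exact hs's i
      have h4 : |inner ℝ (gradient h ξ - cen l k) (b i)| ≤ 71 / 50 * l := by
        refine (abs_real_inner_le_norm _ _).trans ?_
        rw [b.norm_eq_one, mul_one]; exact capf_supp h hl hξ1
      have h5 := hψ.2.1 _ hξ2 i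
      simp only at h5
      rw [abs_div, abs_of_pos (hs0 i), div_le_iff₀ (hs0 i)] at h5
      have e3 : inner ℝ (c' - c) (b i) = inner ℝ (c' - cen l k) (b i) +
          inner ℝ (gradient h ξ - c) (b i) - inner ℝ (gradient h ξ - cen l k) (b i) := by
        rw [← inner_add_left, ← inner_sub_left]
        congr 1
        abel
      rw [e3, h2, zero_add]
      calc _ ≤ |inner ℝ (gradient h ξ - c) (b i)| + |inner ℝ (gradient h ξ - cen l k) (b i)| :=
            abs_sub _ _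
        _ ≤ _ := by linarith
  -- the cover
  set M : Fin 2 → ℝ := fun i => s i / (2 * s' i) with hM
  have hM0 : ∀ i, 0 ≤ M i := fun i => by
    have := hs0 i
    have := hs'0 i
    positivity
  set J : Finset (ℤ × ℤ) := Finset.Icc (-⌊M 0⌋) ⌊M 0⌋ ×ˢ Finset.Icc (-⌊M 1⌋) ⌊M 1⌋ with hJ
  have hcov := lint_cover volume (fun p : E2 × ℝ => ‖ext h G p.1 p.2‖ₑ ^ 2) J
    (plank c b s (R / 8) (x0 + z.1) (t0 + z.2))
    (fun j => plank c' b s' R (x0 + z.1 + sft b (fun i => s' i * R) j) (t0 + z.2)) (by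
      intro p hp
      set u : Fin 2 → ℝ := fun i => inner ℝ (p.1 - (x0 + z.1) + (p.2 - (t0 + z.2)) • c') (b i)
        with hu
      have hu1 : ∀ i, |u i / (s' i * R)| ≤ M i := by
        intro i
        have h1 : |u i| ≤ s i * R / 2 := by
          have e4 : u i = inner ℝ (p.1 - (x0 + z.1) + (p.2 - (t0 + z.2)) • c) (b i) +
              (p.2 - (t0 + z.2)) * inner ℝ (c' - c) (b i) := by
            simp only [hu]
            rw [← real_inner_smul_left, ← inner_add_left]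
            congr 1
            rw [smul_sub]; abel
          rw [e4]
          have h2 := hp.2 i
          have h3 : |(p.2 - (t0 + z.2)) * inner ℝ (c' - c) (b i)| ≤ R / 8 * (3 * s i) := by
            rw [abs_mul]
            exact mul_le_mul hp.1 (hdist i) (abs_nonneg _) hR8.le
          calc _ ≤ _ := abs_add_le _ _
            _ ≤ s i * (R / 8) + R / 8 * (3 * s i) := add_le_add h2 h3
            _ = _ := by ring
        have h2 : 0 < s' i * R := mul_pos (hs'0 i) hR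
        rw [abs_div, abs_of_pos h2, div_le_iff₀ h2]
        refine h1.trans (le_of_eq ?_)
        have := (hs'0 i).ne'
        rw [hM]
        field_simp
      obtain ⟨j0, hj0, hj0'⟩ := exists_trunc (u 0 / (s' 0 * R))
      obtain ⟨j1, hj1, hj1'⟩ := exists_trunc (u 1 / (s' 1 * R))
      have hmem : ∀ (i : Fin 2) (j : ℤ), |(j : ℝ)| ≤ |u i / (s' i * R)| →
          j ∈ Finset.Icc (-⌊M i⌋) ⌊M i⌋ := by
        intro i j hj
        have h1 := abs_le.1 (hj.trans (hu1 i))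
        rw [Finset.mem_Icc]
        constructor
        · have h3 : ((-j : ℤ) : ℝ) ≤ M i := by push_cast; linarith [h1.1]
          have := Int.le_floor.2 h3
          omega
        · exact Int.le_floor.2 h1.2
      have hin : ∀ (i : Fin 2) (j : ℤ), |u i / (s' i * R) - j| ≤ 1 →
          |u i - j * (s' i * R)| ≤ s' i * R := by
        intro i j hj
        have h2 : 0 < s' i * R := mul_pos (hs'0 i) hR
        have e5 : u i - j * (s' i * R) = (u i / (s' i * R) - j) * (s' i * R) := by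
          rw [sub_mul, div_mul_cancel₀ _ h2.ne']
        rw [e5, abs_mul, abs_of_pos h2]
        exact mul_le_of_le_one_left h2.le hj
      refine ⟨(j0, j1), Finset.mem_product.2 ⟨hmem 0 j0 hj0, hmem 1 j1 hj1⟩, ?_, ?_⟩
      · exact hp.1.trans (by linarith)
      · intro i
        have e6 : inner ℝ (p.1 - (x0 + z.1 + sft b (fun i => s' i * R) (j0, j1)) +
            (p.2 - (t0 + z.2)) • c') (b i) = u i - inner ℝ (sft b (fun i => s' i * R) (j0, j1)) (b i) := by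
          simp only [hu]
          rw [← inner_sub_left]
          congr 1
          abel
        rw [e6]
        fin_cases i
        · simp only [Fin.zero_eta, Fin.isValue]
          rw [inner_sft0]
          exact hin 0 j0 hj0'
        · simp only [Fin.mk_one, Fin.isValue]
          rw [inner_sft1]
          exact hin 1 j1 hj1')
  refine hcov.trans ?_
  have hMs : ∀ i, s' i * M i = s i / 2 := by
    intro i
    have := (hs'0 i).ne'
    rw [hM]; field_simp
  have hterm : ∀ j ∈ J, ∫⁻ p in plank c' b s' R (x0 + z.1 + sft b (fun i => s' i * R) j)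
      (t0 + z.2), ‖ext h G p.1 p.2‖ₑ ^ 2 ≤
      ENNReal.ofReal (C0 * (D * (2 * l) ^ q * (s' 0 * s' 1 * R ^ 3))) := by
    intro j hj
    obtain ⟨hj0, hj1⟩ := Finset.mem_product.1 hj
    have habs : ∀ (i : Fin 2) (j : ℤ), j ∈ Finset.Icc (-⌊M i⌋) ⌊M i⌋ → |(j : ℝ)| ≤ M i := by
      intro i j hj
      rw [Finset.mem_Icc] at hj
      have h1 : ((-j : ℤ) : ℝ) ≤ M i := Int.le_floor.1 (by omega)
      have h2 : (j : ℝ) ≤ M i := Int.le_floor.1 hj.2
      push_cast at h1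
      rw [abs_le]; constructor <;> linarith
    have hsft : ‖sft b (fun i => s' i * R) j‖ ≤ R := by
      have h1 := norm_le_of_inner b (sft b (fun i => s' i * R) j) (l := R / 2) (by positivity) (by
        intro i
        have key : ∀ (i : Fin 2) (m : ℤ), m ∈ Finset.Icc (-⌊M i⌋) ⌊M i⌋ →
            |(m : ℝ) * (s' i * R)| ≤ R / 2 := by
          intro i m hm
          have h2 : 0 < s' i * R := mul_pos (hs'0 i) hR
          rw [abs_mul, abs_of_pos h2]
          calc |(m : ℝ)| * (s' i * R) ≤ M i * (s' i * R) := by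
                gcongr
                exact habs i m hm
            _ = (s' i * M i) * R := by ring
            _ = s i / 2 * R := by rw [hMs]
            _ ≤ 1 / 2 * R := by
                gcongr
                exact (hss i).2
            _ = R / 2 := by ring
        fin_cases i
        · simp only [Fin.zero_eta, Fin.isValue]
          rw [inner_sft0]; exact key 0 j.1 hj0
        · simp only [Fin.mk_one, Fin.isValue]
          rw [inner_sft1]; exact key 1 j.2 hj1)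
      linarith
    have hX : ‖x0 + z.1 + sft b (fun i => s' i * R) j‖ ≤ 4 * R := by
      have h1 := norm_add_le (x0 + z.1) (sft b (fun i => s' i * R) j)
      have h2 := norm_add_le x0 z.1
      have h3 := hz.1
      linarith
    have hT : |t0 + z.2| ≤ 4 * R := by
      have h2 := abs_add_le t0 z.2
      have h3 := hz.2
      linarith
    refine (h0 q h g R D l hb hl hRl k c b s hs0 hss ψ hψ _ _ hX hT).trans
      (ENNReal.ofReal_le_ofReal ?_)
    have h4 := hs'0 0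
    have h5 := hs'0 1
    have h6 : max (s' 0) (s' 1) ≤ 2 * l := max_le (hs'l 0) (hs'l 1)
    have h7 : 0 ≤ max (s' 0) (s' 1) := le_max_of_le_left h4.le
    have h8 : max (s' 0) (s' 1) ^ q ≤ (2 * l) ^ q := Real.rpow_le_rpow h7 h6 hq
    gcongr
  refine (Finset.sum_le_sum hterm).trans ?_
  rw [Finset.sum_const, nsmul_eq_mul, ← ENNReal.ofReal_natCast, ← ENNReal.ofReal_mul (by positivity)]
  refine ENNReal.ofReal_le_ofReal ?_
  have hcard : (J.card : ℝ) ≤ (2 * M 0 + 1) * (2 * M 1 + 1) := by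
    rw [hJ, Finset.card_product]
    push_cast
    exact mul_le_mul (card_Icc_floor (hM0 0)) (card_Icc_floor (hM0 1)) (by positivity)
      (by linarith [hM0 0])
  have hl2 : ∀ i, (2 * M i + 1) * s' i ≤ 2 * s i := by
    intro i
    have := hMs i
    have := hs's i
    nlinarith
  have hDl : 0 ≤ D * (2 * l) ^ q := by positivity
  rw [Real.rpow_zero, mul_one]
  have h9 := hs'0 0
  have h10 := hs'0 1
  have h11 := hs0 0
  have h12 := hs0 1
  have hmul : (2 * M 0 + 1) * (2 * M 1 + 1) * (s' 0 * s' 1) ≤ 4 * (s 0 * s 1) := by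
    calc (2 * M 0 + 1) * (2 * M 1 + 1) * (s' 0 * s' 1)
        = ((2 * M 0 + 1) * s' 0) * ((2 * M 1 + 1) * s' 1) := by ring
      _ ≤ (2 * s 0) * (2 * s 1) := mul_le_mul (hl2 0) (hl2 1)
          (by have := hM0 1; positivity) (by positivity)
      _ = _ := by ring
  calc (J.card : ℝ) * (C0 * (D * (2 * l) ^ q * (s' 0 * s' 1 * R ^ 3)))
      ≤ ((2 * M 0 + 1) * (2 * M 1 + 1)) * (C0 * (D * (2 * l) ^ q * (s' 0 * s' 1 * R ^ 3))) := by
        gcongr
    _ = ((2 * M 0 + 1) * (2 * M 1 + 1) * (s' 0 * s' 1)) * (C0 * (D * (2 * l) ^ q) * R ^ 3) := by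
        ring
    _ ≤ (4 * (s 0 * s 1)) * (C0 * (D * (2 * l) ^ q) * R ^ 3) := by gcongr
    _ = _ := by ring

end Crest.Agent.R138.Sup882
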