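import Crest.Agent.R138.Ad_480
import Crest.Agent.R138.Rect_779
import Crest.Agent.R138.Sup5_882

/-!
# R138 / R139, WAVE side, slab step, pointwise input (helper759)

`nu_le` : number of active caps of the parent level in one strip of one child cap, by coherence.
`lower_slab` : LOWER in the rectangle form of the slab step, over 480's densities.
-/

set_option autoImplicit false

open MeasureTheory FourierTransform
open scoped ENNReal ContDiff

namespace Crest.Agent.R138.Hp759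

open Crest.Agent.R138.Defs Crest.Agent.R138.Wpk685 Crest.Agent.R138.Loc878
open Crest.Agent.R138.Bil882 (NearId)
open Crest.Agent.R138.Ad480 (wa Ac Ad Ac_mono Ac_shift Ad_transport)
open Crest.Agent.R138.Rect779 (orth RectF class_count card_caps_le mult_le)
open Crest.Agent.R138.Sup882 (grad_lip)

/-- the component orthogonal to `b 0` is the component along `b 1`. -/
theorem norm_orth_basis (b : OrthonormalBasis (Fin 2) ℝ E2) (v : E2) :
    ‖orth (b 0) v‖ = |(inner ℝ v (b 1) : ℝ)| := by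
  have e : orth (b 0) v = (inner ℝ (b 1) v : ℝ) • b 1 := by
    unfold orth
    have h1 := b.sum_repr' v
    rw [Fin.sum_univ_two] at h1
    nth_rewrite 1 [← h1]
    abel
  rw [e, norm_smul, b.norm_eq_one, mul_one, Real.norm_eq_abs, real_inner_comm]

/-- coherence of the parent selection `S` around the normal `N`: every selected point `(m, y)` has
a normal `N0` close to `± N` such that at most `p` caps of the thin rectangle of `m` carry a
selected point at distance `≤ Kh` of `y`. -/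
def Coh (θ θ' δ Kh p : ℝ) (S : ℤ × ℤ → Set E2) (N : E2) : Prop :=
  ∀ m, ∀ y ∈ S m, ∃ N0 : E2, ‖N0‖ = 1 ∧ (‖N0 - N‖ ≤ δ ∨ ‖N0 + N‖ ≤ δ) ∧
    ∀ W : Finset (ℤ × ℤ), W ⊆ caps θ →
      (∀ m1 ∈ W, cen θ m1 ∈ RectF N0 (cen θ m) (28 * θ') (14 * θ + 56 * (δ * θ'))) →
      (∀ m1 ∈ W, ∃ y1 ∈ S m1, ‖y1 - y‖ ≤ Kh) → (W.card : ℝ) ≤ p

/-- (H2) the number of active caps in one strip of the child cap `m'`. -/
theorem nu_le {h : E2 → ℝ} (hn : NearId h (1 / 10)) (b : OrthonormalBasis (Fin 2) ℝ E2)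
    {θ θ' δ X Kh p : ℝ} (hθ : 0 < θ) (hθ' : θ ≤ θ') (hp : 0 ≤ p) {S : ℤ × ℤ → Set E2}
    (hcoh : Coh θ θ' δ Kh p S (b 0)) {z : E2 × ℝ} {c : E2} {m' : ℤ × ℤ} {k : ℤ}
    (hKh : 2 * X / θ + |z.2| * (11 / 10 * (28 * θ')) ≤ Kh) (F : Finset (ℤ × ℤ))
    (hF : ∀ m ∈ F, ‖cen θ m - cen θ' m'‖ ≤ 3 * θ' ∧ |(inner ℝ (cen θ m) (b 1) : ℝ) - k * θ| ≤ 4 * θ ∧
      ∃ m1 ∈ caps θ, ‖cen θ m - cen θ m1‖ ≤ 3 * θ ∧
        ∃ y ∈ S m1, θ * ‖y - z.1 - z.2 • gradient h (cen θ m1) - c‖ ≤ X) :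
    (F.card : ℝ) ≤ 343 * p := by
  classical
  have hθ'0 : 0 < θ' := lt_of_lt_of_le hθ hθ'
  rcases F.eq_empty_or_nonempty with rfl | hne
  · simp; positivity
  -- choose the carriers
  have hch : ∀ m : ℤ × ℤ, ∃ m1 : ℤ × ℤ, ∃ y : E2, m ∈ F → m1 ∈ caps θ ∧ ‖cen θ m - cen θ m1‖ ≤ 3 * θ ∧
      y ∈ S m1 ∧ θ * ‖y - z.1 - z.2 • gradient h (cen θ m1) - c‖ ≤ X := by
    intro m
    by_cases hm : m ∈ F
    · obtain ⟨_, _, m1, h1, h2, y, h3, h4⟩ := hF m hm
      exact ⟨m1, y, fun _ => ⟨h1, h2, h3, h4⟩⟩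
    · exact ⟨0, 0, fun h => absurd h hm⟩
  choose φ ψ hφ using hch
  set W : Finset (ℤ × ℤ) := F.image φ with hW
  have hWne : W.Nonempty := hne.image φ
  -- number of members of the fibres
  have hfib : (F.card : ℝ) ≤ 49 * (W.card : ℝ) := by
    have h1 : F.card ≤ ∑ w ∈ W, (F.filter fun m => φ m = w).card := by
      rw [Finset.card_eq_sum_card_image φ F]
    have h2 : ((∑ w ∈ W, (F.filter fun m => φ m = w).card : ℕ) : ℝ) ≤ ∑ _w ∈ W, (49 : ℝ) := by
      push_cast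
      refine Finset.sum_le_sum fun w _ => ?_
      have h3 := card_caps_le hθ (T := F.filter fun m => φ m = w) (ξ0 := cen θ w) (K := 3)
        (by norm_num) (fun m hm => by
          obtain ⟨hm1, hm2⟩ := Finset.mem_filter.1 hm
          have := (hφ m hm1).2.1
          rwa [hm2] at this)
      norm_num at h3 ⊢
      exact h3
    rw [Finset.sum_const, nsmul_eq_mul, mul_comm] at h2
    calc (F.card : ℝ) ≤ ((∑ w ∈ W, (F.filter fun m => φ m = w).card : ℕ) : ℝ) := by exact_mod_cast h1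
      _ ≤ _ := h2
  -- a selected point for each member of `W`
  have hWy : ∀ w : ℤ × ℤ, ∃ y : E2, w ∈ W → w ∈ caps θ ∧ y ∈ S w ∧
      θ * ‖y - z.1 - z.2 • gradient h (cen θ w) - c‖ ≤ X ∧ ‖cen θ w - cen θ' m'‖ ≤ 6 * θ' ∧
      |(inner ℝ (cen θ w) (b 1) : ℝ) - k * θ| ≤ 7 * θ := by
    intro w
    by_cases hw : w ∈ W
    · obtain ⟨m, hm, rfl⟩ := Finset.mem_image.1 hw
      obtain ⟨h1, h2, h3, h4⟩ := hφ m hm
      obtain ⟨h5, h6, _⟩ := hF m hm
      refine ⟨ψ m, fun _ => ⟨h1, h3, h4, ?_, ?_⟩⟩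
      · have e : cen θ (φ m) - cen θ' m' = -(cen θ m - cen θ (φ m)) + (cen θ m - cen θ' m') := by abel
        rw [e]
        refine (norm_add_le _ _).trans ?_
        rw [norm_neg]
        linarith
      · have e : (inner ℝ (cen θ (φ m)) (b 1) : ℝ) - k * θ =
            -(inner ℝ (cen θ m - cen θ (φ m)) (b 1) : ℝ) + ((inner ℝ (cen θ m) (b 1) : ℝ) - k * θ) := by
          rw [inner_sub_left]; ring
        rw [e]
        refine (abs_add_le _ _).trans ?_
        rw [abs_neg]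
        have h7 := abs_real_inner_le_norm (cen θ m - cen θ (φ m)) (b 1)
        rw [b.norm_eq_one, mul_one] at h7
        linarith
    · exact ⟨0, fun h => absurd h hw⟩
  choose Y hY using hWy
  -- normals
  have hN : ∀ w : ℤ × ℤ, ∃ N0 : E2, w ∈ W → ‖N0‖ = 1 ∧ (‖N0 - b 0‖ ≤ δ ∨ ‖N0 + b 0‖ ≤ δ) ∧
      ∀ W' : Finset (ℤ × ℤ), W' ⊆ caps θ →
        (∀ m1 ∈ W', cen θ m1 ∈ RectF N0 (cen θ w) (28 * θ') (14 * θ + 56 * (δ * θ'))) →
        (∀ m1 ∈ W', ∃ y1 ∈ S m1, ‖y1 - Y w‖ ≤ Kh) → (W'.card : ℝ) ≤ p := by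
    intro w
    by_cases hw : w ∈ W
    · obtain ⟨N0, h1, h2, h3⟩ := hcoh w (Y w) (hY w hw).2.1
      exact ⟨N0, fun _ => ⟨h1, h2, h3⟩⟩
    · exact ⟨0, fun h => absurd h hw⟩
  choose N0 hN0 using hN
  have ho : ∀ m ∈ W, ∀ m1 ∈ W, ‖orth (b 0) (cen θ m - cen θ m1)‖ ≤ 14 * θ := by
    intro m hm m1 hm1
    rw [norm_orth_basis, inner_sub_left]
    have h3 := (hY m hm).2.2.2.2
    have h4 := (hY m1 hm1).2.2.2.2
    rw [abs_le] at h3 h4 ⊢
    constructor <;> linarith
  have ha : ∀ m ∈ W, ∀ m1 ∈ W,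
      |(inner ℝ (b 0) (gradient h (cen θ m) - gradient h (cen θ m1)) : ℝ)| ≤ 66 / 5 * θ' := by
    intro m hm m1 hm1
    have h3 := (hY m hm).2.2.2.1
    have h4 := (hY m1 hm1).2.2.2.1
    have h5 := grad_lip hn (cen θ m) (cen θ m1)
    have h6 : ‖cen θ m - cen θ m1‖ ≤ 12 * θ' := by
      have e : cen θ m - cen θ m1 = (cen θ m - cen θ' m') - (cen θ m1 - cen θ' m') := by abel
      rw [e]
      exact (norm_sub_le _ _).trans (by linarith)
    have h7 := Rect779.abs_inner_le (b.norm_eq_one 0) (gradient h (cen θ m) - gradient h (cen θ m1))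
    linarith
  obtain ⟨m0, hm0, h1⟩ := class_count hn (b.norm_eq_one 0) hθ hWne (a := 66 / 5 * θ') (K := 14)
    (L := 14 * θ') (δ := δ) (by positivity) (by norm_num) (by linarith) ho ha
    (fun w hw => (hN0 w hw).1) (fun w hw => (hN0 w hw).2.1)
  · have h2 : ((W.filter fun m =>
        cen θ m ∈ RectF (N0 m0) (cen θ m0) (2 * (14 * θ')) (14 * θ + 2 * δ * (2 * (14 * θ')))).card : ℝ)
        ≤ p := by
      refine (hN0 m0 hm0).2.2 _ (fun w hw => (hY w (Finset.mem_filter.1 hw).1).1) ?_ ?_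
      · intro w hw
        have := (Finset.mem_filter.1 hw).2
        have e1 : 2 * (14 * θ') = 28 * θ' := by ring
        have e2 : 14 * θ + 2 * δ * (2 * (14 * θ')) = 14 * θ + 56 * (δ * θ') := by ring
        rwa [e2, e1] at this
      · intro w hw
        obtain ⟨hw1, hw2⟩ := Finset.mem_filter.1 hw
        refine ⟨Y w, (hY w hw1).2.1, ?_⟩
        have h3 := (hY w hw1).2.2.1
        have h4 := (hY m0 hm0).2.2.1
        have h5 := grad_lip hn (cen θ w) (cen θ m0)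
        have h6 : ‖cen θ w - cen θ m0‖ ≤ 28 * θ' := by
          have := hw2.1
          linarith
        have e : Y w - Y m0 = (Y w - z.1 - z.2 • gradient h (cen θ w) - c) -
            (Y m0 - z.1 - z.2 • gradient h (cen θ m0) - c) +
            z.2 • (gradient h (cen θ w) - gradient h (cen θ m0)) := by
          rw [smul_sub]; abel
        rw [e]
        refine (norm_add_le _ _).trans ?_
        have h7 := norm_sub_le (Y w - z.1 - z.2 • gradient h (cen θ w) - c)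
          (Y m0 - z.1 - z.2 • gradient h (cen θ m0) - c)
        have h8 : ‖z.2 • (gradient h (cen θ w) - gradient h (cen θ m0))‖ ≤
            |z.2| * (11 / 10 * (28 * θ')) := by
          rw [norm_smul, Real.norm_eq_abs]
          refine mul_le_mul_of_nonneg_left ?_ (abs_nonneg _)
          linarith
        have h9 : ‖Y w - z.1 - z.2 • gradient h (cen θ w) - c‖ ≤ X / θ := by
          rw [le_div_iff₀ hθ, mul_comm]; exact h3
        have h10 : ‖Y m0 - z.1 - z.2 • gradient h (cen θ m0) - c‖ ≤ X / θ := by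
          rw [le_div_iff₀ hθ, mul_comm]; exact h4
        have e2 : 2 * X / θ = X / θ + X / θ := by ring
        linarith
    have h3 : (20 / 9 * (66 / 5 * θ' / (14 * θ')) + 4 : ℝ) ≤ 7 := by
      have : (66 / 5 * θ' / (14 * θ') : ℝ) = 66 / 70 := by field_simp; norm_num
      rw [this]; norm_num
    have h4 : (W.card : ℝ) ≤ 7 * p := by
      refine h1.trans ?_
      refine mul_le_mul h3 h2 (by positivity) (by norm_num)
    linarith

/-! ### the row of a plate -/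

/-- class data of the child selection `S'` (a plate with normal `N`) relative to the parent
selection `S` of `f`: the density of a selected point is at most `A1`, and at least `p` caps of its
thin rectangle have density at least `A0`. -/
def Rich (n : ℕ) (h : E2 → ℝ) (θ θ' : ℝ) (f : E2 → ℂ) (S S' : ℤ × ℤ → Set E2) (N : E2)
    (Lr wr : ℝ) (p : ℕ) (A0 A1 : ℝ≥0∞) (ζ : E2 × ℝ) : Prop :=
  ∀ m', ∀ y ∈ S' m', Ad n h θ θ' f S m' ζ y ≤ A1 ∧ ∃ R : Finset (ℤ × ℤ), R ⊆ caps θ' ∧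
    p ≤ R.card ∧ (∀ j ∈ R, cen θ' j ∈ RectF N (cen θ' m') Lr wr) ∧
    ∀ j ∈ R, A0 ≤ Ad n h θ θ' f S j ζ y

/-- transport of the density of a child cap along its tube. -/
theorem Ad_along {h : E2 → ℝ} (hn : NearId h (1 / 10)) {n : ℕ} {θ θ' : ℝ} (hθ : 0 ≤ θ)
    (hθ' : 0 ≤ θ') {f : E2 → ℂ} {S : ℤ × ℤ → Set E2} {m' : ℤ × ℤ} {ζ : E2 × ℝ} {x y : E2} {t X : ℝ}
    (hX : 0 ≤ X) (hd : θ * ‖y - t • gradient h (cen θ' m') - x‖ ≤ X) :
    Ad n h θ θ' f S m' (ζ + (0, t)) x ≤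
      ENNReal.ofReal ((1 + (X + 33 / 10 * (θ * θ' * |t|))) ^ n) * Ad n h θ θ' f S m' ζ y := by
  have h1 := Ad_transport (n := n) (g := f) (S := S) (m' := m') (z := ζ + (0, t)) (z' := ζ) (x := x)
    (x' := y) hθ hθ' hX (L := 11 / 10) (by norm_num) (fun ξ ξ' => grad_lip hn ξ ξ') (by
      have e : (ζ.1 + ζ.2 • gradient h (cen θ' m') + y) -
          ((ζ + (0, t)).1 + (ζ + (0, t)).2 • gradient h (cen θ' m') + x) =
          y - t • gradient h (cen θ' m') - x := by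
        rw [Prod.fst_add, Prod.snd_add, add_smul]
        simp only [add_zero]
        abel
      rw [e]
      exact hd)
  refine h1.trans (mul_le_mul' (ENNReal.ofReal_le_ofReal ?_) le_rfl)
  have e2 : |ζ.2 - (ζ + (0, t)).2| = |t| := by
    rw [Prod.snd_add, sub_add_cancel_left, abs_neg]
  rw [e2]
  refine le_of_eq ?_
  congr 2
  ring

open Classical in
/-- **row estimate** (UPPER side times LOWER side): `T` = caps of the plate which are active near
`(x, t)`; the sum of their densities is at most `1 / p` times the density of the parent selection. -/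
theorem row_le {h : E2 → ℝ} (hn : NearId h (1 / 10)) {n : ℕ} {θ θ' : ℝ} (hθ : 0 < θ)
    (hθ' : 0 < θ') {f : E2 → ℂ} {S S' : ℤ × ℤ → Set E2} {N : E2} (hN : ‖N‖ = 1) {Lr wr : ℝ}
    (hLr : 0 ≤ Lr) {p : ℕ} {A0 A1 : ℝ≥0∞} {ζ : E2 × ℝ}
    (hr : Rich n h θ θ' f S S' N Lr wr p A0 A1 ζ) {K0 : ℝ} (hA0 : A0 ≠ 0) (hA0' : A0 ≠ ⊤)
    (hA : A1 ≤ ENNReal.ofReal K0 * A0) {T : Finset (ℤ × ℤ)} {a K X : ℝ} (hX : 0 ≤ X) (hK : 0 ≤ K)
    (hKa : 10 / 9 * (a + 2 * wr) ≤ K * θ')
    (ha : ∀ m ∈ T, ∀ m' ∈ T,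
      |(inner ℝ N (gradient h (cen θ' m) - gradient h (cen θ' m')) : ℝ)| ≤ a)
    {x : E2} {t : ℝ} (hT : ∀ m' ∈ T, ∃ y ∈ S' m', θ * ‖y - t • gradient h (cen θ' m') - x‖ ≤ X)
    {M : Finset (ℤ × ℤ)} (hM : ∀ m ∈ caps θ, (∃ m' ∈ T,
      ‖gradient h (cen θ m) - gradient h (cen θ' m')‖ ≤ 11 / 10 * (Lr + 3 * θ')) → m ∈ M) :
    (p : ℝ≥0∞) * ∑ m' ∈ T, Ad n h θ θ' f S m' (ζ + (0, t)) x ≤
      ENNReal.ofReal ((1 + (X + 33 / 10 * (θ * θ' * |t|) + 11 / 10 * (θ * Lr * |t|))) ^ (2 * n) *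
        K0 * (36 * (2 * K + 1) ^ 2)) * Ac n h θ f S M (ζ + (0, t)) x := by
  set δ : ℝ := X + 33 / 10 * (θ * θ' * |t|) + 11 / 10 * (θ * Lr * |t|) with hδ
  have hδ0 : 0 ≤ δ := by positivity
  -- choose the points and the rectangles
  have hch : ∀ m' : ℤ × ℤ, ∃ (y : E2) (R : Finset (ℤ × ℤ)), m' ∈ T →
      θ * ‖y - t • gradient h (cen θ' m') - x‖ ≤ X ∧ Ad n h θ θ' f S m' ζ y ≤ A1 ∧ R ⊆ caps θ' ∧
      p ≤ R.card ∧ (∀ j ∈ R, cen θ' j ∈ RectF N (cen θ' m') Lr wr) ∧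
      ∀ j ∈ R, A0 ≤ Ad n h θ θ' f S j ζ y := by
    intro m'
    by_cases hm : m' ∈ T
    · obtain ⟨y, hy, hd⟩ := hT m' hm
      obtain ⟨h1, R, h2, h3, h4, h5⟩ := hr m' y hy
      exact ⟨y, R, fun _ => ⟨hd, h1, h2, h3, h4, h5⟩⟩
    · exact ⟨0, ∅, fun h => absurd h hm⟩
  choose y R hy using hch
  -- UPPER side
  have hup : ∑ m' ∈ T, Ad n h θ θ' f S m' (ζ + (0, t)) x ≤
      (T.card : ℝ≥0∞) * (ENNReal.ofReal ((1 + δ) ^ n) * A1) := by
    rw [← nsmul_eq_mul]
    refine Finset.sum_le_card_nsmul T _ _ fun m' hm => ?_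
    obtain ⟨h1, h2, _⟩ := hy m' hm
    refine (Ad_along hn hθ.le hθ'.le hX h1).trans (mul_le_mul' (ENNReal.ofReal_le_ofReal ?_) h2)
    refine pow_le_pow_left₀ (by positivity) ?_ n
    have : 0 ≤ 11 / 10 * (θ * Lr * |t|) := by positivity
    rw [hδ]; linarith
  -- LOWER side
  have hmul : ∀ j, ((T.filter fun m' => j ∈ R m').card : ℝ) ≤ (2 * K + 1) ^ 2 := by
    intro j
    refine mult_le hn hN hθ' hK hKa (T := T.filter fun m' => j ∈ R m') ?_ (cen θ' j) ?_
      (L := Lr) (w := wr)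
    · intro m hm m' hm'
      exact ha m (Finset.mem_filter.1 hm).1 m' (Finset.mem_filter.1 hm').1
    · intro m hm
      obtain ⟨hm1, hm2⟩ := Finset.mem_filter.1 hm
      exact (hy m hm1).2.2.2.2.1 j hm2
  set K1 : ℕ := ⌊(2 * K + 1) ^ 2⌋₊ with hK1
  have hmul' : ∀ j, (T.filter fun m' => j ∈ R m').card ≤ K1 := fun j => Nat.le_floor (hmul j)
  have hvel : ∀ m' ∈ T, ∀ j ∈ R m',
      ‖gradient h (cen θ' j) - gradient h (cen θ' m')‖ ≤ 11 / 10 * Lr := by
    intro m' hm j hj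
    have h2 := ((hy m' hm).2.2.2.2.1 j hj).1
    have h3 := grad_lip hn (cen θ' j) (cen θ' m')
    linarith
  have hvel2 : ∀ m' ∈ T, ∀ j ∈ R m', ∀ m ∈ nearL θ θ' j,
      ‖gradient h (cen θ m) - gradient h (cen θ' m')‖ ≤ 11 / 10 * (Lr + 3 * θ') := by
    intro m' hm j hj m hmj
    have h2 := hvel m' hm j hj
    have h3 := grad_lip hn (cen θ m) (cen θ' j)
    have h4 := (mem_nearL.1 hmj).2
    unfold Near at h4
    have e : gradient h (cen θ m) - gradient h (cen θ' m') =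
        (gradient h (cen θ m) - gradient h (cen θ' j)) +
        (gradient h (cen θ' j) - gradient h (cen θ' m')) := by abel
    rw [e]
    refine (norm_add_le _ _).trans ?_
    linarith
  have hlow := Ad480.lower (n := n) (h := h) (ρ := θ) (ρ' := θ') (g := f) (S := S) T R (K1 := K1)
    (p := p) (δ := δ) (A := A0) hθ.le hθ' hδ0 (fun m' hm => (hy m' hm).2.2.1) hmul'
    (fun m' hm => (hy m' hm).2.2.2.1) (fun _ => ζ) y (fun m' hm => (hy m' hm).2.2.2.2.2)
    (z := ζ + (0, t)) (x := x) (by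
      intro m' hm j hj m hmj
      have h1 := (hy m' hm).1
      have h2 := hvel2 m' hm j hj m hmj
      have e : ((ζ + (0, t)).1 + (ζ + (0, t)).2 • gradient h (cen θ m) + x) -
          (ζ.1 + ζ.2 • gradient h (cen θ m) + y m') =
          -(y m' - t • gradient h (cen θ' m') - x) +
            t • (gradient h (cen θ m) - gradient h (cen θ' m')) := by
        rw [Prod.fst_add, Prod.snd_add, add_smul, smul_sub]
        simp only [add_zero]
        abel
      rw [e]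
      calc θ * ‖-(y m' - t • gradient h (cen θ' m') - x) +
            t • (gradient h (cen θ m) - gradient h (cen θ' m'))‖ ≤
            θ * (‖y m' - t • gradient h (cen θ' m') - x‖ + |t| * (11 / 10 * (Lr + 3 * θ'))) := by
            refine mul_le_mul_of_nonneg_left ((norm_add_le _ _).trans ?_) hθ.le
            rw [norm_neg, norm_smul, Real.norm_eq_abs]
            have := mul_le_mul_of_nonneg_left h2 (abs_nonneg t)
            linarith
        _ ≤ δ := by
            rw [hδ]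
            nlinarith)
    (M := M) (by
      intro m' hm j hj m hmj
      exact hM m (mem_nearL.1 hmj).1 ⟨m', hm, hvel2 m' hm j hj m hmj⟩)
  -- combination
  have hK1' : (36 * K1 : ℝ≥0∞) ≤ ENNReal.ofReal (36 * (2 * K + 1) ^ 2) := by
    have h1 : (K1 : ℝ) ≤ (2 * K + 1) ^ 2 := Nat.floor_le (by positivity)
    calc (36 * K1 : ℝ≥0∞) = ENNReal.ofReal (36 * (K1 : ℝ)) := by
          rw [ENNReal.ofReal_mul (by norm_num), ENNReal.ofReal_natCast]
          norm_num
      _ ≤ _ := ENNReal.ofReal_le_ofReal (by linarith)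
  have hfin : A0 * ((p : ℝ≥0∞) * ∑ m' ∈ T, Ad n h θ θ' f S m' (ζ + (0, t)) x) ≤
      A0 * (ENNReal.ofReal ((1 + δ) ^ (2 * n) * K0 * (36 * (2 * K + 1) ^ 2)) *
        Ac n h θ f S M (ζ + (0, t)) x) := by
    by_cases hK0 : 0 ≤ K0
    · calc A0 * ((p : ℝ≥0∞) * ∑ m' ∈ T, Ad n h θ θ' f S m' (ζ + (0, t)) x)
          ≤ A0 * ((p : ℝ≥0∞) * ((T.card : ℝ≥0∞) * (ENNReal.ofReal ((1 + δ) ^ n) *
            (ENNReal.ofReal K0 * A0)))) := by
            gcongr
            exact hup.trans (by gcongr)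
        _ = (ENNReal.ofReal ((1 + δ) ^ n) * ENNReal.ofReal K0 * A0) * ((T.card * p : ℝ≥0∞) * A0) := by
            ring
        _ ≤ (ENNReal.ofReal ((1 + δ) ^ n) * ENNReal.ofReal K0 * A0) *
            (ENNReal.ofReal ((1 + δ) ^ n) * (ENNReal.ofReal (36 * (2 * K + 1) ^ 2) *
            Ac n h θ f S M (ζ + (0, t)) x)) := by
            refine mul_le_mul' le_rfl (hlow.trans ?_)
            gcongr
        _ = _ := by
            have e : ENNReal.ofReal ((1 + δ) ^ (2 * n) * K0 * (36 * (2 * K + 1) ^ 2)) =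
                ENNReal.ofReal ((1 + δ) ^ n) * (ENNReal.ofReal K0 * (ENNReal.ofReal ((1 + δ) ^ n) *
                  ENNReal.ofReal (36 * (2 * K + 1) ^ 2))) := by
              rw [← ENNReal.ofReal_mul (by positivity), ← ENNReal.ofReal_mul hK0,
                ← ENNReal.ofReal_mul (by positivity)]
              congr 1
              rw [two_mul, pow_add]; ring
            rw [e]
            ring
    · -- then `A1 = 0` and all densities vanish
      have h0 : A1 = 0 := by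
        have : ENNReal.ofReal K0 = 0 := ENNReal.ofReal_of_nonpos (by linarith)
        rw [this, zero_mul] at hA
        exact le_antisymm hA bot_le
      rw [h0, mul_zero, mul_zero] at hup
      have h1 := le_antisymm hup bot_le
      rw [h1, mul_zero, mul_zero]
      exact bot_le
  exact (ENNReal.mul_le_mul_iff_right hA0 hA0').1 hfin

end Crest.Agent.R138.Hp759
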