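import Crest.Agent.R138.WpkDef_685

/-!
# R138 / R139: selectable wave packets, part 4 (helper685): representation of the pieces, Theorem A
(weighted energy of a sum of pieces) and Theorem B (converse).
-/

set_option autoImplicit false
set_option linter.unusedSectionVars false

open MeasureTheory FourierTransform
open scoped ContDiff ENNReal

namespace Crest.Agent.R138.Wpk685

open Crest.Agent.R138.Defs
open Crest.Agent.R138.Wf448 (wE dw gw sl LI)

/-! ### Fourier side -/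

theorem integral_fourier_mul {f g : E2 → ℂ} (hf : Integrable f) (hg : Integrable g) :
    ∫ ξ, 𝓕 f ξ * g ξ = ∫ x, f x * 𝓕 g x := by
  have hL : Continuous fun p : E2 × E2 => (innerₗ E2) p.1 p.2 := continuous_inner
  have h := VectorFourier.integral_fourierIntegral_smul_eq_flip (e := Real.fourierChar)
    (μ := (volume : Measure E2)) (ν := (volume : Measure E2))
    (L := innerₗ E2) Real.continuous_fourierChar hL hf hg
  have hfl : (innerₗ E2).flip = innerₗ E2 := by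
    ext x y
    simp
  rw [hfl] at h
  simpa [smul_eq_mul] using! h

theorem fourier_eq_int (f : E2 → ℂ) (y : E2) : 𝓕 f y = ∫ ζ, f ζ * ee (-inner ℝ y ζ) := by
  rw [Real.fourier_eq']
  congr 1
  ext ζ
  rw [smul_eq_mul, mul_comm, real_inner_comm]
  unfold ee
  push_cast
  ring_nf

theorem fourier_mod (f : E2 → ℂ) (x y : E2) :
    𝓕 (fun ξ => f ξ * ee (inner ℝ x ξ)) y = 𝓕⁻ f (x - y) := by
  rw [fourier_eq_int, fourierInv_eq_int]
  congr 1
  ext ζ
  rw [mul_assoc, ← ee_add, inner_sub_left]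
  congr 2

theorem mod_integrable {f : E2 → ℂ} (hf : Integrable f) (x : E2) :
    Integrable (fun ξ => f ξ * ee (inner ℝ x ξ)) := by
  have hmc : Continuous (fun ξ : E2 => ee (inner ℝ x ξ)) :=
    contDiff_ee.continuous.comp (continuous_const.inner continuous_id)
  exact hf.mul_bdd (c := 1) hmc.aestronglyMeasurable
    (Filter.Eventually.of_forall fun ξ => (norm_ee _).le)

theorem rep_ind {a v : E2 → ℂ} (ha : Integrable a) (hv : Integrable v) (x : E2) :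
    𝓕⁻ (fun ξ => a ξ * 𝓕 v ξ) x = ∫ y, v y * 𝓕⁻ a (x - y) := by
  rw [fourierInv_eq_int]
  calc ∫ ξ, a ξ * 𝓕 v ξ * ee (inner ℝ x ξ) = ∫ ξ, 𝓕 v ξ * (a ξ * ee (inner ℝ x ξ)) := by
        congr 1; ext ξ; ring
    _ = ∫ y, v y * 𝓕 (fun ξ => a ξ * ee (inner ℝ x ξ)) y :=
        integral_fourier_mul hv (mod_integrable ha x)
    _ = _ := by
        congr 1; ext y; rw [fourier_mod]

theorem rep_mul {a f : E2 → ℂ} (hac : Continuous a) (ha : Integrable a) (hai : Integrable (𝓕⁻ a))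
    (hai' : Integrable (𝓕 a)) (hf : Integrable f) (x : E2) :
    𝓕⁻ (fun ξ => a ξ * f ξ) x = ∫ y, 𝓕⁻ f y * 𝓕⁻ a (x - y) := by
  have hinv : 𝓕 (𝓕⁻ a) = a := hac.fourier_fourierInv_eq ha hai'
  rw [fourierInv_eq_int]
  calc ∫ ξ, a ξ * f ξ * ee (inner ℝ x ξ) = ∫ ξ, 𝓕 (𝓕⁻ a) ξ * (f ξ * ee (inner ℝ x ξ)) := by
        rw [hinv]; congr 1; ext ξ; ring
    _ = ∫ y, 𝓕⁻ a y * 𝓕 (fun ξ => f ξ * ee (inner ℝ x ξ)) y :=
        integral_fourier_mul hai (mod_integrable hf x)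
    _ = ∫ y, 𝓕⁻ a y * 𝓕⁻ f (x - y) := by
        congr 1; ext y; rw [fourier_mod]
    _ = ∫ y, 𝓕⁻ a (x - y) * 𝓕⁻ f (x - (x - y)) :=
        (integral_sub_left_eq_self (fun y => 𝓕⁻ a y * 𝓕⁻ f (x - y)) volume x).symm
    _ = _ := by
        congr 1; ext y; rw [sub_sub_cancel]; ring

/-! ### good functions -/

/-- measurable, bounded, supported in the ball of radius `2`. -/
structure Gd (g : E2 → ℂ) : Prop where
  meas : Measurable g
  bdd : ∃ M : ℝ, ∀ ξ, ‖g ξ‖ ≤ M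
  supp : ∀ ξ, 2 < ‖ξ‖ → g ξ = 0

theorem int_of_bdd {g : E2 → ℂ} (hm : Measurable g) {M R : ℝ} (hM : ∀ ξ, ‖g ξ‖ ≤ M)
    (hs : ∀ ξ, R < ‖ξ‖ → g ξ = 0) : Integrable g ∧ MemLp g 2 := by
  have hfin : volume (Metric.closedBall (0 : E2) R) < ⊤ := measure_closedBall_lt_top
  have h1 : ∀ p : ℝ≥0∞, MemLp g p := by
    intro p
    have h2 : MemLp (fun _ : E2 => M) p (volume.restrict (Metric.closedBall (0 : E2) R)) := by
      have : IsFiniteMeasure (volume.restrict (Metric.closedBall (0 : E2) R)) :=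
        ⟨by rw [Measure.restrict_apply_univ]; exact hfin⟩
      exact memLp_const M
    have h3 : MemLp g p (volume.restrict (Metric.closedBall (0 : E2) R)) :=
      h2.mono hm.aestronglyMeasurable (Filter.Eventually.of_forall fun ξ =>
        (hM ξ).trans (le_abs_self M))
    have h4 : (Metric.closedBall (0 : E2) R).indicator g = g := by
      ext ξ
      by_cases h : ξ ∈ Metric.closedBall (0 : E2) R
      · rw [Set.indicator_of_mem h]
      · rw [Set.indicator_of_notMem h, hs ξ (by simpa using h)]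
    rw [← h4]
    exact (memLp_indicator_iff_restrict Metric.isClosed_closedBall.measurableSet).2 h3
  exact ⟨memLp_one_iff_integrable.1 (h1 1), h1 2⟩

theorem Gd.int {g : E2 → ℂ} (hg : Gd g) : Integrable g := by
  obtain ⟨M, hM⟩ := hg.bdd
  exact (int_of_bdd hg.meas hM hg.supp).1

theorem Gd.l2 {g : E2 → ℂ} (hg : Gd g) : MemLp g 2 := by
  obtain ⟨M, hM⟩ := hg.bdd
  exact (int_of_bdd hg.meas hM hg.supp).2

/-- a frequency piece `G` represented by the physical function `v`. -/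
structure Rep (ρ : ℝ) (ξ0 : E2) (G v : E2 → ℂ) : Prop where
  int : Integrable G
  l2 : MemLp G 2
  supp : ∀ ξ, G ξ ≠ 0 → ‖ξ - ξ0‖ ≤ 3 / 2 * ρ
  vm : AEStronglyMeasurable v
  vb : ∃ M, ∀ y, ‖v y‖ ≤ M
  rep : ∀ x, 𝓕⁻ G x = ∫ y, v y * 𝓕⁻ (cap fat ξ0 ρ) (x - y)

/-- the kernel of the fat window. -/
noncomputable def Kf (ρ : ℝ) (ξ0 : E2) : E2 → ℂ := 𝓕⁻ (cap fat ξ0 ρ)

theorem fat_supp : ∀ ζ, 3 / 2 < ‖ζ‖ → fat ζ = 0 := fun _ h => fat_zero h.le

theorem capfat_int {ρ : ℝ} (hρ : 0 < ρ) (ξ0 : E2) : Integrable (cap fat ξ0 ρ) :=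
  (contDiff_cap fat_contDiff ξ0 ρ).continuous.integrable_of_hasCompactSupport
    (hcs_cap fat_supp ξ0 hρ)

theorem Kf_int {ρ : ℝ} (hρ : 0 < ρ) (ξ0 : E2) : Integrable (Kf ρ ξ0) := by
  have h1 : Integrable (𝓕⁻ ((hcs_cap fat_supp ξ0 hρ).toSchwartzMap
    (contDiff_cap fat_contDiff ξ0 ρ)) : SchwartzMap E2 ℂ) := SchwartzMap.integrable _
  rw [SchwartzMap.fourierInv_coe] at h1
  exact h1

theorem Kf_int' {ρ : ℝ} (hρ : 0 < ρ) (ξ0 : E2) : Integrable (𝓕 (cap fat ξ0 ρ)) := by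
  have h1 : Integrable (𝓕 ((hcs_cap fat_supp ξ0 hρ).toSchwartzMap
    (contDiff_cap fat_contDiff ξ0 ρ)) : SchwartzMap E2 ℂ) := SchwartzMap.integrable _
  rw [SchwartzMap.fourier_coe] at h1
  exact h1

theorem Kf_cont {ρ : ℝ} (hρ : 0 < ρ) (ξ0 : E2) : Continuous (Kf ρ ξ0) :=
  Crest.Agent.R138.Wf448.fourierInv_continuous (capfat_int hρ ξ0)

theorem Kf_bound (N : ℕ) : ∃ C : ℝ, 0 < C ∧ ∀ (ρ : ℝ) (ξ0 : E2), 0 < ρ → ρ ≤ 1 → ∀ x,
    ‖Kf ρ ξ0 x‖ ≤ C * ρ ^ 2 * ((1 + ρ * ‖x‖) ^ N)⁻¹ := by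
  obtain ⟨C, hC, h⟩ := kernel_unif (fun _ => 0) N 1 le_rfl
  obtain ⟨Aw, hAw, hwin⟩ := exists_win fat_contDiff (fun ζ hζ => fat_zero (by linarith)) N
  refine ⟨C * (Aw + 1), by positivity, ?_⟩
  intro ρ ξ0 hρ hρ1 x
  have hP : ParB (fun _ => 0) (fun ξ : E2 => ‖ξ‖ ^ 2 / 2) := by
    refine ⟨(contDiff_norm_sq ℝ).div_const 2, ?_⟩
    intro k hk ξ
    simp
  have h1 := h Aw fat hwin _ hP ξ0 ρ 0 hρ hρ1 (by simp) x
  have h2 : ker fat (fun ξ : E2 => ‖ξ‖ ^ 2 / 2) ξ0 ρ 0 x = Kf ρ ξ0 x := by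
    unfold ker Crest.Agent.R138.Defs.ext Kf
    rw [fourierInv_eq_int]
    congr 1
    ext ξ
    rw [zero_mul, add_zero]
  rw [h2, zero_smul, add_zero] at h1
  refine h1.trans ?_
  gcongr
  linarith

theorem integrable_dec3 : Integrable (fun y : E2 => ((1 + ‖y‖) ^ 3)⁻¹) := by
  have h := integrable_one_add_norm (μ := (volume : Measure E2)) (r := 3) (by simp; norm_num)
  refine h.congr (Filter.Eventually.of_forall fun y => ?_)
  simp only
  rw [Real.rpow_neg (by positivity)]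
  norm_cast

/-- the second constant. -/
noncomputable def cd3 : ℝ := ∫ y : E2, ((1 + ‖y‖) ^ 3)⁻¹

theorem cd3_nonneg : 0 ≤ cd3 := integral_nonneg fun y => by positivity

/-- the second integrable profile. -/
noncomputable def dec3 (y : E2) : ℝ≥0∞ := ENNReal.ofReal (((1 + ‖y‖) ^ 3)⁻¹)

theorem lintegral_dec3 : ∫⁻ y : E2, dec3 y = ENNReal.ofReal cd3 := by
  unfold dec3
  rw [cd3, ofReal_integral_eq_lintegral_ofReal integrable_dec3
    (Filter.Eventually.of_forall fun y => by positivity)]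

theorem lint_sq_le {f g : E2 → ℝ≥0∞} (hf : AEMeasurable f) (hg : AEMeasurable g) :
    (∫⁻ y, f y * g y) ^ 2 ≤ (∫⁻ y, g y) * ∫⁻ y, f y ^ 2 * g y := by
  have h1 : ∀ y, f y * g y = (fun y => g y ^ (1 / 2 : ℝ)) y * (fun y => f y * g y ^ (1 / 2 : ℝ)) y := by
    intro y
    simp only
    have : g y ^ (1 / 2 : ℝ) * g y ^ (1 / 2 : ℝ) = g y := by
      rw [← ENNReal.rpow_add_of_nonneg _ _ (by norm_num) (by norm_num)]
      norm_num
    calc f y * g y = f y * (g y ^ (1 / 2 : ℝ) * g y ^ (1 / 2 : ℝ)) := by rw [this]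
      _ = _ := by ring
  have h2 := ENNReal.lintegral_mul_le_Lp_mul_Lq volume (Real.HolderConjugate.two_two)
    (f := fun y => g y ^ (1 / 2 : ℝ)) (g := fun y => f y * g y ^ (1 / 2 : ℝ))
    (hg.pow_const _) (hf.mul (hg.pow_const _))
  have h3 : ∀ y, (g y ^ (1 / 2 : ℝ)) ^ (2 : ℝ) = g y := by
    intro y
    rw [← ENNReal.rpow_mul]; norm_num
  have h4 : ∀ y, (f y * g y ^ (1 / 2 : ℝ)) ^ (2 : ℝ) = f y ^ 2 * g y := by
    intro y
    rw [ENNReal.mul_rpow_of_nonneg _ _ (by norm_num), h3]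
    norm_cast
  simp only [h3, h4] at h2
  calc (∫⁻ y, f y * g y) ^ 2 ≤ ((∫⁻ y, g y) ^ (1 / 2 : ℝ) * (∫⁻ y, f y ^ 2 * g y) ^ (1 / 2 : ℝ)) ^ 2 := by
        refine pow_le_pow_left₀ zero_le ?_ 2
        refine le_trans (le_of_eq ?_) h2
        exact lintegral_congr h1
    _ = _ := by
        rw [mul_pow]
        have h5 : ∀ a : ℝ≥0∞, (a ^ (1 / 2 : ℝ)) ^ 2 = a := by
          intro a
          rw [← ENNReal.rpow_natCast, ← ENNReal.rpow_mul]
          norm_num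
        rw [h5, h5]

theorem rep_energy (n : ℕ) : ∃ C : ℝ, 0 ≤ C ∧ ∀ (ρ A : ℝ) (w : E2 → ℝ), 0 < ρ → ρ ≤ 1 →
    SV ρ A n w → ∀ (ξ0 : E2) (G v : E2 → ℂ), Rep ρ ξ0 G v →
    WE w G ≤ ENNReal.ofReal (C * A) * ∫⁻ y, ENNReal.ofReal (w y) * ‖v y‖ₑ ^ 2 := by
  obtain ⟨C, hC, hK⟩ := Kf_bound (n + 3)
  have h3 := cd3_nonneg
  refine ⟨C * cd3 * (C * cd3), by positivity, ?_⟩
  intro ρ A w hρ hρ1 hw ξ0 G v hR
  have hA := hw.one_le
  have hKm : Measurable (fun x => ‖Kf ρ ξ0 x‖ₑ) := (Kf_cont hρ ξ0).measurable.enorm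
  have hvm : AEMeasurable (fun y => ‖v y‖ₑ) := hR.vm.enorm
  -- the weighted mass of the kernel
  have hmass : ∀ y, ∫⁻ x, ENNReal.ofReal (w x) * ‖Kf ρ ξ0 (x - y)‖ₑ ≤
      ENNReal.ofReal (A * (C * cd3)) * ENNReal.ofReal (w y) := by
    intro y
    have hy := (hw.pos y).le
    calc _ ≤ ∫⁻ x, ENNReal.ofReal (A * C * ρ ^ 2 * w y) * dec3 (ρ • (x - y)) := by
          refine lintegral_mono fun x => ?_
          have hx := (hw.pos x).le
          rw [← ofReal_norm, ← ENNReal.ofReal_mul hx]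
          unfold dec3
          rw [← ENNReal.ofReal_mul (by positivity)]
          apply ENNReal.ofReal_le_ofReal
          have h4 := hK ρ ξ0 hρ hρ1 (x - y)
          have h5 := hw.sv x y
          rw [norm_smul, Real.norm_eq_abs, abs_of_pos hρ]
          set u : ℝ := ρ * ‖x - y‖ with hu
          have hu0 : 0 ≤ u := by positivity
          calc w x * ‖Kf ρ ξ0 (x - y)‖ ≤ (A * (1 + u) ^ n * w y) *
                (C * ρ ^ 2 * ((1 + u) ^ (n + 3))⁻¹) := by gcongr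
            _ = A * C * ρ ^ 2 * w y * ((1 + u) ^ 3)⁻¹ := by
                rw [pow_add, mul_inv]
                field_simp
      _ = ENNReal.ofReal (A * C * ρ ^ 2 * w y) * (ENNReal.ofReal ((ρ ^ 2)⁻¹) * ENNReal.ofReal cd3) := by
          rw [lintegral_const_mul' _ _ ENNReal.ofReal_ne_top, lintegral_scale' dec3 y hρ,
            lintegral_dec3]
      _ = _ := by
          rw [← ENNReal.ofReal_mul (by positivity), ← ENNReal.ofReal_mul (by positivity),
            ← ENNReal.ofReal_mul (by positivity)]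
          congr 1
          field_simp
  have hmass1 : ∀ x, ∫⁻ y, ‖Kf ρ ξ0 (x - y)‖ₑ ≤ ENNReal.ofReal (C * cd3) := by
    intro x
    calc _ ≤ ∫⁻ y, ENNReal.ofReal (C * ρ ^ 2) * dec3 (ρ • (x - y)) := by
          refine lintegral_mono fun y => ?_
          rw [← ofReal_norm]
          unfold dec3
          rw [← ENNReal.ofReal_mul (by positivity)]
          apply ENNReal.ofReal_le_ofReal
          have h4 := hK ρ ξ0 hρ hρ1 (x - y)
          rw [norm_smul, Real.norm_eq_abs, abs_of_pos hρ]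
          refine h4.trans ?_
          have h6 : 0 ≤ ρ * ‖x - y‖ := by positivity
          gcongr
          · linarith
          · omega
      _ = _ := by
          rw [lintegral_const_mul' _ _ ENNReal.ofReal_ne_top, lintegral_scale dec3 x hρ,
            lintegral_dec3, ← ENNReal.ofReal_mul (by positivity), ← ENNReal.ofReal_mul (by positivity)]
          congr 1
          field_simp
  -- pointwise bound
  have hpt : ∀ x, ‖𝓕⁻ G x‖ₑ ^ 2 ≤
      ENNReal.ofReal (C * cd3) * ∫⁻ y, ‖v y‖ₑ ^ 2 * ‖Kf ρ ξ0 (x - y)‖ₑ := by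
    intro x
    have h4 : ‖𝓕⁻ G x‖ₑ ≤ ∫⁻ y, ‖v y‖ₑ * ‖Kf ρ ξ0 (x - y)‖ₑ := by
      rw [hR.rep x]
      refine (enorm_integral_le_lintegral_enorm _).trans (le_of_eq ?_)
      refine lintegral_congr fun y => ?_
      rw [enorm_mul]
      rfl
    calc ‖𝓕⁻ G x‖ₑ ^ 2 ≤ (∫⁻ y, ‖v y‖ₑ * ‖Kf ρ ξ0 (x - y)‖ₑ) ^ 2 := by gcongr
      _ ≤ (∫⁻ y, ‖Kf ρ ξ0 (x - y)‖ₑ) * ∫⁻ y, ‖v y‖ₑ ^ 2 * ‖Kf ρ ξ0 (x - y)‖ₑ :=
          lint_sq_le hvm (hKm.comp (measurable_const.sub measurable_id)).aemeasurable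
      _ ≤ _ := by gcongr; exact hmass1 x
  calc WE w G ≤ ∫⁻ x, ENNReal.ofReal (w x) * (ENNReal.ofReal (C * cd3) *
        ∫⁻ y, ‖v y‖ₑ ^ 2 * ‖Kf ρ ξ0 (x - y)‖ₑ) := by
        unfold WE
        gcongr with x
        exact hpt x
    _ = ENNReal.ofReal (C * cd3) * ∫⁻ x, ∫⁻ y, ENNReal.ofReal (w x) *
        (‖v y‖ₑ ^ 2 * ‖Kf ρ ξ0 (x - y)‖ₑ) := by
        rw [← lintegral_const_mul' _ _ ENNReal.ofReal_ne_top]
        refine lintegral_congr fun x => ?_
        rw [lintegral_const_mul' _ _ ENNReal.ofReal_ne_top]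
        ring
    _ = ENNReal.ofReal (C * cd3) * ∫⁻ y, ∫⁻ x, ENNReal.ofReal (w x) *
        (‖v y‖ₑ ^ 2 * ‖Kf ρ ξ0 (x - y)‖ₑ) := by
        congr 1
        rw [lintegral_lintegral_swap]
        have m1 : AEMeasurable (fun p : E2 × E2 => ENNReal.ofReal (w p.1)) (volume.prod volume) :=
          (hw.meas.comp measurable_fst).ennreal_ofReal.aemeasurable
        have m2 : AEMeasurable (fun p : E2 × E2 => ‖v p.2‖ₑ ^ 2) (volume.prod volume) :=
          (hvm.comp_snd).pow_const 2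
        have m3 : AEMeasurable (fun p : E2 × E2 => ‖Kf ρ ξ0 (p.1 - p.2)‖ₑ) (volume.prod volume) :=
          (hKm.comp (measurable_fst.sub measurable_snd)).aemeasurable
        exact m1.mul (m2.mul m3)
    _ = ENNReal.ofReal (C * cd3) * ∫⁻ y, ‖v y‖ₑ ^ 2 *
        ∫⁻ x, ENNReal.ofReal (w x) * ‖Kf ρ ξ0 (x - y)‖ₑ := by
        congr 1
        refine lintegral_congr fun y => ?_
        rw [← lintegral_const_mul]
        · refine lintegral_congr fun x => ?_
          ring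
        · exact hw.meas.ennreal_ofReal.mul (hKm.comp (measurable_id.sub measurable_const))
    _ ≤ ENNReal.ofReal (C * cd3) * ∫⁻ y, ‖v y‖ₑ ^ 2 *
        (ENNReal.ofReal (A * (C * cd3)) * ENNReal.ofReal (w y)) := by
        gcongr with y
        exact hmass y
    _ = _ := by
        have e1 : ∀ y, ‖v y‖ₑ ^ 2 * (ENNReal.ofReal (A * (C * cd3)) * ENNReal.ofReal (w y)) =
            ENNReal.ofReal (A * (C * cd3)) * (ENNReal.ofReal (w y) * ‖v y‖ₑ ^ 2) := fun y => by ring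
        simp only [e1]
        rw [lintegral_const_mul' _ _ ENNReal.ofReal_ne_top, ← mul_assoc,
          ← ENNReal.ofReal_mul (by positivity)]
        congr 2
        ring

/-! ### Theorem A -/

theorem card_near {ρ : ℝ} (hρ : 0 < ρ) (ξ : E2) (P : ℤ × ℤ → Prop)
    (hP : ∀ m, P m → ‖ξ - cen ρ m‖ < 3 * ρ) : Set.ncard {m | P m} ≤ 36 := by
  have h1 : {m | P m} ⊆ ((Finset.Icc (⌊ξ 0 / ρ⌋ - 2) (⌊ξ 0 / ρ⌋ + 3) ×ˢ
      Finset.Icc (⌊ξ 1 / ρ⌋ - 2) (⌊ξ 1 / ρ⌋ + 3) : Finset (ℤ × ℤ)) : Set (ℤ × ℤ)) := by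
    intro m hm
    have h2 := hP m hm
    have h3 : ∀ (i : Fin 2) (k : ℤ), cen ρ m i = ρ * k → ⌊ξ i / ρ⌋ - 2 ≤ k ∧ k ≤ ⌊ξ i / ρ⌋ + 3 := by
      intro i k hk
      have h4 : |ξ i - ρ * k| < 3 * ρ := by
        have := PiLp.norm_apply_le (ξ - cen ρ m) i
        rw [PiLp.sub_apply, hk, Real.norm_eq_abs] at this
        linarith
      obtain ⟨h5, h6⟩ := abs_lt.1 h4
      have h7 : (ξ i / ρ) * ρ = ξ i := by field_simp
      have h8 := Int.floor_le (ξ i / ρ)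
      have h9 := Int.lt_floor_add_one (ξ i / ρ)
      constructor
      · have : ((⌊ξ i / ρ⌋ : ℤ) : ℝ) - 3 < k := by
          by_contra hc
          push Not at hc
          nlinarith
        have : ⌊ξ i / ρ⌋ - 3 < k := by exact_mod_cast this
        omega
      · have : (k : ℝ) < ⌊ξ i / ρ⌋ + 4 := by
          by_contra hc
          push Not at hc
          nlinarith
        have : k < ⌊ξ i / ρ⌋ + 4 := by exact_mod_cast this
        omega
    have h0 := h3 0 m.1 (cen_zero ρ m)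
    have h1 := h3 1 m.2 (cen_one ρ m)
    simp only [Finset.coe_product, Set.mem_prod, Finset.mem_coe, Finset.mem_Icc]
    exact ⟨h0, h1⟩
  calc Set.ncard {m | P m} ≤ Set.ncard ((Finset.Icc (⌊ξ 0 / ρ⌋ - 2) (⌊ξ 0 / ρ⌋ + 3) ×ˢ
      Finset.Icc (⌊ξ 1 / ρ⌋ - 2) (⌊ξ 1 / ρ⌋ + 3) : Finset (ℤ × ℤ)) : Set (ℤ × ℤ)) :=
        Set.ncard_le_ncard h1 (Finset.finite_toSet _)
    _ = 36 := by
        rw [Set.ncard_coe_finset, Finset.card_product, Int.card_Icc, Int.card_Icc]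
        have e1 : ∀ a : ℤ, (a + 3 + 1 - (a - 2)).toNat = 6 := by intro a; omega
        rw [e1, e1]

theorem sl_sum (h : E2 → ℝ) {κ : Type*} (s : Finset κ) (G : κ → E2 → ℂ) (t : ℝ) :
    sl h (fun ξ => ∑ m ∈ s, G m ξ) t = fun ξ => ∑ m ∈ s, sl h (G m) t ξ := by
  funext ξ
  unfold sl
  rw [Finset.sum_mul]

theorem sl_zero (h : E2 → ℝ) (G : E2 → ℂ) : sl h G 0 = G := by
  funext ξ
  unfold sl
  rw [zero_mul]
  have : Crest.Agent.R138.Defs.ee 0 = 1 := ee_zero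
  rw [this, mul_one]

/-- **Theorem A**. -/
theorem thmA (B : ℕ → ℝ) (n : ℕ) (L : ℝ) (hL : 1 ≤ L) : ∃ C : ℝ, 0 ≤ C ∧ ∀ h, ParB B h →
    ∀ (ρ A : ℝ) (w : E2 → ℝ), 0 < ρ → ρ ≤ 1 → SV ρ A n w → ∀ (s : Finset (ℤ × ℤ))
    (G v : ℤ × ℤ → E2 → ℂ), (∀ m ∈ s, Rep ρ (cen ρ m) (G m) (v m)) → ∀ t : ℝ, |t| * ρ ^ 2 ≤ L →
    WE w (sl h (fun ξ => ∑ m ∈ s, G m ξ) t) ≤ ENNReal.ofReal (C * A ^ 5) *
      ∑ m ∈ s, ∫⁻ y, ENNReal.ofReal (w (y - t • gradient h (cen ρ m))) * ‖v m y‖ₑ ^ 2 := by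
  obtain ⟨C1, hC1, h1⟩ := sv_row n
  obtain ⟨C2, hC2, h2⟩ := sv_transport B n L hL
  obtain ⟨C3, hC3, h3⟩ := rep_energy n
  refine ⟨C1 * 36 * (C2 * C3), by positivity, ?_⟩
  intro h hh ρ A w hρ hρ1 hw s G v hR t ht
  have hA := hw.one_le
  have hhc : Continuous h := hh.1.continuous
  have a1 := h1 ρ A w hρ hw (ℤ × ℤ) s (fun m => Metric.closedBall (cen ρ m) (3 / 2 * ρ))
    (fun m => sl h (G m) t) 36 (by norm_num) ?_ ?_ (fun m hm => sl_int hhc (hR m hm).int t)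
    (fun m hm => sl_l2 hhc (hR m hm).l2 t)
  · rw [sl_sum]
    calc _ ≤ _ := a1
      _ ≤ ENNReal.ofReal (C1 * A ^ 2 * 36) * ∑ m ∈ s, (ENNReal.ofReal (C2 * A ^ 2) *
          (ENNReal.ofReal (C3 * A) * ∫⁻ y, ENNReal.ofReal (w (y - t • gradient h (cen ρ m))) *
            ‖v m y‖ₑ ^ 2)) := by
          refine mul_le_mul_right (Finset.sum_le_sum fun m hm => ?_) _
          have b1 := h2 h hh ρ A w hρ hρ1 hw (cen ρ m) (G m) (hR m hm).int (hR m hm).l2
            (fun ξ hξ => ((hR m hm).supp ξ hξ).trans (by linarith)) 0 t ht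
          rw [zero_add, sl_zero] at b1
          refine b1.trans (mul_le_mul_right ?_ _)
          exact h3 ρ A _ hρ hρ1 (hw.comp_sub (t • gradient h (cen ρ m))) (cen ρ m) (G m) (v m)
            (hR m hm)
      _ = _ := by
          rw [← Finset.mul_sum, ← Finset.mul_sum, ← mul_assoc, ← mul_assoc,
            ← ENNReal.ofReal_mul (by positivity), ← ENNReal.ofReal_mul (by positivity)]
          congr 2
          ring
  · intro ξ
    have : Set.ncard {m | m ∈ s ∧ ξ ∈ Metric.thickening ρ (Metric.closedBall (cen ρ m) (3 / 2 * ρ))} ≤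
        36 := by
      refine card_near hρ ξ _ fun m hm => ?_
      obtain ⟨z, hz, hz2⟩ := Metric.mem_thickening_iff.1 hm.2
      rw [Metric.mem_closedBall, dist_eq_norm] at hz
      rw [dist_eq_norm] at hz2
      calc ‖ξ - cen ρ m‖ = ‖(ξ - z) + (z - cen ρ m)‖ := by congr 1; abel
        _ ≤ ‖ξ - z‖ + ‖z - cen ρ m‖ := norm_add_le _ _
        _ < 3 * ρ := by linarith
    exact_mod_cast this
  · intro m hm ξ hξ
    rw [Metric.mem_closedBall, dist_eq_norm]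
    apply (hR m hm).supp ξ
    intro h0
    exact hξ (by simp [sl, h0])

/-- **Theorem B**. -/
theorem thmB (B : ℕ → ℝ) (n : ℕ) (L : ℝ) (hL : 1 ≤ L) : ∃ C : ℝ, 0 ≤ C ∧ ∀ h, ParB B h →
    ∀ (ρ A : ℝ) (w : E2 → ℝ), 0 < ρ → ρ ≤ 1 → SV ρ A n w → ∀ (s : Finset (ℤ × ℤ))
    (g : E2 → ℂ), Integrable g → MemLp g 2 → ∀ t : ℝ, |t| * ρ ^ 2 ≤ L →
    ∑ m ∈ s, ∫⁻ y, ENNReal.ofReal (w (y - t • gradient h (cen ρ m))) * ‖um ρ g m y‖ₑ ^ 2 ≤
      ENNReal.ofReal (C * A ^ 4) * WE w (sl h g t) := by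
  obtain ⟨C1, hC1, h1⟩ := sv_col n
  obtain ⟨C2, hC2, h2⟩ := sv_transport B n L hL
  obtain ⟨Aw, hAw, hwin⟩ := exists_win win_contDiff (fun ζ hζ => win_zero' (by linarith)) (n + 2)
  refine ⟨C1 * (Aw + 1) ^ 2 * 36 * C2, by positivity, ?_⟩
  intro h hh ρ A w hρ hρ1 hw s g hg hg2 t ht
  have hA := hw.one_le
  have hhc : Continuous h := hh.1.continuous
  have hwc : ∀ m, Continuous (cap win (cen ρ m) ρ) := fun m =>
    (contDiff_cap win_contDiff _ _).continuous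
  have hwb : ∀ m ξ, ‖cap win (cen ρ m) ρ ξ‖ ≤ 1 := fun m ξ => norm_win_le _
  have hgi : ∀ m, Integrable (fun ξ => cap win (cen ρ m) ρ ξ * g ξ) := fun m =>
    hg.bdd_mul (c := 1) (hwc m).aestronglyMeasurable (Filter.Eventually.of_forall (hwb m))
  have hg2i : ∀ m, MemLp (fun ξ => cap win (cen ρ m) ρ ξ * g ξ) 2 := fun m => by
    refine MemLp.of_le hg2 ((hwc m).aestronglyMeasurable.mul hg2.1)
      (Filter.Eventually.of_forall fun ξ => ?_)
    rw [norm_mul]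
    exact mul_le_of_le_one_left (norm_nonneg _) (hwb m ξ)
  have hsup : ∀ m ξ, cap win (cen ρ m) ρ ξ ≠ 0 → ‖ξ - cen ρ m‖ ≤ 71 / 50 * ρ := by
    intro m ξ hξ
    by_contra hc
    push Not at hc
    exact hξ (cap_supp (fun ζ hζ => win_zero' hζ) (cen ρ m) hρ ξ hc)
  calc _ ≤ ∑ m ∈ s, ENNReal.ofReal (C2 * A ^ 2) *
        WE w (fun ξ => cap win (cen ρ m) ρ ξ * sl h g t ξ) := by
        refine Finset.sum_le_sum fun m hm => ?_
        have b1 := h2 h hh ρ A (fun y => w (y - t • gradient h (cen ρ m))) hρ hρ1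
          (hw.comp_sub (t • gradient h (cen ρ m))) (cen ρ m)
          (fun ξ => cap win (cen ρ m) ρ ξ * g ξ) (hgi m) (hg2i m)
          (fun ξ hξ => (hsup m ξ (left_ne_zero_of_mul hξ)).trans (by linarith)) t (-t)
          (by rwa [abs_neg])
        rw [add_neg_cancel, sl_zero] at b1
        have e1 : (fun x => w (x - (-t) • gradient h (cen ρ m) - t • gradient h (cen ρ m))) = w := by
          funext x
          congr 1
          rw [neg_smul]; abel
        rw [e1] at b1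
        have e2 : sl h (fun ξ => cap win (cen ρ m) ρ ξ * g ξ) t =
            fun ξ => cap win (cen ρ m) ρ ξ * sl h g t ξ := by
          funext ξ
          unfold sl
          ring
        rw [e2] at b1
        exact b1
    _ = ENNReal.ofReal (C2 * A ^ 2) * ∑ m ∈ s,
        WE w (fun ξ => cap win (cen ρ m) ρ ξ * sl h g t ξ) := by rw [Finset.mul_sum]
    _ ≤ ENNReal.ofReal (C2 * A ^ 2) * (ENNReal.ofReal (C1 * A ^ 2 * (Aw + 1) ^ 2 * 36) *
        WE w (sl h g t)) := by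
        refine mul_le_mul_right ?_ _
        refine h1 ρ A w hρ hw (ℤ × ℤ) s (fun m => cap win (cen ρ m) ρ) (sl h g t) (Aw + 1) 36
          (by positivity) (by norm_num)
          (fun m _ => temperate_cap win_contDiff (fun ζ hζ => win_zero' hζ) _ hρ) ?_ ?_
          (sl_int hhc hg t) (sl_l2 hhc hg2 t)
        · intro m _ j hj ξ
          refine norm_iteratedFDeriv_cap_le win_contDiff _ hρ j (fun ζ => ?_) ξ
          exact (hwin.bd j hj ζ).trans (by linarith)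
        · intro ξ
          have : Set.ncard {m | m ∈ s ∧ ξ ∈ tsupport (cap win (cen ρ m) ρ)} ≤ 36 := by
            refine card_near hρ ξ _ fun m hm => ?_
            have h5 : tsupport (cap win (cen ρ m) ρ) ⊆ Metric.closedBall (cen ρ m) (71 / 50 * ρ) := by
              refine closure_minimal (fun ξ hξ => ?_) Metric.isClosed_closedBall
              rw [Metric.mem_closedBall, dist_eq_norm]
              exact hsup m ξ hξ
            have h6 := h5 hm.2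
            rw [Metric.mem_closedBall, dist_eq_norm] at h6
            linarith
          exact_mod_cast this
    _ = _ := by
        rw [← mul_assoc, ← ENNReal.ofReal_mul (by positivity)]
        congr 2
        ring

end Crest.Agent.R138.Wpk685
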