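import Crest.Agent.R138.Sup5_882
import Crest.Agent.R138.Wpk4_685

/-!
# R138 / R139, wave side: SUP, literal form over WDef_188 (helper882)

`SUP_lit` : `SIG A r s1 s2 h g R ≤ C ∑_{k ∈ caps (s2/24)} NN N h (g · capf h (s2/24) k) (s1 r) (2R)`.
-/

set_option autoImplicit false

open MeasureTheory FourierTransform
open scoped ContDiff ENNReal

namespace Crest.Agent.R138.Sup882

open Crest.Agent.R138.Defs Crest.Agent.R138.Wf448
open Crest.Agent.R138.Wpk685 (cap win cen caps th th_zero cen_zero cen_one win_contDiff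
  win_zero' cap_win_sum norm_win_le contDiff_cap hcs_cap norm_iteratedFDeriv_cap_le cap_supp card_near)
open Crest.Agent.R138.Bil882 (NearId wt wt_pos measurable_wt)
open Crest.Agent.R138.Bn759 (contDiff_gradient nearId)
open Crest.Agent.R138.W188 (PBox En SS St NN Plate Plates val SIG Sd)

theorem NN_eq (N : ℕ) (h : E2 → ℝ) (g : E2 → ℂ) (w R : ℝ) :
    NN N h g w R = ∫⁻ z in cyl R, aw N w h g z ^ (3 / 2 : ℝ) := rfl

theorem ext_fsum {h : E2 → ℝ} (hh : Continuous h) {κ : Type*} (s : Finset κ) (G : κ → E2 → ℂ)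
    (hG : ∀ k ∈ s, Integrable (G k)) (x : E2) (t : ℝ) :
    ext h (fun ξ => ∑ k ∈ s, G k ξ) x t = ∑ k ∈ s, ext h (G k) x t := by
  unfold ext
  rw [← integral_finsetSum]
  · refine integral_congr_ae (Filter.Eventually.of_forall fun ξ => ?_)
    simp only [Finset.sum_mul]
  · intro k hk
    refine (hG k hk).mul_bdd (c := 1) ?_ (Filter.Eventually.of_forall fun ξ => (norm_ee _).le)
    exact (contDiff_ee.continuous.comp
      ((continuous_const.inner continuous_id).add (continuous_const.mul hh))).aestronglyMeasurable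

theorem enorm_fsum_sq {κ : Type*} (s : Finset κ) (a : κ → ℂ) :
    ‖∑ k ∈ s, a k‖ₑ ^ 2 ≤ (s.card : ℝ≥0∞) * ∑ k ∈ s, ‖a k‖ₑ ^ 2 := by
  have h1 : ‖∑ k ∈ s, a k‖ ^ 2 ≤ (s.card : ℝ) * ∑ k ∈ s, ‖a k‖ ^ 2 := by
    calc ‖∑ k ∈ s, a k‖ ^ 2 ≤ (∑ k ∈ s, ‖a k‖) ^ 2 := by
          gcongr
          exact norm_sum_le _ _
      _ ≤ _ := sq_sum_le_card_mul_sum_sq
  have h2 : ∀ x : ℂ, ‖x‖ₑ ^ 2 = ENNReal.ofReal (‖x‖ ^ 2) := by
    intro x
    rw [ENNReal.ofReal_pow (norm_nonneg _), ofReal_norm]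
  simp_rw [h2]
  rw [← ENNReal.ofReal_sum_of_nonneg (fun k _ => by positivity), ← ENNReal.ofReal_natCast,
    ← ENNReal.ofReal_mul (by positivity)]
  exact ENNReal.ofReal_le_ofReal h1

theorem aw_fsum_le (N : ℕ) {w : ℝ} {h : E2 → ℝ} (hh : Continuous h) {κ : Type*} (s : Finset κ)
    (G : κ → E2 → ℂ) (hG : ∀ k ∈ s, Integrable (G k)) (z : E2 × ℝ) :
    aw N w h (fun ξ => ∑ k ∈ s, G k ξ) z ≤ (s.card : ℝ≥0∞) * ∑ k ∈ s, aw N w h (G k) z := by
  unfold aw
  have hm : ∀ k ∈ s, Measurable fun p : E2 × ℝ =>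
      ‖ext h (G k) p.1 p.2‖ₑ ^ 2 * ENNReal.ofReal (wt N w z.1 z.2 p) := fun k hk =>
    ((continuous_ext hh (hG k hk)).measurable.enorm.pow_const 2).mul
      (measurable_wt N w z.1 z.2).ennreal_ofReal
  rw [← Finset.mul_sum, ← lintegral_finsetSum' s (fun k hk => (hm k hk).aemeasurable),
    mul_left_comm, ← lintegral_const_mul' _ _ (ENNReal.natCast_ne_top _)]
  refine mul_le_mul' le_rfl (lintegral_mono fun p => ?_)
  simp only
  rw [← Finset.sum_mul, ← mul_assoc]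
  gcongr
  rw [ext_fsum hh s G hG]
  exact enorm_fsum_sq s _

theorem NN_fsum_le (N : ℕ) {w R : ℝ} {h : E2 → ℝ} (hh : Continuous h) {κ : Type*} (s : Finset κ)
    (G : κ → E2 → ℂ) (hG : ∀ k ∈ s, Integrable (G k)) :
    NN N h (fun ξ => ∑ k ∈ s, G k ξ) w R ≤
      ENNReal.ofReal ((s.card : ℝ) ^ 2) * ∑ k ∈ s, NN N h (G k) w R := by
  simp_rw [NN_eq]
  rw [← lintegral_finsetSum' s
    (fun k hk => ((measurable_aw N w hh (hG k hk)).pow_const _).aemeasurable),
    ← lintegral_const_mul' _ _ ENNReal.ofReal_ne_top]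
  refine lintegral_mono fun z => ?_
  have hc : (s.card : ℝ≥0∞) = ENNReal.ofReal (s.card : ℝ) := by rw [ENNReal.ofReal_natCast]
  calc aw N w h (fun ξ => ∑ k ∈ s, G k ξ) z ^ (3 / 2 : ℝ)
      ≤ ((s.card : ℝ≥0∞) * ∑ k ∈ s, aw N w h (G k) z) ^ (3 / 2 : ℝ) := by
        gcongr
        exact aw_fsum_le N hh s G hG z
    _ = (s.card : ℝ≥0∞) ^ (3 / 2 : ℝ) * (∑ k ∈ s, aw N w h (G k) z) ^ (3 / 2 : ℝ) :=
        ENNReal.mul_rpow_of_nonneg _ _ (by norm_num)
    _ ≤ (s.card : ℝ≥0∞) ^ (3 / 2 : ℝ) * ((s.card : ℝ≥0∞) ^ ((3 / 2 : ℝ) - 1) *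
          ∑ k ∈ s, aw N w h (G k) z ^ (3 / 2 : ℝ)) := by
        gcongr
        exact ENNReal.rpow_sum_le_const_mul_sum_rpow s _ (by norm_num)
    _ = _ := by
        rw [← mul_assoc]
        congr 1
        rw [hc, ENNReal.ofReal_rpow_of_nonneg (by positivity) (by norm_num),
          ENNReal.ofReal_rpow_of_nonneg (by positivity) (by norm_num),
          ← ENNReal.ofReal_mul (by positivity)]
        congr 1
        rcases Nat.eq_zero_or_pos s.card with h0 | h0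
        · rw [h0]; norm_num
        · rw [← Real.rpow_add (by exact_mod_cast h0)]
          norm_num

theorem NN_zero (N : ℕ) (h : E2 → ℝ) (w R : ℝ) {g : E2 → ℂ} (hg : ∀ ξ, g ξ = 0) :
    NN N h g w R = 0 := by
  rw [NN_eq]
  have : ∀ z, aw N w h g z = 0 := by
    intro z
    unfold aw
    have e : ∀ p : E2 × ℝ, ext h g p.1 p.2 = 0 := by
      intro p; unfold ext; simp [hg]
    simp [e]
  simp [this]

/-! ### the caps which see a direction -/

theorem capf_ne {h : E2 → ℝ} {l : ℝ} (hl : 0 < l) {k : ℤ × ℤ} {ξ : E2} (hξ : capf h l k ξ ≠ 0) :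
    |l⁻¹ * gradient h ξ 0 - k.1| < 1 ∧ |l⁻¹ * gradient h ξ 1 - k.2| < 1 := by
  rw [capf_eq h hl] at hξ
  constructor
  · by_contra hc
    push Not at hc
    apply hξ
    rw [th_zero hc]; simp
  · by_contra hc
    push Not at hc
    apply hξ
    rw [th_zero hc]; simp

theorem mem_caps_of_ne {h : E2 → ℝ} {l : ℝ} (hl : 0 < l) {k : ℤ × ℤ} {ξ : E2}
    (hξ : capf h l k ξ ≠ 0) (hg : ‖gradient h ξ‖ ≤ 2) : k ∈ caps l := by
  obtain ⟨h0, h1⟩ := capf_ne hl hξ
  have key : ∀ (i : Fin 2) (m : ℤ), |l⁻¹ * gradient h ξ i - m| < 1 →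
      m ∈ Finset.Icc (-⌈2 / l⌉ - 1) (⌈2 / l⌉ + 1) := by
    intro i m hm
    have h2 : |gradient h ξ i| ≤ 2 := (PiLp.norm_apply_le (gradient h ξ) i).trans hg
    have h3 : |l⁻¹ * gradient h ξ i| ≤ ⌈2 / l⌉ := by
      rw [abs_mul, abs_of_pos (inv_pos.2 hl)]
      calc l⁻¹ * |gradient h ξ i| ≤ l⁻¹ * 2 := by gcongr
        _ = 2 / l := by rw [div_eq_mul_inv, mul_comm]
        _ ≤ _ := Int.le_ceil _
    obtain ⟨h4, h5⟩ := abs_le.1 h3
    obtain ⟨h6, h7⟩ := abs_lt.1 hm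
    rw [Finset.mem_Icc]
    constructor
    · have : ((-⌈2 / l⌉ - 1 : ℤ) : ℝ) < m := by push_cast; linarith
      exact (by exact_mod_cast this.le)
    · have : (m : ℝ) < ((⌈2 / l⌉ + 1 : ℤ) : ℝ) := by push_cast; linarith
      exact (by exact_mod_cast this.le)
  unfold caps
  exact Finset.mem_product.2 ⟨key 0 k.1 h0, key 1 k.2 h1⟩

/-- a block of caps. -/
noncomputable def blk (n : ℕ) (κ : ℤ × ℤ) : Finset (ℤ × ℤ) :=
  Finset.Icc (κ.1 - n) (κ.1 + n) ×ˢ Finset.Icc (κ.2 - n) (κ.2 + n)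

theorem mem_blk {n : ℕ} {κ k : ℤ × ℤ} : k ∈ blk n κ ↔ |k.1 - κ.1| ≤ n ∧ |k.2 - κ.2| ≤ n := by
  unfold blk
  rw [Finset.mem_product, Finset.mem_Icc, Finset.mem_Icc, abs_le, abs_le]
  constructor
  · rintro ⟨⟨h1, h2⟩, h3, h4⟩
    refine ⟨⟨by omega, by omega⟩, by omega, by omega⟩
  · rintro ⟨⟨h1, h2⟩, h3, h4⟩
    refine ⟨⟨by omega, by omega⟩, by omega, by omega⟩

theorem mem_blk_comm {n : ℕ} {κ k : ℤ × ℤ} : k ∈ blk n κ ↔ κ ∈ blk n k := by
  rw [mem_blk, mem_blk, abs_sub_comm k.1, abs_sub_comm k.2]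

theorem card_blk (n : ℕ) (κ : ℤ × ℤ) : (blk n κ).card = (2 * n + 1) ^ 2 := by
  unfold blk
  rw [Finset.card_product, Int.card_Icc, Int.card_Icc]
  have : ∀ a : ℤ, (a + n + 1 - (a - n)).toNat = 2 * n + 1 := by intro a; omega
  rw [this, this, sq]

/-- the sum of the caps of a block. -/
noncomputable def bsum (h : E2 → ℝ) (l : ℝ) (n : ℕ) (κ : ℤ × ℤ) (ξ : E2) : ℂ :=
  ∑ k ∈ blk n κ, capf h l k ξ

theorem bsum_one {h : E2 → ℝ} {l : ℝ} (hl : 0 < l) {n : ℕ} {κ : ℤ × ℤ} {ξ : E2}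
    (hg : ‖gradient h ξ‖ ≤ 2) (hk : ∀ k, capf h l k ξ ≠ 0 → k ∈ blk n κ) :
    bsum h l n κ ξ = 1 := by
  classical
  unfold bsum
  rw [← capf_sum h hl hg]
  have h1 : ∑ k ∈ blk n κ, capf h l k ξ = ∑ k ∈ blk n κ ∪ caps l, capf h l k ξ := by
    refine Finset.sum_subset Finset.subset_union_left fun k _ hk' => ?_
    by_contra hc
    exact hk' (hk k hc)
  have h2 : ∑ k ∈ caps l, capf h l k ξ = ∑ k ∈ blk n κ ∪ caps l, capf h l k ξ := by
    refine Finset.sum_subset Finset.subset_union_right fun k _ hk' => ?_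
    by_contra hc
    exact hk' (mem_caps_of_ne hl hc hg)
  rw [h1, h2]

theorem sum_blocks_le {n : ℕ} {l : ℝ} (K : Finset (ℤ × ℤ)) (f : ℤ × ℤ → ℝ≥0∞)
    (hf : ∀ k, k ∉ caps l → f k = 0) :
    ∑ κ ∈ K, ∑ k ∈ blk n κ, f k ≤ ENNReal.ofReal ((2 * n + 1) ^ 2) * ∑ k ∈ caps l, f k := by
  classical
  have h1 : ∀ κ, ∑ k ∈ blk n κ, f k = ∑ k ∈ caps l, if κ ∈ blk n k then f k else 0 := by
    intro κ
    rw [← Finset.sum_filter]
    have : ∑ k ∈ blk n κ, f k = ∑ k ∈ (blk n κ).filter (· ∈ caps l), f k := by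
      symm
      refine Finset.sum_subset (Finset.filter_subset _ _) fun k hk hk' => ?_
      apply hf
      intro hc
      exact hk' (Finset.mem_filter.2 ⟨hk, hc⟩)
    rw [this]
    refine Finset.sum_congr ?_ fun _ _ => rfl
    ext k
    rw [Finset.mem_filter, Finset.mem_filter, mem_blk_comm]
    tauto
  simp_rw [h1]
  rw [Finset.sum_comm, Finset.mul_sum]
  refine Finset.sum_le_sum fun k _ => ?_
  rw [← Finset.sum_filter, Finset.sum_const, nsmul_eq_mul, ← ENNReal.ofReal_natCast]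
  gcongr
  have h2 : (K.filter (fun κ => κ ∈ blk n k)).card ≤ (2 * n + 1) ^ 2 := by
    rw [← card_blk n k]
    refine Finset.card_le_card fun κ hκ => ?_
    exact (Finset.mem_filter.1 hκ).2
  exact_mod_cast h2

/-! ### the packets -/

theorem caps_packet (N : ℕ) : ∃ W : ℝ, 1 ≤ W ∧ ∀ h : E2 → ℝ, NearId h (1 / 10) → ∀ r : ℝ, 1 ≤ r →
    ∀ A : ℝ, 2 ≤ A → Caps N W 36 A h r
      (fun m : {m // m ∈ caps (r ^ (-(1/2) : ℝ))} =>
        cap win (cen (r ^ (-(1/2) : ℝ)) m.1) (r ^ (-(1/2) : ℝ)))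
      (fun m => gradient h (cen (r ^ (-(1/2) : ℝ)) m.1)) := by
  obtain ⟨W, hW1, hW⟩ := win_bound N
  refine ⟨W, hW1, ?_⟩
  intro h hn r hr A hA
  set ρ : ℝ := r ^ (-(1/2) : ℝ) with hρdef
  have hρ : 0 < ρ := Real.rpow_pos_of_pos (by linarith) _
  have hsupp : ∀ (m : ℤ × ℤ) (ξ : E2), 71 / 50 * ρ < ‖ξ - cen ρ m‖ → cap win (cen ρ m) ρ ξ = 0 :=
    fun m ξ hξ => cap_supp (R := 71 / 50) (fun ζ hζ => win_zero' hζ) (cen ρ m) hρ ξ hξ
  refine ⟨fun m => contDiff_cap win_contDiff _ _, fun m => ?_, fun m j hj ξ => ?_, fun ξ => ?_,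
    fun m ξ hξ => ?_⟩
  · exact hcs_cap (R := 71 / 50) (fun ζ hζ => win_zero' hζ) _ hρ
  · exact norm_iteratedFDeriv_cap_le win_contDiff _ hρ j (hW j hj) ξ
  · have h1 : Set.ncard {m : {m // m ∈ caps ρ} | ξ ∈ tsupport (cap win (cen ρ m.1) ρ)} ≤
        Set.ncard {m : ℤ × ℤ | ξ ∈ tsupport (cap win (cen ρ m) ρ)} := by
      have hsub : {m : ℤ × ℤ | ξ ∈ tsupport (cap win (cen ρ m) ρ)} ⊆
          {m : ℤ × ℤ | ‖ξ - cen ρ m‖ < 3 * ρ} := by
        intro m hm
        have : tsupport (cap win (cen ρ m) ρ) ⊆ Metric.closedBall (cen ρ m) (71 / 50 * ρ) := by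
          apply closure_minimal _ Metric.isClosed_closedBall
          intro ζ hζ
          rw [Metric.mem_closedBall, dist_eq_norm]
          by_contra hc
          push Not at hc
          exact hζ (hsupp m ζ hc)
        have h2 := this hm
        rw [Metric.mem_closedBall, dist_eq_norm] at h2
        show ‖ξ - cen ρ m‖ < 3 * ρ
        linarith
      have hfin : {m : ℤ × ℤ | ξ ∈ tsupport (cap win (cen ρ m) ρ)}.Finite := by
        have h3 := card_near hρ ξ (fun m => ‖ξ - cen ρ m‖ < 3 * ρ) (fun m hm => hm)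
        refine Set.Finite.subset ?_ hsub
        refine (((Finset.Icc (⌊ξ 0 / ρ⌋ - 3) (⌊ξ 0 / ρ⌋ + 4) ×ˢ
          Finset.Icc (⌊ξ 1 / ρ⌋ - 3) (⌊ξ 1 / ρ⌋ + 4) : Finset (ℤ × ℤ))).finite_toSet).subset ?_
        intro m hm
        have hm' : ‖ξ - cen ρ m‖ < 3 * ρ := hm
        have key : ∀ (i : Fin 2) (k : ℤ), cen ρ m i = ρ * k →
            ⌊ξ i / ρ⌋ - 3 ≤ k ∧ k ≤ ⌊ξ i / ρ⌋ + 4 := by
          intro i k hk
          have h4 : |ξ i - ρ * k| < 3 * ρ := by
            have := PiLp.norm_apply_le (ξ - cen ρ m) i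
            rw [PiLp.sub_apply, hk, Real.norm_eq_abs] at this
            linarith
          have h5 : |ξ i / ρ - k| < 3 := by
            rw [show ξ i / ρ - k = (ξ i - ρ * k) / ρ by field_simp, abs_div, abs_of_pos hρ,
              div_lt_iff₀ hρ]
            exact h4
          obtain ⟨h6, h7⟩ := abs_lt.1 h5
          have h8 := Int.floor_le (ξ i / ρ)
          have h9 := Int.lt_floor_add_one (ξ i / ρ)
          constructor
          · have : ((⌊ξ i / ρ⌋ - 3 : ℤ) : ℝ) < k := by push_cast; linarith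
            exact (by exact_mod_cast this.le)
          · have : (k : ℝ) < ((⌊ξ i / ρ⌋ + 4 : ℤ) : ℝ) := by push_cast; linarith
            exact (by exact_mod_cast this.le)
        simp only [Finset.coe_product, Set.mem_prod, Finset.mem_coe, Finset.mem_Icc]
        exact ⟨key 0 m.1 (cen_zero ρ m), key 1 m.2 (cen_one ρ m)⟩
      refine Set.ncard_le_ncard_of_injOn Subtype.val (fun m hm => hm)
        (Subtype.val_injective.injOn) hfin
    have h2 : Set.ncard {m : ℤ × ℤ | ξ ∈ tsupport (cap win (cen ρ m) ρ)} ≤ 36 := by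
      refine card_near hρ ξ _ fun m hm => ?_
      have : tsupport (cap win (cen ρ m) ρ) ⊆ Metric.closedBall (cen ρ m) (71 / 50 * ρ) := by
        apply closure_minimal _ Metric.isClosed_closedBall
        intro ζ hζ
        rw [Metric.mem_closedBall, dist_eq_norm]
        by_contra hc
        push Not at hc
        exact hζ (hsupp m ζ hc)
      have h2 := this hm
      rw [Metric.mem_closedBall, dist_eq_norm] at h2
      linarith
    exact_mod_cast h1.trans h2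
  · have h1 : ‖ξ - cen ρ m.1‖ ≤ 71 / 50 * ρ := by
      by_contra hc
      push Not at hc
      exact hξ (hsupp m.1 ξ hc)
    have h2 := grad_lip hn ξ (cen ρ m.1)
    nlinarith

theorem norm_cen_le {ρ : ℝ} (hρ : 0 < ρ) (hρ1 : ρ ≤ 1) {m : ℤ × ℤ} (hm : m ∈ caps ρ) :
    ‖cen ρ m‖ ≤ 6 := by
  have hm' := Finset.mem_product.1 hm
  have key : ∀ k : ℤ, k ∈ Finset.Icc (-⌈2 / ρ⌉ - 1) (⌈2 / ρ⌉ + 1) → |ρ * k| ≤ 4 := by
    intro k hk
    rw [Finset.mem_Icc] at hk
    have h1 : |(k : ℝ)| ≤ ⌈2 / ρ⌉ + 1 := by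
      rw [abs_le]
      constructor
      · have : ((-⌈2 / ρ⌉ - 1 : ℤ) : ℝ) ≤ k := by exact_mod_cast hk.1
        push_cast at this; linarith
      · have : (k : ℝ) ≤ ((⌈2 / ρ⌉ + 1 : ℤ) : ℝ) := by exact_mod_cast hk.2
        push_cast at this; linarith
    have h2 := Int.ceil_lt_add_one (2 / ρ)
    rw [abs_mul, abs_of_pos hρ]
    calc ρ * |(k : ℝ)| ≤ ρ * (2 / ρ + 1 + 1) := by
          gcongr
          linarith
      _ = 2 + 2 * ρ := by field_simp; ring
      _ ≤ 4 := by linarith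
  have h0 := key m.1 hm'.1
  have h1 := key m.2 hm'.2
  refine le_of_sq_le_sq ?_ (by norm_num)
  rw [EuclideanSpace.norm_sq_eq, Fin.sum_univ_two, cen_zero, cen_one, Real.norm_eq_abs,
    Real.norm_eq_abs]
  nlinarith [abs_nonneg (ρ * (m.1 : ℝ)), abs_nonneg (ρ * (m.2 : ℝ))]

theorem en_eq {ρ : ℝ} (h : E2 → ℝ) (z : E2 × ℝ) (g : E2 → ℂ) {I : Type} (S : I → ℤ × ℤ → Set E2)
    (i : I) :
    Wpk685.en ρ (W188.tr h z g) (S i) =
      en (fun m : {m // m ∈ caps ρ} => cap win (cen ρ m.1) ρ) (tr h z g)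
        (fun i (m : {m // m ∈ caps ρ}) => S i m.1) i := by
  unfold Wpk685.en en U Wpk685.um
  rw [← Finset.sum_coe_sort (caps ρ)]
  refine Finset.sum_congr rfl fun m _ => ?_
  refine lintegral_congr fun x => ?_
  rw [ENNReal.ofReal_pow (norm_nonneg _), ofReal_norm]
  rfl

/-! ### SUP -/

theorem sides_pos {r s1 s2 : ℝ} (hr : 1 ≤ r) (hs : Sd r s1 s2) : 0 < s1 ∧ 0 < s2 := by
  have h1 : 0 < s1 := (Real.rpow_pos_of_pos (by linarith) _).trans_le hs.lo
  exact ⟨h1, h1.trans_le hs.le⟩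

/-- **SUP**: plates against local averages of the direction caps. -/
theorem SUP_lit (B : ℕ → ℝ) (hB : B 2 ≤ 1 / 10) (A : ℝ) (hA : 1 ≤ A) (N : ℕ) :
    ∃ C K0 : ℝ, 0 ≤ C ∧ 1 ≤ K0 ∧ ∀ h : E2 → ℝ, ParB B h → fderiv ℝ h 0 = 0 →
    ∀ g : E2 → ℂ, Integrable g → MemLp g 2 → (∀ ξ, 1 < ‖ξ‖ → g ξ = 0) →
    ∀ r s1 s2 R : ℝ, 1 ≤ r → K0 * r ≤ R → Sd r s1 s2 →
    SIG A r s1 s2 h g R ≤ ENNReal.ofReal C *
      ∑ k ∈ caps (s2 / 24), NN N h (fun ξ => g ξ * capf h (s2 / 24) k ξ) (s1 * r) (2 * R) := by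
  classical
  obtain ⟨W, hW1, hcap⟩ := caps_packet N
  -- bound of the derivatives of the phase
  set M : ℝ := 1 + ∑ i ∈ Finset.range (max N 2 + 1), |B i| with hM
  obtain ⟨C1, K0, hC1, hK0, h1⟩ := superadd_all N M W 36 (2 * A) 7 A (by linarith) (by norm_num)
    (by linarith) (by norm_num) (by linarith)
  set n0 : ℕ := ⌈48 * (1 + A)⌉₊ + 2 with hn0
  set b0 : ℝ := (2 * (n0 : ℝ) + 1) ^ 2 with hb0
  refine ⟨C1 * (b0 ^ 2 * b0), K0, by positivity, hK0, ?_⟩
  intro h hh hh1 g hg hg2 hsupp r s1 s2 R hr hR hs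
  have hn := nearId hB hh
  have hr0 : 0 < r := by linarith
  obtain ⟨hs1, hs2⟩ := sides_pos hr hs
  set ρ : ℝ := r ^ (-(1/2) : ℝ) with hρdef
  have hρ : 0 < ρ := Real.rpow_pos_of_pos hr0 _
  have hρ1 : ρ ≤ 1 := Real.rpow_le_one_of_one_le_of_nonpos hr (by norm_num)
  set l : ℝ := s2 / 24 with hl
  have hl0 : 0 < l := by positivity
  have hgrad : ∀ ξ, g ξ ≠ 0 → ‖gradient h ξ‖ ≤ 2 := by
    intro ξ hξ
    have h2 : ‖ξ‖ ≤ 1 := by
      by_contra hc
      push Not at hc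
      exact hξ (hsupp ξ hc)
    have := grad_norm_le hn hh1 ξ
    linarith
  have hMd : ∀ i, 2 ≤ i → i ≤ max N 2 → ∀ ξ, ‖iteratedFDeriv ℝ i h ξ‖ ≤ M := by
    intro i hi hi' ξ
    refine (ParB.bound hh i hi ξ).trans ?_
    have h3 : |B i| ≤ ∑ i ∈ Finset.range (max N 2 + 1), |B i| :=
      Finset.single_le_sum (f := fun i => |B i|) (fun i _ => abs_nonneg _)
        (Finset.mem_range.2 (by omega))
    have h4 := le_abs_self (B i)
    rw [hM]
    linarith
  unfold SIG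
  refine iSup_le fun I => iSup_le fun P => iSup_le fun hP => ?_
  -- labels
  set lab : ℕ → ℤ × ℤ := fun i => (⌊(P i).c 0 / l⌋, ⌊(P i).c 1 / l⌋) with hlab
  set KF : Finset (ℤ × ℤ) := I.image lab with hKF
  set w : ℝ := s1 * r with hw
  have hw1 : r ^ (1 / 2 : ℝ) ≤ w := by
    rw [hw]
    calc r ^ (1 / 2 : ℝ) = r ^ (-(1/2) : ℝ) * r := by
          rw [← Real.rpow_add_one hr0.ne']; norm_num
      _ ≤ s1 * r := by
          gcongr
          exact hs.lo
  have hw2 : w ≤ r := mul_le_of_le_one_left hr0.le (hs.le.trans hs.hi)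
  have hbig := h1 h hh.1 hMd r R hr hR {m // m ∈ caps ρ} {i // i ∈ I} {κ // κ ∈ KF}
    (fun m => cap win (cen ρ m.1) ρ) (fun m => gradient h (cen ρ m.1))
    (hcap h hn r hr (2 * A) (by linarith)) (by
      intro m
      have h2 := grad_norm_le hn hh1 (cen ρ m.1)
      have h3 := norm_cen_le hρ hρ1 m.2
      linarith) g hg hg2 w hw1 hw2
    (fun i => (P i.1).z) (fun i => (P i.1).c) (fun i => (P i.1).b) (fun _ => ![s1, s2])
    (fun i => (P i.1).x) (fun i m => (P i.1).S m.1)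
    (fun i => ⟨lab i.1, Finset.mem_image_of_mem lab i.2⟩) (fun κ => bsum h l n0 κ.1)
    (fun i => hP.mem i.1 i.2)
    (by
      intro i j hij
      rcases hP.sep i.1 i.2 j.1 j.2 with h2 | h2 | h2
      · exact absurd h2 hij
      · rw [Prod.dist_eq, dist_eq_norm]; exact le_max_of_le_left h2
      · rw [Prod.dist_eq, Real.dist_eq]; exact le_max_of_le_right h2)
    (fun i m => hP.meas i.1 i.2 m.1)
    (fun m i j hij hz _ => hP.disj i.1 i.2 j.1 j.2 (fun hc => hij (Subtype.ext hc)) hz m.1)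
    (by
      intro i m hne j
      obtain ⟨y, hy⟩ := hne
      have h2 := (hP.box i.1 i.2 m.1 hy).1 j
      refine h2.trans ?_
      have h3 : (0:ℝ) ≤ ![s1, s2] j := by fin_cases j <;> simp [hs1.le, hs2.le]
      nlinarith)
    (by
      intro i m y hy j
      have h2 := (hP.box i.1 i.2 m.1 hy).2 j
      refine h2.trans ?_
      have h3 : (0:ℝ) ≤ ![s1, s2] j * r := by
        fin_cases j
        · simp; positivity
        · simp; positivity
      nlinarith)
    (by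
      intro i j
      fin_cases j
      · simp [hw]
      · simp only [Fin.mk_one, Matrix.cons_val_one, Matrix.cons_val_fin_one]
        rw [hw]
        gcongr
        exact hs.le)
    (by
      intro i j
      fin_cases j
      · simp; exact hs.le.trans hs.hi
      · simp; exact hs.hi)
    (fun i => hP.x i.1 i.2)
    (fun κ => (Continuous.measurable (by
      unfold bsum
      exact continuous_finsetSum _ fun k _ => (contDiff_capf hh.1 l k).continuous)))
    (fun κ => ⟨(blk n0 κ.1).card, fun ξ => by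
      unfold bsum
      refine (norm_sum_le _ _).trans ?_
      calc ∑ k ∈ blk n0 κ.1, ‖capf h l k ξ‖ ≤ ∑ k ∈ blk n0 κ.1, (1:ℝ) :=
            Finset.sum_le_sum fun k _ => norm_capf_le h l k ξ
        _ = _ := by simp⟩)
    (by
      intro i m hne ξ ha hgξ
      obtain ⟨y, hy⟩ := hne
      refine bsum_one hl0 (hgrad ξ hgξ) fun k hk => ?_
      -- distance of the direction to the centre of the plate
      have h2 : ‖gradient h ξ - gradient h (cen ρ m.1)‖ ≤ 2 * s2 := by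
        have h3 := (hcap h hn r hr 2 le_rfl).near m ξ ha
        refine h3.trans ?_
        have : r ^ (-(1/2) : ℝ) ≤ s2 := hs.lo.trans hs.le
        linarith
      have h3 : ‖gradient h (cen ρ m.1) - (P i.1).c‖ ≤ 2 * (A * s2) := by
        refine norm_le_of_inner (P i.1).b _ (by positivity) fun j => ?_
        refine ((hP.box i.1 i.2 m.1 hy).1 j).trans ?_
        have : ![s1, s2] j ≤ s2 := by fin_cases j <;> simp [hs.le]
        exact mul_le_mul_of_nonneg_left this (by linarith)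
      have h4 : ‖gradient h ξ - (P i.1).c‖ ≤ 2 * (1 + A) * s2 := by
        calc ‖gradient h ξ - (P i.1).c‖ = ‖(gradient h ξ - gradient h (cen ρ m.1)) +
              (gradient h (cen ρ m.1) - (P i.1).c)‖ := by rw [sub_add_sub_cancel]
          _ ≤ _ := norm_add_le _ _
          _ ≤ 2 * s2 + 2 * (A * s2) := add_le_add h2 h3
          _ = _ := by ring
      have h5 : ∀ (j : Fin 2) (k : ℤ), |l⁻¹ * gradient h ξ j - k| < 1 →
          |k - ⌊(P i.1).c j / l⌋| ≤ (n0 : ℤ) := by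
        intro j k hk
        have h6 : |gradient h ξ j - (P i.1).c j| ≤ 2 * (1 + A) * s2 := by
          have := PiLp.norm_apply_le (gradient h ξ - (P i.1).c) j
          rw [PiLp.sub_apply, Real.norm_eq_abs] at this
          exact this.trans h4
        have h7 : |l⁻¹ * gradient h ξ j - (P i.1).c j / l| ≤ 48 * (1 + A) := by
          rw [show l⁻¹ * gradient h ξ j - (P i.1).c j / l =
            (gradient h ξ j - (P i.1).c j) / l by rw [div_eq_inv_mul, div_eq_inv_mul, mul_sub],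
            abs_div, abs_of_pos hl0, div_le_iff₀ hl0]
          refine h6.trans (le_of_eq ?_)
          rw [hl]; ring
        have h8 := Int.floor_le ((P i.1).c j / l)
        have h9 := Int.lt_floor_add_one ((P i.1).c j / l)
        have h10 := Nat.le_ceil (48 * (1 + A))
        obtain ⟨h11, h12⟩ := abs_le.1 h7
        obtain ⟨h13, h14⟩ := abs_lt.1 hk
        have h15 : |(((k - ⌊(P i.1).c j / l⌋ : ℤ)) : ℝ)| ≤ ((n0 : ℤ) : ℝ) := by
          push_cast
          rw [hn0, abs_le]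
          push_cast
          constructor <;> linarith
        exact_mod_cast h15
      obtain ⟨h6, h7⟩ := capf_ne hl0 hk
      exact mem_blk.2 ⟨h5 0 k.1 h6, h5 1 k.2 h7⟩)
  -- the left hand side
  have hval : val h g r s1 s2 I P = ∑ i : {i // i ∈ I},
      ENNReal.ofReal (r * (![s1, s2] 0 * ![s1, s2] 1 * r ^ 2) ^ (-(1/2) : ℝ)) *
        en (fun m : {m // m ∈ caps ρ} => cap win (cen ρ m.1) ρ) (tr h (P i.1).z g)
          (fun (i : {i // i ∈ I}) (m : {m // m ∈ caps ρ}) => (P i.1).S m.1) i ^ (3 / 2 : ℝ) := by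
    unfold val
    rw [← Finset.sum_coe_sort I]
    refine Finset.sum_congr rfl fun i _ => ?_
    have e1 := en_eq (ρ := ρ) h (P i.1).z g (fun (i : {i // i ∈ I}) => (P i.1).S) i
    rw [e1, ENNReal.mul_rpow_of_nonneg _ _ (by norm_num), ← mul_assoc]
    congr 1
    rw [ENNReal.ofReal_rpow_of_nonneg hr0.le (by norm_num), ← ENNReal.ofReal_mul (by positivity)]
    congr 1
    simp only [Matrix.cons_val_zero, Matrix.cons_val_one, Matrix.cons_val_fin_one]
    rw [show s1 * s2 * r ^ 3 = (s1 * s2 * r ^ 2) * r by ring,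
      Real.mul_rpow (by positivity) hr0.le, mul_assoc, ← Real.rpow_add hr0]
    norm_num
    ring
  rw [hval]
  refine hbig.trans ?_
  rw [ENNReal.ofReal_mul hC1, mul_assoc]
  gcongr
  -- blocks
  have hGi : ∀ k, Integrable fun ξ => g ξ * capf h l k ξ := fun k =>
    hg.mul_bdd (c := 1) (contDiff_capf hh.1 l k).continuous.aestronglyMeasurable
      (Filter.Eventually.of_forall fun ξ => norm_capf_le h l k ξ)
  have hblk : ∀ κ : {κ // κ ∈ KF}, ∫⁻ p in cyl (2 * R),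
      aw N w h (fun ξ => g ξ * bsum h l n0 κ.1 ξ) p ^ (3 / 2 : ℝ) ≤
      ENNReal.ofReal (b0 ^ 2) * ∑ k ∈ blk n0 κ.1,
        NN N h (fun ξ => g ξ * capf h l k ξ) w (2 * R) := by
    intro κ
    have e2 : (fun ξ => g ξ * bsum h l n0 κ.1 ξ) =
        fun ξ => ∑ k ∈ blk n0 κ.1, g ξ * capf h l k ξ := by
      funext ξ
      unfold bsum
      rw [Finset.mul_sum]
    rw [e2, ← NN_eq]
    refine (NN_fsum_le N hh.1.continuous (blk n0 κ.1) (fun k ξ => g ξ * capf h l k ξ)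
      (fun k _ => hGi k)).trans (le_of_eq ?_)
    rw [card_blk, hb0]
    push_cast
    rfl
  refine (Finset.sum_le_sum fun κ _ => hblk κ).trans ?_
  rw [← Finset.mul_sum, Finset.sum_coe_sort KF fun κ => ∑ k ∈ blk n0 κ,
    NN N h (fun ξ => g ξ * capf h l k ξ) w (2 * R), ENNReal.ofReal_mul (by positivity), mul_assoc]
  gcongr
  refine sum_blocks_le KF _ fun k hk => ?_
  refine NN_zero N h w (2 * R) fun ξ => ?_
  by_cases hξ : g ξ = 0
  · rw [hξ, zero_mul]
  · by_contra hc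
    exact hk (mem_caps_of_ne hl0 (right_ne_zero_of_mul hc) (hgrad ξ hξ))

end Crest.Agent.R138.Sup882
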