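import Crest.Agent.R138.Sm3_858
import Crest.Agent.R138.Sup6_882

/-!
# R138 / R139, wave side (helper858): SUPM, part 4

Many frames; literal form over `W188.Plates`.
-/

set_option autoImplicit false

open MeasureTheory FourierTransform
open scoped ContDiff ENNReal

namespace Crest.Agent.R138.Sm858

open Crest.Agent.R138.Defs Crest.Agent.R138.Wf448
open Crest.Agent.R138.Ker858 (rect volume_rect)
open Crest.Agent.R138.Sup882 (iso U en se dw_iso reg card_sep_le grad_norm_le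
  caps_packet norm_cen_le sides_pos)
open Crest.Agent.R138.Wpk685 (cap win cen caps um)
open Crest.Agent.R138.Bn759 (nearId)
open Crest.Agent.R138.W188 (Plate Plates val Sd tr)
open Crest.Agent.R138.Low448 (fr)

/-- bounded overlap of the frames, general density. -/
theorem sum_framesG {K r R : ℝ} (hr : 0 < r) (hK : 0 ≤ K) (hR : K * r ≤ R)
    (Z : Finset (E2 × ℝ)) (hsep : ∀ x ∈ Z, ∀ y ∈ Z, x ≠ y → r ≤ dist x y)
    (hZ : ∀ x ∈ Z, x ∈ cyl R) (F : E2 × ℝ → ℝ≥0∞) (hm : Measurable F) :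
    ∑ z ∈ Z, ∫⁻ p in reg K r, F (p + z) ≤
      ENNReal.ofReal ((2 * K + 2) ^ 3) * ∫⁻ p in cyl (2 * R), F p := by
  classical
  have hreg : MeasurableSet (reg K r) := Metric.isClosed_closedBall.measurableSet
  have hcyl : MeasurableSet (cyl (2 * R)) := by
    have : cyl (2 * R) = {p : E2 × ℝ | ‖p.1‖ ≤ 2 * R} ∩ {p | |p.2| ≤ 2 * R} := rfl
    rw [this]
    exact (isClosed_le (by fun_prop) continuous_const).measurableSet.inter
      (isClosed_le (by fun_prop) continuous_const).measurableSet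
  have e1 : ∀ z, ∫⁻ p in reg K r, F (p + z)
      = ∫⁻ q, (reg K r).indicator (fun _ => (1 : ℝ≥0∞)) (q - z) * F q := by
    intro z
    rw [← lintegral_indicator hreg, ← lintegral_add_right_eq_self
      (fun q => (reg K r).indicator (fun _ => (1 : ℝ≥0∞)) (q - z) * F q) z]
    refine lintegral_congr fun p => ?_
    rw [add_sub_cancel_right]
    by_cases hp : p ∈ reg K r
    · rw [Set.indicator_of_mem hp, Set.indicator_of_mem hp, one_mul]
    · rw [Set.indicator_of_notMem hp, Set.indicator_of_notMem hp, zero_mul]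
  have hind : ∀ z, Measurable fun q : E2 × ℝ => (reg K r).indicator (fun _ => (1 : ℝ≥0∞)) (q - z) :=
    fun z => (measurable_const.indicator hreg).comp (measurable_id.sub_const z)
  simp_rw [e1]
  have hsum := lintegral_finsetSum (μ := (volume : Measure (E2 × ℝ))) Z
    (f := fun z q => (reg K r).indicator (fun _ => (1 : ℝ≥0∞)) (q - z) * F q)
    (fun z _ => (hind z).mul hm)
  rw [← hsum, ← lintegral_const_mul _ hm, ← lintegral_indicator hcyl]
  refine lintegral_mono fun q => ?_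
  rw [← Finset.sum_mul]
  by_cases hq : q ∈ cyl (2 * R)
  · rw [Set.indicator_of_mem hq]
    gcongr
    have h1 : ∑ z ∈ Z, (reg K r).indicator (fun _ => (1 : ℝ≥0∞)) (q - z)
        = ((Z.filter fun z => q - z ∈ reg K r).card : ℝ≥0∞) := by
      rw [Finset.card_filter]
      push_cast
      refine Finset.sum_congr rfl fun z _ => ?_
      by_cases hz : q - z ∈ reg K r
      · simp [hz]
      · simp [hz]
    rw [h1, ← ENNReal.ofReal_natCast]
    refine ENNReal.ofReal_le_ofReal ?_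
    refine card_sep_le hr hK _ ?_ q ?_
    · intro x hx y hy
      exact hsep x (Finset.mem_filter.1 hx).1 y (Finset.mem_filter.1 hy).1
    · intro x hx
      have := (Finset.mem_filter.1 hx).2
      rw [reg, mem_closedBall_zero_iff] at this
      rw [dist_comm, dist_eq_norm]; exact this
  · rw [Set.indicator_of_notMem hq]
    refine le_of_eq ?_
    rw [Finset.sum_eq_zero, zero_mul]
    intro z hz
    rw [Set.indicator_of_notMem]
    intro hcon
    apply hq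
    rw [reg, mem_closedBall_zero_iff, Prod.norm_def, max_le_iff] at hcon
    have hz2 := hZ z hz
    have h3 : ‖q.1‖ ≤ ‖(q - z).1‖ + ‖z.1‖ := by
      calc ‖q.1‖ = ‖(q.1 - z.1) + z.1‖ := by rw [sub_add_cancel]
        _ ≤ _ := norm_add_le _ _
    have h4 : |q.2| ≤ |(q - z).2| + |z.2| := by
      calc |q.2| = |(q.2 - z.2) + z.2| := by rw [sub_add_cancel]
        _ ≤ _ := abs_add_le _ _
    have h5 : |(q - z).2| ≤ K * r := by simpa using hcon.2
    constructor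
    · linarith [hcon.1, hz2.1]
    · linarith [hz2.2]

open Classical in
/-- **SUPM, many frames, abstract form.** -/
theorem frames_mult (N : ℕ) {A CG V X : ℝ} (hA : 0 ≤ A) (hCG : 0 ≤ CG) (hV : 0 ≤ V) (hX : 0 ≤ X) :
    ∃ C : ℝ, 0 ≤ C ∧ ∀ r w R : ℝ, 1 ≤ r → (X + 2 * A + V + 1) * r ≤ R → r ^ (1 / 2 : ℝ) ≤ w →
    w ≤ r → ∀ (ι I K : Type) [Fintype ι] [Fintype I] [Fintype K] (a : ι → E2 → ℂ) (v : ι → E2),
    (∀ m, ContDiff ℝ ∞ (a m)) → (∀ m, HasCompactSupport (a m)) → (∀ m, ‖v m‖ ≤ V) →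
    ∀ γ : E2 × ℝ → E2 → ℂ, (∀ ζ, Integrable (γ ζ)) →
    ∀ (z : I → E2 × ℝ) (c : I → E2) (b : I → OrthonormalBasis (Fin 2) ℝ E2) (s : I → Fin 2 → ℝ)
      (x0 : I → E2) (S : I → ι → Set E2) (κ : I → K),
    (∀ i, z i ∈ cyl R) → (∀ i j, z i ≠ z j → r ≤ dist (z i) (z j)) →
    (∀ i m, MeasurableSet (S i m)) →
    (∀ i m, (S i m).Nonempty → ∀ j, |inner ℝ (v m - c i) (b i j)| ≤ A * s i j) →
    (∀ i m, ∀ y ∈ S i m, ∀ j, |inner ℝ (y - x0 i) (b i j)| ≤ A * (s i j * r)) →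
    (∀ i, r ^ (1 / 2 : ℝ) ≤ s i 0 * r) → (∀ i, w ≤ s i 1 * r) → (∀ i j, 0 < s i j) →
    (∀ i j, s i j ≤ 1) → (∀ i, ‖x0 i‖ ≤ X * r) →
    ∀ G : K → E2 × ℝ → ℝ≥0∞, (∀ k, Measurable (G k)) →
    (∀ k x x' t, G k (x, t) ≤ ENNReal.ofReal (CG * (1 + ‖x - x'‖ / w) ^ (2 * N)) * G k (x', t)) →
    (∀ k ζ x t, |t| ≤ r → ∑ i with κ i = k ∧ z i = ζ, se N w a v (γ ζ) S i x t ≤
      ENNReal.ofReal (CG * w ^ 2) * G k ((x, t) + ζ)) →
    ∀ Mu τ : ℝ, 0 ≤ Mu → 0 ≤ τ →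
    (∀ i x t, |t| ≤ r → x ∈ rect (x0 i - t • c i) (b i) (fun j => s i j * r) (2 + 2 * A) →
      seT (N + 2) (fr (b i) ![r ^ (1 / 2 : ℝ), w]) a v (γ (z i)) (S i) x t ≤
        ENNReal.ofReal (r ^ (1 / 2 : ℝ) * w) *
          (ENNReal.ofReal Mu * G (κ i) ((x, t) + z i) + ENNReal.ofReal τ)) →
    ∑ i, ENNReal.ofReal (r * (s i 0 * s i 1 * r ^ 2) ^ (-(1/2) : ℝ)) *
        en a (γ (z i)) S i ^ (3 / 2 : ℝ) ≤
      ENNReal.ofReal (C * Mu ^ (1 / 2 : ℝ)) * (∑ k, ∫⁻ p in cyl (2 * R), G k p ^ (3 / 2 : ℝ)) +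
        ENNReal.ofReal (C * τ ^ (1 / 2 : ℝ)) *
          (ENNReal.ofReal r * ∑ i, en a (γ (z i)) S i) := by
  obtain ⟨C1, hC1, h1⟩ := frame_mult N hA hCG
  set K0 : ℝ := X + 2 * A + V + 1 with hK0
  have hK01 : 1 ≤ K0 := by rw [hK0]; linarith
  refine ⟨C1 * (2 * K0 + 2) ^ 3, by positivity, ?_⟩
  intro r w R hr hR hw hwr ι I K _ _ _ a v hsm hcp hv γ hγ z c b s x0 S κ hz hsep hmeas
    hdir hpos hus hws hs0 hs1 hx0 G hG hsl hsum Mu τ hMu hτ hH
  have hr0 : 0 < r := by linarith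
  have hreg : MeasurableSet (reg K0 r) := Metric.isClosed_closedBall.measurableSet
  have hK3 : 1 ≤ (2 * K0 + 2) ^ 3 := one_le_pow₀ (by linarith)
  -- sums over a class
  have hJ : ∀ (k : K) (ζ : E2 × ℝ) (f : I → ℝ≥0∞), ∑ i : {i : I // κ i = k ∧ z i = ζ}, f i.1 =
      ∑ i with κ i = k ∧ z i = ζ, f i := by
    intro k ζ f
    symm
    refine Finset.sum_subtype _ ?_ f
    intro i
    simp only [Finset.mem_filter, Finset.mem_univ, true_and]
  -- one frame and one cap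
  have hone : ∀ (k : K) (ζ : E2 × ℝ),
      ∑ i with κ i = k ∧ z i = ζ,
        ENNReal.ofReal (r * (s i 0 * s i 1 * r ^ 2) ^ (-(1/2) : ℝ)) *
        en a (γ (z i)) S i ^ (3 / 2 : ℝ) ≤
      ENNReal.ofReal (C1 * Mu ^ (1 / 2 : ℝ)) * (∫⁻ p in reg K0 r, G k (p + ζ) ^ (3 / 2 : ℝ)) +
        ENNReal.ofReal (C1 * τ ^ (1 / 2 : ℝ)) * (ENNReal.ofReal r *
          ∑ i with κ i = k ∧ z i = ζ, en a (γ (z i)) S i) := by
    intro k ζ
    have h2 := h1 r w hr hw ι {i : I // κ i = k ∧ z i = ζ} a v hsm hcp (γ ζ) (hγ ζ)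
      (fun i => c i.1) (fun i => b i.1) (fun i => s i.1) (fun i => x0 i.1) (fun i => S i.1)
      (fun i => hmeas i.1) (fun i => hdir i.1) (fun i => hpos i.1) (fun i => hus i.1)
      (fun i => hws i.1) (fun i => hs0 i.1) (reg K0 r) hreg
      (by
        intro i m y hy t ht x hx
        rw [reg, mem_closedBall_zero_iff, Prod.norm_def, max_le_iff]
        rw [mem_closedBall_iff_norm] at hx
        have hy1 : ‖y - x0 i.1‖ ≤ 2 * (A * r) := by
          refine Sup882.norm_le_of_inner (b i.1) _ (by positivity) fun j => ?_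
          refine (hpos i.1 m y hy j).trans ?_
          gcongr
          exact mul_le_of_le_one_left hr0.le (hs1 _ _)
        constructor
        · calc ‖x‖ = ‖(x - (y - t • v m)) + (y - x0 i.1) + x0 i.1 - t • v m‖ := by
                congr 1; abel
            _ ≤ ‖(x - (y - t • v m)) + (y - x0 i.1) + x0 i.1‖ + ‖t • v m‖ := norm_sub_le _ _
            _ ≤ (‖x - (y - t • v m)‖ + ‖y - x0 i.1‖ + ‖x0 i.1‖) + |t| * ‖v m‖ := by
                rw [norm_smul, Real.norm_eq_abs]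
                gcongr
                exact norm_add₃_le
            _ ≤ (w + 2 * (A * r) + X * r) + r * V := by
                gcongr
                · exact hx0 _
                · exact hv m
            _ ≤ K0 * r := by rw [hK0]; nlinarith
        · calc ‖((x, t) : E2 × ℝ).2‖ = |t| := rfl
            _ ≤ r := ht
            _ ≤ K0 * r := by nlinarith)
      (fun p => G k (p + ζ)) ((hG k).comp (measurable_id.add_const ζ))
      (by
        intro x x' t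
        have h3 := hsl k (x + ζ.1) (x' + ζ.1) (t + ζ.2)
        rw [add_sub_add_right_eq_sub] at h3
        exact h3)
      (by
        intro x t ht
        refine le_trans (le_of_eq ?_) (hsum k ζ x t ht)
        exact hJ k ζ fun i => se N w a v (γ ζ) S i x t)
      Mu τ hMu hτ
      (by
        intro i x t ht hx
        have h3 := hH i.1 x t ht hx
        rw [i.2.1, i.2.2] at h3
        exact h3)
    have e1 : ∀ f : I → ℝ≥0∞ → ℝ≥0∞, ∑ i with κ i = k ∧ z i = ζ, f i (en a (γ (z i)) S i) =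
        ∑ i : {i : I // κ i = k ∧ z i = ζ}, f i.1 (en a (γ ζ) S i.1) := by
      intro f
      rw [hJ k ζ fun i => f i (en a (γ ζ) S i)]
      refine Finset.sum_congr rfl fun i hi => ?_
      rw [(Finset.mem_filter.1 hi).2.2]
    have e2 := e1 fun i x => ENNReal.ofReal (r * (s i 0 * s i 1 * r ^ 2) ^ (-(1/2) : ℝ)) *
      x ^ (3 / 2 : ℝ)
    have e3 := e1 fun _ x => x
    rw [e2, e3]
    exact h2
  -- sum over the frames and caps
  set Z : Finset (E2 × ℝ) := Finset.univ.image z with hZ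
  have hsplit : ∀ f : I → ℝ≥0∞, ∑ i, f i =
      ∑ k : K, ∑ ζ ∈ Z, ∑ i with κ i = k ∧ z i = ζ, f i := by
    intro f
    rw [← Finset.sum_fiberwise Finset.univ κ f]
    refine Finset.sum_congr rfl fun k _ => ?_
    have h3 := Finset.sum_fiberwise_of_maps_to (s := Finset.univ.filter fun i => κ i = k) (t := Z)
      (g := z) (fun i _ => Finset.mem_image_of_mem z (Finset.mem_univ i)) f
    rw [← h3]
    refine Finset.sum_congr rfl fun ζ _ => ?_
    rw [Finset.filter_filter]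
  rw [hsplit fun i => ENNReal.ofReal (r * (s i 0 * s i 1 * r ^ 2) ^ (-(1/2) : ℝ)) *
        en a (γ (z i)) S i ^ (3 / 2 : ℝ), hsplit fun i => en a (γ (z i)) S i]
  have hfr : ∀ k : K, ∑ ζ ∈ Z, ∫⁻ p in reg K0 r, G k (p + ζ) ^ (3 / 2 : ℝ) ≤
      ENNReal.ofReal ((2 * K0 + 2) ^ 3) * ∫⁻ p in cyl (2 * R), G k p ^ (3 / 2 : ℝ) := by
    intro k
    refine sum_framesG hr0 (by linarith) hR Z ?_ ?_ (fun p => G k p ^ (3 / 2 : ℝ))
      ((hG k).pow_const _)
    · intro x hx y hy hxy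
      obtain ⟨i, -, rfl⟩ := Finset.mem_image.1 hx
      obtain ⟨j, -, rfl⟩ := Finset.mem_image.1 hy
      exact hsep i j hxy
    · intro x hx
      obtain ⟨i, -, rfl⟩ := Finset.mem_image.1 hx
      exact hz i
  calc ∑ k : K, ∑ ζ ∈ Z, ∑ i with κ i = k ∧ z i = ζ,
        ENNReal.ofReal (r * (s i 0 * s i 1 * r ^ 2) ^ (-(1/2) : ℝ)) *
        en a (γ (z i)) S i ^ (3 / 2 : ℝ)
      ≤ ∑ k : K, ∑ ζ ∈ Z, (ENNReal.ofReal (C1 * Mu ^ (1 / 2 : ℝ)) *
          (∫⁻ p in reg K0 r, G k (p + ζ) ^ (3 / 2 : ℝ)) +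
        ENNReal.ofReal (C1 * τ ^ (1 / 2 : ℝ)) * (ENNReal.ofReal r *
          ∑ i with κ i = k ∧ z i = ζ, en a (γ (z i)) S i)) :=
        Finset.sum_le_sum fun k _ => Finset.sum_le_sum fun ζ _ => hone k ζ
    _ = ENNReal.ofReal (C1 * Mu ^ (1 / 2 : ℝ)) *
          (∑ k : K, ∑ ζ ∈ Z, ∫⁻ p in reg K0 r, G k (p + ζ) ^ (3 / 2 : ℝ)) +
        ENNReal.ofReal (C1 * τ ^ (1 / 2 : ℝ)) * (ENNReal.ofReal r *
          ∑ k : K, ∑ ζ ∈ Z, ∑ i with κ i = k ∧ z i = ζ, en a (γ (z i)) S i) := by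
        simp only [Finset.sum_add_distrib, Finset.mul_sum]
    _ ≤ ENNReal.ofReal (C1 * Mu ^ (1 / 2 : ℝ)) *
          (∑ k : K, ENNReal.ofReal ((2 * K0 + 2) ^ 3) *
            ∫⁻ p in cyl (2 * R), G k p ^ (3 / 2 : ℝ)) +
        ENNReal.ofReal (C1 * (2 * K0 + 2) ^ 3 * τ ^ (1 / 2 : ℝ)) * (ENNReal.ofReal r *
          ∑ k : K, ∑ ζ ∈ Z, ∑ i with κ i = k ∧ z i = ζ, en a (γ (z i)) S i) := by
        gcongr with k _
        · exact hfr k
        · exact le_mul_of_one_le_right hC1 hK3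
    _ = _ := by
        rw [← Finset.mul_sum, ← mul_assoc, ← ENNReal.ofReal_mul (by positivity)]
        congr 3
        ring

/-- local energy of a selection of packets of level `r`, weight `T`. -/
noncomputable def seP (n : ℕ) (T : E2 →L[ℝ] E2) (h : E2 → ℝ) (r : ℝ) (g : E2 → ℂ)
    (S : ℤ × ℤ → Set E2) (x : E2) (t : ℝ) : ℝ≥0∞ :=
  ∑ m ∈ caps (r ^ (-(1/2) : ℝ)), ∫⁻ y in S m,
    ENNReal.ofReal (dw n T (y - (x + t • gradient h (cen (r ^ (-(1/2) : ℝ)) m)))) *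
      ‖um (r ^ (-(1/2) : ℝ)) g m y‖ₑ ^ 2

theorem U_eq (ρ : ℝ) (g : E2 → ℂ) (m : ℤ × ℤ) (y : E2) :
    U (cap win (cen ρ m) ρ) g y = ‖um ρ g m y‖ₑ ^ 2 := by
  unfold U um
  rw [ENNReal.ofReal_pow (norm_nonneg _), ofReal_norm]

theorem seP_eq (n : ℕ) (T : E2 →L[ℝ] E2) (h : E2 → ℝ) (r : ℝ) (g : E2 → ℂ)
    (S : ℤ × ℤ → Set E2) (x : E2) (t : ℝ) :
    seP n T h r g S x t = seT n T
      (fun m : {m // m ∈ caps (r ^ (-(1/2) : ℝ))} =>
        cap win (cen (r ^ (-(1/2) : ℝ)) m.1) (r ^ (-(1/2) : ℝ)))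
      (fun m => gradient h (cen (r ^ (-(1/2) : ℝ)) m.1)) g (fun m => S m.1) x t := by
  unfold seP seT
  rw [← Finset.sum_coe_sort (caps (r ^ (-(1/2) : ℝ)))]
  refine Finset.sum_congr rfl fun m _ => ?_
  refine lintegral_congr fun y => ?_
  rw [U_eq]

theorem enP_eq (r : ℝ) (g : E2 → ℂ) (S : ℤ × ℤ → Set E2) :
    Wpk685.en (r ^ (-(1/2) : ℝ)) g S = en1
      (fun m : {m // m ∈ caps (r ^ (-(1/2) : ℝ))} =>
        cap win (cen (r ^ (-(1/2) : ℝ)) m.1) (r ^ (-(1/2) : ℝ))) g (fun m => S m.1) := by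
  unfold Wpk685.en en1
  rw [← Finset.sum_coe_sort (caps (r ^ (-(1/2) : ℝ)))]
  refine Finset.sum_congr rfl fun m _ => ?_
  refine lintegral_congr fun y => ?_
  rw [U_eq]

theorem tr_eq (h : E2 → ℝ) (z : E2 × ℝ) (g : E2 → ℂ) : W188.tr h z g = Sup882.tr h z g := rfl

open Classical in
/-- **SUPM**: plates against local densities, with a multiplicity. -/
theorem SUPM (B : ℕ → ℝ) (hB : B 2 ≤ 1 / 10) (A : ℝ) (hA : 1 ≤ A) (N : ℕ) (CG : ℝ)
    (hCG : 0 ≤ CG) :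
    ∃ C : ℝ, 0 ≤ C ∧ ∀ h : E2 → ℝ, ParB B h → fderiv ℝ h 0 = 0 →
    ∀ g : E2 → ℂ, Integrable g →
    ∀ r s1 s2 w R : ℝ, 1 ≤ r → (3 * A + 8) * r ≤ R → Sd r s1 s2 → r ^ (1 / 2 : ℝ) ≤ w → w ≤ s2 * r →
    ∀ (I : Finset ℕ) (P : ℕ → Plate), Plates A h r s1 s2 R I P →
    ∀ (κ : Type) (K : Finset κ) (lab : ℕ → κ), (∀ i ∈ I, lab i ∈ K) →
    ∀ G : κ → E2 × ℝ → ℝ≥0∞, (∀ k ∈ K, Measurable (G k)) →
    (∀ k ∈ K, ∀ x x' t, G k (x, t) ≤
      ENNReal.ofReal (CG * (1 + ‖x - x'‖ / w) ^ (2 * N)) * G k (x', t)) →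
    (∀ k ∈ K, ∀ ζ ∈ cyl R, ∀ x t, |t| ≤ r → ∑ i ∈ I with lab i = k ∧ (P i).z = ζ,
      seP N (iso w) h r (tr h ζ g) (P i).S x t ≤ ENNReal.ofReal (CG * w ^ 2) * G k ((x, t) + ζ)) →
    ∀ Mu τ : ℝ, 0 ≤ Mu → 0 ≤ τ →
    (∀ i ∈ I, ∀ x t, |t| ≤ r →
      x ∈ rect ((P i).x - t • (P i).c) (P i).b (fun j => ![s1, s2] j * r) (2 + 2 * A) →
      seP (N + 2) (fr (P i).b ![r ^ (1 / 2 : ℝ), w]) h r (tr h (P i).z g) (P i).S x t ≤
        ENNReal.ofReal (r ^ (1 / 2 : ℝ) * w) *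
          (ENNReal.ofReal Mu * G (lab i) ((x, t) + (P i).z) + ENNReal.ofReal τ)) →
    val h g r s1 s2 I P ≤
      ENNReal.ofReal (C * Mu ^ (1 / 2 : ℝ)) * (∑ k ∈ K, ∫⁻ p in cyl (2 * R), G k p ^ (3 / 2 : ℝ)) +
        ENNReal.ofReal (C * τ ^ (1 / 2 : ℝ)) * (ENNReal.ofReal r *
          ∑ i ∈ I, Wpk685.en (r ^ (-(1/2) : ℝ)) (tr h (P i).z g) (P i).S) := by
  obtain ⟨C, hC, h1⟩ := frames_mult N (A := A) (CG := CG) (V := 7) (X := A)
    (by linarith) hCG (by norm_num) (by linarith)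
  obtain ⟨W, hW1, hcap⟩ := caps_packet 0
  refine ⟨C, hC, ?_⟩
  intro h hh hh1 g hg r s1 s2 w R hr hR' hs hw hws2 I P hP κ K lab hlab G hG hsl hsum Mu τ hMu hτ hH
  have hn := nearId hB hh
  have hr0 : 0 < r := by linarith
  have hR : (A + 2 * A + 7 + 1) * r ≤ R := by
    rwa [show A + 2 * A + 7 + 1 = 3 * A + 8 by ring]
  obtain ⟨hs1, hs2⟩ := sides_pos hr hs
  set ρ : ℝ := r ^ (-(1/2) : ℝ) with hρdef
  have hρ : 0 < ρ := Real.rpow_pos_of_pos hr0 _
  have hρ1 : ρ ≤ 1 := Real.rpow_le_one_of_one_le_of_nonpos hr (by norm_num)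
  have hwr : w ≤ r := hws2.trans (mul_le_of_le_one_left hr0.le hs.hi)
  have hcaps := hcap h hn r hr 2 le_rfl
  have hsj : ∀ j : Fin 2, 0 < ![s1, s2] j := by
    intro j; fin_cases j <;> simp [hs1, hs2]
  have hsj1 : ∀ j : Fin 2, ![s1, s2] j ≤ 1 := by
    intro j; fin_cases j
    · simp; exact hs.le.trans hs.hi
    · simp; exact hs.hi
  have hfil : ∀ (k : {k // k ∈ K}) (ζ : E2 × ℝ) (f : ℕ → ℝ≥0∞),
      ∑ i : {i // i ∈ I} with (⟨lab i.1, hlab i.1 i.2⟩ : {k // k ∈ K}) = k ∧ (P i.1).z = ζ, f i.1 =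
      ∑ i ∈ I with lab i = k.1 ∧ (P i).z = ζ, f i := by
    intro k ζ f
    rw [Finset.sum_filter, Finset.sum_filter, ← Finset.sum_coe_sort I
      (fun i => if lab i = k.1 ∧ (P i).z = ζ then f i else 0)]
    refine Finset.sum_congr rfl fun i _ => ?_
    simp only [Subtype.ext_iff]
  have hbig := h1 r w R hr hR hw hwr {m // m ∈ caps ρ} {i // i ∈ I} {k // k ∈ K}
    (fun m => cap win (cen ρ m.1) ρ) (fun m => gradient h (cen ρ m.1)) hcaps.smooth hcaps.cpt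
    (by
      intro m
      have h2 := grad_norm_le hn hh1 (cen ρ m.1)
      have h3 := norm_cen_le hρ hρ1 m.2
      linarith)
    (fun ζ => tr h ζ g) (fun ζ => Sup882.tr_integrable hh.1.continuous ζ hg)
    (fun i => (P i.1).z) (fun i => (P i.1).c) (fun i => (P i.1).b) (fun _ => ![s1, s2])
    (fun i => (P i.1).x) (fun i m => (P i.1).S m.1)
    (fun i => ⟨lab i.1, hlab i.1 i.2⟩)
    (fun i => hP.mem i.1 i.2)
    (by
      intro i j hij
      rcases hP.sep i.1 i.2 j.1 j.2 with h2 | h2 | h2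
      · exact absurd h2 hij
      · rw [Prod.dist_eq, dist_eq_norm]; exact le_max_of_le_left h2
      · rw [Prod.dist_eq, Real.dist_eq]; exact le_max_of_le_right h2)
    (fun i m => hP.meas i.1 i.2 m.1)
    (by
      intro i m hne j
      obtain ⟨y, hy⟩ := hne
      exact (hP.box i.1 i.2 m.1 hy).1 j)
    (by
      intro i m y hy j
      refine ((hP.box i.1 i.2 m.1 hy).2 j).trans (le_of_eq ?_)
      ring)
    (by
      intro i
      show r ^ (1 / 2 : ℝ) ≤ s1 * r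
      calc r ^ (1 / 2 : ℝ) = r ^ (-(1/2) : ℝ) * r := by
            rw [← Real.rpow_add_one hr0.ne']; norm_num
        _ ≤ s1 * r := by
            gcongr
            exact hs.lo)
    (fun i => hws2)
    (fun i j => hsj j) (fun i j => hsj1 j)
    (fun i => hP.x i.1 i.2)
    (fun k => G k.1) (fun k => hG k.1 k.2)
    (fun k x x' t => hsl k.1 k.2 x x' t)
    (by
      intro k ζ x t ht
      have e4 : ∀ i : {i // i ∈ I}, se N w (fun m : {m // m ∈ caps ρ} => cap win (cen ρ m.1) ρ)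
          (fun m => gradient h (cen ρ m.1)) (tr h ζ g)
          (fun (i : {i // i ∈ I}) (m : {m // m ∈ caps ρ}) => (P i.1).S m.1) i x t =
          seP N (iso w) h r (tr h ζ g) (P i.1).S x t := fun i => (seP_eq _ _ _ _ _ _ _ _).symm
      have h6 := hfil k ζ fun i => seP N (iso w) h r (tr h ζ g) (P i).S x t
      have h7 : ∑ i ∈ I with lab i = k.1 ∧ (P i).z = ζ, seP N (iso w) h r (tr h ζ g) (P i).S x t ≤
          ENNReal.ofReal (CG * w ^ 2) * G k.1 ((x, t) + ζ) := by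
        by_cases hζ : ζ ∈ cyl R
        · exact hsum k.1 k.2 ζ hζ x t ht
        · rw [Finset.sum_eq_zero]
          · exact zero_le
          · intro i hi
            have h5 := Finset.mem_filter.1 hi
            exact absurd (h5.2.2 ▸ hP.mem i h5.1) hζ
      rw [← h6] at h7
      refine le_trans (le_of_eq ?_) h7
      refine Finset.sum_congr ?_ fun i _ => e4 i
      ext i
      simp only [Finset.mem_filter])
    Mu τ hMu hτ
    (by
      intro i x t ht hx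
      have h2 := hH i.1 i.2 x t ht hx
      rw [seP_eq] at h2
      exact h2)
  have hval : val h g r s1 s2 I P = ∑ i : {i // i ∈ I},
      ENNReal.ofReal (r * (![s1, s2] 0 * ![s1, s2] 1 * r ^ 2) ^ (-(1/2) : ℝ)) *
        en (fun m : {m // m ∈ caps ρ} => cap win (cen ρ m.1) ρ) (tr h (P i.1).z g)
          (fun (i : {i // i ∈ I}) (m : {m // m ∈ caps ρ}) => (P i.1).S m.1) i ^ (3 / 2 : ℝ) := by
    unfold val
    rw [← Finset.sum_coe_sort I]
    refine Finset.sum_congr rfl fun i _ => ?_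
    rw [en_eq1, ← enP_eq r (tr h (P i.1).z g) (P i.1).S,
      ENNReal.mul_rpow_of_nonneg _ _ (by norm_num), ← mul_assoc]
    congr 1
    rw [ENNReal.ofReal_rpow_of_nonneg hr0.le (by norm_num), ← ENNReal.ofReal_mul (by positivity)]
    congr 1
    simp only [Matrix.cons_val_zero, Matrix.cons_val_one, Matrix.cons_val_fin_one]
    rw [show s1 * s2 * r ^ 3 = (s1 * s2 * r ^ 2) * r by ring,
      Real.mul_rpow (by positivity) hr0.le, mul_assoc, ← Real.rpow_add hr0]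
    norm_num
    ring
  have hsumen : ∑ i ∈ I, Wpk685.en ρ (tr h (P i).z g) (P i).S =
      ∑ i : {i // i ∈ I}, en (fun m : {m // m ∈ caps ρ} => cap win (cen ρ m.1) ρ)
        (tr h (P i.1).z g)
        (fun (i : {i // i ∈ I}) (m : {m // m ∈ caps ρ}) => (P i.1).S m.1) i := by
    rw [← Finset.sum_coe_sort I]
    refine Finset.sum_congr rfl fun i _ => ?_
    rw [en_eq1]
    exact enP_eq r (tr h (P i.1).z g) (P i.1).S
  have hsumG : ∑ k ∈ K, ∫⁻ p in cyl (2 * R), G k p ^ (3 / 2 : ℝ) =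
      ∑ k : {k // k ∈ K}, ∫⁻ p in cyl (2 * R), G k.1 p ^ (3 / 2 : ℝ) :=
    (Finset.sum_coe_sort K fun k => ∫⁻ p in cyl (2 * R), G k p ^ (3 / 2 : ℝ)).symm
  rw [hval, hsumen, hsumG]
  exact hbig

end Crest.Agent.R138.Sm858
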