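import Crest.Agent.R138.Up2_448
import Crest.Agent.R138.Ad_480

/-!
# R138 / R139: UPPER (F3), slab orthogonality (helper448), part 3

`upper_rep`, `upper_sel`: the energy of a cap of size `ρ'` of a selected wave `tr h z (sel ρ g S)` on
a slab `(1/ρ' in b 0) × (1/ρ in b 1)` is at most `(ρ/ρ')·ρ⁻²·(ν + tail)` times the density `Ad` of
the selected packets, where `ν` bounds the number of active caps of size `ρ` in a strip.
-/

set_option autoImplicit false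

open MeasureTheory FourierTransform
open scoped ContDiff ENNReal InnerProductSpace

namespace Crest.Agent.R138.Up448

open Crest.Agent.R138.Defs Crest.Agent.R138.Wpk685
open Crest.Agent.R138.Wf448 (wE sl adj dw dw_pos gw)
open Crest.Agent.R138.W188 (tr)
open Crest.Agent.R138.Loc878
open Crest.Agent.R138.Ad480 (wa wa_pos wa_le_one wa_shift wa_cont Ac Ad)

theorem SV_wa {ρ : ℝ} (hρ : 0 ≤ ρ) (n : ℕ) (c : E2) : SV ρ 1 n (fun x => wa ρ n (x - c)) where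
  meas := ((wa_cont hρ n).comp (continuous_id.sub continuous_const)).measurable
  pos := fun x => wa_pos hρ n _
  sv := by
    intro x y
    rw [one_mul]
    refine wa_shift hρ (by positivity) n ?_
    have e : y - c - (x - c) = -(x - y) := by abel
    rw [e, norm_neg]

theorem dw_iso_le_wa (n : ℕ) {ρ : ℝ} (hρ : 0 ≤ ρ) (v : E2) :
    dw n (iso ρ) v ≤ 2 ^ n * wa ρ n v := by
  rw [dw_iso]
  unfold wa
  rw [norm_smul, Real.norm_eq_abs, abs_of_nonneg hρ]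
  have hu : 0 ≤ ρ * ‖v‖ := by positivity
  rw [← div_eq_mul_inv, inv_eq_one_div, div_le_div_iff₀ (by positivity) (by positivity), one_mul,
    ← mul_pow]
  refine pow_le_pow_left₀ (by positivity) ?_ n
  nlinarith [sq_nonneg (ρ * ‖v‖ - 1 / 2)]

/-- one represented piece in one larger cap. -/
theorem one_rep (B : ℕ → ℝ) (n : ℕ) (L : ℝ) (hL : 1 ≤ L) : ∃ C : ℝ, 0 ≤ C ∧ ∀ h, ParB B h →
    ∀ (ρ ρ' A : ℝ) (w : E2 → ℝ), 0 < ρ → ρ ≤ ρ' → ρ ≤ 1 → SV ρ A n w →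
    ∀ (m : ℤ × ℤ) (G v : E2 → ℂ), Rep ρ (cen ρ m) G v →
    ∀ z : E2 × ℝ, |z.2| * ρ ^ 2 ≤ L → ∀ m' : ℤ × ℤ,
    WE w (fun ξ => cap win (cen ρ' m') ρ' ξ * tr h z G ξ) ≤
      ENNReal.ofReal (C * A ^ 5) * ∫⁻ y,
        ENNReal.ofReal (w (y - z.1 - z.2 • gradient h (cen ρ m))) * ‖v y‖ₑ ^ 2 := by
  obtain ⟨C2, hC2, h2⟩ := sv_transport B n L hL
  obtain ⟨C3, hC3, h3⟩ := sv_mult n
  obtain ⟨C4, hC4, h4⟩ := rep_energy n
  obtain ⟨K, hK, hwin⟩ := win_kbound (n + 2)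
  refine ⟨C2 * (C3 * K ^ 2 * C4), by positivity, ?_⟩
  intro h hh ρ ρ' A w hρ hρ' hρ1 hw m G v hR z hz m'
  have hA := hw.one_le
  have hpos' : 0 < ρ' := lt_of_lt_of_le hρ hρ'
  have hhc : Continuous h := hh.1.continuous
  set G' : E2 → ℂ := fun ξ => cap win (cen ρ' m') ρ' ξ * G ξ with hG'
  have hG'i : Integrable G' := win_int hR.int m'
  have hG'2 : MemLp G' 2 := win_l2 hR.l2 m'
  have hG's : ∀ ξ, G' ξ ≠ 0 → ‖ξ - cen ρ m‖ ≤ 3 / 2 * ρ := fun ξ hξ =>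
    hR.supp ξ (right_ne_zero_of_mul hξ)
  have e1 : WE w (fun ξ => cap win (cen ρ' m') ρ' ξ * tr h z G ξ) =
      WE (fun x => w (x - z.1)) (sl h G' z.2) := by
    refine WE_modulate w z.1 fun ξ => ?_
    simp only [hG', sl, tr]
    rw [ee_add]
    ring
  rw [e1]
  have hw1 := hw.comp_sub z.1
  have a2 := h2 h hh ρ A _ hρ hρ1 hw1 (cen ρ m) G' hG'i hG'2
    (fun ξ hξ => (hG's ξ hξ).trans (by linarith)) 0 z.2 hz
  rw [zero_add, sl_zero] at a2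
  have hw2 : SV ρ A n (fun x => w (x - z.2 • gradient h (cen ρ m) - z.1)) :=
    hw1.comp_sub (z.2 • gradient h (cen ρ m))
  have a3 := h3 ρ A _ hρ hw2 (cap win (cen ρ' m') ρ') G K hK
    (temperate_cap win_contDiff (fun ζ hζ => win_zero' hζ) _ hpos')
    (fun j hj ξ => hwin ρ ρ' hρ hρ' m' j hj ξ) hR.int hR.l2
  have a4 := h4 ρ A _ hρ hρ1 hw2 (cen ρ m) G v hR
  have e5 : ∀ y : E2, y - z.1 - z.2 • gradient h (cen ρ m) =
      y - z.2 • gradient h (cen ρ m) - z.1 := by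
    intro y; abel
  simp only [e5]
  have e3 : C2 * (C3 * K ^ 2 * C4) * A ^ 5 =
      (C2 * A ^ 2) * ((C3 * A ^ 2 * K ^ 2) * (C4 * A)) := by ring
  rw [e3, ENNReal.ofReal_mul (p := C2 * A ^ 2) (by positivity),
    mul_assoc (ENNReal.ofReal (C2 * A ^ 2))]
  refine a2.trans (mul_le_mul' le_rfl (a3.trans ?_))
  rw [ENNReal.ofReal_mul (p := C3 * A ^ 2 * K ^ 2) (by positivity),
    mul_assoc (ENNReal.ofReal (C3 * A ^ 2 * K ^ 2))]
  exact mul_le_mul' le_rfl a4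

set_option maxHeartbeats 800000 in
/-- **UPPER**, a wave given by represented pieces. -/
theorem upper_rep (B : ℕ → ℝ) (n : ℕ) (L : ℝ) (hL : 1 ≤ L) : ∃ C : ℝ, 0 ≤ C ∧ ∀ h, ParB B h →
    ∀ (ρ ρ' : ℝ), 0 < ρ → ρ ≤ ρ' → ρ ≤ 1 → ∀ (b : OrthonormalBasis (Fin 2) ℝ E2) (c : E2)
    (G v : ℤ × ℤ → E2 → ℂ), (∀ m ∈ caps ρ, Rep ρ (cen ρ m) (G m) (v m)) →
    ∀ z : E2 × ℝ, |z.2| * ρ ^ 2 ≤ L → ∀ (m' : ℤ × ℤ) (P : ℤ × ℤ → Prop) [DecidablePred P] (ν : ℝ),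
    (∀ k : ℤ, (Set.ncard {m | m ∈ nearL ρ ρ' m' ∧ P m ∧ |inner ℝ (cen ρ m) (b 1) - k * ρ| ≤ ρ} : ℝ)
      ≤ ν) →
    ∫⁻ x, ENNReal.ofReal (dw (n + 2) (bx b ρ' ρ) (x - c)) *
        ‖um ρ' (tr h z (fun ξ => ∑ m ∈ caps ρ, G m ξ)) m' x‖ₑ ^ 2 ≤
      ENNReal.ofReal (C * (ρ / ρ')) * (ENNReal.ofReal ν *
        (∑ m ∈ (nearL ρ ρ' m').filter P, ∫⁻ y,
          ENNReal.ofReal (wa ρ n (y - z.1 - z.2 • gradient h (cen ρ m) - c)) * ‖v m y‖ₑ ^ 2) +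
        ((caps ρ).card : ℝ≥0∞) * ∑ m ∈ (nearL ρ ρ' m').filter (fun m => ¬ P m), ∫⁻ y,
          ENNReal.ofReal (wa ρ n (y - z.1 - z.2 • gradient h (cen ρ m) - c)) * ‖v m y‖ₑ ^ 2) := by
  classical
  obtain ⟨C1, hC1, h1⟩ := strip_row (n + 2)
  obtain ⟨C2, hC2, h2⟩ := lc n
  obtain ⟨C3, hC3, h3⟩ := one_rep B n L hL
  refine ⟨C1 * 2 * C2 * (2 ^ n * C3), by positivity, ?_⟩
  intro h hh ρ ρ' hρ hρρ' hρ1 b c G v hR z hz m' P _ ν hν
  have hρ' : 0 < ρ' := hρ.trans_le hρρ'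
  have hν0 : 0 ≤ ν := le_trans (by positivity) (hν 0)
  have hhc : Continuous h := hh.1.continuous
  set s := nearL ρ ρ' m' with hs
  have hsc : ∀ m ∈ s, m ∈ caps ρ := fun m hm => (mem_nearL.1 hm).1
  set f : ℤ × ℤ → E2 → ℂ := fun m => if m ∈ s then
    fun ξ => cap win (cen ρ' m') ρ' ξ * tr h z (G m) ξ else 0 with hf
  have hfs : ∀ m ∈ s, f m = fun ξ => cap win (cen ρ' m') ρ' ξ * tr h z (G m) ξ := by
    intro m hm
    simp only [hf, if_pos hm]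
  have hfi : ∀ m, Integrable (f m) := by
    intro m
    by_cases hm : m ∈ s
    · rw [hfs m hm]
      exact win_int (tr_int hhc (hR m (hsc m hm)).int z) m'
    · simp only [hf, if_neg hm]
      exact integrable_zero _ _ _
  have hf2 : ∀ m, MemLp (f m) 2 := by
    intro m
    by_cases hm : m ∈ s
    · rw [hfs m hm]
      exact win_l2 (tr_l2 hhc (hR m (hsc m hm)).l2 z) m'
    · simp only [hf, if_neg hm]
      exact MemLp.zero
  have hfsupp : ∀ m, ∀ ξ, f m ξ ≠ 0 → ‖ξ - cen ρ m‖ ≤ 3 / 2 * ρ := by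
    intro m ξ hξ
    by_cases hm : m ∈ s
    · rw [hfs m hm] at hξ
      refine (hR m (hsc m hm)).supp ξ fun h0 => ?_
      exact right_ne_zero_of_mul hξ (tr_zero z h0)
    · simp only [hf, if_neg hm] at hξ
      exact absurd rfl hξ
  have esum : (fun ξ => cap win (cen ρ' m') ρ' ξ * tr h z (fun ξ => ∑ m ∈ caps ρ, G m ξ) ξ) =
      fun ξ => ∑ m ∈ s, f m ξ := by
    funext ξ
    have e1 : ∑ m ∈ s, f m ξ = ∑ m ∈ s, cap win (cen ρ' m') ρ' ξ * tr h z (G m) ξ :=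
      Finset.sum_congr rfl fun m hm => by rw [hfs m hm]
    have e2 : ∑ m ∈ s, cap win (cen ρ' m') ρ' ξ * tr h z (G m) ξ =
        ∑ m ∈ caps ρ, cap win (cen ρ' m') ρ' ξ * tr h z (G m) ξ := by
      rw [hs]
      unfold nearL
      rw [Finset.sum_filter_of_ne]
      intro m hm hne
      by_contra hc
      apply hne
      refine capfat_prod hρ hρρ' hc (G := tr h z (G m)) (fun ξ hξ => (hR m hm).supp ξ fun h0 => ?_) ξ
      exact hξ (tr_zero z h0)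
    rw [e1, e2, ← Finset.mul_sum]
    congr 1
    simp only [tr]
    rw [Finset.sum_mul]
  set K : Finset ℤ := s.image (stp b ρ) with hK
  set sk : ℤ → Finset (ℤ × ℤ) := fun k => s.filter (fun m => stp b ρ m = k) with hsk
  have eF : (fun ξ => ∑ k ∈ K, ∑ m ∈ sk k, f m ξ) = fun ξ => ∑ m ∈ s, f m ξ := by
    funext ξ
    exact Finset.sum_fiberwise_of_maps_to (fun m hm => Finset.mem_image_of_mem _ hm) _
  have a1 := h1 b ρ' ρ hρ c K (fun k ξ => ∑ m ∈ sk k, f m ξ)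
    (fun k => integrable_finsetSum _ fun m _ => hfi m)
    (fun k => memLp_finsetSum _ fun m _ => hf2 m) ?_
  · rw [eF] at a1
    -- one strip
    have a2 : ∀ k ∈ K, wE (n + 2) (bx b ρ' ρ) c (fun ξ => ∑ m ∈ sk k, f m ξ) ≤
        2 * (ENNReal.ofReal ν * ∑ m ∈ (sk k).filter P, wE (n + 2) (bx b ρ' ρ) c (f m) +
        ((caps ρ).card : ℝ≥0∞) * ∑ m ∈ (sk k).filter (fun m => ¬ P m),
          wE (n + 2) (bx b ρ' ρ) c (f m)) := by
      intro k _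
      refine (wE_split (n + 2) (bx b ρ' ρ) c (sk k) P f (fun m _ => hfi m)).trans ?_
      gcongr
      · have h5 := hν k
        have h6 : ((sk k).filter P).card ≤ Set.ncard {m | m ∈ s ∧ P m ∧
            |inner ℝ (cen ρ m) (b 1) - k * ρ| ≤ ρ} := by
          rw [← Set.ncard_coe_finset]
          refine Set.ncard_le_ncard ?_ (s.finite_toSet.subset fun m hm => hm.1)
          intro m hm
          simp only [Finset.coe_filter, Set.mem_ofPred_eq, hsk, Finset.mem_filter] at hm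
          refine ⟨hm.1.1, hm.2, ?_⟩
          rw [← hm.1.2]
          exact stp_near b hρ m
        have h7 : (((sk k).filter P).card : ℝ) ≤ ν := le_trans (by exact_mod_cast h6) h5
        rw [← ENNReal.ofReal_natCast]
        exact ENNReal.ofReal_le_ofReal h7
      · intro m hm
        rw [Finset.mem_filter] at hm
        exact hsc m (Finset.mem_filter.1 hm.1).1
    -- sum over the strips
    have a3 : ∑ k ∈ K, wE (n + 2) (bx b ρ' ρ) c (fun ξ => ∑ m ∈ sk k, f m ξ) ≤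
        2 * (ENNReal.ofReal ν * ∑ m ∈ s.filter P, wE (n + 2) (bx b ρ' ρ) c (f m) +
        ((caps ρ).card : ℝ≥0∞) * ∑ m ∈ s.filter (fun m => ¬ P m),
          wE (n + 2) (bx b ρ' ρ) c (f m)) := by
      refine (Finset.sum_le_sum a2).trans (le_of_eq ?_)
      have b1 : ∀ (Q : ℤ × ℤ → Prop) [DecidablePred Q], ∑ k ∈ K, ∑ m ∈ (sk k).filter Q,
          wE (n + 2) (bx b ρ' ρ) c (f m) = ∑ m ∈ s.filter Q, wE (n + 2) (bx b ρ' ρ) c (f m) := by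
        intro Q _
        rw [← Finset.sum_fiberwise_of_maps_to (t := K) (g := stp b ρ) (s := s.filter Q)]
        · refine Finset.sum_congr rfl fun k _ => ?_
          refine Finset.sum_congr ?_ fun _ _ => rfl
          ext m
          simp only [hsk, Finset.mem_filter]
          tauto
        · intro m hm
          exact Finset.mem_image_of_mem _ (Finset.mem_filter.1 hm).1
      rw [← Finset.mul_sum, Finset.sum_add_distrib, ← Finset.mul_sum, ← Finset.mul_sum,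
        b1 P, b1 (fun m => ¬ P m)]
    -- local constancy and transport
    have a4 : ∀ m ∈ s, wE (n + 2) (bx b ρ' ρ) c (f m) ≤
        ENNReal.ofReal (C2 * (ρ / ρ')) * (ENNReal.ofReal (2 ^ n * C3) * ∫⁻ y,
          ENNReal.ofReal (wa ρ n (y - z.1 - z.2 • gradient h (cen ρ m) - c)) * ‖v m y‖ₑ ^ 2) := by
      intro m hm
      refine (h2 b ρ' ρ hρ hρρ' c (cen ρ m) (f m) (hfi m) fun ξ hξ =>
        (hfsupp m ξ hξ).trans (by linarith)).trans (mul_le_mul' le_rfl ?_)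
      have b1 := h3 h hh ρ ρ' 1 _ hρ hρρ' hρ1 (SV_wa hρ.le n c) m (G m) (v m) (hR m (hsc m hm)) z hz m'
      rw [one_pow, mul_one, ← hfs m hm] at b1
      rw [wE_eq, ENNReal.ofReal_mul (by positivity), mul_assoc]
      calc ∫⁻ x, ENNReal.ofReal (dw n (iso ρ) (x - c)) * ‖𝓕⁻ (f m) x‖ₑ ^ 2
          ≤ ∫⁻ x, ENNReal.ofReal (2 ^ n) * (ENNReal.ofReal (wa ρ n (x - c)) * ‖𝓕⁻ (f m) x‖ₑ ^ 2) := by
            refine lintegral_mono fun x => ?_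
            rw [← mul_assoc, ← ENNReal.ofReal_mul (by positivity)]
            exact mul_le_mul' (ENNReal.ofReal_le_ofReal (dw_iso_le_wa n hρ.le _)) le_rfl
        _ = ENNReal.ofReal (2 ^ n) * WE (fun x => wa ρ n (x - c)) (f m) := by
            rw [lintegral_const_mul' _ _ ENNReal.ofReal_ne_top]
            rfl
        _ ≤ _ := mul_le_mul' le_rfl b1
    have a5 : ∀ (Q : ℤ × ℤ → Prop) [DecidablePred Q], ∑ m ∈ s.filter Q,
        wE (n + 2) (bx b ρ' ρ) c (f m) ≤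
        ENNReal.ofReal (C2 * (ρ / ρ')) * (ENNReal.ofReal (2 ^ n * C3) * ∑ m ∈ s.filter Q, ∫⁻ y,
          ENNReal.ofReal (wa ρ n (y - z.1 - z.2 • gradient h (cen ρ m) - c)) * ‖v m y‖ₑ ^ 2) := by
      intro Q _
      rw [Finset.mul_sum, Finset.mul_sum]
      exact Finset.sum_le_sum fun m hm => a4 m (Finset.mem_filter.1 hm).1
    have e0 : ∫⁻ x, ENNReal.ofReal (dw (n + 2) (bx b ρ' ρ) (x - c)) *
        ‖um ρ' (tr h z (fun ξ => ∑ m ∈ caps ρ, G m ξ)) m' x‖ₑ ^ 2 =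
        wE (n + 2) (bx b ρ' ρ) c (fun ξ => ∑ m ∈ s, f m ξ) := by
      rw [wE_eq, ← esum]
      rfl
    rw [e0]
    set X1 := ∑ m ∈ s.filter P, ∫⁻ y,
      ENNReal.ofReal (wa ρ n (y - z.1 - z.2 • gradient h (cen ρ m) - c)) * ‖v m y‖ₑ ^ 2 with hX1
    set X2 := ∑ m ∈ s.filter (fun m => ¬ P m), ∫⁻ y,
      ENNReal.ofReal (wa ρ n (y - z.1 - z.2 • gradient h (cen ρ m) - c)) * ‖v m y‖ₑ ^ 2 with hX2
    calc wE (n + 2) (bx b ρ' ρ) c (fun ξ => ∑ m ∈ s, f m ξ) ≤ ENNReal.ofReal C1 *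
          (2 * (ENNReal.ofReal ν * (ENNReal.ofReal (C2 * (ρ / ρ')) *
            (ENNReal.ofReal (2 ^ n * C3) * X1)) +
          ((caps ρ).card : ℝ≥0∞) * (ENNReal.ofReal (C2 * (ρ / ρ')) *
            (ENNReal.ofReal (2 ^ n * C3) * X2)))) := by
          refine a1.trans (mul_le_mul_right (a3.trans ?_) _)
          gcongr
          · exact a5 P
          · exact a5 (fun m => ¬ P m)
      _ = _ := by
          have e5 : ENNReal.ofReal (C1 * 2 * C2 * (2 ^ n * C3) * (ρ / ρ')) =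
              ENNReal.ofReal C1 * 2 * ENNReal.ofReal (C2 * (ρ / ρ')) *
                ENNReal.ofReal (2 ^ n * C3) := by
            have e6 : (2 : ℝ≥0∞) = ENNReal.ofReal 2 := by simp
            have hq : 0 ≤ ρ / ρ' := by positivity
            rw [e6, ← ENNReal.ofReal_mul hC1, ← ENNReal.ofReal_mul (by positivity),
              ← ENNReal.ofReal_mul (by positivity)]
            congr 1
            ring
          rw [e5]
          ring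
  · intro k _ ξ hξ
    obtain ⟨m, hm, hne⟩ := Finset.exists_ne_zero_of_sum_ne_zero hξ
    have h5 := hfsupp m ξ hne
    have h6 := stp_near b hρ m
    have h7 : stp b ρ m = k := (Finset.mem_filter.1 hm).2
    rw [h7] at h6
    have h8 : |inner ℝ (ξ - cen ρ m) (b 1)| ≤ ‖ξ - cen ρ m‖ := by
      have := abs_real_inner_le_norm (ξ - cen ρ m) (b 1)
      rwa [b.norm_eq_one, mul_one] at this
    have e1 : inner ℝ ξ (b 1) - k * ρ = inner ℝ (ξ - cen ρ m) (b 1) +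
        (inner ℝ (cen ρ m) (b 1) - k * ρ) := by
      rw [inner_sub_left]; ring
    rw [e1]
    refine (abs_add_le _ _).trans ?_
    linarith


theorem card_caps_le' {ρ : ℝ} (hρ : 0 < ρ) (hρ1 : ρ ≤ 1) : ((caps ρ).card : ℝ) ≤ 81 * (ρ ^ 2)⁻¹ := by
  unfold caps
  rw [Finset.card_product, Int.card_Icc]
  have h0 : (0 : ℤ) < ⌈2 / ρ⌉ := Int.ceil_pos.2 (by positivity)
  have h1 : (((⌈2 / ρ⌉ + 1 + 1 - (-⌈2 / ρ⌉ - 1)).toNat : ℕ) : ℤ) = 2 * ⌈2 / ρ⌉ + 3 := by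
    rw [Int.toNat_of_nonneg (by omega)]; ring
  have h2 : (((⌈2 / ρ⌉ + 1 + 1 - (-⌈2 / ρ⌉ - 1)).toNat : ℕ) : ℝ) = 2 * ⌈2 / ρ⌉ + 3 := by
    exact_mod_cast h1
  have h3 := Int.ceil_lt_add_one (2 / ρ)
  have h4 : 1 ≤ ρ⁻¹ := (one_le_inv₀ hρ).2 hρ1
  have h5 : 2 * (⌈2 / ρ⌉ : ℝ) + 3 ≤ 9 * ρ⁻¹ := by
    have : 2 / ρ = 2 * ρ⁻¹ := div_eq_mul_inv _ _
    rw [this] at h3
    have h6 : (⌈2 / ρ⌉ : ℝ) < 2 * ρ⁻¹ + 1 := by rw [this]; exact h3
    linarith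
  have h7 : (0 : ℝ) ≤ 2 * (⌈2 / ρ⌉ : ℝ) + 3 := by
    have : (0 : ℝ) < (⌈2 / ρ⌉ : ℝ) := by exact_mod_cast h0
    linarith
  push_cast
  rw [h2]
  calc (2 * (⌈2 / ρ⌉ : ℝ) + 3) * (2 * (⌈2 / ρ⌉ : ℝ) + 3) ≤ (9 * ρ⁻¹) * (9 * ρ⁻¹) := by gcongr
    _ = 81 * (ρ ^ 2)⁻¹ := by field_simp; norm_num

theorem wa_add_le {ρ X : ℝ} (hρ : 0 ≤ ρ) (hX : 0 ≤ X) (n k : ℕ) {v : E2} (h : X ≤ ρ * ‖v‖) :
    wa ρ (n + k) v ≤ ((1 + X) ^ k)⁻¹ * wa ρ n v := by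
  unfold wa
  have h0 : 0 ≤ ρ * ‖v‖ := by positivity
  rw [pow_add, mul_inv, mul_comm]
  refine mul_le_mul_of_nonneg_right ?_ (by positivity)
  refine inv_anti₀ (by positivity) (pow_le_pow_left₀ (by positivity) (by linarith) k)

theorem wa_anti {ρ : ℝ} (hρ : 0 ≤ ρ) (n k : ℕ) (v : E2) : wa ρ (n + k) v ≤ wa ρ n v := by
  have h := wa_add_le hρ le_rfl n k (v := v) (by positivity)
  simpa using h

/-- **UPPER**, selected wave. -/
theorem upper_sel (B : ℕ → ℝ) (n k : ℕ) (L : ℝ) (hL : 1 ≤ L) : ∃ C : ℝ, 0 ≤ C ∧ ∀ h, ParB B h →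
    ∀ (ρ ρ' : ℝ), 0 < ρ → ρ ≤ ρ' → ρ ≤ 1 → ∀ (b : OrthonormalBasis (Fin 2) ℝ E2) (c : E2)
    (g : E2 → ℂ), Integrable g → ∀ S : ℤ × ℤ → Set E2, Bs ρ S →
    ∀ z : E2 × ℝ, |z.2| * ρ ^ 2 ≤ L → ∀ (m' : ℤ × ℤ) (X ν : ℝ), 0 ≤ X →
    (∀ κ : ℤ, (Set.ncard {m | m ∈ nearL ρ ρ' m' ∧
      (∃ y ∈ S m, ρ * ‖y - z.1 - z.2 • gradient h (cen ρ m) - c‖ ≤ X) ∧
      |inner ℝ (cen ρ m) (b 1) - κ * ρ| ≤ ρ} : ℝ) ≤ ν) →
    ∫⁻ x, ENNReal.ofReal (dw (n + k + 2) (bx b ρ' ρ) (x - c)) *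
        ‖um ρ' (tr h z (sel ρ g S)) m' x‖ₑ ^ 2 ≤
      ENNReal.ofReal (C * (ρ / ρ') * (ρ ^ 2)⁻¹ * (ν + (caps ρ).card * ((1 + X) ^ k)⁻¹)) *
        Ad n h ρ ρ' g S m' z c := by
  classical
  obtain ⟨C1, hC1, h1⟩ := upper_rep B (n + k) L hL
  refine ⟨C1, hC1, ?_⟩
  intro h hh ρ ρ' hρ hρρ' hρ1 b c g hg S hS z hz m' X ν hX hν
  have hρ' : 0 < ρ' := hρ.trans_le hρρ'
  have hν0 : 0 ≤ ν := le_trans (by positivity) (hν 0)
  set P : ℤ × ℤ → Prop := fun m => ∃ y ∈ S m,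
    ρ * ‖y - z.1 - z.2 • gradient h (cen ρ m) - c‖ ≤ X with hP
  have a1 := h1 h hh ρ ρ' hρ hρρ' hρ1 b c (fun m => piece ρ g m (S m))
    (fun m => (S m).indicator (um ρ g m))
    (fun m hm => piece_rep hρ hg m (hS.meas m hm) (hS.bdd m hm)) z hz m' P ν hν
  refine a1.trans ?_
  set T : ℤ × ℤ → ℝ≥0∞ := fun m => ∫⁻ y in S m,
    ENNReal.ofReal (wa ρ n (y - z.1 - z.2 • gradient h (cen ρ m) - c)) * ‖um ρ g m y‖ₑ ^ 2 with hT
  have hsc : ∀ m ∈ nearL ρ ρ' m', m ∈ caps ρ := fun m hm => (mem_nearL.1 hm).1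
  have b1 : ∀ m ∈ nearL ρ ρ' m', ∫⁻ y, ENNReal.ofReal
      (wa ρ (n + k) (y - z.1 - z.2 • gradient h (cen ρ m) - c)) *
        ‖(S m).indicator (um ρ g m) y‖ₑ ^ 2 ≤ T m := by
    intro m hm
    rw [lint_ind (hS.meas m (hsc m hm)) (fun y => ENNReal.ofReal
      (wa ρ (n + k) (y - z.1 - z.2 • gradient h (cen ρ m) - c))) (um ρ g m)]
    refine lintegral_mono fun y => mul_le_mul' (ENNReal.ofReal_le_ofReal (wa_anti hρ.le _ _ _)) le_rfl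
  have b2 : ∀ m ∈ nearL ρ ρ' m', ¬ P m → ∫⁻ y, ENNReal.ofReal
      (wa ρ (n + k) (y - z.1 - z.2 • gradient h (cen ρ m) - c)) *
        ‖(S m).indicator (um ρ g m) y‖ₑ ^ 2 ≤ ENNReal.ofReal (((1 + X) ^ k)⁻¹) * T m := by
    intro m hm hPm
    rw [lint_ind (hS.meas m (hsc m hm)) (fun y => ENNReal.ofReal
      (wa ρ (n + k) (y - z.1 - z.2 • gradient h (cen ρ m) - c))) (um ρ g m), hT,
      ← lintegral_const_mul' _ _ ENNReal.ofReal_ne_top]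
    refine setLIntegral_mono' (hS.meas m (hsc m hm)) fun y hy => ?_
    rw [← mul_assoc, ← ENNReal.ofReal_mul (by positivity)]
    refine mul_le_mul' (ENNReal.ofReal_le_ofReal (wa_add_le hρ.le hX n k ?_)) le_rfl
    by_contra hc
    push Not at hc
    exact hPm ⟨y, hy, hc.le⟩
  have c1 : ∑ m ∈ (nearL ρ ρ' m').filter P, ∫⁻ y, ENNReal.ofReal
      (wa ρ (n + k) (y - z.1 - z.2 • gradient h (cen ρ m) - c)) *
        ‖(S m).indicator (um ρ g m) y‖ₑ ^ 2 ≤ ∑ m ∈ nearL ρ ρ' m', T m :=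
    (Finset.sum_le_sum fun m hm => b1 m (Finset.mem_filter.1 hm).1).trans
      (Finset.sum_le_sum_of_subset (Finset.filter_subset _ _))
  have c2 : ∑ m ∈ (nearL ρ ρ' m').filter (fun m => ¬ P m), ∫⁻ y, ENNReal.ofReal
      (wa ρ (n + k) (y - z.1 - z.2 • gradient h (cen ρ m) - c)) *
        ‖(S m).indicator (um ρ g m) y‖ₑ ^ 2 ≤
      ENNReal.ofReal (((1 + X) ^ k)⁻¹) * ∑ m ∈ nearL ρ ρ' m', T m := by
    rw [Finset.mul_sum]
    exact (Finset.sum_le_sum fun m hm => b2 m (Finset.mem_filter.1 hm).1 (Finset.mem_filter.1 hm).2).trans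
      (Finset.sum_le_sum_of_subset (Finset.filter_subset _ _))
  calc _ ≤ ENNReal.ofReal (C1 * (ρ / ρ')) * (ENNReal.ofReal ν * (∑ m ∈ nearL ρ ρ' m', T m) +
        ((caps ρ).card : ℝ≥0∞) * (ENNReal.ofReal (((1 + X) ^ k)⁻¹) * ∑ m ∈ nearL ρ ρ' m', T m)) := by
        gcongr
    _ = ENNReal.ofReal (C1 * (ρ / ρ') * (ρ ^ 2)⁻¹ * (ν + (caps ρ).card * ((1 + X) ^ k)⁻¹)) *
        Ad n h ρ ρ' g S m' z c := by
        unfold Ad Ac
        have e1 : ENNReal.ofReal (C1 * (ρ / ρ') * (ρ ^ 2)⁻¹ * (ν + (caps ρ).card * ((1 + X) ^ k)⁻¹)) =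
            ENNReal.ofReal (C1 * (ρ / ρ')) * ENNReal.ofReal ((ρ ^ 2)⁻¹) *
              (ENNReal.ofReal ν + ((caps ρ).card : ℝ≥0∞) * ENNReal.ofReal (((1 + X) ^ k)⁻¹)) := by
          rw [ENNReal.ofReal_mul (p := C1 * (ρ / ρ') * (ρ ^ 2)⁻¹) (by positivity),
            ENNReal.ofReal_mul (p := C1 * (ρ / ρ')) (by positivity),
            ENNReal.ofReal_add hν0 (by positivity),
            ENNReal.ofReal_mul (p := ((caps ρ).card : ℝ)) (by positivity),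
            ENNReal.ofReal_natCast]
        have e2 : ENNReal.ofReal ((ρ ^ 2)⁻¹) * ENNReal.ofReal (ρ ^ 2) = 1 := by
          rw [← ENNReal.ofReal_mul (by positivity), inv_mul_cancel₀ (by positivity),
            ENNReal.ofReal_one]
        rw [e1]
        calc _ = ENNReal.ofReal (C1 * (ρ / ρ')) * 1 *
              ((ENNReal.ofReal ν + ((caps ρ).card : ℝ≥0∞) * ENNReal.ofReal (((1 + X) ^ k)⁻¹)) *
                ∑ m ∈ nearL ρ ρ' m', T m) := by ring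
          _ = _ := by rw [← e2]; ring

/-- **UPPER** without tail: `ρ⁻² ≤ (1 + X)^k`, `1 ≤ ν`. -/
theorem upper_sel' (B : ℕ → ℝ) (n k : ℕ) (L : ℝ) (hL : 1 ≤ L) : ∃ C : ℝ, 0 ≤ C ∧ ∀ h, ParB B h →
    ∀ (ρ ρ' : ℝ), 0 < ρ → ρ ≤ ρ' → ρ ≤ 1 → ∀ (b : OrthonormalBasis (Fin 2) ℝ E2) (c : E2)
    (g : E2 → ℂ), Integrable g → ∀ S : ℤ × ℤ → Set E2, Bs ρ S →
    ∀ z : E2 × ℝ, |z.2| * ρ ^ 2 ≤ L → ∀ (m' : ℤ × ℤ) (X ν : ℝ), 0 ≤ X → (ρ ^ 2)⁻¹ ≤ (1 + X) ^ k →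
    1 ≤ ν →
    (∀ κ : ℤ, (Set.ncard {m | m ∈ nearL ρ ρ' m' ∧
      (∃ y ∈ S m, ρ * ‖y - z.1 - z.2 • gradient h (cen ρ m) - c‖ ≤ X) ∧
      |inner ℝ (cen ρ m) (b 1) - κ * ρ| ≤ ρ} : ℝ) ≤ ν) →
    ∫⁻ x, ENNReal.ofReal (dw (n + k + 2) (bx b ρ' ρ) (x - c)) *
        ‖um ρ' (tr h z (sel ρ g S)) m' x‖ₑ ^ 2 ≤
      ENNReal.ofReal (C * (ρ * ρ')⁻¹ * ν) * Ad n h ρ ρ' g S m' z c := by
  obtain ⟨C1, hC1, h1⟩ := upper_sel B n k L hL
  refine ⟨C1 * 82, by positivity, ?_⟩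
  intro h hh ρ ρ' hρ hρρ' hρ1 b c g hg S hS z hz m' X ν hX hXk hν1 hν
  have hρ' : 0 < ρ' := hρ.trans_le hρρ'
  refine (h1 h hh ρ ρ' hρ hρρ' hρ1 b c g hg S hS z hz m' X ν hX hν).trans
    (mul_le_mul' (ENNReal.ofReal_le_ofReal ?_) le_rfl)
  have h2 : ((caps ρ).card : ℝ) * ((1 + X) ^ k)⁻¹ ≤ 81 := by
    have h3 := card_caps_le' hρ hρ1
    rw [← div_eq_mul_inv, div_le_iff₀ (by positivity)]
    nlinarith
  have h4 : C1 * (ρ / ρ') * (ρ ^ 2)⁻¹ = C1 * (ρ * ρ')⁻¹ := by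
    field_simp
  rw [h4]
  calc C1 * (ρ * ρ')⁻¹ * (ν + ((caps ρ).card : ℝ) * ((1 + X) ^ k)⁻¹) ≤
        C1 * (ρ * ρ')⁻¹ * (82 * ν) := by gcongr; linarith
    _ = _ := by ring

end Crest.Agent.R138.Up448
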