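import Crest.Agent.R138.PDef_654
import Crest.Agent.R138.Up3_448
import Crest.Agent.R138.Hp1_759
import Crest.Agent.R138.Ad2_480
import Crest.Agent.R138.Sm4_858
import Crest.Agent.R138.Wpk9_685

/-!
# R138 / R139, wave side, AL (helper878), part 1: the pointwise input (H) of SUPM

UPPER (448) + coherence (PDef_654) + LOWER (759, 480): the local energy of an aligned child plate is
at most `C Y^(2n) Gm² pp / p` times the density of the parent selection.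
-/

set_option autoImplicit false

open MeasureTheory FourierTransform
open scoped ContDiff ENNReal

namespace Crest.Agent.R138.Al878

open Crest.Agent.R138.Defs Crest.Agent.R138.W188 Crest.Agent.R138.Wpk685
open Crest.Agent.R138.Loc878 Crest.Agent.R138.Ad480 Crest.Agent.R138.Rect779
open Crest.Agent.R138.P654
open Crest.Agent.R138.Bil882 (NearId)
open Crest.Agent.R138.Wf448 (dw)
open Crest.Agent.R138.Up448 (bx upper_sel norm_bx_sq card_caps_le' norm_bx_ge)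
open Crest.Agent.R138.Low448 (fr)
open Crest.Agent.R138.Sm858 (seP)
open Crest.Agent.R138.Hp759 (Rich row_le Ad_along norm_orth_basis)
open Crest.Agent.R138.Sup882 (grad_lip)

/-- the strip count of UPPER from the coherence bound. -/
theorem strip_count {h : E2 → ℝ} {θ θ' δ Y T pp : ℝ} {I1 : Finset ℕ} {P1 : ℕ → Plate}
    (hθ : 0 < θ) (hθθ' : θ ≤ θ') (hpp : 0 ≤ pp) (hc : Coh h θ θ' δ Y T I1 P1 pp)
    (b : OrthonormalBasis (Fin 2) ℝ E2) (z : E2 × ℝ) (hz : |z.2| ≤ T) (c : E2) (m' : ℤ × ℤ)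
    (κ : ℤ) :
    (Set.ncard {m | m ∈ nearL θ θ' m' ∧ (∃ y ∈ Sal δ b I1 P1 m,
      θ * ‖y - z.1 - z.2 • gradient h (cen θ m) - c‖ ≤ Y) ∧
      |inner ℝ (cen θ m) (b 1) - κ * θ| ≤ θ} : ℝ) ≤ pp := by
  classical
  set M : Finset (ℤ × ℤ) := (nearL θ θ' m').filter fun m => (∃ y ∈ Sal δ b I1 P1 m,
      θ * ‖y - z.1 - z.2 • gradient h (cen θ m) - c‖ ≤ Y) ∧
      |inner ℝ (cen θ m) (b 1) - κ * θ| ≤ θ with hM
  have e1 : {m | m ∈ nearL θ θ' m' ∧ (∃ y ∈ Sal δ b I1 P1 m,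
      θ * ‖y - z.1 - z.2 • gradient h (cen θ m) - c‖ ≤ Y) ∧
      |inner ℝ (cen θ m) (b 1) - κ * θ| ≤ θ} = (M : Set (ℤ × ℤ)) := by
    ext m
    simp [hM]
  rw [e1, Set.ncard_coe_finset]
  rcases M.eq_empty_or_nonempty with hE | ⟨m0, hm0⟩
  · rw [hE]; simpa using hpp
  · refine hc b (cen θ m0) z c hz M fun m hm => ?_
    obtain ⟨h1, h2, h3⟩ := Finset.mem_filter.1 hm
    obtain ⟨h1', h2', h3'⟩ := Finset.mem_filter.1 hm0
    refine ⟨(mem_nearL.1 h1).1, ⟨?_, ?_⟩, h2⟩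
    · have n1 : ‖cen θ m - cen θ' m'‖ < 3 * θ' := (mem_nearL.1 h1).2
      have n2 : ‖cen θ m0 - cen θ' m'‖ < 3 * θ' := (mem_nearL.1 h1').2
      have e : cen θ m - cen θ m0 = (cen θ m - cen θ' m') - (cen θ m0 - cen θ' m') := by abel
      rw [e]
      have := norm_sub_le (cen θ m - cen θ' m') (cen θ m0 - cen θ' m')
      linarith
    · rw [norm_orth_basis, inner_sub_left]
      have e : (inner ℝ (cen θ m) (b 1) : ℝ) - inner ℝ (cen θ m0) (b 1) =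
          (inner ℝ (cen θ m) (b 1) - κ * θ) - (inner ℝ (cen θ m0) (b 1) - κ * θ) := by ring
      rw [e]
      have := abs_sub (inner ℝ (cen θ m) (b 1) - κ * θ : ℝ) (inner ℝ (cen θ m0) (b 1) - κ * θ)
      linarith

/-- angles. -/
theorem an_facts {r1 dl : ℝ} (hdl : 0 < dl) (hdl1 : dl ≤ 1) (hr : 1 ≤ dl * r1) :
    0 < an r1 ∧ an r1 ≤ an (dl * r1) ∧ an (dl * r1) ≤ 1 ∧ an r1 ^ 2 * r1 = 1 ∧
      an (dl * r1) ^ 2 * (dl * r1) = 1 ∧ an r1 * an (dl * (dl * r1)) * (dl * r1) = 1 ∧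
      (an (dl * r1))⁻¹ = (dl * r1) ^ (1/2 : ℝ) ∧ (an r1)⁻¹ = r1 ^ (1/2 : ℝ) ∧ 1 ≤ r1 ∧
      an (dl * r1) ≤ an (dl * (dl * r1)) := by
  have hr10 : 0 < r1 := by
    by_contra h
    push Not at h
    nlinarith
  have hr0 : 0 < dl * r1 := by positivity
  have hr1 : dl * r1 ≤ r1 := by nlinarith
  have sq : ∀ x : ℝ, 0 < x → an x ^ 2 * x = 1 := by
    intro x hx
    unfold an
    rw [← Real.rpow_natCast, ← Real.rpow_mul hx.le]
    nth_rewrite 2 [← Real.rpow_one x]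
    rw [← Real.rpow_add hx]
    norm_num
  have inv : ∀ x : ℝ, 0 < x → (an x)⁻¹ = x ^ (1/2 : ℝ) := by
    intro x hx
    unfold an
    rw [← Real.rpow_neg hx.le]
    norm_num
  refine ⟨by unfold an; positivity, ?_, ?_, sq _ hr10, sq _ hr0, ?_, inv _ hr0, inv _ hr10,
    by linarith, ?_⟩
  · exact Real.rpow_le_rpow_of_nonpos hr0 hr1 (by norm_num)
  · exact Real.rpow_le_one_of_one_le_of_nonpos hr (by norm_num)
  · unfold an
    rw [← Real.mul_rpow hr10.le (by positivity)]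
    have e : r1 * (dl * (dl * r1)) = (dl * r1) ^ (2 : ℝ) := by
      rw [Real.rpow_two]; ring
    rw [e, ← Real.rpow_mul hr0.le]
    nth_rewrite 2 [← Real.rpow_one (dl * r1)]
    rw [← Real.rpow_add hr0]
    norm_num
  · exact Real.rpow_le_rpow_of_nonpos (by positivity) (by nlinarith) (by norm_num)

/-- weight outside the active region. -/
theorem dw_far (N k : ℕ) (hk : k ≤ N) (b : OrthonormalBasis (Fin 2) ℝ E2) {θ θ' Y : ℝ} (hθ : 0 < θ)
    (hθθ' : θ ≤ θ') (hY : 1 ≤ Y) {v : E2} (hv : Y < θ * ‖v‖) :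
    dw N (bx b θ' θ) v ≤ ((1 + Y) ^ k)⁻¹ := by
  unfold dw Wf448.gw
  have h1 : θ * ‖v‖ ≤ ‖bx b θ' θ v‖ := by
    have := norm_bx_ge b hθ.le hθθ' v
    rwa [iso_apply, norm_smul, Real.norm_eq_abs, abs_of_pos hθ] at this
  have h2 : (1 + Y) ^ k ≤ (1 + ‖bx b θ' θ v‖ ^ 2) ^ N := by
    have h3 : 1 + Y ≤ 1 + ‖bx b θ' θ v‖ ^ 2 := by nlinarith
    calc (1 + Y) ^ k ≤ (1 + Y) ^ N := pow_le_pow_right₀ (by linarith) hk
      _ ≤ _ := pow_le_pow_left₀ (by linarith) h3 N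
  gcongr

/-- UPPER for one active child cap. -/
theorem act_le (B : ℕ → ℝ) (n k : ℕ) : ∃ C : ℝ, 0 ≤ C ∧ ∀ h, ParB B h → NearId h (1 / 10) →
    ∀ (r1 dl Y δ pp : ℝ), 0 < dl → dl ≤ 1 → 1 ≤ dl * r1 → 1 ≤ Y → 1 ≤ pp →
    ∀ g : E2 → ℂ, Integrable g → ∀ (I1 : Finset ℕ) (P1 : ℕ → Plate),
    (∀ b, Bs (an r1) (Sal δ b I1 P1)) →
    Coh h (an r1) (an (dl * r1)) δ Y (2 * r1) I1 P1 pp →
    ∀ (b : OrthonormalBasis (Fin 2) ℝ E2) (S' : ℤ × ℤ → Set E2) (z : E2 × ℝ),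
    (∀ m, MeasurableSet (S' m)) → |z.2| ≤ r1 →
    (∀ m, ∀ y ∈ S' m, ‖um (an (dl * r1)) (tr h z (sel (an r1) g (uS I1 P1))) m y‖ ≤
      2 * ‖um (an (dl * r1)) (tr h z (sel (an r1) g (Sal δ b I1 P1))) m y‖) →
    ∀ (x : E2) (t : ℝ), |t| ≤ dl * r1 → ∀ m : ℤ × ℤ,
    ∫⁻ y in S' m, ENNReal.ofReal (dw (n + k + 2) (bx b (an (dl * r1)) (an r1))
        (y - (x + t • gradient h (cen (an (dl * r1)) m)))) *
      ‖um (an (dl * r1)) (tr h z (sel (an r1) g (uS I1 P1))) m y‖ₑ ^ 2 ≤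
    ENNReal.ofReal (C * ((dl * r1) ^ (1/2 : ℝ) * r1 ^ (1/2 : ℝ)) * pp) *
        Ad n h (an r1) (an (dl * r1)) g (uS I1 P1) m (z + (0, t)) x +
      ENNReal.ofReal (C * ((dl * r1) ^ (1/2 : ℝ) * r1 ^ (1/2 : ℝ)) * ((1 + Y) ^ k)⁻¹) *
        en (an r1) g (uS I1 P1) := by
  obtain ⟨C1, hC1, H⟩ := upper_sel B n k 1 le_rfl
  refine ⟨4 * C1 * 5 ^ n + 4 * C1 * 81, by positivity, ?_⟩
  intro h hh hn r1 dl Y δ pp hdl hdl1 hr hY hpp g hg I1 P1 hBs hcoh b S' z hS' hz hal x t ht m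
  obtain ⟨hθ, hθθ', hθ'1, e1, e2, e3, e4, e5, hr1, e6⟩ := an_facts hdl hdl1 hr
  set θ := an r1 with hθdef
  set θ' := an (dl * r1) with hθ'def
  set c : E2 := x + t • gradient h (cen θ' m) with hc
  set W : ℝ := (dl * r1) ^ (1/2 : ℝ) * r1 ^ (1/2 : ℝ) with hW
  have hθ' : 0 < θ' := hθ.trans_le hθθ'
  have hr0 : 0 < dl * r1 := by linarith
  have hW0 : 0 ≤ W := by rw [hW]; positivity
  have hWe : θ / θ' * (θ ^ 2)⁻¹ = W := by
    rw [hW, ← e4, ← e5]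
    field_simp
  have hzL : |z.2| * θ ^ 2 ≤ 1 := by
    calc |z.2| * θ ^ 2 ≤ r1 * θ ^ 2 := by gcongr
      _ = 1 := by rw [mul_comm]; exact e1
  have h1 := H h hh θ θ' hθ hθθ' (hθθ'.trans hθ'1) b c g hg (Sal δ b I1 P1) (hBs b) z hzL m Y pp
    (by linarith) (fun κ => strip_count hθ hθθ' (by linarith) hcoh b z (by linarith) c m κ)
  have hsub : ∀ m, Sal δ b I1 P1 m ⊆ uS I1 P1 m := by
    intro m y hy
    obtain ⟨i, hi, -, hy⟩ := hy
    exact Set.mem_biUnion hi hy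
  have hcard : ((caps θ).card : ℝ) ≤ 81 * (θ ^ 2)⁻¹ := card_caps_le' hθ (hθθ'.trans hθ'1)
  have hY0 : 0 < (1 + Y) ^ k := by positivity
  -- transport
  have h2 : Ad n h θ θ' g (uS I1 P1) m z c ≤ ENNReal.ofReal (5 ^ n) *
      Ad n h θ θ' g (uS I1 P1) m (z + (0, t)) x := by
    have h3 := Ad_transport (n := n) (h := h) (g := g) (S := uS I1 P1) (m' := m) (z := z)
      (z' := z + (0, t)) (x := c) (x' := x) hθ.le hθ'.le (δ := 0) le_rfl (L := 11 / 10)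
      (by norm_num) (fun ξ ξ' => grad_lip hn ξ ξ') (by
        have e : (z + (0, t)).1 + (z + (0, t)).2 • gradient h (cen θ' m) + x -
            (z.1 + z.2 • gradient h (cen θ' m) + c) = 0 := by
          rw [hc, Prod.fst_add, Prod.snd_add, add_smul]
          simp only [add_zero]
          abel
        rw [e]; simp)
    refine h3.trans (mul_le_mul' (ENNReal.ofReal_le_ofReal ?_) le_rfl)
    have e : |(z + (0, t)).2 - z.2| = |t| := by
      rw [Prod.snd_add]; simp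
    rw [e]
    refine pow_le_pow_left₀ (by positivity) ?_ n
    have h4 : θ * θ' * |t| ≤ 1 := by
      calc θ * θ' * |t| ≤ θ' * θ' * (dl * r1) := by gcongr
        _ = 1 := by rw [← e2]; ring
    linarith
  -- energy bound of the density
  have h5 : Ad n h θ θ' g (uS I1 P1) m z c ≤ ENNReal.ofReal (θ ^ 2) * en θ g (uS I1 P1) :=
    Ad_le_en hθ.le m z c
  have h6 : ∫⁻ y in S' m, ENNReal.ofReal (dw (n + k + 2) (bx b θ' θ) (y - c)) *
      ‖um θ' (tr h z (sel θ g (uS I1 P1))) m y‖ₑ ^ 2 ≤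
      4 * ∫⁻ y, ENNReal.ofReal (dw (n + k + 2) (bx b θ' θ) (y - c)) *
        ‖um θ' (tr h z (sel θ g (Sal δ b I1 P1))) m y‖ₑ ^ 2 := by
    rw [← lintegral_const_mul' _ _ (by norm_num)]
    refine (setLIntegral_mono' (hS' m) fun y hy => ?_).trans (setLIntegral_le_lintegral _ _)
    have h7 := hal m y hy
    have h8 : ‖um θ' (tr h z (sel θ g (uS I1 P1))) m y‖ₑ ≤
        2 * ‖um θ' (tr h z (sel θ g (Sal δ b I1 P1))) m y‖ₑ := by
      rw [← ofReal_norm, ← ofReal_norm]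
      rw [show (2 : ℝ≥0∞) = ENNReal.ofReal 2 by norm_num, ← ENNReal.ofReal_mul (by norm_num)]
      exact ENNReal.ofReal_le_ofReal h7
    calc _ ≤ ENNReal.ofReal (dw (n + k + 2) (bx b θ' θ) (y - c)) *
          (2 * ‖um θ' (tr h z (sel θ g (Sal δ b I1 P1))) m y‖ₑ) ^ 2 := by gcongr
      _ = _ := by ring
  refine h6.trans ((mul_le_mul' le_rfl (h1.trans (mul_le_mul' le_rfl
    (Ad_mono hsub z c)))).trans ?_)
  have e7 : C1 * (θ / θ') * (θ ^ 2)⁻¹ * (pp + (caps θ).card * ((1 + Y) ^ k)⁻¹) =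
      C1 * W * pp + C1 * W * ((caps θ).card * ((1 + Y) ^ k)⁻¹) := by
    rw [← hWe]; ring
  rw [e7, ENNReal.ofReal_add (by positivity) (by positivity), add_mul, mul_add]
  refine add_le_add ?_ ?_
  · calc 4 * (ENNReal.ofReal (C1 * W * pp) * Ad n h θ θ' g (uS I1 P1) m z c)
        ≤ 4 * (ENNReal.ofReal (C1 * W * pp) * (ENNReal.ofReal (5 ^ n) *
          Ad n h θ θ' g (uS I1 P1) m (z + (0, t)) x)) := by gcongr
      _ = ENNReal.ofReal (4 * C1 * 5 ^ n * W * pp) *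
          Ad n h θ θ' g (uS I1 P1) m (z + (0, t)) x := by
        rw [← mul_assoc, ← mul_assoc, show (4 : ℝ≥0∞) = ENNReal.ofReal 4 by norm_num,
          ← ENNReal.ofReal_mul (by norm_num), ← ENNReal.ofReal_mul (by positivity)]
        congr 2
        ring
      _ ≤ _ := by
        gcongr
        have : 0 ≤ 4 * C1 * 81 := by positivity
        linarith
  · calc 4 * (ENNReal.ofReal (C1 * W * ((caps θ).card * ((1 + Y) ^ k)⁻¹)) *
          Ad n h θ θ' g (uS I1 P1) m z c)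
        ≤ 4 * (ENNReal.ofReal (C1 * W * ((81 * (θ ^ 2)⁻¹) * ((1 + Y) ^ k)⁻¹)) *
          (ENNReal.ofReal (θ ^ 2) * en θ g (uS I1 P1))) := by gcongr
      _ = ENNReal.ofReal (4 * C1 * 81 * W * ((1 + Y) ^ k)⁻¹) * en θ g (uS I1 P1) := by
        rw [← mul_assoc, ← mul_assoc, show (4 : ℝ≥0∞) = ENNReal.ofReal 4 by norm_num,
          ← ENNReal.ofReal_mul (by norm_num), ← ENNReal.ofReal_mul (by positivity)]
        congr 2
        field_simp
      _ ≤ _ := by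
        gcongr
        have : 0 ≤ 4 * C1 * 5 ^ n := by positivity
        linarith

open Classical in
/-- LOWER: the row of active child caps. -/
theorem row_al (n : ℕ) : ∃ C : ℝ, 0 ≤ C ∧ ∀ h, NearId h (1 / 10) →
    ∀ (A K0 r1 dl Y Gm a p : ℝ), 1 ≤ A → 1 ≤ K0 → 0 < dl → dl ≤ 1 → 1 ≤ dl * r1 → 1 ≤ Y →
    1 ≤ Gm → 0 ≤ a → 1 ≤ p → ∀ (g : E2 → ℂ) (S : ℤ × ℤ → Set E2)
      (b : OrthonormalBasis (Fin 2) ℝ E2) (S' : ℤ × ℤ → Set E2) (z : E2 × ℝ) (c0 : E2),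
    (∀ m, ∀ y ∈ S' m, |(inner ℝ (gradient h (cen (an (dl * r1)) m) - c0) (b 0) : ℝ)| ≤
      A * (Gm * an (dl * r1))) →
    (∀ m, ∀ y ∈ S' m, ENNReal.ofReal a ≤ Ad n h (an r1) (an (dl * r1)) g S m z y) →
    (∀ m, ∀ y ∈ S' m, Ad n h (an r1) (an (dl * r1)) g S m z y ≤ ENNReal.ofReal (8 * a)) →
    (∀ m, ∀ y ∈ S' m, p ≤ (pot n h (an r1) (an (dl * r1)) (an (dl * (dl * r1))) K0 g S b z m y : ℝ)) →
    ∀ (x : E2) (t : ℝ), |t| ≤ dl * r1 → ∀ T : Finset (ℤ × ℤ),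
    (∀ m ∈ T, ∃ y ∈ S' m, an r1 * ‖y - t • gradient h (cen (an (dl * r1)) m) - x‖ ≤ Y) →
    ∀ M : Finset (ℤ × ℤ), (∀ m ∈ caps (an r1), (∃ m' ∈ T,
      ‖gradient h (cen (an r1) m) - gradient h (cen (an (dl * r1)) m')‖ ≤
        11 / 10 * (16 * an (dl * (dl * r1)) + 3 * an (dl * r1))) → m ∈ M) →
    ∑ m ∈ T, Ad n h (an r1) (an (dl * r1)) g S m (z + (0, t)) x ≤
      ENNReal.ofReal (C * (A * Gm) ^ 2 * K0 * Y ^ (2 * n) / p) *
        Ac n h (an r1) g S M (z + (0, t)) x := by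
  refine ⟨23 ^ (2 * n) * 8 * (36 * 290 ^ 2), by positivity, ?_⟩
  intro h hn A K0 r1 dl Y Gm a p hA hK0 hdl hdl1 hr hY hGm ha hp g S b S' z c0 hdir hlo hhi hpot
    x t ht T hT M hM
  obtain ⟨hθ, hθθ', hθ'1, e1, e2, e3, e4, e5, hr1, e6⟩ := an_facts hdl hdl1 hr
  set θ := an r1 with hθdef
  set θ' := an (dl * r1) with hθ'def
  set θ'' := an (dl * (dl * r1)) with hθ''def
  have hθ' : 0 < θ' := hθ.trans_le hθθ'
  have hθ'' : 0 < θ'' := hθ'.trans_le e6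
  have hr0 : 0 < dl * r1 := by linarith
  have hp0 : 0 < p := by linarith
  have h4 : θ * θ' * |t| ≤ 1 := by
    calc θ * θ' * |t| ≤ θ' * θ' * (dl * r1) := by gcongr
      _ = 1 := by rw [← e2]; ring
  have h5 : θ * (16 * θ'') * |t| ≤ 16 := by
    calc θ * (16 * θ'') * |t| ≤ θ * (16 * θ'') * (dl * r1) := by gcongr
      _ = 16 * (θ * θ'' * (dl * r1)) := by ring
      _ = 16 := by rw [e3]; ring
  rcases eq_or_lt_of_le ha with ha0 | ha0
  · -- `a = 0`: no density at all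
    refine le_trans (le_of_eq ?_) zero_le
    refine Finset.sum_eq_zero fun m hm => ?_
    obtain ⟨y, hy, hyd⟩ := hT m hm
    have h6 := Ad_along hn (n := n) hθ.le hθ'.le (f := g) (S := S) (m' := m) (ζ := z)
      (X := Y) (by linarith) hyd
    have h7 := hhi m y hy
    rw [← ha0, mul_zero, ENNReal.ofReal_zero, nonpos_iff_eq_zero] at h7
    rw [h7, mul_zero, nonpos_iff_eq_zero] at h6
    exact h6
  · set A0 : ℝ≥0∞ := ENNReal.ofReal (a / K0) with hA0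
    have hA0' : A0 ≠ 0 := by
      rw [hA0, Ne, ENNReal.ofReal_eq_zero, not_le]; positivity
    have hrich : Rich n h θ θ' g S S' (b 0) (16 * θ'') (64 * θ') ⌈p⌉₊ A0 (ENNReal.ofReal (8 * a))
        z := by
      intro m' y hy
      refine ⟨hhi m' y hy, (caps θ').filter fun m => cen θ' m ∈ RectF (b 0) (cen θ' m')
        (16 * θ'') (64 * θ') ∧ Ad n h θ θ' g S m' z y ≤ ENNReal.ofReal K0 * Ad n h θ θ' g S m z y,
        Finset.filter_subset _ _, ?_, ?_, ?_⟩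
      · exact Nat.ceil_le.2 (hpot m' y hy)
      · intro j hj
        exact (Finset.mem_filter.1 hj).2.1
      · intro j hj
        have h6 := (hlo m' y hy).trans (Finset.mem_filter.1 hj).2.2
        rw [hA0, ENNReal.ofReal_div_of_pos (by linarith)]
        exact ENNReal.div_le_of_le_mul' h6
    have h6 := row_le hn (n := n) hθ hθ' (f := g) (S := S) (S' := S') (N := b 0)
      (b.norm_eq_one 0) (Lr := 16 * θ'') (wr := 64 * θ') (by positivity) (p := ⌈p⌉₊) (A0 := A0)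
      (A1 := ENNReal.ofReal (8 * a)) (ζ := z) hrich (K0 := 8 * K0) hA0' ENNReal.ofReal_ne_top
      (by
        rw [hA0, ← ENNReal.ofReal_mul (by positivity)]
        refine ENNReal.ofReal_le_ofReal (le_of_eq ?_)
        field_simp) (T := T) (a := 2 * (A * (Gm * θ'))) (K := 10 / 9 * (2 * (A * Gm) + 128)) (X := Y)
      (by linarith) (by positivity) (le_of_eq (by ring)) (by
        intro m hm m' hm'
        obtain ⟨y, hy, -⟩ := hT m hm
        obtain ⟨y', hy', -⟩ := hT m' hm'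
        have g1 := hdir m y hy
        have g2 := hdir m' y' hy'
        rw [real_inner_comm] at g1 g2
        have e : (inner ℝ (b 0) (gradient h (cen θ' m) - gradient h (cen θ' m')) : ℝ) =
            inner ℝ (b 0) (gradient h (cen θ' m) - c0) -
              inner ℝ (b 0) (gradient h (cen θ' m') - c0) := by
          rw [← inner_sub_right]; congr 1; abel
        rw [e]
        have := abs_sub (inner ℝ (b 0) (gradient h (cen θ' m) - c0) : ℝ)
          (inner ℝ (b 0) (gradient h (cen θ' m') - c0))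
        linarith) (x := x) (t := t) hT (M := M) hM
    have hGm0 : 1 ≤ A * Gm := by nlinarith
    have hKle : (1 + (Y + 33 / 10 * (θ * θ' * |t|) + 11 / 10 * (θ * (16 * θ'') * |t|))) ^ (2 * n) *
        (8 * K0) * (36 * (2 * (10 / 9 * (2 * (A * Gm) + 128)) + 1) ^ 2) ≤
        23 ^ (2 * n) * 8 * (36 * 290 ^ 2) * (A * Gm) ^ 2 * K0 * Y ^ (2 * n) := by
      have k1 : (1 + (Y + 33 / 10 * (θ * θ' * |t|) + 11 / 10 * (θ * (16 * θ'') * |t|))) ^ (2 * n) ≤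
          (23 * Y) ^ (2 * n) := by
        refine pow_le_pow_left₀ (by positivity) ?_ _
        nlinarith
      have k2 : (2 * (10 / 9 * (2 * (A * Gm) + 128)) + 1) ^ 2 ≤ (290 * (A * Gm)) ^ 2 := by
        refine pow_le_pow_left₀ (by positivity) ?_ _
        nlinarith
      calc _ ≤ (23 * Y) ^ (2 * n) * (8 * K0) * (36 * (290 * (A * Gm)) ^ 2) := by gcongr
        _ = _ := by rw [mul_pow, mul_pow]; ring
    set Ks := ∑ m ∈ T, Ad n h θ θ' g S m (z + (0, t)) x with hKs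
    have h7 : ENNReal.ofReal p * Ks ≤ ENNReal.ofReal (23 ^ (2 * n) * 8 * (36 * 290 ^ 2) *
        (A * Gm) ^ 2 * K0 * Y ^ (2 * n)) * Ac n h θ g S M (z + (0, t)) x := by
      refine le_trans ?_ (h6.trans (mul_le_mul' (ENNReal.ofReal_le_ofReal hKle) le_rfl))
      refine mul_le_mul' ?_ le_rfl
      rw [← ENNReal.ofReal_natCast]
      exact ENNReal.ofReal_le_ofReal (Nat.le_ceil p)
    calc Ks = ENNReal.ofReal (1 / p) * (ENNReal.ofReal p * Ks) := by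
          rw [← mul_assoc, ← ENNReal.ofReal_mul (by positivity), one_div,
            inv_mul_cancel₀ hp0.ne', ENNReal.ofReal_one, one_mul]
      _ ≤ ENNReal.ofReal (1 / p) * (ENNReal.ofReal (23 ^ (2 * n) * 8 * (36 * 290 ^ 2) *
            (A * Gm) ^ 2 * K0 * Y ^ (2 * n)) * Ac n h θ g S M (z + (0, t)) x) := by gcongr
      _ = _ := by
          rw [← mul_assoc, ← ENNReal.ofReal_mul (by positivity)]
          congr 2
          ring

open Classical in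
/-- **(H)**: the pointwise input of SUPM for aligned plates. -/
theorem H_al (B : ℕ → ℝ) (n k : ℕ) : ∃ C : ℝ, 0 ≤ C ∧ ∀ h, ParB B h → NearId h (1 / 10) →
    ∀ (A K0 r1 dl Y Gm δ a p pp : ℝ), 1 ≤ A → 1 ≤ K0 → 0 < dl → dl ≤ 1 → 1 ≤ dl * r1 → 1 ≤ Y →
    1 ≤ Gm → 1 ≤ pp → 0 ≤ a → 1 ≤ p → ∀ g : E2 → ℂ, Integrable g → MemLp g 2 →
    ∀ (I1 : Finset ℕ) (P1 : ℕ → Plate), Bs (an r1) (uS I1 P1) →
    (∀ b, Bs (an r1) (Sal δ b I1 P1)) →
    Coh h (an r1) (an (dl * r1)) δ Y (2 * r1) I1 P1 pp →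
    ∀ (b : OrthonormalBasis (Fin 2) ℝ E2) (S' : ℤ × ℤ → Set E2) (z : E2 × ℝ) (c0 : E2),
    (∀ m, MeasurableSet (S' m)) → |z.2| ≤ r1 →
    (∀ m, ∀ y ∈ S' m, |(inner ℝ (gradient h (cen (an (dl * r1)) m) - c0) (b 0) : ℝ)| ≤
      A * (Gm * an (dl * r1))) →
    (∀ m, ∀ y ∈ S' m, ENNReal.ofReal a ≤ Ad n h (an r1) (an (dl * r1)) g (uS I1 P1) m z y) →
    (∀ m, ∀ y ∈ S' m, Ad n h (an r1) (an (dl * r1)) g (uS I1 P1) m z y ≤
      ENNReal.ofReal (8 * a)) →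
    (∀ m, ∀ y ∈ S' m,
      p ≤ (pot n h (an r1) (an (dl * r1)) (an (dl * (dl * r1))) K0 g (uS I1 P1) b z m y : ℝ)) →
    (∀ m, ∀ y ∈ S' m, ‖um (an (dl * r1)) (tr h z (sel (an r1) g (uS I1 P1))) m y‖ ≤
      2 * ‖um (an (dl * r1)) (tr h z (sel (an r1) g (Sal δ b I1 P1))) m y‖) →
    ∀ (x : E2) (t : ℝ), |t| ≤ dl * r1 →
    ∀ M : Finset (ℤ × ℤ), (∀ m ∈ caps (an r1), (∃ m' ∈ caps (an (dl * r1)), (S' m').Nonempty ∧
      ‖gradient h (cen (an r1) m) - gradient h (cen (an (dl * r1)) m')‖ ≤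
        11 / 10 * (16 * an (dl * (dl * r1)) + 3 * an (dl * r1))) → m ∈ M) →
    seP (n + k + 2) (fr b ![(dl * r1) ^ (1/2 : ℝ), r1 ^ (1/2 : ℝ)]) h (dl * r1)
        (tr h z (sel (an r1) g (uS I1 P1))) S' x t ≤
      ENNReal.ofReal ((dl * r1) ^ (1/2 : ℝ) * r1 ^ (1/2 : ℝ)) *
        (ENNReal.ofReal (C * (A * Gm) ^ 2 * K0 * Y ^ (2 * n) * (pp / p)) *
            Ac n h (an r1) g (uS I1 P1) M (z + (0, t)) x +
          ENNReal.ofReal (C * r1 * ((1 + Y) ^ k)⁻¹ * En g)) := by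
  obtain ⟨C1, hC1, H1⟩ := act_le B n k
  obtain ⟨C2, hC2, H2⟩ := row_al n
  obtain ⟨C3, hC3, H3⟩ := sel_energy
  obtain ⟨C4, hC4, H4⟩ := en_le
  refine ⟨C1 * C2 + (81 * C1 * C4 + C4 * C3 * C4), by positivity, ?_⟩
  intro h hh hn A K0 r1 dl Y Gm δ a p pp hA hK0 hdl hdl1 hr hY hGm hpp ha hp g hg hg2 I1 P1 hBs
    hBa hcoh b S' z c0 hS' hz hdir hlo hhi hpot hal x t ht M hM
  obtain ⟨hθ, hθθ', hθ'1, e1, e2, e3, e4, e5, hr1, e6⟩ := an_facts hdl hdl1 hr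
  set θ := an r1 with hθdef
  set θ' := an (dl * r1) with hθ'def
  set θ'' := an (dl * (dl * r1)) with hθ''def
  set S := uS I1 P1 with hS
  set F := tr h z (sel θ g S) with hF
  set W : ℝ := (dl * r1) ^ (1/2 : ℝ) * r1 ^ (1/2 : ℝ) with hW
  have hθ' : 0 < θ' := hθ.trans_le hθθ'
  have hθ1 : θ ≤ 1 := hθθ'.trans hθ'1
  have hr0 : 0 < dl * r1 := by linarith
  have hW1 : 1 ≤ W := by
    rw [hW]
    have k1 : 1 ≤ (dl * r1) ^ (1/2 : ℝ) := Real.one_le_rpow hr (by norm_num)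
    have k2 : 1 ≤ r1 ^ (1/2 : ℝ) := Real.one_le_rpow hr1 (by norm_num)
    nlinarith
  have hY0 : 0 < (1 + Y) ^ k := by positivity
  have hEn : 0 ≤ En g := integral_nonneg fun _ => by positivity
  have hEnl : ∫⁻ ξ, ‖g ξ‖ₑ ^ 2 = ENNReal.ofReal (En g) := lintEn hg2
  have hen : en θ g S ≤ ENNReal.ofReal (C4 * En g) := by
    rw [ENNReal.ofReal_mul hC4, ← hEnl]
    exact H4 θ hθ hθ1 g hg hg2 S
  set c : ℤ × ℤ → E2 := fun m => x + t • gradient h (cen θ' m) with hc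
  have hbx : fr b ![(dl * r1) ^ (1/2 : ℝ), r1 ^ (1/2 : ℝ)] = bx b θ' θ := by
    unfold Up448.bx
    rw [e4, e5]
  set f : ℤ × ℤ → ℝ≥0∞ := fun m => ∫⁻ y in S' m,
    ENNReal.ofReal (dw (n + k + 2) (bx b θ' θ) (y - c m)) * ‖um θ' F m y‖ₑ ^ 2 with hf
  have hse : seP (n + k + 2) (fr b ![(dl * r1) ^ (1/2 : ℝ), r1 ^ (1/2 : ℝ)]) h (dl * r1) F S' x t =
      ∑ m ∈ caps θ', f m := by
    rw [hbx]; rfl
  rw [hse]
  set T : Finset (ℤ × ℤ) := (caps θ').filter fun m =>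
    ∃ y ∈ S' m, θ * ‖y - t • gradient h (cen θ' m) - x‖ ≤ Y with hT
  rw [← Finset.sum_filter_add_sum_filter_not (caps θ')
    (fun m => ∃ y ∈ S' m, θ * ‖y - t • gradient h (cen θ' m) - x‖ ≤ Y)]
  -- active caps
  have a1 : ∑ m ∈ T, f m ≤ ENNReal.ofReal (C1 * W * pp) *
      (ENNReal.ofReal (C2 * (A * Gm) ^ 2 * K0 * Y ^ (2 * n) / p) *
        Ac n h θ g S M (z + (0, t)) x) +
      ENNReal.ofReal (81 * C1 * C4 * W * r1 * ((1 + Y) ^ k)⁻¹ * En g) := by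
    calc ∑ m ∈ T, f m ≤ ∑ m ∈ T, (ENNReal.ofReal (C1 * W * pp) *
          Ad n h θ θ' g S m (z + (0, t)) x +
          ENNReal.ofReal (C1 * W * ((1 + Y) ^ k)⁻¹) * en θ g S) :=
          Finset.sum_le_sum fun m _ => H1 h hh hn r1 dl Y δ pp hdl hdl1 hr hY hpp g hg I1 P1 hBa
            hcoh b S' z hS' hz hal x t ht m
      _ = ENNReal.ofReal (C1 * W * pp) * ∑ m ∈ T, Ad n h θ θ' g S m (z + (0, t)) x +
          (T.card : ℝ≥0∞) * (ENNReal.ofReal (C1 * W * ((1 + Y) ^ k)⁻¹) * en θ g S) := by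
          rw [Finset.sum_add_distrib, Finset.mul_sum, Finset.sum_const, nsmul_eq_mul]
      _ ≤ ENNReal.ofReal (C1 * W * pp) *
          (ENNReal.ofReal (C2 * (A * Gm) ^ 2 * K0 * Y ^ (2 * n) / p) *
            Ac n h θ g S M (z + (0, t)) x) +
          ENNReal.ofReal (81 * (dl * r1)) * (ENNReal.ofReal (C1 * W * ((1 + Y) ^ k)⁻¹) *
            ENNReal.ofReal (C4 * En g)) := by
          refine add_le_add (mul_le_mul' le_rfl ?_) (mul_le_mul' ?_ (mul_le_mul' le_rfl hen))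
          · refine H2 h hn A K0 r1 dl Y Gm a p hA hK0 hdl hdl1 hr hY hGm ha hp g S b S' z c0 hdir
              hlo hhi hpot x t ht T (fun m hm => (Finset.mem_filter.1 hm).2) M ?_
            intro m hm ⟨m', hm', hd⟩
            obtain ⟨hm1, y, hy, -⟩ := Finset.mem_filter.1 hm'
            exact hM m hm ⟨m', hm1, ⟨y, hy⟩, hd⟩
          · have k1 : (T.card : ℝ) ≤ 81 * (θ' ^ 2)⁻¹ := by
              refine le_trans ?_ (card_caps_le' hθ' hθ'1)
              exact_mod_cast Finset.card_le_card (Finset.filter_subset _ _)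
            have k2 : (θ' ^ 2)⁻¹ = dl * r1 := by
              rw [inv_eq_one_div, div_eq_iff (by positivity)]
              linarith [e2]
            rw [k2] at k1
            rw [← ENNReal.ofReal_natCast]
            exact ENNReal.ofReal_le_ofReal k1
      _ ≤ _ := by
          refine add_le_add le_rfl ?_
          rw [← ENNReal.ofReal_mul (by positivity), ← ENNReal.ofReal_mul (by positivity)]
          refine ENNReal.ofReal_le_ofReal ?_
          have k3 : dl * r1 ≤ r1 := by nlinarith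
          calc 81 * (dl * r1) * (C1 * W * ((1 + Y) ^ k)⁻¹ * (C4 * En g))
              ≤ 81 * r1 * (C1 * W * ((1 + Y) ^ k)⁻¹ * (C4 * En g)) := by gcongr
            _ = _ := by ring
  -- inactive caps
  have a2 : ∑ m ∈ (caps θ').filter (fun m => ¬ ∃ y ∈ S' m,
      θ * ‖y - t • gradient h (cen θ' m) - x‖ ≤ Y), f m ≤
      ENNReal.ofReal (((1 + Y) ^ k)⁻¹ * (C4 * (C3 * (C4 * En g)))) := by
    have k1 : ∀ m ∈ (caps θ').filter (fun m => ¬ ∃ y ∈ S' m,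
        θ * ‖y - t • gradient h (cen θ' m) - x‖ ≤ Y), f m ≤
        ENNReal.ofReal (((1 + Y) ^ k)⁻¹) * ∫⁻ y in S' m, ‖um θ' F m y‖ₑ ^ 2 := by
      intro m hm
      have hm2 := (Finset.mem_filter.1 hm).2
      push Not at hm2
      rw [hf, ← lintegral_const_mul' _ _ ENNReal.ofReal_ne_top]
      refine setLIntegral_mono' (hS' m) fun y hy => mul_le_mul' (ENNReal.ofReal_le_ofReal ?_) le_rfl
      refine dw_far _ k (by omega) b hθ hθθ' hY ?_
      have := hm2 y hy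
      have e : y - c m = y - t • gradient h (cen θ' m) - x := by
        show y - (x + t • gradient h (cen θ' m)) = _
        abel
      rwa [e]
    refine (Finset.sum_le_sum k1).trans ?_
    rw [← Finset.mul_sum]
    have k2 : ∑ m ∈ (caps θ').filter (fun m => ¬ ∃ y ∈ S' m,
        θ * ‖y - t • gradient h (cen θ' m) - x‖ ≤ Y), ∫⁻ y in S' m, ‖um θ' F m y‖ₑ ^ 2 ≤
        en θ' F S' := by
      unfold en
      exact Finset.sum_le_sum_of_subset (Finset.filter_subset _ _)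
    obtain ⟨s1, s2⟩ := sel_int hθ hg hBs
    have k3 : en θ' F S' ≤ ENNReal.ofReal (C4 * (C3 * (C4 * En g))) := by
      refine (H4 θ' hθ' hθ'1 F (tr_int hh.1.continuous s1 z)
        (tr_l2 hh.1.continuous s2 z) S').trans ?_
      rw [ENNReal.ofReal_mul hC4]
      refine mul_le_mul' le_rfl ?_
      have k4 : ∫⁻ ξ, ‖F ξ‖ₑ ^ 2 = ∫⁻ ξ, ‖sel θ g S ξ‖ₑ ^ 2 := by
        refine lintegral_congr fun ξ => ?_
        rw [hF, enorm_tr]
      rw [k4]
      refine (H3 θ hθ hθ1 g hg S hBs).trans ?_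
      rw [ENNReal.ofReal_mul hC3]
      exact mul_le_mul' le_rfl hen
    rw [ENNReal.ofReal_mul (by positivity)]
    exact mul_le_mul' le_rfl (k2.trans k3)
  refine (add_le_add a1 a2).trans ?_
  set C := C1 * C2 + (81 * C1 * C4 + C4 * C3 * C4) with hC
  have hp0 : 0 < p := by linarith
  have g1 : ENNReal.ofReal (C1 * W * pp) *
      (ENNReal.ofReal (C2 * (A * Gm) ^ 2 * K0 * Y ^ (2 * n) / p) *
        Ac n h θ g S M (z + (0, t)) x) =
      ENNReal.ofReal (C1 * W * pp * (C2 * (A * Gm) ^ 2 * K0 * Y ^ (2 * n) / p)) *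
        Ac n h θ g S M (z + (0, t)) x := by
    rw [← mul_assoc, ← ENNReal.ofReal_mul (by positivity)]
  have g2 : ENNReal.ofReal W * (ENNReal.ofReal (C * (A * Gm) ^ 2 * K0 * Y ^ (2 * n) * (pp / p)) *
        Ac n h θ g S M (z + (0, t)) x + ENNReal.ofReal (C * r1 * ((1 + Y) ^ k)⁻¹ * En g)) =
      ENNReal.ofReal (W * (C * (A * Gm) ^ 2 * K0 * Y ^ (2 * n) * (pp / p))) *
        Ac n h θ g S M (z + (0, t)) x +
        ENNReal.ofReal (W * (C * r1 * ((1 + Y) ^ k)⁻¹ * En g)) := by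
    rw [mul_add, ← mul_assoc, ← ENNReal.ofReal_mul (by positivity),
      ← ENNReal.ofReal_mul (by positivity)]
  rw [g1, g2, add_assoc, ← ENNReal.ofReal_add (by positivity) (by positivity)]
  refine add_le_add (mul_le_mul' (ENNReal.ofReal_le_ofReal ?_) le_rfl)
    (ENNReal.ofReal_le_ofReal ?_)
  · calc C1 * W * pp * (C2 * (A * Gm) ^ 2 * K0 * Y ^ (2 * n) / p)
        = W * ((C1 * C2) * (A * Gm) ^ 2 * K0 * Y ^ (2 * n) * (pp / p)) := by ring
      _ ≤ W * (C * (A * Gm) ^ 2 * K0 * Y ^ (2 * n) * (pp / p)) := by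
          have : C1 * C2 ≤ C := by rw [hC]; linarith [show 0 ≤ 81 * C1 * C4 + C4 * C3 * C4 by positivity]
          gcongr
  · have k5 : ((1 + Y) ^ k)⁻¹ * (C4 * (C3 * (C4 * En g))) ≤
        (C4 * C3 * C4) * W * r1 * ((1 + Y) ^ k)⁻¹ * En g := by
      have k6 : 1 ≤ W * r1 := by nlinarith
      calc ((1 + Y) ^ k)⁻¹ * (C4 * (C3 * (C4 * En g)))
          = (C4 * C3 * C4) * 1 * ((1 + Y) ^ k)⁻¹ * En g := by ring
        _ ≤ (C4 * C3 * C4) * (W * r1) * ((1 + Y) ^ k)⁻¹ * En g := by gcongr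
        _ = _ := by ring
    calc _ ≤ 81 * C1 * C4 * W * r1 * ((1 + Y) ^ k)⁻¹ * En g +
          (C4 * C3 * C4) * W * r1 * ((1 + Y) ^ k)⁻¹ * En g := by linarith
      _ = (81 * C1 * C4 + C4 * C3 * C4) * (W * r1 * ((1 + Y) ^ k)⁻¹ * En g) := by ring
      _ ≤ C * (W * r1 * ((1 + Y) ^ k)⁻¹ * En g) := by
          have : 81 * C1 * C4 + C4 * C3 * C4 ≤ C := by rw [hC]; linarith [show 0 ≤ C1 * C2 by positivity]
          gcongr
      _ = _ := by ring

end Crest.Agent.R138.Al878
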