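import Crest.Agent.R138.Sm5_858
import Crest.Agent.R138.Wpk6_685

/-!
# R138 / R139, wave side (helper858): SUPM composed with the Kakeya bound for packet densities
-/

set_option autoImplicit false

open MeasureTheory FourierTransform
open scoped ContDiff ENNReal

namespace Crest.Agent.R138.Sm858

open Crest.Agent.R138.Defs Crest.Agent.R138.Wf448
open Crest.Agent.R138.Ker858 (rect)
open Crest.Agent.R138.Sup882 (iso dw_iso grad_lip norm_le_of_inner sides_pos card_sep_le)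
open Crest.Agent.R138.Wpk685 (cap win cen caps um sel Bs Dens pbox en)
open Crest.Agent.R138.Bn759 (nearId)
open Crest.Agent.R138.W188 (Plate Plates val Sd tr En)
open Crest.Agent.R138.Low448 (fr)
open Crest.Agent.R138.Ad480 (wa Ac Ad measurable_Ac_xt)
open Crest.Agent.R138.Loc878 (nearL mem_nearL Near)

open Classical in
/-- caps of level `θ` with velocity near the velocity cell `k` of side `s`. -/
noncomputable def Mc (h : E2 → ℝ) (θ s Λ : ℝ) (k : ℤ × ℤ) : Finset (ℤ × ℤ) :=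
  (caps θ).filter fun m => ‖gradient h (cen θ m) - cen s k‖ ≤ Λ * s

/-- velocity cell of side `s` of the velocity `c`. -/
noncomputable def labc (s : ℝ) (c : E2) : ℤ × ℤ := (⌊c 0 / s⌋, ⌊c 1 / s⌋)

theorem mem_Mc {h : E2 → ℝ} {θ s Λ : ℝ} {k m : ℤ × ℤ} :
    m ∈ Mc h θ s Λ k ↔ m ∈ caps θ ∧ ‖gradient h (cen θ m) - cen s k‖ ≤ Λ * s := by
  unfold Mc; rw [Finset.mem_filter]

theorem labc_near {s : ℝ} (hs : 0 < s) (c : E2) : ‖c - cen s (labc s c)‖ ≤ 2 * s := by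
  have h : ∀ i : Fin 2, |c i - cen s (labc s c) i| ≤ s := by
    intro i
    have h1 : cen s (labc s c) i = s * (⌊c i / s⌋ : ℝ) := by
      fin_cases i
      · exact Wpk685.cen_zero _ _
      · exact Wpk685.cen_one _ _
    rw [h1]
    have h2 := Int.floor_le (c i / s)
    have h3 := Int.lt_floor_add_one (c i / s)
    have h4 : c i = s * (c i / s) := by field_simp
    have h5 : c i - s * (⌊c i / s⌋ : ℝ) = s * (c i / s - ⌊c i / s⌋) := by
      rw [mul_sub, ← h4]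
    rw [h5, abs_mul, abs_of_pos hs, abs_of_nonneg (by linarith)]
    exact mul_le_of_le_one_right hs.le (by linarith)
  refine le_of_sq_le_sq ?_ (by positivity)
  rw [EuclideanSpace.norm_sq_eq, Fin.sum_univ_two]
  simp only [PiLp.sub_apply, Real.norm_eq_abs]
  have h0 := h 0
  have h1 := h 1
  have := abs_nonneg (c 0 - cen s (labc s c) 0)
  have := abs_nonneg (c 1 - cen s (labc s c) 1)
  nlinarith

/-- a cap with velocity near the centre of the plate is in the family of the plate. -/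
theorem mem_Mc_of {h : E2 → ℝ} {θ s Λ : ℝ} (hs : 0 < s) {c : E2} {m : ℤ × ℤ} (hm : m ∈ caps θ)
    (hd : ‖gradient h (cen θ m) - c‖ ≤ (Λ - 2) * s) : m ∈ Mc h θ s Λ (labc s c) := by
  refine mem_Mc.2 ⟨hm, ?_⟩
  calc ‖gradient h (cen θ m) - cen s (labc s c)‖
      = ‖(gradient h (cen θ m) - c) + (c - cen s (labc s c))‖ := by rw [sub_add_sub_cancel]
    _ ≤ _ := norm_add_le _ _
    _ ≤ (Λ - 2) * s + 2 * s := add_le_add hd (labc_near hs c)
    _ = Λ * s := by ring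

/-- **Kakeya bound for the packet densities** (882's `kmca`, as a hypothesis). -/
def KMCA (B : ℕ → ℝ) (q A L Λ : ℝ) : Prop :=
  ∀ ε : ℝ, 0 < ε → ∃ n0 : ℕ, ∀ n : ℕ, n0 ≤ n → ∃ C : ℝ, 0 ≤ C ∧
  ∀ h, ParB B h → fderiv ℝ h 0 = 0 → ∀ R : ℝ, 1 ≤ R → ∀ (g : E2 → ℂ) (S : ℤ × ℤ → Set E2),
    Integrable g → MemLp g 2 →
    (∀ m, MeasurableSet (S m)) → (∀ m, ∀ y ∈ S m, ‖y‖ ≤ A * R) → ∀ Δ : ℝ, 0 ≤ Δ →
    Dens q h R g S Δ → ∀ s : ℝ, R ^ (-(1/2) : ℝ) ≤ s → s ≤ 1 →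
    ∀ (K : Finset (ℤ × ℤ)) (M : ℤ × ℤ → Finset (ℤ × ℤ)),
    (∀ k ∈ K, M k ⊆ caps (R ^ (-(1/2) : ℝ)) ∧
      ∀ m ∈ M k, ‖gradient h (cen (R ^ (-(1/2) : ℝ)) m) - cen s k‖ ≤ Λ * s) →
    ∑ k ∈ K, ∫⁻ t in Set.Icc (-(L * R)) (L * R), ∫⁻ x,
      Ac n h (R ^ (-(1/2) : ℝ)) g S (M k) (0, t) x ^ (3 / 2 : ℝ) ≤
      ENNReal.ofReal (C * R ^ ε * s ^ (q / 2) * Real.sqrt Δ * R) * en (R ^ (-(1/2) : ℝ)) g S

/-- energy of all plates. -/
theorem sum_en_plates : ∃ C : ℝ, 0 ≤ C ∧ ∀ (A : ℝ) (h : E2 → ℝ), Continuous h → ∀ g : E2 → ℂ,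
    Integrable g → MemLp g 2 → ∀ r s1 s2 R : ℝ, 1 ≤ r → r ≤ R →
    ∀ (I : Finset ℕ) (P : ℕ → Plate), Plates A h r s1 s2 R I P →
    ∑ i ∈ I, en (r ^ (-(1/2) : ℝ)) (tr h (P i).z g) (P i).S ≤
      ENNReal.ofReal (C * (R / r) ^ 3) * ∫⁻ ξ, ‖g ξ‖ₑ ^ 2 := by
  classical
  obtain ⟨C0, hC0, h0⟩ := Wpk685.en_le
  refine ⟨64 * C0, by positivity, ?_⟩
  intro A h hh g hg hg2 r s1 s2 R hr hrR I P hP
  have hr0 : 0 < r := by linarith
  have hR0 : 0 < R := by linarith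
  set ρ : ℝ := r ^ (-(1/2) : ℝ) with hρdef
  have hρ : 0 < ρ := Real.rpow_pos_of_pos hr0 _
  have hρ1 : ρ ≤ 1 := Real.rpow_le_one_of_one_le_of_nonpos hr (by norm_num)
  set Z : Finset (E2 × ℝ) := I.image fun i => (P i).z with hZ
  have hone : ∀ ζ ∈ Z, ∑ i ∈ I.filter (fun i => (P i).z = ζ), en ρ (tr h (P i).z g) (P i).S ≤
      ENNReal.ofReal C0 * ∫⁻ ξ, ‖g ξ‖ₑ ^ 2 := by
    intro ζ _
    have h1 : ∑ i ∈ I.filter (fun i => (P i).z = ζ), en ρ (tr h (P i).z g) (P i).S ≤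
        en ρ (tr h ζ g) (fun _ => Set.univ) := by
      have e1 : ∑ i ∈ I.filter (fun i => (P i).z = ζ), en ρ (tr h (P i).z g) (P i).S =
          ∑ m ∈ caps ρ, ∑ i ∈ I.filter (fun i => (P i).z = ζ),
            ∫⁻ y in (P i).S m, ‖um ρ (tr h ζ g) m y‖ₑ ^ 2 := by
        rw [Finset.sum_comm]
        refine Finset.sum_congr rfl fun i hi => ?_
        rw [(Finset.mem_filter.1 hi).2]
        rfl
      rw [e1]
      unfold en
      refine Finset.sum_le_sum fun m _ => ?_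
      have h3 := lintegral_biUnion_finset (μ := (volume : Measure E2))
        (s := I.filter (fun i => (P i).z = ζ)) (t := fun i => (P i).S m)
        (fun i hi j hj hij => hP.disj i (Finset.mem_filter.1 hi).1 j (Finset.mem_filter.1 hj).1 hij
          ((Finset.mem_filter.1 hi).2.trans (Finset.mem_filter.1 hj).2.symm) m)
        (fun i hi => hP.meas i (Finset.mem_filter.1 hi).1 m)
        (fun y => ‖um ρ (tr h ζ g) m y‖ₑ ^ 2)
      rw [← h3]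
      exact lintegral_mono_set (Set.subset_univ _)
    refine h1.trans ((h0 ρ hρ hρ1 _ (Sup882.tr_integrable hh ζ hg) (Sup882.tr_memLp hh ζ hg2)
      _).trans (le_of_eq ?_))
    congr 1
    refine lintegral_congr fun ξ => ?_
    congr 1
    show ‖g ξ * ee (inner ℝ ζ.1 ξ + ζ.2 * h ξ)‖ₑ = ‖g ξ‖ₑ
    rw [enorm_mul, ← ofReal_norm (ee _), norm_ee, ENNReal.ofReal_one, mul_one]
  have hcard : (Z.card : ℝ) ≤ 64 * (R / r) ^ 3 := by
    have h1 := card_sep_le hr0 (K := R / r) (by positivity) Z (by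
      intro x hx y hy hxy
      obtain ⟨i, hi, rfl⟩ := Finset.mem_image.1 hx
      obtain ⟨j, hj, rfl⟩ := Finset.mem_image.1 hy
      rcases hP.sep i hi j hj with h2 | h2 | h2
      · exact absurd h2 hxy
      · rw [Prod.dist_eq, dist_eq_norm]; exact le_max_of_le_left h2
      · rw [Prod.dist_eq, Real.dist_eq]; exact le_max_of_le_right h2) 0 (by
      intro x hx
      obtain ⟨i, hi, rfl⟩ := Finset.mem_image.1 hx
      have h2 := hP.mem i hi
      rw [div_mul_cancel₀ _ hr0.ne', dist_zero_right, Prod.norm_def]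
      exact max_le h2.1 h2.2)
    have h3 : 1 ≤ R / r := by rw [one_le_div hr0]; exact hrR
    calc (Z.card : ℝ) ≤ (2 * (R / r) + 2) ^ 3 := h1
      _ ≤ (4 * (R / r)) ^ 3 := by gcongr; linarith
      _ = _ := by ring
  have hsplit := Finset.sum_fiberwise_of_maps_to (s := I) (t := Z) (g := fun i => (P i).z)
    (fun i hi => Finset.mem_image_of_mem _ hi) (fun i => en ρ (tr h (P i).z g) (P i).S)
  rw [← hsplit]
  calc _ ≤ ∑ ζ ∈ Z, ENNReal.ofReal C0 * ∫⁻ ξ, ‖g ξ‖ₑ ^ 2 := Finset.sum_le_sum hone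
    _ = ENNReal.ofReal (Z.card : ℝ) * (ENNReal.ofReal C0 * ∫⁻ ξ, ‖g ξ‖ₑ ^ 2) := by
        rw [Finset.sum_const, nsmul_eq_mul, ENNReal.ofReal_natCast]
    _ ≤ ENNReal.ofReal (64 * (R / r) ^ 3) * (ENNReal.ofReal C0 * ∫⁻ ξ, ‖g ξ‖ₑ ^ 2) := by gcongr
    _ = _ := by
        rw [← mul_assoc, ← ENNReal.ofReal_mul (by positivity)]
        congr 2; ring

/-- **SUPM ∘ KMCA.** -/
theorem SUPM_K (B : ℕ → ℝ) (hB : B 2 ≤ 1 / 10) (A : ℝ) (hA : 1 ≤ A) (q Λ : ℝ)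
    (hΛ : 2 * A + 6 ≤ Λ) (hK : KMCA B q A 2 Λ) :
    ∀ ε : ℝ, 0 < ε → ∃ n0 : ℕ, ∀ n : ℕ, n0 ≤ n → ∀ N : ℕ, n ≤ 2 * N → ∃ C : ℝ, 0 ≤ C ∧
    ∀ h : E2 → ℝ, ParB B h → fderiv ℝ h 0 = 0 →
    ∀ f : E2 → ℂ, Integrable f → MemLp f 2 →
    ∀ r s1 s2 R : ℝ, 1 ≤ r → (3 * A + 8) * r ≤ R → Sd r s1 s2 → R ^ (1/2 : ℝ) ≤ s2 * r →
    ∀ S : ℤ × ℤ → Set E2, (∀ m, MeasurableSet (S m)) → (∀ m, ∀ y ∈ S m, ‖y‖ ≤ A * R) →
    ∀ D : ℝ, 0 ≤ D → Dens q h R f S D →
    ∀ (I : Finset ℕ) (P : ℕ → Plate), Plates A h r s1 s2 R I P →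
    ∀ Mu τ : ℝ, 0 ≤ Mu → 0 ≤ τ →
    (∀ i ∈ I, ∀ x t, |t| ≤ r →
      x ∈ rect ((P i).x - t • (P i).c) (P i).b (fun j => ![s1, s2] j * r) (2 + 2 * A) →
      seP (N + 2) (fr (P i).b ![r ^ (1 / 2 : ℝ), R ^ (1/2 : ℝ)]) h r
          (tr h (P i).z (sel (R ^ (-(1/2) : ℝ)) f S)) (P i).S x t ≤
        ENNReal.ofReal (r ^ (1 / 2 : ℝ) * R ^ (1/2 : ℝ)) *
          (ENNReal.ofReal Mu * Ac n h (R ^ (-(1/2) : ℝ)) f S
              (Mc h (R ^ (-(1/2) : ℝ)) s2 Λ (labc s2 (P i).c)) ((P i).z + (0, t)) x +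
            ENNReal.ofReal τ)) →
    ENNReal.ofReal (s2 ^ (-q / 2)) * val h (sel (R ^ (-(1/2) : ℝ)) f S) r s1 s2 I P ≤
      ENNReal.ofReal (C * Mu ^ (1 / 2 : ℝ) * R ^ ε) *
          (ENNReal.ofReal (R * Real.sqrt D) * en (R ^ (-(1/2) : ℝ)) f S) +
        ENNReal.ofReal (s2 ^ (-q / 2) * C * τ ^ (1 / 2 : ℝ) * r) *
          ∑ i ∈ I, en (r ^ (-(1/2) : ℝ))
            (tr h (P i).z (sel (R ^ (-(1/2) : ℝ)) f S)) (P i).S := by
  classical
  intro ε hε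
  obtain ⟨n0, hn0⟩ := hK ε hε
  refine ⟨n0, ?_⟩
  intro n hn N hN
  obtain ⟨C1, hC1, h1⟩ := hn0 n hn
  obtain ⟨C2, hC2, h2⟩ := SUPM_Ac B hB A hA n N hN
  refine ⟨C2 * C1 + C2, by positivity, ?_⟩
  intro h hh hh1 f hf hf2 r s1 s2 R hr hR hs hws S hSm hSb D hD hDens I P hP Mu τ hMu hτ hH
  have hr0 : 0 < r := by linarith
  have hrR : r ≤ R := by nlinarith
  have hR1 : 1 ≤ R := hr.trans hrR
  have hR0 : 0 < R := by linarith
  have hn2 := nearId hB hh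
  obtain ⟨hs1, hs2⟩ := sides_pos hr hs
  set θ : ℝ := R ^ (-(1/2) : ℝ) with hθdef
  set θ' : ℝ := r ^ (-(1/2) : ℝ) with hθ'def
  have hθ : 0 < θ := Real.rpow_pos_of_pos hR0 _
  have hθ' : 0 < θ' := Real.rpow_pos_of_pos hr0 _
  have hθθ' : θ ≤ θ' := Real.rpow_le_rpow_of_nonpos hr0 hrR (by norm_num)
  have hθ's2 : θ' ≤ s2 := hs.lo.trans hs.le
  have hBs : Bs θ S := ⟨fun m _ => hSm m, fun m _ => by
    refine (Metric.isBounded_closedBall (x := (0 : E2)) (r := A * R)).subset fun y hy => ?_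
    rw [mem_closedBall_zero_iff]; exact hSb m y hy⟩
  set K : Finset (ℤ × ℤ) := I.image fun i => labc s2 (P i).c with hKdef
  have h3 := h2 h hh hh1 f hf r s1 s2 R hr hR hs hws S hBs I P hP (ℤ × ℤ) K
    (fun i => labc s2 (P i).c) (fun i hi => Finset.mem_image_of_mem _ hi)
    (fun k => Mc h θ s2 Λ k) (by
      intro i hi m' _ hne m hm
      obtain ⟨hm1, hm2⟩ := mem_nearL.1 hm
      unfold Near at hm2
      refine mem_Mc_of hs2 hm1 ?_
      obtain ⟨y, hy⟩ := hne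
      have h4 : ‖gradient h (cen θ' m') - (P i).c‖ ≤ 2 * (A * s2) := by
        refine norm_le_of_inner (P i).b _ (by positivity) fun j => ?_
        refine ((hP.box i hi m' hy).1 j).trans ?_
        have : ![s1, s2] j ≤ s2 := by fin_cases j <;> simp [hs.le]
        exact mul_le_mul_of_nonneg_left this (by linarith)
      have h5 : ‖gradient h (cen θ m) - gradient h (cen θ' m')‖ ≤ 11 / 10 * (3 * s2) := by
        refine (grad_lip hn2 _ _).trans ?_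
        have : 3 * θ' ≤ 3 * s2 := by linarith
        linarith [hm2.le]
      calc ‖gradient h (cen θ m) - (P i).c‖
          = ‖(gradient h (cen θ m) - gradient h (cen θ' m')) +
              (gradient h (cen θ' m') - (P i).c)‖ := by rw [sub_add_sub_cancel]
        _ ≤ _ := norm_add_le _ _
        _ ≤ 11 / 10 * (3 * s2) + 2 * (A * s2) := add_le_add h5 h4
        _ ≤ (Λ - 2) * s2 := by nlinarith)
    Mu τ hMu hτ hH
  have hcyl : cyl (2 * R) ⊆ (Set.univ : Set E2) ×ˢ Set.Icc (-(2 * R)) (2 * R) := by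
    intro p hp
    exact ⟨Set.mem_univ _, abs_le.1 hp.2⟩
  have hint : ∀ k, ∫⁻ p in cyl (2 * R), Ac n h θ f S (Mc h θ s2 Λ k) (0, p.2) p.1 ^ (3 / 2 : ℝ) ≤
      ∫⁻ t in Set.Icc (-(2 * R)) (2 * R), ∫⁻ x,
        Ac n h θ f S (Mc h θ s2 Λ k) (0, t) x ^ (3 / 2 : ℝ) := by
    intro k
    have hm0 := measurable_Ac_xt (n := n) (h := h) (S := S) hθ.le hf (Mc h θ s2 Λ k) 0
    have hm : Measurable fun p : E2 × ℝ =>
        Ac n h θ f S (Mc h θ s2 Λ k) (0, p.2) p.1 ^ (3 / 2 : ℝ) := by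
      have h6 : Measurable fun p : E2 × ℝ => Ac n h θ f S (Mc h θ s2 Λ k) (0, p.2) p.1 := by
        simpa using hm0
      exact h6.pow_const _
    refine (lintegral_mono_set hcyl).trans (le_of_eq ?_)
    rw [Measure.volume_eq_prod, ← Measure.prod_restrict, Measure.restrict_univ]
    exact lintegral_prod_symm _ hm.aemeasurable
  have hθs2 : θ ≤ s2 := hθθ'.trans hθ's2
  have h4 := h1 h hh hh1 R hR1 f S hf hf2 hSm hSb D hD hDens s2 hθs2 hs.hi K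
    (fun k => Mc h θ s2 Λ k)
    (fun k _ => ⟨Finset.filter_subset _ _, fun m hm => (mem_Mc.1 hm).2⟩)
  have h5 := (Finset.sum_le_sum fun k (_ : k ∈ K) => hint k).trans h4
  set E := en θ f S with hE
  set E' := ∑ i ∈ I, en θ' (tr h (P i).z (sel θ f S)) (P i).S with hE'
  have hs2q : s2 ^ (-q / 2) * s2 ^ (q / 2) = 1 := by
    rw [← Real.rpow_add hs2]
    have : -q / 2 + q / 2 = 0 := by ring
    rw [this, Real.rpow_zero]
  have hs2p : 0 ≤ s2 ^ (-q / 2) := (Real.rpow_pos_of_pos hs2 _).le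
  calc ENNReal.ofReal (s2 ^ (-q / 2)) * val h (sel θ f S) r s1 s2 I P
      ≤ ENNReal.ofReal (s2 ^ (-q / 2)) * (ENNReal.ofReal (C2 * Mu ^ (1 / 2 : ℝ)) *
          (ENNReal.ofReal (C1 * R ^ ε * s2 ^ (q / 2) * Real.sqrt D * R) * E) +
        ENNReal.ofReal (C2 * τ ^ (1 / 2 : ℝ)) * (ENNReal.ofReal r * E')) := by
        refine mul_le_mul' le_rfl (h3.trans (add_le_add (mul_le_mul' le_rfl h5) le_rfl))
    _ = ENNReal.ofReal (s2 ^ (-q / 2) * (C2 * Mu ^ (1 / 2 : ℝ)) *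
          (C1 * R ^ ε * s2 ^ (q / 2) * Real.sqrt D * R)) * E +
        ENNReal.ofReal (s2 ^ (-q / 2) * (C2 * τ ^ (1 / 2 : ℝ)) * r) * E' := by
        rw [mul_add, ← mul_assoc, ← mul_assoc, ← mul_assoc, ← mul_assoc,
          ← ENNReal.ofReal_mul hs2p, ← ENNReal.ofReal_mul (by positivity),
          ← ENNReal.ofReal_mul hs2p, ← ENNReal.ofReal_mul (by positivity)]
    _ ≤ _ := by
        refine add_le_add ?_ (mul_le_mul' (ENNReal.ofReal_le_ofReal ?_) le_rfl)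
        · rw [← mul_assoc (ENNReal.ofReal _) (ENNReal.ofReal _) E,
            ← ENNReal.ofReal_mul (by positivity)]
          refine mul_le_mul' (ENNReal.ofReal_le_ofReal ?_) le_rfl
          calc s2 ^ (-q / 2) * (C2 * Mu ^ (1 / 2 : ℝ)) *
              (C1 * R ^ ε * s2 ^ (q / 2) * Real.sqrt D * R)
              = (s2 ^ (-q / 2) * s2 ^ (q / 2)) * (C2 * C1) *
                (Mu ^ (1 / 2 : ℝ) * R ^ ε * (R * Real.sqrt D)) := by ring
            _ = (C2 * C1) * (Mu ^ (1 / 2 : ℝ) * R ^ ε * (R * Real.sqrt D)) := by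
                rw [hs2q, one_mul]
            _ ≤ (C2 * C1 + C2) * (Mu ^ (1 / 2 : ℝ) * R ^ ε * (R * Real.sqrt D)) := by
                gcongr
                linarith
            _ = _ := by ring
        · calc s2 ^ (-q / 2) * (C2 * τ ^ (1 / 2 : ℝ)) * r
              = C2 * (s2 ^ (-q / 2) * τ ^ (1 / 2 : ℝ) * r) := by ring
            _ ≤ (C2 * C1 + C2) * (s2 ^ (-q / 2) * τ ^ (1 / 2 : ℝ) * r) := by
                gcongr
                have := mul_nonneg hC2 hC1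
                linarith
            _ = _ := by ring

end Crest.Agent.R138.Sm858
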