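import Crest.Agent.R138.Al1_878
import Crest.Agent.R138.Sm6_858
import Crest.Agent.R138.Kcc5_882

/-!
# R138 / R139, wave side, AL (helper878), part 2: assembly

`AL` of PDef_654 = SUPM (882, 858) ∘ (H) (Al1_878: UPPER 448, coherence, LOWER 759 / 480) ∘ KMC
(882).
-/

set_option autoImplicit false

open MeasureTheory FourierTransform
open scoped ContDiff ENNReal

namespace Crest.Agent.R138.Al878

open Crest.Agent.R138.Defs Crest.Agent.R138.W188 Crest.Agent.R138.Wpk685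
open Crest.Agent.R138.Loc878 Crest.Agent.R138.Ad480 Crest.Agent.R138.Rect779
open Crest.Agent.R138.P654
open Crest.Agent.R138.Bil882 (NearId)
open Crest.Agent.R138.Low448 (fr)
open Crest.Agent.R138.Sm858 (seP Mc labc mem_Mc_of KMCA SUPM_K sum_en_plates)
open Crest.Agent.R138.Sup882 (grad_lip norm_le_of_inner sides_pos)
open Crest.Agent.R138.Bn759 (nearId)

theorem sal_eq (δ : ℝ) (b : OrthonormalBasis (Fin 2) ℝ E2) (I1 : Finset ℕ) (P1 : ℕ → Plate)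
    (m : ℤ × ℤ) : Sal δ b I1 P1 m = ⋃ i ∈ {i | i ∈ I1 ∧ sn b (P1 i).b ≤ δ}, (P1 i).S m := by
  ext y
  simp only [Set.mem_iUnion, Set.mem_ofPred_eq, exists_prop]
  constructor
  · rintro ⟨i, h1, h2, h3⟩
    exact ⟨i, ⟨h1, h2⟩, h3⟩
  · rintro ⟨i, ⟨h1, h2⟩, h3⟩
    exact ⟨i, h1, h2, h3⟩

theorem sal_sub (δ : ℝ) (b : OrthonormalBasis (Fin 2) ℝ E2) (I1 : Finset ℕ) (P1 : ℕ → Plate)
    (m : ℤ × ℤ) : Sal δ b I1 P1 m ⊆ uS I1 P1 m := by
  rintro y ⟨i, hi, -, hy⟩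
  exact Set.mem_biUnion hi hy

theorem uS_meas {I1 : Finset ℕ} {P1 : ℕ → Plate}
    (h : ∀ i ∈ I1, ∀ m, MeasurableSet ((P1 i).S m)) (m : ℤ × ℤ) : MeasurableSet (uS I1 P1 m) :=
  Finset.measurableSet_biUnion _ fun i hi => h i hi m

theorem sal_meas {I1 : Finset ℕ} {P1 : ℕ → Plate} {δ : ℝ} {b : OrthonormalBasis (Fin 2) ℝ E2}
    (h : ∀ i ∈ I1, ∀ m, MeasurableSet ((P1 i).S m)) (m : ℤ × ℤ) :
    MeasurableSet (Sal δ b I1 P1 m) := by
  rw [sal_eq]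
  refine MeasurableSet.biUnion ?_ fun i hi => h i hi.1 m
  exact (I1.finite_toSet.subset fun i hi => hi.1).countable

theorem bs_of {q A c0 : ℝ} {h : E2 → ℝ} {g : E2 → ℂ} {r1 s1 s2 D : ℝ} {I1 : Finset ℕ}
    {P1 : ℕ → Plate} (H : Par q A c0 h g r1 s1 s2 D I1 P1) (θ : ℝ) : Bs θ (uS I1 P1) :=
  ⟨fun m _ => uS_meas H.meas m, fun m _ => Metric.isBounded_closedBall.subset (H.bd m)⟩

theorem bsal_of {q A c0 : ℝ} {h : E2 → ℝ} {g : E2 → ℂ} {r1 s1 s2 D : ℝ} {I1 : Finset ℕ}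
    {P1 : ℕ → Plate} (H : Par q A c0 h g r1 s1 s2 D I1 P1) (θ δ : ℝ)
    (b : OrthonormalBasis (Fin 2) ℝ E2) : Bs θ (Sal δ b I1 P1) :=
  ⟨fun m _ => sal_meas H.meas m, fun m _ =>
    Metric.isBounded_closedBall.subset ((sal_sub δ b I1 P1 m).trans (H.bd m))⟩

/-- the tail of SUPM_K is a tail of AL. -/
theorem tail_al (M : ℕ) {C1 C2 C3 C4 r1 r Y E s2 q : ℝ} (hC1 : 0 ≤ C1) (hC2 : 0 ≤ C2)
    (hC3 : 0 ≤ C3) (hC4 : 0 ≤ C4) (hr : 1 ≤ r) (hrr : r1 / r ≤ r1) (hr1 : r ≤ r1) (hY : 1 ≤ Y)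
    (hE : 0 ≤ E) (hs : r ^ (-(1/2) : ℝ) ≤ s2) (hq : 0 ≤ q) (hq4 : q ≤ 4) :
    s2 ^ (-q / 2) * C1 * (C2 * r1 * ((1 + Y) ^ (2 * M))⁻¹ * E) ^ (1/2 : ℝ) * r *
      (C3 * (r1 / r) ^ 3 * (C4 * E)) ≤
    C1 * C2 ^ (1/2 : ℝ) * C3 * C4 * r1 ^ (20 : ℕ) * (Y ^ M)⁻¹ * (E ^ (1/2 : ℝ) * E) := by
  have hr0 : 0 < r := by linarith
  have hr11 : 1 ≤ r1 := hr.trans hr1
  have hr10 : 0 < r1 := by linarith
  have h0 : 0 < r ^ (-(1/2) : ℝ) := Real.rpow_pos_of_pos hr0 _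
  have h1 : s2 ^ (-q / 2) ≤ r1 := by
    calc s2 ^ (-q / 2) ≤ (r ^ (-(1/2) : ℝ)) ^ (-q / 2) :=
          Real.rpow_le_rpow_of_nonpos h0 hs (by linarith)
      _ = r ^ (q / 4) := by
          rw [← Real.rpow_mul hr0.le]
          congr 1; ring
      _ ≤ r ^ (1 : ℝ) := Real.rpow_le_rpow_of_exponent_le hr (by linarith)
      _ = r := Real.rpow_one r
      _ ≤ r1 := hr1
  have hY1 : 0 < 1 + Y := by linarith
  have h2 : (C2 * r1 * ((1 + Y) ^ (2 * M))⁻¹ * E) ^ (1/2 : ℝ) =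
      C2 ^ (1/2 : ℝ) * r1 ^ (1/2 : ℝ) * ((1 + Y) ^ M)⁻¹ * E ^ (1/2 : ℝ) := by
    rw [Real.mul_rpow (by positivity) hE, Real.mul_rpow (by positivity) (by positivity),
      Real.mul_rpow hC2 hr10.le]
    congr 2
    rw [Real.inv_rpow (by positivity), pow_mul', ← Real.rpow_natCast ((1 + Y) ^ M) 2,
      ← Real.rpow_mul (by positivity)]
    norm_num
  have h3 : r1 ^ (1/2 : ℝ) ≤ r1 := by
    calc r1 ^ (1/2 : ℝ) ≤ r1 ^ (1 : ℝ) := Real.rpow_le_rpow_of_exponent_le hr11 (by norm_num)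
      _ = r1 := Real.rpow_one r1
  have h4 : ((1 + Y) ^ M)⁻¹ ≤ (Y ^ M)⁻¹ := by
    have : 0 < Y := by linarith
    gcongr
    linarith
  have h5 : 0 ≤ r1 / r := by positivity
  have hs2 : 0 ≤ s2 ^ (-q / 2) := Real.rpow_nonneg (h0.le.trans hs) _
  rw [h2]
  calc s2 ^ (-q / 2) * C1 * (C2 ^ (1/2 : ℝ) * r1 ^ (1/2 : ℝ) * ((1 + Y) ^ M)⁻¹ *
        E ^ (1/2 : ℝ)) * r * (C3 * (r1 / r) ^ 3 * (C4 * E))
      ≤ r1 * C1 * (C2 ^ (1/2 : ℝ) * r1 * (Y ^ M)⁻¹ *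
        E ^ (1/2 : ℝ)) * r1 * (C3 * r1 ^ 3 * (C4 * E)) := by
        gcongr
    _ = C1 * C2 ^ (1/2 : ℝ) * C3 * C4 * r1 ^ 6 * (Y ^ M)⁻¹ * (E ^ (1/2 : ℝ) * E) := by ring
    _ ≤ _ := by
        gcongr
        norm_num

/-- the multiplicity factor. -/
theorem mu_al (n : ℕ) {C A Gm K0 Y x : ℝ} (hC : 0 ≤ C) (hA : 1 ≤ A) (hGm : 1 ≤ Gm) (hK : 1 ≤ K0)
    (hY : 1 ≤ Y) (hx : 0 ≤ x) :
    (C * (A * Gm) ^ 2 * K0 * Y ^ (2 * n) * x) ^ (1/2 : ℝ) ≤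
      (C * K0) ^ (1/2 : ℝ) * A * (Y ^ (n : ℝ) * Gm ^ (2 : ℝ) * x ^ (1/2 : ℝ)) := by
  have e : C * (A * Gm) ^ 2 * K0 * Y ^ (2 * n) * x = (C * K0) * (A * Gm * Y ^ n) ^ 2 * x := by
    rw [pow_mul' Y 2 n]; ring
  rw [e, Real.mul_rpow (by positivity) hx, Real.mul_rpow (by positivity) (by positivity),
    ← Real.rpow_natCast (A * Gm * Y ^ n) 2, ← Real.rpow_mul (by positivity)]
  norm_num
  have h1 : Gm ≤ Gm ^ 2 := by nlinarith
  calc (C * K0) ^ (1/2 : ℝ) * (A * Gm * Y ^ n) * x ^ (1/2 : ℝ)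
      ≤ (C * K0) ^ (1/2 : ℝ) * (A * Gm ^ 2 * Y ^ n) * x ^ (1/2 : ℝ) := by gcongr
    _ = _ := by ring

set_option maxHeartbeats 1000000 in
/-- **AL.** -/
theorem al_of (B : ℕ → ℝ) (hB : B 2 ≤ 1 / 10) (hKM : ∀ V : ℝ, Tub70.KM32 V) (q : ℝ) (hq : 0 ≤ q)
    (hq4 : q ≤ 4) : AL B q := by
  intro A hA
  refine ⟨(3 * A + 8)⁻¹, 2, by positivity, ?_, by norm_num, ?_⟩
  · exact inv_le_one_of_one_le₀ (by linarith)
  intro ε hε
  have hK : KMCA B q A 2 (2 * A + 23) := by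
    intro ε hε
    obtain ⟨n0, h0⟩ := Kcc882.kmca hKM (q := q) (A := A) (L := 2) (Λ := 2 * A + 23) hq
      (by linarith) (by norm_num) (by linarith) ε hε
    refine ⟨n0, fun n hn => ?_⟩
    obtain ⟨C, hC, h1⟩ := h0 n hn
    exact ⟨C, hC, fun h hh hh1 R hR g S hg _ => h1 h (nearId hB hh) hh1 R hR g hg S⟩
  obtain ⟨n0, h0⟩ := SUPM_K B hB A hA q (2 * A + 23) (by linarith) hK ε hε
  refine ⟨n0, fun n hn K0 hK0 => ⟨n, by positivity, fun M => ?_⟩⟩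
  obtain ⟨CS, hCS, hS⟩ := h0 n hn (n + 2 * M) (by omega)
  obtain ⟨CH, hCH, hH⟩ := H_al B n (2 * M)
  obtain ⟨C3, hC3, H3⟩ := sel_energy
  obtain ⟨C4, hC4, H4⟩ := en_le
  obtain ⟨C5, hC5, H5⟩ := sum_en_plates
  refine ⟨CS * ((CH * K0) ^ (1/2 : ℝ) * A) + CS * CH ^ (1/2 : ℝ) * C5 * (C3 * C4),
    by positivity, ?_⟩
  intro c0 h g r1 dl Y Gm s1' s2' s1 s2 D a p pp I1 P1 I P hx hs2 hcoh hpp ha hp hchi hal
  have hdl := hx.dlpos
  have hdl1 : dl ≤ 1 := hx.dlle.trans (inv_le_one_of_one_le₀ (by linarith))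
  have hr1dl : 1 ≤ dl ^ 2 * r1 := by
    have h1 := hx.r1ge
    rw [Real.rpow_neg hdl.le, Real.rpow_two] at h1
    have h2 : dl ^ 2 * (dl ^ 2)⁻¹ ≤ dl ^ 2 * r1 := by gcongr
    rwa [mul_inv_cancel₀ (by positivity)] at h2
  have hr10 : 0 < r1 := by
    by_contra hc
    push Not at hc
    nlinarith [sq_nonneg dl, mul_nonneg (sq_nonneg dl) (neg_nonneg.2 hc)]
  have hr : 1 ≤ dl * r1 := by nlinarith [mul_pos hdl hr10]
  have hr0 : 0 < dl * r1 := by linarith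
  have hrR : dl * r1 ≤ r1 := by nlinarith
  obtain ⟨hθ, hθθ', hθ'1, e1, e2, e3, e4, e5, hr1, e6⟩ := an_facts hdl hdl1 hr
  have hθ' := hθ.trans_le hθθ'
  have hn2 := nearId hB hx.parB
  obtain ⟨hs1p, hs2p⟩ := sides_pos hr hx.sd
  have hΛ : (3 * A + 8) * (dl * r1) ≤ r1 := by
    have h1 : (3 * A + 8) * dl ≤ 1 := by
      calc (3 * A + 8) * dl ≤ (3 * A + 8) * (3 * A + 8)⁻¹ := by
            gcongr
            exact hx.dlle
        _ = 1 := mul_inv_cancel₀ (by positivity)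
    nlinarith
  have hws : r1 ^ (1/2 : ℝ) ≤ s2 * (dl * r1) := by
    have h1 : r1 ^ (1/2 : ℝ) = an (dl * (dl * r1)) * (dl * r1) := by
      rw [← e5, inv_eq_one_div, div_eq_iff hθ.ne', ← e3]; ring
    rw [h1]
    gcongr
  have hBsu := bs_of hx.par (an r1)
  have hEn : 0 ≤ En g := integral_nonneg fun _ => by positivity
  have hEnl : ∫⁻ ξ, ‖g ξ‖ₑ ^ 2 = ENNReal.ofReal (En g) := lintEn hx.par.g2
  have hen : en (an r1) g (uS I1 P1) ≤ ENNReal.ofReal (C4 * En g) := by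
    rw [ENNReal.ofReal_mul hC4, ← hEnl]
    exact H4 (an r1) hθ (hθθ'.trans hθ'1) g hx.par.gi hx.par.g2 _
  have hpp0 : 0 ≤ pp / p := by positivity
  set Mu : ℝ := CH * (A * Gm) ^ 2 * K0 * Y ^ (2 * n) * (pp / p) with hMu
  set τ : ℝ := CH * r1 * ((1 + Y) ^ (2 * M))⁻¹ * En g with hτ
  have hY := hx.Y1
  have hGm := hx.Gm1
  have hY0 : 0 < (1 + Y) ^ (2 * M) := by positivity
  have hMu0 : 0 ≤ Mu := by
    rw [hMu]
    have : 0 ≤ (A * Gm) ^ 2 := sq_nonneg _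
    have : 0 ≤ Y ^ (2 * n) := by positivity
    positivity
  have hτ0 : 0 ≤ τ := by rw [hτ]; positivity
  have key := hS h hx.parB hx.h1 g hx.par.gi hx.par.g2 (dl * r1) s1 s2 r1 hr hΛ hx.sd hws
    (uS I1 P1) (uS_meas hx.par.meas) (fun m y hy => by
      have := hx.par.bd m hy
      rwa [mem_closedBall_zero_iff] at this) D hx.par.D0 hx.par.dens I P hx.pl Mu τ hMu0 hτ0 (by
      intro i hi x t ht _
      refine hH h hx.parB hn2 A K0 r1 dl Y Gm (dl ^ (1/2 : ℝ)) a p pp hA hK0 hdl hdl1 hr hY hGm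
        hpp ha hp g hx.par.gi hx.par.g2 I1 P1 hBsu (fun b => bsal_of hx.par (an r1) _ b) hcoh
        (P i).b (P i).S (P i).z (P i).c (hx.pl.meas i hi) (hx.pl.mem i hi).2 ?_
        (hchi.lo i hi) (hchi.hi i hi) (hchi.pot i hi) (hal i hi) x t ht _ ?_
      · intro m y hy
        refine ((hx.pl.box i hi m hy).1 0).trans ?_
        show A * s1 ≤ _
        have := hx.thin
        gcongr
      · intro m hm ⟨m', hm', ⟨y, hy⟩, hd⟩
        refine mem_Mc_of hs2p hm ?_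
        have h4 : ‖gradient h (cen (an (dl * r1)) m') - (P i).c‖ ≤ 2 * (A * s2) := by
          refine norm_le_of_inner (P i).b _ (by positivity) fun j => ?_
          refine ((hx.pl.box i hi m' hy).1 j).trans ?_
          have : ![s1, s2] j ≤ s2 := by fin_cases j <;> simp [hx.sd.le]
          exact mul_le_mul_of_nonneg_left this (by linarith)
        have h5 : ‖gradient h (cen (an r1) m) - gradient h (cen (an (dl * r1)) m')‖ ≤
            11 / 10 * (19 * s2) := by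
          refine hd.trans ?_
          have : an (dl * r1) ≤ s2 := e6.trans hs2
          linarith
        calc ‖gradient h (cen (an r1) m) - (P i).c‖
            = ‖(gradient h (cen (an r1) m) - gradient h (cen (an (dl * r1)) m')) +
                (gradient h (cen (an (dl * r1)) m') - (P i).c)‖ := by rw [sub_add_sub_cancel]
          _ ≤ _ := norm_add_le _ _
          _ ≤ 11 / 10 * (19 * s2) + 2 * (A * s2) := add_le_add h5 h4
          _ ≤ (2 * A + 23 - 2) * s2 := by nlinarith)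
  refine key.trans (add_le_add ?_ ?_)
  · -- main term
    unfold SCo
    refine mul_le_mul' (ENNReal.ofReal_le_ofReal ?_) le_rfl
    have h1 := mu_al n (C := CH) (A := A) (Gm := Gm) (K0 := K0) (Y := Y) (x := pp / p) hCH hA hGm
      hK0 hY hpp0
    have h2 : 0 ≤ CS * CH ^ (1/2 : ℝ) * C5 * (C3 * C4) := by positivity
    calc CS * Mu ^ (1/2 : ℝ) * r1 ^ ε
        ≤ CS * ((CH * K0) ^ (1/2 : ℝ) * A * (Y ^ (n : ℝ) * Gm ^ (2 : ℝ) *
          (pp / p) ^ (1/2 : ℝ))) * r1 ^ ε := by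
          gcongr
      _ = (CS * ((CH * K0) ^ (1/2 : ℝ) * A)) * (r1 ^ ε * Y ^ (n : ℝ) * Gm ^ (2 : ℝ) *
          (pp / p) ^ (1/2 : ℝ)) := by ring
      _ ≤ (CS * ((CH * K0) ^ (1/2 : ℝ) * A) + CS * CH ^ (1/2 : ℝ) * C5 * (C3 * C4)) *
          (r1 ^ ε * Y ^ (n : ℝ) * Gm ^ (2 : ℝ) * (pp / p) ^ (1/2 : ℝ)) := by
          gcongr
          linarith
      _ = _ := by ring
  · -- tail
    obtain ⟨s1', s2'⟩ := sel_int hθ hx.par.gi hBsu
    have h1 := H5 A h hx.parB.1.continuous (sel (an r1) g (uS I1 P1)) s1' s2' (dl * r1) s1 s2 r1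
      hr hrR I P hx.pl
    have h2 : ∫⁻ ξ, ‖sel (an r1) g (uS I1 P1) ξ‖ₑ ^ 2 ≤ ENNReal.ofReal (C3 * C4 * En g) := by
      refine (H3 (an r1) hθ (hθθ'.trans hθ'1) g hx.par.gi _ hBsu).trans ?_
      rw [mul_assoc, ENNReal.ofReal_mul hC3]
      exact mul_le_mul' le_rfl hen
    have hrr : r1 / (dl * r1) ≤ r1 := by
      rw [div_le_iff₀ hr0]
      have : 1 ≤ dl * r1 := hr
      nlinarith
    have h3 := tail_al M (C1 := CS) (C2 := CH) (C3 := C5) (C4 := C3 * C4) (r1 := r1)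
      (r := dl * r1) (Y := Y) (E := En g) (s2 := s2) (q := q) hCS hCH hC5 (by positivity) hr hrr
      hrR hY hEn (hx.sd.lo.trans hx.sd.le) hq hq4
    have hsp : 0 ≤ s2 ^ (-q / 2) := (Real.rpow_pos_of_pos hs2p _).le
    unfold Tl
    calc _ ≤ ENNReal.ofReal (s2 ^ (-q / 2) * CS * τ ^ (1/2 : ℝ) * (dl * r1)) *
          (ENNReal.ofReal (C5 * (r1 / (dl * r1)) ^ 3) * ENNReal.ofReal (C3 * C4 * En g)) :=
          mul_le_mul' le_rfl (h1.trans (mul_le_mul' le_rfl h2))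
      _ = ENNReal.ofReal (s2 ^ (-q / 2) * CS * τ ^ (1/2 : ℝ) * (dl * r1) *
          (C5 * (r1 / (dl * r1)) ^ 3 * (C3 * C4 * En g))) := by
          rw [← ENNReal.ofReal_mul (by positivity), ← ENNReal.ofReal_mul (by positivity)]
      _ ≤ ENNReal.ofReal (CS * CH ^ (1/2 : ℝ) * C5 * (C3 * C4) * r1 ^ (20 : ℕ) * (Y ^ M)⁻¹ *
          (En g ^ (1/2 : ℝ) * En g)) := ENNReal.ofReal_le_ofReal h3
      _ ≤ ENNReal.ofReal ((CS * ((CH * K0) ^ (1/2 : ℝ) * A) +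
          CS * CH ^ (1/2 : ℝ) * C5 * (C3 * C4)) * r1 ^ (20 : ℕ) * (Y ^ M)⁻¹ *
          (En g ^ (3/2 : ℝ))) := by
          refine ENNReal.ofReal_le_ofReal ?_
          have e : En g ^ (1/2 : ℝ) * En g = En g ^ (3/2 : ℝ) := by
            rcases hEn.eq_or_lt with h0 | h0
            · rw [← h0, mul_zero, Real.zero_rpow (by norm_num)]
            · nth_rewrite 2 [← Real.rpow_one (En g)]
              rw [← Real.rpow_add h0]
              norm_num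
          rw [e]
          have : 0 ≤ CS * ((CH * K0) ^ (1/2 : ℝ) * A) := by positivity
          have hYM : 0 < Y ^ M := by positivity
          gcongr
          linarith
      _ = _ := by
          rw [ENNReal.ofReal_rpow_of_nonneg hEn (by norm_num), ← ENNReal.ofReal_mul (by positivity)]

end Crest.Agent.R138.Al878
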