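import Crest.Agent.R138.ArgM1_163

/-!
# R138, TEXT I, L14 (helper163), part 2: facts about one marked sequence with linear `Λ, τ`

Input: the tilt lemma (T), Lemma A (A), refinement (R), an own rotation function `R` of the frames of
level `1`.  Output (`argmin`): near every level `u` there is a level `m` whose precision equals the own
rotation.
-/

set_option autoImplicit false
set_option linter.unusedVariables false

open Finset Filter Topology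

open Crest.Agent.R138.Ex926 (Base U ev_em exists_diag ev_ge)
open Crest.Agent.R138.Flag51 (Ln E2 cr dt InPlank)
open Crest.Agent.R138.Tilt51 (DMax Near abs_cr_triangle abs_cr_swap)
open Crest.Agent.R138.Dp76 (Dense dpow_pos dpow_add dpow_le dpow_le_one)
open Crest.Agent.R138.Mk163

namespace Crest.Agent.R138.ArgM163

/-- universal tilt lemma -/
def HTilt (q g C : ℝ) : Prop :=
  ∀ (B : Base) (I : ℕ → Finset (ℕ × ℝ)) (L : ℕ → ℕ → Ln) (lev : ℕ → ℚ → ℕ)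
    (r0 A : ℕ → ℝ) (Λ τ : ℝ → ℝ) (f : ℕ → ℚ → ℕ → ℤ → ℕ) (b : ℕ → ℚ → ℕ → Ln)
    (e : ℕ → ℚ → ℕ → E2) (w1 w2 : ℕ → ℚ → ℝ), Mk B I L lev r0 A q g Λ τ f b e w1 w2 →
    TiltTwo B I lev τ f e w1 w2 C

/-- universal crude tilt lemma -/
def HCrude (q g C : ℝ) : Prop :=
  ∀ (B : Base) (I : ℕ → Finset (ℕ × ℝ)) (L : ℕ → ℕ → Ln) (lev : ℕ → ℚ → ℕ)
    (r0 A : ℕ → ℝ) (Λ τ : ℝ → ℝ) (f : ℕ → ℚ → ℕ → ℤ → ℕ) (b : ℕ → ℚ → ℕ → Ln)
    (e : ℕ → ℚ → ℕ → E2) (w1 w2 : ℕ → ℚ → ℝ), Mk B I L lev r0 A q g Λ τ f b e w1 w2 →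
    TiltCrude B I lev f e w1 w2 C

/-- universal Lemma A (own slope `s`) -/
def HRot (q g s k0 : ℝ) : Prop :=
  ∀ (B : Base) (I : ℕ → Finset (ℕ × ℝ)) (L : ℕ → ℕ → Ln) (lev : ℕ → ℚ → ℕ)
    (r0 A : ℕ → ℝ) (τ : ℝ → ℝ) (f : ℕ → ℚ → ℕ → ℤ → ℕ) (b : ℕ → ℚ → ℕ → Ln)
    (e : ℕ → ℚ → ℕ → E2) (w1 w2 : ℕ → ℚ → ℝ),
    Mk B I L lev r0 A q g (fun v => s * v) τ f b e w1 w2 → Rotates B I lev f e w1 w2 k0

/-- universal refinement -/
def HRef : Prop :=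
  ∀ (B : Base) (I : ℕ → Finset (ℕ × ℝ)) (L : ℕ → ℕ → Ln) (lev : ℕ → ℚ → ℕ)
    (r0 A : ℕ → ℝ) (q g : ℝ) (Λ τ : ℝ → ℝ) (f : ℕ → ℚ → ℕ → ℤ → ℕ) (b : ℕ → ℚ → ℕ → Ln)
    (e : ℕ → ℚ → ℕ → E2) (w1 w2 : ℕ → ℚ → ℝ), Refine B I L lev r0 A q g Λ τ f b e w1 w2

/-- universal zoom -/
def HZoom : Prop :=
  ∀ (B : Base) (I : ℕ → Finset (ℕ × ℝ)) (L : ℕ → ℕ → Ln) (lev : ℕ → ℚ → ℕ)
    (r0 A : ℕ → ℝ) (q g : ℝ) (Λ τ : ℝ → ℝ) (f : ℕ → ℚ → ℕ → ℤ → ℕ) (b : ℕ → ℚ → ℕ → Ln)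
    (e : ℕ → ℚ → ℕ → E2) (w1 w2 : ℕ → ℚ → ℝ), Zoom B I L lev r0 A q g Λ τ f b e w1 w2

/-- universal existence of the rotation function -/
def HExRot : Prop :=
  ∀ (B : Base) (I : ℕ → Finset (ℕ × ℝ)) (L : ℕ → ℕ → Ln) (lev : ℕ → ℚ → ℕ)
    (r0 A : ℕ → ℝ) (q g : ℝ) (Λ τ : ℝ → ℝ) (f : ℕ → ℚ → ℕ → ℤ → ℕ) (b : ℕ → ℚ → ℕ → Ln)
    (e : ℕ → ℚ → ℕ → E2) (w1 w2 : ℕ → ℚ → ℝ) (fl : ℕ → ℕ × ℝ → E2) (sc : ℕ → ℝ) (C0 : ℝ),
    ExRot B I L lev r0 A q g Λ τ f b e w1 w2 fl sc C0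

section basic

variable {B : Base} {I : ℕ → Finset (ℕ × ℝ)} {L : ℕ → ℕ → Ln} {lev : ℕ → ℚ → ℕ}
    {r0 A : ℕ → ℝ} {q g : ℝ} {Λ τ : ℝ → ℝ} {f : ℕ → ℚ → ℕ → ℤ → ℕ} {b : ℕ → ℚ → ℕ → Ln}
    {e : ℕ → ℚ → ℕ → E2} {w1 w2 : ℕ → ℚ → ℝ} {fl : ℕ → ℕ × ℝ → E2} {sc : ℕ → ℝ} {C0 : ℝ}
    {R : ℝ → ℝ}

theorem mem_alive {I : Finset (ℕ × ℝ)} {i : ℕ} {x : ℕ × ℝ} (h : x ∈ I) :
    x.1 ∈ alive I i (zc i x.2) := by
  classical
  unfold alive
  refine mem_image.2 ⟨x, ?_, rfl⟩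
  simp only [mem_filter]
  exact ⟨h, trivial⟩

/-- frames are unit vectors -/
theorem unit_fr (h : Mk B I L lev r0 A q g Λ τ f b e w1 w2) {v : ℚ} (h0 : 0 ≤ v) (h1 : v ≤ 1) :
    ∀ᶠ n in (U : Filter ℕ), ∀ x ∈ I n, dt (fr lev f e n v x) (fr lev f e n v x) = 1 := by
  filter_upwards [h.near v h0 h1 1 one_pos] with n hn x hx
  exact (hn (zc (lev n v) x.2)).unit x.1 (mem_alive hx)

theorem prec_pos (h : Mk B I L lev r0 A q g Λ τ f b e w1 w2) {v : ℚ} (h0 : 0 ≤ v) (h1 : v ≤ 1) :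
    ∀ᶠ n in (U : Filter ℕ), 0 < prec w1 w2 n v := by
  filter_upwards [h.dims v h0 h1] with n hn
  have := h.rpos n
  unfold prec
  have h3 : 0 < w1 n v := this.trans_le hn.1
  exact div_pos h3 (h3.trans_le hn.2.1)

/-- cells are nested -/
theorem zc_nested {i j : ℕ} (hij : i ≤ j) {x y : ℝ} (h : zc j x = zc j y) : zc i x = zc i y := by
  unfold zc at h ⊢
  obtain ⟨k, rfl⟩ := Nat.exists_eq_add_of_le hij
  have key : ∀ t : ℝ, ⌊(2:ℝ) ^ i * t⌋ = ⌊(2:ℝ) ^ (i + k) * t⌋ / (2 ^ k : ℕ) := by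
    intro t
    rw [← Int.floor_div_natCast]
    congr 1
    push_cast
    rw [pow_add]; field_simp
  rw [key x, key y, h]

theorem own_pos {I : Finset (ℕ × ℝ)} {i j : ℕ} {x : ℕ × ℝ} (h : x ∈ I) :
    1 ≤ (own I i j x).card := by
  classical
  refine card_pos.2 ⟨zc j x.2, ?_⟩
  unfold own
  refine mem_image.2 ⟨x, ?_, rfl⟩
  simp only [mem_filter]
  exact ⟨h, trivial, trivial⟩

/-- the rotation function passes to dense marked sub-families -/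
theorem rotF_dense {J : ℕ → Finset (ℕ × ℝ)} (hR : RotF B I lev fl sc C0 R)
    (hI : Mk B I L lev r0 A q g Λ τ f b e w1 w2) (hJ : Mk B J L lev r0 A q g Λ τ f b e w1 w2)
    (hd : Dense B J I) : RotF B J lev fl sc C0 R := by
  classical
  refine ⟨hR.scpos, hR.bd, hR.mono, fun u h0 h1 ε hε => ?_, fun u h0 h1 r hr hrC => ?_⟩
  · filter_upwards [hR.rot u h0 h1 ε hε, hd.1] with n a b x hx y hy
    exact a x (b hx) y (b hy)
  · obtain ⟨γ, hγ, h2⟩ := hR.tw u h0 h1 r hr hrC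
    refine ⟨γ / 2, by positivity, ?_⟩
    filter_upwards [h2, hd.1, hI.own u 1 h0 h1.le le_rfl (γ / 4) (by positivity),
      hJ.own u 1 h0 h1.le le_rfl (γ / 4) (by positivity)] with n a b c d x hx
    have a1 := a x (b hx)
    have c1 := (c x (b hx)).2
    have d1 := (d x hx).1
    have hm : ((((J n).filter fun y => y.1 = x.1 ∧ zc (lev n u) y.2 = zc (lev n u) x.2 ∧
        |cr (fl n x) (fl n y)| ≤ sc n * B.d n ^ r).card : ℕ) : ℝ) ≤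
        ((((I n).filter fun y => y.1 = x.1 ∧ zc (lev n u) y.2 = zc (lev n u) x.2 ∧
        |cr (fl n x) (fl n y)| ≤ sc n * B.d n ^ r).card : ℕ) : ℝ) := by
      exact_mod_cast card_le_card (filter_subset_filter _ b)
    have hm2 : ((((J n).filter fun y => y.1 = x.1 ∧ zc (lev n u) y.2 = zc (lev n u) x.2 ∧
        |cr (fl n x) (fl n y)| ≤ sc n * B.d n ^ r).card : ℕ) : ℝ) ≤
        B.d n ^ γ * B.d n ^ (-((1 : ℚ) - (u : ℝ)) + (Λ (1 : ℚ) - Λ u) - γ / 4) := by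
      refine hm.trans ((le_trans (le_of_eq ?_) a1).trans
        (mul_le_mul_of_nonneg_left c1 (dpow_pos B n γ).le))
      convert rfl
    refine le_trans (le_trans (le_of_eq ?_) hm2) ?_
    · convert rfl
    calc B.d n ^ γ * B.d n ^ (-((1 : ℚ) - (u : ℝ)) + (Λ (1 : ℚ) - Λ u) - γ / 4)
        = B.d n ^ (γ / 2) * B.d n ^ (-((1 : ℚ) - (u : ℝ)) + (Λ (1 : ℚ) - Λ u) + γ / 4) := by
          rw [← dpow_add, ← dpow_add]; congr 1; ring
      _ ≤ _ := mul_le_mul_of_nonneg_left d1 (dpow_pos B n _).le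

/-- precision in exponent form -/
theorem eq_exp {B : Base} {n : ℕ} {S P : ℝ} (hS : 0 < S) (hP : 0 < P) :
    P = S * B.d n ^ (Real.log (S / P) / B.L n) := by
  have hL := B.L_pos n
  have h1 : Real.log (B.d n ^ (Real.log (S / P) / B.L n)) = Real.log (P / S) := by
    rw [log_dpow, div_mul_cancel₀ _ hL.ne', Real.log_div hS.ne' hP.ne', Real.log_div hP.ne' hS.ne']
    ring
  have h2 := Real.log_injOn_pos (Set.mem_Ioi.2 (dpow_pos B n _)) (Set.mem_Ioi.2 (div_pos hP hS)) h1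
  rw [h2]; field_simp

/-- pigeonhole along `U` -/
theorem ev_exists_finset {ι : Type*} (S : Finset ι) {P : ι → ℕ → Prop}
    (h : ∀ᶠ n in (U : Filter ℕ), ∃ i ∈ S, P i n) : ∃ i ∈ S, ∀ᶠ n in (U : Filter ℕ), P i n := by
  by_contra hcon
  push Not at hcon
  have h2 : ∀ᶠ n in (U : Filter ℕ), ∀ i ∈ S, ¬ P i n := by
    rw [Filter.eventually_all_finset]; exact hcon
  obtain ⟨n, ⟨i, hi, hP⟩, hn⟩ := (h.and h2).exists
  exact hn i hi hP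

end basic

/-! ### meshes -/

/-- mesh point -/
def mp (u : ℚ) (N i : ℕ) : ℚ := u + (1 - u) * i / N

theorem mp_zero (u : ℚ) (N : ℕ) : mp u N 0 = u := by simp [mp]

theorem mp_last (u : ℚ) {N : ℕ} (hN : 0 < N) : mp u N N = 1 := by
  have : (N : ℚ) ≠ 0 := by exact_mod_cast hN.ne'
  unfold mp; field_simp; ring

theorem mp_succ (u : ℚ) {N : ℕ} (hN : 0 < N) (i : ℕ) : mp u N (i + 1) - mp u N i = (1 - u) / N := by
  have : (N : ℚ) ≠ 0 := by exact_mod_cast hN.ne'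
  unfold mp; push_cast; field_simp; ring

theorem mp_mono {u : ℚ} (h1 : u ≤ 1) (N : ℕ) {i j : ℕ} (h : i ≤ j) : mp u N i ≤ mp u N j := by
  unfold mp
  have hij : (i : ℚ) ≤ j := by exact_mod_cast h
  have : (1 - u) * i / N ≤ (1 - u) * j / N := by
    apply div_le_div_of_nonneg_right _ (Nat.cast_nonneg _)
    exact mul_le_mul_of_nonneg_left hij (by linarith)
  linarith

theorem mp_ge {u : ℚ} (h1 : u ≤ 1) (N i : ℕ) : u ≤ mp u N i := by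
  have := mp_mono h1 N (Nat.zero_le i)
  rwa [mp_zero] at this

theorem mp_le_one {u : ℚ} (h1 : u ≤ 1) {N i : ℕ} (hN : 0 < N) (h : i ≤ N) : mp u N i ≤ 1 := by
  have := mp_mono h1 N h
  rwa [mp_last u hN] at this

section core

variable {B : Base} {I : ℕ → Finset (ℕ × ℝ)} {L : ℕ → ℕ → Ln} {lev : ℕ → ℚ → ℕ}
    {r0 A : ℕ → ℝ} {q g : ℝ} {f : ℕ → ℚ → ℕ → ℤ → ℕ} {b : ℕ → ℚ → ℕ → Ln}
    {e : ℕ → ℚ → ℕ → E2} {w1 w2 : ℕ → ℚ → ℝ} {fl : ℕ → ℕ × ℝ → E2} {sc : ℕ → ℝ} {C0 : ℝ}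
    {R : ℝ → ℝ} {s θ C k0 : ℝ}

/-- error exponent of one mesh step -/
noncomputable def c0 (C θ : ℝ) (u : ℚ) (N : ℕ) : ℝ := C * (1 + θ) * ((1 - u) / N)

theorem c0_nonneg (hC : 0 ≤ C) (hθ : 0 ≤ θ) {u : ℚ} (h1 : u ≤ 1) (N : ℕ) : 0 ≤ c0 C θ u N := by
  have : (u : ℝ) ≤ 1 := by exact_mod_cast h1
  unfold c0
  have : 0 ≤ 1 - (u : ℝ) := by linarith
  positivity

/-- bad steps of the mesh -/
def BadStep (B : Base) (lev : ℕ → ℚ → ℕ) (f : ℕ → ℚ → ℕ → ℤ → ℕ) (e : ℕ → ℚ → ℕ → E2)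
    (w1 w2 : ℕ → ℚ → ℝ) (C θ : ℝ) (u : ℚ) (N : ℕ) (ε : ℝ) (n : ℕ) (x : ℕ × ℝ) : Prop :=
  ∃ i ∈ range N, max (prec w1 w2 n (mp u N i)) (prec w1 w2 n (mp u N (i + 1))) *
      B.d n ^ (-(c0 C θ u N) - ε) ≤
    |cr (fr lev f e n (mp u N i) x) (fr lev f e n (mp u N (i + 1)) x)|

theorem negl_badStep (hT : HTilt q g C)
    (hM : Mk B I L lev r0 A q g (fun v => s * v) (fun v => θ * (1 - v)) f b e w1 w2) (hθ : 0 ≤ θ)
    {u : ℚ} (h0 : 0 ≤ u) (h1 : u < 1) {N : ℕ} (hN : 0 < N) {ε : ℝ} (hε : 0 < ε) :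
    Negl B I (BadStep B lev f e w1 w2 C θ u N ε) := by
  have hT' := hT B I L lev r0 A _ _ f b e w1 w2 hM
  have key : ∀ i ∈ range N, Negl B I fun n x =>
      max (prec w1 w2 n (mp u N i)) (prec w1 w2 n (mp u N (i + 1))) *
        B.d n ^ (-(c0 C θ u N) - ε) ≤
      |cr (fr lev f e n (mp u N i) x) (fr lev f e n (mp u N (i + 1)) x)| := by
    intro i hi
    have hi' : i < N := mem_range.1 hi
    have hlt : mp u N i < mp u N (i + 1) := by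
      have := mp_succ u hN i
      have h3 : (0 : ℚ) < (1 - u) / N := by
        have : (0 : ℚ) < N := by exact_mod_cast hN
        exact div_pos (by linarith) this
      linarith
    have h4 := hT' (mp u N i) (mp u N (i + 1)) (h0.trans (mp_ge h1.le N i)) hlt
      (mp_le_one h1.le hN hi') ε hε
    have e1 : C * (((mp u N (i + 1) : ℚ) : ℝ) - (mp u N i : ℚ) +
        |θ * (1 - ((mp u N i : ℚ) : ℝ)) - θ * (1 - ((mp u N (i + 1) : ℚ) : ℝ))|) =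
        c0 C θ u N := by
      have h5 : ((mp u N (i + 1) : ℚ) : ℝ) - (mp u N i : ℚ) = (1 - (u : ℝ)) / N := by
        rw [← Rat.cast_sub, mp_succ u hN i]; push_cast; ring
      have h6 : θ * (1 - ((mp u N i : ℚ) : ℝ)) - θ * (1 - ((mp u N (i + 1) : ℚ) : ℝ)) =
          θ * ((1 - (u : ℝ)) / N) := by rw [← h5]; ring
      have h7 : (0 : ℝ) ≤ (1 - (u : ℝ)) / N := by
        have : (u : ℝ) < 1 := by exact_mod_cast h1
        exact div_nonneg (by linarith) (Nat.cast_nonneg _)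
      rw [h6, h5, abs_of_nonneg (mul_nonneg hθ h7)]
      unfold c0; ring
    rw [e1] at h4
    exact h4
  exact Negl.finite (range N) key

/-- on a family without bad steps the frames of the mesh form a chain -/
theorem chain_mesh {J : ℕ → Finset (ℕ × ℝ)} {Λ τ : ℝ → ℝ}
    (hM : Mk B J L lev r0 A q g Λ τ f b e w1 w2)
    {u : ℚ} (h0 : 0 ≤ u) (h1 : u < 1) {N : ℕ} (hN : 0 < N) {ε : ℝ}
    (hg : ∀ᶠ n in (U : Filter ℕ), ∀ x ∈ J n, ¬ BadStep B lev f e w1 w2 C θ u N ε n x)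
    {P : ℕ → ℝ} (hP0 : ∀ᶠ n in (U : Filter ℕ), 0 ≤ P n) {i j : ℕ} (hij : i ≤ j) (hj : j ≤ N)
    (hP : ∀ᶠ n in (U : Filter ℕ), ∀ l, i ≤ l → l ≤ j → prec w1 w2 n (mp u N l) ≤ P n) :
    ∀ᶠ n in (U : Filter ℕ), ∀ x ∈ J n,
      |cr (fr lev f e n (mp u N i) x) (fr lev f e n (mp u N j) x)| ≤
        N * (P n * B.d n ^ (-(c0 C θ u N) - ε)) := by
  have hu : ∀ᶠ n in (U : Filter ℕ), ∀ l ∈ range (N + 1), ∀ x ∈ J n,
      dt (fr lev f e n (mp u N l) x) (fr lev f e n (mp u N l) x) = 1 := by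
    rw [Filter.eventually_all_finset]
    intro l hl
    exact unit_fr hM (h0.trans (mp_ge h1.le N l))
      (mp_le_one h1.le hN (Nat.lt_succ_iff.1 (mem_range.1 hl)))
  filter_upwards [hu, hg, hP, hP0] with n a c d hp x hx
  have hD := dpow_pos B n (-(c0 C θ u N) - ε)
  have h3 := chain_le (e := fun l => fr lev f e n (mp u N l) x) hij
    (fun l _ hl => a l (mem_range.2 (by omega)) x hx)
    (D := P n * B.d n ^ (-(c0 C θ u N) - ε)) (by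
      intro l hl1 hl2
      by_contra hcon
      push Not at hcon
      refine c x hx ⟨l, mem_range.2 (by omega), le_trans ?_ hcon.le⟩
      exact mul_le_mul_of_nonneg_right (max_le (d l hl1 hl2.le) (d (l + 1) (by omega) hl2)) hD.le)
  refine h3.trans (mul_le_mul_of_nonneg_right ?_ (mul_nonneg hp hD.le))
  exact_mod_cast (by omega : j - i ≤ N)

theorem fr_congr {n : ℕ} {v : ℚ} {x y : ℕ × ℝ} (h1 : y.1 = x.1)
    (h2 : zc (lev n v) y.2 = zc (lev n v) x.2) : fr lev f e n v y = fr lev f e n v x := by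
  unfold fr; rw [h1, h2]

end core

end Crest.Agent.R138.ArgM163
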