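import Crest.Agent.R138.ArgM2_163

/-!
# R138, TEXT I, L14 (helper163), part 3: the argmin lemma
-/

set_option autoImplicit false
set_option linter.unusedVariables false

open Finset Filter Topology

open Crest.Agent.R138.Ex926 (Base U ev_em exists_diag ev_ge)
open Crest.Agent.R138.Flag51 (Ln E2 cr dt InPlank)
open Crest.Agent.R138.Tilt51 (DMax Near abs_cr_triangle abs_cr_swap)
open Crest.Agent.R138.Dp76 (Dense dpow_pos dpow_add dpow_le dpow_le_one)
open Crest.Agent.R138.Mk163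

namespace Crest.Agent.R138.ArgM163

section core

variable {B : Base} {I : ℕ → Finset (ℕ × ℝ)} {L : ℕ → ℕ → Ln} {lev : ℕ → ℚ → ℕ}
    {r0 A : ℕ → ℝ} {q g : ℝ} {f : ℕ → ℚ → ℕ → ℤ → ℕ} {b : ℕ → ℚ → ℕ → Ln}
    {e : ℕ → ℚ → ℕ → E2} {w1 w2 : ℕ → ℚ → ℝ} {fl : ℕ → ℕ × ℝ → E2} {sc : ℕ → ℝ} {C0 : ℝ}
    {R : ℝ → ℝ} {s θ C k0 : ℝ}

/-- exponent of the precision of level `v` relative to `sc` -/
noncomputable def bb (B : Base) (w1 w2 : ℕ → ℚ → ℝ) (sc : ℕ → ℝ) (n : ℕ) (v : ℚ) : ℝ :=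
  Real.log (sc n / prec w1 w2 n v) / B.L n

theorem argmax_exists (u : ℚ) (N : ℕ) (w1 w2 : ℕ → ℚ → ℝ) :
    ∃ i ∈ range (N + 1), ∀ᶠ n in (U : Filter ℕ), ∀ l ∈ range (N + 1),
      prec w1 w2 n (mp u N l) ≤ prec w1 w2 n (mp u N i) := by
  refine ev_exists_finset _ (Eventually.of_forall fun n => ?_)
  exact (range (N + 1)).exists_max_image (fun i => prec w1 w2 n (mp u N i)) ⟨0, by simp⟩

/-- a dense marked part without bad steps -/
theorem exists_good (hRef : HRef) (hT : HTilt q g C)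
    (hM : Mk B I L lev r0 A q g (fun v => s * v) (fun v => θ * (1 - v)) f b e w1 w2) (hθ : 0 ≤ θ)
    {u : ℚ} (h0 : 0 ≤ u) (h1 : u < 1) {N : ℕ} (hN : 0 < N) {ε : ℝ} (hε : 0 < ε) :
    ∃ J : ℕ → Finset (ℕ × ℝ), Dense B J I ∧
      Mk B J L lev r0 A q g (fun v => s * v) (fun v => θ * (1 - v)) f b e w1 w2 ∧
      ∀ᶠ n in (U : Filter ℕ), ∀ x ∈ J n, ¬ BadStep B lev f e w1 w2 C θ u N ε n x := by
  classical
  have h2 := negl_badStep hT hM hθ h0 h1 hN hε
  have h3 := Negl.compl h2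
  obtain ⟨J, hJ, hMJ⟩ := hRef B I L lev r0 A q g _ _ f b e w1 w2 hM _ h3
  refine ⟨J, hJ.trans h3, hMJ, ?_⟩
  filter_upwards [hJ.1] with n hn x hx
  have := hn hx
  simp only [mem_filter] at this
  exact this.2

/-- Lemma A gives two incidences of one line in one cell whose frames are far apart -/
theorem exists_far (hA : HRot q g s k0) {J : ℕ → Finset (ℕ × ℝ)} {τ : ℝ → ℝ}
    (hM : Mk B J L lev r0 A q g (fun v => s * v) τ f b e w1 w2)
    {a m : ℚ} (h0 : 0 ≤ a) (ham : a < m) (hm : m ≤ 1) :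
    ∀ᶠ n in (U : Filter ℕ), ∃ x ∈ J n, ∃ y ∈ J n, y.1 = x.1 ∧
      zc (lev n a) y.2 = zc (lev n a) x.2 ∧
      prec w1 w2 n m * B.d n ^ (-(k0 * ((m : ℝ) - a))) <
        |cr (fr lev f e n m x) (fr lev f e n m y)| := by
  classical
  obtain ⟨γ, hγ, hneg⟩ := hA B J L lev r0 A τ f b e w1 w2 hM a m h0 ham hm
  have hd := Negl.compl hneg
  filter_upwards [hd.nonempty hM.ne, ev_const_mul B (C := 2) (by norm_num) hγ] with n hn hc
  obtain ⟨x, hx⟩ := hn
  simp only [mem_filter, not_le] at hx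
  obtain ⟨hxJ, hlt⟩ := hx
  by_contra hcon
  push Not at hcon
  have h1 : (own (J n) (lev n a) (lev n m) x).card ≤
      ((((J n).filter fun y => y.1 = x.1 ∧ zc (lev n a) y.2 = zc (lev n a) x.2 ∧
          |cr (fr lev f e n m x) (fr lev f e n m y)| ≤
            prec w1 w2 n m * B.d n ^ (-(k0 * ((m : ℝ) - a)))).image
              fun y => zc (lev n m) y.2).card) := by
    refine card_le_card fun c hc => ?_
    unfold own at hc
    simp only [mem_image, mem_filter] at hc ⊢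
    obtain ⟨y, ⟨hy, hy1, hy2⟩, hy3⟩ := hc
    exact ⟨y, ⟨hy, hy1, hy2, hcon x hxJ y hy hy1 hy2⟩, hy3⟩
  have h2 : ((own (J n) (lev n a) (lev n m) x).card : ℝ) ≤
      ((((J n).filter fun y => y.1 = x.1 ∧ zc (lev n a) y.2 = zc (lev n a) x.2 ∧
          |cr (fr lev f e n m x) (fr lev f e n m y)| ≤
            prec w1 w2 n m * B.d n ^ (-(k0 * ((m : ℝ) - a)))).image
              fun y => zc (lev n m) y.2).card : ℝ) := by exact_mod_cast h1
  have h3 : (1 : ℝ) ≤ ((own (J n) (lev n a) (lev n m) x).card : ℝ) := by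
    exact_mod_cast own_pos hxJ
  have h4 : ((own (J n) (lev n a) (lev n m) x).card : ℝ) <
      B.d n ^ γ * ((own (J n) (lev n a) (lev n m) x).card : ℝ) := by
    refine lt_of_le_of_lt h2 (lt_of_eq_of_lt ?_ hlt)
    convert rfl
  nlinarith

/-- **the argmin lemma.** -/
theorem argmin (hRef : HRef) (hT : HTilt q g C) (hA : HRot q g s k0)
    (hM : Mk B I L lev r0 A q g (fun v => s * v) (fun v => θ * (1 - v)) f b e w1 w2)
    (hR : RotF B I lev fl sc C0 R)
    (hfl : ∀ᶠ n in (U : Filter ℕ), ∀ x ∈ I n, fl n x = fr lev f e n 1 x)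
    (hsc : ∀ᶠ n in (U : Filter ℕ), prec w1 w2 n 1 = sc n * B.d n ^ C0)
    (hC : 0 ≤ C) (hθ : 0 ≤ θ) (hk0 : 0 < k0) {u : ℚ} (h0 : 0 ≤ u) (h1 : u < 1) {N : ℕ}
    (hN : 0 < N) :
    ∃ i ≤ N, k0 * (((mp u N i : ℚ) : ℝ) - u) ≤ c0 C θ u N ∧
      (∀ ε : ℝ, 0 < ε → ∀ᶠ n in (U : Filter ℕ),
        bb B w1 w2 sc n (mp u N i) ≤ R u + c0 C θ u N + ε) ∧
      (∀ a : ℚ, 0 ≤ a → c0 C θ u N < k0 * (((mp u N i : ℚ) : ℝ) - a) → ∀ ε : ℝ, 0 < ε →
        ∀ᶠ n in (U : Filter ℕ),
          R a + k0 * (((mp u N i : ℚ) : ℝ) - a) - ε ≤ bb B w1 w2 sc n (mp u N i)) ∧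
      (∀ ε : ℝ, 0 < ε → Negl B I fun n x =>
        prec w1 w2 n (mp u N i) * B.d n ^ (-(c0 C θ u N) - ε) <
          |cr (fl n x) (fr lev f e n (mp u N i) x)|) := by
  classical
  obtain ⟨i, hi, hmax⟩ := argmax_exists u N w1 w2
  have hiN : i ≤ N := Nat.lt_succ_iff.1 (mem_range.1 hi)
  have hm0 : 0 ≤ mp u N i := h0.trans (mp_ge h1.le N i)
  have hm1 : mp u N i ≤ 1 := mp_le_one h1.le hN hiN
  set m : ℚ := mp u N i with hmdef
  set c : ℝ := c0 C θ u N with hcdef
  have hc : 0 ≤ c := c0_nonneg hC hθ h1.le N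
  have hNR : (0 : ℝ) < N := by exact_mod_cast hN
  have hu1 : (u : ℝ) < 1 := by exact_mod_cast h1
  have hpm := prec_pos hM hm0 hm1
  have hpm0 : ∀ᶠ n in (U : Filter ℕ), 0 ≤ prec w1 w2 n m := hpm.mono fun n h => h.le
  -- chains on a good family
  have chains : ∀ ε : ℝ, 0 < ε → ∃ J : ℕ → Finset (ℕ × ℝ), Dense B J I ∧
      Mk B J L lev r0 A q g (fun v => s * v) (fun v => θ * (1 - v)) f b e w1 w2 ∧
      (∀ᶠ n in (U : Filter ℕ), ∀ x ∈ J n, |cr (fr lev f e n u x) (fr lev f e n m x)| ≤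
        N * (prec w1 w2 n m * B.d n ^ (-c - ε))) ∧
      (∀ᶠ n in (U : Filter ℕ), ∀ x ∈ J n, |cr (fr lev f e n m x) (fr lev f e n 1 x)| ≤
        N * (prec w1 w2 n m * B.d n ^ (-c - ε))) ∧
      (∀ᶠ n in (U : Filter ℕ), ∀ x ∈ J n, |cr (fr lev f e n u x) (fr lev f e n 1 x)| ≤
        N * (prec w1 w2 n m * B.d n ^ (-c - ε))) := by
    intro ε hε
    obtain ⟨J, hJ, hMJ, hg⟩ := exists_good hRef hT hM hθ h0 h1 hN hε
    have hP : ∀ i' j', j' ≤ N → ∀ᶠ n in (U : Filter ℕ), ∀ l, i' ≤ l → l ≤ j' →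
        prec w1 w2 n (mp u N l) ≤ prec w1 w2 n m := by
      intro i' j' hj'
      filter_upwards [hmax] with n hn l _ hl
      exact hn l (mem_range.2 (by omega))
    refine ⟨J, hJ, hMJ, ?_, ?_, ?_⟩
    · have := chain_mesh (C := C) (θ := θ) hMJ h0 h1 hN hg hpm0 (Nat.zero_le i) hiN (hP 0 i hiN)
      rwa [mp_zero] at this
    · have := chain_mesh (C := C) (θ := θ) hMJ h0 h1 hN hg hpm0 hiN le_rfl (hP i N le_rfl)
      rwa [mp_last u hN] at this
    · have := chain_mesh (C := C) (θ := θ) hMJ h0 h1 hN hg hpm0 (Nat.zero_le N) le_rfl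
        (hP 0 N le_rfl)
      rwa [mp_zero, mp_last u hN] at this
  refine ⟨i, hiN, ?_, ?_, ?_, ?_⟩
  · -- (b)
    by_contra hcon
    push Not at hcon
    have hum : u < m := by
      by_contra h
      have h' : (m : ℝ) ≤ u := by exact_mod_cast (not_lt.1 h)
      have : k0 * ((m : ℝ) - u) ≤ 0 := mul_nonpos_of_nonneg_of_nonpos hk0.le (by linarith)
      linarith
    set δ : ℝ := k0 * ((m : ℝ) - u) - c with hδ
    have hδ0 : 0 < δ := by rw [hδ]; linarith
    obtain ⟨J, hJ, hMJ, h2, -, -⟩ := chains (δ / 2) (by positivity)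
    have hfar := exists_far hA hMJ h0 hum hm1
    obtain ⟨n, hn1, hn2, hn3, hn4, hn5, hn6⟩ := (hfar.and (h2.and (hpm.and
      ((ev_const_mul B (C := 2 * N) (by positivity) (η := δ / 2) (by positivity)).and
        ((unit_fr hMJ h0 h1.le).and (unit_fr hMJ hm0 hm1)))))).exists
    obtain ⟨x, hx, y, hy, hxy1, hxy2, hbig⟩ := hn1
    have e1 := hn2 x hx
    have e2 := hn2 y hy
    have e3 := abs_cr_triangle (hn6 x hx) (hn5 x hx) (hn6 y hy)
    rw [← fr_congr (lev := lev) (f := f) (e := e) (n := n) (v := u) hxy1 hxy2] at e3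
    rw [abs_cr_swap] at e1
    have e4 : |cr (fr lev f e n m x) (fr lev f e n u y)| ≤
        N * (prec w1 w2 n m * B.d n ^ (-c - δ / 2)) := by
      rw [fr_congr (lev := lev) (f := f) (e := e) (n := n) (v := u) hxy1 hxy2]
      exact e1
    have e5 : B.d n ^ (-c - δ / 2) = B.d n ^ (δ / 2) * B.d n ^ (-(k0 * ((m : ℝ) - u))) := by
      rw [← dpow_add]; congr 1; rw [hδ]; ring
    rw [e5] at e2 e4
    have hp := dpow_pos B n (-(k0 * ((m : ℝ) - u)))
    have e6 : (2 * N * B.d n ^ (δ / 2)) * (prec w1 w2 n m * B.d n ^ (-(k0 * ((m : ℝ) - u)))) ≤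
        1 * (prec w1 w2 n m * B.d n ^ (-(k0 * ((m : ℝ) - u)))) :=
      mul_le_mul_of_nonneg_right hn4 (mul_nonneg hn3.le hp.le)
    nlinarith
  · -- (c)
    intro ε hε
    rcases ev_em (fun n => bb B w1 w2 sc n m ≤ R u + c + ε) with h | h
    · exact h
    exfalso
    obtain ⟨J, hJ, hMJ, -, -, h2⟩ := chains (ε / 4) (by positivity)
    have hRJ := rotF_dense hR hM hMJ hJ
    -- the exponent is at most `C0`
    have hbC : ∀ᶠ n in (U : Filter ℕ), bb B w1 w2 sc n m ≤ C0 := by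
      filter_upwards [hmax, hsc, hpm] with n a1 a2 a3
      have a4 := a1 N (mem_range.2 (Nat.lt_succ_self N))
      rw [mp_last u hN, a2] at a4
      have hS := hR.scpos n
      have a5 := eq_exp (B := B) (n := n) hS a3
      have a6 : sc n * B.d n ^ C0 ≤ sc n * B.d n ^ (bb B w1 w2 sc n m) := by
        unfold bb; rw [← a5]; exact a4
      have a7 := le_of_mul_le_mul_left a6 hS
      have a8 := exp_le_of B n (C := 1) one_pos (x := C0) (y := bb B w1 w2 sc n m) (by linarith)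
      simpa using a8
    have hRC : R u + c + ε < C0 := by
      obtain ⟨n, a, b⟩ := (h.and hbC).exists
      push Not at a
      linarith
    obtain ⟨γ, hγ, htw⟩ := hRJ.tw u h0 h1 (R u + ε / 2) (by linarith) (by linarith)
    obtain ⟨n, hn1, hn2, hn3, hn4, hn5, hn6, hn7, hn8, hn9, hn10, hn11⟩ := (htw.and (h2.and
      (hpm.and ((ev_const_mul B (C := 2 * N) (by positivity) (η := ε / 4) (by positivity)).and
        ((unit_fr hMJ h0 h1.le).and ((unit_fr hMJ zero_le_one le_rfl).and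
          (h.and (hMJ.ne.and (hJ.1.and (hfl.and
            (ev_const_mul B (C := 2) (by norm_num) hγ))))))))))).exists
    push Not at hn7
    obtain ⟨x, hx⟩ := hn8
    have hS := hR.scpos n
    have hclose : ∀ y ∈ J n, y.1 = x.1 → zc (lev n u) y.2 = zc (lev n u) x.2 →
        |cr (fl n x) (fl n y)| ≤ sc n * B.d n ^ (R u + ε / 2) := by
      intro y hy hxy1 hxy2
      rw [hn10 x (hn9 hx), hn10 y (hn9 hy)]
      have e1 := hn2 x hx
      have e2 := hn2 y hy
      have e3 := abs_cr_triangle (hn6 x hx) (hn5 x hx) (hn6 y hy)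
      rw [abs_cr_swap] at e1
      rw [fr_congr (lev := lev) (f := f) (e := e) (n := n) (v := u) hxy1 hxy2] at e2
      have e4 : prec w1 w2 n m ≤ sc n * B.d n ^ (R u + c + ε) := by
        have a5 := eq_exp (B := B) (n := n) hS hn3
        rw [a5]
        refine mul_le_mul_of_nonneg_left (dpow_le B n ?_) hS.le
        exact hn7.le
      have hD := dpow_pos B n (-c - ε / 4)
      have e5 : prec w1 w2 n m * B.d n ^ (-c - ε / 4) ≤
          sc n * (B.d n ^ (ε / 4) * B.d n ^ (R u + ε / 2)) := by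
        calc _ ≤ sc n * B.d n ^ (R u + c + ε) * B.d n ^ (-c - ε / 4) :=
              mul_le_mul_of_nonneg_right e4 hD.le
          _ = _ := by rw [mul_assoc, ← dpow_add, ← dpow_add]; congr 2; ring
      have hp := dpow_pos B n (R u + ε / 2)
      have e6 : (2 * N * B.d n ^ (ε / 4)) * (sc n * B.d n ^ (R u + ε / 2)) ≤
          1 * (sc n * B.d n ^ (R u + ε / 2)) :=
        mul_le_mul_of_nonneg_right hn4 (mul_nonneg hS.le hp.le)
      have e7 := mul_le_mul_of_nonneg_left e5 (mul_nonneg (by norm_num : (0:ℝ) ≤ 2) hNR.le)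
      nlinarith
    have hcnt := hn1 x hx
    have h3 : ((own (J n) (lev n u) (lev n 1) x).card : ℝ) ≤
        ((((J n).filter fun y => y.1 = x.1 ∧ zc (lev n u) y.2 = zc (lev n u) x.2 ∧
          |cr (fl n x) (fl n y)| ≤ sc n * B.d n ^ (R u + ε / 2)).card : ℕ) : ℝ) := by
      have : (own (J n) (lev n u) (lev n 1) x).card ≤
          ((J n).filter fun y => y.1 = x.1 ∧ zc (lev n u) y.2 = zc (lev n u) x.2 ∧
          |cr (fl n x) (fl n y)| ≤ sc n * B.d n ^ (R u + ε / 2)).card := by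
        unfold own
        refine card_image_le.trans (card_le_card fun y hy => ?_)
        simp only [mem_filter] at hy ⊢
        exact ⟨hy.1, hy.2.1, hy.2.2, hclose y hy.1 hy.2.1 hy.2.2⟩
      exact_mod_cast this
    have h4 : (1 : ℝ) ≤ ((own (J n) (lev n u) (lev n 1) x).card : ℝ) := by
      exact_mod_cast own_pos hx
    have h5 : ((own (J n) (lev n u) (lev n 1) x).card : ℝ) ≤
        B.d n ^ γ * ((own (J n) (lev n u) (lev n 1) x).card : ℝ) := by
      refine h3.trans (le_trans (le_of_eq ?_) hcnt)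
      convert rfl
    nlinarith
  · -- (d)
    intro a ha hca ε hε
    set δ : ℝ := k0 * ((m : ℝ) - a) - c with hδ
    have hδ0 : 0 < δ := by rw [hδ]; linarith
    have ham : a < m := by
      by_contra h
      have h' : (m : ℝ) ≤ a := by exact_mod_cast (not_lt.1 h)
      have : k0 * ((m : ℝ) - a) ≤ 0 := mul_nonpos_of_nonneg_of_nonpos hk0.le (by linarith)
      linarith
    obtain ⟨J, hJ, hMJ, -, h2, -⟩ := chains (δ / 2) (by positivity)
    have hfar := exists_far hA hMJ ha ham hm1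
    filter_upwards [hfar, h2, hpm, ev_const_mul B (C := 4 * N) (by positivity) (η := δ / 2)
      (by positivity), unit_fr hMJ hm0 hm1, unit_fr hMJ zero_le_one le_rfl, hJ.1, hfl,
      hR.rot a ha (ham.le.trans hm1) (ε / 2) (by positivity),
      ev_log_div B (Real.log 2) (η := ε / 2) (by positivity)]
      with n hn1 hn2 hn3 hn4 hn5 hn6 hn7 hn8 hn9 hn10
    obtain ⟨x, hx, y, hy, hxy1, hxy2, hbig⟩ := hn1
    have hS := hR.scpos n
    have e1 := hn2 x hx
    have e2 := hn2 y hy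
    have e3 := hn9 x (hn7 hx) y (hn7 hy) hxy1 hxy2
    rw [hn8 x (hn7 hx), hn8 y (hn7 hy)] at e3
    have e4 := abs_cr_triangle (hn5 x hx) (hn6 x hx) (hn6 y hy)
    have e5 := abs_cr_triangle (hn5 x hx) (hn6 y hy) (hn5 y hy)
    rw [abs_cr_swap] at e2
    have e6 : B.d n ^ (-c - δ / 2) = B.d n ^ (δ / 2) * B.d n ^ (-(k0 * ((m : ℝ) - a))) := by
      rw [← dpow_add]; congr 1; rw [hδ]; ring
    rw [e6] at e1 e2
    have hp := dpow_pos B n (-(k0 * ((m : ℝ) - a)))
    have e7 : (4 * N * B.d n ^ (δ / 2)) * (prec w1 w2 n m * B.d n ^ (-(k0 * ((m : ℝ) - a)))) ≤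
        1 * (prec w1 w2 n m * B.d n ^ (-(k0 * ((m : ℝ) - a)))) :=
      mul_le_mul_of_nonneg_right hn4 (mul_nonneg hn3.le hp.le)
    have e8 : prec w1 w2 n m * B.d n ^ (-(k0 * ((m : ℝ) - a))) ≤
        2 * (sc n * B.d n ^ (R a - ε / 2)) := by nlinarith
    have e9 : sc n * B.d n ^ (bb B w1 w2 sc n m + -(k0 * ((m : ℝ) - a))) ≤
        sc n * (2 * B.d n ^ (R a - ε / 2)) := by
      rw [dpow_add, ← mul_assoc]
      unfold bb
      rw [← eq_exp (B := B) (n := n) hS hn3]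
      linarith
    have e10 := exp_le_of B n (C := 2) (by norm_num) (le_of_mul_le_mul_left e9 hS)
    linarith
  · -- (e)
    intro ε hε
    have h2 := negl_badStep (B := B) (I := I) (w1 := w1) (w2 := w2) hT hM hθ h0 h1 hN
      (ε := ε / 2) (by positivity)
    have hg : ∀ᶠ n in (U : Filter ℕ), ∀ x ∈ ((fun n => (I n).filter fun x =>
        ¬ BadStep B lev f e w1 w2 C θ u N (ε / 2) n x) : ℕ → Finset (ℕ × ℝ)) n,
        ¬ BadStep B lev f e w1 w2 C θ u N (ε / 2) n x := by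
      refine Eventually.of_forall fun n x hx => ?_
      simp only [mem_filter] at hx
      exact hx.2
    have hu : ∀ᶠ n in (U : Filter ℕ), ∀ l ∈ range (N + 1), ∀ x ∈ I n,
        dt (fr lev f e n (mp u N l) x) (fr lev f e n (mp u N l) x) = 1 := by
      rw [Filter.eventually_all_finset]
      intro l hl
      exact unit_fr hM (h0.trans (mp_ge h1.le N l))
        (mp_le_one h1.le hN (Nat.lt_succ_iff.1 (mem_range.1 hl)))
    refine Negl.mono h2 ?_
    filter_upwards [hu, hmax, hpm, hfl, ev_const_mul B (C := N) (by positivity) (η := ε / 2)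
      (by positivity)] with n a1 a2 a3 a4 a5 x hx hbig
    by_contra hcon
    have hD := dpow_pos B n (-c - ε / 2)
    have h3 := chain_le (e := fun l => fr lev f e n (mp u N l) x) hiN
      (fun l _ hl => a1 l (mem_range.2 (by omega)) x hx)
      (D := prec w1 w2 n m * B.d n ^ (-c - ε / 2)) (by
        intro l hl1 hl2
        by_contra hcon2
        push Not at hcon2
        refine hcon ⟨l, mem_range.2 (by omega), le_trans ?_ hcon2.le⟩
        exact mul_le_mul_of_nonneg_right (max_le (a2 l (mem_range.2 (by omega)))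
          (a2 (l + 1) (mem_range.2 (by omega)))) hD.le)
    rw [mp_last u hN, ← a4 x hx, abs_cr_swap] at h3
    have h4 : ((N - i : ℕ) : ℝ) ≤ N := by exact_mod_cast Nat.sub_le N i
    have h5 := h3.trans (mul_le_mul_of_nonneg_right h4 (mul_nonneg a3.le hD.le))
    have e6 : B.d n ^ (-c - ε / 2) = B.d n ^ (ε / 2) * B.d n ^ (-c - ε) := by
      rw [← dpow_add]; congr 1; ring
    rw [e6] at h5
    have hp := dpow_pos B n (-c - ε)
    have e7 : (N * B.d n ^ (ε / 2)) * (prec w1 w2 n m * B.d n ^ (-c - ε)) ≤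
        1 * (prec w1 w2 n m * B.d n ^ (-c - ε)) :=
      mul_le_mul_of_nonneg_right a5 (mul_nonneg a3.le hp.le)
    nlinarith

end core

end Crest.Agent.R138.ArgM163
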