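import Crest.Agent.R138.ArgM3_163

/-!
# R138, TEXT I, L14 (helper163), part 4: stages of a zoom at a differentiability point
-/

set_option autoImplicit false
set_option linter.unusedVariables false

open Finset Filter Topology MeasureTheory

open Crest.Agent.R138.Ex926 (Base U ev_em exists_diag ev_ge)
open Crest.Agent.R138.Flag51 (Ln E2 cr dt InPlank)
open Crest.Agent.R138.Tilt51 (DMax Near abs_cr_triangle abs_cr_swap)
open Crest.Agent.R138.Dp76 (Dense dpow_pos dpow_add dpow_le dpow_le_one)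
open Crest.Agent.R138.Mk163

namespace Crest.Agent.R138.ArgM163

/-- window lengths -/
def hh (K j : ℕ) : ℚ := 1 / (j + K + 1)

theorem hh_pos (K j : ℕ) : 0 < hh K j := by unfold hh; positivity

theorem hh_le_one (K j : ℕ) : hh K j ≤ 1 := by
  unfold hh
  rw [div_le_one (by positivity)]
  have : (0 : ℚ) ≤ j := Nat.cast_nonneg _
  have : (0 : ℚ) ≤ K := Nat.cast_nonneg _
  linarith

theorem hh_le (K j : ℕ) : (hh K j : ℝ) ≤ 1 / (K + 1) := by
  unfold hh
  push_cast
  apply one_div_le_one_div_of_le (by positivity)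
  have : (0 : ℝ) ≤ j := Nat.cast_nonneg _
  linarith

theorem hh_tendsto (K : ℕ) : Tendsto (fun j => (hh K j : ℝ)) atTop (𝓝 0) := by
  have h1 : Tendsto (fun j : ℕ => 1 / ((j : ℝ) + 1)) atTop (𝓝 0) :=
    tendsto_one_div_add_atTop_nhds_zero_nat
  refine squeeze_zero (fun j => ?_) (fun j => ?_) h1
  · exact_mod_cast (hh_pos K j).le
  · unfold hh
    push_cast
    apply one_div_le_one_div_of_le (by positivity)
    have : (0 : ℝ) ≤ K := Nat.cast_nonneg _
    linarith

/-- number of mesh steps -/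
def NN (K j : ℕ) : ℕ := (j + 1) * (j + K + 1)

theorem NN_pos (K j : ℕ) : 0 < NN K j := by unfold NN; positivity

theorem one_div_NN (K j : ℕ) : (1 : ℝ) / NN K j = (hh K j : ℝ) / (j + 1) := by
  unfold NN hh; push_cast; rw [div_div]; congr 1; ring

/-- left ends of the windows -/
theorem exists_uu (v1 : ℝ) (K : ℕ) : ∃ u : ℕ → ℚ, ∀ j, v1 ≤ u j ∧ (u j : ℝ) ≤ v1 + hh K j / (j + 1) := by
  have : ∀ j : ℕ, ∃ u : ℚ, v1 ≤ u ∧ (u : ℝ) ≤ v1 + hh K j / (j + 1) := by
    intro j
    have hp : (0 : ℝ) < (hh K j : ℝ) / (j + 1) := by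
      have : (0 : ℝ) < (hh K j : ℝ) := by exact_mod_cast hh_pos K j
      positivity
    obtain ⟨u, h1, h2⟩ := exists_rat_btwn (show v1 < v1 + (hh K j : ℝ) / (j + 1) by linarith)
    exact ⟨u, h1.le, h2.le⟩
  exact ⟨fun j => (this j).choose, fun j => (this j).choose_spec⟩

/-- differentiability in window form -/
theorem deriv_window {R : ℝ → ℝ} {k v1 : ℝ} (h : HasDerivAt R k v1) (K : ℕ) {D : ℝ} (hD : 0 < D) :
    ∀ ε : ℝ, 0 < ε → ∀ᶠ j in (atTop : Filter ℕ), ∀ t : ℝ, |t - v1| ≤ D * hh K j →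
      |R t - R v1 - k * (t - v1)| ≤ ε * hh K j := by
  intro ε hε
  rw [hasDerivAt_iff_isLittleO] at h
  have h1 := h.def (c := ε / D) (by positivity)
  obtain ⟨δ, hδ, h2⟩ := Metric.eventually_nhds_iff.1 h1
  have h3 : Tendsto (fun j => D * (hh K j : ℝ)) atTop (𝓝 0) := by
    have := (hh_tendsto K).const_mul D
    simpa using this
  filter_upwards [h3.eventually (gt_mem_nhds hδ)] with j hj t ht
  have h4 := h2 (y := t) (by rw [Real.dist_eq]; exact lt_of_le_of_lt ht hj)
  simp only [Real.norm_eq_abs, smul_eq_mul] at h4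
  have e : R t - R v1 - k * (t - v1) = R t - R v1 - (t - v1) * k := by ring
  rw [e]
  refine h4.trans ?_
  calc ε / D * |t - v1| ≤ ε / D * (D * hh K j) := mul_le_mul_of_nonneg_left ht (by positivity)
    _ = ε * hh K j := by field_simp

/-- a monotone function has a point of differentiability in the open interval -/
theorem exists_diff {R : ℝ → ℝ} (h : MonotoneOn R (Set.Icc 0 1)) :
    ∃ v k : ℝ, 0 < v ∧ v < 1 ∧ HasDerivAt R k v := by
  have h1 := h.ae_differentiableWithinAt_of_mem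
  have h2 : volume (Set.Ioo (0 : ℝ) 1) ≠ 0 := by simp
  have h3 : ∃ v ∈ Set.Ioo (0 : ℝ) 1, v ∈ Set.Icc (0 : ℝ) 1 → DifferentiableWithinAt ℝ R (Set.Icc 0 1) v := by
    by_contra hcon
    push Not at hcon
    apply h2
    refine measure_mono_null (fun v hv => ?_) (ae_iff.1 h1)
    simp only [Set.mem_setOf_eq]
    intro hcon2
    exact (hcon v hv).2 (hcon2 (hcon v hv).1)
  obtain ⟨v, hv, hd⟩ := h3
  have hd' := hd ⟨hv.1.le, hv.2.le⟩
  have h4 : DifferentiableAt ℝ R v := hd'.differentiableAt (Icc_mem_nhds hv.1 hv.2)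
  exact ⟨v, deriv R v, hv.1, hv.2, h4.hasDerivAt⟩

/-- the slope is bounded below -/
theorem le_slope {R : ℝ → ℝ} {k v1 k0 : ℝ} (h : HasDerivAt R k v1) (hv0 : 0 < v1) (hv1 : v1 < 1)
    (hs : ∀ a u : ℚ, 0 ≤ a → a < u → u < 1 → R a + k0 * ((u : ℝ) - a) ≤ R u) : k0 ≤ k := by
  refine le_of_forall_pos_le_add fun ε hε => ?_
  rw [hasDerivAt_iff_isLittleO] at h
  have h1 := h.def (c := ε) hε
  obtain ⟨δ, hδ, h2⟩ := Metric.eventually_nhds_iff.1 h1
  obtain ⟨a, ha1, ha2⟩ := exists_rat_btwn (show max 0 (v1 - δ / 2) < v1 by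
    rw [max_lt_iff]; constructor <;> linarith)
  obtain ⟨u, hu1, hu2⟩ := exists_rat_btwn (show v1 < min 1 (v1 + δ / 2) by
    rw [lt_min_iff]; constructor <;> linarith)
  rw [max_lt_iff] at ha1
  rw [lt_min_iff] at hu2
  have ea := h2 (y := a) (by rw [Real.dist_eq, abs_lt]; constructor <;> linarith)
  have eu := h2 (y := u) (by rw [Real.dist_eq, abs_lt]; constructor <;> linarith)
  simp only [Real.norm_eq_abs, smul_eq_mul] at ea eu
  rw [abs_of_neg (show (a : ℝ) - v1 < 0 by linarith)] at ea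
  rw [abs_of_pos (show (0 : ℝ) < (u : ℝ) - v1 by linarith)] at eu
  have hau : (a : ℝ) < u := by linarith
  have h3 := hs a u (by exact_mod_cast ha1.1.le) (by exact_mod_cast hau) (by exact_mod_cast hu2.1)
  have h4 := abs_le.1 ea
  have h5 := abs_le.1 eu
  have h6 : k0 * ((u : ℝ) - a) ≤ (k + ε) * ((u : ℝ) - a) := by
    have := h4.1
    have := h5.2
    nlinarith
  exact le_of_mul_le_mul_right h6 (by linarith)

end Crest.Agent.R138.ArgM163
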