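import Crest.Agent.R138.ArgM4_163
import Crest.Agent.R138.MkZoom_779

/-!
# R138, TEXT I, L14 (helper163), part 5: slope of the rotation function, stages of the second zoom
-/

set_option autoImplicit false
set_option linter.unusedVariables false

open Finset Filter Topology MeasureTheory

open Crest.Agent.R138.Ex926 (Base U ev_em exists_diag ev_ge)
open Crest.Agent.R138.Flag51 (Ln E2 cr dt InPlank)
open Crest.Agent.R138.Tilt51 (DMax Near abs_cr_triangle abs_cr_swap)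
open Crest.Agent.R138.Dp76 (Dense dpow_pos dpow_add dpow_le dpow_le_one)
open Crest.Agent.R138.Mk163

namespace Crest.Agent.R138.ArgM163

section stages

variable {B : Base} {I : ℕ → Finset (ℕ × ℝ)} {L : ℕ → ℕ → Ln} {lev : ℕ → ℚ → ℕ}
    {r0 A : ℕ → ℝ} {q g : ℝ} {f : ℕ → ℚ → ℕ → ℤ → ℕ} {b : ℕ → ℚ → ℕ → Ln}
    {e : ℕ → ℚ → ℕ → E2} {w1 w2 : ℕ → ℚ → ℝ} {fl : ℕ → ℕ × ℝ → E2} {sc : ℕ → ℝ} {C0 : ℝ}
    {R : ℝ → ℝ} {s θ C k0 : ℝ}

theorem c0_le (hC : 0 ≤ C) (hθ : 0 ≤ θ) {u : ℚ} (h0 : 0 ≤ u) {N : ℕ} (hN : 0 < N) :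
    c0 C θ u N ≤ C * (1 + θ) * (1 / N) := by
  unfold c0
  have h1 : (0 : ℝ) ≤ u := by exact_mod_cast h0
  have hN' : (0 : ℝ) < N := by exact_mod_cast hN
  have h2 : (1 - (u : ℝ)) / N ≤ 1 / N := div_le_div_of_nonneg_right (by linarith) hN'.le
  exact mul_le_mul_of_nonneg_left h2 (by positivity)

/-- the rotation function grows at least linearly -/
theorem slope (hRef : HRef) (hT : HTilt q g C) (hA : HRot q g s k0)
    (hM : Mk B I L lev r0 A q g (fun v => s * v) (fun v => θ * (1 - v)) f b e w1 w2)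
    (hR : RotF B I lev fl sc C0 R)
    (hfl : ∀ᶠ n in (U : Filter ℕ), ∀ x ∈ I n, fl n x = fr lev f e n 1 x)
    (hsc : ∀ᶠ n in (U : Filter ℕ), prec w1 w2 n 1 = sc n * B.d n ^ C0)
    (hC : 0 ≤ C) (hθ : 0 ≤ θ) (hk0 : 0 < k0) {a u : ℚ} (h0 : 0 ≤ a) (hau : a < u) (h1 : u < 1) :
    R a + k0 * ((u : ℝ) - a) ≤ R u := by
  refine le_of_forall_pos_le_add fun ε hε => ?_
  have hau' : (0 : ℝ) < (u : ℝ) - a := by
    have : (a : ℝ) < u := by exact_mod_cast hau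
    linarith
  have hμ : 0 < min (ε / 4) (k0 * ((u : ℝ) - a) / 2) := lt_min (by positivity) (by positivity)
  obtain ⟨N, hN⟩ := exists_nat_gt (C * (1 + θ) / min (ε / 4) (k0 * ((u : ℝ) - a) / 2))
  have hNpos : 0 < N := by
    rcases Nat.eq_zero_or_pos N with h | h
    · exfalso
      rw [h] at hN
      have : 0 ≤ C * (1 + θ) / min (ε / 4) (k0 * ((u : ℝ) - a) / 2) := by positivity
      simp only [Nat.cast_zero] at hN
      linarith
    · exact h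
  have hN' : (0 : ℝ) < N := by exact_mod_cast hNpos
  have hcc : c0 C θ u N ≤ min (ε / 4) (k0 * ((u : ℝ) - a) / 2) := by
    refine (c0_le hC hθ (h0.trans hau.le) hNpos).trans ?_
    rw [div_lt_iff₀ hμ] at hN
    rw [mul_one_div, div_le_iff₀ hN']
    linarith
  have hc1 : c0 C θ u N ≤ ε / 4 := hcc.trans (min_le_left _ _)
  have hc2 : c0 C θ u N ≤ k0 * ((u : ℝ) - a) / 2 := hcc.trans (min_le_right _ _)
  obtain ⟨i, hi, h2, h3, h4, -⟩ := argmin hRef hT hA hM hR hfl hsc hC hθ hk0 (h0.trans hau.le) h1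
    hNpos
  have hmu : (u : ℝ) ≤ (mp u N i : ℚ) := by exact_mod_cast mp_ge h1.le N i
  have h5 := h4 a h0 (by nlinarith) (ε / 4) (by positivity)
  obtain ⟨n, hn1, hn2⟩ := ((h3 (ε / 4) (by positivity)).and h5).exists
  nlinarith

/-- stage data of the second zoom -/
structure Stg (B : Base) (I : ℕ → Finset (ℕ × ℝ)) (lev : ℕ → ℚ → ℕ) (f : ℕ → ℚ → ℕ → ℤ → ℕ)
    (e : ℕ → ℚ → ℕ → E2) (w1 w2 : ℕ → ℚ → ℝ) (fl : ℕ → ℕ × ℝ → E2) (sc : ℕ → ℝ) (R : ℝ → ℝ)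
    (D : ℝ) (Uu m : ℚ) (ee : ℝ) : Prop where
  U0 : 0 ≤ Uu
  U1 : Uu < 1
  mU : Uu ≤ m
  m1 : m ≤ 1
  mD : (m : ℝ) ≤ Uu + D * ee
  up : ∀ ε : ℝ, 0 < ε → ∀ᶠ n in (U : Filter ℕ), bb B w1 w2 sc n m ≤ R Uu + D * ee + ε
  lo : ∃ a : ℚ, 0 ≤ a ∧ a ≤ Uu ∧ (Uu : ℝ) - D * ee ≤ a ∧ ∀ ε : ℝ, 0 < ε →
    ∀ᶠ n in (U : Filter ℕ), R a - ε ≤ bb B w1 w2 sc n m
  cl : ∀ ε : ℝ, 0 < ε → Negl B I fun n x =>
    prec w1 w2 n m * B.d n ^ (-(D * ee) - ε) < |cr (fl n x) (fr lev f e n m x)|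

theorem exists_stg (hRef : HRef) (hT : HTilt q g C) (hA : HRot q g s k0)
    (hM : Mk B I L lev r0 A q g (fun v => s * v) (fun v => θ * (1 - v)) f b e w1 w2)
    (hR : RotF B I lev fl sc C0 R)
    (hfl : ∀ᶠ n in (U : Filter ℕ), ∀ x ∈ I n, fl n x = fr lev f e n 1 x)
    (hsc : ∀ᶠ n in (U : Filter ℕ), prec w1 w2 n 1 = sc n * B.d n ^ C0)
    (hC : 0 ≤ C) (hθ : 0 ≤ θ) (hk0 : 0 < k0) {K1 : ℚ} (hK1 : C * (1 + θ) < k0 * K1)
    {D : ℝ} (hD1 : C * (1 + θ) ≤ D) (hD2 : (K1 : ℝ) ≤ D)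
    {u : ℚ} (h1 : u < 1) {ee : ℚ} (hee : 0 < ee) (h0 : 0 ≤ u - K1 * ee)
    {N : ℕ} (hN : 0 < N) (hNe : (1 : ℝ) / N = ee) :
    ∃ m : ℚ, Stg B I lev f e w1 w2 fl sc R D u m ee := by
  have heeR : (0 : ℝ) < (ee : ℝ) := by exact_mod_cast hee
  have hCC : 0 ≤ C * (1 + θ) := by positivity
  have hK1' : (0 : ℝ) < K1 := by
    by_contra h
    have := mul_nonpos_of_nonneg_of_nonpos hk0.le (not_lt.1 h)
    linarith
  have hK1q : (0 : ℚ) < K1 := by exact_mod_cast hK1'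
  have hu0 : 0 ≤ u := by
    have : 0 < K1 * ee := mul_pos hK1q hee
    linarith
  have hc : c0 C θ u N ≤ C * (1 + θ) * ee := by
    have := c0_le hC hθ hu0 hN
    rwa [hNe] at this
  have hcD : c0 C θ u N ≤ D * ee := hc.trans (mul_le_mul_of_nonneg_right hD1 heeR.le)
  obtain ⟨i, hi, h2, h3, h4, h5⟩ := argmin hRef hT hA hM hR hfl hsc hC hθ hk0 hu0 h1 hN
  have hmu : u ≤ mp u N i := mp_ge h1.le N i
  have hmuR : (u : ℝ) ≤ (mp u N i : ℚ) := by exact_mod_cast hmu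
  have hm1 : mp u N i ≤ 1 := mp_le_one h1.le hN hi
  refine ⟨mp u N i, hu0, h1, hmu, hm1, ?_, ?_, ?_, ?_⟩
  · have h6 : k0 * (((mp u N i : ℚ) : ℝ) - u) ≤ k0 * (K1 * ee) := by
      refine h2.trans (hc.trans ?_)
      have := mul_le_mul_of_nonneg_right hK1.le heeR.le
      linarith
    have h7 := le_of_mul_le_mul_left h6 hk0
    have h8 : (K1 : ℝ) * ee ≤ D * ee := mul_le_mul_of_nonneg_right hD2 heeR.le
    linarith
  · intro ε hε
    filter_upwards [h3 ε hε] with n hn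
    linarith
  · refine ⟨u - K1 * ee, h0, ?_, ?_, ?_⟩
    · have : 0 < K1 * ee := mul_pos hK1q hee
      linarith
    · push_cast
      have h8 : (K1 : ℝ) * ee ≤ D * ee := mul_le_mul_of_nonneg_right hD2 heeR.le
      linarith
    · intro ε hε
      have h9 : c0 C θ u N < k0 * (((mp u N i : ℚ) : ℝ) - (u - K1 * ee : ℚ)) := by
        push_cast
        refine lt_of_le_of_lt hc ?_
        have h10 : C * (1 + θ) * ee < k0 * K1 * ee := mul_lt_mul_of_pos_right hK1 heeR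
        nlinarith
      filter_upwards [h4 (u - K1 * ee) h0 h9 ε hε] with n hn
      have h11 : 0 ≤ k0 * (((mp u N i : ℚ) : ℝ) - (u - K1 * ee : ℚ)) :=
        (c0_nonneg hC hθ h1.le N).trans h9.le
      linarith
  · intro ε hε
    refine (h5 ε hε).mono ?_
    filter_upwards [prec_pos hM (hu0.trans hmu) hm1] with n hn x hx hlt
    refine lt_of_le_of_lt ?_ hlt
    exact mul_le_mul_of_nonneg_left (dpow_le B n (by linarith)) hn.le

end stages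

end Crest.Agent.R138.ArgM163
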