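import Crest.Agent.R138.ArgM5_163

/-!
# R138, TEXT I, L14 (helper163), part 6: the second zoom at a point of differentiability of the
rotation function: natural marks
-/

set_option autoImplicit false
set_option linter.unusedVariables false

open Finset Filter Topology MeasureTheory

open Crest.Agent.R138.Ex926 (Base U ev_em exists_diag ev_ge)
open Crest.Agent.R138.Flag51 (Ln E2 cr dt InPlank)
open Crest.Agent.R138.Tilt51 (DMax Near abs_cr_triangle abs_cr_swap)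
open Crest.Agent.R138.Dp76 (Dense dpow_pos dpow_add dpow_le dpow_le_one)
open Crest.Agent.R138.Mk163
open Crest.Agent.R138.MkZoom779 (Fq Fq_mem ev_mem_Fq)

namespace Crest.Agent.R138.ArgM163

/-- `ee / hh → 0` -/
theorem ev_ee (K : ℕ) (D : ℝ) {ε : ℝ} (hε : 0 < ε) :
    ∀ᶠ j in (atTop : Filter ℕ), D * ((hh K j : ℝ) / (j + 1)) ≤ ε * hh K j := by
  have h1 : Tendsto (fun j : ℕ => D * (1 / ((j : ℝ) + 1))) atTop (𝓝 0) := by
    have := (tendsto_one_div_add_atTop_nhds_zero_nat (𝕜 := ℝ)).const_mul D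
    simpa using this
  filter_upwards [h1.eventually_lt_const hε] with j hj
  have hp : (0 : ℝ) < (hh K j : ℝ) := by exact_mod_cast hh_pos K j
  calc D * ((hh K j : ℝ) / (j + 1)) = D * (1 / ((j : ℝ) + 1)) * hh K j := by ring
    _ ≤ ε * hh K j := mul_le_mul_of_nonneg_right hj.le hp.le

theorem ee_le (K j : ℕ) : (hh K j : ℝ) / (j + 1) ≤ hh K j := by
  have hp : (0 : ℝ) < (hh K j : ℝ) := by exact_mod_cast hh_pos K j
  have : (0 : ℝ) ≤ j := Nat.cast_nonneg _
  exact div_le_self hp.le (by linarith)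

theorem ee_pos (K j : ℕ) : 0 < (hh K j : ℝ) / (j + 1) := by
  have hp : (0 : ℝ) < (hh K j : ℝ) := by exact_mod_cast hh_pos K j
  positivity

/-- the rotation function in the window of stage `j` -/
theorem window {R : ℝ → ℝ} {k v1 : ℝ} (h : HasDerivAt R k v1) (K : ℕ) {uu : ℕ → ℚ}
    (huu : ∀ j, v1 ≤ uu j ∧ (uu j : ℝ) ≤ v1 + hh K j / (j + 1)) {D : ℝ} (hD : 0 ≤ D) (hk : 0 ≤ k)
    {ε : ℝ} (hε : 0 < ε) :
    ∀ᶠ j in (atTop : Filter ℕ), ∀ x t : ℝ, 0 ≤ x → x ≤ 1 →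
      (uu j : ℝ) + hh K j * x - D * (hh K j / (j + 1)) ≤ t → t ≤ uu j + hh K j * x →
      |R t - (R v1 + k * (uu j - v1) + k * (hh K j * x))| ≤ ε * hh K j := by
  filter_upwards [deriv_window h K (D := D + 2) (by linarith) (ε / 2) (by positivity),
    ev_ee K (k * D) (ε := ε / 2) (by positivity)] with j h1 h2 x t hx0 hx1 ht1 ht2
  have hp : (0 : ℝ) < (hh K j : ℝ) := by exact_mod_cast hh_pos K j
  have he := ee_le K j
  have he0 := ee_pos K j
  have hu := huu j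
  have h3 : (hh K j : ℝ) * x ≤ hh K j := by nlinarith
  have h3' : 0 ≤ (hh K j : ℝ) * x := by positivity
  have h4 : D * ((hh K j : ℝ) / (j + 1)) ≤ D * hh K j := mul_le_mul_of_nonneg_left he hD
  have h4' : 0 ≤ D * ((hh K j : ℝ) / (j + 1)) := by positivity
  have h5 : |t - v1| ≤ (D + 2) * hh K j := by
    rw [abs_le]
    constructor <;> nlinarith
  have h6 := h1 t h5
  have e1 : R t - (R v1 + k * (uu j - v1) + k * (hh K j * x)) =
      (R t - R v1 - k * (t - v1)) + k * (t - (uu j + hh K j * x)) := by ring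
  rw [e1]
  refine (abs_add_le _ _).trans ?_
  have h7 : |k * (t - (uu j + hh K j * x))| ≤ k * D * ((hh K j : ℝ) / (j + 1)) := by
    rw [abs_mul, abs_of_nonneg hk, mul_assoc]
    refine mul_le_mul_of_nonneg_left ?_ hk
    rw [abs_le]
    constructor <;> linarith
  linarith

section core

variable {B : Base} {I : ℕ → Finset (ℕ × ℝ)} {L : ℕ → ℕ → Ln} {lev : ℕ → ℚ → ℕ}
    {r0 A : ℕ → ℝ} {q g : ℝ} {f : ℕ → ℚ → ℕ → ℤ → ℕ} {b : ℕ → ℚ → ℕ → Ln}
    {e : ℕ → ℚ → ℕ → E2} {w1 w2 : ℕ → ℚ → ℝ} {fl : ℕ → ℕ × ℝ → E2} {sc : ℕ → ℝ} {C0 : ℝ}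
    {R : ℝ → ℝ} {s θ C k0 : ℝ}

/-- all stages -/
theorem exists_stages (hRef : HRef) (hT : HTilt q g C) (hA : HRot q g s k0)
    (hM : Mk B I L lev r0 A q g (fun v => s * v) (fun v => θ * (1 - v)) f b e w1 w2)
    (hR : RotF B I lev fl sc C0 R)
    (hfl : ∀ᶠ n in (U : Filter ℕ), ∀ x ∈ I n, fl n x = fr lev f e n 1 x)
    (hsc : ∀ᶠ n in (U : Filter ℕ), prec w1 w2 n 1 = sc n * B.d n ^ C0)
    (hC : 0 ≤ C) (hθ : 0 ≤ θ) (hk0 : 0 < k0) :
    ∃ (v1 k D : ℝ) (K : ℕ) (uu : ℕ → ℚ) (m : ℕ → ℚ → ℚ), HasDerivAt R k v1 ∧ k0 ≤ k ∧ 0 ≤ D ∧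
      (∀ j, v1 ≤ uu j ∧ (uu j : ℝ) ≤ v1 + hh K j / (j + 1)) ∧
      ∀ j (x : ℚ), 0 ≤ x → x ≤ 1 → Stg B I lev f e w1 w2 fl sc R D (uu j + hh K j * x) (m j x)
        ((hh K j : ℝ) / (j + 1)) := by
  classical
  obtain ⟨v1, k, hv0, hv1, hder⟩ := exists_diff hR.mono
  have hkk : k0 ≤ k := le_slope hder hv0 hv1 fun a u h0 hau h1 =>
    slope hRef hT hA hM hR hfl hsc hC hθ hk0 h0 hau h1
  obtain ⟨K1, hK1⟩ := exists_rat_gt (C * (1 + θ) / k0)
  have hK1' : C * (1 + θ) < k0 * K1 := by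
    rw [div_lt_iff₀ hk0] at hK1; linarith
  have hCC : 0 ≤ C * (1 + θ) := by positivity
  have hK1p : (0 : ℝ) < K1 := by
    by_contra h
    have := mul_nonpos_of_nonneg_of_nonpos hk0.le (not_lt.1 h)
    linarith
  obtain ⟨K, hK⟩ := exists_nat_gt (max (K1 / v1) (2 / (1 - v1)))
  have hKa : (K1 : ℝ) / v1 < K := (le_max_left _ _).trans_lt hK
  have hKb : 2 / (1 - v1) < K := (le_max_right _ _).trans_lt hK
  rw [div_lt_iff₀ hv0] at hKa
  rw [div_lt_iff₀ (by linarith)] at hKb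
  have hKp : (0 : ℝ) < (K : ℝ) + 1 := by positivity
  have hKa' : (K1 : ℝ) * (1 / ((K : ℝ) + 1)) ≤ v1 := by
    rw [mul_one_div, div_le_iff₀ hKp]; nlinarith
  have hKb' : 2 * (1 / ((K : ℝ) + 1)) < 1 - v1 := by
    rw [mul_one_div, div_lt_iff₀ hKp]; nlinarith
  obtain ⟨uu, huu⟩ := exists_uu v1 K
  have key : ∀ j (x : ℚ), 0 ≤ x → x ≤ 1 → ∃ m : ℚ,
      Stg B I lev f e w1 w2 fl sc R (max (C * (1 + θ)) K1) (uu j + hh K j * x) m
        ((hh K j : ℝ) / (j + 1)) := by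
    intro j x hx0 hx1
    have hp : (0 : ℝ) < (hh K j : ℝ) := by exact_mod_cast hh_pos K j
    have hl := hh_le K j
    have he := ee_le K j
    have he0 := ee_pos K j
    have hu := huu j
    have hx0' : (0 : ℝ) ≤ x := by exact_mod_cast hx0
    have hx1' : (x : ℝ) ≤ 1 := by exact_mod_cast hx1
    have h3 : (hh K j : ℝ) * x ≤ hh K j := by nlinarith
    have h3' : 0 ≤ (hh K j : ℝ) * x := by positivity
    have hee : (((hh K j / (j + 1) : ℚ)) : ℝ) = (hh K j : ℝ) / (j + 1) := by push_cast; rfl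
    have h4 : uu j + hh K j * x < 1 := by
      have : ((uu j + hh K j * x : ℚ) : ℝ) < 1 := by push_cast; nlinarith
      exact_mod_cast this
    have h5 : 0 ≤ uu j + hh K j * x - K1 * (hh K j / (j + 1)) := by
      have : (0 : ℝ) ≤ ((uu j + hh K j * x - K1 * (hh K j / (j + 1)) : ℚ) : ℝ) := by
        push_cast
        have h6 : (K1 : ℝ) * ((hh K j : ℝ) / (j + 1)) ≤ K1 * (1 / ((K : ℝ) + 1)) :=
          mul_le_mul_of_nonneg_left (he.trans hl) hK1p.le
        linarith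
      exact_mod_cast this
    have h6 : (0 : ℚ) < hh K j / (j + 1) := by
      have := hh_pos K j
      positivity
    have h7 : (1 : ℝ) / NN K j = ((hh K j / (j + 1) : ℚ) : ℝ) := by rw [one_div_NN, hee]
    have h8 := exists_stg hRef hT hA hM hR hfl hsc hC hθ hk0 hK1' (le_max_left _ _)
      (le_max_right (C * (1 + θ)) (K1 : ℝ)) h4 h6 h5 (NN_pos K j) h7
    rwa [hee] at h8
  refine ⟨v1, k, max (C * (1 + θ)) K1, K, uu, fun j x => if h : 0 ≤ x ∧ x ≤ 1 then
    (key j x h.1 h.2).choose else 0, hder, hkk, hCC.trans (le_max_left _ _), huu,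
    fun j x hx0 hx1 => ?_⟩
  have := (key j x hx0 hx1).choose_spec
  simp only [hx0, hx1, and_self, dite_true]
  exact this

theorem log_sc {B : Base} {n : ℕ} {S P ρ : ℝ} (hS : 0 < S) (hP : 0 < P) :
    Real.log (S * B.d n ^ ρ / P) = Real.log (S / P) - ρ * B.L n := by
  rw [mul_div_right_comm, Real.log_mul (div_pos hS hP).ne' (dpow_pos B n _).ne', log_dpow]
  ring

/-- **the second zoom.** -/
theorem zoom2 (hRef : HRef) (hZ : HZoom) (hT : HTilt q g C) (hA : HRot q g s k0)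
    (hM : Mk B I L lev r0 A q g (fun v => s * v) (fun v => θ * (1 - v)) f b e w1 w2)
    (hR : RotF B I lev fl sc C0 R)
    (hfl : ∀ᶠ n in (U : Filter ℕ), ∀ x ∈ I n, fl n x = fr lev f e n 1 x)
    (hsc : ∀ᶠ n in (U : Filter ℕ), prec w1 w2 n 1 = sc n * B.d n ^ C0)
    (hC : 0 ≤ C) (hθ : 0 ≤ θ) (hk0 : 0 < k0) :
    ∃ (B' : Base) (I' : ℕ → Finset (ℕ × ℝ)) (lev' : ℕ → ℚ → ℕ) (A' : ℕ → ℝ)
      (f' : ℕ → ℚ → ℕ → ℤ → ℕ) (b' : ℕ → ℚ → ℕ → Ln) (e' : ℕ → ℚ → ℕ → E2)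
      (w1' w2' : ℕ → ℚ → ℝ) (sc' : ℕ → ℝ) (k : ℝ),
      k0 ≤ k ∧ (∀ᶠ n in (U : Filter ℕ), I' n ⊆ I n) ∧
      Mk B' I' L lev' r0 A' q g (fun v => s * v) (fun v => θ * (1 - v)) f' b' e' w1' w2' ∧
      (∀ n, 0 < sc' n) ∧
      (∀ v : ℚ, 0 ≤ v → v ≤ 1 →
        Tendsto (fun n => Real.log (sc' n / prec w1' w2' n v) / B'.L n) U (𝓝 (k * v))) ∧
      (∀ v : ℚ, 0 ≤ v → v ≤ 1 → ∀ ε : ℝ, 0 < ε → ∀ᶠ n in (U : Filter ℕ), ∀ x ∈ I' n,
        |cr (fl n x) (fr lev' f' e' n v x)| ≤ prec w1' w2' n v * B'.d n ^ (-ε)) ∧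
      (∀ u : ℚ, 0 ≤ u → u ≤ 1 → ∀ ε : ℝ, 0 < ε → ∀ᶠ n in (U : Filter ℕ), ∀ x ∈ I' n, ∀ y ∈ I' n,
        y.1 = x.1 → zc (lev' n u) y.2 = zc (lev' n u) x.2 →
          |cr (fl n x) (fl n y)| ≤ sc' n * B'.d n ^ (k * u - ε)) := by
  classical
  obtain ⟨v1, k, D, K, uu, m, hder, hkk, hD, huu, hst⟩ :=
    exists_stages hRef hT hA hM hR hfl hsc hC hθ hk0
  have hk : 0 < k := hk0.trans_le hkk
  have hhp : ∀ j, (0 : ℝ) < (hh K j : ℝ) := fun j => by exact_mod_cast hh_pos K j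
  have hs01 : 0 ≤ s ∧ s ≤ 1 := by
    have := hM.lam 0 1 le_rfl zero_le_one le_rfl
    simpa using this
  -- diagonal properties
  set P : ℕ → ℕ → Prop := fun j n => ∀ x ∈ Fq j,
    (bb B w1 w2 sc n (m j x) ≤ R ((uu j + hh K j * x : ℚ) : ℝ) + D * ((hh K j : ℝ) / (j + 1)) +
      (hh K j : ℝ) / (j + 1)) ∧
    (∃ a : ℚ, a ≤ uu j + hh K j * x ∧
      (((uu j + hh K j * x : ℚ)) : ℝ) - D * ((hh K j : ℝ) / (j + 1)) ≤ a ∧
      R a - (hh K j : ℝ) / (j + 1) ≤ bb B w1 w2 sc n (m j x)) ∧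
    (∀ p ∈ I n, ∀ p' ∈ I n, p'.1 = p.1 → zc (lev n (m j x)) p'.2 = zc (lev n (m j x)) p.2 →
      |cr (fl n p) (fl n p')| ≤ sc n * B.d n ^ (R (m j x) - (hh K j : ℝ) / (j + 1))) ∧
    0 < prec w1 w2 n (m j x) with hPdef
  have hP : ∀ j, ∀ᶠ n in (U : Filter ℕ), P j n := by
    intro j
    simp only [hPdef]
    refine (Filter.eventually_all_finset (Fq j)).2 fun x hx => ?_
    obtain ⟨hx0, hx1⟩ := Fq_mem hx
    have st := hst j x hx0 hx1
    obtain ⟨a, ha0, ha1, ha2, ha3⟩ := st.lo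
    have hm0 : 0 ≤ m j x := st.U0.trans st.mU
    filter_upwards [st.up _ (ee_pos K j), ha3 _ (ee_pos K j),
      hR.rot (m j x) hm0 st.m1 _ (ee_pos K j), prec_pos hM hm0 st.m1] with n h1 h2 h3 h4
    exact ⟨h1, ⟨a, ha1, ha2, h2⟩, h3, h4⟩
  obtain ⟨s1, hs1, hP1⟩ := exists_diag P hP
  set Bad : ℕ → ℕ → ℕ × ℝ → Prop := fun j n p => ∃ x ∈ Fq j,
    prec w1 w2 n (m j x) * B.d n ^ (-(D * ((hh K j : ℝ) / (j + 1))) - (hh K j : ℝ) / (j + 1)) <
      |cr (fl n p) (fr lev f e n (m j x) p)| with hBad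
  have hBadN : ∀ j, Negl B I (Bad j) := fun j => Negl.finite (Fq j) fun x hx =>
    (hst j x (Fq_mem hx).1 (Fq_mem hx).2).cl _ (ee_pos K j)
  obtain ⟨t, ht, hDn⟩ := Negl.countable hBadN
  obtain ⟨J, hJ, hMJ⟩ := hRef B I L lev r0 A q g _ _ f b e w1 w2 hM _ hDn
  -- the zoom
  have hmU : ∀ j (x : ℚ), 0 ≤ x → x ≤ 1 →
      |(m j x : ℝ) - (uu j + hh K j * x)| ≤ D * ((hh K j : ℝ) / (j + 1)) := by
    intro j x hx0 hx1
    have st := hst j x hx0 hx1
    have h1 : ((uu j + hh K j * x : ℚ) : ℝ) ≤ m j x := by exact_mod_cast st.mU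
    have h2 := st.mD
    push_cast at h1 h2
    rw [abs_le]
    have : 0 ≤ D * ((hh K j : ℝ) / (j + 1)) := mul_nonneg hD (ee_pos K j).le
    constructor <;> linarith
  have hdq : ∀ x y : ℚ, 0 ≤ x → x ≤ 1 → 0 ≤ y → y ≤ 1 →
      Tendsto (fun j => ((m j y : ℝ) - m j x) / hh K j) atTop (𝓝 ((y : ℝ) - x)) := by
    intro x y hx0 hx1 hy0 hy1
    rw [Metric.tendsto_nhds]
    intro ε hε
    filter_upwards [ev_ee K (2 * D) (ε := ε / 2) (by positivity)] with j hj
    have h1 := hmU j x hx0 hx1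
    have h2 := hmU j y hy0 hy1
    have hp := hhp j
    rw [Real.dist_eq]
    have e1 : ((m j y : ℝ) - m j x) / hh K j - ((y : ℝ) - x) =
        (((m j y : ℝ) - (uu j + hh K j * y)) - ((m j x : ℝ) - (uu j + hh K j * x))) / hh K j := by
      field_simp
      ring
    rw [e1, abs_div, abs_of_pos hp, div_lt_iff₀ hp]
    refine lt_of_le_of_lt (abs_sub _ _) ?_
    have : 0 < ε * hh K j := by positivity
    linarith
  obtain ⟨s0, hs0, hz⟩ := hZ B J L lev r0 A q g _ _ f b e w1 w2 hMJ (fun j => (hh K j : ℝ)) m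
    (fun v => s * v) (fun v => θ * (1 - v)) hhp (fun j => by exact_mod_cast hh_le_one K j)
    (fun j x hx0 hx1 => ⟨(hst j x hx0 hx1).U0.trans (hst j x hx0 hx1).mU, (hst j x hx0 hx1).m1⟩)
    (fun x y hx0 hxy hy1 => by
      rcases hxy.eq_or_lt with rfl | hlt
      · exact Eventually.of_forall fun j => le_rfl
      · have h1 := hdq x y hx0 (hxy.trans hy1) (hx0.trans hxy) hy1
        have h2 : (0 : ℝ) < (y : ℝ) - x := by
          have : (x : ℝ) < y := by exact_mod_cast hlt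
          linarith
        filter_upwards [h1.eventually_const_lt h2] with j hj
        have hp := hhp j
        have h3 : 0 < (m j y : ℝ) - m j x := by
          by_contra hcon
          have := div_nonpos_of_nonpos_of_nonneg (not_lt.1 hcon) hp.le
          linarith
        have h4 : (m j x : ℝ) ≤ m j y := by linarith
        exact_mod_cast h4)
    (fun x y hx0 hxy hy1 => hdq x y hx0 (hxy.trans hy1) (hx0.trans hxy) hy1)
    (fun x hx0 hx1 => by
      have h1 := (hdq 0 x le_rfl zero_le_one hx0 hx1).const_mul s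
      have e1 : s * ((x : ℝ) - (0 : ℚ)) = s * x := by push_cast; ring
      rw [e1] at h1
      refine h1.congr fun j => ?_
      ring)
    (fun x hx0 hx1 => by
      have h1 := (hdq x 1 hx0 hx1 zero_le_one le_rfl).const_mul θ
      have e1 : θ * (((1 : ℚ) : ℝ) - x) = θ * (1 - x) := by push_cast; ring
      rw [e1] at h1
      refine h1.congr fun j => ?_
      ring)
    (fun u v hu huv hv => by
      have e1 : s * v - s * u = s * (v - u) := by ring
      rw [e1]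
      exact ⟨mul_nonneg hs01.1 (by linarith), by nlinarith⟩)
    (by simp) (by simp)
  -- the speed
  set S : ℕ → ℕ := fun n => min (s0 n) (min (s1 n) (t n)) with hS
  have hSt : Tendsto S U atTop := by
    rw [tendsto_atTop]
    intro c
    filter_upwards [tendsto_atTop.1 hs0 c, tendsto_atTop.1 hs1 c, tendsto_atTop.1 ht c]
      with n h1 h2 h3
    exact le_min h1 (le_min h2 h3)
  obtain ⟨B', I', A', hBd, hI', hMk'⟩ := hz S hSt (Eventually.of_forall fun n => min_le_left _ _)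
  have hPS : ∀ᶠ n in (U : Filter ℕ), P (S n) n := by
    filter_upwards [hP1] with n hn
    exact hn (S n) ((min_le_right _ _).trans (min_le_left _ _))
  have hBadS : ∀ᶠ n in (U : Filter ℕ), ∀ p ∈ I' n, ¬ Bad (S n) n p := by
    filter_upwards [hJ.1] with n hn p hp
    have h1 := hn (hI' n hp)
    simp only [mem_filter] at h1
    exact h1.2 (S n) ((min_le_right _ _).trans (min_le_right _ _))
  have hII : ∀ᶠ n in (U : Filter ℕ), I' n ⊆ I n := by
    filter_upwards [hJ.1, hDn.1] with n h1 h2 p hp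
    exact h2 (h1 (hI' n hp))
  have hBL : ∀ n, B'.L n = (hh K (S n) : ℝ) * B.L n := by
    intro n
    have : Real.log (B'.d n) = Real.log (B.d n ^ (hh K (S n) : ℝ)) := by rw [hBd n]
    rw [log_dpow] at this
    have h2 : B'.L n = - Real.log (B'.d n) := by unfold Base.L; rfl
    rw [h2, this]; ring
  have hBp : ∀ n (y : ℝ), B'.d n ^ y = B.d n ^ ((hh K (S n) : ℝ) * y) := by
    intro n y
    rw [hBd n, ← Real.rpow_mul (B.pos n).le]
  refine ⟨B', I', fun n x => lev n (m (S n) x), A', fun n x => f n (m (S n) x),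
    fun n x => b n (m (S n) x), fun n x => e n (m (S n) x), fun n x => w1 n (m (S n) x),
    fun n x => w2 n (m (S n) x), fun n => sc n * B.d n ^ (R v1 + k * (uu (S n) - v1)), k, hkk, hII,
    hMk', fun n => mul_pos (hR.scpos n) (dpow_pos B n _), ?_, ?_, ?_⟩
  · -- precision
    intro x hx0 hx1
    rw [Metric.tendsto_nhds]
    intro ε hε
    filter_upwards [hPS, hSt.eventually (ev_mem_Fq hx0 hx1),
      hSt.eventually (window hder K huu hD hk.le (ε := ε / 4) (by positivity)),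
      hSt.eventually (ev_ee K (D + 1) (ε := ε / 4) (by positivity))] with n h1 h2 h3 h4
    obtain ⟨hup, ⟨a, ha1, ha2, hlo⟩, -, hpp⟩ := h1 x h2
    have hp := hhp (S n)
    have hL := B.L_pos n
    have hx0' : (0 : ℝ) ≤ x := by exact_mod_cast hx0
    have hx1' : (x : ℝ) ≤ 1 := by exact_mod_cast hx1
    have he0 := ee_pos K (S n)
    have ha1' : (a : ℝ) ≤ uu (S n) + hh K (S n) * x := by exact_mod_cast ha1
    push_cast at ha2
    have hw1 := abs_le.1 (h3 x a hx0' hx1' ha2 ha1')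
    have hw2 := abs_le.1 (h3 x (uu (S n) + hh K (S n) * x) hx0' hx1'
      (by have := mul_nonneg hD he0.le; linarith) le_rfl)
    push_cast at hup
    rw [Real.dist_eq]
    have e1 : Real.log (sc n * B.d n ^ (R v1 + k * (uu (S n) - v1)) /
        prec (fun n x => w1 n (m (S n) x)) (fun n x => w2 n (m (S n) x)) n x) / B'.L n - k * x =
        (bb B w1 w2 sc n (m (S n) x) -
          (R v1 + k * (uu (S n) - v1) + k * (hh K (S n) * x))) / hh K (S n) := by
      have e2 : prec (fun n x => w1 n (m (S n) x)) (fun n x => w2 n (m (S n) x)) n x =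
          prec w1 w2 n (m (S n) x) := rfl
      rw [e2, log_sc (hR.scpos n) hpp, hBL n]
      unfold bb
      field_simp
      ring
    rw [e1, abs_div, abs_of_pos hp, div_lt_iff₀ hp]
    have hε' : 0 < ε * hh K (S n) := by positivity
    rw [abs_lt]
    constructor
    · nlinarith [hw1.1]
    · nlinarith [hw2.2]
  · -- closeness
    intro x hx0 hx1 ε hε
    filter_upwards [hPS, hBadS, hSt.eventually (ev_mem_Fq hx0 hx1),
      hSt.eventually (ev_ee K (D + 1) (ε := ε) hε)] with n h1 h2 h3 h4 p hp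
    obtain ⟨-, -, -, hpp⟩ := h1 x h3
    have h5 := h2 p hp
    simp only [hBad] at h5
    push Not at h5
    have h6 := h5 x h3
    refine h6.trans ?_
    rw [hBp]
    refine mul_le_mul_of_nonneg_left (dpow_le B n ?_) hpp.le
    have := ee_pos K (S n)
    nlinarith
  · -- rotation
    intro x hx0 hx1 ε hε
    filter_upwards [hPS, hII, hSt.eventually (ev_mem_Fq hx0 hx1),
      hSt.eventually (window hder K huu hD hk.le (ε := ε / 2) (by positivity)),
      hSt.eventually (ev_ee K 1 (ε := ε / 2) (by positivity))] with n h1 h2 h3 h4 h5 p hp p' hp' hq hz'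
    obtain ⟨-, -, hrot, -⟩ := h1 x h3
    have h6 := hrot p (h2 hp) p' (h2 hp') hq hz'
    refine h6.trans ?_
    rw [hBp, mul_assoc, ← dpow_add]
    refine mul_le_mul_of_nonneg_left (dpow_le B n ?_) (hR.scpos n).le
    have hp := hhp (S n)
    have he0 := ee_pos K (S n)
    have hx0' : (0 : ℝ) ≤ x := by exact_mod_cast hx0
    have hx1' : (x : ℝ) ≤ 1 := by exact_mod_cast hx1
    have hw2 := abs_le.1 (h4 x (uu (S n) + hh K (S n) * x) hx0' hx1'
      (by have := mul_nonneg hD he0.le; linarith) le_rfl)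
    have st := hst (S n) x hx0 hx1
    have hmono : R ((uu (S n) : ℝ) + hh K (S n) * x) ≤ R (m (S n) x) := by
      have hU0 : (0 : ℝ) ≤ uu (S n) + hh K (S n) * x := by exact_mod_cast st.U0
      have hU1 : (uu (S n) : ℝ) + hh K (S n) * x < 1 := by exact_mod_cast st.U1
      have hmU' : (uu (S n) : ℝ) + hh K (S n) * x ≤ m (S n) x := by exact_mod_cast st.mU
      have hm1' : (m (S n) x : ℝ) ≤ 1 := by exact_mod_cast st.m1
      exact hR.mono ⟨hU0, hU1.le⟩ ⟨hU0.trans hmU', hm1'⟩ hmU'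
    nlinarith [hw2.1]

end core

end Crest.Agent.R138.ArgM163
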