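import Crest.Agent.R138.ArgM6_163
import Crest.Agent.R138.MkPoint_627
import Crest.Agent.R138.NatTw_76

/-!
# R138, TEXT I, L14 (helper163), part 7: natural marks exist (`Mk` + all leaves ⟹ `Nat5`)
-/

set_option autoImplicit false
set_option linter.unusedVariables false

open Finset Filter Topology MeasureTheory

open Crest.Agent.R138.Ex926 (Base U ev_em exists_diag ev_ge)
open Crest.Agent.R138.Flag51 (Ln E2 cr dt InPlank)
open Crest.Agent.R138.Tilt51 (DMax Near abs_cr_triangle abs_cr_swap)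
open Crest.Agent.R138.Dp76 (Dense dpow_pos dpow_add dpow_le dpow_le_one)
open Crest.Agent.R138.Mk163

namespace Crest.Agent.R138.ArgM163

section top

variable {B : Base} {I : ℕ → Finset (ℕ × ℝ)} {L : ℕ → ℕ → Ln} {lev : ℕ → ℚ → ℕ}
    {r0 A : ℕ → ℝ} {q g : ℝ} {f : ℕ → ℚ → ℕ → ℤ → ℕ} {b : ℕ → ℚ → ℕ → Ln}
    {e : ℕ → ℚ → ℕ → E2} {w1 w2 : ℕ → ℚ → ℝ} {s θ C C' k0 : ℝ}

open Classical in
/-- flags = frames of level `1` -/
noncomputable def flag (lev : ℕ → ℚ → ℕ) (f : ℕ → ℚ → ℕ → ℤ → ℕ) (e : ℕ → ℚ → ℕ → E2) (n : ℕ)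
    (x : ℕ × ℝ) : E2 :=
  if dt (fr lev f e n 1 x) (fr lev f e n 1 x) = 1 then fr lev f e n 1 x else !₂[1, 0]

theorem flag_unit (n : ℕ) (x : ℕ × ℝ) : dt (flag lev f e n x) (flag lev f e n x) = 1 := by
  unfold flag
  split_ifs with h
  · exact h
  · simp [dt]

open Classical in
/-- the scale of the flags -/
noncomputable def scal (B : Base) (w1 w2 : ℕ → ℚ → ℝ) (C : ℝ) (n : ℕ) : ℝ :=
  (if 0 < prec w1 w2 n 1 then prec w1 w2 n 1 else 1) * B.d n ^ (-C)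

theorem scal_pos (n : ℕ) : 0 < scal B w1 w2 C n := by
  unfold scal
  refine mul_pos ?_ (dpow_pos B n _)
  split_ifs with h
  · exact h
  · exact one_pos

/-- **L14, linear case** -/
theorem nat5_linear (hRef : HRef) (hZ : HZoom) (hEx : HExRot) (hT : HTilt q g C)
    (hTc : HCrude q g C') (hA : HRot q g s k0)
    (hM : Mk B I L lev r0 A q g (fun v => s * v) (fun v => θ * (1 - v)) f b e w1 w2)
    (hC : 0 ≤ C) (hC' : 0 ≤ C') (hθ : 0 < θ) (hk0 : 0 < k0) :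
    ∃ (B' : Base) (I' : ℕ → Finset (ℕ × ℝ)) (lev' : ℕ → ℚ → ℕ) (A' : ℕ → ℝ)
      (f' : ℕ → ℚ → ℕ → ℤ → ℕ) (b' : ℕ → ℚ → ℕ → Ln) (e' : ℕ → ℚ → ℕ → E2)
      (w1' w2' : ℕ → ℚ → ℝ) (fl : ℕ → ℕ × ℝ → E2) (sc : ℕ → ℝ) (k : ℝ),
      k0 ≤ k ∧ Nat5 B' I' L lev' r0 A' q g f' b' e' w1' w2' fl sc k s θ := by
  classical
  have hpp := prec_pos hM zero_le_one le_rfl
  have hfl0 : ∀ᶠ n in (U : Filter ℕ), ∀ x ∈ I n, flag lev f e n x = fr lev f e n 1 x := by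
    filter_upwards [unit_fr hM zero_le_one le_rfl] with n hn x hx
    unfold flag
    rw [if_pos (hn x hx)]
  have hsc0 : ∀ᶠ n in (U : Filter ℕ), prec w1 w2 n 1 = scal B w1 w2 (C' + 1) n * B.d n ^ (C' + 1) := by
    filter_upwards [hpp] with n hn
    unfold scal
    rw [if_pos hn, mul_assoc, ← dpow_add]
    simp
  -- the hypothesis of `ExRot`
  have hneg : Negl B I fun n x => ∃ y ∈ I n, y.1 = x.1 ∧
      scal B w1 w2 (C' + 1) n < |cr (flag lev f e n x) (flag lev f e n y)| := by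
    have h1 := hTc B I L lev r0 A _ _ f b e w1 w2 hM 0 1 le_rfl zero_lt_one le_rfl (1 / 2)
      (by norm_num)
    refine h1.mono ?_
    filter_upwards [hfl0, hpp, hM.cell0] with n h2 h3 h4 x hx hy
    obtain ⟨y, hy, hyx, hlt⟩ := hy
    refine ⟨y, hy, hyx, h4 y hy x hx, ?_⟩
    rw [← h2 x hx, ← h2 y hy]
    refine le_trans ?_ hlt.le
    unfold scal
    rw [if_pos h3]
    refine mul_le_mul_of_nonneg_left (dpow_le B n ?_) h3.le
    push_cast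
    linarith
  obtain ⟨J, R, hJ, hMJ, hR⟩ := hEx B I L lev r0 A q g _ _ f b e w1 w2 (flag lev f e)
    (scal B w1 w2 (C' + 1)) (C' + 1) hM (fun n => scal_pos n) (by positivity)
    (fun n x _ => flag_unit n x) hneg
  have hflJ : ∀ᶠ n in (U : Filter ℕ), ∀ x ∈ J n, flag lev f e n x = fr lev f e n 1 x := by
    filter_upwards [hfl0, hJ.1] with n h1 h2 x hx using h1 x (h2 hx)
  obtain ⟨B', I', lev', A', f', b', e', w1', w2', sc', k, hkk, hII, hM', hsc', hpr, hcl, hrot⟩ :=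
    zoom2 hRef hZ hT hA hMJ hR hflJ hsc0 hC hθ.le hk0
  obtain ⟨J', hJ', hJI', hN⟩ := NatTw76.nat5_of hθ hM'
    (hRef B' I' L lev' r0 A' q g _ _ f' b' e' w1' w2')
    (hA B' I' L lev' r0 A' _ f' b' e' w1' w2' hM') hk0 (hk0.trans_le hkk)
    (fl := flag lev f e) (Eventually.of_forall fun n x _ => flag_unit n x) hsc' hpr hcl hrot
  exact ⟨B', J', lev', A', f', b', e', w1', w2', flag lev f e, sc', k, hkk, hN⟩

/-- **L14**: from a marked extremal sequence with strictly decreasing `τ` to natural marks. -/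
theorem exists_nat5 (hRef : HRef) (hZ : HZoom) (hEx : HExRot) (hT : HTilt q g C)
    (hTc : HCrude q g C') (hA : ∀ s : ℝ, 0 ≤ s → s ≤ 1 → ∃ k0 : ℝ, 0 < k0 ∧ HRot q g s k0)
    (hC : 0 ≤ C) (hC' : 0 ≤ C') {Λ τ : ℝ → ℝ}
    (h : Mk B I L lev r0 A q g Λ τ f b e w1 w2) {κ : ℝ} (hκ : 0 < κ)
    (hτ : ∀ u v : ℚ, 0 ≤ u → u ≤ v → v ≤ 1 → κ * ((v : ℝ) - u) ≤ τ u - τ v) :
    ∃ (B' : Base) (I' : ℕ → Finset (ℕ × ℝ)) (lev' : ℕ → ℚ → ℕ) (A' : ℕ → ℝ)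
      (f' : ℕ → ℚ → ℕ → ℤ → ℕ) (b' : ℕ → ℚ → ℕ → Ln) (e' : ℕ → ℚ → ℕ → E2)
      (w1' w2' : ℕ → ℚ → ℝ) (fl : ℕ → ℕ × ℝ → E2) (sc : ℕ → ℝ) (k s θ : ℝ),
      κ ≤ θ ∧ 0 ≤ s ∧ s ≤ 1 ∧ Nat5 B' I' L lev' r0 A' q g f' b' e' w1' w2' fl sc k s θ := by
  obtain ⟨B1, I1, lev1, A1, f1, b1, e1, w11, w21, s, θ, hs0, hs1, hθ, -, hM⟩ :=
    MkPoint627.mk_linear hZ h hκ hτ
  obtain ⟨k0, hk0, hA'⟩ := hA s hs0 hs1
  obtain ⟨B', I', lev', A', f', b', e', w1', w2', fl, sc, k, -, hN⟩ :=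
    nat5_linear hRef hZ hEx hT hTc hA' hM hC hC' (hκ.trans_le hθ) hk0
  exact ⟨B', I', lev', A', f', b', e', w1', w2', fl, sc, k, s, θ, hθ, hs0, hs1, hN⟩

end top

end Crest.Agent.R138.ArgM163
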