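import Crest.Agent.R138.Ex_926

/-!
# R138, TEXT I, leaf L14, pure real half (helper615)

* `mesh`, `argmin_mesh` : a finite set of levels has a `U`-constant argmin;
* `argmin_near` : the argmin level of a `w`-mesh of `[u,1]` is `C w / k0`-close to `u`;
* `lim_b` : its precision exponent has a finite limit along `U`;
* `zoom_data` : a differentiability point of the own rotation `R`, and argmin levels `m k x` near
  `v1 + h k x` which satisfy everything `Mk163.Zoom` asks for, with `β (m k x)` linear in `x`.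
-/

set_option autoImplicit false
set_option linter.unusedVariables false

open Finset Filter Topology

namespace Crest.Agent.R138.Arg615

open Crest.Agent.R138.Ex926 (Base U ev_em exists_tendsto)

/-! ### meshes and argmin -/

/-- the `i`-th point of the mesh of `[u, 1]` with `N` steps -/
def mesh (u : ℚ) (N i : ℕ) : ℚ := u + (i : ℚ) * (1 - u) / N

theorem mesh_zero (u : ℚ) (N : ℕ) : mesh u N 0 = u := by simp [mesh]

theorem mesh_last (u : ℚ) {N : ℕ} (hN : 0 < N) : mesh u N N = 1 := by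
  unfold mesh
  have : (N : ℚ) ≠ 0 := by positivity
  field_simp; ring

theorem mesh_step (u : ℚ) {N : ℕ} (hN : 0 < N) (i : ℕ) :
    mesh u N (i + 1) - mesh u N i = (1 - u) / N := by
  unfold mesh
  push_cast
  ring

theorem mesh_mono {u : ℚ} (hu : u ≤ 1) {N : ℕ} (hN : 0 < N) : Monotone (mesh u N) := by
  intro i j hij
  unfold mesh
  have h1 : (i : ℚ) ≤ j := by exact_mod_cast hij
  have h2 : (0 : ℚ) ≤ 1 - u := by linarith
  gcongr

theorem mesh_strictMono {u : ℚ} (hu : u < 1) {N : ℕ} (hN : 0 < N) : StrictMono (mesh u N) := by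
  intro i j hij
  unfold mesh
  have h1 : (i : ℚ) < j := by exact_mod_cast hij
  have h2 : (0 : ℚ) < 1 - u := by linarith
  have h3 : (0 : ℚ) < N := by exact_mod_cast hN
  gcongr

theorem mesh_mem {u : ℚ} (hu0 : 0 ≤ u) (hu : u ≤ 1) {N : ℕ} (hN : 0 < N) {i : ℕ} (hi : i ≤ N) :
    u ≤ mesh u N i ∧ mesh u N i ≤ 1 := by
  refine ⟨?_, ?_⟩
  · have := mesh_mono hu hN (Nat.zero_le i)
    rwa [mesh_zero] at this
  · have := mesh_mono hu hN hi
    rwa [mesh_last u hN] at this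

theorem mesh_exists (u : ℚ) {w : ℝ} (hw : 0 < w) :
    ∃ N : ℕ, 0 < N ∧ ((1 : ℝ) - u) / N ≤ w := by
  obtain ⟨N, hN⟩ := exists_nat_gt (((1 : ℝ) - u) / w)
  refine ⟨N + 1, Nat.succ_pos _, ?_⟩
  rw [div_lt_iff₀ hw] at hN
  rw [div_le_iff₀ (by positivity)]
  push_cast
  nlinarith

/-- the argmin over a finite set is constant along `U` -/
theorem argmin_mesh {α : Type*} (S : Finset α) (hS : S.Nonempty) (b : ℕ → α → ℝ) :
    ∃ m ∈ S, ∀ᶠ n in (U : Filter ℕ), ∀ v ∈ S, b n m ≤ b n v := by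
  classical
  by_contra hcon
  have h1 : ∀ m ∈ S, ∀ᶠ n in (U : Filter ℕ), ¬ ∀ v ∈ S, b n m ≤ b n v := by
    intro m hm
    rcases ev_em (fun n => ∀ v ∈ S, b n m ≤ b n v) with h | h
    · exact absurd ⟨m, hm, h⟩ hcon
    · exact h
  have h2 : ∀ᶠ n in (U : Filter ℕ), ∀ m ∈ S, ¬ ∀ v ∈ S, b n m ≤ b n v :=
    (Filter.eventually_all_finset S).2 h1
  obtain ⟨n, hn⟩ := h2.exists
  obtain ⟨m, hm, hm2⟩ := S.exists_min_image (b n) hS
  exact hn m hm hm2

/-- argmin over the mesh points `u = v_0 < ... < v_N = 1` -/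
theorem argmin_mesh' (u : ℚ) (N : ℕ) (b : ℕ → ℚ → ℝ) :
    ∃ i ≤ N, ∀ᶠ n in (U : Filter ℕ), ∀ j ≤ N, b n (mesh u N i) ≤ b n (mesh u N j) := by
  obtain ⟨i, hi, h⟩ := argmin_mesh (range (N + 1)) ⟨0, by simp⟩ (fun n j => b n (mesh u N j))
  refine ⟨i, by simpa [Nat.lt_succ_iff] using hi, ?_⟩
  filter_upwards [h] with n hn j hj
  exact hn j (by simpa [Nat.lt_succ_iff] using hj)

theorem le_of_ev {x y : ℝ} (h : ∀ ε : ℝ, 0 < ε → ∀ᶠ n in (U : Filter ℕ), x ≤ y + ε) : x ≤ y := by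
  refine le_of_forall_pos_le_add fun ε hε => ?_
  obtain ⟨n, hn⟩ := (h ε hε).exists
  exact hn

/-- the argmin level is close to the bottom of the mesh -/
theorem argmin_near {b : ℕ → ℝ} {k0 E x : ℝ} (hk : 0 < k0)
    (h : ∀ ε : ℝ, 0 < ε → ∀ᶠ n in (U : Filter ℕ), b n - E - ε ≤ b n - k0 * x) : x ≤ E / k0 := by
  rw [le_div_iff₀ hk]
  refine le_of_ev fun ε hε => ?_
  filter_upwards [h ε hε] with n hn
  linarith

theorem lim_b {b : ℕ → ℝ} {x y : ℝ}
    (h1 : ∀ ε : ℝ, 0 < ε → ∀ᶠ n in (U : Filter ℕ), x - ε ≤ b n)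
    (h2 : ∀ ε : ℝ, 0 < ε → ∀ᶠ n in (U : Filter ℕ), b n ≤ y + ε) :
    ∃ β : ℝ, Tendsto b U (𝓝 β) ∧ x ≤ β ∧ β ≤ y := by
  have hb : ∀ᶠ n in (U : Filter ℕ), |b n| ≤ |x| + |y| + 1 := by
    filter_upwards [h1 1 one_pos, h2 1 one_pos] with n a1 a2
    rw [abs_le]
    constructor
    · have := neg_abs_le x; have := abs_nonneg y; linarith
    · have := le_abs_self y; have := abs_nonneg x; linarith
  obtain ⟨β, hβ, -⟩ := exists_tendsto hb
  refine ⟨β, hβ, ?_, ?_⟩
  · refine le_of_forall_pos_le_add fun ε hε => ?_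
    have := ge_of_tendsto hβ (h1 ε hε)
    linarith
  · refine le_of_forall_pos_le_add fun ε hε => ?_
    exact le_of_tendsto hβ (h2 ε hε)

theorem ge_of_lim {b : ℕ → ℝ} {x β : ℝ} (hb : Tendsto b U (𝓝 β))
    (h1 : ∀ ε : ℝ, 0 < ε → ∀ᶠ n in (U : Filter ℕ), x - ε ≤ b n) : x ≤ β := by
  refine le_of_forall_pos_le_add fun ε hε => ?_
  have := ge_of_tendsto hb (h1 ε hε)
  linarith

theorem le_of_lim {b : ℕ → ℝ} {y β : ℝ} (hb : Tendsto b U (𝓝 β))
    (h1 : ∀ ε : ℝ, 0 < ε → ∀ᶠ n in (U : Filter ℕ), b n ≤ y + ε) : β ≤ y := by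
  refine le_of_forall_pos_le_add fun ε hε => ?_
  exact le_of_tendsto hb (h1 ε hε)

/-! ### the differentiability point -/

/-- a monotone function on `[0,1]` has a derivative somewhere in `(0,1)` -/
theorem exists_deriv {R : ℝ → ℝ} (hR : MonotoneOn R (Set.Icc 0 1)) :
    ∃ v ∈ Set.Ioo (0 : ℝ) 1, ∃ κ : ℝ, HasDerivAt R κ v := by
  have h1 := hR.ae_differentiableWithinAt_of_mem
  have h2 : (MeasureTheory.volume (Set.Ioo (0 : ℝ) 1)) ≠ 0 := by simp
  have h3 : ∃ v ∈ Set.Ioo (0 : ℝ) 1, v ∈ Set.Icc (0 : ℝ) 1 →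
      DifferentiableWithinAt ℝ R (Set.Icc 0 1) v := by
    by_contra hcon
    push Not at hcon
    apply h2
    refine MeasureTheory.measure_mono_null ?_ h1
    intro v hv
    have := hcon v hv
    intro h
    exact this.2 (h this.1)
  obtain ⟨v, hv, h⟩ := h3
  have h4 := h ⟨hv.1.le, hv.2.le⟩
  have h5 : DifferentiableAt ℝ R v := h4.differentiableAt (Icc_mem_nhds hv.1 hv.2)
  exact ⟨v, hv, _, h5.hasDerivAt⟩

/-- slope bound at rational points on both sides -/
theorem deriv_ge {R : ℝ → ℝ} {v κ k0 : ℝ} (hv : v ∈ Set.Ioo (0 : ℝ) 1) (hd : HasDerivAt R κ v)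
    (h : ∀ a u : ℚ, 0 < a → a < u → u < 1 → R a + k0 * (u - a) ≤ R u) : k0 ≤ κ := by
  by_contra hcon
  push Not at hcon
  set ε : ℝ := (k0 - κ) / 4 with hε
  have hε0 : 0 < ε := by rw [hε]; linarith
  have h1 := hd.isLittleO.def hε0
  obtain ⟨δ, hδ, hδ2⟩ := Metric.eventually_nhds_iff.1 h1
  set δ' : ℝ := min (δ / 2) (min (v / 2) ((1 - v) / 2)) with hδ'
  have hv1 := hv.1
  have hv2 := hv.2
  have p0 : 0 < δ' := by
    rw [hδ']
    exact lt_min (by linarith) (lt_min (by linarith) (by linarith))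
  have p1 : δ' ≤ δ / 2 := min_le_left _ _
  have p2 : δ' ≤ v / 2 := (min_le_right _ _).trans (min_le_left _ _)
  have p3 : δ' ≤ (1 - v) / 2 := (min_le_right _ _).trans (min_le_right _ _)
  obtain ⟨a, ha1, ha2⟩ := exists_rat_btwn (show v - δ' < v by linarith)
  obtain ⟨u, hu1, hu2⟩ := exists_rat_btwn (show v < v + δ' by linarith)
  have q1 : (0 : ℝ) < a := by linarith
  have q2 : (u : ℝ) < 1 := by linarith
  have q3 : (a : ℝ) < u := by linarith
  have h2 := h a u (by exact_mod_cast q1) (by exact_mod_cast q3) (by exact_mod_cast q2)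
  have h3 := hδ2 (y := (a : ℝ)) (by rw [Real.dist_eq, abs_lt]; constructor <;> linarith)
  have h4 := hδ2 (y := (u : ℝ)) (by rw [Real.dist_eq, abs_lt]; constructor <;> linarith)
  rw [Real.norm_eq_abs, Real.norm_eq_abs, smul_eq_mul, abs_le] at h3 h4
  rw [abs_of_neg (by linarith : (a : ℝ) - v < 0)] at h3
  rw [abs_of_pos (by linarith : (0 : ℝ) < (u : ℝ) - v)] at h4
  nlinarith [h3.1, h3.2, h4.1, h4.2]

/-! ### data of the second zoom -/

/-- squeeze: `|f k - v - h k * x| ≤ D (h k)^2` gives `(f k - v) / h k → x` -/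
theorem quot_of_sq {f h : ℕ → ℝ} {v x D : ℝ} (hh : ∀ k, 0 < h k) (h0 : Tendsto h atTop (𝓝 0))
    (hf : ∀ k, |f k - v - h k * x| ≤ D * h k ^ 2) :
    Tendsto (fun k => (f k - v) / h k) atTop (𝓝 x) := by
  have h1 : ∀ k, |(f k - v) / h k - x| ≤ D * h k := by
    intro k
    have e : (f k - v) / h k - x = (f k - v - h k * x) / h k := by
      have := (hh k).ne'
      field_simp
    rw [e, abs_div, abs_of_pos (hh k), div_le_iff₀ (hh k)]
    have := hf k
    nlinarith
  have h2 : Tendsto (fun k => D * h k) atTop (𝓝 0) := by simpa using h0.const_mul D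
  rw [← tendsto_sub_nhds_zero_iff]
  exact squeeze_zero_norm h1 h2

/-- difference quotients of `R` along points `f k = v + h k x + O(h k ^2)` -/
theorem deriv_along {R : ℝ → ℝ} {κ v : ℝ} (hd : HasDerivAt R κ v) {f h : ℕ → ℝ} {x D : ℝ}
    (hh : ∀ k, 0 < h k) (h0 : Tendsto h atTop (𝓝 0)) (hf : ∀ k, |f k - v - h k * x| ≤ D * h k ^ 2) :
    Tendsto (fun k => (R (f k) - R v) / h k) atTop (𝓝 (κ * x)) := by
  have hq := quot_of_sq hh h0 hf
  have hfv : Tendsto f atTop (𝓝 v) := by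
    have h1 : Tendsto (fun k => v + h k * ((f k - v) / h k)) atTop (𝓝 (v + 0 * x)) :=
      (h0.mul hq).const_add v
    rw [zero_mul, add_zero] at h1
    refine h1.congr fun k => ?_
    have := (hh k).ne'
    field_simp
    ring
  have h1 : Tendsto (fun k => (R (f k) - R v - (f k - v) • κ) / h k) atTop (𝓝 0) := by
    have h2 := hd.isLittleO.comp_tendsto hfv
    have h3 : (fun k => f k - v) =O[atTop] h := by
      rw [Asymptotics.isBigO_iff]
      have h4 := hq.abs
      obtain ⟨c, hc⟩ := (h4.isBoundedUnder_le)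
      refine ⟨c, ?_⟩
      filter_upwards [Filter.eventually_map.1 hc] with k hk
      rw [Real.norm_eq_abs, Real.norm_eq_abs, abs_of_pos (hh k)]
      rw [abs_div, abs_of_pos (hh k), div_le_iff₀ (hh k)] at hk
      exact hk
    exact (h2.trans_isBigO h3).tendsto_div_nhds_zero
  have h2 := h1.add (hq.const_mul κ)
  rw [zero_add] at h2
  refine h2.congr fun k => ?_
  have := (hh k).ne'
  simp only [smul_eq_mul]
  field_simp
  ring

theorem zoom_data {R : ℝ → ℝ} (hR : MonotoneOn R (Set.Icc 0 1)) {k0 C : ℝ} (hk : 0 < k0)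
    (hC : 0 ≤ C) {P : ℚ → ℝ → ℚ → Prop} {β : ℚ → ℝ}
    (hP : ∀ u : ℚ, 0 < u → u < 1 → ∀ w : ℝ, 0 < w → ∃ m : ℚ, P u w m)
    (h1 : ∀ (u : ℚ) (w : ℝ) (m : ℚ), 0 < u → u < 1 → 0 < w → P u w m →
      u ≤ m ∧ (m : ℝ) ≤ u + C * w)
    (h2 : ∀ (u : ℚ) (w : ℝ) (m : ℚ), 0 < u → u < 1 → 0 < w → P u w m → ∀ a : ℚ, 0 ≤ a →
      (a : ℝ) < u - C * w → R a + k0 * ((m : ℝ) - a) ≤ β m)
    (h3 : ∀ (u : ℚ) (w : ℝ) (m : ℚ), 0 < u → u < 1 → 0 < w → P u w m → β m ≤ R u + C * w) :
    ∃ (v κ : ℝ) (h w : ℕ → ℝ) (uu m : ℕ → ℚ → ℚ), 0 < v ∧ v < 1 ∧ k0 ≤ κ ∧ HasDerivAt R κ v ∧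
      (∀ k, 0 < h k) ∧ (∀ k, h k ≤ 1) ∧ Tendsto h atTop (𝓝 0) ∧ (∀ k, 0 < w k) ∧
      Tendsto (fun k => w k / h k) atTop (𝓝 0) ∧
      (∀ k, ∀ x : ℚ, 0 ≤ x → x ≤ 1 → 0 < uu k x ∧ uu k x < 1 ∧ 0 < m k x ∧ m k x < 1 ∧
        P (uu k x) (w k) (m k x)) ∧
      (∀ x y : ℚ, 0 ≤ x → x < y → y ≤ 1 → ∀ᶠ k in atTop, m k x < m k y) ∧
      (∀ x : ℚ, 0 ≤ x → x ≤ 1 →
        Tendsto (fun k => ((m k x : ℝ) - v) / h k) atTop (𝓝 x)) ∧
      (∀ x y : ℚ, 0 ≤ x → x ≤ 1 → 0 ≤ y → y ≤ 1 →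
        Tendsto (fun k => ((m k y : ℝ) - m k x) / h k) atTop (𝓝 ((y : ℝ) - x))) ∧
      (∀ x : ℚ, 0 ≤ x → x ≤ 1 →
        Tendsto (fun k => (R (m k x) - R v) / h k) atTop (𝓝 (κ * x))) ∧
      (∀ x : ℚ, 0 ≤ x → x ≤ 1 →
        Tendsto (fun k => (β (m k x) - R v) / h k) atTop (𝓝 (κ * x))) := by
  obtain ⟨v, hv, κ, hd⟩ := exists_deriv hR
  have hv1 := hv.1
  have hv2 := hv.2
  -- lower bound of the slope
  have hs : ∀ a u : ℚ, 0 < a → a < u → u < 1 → R a + k0 * ((u : ℝ) - a) ≤ R u := by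
    intro a u ha hau hu
    refine le_of_forall_pos_le_add fun ε hε => ?_
    have hau' : (a : ℝ) < u := by exact_mod_cast hau
    set w : ℝ := min (ε / (C + 1)) (((u : ℝ) - a) / (2 * (C + 1))) with hw
    have hC1 : 0 < C + 1 := by linarith
    have hw0 : 0 < w := lt_min (by positivity) (div_pos (by linarith) (by linarith))
    have hw1 : C * w ≤ ε := by
      calc C * w ≤ (C + 1) * w := by nlinarith
        _ ≤ (C + 1) * (ε / (C + 1)) := by
          refine mul_le_mul_of_nonneg_left (min_le_left _ _) hC1.le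
        _ = ε := by field_simp
    have hw2 : C * w < (u : ℝ) - a := by
      calc C * w ≤ (C + 1) * w := by nlinarith
        _ ≤ (C + 1) * (((u : ℝ) - a) / (2 * (C + 1))) := by
          refine mul_le_mul_of_nonneg_left (min_le_right _ _) hC1.le
        _ = ((u : ℝ) - a) / 2 := by field_simp
        _ < (u : ℝ) - a := by linarith
    obtain ⟨m, hm⟩ := hP u (ha.trans hau) hu w hw0
    have e1 := h1 u w m (ha.trans hau) hu hw0 hm
    have e2 := h2 u w m (ha.trans hau) hu hw0 hm a ha.le (by linarith)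
    have e3 := h3 u w m (ha.trans hau) hu hw0 hm
    have e4 : (u : ℝ) ≤ m := by exact_mod_cast e1.1
    have e5 : k0 * ((u : ℝ) - a) ≤ k0 * ((m : ℝ) - a) :=
      mul_le_mul_of_nonneg_left (by linarith) hk.le
    linarith
  have hκ : k0 ≤ κ := deriv_ge hv hd hs
  -- the scales
  set ρ : ℝ := min v (1 - v) / (2 * (C + 4)) with hρ
  have hρ0 : 0 < ρ := div_pos (lt_min hv1 (by linarith)) (by linarith)
  have hρv : 2 * (C + 4) * ρ ≤ v := by
    rw [hρ]
    have : 2 * (C + 4) * (min v (1 - v) / (2 * (C + 4))) = min v (1 - v) := by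
      have : (2 * (C + 4)) ≠ 0 := by linarith
      field_simp
    rw [this]; exact min_le_left _ _
  have hρv2 : 2 * (C + 4) * ρ ≤ 1 - v := by
    rw [hρ]
    have : 2 * (C + 4) * (min v (1 - v) / (2 * (C + 4))) = min v (1 - v) := by
      have : (2 * (C + 4)) ≠ 0 := by linarith
      field_simp
    rw [this]; exact min_le_right _ _
  have hρ1 : ρ ≤ 1 := by nlinarith
  set h : ℕ → ℝ := fun k => ρ / ((k : ℝ) + 1) with hh
  have hpos : ∀ k, 0 < h k := fun k => by rw [hh]; positivity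
  have hle : ∀ k, h k ≤ ρ := fun k => by
    rw [hh]
    exact div_le_self hρ0.le (by linarith [Nat.cast_nonneg (α := ℝ) k])
  have hsq : ∀ k, h k ^ 2 ≤ h k := fun k => by
    have := hpos k; have := hle k; nlinarith
  have h0 : Tendsto h atTop (𝓝 0) := by
    have := (tendsto_one_div_add_atTop_nhds_zero_nat (𝕜 := ℝ)).const_mul ρ
    rw [mul_zero] at this
    refine this.congr fun k => ?_
    rw [hh]; ring
  -- the points
  have hex : ∀ (k : ℕ) (x : ℚ), ∃ u : ℚ, v + h k * x < u ∧ (u : ℝ) < v + h k * x + h k ^ 2 := by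
    intro k x
    exact exists_rat_btwn (by have := hpos k; nlinarith [sq_pos_of_pos (hpos k)])
  choose uu huu1 huu2 using hex
  have huu : ∀ (k : ℕ) (x : ℚ), 0 ≤ x → x ≤ 1 → 0 < uu k x ∧ uu k x < 1 := by
    intro k x hx0 hx1
    have e1 := huu1 k x
    have e2 := huu2 k x
    have hx0' : (0 : ℝ) ≤ x := by exact_mod_cast hx0
    have hx1' : (x : ℝ) ≤ 1 := by exact_mod_cast hx1
    have e3 := hpos k
    have e4 := hle k
    have e5 := hsq k
    have e6 : h k * x ≤ h k := by nlinarith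
    have e7 : 0 ≤ h k * x := by positivity
    have e8 : 0 ≤ C * ρ := by positivity
    constructor
    · have : (0 : ℝ) < uu k x := by linarith
      exact_mod_cast this
    · have : (uu k x : ℝ) < 1 := by nlinarith
      exact_mod_cast this
  have hm : ∀ (k : ℕ) (x : ℚ), ∃ m : ℚ, 0 ≤ x → x ≤ 1 → P (uu k x) (h k ^ 2) m := by
    intro k x
    by_cases hx : 0 ≤ x ∧ x ≤ 1
    · obtain ⟨m, hm⟩ := hP (uu k x) (huu k x hx.1 hx.2).1 (huu k x hx.1 hx.2).2 (h k ^ 2)
        (by have := hpos k; positivity)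
      exact ⟨m, fun _ _ => hm⟩
    · exact ⟨0, fun a b => absurd ⟨a, b⟩ hx⟩
  choose m hmP using hm
  have hw0 : ∀ k, 0 < h k ^ 2 := fun k => by have := hpos k; positivity
  have hmb : ∀ (k : ℕ) (x : ℚ), 0 ≤ x → x ≤ 1 →
      |(m k x : ℝ) - v - h k * x| ≤ (C + 1) * h k ^ 2 := by
    intro k x hx0 hx1
    have e := h1 _ _ _ (huu k x hx0 hx1).1 (huu k x hx0 hx1).2 (hw0 k) (hmP k x hx0 hx1)
    have e1 : (uu k x : ℝ) ≤ m k x := by exact_mod_cast e.1
    have e2 := huu1 k x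
    have e3 := huu2 k x
    have e4 := e.2
    have e5 : 0 ≤ (C + 1) * h k ^ 2 := by positivity
    rw [abs_le]
    constructor <;> nlinarith
  have hlim : ∀ x : ℚ, 0 ≤ x → x ≤ 1 →
      Tendsto (fun k => ((m k x : ℝ) - v) / h k) atTop (𝓝 x) := fun x hx0 hx1 =>
    quot_of_sq hpos h0 fun k => hmb k x hx0 hx1
  have hdiff : ∀ x y : ℚ, 0 ≤ x → x ≤ 1 → 0 ≤ y → y ≤ 1 →
      Tendsto (fun k => ((m k y : ℝ) - m k x) / h k) atTop (𝓝 ((y : ℝ) - x)) := by
    intro x y hx0 hx1 hy0 hy1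
    refine ((hlim y hy0 hy1).sub (hlim x hx0 hx1)).congr fun k => ?_
    ring
  refine ⟨v, κ, h, fun k => h k ^ 2, uu, m, hv1, hv2, hκ, hd, hpos, fun k => (hle k).trans hρ1, h0,
    hw0, ?_, ?_, ?_, hlim, hdiff, ?_, ?_⟩
  · refine h0.congr fun k => ?_
    have := (hpos k).ne'
    field_simp
  · intro k x hx0 hx1
    have e0 := huu k x hx0 hx1
    have e := h1 _ _ _ e0.1 e0.2 (hw0 k) (hmP k x hx0 hx1)
    refine ⟨e0.1, e0.2, e0.1.trans_le e.1, ?_, hmP k x hx0 hx1⟩
    have e1 := huu2 k x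
    have e2 := e.2
    have hx1' : (x : ℝ) ≤ 1 := by exact_mod_cast hx1
    have e3 := hpos k
    have e4 := hle k
    have e5 := hsq k
    have e6 : h k * x ≤ h k := by nlinarith
    have e7 : C * h k ^ 2 ≤ C * ρ := mul_le_mul_of_nonneg_left (e5.trans e4) hC
    have e8 : 0 ≤ C * ρ := by positivity
    have : (m k x : ℝ) < 1 := by nlinarith
    exact_mod_cast this
  · intro x y hx0 hxy hy1
    have e := hdiff x y hx0 (hxy.le.trans hy1) (hx0.trans hxy.le) hy1
    have hpos2 : (0 : ℝ) < (y : ℝ) - x := by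
      have : (x : ℝ) < y := by exact_mod_cast hxy
      linarith
    filter_upwards [e.eventually (lt_mem_nhds hpos2)] with k hk
    have h4 : (0 : ℝ) < (m k y : ℝ) - m k x := by
      have := mul_pos hk (hpos k)
      rwa [div_mul_cancel₀ _ (hpos k).ne'] at this
    have : (m k x : ℝ) < m k y := by linarith
    exact_mod_cast this
  · intro x hx0 hx1
    exact deriv_along hd hpos h0 fun k => hmb k x hx0 hx1
  · intro x hx0 hx1
    -- upper bound
    have hup : Tendsto (fun k => (R (uu k x) - R v) / h k + C * h k) atTop (𝓝 (κ * x)) := by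
      have e1 : Tendsto (fun k => (R (uu k x) - R v) / h k) atTop (𝓝 (κ * x)) := by
        refine deriv_along hd (D := 1) hpos h0 fun k => ?_
        have e2 := huu1 k x
        have e3 := huu2 k x
        rw [abs_le]; constructor <;> nlinarith [hw0 k]
      have e2 : Tendsto (fun k => C * h k) atTop (𝓝 0) := by simpa using h0.const_mul C
      simpa using e1.add e2
    -- lower bound: rational points below
    have hex2 : ∀ k : ℕ, ∃ a : ℚ, v + h k * x - (C + 1) * h k ^ 2 < a ∧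
        (a : ℝ) < v + h k * x - C * h k ^ 2 := by
      intro k
      exact exists_rat_btwn (by nlinarith [hw0 k])
    choose a ha1 ha2 using hex2
    have hlo : Tendsto (fun k => (R (a k) - R v) / h k) atTop (𝓝 (κ * x)) := by
      refine deriv_along hd (D := C + 1) hpos h0 fun k => ?_
      have e2 := ha1 k
      have e3 := ha2 k
      have e4 : 0 ≤ C * h k ^ 2 := mul_nonneg hC (hw0 k).le
      rw [abs_le]; constructor <;> nlinarith [hw0 k]
    refine tendsto_of_tendsto_of_tendsto_of_le_of_le hlo hup ?_ ?_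
    · intro k
      simp only
      have hx0' : (0 : ℝ) ≤ x := by exact_mod_cast hx0
      have e3 := hpos k
      have e4 := hle k
      have e5 := hsq k
      have e7 : 0 ≤ h k * x := by positivity
      have e8 : (C + 1) * h k ^ 2 ≤ (C + 1) * ρ :=
        mul_le_mul_of_nonneg_left (e5.trans e4) (by linarith)
      have a0 : (0 : ℝ) < a k := by
        have := ha1 k
        nlinarith
      have e9 := h2 _ _ _ (huu k x hx0 hx1).1 (huu k x hx0 hx1).2 (hw0 k) (hmP k x hx0 hx1) (a k)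
        (by exact_mod_cast a0.le) (by have := ha2 k; have := huu1 k x; linarith)
      have e10 := (h1 _ _ _ (huu k x hx0 hx1).1 (huu k x hx0 hx1).2 (hw0 k) (hmP k x hx0 hx1)).1
      have e11 : (uu k x : ℝ) ≤ m k x := by exact_mod_cast e10
      have e12 : 0 ≤ k0 * ((m k x : ℝ) - a k) := by
        refine mul_nonneg hk.le ?_
        have := ha2 k; have := huu1 k x
        have : 0 ≤ C * h k ^ 2 := mul_nonneg hC (hw0 k).le
        linarith
      exact div_le_div_of_nonneg_right (by linarith) (hpos k).le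
    · intro k
      simp only
      have e9 := h3 _ _ _ (huu k x hx0 hx1).1 (huu k x hx0 hx1).2 (hw0 k) (hmP k x hx0 hx1)
      have e10 : (R (uu k x) - R v) / h k + C * h k = (R (uu k x) + C * h k ^ 2 - R v) / h k := by
        have := (hpos k).ne'
        field_simp
        ring
      rw [e10]
      exact div_le_div_of_nonneg_right (by linarith) (hpos k).le

end Crest.Agent.R138.Arg615
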