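import Crest.Agent.R138.KDef_294

/-!
# R138, TEXT I, leaf L4: `β(2) ≤ 0` (helper57)

For the penalty `q = 2` every valid configuration has `D1 ν² ≤ C 4^M D0`, hence `val ≤ C / M`.
Proof: two-ends bush argument with phase-space balls of radius `r`.
-/

set_option autoImplicit false
set_option linter.unusedVariables false

open Finset

namespace Crest.Agent.R138.B257

open Crest.Agent.R138.Flag51 Crest.Agent.R138.K294

noncomputable section

/-- the first unit vector -/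
def e0 : E2 := !₂[1, 0]

theorem dt_e0 (x : E2) : dt x e0 = x 0 := by simp [dt, e0]
theorem cr_e0 (x : E2) : cr e0 x = x 1 := by simp [cr, e0]
theorem e0_unit : dt e0 e0 = 1 := by simp [dt, e0]

theorem pos_sub (l l' : Ln) (z : ℝ) (i : Fin 2) :
    (pos l z - pos l' z) i = (l.1 i - l'.1 i) + z * (l.2 i - l'.2 i) := by
  unfold pos
  simp only [PiLp.sub_apply, PiLp.add_apply, PiLp.smul_apply, smul_eq_mul]
  ring

/-- affine growth -/
theorem affine {a b A z1 z2 z t h : ℝ} (h1 : |a + z1 * b| ≤ A) (h2 : |a + z2 * b| ≤ A)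
    (ht : 0 < t) (h12 : t ≤ |z1 - z2|) (hz : |z - z1| ≤ h) :
    |a + z * b| ≤ A + 2 * A * h / t := by
  have hA : 0 ≤ A := (abs_nonneg _).trans h1
  have hh : 0 ≤ h := (abs_nonneg _).trans hz
  have hb : |b| * t ≤ 2 * A := by
    calc |b| * t ≤ |b| * |z1 - z2| := by gcongr
      _ = |(a + z1 * b) + -(a + z2 * b)| := by rw [← abs_mul]; congr 1; ring
      _ ≤ |a + z1 * b| + |-(a + z2 * b)| := abs_add_le _ _
      _ ≤ 2 * A := by rw [abs_neg]; linarith
  have hb' : |b| ≤ 2 * A / t := by rw [le_div_iff₀ ht]; exact hb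
  calc |a + z * b| = |(a + z1 * b) + (z - z1) * b| := by congr 1; ring
    _ ≤ |a + z1 * b| + |(z - z1) * b| := abs_add_le _ _
    _ ≤ A + h * (2 * A / t) := by
      rw [abs_mul]
      have := mul_le_mul hz hb' (abs_nonneg _) hh
      linarith
    _ = A + 2 * A * h / t := by ring

theorem in_iff {l l' : Ln} {w z0 ρ : ℝ} : InPlank l l' e0 w w z0 ρ ↔
    ∀ z, |z - z0| ≤ ρ → ∀ i : Fin 2, |(l.1 i - l'.1 i) + z * (l.2 i - l'.2 i)| ≤ w := by
  unfold InPlank
  constructor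
  · intro h z hz i
    have := h z hz
    rw [dt_e0, cr_e0, pos_sub, pos_sub] at this
    fin_cases i
    · exact this.1
    · exact this.2
  · intro h z hz
    rw [dt_e0, cr_e0, pos_sub, pos_sub]
    exact ⟨h z hz 0, h z hz 1⟩

theorem in_symm {l l' : Ln} {w z0 ρ : ℝ} (h : InPlank l l' e0 w w z0 ρ) :
    InPlank l' l e0 w w z0 ρ := by
  rw [in_iff] at h ⊢
  intro z hz i
  have := h z hz i
  rw [← abs_neg] at this
  convert this using 2
  ring

theorem in_trans {l l' l'' : Ln} {w w' z0 ρ : ℝ} (h : InPlank l l' e0 w w z0 ρ)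
    (h' : InPlank l' l'' e0 w' w' z0 ρ) : InPlank l l'' e0 (w + w') (w + w') z0 ρ := by
  rw [in_iff] at h h' ⊢
  intro z hz i
  have h1 := h z hz i
  have h2 := h' z hz i
  calc |(l.1 i - l''.1 i) + z * (l.2 i - l''.2 i)|
      = |((l.1 i - l'.1 i) + z * (l.2 i - l'.2 i)) + ((l'.1 i - l''.1 i) +
        z * (l'.2 i - l''.2 i))| := by congr 1; ring
    _ ≤ _ := (abs_add_le _ _).trans (add_le_add h1 h2)

theorem in_mono {l l' : Ln} {e : E2} {w1 w2 v1 v2 z0 ρ : ℝ} (h : InPlank l l' e w1 w2 z0 ρ)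
    (h1 : w1 ≤ v1) (h2 : w2 ≤ v2) : InPlank l l' e v1 v2 z0 ρ :=
  fun z hz => ⟨(h z hz).1.trans h1, (h z hz).2.trans h2⟩

/-- change of the frame -/
theorem in_frame {l l' : Ln} {e : E2} {w z0 ρ : ℝ} (he : dt e e = 1)
    (h : InPlank l l' e w w z0 ρ) : InPlank l l' e0 (2 * w) (2 * w) z0 ρ := by
  intro z hz
  obtain ⟨h1, h2⟩ := h z hz
  have hw : 0 ≤ w := (abs_nonneg _).trans h1
  set x := pos l z - pos l' z
  have a1 := abs_dt_le_one e0_unit he
  have a2 := abs_cr_le_one e0_unit he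
  have key : ∀ {a b u v : ℝ}, |a| ≤ 1 → |b| ≤ 1 → |u| ≤ w → |v| ≤ w → |a * u| + |b * v| ≤ 2 * w := by
    intro a b u v ha hb hu hv
    rw [abs_mul, abs_mul]
    have p1 := mul_le_mul ha hu (abs_nonneg _) zero_le_one
    have p2 := mul_le_mul hb hv (abs_nonneg _) zero_le_one
    linarith
  constructor
  · rw [dt_of he x]
    calc |dt e0 e * dt x e - cr e0 e * cr e x| ≤ |dt e0 e * dt x e| + |cr e0 e * cr e x| := by
          rw [sub_eq_add_neg]
          refine (abs_add_le _ _).trans ?_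
          rw [abs_neg]
      _ ≤ 2 * w := key a1 a2 h1 h2
  · rw [cr_of he x]
    exact (abs_add_le _ _).trans (key a2 a1 h1 h2)

theorem zr_eq (m M : ℕ) : zr m = 2 ^ M * zr (m + M) := by
  unfold zr
  rw [show m + M + 1 = m + 1 + M by ring, pow_add 2 (m + 1) M]
  field_simp

/-- growth of a ball of the top cell over the coarse cell -/
theorem grow1 {m M : ℕ} {j0 J : ℤ} (hJ : |zm (m + M) J - zm m j0| + zr (m + M) ≤ zr m)
    {l l' : Ln} {w : ℝ} (h : InPlank l l' e0 w w (zm (m + M) J) (zr (m + M))) :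
    InPlank l l' e0 (3 * w * 2 ^ M) (3 * w * 2 ^ M) (zm m j0) (zr m) := by
  have hρ := zr_pos (m + M)
  rw [in_iff] at h ⊢
  intro z hz i
  have h1 := h (zm (m + M) J - zr (m + M)) (by
    rw [show zm (m + M) J - zr (m + M) - zm (m + M) J = -zr (m + M) by ring, abs_neg,
      abs_of_pos hρ]) i
  have h2 := h (zm (m + M) J + zr (m + M)) (by
    rw [show zm (m + M) J + zr (m + M) - zm (m + M) J = zr (m + M) by ring, abs_of_pos hρ]) i
  have hw : 0 ≤ w := (abs_nonneg _).trans h1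
  have h3 := affine (z := z) (t := 2 * zr (m + M)) (h := 2 * zr m) h1 h2 (by positivity) (by
    rw [show zm (m + M) J - zr (m + M) - (zm (m + M) J + zr (m + M)) = -(2 * zr (m + M)) by ring,
      abs_neg, abs_of_pos (by positivity)]) (by
    rw [abs_le] at hz ⊢
    have := abs_le.1 (show |zm (m + M) J - zm m j0| ≤ zr m - zr (m + M) by linarith)
    constructor <;> linarith [this.1, this.2, hz.1, hz.2])
  refine h3.trans ?_
  have h4 : w + 2 * w * (2 * zr m) / (2 * zr (m + M)) = w + 2 * w * 2 ^ M := by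
    rw [zr_eq m M]; field_simp
  rw [h4]
  have h5 : (1:ℝ) ≤ 2 ^ M := one_le_pow₀ (by norm_num)
  nlinarith

/-- distance of two cells of one coarse cell -/
theorem cell_dist {m M : ℕ} {j0 J J' : ℤ} (hJ : |zm (m + M) J - zm m j0| + zr (m + M) ≤ zr m)
    (hJ' : |zm (m + M) J' - zm m j0| + zr (m + M) ≤ zr m) : |(J:ℝ) - J'| ≤ 2 ^ M := by
  have hρ := zr_pos (m + M)
  have h1 : |zm (m + M) J - zm (m + M) J'| ≤ 2 * zr m := by
    have a1 := abs_le.1 (show |zm (m + M) J - zm m j0| ≤ zr m by linarith)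
    have a2 := abs_le.1 (show |zm (m + M) J' - zm m j0| ≤ zr m by linarith)
    rw [abs_le]; constructor <;> linarith [a1.1, a1.2, a2.1, a2.2]
  have h2 : zm (m + M) J - zm (m + M) J' = ((J:ℝ) - J') / 2 ^ (m + M) := by
    unfold zm; ring
  rw [h2, abs_div, abs_of_pos (by positivity : (0:ℝ) < 2 ^ (m + M)), two_zr,
    div_le_iff₀ (by positivity), pow_add] at h1
  calc |(J:ℝ) - J'| ≤ 1 / 2 ^ m * (2 ^ m * 2 ^ M) := h1
    _ = 2 ^ M := by field_simp

/-- growth between two balls in different cells -/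
theorem grow2 {m M : ℕ} {j0 J J' : ℤ} (hJ : |zm (m + M) J - zm m j0| + zr (m + M) ≤ zr m)
    (hJ' : |zm (m + M) J' - zm m j0| + zr (m + M) ≤ zr m) (hne : J ≠ J')
    {l l' : Ln} {w : ℝ} (h : InPlank l l' e0 w w (zm (m + M) J) (zr (m + M)))
    (h' : InPlank l l' e0 w w (zm (m + M) J') (zr (m + M))) :
    InPlank l l' e0 (3 * w * (2 ^ M / |(J:ℝ) - J'|)) (3 * w * (2 ^ M / |(J:ℝ) - J'|))
      (zm m j0) (zr m) := by
  have hρ := zr_pos (m + M)
  have hd := cell_dist hJ hJ'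
  have hk : (0:ℝ) < |(J:ℝ) - J'| := by
    rw [abs_pos, sub_ne_zero]; exact_mod_cast hne
  rw [in_iff] at h h' ⊢
  intro z hz i
  have h1 := h (zm (m + M) J) (by rw [sub_self, abs_zero]; exact hρ.le) i
  have h2 := h' (zm (m + M) J') (by rw [sub_self, abs_zero]; exact hρ.le) i
  have hw : 0 ≤ w := (abs_nonneg _).trans h1
  have h3 := affine (z := z) (t := |(J:ℝ) - J'| / 2 ^ (m + M)) (h := 1 / 2 ^ m) h1 h2
    (by positivity) (by
      have h2 : zm (m + M) J - zm (m + M) J' = ((J:ℝ) - J') / 2 ^ (m + M) := by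
        unfold zm; ring
      rw [h2, abs_div, abs_of_pos (by positivity : (0:ℝ) < 2 ^ (m + M))]) (by
    rw [← two_zr]
    rw [abs_le] at hz ⊢
    have := abs_le.1 (show |zm (m + M) J - zm m j0| ≤ zr m - zr (m + M) by linarith)
    constructor <;> linarith [this.1, this.2, hz.1, hz.2])
  refine h3.trans ?_
  have h4 : w + 2 * w * (1 / 2 ^ m) / (|(J:ℝ) - J'| / 2 ^ (m + M)) =
      w * 1 + 2 * w * (2 ^ M / |(J:ℝ) - J'|) := by
    rw [pow_add]; field_simp
  rw [h4]
  have h5 : (1:ℝ) ≤ 2 ^ M / |(J:ℝ) - J'| := by rw [le_div_iff₀ hk]; linarith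
  nlinarith

open Classical in
/-- cover lemma with two different numbers of pieces -/
theorem cover2 {ι : Type*} (S : Finset ι) (L : ι → Ln) {e : E2} {w1 w2 z0 ρ : ℝ} (hw1 : 0 < w1)
    (hw2 : 0 < w2) (hρ : 0 < ρ) {n1 n2 : ℕ} {l : Ln}
    (hS : ∀ t ∈ S, InPlank (L t) l e (n1 * w1) (n2 * w2) z0 ρ) {A : ℝ} (hA0 : 0 ≤ A)
    (hA : ∀ t0 ∈ S, ((S.filter fun t => InPlank (L t) (L t0) e w1 w2 z0 ρ).card : ℝ) ≤ A) :
    (S.card : ℝ) ≤ (2 * n1 + 1) ^ 2 * (2 * n2 + 1) ^ 2 * A := by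
  set g : ι → Fin 4 → ℤ := fun t => gcell e w1 w2 z0 ρ (L t) with hg
  have h1 : (S.card : ℝ) ≤ (S.image g).card * A := by
    have : S.card = ∑ c ∈ S.image g, (S.filter fun t => g t = c).card :=
      card_eq_sum_card_image g S
    rw [this]
    push_cast
    calc ∑ c ∈ S.image g, ((S.filter fun t => g t = c).card : ℝ) ≤ ∑ c ∈ S.image g, A := by
          refine sum_le_sum fun c hc => ?_
          obtain ⟨t0, ht0, rfl⟩ := mem_image.1 hc
          refine le_trans ?_ (hA t0 ht0)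
          refine Nat.cast_le.2 (card_le_card fun t ht => ?_)
          rw [mem_filter] at ht ⊢
          exact ⟨ht.1, inPlank_of_gcell hw1 hw2 hρ ht.2⟩
      _ = (S.image g).card * A := by rw [sum_const, nsmul_eq_mul]
  have hz1 : |z0 - ρ - z0| ≤ ρ := by rw [abs_le]; constructor <;> linarith
  have hz2 : |z0 + ρ - z0| ≤ ρ := by rw [abs_le]; constructor <;> linarith
  set c0 : Fin 4 → ℤ := gcell e w1 w2 z0 ρ l with hc0
  set nn : Fin 4 → ℕ := ![n1, n1, n2, n2] with hnn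
  have h2 : S.image g ⊆ Fintype.piFinset fun i => Icc (c0 i - nn i) (c0 i + nn i) := by
    intro c hc
    obtain ⟨t, ht, rfl⟩ := mem_image.1 hc
    have a1 := hS t ht _ hz1
    have a2 := hS t ht _ hz2
    rw [dt_sub, cr_sub] at a1 a2
    rw [Fintype.mem_piFinset]
    intro i
    fin_cases i
    · exact floor_mem_Icc hw1 a1.1
    · exact floor_mem_Icc hw1 a2.1
    · exact floor_mem_Icc hw2 a1.2
    · exact floor_mem_Icc hw2 a2.2
  have h3 : ((S.image g).card : ℝ) ≤ (2 * n1 + 1) ^ 2 * (2 * n2 + 1) ^ 2 := by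
    have := card_le_card h2
    rw [Fintype.card_piFinset] at this
    have h5 : ∀ i : Fin 4, (Icc (c0 i - nn i) (c0 i + nn i)).card = 2 * nn i + 1 := by
      intro i; rw [Int.card_Icc]; omega
    simp only [h5] at this
    rw [Fin.prod_univ_four] at this
    simp only [hnn, Matrix.cons_val_zero, Matrix.cons_val_one, Matrix.cons_val] at this
    have h6 : ((S.image g).card : ℝ) ≤
        ((2 * n1 + 1) * (2 * n1 + 1) * (2 * n2 + 1) * (2 * n2 + 1) : ℝ) := by exact_mod_cast this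
    calc ((S.image g).card : ℝ) ≤ _ := h6
      _ = _ := by ring
  calc (S.card : ℝ) ≤ (S.image g).card * A := h1
    _ ≤ _ := mul_le_mul_of_nonneg_right h3 hA0

/-- fibrewise comparison -/
theorem fib {α β : Type*} [DecidableEq β] (A B : Finset α) (f : α → β) {c : ℝ} (hc : 0 ≤ c)
    (h : ∀ a ∈ A, ((A.filter fun x => f x = f a).card : ℝ) ≤
      c * ((B.filter fun x => f x = f a).card : ℝ)) : (A.card : ℝ) ≤ c * B.card := by
  have h1 : A.card = ∑ b ∈ A.image f, (A.filter fun x => f x = b).card :=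
    card_eq_sum_card_image f A
  have h2 : ∑ b ∈ A.image f, (B.filter fun x => f x = b).card ≤ B.card := by
    have e := sum_card_fiberwise_eq_card_filter B (A.image f) f
    have e2 : (B.filter fun x => f x ∈ A.image f).card ≤ B.card := card_filter_le _ _
    convert e2 using 1
  rw [h1]
  push_cast
  calc ∑ b ∈ A.image f, ((A.filter fun x => f x = b).card : ℝ)
      ≤ ∑ b ∈ A.image f, c * ((B.filter fun x => f x = b).card : ℝ) := by
        refine sum_le_sum fun b hb => ?_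
        obtain ⟨a, ha, rfl⟩ := mem_image.1 hb
        exact h a ha
    _ = c * ((∑ b ∈ A.image f, (B.filter fun x => f x = b).card : ℕ) : ℝ) := by
        rw [← mul_sum]; push_cast; rfl
    _ ≤ c * B.card := by
        refine mul_le_mul_of_nonneg_left ?_ hc
        exact_mod_cast h2

/-! ### the configuration -/

open Classical in
/-- the objects of the deep level -/
def O (F : Cf) : Finset (Ln × ℤ) := F.I.image (ob F.top)

/-- same deep cell and `2r`-close -/
def rel (F : Cf) (o o' : Ln × ℤ) : Prop :=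
  o.2 = o'.2 ∧ InPlank o.1 o'.1 e0 (2 * F.r) (2 * F.r) (zm F.top o'.2) (zr F.top)

theorem rel_symm {F : Cf} {o o' : Ln × ℤ} (h : rel F o o') : rel F o' o :=
  ⟨h.1.symm, by have := in_symm h.2; rwa [← h.1] at this⟩

open Classical in
/-- multiplicity -/
def mu (F : Cf) (o : Ln × ℤ) : ℕ := ((O F).filter fun o' => rel F o' o).card

/-- threshold -/
def thr (F : Cf) : ℝ := F.D1 * F.r ^ 4 * 4 ^ F.top / 2500

open Classical in
/-- fat objects -/
def O1 (F : Cf) : Finset (Ln × ℤ) := (O F).filter fun o => thr F ≤ mu F o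

open Classical in
/-- thin objects -/
def Ob (F : Cf) : Finset (Ln × ℤ) := (O F).filter fun o => ¬ thr F ≤ mu F o

open Classical in
/-- own number of cells -/
def own (F : Cf) (l : Ln) : ℕ := ((O F).filter fun o => o.1 = l).card

open Classical in
/-- own number of fat cells -/
def own1 (F : Cf) (l : Ln) : ℕ := ((O1 F).filter fun o => o.1 = l).card

open Classical in
/-- fat objects of good lines -/
def G (F : Cf) : Finset (Ln × ℤ) := (O1 F).filter fun o => own F o.1 ≤ 2 * own1 F o.1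

theorem thr_pos {F : Cf} (hF : F.Ok 2) : 0 < thr F := by
  have := hF.D1p
  have := hF.r0
  unfold thr
  positivity

theorem mem_O {F : Cf} {o : Ln × ℤ} : o ∈ O F ↔ ∃ x ∈ F.I, ob F.top x = o := by
  unfold O; rw [mem_image]

open Classical in
/-- the thin objects are at most a quarter -/
theorem bad_le {F : Cf} (hF : F.Ok 2) : ((Ob F).card : ℝ) ≤ 1 / 4 * (O F).card := by
  refine fib _ _ F.cl (by norm_num) fun a ha => ?_
  unfold Ob at ha
  rw [mem_filter] at ha
  obtain ⟨x, hx, rfl⟩ := mem_O.1 ha.1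
  set K := F.K (F.cl (ob F.top x)) with hK
  have hleg : Legal F.top F.r K := hF.legal x hx
  have hr := hF.r0
  have hlow : F.D1 * cap 2 F.top K ≤ (((O F).filter fun o => F.cl o = F.cl (ob F.top x)).card : ℝ) :=
    hF.low x hx
  set S := (Ob F).filter fun o => F.cl o = F.cl (ob F.top x) with hS
  have hSK : ∀ t ∈ S, t ∈ O F ∧ ¬ thr F ≤ mu F t ∧ t.2 = K.j ∧
      InPlank t.1 K.l K.e K.w1 K.w2 (zm F.top K.j) (zr F.top) := by
    intro t ht
    rw [hS, mem_filter] at ht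
    obtain ⟨ht1, ht2⟩ := ht
    unfold Ob at ht1
    rw [mem_filter] at ht1
    obtain ⟨y, hy, rfl⟩ := mem_O.1 ht1.1
    have := hF.mem y hy
    rw [ht2] at this
    exact ⟨ht1.1, ht1.2, this.1, this.2⟩
  have hw1 : 0 < K.w1 := hr.trans_le hleg.r1
  have hw2 : 0 < K.w2 := hw1.trans_le hleg.w12
  have hcov := cover2 S (fun t => t.1) (e := K.e) (w1 := F.r) (w2 := F.r) (z0 := zm F.top K.j)
    (ρ := zr F.top) hr hr (zr_pos _) (n1 := ⌈K.w1 / F.r⌉₊) (n2 := ⌈K.w2 / F.r⌉₊) (l := K.l)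
    (A := thr F) (fun t ht => in_mono (hSK t ht).2.2.2
      (by rw [← div_le_iff₀ hr]; exact Nat.le_ceil _)
      (by rw [← div_le_iff₀ hr]; exact Nat.le_ceil _)) (thr_pos hF).le (by
      intro t0 ht0
      obtain ⟨h1, h2, h3, h4⟩ := hSK t0 ht0
      refine le_trans ?_ (not_le.1 h2).le
      refine Nat.cast_le.2 (card_le_card fun t ht => ?_)
      rw [mem_filter] at ht ⊢
      obtain ⟨k1, k2, k3, k4⟩ := hSK t ht.1
      refine ⟨k1, k3.trans h3.symm, ?_⟩
      rw [h3]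
      exact in_frame hleg.unit ht.2)
  have hn : ∀ {w : ℝ}, F.r ≤ w → (2 * (⌈w / F.r⌉₊ : ℝ) + 1) ^ 2 ≤ (5 * (w / F.r)) ^ 2 := by
    intro w hw
    have h1 : 1 ≤ w / F.r := by rw [le_div_iff₀ hr]; linarith
    have h2 := Nat.ceil_lt_add_one (show 0 ≤ w / F.r by linarith)
    have h3 : (0:ℝ) ≤ (⌈w / F.r⌉₊ : ℝ) := Nat.cast_nonneg _
    gcongr
    linarith
  have h1 : (S.card : ℝ) ≤ (5 * (K.w1 / F.r)) ^ 2 * (5 * (K.w2 / F.r)) ^ 2 * thr F := by
    refine hcov.trans ?_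
    have := thr_pos hF
    have a1 := hn hleg.r1
    have a2 := hn (hleg.r1.trans hleg.w12)
    gcongr
  refine h1.trans ?_
  refine le_trans ?_ (mul_le_mul_of_nonneg_left hlow (by norm_num))
  have h2 : (5 * (K.w1 / F.r)) ^ 2 * (5 * (K.w2 / F.r)) ^ 2 * thr F =
      1 / 4 * (F.D1 * (K.w1 ^ 2 * K.w2 ^ 2 * 4 ^ F.top)) := by
    unfold thr; field_simp; ring
  have h3 : cap 2 F.top K = K.w1 * K.w2 ^ 3 * 4 ^ F.top := by
    unfold cap
    rw [Real.rpow_two, mul_pow, ← pow_mul, mul_comm F.top 2, pow_mul]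
    norm_num
    ring
  rw [h2, h3]
  have hD := hF.D1p
  gcongr 1 / 4 * (F.D1 * ?_)
  have h4 : K.w1 ^ 2 * K.w2 ^ 2 ≤ K.w1 * K.w2 ^ 3 := by
    have : 0 ≤ K.w1 * K.w2 ^ 2 * (K.w2 - K.w1) :=
      mul_nonneg (by positivity) (sub_nonneg.2 hleg.w12)
    nlinarith
  gcongr

open Classical in
theorem own_split (F : Cf) (l : Ln) :
    own F l = own1 F l + ((Ob F).filter fun o => o.1 = l).card := by
  have e1 : (O1 F).filter (fun o => o.1 = l) =
      ((O F).filter fun o => o.1 = l).filter fun o => thr F ≤ mu F o := filter_comm _ _ _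
  have e2 : (Ob F).filter (fun o => o.1 = l) =
      ((O F).filter fun o => o.1 = l).filter fun o => ¬ thr F ≤ mu F o := filter_comm _ _ _
  unfold own own1
  rw [e1, e2]
  exact (card_filter_add_card_filter_not _).symm

open Classical in
theorem card_split (F : Cf) : (O F).card = (O1 F).card + (Ob F).card := by
  unfold O1 Ob
  exact (card_filter_add_card_filter_not _).symm

open Classical in
/-- the good part is at least one half -/
theorem G_ge {F : Cf} (hF : F.Ok 2) : 1 / 2 * ((O F).card : ℝ) ≤ (G F).card := by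
  have h1 := bad_le hF
  have h2 := card_split F
  have h3 : (((O1 F).filter fun o => ¬ own F o.1 ≤ 2 * own1 F o.1).card : ℝ) ≤
      1 * ((Ob F).card : ℝ) := by
    refine fib _ _ Prod.fst zero_le_one fun a ha => ?_
    rw [mem_filter] at ha
    rw [one_mul]
    have h4 := own_split F a.1
    have h5 : (((O1 F).filter fun o => ¬ own F o.1 ≤ 2 * own1 F o.1).filter
        fun x => x.1 = a.1).card ≤ own1 F a.1 := by
      unfold own1
      exact card_le_card (filter_subset_filter _ (filter_subset _ _))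
    have h6 : own1 F a.1 ≤ ((Ob F).filter fun o => o.1 = a.1).card := by
      have := ha.2
      omega
    exact_mod_cast h5.trans h6
  have h7 : (O1 F).card = (G F).card +
      ((O1 F).filter fun o => ¬ own F o.1 ≤ 2 * own1 F o.1).card := by
    unfold G
    exact (card_filter_add_card_filter_not _).symm
  have h8 : ((O F).card : ℝ) = (O1 F).card + (Ob F).card := by exact_mod_cast h2
  have h9 : ((O1 F).card : ℝ) = (G F).card +
      ((O1 F).filter fun o => ¬ own F o.1 ≤ 2 * own1 F o.1).card := by exact_mod_cast h7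
  linarith

open Classical in
/-- a bush -/
theorem bush {F : Cf} (hF : F.Ok 2) :
    ∃ o ∈ O F, thr F / 2 ≤ (((G F).filter fun g => rel F g o).card : ℝ) := by
  by_contra hcon
  push Not at hcon
  have hne : (O F).Nonempty := hF.ne.image _
  have h1 : ∑ o ∈ O F, (((G F).filter fun g => rel F g o).card : ℝ) <
      ∑ o ∈ O F, thr F / 2 := sum_lt_sum_of_nonempty hne hcon
  have h2 : ∑ o ∈ O F, ((G F).filter fun g => rel F g o).card =
      ∑ g ∈ G F, ((O F).filter fun o => rel F g o).card := by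
    exact sum_card_bipartiteAbove_eq_sum_card_bipartiteBelow (s := O F) (t := G F)
      (fun o g => rel F g o)
  have h3 : ∀ g ∈ G F, thr F ≤ (((O F).filter fun o => rel F g o).card : ℝ) := by
    intro g hg
    unfold G O1 at hg
    rw [mem_filter, mem_filter] at hg
    refine hg.1.2.trans (le_of_eq ?_)
    unfold mu
    congr 2
    ext o
    rw [mem_filter, mem_filter]
    exact ⟨fun h => ⟨h.1, rel_symm h.2⟩, fun h => ⟨h.1, rel_symm h.2⟩⟩
  have h4 : ((G F).card : ℝ) * thr F ≤ ∑ o ∈ O F, (((G F).filter fun g => rel F g o).card : ℝ) := by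
    have : ∑ o ∈ O F, (((G F).filter fun g => rel F g o).card : ℝ) =
        ∑ g ∈ G F, (((O F).filter fun o => rel F g o).card : ℝ) := by exact_mod_cast h2
    rw [this, ← nsmul_eq_mul, ← sum_const]
    exact sum_le_sum h3
  rw [sum_const, nsmul_eq_mul] at h1
  have h5 := G_ge hF
  have h6 := thr_pos hF
  nlinarith

/-- tail sum -/
theorem tail {s : Finset ℤ} {a : ℤ} {K : ℝ} (hK : 1 ≤ K) (hs : ∀ j ∈ s, K ≤ |(j:ℝ) - a|) :
    ∑ j ∈ s, 1 / |(j:ℝ) - a| ^ 4 ≤ 4 / K ^ 3 := by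
  have hK0 : 0 < K := by linarith
  set g : ℤ → ℕ := fun j => (j - a).natAbs with hg
  have hga : ∀ j : ℤ, |(j:ℝ) - a| = (g j : ℝ) := by
    intro j
    simp only [hg]
    rw [Nat.cast_natAbs]
    push_cast
    rfl
  set f : ℕ → ℝ := fun n => ((n:ℝ) ^ 2)⁻¹ with hf
  have hf0 : ∀ n, 0 ≤ f n := fun n => by simp only [hf]; positivity
  have h1 : ∑ j ∈ s, 1 / |(j:ℝ) - a| ^ 4 ≤ ∑ j ∈ s, 1 / K ^ 2 * f (g j) := by
    refine sum_le_sum fun j hj => ?_
    have h2 := hs j hj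
    rw [hga j] at h2 ⊢
    have h3 : (0:ℝ) < g j := by linarith
    simp only [hf]
    rw [← one_div, div_mul_div_comm, one_mul]
    refine one_div_le_one_div_of_le (by positivity) ?_
    calc K ^ 2 * (g j : ℝ) ^ 2 ≤ (g j : ℝ) ^ 2 * (g j : ℝ) ^ 2 := by gcongr
      _ = (g j : ℝ) ^ 4 := by ring
  refine h1.trans ?_
  rw [← mul_sum, sum_comp f g]
  have h4 : ∀ n ∈ s.image g, ((s.filter fun j => g j = n).card) • f n ≤ 2 * f n := by
    intro n hn
    rw [nsmul_eq_mul]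
    refine mul_le_mul_of_nonneg_right ?_ (hf0 n)
    have h5 : (s.filter fun j => g j = n) ⊆ {a + n, a - n} := by
      intro j hj
      rw [mem_filter] at hj
      have := hj.2
      simp only [hg] at this
      rw [mem_insert, mem_singleton]
      omega
    have h6 := (card_le_card h5).trans card_le_two
    exact_mod_cast h6
  have h7 := sum_le_sum h4
  rw [← mul_sum] at h7
  have h8 : ∑ n ∈ s.image g, f n ≤ 2 / K := by
    have hc1 : 1 ≤ ⌈K⌉₊ := by
      rw [Nat.one_le_ceil_iff]; exact hK0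
    have h9 : s.image g ⊆ Ioo (⌈K⌉₊ - 1) ((s.image g).sup id + 1) := by
      intro n hn
      rw [mem_Ioo]
      constructor
      · obtain ⟨j, hj, rfl⟩ := mem_image.1 hn
        have := hs j hj
        rw [hga j] at this
        have := Nat.ceil_le.2 this
        omega
      · have : n ≤ (s.image g).sup id := le_sup (f := id) hn
        omega
    have h10 : ∑ n ∈ s.image g, f n ≤ ∑ n ∈ Ioo (⌈K⌉₊ - 1) ((s.image g).sup id + 1), f n :=
      sum_le_sum_of_subset_of_nonneg h9 fun n _ _ => hf0 n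
    have h11 := sum_Ioo_inv_sq_le (α := ℝ) (⌈K⌉₊ - 1) ((s.image g).sup id + 1)
    refine h10.trans (h11.trans ?_)
    have h12 : ((⌈K⌉₊ - 1 : ℕ) : ℝ) + 1 = ⌈K⌉₊ := by
      rw [Nat.cast_sub hc1]; push_cast; ring
    rw [h12]
    exact div_le_div_of_nonneg_left (by norm_num) hK0 (Nat.le_ceil _)
  calc 1 / K ^ 2 * ∑ n ∈ s.image g, ((s.filter fun j => g j = n).card) • f n
      ≤ 1 / K ^ 2 * (2 * (2 / K)) := by
        refine mul_le_mul_of_nonneg_left ?_ (by positivity)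
        linarith
    _ = 4 / K ^ 3 := by field_simp; norm_num

/-- number of lines in a box of the coarse cell -/
theorem linecount {F : Cf} (hF : F.Ok 2) {j0 : ℤ} (hj : ∀ x ∈ F.I, zc F.m x.2 = j0)
    (S : Finset Ln) (hS : ∀ l ∈ S, ∃ J, (l, J) ∈ O F) {l0 : Ln} {n : ℕ} {w : ℝ}
    (hw1 : F.r ≤ w) (hw2 : w ≤ 1 / 2 ^ F.m)
    (h : ∀ l ∈ S, InPlank l l0 e0 (n * w) (n * w) (zm F.m j0) (zr F.m)) :
    (S.card : ℝ) ≤ (2 * n + 1) ^ 4 * (F.D0 * (w ^ 4 * 4 ^ F.m)) := by
  classical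
  have hw : 0 < w := hF.r0.trans_le hw1
  have hcap : ∀ t : Ln, cap 2 F.m ⟨j0, t, e0, w, w⟩ = w ^ 4 * 4 ^ F.m := by
    intro t
    unfold cap
    simp only
    rw [Real.rpow_two, mul_pow, ← pow_mul, mul_comm F.m 2, pow_mul]
    norm_num
    ring
  have hup : ∀ t : Ln, ((objs F.m F.I ⟨j0, t, e0, w, w⟩).card : ℝ) ≤ F.D0 * (w ^ 4 * 4 ^ F.m) := by
    intro t
    rw [← hcap t]
    exact hF.up _ ⟨e0_unit, hw1, le_rfl, hw2⟩
  refine cover S (fun t => t) hw hw (zr_pos _) h ((Nat.cast_nonneg _).trans (hup l0)) ?_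
  intro t0 ht0
  refine le_trans ?_ (hup t0)
  refine Nat.cast_le.2 (card_le_card_of_injOn (fun l => (l, j0)) ?_ ?_)
  · intro l hl
    rw [mem_coe, mem_filter] at hl
    obtain ⟨J, hJ⟩ := hS l hl.1
    obtain ⟨x, hx, hxl⟩ := mem_O.1 hJ
    unfold objs
    rw [mem_coe, mem_filter, mem_image]
    refine ⟨⟨x, hx, ?_⟩, rfl, hl.2⟩
    unfold ob at hxl ⊢
    rw [hj x hx]
    rw [Prod.mk.injEq] at hxl ⊢
    exact ⟨hxl.1, rfl⟩
  · intro l _ l' _ hll
    exact (Prod.mk.injEq _ _ _ _ ▸ hll).1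

theorem cellin {F : Cf} {j0 : ℤ} (hj : ∀ x ∈ F.I, zc F.m x.2 = j0) {o : Ln × ℤ}
    (ho : o ∈ O F) : |zm (F.m + F.M) o.2 - zm F.m j0| + zr (F.m + F.M) ≤ zr F.m := by
  obtain ⟨x, hx, rfl⟩ := mem_O.1 ho
  have := cell_sub (show F.m ≤ F.m + F.M by omega) x.2
  rw [hj x hx] at this
  exact this

theorem D0_nonneg {F : Cf} (hF : F.Ok 2) : 0 ≤ F.D0 := by
  obtain ⟨x, hx⟩ := hF.ne
  have hr := hF.r0
  have hle : F.r ≤ 1 / 2 ^ F.m := by
    refine hF.rle.trans ?_
    refine one_div_le_one_div_of_le (by positivity) ?_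
    exact pow_le_pow_right₀ (by norm_num) (by unfold Cf.top; omega)
  have h1 := linecount hF (j0 := zc F.m x.2) (fun y hy => hF.cell y hy x hx) ∅ (by simp)
    (l0 := x.1) (n := 1) (w := F.r) le_rfl hle (by simp)
  by_contra hcon
  push Not at hcon
  have : (0:ℝ) < F.r ^ 4 * 4 ^ F.m := by positivity
  have h2 : F.D0 * (F.r ^ 4 * 4 ^ F.m) < 0 := mul_neg_of_neg_of_pos hcon this
  simp only [card_empty, Nat.cast_zero, Nat.cast_one] at h1
  nlinarith

/-- the two-ball estimate at another cell -/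
theorem step {F : Cf} (hF : F.Ok 2) {j0 : ℤ} (hj : ∀ x ∈ F.I, zc F.m x.2 = j0) {o : Ln × ℤ}
    (ho : o ∈ O F) {J' : ℤ} (hJ' : o.2 ≠ J') (P : Finset Ln)
    (hP : ∀ l ∈ P, (l, o.2) ∈ O F ∧ rel F (l, o.2) o ∧ (l, J') ∈ O1 F) :
    (P.card : ℝ) * thr F ≤ 25 ^ 4 * (F.D0 * ((F.r * (2 ^ F.M / |(o.2:ℝ) - J'|)) ^ 4 * 4 ^ F.m)) *
      (25 ^ 4 * (F.D0 * ((F.r * 2 ^ F.M) ^ 4 * 4 ^ F.m))) := by
  classical
  have hr := hF.r0
  have hD0 := D0_nonneg hF
  have h2M : (1:ℝ) ≤ 2 ^ F.M := one_le_pow₀ (by norm_num)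
  have hO1 : ∀ {o : Ln × ℤ}, o ∈ O1 F → o ∈ O F := fun h => by
    unfold O1 at h; exact (mem_filter.1 h).1
  rcases P.eq_empty_or_nonempty with rfl | ⟨lP, hlP⟩
  · simp only [card_empty, Nat.cast_zero, zero_mul]; positivity
  have hJc : |zm (F.m + F.M) J' - zm F.m j0| + zr (F.m + F.M) ≤ zr F.m :=
    cellin hj (hO1 (hP lP hlP).2.2)
  have hoc := cellin hj ho
  have hk1 : (1:ℝ) ≤ |(o.2:ℝ) - J'| := by
    have : (1:ℤ) ≤ |o.2 - J'| := Int.one_le_abs (sub_ne_zero.2 hJ')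
    exact_mod_cast this
  have hk2 : |(o.2:ℝ) - J'| ≤ 2 ^ F.M := cell_dist hoc hJc
  have hk0 : (0:ℝ) < |(o.2:ℝ) - J'| := by linarith
  have hwb : F.r * 2 ^ F.M ≤ 1 / 2 ^ F.m := by
    have := hF.rle
    unfold Cf.top at this
    rw [pow_add, le_div_iff₀ (by positivity)] at this
    rw [le_div_iff₀ (by positivity)]
    linarith
  set Ls : Finset Ln := (((O F).filter fun o' => o'.2 = J').image Prod.fst).filter fun l' =>
    InPlank l' o.1 e0 ((12:ℕ) * (F.r * 2 ^ F.M)) ((12:ℕ) * (F.r * 2 ^ F.M)) (zm F.m j0) (zr F.m)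
    with hLs
  have hLmem : ∀ l' ∈ Ls, (l', J') ∈ O F := by
    intro l' hl'
    rw [hLs, mem_filter, mem_image] at hl'
    obtain ⟨⟨o', ho', rfl⟩, _⟩ := hl'
    rw [mem_filter] at ho'
    rw [← ho'.2]
    exact ho'.1
  have hLc : (Ls.card : ℝ) ≤ 25 ^ 4 * (F.D0 * ((F.r * 2 ^ F.M) ^ 4 * 4 ^ F.m)) := by
    have := linecount hF hj Ls (fun l hl => ⟨J', hLmem l hl⟩) (l0 := o.1) (n := 12)
      (w := F.r * 2 ^ F.M) (by nlinarith) hwb (fun l hl => (mem_filter.1 hl).2)
    norm_num at this ⊢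
    exact this
  -- double counting
  have hdc : ∑ l ∈ P, (Ls.filter fun l' => rel F (l', J') (l, J')).card =
      ∑ l' ∈ Ls, (P.filter fun l => rel F (l', J') (l, J')).card :=
    sum_card_bipartiteAbove_eq_sum_card_bipartiteBelow (s := P) (t := Ls)
      (fun l l' => rel F (l', J') (l, J'))
  have hlow : ∀ l ∈ P, thr F ≤ ((Ls.filter fun l' => rel F (l', J') (l, J')).card : ℝ) := by
    intro l hl
    obtain ⟨p1, p2, p3⟩ := hP l hl
    have p3' := p3
    unfold O1 at p3'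
    rw [mem_filter] at p3'
    refine p3'.2.trans ?_
    unfold mu
    refine Nat.cast_le.2 (card_le_card_of_injOn Prod.fst ?_ ?_)
    · intro o' ho'
      rw [mem_coe, mem_filter] at ho'
      obtain ⟨q1, q2⟩ := ho'
      have q3 : o'.2 = J' := q2.1
      rw [mem_coe, mem_filter, hLs, mem_filter]
      refine ⟨⟨mem_image.2 ⟨o', mem_filter.2 ⟨q1, q3⟩, rfl⟩, ?_⟩, ?_⟩
      · have g1 := grow1 hJc q2.2
        have g2 := grow1 hoc p2.2
        have g3 := in_trans g1 g2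
        refine in_mono g3 (le_of_eq ?_) (le_of_eq ?_) <;> push_cast <;> ring
      · rw [← q3] at q2 ⊢
        exact q2
    · intro a ha b hb hab
      rw [mem_coe, mem_filter] at ha hb
      exact Prod.ext hab (ha.2.1.trans hb.2.1.symm)
  have hupp : ∀ l' ∈ Ls, ((P.filter fun l => rel F (l', J') (l, J')).card : ℝ) ≤
      25 ^ 4 * (F.D0 * ((F.r * (2 ^ F.M / |(o.2:ℝ) - J'|)) ^ 4 * 4 ^ F.m)) := by
    intro l' hl'
    rcases (P.filter fun l => rel F (l', J') (l, J')).eq_empty_or_nonempty with h0 | ⟨l1, hl1⟩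
    · rw [h0]; simp only [card_empty, Nat.cast_zero]; positivity
    · have hq : (1:ℝ) ≤ 2 ^ F.M / |(o.2:ℝ) - J'| := by rw [le_div_iff₀ hk0]; linarith
      have hq2 : (2:ℝ) ^ F.M / |(o.2:ℝ) - J'| ≤ 2 ^ F.M := div_le_self (by positivity) hk1
      have := linecount hF hj (P.filter fun l => rel F (l', J') (l, J'))
        (fun l hl => ⟨o.2, (hP l (mem_filter.1 hl).1).1⟩) (l0 := l1) (n := 12)
        (w := F.r * (2 ^ F.M / |(o.2:ℝ) - J'|)) (by nlinarith)
        (le_trans (by gcongr) hwb) (fun l hl => by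
          rw [mem_filter] at hl hl1
          have r1 := (hP l hl.1).2.1
          have r2 := (hP l1 hl1.1).2.1
          have g1 := in_trans r1.2 (in_symm r2.2)
          have g2 := in_trans (in_symm hl.2.2) hl1.2.2
          have g3 := grow2 hoc hJc hJ' g1 g2
          refine in_mono g3 (le_of_eq ?_) (le_of_eq ?_) <;> push_cast <;> ring)
      norm_num at this ⊢
      exact this
  have h1 : (P.card : ℝ) * thr F ≤
      ∑ l ∈ P, ((Ls.filter fun l' => rel F (l', J') (l, J')).card : ℝ) := by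
    rw [← nsmul_eq_mul, ← sum_const]
    exact sum_le_sum hlow
  have h2 : ∑ l ∈ P, ((Ls.filter fun l' => rel F (l', J') (l, J')).card : ℝ) =
      ∑ l' ∈ Ls, ((P.filter fun l => rel F (l', J') (l, J')).card : ℝ) := by exact_mod_cast hdc
  have h3 := sum_le_sum hupp
  rw [sum_const, nsmul_eq_mul] at h3
  rw [h2] at h1
  refine h1.trans (h3.trans ?_)
  rw [mul_comm]
  refine mul_le_mul_of_nonneg_left hLc (by positivity)

theorem nu_le_own {F : Cf} (hF : F.Ok 2) {o : Ln × ℤ} (ho : o ∈ O F) :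
    F.nu ≤ (own F o.1 : ℝ) := by
  classical
  obtain ⟨x, hx, rfl⟩ := mem_O.1 ho
  refine (hF.own x hx).trans (Nat.cast_le.2 ?_)
  unfold ownc own
  refine card_le_card fun o ho' => ?_
  obtain ⟨y, hy, rfl⟩ := mem_image.1 ho'
  rw [mem_filter] at hy
  rw [mem_filter]
  refine ⟨mem_O.2 ⟨y, hy.1, rfl⟩, ?_⟩
  have := hy.2
  unfold ob at this ⊢
  exact (Prod.mk.injEq _ _ _ _ ▸ this).1

open Classical in
theorem own1_eq (F : Cf) (l : Ln) :
    own1 F l = (((O1 F).image Prod.snd).filter fun J => (l, J) ∈ O1 F).card := by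
  unfold own1
  refine card_bij (fun o _ => o.2) ?_ ?_ ?_
  · intro o ho
    rw [mem_filter] at ho ⊢
    refine ⟨mem_image_of_mem _ ho.1, ?_⟩
    rw [← ho.2]; exact ho.1
  · intro a ha b hb hab
    rw [mem_filter] at ha hb
    exact Prod.ext (ha.2.trans hb.2.symm) hab
  · intro J hJ
    rw [mem_filter] at hJ
    exact ⟨(l, J), mem_filter.2 ⟨hJ.2, rfl⟩, rfl⟩

/-- **main inequality** with the threshold -/
theorem main {F : Cf} (hF : F.Ok 2) :
    thr F * F.nu ^ 2 ≤ 182 * (25 ^ 4 * (F.D0 * ((F.r * 2 ^ F.M) ^ 4 * 4 ^ F.m))) := by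
  classical
  have hr := hF.r0
  have hD0 := D0_nonneg hF
  have hnu := hF.nup
  have hthr := thr_pos hF
  set Y : ℝ := 25 ^ 4 * (F.D0 * ((F.r * 2 ^ F.M) ^ 4 * 4 ^ F.m)) with hY
  have hY0 : 0 ≤ Y := by positivity
  obtain ⟨x0, hx0⟩ := hF.ne
  set j0 := zc F.m x0.2 with hj0
  have hj : ∀ x ∈ F.I, zc F.m x.2 = j0 := fun y hy => hF.cell y hy x0 hx0
  obtain ⟨o, ho, hbush⟩ := bush hF
  have hoc := cellin hj ho
  have h2M : (1:ℝ) ≤ 2 ^ F.M := one_le_pow₀ (by norm_num)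
  have hwb : F.r * 2 ^ F.M ≤ 1 / 2 ^ F.m := by
    have := hF.rle
    unfold Cf.top at this
    rw [pow_add, le_div_iff₀ (by positivity)] at this
    rw [le_div_iff₀ (by positivity)]
    linarith
  have hGO1 : ∀ {g : Ln × ℤ}, g ∈ G F → g ∈ O1 F := fun h => by
    unfold G at h; exact (mem_filter.1 h).1
  have hO1 : ∀ {o : Ln × ℤ}, o ∈ O1 F → o ∈ O F := fun h => by
    unfold O1 at h; exact (mem_filter.1 h).1
  set SL : Finset Ln := ((G F).filter fun g => rel F g o).image Prod.fst with hSL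
  have hSLc : SL.card = ((G F).filter fun g => rel F g o).card := by
    rw [hSL]
    refine card_image_of_injOn fun a ha b hb hab => ?_
    rw [mem_coe, mem_filter] at ha hb
    exact Prod.ext hab (ha.2.1.trans hb.2.1.symm)
  have hSLm : ∀ l ∈ SL, (l, o.2) ∈ G F ∧ rel F (l, o.2) o := by
    intro l hl
    rw [hSL, mem_image] at hl
    obtain ⟨g, hg, rfl⟩ := hl
    rw [mem_filter] at hg
    have : (g.1, o.2) = g := Prod.ext rfl hg.2.1.symm
    rw [this]; exact hg
  rw [← hSLc] at hbush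
  by_cases hν : F.nu < 8
  · -- trivial case
    have h1 := linecount hF hj SL (fun l hl => ⟨o.2, hO1 (hGO1 (hSLm l hl).1)⟩) (l0 := o.1)
      (n := 12) (w := F.r * 2 ^ F.M) (by nlinarith) hwb (fun l hl => by
        have g2 := grow1 hoc (hSLm l hl).2.2
        refine in_mono g2 ?_ ?_ <;> push_cast <;> nlinarith)
    have h2 : (SL.card : ℝ) ≤ Y := by
      norm_num at h1 ⊢
      rw [hY]
      norm_num
      exact h1
    have h3 : F.nu ^ 2 ≤ 64 := by nlinarith
    have h4 : thr F ≤ 2 * Y := by linarith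
    calc thr F * F.nu ^ 2 ≤ 2 * Y * 64 := by gcongr
      _ ≤ 182 * Y := by linarith
  push Not at hν
  set Js : Finset ℤ := (O1 F).image Prod.snd with hJs
  set far : Finset ℤ := Js.filter fun J => F.nu / 8 ≤ |(J:ℝ) - o.2| with hfar
  -- far cells of a line
  have hline : ∀ l ∈ SL, F.nu / 8 ≤ ((far.filter fun J => (l, J) ∈ O1 F).card : ℝ) := by
    intro l hl
    have hG := (hSLm l hl).1
    have h1 : own F l ≤ 2 * own1 F l := by
      unfold G at hG; exact (mem_filter.1 hG).2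
    have h2 : F.nu ≤ (own F l : ℝ) := nu_le_own hF (o := (l, o.2)) (hO1 (hGO1 hG))
    have h3 : own1 F l = (Js.filter fun J => (l, J) ∈ O1 F).card := own1_eq F l
    have h4 : Js.filter (fun J => (l, J) ∈ O1 F) ⊆ (far.filter fun J => (l, J) ∈ O1 F) ∪
        Icc (o.2 - ⌊F.nu / 8⌋₊) (o.2 + ⌊F.nu / 8⌋₊) := by
      intro J hJ
      rw [mem_filter] at hJ
      rw [mem_union, mem_filter, hfar, mem_filter, mem_Icc]
      by_cases hc : F.nu / 8 ≤ |(J:ℝ) - o.2|
      · exact Or.inl ⟨⟨hJ.1, hc⟩, hJ.2⟩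
      · right
        push Not at hc
        have h5 : (((J - o.2).natAbs : ℕ) : ℝ) ≤ F.nu / 8 := by
          rw [Nat.cast_natAbs]; push_cast; exact hc.le
        have := Nat.le_floor h5
        omega
    have h5 := (card_le_card h4).trans (card_union_le _ _)
    rw [Int.card_Icc] at h5
    have h6 : (o.2 + (⌊F.nu / 8⌋₊ : ℤ) + 1 - (o.2 - (⌊F.nu / 8⌋₊ : ℤ))).toNat =
        2 * ⌊F.nu / 8⌋₊ + 1 := by omega
    rw [h6] at h5
    have h7 := Nat.floor_le (show 0 ≤ F.nu / 8 by positivity)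
    have h8 : (own1 F l : ℝ) ≤ ((far.filter fun J => (l, J) ∈ O1 F).card : ℝ) +
        (2 * (⌊F.nu / 8⌋₊ : ℝ) + 1) := by
      rw [h3]; exact_mod_cast h5
    have h9 : (own F l : ℝ) ≤ 2 * own1 F l := by exact_mod_cast h1
    linarith
  -- double counting
  have hdc : ∑ l ∈ SL, (far.filter fun J => (l, J) ∈ O1 F).card =
      ∑ J ∈ far, (SL.filter fun l => (l, J) ∈ O1 F).card :=
    sum_card_bipartiteAbove_eq_sum_card_bipartiteBelow (s := SL) (t := far)
      (fun l J => (l, J) ∈ O1 F)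
  have hstep : ∀ J ∈ far, ((SL.filter fun l => (l, J) ∈ O1 F).card : ℝ) ≤
      Y ^ 2 / thr F * (1 / |(J:ℝ) - o.2| ^ 4) := by
    intro J hJ
    rw [hfar, mem_filter] at hJ
    have hk : 1 ≤ |(J:ℝ) - o.2| := by linarith [hJ.2]
    have hne : o.2 ≠ J := by
      rintro h
      rw [← h, sub_self, abs_zero] at hk
      linarith
    have h1 := step hF hj ho hne (SL.filter fun l => (l, J) ∈ O1 F) (fun l hl => by
      rw [mem_filter] at hl
      exact ⟨hO1 (hGO1 (hSLm l hl.1).1), (hSLm l hl.1).2, hl.2⟩)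
    rw [div_mul_eq_mul_div, le_div_iff₀ hthr]
    refine h1.trans (le_of_eq ?_)
    rw [abs_sub_comm (o.2:ℝ) J, hY]
    have hk0 : |(J:ℝ) - o.2| ≠ 0 := by linarith
    field_simp
  have hsum : (SL.card : ℝ) * (F.nu / 8) ≤ Y ^ 2 / thr F * (4 / (F.nu / 8) ^ 3) := by
    calc (SL.card : ℝ) * (F.nu / 8) ≤ ∑ l ∈ SL, ((far.filter fun J => (l, J) ∈ O1 F).card : ℝ) := by
          rw [← nsmul_eq_mul, ← sum_const]
          exact sum_le_sum hline
      _ = ∑ J ∈ far, ((SL.filter fun l => (l, J) ∈ O1 F).card : ℝ) := by exact_mod_cast hdc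
      _ ≤ ∑ J ∈ far, Y ^ 2 / thr F * (1 / |(J:ℝ) - o.2| ^ 4) := sum_le_sum hstep
      _ = Y ^ 2 / thr F * ∑ J ∈ far, (1 / |(J:ℝ) - o.2| ^ 4) := by rw [mul_sum]
      _ ≤ Y ^ 2 / thr F * (4 / (F.nu / 8) ^ 3) := by
          refine mul_le_mul_of_nonneg_left ?_ (by positivity)
          exact tail (by linarith) fun J hJ => (mem_filter.1 hJ).2
  have h1 : thr F / 2 * (F.nu / 8) ≤ Y ^ 2 / thr F * (4 / (F.nu / 8) ^ 3) :=
    le_trans (mul_le_mul_of_nonneg_right hbush (by positivity)) hsum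
  have h2 : (thr F * F.nu ^ 2) ^ 2 ≤ 32768 * Y ^ 2 := by
    have h3 : Y ^ 2 / thr F * (4 / (F.nu / 8) ^ 3) = 2048 * Y ^ 2 / (thr F * F.nu ^ 3) := by
      field_simp; ring
    rw [h3, le_div_iff₀ (by positivity)] at h1
    nlinarith
  have h3 : (thr F * F.nu ^ 2) ^ 2 ≤ (182 * Y) ^ 2 := by
    refine h2.trans ?_
    have : 0 ≤ Y ^ 2 := sq_nonneg _
    nlinarith
  exact (pow_le_pow_iff_left₀ (by positivity) (by positivity) two_ne_zero).1 h3

/-- **`β(2) ≤ 0`, finite form**: `D1 ν² ≤ C 4^M D0` for every valid configuration with `q = 2` -/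
theorem two_le {F : Cf} (hF : F.Ok 2) :
    F.D1 * F.nu ^ 2 ≤ 2 * 10 ^ 11 * (4 ^ F.M * F.D0) := by
  have h := main hF
  have hr := hF.r0
  have hD0 := D0_nonneg hF
  unfold thr Cf.top at h
  rw [pow_add] at h
  have h1 : (F.r * 2 ^ F.M) ^ 4 = F.r ^ 4 * (4 ^ F.M) ^ 2 := by
    rw [mul_pow]
    congr 1
    rw [← pow_mul, mul_comm F.M 4, pow_mul, ← pow_mul 4, mul_comm F.M 2, pow_mul]
    norm_num
  rw [h1] at h
  have h2 : (0:ℝ) < F.r ^ 4 * 4 ^ F.m * 4 ^ F.M := by positivity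
  have h3 : F.r ^ 4 * 4 ^ F.m * 4 ^ F.M * (F.D1 * F.nu ^ 2) ≤
      F.r ^ 4 * 4 ^ F.m * 4 ^ F.M * (2500 * 182 * 25 ^ 4 * (4 ^ F.M * F.D0)) := by
    have e1 : F.D1 * F.r ^ 4 * (4 ^ F.m * 4 ^ F.M) / 2500 * F.nu ^ 2 =
        1 / 2500 * (F.r ^ 4 * 4 ^ F.m * 4 ^ F.M * (F.D1 * F.nu ^ 2)) := by ring
    have e2 : 182 * (25 ^ 4 * (F.D0 * (F.r ^ 4 * (4 ^ F.M) ^ 2 * 4 ^ F.m))) =
        F.r ^ 4 * 4 ^ F.m * 4 ^ F.M * (182 * 25 ^ 4 * (4 ^ F.M * F.D0)) := by ring
    rw [e1, e2] at h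
    linarith
  have h4 := le_of_mul_le_mul_left h3 h2
  refine h4.trans ?_
  have h5 : 0 ≤ 4 ^ F.M * F.D0 := by positivity
  exact mul_le_mul_of_nonneg_right (by norm_num) h5

/-- **`β(2) ≤ 0`**: the value of every valid configuration with `q = 2` is at most `C / M` -/
theorem val_two_le {F : Cf} (hF : F.Ok 2) : F.val ≤ Real.logb 2 (2 * 10 ^ 11) / F.M := by
  have h := two_le hF
  have hD1 := hF.D1p
  have hnu := hF.nup
  have hM : (0:ℝ) < F.M := by exact_mod_cast hF.M1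
  have hpos : 0 < F.D1 * F.nu ^ 2 := by positivity
  have hD0 : 0 < 4 ^ F.M * F.D0 := by
    by_contra hcon
    push Not at hcon
    nlinarith
  unfold Cf.val
  refine div_le_div_of_nonneg_right ?_ hM.le
  refine Real.logb_le_logb_of_le (by norm_num) (by positivity) ?_
  rw [div_le_iff₀ hD0]
  exact h

theorem val_two_le' {F : Cf} (hF : F.Ok 2) : F.val ≤ 38 / F.M := by
  have hM : (0:ℝ) < F.M := by exact_mod_cast hF.M1
  refine (val_two_le hF).trans (div_le_div_of_nonneg_right ?_ hM.le)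
  rw [Real.logb_le_iff_le_rpow (by norm_num) (by norm_num)]
  norm_num

end

end Crest.Agent.R138.B257
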