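import Mathlib

/-!
# Trilinear restriction, file 1 (row 138, helper191): one-dimensional weights
-/

set_option autoImplicit false

open MeasureTheory Set
open scoped ENNReal

namespace Crest.Agent.R138.BCT191

/-- the bracket `1 + |t| / r` -/
noncomputable def br (r t : ℝ) : ℝ := 1 + |t| / r

/-- the `L¹`-normalised weight at scale `r` -/
noncomputable def w (N : ℕ) (r t : ℝ) : ℝ≥0∞ := ENNReal.ofReal (r⁻¹ * (br r t ^ N)⁻¹)

lemma one_le_br {r : ℝ} (hr : 0 < r) (t : ℝ) : 1 ≤ br r t := by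
  unfold br
  have : 0 ≤ |t| / r := by positivity
  linarith

lemma br_pos {r : ℝ} (hr : 0 < r) (t : ℝ) : 0 < br r t := one_pos.trans_le (one_le_br hr t)

lemma br_neg (r t : ℝ) : br r (-t) = br r t := by unfold br; rw [abs_neg]

lemma w_neg (N : ℕ) (r t : ℝ) : w N r (-t) = w N r t := by unfold w; rw [br_neg]

lemma br_le_mul {r : ℝ} (hr : 0 < r) (s t : ℝ) : br r s ≤ br r (s + t) * br r t := by
  unfold br
  have h : |s| ≤ |s + t| + |t| := by
    calc |s| = |s + t - t| := by ring_nf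
      _ ≤ |s + t| + |t| := abs_sub _ _
  have h' : |s| / r ≤ |s + t| / r + |t| / r := by
    rw [← add_div]; exact div_le_div_of_nonneg_right h hr.le
  have h0 : 0 ≤ |s + t| / r * (|t| / r) := by positivity
  nlinarith

lemma br_le_add {r : ℝ} (hr : 0 < r) (s t : ℝ) : br r (s + t) ≤ br r s + br r t := by
  unfold br
  have h' : |s + t| / r ≤ |s| / r + |t| / r := by
    rw [← add_div]; exact div_le_div_of_nonneg_right (abs_add_le _ _) hr.le
  linarith

lemma br_anti {r ρ : ℝ} (hr : 0 < r) (h : r ≤ ρ) (t : ℝ) : br ρ t ≤ br r t := by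
  unfold br
  have : |t| / ρ ≤ |t| / r := div_le_div_of_nonneg_left (abs_nonneg _) hr h
  linarith

@[fun_prop]
lemma measurable_br (r : ℝ) : Measurable (br r) := by unfold br; fun_prop

@[fun_prop]
lemma measurable_w (N : ℕ) (r : ℝ) : Measurable (w N r) := by
  unfold w; fun_prop

lemma w_le {N : ℕ} {r : ℝ} (hr : 0 < r) (t : ℝ) : w N r t ≤ ENNReal.ofReal r⁻¹ := by
  unfold w
  refine ENNReal.ofReal_le_ofReal ?_
  have : (br r t ^ N)⁻¹ ≤ 1 := inv_le_one_of_one_le₀ (one_le_pow₀ (one_le_br hr t))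
  calc r⁻¹ * (br r t ^ N)⁻¹ ≤ r⁻¹ * 1 := mul_le_mul_of_nonneg_left this (by positivity)
    _ = r⁻¹ := mul_one _

lemma w_ne_top (N : ℕ) (r t : ℝ) : w N r t ≠ ⊤ := ENNReal.ofReal_ne_top

lemma w_pos {N : ℕ} {r : ℝ} (hr : 0 < r) (t : ℝ) : 0 < w N r t := by
  unfold w
  have := br_pos hr t
  exact ENNReal.ofReal_pos.2 (by positivity)

/-- shift bound -/
lemma w_shift {N : ℕ} {r : ℝ} (hr : 0 < r) (s t : ℝ) :
    w N r (s + t) ≤ ENNReal.ofReal (br r t ^ N) * w N r s := by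
  unfold w
  rw [← ENNReal.ofReal_mul (by have := br_pos hr t; positivity)]
  refine ENNReal.ofReal_le_ofReal ?_
  have h1 := br_pos hr s
  have h2 := br_pos hr t
  have h3 := br_pos hr (s + t)
  have h := pow_le_pow_left₀ h1.le (br_le_mul hr s t) N
  rw [mul_pow] at h
  have : (br r (s + t) ^ N)⁻¹ ≤ br r t ^ N * (br r s ^ N)⁻¹ := by
    rw [inv_le_iff_one_le_mul₀ (by positivity)]
    have e : 1 = (br r s ^ N)⁻¹ * br r s ^ N := by field_simp
    calc (1 : ℝ) = (br r s ^ N)⁻¹ * br r s ^ N := e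
      _ ≤ (br r s ^ N)⁻¹ * (br r (s + t) ^ N * br r t ^ N) :=
        mul_le_mul_of_nonneg_left h (by positivity)
      _ = _ := by ring
  calc r⁻¹ * (br r (s + t) ^ N)⁻¹ ≤ r⁻¹ * (br r t ^ N * (br r s ^ N)⁻¹) :=
        mul_le_mul_of_nonneg_left this (by positivity)
    _ = _ := by ring

lemma br_pow_mul_w {N M : ℕ} {r : ℝ} (hr : 0 < r) (t : ℝ) :
    ENNReal.ofReal (br r t ^ M) * w (N + M) r t = w N r t := by
  unfold w
  have h := br_pos hr t
  rw [← ENNReal.ofReal_mul (by positivity)]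
  congr 1
  rw [pow_add]
  field_simp

lemma w_mono_exp {N M : ℕ} (h : N ≤ M) {r : ℝ} (hr : 0 < r) (t : ℝ) : w M r t ≤ w N r t := by
  unfold w
  refine ENNReal.ofReal_le_ofReal (mul_le_mul_of_nonneg_left ?_ (by positivity))
  have h1 := one_le_br hr t
  exact inv_anti₀ (by positivity) (pow_le_pow_right₀ h1 h)

/-- the integral of the weight -/
noncomputable def I (N : ℕ) : ℝ≥0∞ := ∫⁻ t : ℝ, w N 1 t

lemma lintegral_comp_div {f : ℝ → ℝ≥0∞} {r : ℝ} (hr : 0 < r) :
    ∫⁻ t : ℝ, f (t / r) = ENNReal.ofReal r * ∫⁻ t : ℝ, f t := by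
  have h := Real.smul_map_volume_mul_left (a := r⁻¹) (by positivity)
  have hm : MeasurableEmbedding (fun x : ℝ => r⁻¹ * x) :=
    (Homeomorph.mulLeft₀ r⁻¹ (by positivity)).measurableEmbedding
  have e : ∫⁻ t : ℝ, f t = ENNReal.ofReal r⁻¹ * ∫⁻ t : ℝ, f (t / r) := by
    conv_lhs => rw [← h]
    rw [lintegral_smul_measure, hm.lintegral_map, abs_of_pos (by positivity), smul_eq_mul]
    congr 1
    refine lintegral_congr fun t => ?_
    rw [div_eq_inv_mul]
  rw [e, ← mul_assoc, ← ENNReal.ofReal_mul hr.le, mul_inv_cancel₀ hr.ne', ENNReal.ofReal_one,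
    one_mul]

lemma lintegral_sub_left {f : ℝ → ℝ≥0∞} (a : ℝ) : ∫⁻ t : ℝ, f (a - t) = ∫⁻ t : ℝ, f t :=
  lintegral_sub_left_eq_self f a

lemma lintegral_w {N : ℕ} {r : ℝ} (hr : 0 < r) : ∫⁻ t : ℝ, w N r t = I N := by
  have e : ∀ t, w N r t = ENNReal.ofReal r⁻¹ * w N 1 (t / r) := by
    intro t
    unfold w br
    rw [← ENNReal.ofReal_mul (by positivity)]
    congr 1
    rw [abs_div, abs_of_pos hr]
    simp
  simp_rw [e]
  rw [lintegral_const_mul _ (by fun_prop), lintegral_comp_div hr (f := w N 1), ← mul_assoc,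
    ← ENNReal.ofReal_mul (by positivity), inv_mul_cancel₀ hr.ne', ENNReal.ofReal_one, one_mul]
  rfl

lemma I_ne_top {N : ℕ} (hN : 2 ≤ N) : I N ≠ ⊤ := by
  have h := integrable_one_add_norm (E := ℝ) (μ := volume) (r := (N : ℝ)) (by
    simp; exact_mod_cast hN)
  have h2 := h.lintegral_lt_top
  unfold I
  refine ne_of_lt (lt_of_le_of_lt (lintegral_mono fun t => ?_) h2)
  unfold w br
  simp only [inv_one, one_mul, div_one, Real.norm_eq_abs]
  refine ENNReal.ofReal_le_ofReal ?_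
  rw [Real.rpow_neg (by positivity), Real.rpow_natCast]

lemma I_ne_zero (N : ℕ) : I N ≠ 0 := by
  unfold I
  rw [Ne, lintegral_eq_zero_iff (by fun_prop)]
  intro h
  have h1 : ∀ᵐ t : ℝ, False := by
    filter_upwards [h] with t ht
    exact (w_pos (N := N) one_pos t).ne' ht
  rw [Filter.eventually_false_iff_eq_bot, ae_eq_bot] at h1
  exact NeZero.ne (volume : Measure ℝ) h1

/-- convolution of `w N r` with a rapidly decaying kernel at the same scale -/
lemma conv_same {N : ℕ} {r : ℝ} (hr : 0 < r) {κ : ℝ → ℝ≥0∞} {C : ℝ≥0∞}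
    (hκ : ∀ z, κ z ≤ C * w (2 + N) r z) (y : ℝ) :
    ∫⁻ z, κ z * w N r (y - z) ≤ C * I 2 * w N r y := by
  calc ∫⁻ z, κ z * w N r (y - z) ≤ ∫⁻ z, C * w N r y * w 2 r z := by
        refine lintegral_mono fun z => ?_
        have h1 := w_shift (N := N) hr y (-z)
        rw [← sub_eq_add_neg, br_neg] at h1
        calc κ z * w N r (y - z) ≤ (C * w (2 + N) r z) * (ENNReal.ofReal (br r z ^ N) * w N r y) :=
              mul_le_mul' (hκ z) h1
          _ = C * w N r y * (ENNReal.ofReal (br r z ^ N) * w (2 + N) r z) := by ring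
          _ = C * w N r y * w 2 r z := by rw [br_pow_mul_w hr]
    _ = C * w N r y * I 2 := by rw [lintegral_const_mul _ (by fun_prop), lintegral_w hr]
    _ = _ := by ring

/-- the constant of `conv_le` -/
noncomputable def Cc (N M : ℕ) : ℝ≥0∞ := 2 ^ N * (2 ^ N * (I N + I M) + I N)

lemma Cc_ne_top {N M : ℕ} (hN : 2 ≤ N) (hM : 2 ≤ M) : Cc N M ≠ ⊤ := by
  unfold Cc
  have h1 := I_ne_top hN
  have h2 := I_ne_top hM
  finiteness

lemma add_pow_le' {a b : ℝ} (ha : 0 ≤ a) (hb : 0 ≤ b) (n : ℕ) :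
    (a + b) ^ n ≤ 2 ^ n * (a ^ n + b ^ n) := by
  have h := add_pow_le ha hb n
  refine h.trans (mul_le_mul_of_nonneg_right ?_ (by positivity))
  exact pow_le_pow_right₀ (by norm_num) (Nat.sub_le _ _)

/-- convolution of weights at two scales -/
lemma conv_le {N M : ℕ} (hN : 2 ≤ N) (hM : N ≤ M) {r ρ : ℝ} (hr : 0 < r) (hρ : r ≤ ρ) (t : ℝ) :
    ∫⁻ z, w N r (t - z) * w M ρ z ≤ Cc N M * w N ρ t := by
  have hρ0 : 0 < ρ := hr.trans_le hρ
  -- pointwise bound
  have key : ∀ z, ENNReal.ofReal (br ρ t ^ N) * (w N r (t - z) * w M ρ z) ≤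
      2 ^ N * ENNReal.ofReal ρ⁻¹ * (2 ^ N * (w N r (t - z) + w M ρ z) + w N r (t - z)) := by
    intro z
    set u := t - z with hu
    have h1 : br ρ t ≤ br ρ u + br ρ z := by
      have := br_le_add hρ0 u z
      rwa [hu, sub_add_cancel] at this
    have h2 : br ρ t ^ N ≤ 2 ^ N * (br ρ u ^ N + br ρ z ^ N) :=
      (pow_le_pow_left₀ (br_pos hρ0 t).le h1 N).trans
        (add_pow_le' (br_pos hρ0 u).le (br_pos hρ0 z).le N)
    have h3 : ENNReal.ofReal (br ρ t ^ N) ≤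
        2 ^ N * (ENNReal.ofReal (br ρ u ^ N) + ENNReal.ofReal (br ρ z ^ N)) := by
      have hu0 := br_pos hρ0 u
      have hz0 := br_pos hρ0 z
      calc ENNReal.ofReal (br ρ t ^ N) ≤ ENNReal.ofReal (2 ^ N * (br ρ u ^ N + br ρ z ^ N)) :=
            ENNReal.ofReal_le_ofReal h2
        _ = _ := by
            rw [ENNReal.ofReal_mul (by positivity), ENNReal.ofReal_add (by positivity)
              (by positivity), ENNReal.ofReal_pow (by norm_num)]
            norm_num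
    -- first term
    have h4 : ENNReal.ofReal (br ρ u ^ N) * w N r u ≤ 2 ^ N * (w N r u + ENNReal.ofReal ρ⁻¹) := by
      unfold w
      have hb := br_pos hr u
      have hb' := br_pos hρ0 u
      rw [← ENNReal.ofReal_mul (by positivity)]
      have e : (2 : ℝ≥0∞) ^ N * (ENNReal.ofReal (r⁻¹ * (br r u ^ N)⁻¹) + ENNReal.ofReal ρ⁻¹) =
          ENNReal.ofReal (2 ^ N * (r⁻¹ * (br r u ^ N)⁻¹ + ρ⁻¹)) := by
        rw [ENNReal.ofReal_mul (p := (2 : ℝ) ^ N) (by positivity), ENNReal.ofReal_add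
              (by positivity) (by positivity), ENNReal.ofReal_pow (by norm_num)]
        norm_num
      rw [e]
      refine ENNReal.ofReal_le_ofReal ?_
      have q1 : br ρ u ≤ br r u * ((br r u)⁻¹ + r / ρ) := by
        rw [mul_add, mul_inv_cancel₀ hb.ne']
        unfold br
        have : |u| / ρ = |u| / r * (r / ρ) := by field_simp
        have h0 : 0 ≤ r / ρ := by positivity
        nlinarith
      have q2 : br ρ u ^ N ≤ br r u ^ N * (2 ^ N * ((br r u)⁻¹ ^ N + (r / ρ) ^ N)) := by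
        refine (pow_le_pow_left₀ hb'.le q1 N).trans ?_
        rw [mul_pow]
        exact mul_le_mul_of_nonneg_left (add_pow_le' (by positivity) (by positivity) N)
          (by positivity)
      have q3 : r⁻¹ * (r / ρ) ^ N ≤ ρ⁻¹ := by
        have : (r / ρ) ^ N ≤ r / ρ := by
          refine pow_le_of_le_one (by positivity) ?_ (by omega)
          rw [div_le_one hρ0]; exact hρ
        calc r⁻¹ * (r / ρ) ^ N ≤ r⁻¹ * (r / ρ) := mul_le_mul_of_nonneg_left this (by positivity)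
          _ = ρ⁻¹ := by field_simp
      calc br ρ u ^ N * (r⁻¹ * (br r u ^ N)⁻¹)
          ≤ (br r u ^ N * (2 ^ N * ((br r u)⁻¹ ^ N + (r / ρ) ^ N))) * (r⁻¹ * (br r u ^ N)⁻¹) :=
            mul_le_mul_of_nonneg_right q2 (by positivity)
        _ = 2 ^ N * (r⁻¹ * (br r u ^ N)⁻¹ + r⁻¹ * (r / ρ) ^ N) := by
            rw [inv_pow]
            field_simp
        _ ≤ _ := by
            refine mul_le_mul_of_nonneg_left ?_ (by positivity)
            linarith
    -- second term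
    have h5 : ENNReal.ofReal (br ρ z ^ N) * w M ρ z ≤ ENNReal.ofReal ρ⁻¹ := by
      obtain ⟨k, rfl⟩ := Nat.exists_eq_add_of_le' hM
      rw [br_pow_mul_w hρ0]
      exact w_le hρ0 z
    have h6 : w M ρ z ≤ ENNReal.ofReal ρ⁻¹ := w_le hρ0 z
    calc ENNReal.ofReal (br ρ t ^ N) * (w N r u * w M ρ z)
        ≤ (2 ^ N * (ENNReal.ofReal (br ρ u ^ N) + ENNReal.ofReal (br ρ z ^ N))) *
          (w N r u * w M ρ z) := mul_le_mul_left h3 _
      _ = 2 ^ N * ((ENNReal.ofReal (br ρ u ^ N) * w N r u) * w M ρ z +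
          w N r u * (ENNReal.ofReal (br ρ z ^ N) * w M ρ z)) := by ring
      _ ≤ 2 ^ N * ((2 ^ N * (w N r u + ENNReal.ofReal ρ⁻¹)) * w M ρ z +
          w N r u * ENNReal.ofReal ρ⁻¹) := by
          refine mul_le_mul_right (add_le_add (mul_le_mul_left h4 _) (mul_le_mul_right h5 _)) _
      _ = 2 ^ N * (2 ^ N * (w N r u * w M ρ z + ENNReal.ofReal ρ⁻¹ * w M ρ z) +
          w N r u * ENNReal.ofReal ρ⁻¹) := by ring
      _ ≤ 2 ^ N * (2 ^ N * (w N r u * ENNReal.ofReal ρ⁻¹ + ENNReal.ofReal ρ⁻¹ * w M ρ z) +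
          w N r u * ENNReal.ofReal ρ⁻¹) := by
          refine mul_le_mul_right (add_le_add (mul_le_mul_right
            (add_le_add (mul_le_mul_right h6 _) le_rfl) _) le_rfl) _
      _ = _ := by ring
  have hb := br_pos hρ0 t
  have hI : ENNReal.ofReal (br ρ t ^ N) * ∫⁻ z, w N r (t - z) * w M ρ z ≤
      ENNReal.ofReal ρ⁻¹ * Cc N M := by
    rw [← lintegral_const_mul _ (by fun_prop)]
    refine (lintegral_mono key).trans ?_
    rw [lintegral_const_mul _ (by fun_prop), lintegral_add_left (by fun_prop),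
      lintegral_const_mul _ (by fun_prop), lintegral_add_left (by fun_prop),
      lintegral_sub_left (f := w N r), lintegral_w hr, lintegral_w hρ0]
    unfold Cc
    apply le_of_eq
    ring
  have e : w N ρ t = ENNReal.ofReal (br ρ t ^ N)⁻¹ * ENNReal.ofReal ρ⁻¹ := by
    unfold w
    rw [mul_comm, ENNReal.ofReal_mul (by positivity)]
  rw [e]
  have e2 : ENNReal.ofReal (br ρ t ^ N)⁻¹ * ENNReal.ofReal (br ρ t ^ N) = 1 := by
    rw [← ENNReal.ofReal_mul (by positivity), inv_mul_cancel₀ (by positivity), ENNReal.ofReal_one]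
  calc ∫⁻ z, w N r (t - z) * w M ρ z
      = ENNReal.ofReal (br ρ t ^ N)⁻¹ * (ENNReal.ofReal (br ρ t ^ N) *
        ∫⁻ z, w N r (t - z) * w M ρ z) := by rw [← mul_assoc, e2, one_mul]
    _ ≤ ENNReal.ofReal (br ρ t ^ N)⁻¹ * (ENNReal.ofReal ρ⁻¹ * Cc N M) := mul_le_mul_right hI _
    _ = _ := by ring

/-- lower bound for the convolution of weights -/
lemma conv_ge {M : ℕ} {r ρ : ℝ} (hr : 0 < r) (hρ : r ≤ ρ) (t : ℝ) :
    I (M + M) * w M ρ t ≤ ∫⁻ z, w M ρ (t - z) * w M r z := by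
  have hρ0 : 0 < ρ := hr.trans_le hρ
  rw [← lintegral_w hr, ← lintegral_mul_const _ (by fun_prop)]
  refine lintegral_mono fun z => ?_
  have h1 : w M ρ t ≤ ENNReal.ofReal (br r z ^ M) * w M ρ (t - z) := by
    have := w_shift (N := M) hρ0 (t - z) z
    rw [sub_add_cancel] at this
    refine this.trans (mul_le_mul_left (ENNReal.ofReal_le_ofReal ?_) _)
    exact pow_le_pow_left₀ (br_pos hρ0 z).le (br_anti hr hρ z) M
  calc w (M + M) r z * w M ρ t
      ≤ w (M + M) r z * (ENNReal.ofReal (br r z ^ M) * w M ρ (t - z)) := mul_le_mul_right h1 _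
    _ = (ENNReal.ofReal (br r z ^ M) * w (M + M) r z) * w M ρ (t - z) := by ring
    _ = w M r z * w M ρ (t - z) := by rw [br_pow_mul_w hr]
    _ = _ := by ring

/-- comparison of weights at comparable scales -/
lemma w_comp {N : ℕ} {r ρ k : ℝ} (hr : 0 < r) (hρ : r ≤ ρ) (hk : ρ ≤ k * r) (t : ℝ) :
    w N r t ≤ ENNReal.ofReal k * w N ρ t := by
  have hρ0 : 0 < ρ := hr.trans_le hρ
  have hk0 : 0 < k := by
    by_contra h
    have : k * r ≤ 0 := mul_nonpos_of_nonpos_of_nonneg (not_lt.1 h) hr.le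
    linarith
  unfold w
  have h1 := br_pos hr t
  have h2 := br_pos hρ0 t
  rw [← ENNReal.ofReal_mul hk0.le]
  refine ENNReal.ofReal_le_ofReal ?_
  have q1 : (br r t ^ N)⁻¹ ≤ (br ρ t ^ N)⁻¹ :=
    inv_anti₀ (by positivity) (pow_le_pow_left₀ h2.le (br_anti hr hρ t) N)
  have q2 : r⁻¹ ≤ k * ρ⁻¹ := by
    rw [← div_eq_mul_inv, inv_eq_one_div, div_le_div_iff₀ hr hρ0]
    linarith
  calc r⁻¹ * (br r t ^ N)⁻¹ ≤ (k * ρ⁻¹) * (br ρ t ^ N)⁻¹ :=
        mul_le_mul q2 q1 (by positivity) (by positivity)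
    _ = _ := by ring

end Crest.Agent.R138.BCT191
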