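import Mathlib

/-!
R138, block BCT (helper383), file 1: Loomis-Whitney in `ℝ³` in square-root form.
-/

set_option autoImplicit false

open MeasureTheory
open scoped ENNReal

namespace Crest.Agent.R138.Bct383

/-- square root on `ℝ≥0∞`. -/
noncomputable def sq (a : ℝ≥0∞) : ℝ≥0∞ := a ^ (1 / 2 : ℝ)

theorem sq_mono {a b : ℝ≥0∞} (h : a ≤ b) : sq a ≤ sq b := ENNReal.rpow_le_rpow h (by norm_num)

theorem sq_mul (a b : ℝ≥0∞) : sq (a * b) = sq a * sq b :=
  ENNReal.mul_rpow_of_nonneg _ _ (by norm_num)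

theorem sq_mul_self (a : ℝ≥0∞) : sq a * sq a = a := by
  unfold sq
  rw [← ENNReal.rpow_add_of_nonneg _ _ (by norm_num) (by norm_num)]
  norm_num

theorem sq_pow_two (a : ℝ≥0∞) : sq a ^ 2 = a := by
  rw [pow_two, sq_mul_self]

theorem sq_sq (a : ℝ≥0∞) : sq (a ^ 2) = a := by
  rw [pow_two, sq_mul, sq_mul_self]

theorem measurable_sq : Measurable sq := by
  unfold sq; exact measurable_id.pow_const _

theorem sq_zero : sq 0 = 0 := by unfold sq; simp

theorem sq_one : sq 1 = 1 := by unfold sq; simp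

/-- Cauchy-Schwarz in square-root form. -/
theorem cs {α : Type*} [MeasurableSpace α] (μ : Measure α) {f g : α → ℝ≥0∞}
    (hf : Measurable f) (hg : Measurable g) :
    ∫⁻ x, sq (f x) * sq (g x) ∂μ ≤ sq (∫⁻ x, f x ∂μ) * sq (∫⁻ x, g x ∂μ) := by
  have h := ENNReal.lintegral_mul_le_Lp_mul_Lq μ (p := 2) (q := 2)
    (by constructor <;> norm_num)
    (measurable_sq.comp hf).aemeasurable (measurable_sq.comp hg).aemeasurable
  have e : ∀ a : ℝ≥0∞, sq a ^ (2 : ℝ) = a := by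
    intro a
    rw [show (2 : ℝ) = ((2 : ℕ) : ℝ) by norm_num, ENNReal.rpow_natCast, sq_pow_two]
  simp only [Function.comp_def, e, Pi.mul_apply] at h
  exact h

/-- **Loomis-Whitney** in `ℝ³`, square-root form. -/
theorem lw {f g h : ℝ → ℝ → ℝ≥0∞} (hf : Measurable (Function.uncurry f))
    (hg : Measurable (Function.uncurry g)) (hh : Measurable (Function.uncurry h)) :
    ∫⁻ x, ∫⁻ y, ∫⁻ z, sq (f y z) * sq (g x z) * sq (h x y)
      ≤ sq (∫⁻ y, ∫⁻ z, f y z) * sq (∫⁻ x, ∫⁻ z, g x z) * sq (∫⁻ x, ∫⁻ y, h x y) := by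
  have mF : Measurable fun y => ∫⁻ z, f y z := hf.lintegral_prod_right'
  have mG : Measurable fun x => ∫⁻ z, g x z := hg.lintegral_prod_right'
  have mH : Measurable fun x => ∫⁻ y, h x y := hh.lintegral_prod_right'
  have mf : ∀ y, Measurable (f y) := fun y => hf.comp measurable_prodMk_left
  have mg : ∀ y, Measurable (g y) := fun y => hg.comp measurable_prodMk_left
  have mh : ∀ y, Measurable (h y) := fun y => hh.comp measurable_prodMk_left
  have h1 : ∀ x, ∫⁻ y, ∫⁻ z, sq (f y z) * sq (g x z) * sq (h x y)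
      ≤ sq (∫⁻ y, ∫⁻ z, f y z) * (sq (∫⁻ z, g x z) * sq (∫⁻ y, h x y)) := by
    intro x
    calc ∫⁻ y, ∫⁻ z, sq (f y z) * sq (g x z) * sq (h x y)
        = ∫⁻ y, (∫⁻ z, sq (f y z) * sq (g x z)) * sq (h x y) := by
          refine lintegral_congr fun y => ?_
          rw [lintegral_mul_const]
          exact (measurable_sq.comp (mf y)).mul (measurable_sq.comp (mg x))
      _ ≤ ∫⁻ y, (sq (∫⁻ z, f y z) * sq (∫⁻ z, g x z)) * sq (h x y) := by
          refine lintegral_mono fun y => ?_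
          exact mul_le_mul_left (cs volume (mf y) (mg x)) _
      _ = sq (∫⁻ z, g x z) * ∫⁻ y, sq (∫⁻ z, f y z) * sq (h x y) := by
          rw [← lintegral_const_mul]
          · refine lintegral_congr fun y => ?_
            ring
          · exact (measurable_sq.comp mF).mul (measurable_sq.comp (mh x))
      _ ≤ sq (∫⁻ z, g x z) * (sq (∫⁻ y, ∫⁻ z, f y z) * sq (∫⁻ y, h x y)) := by
          exact mul_le_mul_right (cs volume mF (mh x)) _
      _ = _ := by ring
  calc ∫⁻ x, ∫⁻ y, ∫⁻ z, sq (f y z) * sq (g x z) * sq (h x y)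
      ≤ ∫⁻ x, sq (∫⁻ y, ∫⁻ z, f y z) * (sq (∫⁻ z, g x z) * sq (∫⁻ y, h x y)) :=
        lintegral_mono h1
    _ = sq (∫⁻ y, ∫⁻ z, f y z) * ∫⁻ x, sq (∫⁻ z, g x z) * sq (∫⁻ y, h x y) := by
        rw [lintegral_const_mul]
        exact (measurable_sq.comp mG).mul (measurable_sq.comp mH)
    _ ≤ sq (∫⁻ y, ∫⁻ z, f y z) * (sq (∫⁻ x, ∫⁻ z, g x z) * sq (∫⁻ x, ∫⁻ y, h x y)) :=
        mul_le_mul_right (cs volume mG mH) _
    _ = _ := by ring

end Crest.Agent.R138.Bct383
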