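import Crest.Agent.R138.Bc1_383

/-!
R138, block BCT (helper383), file 2: multilinear Kakeya for tubes which are almost parallel to the
axes (Guth's chain), one step.
-/

set_option autoImplicit false

open MeasureTheory Metric
open scoped ENNReal

namespace Crest.Agent.R138.Bct383

open Classical in
/-- `1` if `P`, `0` otherwise. -/
noncomputable def ind (P : Prop) : ℝ≥0∞ := if P then 1 else 0

theorem ind_mono {P Q : Prop} (h : P → Q) : ind P ≤ ind Q := by
  unfold ind
  by_cases hP : P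
  · simp [hP, h hP]
  · simp [hP]

theorem ind_le_one (P : Prop) : ind P ≤ 1 := by
  unfold ind
  split_ifs <;> simp

/-- A finite weighted family of lines which are graphs over one axis: the line of index `a` is
`s ↦ (s; p a + u a * s, q a + v a * s)`. -/
structure Fam (ι : Type*) where
  F : Finset ι
  p : ι → ℝ
  q : ι → ℝ
  u : ι → ℝ
  v : ι → ℝ
  w : ι → ℝ≥0∞

namespace Fam

variable {ι : Type*} (A : Fam ι)

/-- weighted number of tubes of radius `r` through the point `(s; y, z)`. -/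
noncomputable def G (r s y z : ℝ) : ℝ≥0∞ :=
  ∑ a ∈ A.F, A.w a * (ind (|y - A.p a - A.u a * s| ≤ r) * ind (|z - A.q a - A.v a * s| ≤ r))

/-- all slopes are at most `κ`. -/
def Slope (κ : ℝ) : Prop := ∀ a ∈ A.F, |A.u a| ≤ κ ∧ |A.v a| ≤ κ

theorem measurable_G (r : ℝ) : Measurable fun t : ℝ × ℝ × ℝ => A.G r t.1 t.2.1 t.2.2 := by
  unfold G
  refine Finset.measurable_sum _ fun a _ => Measurable.const_mul (Measurable.mul ?_ ?_) _
  · unfold ind
    refine Measurable.ite ?_ measurable_const measurable_const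
    refine measurableSet_le ?_ measurable_const
    fun_prop
  · unfold ind
    refine Measurable.ite ?_ measurable_const measurable_const
    refine measurableSet_le ?_ measurable_const
    fun_prop

theorem G_le {κ : ℝ} (hs : A.Slope κ) {r r' s s' y y' z z' : ℝ} (hy : r + |y - y'| + κ * |s - s'| ≤ r')
    (hz : r + |z - z'| + κ * |s - s'| ≤ r') : A.G r s y z ≤ A.G r' s' y' z' := by
  unfold G
  refine Finset.sum_le_sum fun a ha => ?_
  refine mul_le_mul_right ?_ _
  obtain ⟨hu, hv⟩ := hs a ha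
  refine mul_le_mul' (ind_mono fun h => ?_) (ind_mono fun h => ?_)
  · have e : y' - A.p a - A.u a * s' = (y - A.p a - A.u a * s) + (y' - y) + A.u a * (s - s') := by ring
    rw [e]
    refine (abs_add_three _ _ _).trans ?_
    rw [abs_mul, abs_sub_comm y' y]
    have := mul_le_mul_of_nonneg_right hu (abs_nonneg (s - s'))
    linarith
  · have e : z' - A.q a - A.v a * s' = (z - A.q a - A.v a * s) + (z' - z) + A.v a * (s - s') := by ring
    rw [e]
    refine (abs_add_three _ _ _).trans ?_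
    rw [abs_mul, abs_sub_comm z' z]
    have := mul_le_mul_of_nonneg_right hv (abs_nonneg (s - s'))
    linarith

/-- total weight. -/
noncomputable def W : ℝ≥0∞ := ∑ a ∈ A.F, A.w a

theorem G_le_W (r s y z : ℝ) : A.G r s y z ≤ A.W := by
  unfold G W
  refine Finset.sum_le_sum fun a _ => ?_
  calc A.w a * (ind _ * ind _) ≤ A.w a * (1 * 1) :=
        mul_le_mul_right (mul_le_mul' (ind_le_one _) (ind_le_one _)) _
    _ = A.w a := by simp

/-- the cut-off function used in a cube of radius `ρ` around `(s; y0, z0)`. -/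
noncomputable def H (r ρ s y0 z0 y z : ℝ) : ℝ≥0∞ :=
  A.G (2 * r) s y z * (ind (|y - y0| ≤ ρ) * ind (|z - z0| ≤ ρ))

theorem measurable_H (r ρ s y0 z0 : ℝ) :
    Measurable (Function.uncurry fun y z => A.H r ρ s y0 z0 y z) := by
  unfold H
  refine Measurable.mul ?_ (Measurable.mul ?_ ?_)
  · have := (A.measurable_G (2 * r)).comp
      (measurable_const.prodMk measurable_id : Measurable fun t : ℝ × ℝ => (s, t))
    simpa [Function.comp_def, Function.uncurry_def] using this
  · unfold ind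
    refine Measurable.ite ?_ measurable_const measurable_const
    exact measurableSet_le (by fun_prop) measurable_const
  · unfold ind
    refine Measurable.ite ?_ measurable_const measurable_const
    exact measurableSet_le (by fun_prop) measurable_const

theorem lint_ind (c r : ℝ) : ∫⁻ y : ℝ, ind (|y - c| ≤ r) = ENNReal.ofReal (2 * r) := by
  have : (fun y : ℝ => ind (|y - c| ≤ r)) = (Set.Icc (c - r) (c + r)).indicator 1 := by
    funext y
    unfold ind Set.indicator
    simp only [Set.mem_Icc, abs_le, Pi.one_apply]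
    by_cases h : -r ≤ y - c ∧ y - c ≤ r
    · rw [if_pos h, if_pos ⟨by linarith [h.1], by linarith [h.2]⟩]
    · rw [if_neg h, if_neg]
      rintro ⟨h1, h2⟩
      exact h ⟨by linarith, by linarith⟩
  rw [this, lintegral_indicator_one measurableSet_Icc, Real.volume_Icc]
  congr 1; ring

theorem measurable_ind_abs (c r : ℝ) : Measurable fun y : ℝ => ind (|y - c| ≤ r) := by
  unfold ind
  refine Measurable.ite ?_ measurable_const measurable_const
  exact measurableSet_le (by fun_prop) measurable_const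

/-- one-dimensional cross-section estimate. -/
theorem lint_one {r ρ c y0 : ℝ} (hρ : r ≤ ρ) :
    ∫⁻ y : ℝ, ind (|y - c| ≤ 2 * r) * ind (|y - y0| ≤ ρ) ≤
      ENNReal.ofReal (4 * r) * ind (|y0 - c| ≤ 3 * ρ) := by
  by_cases h : |y0 - c| ≤ 3 * ρ
  · have e : ind (|y0 - c| ≤ 3 * ρ) = 1 := by unfold ind; rw [if_pos h]
    rw [e, mul_one]
    calc ∫⁻ y : ℝ, ind (|y - c| ≤ 2 * r) * ind (|y - y0| ≤ ρ)
        ≤ ∫⁻ y : ℝ, ind (|y - c| ≤ 2 * r) := by
          refine lintegral_mono fun y => ?_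
          calc _ ≤ ind (|y - c| ≤ 2 * r) * 1 := mul_le_mul_right (ind_le_one _) _
            _ = _ := mul_one _
      _ = ENNReal.ofReal (4 * r) := by rw [lint_ind]; congr 1; ring
  · have : (fun y : ℝ => ind (|y - c| ≤ 2 * r) * ind (|y - y0| ≤ ρ)) = fun _ => 0 := by
      funext y
      unfold ind
      by_cases h1 : |y - c| ≤ 2 * r
      · by_cases h2 : |y - y0| ≤ ρ
        · exfalso
          apply h
          have : y0 - c = (y - c) - (y - y0) := by ring
          rw [this]
          refine (abs_sub _ _).trans ?_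
          linarith
        · simp [h2]
      · simp [h1]
    rw [this]
    simp

theorem lint_H {r ρ : ℝ} (hr : 0 ≤ r) (hρ : r ≤ ρ) (s y0 z0 : ℝ) :
    ∫⁻ y, ∫⁻ z, A.H r ρ s y0 z0 y z ≤ ENNReal.ofReal (16 * r ^ 2) * A.G (3 * ρ) s y0 z0 := by
  have e : ∀ y z, A.H r ρ s y0 z0 y z = ∑ a ∈ A.F, A.w a *
      ((ind (|y - (A.p a + A.u a * s)| ≤ 2 * r) * ind (|y - y0| ≤ ρ)) *
       (ind (|z - (A.q a + A.v a * s)| ≤ 2 * r) * ind (|z - z0| ≤ ρ))) := by
    intro y z
    unfold H G
    rw [Finset.sum_mul]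
    refine Finset.sum_congr rfl fun a _ => ?_
    rw [sub_sub y, sub_sub z]
    ring
  simp only [e]
  have m1 : ∀ (c b : ℝ), Measurable fun z : ℝ => ind (|z - c| ≤ 2 * r) * ind (|z - b| ≤ ρ) :=
    fun c b => (measurable_ind_abs _ _).mul (measurable_ind_abs _ _)
  have h1 : ∀ y, ∫⁻ z, (∑ a ∈ A.F, A.w a *
      ((ind (|y - (A.p a + A.u a * s)| ≤ 2 * r) * ind (|y - y0| ≤ ρ)) *
       (ind (|z - (A.q a + A.v a * s)| ≤ 2 * r) * ind (|z - z0| ≤ ρ)))) =
      ∑ a ∈ A.F, A.w a *
      ((ind (|y - (A.p a + A.u a * s)| ≤ 2 * r) * ind (|y - y0| ≤ ρ)) *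
       ∫⁻ z, (ind (|z - (A.q a + A.v a * s)| ≤ 2 * r) * ind (|z - z0| ≤ ρ))) := by
    intro y
    rw [lintegral_finsetSum _ fun a _ => ((m1 _ _).const_mul _).const_mul _]
    refine Finset.sum_congr rfl fun a _ => ?_
    rw [lintegral_const_mul _ ((m1 _ _).const_mul _), lintegral_const_mul _ (m1 _ _)]
  simp only [h1]
  rw [lintegral_finsetSum _ fun a _ => ((m1 _ _).mul_const _).const_mul _]
  have h2 : ∀ a ∈ A.F, ∫⁻ y, A.w a *
      ((ind (|y - (A.p a + A.u a * s)| ≤ 2 * r) * ind (|y - y0| ≤ ρ)) *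
       ∫⁻ z, (ind (|z - (A.q a + A.v a * s)| ≤ 2 * r) * ind (|z - z0| ≤ ρ))) ≤
      ENNReal.ofReal (16 * r ^ 2) * (A.w a * (ind (|y0 - A.p a - A.u a * s| ≤ 3 * ρ) *
        ind (|z0 - A.q a - A.v a * s| ≤ 3 * ρ))) := by
    intro a _
    rw [lintegral_const_mul _ ((m1 _ _).mul_const _), lintegral_mul_const _ (m1 _ _)]
    have e16 : ENNReal.ofReal (16 * r ^ 2) = ENNReal.ofReal (4 * r) * ENNReal.ofReal (4 * r) := by
      rw [← ENNReal.ofReal_mul (by positivity)]; congr 1; ring
    rw [e16]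
    calc A.w a * ((∫⁻ y, ind (|y - (A.p a + A.u a * s)| ≤ 2 * r) * ind (|y - y0| ≤ ρ)) *
          ∫⁻ z, (ind (|z - (A.q a + A.v a * s)| ≤ 2 * r) * ind (|z - z0| ≤ ρ)))
        ≤ A.w a * ((ENNReal.ofReal (4 * r) * ind (|y0 - (A.p a + A.u a * s)| ≤ 3 * ρ)) *
          (ENNReal.ofReal (4 * r) * ind (|z0 - (A.q a + A.v a * s)| ≤ 3 * ρ))) :=
          mul_le_mul_right (mul_le_mul' (lint_one hρ) (lint_one hρ)) _
      _ = _ := by rw [sub_sub y0, sub_sub z0]; ring
  refine (Finset.sum_le_sum h2).trans ?_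
  rw [← Finset.mul_sum]
  rfl

end Fam

/-- the product of the three square roots. -/
noncomputable def P {ι κ' τ : Type*} (A : Fam ι) (B : Fam κ') (C : Fam τ) (r : ℝ)
    (t : ℝ × ℝ × ℝ) : ℝ≥0∞ :=
  sq (A.G r t.1 t.2.1 t.2.2) * sq (B.G r t.2.1 t.1 t.2.2) * sq (C.G r t.2.2 t.1 t.2.1)

variable {ι κ' τ : Type*} (A : Fam ι) (B : Fam κ') (C : Fam τ)

theorem measurable_P (r : ℝ) : Measurable (P A B C r) := by
  unfold P
  refine ((measurable_sq.comp (A.measurable_G r)).mul (measurable_sq.comp ?_)).mul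
    (measurable_sq.comp ?_)
  · exact (B.measurable_G r).comp (g := fun t : ℝ × ℝ × ℝ => B.G r t.1 t.2.1 t.2.2)
      (f := fun t : ℝ × ℝ × ℝ => (t.2.1, t.1, t.2.2)) (by fun_prop)
  · exact (C.measurable_G r).comp (g := fun t : ℝ × ℝ × ℝ => C.G r t.1 t.2.1 t.2.2)
      (f := fun t : ℝ × ℝ × ℝ => (t.2.2, t.1, t.2.1)) (by fun_prop)

theorem mem_cb {t X : ℝ × ℝ × ℝ} {ρ : ℝ} :
    t ∈ closedBall X ρ ↔ |t.1 - X.1| ≤ ρ ∧ |t.2.1 - X.2.1| ≤ ρ ∧ |t.2.2 - X.2.2| ≤ ρ := by
  rw [mem_closedBall, Prod.dist_eq, Prod.dist_eq, max_le_iff, max_le_iff, Real.dist_eq,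
    Real.dist_eq, Real.dist_eq]

theorem vol_cb (X : ℝ × ℝ × ℝ) {ρ : ℝ} (hρ : 0 ≤ ρ) :
    volume (closedBall X ρ) = ENNReal.ofReal (8 * ρ ^ 3) := by
  obtain ⟨a, b, c⟩ := X
  rw [← closedBall_prod_same, ← closedBall_prod_same, Measure.volume_eq_prod, Measure.prod_prod,
    Measure.volume_eq_prod, Measure.prod_prod, Real.volume_closedBall, Real.volume_closedBall,
    Real.volume_closedBall, ← ENNReal.ofReal_mul (by positivity),
    ← ENNReal.ofReal_mul (by positivity)]
  congr 1; ring

/-- the local Loomis-Whitney estimate. -/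
theorem local_lw {κ r ρ : ℝ} (hr : 0 ≤ r) (hρ : r ≤ ρ) (hκ : κ * ρ ≤ r) (h0 : 0 ≤ κ)
    (hA : A.Slope κ) (hB : B.Slope κ) (hC : C.Slope κ) (X : ℝ × ℝ × ℝ) :
    ∫⁻ t in closedBall X ρ, P A B C r t ≤ ENNReal.ofReal (64 * r ^ 3) * P A B C (3 * ρ) X := by
  obtain ⟨a, b, c⟩ := X
  have e1 : ∫⁻ t in closedBall (a, b, c) ρ, P A B C r t =
      ∫⁻ x, ∫⁻ y, ∫⁻ z, (closedBall (a, b, c) ρ).indicator (P A B C r) (x, y, z) := by
    rw [← lintegral_indicator measurableSet_closedBall, Measure.volume_eq_prod,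
      lintegral_prod _ (((measurable_P A B C r).indicator measurableSet_closedBall).aemeasurable)]
    refine lintegral_congr fun x => ?_
    rw [Measure.volume_eq_prod, lintegral_prod]
    exact (((measurable_P A B C r).indicator measurableSet_closedBall).comp
      (measurable_const.prodMk measurable_id)).aemeasurable
  rw [e1]
  have h1 : ∀ x y z, (closedBall (a, b, c) ρ).indicator (P A B C r) (x, y, z) ≤
      sq (A.H r ρ a b c y z) * sq (B.H r ρ b a c x z) * sq (C.H r ρ c a b x y) := by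
    intro x y z
    by_cases h : (x, y, z) ∈ closedBall (a, b, c) ρ
    · rw [Set.indicator_of_mem h]
      obtain ⟨hx, hy, hz⟩ := mem_cb.1 h
      simp only at hx hy hz
      have i1 : ind (|x - a| ≤ ρ) = 1 := by unfold ind; rw [if_pos hx]
      have i2 : ind (|y - b| ≤ ρ) = 1 := by unfold ind; rw [if_pos hy]
      have i3 : ind (|z - c| ≤ ρ) = 1 := by unfold ind; rw [if_pos hz]
      have k : ∀ {s s' : ℝ}, |s - s'| ≤ ρ → κ * |s - s'| ≤ r := fun {s s'} h =>
        (mul_le_mul_of_nonneg_left h h0).trans hκ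
      unfold P Fam.H
      simp only [i1, i2, i3, mul_one]
      refine mul_le_mul' (mul_le_mul' (sq_mono ?_) (sq_mono ?_)) (sq_mono ?_)
      · refine A.G_le hA ?_ ?_ <;> (simp only [sub_self, abs_zero]; have := k hx; linarith)
      · refine B.G_le hB ?_ ?_ <;> (simp only [sub_self, abs_zero]; have := k hy; linarith)
      · refine C.G_le hC ?_ ?_ <;> (simp only [sub_self, abs_zero]; have := k hz; linarith)
    · rw [Set.indicator_of_notMem h]
      exact bot_le
  calc ∫⁻ x, ∫⁻ y, ∫⁻ z, (closedBall (a, b, c) ρ).indicator (P A B C r) (x, y, z)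
      ≤ ∫⁻ x, ∫⁻ y, ∫⁻ z,
          sq (A.H r ρ a b c y z) * sq (B.H r ρ b a c x z) * sq (C.H r ρ c a b x y) :=
        lintegral_mono fun x => lintegral_mono fun y => lintegral_mono fun z => h1 x y z
    _ ≤ sq (∫⁻ y, ∫⁻ z, A.H r ρ a b c y z) * sq (∫⁻ x, ∫⁻ z, B.H r ρ b a c x z) *
          sq (∫⁻ x, ∫⁻ y, C.H r ρ c a b x y) :=
        lw (A.measurable_H r ρ a b c) (B.measurable_H r ρ b a c) (C.measurable_H r ρ c a b)
    _ ≤ sq (ENNReal.ofReal (16 * r ^ 2) * A.G (3 * ρ) a b c) *
          sq (ENNReal.ofReal (16 * r ^ 2) * B.G (3 * ρ) b a c) *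
          sq (ENNReal.ofReal (16 * r ^ 2) * C.G (3 * ρ) c a b) :=
        mul_le_mul' (mul_le_mul' (sq_mono (A.lint_H hr hρ a b c)) (sq_mono (B.lint_H hr hρ b a c)))
          (sq_mono (C.lint_H hr hρ c a b))
    _ = ENNReal.ofReal (64 * r ^ 3) * P A B C (3 * ρ) (a, b, c) := by
        have e4 : sq (ENNReal.ofReal (16 * r ^ 2)) = ENNReal.ofReal (4 * r) := by
          rw [show 16 * r ^ 2 = (4 * r) ^ 2 by ring, ENNReal.ofReal_pow (by positivity), sq_sq]
        have e64 : ENNReal.ofReal (64 * r ^ 3) =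
            ENNReal.ofReal (4 * r) * ENNReal.ofReal (4 * r) * ENNReal.ofReal (4 * r) := by
          rw [← ENNReal.ofReal_mul (by positivity), ← ENNReal.ofReal_mul (by positivity)]
          congr 1; ring
        simp only [sq_mul, e4]
        rw [e64]
        unfold P
        ring

/-- one step of the chain: `ρ`-balls. -/
theorem step {κ r ρ L : ℝ} (hr : 0 < r) (hρ : r ≤ ρ) (hκ : κ * ρ ≤ r) (h0 : 0 ≤ κ)
    (hA : A.Slope κ) (hB : B.Slope κ) (hC : C.Slope κ) (X : ℝ × ℝ × ℝ) :
    ENNReal.ofReal (8 * ρ ^ 3) * ∫⁻ t in closedBall X L, P A B C r t ≤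
      ENNReal.ofReal (64 * r ^ 3) * ∫⁻ t in closedBall X (L + ρ), P A B C (3 * ρ) t := by
  have hρ0 : 0 ≤ ρ := hr.le.trans hρ
  have m : Measurable (P A B C r) := measurable_P A B C r
  calc ENNReal.ofReal (8 * ρ ^ 3) * ∫⁻ t in closedBall X L, P A B C r t
      = ∫⁻ t in closedBall X L, ∫⁻ s in closedBall X (L + ρ),
          (closedBall t ρ).indicator (fun _ => P A B C r t) s := by
        rw [← lintegral_const_mul _ m]
        refine setLIntegral_congr_fun measurableSet_closedBall fun t ht => ?_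
        rw [lintegral_indicator measurableSet_closedBall, Measure.restrict_restrict
          measurableSet_closedBall, lintegral_const, Measure.restrict_apply MeasurableSet.univ,
          Set.univ_inter, Set.inter_eq_left.2, vol_cb t hρ0, mul_comm]
        refine closedBall_subset_closedBall' ?_
        rw [mem_closedBall] at ht
        linarith
    _ = ∫⁻ s in closedBall X (L + ρ), ∫⁻ t in closedBall X L,
          (closedBall t ρ).indicator (fun _ => P A B C r t) s := by
        refine lintegral_lintegral_swap ?_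
        have : Measurable fun q : (ℝ × ℝ × ℝ) × (ℝ × ℝ × ℝ) =>
            {q : (ℝ × ℝ × ℝ) × (ℝ × ℝ × ℝ) | dist q.2 q.1 ≤ ρ}.indicator
              (fun q => P A B C r q.1) q := by
          refine (m.comp measurable_fst).indicator ?_
          exact measurableSet_le (by fun_prop) measurable_const
        refine Measurable.aemeasurable ?_
        convert this using 2 with q
        simp only [Function.uncurry, Set.indicator, mem_closedBall, Set.mem_ofPred_eq]
    _ ≤ ∫⁻ s in closedBall X (L + ρ), ∫⁻ t in closedBall s ρ, P A B C r t := by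
        refine lintegral_mono fun s => ?_
        calc ∫⁻ t in closedBall X L, (closedBall t ρ).indicator (fun _ => P A B C r t) s
            ≤ ∫⁻ t, (closedBall t ρ).indicator (fun _ => P A B C r t) s :=
              setLIntegral_le_lintegral _ _
          _ = ∫⁻ t, (closedBall s ρ).indicator (P A B C r) t := by
              refine lintegral_congr fun t => ?_
              unfold Set.indicator
              simp only [mem_closedBall, dist_comm]
          _ = _ := lintegral_indicator measurableSet_closedBall _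
    _ ≤ ∫⁻ s in closedBall X (L + ρ), ENNReal.ofReal (64 * r ^ 3) * P A B C (3 * ρ) s :=
        lintegral_mono fun s => local_lw A B C hr.le hρ hκ h0 hA hB hC s
    _ = _ := lintegral_const_mul _ (measurable_P A B C _)

end Crest.Agent.R138.Bct383
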