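import Crest.Agent.R138.Bc2_383

/-!
R138, block BCT (helper383), file 3: iteration of the chain; multilinear Kakeya for tubes almost
parallel to the axes, with loss `(R/r)^ε`.
-/

set_option autoImplicit false

open MeasureTheory Metric
open scoped ENNReal

namespace Crest.Agent.R138.Bct383

theorem Fam.G_mono_r {σ : Type*} (D : Fam σ) {r r' : ℝ} (h : r ≤ r') (s y z : ℝ) :
    D.G r s y z ≤ D.G r' s y z := by
  unfold Fam.G
  refine Finset.sum_le_sum fun a _ => mul_le_mul_right ?_ _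
  exact mul_le_mul' (ind_mono fun h' => h'.trans h) (ind_mono fun h' => h'.trans h)

variable {ι κ' τ : Type*} (A : Fam ι) (B : Fam κ') (C : Fam τ)

theorem step' {κ lam r L L' : ℝ} (hr : 0 < r) (hl : 3 ≤ lam) (hκ : κ * lam ≤ 3) (h0 : 0 ≤ κ)
    (hL : L + lam * r / 3 ≤ L')
    (hA : A.Slope κ) (hB : B.Slope κ) (hC : C.Slope κ) (X : ℝ × ℝ × ℝ) :
    ∫⁻ t in closedBall X L, P A B C r t ≤
      ENNReal.ofReal (216 / lam ^ 3) * ∫⁻ t in closedBall X L', P A B C (lam * r) t := by
  have hl0 : 0 < lam := by linarith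
  have h := step A B C (κ := κ) (r := r) (ρ := lam * r / 3) (L := L) hr (by nlinarith)
    (by nlinarith) h0 hA hB hC X
  rw [show 3 * (lam * r / 3) = lam * r by ring] at h
  have e1 : ENNReal.ofReal (8 * (lam * r / 3) ^ 3)⁻¹ * ENNReal.ofReal (8 * (lam * r / 3) ^ 3) = 1 := by
    rw [← ENNReal.ofReal_mul (by positivity), inv_mul_cancel₀ (by positivity), ENNReal.ofReal_one]
  have e2 : ENNReal.ofReal (8 * (lam * r / 3) ^ 3)⁻¹ * ENNReal.ofReal (64 * r ^ 3) =
      ENNReal.ofReal (216 / lam ^ 3) := by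
    rw [← ENNReal.ofReal_mul (by positivity)]
    congr 1
    field_simp
    norm_num
  calc ∫⁻ t in closedBall X L, P A B C r t
      = ENNReal.ofReal (8 * (lam * r / 3) ^ 3)⁻¹ * (ENNReal.ofReal (8 * (lam * r / 3) ^ 3) *
          ∫⁻ t in closedBall X L, P A B C r t) := by rw [← mul_assoc, e1, one_mul]
    _ ≤ ENNReal.ofReal (8 * (lam * r / 3) ^ 3)⁻¹ * (ENNReal.ofReal (64 * r ^ 3) *
          ∫⁻ t in closedBall X (L + lam * r / 3), P A B C (lam * r) t) := mul_le_mul_right h _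
    _ = ENNReal.ofReal (216 / lam ^ 3) *
          ∫⁻ t in closedBall X (L + lam * r / 3), P A B C (lam * r) t := by rw [← mul_assoc, e2]
    _ ≤ _ := mul_le_mul_right (lintegral_mono_set (closedBall_subset_closedBall hL)) _

theorem chain {κ lam : ℝ} (hl : 3 ≤ lam) (hκ : κ * lam ≤ 3) (h0 : 0 ≤ κ)
    (hA : A.Slope κ) (hB : B.Slope κ) (hC : C.Slope κ) (X : ℝ × ℝ × ℝ) (m : ℕ) :
    ∀ r L : ℝ, 0 < r →
    ∫⁻ t in closedBall X L, P A B C r t ≤
      ENNReal.ofReal (216 / lam ^ 3) ^ m *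
        ∫⁻ t in closedBall X (L + (lam ^ m - 1) * r / 2), P A B C (lam ^ m * r) t := by
  induction m with
  | zero => intro r L _; simp
  | succ m ih =>
    intro r L hr
    have hl0 : 0 < lam := by linarith
    have h1 := step' A B C (κ := κ) (L := L) (L' := L + lam * r / 3) hr hl hκ h0 le_rfl hA hB hC X
    have h2 := ih (lam * r) (L + lam * r / 3) (by positivity)
    refine h1.trans ?_
    refine (mul_le_mul_right h2 _).trans ?_
    rw [← mul_assoc, ← pow_succ']
    refine mul_le_mul_right ?_ _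
    rw [show lam ^ m * (lam * r) = lam ^ (m + 1) * r by ring]
    refine lintegral_mono_set (closedBall_subset_closedBall ?_)
    have : lam ^ (m + 1) = lam ^ m * lam := pow_succ _ _
    rw [this]
    nlinarith

theorem P_le {κ R R' : ℝ} {t X : ℝ × ℝ × ℝ} (h0 : 0 ≤ κ) (h1 : κ ≤ 1) (hR : 0 ≤ R)
    (ht : t ∈ closedBall X (3 * R / 2)) (hR' : 4 * R ≤ R')
    (hA : A.Slope κ) (hB : B.Slope κ) (hC : C.Slope κ) :
    P A B C R t ≤ P A B C R' X := by
  obtain ⟨hx, hy, hz⟩ := mem_cb.1 ht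
  have k : ∀ {s : ℝ}, |s| ≤ 3 * R / 2 → κ * |s| ≤ 3 * R / 2 := fun {s} h => by
    have := abs_nonneg s
    nlinarith
  unfold P
  refine mul_le_mul' (mul_le_mul' (sq_mono ?_) (sq_mono ?_)) (sq_mono ?_)
  · refine A.G_le hA ?_ ?_ <;> (have := k hx; linarith)
  · refine B.G_le hB ?_ ?_ <;> (have := k hy; linarith)
  · refine C.G_le hC ?_ ?_ <;> (have := k hz; linarith)

/-- multilinear Kakeya at the scales `r`, `lam^m r`. -/
theorem mk_pow {κ lam r : ℝ} (hl : 3 ≤ lam) (hκ : κ * lam ≤ 3) (h0 : 0 ≤ κ) (hr : 0 < r)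
    (hA : A.Slope κ) (hB : B.Slope κ) (hC : C.Slope κ) (X : ℝ × ℝ × ℝ) (m : ℕ) :
    ∫⁻ t in closedBall X (lam ^ m * r), P A B C r t ≤
      ENNReal.ofReal (27 * 216 ^ m * r ^ 3) * P A B C (4 * (lam ^ m * r)) X := by
  have hl0 : 0 < lam := by linarith
  have h1κ : κ ≤ 1 := by nlinarith
  set R : ℝ := lam ^ m * r with hR
  have hR0 : 0 < R := by positivity
  have h := chain A B C hl hκ h0 hA hB hC X m r R hr
  refine h.trans ?_
  have h2 : ∫⁻ t in closedBall X (R + (lam ^ m - 1) * r / 2), P A B C (lam ^ m * r) t ≤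
      ENNReal.ofReal (27 * R ^ 3) * P A B C (4 * R) X := by
    calc ∫⁻ t in closedBall X (R + (lam ^ m - 1) * r / 2), P A B C (lam ^ m * r) t
        ≤ ∫⁻ t in closedBall X (3 * R / 2), P A B C R t := by
          refine lintegral_mono_set (closedBall_subset_closedBall ?_)
          rw [hR]; nlinarith
      _ ≤ ∫⁻ t in closedBall X (3 * R / 2), P A B C (4 * R) X := by
          refine setLIntegral_mono' measurableSet_closedBall fun t ht => ?_
          exact P_le A B C h0 h1κ hR0.le ht le_rfl hA hB hC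
      _ = _ := by
          rw [lintegral_const, Measure.restrict_apply MeasurableSet.univ, Set.univ_inter,
            vol_cb X (by positivity), mul_comm]
          congr 2; ring
  refine (mul_le_mul_right h2 _).trans ?_
  rw [← mul_assoc, ← ENNReal.ofReal_pow (by positivity), ← ENNReal.ofReal_mul (by positivity)]
  refine mul_le_mul_left (ENNReal.ofReal_le_ofReal (le_of_eq ?_)) _
  rw [hR, div_pow]
  field_simp
  ring

/-- **Multilinear Kakeya in `ℝ³`** for tubes almost parallel to the axes, loss `(R/r)^ε`. -/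
theorem mk_small {ε : ℝ} (hε : 0 < ε) : ∃ κ Cε : ℝ, 0 < κ ∧ κ ≤ 1 ∧ 1 ≤ Cε ∧
    ∀ {ι κ' τ : Type*} (A : Fam ι) (B : Fam κ') (C : Fam τ), A.Slope κ → B.Slope κ → C.Slope κ →
    ∀ (X : ℝ × ℝ × ℝ) (r R : ℝ), 0 < r → r ≤ R →
    ∫⁻ t in closedBall X R, P A B C r t ≤
      ENNReal.ofReal (Cε * (R / r) ^ ε * r ^ 3) * P A B C (Cε * R) X := by
  obtain ⟨lam, hlam3, hlam⟩ : ∃ lam : ℝ, 3 ≤ lam ∧ 216 ≤ lam ^ ε := by
    refine ⟨max 3 ((216 : ℝ) ^ (1 / ε)), le_max_left _ _, ?_⟩
    calc (216 : ℝ) = ((216 : ℝ) ^ (1 / ε)) ^ ε := by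
          rw [← Real.rpow_mul (by norm_num), one_div_mul_cancel hε.ne', Real.rpow_one]
      _ ≤ _ := Real.rpow_le_rpow (by positivity) (le_max_right _ _) hε.le
  have hl0 : 0 < lam := by linarith
  refine ⟨3 / lam, 27 * lam ^ ε + 4 * lam, by positivity, by rw [div_le_one hl0]; exact hlam3, ?_, ?_⟩
  · have : 0 ≤ lam ^ ε := by positivity
    linarith
  intro ι κ' τ A B C hA hB hC X r R hr hrR
  have hRr : 1 ≤ R / r := by rwa [one_le_div hr]
  obtain ⟨m, hm1, hm2⟩ := exists_nat_pow_near hRr (by linarith : 1 < lam)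
  have hR0 : 0 < R := hr.trans_le hrR
  have h := mk_pow A B C (κ := 3 / lam) (lam := lam) (r := r) hlam3
    (by rw [div_mul_cancel₀ _ hl0.ne']) (by positivity) hr hA hB hC X (m + 1)
  have e1 : R ≤ lam ^ (m + 1) * r := by
    rw [div_lt_iff₀ hr] at hm2
    exact hm2.le
  have e2 : lam ^ (m + 1) * r ≤ lam * R := by
    rw [le_div_iff₀ hr] at hm1
    rw [pow_succ]; nlinarith
  calc ∫⁻ t in closedBall X R, P A B C r t
      ≤ ∫⁻ t in closedBall X (lam ^ (m + 1) * r), P A B C r t :=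
        lintegral_mono_set (closedBall_subset_closedBall e1)
    _ ≤ _ := h
    _ ≤ _ := by
      refine mul_le_mul' (ENNReal.ofReal_le_ofReal ?_) ?_
      · have k1 : (216 : ℝ) ^ (m + 1) ≤ lam ^ ε * (R / r) ^ ε := by
          calc (216 : ℝ) ^ (m + 1) ≤ (lam ^ ε) ^ (m + 1) :=
                pow_le_pow_left₀ (by norm_num) hlam _
            _ = (lam ^ (m + 1)) ^ ε := by
                rw [← Real.rpow_natCast, ← Real.rpow_mul hl0.le, ← Real.rpow_natCast (n := m + 1),
                  ← Real.rpow_mul hl0.le, mul_comm]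
            _ ≤ (lam * (R / r)) ^ ε := by
                refine Real.rpow_le_rpow (by positivity) ?_ hε.le
                rw [pow_succ, mul_comm]
                exact mul_le_mul_of_nonneg_left hm1 hl0.le
            _ = _ := Real.mul_rpow hl0.le (by positivity)
        have k2 : 0 ≤ (R / r) ^ ε := by positivity
        have k3 : 27 * 216 ^ (m + 1) ≤ (27 * lam ^ ε + 4 * lam) * (R / r) ^ ε := by
          nlinarith
        exact mul_le_mul_of_nonneg_right k3 (by positivity)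
      · unfold P
        have k4 : 4 * (lam ^ (m + 1) * r) ≤ (27 * lam ^ ε + 4 * lam) * R := by
          have : 0 ≤ lam ^ ε := by positivity
          nlinarith
        exact mul_le_mul' (mul_le_mul' (sq_mono (A.G_mono_r k4 _ _ _))
          (sq_mono (B.G_mono_r k4 _ _ _))) (sq_mono (C.G_mono_r k4 _ _ _))

end Crest.Agent.R138.Bct383
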