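import Crest.Agent.R138.Bil_882

set_option autoImplicit false

open MeasureTheory SchwartzMap FourierTransform
open scoped FourierTransform SchwartzMap ENNReal Convolution

namespace Crest.Agent.R138.Bil882

variable {V : Type*} [NormedAddCommGroup V] [InnerProductSpace ℝ V] [FiniteDimensional ℝ V]
  [MeasurableSpace V] [BorelSpace V]

/-- superposition of characters, `F(x) = ∫ e(⟨ξ, x⟩) g(ξ) dμ(ξ)`. -/
noncomputable def wave (μ : Measure V) (g : V → ℂ) (x : V) : ℂ :=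
  ∫ ξ, (Real.fourierChar (inner ℝ ξ x) : ℂ) * g ξ ∂μ

theorem wave_eq (μ : Measure V) (g : V → ℂ) :
    wave μ g = VectorFourier.fourierIntegral Real.fourierChar μ
      (-(innerSL ℝ : V →L[ℝ] V →L[ℝ] ℝ)).toLinearMap₁₂ g := by
  ext x
  unfold wave VectorFourier.fourierIntegral
  refine integral_congr_ae (Filter.Eventually.of_forall fun ξ => ?_)
  simp only [Circle.smul_def, smul_eq_mul]
  congr 3
  simp

theorem wave_temperate (μ : Measure V) (g : V → ℂ) (hg : Integrable g μ) (R : ℝ)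
    (hR : ∀ ξ, g ξ ≠ 0 → ‖ξ‖ ≤ R) : (wave μ g).HasTemperateGrowth := by
  have hint : ∀ n : ℕ, Integrable (fun v => ‖v‖ ^ n * ‖g v‖) μ := by
    intro n
    refine Integrable.mono' (hg.norm.const_mul (|R| ^ n)) ?_ ?_
    · exact ((continuous_norm.pow n).aestronglyMeasurable).mul hg.1.norm
    · refine Filter.Eventually.of_forall fun v => ?_
      rw [norm_mul, norm_pow, norm_norm, norm_norm]
      by_cases h : g v = 0
      · simp [h]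
      · have := hR v h
        gcongr
        exact this.trans (le_abs_self R)
  rw [wave_eq]
  set L : V →L[ℝ] V →L[ℝ] ℝ := -(innerSL ℝ : V →L[ℝ] V →L[ℝ] ℝ) with hL
  refine ⟨VectorFourier.contDiff_fourierIntegral (N := ⊤) L fun n _ => hint n, fun n => ?_⟩
  refine ⟨0, ∫ v, (2 * Real.pi * ‖L‖) ^ n * (‖v‖ ^ n * ‖g v‖) ∂μ, fun w => ?_⟩
  rw [VectorFourier.iteratedFDeriv_fourierIntegral (N := ⊤) L (fun n _ => hint n) hg.1
    (n := n) (by exact_mod_cast le_top)]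
  rw [pow_zero, mul_one]
  refine (VectorFourier.norm_fourierIntegral_le_integral_norm _ _ _ _ _).trans ?_
  refine integral_mono_of_nonneg (Filter.Eventually.of_forall fun _ => norm_nonneg _)
    ((hint n).const_mul _) (Filter.Eventually.of_forall fun v => ?_)
  refine (VectorFourier.norm_fourierPowSMulRight_le L g v n).trans (le_of_eq ?_)
  ring

/-- the spectrum of `F ψ` for a superposition of characters. -/
theorem fourier_loc_wave (μ : Measure V) [IsFiniteMeasure μ] (g : V → ℂ) (hg : Integrable g μ)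
    (R : ℝ) (hR : ∀ ξ, g ξ ≠ 0 → ‖ξ‖ ≤ R) (ψ : 𝓢(V, ℂ)) (ζ : V) :
    𝓕 (smulLeftCLM ℂ (wave μ g) ψ) ζ = ∫ ξ, g ξ * 𝓕 ψ (ζ - ξ) ∂μ := by
  have ht := wave_temperate μ g hg R hR
  have e1 : 𝓕 (smulLeftCLM ℂ (wave μ g) ψ) ζ
      = ∫ x, (Real.fourierChar (-inner ℝ x ζ) : ℂ) * ((∫ ξ, (Real.fourierChar (inner ℝ ξ x) : ℂ) * g ξ ∂μ) * ψ x) := by
    rw [fourier_coe, Real.fourier_eq]
    refine integral_congr_ae (Filter.Eventually.of_forall fun x => ?_)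
    simp only [Circle.smul_def, smul_eq_mul]
    rw [smulLeftCLM_apply_apply ht]
    rfl
  have e2 : ∀ x, (Real.fourierChar (-inner ℝ x ζ) : ℂ)
        * ((∫ ξ, (Real.fourierChar (inner ℝ ξ x) : ℂ) * g ξ ∂μ) * ψ x)
      = ∫ ξ, g ξ * ((Real.fourierChar (-inner ℝ x (ζ - ξ)) : ℂ) * ψ x) ∂μ := by
    intro x
    rw [← integral_mul_const, ← integral_const_mul]
    refine integral_congr_ae (Filter.Eventually.of_forall fun ξ => ?_)
    simp only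
    have : (Real.fourierChar (-inner ℝ x (ζ - ξ)) : ℂ)
        = (Real.fourierChar (-inner ℝ x ζ) : ℂ) * (Real.fourierChar (inner ℝ ξ x) : ℂ) := by
      rw [← Circle.coe_mul, ← AddChar.map_add_eq_mul]
      congr 2
      rw [inner_sub_right, real_inner_comm x ξ]; ring
    rw [this]; ring
  rw [e1]
  simp_rw [e2]
  rw [integral_integral_swap]
  · refine integral_congr_ae (Filter.Eventually.of_forall fun ξ => ?_)
    simp only
    rw [integral_const_mul, fourier_coe, Real.fourier_eq]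
    congr 1
  · have h1 : Integrable (fun p : V × V => ψ p.1 * g p.2) (volume.prod μ) :=
      ψ.integrable.mul_prod hg
    refine Integrable.mono' h1.norm ?_ (Filter.Eventually.of_forall fun p => ?_)
    · have hc : Continuous fun p : V × V => (Real.fourierChar (-inner ℝ p.1 (ζ - p.2)) : ℂ) := by
        have : Continuous fun t : ℝ => ((Real.fourierChar t : Circle) : ℂ) := by fun_prop
        exact this.comp (by fun_prop)
      have h2 : AEStronglyMeasurable (fun p : V × V => g p.2) (volume.prod μ) :=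
        hg.1.comp_snd
      exact h2.mul (hc.aestronglyMeasurable.mul
        ((ψ.continuous.comp continuous_fst).aestronglyMeasurable))
    · simp only [Function.uncurry, norm_mul, Circle.norm_coe, one_mul]
      rw [mul_comm]

/-- `F` is tempered and `F ψ` has its spectrum in the `ρ`-neighbourhood of `A` as soon as the
spectrum of `ψ` is in the ball of radius `ρ`. -/
structure HasSpec (F : V → ℂ) (A : Set V) : Prop where
  temp : F.HasTemperateGrowth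
  spec : ∀ (ρ : ℝ) (ψ : 𝓢(V, ℂ)), (∀ ζ, 𝓕 ψ ζ ≠ 0 → ‖ζ‖ ≤ ρ) →
    ∀ ζ, 𝓕 (smulLeftCLM ℂ F ψ) ζ ≠ 0 → ∃ a ∈ A, ‖ζ - a‖ ≤ ρ

theorem hasSpec_wave (μ : Measure V) [IsFiniteMeasure μ] (g : V → ℂ) (hg : Integrable g μ)
    (R : ℝ) (hR : ∀ ξ, g ξ ≠ 0 → ‖ξ‖ ≤ R) (A : Set V) (hA : ∀ ξ, g ξ ≠ 0 → ξ ∈ A) :
    HasSpec (wave μ g) A := by
  refine ⟨wave_temperate μ g hg R hR, fun ρ ψ hψ ζ hζ => ?_⟩
  by_contra hcon
  push Not at hcon
  apply hζ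
  rw [fourier_loc_wave μ g hg R hR ψ ζ, ← integral_zero V ℂ (μ := μ)]
  congr 1
  ext ξ
  by_cases h : g ξ = 0
  · simp [h]
  · have h1 := hcon ξ (hA ξ h)
    have h2 : 𝓕 ψ (ζ - ξ) = 0 := by
      by_contra h3
      exact absurd (hψ _ h3) (not_le.2 h1)
    rw [h2, mul_zero]

theorem HasSpec.mono {F : V → ℂ} {A B : Set V} (h : HasSpec F A) (hAB : A ⊆ B) : HasSpec F B :=
  ⟨h.temp, fun ρ ψ hψ ζ hζ => by
    obtain ⟨a, ha, h1⟩ := h.spec ρ ψ hψ ζ hζ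
    exact ⟨a, hAB ha, h1⟩⟩

/-- LOCAL ORTHOGONALITY -/
theorem ort_loc {ι : Type*} (s : Finset ι) (F : ι → V → ℂ) (A : ι → Set V)
    (hF : ∀ i ∈ s, HasSpec (F i) (A i)) (ψ : 𝓢(V, ℂ)) (ρ : ℝ)
    (hψ : ∀ ζ, 𝓕 ψ ζ ≠ 0 → ‖ζ‖ ≤ ρ) (N : ℕ)
    (hN : ∀ ζ : V, ∀ t ⊆ s, (∀ i ∈ t, ∃ a ∈ A i, ‖ζ - a‖ ≤ ρ) → t.card ≤ N) :
    ∫ x, ‖∑ i ∈ s, F i x‖ ^ 2 * ‖ψ x‖ ^ 2
      ≤ N * ∑ i ∈ s, ∫ x, ‖F i x‖ ^ 2 * ‖ψ x‖ ^ 2 := by
  classical
  have h := ort_sq s (fun i => smulLeftCLM ℂ (F i) ψ) N (by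
    intro ζ
    refine hN ζ _ (Finset.filter_subset _ _) ?_
    intro i hi
    rw [Finset.mem_filter] at hi
    exact (hF i hi.1).spec ρ ψ hψ ζ hi.2)
  have e : ∀ i ∈ s, ∀ x, smulLeftCLM ℂ (F i) ψ x = F i x * ψ x := by
    intro i hi x
    rw [smulLeftCLM_apply_apply (hF i hi).temp]; rfl
  have e1 : ∀ x, ∑ i ∈ s, smulLeftCLM ℂ (F i) ψ x = (∑ i ∈ s, F i x) * ψ x := by
    intro x
    rw [Finset.sum_mul]
    exact Finset.sum_congr rfl fun i hi => e i hi x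
  have e2 : ∑ i ∈ s, ∫ x, ‖smulLeftCLM ℂ (F i) ψ x‖ ^ 2
      = ∑ i ∈ s, ∫ x, ‖F i x‖ ^ 2 * ‖ψ x‖ ^ 2 := by
    refine Finset.sum_congr rfl fun i hi => ?_
    simp_rw [e i hi, norm_mul, mul_pow]
  rw [e2] at h
  simp_rw [e1, norm_mul, mul_pow] at h
  exact h

/-- LOCAL BILINEAR ESTIMATE -/
theorem bil_loc (F1 F2 : V → ℂ) (A1 A2 : Set V) (h1 : HasSpec F1 A1) (h2 : HasSpec F2 A2)
    (ψ : 𝓢(V, ℂ)) (ρ : ℝ) (hψ : ∀ ζ, 𝓕 ψ ζ ≠ 0 → ‖ζ‖ ≤ ρ) (M : ℝ) (hM0 : 0 ≤ M)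
    (hM : ∀ ζ : V, volume {ω : V | (∃ a ∈ A1, ‖ω - a‖ ≤ ρ) ∧ ∃ a ∈ A2, ‖ζ - ω - a‖ ≤ ρ}
      ≤ ENNReal.ofReal M) :
    ∫ x, ‖F1 x * F2 x‖ ^ 2 * ‖ψ x‖ ^ 4
      ≤ M * (∫ x, ‖F1 x‖ ^ 2 * ‖ψ x‖ ^ 2) * ∫ x, ‖F2 x‖ ^ 2 * ‖ψ x‖ ^ 2 := by
  have h := bil (smulLeftCLM ℂ F1 ψ) (smulLeftCLM ℂ F2 ψ) M hM0 (by
    intro ζ
    refine (measure_mono ?_).trans (hM ζ)
    intro ω hω
    exact ⟨h1.spec ρ ψ hψ _ hω.1, h2.spec ρ ψ hψ _ hω.2⟩)
  have e : ∀ F : V → ℂ, F.HasTemperateGrowth → ∀ x, smulLeftCLM ℂ F ψ x = F x * ψ x := by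
    intro F hF x
    rw [smulLeftCLM_apply_apply hF]; rfl
  simp_rw [e F1 h1.temp, e F2 h2.temp] at h
  convert h using 2
  · congr 1; ext x
    simp only [norm_mul, mul_pow]; ring
  · congr 2; ext x
    simp only [norm_mul, mul_pow]
  · congr 1; ext x
    simp only [norm_mul, mul_pow]

/-- LOCAL BIORTHOGONALITY (Córdoba–Fefferman) -/
theorem bio_loc {ι : Type*} (s : Finset ι) (F : ι → V → ℂ) (A : ι → Set V)
    (hF : ∀ i ∈ s, HasSpec (F i) (A i)) (ψ : 𝓢(V, ℂ)) (ρ : ℝ)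
    (hψ : ∀ ζ, 𝓕 ψ ζ ≠ 0 → ‖ζ‖ ≤ ρ) (N : ℕ)
    (hN : ∀ ζ : V, ∀ t : Finset (ι × ι), t ⊆ s ×ˢ s →
      (∀ p ∈ t, ∃ a ∈ A p.1, ∃ b ∈ A p.2, ‖ζ - a - b‖ ≤ 2 * ρ) → t.card ≤ N) :
    ∫ x, ‖∑ i ∈ s, F i x‖ ^ 4 * ‖ψ x‖ ^ 4
      ≤ N * ∫ x, (∑ i ∈ s, ‖F i x‖ ^ 2) ^ 2 * ‖ψ x‖ ^ 4 := by
  classical
  have h := bio s (fun i => smulLeftCLM ℂ (F i) ψ) N (by
    intro ζ
    refine hN ζ _ (Finset.filter_subset _ _) ?_
    intro p hp
    rw [Finset.mem_filter, Finset.mem_product] at hp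
    obtain ⟨⟨hp1, hp2⟩, ω, hω1, hω2⟩ := hp
    obtain ⟨a, ha, ha1⟩ := (hF _ hp1).spec ρ ψ hψ _ hω1
    obtain ⟨b, hb, hb1⟩ := (hF _ hp2).spec ρ ψ hψ _ hω2
    refine ⟨a, ha, b, hb, ?_⟩
    have : ζ - a - b = (ω - a) + (ζ - ω - b) := by abel
    rw [this]
    refine (norm_add_le _ _).trans ?_
    linarith)
  have e : ∀ i ∈ s, ∀ x, smulLeftCLM ℂ (F i) ψ x = F i x * ψ x := by
    intro i hi x
    rw [smulLeftCLM_apply_apply (hF i hi).temp]; rfl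
  have e1 : ∀ x, ∑ i ∈ s, smulLeftCLM ℂ (F i) ψ x = (∑ i ∈ s, F i x) * ψ x := by
    intro x
    rw [Finset.sum_mul]
    exact Finset.sum_congr rfl fun i hi => e i hi x
  have e2 : ∀ x, ∑ i ∈ s, ‖smulLeftCLM ℂ (F i) ψ x‖ ^ 2 = (∑ i ∈ s, ‖F i x‖ ^ 2) * ‖ψ x‖ ^ 2 := by
    intro x
    rw [Finset.sum_mul]
    refine Finset.sum_congr rfl fun i hi => ?_
    rw [e i hi x, norm_mul, mul_pow]
  simp_rw [e1, e2, norm_mul, mul_pow, ← pow_mul] at h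
  exact h

end Crest.Agent.R138.Bil882
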