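import Crest.Agent.R138.Bil2_882

set_option autoImplicit false

open MeasureTheory SchwartzMap FourierTransform
open scoped FourierTransform SchwartzMap ENNReal Convolution

namespace Crest.Agent.R138.Bil882

variable {V : Type*} [NormedAddCommGroup V] [InnerProductSpace ℝ V] [FiniteDimensional ℝ V]
  [MeasurableSpace V] [BorelSpace V]

/-- the model bump. -/
noncomputable def eta (V : Type*) [NormedAddCommGroup V] [InnerProductSpace ℝ V]
    [FiniteDimensional ℝ V] : ContDiffBump (0 : V) := ⟨1/40, 1/20, by norm_num, by norm_num⟩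

/-- the model bump as a Schwartz function. -/
noncomputable def etaS : 𝓢(V, ℂ) :=
  HasCompactSupport.toSchwartzMap (f := fun ζ : V => ((eta V ζ : ℝ) : ℂ))
    (by
      have := (eta V).hasCompactSupport
      exact this.comp_left (g := fun r : ℝ => (r : ℂ)) (by simp))
    (by
      have h : ContDiff ℝ (⊤ : ℕ∞) (eta V) := (eta V).contDiff
      exact Complex.ofRealCLM.contDiff.comp h)

@[simp] theorem etaS_apply (ζ : V) : (etaS (V := V)) ζ = ((eta V ζ : ℝ) : ℂ) := rfl

theorem int_eta_pos : 0 < ∫ ζ : V, (eta V ζ : ℝ) := (eta V).integral_pos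

theorem etaS_ne_zero {ζ : V} (h : (etaS (V := V)) ζ ≠ 0) : ‖ζ‖ ≤ 1 / 20 := by
  rw [etaS_apply] at h
  have h1 : eta V ζ ≠ 0 := by exact_mod_cast h
  have h2 : ζ ∈ Function.support (eta V) := h1
  rw [(eta V).support_eq] at h2
  have h3 : ‖ζ‖ < 1 / 20 := by simpa [eta] using h2
  exact h3.le

/-- the model cut-off: spectrum in the ball of radius `1/20`, at least `1` in norm on the unit ball. -/
noncomputable def psi1 : 𝓢(V, ℂ) := ((2 / ∫ ζ : V, (eta V ζ : ℝ) : ℝ) : ℂ) • 𝓕⁻ (etaS (V := V))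

theorem psi1_lower {x : V} (hx : ‖x‖ ≤ 1) : 1 ≤ ‖psi1 (V := V) x‖ := by
  have hm := int_eta_pos (V := V)
  have e1 : (𝓕⁻ (etaS (V := V)) : 𝓢(V, ℂ)) x
      = ∫ ζ : V, (Real.fourierChar (inner ℝ ζ x) : ℂ) * ((eta V ζ : ℝ) : ℂ) := by
    rw [fourierInv_coe, Real.fourierInv_eq]
    refine integral_congr_ae (Filter.Eventually.of_forall fun ζ => ?_)
    simp [Circle.smul_def]
  have hint : Integrable fun ζ : V => (Real.fourierChar (inner ℝ ζ x) : ℂ) * ((eta V ζ : ℝ) : ℂ) := by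
    have h1 : Integrable (etaS (V := V)) := (etaS (V := V)).integrable
    refine h1.norm.mono' ?_ (Filter.Eventually.of_forall fun ζ => ?_)
    · refine AEStronglyMeasurable.mul ?_ h1.1
      have hc : Continuous fun ζ : V => (Real.fourierChar (inner ℝ ζ x) : ℂ) := by
        have : Continuous fun t : ℝ => ((Real.fourierChar t : Circle) : ℂ) := by fun_prop
        exact this.comp (by fun_prop)
      exact hc.aestronglyMeasurable
    · simp [Circle.norm_coe]
  have hre : (1 / 2 : ℝ) * ∫ ζ : V, (eta V ζ : ℝ) ≤ ((𝓕⁻ (etaS (V := V)) : 𝓢(V, ℂ)) x).re := by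
    rw [e1]
    have e2 : (∫ ζ : V, (Real.fourierChar (inner ℝ ζ x) : ℂ) * ((eta V ζ : ℝ) : ℂ)).re
        = ∫ ζ : V, ((Real.fourierChar (inner ℝ ζ x) : ℂ) * ((eta V ζ : ℝ) : ℂ)).re := by
      exact (integral_re hint).symm
    rw [e2, ← integral_const_mul]
    refine integral_mono ?_ hint.re fun ζ => ?_
    · exact ((eta V).integrable).const_mul _
    · simp only
      have e3 : ((Real.fourierChar (inner ℝ ζ x) : ℂ) * ((eta V ζ : ℝ) : ℂ)).re
          = Real.cos (2 * Real.pi * inner ℝ ζ x) * eta V ζ := by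
        rw [Real.fourierChar_apply, Complex.re_mul_ofReal, Complex.exp_ofReal_mul_I_re]
      rw [e3]
      by_cases hz : eta V ζ = 0
      · rw [hz]; simp
      · have h4 : ‖ζ‖ ≤ 1 / 20 := by
          apply etaS_ne_zero (V := V)
          rw [etaS_apply]; exact_mod_cast hz
        have h5 : |inner ℝ ζ x| ≤ 1 / 20 := by
          refine (abs_real_inner_le_norm ζ x).trans ?_
          calc ‖ζ‖ * ‖x‖ ≤ (1 / 20) * 1 := by gcongr
            _ = 1 / 20 := by ring
        have h6 : (1 / 2 : ℝ) ≤ Real.cos (2 * Real.pi * inner ℝ ζ x) := by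
          rw [← Real.cos_abs, ← Real.cos_pi_div_three]
          have hpi := Real.pi_pos
          apply Real.cos_le_cos_of_nonneg_of_le_pi (abs_nonneg _) (by linarith)
          rw [abs_mul, abs_mul, abs_of_pos hpi, abs_of_pos (by norm_num : (0:ℝ) < 2)]
          nlinarith
        have h7 : 0 ≤ eta V ζ := (eta V).nonneg
        nlinarith
  have : ‖psi1 (V := V) x‖ = 2 / (∫ ζ : V, (eta V ζ : ℝ)) * ‖(𝓕⁻ (etaS (V := V)) : 𝓢(V, ℂ)) x‖ := by
    unfold psi1
    rw [smul_apply, norm_smul, Complex.norm_real, Real.norm_of_nonneg (by positivity)]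
  rw [this]
  have h8 : (1 / 2 : ℝ) * ∫ ζ : V, (eta V ζ : ℝ) ≤ ‖(𝓕⁻ (etaS (V := V)) : 𝓢(V, ℂ)) x‖ :=
    hre.trans (Complex.re_le_norm _)
  calc (1 : ℝ) = 2 / (∫ ζ : V, (eta V ζ : ℝ)) * ((1 / 2 : ℝ) * ∫ ζ : V, (eta V ζ : ℝ)) := by
        field_simp
    _ ≤ _ := by gcongr

theorem psi1_decay (N : ℕ) : ∃ C : ℝ, 0 < C ∧ ∀ x : V, ‖psi1 (V := V) x‖ * (1 + ‖x‖) ^ N ≤ C := by
  have h := fun x => SchwartzMap.one_add_le_sup_seminorm_apply (𝕜 := ℝ) (m := (N, 0)) (k := N)
    (n := 0) le_rfl le_rfl (psi1 (V := V)) x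
  refine ⟨2 ^ N * (Finset.Iic ((N, 0) : ℕ × ℕ)).sup
      (fun m => SchwartzMap.seminorm ℝ m.1 m.2) (psi1 (V := V)) + 1, ?_, fun x => ?_⟩
  · positivity
  · have := h x
    simp only [norm_iteratedFDeriv_zero] at this
    linarith

/-- the cut-off at centre `z0` and scale `r`: as a Schwartz function with spectrum in the ball of
radius `1/(20 r)`. -/
theorem exists_cut (z0 : V) (r : ℝ) (hr : 0 < r) : ∃ ψ : 𝓢(V, ℂ),
    (∀ ζ, 𝓕 ψ ζ ≠ 0 → ‖ζ‖ ≤ 1 / (20 * r)) ∧ ∀ x, ψ x = psi1 (V := V) (r⁻¹ • (x - z0)) := by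
  -- the frequency side
  let f : V → ℂ := fun ζ => (((2 / ∫ ζ : V, (eta V ζ : ℝ)) * r ^ (Module.finrank ℝ V) : ℝ) : ℂ) *
    ((Real.fourierChar (-inner ℝ ζ z0) : ℂ) * ((eta V (r • ζ) : ℝ) : ℂ))
  have hf0 : ∀ ζ, f ζ ≠ 0 → ‖ζ‖ ≤ 1 / (20 * r) := by
    intro ζ h
    have h1 : (etaS (V := V)) (r • ζ) ≠ 0 := by
      intro h2
      apply h
      simp only [f]
      rw [etaS_apply] at h2
      rw [h2]; simp
    have h3 := etaS_ne_zero h1
    rw [norm_smul, Real.norm_of_nonneg hr.le] at h3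
    rw [le_div_iff₀ (by positivity)]
    linarith
  have hsupp : HasCompactSupport f := by
    apply HasCompactSupport.of_support_subset_isCompact
      (isCompact_closedBall (0 : V) (1 / (20 * r)))
    intro ζ hζ
    simpa using hf0 ζ hζ
  have hchar : ContDiff ℝ (⊤ : ℕ∞) fun ζ : V => (Real.fourierChar (-inner ℝ ζ z0) : ℂ) := by
    have : (fun ζ : V => (Real.fourierChar (-inner ℝ ζ z0) : ℂ))
        = fun ζ => Complex.exp (((2 * Real.pi * (-inner ℝ ζ z0) : ℝ) : ℂ) * Complex.I) := by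
      ext ζ; rw [Real.fourierChar_apply]
    rw [this]
    apply ContDiff.cexp
    apply ContDiff.mul _ contDiff_const
    apply Complex.ofRealCLM.contDiff.comp
    exact contDiff_const.mul ((contDiff_id.inner ℝ contDiff_const).neg)
  have hsm : ContDiff ℝ (⊤ : ℕ∞) f := by
    apply contDiff_const.mul
    apply hchar.mul
    have h : ContDiff ℝ (⊤ : ℕ∞) (eta V) := (eta V).contDiff
    exact Complex.ofRealCLM.contDiff.comp (h.comp (contDiff_const_smul r))
  let fS : 𝓢(V, ℂ) := hsupp.toSchwartzMap hsm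
  have hfS : ∀ ζ, fS ζ = f ζ := fun ζ => rfl
  refine ⟨𝓕⁻ fS, fun ζ hζ => ?_, fun x => ?_⟩
  · have : 𝓕 (𝓕⁻ fS : 𝓢(V, ℂ)) = fS := by simp
    rw [this, hfS] at hζ
    exact hf0 ζ hζ
  · rw [fourierInv_coe, Real.fourierInv_eq]
    unfold psi1
    rw [smul_apply, fourierInv_coe, Real.fourierInv_eq, smul_eq_mul]
    have e1 : ∀ ζ : V, (Real.fourierChar (inner ℝ ζ x)) • fS ζ
        = (((2 / ∫ ζ : V, (eta V ζ : ℝ)) * r ^ (Module.finrank ℝ V) : ℝ) : ℂ) *
          (fun ω : V => (Real.fourierChar (inner ℝ ω (r⁻¹ • (x - z0))) : ℂ) *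
            ((eta V ω : ℝ) : ℂ)) (r • ζ) := by
      intro ζ
      rw [hfS]
      simp only [f, Circle.smul_def, smul_eq_mul]
      have : (Real.fourierChar (inner ℝ (r • ζ) (r⁻¹ • (x - z0))) : ℂ)
          = (Real.fourierChar (inner ℝ ζ x) : ℂ) * (Real.fourierChar (-inner ℝ ζ z0) : ℂ) := by
        rw [← Circle.coe_mul, ← AddChar.map_add_eq_mul]
        congr 2
        rw [inner_smul_left, inner_smul_right, inner_sub_right]
        simp only [RCLike.conj_to_real]
        field_simp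
        ring
      rw [this]; ring
    rw [integral_congr_ae (Filter.Eventually.of_forall e1)]
    rw [integral_const_mul]
    have e3 := Measure.integral_comp_smul_of_nonneg (μ := (volume : Measure V))
      (fun ω : V => (Real.fourierChar (inner ℝ ω (r⁻¹ • (x - z0))) : ℂ) *
            ((eta V ω : ℝ) : ℂ)) r (hR := hr.le)
    rw [e3]
    simp only [Circle.smul_def, smul_eq_mul, etaS_apply]
    rw [Complex.real_smul, ← mul_assoc]
    congr 1
    push_cast
    have : (r : ℂ) ^ Module.finrank ℝ V ≠ 0 := by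
      apply pow_ne_zero; exact_mod_cast hr.ne'
    field_simp

end Crest.Agent.R138.Bil882
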