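import Crest.Agent.R138.Bil3_882
import Crest.Agent.R138.Defs_665

set_option autoImplicit false

open MeasureTheory SchwartzMap FourierTransform
open scoped FourierTransform SchwartzMap ENNReal Convolution

namespace Crest.Agent.R138.Bil882

open Crest.Agent.R138.Defs (E2 ee ext Par)

/-- space-time with its Euclidean structure. -/
abbrev W := WithLp 2 (E2 × ℝ)

/-- the graph of the phase. -/
noncomputable def Gam (h : E2 → ℝ) (ξ : E2) : W := WithLp.toLp 2 (ξ, h ξ)

theorem continuous_Gam {h : E2 → ℝ} (hh : Continuous h) : Continuous (Gam h) := by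
  unfold Gam
  fun_prop

theorem finrank_W : Module.finrank ℝ W = 3 := by
  rw [show Module.finrank ℝ W = Module.finrank ℝ (E2 × ℝ) from
    LinearEquiv.finrank_eq (WithLp.linearEquiv 2 ℝ (E2 × ℝ))]
  simp

theorem ee_eq (t : ℝ) : ee t = (Real.fourierChar t : ℂ) := by
  unfold Crest.Agent.R138.Defs.ee
  rw [Real.fourierChar_apply]

/-- the measure on the graph carrying the extension functions. -/
noncomputable def muG (h : E2 → ℝ) (r : ℝ) : Measure W :=
  ((volume : Measure E2).restrict (Metric.closedBall 0 r)).map (Gam h)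

instance (h : E2 → ℝ) (r : ℝ) : IsFiniteMeasure (muG h r) := by
  unfold muG
  have : IsFiniteMeasure ((volume : Measure E2).restrict (Metric.closedBall 0 r)) :=
    ⟨by rw [Measure.restrict_apply_univ]; exact measure_closedBall_lt_top⟩
  infer_instance

/-- the density on space-time. -/
noncomputable def gG (h : E2 → ℝ) (g : E2 → ℂ) (w : W) : ℂ :=
  if w = Gam h (WithLp.ofLp w).1 then g (WithLp.ofLp w).1 else 0

theorem gG_Gam (h : E2 → ℝ) (g : E2 → ℂ) (ξ : E2) : gG h g (Gam h ξ) = g ξ := by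
  unfold gG Gam; simp

theorem measurable_gG {h : E2 → ℝ} (hh : Continuous h) {g : E2 → ℂ} (hg : Measurable g) :
    Measurable (gG h g) := by
  unfold gG
  have h1 : Measurable fun w : W => (WithLp.ofLp w).1 := by
    have : Continuous fun w : W => (WithLp.ofLp w).1 := by fun_prop
    exact this.measurable
  refine Measurable.ite ?_ (hg.comp h1) measurable_const
  have hc : IsClosed {w : W | w = Gam h (WithLp.ofLp w).1} := by
    apply isClosed_eq continuous_id
    exact (continuous_Gam hh).comp (by fun_prop)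
  exact hc.measurableSet

theorem integrable_gG {h : E2 → ℝ} (hh : Continuous h) {g : E2 → ℂ} (hg : Measurable g)
    {M : ℝ} (hM : ∀ ξ, ‖g ξ‖ ≤ M) (r : ℝ) : Integrable (gG h g) (muG h r) := by
  refine Integrable.of_bound (measurable_gG hh hg).aestronglyMeasurable (|M|) ?_
  refine Filter.Eventually.of_forall fun w => ?_
  unfold gG
  split_ifs with hw
  · exact (hM _).trans (le_abs_self M)
  · simp

/-- an extension function is a superposition of characters carried by the graph. -/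
theorem ext_eq_wave {h : E2 → ℝ} (hh : Continuous h) {g : E2 → ℂ} (hg : Measurable g)
    {r : ℝ} (hr : ∀ ξ, r < ‖ξ‖ → g ξ = 0) (x : E2) (t : ℝ) :
    ext h g x t = wave (muG h r) (gG h g) (WithLp.toLp 2 (x, t)) := by
  unfold wave muG
  rw [integral_map (continuous_Gam hh).measurable.aemeasurable]
  · have e1 : ∀ ξ : E2, (Real.fourierChar (inner ℝ (Gam h ξ) (WithLp.toLp 2 (x, t) : W)) : ℂ)
        * gG h g (Gam h ξ) = g ξ * ee (inner ℝ x ξ + t * h ξ) := by
      intro ξ
      rw [gG_Gam, ee_eq, mul_comm]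
      congr 3
      unfold Gam
      rw [WithLp.prod_inner_apply]
      simp only [real_inner_comm x ξ]
      simp [mul_comm]
    simp_rw [e1]
    unfold Crest.Agent.R138.Defs.ext
    rw [setIntegral_eq_integral_of_forall_compl_eq_zero]
    intro ξ hξ
    have : r < ‖ξ‖ := by simpa using hξ
    rw [hr ξ this, zero_mul]
  · have m1 : Measurable fun w : W =>
        (Real.fourierChar (inner ℝ w (WithLp.toLp 2 (x, t) : W)) : ℂ) * gG h g w := by
      refine Measurable.mul ?_ (measurable_gG hh hg)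
      have hc : Continuous fun w : W =>
          (Real.fourierChar (inner ℝ w (WithLp.toLp 2 (x, t) : W)) : ℂ) := by
        have : Continuous fun t : ℝ => ((Real.fourierChar t : Circle) : ℂ) := by fun_prop
        exact this.comp (by fun_prop)
      exact hc.measurable
    exact m1.aestronglyMeasurable

/-- the spectrum of an extension function. -/
theorem hasSpec_ext {h : E2 → ℝ} (hh : Continuous h) {g : E2 → ℂ} (hg : Measurable g)
    {M : ℝ} (hM : ∀ ξ, ‖g ξ‖ ≤ M) {r : ℝ} (hr : ∀ ξ, r < ‖ξ‖ → g ξ = 0) (Ω : Set E2)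
    (hΩ : ∀ ξ, g ξ ≠ 0 → ξ ∈ Ω) :
    HasSpec (fun w : W => ext h g (WithLp.ofLp w).1 (WithLp.ofLp w).2) (Gam h '' Ω) := by
  have e : (fun w : W => ext h g (WithLp.ofLp w).1 (WithLp.ofLp w).2)
      = wave (muG h r) (gG h g) := by
    ext w
    rw [ext_eq_wave hh hg hr]
  rw [e]
  obtain ⟨B, hB⟩ : ∃ B, ∀ ξ ∈ Metric.closedBall (0 : E2) r, ‖Gam h ξ‖ ≤ B :=
    (isCompact_closedBall (0 : E2) r).exists_bound_of_continuousOn (continuous_Gam hh).continuousOn
  have hne : ∀ w, gG h g w ≠ 0 → ∃ ξ, g ξ ≠ 0 ∧ Gam h ξ = w := by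
    intro w hw
    unfold gG at hw
    split_ifs at hw with h1
    · exact ⟨_, hw, h1.symm⟩
    · exact absurd rfl hw
  refine hasSpec_wave _ _ (integrable_gG hh hg hM r) B ?_ _ ?_
  · intro w hw
    obtain ⟨ξ, h1, rfl⟩ := hne w hw
    apply hB
    rw [Metric.mem_closedBall, dist_zero_right]
    by_contra h2
    exact h1 (hr ξ (not_le.1 h2))
  · intro w hw
    obtain ⟨ξ, h1, rfl⟩ := hne w hw
    exact ⟨ξ, hΩ ξ h1, rfl⟩

/-- covering lemma for the overlap set. -/
theorem volume_le_of_cover (S : Set W) (s : W → ℝ) (K X Y : ℝ) (hK : 0 < K) (hX : 0 ≤ X)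
    (hY : 0 ≤ Y) (h1 : ∀ a ∈ S, ∀ b ∈ S, |s a - s b| ≤ X / K)
    (h2 : ∀ a ∈ S, ∀ b ∈ S, |s a - s b| ≤ 1 / K → ‖a - b‖ ≤ Y / K) :
    volume S ≤ ENNReal.ofReal ((2 * X + 3) * (Y / K) ^ 3) * volume (Metric.ball (0 : W) 1) := by
  classical
  rcases S.eq_empty_or_nonempty with rfl | ⟨a0, ha0⟩
  · simp
  -- label of a point
  let lab : W → ℤ := fun a => ⌊K * (s a - s a0)⌋
  have hlab : ∀ a ∈ S, lab a ∈ Finset.Icc (-⌈X⌉) ⌊X⌋ := by
    intro a ha
    have h3 := abs_le.1 (h1 a ha a0 ha0)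
    have h4 : -X ≤ K * (s a - s a0) := by
      have := mul_le_mul_of_nonneg_left h3.1 hK.le
      have e : K * -(X / K) = -X := by field_simp
      linarith
    have h5 : K * (s a - s a0) ≤ X := by
      have := mul_le_mul_of_nonneg_left h3.2 hK.le
      have e : K * (X / K) = X := by field_simp
      linarith
    rw [Finset.mem_Icc]
    constructor
    · apply Int.le_floor.2
      push_cast
      have := Int.le_ceil X
      linarith
    · exact Int.floor_le_floor h5
  let rep : ℤ → W := fun j => if hj : ∃ a ∈ S, lab a = j then hj.choose else 0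
  have hrep : ∀ a ∈ S, rep (lab a) ∈ S ∧ lab (rep (lab a)) = lab a := by
    intro a ha
    have hj : ∃ b ∈ S, lab b = lab a := ⟨a, ha, rfl⟩
    simp only [rep, dif_pos hj]
    exact hj.choose_spec
  have hcov : S ⊆ ⋃ j ∈ Finset.Icc (-⌈X⌉) ⌊X⌋, Metric.closedBall (rep j) (Y / K) := by
    intro a ha
    simp only [Set.mem_iUnion]
    refine ⟨lab a, hlab a ha, ?_⟩
    rw [Metric.mem_closedBall, dist_eq_norm]
    obtain ⟨h3, h4⟩ := hrep a ha
    apply h2 a ha _ h3
    have h5 := Int.abs_sub_lt_one_of_floor_eq_floor (a := K * (s a - s a0))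
      (b := K * (s (rep (lab a)) - s a0)) h4.symm
    have h6 : K * (s a - s a0) - K * (s (rep (lab a)) - s a0) = K * (s a - s (rep (lab a))) := by
      ring
    rw [h6, abs_mul, abs_of_pos hK] at h5
    rw [le_div_iff₀ hK]
    linarith
  have hcard : ((Finset.Icc (-⌈X⌉) ⌊X⌋).card : ℝ) ≤ 2 * X + 3 := by
    rw [Int.card_Icc]
    have h3 : (0:ℤ) ≤ ⌊X⌋ + 1 - -⌈X⌉ := by
      have : 0 ≤ ⌊X⌋ := Int.floor_nonneg.2 hX
      have : 0 ≤ ⌈X⌉ := Int.ceil_nonneg hX
      omega
    have h4 : (((⌊X⌋ + 1 - -⌈X⌉).toNat : ℤ) : ℝ) = ((⌊X⌋ + 1 - -⌈X⌉ : ℤ) : ℝ) := by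
      rw [Int.toNat_of_nonneg h3]
    have h5 : (((⌊X⌋ + 1 - -⌈X⌉).toNat : ℕ) : ℝ) = ((⌊X⌋ + 1 - -⌈X⌉ : ℤ) : ℝ) := by
      rw [← h4]; norm_cast
    rw [h5]
    push_cast
    have := Int.floor_le X
    have := (Int.ceil_lt_add_one X).le
    linarith
  calc volume S ≤ volume (⋃ j ∈ Finset.Icc (-⌈X⌉) ⌊X⌋, Metric.closedBall (rep j) (Y / K)) :=
        measure_mono hcov
    _ ≤ ∑ j ∈ Finset.Icc (-⌈X⌉) ⌊X⌋, volume (Metric.closedBall (rep j) (Y / K)) :=
        measure_biUnion_finset_le _ _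
    _ = ∑ j ∈ Finset.Icc (-⌈X⌉) ⌊X⌋, ENNReal.ofReal ((Y / K) ^ 3) * volume (Metric.ball (0 : W) 1) := by
        refine Finset.sum_congr rfl fun j _ => ?_
        rw [Measure.addHaar_closedBall _ _ (by positivity), finrank_W]
    _ = ((Finset.Icc (-⌈X⌉) ⌊X⌋).card : ℝ≥0∞) * (ENNReal.ofReal ((Y / K) ^ 3)
          * volume (Metric.ball (0 : W) 1)) := by
        rw [Finset.sum_const, nsmul_eq_mul]
    _ ≤ ENNReal.ofReal (2 * X + 3) * (ENNReal.ofReal ((Y / K) ^ 3)
          * volume (Metric.ball (0 : W) 1)) := by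
        gcongr
        rw [← ENNReal.ofReal_natCast]
        exact ENNReal.ofReal_le_ofReal hcard
    _ = _ := by
        rw [← mul_assoc, ← ENNReal.ofReal_mul (by positivity)]

end Crest.Agent.R138.Bil882
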