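import Crest.Agent.R138.Bil5_882

set_option autoImplicit false

open MeasureTheory SchwartzMap FourierTransform
open scoped FourierTransform SchwartzMap ENNReal Convolution

namespace Crest.Agent.R138.Bil882

open Crest.Agent.R138.Defs (E2 ee ext Par)

section general

variable {V : Type*} [NormedAddCommGroup V] [InnerProductSpace ℝ V] [FiniteDimensional ℝ V]
  [MeasurableSpace V] [BorelSpace V]

theorem lint_loc {F : V → ℂ} (hF : F.HasTemperateGrowth) (ψ : 𝓢(V, ℂ)) :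
    ENNReal.ofReal (∫ x, ‖F x‖ ^ 2 * ‖ψ x‖ ^ 2) = ∫⁻ x, ‖F x‖ₑ ^ 2 * ‖ψ x‖ₑ ^ 2 := by
  have h := ofReal_int_sq (smulLeftCLM ℂ F ψ) (integrable_norm_sq _)
  have e : ∀ x, smulLeftCLM ℂ F ψ x = F x * ψ x := by
    intro x
    rw [smulLeftCLM_apply_apply hF]; rfl
  simp_rw [e, norm_mul, enorm_mul, mul_pow] at h
  exact h

/-- LOCAL BILINEAR ESTIMATE, lintegral form. -/
theorem bil_loc_l (F1 F2 : V → ℂ) (A1 A2 : Set V) (h1 : HasSpec F1 A1) (h2 : HasSpec F2 A2)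
    (ψ : 𝓢(V, ℂ)) (ρ : ℝ) (hψ : ∀ ζ, 𝓕 ψ ζ ≠ 0 → ‖ζ‖ ≤ ρ) (M : ℝ) (hM0 : 0 ≤ M)
    (hM : ∀ ζ : V, volume {ω : V | (∃ a ∈ A1, ‖ω - a‖ ≤ ρ) ∧ ∃ a ∈ A2, ‖ζ - ω - a‖ ≤ ρ}
      ≤ ENNReal.ofReal M) :
    ∫⁻ x, ‖F1 x‖ₑ ^ 2 * ‖F2 x‖ₑ ^ 2 * ‖ψ x‖ₑ ^ 4
      ≤ ENNReal.ofReal M * (∫⁻ x, ‖F1 x‖ₑ ^ 2 * ‖ψ x‖ₑ ^ 2) * ∫⁻ x, ‖F2 x‖ₑ ^ 2 * ‖ψ x‖ₑ ^ 2 := by
  have h := bil_loc F1 F2 A1 A2 h1 h2 ψ ρ hψ M hM0 hM
  rw [← lint_loc h1.temp ψ, ← lint_loc h2.temp ψ, ← ENNReal.ofReal_mul hM0,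
    ← ENNReal.ofReal_mul (by positivity)]
  have e0 : ∀ F : V → ℂ, F.HasTemperateGrowth → ∀ x, smulLeftCLM ℂ F ψ x = F x * ψ x := by
    intro F hF x
    rw [smulLeftCLM_apply_apply hF]; rfl
  have e : ∫⁻ x, ‖F1 x‖ₑ ^ 2 * ‖F2 x‖ₑ ^ 2 * ‖ψ x‖ₑ ^ 4
      = ENNReal.ofReal (∫ x, ‖F1 x * F2 x‖ ^ 2 * ‖ψ x‖ ^ 4) := by
    have h3 := ofReal_int_sq (mulS (smulLeftCLM ℂ F1 ψ) (smulLeftCLM ℂ F2 ψ))
      (integrable_norm_sq _)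
    have h4 : ∀ x, mulS (smulLeftCLM ℂ F1 ψ) (smulLeftCLM ℂ F2 ψ) x
        = (F1 x * F2 x) * (ψ x) ^ 2 := by
      intro x
      rw [mulS_apply, e0 F1 h1.temp, e0 F2 h2.temp]; ring
    simp_rw [h4] at h3
    have h5 : ∀ x, ‖(F1 x * F2 x) * (ψ x) ^ 2‖ ^ 2 = ‖F1 x * F2 x‖ ^ 2 * ‖ψ x‖ ^ 4 := by
      intro x
      rw [norm_mul, norm_pow]; ring
    have h6 : ∀ x, ‖(F1 x * F2 x) * (ψ x) ^ 2‖ₑ ^ 2 = ‖F1 x‖ₑ ^ 2 * ‖F2 x‖ₑ ^ 2 * ‖ψ x‖ₑ ^ 4 := by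
      intro x
      rw [enorm_mul, enorm_mul, enorm_pow]; ring
    simp_rw [h5, h6] at h3
    exact h3.symm
  rw [e]
  exact ENNReal.ofReal_le_ofReal h

/-- LOCAL ORTHOGONALITY, lintegral form -/
theorem ort_loc_l {ι : Type*} (s : Finset ι) (F : ι → V → ℂ) (A : ι → Set V)
    (hF : ∀ i ∈ s, HasSpec (F i) (A i)) (ψ : 𝓢(V, ℂ)) (ρ : ℝ)
    (hψ : ∀ ζ, 𝓕 ψ ζ ≠ 0 → ‖ζ‖ ≤ ρ) (N : ℕ)
    (hN : ∀ ζ : V, ∀ t ⊆ s, (∀ i ∈ t, ∃ a ∈ A i, ‖ζ - a‖ ≤ ρ) → t.card ≤ N) :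
    ∫⁻ x, ‖∑ i ∈ s, F i x‖ₑ ^ 2 * ‖ψ x‖ₑ ^ 2
      ≤ N * ∑ i ∈ s, ∫⁻ x, ‖F i x‖ₑ ^ 2 * ‖ψ x‖ₑ ^ 2 := by
  have h := ort_loc s F A hF ψ ρ hψ N hN
  have ht : (fun x => ∑ i ∈ s, F i x).HasTemperateGrowth :=
    Function.HasTemperateGrowth.sum fun i hi => (hF i hi).temp
  have e1 := lint_loc ht ψ
  rw [← e1]
  have e2 : ∑ i ∈ s, ∫⁻ x, ‖F i x‖ₑ ^ 2 * ‖ψ x‖ₑ ^ 2
      = ENNReal.ofReal (∑ i ∈ s, ∫ x, ‖F i x‖ ^ 2 * ‖ψ x‖ ^ 2) := by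
    rw [ENNReal.ofReal_sum_of_nonneg fun i _ => integral_nonneg fun x => by positivity]
    exact Finset.sum_congr rfl fun i hi => (lint_loc (hF i hi).temp ψ).symm
  rw [e2, ← ENNReal.ofReal_natCast, ← ENNReal.ofReal_mul (by positivity)]
  exact ENNReal.ofReal_le_ofReal h

end general

/-- the weight of the ball of radius `K` around `(x0, t0)`. -/
noncomputable def wt (N : ℕ) (K : ℝ) (x0 : E2) (t0 : ℝ) (p : E2 × ℝ) : ℝ :=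
  ((1 + (‖p.1 - x0‖ + |p.2 - t0|) / K) ^ N)⁻¹

theorem wt_pos (N : ℕ) {K : ℝ} (hK : 0 < K) (x0 : E2) (t0 : ℝ) (p : E2 × ℝ) :
    0 < wt N K x0 t0 p := by
  unfold wt; positivity

theorem measurable_wt (N : ℕ) (K : ℝ) (x0 : E2) (t0 : ℝ) : Measurable (wt N K x0 t0) := by
  unfold wt
  fun_prop

theorem norm_fst_le (w : W) : ‖(WithLp.ofLp w).1‖ ≤ ‖w‖ := by
  have := WithLp.prod_norm_sq_eq_of_L2 w
  have h1 : ‖(WithLp.ofLp w).1‖ ^ 2 ≤ ‖w‖ ^ 2 := by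
    rw [this]; have := sq_nonneg ‖w.snd‖; simp only [WithLp.fst] at *; linarith
  exact abs_le_of_sq_le_sq' h1 (norm_nonneg _) |>.2

theorem norm_snd_le (w : W) : |(WithLp.ofLp w).2| ≤ ‖w‖ := by
  have := WithLp.prod_norm_sq_eq_of_L2 w
  have h1 : ‖(WithLp.ofLp w).2‖ ^ 2 ≤ ‖w‖ ^ 2 := by
    rw [this]; have := sq_nonneg ‖w.fst‖; simp only [WithLp.snd] at *; linarith
  exact abs_le_of_sq_le_sq' h1 (norm_nonneg _) |>.2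

theorem norm_le_add (w : W) : ‖w‖ ≤ ‖(WithLp.ofLp w).1‖ + |(WithLp.ofLp w).2| := by
  have := WithLp.prod_norm_sq_eq_of_L2 w
  apply le_of_sq_le_sq _ (by positivity)
  rw [this]
  have h1 : 0 ≤ ‖(WithLp.ofLp w).1‖ * |(WithLp.ofLp w).2| := by positivity
  have e1 : ‖w.fst‖ = ‖(WithLp.ofLp w).1‖ := rfl
  have e2 : ‖w.snd‖ = |(WithLp.ofLp w).2| := rfl
  rw [e1, e2]
  nlinarith

theorem lip_of_grad {h : E2 → ℝ} (hd : Differentiable ℝ h) {L : ℝ}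
    (hL : ∀ ξ : E2, ‖ξ‖ ≤ 2 → ‖gradient h ξ‖ ≤ L) {a b : E2} (ha : ‖a‖ ≤ 2) (hb : ‖b‖ ≤ 2) :
    |h b - h a| ≤ L * ‖b - a‖ := by
  obtain ⟨θ, hθ, h1⟩ := mvt hd a b
  rw [h1]
  refine (abs_real_inner_le_norm _ _).trans ?_
  gcongr
  apply hL
  have := seg_near (p := 0) (by simpa using ha) (by simpa using hb) hθ
  simpa using this

set_option maxHeartbeats 1000000 in
/-- the measure of the overlap set of two separated pieces of one strip. -/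
theorem overlap_le {L A : ℝ} (hL0 : 0 ≤ L) (hA : 0 ≤ A) {h : E2 → ℝ} (hd : Differentiable ℝ h)
    (hn : NearId h (1/10)) (hL : ∀ ξ : E2, ‖ξ‖ ≤ 2 → ‖gradient h ξ‖ ≤ L)
    {e f : E2} (he : ‖e‖ = 1) (hf : ‖f‖ = 1) (hef : inner ℝ e f = 0) {ν K c : ℝ}
    (hν : 0 < ν) (hν1 : ν ≤ 1) (hK : 1 ≤ K) {p1 p2 : E2} (hp1 : ‖p1‖ ≤ 1) (hp2 : ‖p2‖ ≤ 1)
    (hp : ν ≤ ‖p1 - p2‖) (Ω1 Ω2 : Set E2)
    (hΩ1 : ∀ ξ ∈ Ω1, ‖ξ - p1‖ ≤ ν / 100 ∧ |inner ℝ (gradient h ξ) f - c| ≤ A / K)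
    (hΩ2 : ∀ ξ ∈ Ω2, ‖ξ - p2‖ ≤ ν / 100 ∧ |inner ℝ (gradient h ξ) f - c| ≤ A / K) (ζ : W) :
    volume {ω : W | (∃ a ∈ Gam h '' Ω1, ‖ω - a‖ ≤ 1 / (20 * K)) ∧
      ∃ a ∈ Gam h '' Ω2, ‖ζ - ω - a‖ ≤ 1 / (20 * K)} ≤
      ENNReal.ofReal ((2 * (20 * (1 + L + A) / ν + 1) + 3)
        * (((1 + L) * (3 + 3 * A) + 1) / K) ^ 3) * volume (Metric.ball (0 : W) 1) := by
  have hK0 : 0 < K := by linarith
  set ρ : ℝ := 1 / (20 * K) with hρ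
  have hρ0 : 0 ≤ ρ := by positivity
  have hρK : ρ = (1 / 20) / K := by rw [hρ]; field_simp
  have hρ1 : ρ ≤ 1 / K := by
    rw [hρK]; gcongr; norm_num
  -- data of two points
  have key : ∀ ω ω' : W, (∃ a ∈ Gam h '' Ω1, ‖ω - a‖ ≤ ρ) → (∃ a ∈ Gam h '' Ω2, ‖ζ - ω - a‖ ≤ ρ) →
      (∃ a ∈ Gam h '' Ω1, ‖ω' - a‖ ≤ ρ) → (∃ a ∈ Gam h '' Ω2, ‖ζ - ω' - a‖ ≤ ρ) →
      ∃ a1 b1 : E2, ‖ω - Gam h a1‖ ≤ ρ ∧ ‖ω' - Gam h b1‖ ≤ ρ ∧ ‖a1‖ ≤ 2 ∧ ‖b1‖ ≤ 2 ∧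
        |inner ℝ (b1 - a1) e| ≤ (20 * (1 + L + A) / ν) / K ∧
        ‖b1 - a1‖ ≤ 2 * |inner ℝ (b1 - a1) e| + 3 * (A / K) := by
    rintro ω ω' ⟨_, ⟨a1, ha1, rfl⟩, h1⟩ ⟨_, ⟨a2, ha2, rfl⟩, h2⟩ ⟨_, ⟨b1, hb1, rfl⟩, h3⟩
      ⟨_, ⟨b2, hb2, rfl⟩, h4⟩
    have hsum4 : ‖(Gam h b1 - Gam h a1) + (Gam h b2 - Gam h a2)‖ ≤ 4 * ρ := by
      have e1 : (Gam h b1 - Gam h a1) + (Gam h b2 - Gam h a2)
          = (ω - Gam h a1) + (ζ - ω - Gam h a2) - ((ω' - Gam h b1) + (ζ - ω' - Gam h b2)) := by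
        abel
      rw [e1]
      calc _ ≤ ‖(ω - Gam h a1) + (ζ - ω - Gam h a2)‖ + ‖(ω' - Gam h b1) + (ζ - ω' - Gam h b2)‖ :=
            norm_sub_le _ _
        _ ≤ (‖ω - Gam h a1‖ + ‖ζ - ω - Gam h a2‖) + (‖ω' - Gam h b1‖ + ‖ζ - ω' - Gam h b2‖) := by
            gcongr <;> exact norm_add_le _ _
        _ ≤ 4 * ρ := by linarith
    have hs1 : ‖(b1 - a1) + (b2 - a2)‖ ≤ 4 * ρ := by
      have h5 := (norm_fst_le ((Gam h b1 - Gam h a1) + (Gam h b2 - Gam h a2))).trans hsum4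
      have h6 : (WithLp.ofLp ((Gam h b1 - Gam h a1) + (Gam h b2 - Gam h a2))).1
          = (b1 - a1) + (b2 - a2) := by
        simp only [Gam, WithLp.ofLp_add, WithLp.ofLp_sub, Prod.fst_add, Prod.fst_sub]
      rwa [h6] at h5
    have hs2 : |(h b1 - h a1) + (h b2 - h a2)| ≤ 4 * ρ := by
      have h5 := (norm_snd_le ((Gam h b1 - Gam h a1) + (Gam h b2 - Gam h a2))).trans hsum4
      have h6 : (WithLp.ofLp ((Gam h b1 - Gam h a1) + (Gam h b2 - Gam h a2))).2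
          = (h b1 - h a1) + (h b2 - h a2) := by
        simp only [Gam, WithLp.ofLp_add, WithLp.ofLp_sub, Prod.snd_add, Prod.snd_sub]
      rwa [h6] at h5
    have tp := two_point hd hn hL he hf hef hν hν1 hK hA hp1 hp2 hp hρ0 hρ1 (hΩ1 a1 ha1).1
      (hΩ1 b1 hb1).1 (hΩ2 a2 ha2).1 (hΩ2 b2 hb2).1 (hΩ1 a1 ha1).2 (hΩ1 b1 hb1).2 (hΩ2 a2 ha2).2
      hs1 hs2
    have hn2 : ∀ a : E2, ‖a - p1‖ ≤ ν / 100 → ‖a‖ ≤ 2 := by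
      intro a ha
      calc ‖a‖ = ‖(a - p1) + p1‖ := by rw [sub_add_cancel]
        _ ≤ ‖a - p1‖ + ‖p1‖ := norm_add_le _ _
        _ ≤ 2 := by linarith
    exact ⟨a1, b1, h1, h3, hn2 a1 (hΩ1 a1 ha1).1, hn2 b1 (hΩ1 b1 hb1).1, tp.1, tp.2⟩
  apply volume_le_of_cover _ (fun ω : W => inner ℝ (WithLp.ofLp ω).1 e) K _ _ hK0 (by positivity)
    (by positivity)
  · rintro ω ⟨hω1, hω2⟩ ω' ⟨hω'1, hω'2⟩
    obtain ⟨a1, b1, k1, k2, -, -, k3, -⟩ := key ω ω' hω1 hω2 hω'1 hω'2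
    have e1 : inner ℝ (WithLp.ofLp ω).1 e - inner ℝ (WithLp.ofLp ω').1 e
        = inner ℝ ((WithLp.ofLp (ω - Gam h a1)).1) e - inner ℝ ((WithLp.ofLp (ω' - Gam h b1)).1) e
          - inner ℝ (b1 - a1) e := by
      simp only [Gam, WithLp.ofLp_sub, Prod.fst_sub, inner_sub_left]
      ring
    have b1' : |inner ℝ ((WithLp.ofLp (ω - Gam h a1)).1) e| ≤ ρ := by
      refine (abs_real_inner_le_norm _ _).trans ?_
      rw [he, mul_one]; exact (norm_fst_le _).trans k1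
    have b2' : |inner ℝ ((WithLp.ofLp (ω' - Gam h b1)).1) e| ≤ ρ := by
      refine (abs_real_inner_le_norm _ _).trans ?_
      rw [he, mul_one]; exact (norm_fst_le _).trans k2
    rw [e1]
    calc _ ≤ |inner ℝ ((WithLp.ofLp (ω - Gam h a1)).1) e
            - inner ℝ ((WithLp.ofLp (ω' - Gam h b1)).1) e| + |inner ℝ (b1 - a1) e| := abs_sub _ _
      _ ≤ (ρ + ρ) + (20 * (1 + L + A) / ν) / K := by
          gcongr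
          exact (abs_sub _ _).trans (add_le_add b1' b2')
      _ ≤ 1 / K + (20 * (1 + L + A) / ν) / K := by
          gcongr
          rw [hρK, ← add_div]
          gcongr
          norm_num
      _ = (20 * (1 + L + A) / ν + 1) / K := by ring
  · rintro ω ⟨hω1, hω2⟩ ω' ⟨hω'1, hω'2⟩ hs
    obtain ⟨a1, b1, k1, k2, n1, n2, -, k4⟩ := key ω ω' hω1 hω2 hω'1 hω'2
    have e1 : inner ℝ (b1 - a1) e
        = inner ℝ ((WithLp.ofLp (ω - Gam h a1)).1) e - inner ℝ ((WithLp.ofLp (ω' - Gam h b1)).1) e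
          - (inner ℝ (WithLp.ofLp ω).1 e - inner ℝ (WithLp.ofLp ω').1 e) := by
      simp only [Gam, WithLp.ofLp_sub, Prod.fst_sub, inner_sub_left]
      ring
    have b1' : |inner ℝ ((WithLp.ofLp (ω - Gam h a1)).1) e| ≤ ρ := by
      refine (abs_real_inner_le_norm _ _).trans ?_
      rw [he, mul_one]; exact (norm_fst_le _).trans k1
    have b2' : |inner ℝ ((WithLp.ofLp (ω' - Gam h b1)).1) e| ≤ ρ := by
      refine (abs_real_inner_le_norm _ _).trans ?_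
      rw [he, mul_one]; exact (norm_fst_le _).trans k2
    have b3 : |inner ℝ (b1 - a1) e| ≤ (11 / 10) / K := by
      rw [e1]
      calc _ ≤ |inner ℝ ((WithLp.ofLp (ω - Gam h a1)).1) e
            - inner ℝ ((WithLp.ofLp (ω' - Gam h b1)).1) e|
            + |inner ℝ (WithLp.ofLp ω).1 e - inner ℝ (WithLp.ofLp ω').1 e| := abs_sub _ _
        _ ≤ (ρ + ρ) + 1 / K := by
            gcongr
            · exact (abs_sub _ _).trans (add_le_add b1' b2')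
        _ = (11 / 10) / K := by rw [hρK]; ring
    have b4 : ‖b1 - a1‖ ≤ ((22 / 10) + 3 * A) / K := by
      calc ‖b1 - a1‖ ≤ 2 * ((11 / 10) / K) + 3 * (A / K) := by linarith
        _ = _ := by ring
    have b5 : ‖Gam h b1 - Gam h a1‖ ≤ (1 + L) * ‖b1 - a1‖ := by
      refine (norm_le_add _).trans ?_
      have e2 : (WithLp.ofLp (Gam h b1 - Gam h a1)).1 = b1 - a1 := rfl
      have e3 : (WithLp.ofLp (Gam h b1 - Gam h a1)).2 = h b1 - h a1 := rfl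
      rw [e2, e3]
      have := lip_of_grad hd hL n1 n2
      linarith
    have e4 : ω - ω' = (ω - Gam h a1) - (ω' - Gam h b1) - (Gam h b1 - Gam h a1) := by abel
    rw [e4]
    calc _ ≤ ‖(ω - Gam h a1) - (ω' - Gam h b1)‖ + ‖Gam h b1 - Gam h a1‖ := norm_sub_le _ _
      _ ≤ (ρ + ρ) + (1 + L) * (((22 / 10) + 3 * A) / K) := by
          gcongr
          · exact (norm_sub_le _ _).trans (add_le_add k1 k2)
          · exact b5.trans (by gcongr)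
      _ = ((1 + L) * ((22 / 10) + 3 * A) + 1 / 10) / K := by rw [hρK]; ring
      _ ≤ ((1 + L) * (3 + 3 * A) + 1) / K := by
          gcongr
          · norm_num
          · norm_num

set_option maxHeartbeats 1000000 in
/-- PLANAR BILINEAR `L⁴` ESTIMATE on a ball of radius `K` for two `ν`-separated pieces of a strip
of width `A / K` in direction space. -/
theorem planar_bilinear {L A : ℝ} (hL0 : 0 ≤ L) (hA : 0 ≤ A) (N : ℕ) :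
    ∃ C : ℝ, 0 < C ∧ ∀ h : E2 → ℝ, Differentiable ℝ h → NearId h (1/10) →
      (∀ ξ : E2, ‖ξ‖ ≤ 2 → ‖gradient h ξ‖ ≤ L) →
      ∀ e f : E2, ‖e‖ = 1 → ‖f‖ = 1 → inner ℝ e f = 0 →
      ∀ ν K c : ℝ, 0 < ν → ν ≤ 1 → 1 ≤ K →
      ∀ p1 p2 : E2, ‖p1‖ ≤ 1 → ‖p2‖ ≤ 1 → ν ≤ ‖p1 - p2‖ →
      ∀ g1 g2 : E2 → ℂ, Measurable g1 → Measurable g2 → (∃ M, ∀ ξ, ‖g1 ξ‖ ≤ M) →
        (∃ M, ∀ ξ, ‖g2 ξ‖ ≤ M) →
      (∀ ξ, g1 ξ ≠ 0 → ‖ξ - p1‖ ≤ ν / 100 ∧ |inner ℝ (gradient h ξ) f - c| ≤ A / K) →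
      (∀ ξ, g2 ξ ≠ 0 → ‖ξ - p2‖ ≤ ν / 100 ∧ |inner ℝ (gradient h ξ) f - c| ≤ A / K) →
      ∀ (x0 : E2) (t0 : ℝ),
        ∫⁻ p in {p : E2 × ℝ | ‖p.1 - x0‖ + |p.2 - t0| ≤ K},
            ‖ext h g1 p.1 p.2‖ₑ ^ 2 * ‖ext h g2 p.1 p.2‖ₑ ^ 2
          ≤ ENNReal.ofReal (C * ν⁻¹ * (K ^ 3)⁻¹)
            * (∫⁻ p : E2 × ℝ, ‖ext h g1 p.1 p.2‖ₑ ^ 2 * ENNReal.ofReal (wt N K x0 t0 p))
            * ∫⁻ p : E2 × ℝ, ‖ext h g2 p.1 p.2‖ₑ ^ 2 * ENNReal.ofReal (wt N K x0 t0 p) := by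
  obtain ⟨C1, hC1, hdec⟩ := psi1_decay (V := W) N
  set vb : ℝ := (volume (Metric.ball (0 : W) 1)).toReal with hvb
  have hvb0 : volume (Metric.ball (0 : W) 1) = ENNReal.ofReal vb := by
    rw [hvb, ENNReal.ofReal_toReal measure_ball_lt_top.ne]
  have hvbn : 0 ≤ vb := ENNReal.toReal_nonneg
  set Y : ℝ := (1 + L) * (3 + 3 * A) + 1 with hY
  have hY0 : 0 ≤ Y := by positivity
  set C2 : ℝ := C1 ^ 2 * 2 ^ N with hC2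
  have hC20 : 0 < C2 := by positivity
  refine ⟨(40 * (1 + L + A) + 5) * Y ^ 3 * vb * C2 ^ 2 + 1, by positivity, ?_⟩
  intro h hd hn hL e f he hf hef ν K c hν hν1 hK p1 p2 hp1 hp2 hp g1 g2 mg1 mg2 ⟨M1, hM1⟩ ⟨M2, hM2⟩
    hg1 hg2 x0 t0
  have hK0 : 0 < K := by linarith
  let F : (E2 → ℂ) → W → ℂ := fun g w => ext h g (WithLp.ofLp w).1 (WithLp.ofLp w).2
  have hsp : ∀ (g : E2 → ℂ) (p : E2), ‖p‖ ≤ 1 → Measurable g → (∃ M, ∀ ξ, ‖g ξ‖ ≤ M) →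
      (∀ ξ, g ξ ≠ 0 → ‖ξ - p‖ ≤ ν / 100 ∧ |inner ℝ (gradient h ξ) f - c| ≤ A / K) →
      HasSpec (F g) (Gam h '' {ξ | ‖ξ - p‖ ≤ ν / 100 ∧ |inner ℝ (gradient h ξ) f - c| ≤ A / K}) := by
    intro g p hp mg hM hg
    obtain ⟨M, hM⟩ := hM
    apply hasSpec_ext hd.continuous mg hM (r := 2)
    · intro ξ hξ
      by_contra h0
      have h1 := (hg ξ h0).1
      have h2 : ‖ξ‖ ≤ ‖ξ - p‖ + ‖p‖ := by
        calc ‖ξ‖ = ‖(ξ - p) + p‖ := by rw [sub_add_cancel]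
          _ ≤ _ := norm_add_le _ _
      linarith
    · intro ξ hξ; exact hg ξ hξ
  obtain ⟨ψ, hψ1, hψ2⟩ := exists_cut (V := W) (WithLp.toLp 2 (x0, t0)) K hK0
  set Mo : ℝ := (2 * (20 * (1 + L + A) / ν + 1) + 3) * (Y / K) ^ 3 * vb with hMo
  have hMo0 : 0 ≤ Mo := by positivity
  have hb := bil_loc_l (F g1) (F g2) _ _ (hsp g1 p1 hp1 mg1 ⟨M1, hM1⟩ hg1)
    (hsp g2 p2 hp2 mg2 ⟨M2, hM2⟩ hg2) ψ (1 / (20 * K)) hψ1 Mo hMo0 (by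
      intro ζ
      refine (overlap_le hL0 hA hd hn hL he hf hef hν hν1 hK hp1 hp2 hp _ _
        (fun ξ hξ => hξ) (fun ξ hξ => hξ) ζ).trans ?_
      rw [hvb0, ← ENNReal.ofReal_mul (by positivity)])
  -- pointwise comparison of the cut-off with the weight
  have hψw : ∀ w : W, ‖ψ w‖ₑ ^ 2 ≤ ENNReal.ofReal (C2 * wt N K x0 t0 (WithLp.ofLp w)) := by
    intro w
    rw [← ofReal_norm, ← ENNReal.ofReal_pow (norm_nonneg _)]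
    apply ENNReal.ofReal_le_ofReal
    rw [hψ2]
    set y : W := K⁻¹ • (w - WithLp.toLp 2 (x0, t0)) with hy
    have hyn : ‖y‖ = ‖w - WithLp.toLp 2 (x0, t0)‖ / K := by
      rw [hy, norm_smul, norm_inv, Real.norm_of_nonneg hK0.le]; ring
    have h1 : 1 + (‖(WithLp.ofLp w).1 - x0‖ + |(WithLp.ofLp w).2 - t0|) / K ≤ 2 * (1 + ‖y‖) := by
      have n1 : ‖(WithLp.ofLp w).1 - x0‖ ≤ ‖w - WithLp.toLp 2 (x0, t0)‖ :=
        norm_fst_le (w - WithLp.toLp 2 (x0, t0))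
      have n2 : |(WithLp.ofLp w).2 - t0| ≤ ‖w - WithLp.toLp 2 (x0, t0)‖ :=
        norm_snd_le (w - WithLp.toLp 2 (x0, t0))
      have n3 : (‖(WithLp.ofLp w).1 - x0‖ + |(WithLp.ofLp w).2 - t0|) / K ≤ 2 * ‖y‖ := by
        rw [hyn, ← mul_div_assoc]
        gcongr
        linarith
      linarith
    have h2 : ‖psi1 (V := W) y‖ ≤ C1 * ((1 + ‖y‖) ^ N)⁻¹ := by
      rw [← div_eq_mul_inv, le_div_iff₀ (by positivity)]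
      exact hdec y
    have h3 : ((1 + ‖y‖) ^ N)⁻¹ ≤ 1 := by
      apply inv_le_one_of_one_le₀
      apply one_le_pow₀
      have := norm_nonneg y
      linarith
    have h4 : ((1 + ‖y‖) ^ N)⁻¹ ≤ 2 ^ N * wt N K x0 t0 (WithLp.ofLp w) := by
      unfold wt
      rw [← div_eq_mul_inv, le_div_iff₀ (by positivity), inv_mul_le_iff₀ (by positivity),
        ← mul_pow]
      have : 0 ≤ 1 + (‖(WithLp.ofLp w).1 - x0‖ + |(WithLp.ofLp w).2 - t0|) / K := by positivity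
      rw [mul_comm (1 + ‖y‖) 2]
      gcongr
    calc ‖psi1 (V := W) y‖ ^ 2 ≤ (C1 * ((1 + ‖y‖) ^ N)⁻¹) ^ 2 := by gcongr
      _ = C1 ^ 2 * (((1 + ‖y‖) ^ N)⁻¹ * ((1 + ‖y‖) ^ N)⁻¹) := by ring
      _ ≤ C1 ^ 2 * (1 * (2 ^ N * wt N K x0 t0 (WithLp.ofLp w))) := by
          gcongr
      _ = C2 * wt N K x0 t0 (WithLp.ofLp w) := by rw [hC2]; ring
  have hmeas : ∀ g : E2 → ℂ, Measurable g → (∃ M, ∀ ξ, ‖g ξ‖ ≤ M) → (∀ ξ : E2, 2 < ‖ξ‖ → g ξ = 0) →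
      Measurable fun p : E2 × ℝ => ext h g p.1 p.2 := by
    intro g mg ⟨M, hM⟩ hg
    have hc : Continuous (F g) :=
      (hasSpec_ext hd.continuous mg hM hg Set.univ fun _ _ => Set.mem_univ _).temp.1.continuous
    have : (fun p : E2 × ℝ => ext h g p.1 p.2) = (F g) ∘ (fun p : E2 × ℝ => (WithLp.toLp 2 p : W)) := rfl
    rw [this]
    exact (hc.comp (by fun_prop)).measurable
  have hsupp : ∀ (g : E2 → ℂ) (p : E2), ‖p‖ ≤ 1 →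
      (∀ ξ, g ξ ≠ 0 → ‖ξ - p‖ ≤ ν / 100 ∧ |inner ℝ (gradient h ξ) f - c| ≤ A / K) →
      ∀ ξ : E2, 2 < ‖ξ‖ → g ξ = 0 := by
    intro g p hp hg ξ hξ
    by_contra h0
    have h1 := (hg ξ h0).1
    have h2 : ‖ξ‖ ≤ ‖ξ - p‖ + ‖p‖ := by
      calc ‖ξ‖ = ‖(ξ - p) + p‖ := by rw [sub_add_cancel]
        _ ≤ _ := norm_add_le _ _
    linarith
  have me1 := hmeas g1 mg1 ⟨M1, hM1⟩ (hsupp g1 p1 hp1 hg1)
  have me2 := hmeas g2 mg2 ⟨M2, hM2⟩ (hsupp g2 p2 hp2 hg2)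
  have hpres := WithLp.volume_preserving_ofLp E2 ℝ
  -- right-hand sides
  have hR : ∀ g : E2 → ℂ, (Measurable fun p : E2 × ℝ => ext h g p.1 p.2) →
      ∫⁻ w : W, ‖F g w‖ₑ ^ 2 * ‖ψ w‖ₑ ^ 2
        ≤ ENNReal.ofReal C2 * ∫⁻ p : E2 × ℝ, ‖ext h g p.1 p.2‖ₑ ^ 2 * ENNReal.ofReal (wt N K x0 t0 p) := by
    intro g mg
    have m0 : Measurable fun p : E2 × ℝ =>
        ‖ext h g p.1 p.2‖ₑ ^ 2 * ENNReal.ofReal (wt N K x0 t0 p) :=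
      (mg.enorm.pow_const 2).mul (measurable_wt N K x0 t0).ennreal_ofReal
    rw [← lintegral_const_mul _ m0, ← hpres.lintegral_comp (m0.const_mul _)]
    refine lintegral_mono fun w => ?_
    calc ‖F g w‖ₑ ^ 2 * ‖ψ w‖ₑ ^ 2
        ≤ ‖F g w‖ₑ ^ 2 * ENNReal.ofReal (C2 * wt N K x0 t0 (WithLp.ofLp w)) := by
          gcongr; exact hψw w
      _ = _ := by
          rw [ENNReal.ofReal_mul hC20.le]
          ring
  -- left-hand side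
  have hLs : ∫⁻ p in {p : E2 × ℝ | ‖p.1 - x0‖ + |p.2 - t0| ≤ K},
        ‖ext h g1 p.1 p.2‖ₑ ^ 2 * ‖ext h g2 p.1 p.2‖ₑ ^ 2
      ≤ ∫⁻ w : W, ‖F g1 w‖ₑ ^ 2 * ‖F g2 w‖ₑ ^ 2 * ‖ψ w‖ₑ ^ 4 := by
    have mS : MeasurableSet {p : E2 × ℝ | ‖p.1 - x0‖ + |p.2 - t0| ≤ K} :=
      (isClosed_le (by fun_prop) continuous_const).measurableSet
    rw [← lintegral_indicator mS]
    have m0 : Measurable ({p : E2 × ℝ | ‖p.1 - x0‖ + |p.2 - t0| ≤ K}.indicator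
        fun p => ‖ext h g1 p.1 p.2‖ₑ ^ 2 * ‖ext h g2 p.1 p.2‖ₑ ^ 2) :=
      ((me1.enorm.pow_const 2).mul (me2.enorm.pow_const 2)).indicator mS
    rw [← hpres.lintegral_comp m0]
    refine lintegral_mono fun w => ?_
    by_cases hw : WithLp.ofLp w ∈ {p : E2 × ℝ | ‖p.1 - x0‖ + |p.2 - t0| ≤ K}
    · rw [Set.indicator_of_mem hw]
      have h1 : 1 ≤ ‖ψ w‖ₑ := by
        rw [hψ2, ← ofReal_norm, ← ENNReal.ofReal_one]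
        apply ENNReal.ofReal_le_ofReal
        apply psi1_lower
        rw [norm_smul, norm_inv, Real.norm_of_nonneg hK0.le, inv_mul_le_iff₀ hK0, mul_one]
        refine (norm_le_add _).trans ?_
        exact hw
      calc ‖ext h g1 (WithLp.ofLp w).1 (WithLp.ofLp w).2‖ₑ ^ 2
            * ‖ext h g2 (WithLp.ofLp w).1 (WithLp.ofLp w).2‖ₑ ^ 2
          = (‖F g1 w‖ₑ ^ 2 * ‖F g2 w‖ₑ ^ 2) * 1 := by rw [mul_one]
        _ ≤ (‖F g1 w‖ₑ ^ 2 * ‖F g2 w‖ₑ ^ 2) * ‖ψ w‖ₑ ^ 4 := by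
            gcongr
            exact one_le_pow₀ h1
    · rw [Set.indicator_of_notMem hw]
      exact bot_le
  calc _ ≤ _ := hLs
    _ ≤ _ := hb
    _ ≤ ENNReal.ofReal Mo
        * (ENNReal.ofReal C2 * ∫⁻ p : E2 × ℝ, ‖ext h g1 p.1 p.2‖ₑ ^ 2 * ENNReal.ofReal (wt N K x0 t0 p))
        * (ENNReal.ofReal C2 * ∫⁻ p : E2 × ℝ, ‖ext h g2 p.1 p.2‖ₑ ^ 2 * ENNReal.ofReal (wt N K x0 t0 p)) := by
        gcongr
        · exact hR g1 me1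
        · exact hR g2 me2
    _ = ENNReal.ofReal (Mo * C2 * C2)
        * (∫⁻ p : E2 × ℝ, ‖ext h g1 p.1 p.2‖ₑ ^ 2 * ENNReal.ofReal (wt N K x0 t0 p))
        * ∫⁻ p : E2 × ℝ, ‖ext h g2 p.1 p.2‖ₑ ^ 2 * ENNReal.ofReal (wt N K x0 t0 p) := by
        rw [ENNReal.ofReal_mul (p := Mo * C2) (by positivity), ENNReal.ofReal_mul (p := Mo) hMo0]
        ring
    _ ≤ _ := by
        have e1 : 2 * (20 * (1 + L + A) / ν + 1) + 3 ≤ (40 * (1 + L + A) + 5) * ν⁻¹ := by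
          have : 1 ≤ ν⁻¹ := (one_le_inv₀ hν).2 hν1
          have e2 : 20 * (1 + L + A) / ν = 20 * (1 + L + A) * ν⁻¹ := by rw [div_eq_mul_inv]
          rw [e2]
          nlinarith
        have e3 : Mo * C2 * C2
            ≤ ((40 * (1 + L + A) + 5) * Y ^ 3 * vb * C2 ^ 2 + 1) * ν⁻¹ * (K ^ 3)⁻¹ := by
          calc Mo * C2 * C2
              ≤ ((40 * (1 + L + A) + 5) * ν⁻¹) * (Y / K) ^ 3 * vb * C2 * C2 := by
                rw [hMo]; gcongr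
            _ = ((40 * (1 + L + A) + 5) * Y ^ 3 * vb * C2 ^ 2) * ν⁻¹ * (K ^ 3)⁻¹ := by
                rw [div_pow]; field_simp
            _ ≤ _ := by
                gcongr
                linarith
        gcongr

end Crest.Agent.R138.Bil882
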