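import Crest.Agent.R138.Bil3_882

set_option autoImplicit false

open MeasureTheory SchwartzMap FourierTransform
open scoped FourierTransform SchwartzMap ENNReal Convolution

namespace Crest.Agent.R138.Bil882

variable {V : Type*} [NormedAddCommGroup V] [InnerProductSpace ℝ V] [FiniteDimensional ℝ V]
  [MeasurableSpace V] [BorelSpace V]

/-- `F` is tempered and `F ψ` has its spectrum in `A + S` as soon as the spectrum of `ψ` is in `S`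
(for every set `S`). -/
structure HasSpecS (F : V → ℂ) (A : Set V) : Prop where
  temp : F.HasTemperateGrowth
  spec : ∀ (S : Set V) (ψ : 𝓢(V, ℂ)), (∀ ζ, 𝓕 ψ ζ ≠ 0 → ζ ∈ S) →
    ∀ ζ, 𝓕 (smulLeftCLM ℂ F ψ) ζ ≠ 0 → ∃ a ∈ A, ζ - a ∈ S

theorem HasSpecS.hasSpec {F : V → ℂ} {A : Set V} (h : HasSpecS F A) : HasSpec F A :=
  ⟨h.temp, fun ρ ψ hψ ζ hζ => h.spec {ω | ‖ω‖ ≤ ρ} ψ hψ ζ hζ⟩

theorem hasSpecS_wave (μ : Measure V) [IsFiniteMeasure μ] (g : V → ℂ) (hg : Integrable g μ)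
    (R : ℝ) (hR : ∀ ξ, g ξ ≠ 0 → ‖ξ‖ ≤ R) (A : Set V) (hA : ∀ ξ, g ξ ≠ 0 → ξ ∈ A) :
    HasSpecS (wave μ g) A := by
  refine ⟨wave_temperate μ g hg R hR, fun S ψ hψ ζ hζ => ?_⟩
  by_contra hcon
  push Not at hcon
  apply hζ
  rw [fourier_loc_wave μ g hg R hR ψ ζ, ← integral_zero V ℂ (μ := μ)]
  congr 1
  ext ξ
  by_cases h : g ξ = 0
  · simp [h]
  · have h1 := hcon ξ (hA ξ h)
    have h2 : 𝓕 ψ (ζ - ξ) = 0 := by
      by_contra h3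
      exact h1 (hψ _ h3)
    rw [h2, mul_zero]

theorem HasSpecS.mono {F : V → ℂ} {A B : Set V} (h : HasSpecS F A) (hAB : A ⊆ B) :
    HasSpecS F B :=
  ⟨h.temp, fun S ψ hψ ζ hζ => by
    obtain ⟨a, ha, h1⟩ := h.spec S ψ hψ ζ hζ
    exact ⟨a, hAB ha, h1⟩⟩

theorem HasSpecS.sum {ι : Type*} (s : Finset ι) (F : ι → V → ℂ) (A : ι → Set V)
    (hF : ∀ i ∈ s, HasSpecS (F i) (A i)) :
    HasSpecS (fun x => ∑ i ∈ s, F i x) {a | ∃ i ∈ s, a ∈ A i} := by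
  have ht : (fun x => ∑ i ∈ s, F i x).HasTemperateGrowth :=
    Function.HasTemperateGrowth.sum fun i hi => (hF i hi).temp
  refine ⟨ht, fun S ψ hψ ζ hζ => ?_⟩
  have e : smulLeftCLM ℂ (fun x => ∑ i ∈ s, F i x) ψ = ∑ i ∈ s, smulLeftCLM ℂ (F i) ψ := by
    ext x
    rw [smulLeftCLM_apply_apply ht, sum_apply, smul_eq_mul, Finset.sum_mul]
    refine Finset.sum_congr rfl fun i hi => ?_
    rw [smulLeftCLM_apply_apply (hF i hi).temp, smul_eq_mul]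
  have e2 : 𝓕 (smulLeftCLM ℂ (fun x => ∑ i ∈ s, F i x) ψ) ζ
      = ∑ i ∈ s, 𝓕 (smulLeftCLM ℂ (F i) ψ) ζ := by
    rw [e]
    have := map_sum (fourierCLM ℂ 𝓢(V, ℂ)) (fun i => smulLeftCLM ℂ (F i) ψ) s
    have h2 : 𝓕 (∑ i ∈ s, smulLeftCLM ℂ (F i) ψ) = ∑ i ∈ s, 𝓕 (smulLeftCLM ℂ (F i) ψ) := this
    rw [h2, sum_apply]
  rw [e2] at hζ
  obtain ⟨i, hi, hi2⟩ := Finset.exists_ne_zero_of_sum_ne_zero hζ
  obtain ⟨a, ha, ha2⟩ := (hF i hi).spec S ψ hψ ζ hi2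
  exact ⟨a, ⟨i, hi, ha⟩, ha2⟩

/-- LOCAL ORTHOGONALITY, general spectral set -/
theorem ort_S {ι : Type*} (s : Finset ι) (F : ι → V → ℂ) (A : ι → Set V)
    (hF : ∀ i ∈ s, HasSpecS (F i) (A i)) (ψ : 𝓢(V, ℂ)) (S : Set V)
    (hψ : ∀ ζ, 𝓕 ψ ζ ≠ 0 → ζ ∈ S) (N : ℕ)
    (hN : ∀ ζ : V, ∀ t ⊆ s, (∀ i ∈ t, ∃ a ∈ A i, ζ - a ∈ S) → t.card ≤ N) :
    ∫ x, ‖∑ i ∈ s, F i x‖ ^ 2 * ‖ψ x‖ ^ 2
      ≤ N * ∑ i ∈ s, ∫ x, ‖F i x‖ ^ 2 * ‖ψ x‖ ^ 2 := by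
  classical
  have h := ort_sq s (fun i => smulLeftCLM ℂ (F i) ψ) N (by
    intro ζ
    refine hN ζ _ (Finset.filter_subset _ _) ?_
    intro i hi
    rw [Finset.mem_filter] at hi
    exact (hF i hi.1).spec S ψ hψ ζ hi.2)
  have e : ∀ i ∈ s, ∀ x, smulLeftCLM ℂ (F i) ψ x = F i x * ψ x := by
    intro i hi x
    rw [smulLeftCLM_apply_apply (hF i hi).temp]; rfl
  have e1 : ∀ x, ∑ i ∈ s, smulLeftCLM ℂ (F i) ψ x = (∑ i ∈ s, F i x) * ψ x := by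
    intro x
    rw [Finset.sum_mul]
    exact Finset.sum_congr rfl fun i hi => e i hi x
  have e2 : ∑ i ∈ s, ∫ x, ‖smulLeftCLM ℂ (F i) ψ x‖ ^ 2
      = ∑ i ∈ s, ∫ x, ‖F i x‖ ^ 2 * ‖ψ x‖ ^ 2 := by
    refine Finset.sum_congr rfl fun i hi => ?_
    simp_rw [e i hi, norm_mul, mul_pow]
  rw [e2] at h
  simp_rw [e1, norm_mul, mul_pow] at h
  exact h

/-- LOCAL BILINEAR ESTIMATE, two different cut-offs, general spectral sets -/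
theorem bil_S (F1 F2 : V → ℂ) (A1 A2 : Set V) (h1 : HasSpecS F1 A1) (h2 : HasSpecS F2 A2)
    (ψ1 ψ2 : 𝓢(V, ℂ)) (S1 S2 : Set V) (hψ1 : ∀ ζ, 𝓕 ψ1 ζ ≠ 0 → ζ ∈ S1)
    (hψ2 : ∀ ζ, 𝓕 ψ2 ζ ≠ 0 → ζ ∈ S2) (M : ℝ) (hM0 : 0 ≤ M)
    (hM : ∀ ζ : V, volume {ω : V | (∃ a ∈ A1, ω - a ∈ S1) ∧ ∃ a ∈ A2, ζ - ω - a ∈ S2}
      ≤ ENNReal.ofReal M) :
    ∫ x, ‖F1 x * F2 x‖ ^ 2 * (‖ψ1 x‖ ^ 2 * ‖ψ2 x‖ ^ 2)
      ≤ M * (∫ x, ‖F1 x‖ ^ 2 * ‖ψ1 x‖ ^ 2) * ∫ x, ‖F2 x‖ ^ 2 * ‖ψ2 x‖ ^ 2 := by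
  have h := bil (smulLeftCLM ℂ F1 ψ1) (smulLeftCLM ℂ F2 ψ2) M hM0 (by
    intro ζ
    refine (measure_mono ?_).trans (hM ζ)
    intro ω hω
    exact ⟨h1.spec S1 ψ1 hψ1 _ hω.1, h2.spec S2 ψ2 hψ2 _ hω.2⟩)
  have e : ∀ (F : V → ℂ) (ψ : 𝓢(V, ℂ)), F.HasTemperateGrowth →
      ∀ x, smulLeftCLM ℂ F ψ x = F x * ψ x := by
    intro F ψ hF x
    rw [smulLeftCLM_apply_apply hF]; rfl
  simp_rw [e F1 ψ1 h1.temp, e F2 ψ2 h2.temp] at h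
  convert h using 2
  · congr 1; ext x
    simp only [norm_mul, mul_pow]; ring
  · congr 2; ext x
    simp only [norm_mul, mul_pow]
  · congr 1; ext x
    simp only [norm_mul, mul_pow]

/-- LOCAL BIORTHOGONALITY (Córdoba–Fefferman), general spectral set -/
theorem bio_S {ι : Type*} (s : Finset ι) (F : ι → V → ℂ) (A : ι → Set V)
    (hF : ∀ i ∈ s, HasSpecS (F i) (A i)) (ψ : 𝓢(V, ℂ)) (S : Set V)
    (hψ : ∀ ζ, 𝓕 ψ ζ ≠ 0 → ζ ∈ S) (N : ℕ)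
    (hN : ∀ ζ : V, ∀ t : Finset (ι × ι), t ⊆ s ×ˢ s →
      (∀ p ∈ t, ∃ a ∈ A p.1, ∃ b ∈ A p.2, ∃ u ∈ S, ∃ v ∈ S, ζ = a + b + u + v) →
      t.card ≤ N) :
    ∫ x, ‖∑ i ∈ s, F i x‖ ^ 4 * ‖ψ x‖ ^ 4
      ≤ N * ∫ x, (∑ i ∈ s, ‖F i x‖ ^ 2) ^ 2 * ‖ψ x‖ ^ 4 := by
  classical
  have h := bio s (fun i => smulLeftCLM ℂ (F i) ψ) N (by
    intro ζ
    refine hN ζ _ (Finset.filter_subset _ _) ?_
    intro p hp
    rw [Finset.mem_filter, Finset.mem_product] at hp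
    obtain ⟨⟨hp1, hp2⟩, ω, hω1, hω2⟩ := hp
    obtain ⟨a, ha, ha1⟩ := (hF _ hp1).spec S ψ hψ _ hω1
    obtain ⟨b, hb, hb1⟩ := (hF _ hp2).spec S ψ hψ _ hω2
    exact ⟨a, ha, b, hb, _, ha1, _, hb1, by abel⟩)
  have e : ∀ i ∈ s, ∀ x, smulLeftCLM ℂ (F i) ψ x = F i x * ψ x := by
    intro i hi x
    rw [smulLeftCLM_apply_apply (hF i hi).temp]; rfl
  have e1 : ∀ x, ∑ i ∈ s, smulLeftCLM ℂ (F i) ψ x = (∑ i ∈ s, F i x) * ψ x := by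
    intro x
    rw [Finset.sum_mul]
    exact Finset.sum_congr rfl fun i hi => e i hi x
  have e2 : ∀ x, ∑ i ∈ s, ‖smulLeftCLM ℂ (F i) ψ x‖ ^ 2 = (∑ i ∈ s, ‖F i x‖ ^ 2) * ‖ψ x‖ ^ 2 := by
    intro x
    rw [Finset.sum_mul]
    refine Finset.sum_congr rfl fun i hi => ?_
    rw [e i hi x, norm_mul, mul_pow]
  simp_rw [e1, e2, norm_mul, mul_pow, ← pow_mul] at h
  exact h

theorem psi1_spec {ζ : V} (h : 𝓕 (psi1 (V := V)) ζ ≠ 0) : ‖ζ‖ ≤ 1 / 20 := by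
  have e : 𝓕 (psi1 (V := V)) = ((2 / ∫ ζ : V, (eta V ζ : ℝ) : ℝ) : ℂ) • (etaS (V := V)) := by
    unfold psi1
    have h1 : 𝓕 (((2 / ∫ ζ : V, (eta V ζ : ℝ) : ℝ) : ℂ) • 𝓕⁻ (etaS (V := V)))
        = ((2 / ∫ ζ : V, (eta V ζ : ℝ) : ℝ) : ℂ) • 𝓕 (𝓕⁻ (etaS (V := V))) :=
      map_smul (fourierCLM ℂ 𝓢(V, ℂ)) _ _
    rw [h1]; simp
  rw [e] at h
  apply etaS_ne_zero (V := V)
  intro h2
  apply h
  rw [smul_apply, h2, smul_zero]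

/-- change of variables for the Fourier transform. -/
theorem fourier_comp_affine (z0 : V) (T : V ≃L[ℝ] V) (f : V → ℂ) (ζ : V) :
    𝓕 (fun x => f (T.symm (x - z0))) ζ
      = (|LinearMap.det ((T : V →L[ℝ] V) : V →ₗ[ℝ] V)| : ℝ) •
        (Real.fourierChar (-inner ℝ z0 ζ) • 𝓕 f (ContinuousLinearMap.adjoint (T : V →L[ℝ] V) ζ)) := by
  have hdet : LinearMap.det ((T : V →L[ℝ] V) : V →ₗ[ℝ] V) ≠ 0 := by
    have := (T.toLinearEquiv).isUnit_det'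
    exact this.ne_zero
  have hmap := Measure.map_linearMap_addHaar_eq_smul_addHaar (volume : Measure V) hdet
  rw [Real.fourier_eq, Real.fourier_eq]
  have e1 : ∫ v, Real.fourierChar (-inner ℝ v ζ) • f (T.symm (v - z0))
      = ∫ v, Real.fourierChar (-inner ℝ (v + z0) ζ) • f (T.symm v) := by
    rw [← integral_add_right_eq_self (fun v => Real.fourierChar (-inner ℝ v ζ) • f (T.symm (v - z0))) z0]
    simp
  have e2 : ∫ y, Real.fourierChar (-inner ℝ (T y + z0) ζ) • f (T.symm (T y))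
      = (|LinearMap.det ((T : V →L[ℝ] V) : V →ₗ[ℝ] V)|⁻¹ : ℝ) •
        ∫ v, Real.fourierChar (-inner ℝ (v + z0) ζ) • f (T.symm v) := by
    have h1 := T.toHomeomorph.measurableEmbedding.integral_map (μ := volume)
      (fun v => Real.fourierChar (-inner ℝ (v + z0) ζ) • f (T.symm v))
    have h2 : Measure.map (T.toHomeomorph) (volume : Measure V)
        = ENNReal.ofReal |(LinearMap.det ((T : V →L[ℝ] V) : V →ₗ[ℝ] V))⁻¹| • volume := hmap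
    rw [h2, integral_smul_measure] at h1
    rw [ENNReal.toReal_ofReal (abs_nonneg _), abs_inv] at h1
    exact h1.symm
  rw [e1]
  have e3 : ∫ v, Real.fourierChar (-inner ℝ (v + z0) ζ) • f (T.symm v)
      = (|LinearMap.det ((T : V →L[ℝ] V) : V →ₗ[ℝ] V)| : ℝ) •
        ∫ y, Real.fourierChar (-inner ℝ (T y + z0) ζ) • f (T.symm (T y)) := by
    rw [e2, smul_smul, mul_inv_cancel₀ (abs_ne_zero.2 hdet), one_smul]
  rw [e3]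
  congr 1
  simp only [Circle.smul_def, smul_eq_mul]
  rw [← integral_const_mul]
  refine integral_congr_ae (Filter.Eventually.of_forall fun y => ?_)
  simp only [ContinuousLinearEquiv.symm_apply_apply]
  rw [← mul_assoc]
  congr 1
  rw [← Circle.coe_mul, ← AddChar.map_add_eq_mul]
  congr 2
  rw [ContinuousLinearMap.adjoint_inner_right, inner_add_left]
  simp

/-- the cut-off adapted to the ellipsoid `z0 + T (unit ball)`: spectrum in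
`{ζ | ‖Tᵗ ζ‖ ≤ 1/20}`. -/
theorem exists_cutT (z0 : V) (T : V ≃L[ℝ] V) : ∃ ψ : 𝓢(V, ℂ),
    (∀ ζ, 𝓕 ψ ζ ≠ 0 → ‖ContinuousLinearMap.adjoint (T : V →L[ℝ] V) ζ‖ ≤ 1 / 20) ∧
      ∀ x, ψ x = psi1 (V := V) (T.symm (x - z0)) := by
  let L : V → V := fun x => T.symm (x - z0)
  have hL : L.HasTemperateGrowth := by
    have h1 : L = fun x => (T.symm : V →L[ℝ] V) x - T.symm z0 := by
      ext x; simp [L, map_sub]
    rw [h1]
    exact ((T.symm : V →L[ℝ] V).hasTemperateGrowth).sub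
      (Function.HasTemperateGrowth.const _)
  have hL2 : AntilipschitzWith ‖(T : V →L[ℝ] V)‖₊ L := by
    have h2 : AntilipschitzWith ‖(T : V →L[ℝ] V)‖₊ T.symm := by
      have := T.symm.antilipschitz
      simpa using this
    intro x y
    have h3 := h2 (x - z0) (y - z0)
    simpa [L, edist_sub_right] using h3
  refine ⟨compCLMOfAntilipschitz ℂ hL hL2 psi1, fun ζ hζ => ?_, fun x => rfl⟩
  have h4 : 𝓕 (compCLMOfAntilipschitz ℂ hL hL2 psi1) ζ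
      = 𝓕 (fun x => psi1 (V := V) (T.symm (x - z0))) ζ := by
    rw [fourier_coe]; rfl
  rw [h4, fourier_comp_affine z0 T (psi1 (V := V)) ζ] at hζ
  apply psi1_spec
  intro h5
  apply hζ
  rw [fourier_coe] at h5
  rw [h5, smul_zero, smul_zero]

end Crest.Agent.R138.Bil882
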