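import Mathlib

set_option autoImplicit false

open MeasureTheory SchwartzMap FourierTransform
open scoped FourierTransform SchwartzMap ENNReal Convolution

namespace Crest.Agent.R138.Bil882

variable {V : Type*} [NormedAddCommGroup V] [InnerProductSpace ℝ V] [FiniteDimensional ℝ V]
  [MeasurableSpace V] [BorelSpace V]

/-- Cauchy–Schwarz for finite sums with few non-zero terms. -/
theorem norm_sum_sq_le {ι : Type*} (s : Finset ι) (a : ι → ℂ) (N : ℕ)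
    (hN : (s.filter fun i => a i ≠ 0).card ≤ N) :
    ‖∑ i ∈ s, a i‖ ^ 2 ≤ N * ∑ i ∈ s, ‖a i‖ ^ 2 := by
  classical
  have h1 : ∑ i ∈ s, a i = ∑ i ∈ s.filter (fun i => a i ≠ 0), a i := by
    rw [Finset.sum_filter_ne_zero]
  calc ‖∑ i ∈ s, a i‖ ^ 2 ≤ (∑ i ∈ s.filter (fun i => a i ≠ 0), ‖a i‖) ^ 2 := by
        rw [h1]; gcongr; exact norm_sum_le _ _
    _ ≤ (s.filter (fun i => a i ≠ 0)).card * ∑ i ∈ s.filter (fun i => a i ≠ 0), ‖a i‖ ^ 2 :=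
        sq_sum_le_card_mul_sum_sq
    _ ≤ N * ∑ i ∈ s, ‖a i‖ ^ 2 := by
        gcongr
        exact Finset.filter_subset _ _

theorem integrable_norm_sq (F : 𝓢(V, ℂ)) : Integrable fun x => ‖F x‖ ^ 2 := by
  have h := (F.memLp 2 volume).integrable_norm_pow (by norm_num)
  simpa using h

/-- local orthogonality: at most `N` of the spectra meet at each point. -/
theorem ort_sq {ι : Type*} (s : Finset ι) (F : ι → 𝓢(V, ℂ)) (N : ℕ)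
    (hN : ∀ ζ : V, (s.filter fun i => 𝓕 (F i) ζ ≠ 0).card ≤ N) :
    ∫ x, ‖∑ i ∈ s, F i x‖ ^ 2 ≤ N * ∑ i ∈ s, ∫ x, ‖F i x‖ ^ 2 := by
  classical
  have e1 : ∀ x, (∑ i ∈ s, F i x) = (∑ i ∈ s, F i) x := by
    intro x; rw [sum_apply]
  have e2 : 𝓕 (∑ i ∈ s, F i) = ∑ i ∈ s, 𝓕 (F i) := by
    have := map_sum (fourierCLM ℂ 𝓢(V, ℂ)) F s
    exact this
  calc ∫ x, ‖∑ i ∈ s, F i x‖ ^ 2 = ∫ x, ‖(∑ i ∈ s, F i) x‖ ^ 2 := by simp_rw [e1]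
    _ = ∫ ζ, ‖𝓕 (∑ i ∈ s, F i) ζ‖ ^ 2 := (integral_norm_sq_fourier _).symm
    _ = ∫ ζ, ‖∑ i ∈ s, 𝓕 (F i) ζ‖ ^ 2 := by
        rw [e2]; simp_rw [sum_apply]
    _ ≤ ∫ ζ, N * ∑ i ∈ s, ‖𝓕 (F i) ζ‖ ^ 2 := by
        refine integral_mono_of_nonneg (Filter.Eventually.of_forall fun _ => by positivity) ?_
          (Filter.Eventually.of_forall fun ζ => norm_sum_sq_le s _ N (hN ζ))
        exact (integrable_finsetSum _ fun i _ => integrable_norm_sq _).const_mul _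
    _ = N * ∑ i ∈ s, ∫ ζ, ‖𝓕 (F i) ζ‖ ^ 2 := by
        rw [integral_const_mul, integral_finsetSum _ fun i _ => integrable_norm_sq _]
    _ = N * ∑ i ∈ s, ∫ x, ‖F i x‖ ^ 2 := by simp_rw [integral_norm_sq_fourier]

/-- `(∫ f)^2 ≤ μ(S) ∫ f^2` for `f` vanishing outside `S`. -/
theorem lintegral_sq_le {α : Type*} [MeasurableSpace α] (μ : Measure α) (f : α → ℝ≥0∞)
    (hf : AEMeasurable f μ) (S : Set α) (hS : MeasurableSet S) (h0 : ∀ x, x ∉ S → f x = 0) :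
    (∫⁻ x, f x ∂μ) ^ 2 ≤ μ S * ∫⁻ x, f x ^ 2 ∂μ := by
  have h1 : ∫⁻ x, f x ∂μ = ∫⁻ x, (S.indicator (fun _ => (1 : ℝ≥0∞)) * f) x ∂μ := by
    refine lintegral_congr fun x => ?_
    by_cases hx : x ∈ S
    · simp [hx]
    · simp [hx, h0 x hx]
  have h2 := ENNReal.lintegral_mul_le_Lp_mul_Lq μ (Real.HolderConjugate.two_two)
    (f := S.indicator (fun _ => (1 : ℝ≥0∞))) (g := f)
    ((measurable_const.indicator hS).aemeasurable) hf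
  have h3 : ∫⁻ x, (S.indicator (fun _ => (1 : ℝ≥0∞)) x) ^ (2 : ℝ) ∂μ = μ S := by
    have : ∀ x, (S.indicator (fun _ => (1 : ℝ≥0∞)) x) ^ (2 : ℝ)
        = S.indicator (fun _ => (1 : ℝ≥0∞)) x := by
      intro x
      by_cases hx : x ∈ S <;> simp [hx]
    simp_rw [this]
    rw [lintegral_indicator_const hS]; simp
  rw [h3] at h2
  rw [h1]
  calc (∫⁻ x, (S.indicator (fun _ => (1 : ℝ≥0∞)) * f) x ∂μ) ^ 2
      ≤ (μ S ^ (1 / (2 : ℝ)) * (∫⁻ x, f x ^ (2 : ℝ) ∂μ) ^ (1 / (2 : ℝ))) ^ 2 := by gcongr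
    _ = μ S * ∫⁻ x, f x ^ 2 ∂μ := by
        rw [mul_pow]
        have e : ∀ y : ℝ≥0∞, (y ^ (1 / (2 : ℝ))) ^ 2 = y := by
          intro y
          rw [← ENNReal.rpow_natCast, ← ENNReal.rpow_mul]
          norm_num
        rw [e, e]
        simp

theorem ofReal_int_sq (F : V → ℂ) (hF : Integrable fun x => ‖F x‖ ^ 2) :
    ENNReal.ofReal (∫ x, ‖F x‖ ^ 2) = ∫⁻ x, ‖F x‖ₑ ^ 2 := by
  rw [ofReal_integral_eq_lintegral_ofReal hF (Filter.Eventually.of_forall fun _ => by positivity)]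
  refine lintegral_congr fun x => ?_
  rw [ENNReal.ofReal_pow (norm_nonneg _), ofReal_norm]

/-- the `L²` bound for a convolution with a bound for the overlap measure. -/
theorem conv_sq (k1 k2 : 𝓢(V, ℂ)) (M : ℝ) (hM0 : 0 ≤ M)
    (hM : ∀ ζ : V, volume {ω : V | k1 ω ≠ 0 ∧ k2 (ζ - ω) ≠ 0} ≤ ENNReal.ofReal M) :
    ∫ ζ, ‖(k1 ⋆[ContinuousLinearMap.mul ℂ ℂ] k2) ζ‖ ^ 2
      ≤ M * (∫ x, ‖k1 x‖ ^ 2) * ∫ x, ‖k2 x‖ ^ 2 := by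
  have hc : ∀ ζ, (k1 ⋆[ContinuousLinearMap.mul ℂ ℂ] k2) ζ
      = SchwartzMap.convolution (ContinuousLinearMap.mul ℂ ℂ) k1 k2 ζ := fun ζ =>
    (convolution_apply _ _ _ ζ).symm
  have hI : Integrable fun ζ => ‖(k1 ⋆[ContinuousLinearMap.mul ℂ ℂ] k2) ζ‖ ^ 2 := by
    simp_rw [hc]; exact integrable_norm_sq _
  have key : ∫⁻ ζ, ‖(k1 ⋆[ContinuousLinearMap.mul ℂ ℂ] k2) ζ‖ₑ ^ 2
      ≤ ENNReal.ofReal M * (∫⁻ x, ‖k1 x‖ₑ ^ 2) * ∫⁻ x, ‖k2 x‖ₑ ^ 2 := by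
    have m1 : Measurable fun x => ‖k1 x‖ₑ := k1.continuous.measurable.enorm
    have m2 : Measurable fun x => ‖k2 x‖ₑ := k2.continuous.measurable.enorm
    have step : ∀ ζ, ‖(k1 ⋆[ContinuousLinearMap.mul ℂ ℂ] k2) ζ‖ₑ ^ 2
        ≤ ENNReal.ofReal M * ∫⁻ ω, ‖k1 ω‖ₑ ^ 2 * ‖k2 (ζ - ω)‖ₑ ^ 2 := by
      intro ζ
      have a1 : ‖(k1 ⋆[ContinuousLinearMap.mul ℂ ℂ] k2) ζ‖ₑ
          ≤ ∫⁻ ω, ‖k1 ω‖ₑ * ‖k2 (ζ - ω)‖ₑ := by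
        rw [convolution_def]
        refine (enorm_integral_le_lintegral_enorm _).trans (le_of_eq ?_)
        refine lintegral_congr fun ω => ?_
        simp [enorm_mul]
      have hS : MeasurableSet {ω : V | k1 ω ≠ 0 ∧ k2 (ζ - ω) ≠ 0} := by
        apply MeasurableSet.inter
        · exact (isOpen_ne_fun k1.continuous continuous_const).measurableSet
        · exact (isOpen_ne_fun (k2.continuous.comp (continuous_const.sub continuous_id))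
            continuous_const).measurableSet
      have mm : Measurable fun ω => ‖k1 ω‖ₑ * ‖k2 (ζ - ω)‖ₑ :=
        m1.mul (m2.comp (measurable_const.sub measurable_id))
      calc ‖(k1 ⋆[ContinuousLinearMap.mul ℂ ℂ] k2) ζ‖ₑ ^ 2
          ≤ (∫⁻ ω, ‖k1 ω‖ₑ * ‖k2 (ζ - ω)‖ₑ) ^ 2 := by gcongr
        _ ≤ volume {ω : V | k1 ω ≠ 0 ∧ k2 (ζ - ω) ≠ 0}
              * ∫⁻ ω, (‖k1 ω‖ₑ * ‖k2 (ζ - ω)‖ₑ) ^ 2 := by
            refine lintegral_sq_le volume _ mm.aemeasurable _ hS ?_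
            intro ω hω
            simp only [Set.mem_ofPred_eq, not_and_or, not_not] at hω
            rcases hω with h | h <;> simp [h]
        _ ≤ ENNReal.ofReal M * ∫⁻ ω, ‖k1 ω‖ₑ ^ 2 * ‖k2 (ζ - ω)‖ₑ ^ 2 := by
            gcongr
            · exact hM ζ
            · rw [mul_pow]
    calc ∫⁻ ζ, ‖(k1 ⋆[ContinuousLinearMap.mul ℂ ℂ] k2) ζ‖ₑ ^ 2
        ≤ ∫⁻ ζ, ENNReal.ofReal M * ∫⁻ ω, ‖k1 ω‖ₑ ^ 2 * ‖k2 (ζ - ω)‖ₑ ^ 2 :=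
          lintegral_mono step
      _ = ENNReal.ofReal M * ∫⁻ ζ, ∫⁻ ω, ‖k1 ω‖ₑ ^ 2 * ‖k2 (ζ - ω)‖ₑ ^ 2 := by
          rw [lintegral_const_mul' _ _ ENNReal.ofReal_ne_top]
      _ = ENNReal.ofReal M * ∫⁻ ω, ∫⁻ ζ, ‖k1 ω‖ₑ ^ 2 * ‖k2 (ζ - ω)‖ₑ ^ 2 := by
          rw [lintegral_lintegral_swap]
          exact (((m1.pow_const 2).comp measurable_snd).mul
            ((m2.pow_const 2).comp (measurable_fst.sub measurable_snd))).aemeasurable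
      _ = ENNReal.ofReal M * ∫⁻ ω, ‖k1 ω‖ₑ ^ 2 * ∫⁻ x, ‖k2 x‖ₑ ^ 2 := by
          congr 1
          refine lintegral_congr fun ω => ?_
          rw [lintegral_const_mul' _ _ (by simp)]
          congr 1
          exact lintegral_sub_right_eq_self (fun x => ‖k2 x‖ₑ ^ 2) ω
      _ = ENNReal.ofReal M * (∫⁻ x, ‖k1 x‖ₑ ^ 2) * ∫⁻ x, ‖k2 x‖ₑ ^ 2 := by
          rw [lintegral_mul_const _ (m1.pow_const 2), mul_assoc]
  rw [← ofReal_int_sq _ hI, ← ofReal_int_sq _ (integrable_norm_sq k1),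
    ← ofReal_int_sq _ (integrable_norm_sq k2), ← ENNReal.ofReal_mul hM0,
    ← ENNReal.ofReal_mul (by positivity)] at key
  exact (ENNReal.ofReal_le_ofReal_iff (by positivity)).1 key

/-- the pointwise product of two Schwartz functions. -/
noncomputable def mulS (F G : 𝓢(V, ℂ)) : 𝓢(V, ℂ) := pairing (ContinuousLinearMap.mul ℂ ℂ) F G

@[simp] theorem mulS_apply (F G : 𝓢(V, ℂ)) (x : V) : mulS F G x = F x * G x := rfl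

theorem fourierInv_apply_neg (F : 𝓢(V, ℂ)) (ζ : V) : 𝓕⁻ F ζ = 𝓕 F (-ζ) := by
  rw [fourierInv_coe, fourier_coe, Real.fourierInv_eq_fourier_neg]

/-- the spectrum of a product -/
theorem fourier_mulS (F G : 𝓢(V, ℂ)) (ζ : V) :
    𝓕 (mulS F G) ζ = ((𝓕⁻ F : 𝓢(V, ℂ)) ⋆[ContinuousLinearMap.mul ℂ ℂ] (𝓕⁻ G : 𝓢(V, ℂ))) (-ζ) := by
  have h1 : 𝓕 (SchwartzMap.convolution (ContinuousLinearMap.mul ℂ ℂ) (𝓕⁻ F : 𝓢(V, ℂ))
      (𝓕⁻ G : 𝓢(V, ℂ))) = mulS F G := by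
    rw [fourier_convolution]; simp [mulS]
  have h2 : 𝓕⁻ (mulS F G) = SchwartzMap.convolution (ContinuousLinearMap.mul ℂ ℂ)
      (𝓕⁻ F : 𝓢(V, ℂ)) (𝓕⁻ G : 𝓢(V, ℂ)) := by
    rw [← h1]; simp
  have h3 : 𝓕 (mulS F G) ζ = 𝓕⁻ (mulS F G) (-ζ) := by rw [fourierInv_apply_neg, neg_neg]
  rw [h3, h2, convolution_apply]

/-- BILINEAR ESTIMATE, spectral form. -/
theorem bil (F1 F2 : 𝓢(V, ℂ)) (M : ℝ) (hM0 : 0 ≤ M)
    (hM : ∀ ζ : V, volume {ω : V | 𝓕 F1 ω ≠ 0 ∧ 𝓕 F2 (ζ - ω) ≠ 0} ≤ ENNReal.ofReal M) :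
    ∫ x, ‖F1 x * F2 x‖ ^ 2 ≤ M * (∫ x, ‖F1 x‖ ^ 2) * ∫ x, ‖F2 x‖ ^ 2 := by
  have e0 : ∀ F : 𝓢(V, ℂ), ∫ x, ‖(𝓕⁻ F : 𝓢(V, ℂ)) x‖ ^ 2 = ∫ x, ‖F x‖ ^ 2 := by
    intro F
    have := integral_norm_sq_fourier (𝓕⁻ F : 𝓢(V, ℂ))
    rw [← this]; simp
  have h := conv_sq (𝓕⁻ F1 : 𝓢(V, ℂ)) (𝓕⁻ F2 : 𝓢(V, ℂ)) M hM0 (by
    intro ζ
    have hpre : {ω : V | (𝓕⁻ F1 : 𝓢(V, ℂ)) ω ≠ 0 ∧ (𝓕⁻ F2 : 𝓢(V, ℂ)) (ζ - ω) ≠ 0}
        = (fun ω => -ω) ⁻¹' {ω : V | 𝓕 F1 ω ≠ 0 ∧ 𝓕 F2 (-ζ - ω) ≠ 0} := by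
      ext ω
      simp only [Set.mem_ofPred_eq, Set.mem_preimage, fourierInv_apply_neg]
      rw [show -(ζ - ω) = -ζ - -ω by abel]
    rw [hpre, Measure.measure_preimage_neg]
    exact hM (-ζ))
  rw [e0, e0] at h
  refine le_trans (le_of_eq ?_) h
  have e1 : ∫ x, ‖F1 x * F2 x‖ ^ 2 = ∫ x, ‖mulS F1 F2 x‖ ^ 2 := rfl
  rw [e1, ← integral_norm_sq_fourier]
  rw [← integral_neg_eq_self (fun ζ =>
    ‖((𝓕⁻ F1 : 𝓢(V, ℂ)) ⋆[ContinuousLinearMap.mul ℂ ℂ] (𝓕⁻ F2 : 𝓢(V, ℂ))) ζ‖ ^ 2)]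
  simp_rw [fourier_mulS]

/-- the spectrum of a product is contained in the sum of the spectra. -/
theorem fourier_mulS_ne_zero {F G : 𝓢(V, ℂ)} {ζ : V} (h : 𝓕 (mulS F G) ζ ≠ 0) :
    ∃ ω, 𝓕 F ω ≠ 0 ∧ 𝓕 G (ζ - ω) ≠ 0 := by
  by_contra hcon
  push Not at hcon
  apply h
  rw [fourier_mulS, convolution_def]
  rw [← integral_zero V ℂ (μ := volume)]
  congr 1
  ext ω
  simp only [ContinuousLinearMap.mul_apply', mul_eq_zero]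
  by_cases h1 : (𝓕⁻ F : 𝓢(V, ℂ)) ω = 0
  · exact Or.inl h1
  · right
    rw [fourierInv_apply_neg] at h1 ⊢
    have := hcon (-ω) h1
    rw [show -(-ζ - ω) = ζ - -ω by abel]
    exact this

open scoped Classical in
/-- BIORTHOGONALITY (Córdoba–Fefferman), spectral form: if every point lies in at most `N` of the
sum sets of pairs of spectra. -/
theorem bio {ι : Type*} (s : Finset ι) (F : ι → 𝓢(V, ℂ)) (N : ℕ)
    (hN : ∀ ζ : V, ((s ×ˢ s).filter fun p : ι × ι =>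
      ∃ ω, 𝓕 (F p.1) ω ≠ 0 ∧ 𝓕 (F p.2) (ζ - ω) ≠ 0).card ≤ N) :
    ∫ x, ‖∑ i ∈ s, F i x‖ ^ 4 ≤ N * ∫ x, (∑ i ∈ s, ‖F i x‖ ^ 2) ^ 2 := by
  classical
  have h := ort_sq (s ×ˢ s) (fun p => mulS (F p.1) (F p.2)) N (by
    intro ζ
    refine le_trans (Finset.card_le_card ?_) (hN ζ)
    intro p hp
    rw [Finset.mem_filter] at hp ⊢
    exact ⟨hp.1, fourier_mulS_ne_zero hp.2⟩)
  have e1 : ∀ x, ‖∑ p ∈ s ×ˢ s, mulS (F p.1) (F p.2) x‖ ^ 2 = ‖∑ i ∈ s, F i x‖ ^ 4 := by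
    intro x
    simp only [mulS_apply]
    rw [Finset.sum_product' s s (fun i j => F i x * F j x), ← Finset.sum_mul_sum, norm_mul]
    ring
  have e2 : ∑ p ∈ s ×ˢ s, ∫ x, ‖mulS (F p.1) (F p.2) x‖ ^ 2
      = ∫ x, (∑ i ∈ s, ‖F i x‖ ^ 2) ^ 2 := by
    rw [← integral_finsetSum _ fun p _ => integrable_norm_sq _]
    congr 1
    ext x
    simp only [mulS_apply, norm_mul, mul_pow]
    rw [Finset.sum_product' s s (fun i j => ‖F i x‖ ^ 2 * ‖F j x‖ ^ 2), ← Finset.sum_mul_sum]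
    ring
  simp_rw [e1] at h
  rw [e2] at h
  exact h

end Crest.Agent.R138.Bil882
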