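import Mathlib

set_option autoImplicit false

open MeasureTheory Set Filter Topology
open scoped RealInnerProductSpace ContDiff

namespace Crest.Agent.R138.Bk57

/-- The plane. -/
abbrev E2 : Type := EuclideanSpace ℝ (Fin 2)

/-- `ee t = exp (2 π i t)`. -/
noncomputable def ee (t : ℝ) : ℂ := Complex.exp (2 * Real.pi * t * Complex.I)

lemma norm_ee (t : ℝ) : ‖ee t‖ = 1 := by
  have : (2 * Real.pi * t * Complex.I : ℂ) = ((2 * Real.pi * t : ℝ) : ℂ) * Complex.I := by
    push_cast; ring
  rw [ee, this, Complex.norm_exp_ofReal_mul_I]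

lemma ee_add (s t : ℝ) : ee (s + t) = ee s * ee t := by
  rw [ee, ee, ee, ← Complex.exp_add]; congr 1; push_cast; ring

lemma ee_zero : ee 0 = 1 := by simp [ee]

lemma ee_ne (t : ℝ) : ee t ≠ 0 := Complex.exp_ne_zero _

lemma conj_ee (t : ℝ) : (starRingEnd ℂ) (ee t) = ee (-t) := by
  rw [ee, ee, ← Complex.exp_conj]; congr 1
  simp only [map_mul, Complex.conj_ofReal, Complex.conj_I, map_ofNat]
  push_cast; ring

lemma hasDerivAt_ee (t : ℝ) : HasDerivAt ee (2 * Real.pi * Complex.I * ee t) t := by
  have h1 : HasDerivAt (fun s : ℝ => (2 * Real.pi * s * Complex.I : ℂ)) (2 * Real.pi * Complex.I) t := by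
    have := ((Complex.ofRealCLM.hasDerivAt (x := t)).const_mul (2 * Real.pi : ℂ)).mul_const Complex.I
    simpa using this
  have h2 := h1.cexp
  rw [show (2 * Real.pi * Complex.I * ee t : ℂ) = Complex.exp (2 * Real.pi * t * Complex.I) * (2 * Real.pi * Complex.I) by
    rw [ee]; ring]
  exact h2

lemma continuous_ee : Continuous ee := by unfold ee; fun_prop

lemma differentiable_ee : Differentiable ℝ ee := fun t => (hasDerivAt_ee t).differentiableAt

lemma contDiff_ee : ContDiff ℝ ∞ ee := by
  have h1 : ContDiff ℝ ∞ (fun t : ℝ => (2 * Real.pi * t * Complex.I : ℂ)) :=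
    ((contDiff_const (c := (2 * Real.pi : ℂ))).mul Complex.ofRealCLM.contDiff).mul contDiff_const
  exact h1.cexp

/-- One integration by parts in the direction `h`. -/
lemma osc_ibp {b : E2 → ℂ} {g : E2 → ℝ} {h : E2} {m K B0 B1 r : ℝ}
    (hb : ContDiff ℝ 1 b) (hg : ContDiff ℝ 2 g)
    (hs : tsupport b ⊆ Metric.closedBall (0 : E2) r) (hm : 0 < m) (hK : 0 ≤ K)
    (hD : ∀ v ∈ tsupport b, m ≤ |fderiv ℝ g v h|)
    (hD2 : ∀ v ∈ tsupport b, |fderiv ℝ (fun w => fderiv ℝ g w h) v h| ≤ K * m)
    (hB0 : ∀ v, ‖b v‖ ≤ B0) (hB1 : ∀ v, ‖fderiv ℝ b v h‖ ≤ B1) :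
    ‖∫ v, b v * ee (g v)‖ ≤ (B1 + B0 * K) / m * volume.real (Metric.closedBall (0 : E2) r) := by
  have hcs : HasCompactSupport b :=
    HasCompactSupport.of_support_subset_isCompact (isCompact_closedBall (0 : E2) r)
      ((subset_tsupport b).trans hs)
  set D : E2 → ℝ := fun w => fderiv ℝ g w h with hDdef
  have hDc : ContDiff ℝ 1 D := by
    have : ContDiff ℝ 1 (fun w => fderiv ℝ g w) := hg.fderiv_right (by norm_num)
    exact this.clm_apply contDiff_const
  set c : ℂ := 2 * Real.pi * Complex.I with hc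
  have hc0 : c ≠ 0 := by simp [hc, Real.pi_ne_zero]
  have hcn : 1 ≤ ‖c‖ := by
    rw [hc]; simp only [norm_mul, Complex.norm_ofNat, Complex.norm_real, Complex.norm_I, mul_one]
    rw [Real.norm_of_nonneg Real.pi_pos.le]; nlinarith [Real.pi_gt_three]
  set w : E2 → ℂ := fun v => (D v)⁻¹ • (b v / c) with hw
  have hne : ∀ v ∈ tsupport b, D v ≠ 0 := fun v hv h0 => by
    have := hD v hv
    simp only [hDdef] at h0
    rw [h0, abs_zero] at this; linarith
  have hwout : ∀ v ∉ tsupport b, w =ᶠ[𝓝 v] 0 := fun v hv => by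
    have : b =ᶠ[𝓝 v] 0 := notMem_tsupport_iff_eventuallyEq.1 hv
    filter_upwards [this] with u hu
    simp [hw, hu]
  have hwC : ContDiff ℝ 1 w := by
    rw [contDiff_iff_contDiffAt]
    intro v
    by_cases hv : v ∈ tsupport b
    · exact (hDc.contDiffAt.inv (hne v hv)).smul (hb.contDiffAt.div_const c)
    · exact (contDiffAt_const (c := (0 : ℂ))).congr_of_eventuallyEq (hwout v hv)
  have hwsupp : tsupport w ⊆ tsupport b := by
    intro v hv
    by_contra hv'
    exact (notMem_tsupport_iff_eventuallyEq.2 (hwout v hv')) hv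
  have hwcs : HasCompactSupport w :=
    HasCompactSupport.of_support_subset_isCompact hcs ((subset_tsupport w).trans hwsupp)
  have hEd : ∀ v, HasFDerivAt (fun v => ee (g v)) ((fderiv ℝ g v).smulRight (c * ee (g v))) v := by
    intro v
    have h1 : HasFDerivAt g (fderiv ℝ g v) v := (hg.differentiable (by norm_num) v).hasFDerivAt
    have h2 := (hasDerivAt_ee (g v)).hasFDerivAt.comp v h1
    have h3 : ContinuousLinearMap.toSpanSingleton ℝ (2 * (Real.pi : ℂ) * Complex.I * ee (g v)) ∘SL fderiv ℝ g v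
        = (fderiv ℝ g v).smulRight (c * ee (g v)) := by
      ext u
      simp [hc]
    rw [h3] at h2
    exact h2
  have hEc : ContDiff ℝ 2 (fun v => ee (g v)) := (contDiff_ee.of_le (by norm_cast)).comp hg
  have hI : ∀ v, b v * ee (g v) = w v * (fderiv ℝ (fun v => ee (g v)) v h) := by
    intro v
    rw [(hEd v).fderiv]
    by_cases hv : v ∈ tsupport b
    · have h3 : (D v : ℂ) ≠ 0 := by exact_mod_cast hne v hv
      simp only [hw, ContinuousLinearMap.smulRight_apply, Complex.real_smul]
      change b v * ee (g v) = ((D v)⁻¹ : ℝ) * (b v / c) * ((D v : ℂ) * (c * ee (g v)))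
      push_cast
      field_simp
    · have hb0 : b v = 0 := image_eq_zero_of_notMem_tsupport hv
      simp [hw, hb0]
  have hint1 : Integrable (fun v => w v * (fderiv ℝ (fun v => ee (g v)) v h)) := by
    apply Continuous.integrable_of_hasCompactSupport
    · exact hwC.continuous.mul ((hEc.continuous_fderiv (by norm_num)).clm_apply continuous_const)
    · exact hwcs.mul_right
  have hint2 : Integrable (fun v => fderiv ℝ w v h * ee (g v)) := by
    apply Continuous.integrable_of_hasCompactSupport
    · exact ((hwC.continuous_fderiv (by norm_num)).clm_apply continuous_const).mul hEc.continuous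
    · have : HasCompactSupport (fun v => fderiv ℝ w v h) := hwcs.fderiv_apply ℝ h
      exact this.mul_right
  have hint3 : Integrable (fun v => w v * ee (g v)) := by
    apply Continuous.integrable_of_hasCompactSupport
    · exact hwC.continuous.mul hEc.continuous
    · exact hwcs.mul_right
  have key : ∫ v, w v * (fderiv ℝ (fun v => ee (g v)) v h) = - ∫ v, fderiv ℝ w v h * ee (g v) := by
    apply integral_mul_fderiv_eq_neg_fderiv_mul_of_integrable hint2 hint1 hint3
    · intro x _; exact hwC.differentiable (by norm_num) x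
    · intro x _; exact hEc.differentiable (by norm_num) x
  have hrw : ∫ v, b v * ee (g v) = - ∫ v, fderiv ℝ w v h * ee (g v) := by
    rw [← key]; exact integral_congr_ae (Eventually.of_forall hI)
  rw [hrw, norm_neg]
  -- pointwise bound
  have hB0' : 0 ≤ B0 := (norm_nonneg _).trans (hB0 0)
  have hB1' : 0 ≤ B1 := (norm_nonneg _).trans (hB1 0)
  have hpt : ∀ v, ‖fderiv ℝ w v h * ee (g v)‖ ≤ (Metric.closedBall (0 : E2) r).indicator (fun _ => (B1 + B0 * K) / m) v := by
    intro v
    rw [norm_mul, norm_ee, mul_one]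
    by_cases hv : v ∈ tsupport b
    · rw [indicator_of_mem (hs hv)]
      have hDv : HasFDerivAt D (fderiv ℝ D v) v := (hDc.differentiable (by norm_num) v).hasFDerivAt
      have hbv : HasFDerivAt b (fderiv ℝ b v) v := (hb.differentiable (by norm_num) v).hasFDerivAt
      have h1 : HasFDerivAt (fun v => (D v)⁻¹) (-(D v ^ 2)⁻¹ • (fderiv ℝ D v)) v :=
        (hasDerivAt_inv (hne v hv)).comp_hasFDerivAt v hDv
      have hbc : HasFDerivAt (fun v => b v / c) (c⁻¹ • fderiv ℝ b v) v := by
        have := hbv.mul_const (c⁻¹)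
        simpa [div_eq_mul_inv] using this
      have h2 := h1.smul hbc
      have h4 : fderiv ℝ w v h = (D v)⁻¹ • (c⁻¹ * fderiv ℝ b v h) + (-(D v ^ 2)⁻¹ * fderiv ℝ D v h) • (b v / c) := by
        have h5 : fderiv ℝ w v = _ := h2.fderiv
        rw [h5]
        simp
      rw [h4]
      have hDm : m ≤ |D v| := hD v hv
      have hDK : |fderiv ℝ D v h| ≤ K * m := hD2 v hv
      have hci : ‖c⁻¹‖ ≤ 1 := by rw [norm_inv]; exact inv_le_one_of_one_le₀ hcn
      have hDi : |(D v)⁻¹| ≤ m⁻¹ := by
        rw [abs_inv]; exact inv_anti₀ hm hDm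
      calc _ ≤ ‖(D v)⁻¹ • (c⁻¹ * fderiv ℝ b v h)‖ + ‖(-(D v ^ 2)⁻¹ * fderiv ℝ D v h) • (b v / c)‖ := norm_add_le _ _
        _ ≤ m⁻¹ * (1 * B1) + ((m⁻¹) ^ 2 * (K * m)) * (B0 * 1) := by
            gcongr
            · rw [norm_smul, norm_mul, Real.norm_eq_abs]
              gcongr
              exact hB1 v
            · rw [norm_smul, norm_mul, Real.norm_eq_abs, Real.norm_eq_abs, abs_neg, div_eq_mul_inv, norm_mul, abs_inv, abs_pow, ← inv_pow, ← abs_inv]
              gcongr
              exact hB0 v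
        _ = (B1 + B0 * K) / m := by field_simp
    · have : fderiv ℝ w v = 0 := by
        have h0 : w =ᶠ[𝓝 v] fun _ => 0 := hwout v hv
        rw [h0.fderiv_eq]; simp
      rw [this]
      simp only [zero_apply, norm_zero]
      apply indicator_nonneg
      intro _ _
      positivity
  calc ‖∫ v, fderiv ℝ w v h * ee (g v)‖ ≤ ∫ v, ‖fderiv ℝ w v h * ee (g v)‖ := norm_integral_le_integral_norm _
    _ ≤ ∫ v, (Metric.closedBall (0 : E2) r).indicator (fun _ => (B1 + B0 * K) / m) v := by
        apply integral_mono hint2.norm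
        · exact (integrable_indicator_iff measurableSet_closedBall).2 (integrableOn_const (measure_closedBall_lt_top.ne))
        · exact hpt
    _ = (B1 + B0 * K) / m * volume.real (Metric.closedBall (0 : E2) r) := by
        rw [integral_indicator measurableSet_closedBall, setIntegral_const, smul_eq_mul, mul_comm]

end Crest.Agent.R138.Bk57
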