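import Mathlib

/-!
Covering of a finite set by sparse families of balls (Tao), literal item 4 of the split 7585.
-/

set_option autoImplicit false

namespace Crest.Agent.R138.Bk57

open Finset

/-- Greedy colouring of a finite set with a conflict relation of degree `< D`. -/
lemma greedy {X : Type*} [DecidableEq X] (conf : X → X → Prop) [DecidableRel conf]
    (hsym : ∀ x y, conf x y → conf y x) (D : ℕ) (hD : 0 < D) (Y : Finset X)
    (hdeg : ∀ y ∈ Y, (Y.filter (fun z => z ≠ y ∧ conf y z)).card < D) :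
    ∃ f : X → Fin D, ∀ x ∈ Y, ∀ y ∈ Y, x ≠ y → conf x y → f x ≠ f y := by
  induction Y using Finset.induction_on with
  | empty => exact ⟨fun _ => ⟨0, hD⟩, by simp⟩
  | insert a Y ha ih =>
    have hsub : ∀ y, (Y.filter (fun z => z ≠ y ∧ conf y z)) ⊆
        ((insert a Y).filter (fun z => z ≠ y ∧ conf y z)) := fun y =>
      Finset.filter_subset_filter _ (Finset.subset_insert a Y)
    obtain ⟨f, hf⟩ := ih (fun y hy =>
      (Finset.card_le_card (hsub y)).trans_lt (hdeg y (Finset.mem_insert_of_mem hy)))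
    set T := (Y.filter (fun z => z ≠ a ∧ conf a z)).image f with hT
    have hTc : T.card < D :=
      (Finset.card_image_le.trans (Finset.card_le_card (hsub a))).trans_lt
        (hdeg a (Finset.mem_insert_self a Y))
    obtain ⟨c, hc⟩ : ∃ c : Fin D, c ∉ T := by
      by_contra h
      push Not at h
      have : T = Finset.univ := by ext c; simp [h c]
      rw [this, Finset.card_univ, Fintype.card_fin] at hTc
      exact lt_irrefl _ hTc
    refine ⟨Function.update f a c, ?_⟩
    intro x hx y hy hxy hcf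
    have key : ∀ y ∈ Y, y ≠ a → conf a y → c ≠ f y := by
      intro y hy hya hcf h
      apply hc
      rw [hT, Finset.mem_image]
      exact ⟨y, Finset.mem_filter.2 ⟨hy, hya, hcf⟩, h.symm⟩
    rcases eq_or_ne x a with rfl | hxa
    · have hyY : y ∈ Y := (Finset.mem_insert.1 hy).resolve_left (Ne.symm hxy)
      rw [Function.update_self, Function.update_of_ne hxy.symm]
      exact key y hyY hxy.symm hcf
    · have hxY : x ∈ Y := (Finset.mem_insert.1 hx).resolve_left hxa
      rcases eq_or_ne y a with rfl | hya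
      · rw [Function.update_self, Function.update_of_ne hxa]
        exact (key x hxY hxa (hsym _ _ hcf)).symm
      · have hyY : y ∈ Y := (Finset.mem_insert.1 hy).resolve_left hya
        rw [Function.update_of_ne hxa, Function.update_of_ne hya]
        exact hf x hxY y hyY hxy hcf

/-- A maximal separated subset of a finite set. -/
lemma exists_sep {X : Type*} [MetricSpace X] (Z : Finset X) (s : ℝ) (hs : 0 ≤ s) :
    ∃ Y ⊆ Z, (∀ x ∈ Y, ∀ y ∈ Y, x ≠ y → s < dist x y) ∧ ∀ z ∈ Z, ∃ y ∈ Y, dist z y ≤ s := by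
  classical
  induction Z using Finset.induction_on with
  | empty => exact ⟨∅, by simp, by simp, by simp⟩
  | insert a Z ha ih =>
    obtain ⟨Y, hY, hsep, hcov⟩ := ih
    by_cases h : ∃ y ∈ Y, dist a y ≤ s
    · refine ⟨Y, hY.trans (Finset.subset_insert a Z), hsep, ?_⟩
      intro z hz
      rcases Finset.mem_insert.1 hz with rfl | hz
      · exact h
      · exact hcov z hz
    · push Not at h
      refine ⟨insert a Y, Finset.insert_subset_insert a hY, ?_, ?_⟩
      · intro x hx y hy hxy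
        rcases Finset.mem_insert.1 hx with hxa | hxY
        · rcases Finset.mem_insert.1 hy with hya | hyY
          · exact absurd (hxa.trans hya.symm) hxy
          · rw [hxa]; exact h y hyY
        · rcases Finset.mem_insert.1 hy with hya | hyY
          · rw [hya, dist_comm]; exact h x hxY
          · exact hsep x hxY y hyY hxy
      · intro z hz
        rcases Finset.mem_insert.1 hz with rfl | hz
        · exact ⟨z, Finset.mem_insert_self _ _, by simpa using hs⟩
        · obtain ⟨y, hy, hzy⟩ := hcov z hz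
          exact ⟨y, Finset.mem_insert_of_mem hy, hzy⟩

/-- The radii of the covering lemma. -/
noncomputable def rad (C1 C2 M : ℝ) : ℕ → ℝ
  | 0 => 1
  | k + 1 => C2 * ((2 * rad C1 C2 M k + 1) * M) ^ C1 + rad C1 C2 M k

lemma one_le_rad {C1 C2 M : ℝ} (hC2 : 1 ≤ C2) (hM : 1 ≤ M) (k : ℕ) : 1 ≤ rad C1 C2 M k := by
  induction k with
  | zero => simp [rad]
  | succ k ih =>
    rw [rad]
    have : 0 ≤ C2 * ((2 * rad C1 C2 M k + 1) * M) ^ C1 := by positivity
    linarith

lemma rad_mono {C1 C2 M : ℝ} (hC2 : 1 ≤ C2) (hM : 1 ≤ M) (k : ℕ) :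
    rad C1 C2 M k ≤ rad C1 C2 M (k + 1) := by
  rw [rad]
  have := one_le_rad (C1 := C1) hC2 hM k
  have : 0 ≤ C2 * ((2 * rad C1 C2 M k + 1) * M) ^ C1 := by positivity
  linarith

lemma rad_bound {C1 : ℝ} (hC1 : 0 ≤ C1) (k : ℕ) :
    ∃ A : ℝ, 1 ≤ A ∧ ∀ C2 : ℝ, 1 ≤ C2 → ∃ B : ℝ, 1 ≤ B ∧
      ∀ M : ℝ, 1 ≤ M → rad C1 C2 M k ≤ B * M ^ A := by
  induction k with
  | zero =>
    refine ⟨1, le_rfl, fun C2 _ => ⟨1, le_rfl, fun M hM => ?_⟩⟩
    simpa [rad] using hM
  | succ k ih =>
    obtain ⟨A, hA, ih⟩ := ih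
    refine ⟨(A + 1) * C1 + A, by nlinarith [mul_nonneg (by linarith : (0:ℝ) ≤ A + 1) hC1], ?_⟩
    intro C2 hC2
    obtain ⟨B, hB, h⟩ := ih C2 hC2
    refine ⟨C2 * (3 * B) ^ C1 + B, ?_, ?_⟩
    · have : 0 ≤ C2 * (3 * B) ^ C1 := by positivity
      linarith
    · intro M hM
      have hM0 : 0 < M := by linarith
      have h1 := h M hM
      have h0 := one_le_rad (C1 := C1) hC2 hM k
      rw [rad]
      have e1 : (2 * rad C1 C2 M k + 1) * M ≤ (3 * B) * M ^ (A + 1) := by
        rw [Real.rpow_add hM0, Real.rpow_one]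
        nlinarith
      have e2 : ((2 * rad C1 C2 M k + 1) * M) ^ C1 ≤ (3 * B) ^ C1 * M ^ ((A + 1) * C1) := by
        calc _ ≤ ((3 * B) * M ^ (A + 1)) ^ C1 := Real.rpow_le_rpow (by positivity) e1 hC1
          _ = _ := by
            rw [Real.mul_rpow (by positivity) (by positivity), ← Real.rpow_mul hM0.le]
      have e3 : M ^ ((A + 1) * C1) ≤ M ^ ((A + 1) * C1 + A) :=
        Real.rpow_le_rpow_of_exponent_le hM (by linarith)
      have e4 : M ^ A ≤ M ^ ((A + 1) * C1 + A) :=
        Real.rpow_le_rpow_of_exponent_le hM (by nlinarith [mul_nonneg (by linarith : (0:ℝ) ≤ A + 1) hC1])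
      calc C2 * ((2 * rad C1 C2 M k + 1) * M) ^ C1 + rad C1 C2 M k
          ≤ C2 * ((3 * B) ^ C1 * M ^ ((A + 1) * C1)) + B * M ^ A := by gcongr
        _ ≤ C2 * ((3 * B) ^ C1 * M ^ ((A + 1) * C1 + A)) + B * M ^ ((A + 1) * C1 + A) := by gcongr
        _ = _ := by ring

/-- **Covering lemma** (Tao). A finite set `Z` is covered by few sparse families of balls; the
exponent `A` does not depend on `C2`. -/
theorem cover (X : Type*) [MetricSpace X] (N : ℕ) (C1 : ℝ) (hN : 1 ≤ N) (hC1 : 0 ≤ C1) :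
    ∃ A : ℝ, 1 ≤ A ∧ ∀ C2 : ℝ, 1 ≤ C2 → ∃ B : ℝ, 1 ≤ B ∧ ∀ Z : Finset X, Z.Nonempty →
      ∃ (J : ℕ) (r : Fin J → ℝ) (F : Fin J → Finset X),
        (J : ℝ) ≤ B * (Z.card : ℝ) ^ (1 / (N : ℝ)) ∧
        (∀ j, 1 ≤ r j ∧ r j ≤ B * (Z.card : ℝ) ^ A) ∧ (∀ j, F j ⊆ Z) ∧
        (∀ j, ∀ x ∈ F j, ∀ y ∈ F j, x ≠ y → C2 * (r j * Z.card) ^ C1 ≤ dist x y) ∧
        ∀ z ∈ Z, ∃ j, ∃ x ∈ F j, dist z x + 1 ≤ r j := by
  classical
  obtain ⟨A, hA, hradA⟩ := rad_bound (C1 := C1) hC1 N
  refine ⟨A, hA, ?_⟩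
  intro C2 hC2
  obtain ⟨B0, hB0, hrad⟩ := hradA C2 hC2
  refine ⟨3 * B0 + N, ?_, ?_⟩
  · have : (0 : ℝ) ≤ N := Nat.cast_nonneg N
    linarith
  intro Z hZ
  set M : ℝ := (Z.card : ℝ) with hMdef
  have hM : 1 ≤ M := by
    rw [hMdef]; exact_mod_cast Finset.card_pos.2 hZ
  have hM0 : 0 < M := by linarith
  set R : ℕ → ℝ := rad C1 C2 M with hRdef
  have hR1 : ∀ k, 1 ≤ R k := fun k => one_le_rad hC2 hM k
  have hRm : Monotone R := monotone_nat_of_le_succ (fun k => rad_mono hC2 hM k)
  have hRS : ∀ k, R (k + 1) = C2 * ((2 * R k + 1) * M) ^ C1 + R k := fun k => rfl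
  -- number of points near `z`
  set nn : ℕ → X → ℕ := fun k z => (Z.filter (fun w => dist w z ≤ R k)).card with hnn
  have hNr : (0 : ℝ) < N := by exact_mod_cast hN
  have hex : ∀ z, ∃ k, (nn (k + 1) z : ℝ) ≤ M ^ (((k + 1 : ℕ) : ℝ) / N) ∧ k < N := by
    intro z
    refine ⟨N - 1, ?_, by omega⟩
    have : N - 1 + 1 = N := by omega
    rw [this, div_self hNr.ne', Real.rpow_one, hMdef]
    exact_mod_cast Finset.card_filter_le _ _
  set kk : X → ℕ := fun z => Nat.find (hex z) with hkk
  have hkk1 : ∀ z, (nn (kk z + 1) z : ℝ) ≤ M ^ (((kk z + 1 : ℕ) : ℝ) / N) := fun z => (Nat.find_spec (hex z)).1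
  have hkk2 : ∀ z, kk z < N := fun z => (Nat.find_spec (hex z)).2
  have hkk3 : ∀ z ∈ Z, M ^ ((kk z : ℝ) / N) ≤ nn (kk z) z := by
    intro z hz
    rcases Nat.eq_zero_or_pos (kk z) with h0 | h0
    · rw [h0]
      simp only [Nat.cast_zero, zero_div, Real.rpow_zero]
      have : 0 < nn 0 z := by
        rw [hnn]; simp only
        apply Finset.card_pos.2
        exact ⟨z, Finset.mem_filter.2 ⟨hz, by simpa using (zero_le_one.trans (hR1 0))⟩⟩
      exact_mod_cast this
    · have hlt : kk z - 1 < kk z := by omega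
      have := Nat.find_min (hex z) hlt
      rw [not_and_or] at this
      rcases this with h | h
      · push Not at h
        have e : kk z - 1 + 1 = kk z := by omega
        rw [e] at h
        exact h.le
      · exact absurd (by have := hkk2 z; omega) h
  -- classes
  set cls : ℕ → Finset X := fun k => Z.filter (fun z => kk z = k) with hcls
  have hY : ∀ k, ∃ Y ⊆ cls k, (∀ x ∈ Y, ∀ y ∈ Y, x ≠ y → 2 * R k < dist x y) ∧
      ∀ z ∈ cls k, ∃ y ∈ Y, dist z y ≤ 2 * R k := fun k =>
    exists_sep (cls k) (2 * R k) (by linarith [hR1 k])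
  choose Y hYsub hYsep hYcov using hY
  set D : ℕ := ⌊M ^ (1 / (N : ℝ))⌋₊ with hD
  have hMN : 1 ≤ M ^ (1 / (N : ℝ)) := Real.one_le_rpow hM (by positivity)
  have hD0 : 0 < D := Nat.floor_pos.2 hMN
  -- conflicts
  have hcol : ∀ k, ∃ f : X → Fin D, ∀ x ∈ Y k, ∀ y ∈ Y k, x ≠ y →
      dist x y < C2 * ((2 * R k + 1) * M) ^ C1 → f x ≠ f y := by
    intro k
    apply greedy (fun x y => dist x y < C2 * ((2 * R k + 1) * M) ^ C1)
    · intro x y h; rwa [dist_comm]
    · exact hD0
    · intro y hy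
      have hyc := hYsub k hy
      rw [hcls] at hyc
      obtain ⟨hyZ, hyk⟩ := Finset.mem_filter.1 hyc
      set P := (Y k).filter (fun z => z ≠ y ∧ dist y z < C2 * ((2 * R k + 1) * M) ^ C1) with hP
      -- the balls around `insert y P`
      set P' := insert y P with hP'
      have hyP : y ∉ P := by rw [hP]; simp
      have hP'Y : P' ⊆ Y k := by
        rw [hP']
        apply Finset.insert_subset hy
        exact Finset.filter_subset _ _
      have hdisj : (P' : Set X).PairwiseDisjoint (fun z => Z.filter (fun w => dist w z ≤ R k)) := by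
        intro a ha b hb hab
        rw [Function.onFun, Finset.disjoint_left]
        intro w hw1 hw2
        have h1 := (Finset.mem_filter.1 hw1).2
        have h2 := (Finset.mem_filter.1 hw2).2
        have h3 := hYsep k a (hP'Y ha) b (hP'Y hb) hab
        have h4 := dist_triangle_left a b w
        linarith
      have hsubU : P'.biUnion (fun z => Z.filter (fun w => dist w z ≤ R k)) ⊆
          Z.filter (fun w => dist w y ≤ R (k + 1)) := by
        intro w hw
        obtain ⟨z, hz, hwz⟩ := Finset.mem_biUnion.1 hw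
        obtain ⟨hwZ, hwd⟩ := Finset.mem_filter.1 hwz
        refine Finset.mem_filter.2 ⟨hwZ, ?_⟩
        have hzy : dist z y ≤ C2 * ((2 * R k + 1) * M) ^ C1 := by
          rcases Finset.mem_insert.1 hz with rfl | hz
          · rw [dist_self]
            have := hR1 k
            positivity
          · have := (Finset.mem_filter.1 hz).2.2
            rw [dist_comm] at this
            exact this.le
        rw [hRS]
        linarith [dist_triangle w z y]
      have hcard : ∑ z ∈ P', nn k z ≤ nn (k + 1) y := by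
        rw [← Finset.card_biUnion hdisj]
        exact Finset.card_le_card hsubU
      have h1 : (P'.card : ℝ) * M ^ ((k : ℝ) / N) ≤ M ^ (((k + 1 : ℕ) : ℝ) / N) := by
        calc (P'.card : ℝ) * M ^ ((k : ℝ) / N) = ∑ z ∈ P', M ^ ((k : ℝ) / N) := by
              rw [Finset.sum_const, nsmul_eq_mul]
          _ ≤ ∑ z ∈ P', (nn k z : ℝ) := by
              apply Finset.sum_le_sum
              intro z hz
              have hzc := hYsub k (hP'Y hz)
              rw [hcls] at hzc
              obtain ⟨hzZ, hzk⟩ := Finset.mem_filter.1 hzc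
              have := hkk3 z hzZ
              rw [hzk] at this
              exact this
          _ ≤ (nn (k + 1) y : ℝ) := by exact_mod_cast hcard
          _ ≤ _ := by
              have := hkk1 y
              rw [hyk] at this
              exact this
      have h2 : (P'.card : ℝ) ≤ M ^ (1 / (N : ℝ)) := by
        have h3 : M ^ (((k + 1 : ℕ) : ℝ) / N) = M ^ (1 / (N : ℝ)) * M ^ ((k : ℝ) / N) := by
          rw [← Real.rpow_add hM0]; congr 1; push_cast; ring
        rw [h3] at h1
        exact le_of_mul_le_mul_right h1 (by positivity)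
      have h3 : P'.card ≤ D := Nat.le_floor h2
      rw [hP', Finset.card_insert_of_notMem hyP] at h3
      omega
  choose f hf using hcol
  refine ⟨N * D, fun j => 2 * R (finProdFinEquiv.symm j).1 + 1,
    fun j => (Y (finProdFinEquiv.symm j).1).filter (fun x => f (finProdFinEquiv.symm j).1 x = (finProdFinEquiv.symm j).2), ?_, ?_, ?_, ?_, ?_⟩
  · have hDle : (D : ℝ) ≤ M ^ (1 / (N : ℝ)) := Nat.floor_le (by positivity)
    push_cast
    calc (N : ℝ) * D ≤ N * M ^ (1 / (N : ℝ)) := by gcongr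
      _ ≤ (3 * B0 + N) * M ^ (1 / (N : ℝ)) := by gcongr; linarith
  · intro j
    set k := (finProdFinEquiv.symm j).1 with hk
    refine ⟨by linarith [hR1 k], ?_⟩
    have h1 : R k ≤ R N := hRm k.2.le
    have h2 := hrad M hM
    have h3 : 1 ≤ M ^ A := Real.one_le_rpow hM (by linarith)
    have h4 : (0 : ℝ) ≤ N := Nat.cast_nonneg N
    have h5 : 1 ≤ B0 * M ^ A := by nlinarith
    calc 2 * R k + 1 ≤ 2 * (B0 * M ^ A) + B0 * M ^ A := by linarith
      _ ≤ (3 * B0 + N) * M ^ A := by nlinarith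
  · intro j
    exact (Finset.filter_subset _ _).trans ((hYsub _).trans (Finset.filter_subset _ _))
  · intro j x hx y hy hxy
    obtain ⟨hxY, hxf⟩ := Finset.mem_filter.1 hx
    obtain ⟨hyY, hyf⟩ := Finset.mem_filter.1 hy
    by_contra h
    push Not at h
    exact hf _ x hxY y hyY hxy h (hxf.trans hyf.symm)
  · intro z hz
    have hzc : z ∈ cls (kk z) := Finset.mem_filter.2 ⟨hz, rfl⟩
    obtain ⟨y, hy, hzy⟩ := hYcov (kk z) z hzc
    refine ⟨finProdFinEquiv (⟨kk z, hkk2 z⟩, f (kk z) y), y, ?_, ?_⟩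
    · simp only [Equiv.symm_apply_apply]
      exact Finset.mem_filter.2 ⟨hy, rfl⟩
    · simp only [Equiv.symm_apply_apply]
      linarith

end Crest.Agent.R138.Bk57
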