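import Mathlib
import Crest.Agent.R138.RsDef_134

/-!
Item 6 of the split 7585: restricted weak type for all `q > 3` implies strong type `(p, p)`, `p > 3`.
-/

set_option autoImplicit false

namespace Crest.Agent.R138.Bk57

open MeasureTheory Filter Topology
open Set hiding ext
open scoped ENNReal RealInnerProductSpace
open Crest.Agent.R138.Rs134

/-- continuity of the extension of an integrable function -/
lemma continuous_ext {h : E2 → ℝ} (hh : Continuous h) {g : E2 → ℂ} (hg : Integrable g) :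
    Continuous (fun z : E2 × ℝ => ext h g z.1 z.2) := by
  unfold ext
  apply continuous_of_dominated (bound := fun ξ => ‖g ξ‖)
  · intro z
    exact hg.aestronglyMeasurable.mul
      ((continuous_ee.comp (continuous_ph hh z.1 z.2)).aestronglyMeasurable)
  · intro z
    filter_upwards with ξ
    rw [norm_mul_ee]
  · exact hg.norm
  · filter_upwards with ξ
    apply continuous_const.mul
    apply continuous_ee.comp
    unfold ph
    fun_prop

/-- the weak type hypothesis -/
def WTq (h : E2 → ℝ) (q : ℝ) : Prop :=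
  ∃ C : ℝ, ∀ g : E2 → ℂ, Measurable g → (∀ ξ, ‖g ξ‖ ≤ 1) → (∀ ξ, 1 / 2 < ‖ξ‖ → g ξ = 0) →
    ∀ lam : ℝ, 0 < lam → volume {p : E2 × ℝ | lam < ‖ext h g p.1 p.2‖} ≤
      ENNReal.ofReal (C * lam ^ (-q)) * ∫⁻ ξ, ‖g ξ‖ₑ ^ 2

lemma integrable_of_bdd {g : E2 → ℂ} (hm : Measurable g) {a : ℝ} (hb : ∀ ξ, ‖g ξ‖ ≤ a)
    (hs : ∀ ξ, 1 / 2 < ‖ξ‖ → g ξ = 0) : Integrable g := by
  have h1 : IntegrableOn g (Metric.closedBall (0 : E2) (1 / 2)) := by
    apply Measure.integrableOn_of_bounded (M := a) measure_closedBall_lt_top.ne hm.aestronglyMeasurable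
    exact Eventually.of_forall hb
  rw [← integrableOn_iff_integrable_of_support_subset]
  · exact h1
  · intro ξ hξ
    rw [Metric.mem_closedBall, dist_zero_right]
    by_contra h
    push Not at h
    exact hξ (hs ξ h)

/-- restricted strong type from restricted weak type with a smaller exponent -/
lemma strong_restricted {h : E2 → ℝ} (hh : Continuous h) {q q' : ℝ} (hq' : 3 < q') (hq : q' < q)
    (WT : WTq h q') :
    ∃ C : ℝ, 0 ≤ C ∧ ∀ g : E2 → ℂ, Measurable g → (∀ ξ, ‖g ξ‖ ≤ 1) → (∀ ξ, 1 / 2 < ‖ξ‖ → g ξ = 0) →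
      ∫⁻ z : E2 × ℝ, ‖ext h g z.1 z.2‖ₑ ^ q ≤ ENNReal.ofReal C * volume (Function.support g) := by
  obtain ⟨C, hC⟩ := WT
  set V : ℝ := volume.real (Metric.closedBall (0 : E2) (1 / 2)) with hV
  have hV0 : 0 ≤ V := measureReal_nonneg
  have hint : IntegrableOn (fun t : ℝ => |C| * t ^ (-q') * t ^ (q - 1)) (Ioc 0 V) := by
    have h1 : IntegrableOn (fun t : ℝ => |C| * t ^ (q - 1 - q')) (Ioc 0 V) := by
      have := (intervalIntegral.intervalIntegrable_rpow' (a := 0) (b := V) (r := q - 1 - q') (by linarith))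
      rw [intervalIntegrable_iff_integrableOn_Ioc_of_le hV0] at this
      exact this.const_mul _
    refine h1.congr_fun (fun t ht => ?_) measurableSet_Ioc
    simp only
    rw [mul_assoc, ← Real.rpow_add ht.1]
    congr 2; ring
  set I : ℝ := ∫ t in Ioc 0 V, |C| * t ^ (-q') * t ^ (q - 1) with hI
  have hI0 : 0 ≤ I := by
    apply setIntegral_nonneg measurableSet_Ioc
    intro t ht
    have := ht.1
    positivity
  refine ⟨q * I, by nlinarith, ?_⟩
  intro g hm hb hs
  have hgi := integrable_of_bdd hm hb hs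
  have hcont := continuous_ext hh hgi
  have hbd : ∀ z : E2 × ℝ, ‖ext h g z.1 z.2‖ ≤ V := by
    intro z
    refine (norm_ext_le h g z.1 z.2).trans ?_
    calc ∫ ξ, ‖g ξ‖ ≤ ∫ ξ, (Metric.closedBall (0 : E2) (1 / 2)).indicator (fun _ => (1 : ℝ)) ξ := by
          apply integral_mono hgi.norm
          · exact (integrable_indicator_iff measurableSet_closedBall).2
              (integrableOn_const measure_closedBall_lt_top.ne)
          · intro ξ
            by_cases hξ : 1 / 2 < ‖ξ‖
            · simp only [hs ξ hξ, norm_zero]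
              exact indicator_nonneg (fun _ _ => zero_le_one) _
            · simp only
              rw [indicator_of_mem]
              · exact hb ξ
              · rw [Metric.mem_closedBall, dist_zero_right]; linarith
      _ = V := by
          rw [integral_indicator measurableSet_closedBall, setIntegral_const]
          simp [hV]
  have hq0 : 0 < q := by linarith
  have hlc := lintegral_rpow_eq_lintegral_meas_lt_mul (μ := (volume : Measure (E2 × ℝ)))
    (f := fun z => ‖ext h g z.1 z.2‖) (Eventually.of_forall fun z => norm_nonneg _)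
    hcont.norm.measurable.aemeasurable hq0
  have e1 : ∫⁻ z : E2 × ℝ, ‖ext h g z.1 z.2‖ₑ ^ q =
      ∫⁻ z : E2 × ℝ, ENNReal.ofReal (‖ext h g z.1 z.2‖ ^ q) := by
    apply lintegral_congr
    intro z
    rw [← ofReal_norm_eq_enorm, ENNReal.ofReal_rpow_of_nonneg (norm_nonneg _) hq0.le]
  have hs2 : ∫⁻ ξ, ‖g ξ‖ₑ ^ 2 ≤ volume (Function.support g) := by
    calc ∫⁻ ξ, ‖g ξ‖ₑ ^ 2 ≤ ∫⁻ ξ, (Function.support g).indicator (fun _ => (1 : ℝ≥0∞)) ξ := by
          apply lintegral_mono
          intro ξ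
          by_cases hξ : g ξ = 0
          · simp [hξ]
          · simp only
            rw [indicator_of_mem (by exact hξ)]
            have : ‖g ξ‖ₑ ≤ 1 := by
              rw [← ofReal_norm_eq_enorm, ← ENNReal.ofReal_one]
              exact ENNReal.ofReal_le_ofReal (hb ξ)
            calc ‖g ξ‖ₑ ^ 2 ≤ 1 ^ 2 := pow_le_pow_left' this 2
              _ = 1 := one_pow _
      _ = volume (Function.support g) := by
          rw [lintegral_indicator (measurableSet_support hm)]
          simp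
  rw [e1, hlc]
  have e2 : ∫⁻ t in Ioi (0 : ℝ), volume {a : E2 × ℝ | t < ‖ext h g a.1 a.2‖} * ENNReal.ofReal (t ^ (q - 1))
      ≤ ∫⁻ t in Ioc (0 : ℝ) V, ENNReal.ofReal (|C| * t ^ (-q') * t ^ (q - 1)) * volume (Function.support g) := by
    calc _ ≤ ∫⁻ t in Ioi (0 : ℝ), (Ioc (0 : ℝ) V).indicator
          (fun t => ENNReal.ofReal (|C| * t ^ (-q') * t ^ (q - 1)) * volume (Function.support g)) t := by
          apply setLIntegral_mono' measurableSet_Ioi
          intro t ht
          have ht0 : 0 < t := ht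
          by_cases htV : t ≤ V
          · have hmem : t ∈ Ioc (0 : ℝ) V := ⟨ht0, htV⟩
            rw [indicator_of_mem hmem]
            have h1 := hC g hm hb hs t ht0
            have h2 : ENNReal.ofReal (C * t ^ (-q')) ≤ ENNReal.ofReal (|C| * t ^ (-q')) := by
              apply ENNReal.ofReal_le_ofReal
              have : 0 ≤ t ^ (-q') := by positivity
              nlinarith [le_abs_self C]
            calc _ ≤ (ENNReal.ofReal (|C| * t ^ (-q')) * volume (Function.support g)) * ENNReal.ofReal (t ^ (q - 1)) := by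
                  gcongr
                  exact h1.trans (mul_le_mul' h2 hs2)
              _ = _ := by
                  rw [ENNReal.ofReal_mul (p := |C| * t ^ (-q')) (by positivity)]
                  ring
          · rw [indicator_of_notMem (fun h => htV h.2)]
            have : {a : E2 × ℝ | t < ‖ext h g a.1 a.2‖} = ∅ := by
              ext z
              simp only [mem_setOf_eq, mem_empty_iff_false, iff_false, not_lt]
              push Not at htV
              exact (hbd z).trans htV.le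
            simp [this]
      _ = _ := by
          rw [lintegral_indicator measurableSet_Ioc, Measure.restrict_restrict measurableSet_Ioc]
          congr 2
          ext t
          simp only [mem_inter_iff, mem_Ioc, mem_Ioi]
          tauto
  calc _ ≤ ENNReal.ofReal q * ∫⁻ t in Ioc (0 : ℝ) V, ENNReal.ofReal (|C| * t ^ (-q') * t ^ (q - 1)) * volume (Function.support g) := by
        gcongr
    _ = ENNReal.ofReal q * (ENNReal.ofReal I * volume (Function.support g)) := by
        rw [lintegral_mul_const', ← ofReal_integral_eq_lintegral_ofReal hint]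
        · refine (ae_restrict_iff' measurableSet_Ioc).2 (Eventually.of_forall fun t ht => ?_)
          have := ht.1
          simp only [Pi.zero_apply]
          positivity
        · exact (measure_mono (fun ξ hξ => by
            rw [Metric.mem_closedBall, dist_zero_right]
            by_contra h
            push Not at h
            exact hξ (hs ξ h) : Function.support g ⊆ Metric.closedBall (0 : E2) (1 / 2))).trans_lt measure_closedBall_lt_top |>.ne
    _ = ENNReal.ofReal (q * I) * volume (Function.support g) := by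
        rw [← mul_assoc, ENNReal.ofReal_mul hq0.le]

/-- `ext` is linear in `g`. -/
lemma ext_smul (h : E2 → ℝ) (a : ℂ) (g : E2 → ℂ) (x : E2) (t : ℝ) :
    ext h (fun ξ => a * g ξ) x t = a * ext h g x t := by
  unfold ext
  rw [← integral_const_mul]
  congr 1
  funext ξ
  ring

lemma ext_add {h : E2 → ℝ} (hh : Continuous h) {g1 g2 : E2 → ℂ} (h1 : Integrable g1) (h2 : Integrable g2)
    (x : E2) (t : ℝ) :
    ext h (fun ξ => g1 ξ + g2 ξ) x t = ext h g1 x t + ext h g2 x t := by
  have hI : ∀ {g : E2 → ℂ}, Integrable g → Integrable (fun ξ => g ξ * ee (ph h x t ξ)) := by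
    intro g hg
    apply hg.mul_bdd (c := 1)
    · exact ((continuous_ee.comp (continuous_ph hh x t)).aestronglyMeasurable)
    · exact Eventually.of_forall fun ξ => (norm_ee _).le
  unfold ext
  rw [← integral_add (hI h1) (hI h2)]
  congr 1
  funext ξ
  ring

/-- level bound in `L^q` norm -/
lemma level_bound {h : E2 → ℝ} {q C : ℝ} (hq : 3 < q) (hC0 : 0 ≤ C)
    (hC : ∀ g : E2 → ℂ, Measurable g → (∀ ξ, ‖g ξ‖ ≤ 1) → (∀ ξ, 1 / 2 < ‖ξ‖ → g ξ = 0) →
      ∫⁻ z : E2 × ℝ, ‖ext h g z.1 z.2‖ₑ ^ q ≤ ENNReal.ofReal C * volume (Function.support g))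
    {g : E2 → ℂ} (hm : Measurable g) {a : ℝ} (ha : 0 < a) (hb : ∀ ξ, ‖g ξ‖ ≤ a)
    (hs : ∀ ξ, 1 / 2 < ‖ξ‖ → g ξ = 0) {v : ℝ} (hv0 : 0 ≤ v)
    (hv : volume (Function.support g) ≤ ENNReal.ofReal v) :
    eLpNorm (fun z : E2 × ℝ => ext h g z.1 z.2) (ENNReal.ofReal q) volume ≤
      ENNReal.ofReal (a * (C * v) ^ (1 / q)) := by
  have hq0 : 0 < q := by linarith
  set g1 : E2 → ℂ := fun ξ => ((a⁻¹ : ℝ) : ℂ) * g ξ with hg1
  have h1 : ∀ ξ, ‖g1 ξ‖ ≤ 1 := by
    intro ξ
    rw [hg1]
    simp only [norm_mul, Complex.norm_real, Real.norm_eq_abs, abs_inv, abs_of_pos ha]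
    rw [inv_mul_le_iff₀ ha, mul_one]
    exact hb ξ
  have h2 := hC g1 (hm.const_mul _) h1 (fun ξ hξ => by simp [hg1, hs ξ hξ])
  have h3 : Function.support g1 ⊆ Function.support g := by
    intro ξ hξ h0
    apply hξ
    simp [hg1, h0]
  have h4 : ∫⁻ z : E2 × ℝ, ‖ext h g1 z.1 z.2‖ₑ ^ q ≤ ENNReal.ofReal (C * v) := by
    rw [ENNReal.ofReal_mul hC0]
    exact h2.trans (mul_le_mul_right ((measure_mono h3).trans hv) _)
  have h5 : eLpNorm (fun z : E2 × ℝ => ext h g1 z.1 z.2) (ENNReal.ofReal q) volume ≤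
      ENNReal.ofReal ((C * v) ^ (1 / q)) := by
    rw [eLpNorm_eq_lintegral_rpow_enorm_toReal (by simpa using hq0) ENNReal.ofReal_ne_top,
      ENNReal.toReal_ofReal hq0.le]
    calc _ ≤ (ENNReal.ofReal (C * v)) ^ (1 / q) := ENNReal.rpow_le_rpow h4 (by positivity)
      _ = _ := by rw [ENNReal.ofReal_rpow_of_nonneg (by positivity) (by positivity)]
  have h6 : (fun z : E2 × ℝ => ext h g z.1 z.2) = (a : ℂ) • (fun z : E2 × ℝ => ext h g1 z.1 z.2) := by
    funext z
    simp only [Pi.smul_apply, smul_eq_mul]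
    rw [hg1, ext_smul, ← mul_assoc]
    have : (a : ℂ) ≠ 0 := by exact_mod_cast ha.ne'
    push_cast
    rw [mul_inv_cancel₀ this, one_mul]
  rw [h6, eLpNorm_const_smul]
  have h7 : ‖(a : ℂ)‖ₑ = ENNReal.ofReal a := by
    rw [← ofReal_norm_eq_enorm, Complex.norm_real, Real.norm_eq_abs, abs_of_pos ha]
  rw [h7, ENNReal.ofReal_mul ha.le]
  gcongr

/-- **Item 6.** -/
theorem strong_of_weak {h : E2 → ℝ} (hh : Continuous h) (WT : ∀ q : ℝ, 3 < q → WTq h q)
    (p : ℝ) (hp : 3 < p) :
    ∃ C : ℝ, ∀ g : E2 → ℂ, Measurable g → (∀ ξ, 1 / 2 < ‖ξ‖ → g ξ = 0) →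
      eLpNorm (fun z : E2 × ℝ => ext h g z.1 z.2) (ENNReal.ofReal p) volume ≤
        ENNReal.ofReal C * eLpNorm g (ENNReal.ofReal p) volume := by
  set q : ℝ := (3 + p) / 2 with hq
  have hq3 : 3 < q := by rw [hq]; linarith
  have hqp : q < p := by rw [hq]; linarith
  have hq0 : 0 < q := by linarith
  have hp0 : 0 < p := by linarith
  obtain ⟨C, hC0, hC⟩ := strong_restricted hh (q := q) (q' := (3 + q) / 2) (by linarith) (by linarith)
    (WT _ (by linarith))
  set V : ℝ := volume.real (Metric.closedBall (0 : E2) (1 / 2)) with hV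
  have hV0 : 0 ≤ V := measureReal_nonneg
  set S : ℝ := (C * V) ^ (1 / q) + ∑' k : ℕ, 2 ^ ((k : ℝ) + 1) * (C * 2 ^ (-(k : ℝ) * p)) ^ (1 / q) with hS
  have hterm : ∀ k : ℕ, 2 ^ ((k : ℝ) + 1) * (C * 2 ^ (-(k : ℝ) * p)) ^ (1 / q) =
      (2 * C ^ (1 / q)) * ((2 : ℝ) ^ (1 - p / q)) ^ k := by
    intro k
    rw [Real.mul_rpow hC0 (by positivity), ← Real.rpow_mul (by norm_num), ← Real.rpow_natCast,
      ← Real.rpow_mul (by norm_num), Real.rpow_add (by norm_num), Real.rpow_one]
    have : (2 : ℝ) ^ ((1 - p / q) * (k : ℝ)) = 2 ^ (k : ℝ) * 2 ^ (-(k : ℝ) * p * (1 / q)) := by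
      rw [← Real.rpow_add (by norm_num)]
      congr 1; field_simp; ring
    rw [this]; ring
  have hlt1 : (2 : ℝ) ^ (1 - p / q) < 1 := by
    apply Real.rpow_lt_one_of_one_lt_of_neg (by norm_num)
    have : 1 < p / q := by rw [lt_div_iff₀ hq0]; linarith
    linarith
  have hsum : Summable (fun k : ℕ => (2 : ℝ) ^ ((k : ℝ) + 1) * (C * 2 ^ (-(k : ℝ) * p)) ^ (1 / q)) := by
    simp_rw [hterm]
    exact (summable_geometric_of_lt_one (by positivity) hlt1).mul_left _
  have hS0 : 0 ≤ S := by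
    rw [hS]
    have : 0 ≤ ∑' k : ℕ, (2 : ℝ) ^ ((k : ℝ) + 1) * (C * 2 ^ (-(k : ℝ) * p)) ^ (1 / q) :=
      tsum_nonneg fun k => by positivity
    have : 0 ≤ (C * V) ^ (1 / q) := by positivity
    linarith
  set W : ℝ := (V + 1) ^ (1 - q / p) * S ^ (q / p) with hW
  have hW0 : 0 ≤ W := by positivity
  refine ⟨W + 1, ?_⟩
  intro g hm hs
  -- normalised statement
  have key : ∀ g : E2 → ℂ, Measurable g → (∀ ξ, 1 / 2 < ‖ξ‖ → g ξ = 0) →
      eLpNorm g (ENNReal.ofReal p) volume = 1 →
      eLpNorm (fun z : E2 × ℝ => ext h g z.1 z.2) (ENNReal.ofReal p) volume ≤ ENNReal.ofReal W := by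
    intro g hm hs hn
    have hpi : ∫⁻ ξ, ‖g ξ‖ₑ ^ p = 1 := by
      have := eLpNorm_eq_lintegral_rpow_enorm_toReal (μ := volume) (f := g) (p := ENNReal.ofReal p)
        (by simpa using hp0) ENNReal.ofReal_ne_top
      rw [ENNReal.toReal_ofReal hp0.le, hn] at this
      have h1 : (∫⁻ ξ, ‖g ξ‖ₑ ^ p) = ((∫⁻ ξ, ‖g ξ‖ₑ ^ p) ^ (1 / p)) ^ p := by
        rw [← ENNReal.rpow_mul, one_div_mul_cancel hp0.ne', ENNReal.rpow_one]
      rw [h1, ← this, ENNReal.one_rpow]
    -- L^1 bound
    have hL1 : ∫⁻ ξ, ‖g ξ‖ₑ ≤ ENNReal.ofReal (V + 1) := by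
      calc ∫⁻ ξ, ‖g ξ‖ₑ ≤ ∫⁻ ξ, ((Metric.closedBall (0 : E2) (1 / 2)).indicator (fun _ => (1 : ℝ≥0∞)) ξ + ‖g ξ‖ₑ ^ p) := by
            apply lintegral_mono
            intro ξ
            by_cases hξ : 1 / 2 < ‖ξ‖
            · simp [hs ξ hξ]
            · have hmem : ξ ∈ Metric.closedBall (0 : E2) (1 / 2) := by
                rw [Metric.mem_closedBall, dist_zero_right]; linarith
              simp only
              rw [indicator_of_mem hmem]
              rcases le_total ‖g ξ‖ₑ 1 with h1 | h1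
              · exact h1.trans le_self_add
              · calc ‖g ξ‖ₑ = ‖g ξ‖ₑ ^ (1 : ℝ) := (ENNReal.rpow_one _).symm
                  _ ≤ ‖g ξ‖ₑ ^ p := ENNReal.rpow_le_rpow_of_exponent_le h1 (by linarith)
                  _ ≤ _ := le_add_self
        _ = ENNReal.ofReal (V + 1) := by
            rw [lintegral_add_left (measurable_const.indicator measurableSet_closedBall),
              lintegral_indicator measurableSet_closedBall, hpi]
            simp only [lintegral_const, one_mul, Measure.restrict_apply MeasurableSet.univ, univ_inter]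
            rw [hV, ENNReal.ofReal_add measureReal_nonneg zero_le_one, ENNReal.ofReal_one,
              ofReal_measureReal measure_closedBall_lt_top.ne]
    have hgi : Integrable g := by
      refine ⟨hm.aestronglyMeasurable, ?_⟩
      exact hL1.trans_lt ENNReal.ofReal_lt_top
    -- truncations
    set G : ℕ → E2 → ℂ := fun n => {ξ | ‖g ξ‖ ≤ 2 ^ (n : ℝ)}.indicator g with hG
    have hmeasS : ∀ n : ℕ, MeasurableSet {ξ | ‖g ξ‖ ≤ 2 ^ (n : ℝ)} := fun n =>
      measurableSet_le hm.norm measurable_const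
    have hGm : ∀ n, Measurable (G n) := fun n => hm.indicator (hmeasS n)
    have hGs : ∀ n, ∀ ξ, 1 / 2 < ‖ξ‖ → G n ξ = 0 := fun n ξ hξ => by
      simp only [hG, indicator_apply, hs ξ hξ, ite_self]
    have hGb : ∀ n, ∀ ξ, ‖G n ξ‖ ≤ 2 ^ (n : ℝ) := fun n ξ => by
      simp only [hG, indicator_apply]
      split_ifs with hc
      · exact hc
      · rw [norm_zero]; positivity
    have hGi : ∀ n, Integrable (G n) := fun n => integrable_of_bdd (hGm n) (hGb n) (hGs n)
    set L : ℕ → E2 → ℂ := fun n => {ξ | 2 ^ (n : ℝ) < ‖g ξ‖ ∧ ‖g ξ‖ ≤ 2 ^ ((n : ℝ) + 1)}.indicator g with hL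
    have hLm : ∀ n, Measurable (L n) := fun n => hm.indicator
      ((measurableSet_lt measurable_const hm.norm).inter (measurableSet_le hm.norm measurable_const))
    have hLs : ∀ n, ∀ ξ, 1 / 2 < ‖ξ‖ → L n ξ = 0 := fun n ξ hξ => by
      simp only [hL, indicator_apply, hs ξ hξ, ite_self]
    have hLb : ∀ n, ∀ ξ, ‖L n ξ‖ ≤ 2 ^ ((n : ℝ) + 1) := fun n ξ => by
      simp only [hL, indicator_apply]
      split_ifs with hc
      · exact hc.2
      · rw [norm_zero]; positivity
    have hLi : ∀ n, Integrable (L n) := fun n => integrable_of_bdd (hLm n) (hLb n) (hLs n)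
    have hGL : ∀ n, ∀ ξ, G (n + 1) ξ = G n ξ + L n ξ := by
      intro n ξ
      have hmono : (2 : ℝ) ^ (n : ℝ) ≤ 2 ^ ((n : ℝ) + 1) :=
        Real.rpow_le_rpow_of_exponent_le (by norm_num) (by linarith)
      simp only [hG, hL, indicator_apply, mem_setOf_eq]
      push_cast
      by_cases h1 : ‖g ξ‖ ≤ 2 ^ (n : ℝ)
      · have h2 : ‖g ξ‖ ≤ 2 ^ ((n : ℝ) + 1) := h1.trans hmono
        have h3 : ¬ (2 ^ (n : ℝ) < ‖g ξ‖) := not_lt.2 h1
        rw [if_pos h2, if_pos h1, if_neg (fun hc => h3 hc.1), add_zero]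
      · have h3 : (2 ^ (n : ℝ) < ‖g ξ‖) := not_le.1 h1
        by_cases h2 : ‖g ξ‖ ≤ 2 ^ ((n : ℝ) + 1)
        · rw [if_pos h2, if_neg h1, if_pos ⟨h3, h2⟩, zero_add]
        · rw [if_neg h2, if_neg h1, if_neg (fun hc => h2 hc.2), zero_add]
    -- norms
    have hLq : ∀ n, eLpNorm (fun z : E2 × ℝ => ext h (L n) z.1 z.2) (ENNReal.ofReal q) volume ≤
        ENNReal.ofReal (2 ^ ((n : ℝ) + 1) * (C * 2 ^ (-(n : ℝ) * p)) ^ (1 / q)) := by
      intro n
      apply level_bound hq3 hC0 hC (hLm n) (by positivity) (hLb n) (hLs n) (by positivity)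
      -- Chebyshev
      have hsub : Function.support (L n) ⊆ {ξ | ENNReal.ofReal (2 ^ ((n : ℝ) * p)) ≤ ‖g ξ‖ₑ ^ p} := by
        intro ξ hξ
        have h1 : 2 ^ (n : ℝ) < ‖g ξ‖ := by
          by_contra h0
          apply hξ
          simp only [hL, indicator_apply, mem_setOf_eq]
          rw [if_neg (fun hc => h0 hc.1)]
        rw [mem_setOf_eq, ← ofReal_norm_eq_enorm, ENNReal.ofReal_rpow_of_nonneg (norm_nonneg _) hp0.le]
        apply ENNReal.ofReal_le_ofReal
        rw [Real.rpow_mul (by norm_num)]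
        exact Real.rpow_le_rpow (by positivity) h1.le hp0.le
      have hch := mul_meas_ge_le_lintegral₀ (μ := (volume : Measure E2)) (f := fun ξ => ‖g ξ‖ₑ ^ p)
        ((hm.enorm.pow_const p).aemeasurable) (ENNReal.ofReal (2 ^ ((n : ℝ) * p)))
      rw [hpi] at hch
      calc volume (Function.support (L n)) ≤ volume {ξ | ENNReal.ofReal (2 ^ ((n : ℝ) * p)) ≤ ‖g ξ‖ₑ ^ p} :=
            measure_mono hsub
        _ = ENNReal.ofReal (2 ^ (-(n : ℝ) * p)) * (ENNReal.ofReal (2 ^ ((n : ℝ) * p)) * volume {ξ | ENNReal.ofReal (2 ^ ((n : ℝ) * p)) ≤ ‖g ξ‖ₑ ^ p}) := by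
            rw [← mul_assoc, ← ENNReal.ofReal_mul (by positivity), ← Real.rpow_add (by norm_num)]
            have : -(n : ℝ) * p + (n : ℝ) * p = 0 := by ring
            rw [this, Real.rpow_zero, ENNReal.ofReal_one, one_mul]
        _ ≤ ENNReal.ofReal (2 ^ (-(n : ℝ) * p)) * 1 := by gcongr
        _ = _ := mul_one _
    have hG0 : eLpNorm (fun z : E2 × ℝ => ext h (G 0) z.1 z.2) (ENNReal.ofReal q) volume ≤
        ENNReal.ofReal ((C * V) ^ (1 / q)) := by
      have h1 := level_bound hq3 hC0 hC (hGm 0) (a := 1) one_pos (fun ξ => by simpa using hGb 0 ξ) (hGs 0) (v := V) hV0 (by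
        rw [hV, ofReal_measureReal measure_closedBall_lt_top.ne]
        apply measure_mono
        intro ξ hξ
        rw [Metric.mem_closedBall, dist_zero_right]
        by_contra h
        push Not at h
        exact hξ (hGs 0 ξ h))
      simpa using h1
    have hGq : ∀ n, eLpNorm (fun z : E2 × ℝ => ext h (G n) z.1 z.2) (ENNReal.ofReal q) volume ≤
        ENNReal.ofReal ((C * V) ^ (1 / q) + ∑ k ∈ Finset.range n, 2 ^ ((k : ℝ) + 1) * (C * 2 ^ (-(k : ℝ) * p)) ^ (1 / q)) := by
      intro n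
      induction n with
      | zero => simpa using hG0
      | succ n ih =>
        have e1 : (fun z : E2 × ℝ => ext h (G (n + 1)) z.1 z.2) =
            (fun z : E2 × ℝ => ext h (G n) z.1 z.2) + (fun z : E2 × ℝ => ext h (L n) z.1 z.2) := by
          funext z
          rw [Pi.add_apply, ← ext_add hh (hGi n) (hLi n)]
          congr 1
          funext ξ
          exact hGL n ξ
        rw [e1]
        refine (eLpNorm_add_le (continuous_ext hh (hGi n)).aestronglyMeasurable
          (continuous_ext hh (hLi n)).aestronglyMeasurable (by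
            rw [← ENNReal.ofReal_one]; exact ENNReal.ofReal_le_ofReal (by linarith))).trans ?_
        rw [Finset.sum_range_succ, ← add_assoc, ENNReal.ofReal_add (by positivity) (by positivity)]
        exact add_le_add ih (hLq n)
    have hGq' : ∀ n, eLpNorm (fun z : E2 × ℝ => ext h (G n) z.1 z.2) (ENNReal.ofReal q) volume ≤ ENNReal.ofReal S := by
      intro n
      refine (hGq n).trans (ENNReal.ofReal_le_ofReal ?_)
      rw [hS]
      gcongr
      exact hsum.sum_le_tsum _ (fun k _ => by positivity)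
    -- limit
    have hlim : ∀ z : E2 × ℝ, Tendsto (fun n => ext h (G n) z.1 z.2) atTop (𝓝 (ext h g z.1 z.2)) := by
      intro z
      unfold ext
      apply tendsto_integral_of_dominated_convergence (fun ξ => ‖g ξ‖)
      · intro n
        exact (hGm n).aestronglyMeasurable.mul
          ((continuous_ee.comp (continuous_ph hh z.1 z.2)).aestronglyMeasurable)
      · exact hgi.norm
      · intro n
        filter_upwards with ξ
        rw [norm_mul_ee]
        simp only [hG, indicator_apply]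
        split_ifs
        · exact le_rfl
        · simp
      · filter_upwards with ξ
        apply Tendsto.mul_const
        apply tendsto_const_nhds.congr'
        obtain ⟨N, hN⟩ := pow_unbounded_of_one_lt ‖g ξ‖ (one_lt_two)
        filter_upwards [eventually_ge_atTop N] with n hn
        simp only [hG, indicator_apply, mem_setOf_eq]
        rw [if_pos]
        rw [Real.rpow_natCast]
        exact hN.le.trans (pow_le_pow_right₀ one_le_two hn)
    have hq_norm : eLpNorm (fun z : E2 × ℝ => ext h g z.1 z.2) (ENNReal.ofReal q) volume ≤ ENNReal.ofReal S := by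
      refine (Lp.eLpNorm_lim_le_liminf_eLpNorm (fun n => (continuous_ext hh (hGi n)).aestronglyMeasurable) _
        (Eventually.of_forall hlim)).trans ?_
      exact liminf_le_of_le (by isBoundedDefault) (fun b hb => by
        obtain ⟨n, hn⟩ := hb.exists
        exact hn.trans (hGq' n))
    -- sup bound
    have hsup : ∀ z : E2 × ℝ, ‖ext h g z.1 z.2‖ₑ ≤ ENNReal.ofReal (V + 1) := by
      intro z
      rw [← ofReal_norm_eq_enorm]
      calc ENNReal.ofReal ‖ext h g z.1 z.2‖ ≤ ENNReal.ofReal (∫ ξ, ‖g ξ‖) :=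
            ENNReal.ofReal_le_ofReal (norm_ext_le h g z.1 z.2)
        _ = ∫⁻ ξ, ‖g ξ‖ₑ := by
            rw [ofReal_integral_norm_eq_lintegral_enorm hgi]
        _ ≤ _ := hL1
    have hqi : ∫⁻ z : E2 × ℝ, ‖ext h g z.1 z.2‖ₑ ^ q ≤ ENNReal.ofReal (S ^ q) := by
      rw [eLpNorm_eq_lintegral_rpow_enorm_toReal (by simpa using hq0) ENNReal.ofReal_ne_top,
        ENNReal.toReal_ofReal hq0.le] at hq_norm
      have h1 : (∫⁻ z : E2 × ℝ, ‖ext h g z.1 z.2‖ₑ ^ q) = ((∫⁻ z : E2 × ℝ, ‖ext h g z.1 z.2‖ₑ ^ q) ^ (1 / q)) ^ q := by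
        rw [← ENNReal.rpow_mul, one_div_mul_cancel hq0.ne', ENNReal.rpow_one]
      rw [h1, ← ENNReal.ofReal_rpow_of_nonneg hS0 hq0.le]
      exact ENNReal.rpow_le_rpow hq_norm hq0.le
    rw [eLpNorm_eq_lintegral_rpow_enorm_toReal (by simpa using hp0) ENNReal.ofReal_ne_top,
        ENNReal.toReal_ofReal hp0.le]
    have h2 : ∫⁻ z : E2 × ℝ, ‖ext h g z.1 z.2‖ₑ ^ p ≤ ENNReal.ofReal ((V + 1) ^ (p - q) * S ^ q) := by
      calc ∫⁻ z : E2 × ℝ, ‖ext h g z.1 z.2‖ₑ ^ p
          ≤ ∫⁻ z : E2 × ℝ, ENNReal.ofReal ((V + 1) ^ (p - q)) * ‖ext h g z.1 z.2‖ₑ ^ q := by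
            apply lintegral_mono
            intro z
            simp only
            rw [← ENNReal.ofReal_rpow_of_nonneg (by positivity) (by linarith)]
            calc ‖ext h g z.1 z.2‖ₑ ^ p = ‖ext h g z.1 z.2‖ₑ ^ (p - q) * ‖ext h g z.1 z.2‖ₑ ^ q := by
                  rw [← ENNReal.rpow_add_of_nonneg _ _ (by linarith) hq0.le]; congr 1; ring
              _ ≤ _ := by
                  gcongr
                  exact hsup z
        _ = ENNReal.ofReal ((V + 1) ^ (p - q)) * ∫⁻ z : E2 × ℝ, ‖ext h g z.1 z.2‖ₑ ^ q := by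
            rw [lintegral_const_mul' _ _ ENNReal.ofReal_ne_top]
        _ ≤ ENNReal.ofReal ((V + 1) ^ (p - q)) * ENNReal.ofReal (S ^ q) := by gcongr
        _ = _ := by rw [ENNReal.ofReal_mul (by positivity)]
    calc _ ≤ (ENNReal.ofReal ((V + 1) ^ (p - q) * S ^ q)) ^ (1 / p) := ENNReal.rpow_le_rpow h2 (by positivity)
      _ = ENNReal.ofReal W := by
          rw [ENNReal.ofReal_rpow_of_nonneg (by positivity) (by positivity)]
          congr 1
          rw [hW, Real.mul_rpow (by positivity) (by positivity), ← Real.rpow_mul (by positivity),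
            ← Real.rpow_mul hS0]
          congr 2 <;> field_simp
  -- general case
  rcases eq_or_ne (eLpNorm g (ENNReal.ofReal p) volume) 0 with h0 | h0
  · have hg0 : g =ᵐ[volume] 0 := by
      rwa [eLpNorm_eq_zero_iff hm.aestronglyMeasurable (by simpa using hp0)] at h0
    have : (fun z : E2 × ℝ => ext h g z.1 z.2) = fun _ => 0 := by
      funext z
      unfold ext
      rw [integral_eq_zero_of_ae]
      filter_upwards [hg0] with ξ hξ
      simp [hξ]
    rw [this]
    simp
  rcases eq_or_ne (eLpNorm g (ENNReal.ofReal p) volume) ∞ with h1 | h1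
  · rw [h1, ENNReal.mul_top]
    · exact le_top
    · simp only [ne_eq, ENNReal.ofReal_eq_zero, not_le]
      linarith
  set A : ℝ := (eLpNorm g (ENNReal.ofReal p) volume).toReal with hA
  have hA0 : 0 < A := ENNReal.toReal_pos h0 h1
  have hAe : ENNReal.ofReal A = eLpNorm g (ENNReal.ofReal p) volume := ENNReal.ofReal_toReal h1
  set g1 : E2 → ℂ := fun ξ => ((A⁻¹ : ℝ) : ℂ) * g ξ with hg1
  have hg1' : g1 = ((A⁻¹ : ℝ) : ℂ) • g := by
    funext ξ; simp [hg1]
  have hn1 : eLpNorm g1 (ENNReal.ofReal p) volume = 1 := by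
    rw [hg1', eLpNorm_const_smul]
    have h7 : ‖((A⁻¹ : ℝ) : ℂ)‖ₑ = ENNReal.ofReal A⁻¹ := by
      rw [← ofReal_norm_eq_enorm, Complex.norm_real, Real.norm_eq_abs, abs_of_pos (by positivity)]
    rw [h7, ← hAe, ← ENNReal.ofReal_mul (by positivity), inv_mul_cancel₀ hA0.ne', ENNReal.ofReal_one]
  have h2 := key g1 (hm.const_mul _) (fun ξ hξ => by simp [hg1, hs ξ hξ]) hn1
  have h6 : (fun z : E2 × ℝ => ext h g z.1 z.2) = (A : ℂ) • (fun z : E2 × ℝ => ext h g1 z.1 z.2) := by
    funext z
    simp only [Pi.smul_apply, smul_eq_mul]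
    rw [hg1, ext_smul, ← mul_assoc]
    have : (A : ℂ) ≠ 0 := by exact_mod_cast hA0.ne'
    push_cast
    rw [mul_inv_cancel₀ this, one_mul]
  rw [h6, eLpNorm_const_smul, ← hAe]
  have h7 : ‖(A : ℂ)‖ₑ = ENNReal.ofReal A := by
    rw [← ofReal_norm_eq_enorm, Complex.norm_real, Real.norm_eq_abs, abs_of_pos hA0]
  rw [h7, mul_comm]
  gcongr
  exact h2.trans (ENNReal.ofReal_le_ofReal (by linarith))

end Crest.Agent.R138.Bk57
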