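import Crest.Agent.R138.Rs1_134
import Mathlib.Analysis.Real.Pi.Bounds

/-!
Interfaces of the block `S0190 ⟸ local estimate` (doc 1587): `LocH`, `SparseOut`, `CoverOut`,
`WTOut`; and elementary facts about `ext` (Lipschitz bound, continuity).
-/

set_option autoImplicit false
set_option maxSynthPendingDepth 3

namespace Crest.Agent.R138.Rs134

open MeasureTheory Set Metric
open scoped ContDiff RealInnerProductSpace ENNReal

/-- The local restricted estimate for one fixed phase. -/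
def LocH (h : E2 → ℝ) : Prop :=
  ∀ ε : ℝ, 0 < ε → ∃ C : ℝ, ∀ g : E2 → ℂ, Measurable g →
    (∀ ξ, ‖g ξ‖ ≤ 1) → (∀ ξ, 1 < ‖ξ‖ → g ξ = 0) → ∀ R : ℝ, 1 ≤ R →
      ∫⁻ p in cyl 0 0 R, ‖ext h g p.1 p.2‖ₑ ^ 3 ≤
        ENNReal.ofReal (C * R ^ ε) * ∫⁻ ξ, ‖g ξ‖ₑ ^ 2

theorem locH_of_EInf {c0 : ℝ} {K : ℕ} (H : EInf c0 K) {h : E2 → ℝ} (hP : Par c0 K h) : LocH h := by
  intro ε hε
  obtain ⟨C, hC⟩ := H ε hε
  exact ⟨C, hC h hP⟩

/-- Output of the sparse lemma (item 1). -/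
def SparseOut (h : E2 → ℝ) : Prop :=
  ∃ C1 : ℝ, 1 ≤ C1 ∧ ∀ ε : ℝ, 0 < ε → ∃ C C2 : ℝ, 1 ≤ C ∧ 1 ≤ C2 ∧
    ∀ (M : ℕ) (R : ℝ) (x : Fin M → E2 × ℝ), 1 ≤ R →
      (∀ i j, i ≠ j → C2 * (R * M) ^ C1 ≤ ‖x i - x j‖) →
      ∀ g : E2 → ℂ, Measurable g → (∀ ξ, ‖g ξ‖ ≤ 1) → (∀ ξ, 1 / 2 < ‖ξ‖ → g ξ = 0) →
        ∑ i, ∫⁻ p in cyl (x i).1 (x i).2 R, ‖ext h g p.1 p.2‖ₑ ^ 3 ≤
          ENNReal.ofReal (C * (R * M) ^ ε) * ∫⁻ ξ, ‖g ξ‖ₑ ^ 2

/-- Output of the covering lemma (item 4); the exponent `A` must not depend on `C2`. -/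
def CoverOut : Prop :=
  ∀ (N : ℕ) (C1 : ℝ), 1 ≤ N → 0 ≤ C1 → ∃ A : ℝ, 1 ≤ A ∧ ∀ C2 : ℝ, 1 ≤ C2 → ∃ B : ℝ, 1 ≤ B ∧
    ∀ Z : Finset (E2 × ℝ), Z.Nonempty →
      ∃ (J : ℕ) (r : Fin J → ℝ) (F : Fin J → Finset (E2 × ℝ)),
        (J : ℝ) ≤ B * (Z.card : ℝ) ^ (1 / (N : ℝ)) ∧
        (∀ j, 1 ≤ r j ∧ r j ≤ B * (Z.card : ℝ) ^ A) ∧
        (∀ j, F j ⊆ Z) ∧
        (∀ j, ∀ x ∈ F j, ∀ y ∈ F j, x ≠ y → C2 * (r j * Z.card) ^ C1 ≤ dist x y) ∧
        ∀ z ∈ Z, ∃ j, ∃ x ∈ F j, dist z x + 1 ≤ r j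

/-- Weak type estimates (output of item 5). -/
def WTOut (h : E2 → ℝ) : Prop :=
  ∀ q : ℝ, 3 < q → ∃ C : ℝ, 0 ≤ C ∧ ∀ g : E2 → ℂ, Measurable g → (∀ ξ, ‖g ξ‖ ≤ 1) →
    (∀ ξ, 1 / 2 < ‖ξ‖ → g ξ = 0) → ∀ l : ℝ, 0 < l →
      volume {p : E2 × ℝ | l < ‖ext h g p.1 p.2‖} ≤
        ENNReal.ofReal (C * l ^ (-q)) * ∫⁻ ξ, ‖g ξ‖ₑ ^ 2

/-! ### `cyl` is a closed ball -/

theorem cyl_eq (p : E2 × ℝ) (R : ℝ) : cyl p.1 p.2 R = closedBall p R := by
  unfold cyl
  rw [← Real.closedBall_eq_Icc, closedBall_prod_same]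

theorem measurableSet_cyl (x : E2) (t R : ℝ) : MeasurableSet (cyl x t R) :=
  measurableSet_closedBall.prod measurableSet_Icc

theorem volume_cyl (x : E2) (t : ℝ) {R : ℝ} (hR : 0 ≤ R) :
    volume (cyl x t R) = ENNReal.ofReal (2 * Real.pi * R ^ 3) := by
  unfold cyl
  rw [Measure.volume_eq_prod, Measure.prod_prod, EuclideanSpace.volume_closedBall_fin_two,
    Real.volume_Icc, ← ENNReal.ofReal_pow hR, ← ENNReal.ofReal_mul (by positivity),
    ← ENNReal.ofReal_mul (by positivity)]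
  congr 1; ring

/-! ### Size and Lipschitz bounds for `ext` -/

theorem norm_ee_sub_le (s t : ℝ) : ‖ee s - ee t‖ ≤ 2 * Real.pi * |s - t| := by
  have h1 : ee s - ee t = ee t * (Complex.exp (Complex.I * ((2 * Real.pi * (s - t) : ℝ) : ℂ)) - 1) := by
    unfold ee
    rw [mul_sub, mul_one, ← Complex.exp_add]
    congr 2
    push_cast; ring
  rw [h1, norm_mul, norm_ee, one_mul]
  refine (Real.norm_exp_I_mul_ofReal_sub_one_le).trans ?_
  rw [Real.norm_eq_abs, abs_mul, abs_of_nonneg (by positivity)]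

theorem Par.norm_h_le {c0 : ℝ} {K : ℕ} {h : E2 → ℝ} (hP : Par c0 K h) (hK : 2 ≤ K) (ξ : E2) :
    |h ξ| ≤ (1 + c0) * ‖ξ‖ ^ 2 := by
  have hc0 := hP.c0_nonneg hK
  have hd : ∀ x ∈ closedBall (0 : E2) ‖ξ‖, HasFDerivWithinAt h (innerSL ℝ x + fderiv ℝ (pk h) x)
      (closedBall (0 : E2) ‖ξ‖) x := fun x _ => (hP.fderiv_h x).hasFDerivWithinAt
  have hb : ∀ x ∈ closedBall (0 : E2) ‖ξ‖, ‖innerSL ℝ x + fderiv ℝ (pk h) x‖ ≤ (1 + c0) * ‖ξ‖ := by
    intro x hx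
    have hx' : ‖x‖ ≤ ‖ξ‖ := by simpa [mem_closedBall, dist_zero_right] using hx
    refine (norm_add_le _ _).trans ?_
    rw [innerSL_apply_norm]
    calc ‖x‖ + ‖fderiv ℝ (pk h) x‖ ≤ ‖x‖ + c0 * ‖x‖ := by
          gcongr; exact hP.norm_fderiv_pk_le hK x
      _ = (1 + c0) * ‖x‖ := by ring
      _ ≤ _ := by gcongr
  have h1 := Convex.norm_image_sub_le_of_norm_hasFDerivWithin_le hd hb (convex_closedBall _ _)
    (mem_closedBall_self (norm_nonneg ξ)) (by simp [mem_closedBall, dist_zero_right] :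
      ξ ∈ closedBall (0 : E2) ‖ξ‖)
  rw [hP.zero, sub_zero, sub_zero, Real.norm_eq_abs] at h1
  calc |h ξ| ≤ _ := h1
    _ = _ := by ring

/-- Hypotheses on `g` used throughout. -/
structure Good (g : E2 → ℂ) : Prop where
  meas : Measurable g
  le_one : ∀ ξ, ‖g ξ‖ ≤ 1
  supp : ∀ ξ, 1 / 2 < ‖ξ‖ → g ξ = 0

theorem Good.integrable {g : E2 → ℂ} (hg : Good g) : Integrable g := by
  have h1 : IntegrableOn g (closedBall (0 : E2) (1 / 2)) := by
    refine Measure.integrableOn_of_bounded (M := 1) measure_closedBall_lt_top.ne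
      hg.meas.aestronglyMeasurable ?_
    exact Filter.Eventually.of_forall hg.le_one
  refine (integrableOn_iff_integrable_of_support_subset ?_).1 h1
  intro ξ hξ
  by_contra hcon
  exact hξ (hg.supp ξ (by simpa [mem_closedBall, dist_zero_right] using hcon))

theorem Good.integral_norm_le {g : E2 → ℂ} (hg : Good g) : ∫ ξ, ‖g ξ‖ ≤ Real.pi / 4 := by
  calc ∫ ξ, ‖g ξ‖ ≤ ∫ ξ, (closedBall (0 : E2) (1 / 2)).indicator (fun _ => (1 : ℝ)) ξ := by
        apply integral_mono_of_nonneg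
        · exact Filter.Eventually.of_forall fun _ => norm_nonneg _
        · exact (integrable_indicator_iff measurableSet_closedBall).2
            (integrableOn_const measure_closedBall_lt_top.ne)
        · refine Filter.Eventually.of_forall fun w => ?_
          by_cases hw : 1 / 2 < ‖w‖
          · simp only [hg.supp w hw, norm_zero]
            exact indicator_nonneg (fun _ _ => zero_le_one) w
          · simp only [indicator_of_mem (show w ∈ closedBall (0 : E2) (1 / 2) by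
              simpa [mem_closedBall, dist_zero_right] using not_lt.1 hw)]
            exact hg.le_one w
    _ = Real.pi / 4 := by
        rw [integral_indicator_const _ measurableSet_closedBall, Measure.real,
          EuclideanSpace.volume_closedBall_fin_two, ENNReal.toReal_mul, ENNReal.toReal_pow,
          ENNReal.toReal_ofReal (by norm_num), ENNReal.toReal_ofReal Real.pi_pos.le]
        norm_num
        ring

theorem Good.norm_ext_le {g : E2 → ℂ} (hg : Good g) (h : E2 → ℝ) (x : E2) (t : ℝ) :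
    ‖ext h g x t‖ ≤ 1 := by
  refine (Rs134.norm_ext_le h g x t).trans (hg.integral_norm_le.trans ?_)
  have := Real.pi_le_four
  linarith

theorem Good.lintegral_le_one {g : E2 → ℂ} (hg : Good g) : ∫⁻ ξ, ‖g ξ‖ₑ ^ 2 ≤ 1 := by
  calc ∫⁻ ξ, ‖g ξ‖ₑ ^ 2 ≤ ∫⁻ ξ, ‖g ξ‖ₑ := by
        apply lintegral_mono
        intro ξ
        have h1 : ‖g ξ‖ₑ ≤ 1 := by
          rw [← ofReal_norm]; exact ENNReal.ofReal_le_one.2 (hg.le_one ξ)
        calc ‖g ξ‖ₑ ^ 2 = ‖g ξ‖ₑ * ‖g ξ‖ₑ := sq _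
          _ ≤ ‖g ξ‖ₑ * 1 := by gcongr
          _ = _ := mul_one _
    _ = ENNReal.ofReal (∫ ξ, ‖g ξ‖) := (ofReal_integral_norm_eq_lintegral_enorm hg.integrable).symm
    _ ≤ 1 := by
        rw [← ENNReal.ofReal_one]
        apply ENNReal.ofReal_le_ofReal
        have := Real.pi_le_four
        linarith [hg.integral_norm_le]

theorem Good.lip {c0 : ℝ} {K : ℕ} {h : E2 → ℝ} (hP : Par c0 K h) (hK : 2 ≤ K) (hc : c0 ≤ 1)
    {g : E2 → ℂ} (hg : Good g) (p p' : E2 × ℝ) :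
    ‖ext h g p.1 p.2 - ext h g p'.1 p'.2‖ ≤ 5 * dist p p' := by
  have hhc : Continuous h := hP.smooth.continuous
  have hi : ∀ q : E2 × ℝ, Integrable (fun ξ => g ξ * ee (ph h q.1 q.2 ξ)) := by
    intro q
    refine hg.integrable.mul_bdd (c := 1)
      (continuous_ee.comp (continuous_ph hhc q.1 q.2)).aestronglyMeasurable ?_
    exact Filter.Eventually.of_forall fun ξ => (norm_ee _).le
  have hpt : ∀ ξ, ‖g ξ * ee (ph h p.1 p.2 ξ) - g ξ * ee (ph h p'.1 p'.2 ξ)‖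
      ≤ ‖g ξ‖ * (2 * Real.pi * dist p p') := by
    intro ξ
    rw [← mul_sub, norm_mul]
    by_cases hξ : 1 / 2 < ‖ξ‖
    · simp [hg.supp ξ hξ]
    · have hξ' : ‖ξ‖ ≤ 1 / 2 := not_lt.1 hξ
      apply mul_le_mul_of_nonneg_left _ (norm_nonneg _)
      refine (norm_ee_sub_le _ _).trans ?_
      apply mul_le_mul_of_nonneg_left _ (by positivity)
      rw [← ph_sub]
      unfold ph
      have h1 : |⟪p.1 - p'.1, ξ⟫| ≤ dist p p' * (1 / 2) := by
        refine (abs_real_inner_le_norm _ _).trans ?_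
        have : ‖p.1 - p'.1‖ ≤ dist p p' := by
          rw [dist_eq_norm]; exact norm_fst_le (p - p')
        exact mul_le_mul this hξ' (norm_nonneg _) dist_nonneg
      have h2 : |(p.2 - p'.2) * h ξ| ≤ dist p p' * (1 / 2) := by
        rw [abs_mul]
        have e1 : |p.2 - p'.2| ≤ dist p p' := by
          rw [dist_eq_norm, ← Real.norm_eq_abs]; exact norm_snd_le (p - p')
        have e2 : |h ξ| ≤ 1 / 2 := by
          refine (hP.norm_h_le hK ξ).trans ?_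
          nlinarith [norm_nonneg ξ]
        exact mul_le_mul e1 e2 (abs_nonneg _) dist_nonneg
      calc |⟪p.1 - p'.1, ξ⟫ + (p.2 - p'.2) * h ξ| ≤ _ := abs_add_le _ _
        _ ≤ dist p p' * (1 / 2) + dist p p' * (1 / 2) := add_le_add h1 h2
        _ = dist p p' := by ring
  unfold ext
  rw [← integral_sub (hi p) (hi p')]
  calc ‖∫ ξ, (g ξ * ee (ph h p.1 p.2 ξ) - g ξ * ee (ph h p'.1 p'.2 ξ))‖
      ≤ ∫ ξ, ‖g ξ * ee (ph h p.1 p.2 ξ) - g ξ * ee (ph h p'.1 p'.2 ξ)‖ :=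
        norm_integral_le_integral_norm _
    _ ≤ ∫ ξ, ‖g ξ‖ * (2 * Real.pi * dist p p') := by
        apply integral_mono_of_nonneg
        · exact Filter.Eventually.of_forall fun _ => norm_nonneg _
        · exact hg.integrable.norm.mul_const _
        · exact Filter.Eventually.of_forall hpt
    _ = (∫ ξ, ‖g ξ‖) * (2 * Real.pi * dist p p') := integral_mul_const _ _
    _ ≤ (Real.pi / 4) * (2 * Real.pi * dist p p') := by
        gcongr; exact hg.integral_norm_le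
    _ = (Real.pi ^ 2 / 2) * dist p p' := by ring
    _ ≤ 5 * dist p p' := by
        gcongr
        have h1 := Real.pi_lt_d2
        have h2 := Real.pi_pos
        nlinarith

theorem Good.continuous_ext {c0 : ℝ} {K : ℕ} {h : E2 → ℝ} (hP : Par c0 K h) (hK : 2 ≤ K)
    (hc : c0 ≤ 1) {g : E2 → ℂ} (hg : Good g) : Continuous fun p : E2 × ℝ => ext h g p.1 p.2 := by
  have : LipschitzWith 5 fun p : E2 × ℝ => ext h g p.1 p.2 := by
    refine LipschitzWith.of_dist_le_mul fun p p' => ?_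
    rw [dist_eq_norm]
    exact_mod_cast hg.lip hP hK hc p p'
  exact this.continuous

end Crest.Agent.R138.Rs134
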