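import Crest.Agent.R138.Bk2_57
import Crest.Agent.R138.Bk3_57
import Crest.Agent.R138.Rs4_134

/-!
Exact outputs for the block `S0190 ⟸ local estimate` (134's frozen interfaces, Rs4_134):
`coverOut : CoverOut` and `WTOut h ⟹` strong type `(p, p)` for every `p > 3`.
-/

set_option autoImplicit false

namespace Crest.Agent.R138.Bk57

open MeasureTheory
open scoped ENNReal
open Crest.Agent.R138.Rs134

theorem coverOut : CoverOut := fun N C1 hN hC1 => cover (E2 × ℝ) N C1 hN hC1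

theorem wtq_of_WTOut {h : E2 → ℝ} (H : WTOut h) : ∀ q : ℝ, 3 < q → WTq h q := by
  intro q hq
  obtain ⟨C, _, hC⟩ := H q hq
  exact ⟨C, hC⟩

/-- The strong type conclusion for one phase. -/
def StrongOut (h : E2 → ℝ) : Prop :=
  ∀ p : ℝ, 3 < p → ∃ C : ℝ, ∀ g : E2 → ℂ, Measurable g → (∀ ξ, 1 / 2 < ‖ξ‖ → g ξ = 0) →
    eLpNorm (fun z : E2 × ℝ => ext h g z.1 z.2) (ENNReal.ofReal p) volume ≤
      ENNReal.ofReal C * eLpNorm g (ENNReal.ofReal p) volume

/-- **Item 6.** -/
theorem strongOut_of_WTOut {h : E2 → ℝ} (hh : Continuous h) (H : WTOut h) : StrongOut h :=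
  fun p hp => strong_of_weak hh (wtq_of_WTOut H) p hp

theorem strongOut_of_WTOut_par {c0 : ℝ} {K : ℕ} {h : E2 → ℝ} (hP : Par c0 K h) (H : WTOut h) :
    StrongOut h := strongOut_of_WTOut hP.smooth.continuous H

end Crest.Agent.R138.Bk57
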