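import Mathlib

/-! R138, broad/narrow end, part 1 (helper759).
Pure combinatorics and abstract measure theory:
* `three_or_strip`: a finite planar set contains a fat triangle or lies in a strip;
* `sum_dich`: a finite sum is dominated by one piece or by two far pieces;
* `bn_abs`: the broad / bilinear / narrow inequality at one ball. -/

set_option autoImplicit false

open MeasureTheory
open scoped ENNReal

namespace Crest.Agent.R138.Bn759

/-- the plane. -/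
abbrev P2 := EuclideanSpace ℝ (Fin 2)

/-- the determinant of two vectors. -/
def dt (v w : P2) : ℝ := v 0 * w 1 - v 1 * w 0

/-- the rotated vector. -/
noncomputable def rot (v : P2) : P2 := WithLp.toLp 2 ![-(v 1), v 0]

lemma inner_eq (v w : P2) : inner ℝ v w = v 0 * w 0 + v 1 * w 1 := by
  simp [PiLp.inner_apply, Fin.sum_univ_two]
  ring

lemma norm_sq (v : P2) : ‖v‖ ^ 2 = v 0 ^ 2 + v 1 ^ 2 := by
  rw [← real_inner_self_eq_norm_sq, inner_eq]; ring

lemma inner_rot (v w : P2) : inner ℝ w (rot v) = dt v w := by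
  rw [inner_eq]; simp [rot, dt]; ring

lemma norm_rot (v : P2) : ‖rot v‖ = ‖v‖ := by
  have : ‖rot v‖ ^ 2 = ‖v‖ ^ 2 := by
    rw [norm_sq, norm_sq]; simp [rot]; ring
  exact (sq_eq_sq₀ (norm_nonneg _) (norm_nonneg _)).1 this

lemma abs_dt_le (v w : P2) : |dt v w| ≤ ‖v‖ * ‖w‖ := by
  rw [← inner_rot, mul_comm]
  calc |inner ℝ w (rot v)| ≤ ‖w‖ * ‖rot v‖ := abs_real_inner_le_norm _ _
    _ = ‖w‖ * ‖v‖ := by rw [norm_rot]

lemma dt_add_add (v w a b : P2) : dt (v + a) (w + b) = dt v w + dt v b + dt a w + dt a b := by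
  simp [dt]; ring

/-- fat triangle: `j` is at distance `≥ ρ` from `i`, `k` is not further from `i` than `j` and at
distance `≥ ρ` from the line `ij`. -/
def Fat (ρ : ℝ) (a b c : P2) : Prop :=
  ρ ≤ ‖b - a‖ ∧ ‖c - a‖ ≤ ‖b - a‖ ∧ ρ * ‖b - a‖ ≤ |dt (b - a) (c - a)|

/-- a fat triangle stays fat under small perturbations. -/
lemma Fat.dt_ge {ρ : ℝ} (hρ : 0 < ρ) {a b c : P2} (h : Fat ρ a b c) {a' b' c' : P2}
    (ha : ‖a' - a‖ ≤ ρ / 20) (hb : ‖b' - b‖ ≤ ρ / 20) (hc : ‖c' - c‖ ≤ ρ / 20) :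
    ρ ^ 2 / 2 ≤ |dt (b' - a') (c' - a')| := by
  obtain ⟨h1, h2, h3⟩ := h
  have e1 : b' - a' = (b - a) + ((b' - b) - (a' - a)) := by abel
  have e2 : c' - a' = (c - a) + ((c' - c) - (a' - a)) := by abel
  have hn1 : ‖(b' - b) - (a' - a)‖ ≤ ρ / 10 := by
    calc _ ≤ ‖b' - b‖ + ‖a' - a‖ := norm_sub_le _ _
      _ ≤ ρ / 10 := by linarith
  have hn2 : ‖(c' - c) - (a' - a)‖ ≤ ρ / 10 := by
    calc _ ≤ ‖c' - c‖ + ‖a' - a‖ := norm_sub_le _ _
      _ ≤ ρ / 10 := by linarith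
  rw [e1, e2, dt_add_add]
  set v := b - a
  set w := c - a
  set x := (b' - b) - (a' - a)
  set y := (c' - c) - (a' - a)
  have q1 : |dt v y| ≤ ‖v‖ * (ρ / 10) :=
    (abs_dt_le v y).trans (mul_le_mul_of_nonneg_left hn2 (norm_nonneg _))
  have q2 : |dt x w| ≤ (ρ / 10) * ‖v‖ :=
    (abs_dt_le x w).trans (mul_le_mul hn1 h2 (norm_nonneg _) (by positivity))
  have q3 : |dt x y| ≤ (ρ / 10) * (ρ / 10) :=
    (abs_dt_le x y).trans (mul_le_mul hn1 hn2 (norm_nonneg _) (by positivity))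
  have hv : 0 ≤ ‖v‖ := norm_nonneg _
  have q4 : ρ * ρ ≤ ρ * ‖v‖ := mul_le_mul_of_nonneg_left h1 hρ.le
  have t1 := abs_le.1 q1
  have t2 := abs_le.1 q2
  have t3 := abs_le.1 q3
  rcases le_abs.1 h3 with h3 | h3
  · refine le_abs.2 (Or.inl ?_)
    nlinarith
  · refine le_abs.2 (Or.inr ?_)
    nlinarith

/-- **fat triangle or strip**. -/
theorem three_or_strip {ι : Type*} (s : Finset ι) (c : ι → P2) {ρ : ℝ} (hρ : 0 < ρ) :
    (∃ i ∈ s, ∃ j ∈ s, ∃ k ∈ s, Fat ρ (c i) (c j) (c k)) ∨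
      ∃ u : P2, ‖u‖ = 1 ∧ ∃ b : ℝ, ∀ i ∈ s, |inner ℝ (c i) u - b| ≤ ρ := by
  classical
  have hu0 : ∃ u : P2, ‖u‖ = 1 := ⟨EuclideanSpace.single 0 1, by simp⟩
  rcases s.eq_empty_or_nonempty with hs | hs
  · subst hs
    obtain ⟨u, hu⟩ := hu0
    exact Or.inr ⟨u, hu, 0, by simp⟩
  · obtain ⟨⟨i, j⟩, hij, hmax⟩ := Finset.exists_max_image (s ×ˢ s)
      (fun q : ι × ι => ‖c q.2 - c q.1‖) (hs.product hs)
    rw [Finset.mem_product] at hij
    have hmax' : ∀ k ∈ s, ‖c k - c i‖ ≤ ‖c j - c i‖ := fun k hk =>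
      hmax (i, k) (Finset.mem_product.2 ⟨hij.1, hk⟩)
    rcases lt_or_ge ‖c j - c i‖ ρ with hd | hd
    · obtain ⟨u, hu⟩ := hu0
      refine Or.inr ⟨u, hu, inner ℝ (c i) u, fun k hk => ?_⟩
      rw [← inner_sub_left]
      calc |inner ℝ (c k - c i) u| ≤ ‖c k - c i‖ * ‖u‖ := abs_real_inner_le_norm _ _
        _ ≤ ρ := by rw [hu, mul_one]; exact (hmax' k hk).trans hd.le
    · by_cases h : ∃ k ∈ s, ρ * ‖c j - c i‖ ≤ |dt (c j - c i) (c k - c i)|
      · obtain ⟨k, hk, hk'⟩ := h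
        exact Or.inl ⟨i, hij.1, j, hij.2, k, hk, hd, hmax' k hk, hk'⟩
      · push Not at h
        have hd0 : 0 < ‖c j - c i‖ := hρ.trans_le hd
        refine Or.inr ⟨(‖c j - c i‖)⁻¹ • rot (c j - c i), ?_,
          inner ℝ (c i) ((‖c j - c i‖)⁻¹ • rot (c j - c i)), fun k hk => ?_⟩
        · rw [norm_smul, norm_rot, norm_inv, norm_norm, inv_mul_cancel₀ hd0.ne']
        · rw [← inner_sub_left, inner_smul_right, inner_rot, abs_mul, abs_of_pos (inv_pos.2 hd0)]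
          rw [inv_mul_le_iff₀ hd0, mul_comm]
          exact (h k hk).le

/-- a finite sum of nonnegative numbers is dominated by one of them or by two far ones. -/
theorem sum_dich {A : Type*} [Fintype A] [Nonempty A] (near : A → A → Prop) (m : ℕ)
    (hnear : ∀ a (s : Finset A), (∀ b ∈ s, near a b) → s.card ≤ m) (x : A → ℝ≥0∞) :
    (∃ a, ∑ b, x b ≤ (m + 1) * x a) ∨
      ∃ a b, ¬ near a b ∧ (∑ c, x c) ^ 2 ≤ (Fintype.card A : ℝ≥0∞) ^ 3 * (x a * x b) := by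
  classical
  obtain ⟨a, -, ha⟩ := Finset.exists_max_image (Finset.univ : Finset A) x Finset.univ_nonempty
  have ha' : ∀ b, x b ≤ x a := fun b => ha b (Finset.mem_univ b)
  have hN : (Fintype.card A : ℝ≥0∞) ≠ 0 := by
    simpa using (Fintype.card_pos (α := A)).ne'
  have hN' : (Fintype.card A : ℝ≥0∞) ≠ ∞ := ENNReal.natCast_ne_top _
  by_cases h : ∃ b, ¬ near a b ∧ x a ≤ (Fintype.card A : ℝ≥0∞) * x b
  · obtain ⟨b, hb, hb'⟩ := h
    refine Or.inr ⟨a, b, hb, ?_⟩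
    have h1 : ∑ c, x c ≤ (Fintype.card A : ℝ≥0∞) * x a := by
      calc ∑ c, x c ≤ ∑ _c : A, x a := Finset.sum_le_sum fun c _ => ha' c
        _ = _ := by simp
    calc (∑ c, x c) ^ 2 ≤ ((Fintype.card A : ℝ≥0∞) * x a) ^ 2 := by gcongr
      _ = (Fintype.card A : ℝ≥0∞) ^ 2 * (x a * x a) := by ring
      _ ≤ (Fintype.card A : ℝ≥0∞) ^ 2 * (x a * ((Fintype.card A : ℝ≥0∞) * x b)) := by gcongr
      _ = _ := by ring
  · push Not at h
    refine Or.inl ⟨a, ?_⟩
    have hfar : ∑ b ∈ Finset.univ.filter (fun b => ¬ near a b), x b ≤ x a := by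
      calc ∑ b ∈ Finset.univ.filter (fun b => ¬ near a b), x b
          ≤ ∑ b ∈ Finset.univ.filter (fun b => ¬ near a b), (Fintype.card A : ℝ≥0∞)⁻¹ * x a := by
            refine Finset.sum_le_sum fun b hb => ?_
            have := (h b (Finset.mem_filter.1 hb).2).le
            rw [mul_comm, ← div_eq_mul_inv, ENNReal.le_div_iff_mul_le (Or.inl hN) (Or.inl hN'),
              mul_comm]
            exact this
        _ = ((Finset.univ.filter (fun b => ¬ near a b)).card : ℝ≥0∞) *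
              ((Fintype.card A : ℝ≥0∞)⁻¹ * x a) := by simp
        _ ≤ (Fintype.card A : ℝ≥0∞) * ((Fintype.card A : ℝ≥0∞)⁻¹ * x a) := by
            gcongr
            exact Finset.card_le_univ _
        _ = x a := by rw [← mul_assoc, ENNReal.mul_inv_cancel hN hN', one_mul]
    have hnr : ∑ b ∈ Finset.univ.filter (fun b => near a b), x b ≤ m * x a := by
      calc ∑ b ∈ Finset.univ.filter (fun b => near a b), x b
          ≤ ∑ b ∈ Finset.univ.filter (fun b => near a b), x a :=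
            Finset.sum_le_sum fun b _ => ha' b
        _ = ((Finset.univ.filter (fun b => near a b)).card : ℝ≥0∞) * x a := by simp
        _ ≤ m * x a := by
            gcongr
            exact hnear a _ fun b hb => (Finset.mem_filter.1 hb).2
    rw [← Finset.sum_filter_add_sum_filter_not Finset.univ (fun b => near a b)]
    calc _ ≤ m * x a + x a := add_le_add hnr hfar
      _ = _ := by ring

lemma cube_add_le (a b : ℝ≥0∞) : (a + b) ^ 3 ≤ 4 * (a ^ 3 + b ^ 3) := by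
  rcases eq_or_ne a ∞ with ha | ha
  · subst ha; simp
  rcases eq_or_ne b ∞ with hb | hb
  · subst hb; simp
  lift a to NNReal using ha
  lift b to NNReal using hb
  norm_cast
  rw [← NNReal.coe_le_coe]
  push_cast
  have h1 : (0:ℝ) ≤ a := a.2
  have h2 : (0:ℝ) ≤ b := b.2
  nlinarith [mul_nonneg h1 h2, mul_nonneg (add_nonneg h1 h2) (sq_nonneg ((a:ℝ) - b))]

lemma rpow_three_halves_sq (y : ℝ≥0∞) : (y ^ 2) ^ (3 / 2 : ℝ) = y ^ 3 := by
  rw [← ENNReal.rpow_natCast y 2, ← ENNReal.rpow_mul, ← ENNReal.rpow_natCast y 3]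
  norm_num

/-- Jensen for the exponent `3/2`. -/
lemma lintegral_three_halves {X : Type*} [MeasurableSpace X] (μ : Measure X)
    [IsProbabilityMeasure μ] {y : X → ℝ≥0∞} (hy : AEMeasurable y μ) :
    ∫⁻ x, y x ^ (3 / 2 : ℝ) ∂μ ≤ (∫⁻ x, y x ^ 2 ∂μ) ^ (3 / 4 : ℝ) := by
  have h := ENNReal.lintegral_mul_le_Lp_mul_Lq μ
    (p := 4 / 3) (q := 4) ⟨by norm_num, by norm_num, by norm_num⟩
    (f := fun x => y x ^ (3 / 2 : ℝ)) (g := fun _ => 1) (hy.pow_const _) aemeasurable_const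
  simp only [Pi.mul_apply, mul_one, ENNReal.one_rpow, lintegral_const, measure_univ] at h
  refine h.trans (le_of_eq ?_)
  have e : ∀ x, (y x ^ (3 / 2 : ℝ)) ^ (4 / 3 : ℝ) = y x ^ 2 := fun x => by
    rw [← ENNReal.rpow_mul, ← ENNReal.rpow_natCast (y x) 2]
    norm_num
  simp only [e]
  norm_num

lemma sum_pair_le {A : Type*} [Fintype A] (y : A × A → ℝ≥0∞) (P : A × A → Prop)
    [DecidablePred P] (p : A × A) (hp : P p) :
    y p ≤ ∑ q ∈ Finset.univ.filter P, y q :=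
  Finset.single_le_sum (f := y) (fun _ _ => bot_le) (by simp [hp])

/-- the pointwise cubic form of the dichotomy. -/
lemma sum_cube_dich {A : Type*} [Fintype A] [Nonempty A] (near : A → A → Prop)
    [DecidableRel near] (m : ℕ)
    (hnear : ∀ a (s : Finset A), (∀ b ∈ s, near a b) → s.card ≤ m) (x F : A → ℝ≥0∞)
    (M0 : ℝ≥0∞) (hxF : ∀ a, x a ≤ F a + M0) :
    (∑ a, x a) ^ 3 ≤ 4 * (m + 1) ^ 3 * (∑ a, F a ^ 3 + M0 ^ 3) +
      (Fintype.card A : ℝ≥0∞) ^ 5 * ∑ p ∈ Finset.univ.filter (fun p : A × A => ¬ near p.1 p.2),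
            (x p.1 * x p.2) ^ (3 / 2 : ℝ) := by
  rcases sum_dich near m hnear x with ⟨a, ha⟩ | ⟨a, b, hab, h⟩
  · refine le_trans ?_ le_self_add
    calc (∑ a, x a) ^ 3 ≤ ((m + 1) * x a) ^ 3 := by gcongr
      _ ≤ ((m + 1) * (F a + M0)) ^ 3 := by gcongr; exact hxF a
      _ = (m + 1) ^ 3 * (F a + M0) ^ 3 := by ring
      _ ≤ (m + 1) ^ 3 * (4 * (F a ^ 3 + M0 ^ 3)) := by gcongr; exact cube_add_le _ _
      _ ≤ (m + 1) ^ 3 * (4 * (∑ a, F a ^ 3 + M0 ^ 3)) := by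
          gcongr
          exact Finset.single_le_sum (f := fun a => F a ^ 3) (fun _ _ => bot_le)
            (Finset.mem_univ a)
      _ = _ := by ring
  · refine le_trans ?_ le_add_self
    have hN1 : (1 : ℝ≥0∞) ≤ (Fintype.card A : ℝ≥0∞) := by
      exact_mod_cast Fintype.card_pos (α := A)
    calc (∑ a, x a) ^ 3 = ((∑ a, x a) ^ 2) ^ (3 / 2 : ℝ) :=
          (rpow_three_halves_sq _).symm
      _ ≤ ((Fintype.card A : ℝ≥0∞) ^ 3 * (x a * x b)) ^ (3 / 2 : ℝ) := by gcongr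
      _ = ((Fintype.card A : ℝ≥0∞) ^ 3) ^ (3 / 2 : ℝ) * (x a * x b) ^ (3 / 2 : ℝ) :=
          ENNReal.mul_rpow_of_nonneg _ _ (by norm_num)
      _ ≤ (Fintype.card A : ℝ≥0∞) ^ 5 * (x a * x b) ^ (3 / 2 : ℝ) := by
          gcongr
          rw [← ENNReal.rpow_natCast _ 3, ← ENNReal.rpow_mul, ← ENNReal.rpow_natCast _ 5]
          exact ENNReal.rpow_le_rpow_of_exponent_le hN1 (by norm_num)
      _ ≤ _ := mul_le_mul_right
          (sum_pair_le (fun p => (x p.1 * x p.2) ^ (3 / 2 : ℝ)) (fun p => ¬ near p.1 p.2) (a, b) hab) _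

set_option maxHeartbeats 1000000 in
/-- **broad / bilinear / narrow at one ball.** -/
theorem bn_abs {X : Type*} [MeasurableSpace X] (μ : Measure X) [IsProbabilityMeasure μ]
    {J A : Type*} [Fintype J] [Nonempty J] [DecidableEq J] [Fintype A] [Nonempty A]
    [DecidableEq A] (α : J → A)
    (near : A → A → Prop) [DecidableRel near] (m : ℕ)
    (hnear : ∀ a (s : Finset A), (∀ b ∈ s, near a b) → s.card ≤ m)
    (c : J → P2) {ρ : ℝ} (hρ : 0 < ρ) (f : J → X → ℂ) (hf : ∀ j, Measurable (f j))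
    (Mx : J → ℝ≥0∞) (hM : ∀ j, ∀ᵐ x ∂μ, ‖f j x‖ₑ ≤ Mx j) (Q C1 C2 : ℝ≥0∞)
    (hQ : ∀ j, Mx j ^ 2 ≤ C1 * Q)
    (hbil : ∀ S : Finset J, (∃ u : P2, ‖u‖ = 1 ∧ ∃ b : ℝ, ∀ j, j ∈ S ↔ |inner ℝ (c j) u - b| ≤ ρ) →
      ∀ a₁ a₂, ¬ near a₁ a₂ →
        ∫⁻ x, (‖∑ j ∈ S.filter (fun j => α j = a₁), f j x‖ₑ *
          ‖∑ j ∈ S.filter (fun j => α j = a₂), f j x‖ₑ) ^ 2 ∂μ ≤ C2 * Q ^ 2)
    (T : Finset (J × J × J)) (hT : ∀ i j k, Fat ρ (c i) (c j) (c k) → (i, j, k) ∈ T) :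
    ∫⁻ x, ‖∑ j, f j x‖ₑ ^ 3 ∂μ ≤
      16 * (m + 1) ^ 3 * ∑ a, ∫⁻ x, ‖∑ j ∈ Finset.univ.filter (fun j => α j = a), f j x‖ₑ ^ 3 ∂μ +
      (20 * (m + 1) ^ 3 * C1 ^ (3 / 2 : ℝ) + 4 * (Fintype.card A : ℝ≥0∞) ^ 7 * C2 ^ (3 / 4 : ℝ)) *
        Q ^ (3 / 2 : ℝ) +
      (Fintype.card J : ℝ≥0∞) ^ 6 * ∑ q ∈ T, Mx q.1 * Mx q.2.1 * Mx q.2.2 := by
  classical
  obtain ⟨j₀, -, hj₀⟩ := Finset.exists_max_image (Finset.univ : Finset J) Mx Finset.univ_nonempty
  have hmax : ∀ j, Mx j ≤ Mx j₀ := fun j => hj₀ j (Finset.mem_univ j)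
  set M0 := Mx j₀ with hM0
  set n : ℝ≥0∞ := (Fintype.card J : ℝ≥0∞) with hn
  have hn0 : n ≠ 0 := by simpa [hn] using (Fintype.card_pos (α := J)).ne'
  have hn1 : n ≠ ∞ := ENNReal.natCast_ne_top _
  have hall : ∀ᵐ x ∂μ, ∀ j, ‖f j x‖ₑ ≤ Mx j := ae_all_iff.2 hM
  have enorm_sum : ∀ (s : Finset J) (x : X), ‖∑ j ∈ s, f j x‖ₑ ≤ ∑ j ∈ s, ‖f j x‖ₑ := fun s x =>
    enorm_sum_le _ _
  rcases three_or_strip (Finset.univ.filter (fun j => M0 ≤ n * Mx j)) c hρ with
    ⟨i, hi, j, hj, k, hk, hF⟩ | ⟨u, hu, b, hS⟩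
  · -- broad case
    refine le_trans ?_ le_add_self
    have hi' := (Finset.mem_filter.1 hi).2
    have hj' := (Finset.mem_filter.1 hj).2
    have hk' := (Finset.mem_filter.1 hk).2
    calc ∫⁻ x, ‖∑ j, f j x‖ₑ ^ 3 ∂μ ≤ ∫⁻ _x, (n * M0) ^ 3 ∂μ := by
          refine lintegral_mono_ae ?_
          filter_upwards [hall] with x hx
          refine pow_le_pow_left' ?_ 3
          calc ‖∑ j, f j x‖ₑ ≤ ∑ j, ‖f j x‖ₑ := enorm_sum _ x
            _ ≤ ∑ _j : J, M0 := Finset.sum_le_sum fun j _ => (hx j).trans (hmax j)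
            _ = n * M0 := by simp [hn]
      _ = n ^ 3 * (M0 * M0 * M0) := by
          rw [lintegral_const, measure_univ, mul_one]; ring
      _ ≤ n ^ 3 * ((n * Mx i) * (n * Mx j) * (n * Mx k)) := by gcongr
      _ = n ^ 6 * (Mx i * Mx j * Mx k) := by ring
      _ ≤ n ^ 6 * ∑ q ∈ T, Mx q.1 * Mx q.2.1 * Mx q.2.2 := by
          gcongr
          exact Finset.single_le_sum (f := fun q : J × J × J => Mx q.1 * Mx q.2.1 * Mx q.2.2)
            (fun _ _ => bot_le) (hT i j k hF)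
  · -- strip case
    refine le_trans ?_ le_self_add
    set S : Finset J := Finset.univ.filter (fun j => |inner ℝ (c j) u - b| ≤ ρ) with hSdef
    have hSS : ∀ j, j ∈ S ↔ |inner ℝ (c j) u - b| ≤ ρ := fun j => by simp [hSdef]
    have hout : ∀ j, j ∉ S → Mx j ≤ n⁻¹ * M0 := fun j hj => by
      have h1 : j ∉ Finset.univ.filter (fun j => M0 ≤ n * Mx j) := fun h => hj ((hSS j).2 (hS j h))
      rw [Finset.mem_filter, not_and, not_le] at h1
      have h2 := (h1 (Finset.mem_univ j)).le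
      rw [mul_comm, ← div_eq_mul_inv, ENNReal.le_div_iff_mul_le (Or.inl hn0) (Or.inl hn1), mul_comm]
      exact h2
    have houts : ∀ s : Finset J, (∀ j ∈ s, j ∉ S) → ∑ j ∈ s, Mx j ≤ M0 := fun s hs => by
      calc ∑ j ∈ s, Mx j ≤ ∑ j ∈ s, n⁻¹ * M0 := Finset.sum_le_sum fun j hj => hout j (hs j hj)
        _ = (s.card : ℝ≥0∞) * (n⁻¹ * M0) := by simp
        _ ≤ n * (n⁻¹ * M0) := by
            have h5 : (s.card : ℝ≥0∞) ≤ n := by
              rw [hn]; exact_mod_cast Finset.card_le_univ s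
            exact mul_le_mul_left h5 _
        _ = M0 := by rw [← mul_assoc, ENNReal.mul_inv_cancel hn0 hn1, one_mul]
    set N : ℝ≥0∞ := (Fintype.card A : ℝ≥0∞) with hN
    set xa : A → X → ℝ≥0∞ := fun a x => ‖∑ j ∈ S.filter (fun j => α j = a), f j x‖ₑ with hxa
    set Fa : A → X → ℝ≥0∞ := fun a x =>
      ‖∑ j ∈ Finset.univ.filter (fun j => α j = a), f j x‖ₑ with hFa
    have hxm : ∀ a, Measurable (xa a) := fun a =>
      (Finset.measurable_fun_sum _ fun j _ => hf j).enorm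
    have hFm : ∀ a, Measurable (Fa a) := fun a =>
      (Finset.measurable_fun_sum _ fun j _ => hf j).enorm
    have hpt : ∀ᵐ x ∂μ, ‖∑ j, f j x‖ₑ ^ 3 ≤ 16 * (m + 1) ^ 3 * ∑ a, Fa a x ^ 3 +
        20 * (m + 1) ^ 3 * M0 ^ 3 +
        4 * N ^ 5 * ∑ p ∈ Finset.univ.filter (fun p : A × A => ¬ near p.1 p.2),
          (xa p.1 x * xa p.2 x) ^ (3 / 2 : ℝ) := by
      filter_upwards [hall] with x hx
      -- the sum is `F_S + F_{S^c}`
      have h1 : ‖∑ j, f j x‖ₑ ≤ ∑ a, xa a x + M0 := by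
        have e : ∑ j, f j x = ∑ a, (∑ j ∈ S.filter (fun j => α j = a), f j x) +
            ∑ j ∈ Sᶜ, f j x := by
          rw [Finset.sum_fiberwise, Finset.sum_add_sum_compl]
        rw [e]
        refine (enorm_add_le _ _).trans (add_le_add (enorm_sum_le _ _) ?_)
        refine (enorm_sum _ _).trans ((Finset.sum_le_sum fun j _ => hx j).trans ?_)
        exact houts _ fun j hj => Finset.mem_compl.1 hj
      have h2 : ∀ a, xa a x ≤ Fa a x + M0 := fun a => by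
        have e : ∑ j ∈ S.filter (fun j => α j = a), f j x =
            ∑ j ∈ Finset.univ.filter (fun j => α j = a), f j x -
              ∑ j ∈ Sᶜ.filter (fun j => α j = a), f j x := by
          rw [eq_sub_iff_add_eq, ← Finset.sum_union]
          · congr 1
            ext j
            simp only [Finset.mem_union, Finset.mem_filter, Finset.mem_compl, Finset.mem_univ,
              true_and]
            tauto
          · rw [Finset.disjoint_left]
            intro j h1 h2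
            simp only [Finset.mem_filter, Finset.mem_compl] at h1 h2
            exact h2.1 h1.1
        simp only [hxa, hFa]
        rw [e]
        refine (enorm_sub_le).trans (add_le_add le_rfl ?_)
        refine (enorm_sum _ _).trans ((Finset.sum_le_sum fun j _ => hx j).trans ?_)
        exact houts _ fun j hj => Finset.mem_compl.1 (Finset.mem_filter.1 hj).1
      have h3 : (∑ a, xa a x) ^ 3 ≤ 4 * (m + 1) ^ 3 * (∑ a, Fa a x ^ 3 + M0 ^ 3) +
          N ^ 5 * ∑ p ∈ Finset.univ.filter (fun p : A × A => ¬ near p.1 p.2),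
            (xa p.1 x * xa p.2 x) ^ (3 / 2 : ℝ) :=
        sum_cube_dich near m hnear (fun a => xa a x) (fun a => Fa a x) M0 h2
      calc ‖∑ j, f j x‖ₑ ^ 3 ≤ (∑ a, xa a x + M0) ^ 3 := by gcongr
        _ ≤ 4 * ((∑ a, xa a x) ^ 3 + M0 ^ 3) := cube_add_le _ _
        _ ≤ 4 * ((4 * (m + 1) ^ 3 * (∑ a, Fa a x ^ 3 + M0 ^ 3) +
          N ^ 5 * ∑ p ∈ Finset.univ.filter (fun p : A × A => ¬ near p.1 p.2),
            (xa p.1 x * xa p.2 x) ^ (3 / 2 : ℝ)) + (m + 1) ^ 3 * M0 ^ 3) := by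
            gcongr
            calc M0 ^ 3 = 1 * M0 ^ 3 := (one_mul _).symm
              _ ≤ (m + 1) ^ 3 * M0 ^ 3 := by
                gcongr
                exact one_le_pow₀ (by simp)
        _ = _ := by ring
    have hM03 : M0 ^ 3 ≤ C1 ^ (3 / 2 : ℝ) * Q ^ (3 / 2 : ℝ) := by
      rw [← rpow_three_halves_sq, ← ENNReal.mul_rpow_of_nonneg _ _ (by norm_num)]
      gcongr
      exact hQ j₀
    calc ∫⁻ x, ‖∑ j, f j x‖ₑ ^ 3 ∂μ ≤ ∫⁻ x, (16 * (m + 1) ^ 3 * ∑ a, Fa a x ^ 3 +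
        20 * (m + 1) ^ 3 * M0 ^ 3 +
        4 * N ^ 5 * ∑ p ∈ Finset.univ.filter (fun p : A × A => ¬ near p.1 p.2),
          (xa p.1 x * xa p.2 x) ^ (3 / 2 : ℝ)) ∂μ := lintegral_mono_ae hpt
      _ = 16 * (m + 1) ^ 3 * ∑ a, ∫⁻ x, Fa a x ^ 3 ∂μ + 20 * (m + 1) ^ 3 * M0 ^ 3 +
          4 * N ^ 5 * ∑ p ∈ Finset.univ.filter (fun p : A × A => ¬ near p.1 p.2),
            ∫⁻ x, (xa p.1 x * xa p.2 x) ^ (3 / 2 : ℝ) ∂μ := by
          rw [lintegral_add_right, lintegral_add_right, lintegral_const_mul, lintegral_finsetSum,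
            lintegral_const, measure_univ, mul_one, lintegral_const_mul, lintegral_finsetSum]
          · exact fun p _ => ((hxm p.1).mul (hxm p.2)).pow_const _
          · exact Finset.measurable_fun_sum _ fun p _ => ((hxm p.1).mul (hxm p.2)).pow_const _
          · exact fun a _ => (hFm a).pow_const _
          · exact Finset.measurable_fun_sum _ fun a _ => (hFm a).pow_const _
          · exact measurable_const
          · exact (Finset.measurable_fun_sum _ fun p _ =>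
              ((hxm p.1).mul (hxm p.2)).pow_const _).const_mul _
      _ ≤ 16 * (m + 1) ^ 3 * ∑ a, ∫⁻ x, Fa a x ^ 3 ∂μ +
          20 * (m + 1) ^ 3 * (C1 ^ (3 / 2 : ℝ) * Q ^ (3 / 2 : ℝ)) +
          4 * N ^ 5 * (N ^ 2 * (C2 ^ (3 / 4 : ℝ) * Q ^ (3 / 2 : ℝ))) := by
          gcongr
          calc ∑ p ∈ Finset.univ.filter (fun p : A × A => ¬ near p.1 p.2),
                ∫⁻ x, (xa p.1 x * xa p.2 x) ^ (3 / 2 : ℝ) ∂μ
              ≤ ∑ p ∈ Finset.univ.filter (fun p : A × A => ¬ near p.1 p.2),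
                C2 ^ (3 / 4 : ℝ) * Q ^ (3 / 2 : ℝ) := by
                refine Finset.sum_le_sum fun p hp => ?_
                have hp' := (Finset.mem_filter.1 hp).2
                refine (lintegral_three_halves μ ((hxm p.1).mul (hxm p.2)).aemeasurable).trans ?_
                calc (∫⁻ x, (xa p.1 x * xa p.2 x) ^ 2 ∂μ) ^ (3 / 4 : ℝ)
                    ≤ (C2 * Q ^ 2) ^ (3 / 4 : ℝ) := by
                      gcongr
                      exact hbil S ⟨u, hu, b, hSS⟩ p.1 p.2 hp'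
                  _ = C2 ^ (3 / 4 : ℝ) * Q ^ (3 / 2 : ℝ) := by
                      rw [ENNReal.mul_rpow_of_nonneg _ _ (by norm_num), ← ENNReal.rpow_natCast Q 2,
                        ← ENNReal.rpow_mul]
                      norm_num
            _ = ((Finset.univ.filter (fun p : A × A => ¬ near p.1 p.2)).card : ℝ≥0∞) *
                (C2 ^ (3 / 4 : ℝ) * Q ^ (3 / 2 : ℝ)) := by simp
            _ ≤ N ^ 2 * (C2 ^ (3 / 4 : ℝ) * Q ^ (3 / 2 : ℝ)) := by
                gcongr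
                have : (Finset.univ.filter (fun p : A × A => ¬ near p.1 p.2)).card ≤
                    Fintype.card A ^ 2 := by
                  refine (Finset.card_le_univ _).trans ?_
                  rw [Fintype.card_prod, sq]
                rw [hN]
                exact_mod_cast this
      _ = _ := by ring

end Crest.Agent.R138.Bn759
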