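import Crest.Agent.R138.Bn3_759

/-! R138, broad/narrow end, part 4 (helper759): measure of the balls, integrals of the weights,
pieces of an extension function. -/

set_option autoImplicit false

open MeasureTheory
open scoped ENNReal

namespace Crest.Agent.R138.Bn759

open Crest.Agent.R138.Defs (E2 ee ext ParB cyl)
open Crest.Agent.R138.Bil882 (NearId ee_eq Gam W)

instance instHaarER : (volume : Measure (E2 × ℝ)).IsAddHaarMeasure := by
  rw [Measure.volume_eq_prod]; infer_instance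

lemma finrank_ER : Module.finrank ℝ (E2 × ℝ) = 3 := by simp

lemma lintegral_comp_scale {f : E2 × ℝ → ℝ≥0∞} (hf : Measurable f) {K : ℝ} (hK : 0 < K)
    (z : E2 × ℝ) :
    ∫⁻ p : E2 × ℝ, f (K⁻¹ • (p - z)) = ENNReal.ofReal (K ^ 3) * ∫⁻ p : E2 × ℝ, f p := by
  have h1 : ∫⁻ p : E2 × ℝ, f (K⁻¹ • (p - z)) = ∫⁻ p : E2 × ℝ, f (K⁻¹ • p) :=
    lintegral_sub_right_eq_self (fun p => f (K⁻¹ • p)) z
  have h2 := Measure.map_addHaar_smul (volume : Measure (E2 × ℝ)) (r := K⁻¹) (by positivity)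
  have h3 : ∫⁻ p : E2 × ℝ, f (K⁻¹ • p) =
      ∫⁻ p, f p ∂(Measure.map (K⁻¹ • · : E2 × ℝ → E2 × ℝ) (volume : Measure (E2 × ℝ))) :=
    (lintegral_map hf (measurable_const_smul _)).symm
  rw [h1, h3, h2, lintegral_smul_measure, finrank_ER, smul_eq_mul]
  congr 2
  rw [inv_pow, inv_inv, abs_of_pos (by positivity)]

lemma measurableSet_U (K : ℝ) (z : E2 × ℝ) : MeasurableSet (U K z) :=
  (isClosed_le (f := fun p : E2 × ℝ => ‖p.1 - z.1‖ + |p.2 - z.2|) (g := fun _ => K)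
    (by fun_prop) continuous_const).measurableSet

/-- the volume of the unit ball. -/
noncomputable def v0 : ℝ≥0∞ := volume (U 1 (0 : E2 × ℝ))

lemma v0_ne_zero : v0 ≠ 0 := by
  have h1 : Metric.ball (0 : E2 × ℝ) (1 / 2) ⊆ U 1 0 := by
    intro p hp
    rw [mem_ball_zero_iff] at hp
    have h2 := (norm_fst_le p).trans hp.le
    have h3 := (norm_snd_le p).trans hp.le
    rw [Real.norm_eq_abs] at h3
    show ‖p.1 - 0‖ + |p.2 - 0| ≤ 1
    rw [sub_zero, sub_zero]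
    linarith
  have h2 : 0 < volume (Metric.ball (0 : E2 × ℝ) (1 / 2)) :=
    Metric.measure_ball_pos _ _ (by norm_num)
  exact (h2.trans_le (measure_mono h1)).ne'

lemma v0_ne_top : v0 ≠ ∞ := by
  have h1 : U 1 (0 : E2 × ℝ) ⊆ Metric.closedBall (0 : E2 × ℝ) 1 := by
    intro p hp
    have h2 : ‖p.1 - 0‖ + |p.2 - 0| ≤ 1 := hp
    rw [sub_zero, sub_zero] at h2
    rw [mem_closedBall_zero_iff, Prod.norm_def, max_le_iff, Real.norm_eq_abs]
    constructor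
    · linarith [abs_nonneg p.2]
    · linarith [norm_nonneg p.1]
  exact ((measure_mono h1).trans_lt measure_closedBall_lt_top).ne

lemma mem_U_iff {K : ℝ} (hK : 0 < K) (z p : E2 × ℝ) :
    p ∈ U K z ↔ K⁻¹ • (p - z) ∈ U 1 (0 : E2 × ℝ) := by
  show ‖p.1 - z.1‖ + |p.2 - z.2| ≤ K ↔ ‖(K⁻¹ • (p - z)).1 - 0‖ + |(K⁻¹ • (p - z)).2 - 0| ≤ 1
  rw [sub_zero, sub_zero, Prod.smul_fst, Prod.smul_snd, Prod.fst_sub, Prod.snd_sub, norm_smul,
    norm_inv, Real.norm_of_nonneg hK.le, smul_eq_mul, abs_mul, abs_of_pos (inv_pos.2 hK), ← mul_add,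
    inv_mul_le_iff₀ hK, mul_one]

lemma volume_U {K : ℝ} (hK : 0 < K) (z : E2 × ℝ) :
    volume (U K z) = ENNReal.ofReal (K ^ 3) * v0 := by
  have h1 := lintegral_comp_scale
    (f := (U 1 (0 : E2 × ℝ)).indicator 1) (measurable_one.indicator (measurableSet_U 1 0)) hK z
  rw [lintegral_indicator_one (measurableSet_U 1 0)] at h1
  rw [v0, ← h1, ← lintegral_indicator_one (measurableSet_U K z)]
  refine lintegral_congr fun p => ?_
  by_cases hp : p ∈ U K z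
  · rw [Set.indicator_of_mem hp, Set.indicator_of_mem ((mem_U_iff hK z p).1 hp)]; rfl
  · rw [Set.indicator_of_notMem hp, Set.indicator_of_notMem fun h => hp ((mem_U_iff hK z p).2 h)]

/-- the integral of the weight of the unit ball. -/
noncomputable def IW (N : ℕ) : ℝ≥0∞ := ∫⁻ p : E2 × ℝ, ENNReal.ofReal (wz N 1 0 p)

lemma IW_ne_top {N : ℕ} (hN : 4 ≤ N) : IW N ≠ ∞ := by
  have h1 : Integrable (fun p : E2 × ℝ => (1 + ‖p‖) ^ (-(4:ℝ))) :=
    integrable_one_add_norm (by rw [finrank_ER]; norm_num)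
  have h2 : ∫⁻ p : E2 × ℝ, ENNReal.ofReal ((1 + ‖p‖) ^ (-(4:ℝ))) < ∞ := by
    have := h1.2
    rw [hasFiniteIntegral_iff_ofReal (Filter.Eventually.of_forall fun p => by positivity)] at this
    exact this
  refine ((lintegral_mono fun p => ENNReal.ofReal_le_ofReal ?_).trans_lt h2).ne
  refine (wz_anti hN one_pos 0 p).trans ?_
  rw [wz_eq, Real.rpow_neg (by positivity), show (4:ℝ) = ((4:ℕ):ℝ) by norm_num, Real.rpow_natCast]
  have h3 : ‖p‖ ≤ ‖p.1‖ + |p.2| := by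
    rw [Prod.norm_def, max_le_iff, Real.norm_eq_abs]
    constructor
    · linarith [abs_nonneg p.2]
    · linarith [norm_nonneg p.1]
  have e : ‖p.1 - (0 : E2 × ℝ).1‖ + |p.2 - (0 : E2 × ℝ).2| = ‖p.1‖ + |p.2| := by simp
  rw [e, div_one]
  exact inv_anti₀ (by positivity) (by gcongr)

lemma measurable_wz (N : ℕ) (K : ℝ) (z : E2 × ℝ) : Measurable (wz N K z) :=
  Crest.Agent.R138.Bil882.measurable_wt N K z.1 z.2

lemma lintegral_wz (N : ℕ) {K : ℝ} (hK : 0 < K) (z : E2 × ℝ) :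
    ∫⁻ p : E2 × ℝ, ENNReal.ofReal (wz N K z p) = ENNReal.ofReal (K ^ 3) * IW N := by
  rw [IW, ← lintegral_comp_scale (measurable_wz N 1 0).ennreal_ofReal hK z]
  refine lintegral_congr fun p => ?_
  congr 1
  rw [wz_eq, wz_eq]
  congr 2
  rw [Prod.smul_fst, Prod.smul_snd, Prod.fst_sub, Prod.snd_sub, Prod.fst_zero, Prod.snd_zero,
    sub_zero, sub_zero, norm_smul, norm_inv, Real.norm_of_nonneg hK.le, smul_eq_mul, abs_mul,
    abs_of_pos (inv_pos.2 hK), ← mul_add, div_one, inv_mul_eq_div]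

/-- weighted Cauchy–Schwarz. -/
lemma cs_wz (N : ℕ) {K : ℝ} (hK : 0 < K) (z : E2 × ℝ) {f : E2 × ℝ → ℝ≥0∞} (hf : Measurable f) :
    (∫⁻ p : E2 × ℝ, f p * ENNReal.ofReal (wz N K z p)) ^ 2 ≤
      (∫⁻ p : E2 × ℝ, f p ^ 2 * ENNReal.ofReal (wz N K z p)) * (ENNReal.ofReal (K ^ 3) * IW N) := by
  have hw := (measurable_wz N K z).ennreal_ofReal
  rw [← lintegral_wz N hK z]
  have h := ENNReal.lintegral_mul_le_Lp_mul_Lq (volume : Measure (E2 × ℝ))
    (p := 2) (q := 2) ⟨by norm_num, by norm_num, by norm_num⟩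
    (f := fun p => f p * (ENNReal.ofReal (wz N K z p)) ^ (1 / 2 : ℝ))
    (g := fun p => (ENNReal.ofReal (wz N K z p)) ^ (1 / 2 : ℝ))
    ((hf.mul (hw.pow_const _)).aemeasurable) (hw.pow_const _).aemeasurable
  have e1 : ∀ p : E2 × ℝ, ((fun p => f p * (ENNReal.ofReal (wz N K z p)) ^ (1 / 2 : ℝ)) *
      (fun p => (ENNReal.ofReal (wz N K z p)) ^ (1 / 2 : ℝ))) p =
      f p * ENNReal.ofReal (wz N K z p) := by
    intro p
    simp only [Pi.mul_apply]
    rw [mul_assoc, ← ENNReal.rpow_add_of_nonneg _ _ (by norm_num) (by norm_num)]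
    norm_num
  have e2 : ∀ p : E2 × ℝ, (f p * (ENNReal.ofReal (wz N K z p)) ^ (1 / 2 : ℝ)) ^ (2:ℝ) =
      f p ^ 2 * ENNReal.ofReal (wz N K z p) := by
    intro p
    rw [ENNReal.mul_rpow_of_nonneg _ _ (by norm_num), ← ENNReal.rpow_mul]
    norm_num
  have e3 : ∀ p : E2 × ℝ, ((ENNReal.ofReal (wz N K z p)) ^ (1 / 2 : ℝ)) ^ (2:ℝ) =
      ENNReal.ofReal (wz N K z p) := by
    intro p
    rw [← ENNReal.rpow_mul]
    norm_num
  simp only [e1, e2, e3] at h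
  calc (∫⁻ p : E2 × ℝ, f p * ENNReal.ofReal (wz N K z p)) ^ 2
      ≤ ((∫⁻ p : E2 × ℝ, f p ^ 2 * ENNReal.ofReal (wz N K z p)) ^ (1 / 2 : ℝ) *
        (∫⁻ p : E2 × ℝ, ENNReal.ofReal (wz N K z p)) ^ (1 / 2 : ℝ)) ^ 2 := by gcongr
    _ = _ := by
        rw [mul_pow, ← ENNReal.rpow_natCast, ← ENNReal.rpow_natCast, ← ENNReal.rpow_mul,
          ← ENNReal.rpow_mul]
        norm_num

end Crest.Agent.R138.Bn759
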