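import Crest.Agent.R138.Bn4_759

/-! R138, broad/narrow end, part 5 (helper759): pieces of an extension function and their
localisation. -/

set_option autoImplicit false

open MeasureTheory
open scoped ENNReal

namespace Crest.Agent.R138.Bn759

open Crest.Agent.R138.Defs (E2 ee ext ParB cyl)
open Crest.Agent.R138.Bil882 (NearId ee_eq Gam W lip_of_grad norm_le_add planar_bilinear wt)

/-- admissible densities. -/
structure Nice (r : ℝ) (g : E2 → ℂ) : Prop where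
  m : Measurable g
  b : ∃ M, ∀ ξ, ‖g ξ‖ ≤ M
  s : ∀ ξ, r < ‖ξ‖ → g ξ = 0

/-- multiplication by the bumps of `T` at scale `1/κ` in direction space. -/
noncomputable def pc (h : E2 → ℝ) (κ : ℝ) (T : Finset (ℤ × ℤ)) (g : E2 → ℂ) : E2 → ℂ :=
  fun ξ => mm h κ (Ph T) ξ * g ξ

lemma continuous_mm {B : ℕ → ℝ} {h : E2 → ℝ} (hh : ParB B h) (κ : ℝ) (T : Finset (ℤ × ℤ)) :
    Continuous (mm h κ (Ph T)) :=
  (contDiff_mm hh.1 κ (Complex.ofRealCLM.contDiff.comp (contDiff_sum_th2 T))).continuous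

lemma Nice.pc {B : ℕ → ℝ} {h : E2 → ℝ} (hh : ParB B h) {r : ℝ} {g : E2 → ℂ} (hg : Nice r g)
    (κ : ℝ) (T : Finset (ℤ × ℤ)) : Nice r (pc h κ T g) :=
  ⟨(continuous_mm hh κ T).measurable.mul hg.m, bdd_mul hg.b fun _ => norm_Ph_le T _, supp_mul hg.s⟩

lemma Nice.zero (r : ℝ) : Nice r (fun _ => 0) :=
  ⟨measurable_const, ⟨0, fun _ => by simp⟩, fun _ _ => rfl⟩

lemma Nice.integrable {r : ℝ} {g : E2 → ℂ} (hg : Nice r g) : Integrable g :=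
  integrable_of_bdd hg.m hg.b hg.s

lemma Nice.ext_integrable {h : E2 → ℝ} (hh : Continuous h) {r : ℝ} {g : E2 → ℂ} (hg : Nice r g)
    (x : E2) (t : ℝ) : Integrable fun ξ => g ξ * ee (inner ℝ x ξ + t * h ξ) := by
  refine hg.integrable.norm.mono' ?_ (Filter.Eventually.of_forall fun ξ => ?_)
  · exact (hg.m.mul (continuous_ee.comp (by fun_prop)).measurable).aestronglyMeasurable
  · rw [norm_mul, norm_ee, mul_one]

lemma Nice.cont {h : E2 → ℝ} (hh : Continuous h) {r : ℝ} {g : E2 → ℂ} (hg : Nice r g) :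
    Continuous fun p : E2 × ℝ => ext h g p.1 p.2 := continuous_ext hh hg.m hg.b hg.s

lemma ext_sum {h : E2 → ℝ} (hh : Continuous h) {r : ℝ} {ι : Type*} (s : Finset ι)
    {G : ι → E2 → ℂ} (hG : ∀ i ∈ s, Nice r (G i)) (x : E2) (t : ℝ) :
    ext h (fun ξ => ∑ i ∈ s, G i ξ) x t = ∑ i ∈ s, ext h (G i) x t := by
  unfold Crest.Agent.R138.Defs.ext
  rw [← integral_finsetSum s fun i hi => (hG i hi).ext_integrable hh x t]
  refine integral_congr_ae (Filter.Eventually.of_forall fun ξ => ?_)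
  simp only [Finset.sum_mul]

/-- index type of the pieces. -/
abbrev JJ (n n1 : ℕ) := {p // p ∈ sq n} × {a // a ∈ sq n1}

/-- the piece with index `j`. -/
noncomputable def Gj (h : E2 → ℝ) (K K1 : ℝ) (g : E2 → ℂ) {n n1 : ℕ} (j : JJ n n1) : E2 → ℂ :=
  pc h K {(j.1 : ℤ × ℤ)} (pc h K1 {(j.2 : ℤ × ℤ)} g)

lemma sum_Gj (h : E2 → ℝ) (K K1 : ℝ) (g : E2 → ℂ) {n n1 : ℕ} (S : Finset (JJ n n1))
    (a : {a // a ∈ sq n1}) (hS : ∀ j ∈ S, j.2 = a) (ξ : E2) :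
    ∑ j ∈ S, Gj h K K1 g j ξ =
      pc h K (S.image fun j => (j.1 : ℤ × ℤ)) (pc h K1 {(a : ℤ × ℤ)} g) ξ := by
  unfold Gj pc mm Ph
  rw [Finset.sum_image]
  · push_cast
    rw [Finset.sum_mul]
    refine Finset.sum_congr rfl fun j hj => ?_
    rw [hS j hj]
    simp
  · intro i hi j hj hij
    have h1 : i.1 = j.1 := Subtype.ext hij
    have h2 : i.2 = j.2 := (hS i hi).trans (hS j hj).symm
    exact Prod.ext h1 h2

lemma pc_full {h : E2 → ℝ} {κ : ℝ} {n : ℕ} {g : E2 → ℂ} {r : ℝ} (hg : ∀ ξ, r < ‖ξ‖ → g ξ = 0)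
    (hn : ∀ ξ, ‖ξ‖ ≤ r → ‖κ • gradient h ξ‖ ≤ n) : pc h κ (sq n) g = g := by
  funext ξ
  unfold pc mm Ph
  by_cases hξ : ‖ξ‖ ≤ r
  · rw [sum_th2 (hn ξ hξ)]; simp
  · rw [hg ξ (not_le.1 hξ), mul_zero]

lemma pc_ne_zero {h : E2 → ℝ} {κ : ℝ} {T : Finset (ℤ × ℤ)} {g : E2 → ℂ} {ξ : E2}
    (hξ : pc h κ T g ξ ≠ 0) : g ξ ≠ 0 ∧ ∃ p ∈ T, ‖κ • gradient h ξ - lv p‖ ≤ 3 / 2 := by
  unfold pc mm Ph at hξ
  refine ⟨right_ne_zero_of_mul hξ, ?_⟩
  have h1 : ∑ a ∈ T, th2 a (κ • gradient h ξ) ≠ 0 := by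
    intro h0
    apply left_ne_zero_of_mul hξ
    rw [h0, Complex.ofReal_zero]
  obtain ⟨p, hp, hp'⟩ := Finset.exists_ne_zero_of_sum_ne_zero h1
  refine ⟨p, hp, ?_⟩
  have h2 := th2_ne_zero hp'
  have h3 := (sq_lt_one_iff_abs_lt_one _).2 h2.1
  have h4 := (sq_lt_one_iff_abs_lt_one _).2 h2.2
  have h5 : ‖κ • gradient h ξ - lv p‖ ^ 2 < 2 := by
    rw [norm_sq]
    have e0 : (κ • gradient h ξ - lv p) 0 = (κ • gradient h ξ) 0 - p.1 := by simp [lv]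
    have e1 : (κ • gradient h ξ - lv p) 1 = (κ • gradient h ξ) 1 - p.2 := by simp [lv]
    rw [e0, e1]
    linarith
  nlinarith [norm_nonneg (κ • gradient h ξ - lv p)]

lemma pc_zero_of {h : E2 → ℝ} {κ : ℝ} {T : Finset (ℤ × ℤ)} {g : E2 → ℂ} {ξ : E2}
    (hξ : g ξ = 0) : pc h κ T g ξ = 0 := by unfold pc; rw [hξ, mul_zero]

/-- distances of parameters from distances of directions. -/
lemma dist_le_of_grad {h : E2 → ℝ} (hn : NearId h (1 / 10)) (ξ η : E2) :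
    ‖ξ - η‖ ≤ 10 / 9 * ‖gradient h ξ - gradient h η‖ := by
  have h1 := hn ξ η
  have h2 : ‖ξ - η‖ ≤ ‖gradient h ξ - gradient h η‖ +
      ‖(gradient h ξ - gradient h η) - (ξ - η)‖ := by
    calc ‖ξ - η‖ = ‖(gradient h ξ - gradient h η) - ((gradient h ξ - gradient h η) - (ξ - η))‖ := by
          congr 1; abel
      _ ≤ _ := norm_sub_le _ _
  linarith

lemma dist_ge_of_grad {h : E2 → ℝ} (hn : NearId h (1 / 10)) (ξ η : E2) :
    ‖gradient h ξ - gradient h η‖ ≤ 11 / 10 * ‖ξ - η‖ := by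
  have h1 := hn ξ η
  have h2 : ‖gradient h ξ - gradient h η‖ ≤ ‖(gradient h ξ - gradient h η) - (ξ - η)‖ +
      ‖ξ - η‖ := by
    calc ‖gradient h ξ - gradient h η‖
        = ‖((gradient h ξ - gradient h η) - (ξ - η)) + (ξ - η)‖ := by
          congr 1; abel
      _ ≤ _ := norm_add_le _ _
  linarith

lemma grad_le {h : E2 → ℝ} (hn : NearId h (1 / 10)) (h0 : ‖gradient h 0‖ ≤ 1) {ξ : E2} {r : ℝ}
    (hξ : ‖ξ‖ ≤ r) : ‖gradient h ξ‖ ≤ 1 + 11 / 10 * r := by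
  have h1 := dist_ge_of_grad hn ξ 0
  rw [sub_zero] at h1
  have h2 : ‖gradient h ξ‖ ≤ ‖gradient h 0‖ + ‖gradient h ξ - gradient h 0‖ := by
    calc ‖gradient h ξ‖ = ‖gradient h 0 + (gradient h ξ - gradient h 0)‖ := by congr 1; abel
      _ ≤ _ := norm_add_le _ _
  linarith

lemma dir_close {h : E2 → ℝ} {κ : ℝ} (hκ : 0 < κ) {p : ℤ × ℤ} {ξ : E2}
    (h1 : ‖κ • gradient h ξ - lv p‖ ≤ 3 / 2) : ‖gradient h ξ - κ⁻¹ • lv p‖ ≤ 3 / 2 / κ := by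
  have e : gradient h ξ - κ⁻¹ • lv p = κ⁻¹ • (κ • gradient h ξ - lv p) := by
    rw [smul_sub, smul_smul, inv_mul_cancel₀ hκ.ne', one_smul]
  rw [e, norm_smul, norm_inv, Real.norm_of_nonneg hκ.le, inv_mul_eq_div]
  gcongr

/-- two parameters in the same piece are `10/(3κ)`-close. -/
lemma par_close {h : E2 → ℝ} (hn : NearId h (1 / 10)) {κ : ℝ} (hκ : 0 < κ) {p : ℤ × ℤ} {ξ η : E2}
    (h1 : ‖κ • gradient h ξ - lv p‖ ≤ 3 / 2) (h2 : ‖κ • gradient h η - lv p‖ ≤ 3 / 2) :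
    ‖ξ - η‖ ≤ 10 / 3 / κ := by
  have h3 := dir_close hκ h1
  have h4 := dir_close hκ h2
  have h5 : ‖gradient h ξ - gradient h η‖ ≤ 3 / 2 / κ + 3 / 2 / κ := by
    calc ‖gradient h ξ - gradient h η‖
        = ‖(gradient h ξ - κ⁻¹ • lv p) - (gradient h η - κ⁻¹ • lv p)‖ := by congr 1; abel
      _ ≤ _ := (norm_sub_le _ _).trans (add_le_add h3 h4)
  refine (dist_le_of_grad hn ξ η).trans ?_
  calc 10 / 9 * ‖gradient h ξ - gradient h η‖ ≤ 10 / 9 * (3 / 2 / κ + 3 / 2 / κ) := by gcongr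
    _ = 10 / 3 / κ := by ring

/-- the piece of the graph carrying one piece lies in a ball of radius `17/κ`. -/
lemma Gam_close {h : E2 → ℝ} (hd : Differentiable ℝ h) (hn : NearId h (1 / 10))
    (h0 : ‖gradient h 0‖ ≤ 1) {κ : ℝ} (hκ : 0 < κ) {p : ℤ × ℤ} {ξ η : E2} (hξ : ‖ξ‖ ≤ 1)
    (hη : ‖η‖ ≤ 1)
    (h1 : ‖κ • gradient h ξ - lv p‖ ≤ 3 / 2) (h2 : ‖κ • gradient h η - lv p‖ ≤ 3 / 2) :
    ‖Gam h ξ - Gam h η‖ ≤ 17 / κ := by
  have h3 := par_close hn hκ h1 h2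
  have hL : ∀ ξ : E2, ‖ξ‖ ≤ 2 → ‖gradient h ξ‖ ≤ 4 := fun ξ hξ =>
    (grad_le hn h0 hξ).trans (by norm_num)
  have h4 := lip_of_grad hd hL (hη.trans (by norm_num)) (hξ.trans (by norm_num))
  refine (norm_le_add _).trans ?_
  have e1 : (WithLp.ofLp (Gam h ξ - Gam h η)).1 = ξ - η := rfl
  have e2 : (WithLp.ofLp (Gam h ξ - Gam h η)).2 = h ξ - h η := rfl
  rw [e1, e2]
  calc ‖ξ - η‖ + |h ξ - h η| ≤ 10 / 3 / κ + 4 * (10 / 3 / κ) := by
        gcongr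
        exact h4.trans (by gcongr)
    _ = 50 / 3 / κ := by ring
    _ ≤ 17 / κ := by gcongr; norm_num

end Crest.Agent.R138.Bn759
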