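import Crest.Agent.R138.Bn5_759

/-! R138, broad/narrow end, part 6 (helper759): the inequality on one ball for an extension
function. -/

set_option autoImplicit false

open MeasureTheory
open scoped ENNReal

namespace Crest.Agent.R138.Bn759

open Crest.Agent.R138.Defs (E2 ee ext ParB cyl)
open Crest.Agent.R138.Bil882 (NearId ee_eq Gam W lip_of_grad norm_le_add planar_bilinear wt)

/-- weighted energy of the `K`-ball, normalised. -/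
noncomputable def QQ (n : ℕ) (h : E2 → ℝ) (K : ℝ) (g : E2 → ℂ) (z : E2 × ℝ) : ℝ≥0∞ :=
  ENNReal.ofReal (K ^ 3)⁻¹ * ∫⁻ p : E2 × ℝ, ‖ext h g p.1 p.2‖ₑ ^ 2 * ENNReal.ofReal (pw n K z p)

/-- weighted `L¹` average. -/
noncomputable def ML (N : ℕ) (h : E2 → ℝ) (K : ℝ) (g : E2 → ℂ) (z : E2 × ℝ) : ℝ≥0∞ :=
  ENNReal.ofReal (K ^ 3)⁻¹ * ∫⁻ p : E2 × ℝ, ‖ext h g p.1 p.2‖ₑ * ENNReal.ofReal (wz N K z p)

/-- multipliers do not increase the weighted energy. -/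
lemma QQ_pc (B : ℕ → ℝ) (n : ℕ) : ∃ C : ℝ, 0 < C ∧ ∀ h : E2 → ℝ, ParB B h →
    ∀ (κ K : ℝ), 0 ≤ κ → κ ≤ K → 1 ≤ K → ∀ (r : ℝ) (g : E2 → ℂ), Nice r g →
    ∀ (T : Finset (ℤ × ℤ)) (z : E2 × ℝ),
      QQ n h K (pc h κ T g) z ≤ ENNReal.ofReal C * QQ n h K g z := by
  obtain ⟨C, hC, hm⟩ := mult_st n
  obtain ⟨c, hc, hP⟩ := mul_Ph n
  refine ⟨C * (n.factorial * c * BB B n ^ n) ^ 2 + 1, by positivity, ?_⟩
  intro h hh κ K hκ hκK hK r g hg T z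
  have h1 := hm B h hh c hc (Ph T) (hP T) κ K hκ hκK hK g hg.m hg.b r hg.s z
  unfold QQ
  calc _ ≤ ENNReal.ofReal (K ^ 3)⁻¹ * (ENNReal.ofReal (C * (n.factorial * c * BB B n ^ n) ^ 2) *
          ∫⁻ p : E2 × ℝ, ‖ext h g p.1 p.2‖ₑ ^ 2 * ENNReal.ofReal (pw n K z p)) := by
        gcongr
        exact h1
    _ ≤ ENNReal.ofReal (K ^ 3)⁻¹ * (ENNReal.ofReal (C * (n.factorial * c * BB B n ^ n) ^ 2 + 1) *
          ∫⁻ p : E2 × ℝ, ‖ext h g p.1 p.2‖ₑ ^ 2 * ENNReal.ofReal (pw n K z p)) := by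
        gcongr
        linarith
    _ = _ := by ring

/-- `L¹` average by the energy. -/
lemma ML_sq_le (n : ℕ) (hn : 1 ≤ n) : ∃ C : ℝ, 0 < C ∧ ∀ h : E2 → ℝ, Continuous h →
    ∀ K : ℝ, 0 < K → ∀ (r : ℝ) (g : E2 → ℂ), Nice r g → ∀ z : E2 × ℝ,
      ML (4 * n) h K g z ^ 2 ≤ ENNReal.ofReal C * QQ n h K g z := by
  have hI : IW (4 * n) ≠ ∞ := IW_ne_top (by omega)
  refine ⟨(IW (4 * n)).toReal + 1, by positivity, ?_⟩
  intro h hh K hK r g hg z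
  have h1 := cs_wz (4 * n) hK z (hg.cont hh).measurable.enorm
  unfold ML QQ
  have e : ENNReal.ofReal (K ^ 3)⁻¹ * ENNReal.ofReal (K ^ 3) = 1 := by
    rw [← ENNReal.ofReal_mul (by positivity), inv_mul_cancel₀ (by positivity), ENNReal.ofReal_one]
  calc (ENNReal.ofReal (K ^ 3)⁻¹ *
          ∫⁻ p : E2 × ℝ, ‖ext h g p.1 p.2‖ₑ * ENNReal.ofReal (wz (4 * n) K z p)) ^ 2
      = ENNReal.ofReal (K ^ 3)⁻¹ ^ 2 *
          (∫⁻ p : E2 × ℝ, ‖ext h g p.1 p.2‖ₑ * ENNReal.ofReal (wz (4 * n) K z p)) ^ 2 := by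
        rw [mul_pow]
    _ ≤ ENNReal.ofReal (K ^ 3)⁻¹ ^ 2 *
          ((∫⁻ p : E2 × ℝ, ‖ext h g p.1 p.2‖ₑ ^ 2 * ENNReal.ofReal (wz (4 * n) K z p)) *
            (ENNReal.ofReal (K ^ 3) * IW (4 * n))) := by gcongr
    _ = (ENNReal.ofReal (K ^ 3)⁻¹ * ENNReal.ofReal (K ^ 3)) * IW (4 * n) *
          (ENNReal.ofReal (K ^ 3)⁻¹ *
          (∫⁻ p : E2 × ℝ, ‖ext h g p.1 p.2‖ₑ ^ 2 * ENNReal.ofReal (wz (4 * n) K z p))) := by ring
    _ ≤ ENNReal.ofReal ((IW (4 * n)).toReal + 1) * (ENNReal.ofReal (K ^ 3)⁻¹ *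
          (∫⁻ p : E2 × ℝ, ‖ext h g p.1 p.2‖ₑ ^ 2 * ENNReal.ofReal (pw n K z p))) := by
        rw [e, one_mul]
        gcongr
        · calc IW (4 * n) = ENNReal.ofReal (IW (4 * n)).toReal := (ENNReal.ofReal_toReal hI).symm
            _ ≤ _ := ENNReal.ofReal_le_ofReal (by linarith)
        · exact wz_le_pw n hK z _

/-- sup bound for a piece. -/
lemma sup_piece (N : ℕ) : ∃ C : ℝ, 0 < C ∧ ∀ h : E2 → ℝ, Differentiable ℝ h →
    NearId h (1 / 10) → ‖gradient h 0‖ ≤ 1 → ∀ K : ℝ, 0 < K → ∀ g : E2 → ℂ, Nice 1 g →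
    ∀ p : ℤ × ℤ, (∀ ξ, g ξ ≠ 0 → ‖K • gradient h ξ - lv p‖ ≤ 3 / 2) →
    ∀ z q : E2 × ℝ, q ∈ U K z → ‖ext h g q.1 q.2‖ₑ ≤ ENNReal.ofReal C * ML N h K g z := by
  obtain ⟨C, hC, h1⟩ := ext_loc N 17 (by norm_num)
  refine ⟨C, hC, ?_⟩
  intro h hd hn h0 K hK g hg p hp z q hq
  have h2 : ∃ w0 : W, ∀ ξ, g ξ ≠ 0 → ‖Gam h ξ - w0‖ ≤ 17 / K := by
    by_cases he : ∃ η, g η ≠ 0
    · obtain ⟨η, hη⟩ := he
      refine ⟨Gam h η, fun ξ hξ => ?_⟩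
      have s1 : ‖ξ‖ ≤ 1 := by by_contra hc; exact hξ (hg.s ξ (not_le.1 hc))
      have s2 : ‖η‖ ≤ 1 := by by_contra hc; exact hη (hg.s η (not_le.1 hc))
      exact Gam_close hd hn h0 hK s1 s2 (hp ξ hξ) (hp η hη)
    · push Not at he
      exact ⟨0, fun ξ hξ => absurd (he ξ) hξ⟩
  obtain ⟨w0, hw⟩ := h2
  have h3 := h1 h hd.continuous g hg.m hg.b 1 hg.s w0 K hK hw z q hq
  unfold ML
  calc _ ≤ _ := h3
    _ = _ := by rw [ENNReal.ofReal_mul hC.le, mul_assoc]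

/-- the near relation of the coarse pieces. -/
def near {n1 : ℕ} (a b : {a // a ∈ sq n1}) : Prop :=
  |(a : ℤ × ℤ).1 - (b : ℤ × ℤ).1| ≤ 2000 ∧ |(a : ℤ × ℤ).2 - (b : ℤ × ℤ).2| ≤ 2000

instance {n1 : ℕ} : DecidableRel (near (n1 := n1)) := fun _ _ => by unfold near; infer_instance

lemma near_card {n1 : ℕ} (a : {a // a ∈ sq n1}) (s : Finset {a // a ∈ sq n1})
    (hs : ∀ b ∈ s, near a b) : s.card ≤ 16008001 := by
  classical
  have h1 : s.card = (s.image fun b : {a // a ∈ sq n1} => (b : ℤ × ℤ)).card :=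
    (Finset.card_image_of_injective s Subtype.val_injective).symm
  rw [h1]
  have h2 : (s.image fun b : {a // a ∈ sq n1} => (b : ℤ × ℤ)) ⊆
      Finset.Icc ((a : ℤ × ℤ).1 - 2000) ((a : ℤ × ℤ).1 + 2000) ×ˢ
        Finset.Icc ((a : ℤ × ℤ).2 - 2000) ((a : ℤ × ℤ).2 + 2000) := by
    intro b hb
    obtain ⟨c, hc, rfl⟩ := Finset.mem_image.1 hb
    have h3 := hs c hc
    have h4 := abs_le.1 h3.1
    have h5 := abs_le.1 h3.2
    simp only [Finset.mem_product, Finset.mem_Icc]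
    omega
  refine (Finset.card_le_card h2).trans ?_
  rw [Finset.card_product, Int.card_Icc, Int.card_Icc]
  have e1 : ((a : ℤ × ℤ).1 + 2000 + 1 - ((a : ℤ × ℤ).1 - 2000)).toNat = 4001 := by
    have : (a : ℤ × ℤ).1 + 2000 + 1 - ((a : ℤ × ℤ).1 - 2000) = 4001 := by ring
    rw [this]; rfl
  have e2 : ((a : ℤ × ℤ).2 + 2000 + 1 - ((a : ℤ × ℤ).2 - 2000)).toNat = 4001 := by
    have : (a : ℤ × ℤ).2 + 2000 + 1 - ((a : ℤ × ℤ).2 - 2000) = 4001 := by ring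
    rw [this]; rfl
  rw [e1, e2]

lemma lv_sub_norm {a b : ℤ × ℤ} (h : ¬(|a.1 - b.1| ≤ 2000 ∧ |a.2 - b.2| ≤ 2000)) :
    2000 < ‖lv a - lv b‖ := by
  have e0 : (lv a - lv b) 0 = ((a.1 - b.1 : ℤ) : ℝ) := by simp [lv]
  have e1 : (lv a - lv b) 1 = ((a.2 - b.2 : ℤ) : ℝ) := by simp [lv]
  by_contra hc
  apply h
  rw [not_lt] at hc
  constructor
  · have h1 : |(lv a - lv b) 0| ≤ ‖lv a - lv b‖ := by simpa using PiLp.norm_apply_le (lv a - lv b) 0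
    rw [e0] at h1
    have h2 : |((a.1 - b.1 : ℤ) : ℝ)| ≤ 2000 := h1.trans hc
    rw [← Int.cast_abs] at h2
    exact_mod_cast h2
  · have h1 : |(lv a - lv b) 1| ≤ ‖lv a - lv b‖ := by simpa using PiLp.norm_apply_le (lv a - lv b) 1
    rw [e1] at h1
    have h2 : |((a.2 - b.2 : ℤ) : ℝ)| ≤ 2000 := h1.trans hc
    rw [← Int.cast_abs] at h2
    exact_mod_cast h2

/-- **bilinear bound for two far coarse pieces of a strip.** -/
lemma bil_piece (B : ℕ → ℝ) (hB2 : B 2 ≤ 1 / 10) (n : ℕ) : ∃ C : ℝ, 0 < C ∧ ∀ h : E2 → ℝ,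
    ParB B h → ‖gradient h 0‖ ≤ 1 → ∀ K1 K : ℝ, 1 ≤ K1 → K1 ≤ K → ∀ g : E2 → ℂ, Nice 1 g →
    ∀ a₁ a₂ : ℤ × ℤ, ¬(|a₁.1 - a₂.1| ≤ 2000 ∧ |a₁.2 - a₂.2| ≤ 2000) →
    ∀ (u : E2) (b : ℝ), ‖u‖ = 1 → ∀ T₁ T₂ : Finset (ℤ × ℤ),
    (∀ p ∈ T₁, |inner ℝ (K⁻¹ • lv p) u - b| ≤ 40 / K) →
    (∀ p ∈ T₂, |inner ℝ (K⁻¹ • lv p) u - b| ≤ 40 / K) → ∀ z : E2 × ℝ,
      ∫⁻ p in U K z, ‖ext h (pc h K T₁ (pc h K1 {a₁} g)) p.1 p.2‖ₑ ^ 2 *
          ‖ext h (pc h K T₂ (pc h K1 {a₂} g)) p.1 p.2‖ₑ ^ 2 ≤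
        ENNReal.ofReal (C * K1 * K ^ 3) * QQ n h K g z ^ 2 := by
  obtain ⟨C1, hC1, hbil⟩ := planar_bilinear (L := 4) (A := 42) (by norm_num) (by norm_num) (4 * n)
  obtain ⟨C2, hC2, hQ⟩ := QQ_pc B n
  refine ⟨C1 * C2 ^ 4, by positivity, ?_⟩
  intro h hh h0 K1 K hK1 hK g hg a₁ a₂ ha u b hu T₁ T₂ hT1 hT2 z
  have hK0 : 0 < K := by linarith
  have hK10 : 0 < K1 := by linarith
  have hd : Differentiable ℝ h := hh.1.differentiable (by simp)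
  have hn := nearId hB2 hh
  have hL : ∀ ξ : E2, ‖ξ‖ ≤ 2 → ‖gradient h ξ‖ ≤ 4 := fun ξ hξ =>
    (grad_le hn h0 hξ).trans (by norm_num)
  set G1 := pc h K T₁ (pc h K1 {a₁} g) with hG1
  set G2 := pc h K T₂ (pc h K1 {a₂} g) with hG2
  have N1 : Nice 1 G1 := (hg.pc hh K1 {a₁}).pc hh K T₁
  have N2 : Nice 1 G2 := (hg.pc hh K1 {a₂}).pc hh K T₂
  -- properties of the supports
  have sup : ∀ (a : ℤ × ℤ) (T : Finset (ℤ × ℤ)),
      (∀ p ∈ T, |inner ℝ (K⁻¹ • lv p) u - b| ≤ 40 / K) → ∀ ξ,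
      pc h K T (pc h K1 {a} g) ξ ≠ 0 → ‖ξ‖ ≤ 1 ∧ ‖K1 • gradient h ξ - lv a‖ ≤ 3 / 2 ∧
        |inner ℝ (gradient h ξ) u - b| ≤ 42 / K := by
    intro a T hT ξ hξ
    obtain ⟨h1, p, hp, hp'⟩ := pc_ne_zero hξ
    obtain ⟨h2, q, hq, hq'⟩ := pc_ne_zero h1
    rw [Finset.mem_singleton] at hq
    subst hq
    refine ⟨?_, hq', ?_⟩
    · by_contra hc
      exact h2 (hg.s ξ (not_le.1 hc))
    · have h3 := dir_close hK0 hp'
      have h4 : |inner ℝ (gradient h ξ - K⁻¹ • lv p) u| ≤ 3 / 2 / K := by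
        refine (abs_real_inner_le_norm _ _).trans ?_
        rw [hu, mul_one]; exact h3
      have h5 := hT p hp
      have e : inner ℝ (gradient h ξ) u - b =
          inner ℝ (gradient h ξ - K⁻¹ • lv p) u + (inner ℝ (K⁻¹ • lv p) u - b) := by
        rw [inner_sub_left]; ring
      rw [e]
      refine (abs_add_le _ _).trans ?_
      calc _ ≤ 3 / 2 / K + 40 / K := add_le_add h4 h5
        _ = (3 / 2 + 40) / K := by ring
        _ ≤ 42 / K := by gcongr; norm_num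
  by_cases e1 : ∃ ξ, G1 ξ ≠ 0
  swap
  · push Not at e1
    have e : ∀ p : E2 × ℝ, ext h G1 p.1 p.2 = 0 := fun p => by
      unfold Crest.Agent.R138.Defs.ext; simp [e1]
    simp [e]
  by_cases e2 : ∃ ξ, G2 ξ ≠ 0
  swap
  · push Not at e2
    have e : ∀ p : E2 × ℝ, ext h G2 p.1 p.2 = 0 := fun p => by
      unfold Crest.Agent.R138.Defs.ext; simp [e2]
    simp [e]
  obtain ⟨p1, hp1⟩ := e1
  obtain ⟨p2, hp2⟩ := e2
  obtain ⟨b1, c1, d1⟩ := sup a₁ T₁ hT1 p1 hp1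
  obtain ⟨b2, c2, d2⟩ := sup a₂ T₂ hT2 p2 hp2
  -- separation
  have hfar := lv_sub_norm ha
  have hsep : 1997 / K1 ≤ ‖gradient h p1 - gradient h p2‖ := by
    have h1 : ‖lv a₁ - lv a₂‖ ≤ ‖K1 • gradient h p1 - lv a₁‖ + ‖K1 • gradient h p2 - lv a₂‖ +
        ‖K1 • (gradient h p1 - gradient h p2)‖ := by
      calc ‖lv a₁ - lv a₂‖ = ‖-(K1 • gradient h p1 - lv a₁) + (K1 • gradient h p2 - lv a₂) +
            K1 • (gradient h p1 - gradient h p2)‖ := by congr 1; rw [smul_sub]; abel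
        _ ≤ _ := (norm_add_le _ _).trans (add_le_add ((norm_add_le _ _).trans
            (add_le_add (norm_neg _).le le_rfl)) le_rfl)
    rw [norm_smul, Real.norm_of_nonneg hK10.le] at h1
    rw [div_le_iff₀ hK10]
    nlinarith
  have hK1b : 475 ≤ K1 := by
    have h1 := grad_le hn h0 b1
    have h2 := grad_le hn h0 b2
    have h3 : ‖gradient h p1 - gradient h p2‖ ≤ 4.2 := by
      refine (norm_sub_le _ _).trans ?_
      linarith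
    have h4 := hsep.trans h3
    rw [div_le_iff₀ hK10] at h4
    linarith
  have hsep' : 334 / K1 ≤ ‖p1 - p2‖ := by
    have h1 := dist_ge_of_grad hn p1 p2
    have h2 : 1997 / K1 ≤ 11 / 10 * ‖p1 - p2‖ := hsep.trans h1
    have h3 : 334 / K1 ≤ 10 / 11 * (1997 / K1) := by
      rw [← mul_div_assoc]; gcongr; norm_num
    linarith
  have hν : (334 : ℝ) / K1 / 100 = 334 / 100 / K1 := by ring
  have hclose : ∀ (a : ℤ × ℤ) (T : Finset (ℤ × ℤ))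
      (hT : ∀ p ∈ T, |inner ℝ (K⁻¹ • lv p) u - b| ≤ 40 / K) (η : E2),
      ‖K1 • gradient h η - lv a‖ ≤ 3 / 2 → ∀ ξ,
      pc h K T (pc h K1 {a} g) ξ ≠ 0 → ‖ξ - η‖ ≤ 334 / K1 / 100 ∧
        |inner ℝ (gradient h ξ) u - b| ≤ 42 / K := by
    intro a T hT η hη ξ hξ
    obtain ⟨b3, c3, d3⟩ := sup a T hT ξ hξ
    refine ⟨?_, d3⟩
    refine (par_close hn hK10 c3 hη).trans ?_
    rw [hν]
    exact div_le_div_of_nonneg_right (by norm_num) hK10.le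
  have hmain := hbil h hd hn hL (rot u) u (by rw [norm_rot, hu]) hu
    (by rw [real_inner_comm, inner_rot]; unfold dt; ring) (334 / K1) K b (by positivity)
    (by rw [div_le_one hK10]; linarith) (hK1.trans hK) p1 p2 b1 b2 hsep' G1 G2 N1.m N2.m N1.b N2.b
    (hclose a₁ T₁ hT1 p1 c1) (hclose a₂ T₂ hT2 p2 c2) z.1 z.2
  -- energies
  have hen : ∀ (a : ℤ × ℤ) (T : Finset (ℤ × ℤ)),
      ∫⁻ p : E2 × ℝ, ‖ext h (pc h K T (pc h K1 {a} g)) p.1 p.2‖ₑ ^ 2 *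
        ENNReal.ofReal (wt (4 * n) K z.1 z.2 p) ≤
        ENNReal.ofReal (K ^ 3) * (ENNReal.ofReal (C2 ^ 2) * QQ n h K g z) := by
    intro a T
    have h1 := hQ h hh K K hK0.le le_rfl (hK1.trans hK) 1 _ (hg.pc hh K1 {a}) T z
    have h2 := hQ h hh K1 K hK10.le hK (hK1.trans hK) 1 _ hg {a} z
    have e : ENNReal.ofReal (K ^ 3) * ENNReal.ofReal (K ^ 3)⁻¹ = 1 := by
      rw [← ENNReal.ofReal_mul (by positivity), mul_inv_cancel₀ (by positivity),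
        ENNReal.ofReal_one]
    calc _ ≤ ∫⁻ p : E2 × ℝ, ‖ext h (pc h K T (pc h K1 {a} g)) p.1 p.2‖ₑ ^ 2 *
          ENNReal.ofReal (pw n K z p) := by
          refine lintegral_mono fun p => ?_
          gcongr
          exact wz_le_pw n hK0 z p
      _ = ENNReal.ofReal (K ^ 3) * QQ n h K (pc h K T (pc h K1 {a} g)) z := by
          unfold QQ; rw [← mul_assoc, e, one_mul]
      _ ≤ ENNReal.ofReal (K ^ 3) * (ENNReal.ofReal C2 * (ENNReal.ofReal C2 * QQ n h K g z)) := by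
          gcongr
          exact h1.trans (by gcongr)
      _ = _ := by rw [pow_two C2, ENNReal.ofReal_mul hC2.le]; ring
  refine hmain.trans ?_
  calc _ ≤ ENNReal.ofReal (C1 * (334 / K1)⁻¹ * (K ^ 3)⁻¹) *
        (ENNReal.ofReal (K ^ 3) * (ENNReal.ofReal (C2 ^ 2) * QQ n h K g z)) *
        (ENNReal.ofReal (K ^ 3) * (ENNReal.ofReal (C2 ^ 2) * QQ n h K g z)) := by
        gcongr
        · exact hen a₁ T₁
        · exact hen a₂ T₂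
    _ = ENNReal.ofReal (C1 * (334 / K1)⁻¹ * (K ^ 3)⁻¹ * K ^ 3 * C2 ^ 2 * K ^ 3 * C2 ^ 2) *
        QQ n h K g z ^ 2 := by
        rw [ENNReal.ofReal_mul (p := C1 * (334 / K1)⁻¹ * (K ^ 3)⁻¹ * K ^ 3 * C2 ^ 2 * K ^ 3)
            (by positivity),
          ENNReal.ofReal_mul (p := C1 * (334 / K1)⁻¹ * (K ^ 3)⁻¹ * K ^ 3 * C2 ^ 2) (by positivity),
          ENNReal.ofReal_mul (p := C1 * (334 / K1)⁻¹ * (K ^ 3)⁻¹ * K ^ 3) (by positivity),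
          ENNReal.ofReal_mul (p := C1 * (334 / K1)⁻¹ * (K ^ 3)⁻¹) (by positivity)]
        ring
    _ ≤ _ := by
        refine mul_le_mul_left (ENNReal.ofReal_le_ofReal ?_) _
        have e3 : C1 * (334 / K1)⁻¹ * (K ^ 3)⁻¹ * K ^ 3 * C2 ^ 2 * K ^ 3 * C2 ^ 2 =
            C1 * C2 ^ 4 * K1 * K ^ 3 / 334 := by field_simp
        rw [e3, div_le_iff₀ (by norm_num)]
        have : 0 ≤ C1 * C2 ^ 4 * K1 * K ^ 3 := by positivity
        linarith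

end Crest.Agent.R138.Bn759
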