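import Crest.Agent.R138.Bn6_759

/-! R138, broad/narrow end, part 7 (helper759): the broad/bilinear/narrow inequality on one ball. -/

set_option autoImplicit false

open MeasureTheory
open scoped ENNReal

namespace Crest.Agent.R138.Bn759

open Crest.Agent.R138.Defs (E2 ee ext ParB cyl)
open Crest.Agent.R138.Bil882 (NearId ee_eq Gam W lip_of_grad norm_le_add planar_bilinear wt)

/-- number of lattice steps. -/
noncomputable def nn (K : ℝ) : ℕ := ⌈3 * K⌉₊

lemma nn_ge (K : ℝ) : 3 * K ≤ nn K := Nat.le_ceil _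

lemma nn_le {K : ℝ} (hK : 1 ≤ K) : (nn K : ℝ) ≤ 4 * K := by
  have := (Nat.ceil_lt_add_one (show (0:ℝ) ≤ 3 * K by linarith)).le
  unfold nn
  linarith

lemma card_sq (n : ℕ) : (sq n).card = (2 * n + 1) ^ 2 := by
  unfold sq
  rw [Finset.card_product, Int.card_Icc]
  have : ((n:ℤ) + 1 - (-(n:ℤ))).toNat = 2 * n + 1 := by omega
  rw [this]; ring

lemma card_sq_le {K : ℝ} (hK : 1 ≤ K) : ((sq (nn K)).card : ℝ) ≤ 81 * K ^ 2 := by
  rw [card_sq]
  push_cast
  have h1 := nn_le hK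
  have h2 : (0:ℝ) ≤ nn K := by positivity
  have h3 : 2 * (nn K : ℝ) + 1 ≤ 9 * K := by linarith
  calc (2 * (nn K : ℝ) + 1) ^ 2 ≤ (9 * K) ^ 2 := by gcongr
    _ = 81 * K ^ 2 := by ring

/-- the centre of the piece `j`. -/
noncomputable def cj (K : ℝ) {n n1 : ℕ} (j : JJ n n1) : P2 := K⁻¹ • lv (j.1 : ℤ × ℤ)

open Classical in
/-- the fat triples. -/
noncomputable def Tr (K : ℝ) (n n1 : ℕ) : Finset (JJ n n1 × JJ n n1 × JJ n n1) :=
  Finset.univ.filter fun q => Fat (40 / K) (cj K q.1) (cj K q.2.1) (cj K q.2.2)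

lemma Gj_supp {h : E2 → ℝ} {K K1 : ℝ} {g : E2 → ℂ} {n n1 : ℕ} {j : JJ n n1} {ξ : E2}
    (hξ : Gj h K K1 g j ξ ≠ 0) : g ξ ≠ 0 ∧ ‖K • gradient h ξ - lv (j.1 : ℤ × ℤ)‖ ≤ 3 / 2 := by
  obtain ⟨h1, p, hp, hp'⟩ := pc_ne_zero hξ
  rw [Finset.mem_singleton] at hp
  subst hp
  exact ⟨(pc_ne_zero h1).1, hp'⟩

lemma nonempty_sq (n : ℕ) : Nonempty {p // p ∈ sq n} :=
  ⟨⟨(0, 0), by simp [sq]⟩⟩

lemma ofReal_card_le {n : ℕ} {x : ℝ} (h : (n : ℝ) ≤ x) : (n : ℝ≥0∞) ≤ ENNReal.ofReal x := by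
  rw [← ENNReal.ofReal_natCast]
  exact ENNReal.ofReal_le_ofReal h

set_option maxHeartbeats 1000000 in
/-- **broad / bilinear / narrow on one ball.** -/
theorem bn_ball (B : ℕ → ℝ) (hB2 : B 2 ≤ 1 / 10) (n : ℕ) (hn : 1 ≤ n) : ∃ C : ℝ, 0 < C ∧
    ∀ h : E2 → ℝ, ParB B h → ‖gradient h 0‖ ≤ 1 → ∀ K1 K : ℝ, 1 ≤ K1 → K1 ≤ K →
    ∀ g : E2 → ℂ, Nice 1 g → ∀ z : E2 × ℝ,
      (volume (U K z))⁻¹ * ∫⁻ p in U K z, ‖ext h g p.1 p.2‖ₑ ^ 3 ≤
        ENNReal.ofReal C * (∑ a : {a // a ∈ sq (nn K1)},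
          (volume (U K z))⁻¹ * ∫⁻ p in U K z, ‖ext h (pc h K1 {(a : ℤ × ℤ)} g) p.1 p.2‖ₑ ^ 3) +
        ENNReal.ofReal (C * K1 ^ 15) * QQ n h K g z ^ (3 / 2 : ℝ) +
        ENNReal.ofReal (C * K ^ 24) * ∑ q ∈ Tr K (nn K) (nn K1),
          ML (4 * n) h K (Gj h K K1 g q.1) z * ML (4 * n) h K (Gj h K K1 g q.2.1) z *
            ML (4 * n) h K (Gj h K K1 g q.2.2) z := by
  obtain ⟨Cs, hCs, hsup⟩ := sup_piece (4 * n)
  obtain ⟨Cm, hCm, hmlq⟩ := ML_sq_le n hn
  obtain ⟨Cq, hCq, hqpc⟩ := QQ_pc B n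
  obtain ⟨Cb, hCb, hbil⟩ := bil_piece B hB2 n
  -- constants
  set c1 : ℝ := Cs ^ 2 * Cm * Cq ^ 2 with hc1
  have hv0 := v0_ne_zero
  have hv1 := v0_ne_top
  set c2 : ℝ := Cb * (v0.toReal)⁻¹ with hc2
  have hvpos : 0 < v0.toReal := ENNReal.toReal_pos hv0 hv1
  have hc1p : 0 < c1 := by positivity
  have hc2p : 0 < c2 := by positivity
  set m : ℝ := 16008001 + 1 with hm
  have hmp : 0 < m := by rw [hm]; norm_num
  refine ⟨16 * m ^ 3 + (20 * m ^ 3 * c1 ^ (3 / 2 : ℝ) + 4 * 81 ^ 7 * (1 + c2)) +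
    (81 * 81) ^ 6 * Cs ^ 3, by positivity, ?_⟩
  set CC : ℝ := 16 * m ^ 3 + (20 * m ^ 3 * c1 ^ (3 / 2 : ℝ) + 4 * 81 ^ 7 * (1 + c2)) +
    (81 * 81) ^ 6 * Cs ^ 3 with hCC
  intro h hh h0 K1 K hK1 hK g hg z
  have hK0 : 0 < K := by linarith
  have hK10 : 0 < K1 := by linarith
  have hKK : 1 ≤ K := hK1.trans hK
  have hd : Differentiable ℝ h := hh.1.differentiable (by simp)
  have hc : Continuous h := hd.continuous
  have hnr := nearId hB2 hh
  have hgr : ∀ ξ : E2, ‖ξ‖ ≤ 1 → ‖gradient h ξ‖ ≤ 3 := fun ξ hξ =>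
    (grad_le hnr h0 hξ).trans (by norm_num)
  have hfull : ∀ κ : ℝ, 0 < κ → ∀ ξ : E2, ‖ξ‖ ≤ 1 → ‖κ • gradient h ξ‖ ≤ nn κ := fun κ hκ ξ hξ => by
    rw [norm_smul, Real.norm_of_nonneg hκ.le]
    calc κ * ‖gradient h ξ‖ ≤ κ * 3 := by gcongr; exact hgr ξ hξ
      _ = 3 * κ := by ring
      _ ≤ _ := nn_ge κ
  have := nonempty_sq (nn K)
  have := nonempty_sq (nn K1)
  -- the probability measure
  have hvU : volume (U K z) ≠ 0 := by
    rw [volume_U hK0]
    exact mul_ne_zero (by simpa using by positivity) hv0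
  have hvU' : volume (U K z) ≠ ∞ := by
    rw [volume_U hK0]
    exact ENNReal.mul_ne_top ENNReal.ofReal_ne_top hv1
  set μ : Measure (E2 × ℝ) := (volume (U K z))⁻¹ • volume.restrict (U K z) with hμ
  have : IsProbabilityMeasure μ := ⟨by
    rw [hμ, Measure.smul_apply, Measure.restrict_apply_univ, smul_eq_mul,
      ENNReal.inv_mul_cancel hvU hvU']⟩
  have hμl : ∀ f : E2 × ℝ → ℝ≥0∞, ∫⁻ p, f p ∂μ = (volume (U K z))⁻¹ * ∫⁻ p in U K z, f p := by
    intro f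
    rw [hμ, lintegral_smul_measure, smul_eq_mul]
  -- the pieces
  have hNj : ∀ j : JJ (nn K) (nn K1), Nice 1 (Gj h K K1 g j) := fun j =>
    (hg.pc hh K1 _).pc hh K _
  have hsumS : ∀ (a : {a // a ∈ sq (nn K1)}) (S : Finset (JJ (nn K) (nn K1))),
      (∀ j ∈ S, j.2 = a) → ∀ p : E2 × ℝ, ∑ j ∈ S, ext h (Gj h K K1 g j) p.1 p.2 =
      ext h (pc h K (S.image fun j => (j.1 : ℤ × ℤ)) (pc h K1 {(a : ℤ × ℤ)} g)) p.1 p.2 := by
    intro a S hS p
    rw [← ext_sum hc S (fun i _ => hNj i)]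
    congr 1
    funext ξ
    exact sum_Gj h K K1 g S a hS ξ
  have hsumA : ∀ (a : {a // a ∈ sq (nn K1)}) (p : E2 × ℝ),
      ∑ j ∈ Finset.univ.filter (fun j : JJ (nn K) (nn K1) => j.2 = a),
        ext h (Gj h K K1 g j) p.1 p.2 = ext h (pc h K1 {(a : ℤ × ℤ)} g) p.1 p.2 := by
    intro a p
    rw [hsumS a _ (fun j hj => (Finset.mem_filter.1 hj).2) p]
    have e : ((Finset.univ.filter (fun j : JJ (nn K) (nn K1) => j.2 = a)).image
        fun j => (j.1 : ℤ × ℤ)) = sq (nn K) := by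
      ext q
      simp only [Finset.mem_image, Finset.mem_filter, Finset.mem_univ, true_and]
      constructor
      · rintro ⟨j, -, rfl⟩
        exact j.1.2
      · intro hq
        exact ⟨(⟨q, hq⟩, a), rfl, rfl⟩
    rw [e, pc_full (r := 1) (hg.pc hh K1 _).s (hfull K hK0)]
  have hsumAll : ∀ p : E2 × ℝ, ∑ j : JJ (nn K) (nn K1), ext h (Gj h K K1 g j) p.1 p.2 =
      ext h g p.1 p.2 := by
    intro p
    have e1 : ∑ j : JJ (nn K) (nn K1), ext h (Gj h K K1 g j) p.1 p.2 =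
        ∑ a : {a // a ∈ sq (nn K1)}, ext h (pc h K1 {(a : ℤ × ℤ)} g) p.1 p.2 := by
      rw [← Finset.sum_fiberwise Finset.univ (fun j : JJ (nn K) (nn K1) => j.2)]
      exact Finset.sum_congr rfl fun a _ => hsumA a p
    rw [e1, ← ext_sum hc Finset.univ (fun a _ => hg.pc hh K1 _)]
    have e2 : (fun ξ => ∑ a : {a // a ∈ sq (nn K1)}, pc h K1 {(a : ℤ × ℤ)} g ξ) = g := by
      have e3 : (fun ξ => ∑ a : {a // a ∈ sq (nn K1)}, pc h K1 {(a : ℤ × ℤ)} g ξ) =
          pc h K1 (sq (nn K1)) g := by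
        funext ξ
        unfold pc mm Ph
        rw [← Finset.sum_mul]
        congr 1
        push_cast
        simp only [Finset.sum_singleton]
        exact Finset.sum_coe_sort (sq (nn K1)) (fun a => ((th2 a (K1 • gradient h ξ) : ℝ) : ℂ))
      rw [e3]
      exact pc_full (r := 1) hg.s (hfull K1 hK10)
    rw [e2]
  -- apply the abstract inequality
  have habs := bn_abs μ (J := JJ (nn K) (nn K1)) (A := {a // a ∈ sq (nn K1)}) (fun j => j.2)
    near 16008001 near_card (cj K) (ρ := 40 / K) (by positivity)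
    (fun j p => ext h (Gj h K K1 g j) p.1 p.2)
    (fun j => ((hNj j).cont hc).measurable)
    (fun j => ENNReal.ofReal Cs * ML (4 * n) h K (Gj h K K1 g j) z) (fun j => by
      rw [hμ]
      refine Measure.ae_smul_measure ?_ _
      rw [ae_restrict_iff' (measurableSet_U K z)]
      exact Filter.Eventually.of_forall fun p hp => hsup h hd hnr h0 K hK0 _ (hNj j)
        (j.1 : ℤ × ℤ) (fun ξ hξ => (Gj_supp hξ).2) z p hp)
    (QQ n h K g z) (ENNReal.ofReal c1) (ENNReal.ofReal (c2 * K1)) (fun j => by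
      have h1 := hmlq h hc K hK0 1 _ (hNj j) z
      have h2 := hqpc h hh K K hK0.le le_rfl hKK 1 _ (hg.pc hh K1 {(j.2 : ℤ × ℤ)})
        {(j.1 : ℤ × ℤ)} z
      have h3 := hqpc h hh K1 K hK10.le hK hKK 1 _ hg {(j.2 : ℤ × ℤ)} z
      calc (ENNReal.ofReal Cs * ML (4 * n) h K (Gj h K K1 g j) z) ^ 2
          = ENNReal.ofReal Cs ^ 2 * ML (4 * n) h K (Gj h K K1 g j) z ^ 2 := by rw [mul_pow]
        _ ≤ ENNReal.ofReal Cs ^ 2 * (ENNReal.ofReal Cm * (ENNReal.ofReal Cq *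
              (ENNReal.ofReal Cq * QQ n h K g z))) := by
            gcongr
            exact h1.trans (by gcongr; exact h2.trans (by gcongr))
        _ = ENNReal.ofReal c1 * QQ n h K g z := by
            rw [hc1, ENNReal.ofReal_mul (by positivity), ENNReal.ofReal_mul (by positivity),
              ENNReal.ofReal_pow hCs.le, ENNReal.ofReal_pow hCq.le]
            ring)
    (fun S hS a₁ a₂ ha => by
      obtain ⟨u, hu, b, hS⟩ := hS
      rw [hμl]
      simp only [mul_pow]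
      have e1 : ∀ a : {a // a ∈ sq (nn K1)}, ∀ p : E2 × ℝ,
          ∑ j ∈ S.filter (fun j => j.2 = a), ext h (Gj h K K1 g j) p.1 p.2 =
          ext h (pc h K ((S.filter (fun j => j.2 = a)).image fun j => (j.1 : ℤ × ℤ))
            (pc h K1 {(a : ℤ × ℤ)} g)) p.1 p.2 := fun a p =>
        hsumS a _ (fun j hj => (Finset.mem_filter.1 hj).2) p
      simp only [e1]
      have hT : ∀ a : {a // a ∈ sq (nn K1)},
          ∀ p ∈ (S.filter (fun j => j.2 = a)).image fun j => (j.1 : ℤ × ℤ),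
          |inner ℝ (K⁻¹ • lv p) u - b| ≤ 40 / K := by
        intro a p hp
        obtain ⟨j, hj, rfl⟩ := Finset.mem_image.1 hp
        exact (hS j).1 (Finset.mem_filter.1 hj).1
      have h1 := hbil h hh h0 K1 K hK1 hK g hg a₁ a₂ ha u b hu _ _ (hT a₁) (hT a₂) z
      calc _ ≤ (volume (U K z))⁻¹ * (ENNReal.ofReal (Cb * K1 * K ^ 3) * QQ n h K g z ^ 2) := by
            gcongr
        _ = ENNReal.ofReal (c2 * K1) * QQ n h K g z ^ 2 := by
            rw [volume_U hK0, ENNReal.mul_inv (Or.inr hv1) (Or.inr hv0),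
              ← ENNReal.ofReal_inv_of_pos (by positivity), ← mul_assoc]
            congr 1
            have e2 : v0⁻¹ = ENNReal.ofReal (v0.toReal)⁻¹ := by
              rw [ENNReal.ofReal_inv_of_pos hvpos, ENNReal.ofReal_toReal hv1]
            rw [e2, ← ENNReal.ofReal_mul (by positivity), ← ENNReal.ofReal_mul (by positivity)]
            congr 1
            rw [hc2]
            field_simp)
    (Tr K (nn K) (nn K1)) (fun i j k hF => by
      classical
      unfold Tr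
      rw [Finset.mem_filter]
      exact ⟨Finset.mem_univ _, hF⟩)
  simp only [hsumAll, hsumA, hμl] at habs
  refine habs.trans ?_
  -- clean up the constants
  have hCC0 : 0 < CC := by positivity
  have t0 : (0:ℝ) ≤ c1 ^ (3 / 2 : ℝ) := by positivity
  have em : (((16008001 : ℕ) : ℝ≥0∞) + 1) = ENNReal.ofReal m := by
    rw [hm, ENNReal.ofReal_add (by norm_num) (by norm_num)]
    norm_num
  refine add_le_add (add_le_add ?_ ?_) ?_
  · refine mul_le_mul_left ?_ _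
    have e : (16 : ℝ≥0∞) * (((16008001 : ℕ) : ℝ≥0∞) + 1) ^ 3 = ENNReal.ofReal (16 * m ^ 3) := by
      rw [ENNReal.ofReal_mul (by norm_num), ENNReal.ofReal_pow hmp.le, hm,
        ENNReal.ofReal_add (by norm_num) (by norm_num)]
      norm_num
    rw [e]
    refine ENNReal.ofReal_le_ofReal ?_
    rw [hCC]
    have : 0 ≤ 20 * m ^ 3 * c1 ^ (3 / 2 : ℝ) + 4 * 81 ^ 7 * (1 + c2) + (81 * 81) ^ 6 * Cs ^ 3 := by
      positivity
    linarith
  · refine mul_le_mul_left ?_ _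
    have e1 : (20 : ℝ≥0∞) * (((16008001 : ℕ) : ℝ≥0∞) + 1) ^ 3 * ENNReal.ofReal c1 ^ (3 / 2 : ℝ) =
        ENNReal.ofReal (20 * m ^ 3 * c1 ^ (3 / 2 : ℝ)) := by
      have e20 : (20 : ℝ≥0∞) = ENNReal.ofReal 20 := by norm_num
      rw [em, ENNReal.ofReal_rpow_of_nonneg hc1p.le (by norm_num), ← ENNReal.ofReal_pow hmp.le, e20,
        ← ENNReal.ofReal_mul (by norm_num), ← ENNReal.ofReal_mul (by positivity)]
    have e2 : ENNReal.ofReal (c2 * K1) ^ (3 / 4 : ℝ) ≤ ENNReal.ofReal ((1 + c2) * K1) := by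
      rw [ENNReal.ofReal_rpow_of_nonneg (by positivity) (by norm_num)]
      refine ENNReal.ofReal_le_ofReal ?_
      have h1 : (c2 * K1) ^ (3 / 4 : ℝ) ≤ (1 + c2 * K1) ^ (3 / 4 : ℝ) :=
        Real.rpow_le_rpow (by positivity) (by linarith) (by norm_num)
      have h2 : (1 + c2 * K1) ^ (3 / 4 : ℝ) ≤ (1 + c2 * K1) ^ (1 : ℝ) :=
        Real.rpow_le_rpow_of_exponent_le (by nlinarith [mul_pos hc2p hK10]) (by norm_num)
      rw [Real.rpow_one] at h2
      nlinarith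
    have e3 : ((Fintype.card {a // a ∈ sq (nn K1)} : ℕ) : ℝ≥0∞) ≤ ENNReal.ofReal (81 * K1 ^ 2) := by
      rw [Fintype.card_coe]
      exact ofReal_card_le (card_sq_le hK1)
    calc _ ≤ ENNReal.ofReal (20 * m ^ 3 * c1 ^ (3 / 2 : ℝ)) +
          4 * ENNReal.ofReal (81 * K1 ^ 2) ^ 7 * ENNReal.ofReal ((1 + c2) * K1) := by
          rw [e1]
          gcongr
      _ = ENNReal.ofReal (20 * m ^ 3 * c1 ^ (3 / 2 : ℝ) +
          4 * (81 * K1 ^ 2) ^ 7 * ((1 + c2) * K1)) := by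
          rw [ENNReal.ofReal_add (by positivity) (by positivity),
            ENNReal.ofReal_mul (p := 4 * (81 * K1 ^ 2) ^ 7) (by positivity),
            ENNReal.ofReal_mul (p := 4) (by norm_num), ENNReal.ofReal_pow (by positivity)]
          norm_num
      _ ≤ _ := by
          refine ENNReal.ofReal_le_ofReal ?_
          have h1 : (1:ℝ) ≤ K1 ^ 15 := one_le_pow₀ hK1
          have h2 : 20 * m ^ 3 * c1 ^ (3 / 2 : ℝ) ≤ 20 * m ^ 3 * c1 ^ (3 / 2 : ℝ) * K1 ^ 15 :=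
            le_mul_of_one_le_right (by positivity) h1
          have h3 : 4 * (81 * K1 ^ 2) ^ 7 * ((1 + c2) * K1) =
              4 * 81 ^ 7 * (1 + c2) * K1 ^ 15 := by ring
          have h4 : 0 ≤ 16 * m ^ 3 + (81 * 81) ^ 6 * Cs ^ 3 := by positivity
          rw [h3, hCC]
          nlinarith [mul_nonneg h4 (zero_le_one.trans h1)]
  · have e1 : ((Fintype.card (JJ (nn K) (nn K1)) : ℕ) : ℝ≥0∞) ≤
        ENNReal.ofReal (81 * K ^ 2 * (81 * K ^ 2)) := by
      rw [Fintype.card_prod, Fintype.card_coe, Fintype.card_coe]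
      refine ofReal_card_le ?_
      push_cast
      refine mul_le_mul (card_sq_le hKK) ((card_sq_le hK1).trans ?_) (by positivity) (by positivity)
      gcongr
    have e2 : ∀ q : JJ (nn K) (nn K1) × JJ (nn K) (nn K1) × JJ (nn K) (nn K1),
        ENNReal.ofReal Cs * ML (4 * n) h K (Gj h K K1 g q.1) z *
            (ENNReal.ofReal Cs * ML (4 * n) h K (Gj h K K1 g q.2.1) z) *
          (ENNReal.ofReal Cs * ML (4 * n) h K (Gj h K K1 g q.2.2) z) =
        ENNReal.ofReal (Cs ^ 3) * (ML (4 * n) h K (Gj h K K1 g q.1) z *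
          ML (4 * n) h K (Gj h K K1 g q.2.1) z * ML (4 * n) h K (Gj h K K1 g q.2.2) z) := by
      intro q
      rw [ENNReal.ofReal_pow hCs.le]
      ring
    simp only [e2]
    rw [← Finset.mul_sum, ← mul_assoc]
    refine mul_le_mul_left ?_ _
    calc _ ≤ ENNReal.ofReal (81 * K ^ 2 * (81 * K ^ 2)) ^ 6 * ENNReal.ofReal (Cs ^ 3) := by gcongr
      _ = ENNReal.ofReal ((81 * 81) ^ 6 * Cs ^ 3 * K ^ 24) := by
          rw [← ENNReal.ofReal_pow (by positivity), ← ENNReal.ofReal_mul (by positivity)]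
          congr 1
          ring
      _ ≤ _ := by
          refine ENNReal.ofReal_le_ofReal ?_
          refine mul_le_mul_of_nonneg_right ?_ (by positivity)
          rw [hCC]
          have : 0 ≤ 16 * m ^ 3 + (20 * m ^ 3 * c1 ^ (3 / 2 : ℝ) + 4 * 81 ^ 7 * (1 + c2)) := by
            positivity
          linarith

end Crest.Agent.R138.Bn759
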