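import Crest.Agent.R138.Bn7_759

/-! R138, broad/narrow end, part 8 (helper759): integration over the balls; the broad part by
trilinear restriction (hypothesis `B3`). -/

set_option autoImplicit false

open MeasureTheory
open scoped ENNReal

namespace Crest.Agent.R138.Bn759

open Crest.Agent.R138.Defs (E2 ee ext ParB cyl)
open Crest.Agent.R138.Bil882 (NearId ee_eq Gam W lip_of_grad norm_le_add planar_bilinear wt)

/-! ### averages over balls -/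

lemma isClosed_cyl (R : ℝ) : IsClosed (cyl R) := by
  have h1 : IsClosed {p : E2 × ℝ | ‖p.1‖ ≤ R} := isClosed_le (by fun_prop) continuous_const
  have h2 : IsClosed {p : E2 × ℝ | |p.2| ≤ R} := isClosed_le (by fun_prop) continuous_const
  exact h1.inter h2

lemma measurableSet_cyl (R : ℝ) : MeasurableSet (cyl R) := (isClosed_cyl R).measurableSet

lemma mem_U_comm {K : ℝ} {z p : E2 × ℝ} : p ∈ U K z ↔ z ∈ U K p := by
  show ‖p.1 - z.1‖ + |p.2 - z.2| ≤ K ↔ ‖z.1 - p.1‖ + |z.2 - p.2| ≤ K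
  rw [norm_sub_rev, abs_sub_comm]

lemma lintegral_avg {f : E2 × ℝ → ℝ≥0∞} (hf : Measurable f) (K : ℝ) (A : Set (E2 × ℝ)) :
    ∫⁻ z in A, ∫⁻ p in U K z, f p = ∫⁻ p : E2 × ℝ, f p * volume (A ∩ U K p) := by
  have hG : MeasurableSet {q : (E2 × ℝ) × (E2 × ℝ) | q.2 ∈ U K q.1} := by
    refine (isClosed_le (f := fun q : (E2 × ℝ) × (E2 × ℝ) => ‖q.2.1 - q.1.1‖ + |q.2.2 - q.1.2|)
      (g := fun _ => K) (by fun_prop) continuous_const).measurableSet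
  have h1 : ∀ z : E2 × ℝ, ∫⁻ p in U K z, f p =
      ∫⁻ p : E2 × ℝ, {q : (E2 × ℝ) × (E2 × ℝ) | q.2 ∈ U K q.1}.indicator (fun q => f q.2) (z, p) := by
    intro z
    rw [← lintegral_indicator (measurableSet_U K z)]
    rfl
  simp_rw [h1]
  rw [lintegral_lintegral_swap]
  · refine lintegral_congr fun p => ?_
    have h2 : ∀ z : E2 × ℝ, {q : (E2 × ℝ) × (E2 × ℝ) | q.2 ∈ U K q.1}.indicator
        (fun q => f q.2) (z, p) = (U K p).indicator (fun _ => f p) z := by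
      intro z
      by_cases hz : p ∈ U K z
      · rw [Set.indicator_of_mem (by exact hz), Set.indicator_of_mem (mem_U_comm.1 hz)]
      · rw [Set.indicator_of_notMem (by exact hz),
          Set.indicator_of_notMem fun h => hz (mem_U_comm.2 h)]
    simp_rw [h2]
    rw [lintegral_indicator (measurableSet_U K p), lintegral_const, Measure.restrict_apply_univ,
      Measure.restrict_apply (measurableSet_U K p), Set.inter_comm]
  · exact ((hf.comp measurable_snd).indicator hG).aemeasurable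

lemma U_subset_cyl {K R S : ℝ} {p : E2 × ℝ} (hp : p ∈ cyl R) (h : R + K ≤ S) :
    U K p ⊆ cyl S := by
  intro z hz
  have h1 : ‖z.1 - p.1‖ + |z.2 - p.2| ≤ K := hz
  have h2 : ‖p.1‖ ≤ R := hp.1
  have h3 : |p.2| ≤ R := hp.2
  have h4 : ‖z.1‖ ≤ ‖z.1 - p.1‖ + ‖p.1‖ := by
    calc ‖z.1‖ = ‖(z.1 - p.1) + p.1‖ := by rw [sub_add_cancel]
      _ ≤ _ := norm_add_le _ _
  have h5 : |z.2| ≤ |z.2 - p.2| + |p.2| := by
    calc |z.2| = |(z.2 - p.2) + p.2| := by rw [sub_add_cancel]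
      _ ≤ _ := abs_add_le _ _
  have h6 := norm_nonneg (z.1 - p.1)
  have h7 := abs_nonneg (z.2 - p.2)
  exact ⟨by linarith, by linarith⟩

lemma vU_ne_zero {K : ℝ} (hK : 0 < K) (z : E2 × ℝ) : volume (U K z) ≠ 0 := by
  rw [volume_U hK]
  exact mul_ne_zero (by simpa using by positivity) v0_ne_zero

lemma vU_ne_top {K : ℝ} (hK : 0 < K) (z : E2 × ℝ) : volume (U K z) ≠ ∞ := by
  rw [volume_U hK]
  exact ENNReal.mul_ne_top ENNReal.ofReal_ne_top v0_ne_top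

lemma avg_eq {f : E2 × ℝ → ℝ≥0∞} (hf : Measurable f) {K : ℝ} (hK : 0 < K) (A : Set (E2 × ℝ)) :
    ∫⁻ z in A, (volume (U K z))⁻¹ * ∫⁻ p in U K z, f p =
      (volume (U K 0))⁻¹ * ∫⁻ p : E2 × ℝ, f p * volume (A ∩ U K p) := by
  have e : ∀ z : E2 × ℝ, volume (U K z) = volume (U K 0) := fun z => by
    rw [volume_U hK, volume_U hK]
  simp_rw [e]
  rw [lintegral_const_mul' _ _ (ENNReal.inv_ne_top.2 (vU_ne_zero hK 0)), lintegral_avg hf K A]

lemma avg_ge {f : E2 × ℝ → ℝ≥0∞} (hf : Measurable f) {K R : ℝ} (hK : 0 < K) (hKR : K ≤ R) :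
    ∫⁻ p in cyl R, f p ≤ ∫⁻ z in cyl (2 * R), (volume (U K z))⁻¹ * ∫⁻ p in U K z, f p := by
  rw [avg_eq hf hK _, ← lintegral_const_mul' _ _
    (ENNReal.inv_ne_top.2 (vU_ne_zero hK 0)), ← lintegral_indicator (measurableSet_cyl R)]
  refine lintegral_mono fun p => ?_
  by_cases hp : p ∈ cyl R
  · rw [Set.indicator_of_mem hp, Set.inter_eq_self_of_subset_right
      (U_subset_cyl hp (by linarith)), volume_U hK, volume_U hK, ← volume_U hK 0]
    rw [mul_comm (f p), ← mul_assoc, ENNReal.inv_mul_cancel (vU_ne_zero hK 0) (vU_ne_top hK 0),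
      one_mul]
  · rw [Set.indicator_of_notMem hp]; exact bot_le

lemma avg_le {f : E2 × ℝ → ℝ≥0∞} (hf : Measurable f) {K R : ℝ} (hK : 0 < K) (hKR : K ≤ R) :
    ∫⁻ z in cyl (2 * R), (volume (U K z))⁻¹ * ∫⁻ p in U K z, f p ≤ ∫⁻ p in cyl (4 * R), f p := by
  rw [avg_eq hf hK _, ← lintegral_const_mul' _ _
    (ENNReal.inv_ne_top.2 (vU_ne_zero hK 0)), ← lintegral_indicator (measurableSet_cyl _)]
  refine lintegral_mono fun p => ?_
  by_cases hp : p ∈ cyl (4 * R)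
  · rw [Set.indicator_of_mem hp]
    have hle : volume (cyl (2 * R) ∩ U K p) ≤ volume (U K 0) := by
      calc volume (cyl (2 * R) ∩ U K p) ≤ volume (U K p) := measure_mono Set.inter_subset_right
        _ = volume (U K 0) := by rw [volume_U hK, volume_U hK]
    calc (volume (U K 0))⁻¹ * (f p * volume (cyl (2 * R) ∩ U K p))
        ≤ (volume (U K 0))⁻¹ * (f p * volume (U K 0)) :=
          mul_le_mul_right (mul_le_mul_right hle _) _
      _ = f p := by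
          rw [mul_comm (f p), ← mul_assoc,
            ENNReal.inv_mul_cancel (vU_ne_zero hK 0) (vU_ne_top hK 0), one_mul]
  · have e : cyl (2 * R) ∩ U K p = ∅ := by
      by_contra hne
      obtain ⟨z, hz1, hz2⟩ := Set.nonempty_iff_ne_empty.2 hne
      exact hp (U_subset_cyl (S := 4 * R) hz1 (by linarith) (mem_U_comm.1 hz2))
    rw [e, measure_empty, mul_zero, mul_zero]
    exact bot_le

/-! ### the energy term -/

/-- the functional `N_K` (the weighted form). -/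
noncomputable def NN (N : ℕ) (h : E2 → ℝ) (g : E2 → ℂ) (w R : ℝ) : ℝ≥0∞ :=
  ∫⁻ z in cyl R, (ENNReal.ofReal (w ^ 3)⁻¹ *
    ∫⁻ p : E2 × ℝ, ‖ext h g p.1 p.2‖ₑ ^ 2 * ENNReal.ofReal (wt N w z.1 z.2 p)) ^ (3 / 2 : ℝ)

lemma QQ_le_NN {n N : ℕ} (hnN : N ≤ 2 * n) (h : E2 → ℝ) {K : ℝ} (hK : 0 < K) (g : E2 → ℂ)
    (R : ℝ) : ∫⁻ z in cyl R, QQ n h K g z ^ (3 / 2 : ℝ) ≤
      ENNReal.ofReal ((2 ^ n) ^ (3 / 2 : ℝ)) * NN N h g K R := by
  unfold NN
  rw [← lintegral_const_mul' _ _ ENNReal.ofReal_ne_top]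
  refine lintegral_mono fun z => ?_
  rw [← ENNReal.ofReal_rpow_of_nonneg (by positivity) (by norm_num),
    ← ENNReal.mul_rpow_of_nonneg _ _ (by norm_num)]
  refine ENNReal.rpow_le_rpow ?_ (by norm_num)
  unfold QQ
  rw [← mul_assoc, mul_comm (ENNReal.ofReal (2 ^ n)), mul_assoc]
  gcongr
  rw [← lintegral_const_mul' _ _ ENNReal.ofReal_ne_top]
  refine lintegral_mono fun p => ?_
  calc ‖ext h g p.1 p.2‖ₑ ^ 2 * ENNReal.ofReal (pw n K z p)
      ≤ ‖ext h g p.1 p.2‖ₑ ^ 2 * ENNReal.ofReal (2 ^ n * wz N K z p) := by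
        gcongr
        refine (pw_le_wz n hK z p).trans ?_
        gcongr
        exact wz_anti hnN hK z p
    _ = _ := by
        rw [ENNReal.ofReal_mul (by positivity)]
        simp only [wz]
        ring

/-! ### the broad term -/

/-- translation of a wave by modulation (same as `tr` of the blueprint). -/
noncomputable def tr (h : E2 → ℝ) (w : E2 × ℝ) (g : E2 → ℂ) (ξ : E2) : ℂ :=
  g ξ * ee (inner ℝ w.1 ξ + w.2 * h ξ)

lemma ext_tr (h : E2 → ℝ) (w : E2 × ℝ) (g : E2 → ℂ) (z : E2 × ℝ) :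
    ext h (tr h w g) z.1 z.2 = ext h g (z + w).1 (z + w).2 := by
  unfold Crest.Agent.R138.Defs.ext tr
  refine integral_congr_ae (Filter.Eventually.of_forall fun ξ => ?_)
  simp only
  rw [mul_assoc, ← ee_add]
  congr 2
  rw [Prod.fst_add, Prod.snd_add, inner_add_left]
  ring

lemma norm_tr (h : E2 → ℝ) (w : E2 × ℝ) (g : E2 → ℂ) (ξ : E2) : ‖tr h w g ξ‖ = ‖g ξ‖ := by
  unfold tr; rw [norm_mul, norm_ee, mul_one]

lemma Nice.tr {h : E2 → ℝ} (hh : Continuous h) {r : ℝ} {g : E2 → ℂ} (hg : Nice r g)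
    (w : E2 × ℝ) : Nice r (tr h w g) := by
  refine ⟨hg.m.mul (continuous_ee.comp (by fun_prop)).measurable, ?_, fun ξ hξ => ?_⟩
  · obtain ⟨M, hM⟩ := hg.b
    exact ⟨M, fun ξ => by rw [norm_tr]; exact hM ξ⟩
  · unfold Crest.Agent.R138.Bn759.tr; rw [hg.s ξ hξ, zero_mul]

/-- **trilinear restriction** (helper191's B3), with constants `A`, `C`. -/
def B3 (L ε A C : ℝ) : Prop :=
  ∀ h : E2 → ℝ, Differentiable ℝ h → ‖gradient h 0‖ ≤ L →
    (∀ ξ ξ', ‖gradient h ξ - gradient h ξ'‖ ≤ L * ‖ξ - ξ'‖) → ∀ ν R : ℝ, 0 < ν → ν ≤ 1 → 1 ≤ R →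
    ∀ g : Fin 3 → E2 → ℂ, (∀ j, Measurable (g j)) → (∀ j, ∃ M, ∀ ξ, ‖g j ξ‖ ≤ M) →
    (∀ j ξ, 2 < ‖ξ‖ → g j ξ = 0) →
    (∀ ξ : Fin 3 → E2, (∀ j, g j (ξ j) ≠ 0) →
      ν ≤ |dt (gradient h (ξ 1) - gradient h (ξ 0)) (gradient h (ξ 2) - gradient h (ξ 0))|) →
    ∫⁻ p in cyl R, ‖ext h (g 0) p.1 p.2‖ₑ * ‖ext h (g 1) p.1 p.2‖ₑ * ‖ext h (g 2) p.1 p.2‖ₑ ≤
      ENNReal.ofReal (C * ν ^ (-A) * R ^ ε * √(∫ ξ, ‖g 0 ξ‖ ^ 2) * √(∫ ξ, ‖g 1 ξ‖ ^ 2) *
        √(∫ ξ, ‖g 2 ξ‖ ^ 2))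

/-- the normalised weight as a density on translations. -/
noncomputable def om (N : ℕ) (K : ℝ) (w : E2 × ℝ) : ℝ≥0∞ :=
  ENNReal.ofReal (K ^ 3)⁻¹ * ENNReal.ofReal (wz N K 0 w)

lemma measurable_om (N : ℕ) (K : ℝ) : Measurable (om N K) :=
  measurable_const.mul (measurable_wz N K 0).ennreal_ofReal

lemma lintegral_om (N : ℕ) {K : ℝ} (hK : 0 < K) : ∫⁻ w, om N K w = IW N := by
  unfold om
  rw [lintegral_const_mul' _ _ ENNReal.ofReal_ne_top, lintegral_wz N hK 0, ← mul_assoc,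
    ← ENNReal.ofReal_mul (by positivity), inv_mul_cancel₀ (by positivity), ENNReal.ofReal_one,
    one_mul]

lemma ML_eq (N : ℕ) (h : E2 → ℝ) (K : ℝ) (g : E2 → ℂ) (z : E2 × ℝ) :
    ML N h K g z = ∫⁻ w, om N K w * ‖ext h g (z + w).1 (z + w).2‖ₑ := by
  unfold ML om
  rw [← lintegral_add_left_eq_self (fun p : E2 × ℝ => ‖ext h g p.1 p.2‖ₑ *
    ENNReal.ofReal (wz N K z p)) z, ← lintegral_const_mul' _ _ ENNReal.ofReal_ne_top]
  refine lintegral_congr fun w => ?_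
  have e : wz N K z (z + w) = wz N K 0 w := by
    rw [wz_eq, wz_eq]
    simp
  rw [e]
  ring

/-- averaging one factor. -/
lemma avg_one {X Y : Type*} [MeasurableSpace X] [MeasurableSpace Y] (μ : Measure X)
    (ν : Measure Y) [SFinite μ] [SFinite ν] {ω : Y → ℝ≥0∞} (hω : Measurable ω)
    {F : X × Y → ℝ≥0∞} (hF : Measurable F) {G : X → ℝ≥0∞} (hG : Measurable G) {D : ℝ≥0∞}
    (h : ∀ y, ∫⁻ x, G x * F (x, y) ∂μ ≤ D) :
    ∫⁻ x, G x * (∫⁻ y, ω y * F (x, y) ∂ν) ∂μ ≤ (∫⁻ y, ω y ∂ν) * D := by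
  have e1 : ∀ x, G x * (∫⁻ y, ω y * F (x, y) ∂ν) = ∫⁻ y, ω y * (G x * F (x, y)) ∂ν := by
    intro x
    have hm1 : Measurable fun y => ω y * F (x, y) :=
      hω.mul (hF.comp (measurable_const.prodMk measurable_id))
    rw [← lintegral_const_mul _ hm1]
    exact lintegral_congr fun y => by ring
  simp_rw [e1]
  rw [lintegral_lintegral_swap, ← lintegral_mul_const _ hω]
  · refine lintegral_mono fun y => ?_
    have hm2 : Measurable fun x => G x * F (x, y) :=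
      hG.mul (hF.comp (measurable_id.prodMk measurable_const))
    rw [lintegral_const_mul _ hm2]
    exact mul_le_mul_right (h y) _
  · exact ((hω.comp measurable_snd).mul ((hG.comp measurable_fst).mul hF)).aemeasurable

/-- averaging three factors. -/
lemma avg_three {X Y : Type*} [MeasurableSpace X] [MeasurableSpace Y] (μ : Measure X)
    (ν : Measure Y) [SFinite μ] [SFinite ν] {ω : Y → ℝ≥0∞} (hω : Measurable ω)
    {F1 F2 F3 : X × Y → ℝ≥0∞} (h1 : Measurable F1) (h2 : Measurable F2) (h3 : Measurable F3)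
    {D : ℝ≥0∞} (h : ∀ y1 y2 y3, ∫⁻ x, F1 (x, y1) * F2 (x, y2) * F3 (x, y3) ∂μ ≤ D) :
    ∫⁻ x, (∫⁻ y, ω y * F1 (x, y) ∂ν) * (∫⁻ y, ω y * F2 (x, y) ∂ν) *
      (∫⁻ y, ω y * F3 (x, y) ∂ν) ∂μ ≤ (∫⁻ y, ω y ∂ν) ^ 3 * D := by
  have m : ∀ {F : X × Y → ℝ≥0∞}, Measurable F → Measurable fun x => ∫⁻ y, ω y * F (x, y) ∂ν :=
    fun hF => ((hω.comp measurable_snd).mul hF).lintegral_prod_right'
  have c : ∀ {F : X × Y → ℝ≥0∞}, Measurable F → ∀ y, Measurable fun x => F (x, y) :=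
    fun hF y => hF.comp (measurable_id.prodMk measurable_const)
  have A : ∀ y1 y2, ∫⁻ x, (F1 (x, y1) * F2 (x, y2)) * (∫⁻ y, ω y * F3 (x, y) ∂ν) ∂μ ≤
      (∫⁻ y, ω y ∂ν) * D := fun y1 y2 =>
    avg_one μ ν hω h3 (G := fun x => F1 (x, y1) * F2 (x, y2)) ((c h1 y1).mul (c h2 y2))
      fun y3 => h y1 y2 y3
  have B' : ∀ y1, ∫⁻ x, (F1 (x, y1) * (∫⁻ y, ω y * F3 (x, y) ∂ν)) *
      (∫⁻ y, ω y * F2 (x, y) ∂ν) ∂μ ≤ (∫⁻ y, ω y ∂ν) * ((∫⁻ y, ω y ∂ν) * D) := fun y1 =>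
    avg_one μ ν hω h2 (G := fun x => F1 (x, y1) * (∫⁻ y, ω y * F3 (x, y) ∂ν))
      ((c h1 y1).mul (m h3)) fun y2 => by
      refine le_trans (le_of_eq ?_) (A y1 y2)
      exact lintegral_congr fun x => by ring
  have C' : ∫⁻ x, ((∫⁻ y, ω y * F3 (x, y) ∂ν) * (∫⁻ y, ω y * F2 (x, y) ∂ν)) *
      (∫⁻ y, ω y * F1 (x, y) ∂ν) ∂μ ≤
        (∫⁻ y, ω y ∂ν) * ((∫⁻ y, ω y ∂ν) * ((∫⁻ y, ω y ∂ν) * D)) :=
    avg_one μ ν hω h1 (G := fun x => (∫⁻ y, ω y * F3 (x, y) ∂ν) * (∫⁻ y, ω y * F2 (x, y) ∂ν))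
      ((m h3).mul (m h2)) fun y1 => by
      refine le_trans (le_of_eq ?_) (B' y1)
      exact lintegral_congr fun x => by ring
  calc _ = ∫⁻ x, ((∫⁻ y, ω y * F3 (x, y) ∂ν) * (∫⁻ y, ω y * F2 (x, y) ∂ν)) *
      (∫⁻ y, ω y * F1 (x, y) ∂ν) ∂μ := lintegral_congr fun x => by ring
    _ ≤ _ := C'
    _ = _ := by ring

lemma measurable_ext_shift {h : E2 → ℝ} (hh : Continuous h) {r : ℝ} {g : E2 → ℂ}
    (hg : Nice r g) : Measurable fun q : (E2 × ℝ) × (E2 × ℝ) =>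
      ‖ext h g (q.1 + q.2).1 (q.1 + q.2).2‖ₑ := by
  have h1 := hg.cont hh
  have h2 : Continuous fun q : (E2 × ℝ) × (E2 × ℝ) => q.1 + q.2 := by fun_prop
  exact (h1.comp h2).measurable.enorm

/-- a product of three averages is bounded by the worst translate. -/
lemma triple_avg (N : ℕ) {h : E2 → ℝ} (hh : Continuous h) {K : ℝ} (hK : 0 < K) {r : ℝ}
    {g1 g2 g3 : E2 → ℂ} (h1 : Nice r g1) (h2 : Nice r g2) (h3 : Nice r g3) (S : Set (E2 × ℝ))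
    (D : ℝ≥0∞)
    (hD : ∀ w1 w2 w3 : E2 × ℝ, ∫⁻ z in S, ‖ext h g1 (z + w1).1 (z + w1).2‖ₑ *
      ‖ext h g2 (z + w2).1 (z + w2).2‖ₑ * ‖ext h g3 (z + w3).1 (z + w3).2‖ₑ ≤ D) :
    ∫⁻ z in S, ML N h K g1 z * ML N h K g2 z * ML N h K g3 z ≤ IW N ^ 3 * D := by
  simp_rw [ML_eq]
  rw [← lintegral_om N hK]
  exact avg_three (volume.restrict S) volume (measurable_om N K) (measurable_ext_shift hh h1)
    (measurable_ext_shift hh h2) (measurable_ext_shift hh h3) hD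

end Crest.Agent.R138.Bn759
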