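import Crest.Agent.R138.Bn8_759

/-! R138, broad/narrow end, part 9 (helper759): **BN2**, the integrated inequality. -/

set_option autoImplicit false

open MeasureTheory
open scoped ENNReal

namespace Crest.Agent.R138.Bn759

open Crest.Agent.R138.Defs (E2 ee ext ParB cyl)
open Crest.Agent.R138.Bil882 (NearId ee_eq Gam W lip_of_grad norm_le_add planar_bilinear wt)

lemma measurable_avg {f : E2 × ℝ → ℝ≥0∞} (hf : Measurable f) {K : ℝ} (hK : 0 < K) :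
    Measurable fun z : E2 × ℝ => (volume (U K z))⁻¹ * ∫⁻ p in U K z, f p := by
  have hG : MeasurableSet {q : (E2 × ℝ) × (E2 × ℝ) | q.2 ∈ U K q.1} := by
    refine (isClosed_le (f := fun q : (E2 × ℝ) × (E2 × ℝ) => ‖q.2.1 - q.1.1‖ + |q.2.2 - q.1.2|)
      (g := fun _ => K) (by fun_prop) continuous_const).measurableSet
  have h1 : ∀ z : E2 × ℝ, (volume (U K z))⁻¹ * ∫⁻ p in U K z, f p = (volume (U K 0))⁻¹ *
      ∫⁻ p : E2 × ℝ, {q : (E2 × ℝ) × (E2 × ℝ) | q.2 ∈ U K q.1}.indicator (fun q => f q.2) (z, p) := by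
    intro z
    rw [← lintegral_indicator (measurableSet_U K z), volume_U hK, volume_U hK]
    rfl
  simp_rw [h1]
  exact ((hf.comp measurable_snd).indicator hG).lintegral_prod_right'.const_mul _

lemma measurable_ML (N : ℕ) {h : E2 → ℝ} (hh : Continuous h) (K : ℝ) {r : ℝ} {g : E2 → ℂ}
    (hg : Nice r g) : Measurable (ML N h K g) := by
  have e : ML N h K g = fun z => ∫⁻ w, om N K w * ‖ext h g (z + w).1 (z + w).2‖ₑ :=
    funext fun z => ML_eq N h K g z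
  rw [e]
  exact (((measurable_om N K).comp measurable_snd).mul
    (measurable_ext_shift hh hg)).lintegral_prod_right'

lemma norm_mm_single_le (h : E2 → ℝ) (κ : ℝ) (a : ℤ × ℤ) (ξ : E2) :
    ‖mm h κ (Ph {a}) ξ‖ ≤ 1 := by
  unfold mm Ph
  rw [Complex.norm_real, Finset.sum_singleton, Real.norm_of_nonneg (th2_nonneg a _)]
  unfold th2
  exact mul_le_one₀ (th_le_one _) (th_nonneg _) (th_le_one _)

lemma norm_pc_single_le (h : E2 → ℝ) (κ : ℝ) (a : ℤ × ℤ) (g : E2 → ℂ) (ξ : E2) :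
    ‖pc h κ {a} g ξ‖ ≤ ‖g ξ‖ := by
  unfold pc
  rw [norm_mul]
  exact mul_le_of_le_one_left (norm_nonneg _) (norm_mm_single_le h κ a ξ)

lemma norm_Gj_le (h : E2 → ℝ) (K K1 : ℝ) (g : E2 → ℂ) {n n1 : ℕ} (j : JJ n n1) (ξ : E2) :
    ‖Gj h K K1 g j ξ‖ ≤ ‖g ξ‖ :=
  (norm_pc_single_le h K _ _ ξ).trans (norm_pc_single_le h K1 _ g ξ)

lemma Nice.sq_integrable {r : ℝ} {g : E2 → ℂ} (hg : Nice r g) :
    Integrable fun ξ => ‖g ξ‖ ^ 2 := by
  have := (memLp_of_bdd hg.m hg.b hg.s).integrable_norm_pow (by norm_num)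
  simpa using this

lemma integral_sq_le {r : ℝ} {g g' : E2 → ℂ} (hg : Nice r g)
    (hle : ∀ ξ, ‖g' ξ‖ ≤ ‖g ξ‖) : ∫ ξ, ‖g' ξ‖ ^ 2 ≤ ∫ ξ, ‖g ξ‖ ^ 2 := by
  refine integral_mono_of_nonneg (Filter.Eventually.of_forall fun ξ => by positivity)
    hg.sq_integrable (Filter.Eventually.of_forall fun ξ => ?_)
  have := hle ξ
  simp only
  gcongr

/-- the trilinear estimate for translates of a fat triple of pieces. -/
lemma broad_piece {ε A C3 : ℝ} (hC3 : 0 ≤ C3) (hB3 : B3 2 ε A C3) {B : ℕ → ℝ}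
    (hB2 : B 2 ≤ 1 / 10) {h : E2 → ℝ} (hh : ParB B h) (h0 : ‖gradient h 0‖ ≤ 1) {K1 K R : ℝ}
    (hK1 : 1 ≤ K1) (hK : K1 ≤ K) (hKR : K ≤ R) {g : E2 → ℂ} (hg : Nice 1 g)
    (q : JJ (nn K) (nn K1) × JJ (nn K) (nn K1) × JJ (nn K) (nn K1))
    (hq : q ∈ Tr K (nn K) (nn K1)) (w1 w2 w3 : E2 × ℝ) :
    ∫⁻ z in cyl (2 * R), ‖ext h (Gj h K K1 g q.1) (z + w1).1 (z + w1).2‖ₑ *
      ‖ext h (Gj h K K1 g q.2.1) (z + w2).1 (z + w2).2‖ₑ *
      ‖ext h (Gj h K K1 g q.2.2) (z + w3).1 (z + w3).2‖ₑ ≤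
    ENNReal.ofReal (C3 * ((K ^ 2)⁻¹) ^ (-A) * (2 * R) ^ ε * √(∫ ξ, ‖g ξ‖ ^ 2) ^ 3) := by
  classical
  have hK0 : 0 < K := by linarith
  have hKK : 1 ≤ K := hK1.trans hK
  have hR0 : 0 < R := by linarith
  have hd : Differentiable ℝ h := hh.1.differentiable (by simp)
  have hc : Continuous h := hd.continuous
  have hnr := nearId hB2 hh
  have hN : ∀ j : JJ (nn K) (nn K1), Nice 1 (Gj h K K1 g j) := fun j =>
    (hg.pc hh K1 _).pc hh K _
  set G : Fin 3 → E2 → ℂ := ![tr h w1 (Gj h K K1 g q.1), tr h w2 (Gj h K K1 g q.2.1),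
    tr h w3 (Gj h K K1 g q.2.2)] with hG
  have hF : Fat (40 / K) (cj K q.1) (cj K q.2.1) (cj K q.2.2) := by
    unfold Tr at hq
    exact (Finset.mem_filter.1 hq).2
  have hNG : ∀ j, Nice 1 (G j) := by
    intro j
    fin_cases j
    · exact (hN q.1).tr hc w1
    · exact (hN q.2.1).tr hc w2
    · exact (hN q.2.2).tr hc w3
  have hpert : ∀ (j : JJ (nn K) (nn K1)) (w : E2 × ℝ) (ξ : E2), tr h w (Gj h K K1 g j) ξ ≠ 0 →
      ‖gradient h ξ - cj K j‖ ≤ 40 / K / 20 := by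
    intro j w ξ hξ
    have h1 : Gj h K K1 g j ξ ≠ 0 := by
      intro h2; apply hξ; unfold tr; rw [h2, zero_mul]
    have h3 := dir_close hK0 (Gj_supp h1).2
    refine h3.trans ?_
    have e : 40 / K / 20 = 2 / K := by ring
    rw [e]
    exact div_le_div_of_nonneg_right (by norm_num) hK0.le
  have h1 := hB3 h hd (h0.trans (by norm_num)) (fun ξ ξ' => (dist_ge_of_grad hnr ξ ξ').trans (by
      have := norm_nonneg (ξ - ξ'); linarith)) (K ^ 2)⁻¹ (2 * R) (by positivity)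
    (inv_le_one_of_one_le₀ (one_le_pow₀ hKK)) (by linarith) G (fun j => (hNG j).m)
    (fun j => (hNG j).b) (fun j ξ hξ => (hNG j).s ξ (by linarith)) (fun ξ hξ => by
      have a0 := hpert q.1 w1 (ξ 0) (hξ 0)
      have a1 := hpert q.2.1 w2 (ξ 1) (hξ 1)
      have a2 := hpert q.2.2 w3 (ξ 2) (hξ 2)
      have a3 := hF.dt_ge (by positivity) a0 a1 a2
      refine le_trans ?_ a3
      rw [div_pow, div_div, ← one_div, div_le_div_iff₀ (by positivity) (by positivity)]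
      nlinarith [pow_pos hK0 2])
  have e0 : ∀ z : E2 × ℝ, ‖ext h (Gj h K K1 g q.1) (z + w1).1 (z + w1).2‖ₑ *
      ‖ext h (Gj h K K1 g q.2.1) (z + w2).1 (z + w2).2‖ₑ *
      ‖ext h (Gj h K K1 g q.2.2) (z + w3).1 (z + w3).2‖ₑ =
      ‖ext h (G 0) z.1 z.2‖ₑ * ‖ext h (G 1) z.1 z.2‖ₑ * ‖ext h (G 2) z.1 z.2‖ₑ := by
    intro z
    rw [← ext_tr, ← ext_tr, ← ext_tr]
    rfl
  simp_rw [e0]
  refine h1.trans (ENNReal.ofReal_le_ofReal ?_)
  have hint : ∀ (j : JJ (nn K) (nn K1)) (w : E2 × ℝ),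
      √(∫ ξ, ‖tr h w (Gj h K K1 g j) ξ‖ ^ 2) ≤ √(∫ ξ, ‖g ξ‖ ^ 2) := by
    intro j w
    refine Real.sqrt_le_sqrt (integral_sq_le hg fun ξ => ?_)
    rw [norm_tr]
    exact norm_Gj_le h K K1 g j ξ
  have i0 := hint q.1 w1
  have i1 := hint q.2.1 w2
  have i2 := hint q.2.2 w3
  have hpos : 0 ≤ C3 * ((K ^ 2)⁻¹) ^ (-A) * (2 * R) ^ ε := by positivity
  calc _ ≤ C3 * ((K ^ 2)⁻¹) ^ (-A) * (2 * R) ^ ε * √(∫ ξ, ‖g ξ‖ ^ 2) * √(∫ ξ, ‖g ξ‖ ^ 2) *
        √(∫ ξ, ‖g ξ‖ ^ 2) := by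
        refine mul_le_mul (mul_le_mul (mul_le_mul_of_nonneg_left i0 hpos) i1 (Real.sqrt_nonneg _)
          (by positivity)) i2 (Real.sqrt_nonneg _) (by positivity)
    _ = _ := by ring

set_option maxHeartbeats 1000000 in
/-- **BN2**: the broad / bilinear / narrow inequality for an extension function. -/
theorem bn_int (B : ℕ → ℝ) (hB2 : B 2 ≤ 1 / 10) {ε A C3 : ℝ} (hε : 0 ≤ ε) (hA : 0 ≤ A)
    (hC3 : 0 ≤ C3) (hB3 : B3 2 ε A C3) (N : ℕ) :
    ∃ C A' : ℝ, 0 < C ∧ 0 < A' ∧ ∀ h : E2 → ℝ, ParB B h → ‖gradient h 0‖ ≤ 1 →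
    ∀ K1 K R : ℝ, 1 ≤ K1 → K1 ≤ K → K ≤ R → ∀ g : E2 → ℂ, Nice 1 g →
      ∫⁻ p in cyl R, ‖ext h g p.1 p.2‖ₑ ^ 3 ≤
        ENNReal.ofReal C * (∑ a ∈ sq (nn K1),
          ∫⁻ p in cyl (4 * R), ‖ext h (pc h K1 {a} g) p.1 p.2‖ₑ ^ 3) +
        ENNReal.ofReal (C * K1 ^ 15) * NN N h g K (2 * R) +
        ENNReal.ofReal (C * K ^ A' * R ^ ε * (∫ ξ, ‖g ξ‖ ^ 2) ^ (3 / 2 : ℝ)) := by
  classical
  set n := max 1 N with hn
  have hn1 : 1 ≤ n := le_max_left _ _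
  have hnN : N ≤ 2 * n := by have := le_max_right 1 N; omega
  obtain ⟨C, hC, hball⟩ := bn_ball B hB2 n hn1
  have hI : IW (4 * n) ≠ ∞ := IW_ne_top (by omega)
  set I3 : ℝ := (IW (4 * n)).toReal with hI3
  have hI30 : 0 ≤ I3 := ENNReal.toReal_nonneg
  set CC : ℝ := C + C * (2 ^ n) ^ (3 / 2 : ℝ) + C * (81 * 81) ^ 3 * I3 ^ 3 * C3 * 2 ^ ε with hCC
  have hCC0 : 0 < CC := by positivity
  refine ⟨CC, 36 + 2 * A, hCC0, by positivity, ?_⟩
  intro h hh h0 K1 K R hK1 hK hKR g hg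
  have hK0 : 0 < K := by linarith
  have hKK : 1 ≤ K := hK1.trans hK
  have hR0 : 0 < R := by linarith
  have hd : Differentiable ℝ h := hh.1.differentiable (by simp)
  have hc : Continuous h := hd.continuous
  have hN : ∀ j : JJ (nn K) (nn K1), Nice 1 (Gj h K K1 g j) := fun j =>
    (hg.pc hh K1 _).pc hh K _
  have mf : Measurable fun p : E2 × ℝ => ‖ext h g p.1 p.2‖ₑ ^ 3 :=
    (hg.cont hc).measurable.enorm.pow_const 3
  have mfa : ∀ a : ℤ × ℤ, Measurable fun p : E2 × ℝ => ‖ext h (pc h K1 {a} g) p.1 p.2‖ₑ ^ 3 :=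
    fun a => ((hg.pc hh K1 {a}).cont hc).measurable.enorm.pow_const 3
  refine (avg_ge mf hK0 hKR).trans ?_
  refine (lintegral_mono fun z => hball h hh h0 K1 K hK1 hK g hg z).trans ?_
  rw [lintegral_add_right, lintegral_add_left]
  rotate_left
  · exact (Finset.measurable_fun_sum _ fun a _ => measurable_avg (mfa _) hK0).const_mul _
  · exact (Finset.measurable_fun_sum _ fun q _ => ((measurable_ML _ hc K (hN _)).mul
      (measurable_ML _ hc K (hN _))).mul (measurable_ML _ hc K (hN _))).const_mul _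
  refine add_le_add (add_le_add ?_ ?_) ?_
  · -- narrow
    rw [lintegral_const_mul' _ _ ENNReal.ofReal_ne_top, lintegral_finsetSum _ fun a _ =>
      measurable_avg (mfa _) hK0]
    have e1 : ∑ a : {a // a ∈ sq (nn K1)}, ∫⁻ z in cyl (2 * R), (volume (U K z))⁻¹ *
        ∫⁻ p in U K z, ‖ext h (pc h K1 {(a : ℤ × ℤ)} g) p.1 p.2‖ₑ ^ 3 ≤
        ∑ a ∈ sq (nn K1), ∫⁻ p in cyl (4 * R), ‖ext h (pc h K1 {a} g) p.1 p.2‖ₑ ^ 3 := by
      rw [← Finset.sum_coe_sort (sq (nn K1)) (fun a => ∫⁻ p in cyl (4 * R),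
        ‖ext h (pc h K1 {a} g) p.1 p.2‖ₑ ^ 3)]
      exact Finset.sum_le_sum fun a _ => avg_le (mfa _) hK0 hKR
    refine mul_le_mul (ENNReal.ofReal_le_ofReal ?_) e1 bot_le bot_le
    rw [hCC]
    have : 0 ≤ C * (2 ^ n) ^ (3 / 2 : ℝ) + C * (81 * 81) ^ 3 * I3 ^ 3 * C3 * 2 ^ ε := by positivity
    linarith
  · -- bilinear
    rw [lintegral_const_mul' _ _ ENNReal.ofReal_ne_top]
    calc _ ≤ ENNReal.ofReal (C * K1 ^ 15) *
          (ENNReal.ofReal ((2 ^ n) ^ (3 / 2 : ℝ)) * NN N h g K (2 * R)) := by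
          gcongr
          exact QQ_le_NN hnN h hK0 g (2 * R)
      _ = ENNReal.ofReal (C * (2 ^ n) ^ (3 / 2 : ℝ) * K1 ^ 15) * NN N h g K (2 * R) := by
          rw [← mul_assoc, ← ENNReal.ofReal_mul (by positivity)]
          congr 2
          ring
      _ ≤ _ := by
          refine mul_le_mul_left (ENNReal.ofReal_le_ofReal ?_) _
          refine mul_le_mul_of_nonneg_right ?_ (by positivity)
          rw [hCC]
          have : 0 ≤ C + C * (81 * 81) ^ 3 * I3 ^ 3 * C3 * 2 ^ ε := by positivity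
          linarith
  · -- broad
    have hmM : ∀ q : JJ (nn K) (nn K1) × JJ (nn K) (nn K1) × JJ (nn K) (nn K1),
        Measurable fun z => ML (4 * n) h K (Gj h K K1 g q.1) z *
          ML (4 * n) h K (Gj h K K1 g q.2.1) z * ML (4 * n) h K (Gj h K K1 g q.2.2) z := fun q =>
      ((measurable_ML _ hc K (hN _)).mul (measurable_ML _ hc K (hN _))).mul
        (measurable_ML _ hc K (hN _))
    rw [lintegral_const_mul' _ _ ENNReal.ofReal_ne_top, lintegral_finsetSum _ fun q _ => hmM q]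
    set D : ℝ := C3 * ((K ^ 2)⁻¹) ^ (-A) * (2 * R) ^ ε * √(∫ ξ, ‖g ξ‖ ^ 2) ^ 3 with hD
    have hD0 : 0 ≤ D := by positivity
    have e1 : ∀ q ∈ Tr K (nn K) (nn K1), ∫⁻ z in cyl (2 * R),
        ML (4 * n) h K (Gj h K K1 g q.1) z * ML (4 * n) h K (Gj h K K1 g q.2.1) z *
            ML (4 * n) h K (Gj h K K1 g q.2.2) z ≤ ENNReal.ofReal (I3 ^ 3 * D) := by
      intro q hq
      refine (triple_avg (4 * n) hc hK0 (hN q.1) (hN q.2.1) (hN q.2.2) (cyl (2 * R)) _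
        (broad_piece hC3 hB3 hB2 hh h0 hK1 hK hKR hg q hq)).trans (le_of_eq ?_)
      rw [ENNReal.ofReal_mul (p := I3 ^ 3) (by positivity), ENNReal.ofReal_pow hI30, hI3,
        ENNReal.ofReal_toReal hI]
    have e2 : ((Tr K (nn K) (nn K1)).card : ℝ≥0∞) ≤
        ENNReal.ofReal ((81 * K ^ 2 * (81 * K ^ 2)) ^ 3) := by
      refine ofReal_card_le ?_
      have h1 : ((Fintype.card (JJ (nn K) (nn K1)) : ℕ) : ℝ) ≤ 81 * K ^ 2 * (81 * K ^ 2) := by
        rw [Fintype.card_prod, Fintype.card_coe, Fintype.card_coe]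
        push_cast
        refine mul_le_mul (card_sq_le hKK) ((card_sq_le hK1).trans ?_) (by positivity)
          (by positivity)
        gcongr
      have h2 : ((Tr K (nn K) (nn K1)).card : ℝ) ≤
          ((Fintype.card (JJ (nn K) (nn K1)) : ℕ) : ℝ) ^ 3 := by
        have h3 : (Tr K (nn K) (nn K1)).card ≤ Fintype.card (JJ (nn K) (nn K1)) ^ 3 := by
          refine (Finset.card_le_univ _).trans (le_of_eq ?_)
          simp only [Fintype.card_prod]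
          ring
        exact_mod_cast h3
      refine h2.trans ?_
      gcongr
    calc _ ≤ ENNReal.ofReal (C * K ^ 24) * ∑ q ∈ Tr K (nn K) (nn K1),
          ENNReal.ofReal (I3 ^ 3 * D) := by
          gcongr with q hq
          exact e1 q hq
      _ = ENNReal.ofReal (C * K ^ 24) * (((Tr K (nn K) (nn K1)).card : ℝ≥0∞) *
          ENNReal.ofReal (I3 ^ 3 * D)) := by simp
      _ ≤ ENNReal.ofReal (C * K ^ 24) * (ENNReal.ofReal ((81 * K ^ 2 * (81 * K ^ 2)) ^ 3) *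
          ENNReal.ofReal (I3 ^ 3 * D)) := by gcongr
      _ = ENNReal.ofReal (C * K ^ 24 * ((81 * K ^ 2 * (81 * K ^ 2)) ^ 3 * (I3 ^ 3 * D))) := by
          rw [← ENNReal.ofReal_mul (by positivity), ← ENNReal.ofReal_mul (by positivity)]
      _ ≤ _ := by
          refine ENNReal.ofReal_le_ofReal ?_
          have hE : 0 ≤ ∫ ξ, ‖g ξ‖ ^ 2 := integral_nonneg fun ξ => by positivity
          have r1 : √(∫ ξ, ‖g ξ‖ ^ 2) ^ 3 = (∫ ξ, ‖g ξ‖ ^ 2) ^ (3 / 2 : ℝ) := by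
            rw [Real.sqrt_eq_rpow, ← Real.rpow_natCast, ← Real.rpow_mul hE]
            norm_num
          have r2 : ((K ^ 2)⁻¹) ^ (-A) = K ^ (2 * A) := by
            rw [Real.inv_rpow (by positivity), ← Real.rpow_neg (by positivity), neg_neg,
              ← Real.rpow_natCast, ← Real.rpow_mul hK0.le]
            norm_num
          have r3 : (2 * R) ^ ε = 2 ^ ε * R ^ ε := Real.mul_rpow (by norm_num) hR0.le
          have r4 : K ^ (36 + 2 * A) = K ^ 36 * K ^ (2 * A) := by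
            rw [Real.rpow_add hK0]
            congr 1
            exact_mod_cast Real.rpow_natCast K 36
          rw [hD, r1, r2, r3, r4]
          have e3 : C * K ^ 24 * ((81 * K ^ 2 * (81 * K ^ 2)) ^ 3 *
              (I3 ^ 3 * (C3 * K ^ (2 * A) * (2 ^ ε * R ^ ε) *
                (∫ ξ, ‖g ξ‖ ^ 2) ^ (3 / 2 : ℝ)))) =
              (C * (81 * 81) ^ 3 * I3 ^ 3 * C3 * 2 ^ ε) * (K ^ 36 * K ^ (2 * A)) * R ^ ε *
                (∫ ξ, ‖g ξ‖ ^ 2) ^ (3 / 2 : ℝ) := by ring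
          rw [e3]
          have h5 : C * (81 * 81) ^ 3 * I3 ^ 3 * C3 * 2 ^ ε ≤ CC := by
            rw [hCC]
            have : 0 ≤ C + C * (2 ^ n) ^ (3 / 2 : ℝ) := by positivity
            linarith
          gcongr

end Crest.Agent.R138.Bn759
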