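import Crest.Agent.R138.Rs4_134
import Crest.Agent.R138.Defs_665
import Crest.Agent.R138.Fq2_665

/-!
Bridge `EB ⟹ LocH h` (helper134): bounded `g` satisfy the box bound with `D = C R⁻²`.
-/

set_option autoImplicit false
set_option maxSynthPendingDepth 3

namespace Crest.Agent.R138.Rs134

open MeasureTheory Set Metric FourierTransform
open scoped ContDiff RealInnerProductSpace ENNReal NNReal

theorem ext_defs (h : E2 → ℝ) (g : E2 → ℂ) (x : E2) (t : ℝ) : Defs.ext h g x t = ext h g x t := rfl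

theorem cyl_defs (R : ℝ) : Defs.cyl R = cyl 0 0 R := by
  ext p
  simp only [Defs.cyl, cyl, Set.mem_ofPred_eq, mem_prod, mem_closedBall, dist_zero_right, mem_Icc,
    zero_sub, zero_add, abs_le]

theorem fourierInv_eq (F : E2 → ℂ) (x : E2) : 𝓕⁻ F x = ∫ ξ, F ξ * ee ⟪x, ξ⟫ := by
  rw [Real.fourierInv_eq']
  refine integral_congr_ae (Filter.Eventually.of_forall fun ξ => ?_)
  simp only [smul_eq_mul, ee]
  rw [mul_comm, real_inner_comm]

/-- Conservation of energy on time slices. -/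
theorem slice {h : E2 → ℝ} (hh : Continuous h) {f : E2 → ℂ} (h1 : Integrable f) (h2 : MemLp f 2)
    (t : ℝ) : ∫⁻ x, ‖ext h f x t‖ₑ ^ 2 = ∫⁻ ξ, ‖f ξ‖ₑ ^ 2 := by
  have hm : AEStronglyMeasurable (fun ξ => ee (t * h ξ)) (volume : Measure E2) :=
    (continuous_ee.comp (continuous_const.mul hh)).aestronglyMeasurable
  have e1 : ∀ x, ext h f x t = 𝓕⁻ (fun ξ => f ξ * ee (t * h ξ)) x := by
    intro x
    rw [fourierInv_eq]
    unfold ext ph
    congr 1
    ext ξ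
    rw [ee_add]; ring
  have h1' : Integrable (fun ξ => f ξ * ee (t * h ξ)) :=
    h1.mul_bdd (c := 1) hm (Filter.Eventually.of_forall fun ξ => (norm_ee _).le)
  have h2' : MemLp (fun ξ => f ξ * ee (t * h ξ)) 2 := by
    refine MemLp.of_le h2 h1'.aestronglyMeasurable (Filter.Eventually.of_forall fun ξ => ?_)
    rw [norm_mul_ee]
  simp_rw [e1]
  rw [Fq665.plancherel_inv h1' h2']
  refine lintegral_congr fun ξ => ?_
  rw [← ofReal_norm, norm_mul_ee, ofReal_norm]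

/-- Area of rectangles. -/
theorem volume_rect (c : E2) (b : OrthonormalBasis (Fin 2) ℝ E2) (r : Fin 2 → ℝ) :
    volume {η : E2 | ∀ i, |⟪η - c, b i⟫| ≤ r i} =
      ENNReal.ofReal (2 * r 0) * ENNReal.ofReal (2 * r 1) := by
  have h1 : {η : E2 | ∀ i, |⟪η - c, b i⟫| ≤ r i} =
      b.repr ⁻¹' ((WithLp.ofLp) ⁻¹' (Set.pi univ fun i => Icc (⟪c, b i⟫ - r i) (⟪c, b i⟫ + r i))) := by
    ext η
    simp only [Set.mem_ofPred_eq, mem_preimage, mem_pi, mem_univ, forall_const, mem_Icc,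
      b.repr_apply_apply, abs_le, inner_sub_left]
    refine forall_congr' fun i => ?_
    rw [real_inner_comm η (b i)]
    constructor
    · rintro ⟨h1, h2⟩; constructor <;> linarith
    · rintro ⟨h1, h2⟩; constructor <;> linarith
  have hm : MeasurableSet (Set.pi univ fun i : Fin 2 => Icc (⟪c, b i⟫ - r i) (⟪c, b i⟫ + r i)) :=
    MeasurableSet.univ_pi fun _ => measurableSet_Icc
  rw [h1, b.measurePreserving_repr.measure_preimage
      ((PiLp.volume_preserving_ofLp (Fin 2)).measurable hm).nullMeasurableSet,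
    (PiLp.volume_preserving_ofLp (Fin 2)).measure_preimage hm.nullMeasurableSet, volume_pi_pi,
    Fin.prod_univ_two]
  simp only [Real.volume_Icc]
  congr 2 <;> ring

theorem gradient_antilip {c0 : ℝ} {K : ℕ} {h : E2 → ℝ} (hP : Par c0 K h) (hK : 2 ≤ K)
    (hc : c0 ≤ 1 / 2) : AntilipschitzWith 2 (gradient h) := by
  refine AntilipschitzWith.of_le_mul_dist fun ξ η => ?_
  have h1 : gradient h ξ - gradient h η =
      (InnerProductSpace.toDual ℝ E2).symm (fderiv ℝ h ξ - fderiv ℝ h η) := by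
    unfold gradient; rw [map_sub]
  rw [dist_eq_norm, dist_eq_norm, h1, LinearIsometryEquiv.norm_map]
  have h2 : fderiv ℝ h ξ - fderiv ℝ h η =
      innerSL ℝ (ξ - η) + (fderiv ℝ (pk h) ξ - fderiv ℝ (pk h) η) := by
    rw [(hP.fderiv_h ξ).fderiv, (hP.fderiv_h η).fderiv, map_sub]; abel
  rw [h2]
  have h3 := norm_sub_norm_le (innerSL ℝ (ξ - η)) (-(fderiv ℝ (pk h) ξ - fderiv ℝ (pk h) η))
  rw [sub_neg_eq_add, norm_neg, innerSL_apply_norm] at h3
  have h4 := hP.lip1 hK η ξ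
  have h5 : ((2 : ℝ≥0) : ℝ) = 2 := rfl
  rw [h5]
  nlinarith [norm_nonneg (ξ - η)]

theorem volume_preimage_le {F : E2 → E2} {k : ℝ≥0} (hF : AntilipschitzWith k F)
    (s : Set E2) : volume (F ⁻¹' s) ≤ (k : ℝ≥0∞) ^ 2 * volume s := by
  have h1 : (volume : Measure E2) = Measure.addHaarScalarFactor (volume : Measure E2)
      (μH[(2 : ℕ)] : Measure E2) • (μH[(2 : ℕ)] : Measure E2) := by
    rw [← Measure.euclideanHausdorffMeasure_def, EuclideanSpace.euclideanHausdorffMeasure_eq_volume]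
  have h2 := hF.hausdorffMeasure_preimage_le (d := (2 : ℕ)) (by norm_num) s
  have h3 : (k : ℝ≥0∞) ^ (((2 : ℕ) : ℝ)) = (k : ℝ≥0∞) ^ 2 := ENNReal.rpow_natCast _ 2
  rw [h3] at h2
  rw [h1]
  simp only [Measure.smul_apply, ENNReal.smul_def, smul_eq_mul]
  rw [mul_left_comm]
  gcongr

/-- Area of curved rectangles. -/
theorem volume_curved {c0 : ℝ} {K : ℕ} {h : E2 → ℝ} (hP : Par c0 K h) (hK : 2 ≤ K)
    (hc : c0 ≤ 1 / 2) (c : E2) (b : OrthonormalBasis (Fin 2) ℝ E2) (r : Fin 2 → ℝ) :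
    volume {ξ : E2 | ∀ i, |⟪gradient h ξ - c, b i⟫| ≤ r i} ≤
      4 * (ENNReal.ofReal (2 * r 0) * ENNReal.ofReal (2 * r 1)) := by
  have h1 := volume_preimage_le (gradient_antilip hP hK hc) {η : E2 | ∀ i, |⟪η - c, b i⟫| ≤ r i}
  rw [volume_rect] at h1
  refine h1.trans (le_of_eq ?_)
  norm_num

/-- Bounded functions satisfy the box bound with `D = C R⁻²` (planks based anywhere). -/
theorem boxBound_all {c0 : ℝ} {K : ℕ} {h : E2 → ℝ} (hP : Par c0 K h) (hK : 2 ≤ K)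
    (hc : c0 ≤ 1 / 2) (N : ℕ) {g : E2 → ℂ} (hg : Measurable g) (hg1 : ∀ ξ, ‖g ξ‖ ≤ 1)
    (hg2 : ∀ ξ, 1 < ‖ξ‖ → g ξ = 0) {R : ℝ} (hR : 1 ≤ R)
    (c : E2) (b : OrthonormalBasis (Fin 2) ℝ E2) (s : Fin 2 → ℝ)
    (hs : ∀ i, R ^ (-(1 / 2) : ℝ) ≤ s i ∧ s i ≤ 1) (ψ : E2 → ℂ) (hψ : Defs.Adm N ψ)
    (x0 : E2) (t0 : ℝ) :
    ∫⁻ p in Defs.plank c b s R x0 t0,
        ‖Defs.ext h (fun ξ => g ξ * Defs.chi h c b s ψ ξ) p.1 p.2‖ₑ ^ 2 ≤
      ENNReal.ofReal (128 * R ^ (-2 : ℝ) * (s 0 * s 1 * R ^ 3)) := by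
  obtain ⟨hψ1, hψ2, hψ3⟩ := hψ
  have hR0 : 0 < R := by linarith
  have hs0 : ∀ i, 0 < s i := fun i => (Real.rpow_pos_of_pos hR0 _).trans_le (hs i).1
  have hgradc : Continuous (gradient h) := by
    unfold gradient
    exact (InnerProductSpace.toDual ℝ E2).symm.continuous.comp
      (hP.smooth.continuous_fderiv (by simp))
  have hχc : Continuous (Defs.chi h c b s ψ) := by
    unfold Defs.chi
    refine hψ1.continuous.comp ?_
    refine (PiLp.continuous_toLp 2 _).comp (continuous_pi fun i => ?_)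
    exact ((hgradc.sub continuous_const).inner continuous_const).div_const _
  have hχ1 : ∀ ξ, ‖Defs.chi h c b s ψ ξ‖ ≤ 1 := by
    intro ξ
    have := hψ3 0 (Nat.zero_le _) (WithLp.toLp 2 fun i => ⟪gradient h ξ - c, b i⟫ / s i)
    rwa [norm_iteratedFDeriv_zero] at this
  set f : E2 → ℂ := fun ξ => g ξ * Defs.chi h c b s ψ ξ with hf
  set S : Set E2 := {ξ : E2 | ∀ i, |⟪gradient h ξ - c, b i⟫| ≤ 2 * s i} with hS
  have hfS : ∀ ξ, ξ ∉ S → f ξ = 0 := by
    intro ξ hξ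
    have h1 : Defs.chi h c b s ψ ξ = 0 := by
      by_contra hne
      apply hξ
      intro i
      have h2 := hψ2 _ hne i
      simp only [abs_div, abs_of_pos (hs0 i)] at h2
      rwa [div_le_iff₀ (hs0 i)] at h2
    rw [hf]; simp only; rw [h1, mul_zero]
  have hf1 : ∀ ξ, ‖f ξ‖ ≤ 1 := by
    intro ξ
    rw [hf]; simp only; rw [norm_mul]
    exact mul_le_one₀ (hg1 ξ) (norm_nonneg _) (hχ1 ξ)
  have hfm : Measurable f := hg.mul hχc.measurable
  have hf2 : ∀ ξ, 1 < ‖ξ‖ → f ξ = 0 := by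
    intro ξ hξ; rw [hf]; simp only; rw [hg2 ξ hξ, zero_mul]
  have hsupp : Function.support f ⊆ closedBall (0 : E2) 1 := by
    intro ξ hξ
    by_contra hcon
    exact hξ (hf2 ξ (by simpa [mem_closedBall, dist_zero_right] using hcon))
  have hfi : Integrable f := by
    refine (integrableOn_iff_integrable_of_support_subset hsupp).1 ?_
    exact Measure.integrableOn_of_bounded (M := 1) measure_closedBall_lt_top.ne
      hfm.aestronglyMeasurable (Filter.Eventually.of_forall hf1)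
  have hfL : MemLp f 2 := by
    rw [memLp_two_iff_integrable_sq_norm hfm.aestronglyMeasurable]
    refine Integrable.mono hfi (hfm.norm.pow_const 2).aestronglyMeasurable
      (Filter.Eventually.of_forall fun ξ => ?_)
    rw [Real.norm_of_nonneg (by positivity), sq]
    calc ‖f ξ‖ * ‖f ξ‖ ≤ ‖f ξ‖ * 1 := by gcongr; exact hf1 ξ
      _ = ‖f ξ‖ := mul_one _
  have hSm : MeasurableSet S := by
    have : S = ⋂ i, {ξ : E2 | |⟪gradient h ξ - c, b i⟫| ≤ 2 * s i} := by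
      ext ξ; simp [hS]
    rw [this]
    refine MeasurableSet.iInter fun i => IsClosed.measurableSet ?_
    exact isClosed_le ((hgradc.sub continuous_const).inner continuous_const).abs continuous_const
  have hE : ∫⁻ ξ, ‖f ξ‖ₑ ^ 2 ≤ 4 * (ENNReal.ofReal (2 * (2 * s 0)) * ENNReal.ofReal (2 * (2 * s 1))) := by
    calc ∫⁻ ξ, ‖f ξ‖ₑ ^ 2 ≤ ∫⁻ ξ, S.indicator (fun _ => 1) ξ := by
          apply lintegral_mono
          intro ξ
          by_cases hξ : ξ ∈ S
          · rw [indicator_of_mem hξ]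
            have : ‖f ξ‖ₑ ≤ 1 := by
              rw [← ofReal_norm]; exact ENNReal.ofReal_le_one.2 (hf1 ξ)
            exact pow_le_one' this 2
          · rw [indicator_of_notMem hξ]
            show ‖f ξ‖ₑ ^ 2 ≤ 0
            rw [hfS ξ hξ]; simp
      _ = volume S := by rw [lintegral_indicator_const hSm, one_mul]
      _ ≤ _ := volume_curved hP hK hc c b (fun i => 2 * s i)
  have hpl : Defs.plank c b s R x0 t0 ⊆ (univ : Set E2) ×ˢ Icc (t0 - R) (t0 + R) := by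
    rintro p ⟨h1, _⟩
    refine ⟨mem_univ _, ?_⟩
    rw [abs_le] at h1
    constructor <;> linarith
  have hcont : Continuous fun p : E2 × ℝ => ext h f p.1 p.2 := by
    unfold ext
    refine continuous_of_dominated (F := fun (p : E2 × ℝ) ξ => f ξ * ee (ph h p.1 p.2 ξ))
      (bound := fun ξ => ‖f ξ‖) ?_ ?_ hfi.norm ?_
    · intro p
      exact hfi.aestronglyMeasurable.mul
        (continuous_ee.comp (continuous_ph hP.smooth.continuous _ _)).aestronglyMeasurable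
    · intro p
      exact Filter.Eventually.of_forall fun ξ => (norm_mul_ee _ _).le
    · refine Filter.Eventually.of_forall fun ξ => ?_
      refine continuous_const.mul (continuous_ee.comp ?_)
      unfold ph
      fun_prop
  calc ∫⁻ p in Defs.plank c b s R x0 t0, ‖ext h f p.1 p.2‖ₑ ^ 2
      ≤ ∫⁻ p in (univ : Set E2) ×ˢ Icc (t0 - R) (t0 + R), ‖ext h f p.1 p.2‖ₑ ^ 2 :=
        lintegral_mono_set hpl
    _ = ∫⁻ t in Icc (t0 - R) (t0 + R), ∫⁻ x, ‖ext h f x t‖ₑ ^ 2 := by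
        rw [Measure.volume_eq_prod, ← Measure.prod_restrict, Measure.restrict_univ]
        exact lintegral_prod_symm _ (hcont.enorm.measurable.pow_const 2).aemeasurable
    _ = ∫⁻ t in Icc (t0 - R) (t0 + R), ∫⁻ ξ, ‖f ξ‖ₑ ^ 2 := by
        refine lintegral_congr fun t => slice hP.smooth.continuous hfi hfL t
    _ = ENNReal.ofReal (2 * R) * ∫⁻ ξ, ‖f ξ‖ₑ ^ 2 := by
        rw [setLIntegral_const, Real.volume_Icc, mul_comm]
        congr 2; ring
    _ ≤ ENNReal.ofReal (2 * R) *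
          (4 * (ENNReal.ofReal (2 * (2 * s 0)) * ENNReal.ofReal (2 * (2 * s 1)))) := by
        gcongr
    _ = ENNReal.ofReal (128 * R ^ (-2 : ℝ) * (s 0 * s 1 * R ^ 3)) := by
        have h4 : (4 : ℝ≥0∞) = ENNReal.ofReal 4 := by norm_num
        have h0 := (hs0 0).le
        have h1 := (hs0 1).le
        rw [h4, ← ENNReal.ofReal_mul (by positivity), ← ENNReal.ofReal_mul (by positivity),
          ← ENNReal.ofReal_mul (by positivity)]
        congr 1
        have h5 : R ^ (-2 : ℝ) = (R ^ 2)⁻¹ := by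
          rw [Real.rpow_neg hR0.le]
          congr 1
          exact_mod_cast Real.rpow_natCast R 2
        rw [h5]
        field_simp
        ring

/-- Bounded functions satisfy the box bound with `D = C R⁻²`. -/
theorem boxBound {c0 : ℝ} {K : ℕ} {h : E2 → ℝ} (hP : Par c0 K h) (hK : 2 ≤ K)
    (hc : c0 ≤ 1 / 2) (N : ℕ) {g : E2 → ℂ} (hg : Measurable g) (hg1 : ∀ ξ, ‖g ξ‖ ≤ 1)
    (hg2 : ∀ ξ, 1 < ‖ξ‖ → g ξ = 0) {R : ℝ} (hR : 1 ≤ R) :
    Defs.BoxBound N h g R (128 * R ^ (-2 : ℝ)) :=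
  fun c b s hs ψ hψ x0 t0 _ _ => boxBound_all hP hK hc N hg hg1 hg2 hR c b s hs ψ hψ x0 t0

/-- From the shape of `EB` to the shape of `LocH`. -/
theorem ofReal_shape {C ε R : ℝ} (hC0 : 0 ≤ C) (hR : 1 ≤ R) {g : E2 → ℂ} (hg : Measurable g)
    (hg1 : ∀ ξ, ‖g ξ‖ ≤ 1) (hg2 : ∀ ξ, 1 < ‖ξ‖ → g ξ = 0) :
    ENNReal.ofReal (C * R ^ ε * (R * ∫ ξ, ‖g ξ‖ ^ 2) * Real.sqrt (128 * R ^ (-2 : ℝ))) =
      ENNReal.ofReal (C * Real.sqrt 128 * R ^ ε) * ∫⁻ ξ, ‖g ξ‖ₑ ^ 2 := by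
  have hR0 : 0 < R := by linarith
  have hfin : ∫⁻ ξ, ‖g ξ‖ₑ ^ 2 ≠ ⊤ := by
    have : ∫⁻ ξ, ‖g ξ‖ₑ ^ 2 ≤ volume (closedBall (0 : E2) 1) := by
      calc ∫⁻ ξ, ‖g ξ‖ₑ ^ 2 ≤ ∫⁻ ξ, (closedBall (0 : E2) 1).indicator (fun _ => 1) ξ := by
            apply lintegral_mono
            intro ξ
            by_cases hξ : ξ ∈ closedBall (0 : E2) 1
            · rw [indicator_of_mem hξ]
              have : ‖g ξ‖ₑ ≤ 1 := by
                rw [← ofReal_norm]; exact ENNReal.ofReal_le_one.2 (hg1 ξ)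
              exact pow_le_one' this 2
            · rw [indicator_of_notMem hξ]
              show ‖g ξ‖ₑ ^ 2 ≤ 0
              rw [hg2 ξ (by simpa [mem_closedBall, dist_zero_right] using hξ)]; simp
        _ = _ := by rw [lintegral_indicator_const measurableSet_closedBall, one_mul]
    exact (this.trans_lt measure_closedBall_lt_top).ne
  have hI : ∫⁻ ξ, ‖g ξ‖ₑ ^ 2 = ENNReal.ofReal (∫ ξ, ‖g ξ‖ ^ 2) := by
    rw [integral_eq_lintegral_of_nonneg_ae (Filter.Eventually.of_forall fun ξ => by positivity)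
      (hg.norm.pow_const 2).aestronglyMeasurable]
    have e1 : ∀ ξ, ENNReal.ofReal (‖g ξ‖ ^ 2) = ‖g ξ‖ₑ ^ 2 := fun ξ => by
      rw [ENNReal.ofReal_pow (norm_nonneg _), ofReal_norm]
    simp_rw [e1]
    rw [ENNReal.ofReal_toReal hfin]
  have h2 : Real.sqrt (128 * R ^ (-2 : ℝ)) = Real.sqrt 128 * R⁻¹ := by
    rw [Real.sqrt_mul (by norm_num)]
    congr 1
    rw [Real.sqrt_eq_rpow, ← Real.rpow_mul hR0.le]
    norm_num
    exact Real.rpow_neg_one R
  rw [hI, h2, ← ENNReal.ofReal_mul (by positivity)]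
  congr 1
  field_simp

/-- The class of `EB` for one fixed phase. -/
theorem parB_of {c0 c1 : ℝ} (h01 : c1 ≤ c0) {K0 K : ℕ} (hK : K0 ≤ K) {h : E2 → ℝ}
    (hP : Par c1 K h)
    (hB : ∀ k : ℕ, ∃ B : ℝ, ∀ ξ,
      ‖iteratedFDeriv ℝ k (fun η : E2 => h η - ‖η‖ ^ 2 / 2) ξ‖ ≤ B) :
    ∃ B : ℕ → ℝ, (∀ k, 2 ≤ k → k ≤ K0 → B k ≤ c0) ∧ Defs.ParB B h := by
  choose B hB using hB
  refine ⟨fun k => if k ≤ K0 then c0 else B k, ?_, ?_⟩
  · intro k _ hk; simp only [if_pos hk, le_refl]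
  · refine ⟨hP.smooth, fun k hk ξ => ?_⟩
    by_cases hk0 : k ≤ K0
    · simp only [if_pos hk0]
      exact (hP.close k hk (hk0.trans hK) ξ).trans h01
    · simp only [if_neg hk0]
      exact hB k ξ

/-- `EB` gives the local estimate for every phase of the class. -/
theorem locH_of_EB (H : Defs.EB) : ∃ c0 : ℝ, 0 < c0 ∧ ∃ K : ℕ, 2 ≤ K ∧
    ∀ h : E2 → ℝ, Par c0 K h →
      (∀ k : ℕ, ∃ B : ℝ, ∀ ξ, ‖iteratedFDeriv ℝ k (fun η : E2 => h η - ‖η‖ ^ 2 / 2) ξ‖ ≤ B) →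
      LocH h := by
  obtain ⟨c0, hc0, K0, H⟩ := H
  refine ⟨min c0 (1 / 2), by positivity, max K0 2, le_max_right _ _, ?_⟩
  intro h hP hB ε hε
  obtain ⟨B', hB', hPB⟩ := parB_of (min_le_left _ _) (le_max_left K0 2) hP hB
  obtain ⟨C, hC0, hC⟩ := H B' hB' ε hε 0
  refine ⟨C * Real.sqrt 128, ?_⟩
  intro g hg hg1 hg2 R hR
  have h1 := hC h hPB R (128 * R ^ (-2 : ℝ)) hR (by positivity) g hg ⟨1, hg1⟩ hg2
    (boxBound hP (le_max_right _ _) (min_le_right _ _) 0 hg hg1 hg2 hR)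
  rw [cyl_defs] at h1
  exact h1.trans (le_of_eq (ofReal_shape hC0 hR hg hg1 hg2))

end Crest.Agent.R138.Rs134
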