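import Mathlib
import Crest.Prelude.Def_CurvedSurface
import Crest.Agent.R138.RsDef_134

/-!
R138 / S0190, geometry block, part 1 (measure part): for an injective continuous `γ : ℝ² → ℝ³` which is
Lipschitz on a measurable set `s`, the measure `μHE[2]` restricted to `γ '' A` (`A ⊆ s` measurable) is the
push-forward of `J dξ` on `A`, with a bounded measurable `J` (Radon-Nikodym, no area formula).
-/

set_option autoImplicit false
open MeasureTheory Set
open scoped ENNReal NNReal MeasureTheory ContDiff RealInnerProductSpace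
open Crest.Agent.R138.Rs134 (E2)
open Crest.AnalysisR.Surface3 (E3)

namespace Crest.Agent.R138.Geo789

theorem muHE_two_eq : (μHE[2] : Measure E2) = volume :=
  EuclideanSpace.euclideanHausdorffMeasure_eq_volume 2

theorem muHE_image_le {γ : E2 → E3} {s : Set E2} {K : ℝ≥0} (h : LipschitzOnWith K γ s)
    {A : Set E2} (hA : A ⊆ s) :
    (μHE[2] : Measure E3) (γ '' A) ≤ ((K ^ 2 : ℝ≥0) : ℝ≥0∞) * (volume : Measure E2) A := by
  have h1 := (h.mono hA).hausdorffMeasure_image_le (d := (2 : ℝ)) (by norm_num)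
  rw [← muHE_two_eq]
  obtain ⟨c, hc3, hc2⟩ : ∃ c : ℝ≥0, (μHE[2] : Measure E3) = c • μH[((2 : ℕ) : ℝ)] ∧
      (μHE[2] : Measure E2) = c • μH[((2 : ℕ) : ℝ)] := ⟨_, rfl, rfl⟩
  rw [hc3, hc2, Measure.smul_apply, Measure.smul_apply, ENNReal.smul_def, ENNReal.smul_def,
    smul_eq_mul, smul_eq_mul]
  push_cast at h1 ⊢
  calc (c : ℝ≥0∞) * μH[2] (γ '' A) ≤ c * ((K : ℝ≥0∞) ^ (2 : ℝ) * μH[2] A) := by gcongr
    _ = (K : ℝ≥0∞) ^ 2 * (c * μH[2] A) := by
      rw [show ((K : ℝ≥0∞) ^ (2 : ℝ)) = (K : ℝ≥0∞) ^ 2 by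
        rw [← ENNReal.rpow_natCast]; norm_num]
      ring

theorem exists_density {γ : E2 → E3} (hc : Continuous γ) (hi : Function.Injective γ) {s : Set E2}
    {K : ℝ≥0} (h : LipschitzOnWith K γ s) :
    ∃ J : E2 → ℝ≥0, Measurable J ∧ (∀ ξ, J ξ ≤ K ^ 2) ∧ ∀ A : Set E2, A ⊆ s → MeasurableSet A →
      (μHE[2] : Measure E3).restrict (γ '' A) =
        (((volume : Measure E2).restrict A).withDensity (fun ξ => (J ξ : ℝ≥0∞))).map γ := by
  have hγ : MeasurableEmbedding γ := hc.measurableEmbedding hi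
  set μ : Measure E3 := μHE[2] with hμ
  set ν : Measure E2 := (μ.comap γ).restrict s with hν
  have hνapp : ∀ B : Set E2, MeasurableSet B → ν B = μ (γ '' (B ∩ s)) := by
    intro B hB
    rw [hν, Measure.restrict_apply hB, hγ.comap_apply]
  have hle : ∀ B : Set E2, MeasurableSet B →
      ν B ≤ ((K ^ 2 : ℝ≥0) : ℝ≥0∞) * (volume : Measure E2) B := by
    intro B hB
    rw [hνapp B hB]
    exact (muHE_image_le h inter_subset_right).trans (by gcongr; exact inter_subset_left)
  have hac : ν ≪ (volume : Measure E2) := by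
    refine Measure.AbsolutelyContinuous.mk fun B hB h0 => ?_
    have := hle B hB
    rw [h0, mul_zero] at this
    exact le_antisymm this bot_le
  have hle' : ν ≤ (K ^ 2 : ℝ≥0) • (volume : Measure E2) := by
    refine Measure.le_iff.2 fun B hB => ?_
    rw [Measure.smul_apply]
    simpa [ENNReal.smul_def] using hle B hB
  have : SigmaFinite ν := Measure.sigmaFinite_of_le _ hle'
  set J0 : E2 → ℝ≥0∞ := ν.rnDeriv volume with hJ0
  have hJm : Measurable J0 := Measure.measurable_rnDeriv _ _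
  have hwd : (volume : Measure E2).withDensity J0 = ν := Measure.withDensity_rnDeriv_eq _ _ hac
  have hJle : ∀ᵐ ξ ∂(volume : Measure E2), J0 ξ ≤ ((K ^ 2 : ℝ≥0) : ℝ≥0∞) := by
    refine ae_le_of_forall_setLIntegral_le_of_sigmaFinite hJm fun B hB _ => ?_
    rw [← withDensity_apply _ hB, hwd]
    simpa using hle B hB
  set J : E2 → ℝ≥0 := fun ξ => (min (J0 ξ) ((K ^ 2 : ℝ≥0) : ℝ≥0∞)).toNNReal with hJ
  have hJJ : ∀ ξ, (J ξ : ℝ≥0∞) = min (J0 ξ) ((K ^ 2 : ℝ≥0) : ℝ≥0∞) := by
    intro ξ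
    rw [hJ]
    exact ENNReal.coe_toNNReal (ne_of_lt (lt_of_le_of_lt (min_le_right _ _) ENNReal.coe_lt_top))
  have hJae : (fun ξ => (J ξ : ℝ≥0∞)) =ᵐ[(volume : Measure E2)] J0 := by
    filter_upwards [hJle] with ξ hξ
    rw [hJJ, min_eq_left hξ]
  refine ⟨J, (hJm.min measurable_const).ennreal_toNNReal, fun ξ => ?_, fun A hA hAm => ?_⟩
  · have := (hJJ ξ).le.trans (min_le_right _ _)
    exact_mod_cast this
  · have e1 : ((volume : Measure E2).restrict A).withDensity (fun ξ => (J ξ : ℝ≥0∞)) =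
        (μ.comap γ).restrict A := by
      rw [← restrict_withDensity hAm, withDensity_congr_ae hJae, hwd, hν,
        Measure.restrict_restrict hAm, inter_eq_self_of_subset_left hA]
    rw [e1]
    have e2 := hγ.restrict_map (μ.comap γ) (γ '' A)
    rw [preimage_image_eq _ hi] at e2
    rw [← e2, hγ.map_comap, Measure.restrict_restrict_of_subset (image_subset_range _ _)]

end Crest.Agent.R138.Geo789
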