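import Mathlib
import Crest.Prelude.Def_CurvedSurface
import Crest.Agent.R138.RsDef_134

/-!
R138 / S0190, geometry block, part 2 (linear algebra and implicit function).
-/

set_option autoImplicit false
open MeasureTheory Set Filter Topology
open scoped ENNReal NNReal ContDiff RealInnerProductSpace
open Crest.Agent.R138.Rs134 (E2 Par)
open Crest.AnalysisR.Surface3 (E3)

namespace Crest.Agent.R138.Geo789

/-- Adapted linear coordinates: the last coordinate is `-a`, the restriction of `B` to `ker a` is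
the standard scalar product. -/
theorem exists_coord (a : E3 →L[ℝ] ℝ) (ha : a ≠ 0) (B : E3 →L[ℝ] E3 →L[ℝ] ℝ)
    (hsymm : ∀ v w, B v w = B w v) (hpos : ∀ w : E3, w ≠ 0 → a w = 0 → 0 < B w w) :
    ∃ L : (E2 × ℝ) ≃L[ℝ] E3, (∀ z, a (L z) = -z.2) ∧
      ∀ ξ η : E2, B (L (ξ, 0)) (L (η, 0)) = ⟪ξ, η⟫ := by
  have ha' : (a : E3 →ₗ[ℝ] ℝ) ≠ 0 := by
    intro h0; apply ha; ext x; simpa using congrArg (fun f : E3 →ₗ[ℝ] ℝ => f x) h0
  have hker : Module.finrank ℝ (LinearMap.ker (a : E3 →ₗ[ℝ] ℝ)) = 2 := by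
    have h1 := LinearMap.finrank_range_add_finrank_ker (a : E3 →ₗ[ℝ] ℝ)
    have h2 : LinearMap.range (a : E3 →ₗ[ℝ] ℝ) = ⊤ := LinearMap.range_eq_top.2 (LinearMap.surjective ha')
    rw [h2, finrank_top, Module.finrank_self, finrank_euclideanSpace_fin] at h1
    omega
  set b := Module.finBasisOfFinrankEq ℝ (LinearMap.ker (a : E3 →ₗ[ℝ] ℝ)) hker with hb
  set v1 : E3 := (b 0 : E3) with hv1
  set v2 : E3 := (b 1 : E3) with hv2
  have hav1 : a v1 = 0 := (b 0).2
  have hav2 : a v2 = 0 := (b 1).2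
  have hli : LinearIndependent ℝ ![v1, v2] := by
    rw [LinearIndependent.pair_iff]
    intro s t hst
    have h := Fintype.linearIndependent_iff.1 b.linearIndependent ![s, t] (by
      rw [Fin.sum_univ_two]
      apply Subtype.ext
      simpa using hst)
    exact ⟨by simpa using h 0, by simpa using h 1⟩
  have hv10 : v1 ≠ 0 := by simpa using hli.ne_zero 0
  have hpair := LinearIndependent.pair_iff.1 hli
  have hB1 : 0 < B v1 v1 := hpos v1 hv10 hav1
  set s1 : ℝ := Real.sqrt (B v1 v1) with hs1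
  have hs1p : 0 < s1 := Real.sqrt_pos.2 hB1
  have hs1s : s1 * s1 = B v1 v1 := Real.mul_self_sqrt hB1.le
  set e1 : E3 := s1⁻¹ • v1 with he1
  have hae1 : a e1 = 0 := by simp [he1, hav1]
  have hBe1 : B e1 e1 = 1 := by
    simp only [he1, map_smul, smul_apply, smul_eq_mul]
    rw [← hs1s]; field_simp
  set w : E3 := v2 - (B v2 e1) • e1 with hw
  have haw : a w = 0 := by simp [hw, hav2, hae1]
  have hw0 : w ≠ 0 := by
    intro h0
    have h3 : (-(B v2 e1 * s1⁻¹)) • v1 + (1 : ℝ) • v2 = 0 := by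
      rw [hw, he1] at h0
      rw [← h0]; module
    have := (hpair _ _ h3).2
    norm_num at this
  have hBw : 0 < B w w := hpos w hw0 haw
  have hBwe : B w e1 = 0 := by
    simp only [hw, map_sub, map_smul, sub_apply, smul_apply,
      smul_eq_mul, hBe1]
    ring
  set s2 : ℝ := Real.sqrt (B w w) with hs2
  have hs2p : 0 < s2 := Real.sqrt_pos.2 hBw
  have hs2s : s2 * s2 = B w w := Real.mul_self_sqrt hBw.le
  set e2 : E3 := s2⁻¹ • w with he2
  have hae2 : a e2 = 0 := by simp [he2, haw]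
  have hBe2 : B e2 e2 = 1 := by
    simp only [he2, map_smul, smul_apply, smul_eq_mul]
    rw [← hs2s]; field_simp
  have hBe21 : B e2 e1 = 0 := by
    simp only [he2, map_smul, smul_apply, smul_eq_mul, hBwe]; ring
  have hBe12 : B e1 e2 = 0 := by rw [hsymm]; exact hBe21
  obtain ⟨n, hn⟩ : ∃ n : E3, a n = -1 := by
    obtain ⟨x, hx⟩ : ∃ x, a x ≠ 0 := by
      by_contra hcon
      push Not at hcon
      exact ha (by ext x; simpa using hcon x)
    refine ⟨-(a x)⁻¹ • x, ?_⟩
    simp only [map_smul, smul_eq_mul]; field_simp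
  set L0 : (E2 × ℝ) →ₗ[ℝ] E3 :=
    { toFun := fun z => z.1 0 • e1 + z.1 1 • e2 + z.2 • n
      map_add' := by intro x y; simp only [Prod.fst_add, Prod.snd_add, PiLp.add_apply]; module
      map_smul' := by
        intro c x
        simp only [Prod.smul_fst, Prod.smul_snd, PiLp.smul_apply, smul_eq_mul, RingHom.id_apply]
        module } with hL0
  have hL0a : ∀ z, L0 z = z.1 0 • e1 + z.1 1 • e2 + z.2 • n := fun z => rfl
  have haL : ∀ z, a (L0 z) = -z.2 := by
    intro z; rw [hL0a]; simp [hae1, hae2, hn]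
  have hBL : ∀ ξ η : E2, B (L0 (ξ, 0)) (L0 (η, 0)) = ⟪ξ, η⟫ := by
    intro ξ η
    rw [hL0a, hL0a]
    simp only [zero_smul, add_zero, map_add, map_smul, add_apply,
      smul_apply, smul_eq_mul, hBe1, hBe2, hBe12, hBe21]
    rw [PiLp.inner_apply]
    simp [Fin.sum_univ_two]
  have hinj : Function.Injective L0 := by
    rw [← LinearMap.ker_eq_bot, LinearMap.ker_eq_bot']
    intro z hz
    have h1 : z.2 = 0 := by
      have := haL z
      rw [hz, map_zero] at this
      linarith
    have h2 : z = (z.1, 0) := by ext <;> simp [h1]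
    have h3 : ⟪z.1, z.1⟫ = (0 : ℝ) := by
      rw [← hBL, ← h2, hz]; simp
    have h4 : z.1 = 0 := inner_self_eq_zero.1 h3
    rw [h2, h4]; rfl
  have hfr : Module.finrank ℝ (E2 × ℝ) = Module.finrank ℝ E3 := by
    rw [Module.finrank_prod, finrank_euclideanSpace_fin, finrank_euclideanSpace_fin,
      Module.finrank_self]
  refine ⟨(LinearEquiv.ofInjectiveOfFinrankEq L0 hinj hfr).toContinuousLinearEquiv, ?_, ?_⟩
  · intro z; exact haL z
  · intro ξ η; exact hBL ξ η

end Crest.Agent.R138.Geo789
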