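import Mathlib
import Crest.Prelude.Def_CurvedSurface
import Crest.Agent.R138.RsDef_134

/-!
R138 / S0190, geometry block, part 3 (implicit function theorem, second derivative).
-/

set_option autoImplicit false
open MeasureTheory Set Filter Topology
open scoped ENNReal NNReal ContDiff RealInnerProductSpace
open Crest.Agent.R138.Rs134 (E2 Par)
open Crest.AnalysisR.Surface3 (E3)

namespace Crest.Agent.R138.Geo789

/-- Implicit function theorem with a globally defined smooth solution. -/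
theorem exists_implicit (F : E2 × ℝ → ℝ) (hF : ContDiff ℝ ∞ F) (h0 : F 0 = 0)
    (h1 : ∀ z : E2 × ℝ, fderiv ℝ F 0 z = -z.2) :
    ∃ (φ : E2 → ℝ) (ρ : ℝ), ContDiff ℝ ∞ φ ∧ φ 0 = 0 ∧ 0 < ρ ∧
      (∀ ξ, ‖ξ‖ < ρ → F (ξ, φ ξ) = 0) ∧
      (∀ ξ s, ‖ξ‖ < ρ → |s| < ρ → F (ξ, s) = 0 → s = φ ξ) := by
  set H : E2 × ℝ → E2 × ℝ := fun z => (z.1, F z) with hH
  have hHs : ContDiff ℝ ∞ H := contDiff_fst.prodMk hF
  have hH0 : H 0 = 0 := by simp [hH, h0]
  have hHd : ∀ z, HasFDerivAt H ((ContinuousLinearMap.fst ℝ E2 ℝ).prod (fderiv ℝ F z)) z :=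
    fun z => hasFDerivAt_fst.prodMk ((hF.differentiable (by simp)).differentiableAt.hasFDerivAt)
  let e : (E2 × ℝ) ≃L[ℝ] (E2 × ℝ) :=
    (ContinuousLinearEquiv.refl ℝ E2).prodCongr (ContinuousLinearEquiv.neg ℝ)
  have he : (e : E2 × ℝ →L[ℝ] E2 × ℝ) = (ContinuousLinearMap.fst ℝ E2 ℝ).prod (fderiv ℝ F 0) := by
    refine ContinuousLinearMap.ext fun z => ?_
    refine Prod.ext ?_ ?_
    · simp [e]
    · simp [e, h1]
  have hHe : HasFDerivAt H (e : E2 × ℝ →L[ℝ] E2 × ℝ) 0 := by rw [he]; exact hHd 0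
  set P := hHs.contDiffAt.toOpenPartialHomeomorph H hHe (by simp) with hP
  have hPH : ∀ z, P z = H z := fun z => rfl
  have hs0 : (0 : E2 × ℝ) ∈ P.source := ContDiffAt.mem_toOpenPartialHomeomorph_source _ hHe _
  have ht0 : (0 : E2 × ℝ) ∈ P.target := by
    have := ContDiffAt.image_mem_toOpenPartialHomeomorph_target hHs.contDiffAt hHe (by simp)
    rwa [hH0] at this
  have hsymm0 : P.symm 0 = 0 := by
    have := P.left_inv hs0
    rwa [hPH, hH0] at this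
  -- the set where the derivative is invertible
  set W : Set (E2 × ℝ) := {z | fderiv ℝ H z ∈ range ((↑) : ((E2 × ℝ) ≃L[ℝ] (E2 × ℝ)) →
    (E2 × ℝ) →L[ℝ] (E2 × ℝ))} with hW
  have hWo : IsOpen W := by
    have hc : Continuous (fderiv ℝ H) := hHs.continuous_fderiv (by simp)
    exact ContinuousLinearEquiv.isOpen.preimage hc
  have hW0 : (0 : E2 × ℝ) ∈ W := ⟨e, hHe.fderiv.symm⟩
  -- neighbourhood of 0 in the target where symm is smooth
  have hT : ∀ᶠ y in 𝓝 (0 : E2 × ℝ), y ∈ P.target ∧ P.symm y ∈ W := by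
    have h2 : ContinuousAt P.symm 0 := P.continuousAt_symm ht0
    have h3 : ∀ᶠ y in 𝓝 (0 : E2 × ℝ), P.symm y ∈ W := by
      apply h2
      rw [hsymm0]; exact hWo.mem_nhds hW0
    exact (P.open_target.eventually_mem ht0).and h3
  have hsm : ∀ y, y ∈ P.target → P.symm y ∈ W → ContDiffAt ℝ ∞ P.symm y := by
    intro y hy hyW
    obtain ⟨e', he'⟩ := hyW
    refine P.contDiffAt_symm hy (f₀' := e') ?_ hHs.contDiffAt
    rw [he']
    exact (hHs.differentiable (by simp)).differentiableAt.hasFDerivAt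
  -- radius
  have hT' : ∀ᶠ ξ in 𝓝 (0 : E2), (ξ, (0 : ℝ)) ∈ P.target ∧ P.symm (ξ, 0) ∈ W := by
    have hc : Continuous (fun ξ : E2 => (ξ, (0 : ℝ))) := by fun_prop
    exact (hc.tendsto' (0 : E2) (0 : E2 × ℝ) rfl) hT
  obtain ⟨ρ1, hρ1, hball1⟩ := Metric.eventually_nhds_iff_ball.1 hT'
  obtain ⟨ρ2, hρ2, hball2⟩ := Metric.mem_nhds_iff.1 (P.open_source.mem_nhds hs0)
  set χ : ContDiffBump (0 : E2) := ⟨ρ1 / 3, ρ1 / 2, by positivity, by linarith⟩ with hχ
  set φ0 : E2 → ℝ := fun ξ => (P.symm (ξ, 0)).2 with hφ0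
  have hφ0s : ∀ ξ ∈ Metric.ball (0 : E2) ρ1, ContDiffAt ℝ ∞ φ0 ξ := by
    intro ξ hξ
    obtain ⟨a1, a2⟩ := hball1 ξ hξ
    have h4 : ContDiffAt ℝ ∞ (fun ξ : E2 => P.symm (ξ, 0)) ξ :=
      (hsm _ a1 a2).comp ξ (f := fun ξ : E2 => (ξ, (0 : ℝ))) (contDiffAt_id.prodMk contDiffAt_const)
    exact contDiffAt_snd.comp ξ h4
  have hzero : ∀ ξ ∈ Metric.ball (0 : E2) ρ1, F (ξ, φ0 ξ) = 0 := by
    intro ξ hξ
    obtain ⟨a1, a2⟩ := hball1 ξ hξ
    have h5 : P (P.symm (ξ, 0)) = (ξ, 0) := P.right_inv a1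
    rw [hPH] at h5
    have h6 : (P.symm (ξ, 0)).1 = ξ := congrArg Prod.fst h5
    have h7 : F (P.symm (ξ, 0)) = 0 := congrArg Prod.snd h5
    rw [← h7]; congr 1
    exact Prod.ext h6.symm rfl
  refine ⟨fun ξ => χ ξ * φ0 ξ, min (ρ1 / 3) ρ2, ?_, ?_, by positivity, ?_, ?_⟩
  · rw [contDiff_iff_contDiffAt]
    intro ξ
    by_cases hξ : ξ ∈ Metric.ball (0 : E2) ρ1
    · exact χ.contDiff.contDiffAt.mul (hφ0s ξ hξ)
    · have h8 : (fun ξ => χ ξ * φ0 ξ) =ᶠ[𝓝 ξ] fun _ => 0 := by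
        have h9 : ξ ∈ (tsupport χ)ᶜ := by
          rw [χ.tsupport_eq]
          intro h10
          apply hξ
          rw [Metric.mem_closedBall] at h10
          rw [Metric.mem_ball]
          have : χ.rOut = ρ1 / 2 := rfl
          rw [this] at h10
          linarith
        filter_upwards [(isClosed_tsupport χ).isOpen_compl.mem_nhds h9] with η hη
        rw [image_eq_zero_of_notMem_tsupport hη, zero_mul]
      exact contDiffAt_const.congr_of_eventuallyEq h8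
  · simp only
    have : φ0 0 = 0 := by
      have h11 : P.symm ((0 : E2), (0 : ℝ)) = 0 := hsymm0
      simp only [hφ0]; rw [h11]; rfl
    rw [this, mul_zero]
  · intro ξ hξ
    have h12 : ‖ξ‖ < ρ1 / 3 := lt_of_lt_of_le hξ (min_le_left _ _)
    have h13 : χ ξ = 1 := by
      apply χ.one_of_mem_closedBall
      rw [mem_closedBall_zero_iff]
      exact h12.le
    simp only [h13, one_mul]
    exact hzero ξ (by rw [mem_ball_zero_iff]; linarith)
  · intro ξ s hξ hs hF0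
    have h12 : ‖ξ‖ < ρ1 / 3 := lt_of_lt_of_le hξ (min_le_left _ _)
    have h13 : χ ξ = 1 := by
      apply χ.one_of_mem_closedBall
      rw [mem_closedBall_zero_iff]
      exact h12.le
    simp only [h13, one_mul]
    have h14 : (ξ, s) ∈ P.source := by
      apply hball2
      rw [mem_ball_zero_iff, Prod.norm_def]
      exact max_lt (lt_of_lt_of_le hξ (min_le_right _ _)) (by
        rw [Real.norm_eq_abs]; exact lt_of_lt_of_le hs (min_le_right _ _))
    have h15 := P.left_inv h14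
    rw [hPH] at h15
    have h16 : H (ξ, s) = (ξ, 0) := by simp [hH, hF0]
    rw [h16] at h15
    simp only [hφ0, h15]

/-- The first and second derivatives of the implicit function at the base point. -/
theorem implicit_deriv (F : E2 × ℝ → ℝ) (hF : ContDiff ℝ ∞ F)
    (h1 : ∀ z : E2 × ℝ, fderiv ℝ F 0 z = -z.2) (φ : E2 → ℝ) (ρ : ℝ) (hφ : ContDiff ℝ ∞ φ)
    (hφ0 : φ 0 = 0) (hρ : 0 < ρ) (hz : ∀ ξ, ‖ξ‖ < ρ → F (ξ, φ ξ) = 0) :
    fderiv ℝ φ 0 = 0 ∧ ∀ v w : E2, fderiv ℝ (fderiv ℝ φ) 0 w v =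
      fderiv ℝ (fderiv ℝ F) 0 (w, 0) (v, 0) := by
  have hFd : Differentiable ℝ F := hF.differentiable (by simp)
  have hφd : Differentiable ℝ φ := hφ.differentiable (by simp)
  have hFdd : Differentiable ℝ (fderiv ℝ F) :=
    (hF.fderiv_right (m := 1) (by norm_cast)).differentiable (by simp)
  have hφdd : Differentiable ℝ (fderiv ℝ φ) :=
    (hφ.fderiv_right (m := 1) (by norm_cast)).differentiable (by simp)
  have hG : ∀ ξ, HasFDerivAt (fun ξ => (ξ, φ ξ))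
      ((ContinuousLinearMap.id ℝ E2).prod (fderiv ℝ φ ξ)) ξ := fun ξ =>
    (hasFDerivAt_id ξ).prodMk (hφd ξ).hasFDerivAt
  have hG0 : ((0 : E2), φ 0) = (0 : E2 × ℝ) := by rw [hφ0]; rfl
  have hcomp : ∀ ξ, HasFDerivAt (fun ξ => F (ξ, φ ξ))
      ((fderiv ℝ F (ξ, φ ξ)).comp ((ContinuousLinearMap.id ℝ E2).prod (fderiv ℝ φ ξ))) ξ :=
    fun ξ => (hFd (ξ, φ ξ)).hasFDerivAt.comp ξ (hG ξ)
  have hball : ∀ᶠ ξ in 𝓝 (0 : E2), ‖ξ‖ < ρ := by
    have := Metric.ball_mem_nhds (0 : E2) hρ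
    filter_upwards [this] with ξ hξ
    rwa [mem_ball_zero_iff] at hξ
  have hzero : ∀ ξ, ‖ξ‖ < ρ → ∀ v, fderiv ℝ F (ξ, φ ξ) (v, fderiv ℝ φ ξ v) = 0 := by
    intro ξ hξ v
    have h2 : (fun ξ => F (ξ, φ ξ)) =ᶠ[𝓝 ξ] fun _ => 0 := by
      have := (isOpen_lt continuous_norm continuous_const).mem_nhds (show ξ ∈ {ξ : E2 | ‖ξ‖ < ρ} from hξ)
      filter_upwards [this] with η hη using hz η hη
    have h3 := (hcomp ξ).unique ((hasFDerivAt_const (0 : ℝ) ξ).congr_of_eventuallyEq h2)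
    have h4 := congrArg (fun T : E2 →L[ℝ] ℝ => T v) h3
    simpa using h4
  have hd0 : fderiv ℝ φ 0 = 0 := by
    ext v
    have h5 := hzero 0 (by simpa using hρ) v
    rw [hG0, h1] at h5
    simpa using h5
  refine ⟨hd0, fun v w => ?_⟩
  -- differentiate the identity
  have hD1 : HasFDerivAt (fun ξ => fderiv ℝ F (ξ, φ ξ))
      ((fderiv ℝ (fderiv ℝ F) (0, φ 0)).comp
        ((ContinuousLinearMap.id ℝ E2).prod (fderiv ℝ φ 0))) 0 :=
    (hFdd (0, φ 0)).hasFDerivAt.comp (0 : E2) (hG 0)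
  have hD2 : HasFDerivAt (fun ξ => (v, fderiv ℝ φ ξ v))
      ((0 : E2 →L[ℝ] E2).prod ((fderiv ℝ (fderiv ℝ φ) 0).flip v)) 0 := by
    refine (hasFDerivAt_const v (0 : E2)).prodMk ?_
    have h6 := (hφdd 0).hasFDerivAt.clm_apply (hasFDerivAt_const v (0 : E2))
    convert h6 using 1
    ext u; simp
  have hD3 := hD1.clm_apply hD2
  have h7 : (fun ξ => fderiv ℝ F (ξ, φ ξ) (v, fderiv ℝ φ ξ v)) =ᶠ[𝓝 (0 : E2)] fun _ => 0 := by
    filter_upwards [hball] with η hη using hzero η hη v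
  have h8 := hD3.unique ((hasFDerivAt_const (0 : ℝ) (0 : E2)).congr_of_eventuallyEq h7)
  have h9 := congrArg (fun T : E2 →L[ℝ] ℝ => T w) h8
  simp only [hG0, hd0] at h9
  simp [h1] at h9
  linarith

end Crest.Agent.R138.Geo789
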