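import Mathlib
import Crest.Prelude.Def_CurvedSurface
import Crest.Agent.R138.RsDef_134
import Crest.Agent.R138.Geo2_789
import Crest.Agent.R138.Geo3_789

/-!
R138 / S0190, geometry block, part 4: rescaling of the implicit function into the class `Par`, and
the existence of adapted charts.
-/

set_option autoImplicit false
open MeasureTheory Set Filter Topology
open scoped ENNReal NNReal ContDiff RealInnerProductSpace
open Crest.Agent.R138.Rs134 (E2 Par)
open Crest.AnalysisR.Surface3 (E3)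

namespace Crest.Agent.R138.Geo789

/-- One step of the mean value theorem. -/
theorem mvt_step (ψ : E2 → ℝ) (hψ : ContDiff ℝ ∞ ψ) (k m : ℕ) (M : ℝ)
    (hM : 0 ≤ M) (h0 : iteratedFDeriv ℝ k ψ 0 = 0)
    (hb : ∀ ξ : E2, ‖ξ‖ ≤ 1 → ‖iteratedFDeriv ℝ (k + 1) ψ ξ‖ ≤ M * ‖ξ‖ ^ m) :
    ∀ ξ : E2, ‖ξ‖ ≤ 1 → ‖iteratedFDeriv ℝ k ψ ξ‖ ≤ M * ‖ξ‖ ^ (m + 1) := by
  intro ξ hξ
  have h := Convex.norm_image_sub_le_of_norm_fderiv_le (𝕜 := ℝ) (f := iteratedFDeriv ℝ k ψ)
    (C := M * ‖ξ‖ ^ m) (s := Metric.closedBall (0 : E2) ‖ξ‖) (x := 0) (y := ξ)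
    (fun x _ => hψ.contDiffAt.differentiableAt_iteratedFDeriv
      (by exact_mod_cast (WithTop.coe_lt_top k)))
    (fun x hx => by
      rw [mem_closedBall_zero_iff] at hx
      rw [norm_fderiv_iteratedFDeriv]
      refine (hb x (hx.trans hξ)).trans ?_
      gcongr) (convex_closedBall _ _) (by simp) (by simp)
  rw [h0, sub_zero, sub_zero] at h
  calc _ ≤ _ := h
    _ = _ := by ring

set_option maxHeartbeats 1000000 in
/-- The rescaled and truncated function belongs to the class `Par`. -/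
theorem exists_scale (c0 : ℝ) (hc0 : 0 < c0) (K : ℕ) (φ : E2 → ℝ) (hφ : ContDiff ℝ ∞ φ)
    (hφ0 : φ 0 = 0) (hφ1 : fderiv ℝ φ 0 = 0)
    (hφ2 : ∀ v w : E2, fderiv ℝ (fderiv ℝ φ) 0 w v = ⟪w, v⟫) (r0 : ℝ) (hr0 : 0 < r0) :
    ∃ (r : ℝ) (h : E2 → ℝ), 0 < r ∧ r < r0 ∧ Par c0 K h ∧
      HasCompactSupport (fun η : E2 => h η - ‖η‖ ^ 2 / 2) ∧
      ∀ η : E2, ‖η‖ ≤ 1 → φ (r • η) = r ^ 2 * h η := by
  set ψ : E2 → ℝ := fun ξ => φ ξ - ‖ξ‖ ^ 2 / 2 with hψdef
  have hns : ContDiff ℝ ∞ (fun ξ : E2 => ‖ξ‖ ^ 2 / 2) := (contDiff_norm_sq ℝ).div_const 2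
  have hψ : ContDiff ℝ ∞ ψ := hφ.sub hns
  have hnd : ∀ ξ : E2, HasFDerivAt (fun ξ : E2 => ‖ξ‖ ^ 2 / 2) (innerSL ℝ ξ) ξ := by
    intro ξ
    have h1 := (hasStrictFDerivAt_norm_sq ξ).hasFDerivAt.mul_const (1 / 2 : ℝ)
    have h2 : (fun ξ : E2 => ‖ξ‖ ^ 2 / 2) = fun ξ : E2 => ‖ξ‖ ^ 2 * (1 / 2) := by
      ext ξ; ring
    rw [h2]
    refine h1.congr_fderiv ?_
    ext v
    simp
  have hψ1 : ∀ ξ, fderiv ℝ ψ ξ = fderiv ℝ φ ξ - innerSL ℝ ξ := by
    intro ξ
    exact ((hφ.differentiable (by simp) ξ).hasFDerivAt.sub (hnd ξ)).fderiv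
  have hψ2 : fderiv ℝ (fderiv ℝ ψ) 0 = 0 := by
    have h3 : fderiv ℝ ψ = fun ξ => fderiv ℝ φ ξ - innerSL ℝ ξ := funext hψ1
    have h4 : Differentiable ℝ (fderiv ℝ φ) :=
      (hφ.fderiv_right (m := 1) (by norm_cast)).differentiable (by simp)
    let J : E2 →L[ℝ] (E2 →L[ℝ] ℝ) := LinearMap.toContinuousLinearMap
      { toFun := fun ξ => innerSL ℝ ξ
        map_add' := fun x y => map_add _ x y
        map_smul' := fun c x => by ext v; simp }
    have hJ : ∀ ξ : E2, J ξ = innerSL ℝ ξ := fun ξ => rfl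
    have h5 : HasFDerivAt (fun ξ : E2 => fderiv ℝ φ ξ - innerSL ℝ ξ)
        (fderiv ℝ (fderiv ℝ φ) 0 - J) 0 :=
      (h4 0).hasFDerivAt.sub J.hasFDerivAt
    rw [h3, h5.fderiv]
    ext w v
    rw [sub_apply, sub_apply, hφ2, hJ, innerSL_apply_apply, sub_self]
    simp
  have hI0 : iteratedFDeriv ℝ 0 ψ 0 = 0 := by
    rw [← norm_eq_zero, norm_iteratedFDeriv_zero]; simp [hψdef, hφ0]
  have hI1 : iteratedFDeriv ℝ 1 ψ 0 = 0 := by
    rw [← norm_eq_zero, norm_iteratedFDeriv_one, hψ1, hφ1]; simp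
  have hI2 : iteratedFDeriv ℝ 2 ψ 0 = 0 := by
    ext m; rw [iteratedFDeriv_two_apply, hψ2]; simp
  -- a uniform bound for the derivatives
  obtain ⟨M, hM0, hM⟩ : ∃ M : ℝ, 0 ≤ M ∧ ∀ k ≤ K + 3, ∀ ξ : E2, ‖ξ‖ ≤ 1 →
      ‖iteratedFDeriv ℝ k ψ ξ‖ ≤ M := by
    have h6 : ∀ k : ℕ, ∃ M : ℝ, ∀ ξ ∈ Metric.closedBall (0 : E2) 1, ‖iteratedFDeriv ℝ k ψ ξ‖ ≤ M :=
      fun k => (isCompact_closedBall (0 : E2) 1).exists_bound_of_continuousOn
        (hψ.continuous_iteratedFDeriv (mod_cast le_top)).continuousOn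
    choose Mk hMk using h6
    refine ⟨∑ k ∈ Finset.range (K + 4), |Mk k|, Finset.sum_nonneg fun _ _ => abs_nonneg _, ?_⟩
    intro k hk ξ hξ
    refine (hMk k ξ (by simpa using hξ)).trans ((le_abs_self _).trans ?_)
    exact Finset.single_le_sum (f := fun k => |Mk k|) (fun _ _ => abs_nonneg _)
      (Finset.mem_range.2 (by omega))
  have hB2 := mvt_step ψ hψ 2 0 M hM0 hI2 (fun ξ hξ => by simpa using hM 3 (by omega) ξ hξ)
  have hB1 := mvt_step ψ hψ 1 1 M hM0 hI1 hB2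
  have hB0 := mvt_step ψ hψ 0 2 M hM0 hI0 hB1
  -- the cut-off
  set χ : ContDiffBump (0 : E2) := ⟨1, 2, by norm_num, by norm_num⟩ with hχ
  obtain ⟨X, hX0, hX⟩ : ∃ X : ℝ, 0 ≤ X ∧ ∀ k ≤ K, ∀ ξ : E2, ‖ξ‖ ≤ 2 →
      ‖iteratedFDeriv ℝ k χ ξ‖ ≤ X := by
    have h6 : ∀ k : ℕ, ∃ M : ℝ, ∀ ξ ∈ Metric.closedBall (0 : E2) 2, ‖iteratedFDeriv ℝ k χ ξ‖ ≤ M :=
      fun k => (isCompact_closedBall (0 : E2) 2).exists_bound_of_continuousOn
        ((χ.contDiff (n := ⊤)).continuous_iteratedFDeriv (mod_cast le_top)).continuousOn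
    choose Mk hMk using h6
    refine ⟨∑ k ∈ Finset.range (K + 1), |Mk k|, Finset.sum_nonneg fun _ _ => abs_nonneg _, ?_⟩
    intro k hk ξ hξ
    refine (hMk k ξ (by simpa using hξ)).trans ((le_abs_self _).trans ?_)
    exact Finset.single_le_sum (f := fun k => |Mk k|) (fun _ _ => abs_nonneg _)
      (Finset.mem_range.2 (by omega))
  -- the scale
  set Q : ℝ := 2 ^ K * X * (8 * M) with hQ
  have hQ0 : 0 ≤ Q := by positivity
  obtain ⟨r, hr, hr1, hr2, hr3⟩ : ∃ r : ℝ, 0 < r ∧ r < r0 ∧ 2 * r ≤ 1 ∧ Q * r ≤ c0 := by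
    refine ⟨min (min (r0 / 2) (1 / 2)) (c0 / (Q + 1)), by positivity, ?_, ?_, ?_⟩
    · exact lt_of_le_of_lt ((min_le_left _ _).trans (min_le_left _ _)) (by linarith)
    · have := (min_le_left (min (r0 / 2) (1 / 2)) (c0 / (Q + 1))).trans (min_le_right _ _)
      linarith
    · calc Q * min (min (r0 / 2) (1 / 2)) (c0 / (Q + 1)) ≤ (Q + 1) * (c0 / (Q + 1)) := by
            gcongr
            · linarith
            · exact min_le_right _ _
        _ = c0 := by field_simp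
  set ψr : E2 → ℝ := fun η => (r ^ 2)⁻¹ • ψ (r • η) with hψr
  have hψrs : ContDiff ℝ ∞ ψr := by
    have : ContDiff ℝ ∞ (fun η : E2 => ψ (r • η)) := hψ.comp (contDiff_const_smul r)
    exact this.const_smul _
  have hψrk : ∀ k η, ‖iteratedFDeriv ℝ k ψr η‖ =
      (r ^ 2)⁻¹ * (r ^ k * ‖iteratedFDeriv ℝ k ψ (r • η)‖) := by
    intro k η
    have h7 : ContDiff ℝ k (fun η : E2 => ψ (r • η)) :=
      (hψ.comp (contDiff_const_smul r)).of_le (mod_cast le_top)
    rw [hψr, iteratedFDeriv_const_smul_apply' h7.contDiffAt,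
      iteratedFDeriv_comp_const_smul r (hψ.of_le (mod_cast le_top)), norm_smul, norm_smul]
    simp only [norm_inv, norm_pow, Real.norm_eq_abs, abs_of_pos hr]
  have hbound : ∀ k ≤ K, ∀ η : E2, ‖η‖ ≤ 2 → ‖iteratedFDeriv ℝ k ψr η‖ ≤ 8 * M * r := by
    intro k hk η hη
    rw [hψrk]
    have hrη : ‖r • η‖ ≤ 2 * r := by
      rw [norm_smul, Real.norm_eq_abs, abs_of_pos hr]; nlinarith
    have hrη1 : ‖r • η‖ ≤ 1 := hrη.trans hr2
    have hr2' : (0 : ℝ) < r ^ 2 := by positivity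
    rw [inv_mul_le_iff₀ hr2']
    rcases k with _ | _ | _ | k
    · calc r ^ 0 * ‖iteratedFDeriv ℝ 0 ψ (r • η)‖ ≤ r ^ 0 * (M * ‖r • η‖ ^ (2 + 1)) := by
            gcongr; exact hB0 _ hrη1
        _ ≤ r ^ 0 * (M * (2 * r) ^ (2 + 1)) := by gcongr
        _ = r ^ 2 * (8 * M * r) := by ring
    · calc r ^ (0 + 1) * ‖iteratedFDeriv ℝ (0 + 1) ψ (r • η)‖
            ≤ r ^ 1 * (M * ‖r • η‖ ^ (1 + 1)) := by
            gcongr; exact hB1 _ hrη1
        _ ≤ r ^ 1 * (M * (2 * r) ^ (1 + 1)) := by gcongr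
        _ = r ^ 2 * (4 * M * r) := by ring
        _ ≤ r ^ 2 * (8 * M * r) := by gcongr; norm_num
    · calc r ^ (0 + 1 + 1) * ‖iteratedFDeriv ℝ (0 + 1 + 1) ψ (r • η)‖
            ≤ r ^ 2 * (M * ‖r • η‖ ^ (0 + 1)) := by
            gcongr; exact hB2 _ hrη1
        _ ≤ r ^ 2 * (M * (2 * r) ^ (0 + 1)) := by gcongr
        _ = r ^ 2 * (2 * M * r) := by ring
        _ ≤ r ^ 2 * (8 * M * r) := by gcongr; norm_num
    · calc r ^ (k + 1 + 1 + 1) * ‖iteratedFDeriv ℝ (k + 1 + 1 + 1) ψ (r • η)‖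
            ≤ r ^ (k + 1 + 1 + 1) * M := by
            gcongr; exact hM _ (by omega) _ hrη1
        _ = r ^ 2 * (r ^ (k + 1) * M) := by ring
        _ ≤ r ^ 2 * (r * M) := by
            gcongr
            calc r ^ (k + 1) = r ^ k * r := by ring
              _ ≤ 1 * r := by
                gcongr
                exact pow_le_one₀ hr.le (by linarith)
              _ = r := one_mul r
        _ ≤ r ^ 2 * (8 * M * r) :=
            mul_le_mul_of_nonneg_left (by nlinarith [mul_nonneg hM0 hr.le]) hr2'.le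
  set h : E2 → ℝ := fun η => ‖η‖ ^ 2 / 2 + χ η * ψr η with hh
  have hχψ : ContDiff ℝ ∞ (fun η => χ η * ψr η) := χ.contDiff.mul hψrs
  have hψr0 : ψr 0 = 0 := by simp [hψr, hψdef, hφ0]
  have hψr1 : fderiv ℝ ψr 0 = 0 := by
    rw [← norm_eq_zero, ← norm_iteratedFDeriv_one, hψrk, smul_zero, hI1]; simp
  have h11 : (fun η : E2 => h η - ‖η‖ ^ 2 / 2) = fun η => χ η * ψr η := by
    ext η; simp [hh]
  refine ⟨r, h, hr, hr1, ?_, ?_, ?_⟩
  · refine ⟨hns.add hχψ, by simp [hh, hψr0], ?_, ?_⟩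
    · have h8 : HasFDerivAt (fun η => χ η * ψr η) (χ 0 • fderiv ℝ ψr 0 + ψr 0 • fderiv ℝ χ 0) 0 :=
        ((χ.contDiff (n := 1)).differentiable (by simp) 0).hasFDerivAt.mul
          (hψrs.differentiable (by simp) 0).hasFDerivAt
      have h9 := (hnd 0).add h8
      rw [hψr0, hψr1] at h9
      have h10 : h = (fun ξ : E2 => ‖ξ‖ ^ 2 / 2) + fun η => χ η * ψr η := rfl
      rw [h10, h9.fderiv]
      simp
    · intro k hk2 hkK η
      rw [h11]
      by_cases hη : ‖η‖ ≤ 2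
      · refine (norm_iteratedFDeriv_mul_le (N := ∞) χ.contDiff hψrs η (mod_cast le_top)).trans ?_
        calc ∑ i ∈ Finset.range (k + 1), (k.choose i : ℝ) * ‖iteratedFDeriv ℝ i χ η‖ *
              ‖iteratedFDeriv ℝ (k - i) ψr η‖
            ≤ ∑ i ∈ Finset.range (k + 1), (k.choose i : ℝ) * X * (8 * M * r) := by
              apply Finset.sum_le_sum
              intro i hi
              rw [Finset.mem_range] at hi
              gcongr
              · exact hX i (by omega) η hη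
              · exact hbound (k - i) (by omega) η hη
          _ = 2 ^ k * X * (8 * M * r) := by
              rw [← Finset.sum_mul, ← Finset.sum_mul]
              congr 2
              exact_mod_cast Nat.sum_range_choose k
          _ ≤ 2 ^ K * X * (8 * M * r) := by
              gcongr
              · norm_num
          _ = Q * r := by rw [hQ]; ring
          _ ≤ c0 := hr3
      · have h12 : η ∉ tsupport (fun η => χ η * ψr η) := by
          intro hmem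
          have h13 : η ∈ tsupport χ := (tsupport_mul_subset_left (f := χ) (g := ψr)) hmem
          rw [χ.tsupport_eq, mem_closedBall_zero_iff] at h13
          exact hη h13
        have h14 : iteratedFDeriv ℝ k (fun η => χ η * ψr η) η = 0 := by
          by_contra hne
          exact h12 (support_iteratedFDeriv_subset (𝕜 := ℝ) k hne)
        rw [h14, norm_zero]
        exact hc0.le
  · rw [h11]
    exact χ.hasCompactSupport.mul_right
  · intro η hη
    have h15 : χ η = 1 := χ.one_of_mem_closedBall (by rw [mem_closedBall_zero_iff]; exact hη)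
    simp only [hh, h15, one_mul, hψr, hψdef, smul_eq_mul, norm_smul, Real.norm_eq_abs,
      abs_of_pos hr]
    field_simp
    ring

end Crest.Agent.R138.Geo789
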