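import Mathlib
import Crest.Prelude.Def_CurvedSurface
import Crest.Agent.R138.RsDef_134
import Crest.Agent.R138.Geo4_789

/-!
R138 / S0190, geometry block, part 5: adapted charts of curved surfaces.
-/

set_option autoImplicit false
open MeasureTheory Set Filter Topology
open scoped ENNReal NNReal ContDiff RealInnerProductSpace
open Crest.Agent.R138.Rs134 (E2 Par)
open Crest.AnalysisR.Surface3 (E3)

namespace Crest.Agent.R138.Geo789

/-- Adapted chart: near each of its points a curved surface is contained in an affine image of the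
graph, over the ball of radius `1/2`, of a function of the class `Par`. -/
theorem exists_chart (c0 : ℝ) (hc0 : 0 < c0) (K : ℕ) {S : Set E3} {q : E3}
    (hS : Crest.AnalysisR.Surface3.IsCurvedChartAt S q) (hq : q ∈ S) :
    ∃ V : Set E3, IsOpen V ∧ q ∈ V ∧ ∃ (L : (E2 × ℝ) ≃L[ℝ] E3) (h : E2 → ℝ), Par c0 K h ∧
      HasCompactSupport (fun η : E2 => h η - ‖η‖ ^ 2 / 2) ∧
      ∀ x ∈ S ∩ V, ∃ ξ : E2, ‖ξ‖ ≤ 1 / 2 ∧ x = q + L (ξ, h ξ) := by
  obtain ⟨U, hU, hqU, Φ, Ψ, hΦ, hΨ, hSU, hreg, -, hpos⟩ := hS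
  have hqS : q ∈ S ∩ U := ⟨hq, hqU⟩
  have hzero : ∀ x ∈ S ∩ U, Φ x = 0 := by
    intro x hx
    rw [hSU] at hx
    exact hx.2.1
  have hΦd : Differentiable ℝ Φ := hΦ.differentiable (by simp)
  have hΦdd : Differentiable ℝ (fderiv ℝ Φ) :=
    (hΦ.fderiv_right (m := 1) (by norm_cast)).differentiable (by simp)
  have hsymm : ∀ v w, fderiv ℝ (fderiv ℝ Φ) q v w = fderiv ℝ (fderiv ℝ Φ) q w v := by
    have h1 : IsSymmSndFDerivAt ℝ Φ q :=
      (hΦ.contDiffAt (x := q)).isSymmSndFDerivAt (by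
        rw [minSmoothness_of_isRCLikeNormedField]; norm_cast)
    exact fun v w => h1 v w
  have hhess : ∀ w, Crest.AnalysisR.Surface3.hess Φ q w w = fderiv ℝ (fderiv ℝ Φ) q w w := by
    intro w
    unfold Crest.AnalysisR.Surface3.hess
    have h2 := (hΦdd q).hasFDerivAt.clm_apply (hasFDerivAt_const w q)
    rw [h2.fderiv]
    simp
  obtain ⟨L0, hL0a, hL0B⟩ := exists_coord (fderiv ℝ Φ q) (hreg q hqS) (fderiv ℝ (fderiv ℝ Φ) q)
    hsymm (fun w hw0 hw => by rw [← hhess]; exact hpos q hqS w hw0 hw)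
  set F : E2 × ℝ → ℝ := fun z => Φ (q + L0 z) with hF
  have hin : ContDiff ℝ ∞ (fun z : E2 × ℝ => q + L0 z) := contDiff_const.add L0.contDiff
  have hind : ∀ z, HasFDerivAt (fun z : E2 × ℝ => q + L0 z) (L0 : (E2 × ℝ) →L[ℝ] E3) z := fun z =>
    (L0.hasFDerivAt (x := z)).const_add q
  have hFs : ContDiff ℝ ∞ F := hΦ.comp hin
  have hF0 : F 0 = 0 := by
    simp only [hF, map_zero, add_zero]; exact hzero q hqS
  have hFd : ∀ z, HasFDerivAt F ((fderiv ℝ Φ (q + L0 z)).comp (L0 : (E2 × ℝ) →L[ℝ] E3)) z :=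
    fun z => (hΦd (q + L0 z)).hasFDerivAt.comp z (hind z)
  have hF1 : ∀ z : E2 × ℝ, fderiv ℝ F 0 z = -z.2 := by
    intro z
    rw [(hFd 0).fderiv]
    simp only [map_zero, add_zero, ContinuousLinearMap.comp_apply]
    exact hL0a z
  have hF2 : ∀ v w : E2 × ℝ, fderiv ℝ (fderiv ℝ F) 0 w v =
      fderiv ℝ (fderiv ℝ Φ) q (L0 w) (L0 v) := by
    intro v w
    have h3 : fderiv ℝ F = fun z => (fderiv ℝ Φ (q + L0 z)).comp (L0 : (E2 × ℝ) →L[ℝ] E3) :=
      funext fun z => (hFd z).fderiv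
    have h4 : HasFDerivAt (fun z => fderiv ℝ Φ (q + L0 z))
        ((fderiv ℝ (fderiv ℝ Φ) (q + L0 0)).comp (L0 : (E2 × ℝ) →L[ℝ] E3)) 0 :=
      (hΦdd (q + L0 0)).hasFDerivAt.comp (0 : E2 × ℝ) (hind 0)
    have h5 := h4.clm_comp (hasFDerivAt_const (L0 : (E2 × ℝ) →L[ℝ] E3) (0 : E2 × ℝ))
    rw [h3, h5.fderiv]
    simp
  obtain ⟨φ, ρ, hφ, hφ0, hρ, hφz, hφu⟩ := exists_implicit F hFs hF0 hF1
  obtain ⟨hφ1, hφ2⟩ := implicit_deriv F hFs hF1 φ ρ hφ hφ0 hρ hφz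
  obtain ⟨r, h, hr, hr1, hpar, hcs, hrh⟩ := exists_scale c0 hc0 K φ hφ hφ0 hφ1
    (fun v w => by rw [hφ2, hF2, hL0B]) 1 one_pos
  have hr2 : r ^ 2 ≠ 0 := by positivity
  refine ⟨U ∩ (fun x => L0.symm (x - q)) ⁻¹' Metric.ball 0 (min ρ (r / 2)), ?_, ?_, ?_⟩
  · refine hU.inter (Metric.isOpen_ball.preimage ?_)
    exact L0.symm.continuous.comp (continuous_id.sub continuous_const)
  · refine ⟨hqU, ?_⟩
    simp only [mem_preimage, sub_self, map_zero]
    exact Metric.mem_ball_self (by positivity)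
  · refine ⟨(((LinearEquiv.smulOfNeZero ℝ E2 r hr.ne').toContinuousLinearEquiv).prodCongr
      ((LinearEquiv.smulOfNeZero ℝ ℝ (r ^ 2) hr2).toContinuousLinearEquiv)).trans L0, h, hpar, hcs, ?_⟩
    rintro x ⟨hxS, hxU, hxb⟩
    set z := L0.symm (x - q) with hz
    have hLz : L0 z = x - q := L0.apply_symm_apply _
    have hnz : ‖z‖ < min ρ (r / 2) := by
      have := hxb
      rwa [mem_preimage, mem_ball_zero_iff] at this
    have hz1 : ‖z.1‖ ≤ ‖z‖ := norm_fst_le z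
    have hz2 : |z.2| ≤ ‖z‖ := norm_snd_le z
    have hFz : F (z.1, z.2) = 0 := by
      change Φ (q + L0 z) = 0
      rw [hLz, add_sub_cancel]
      exact hzero x ⟨hxS, hxU⟩
    have h6 : z.2 = φ z.1 := hφu z.1 z.2
      (hz1.trans_lt (hnz.trans_le (min_le_left _ _))) (hz2.trans_lt (hnz.trans_le (min_le_left _ _)))
      hFz
    have h7 : ‖r⁻¹ • z.1‖ ≤ 1 / 2 := by
      rw [norm_smul, norm_inv, Real.norm_eq_abs, abs_of_pos hr, inv_mul_le_iff₀ hr]
      have := hz1.trans (hnz.le.trans (min_le_right _ _))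
      linarith
    have h8 : r • (r⁻¹ • z.1) = z.1 := by
      rw [smul_smul, mul_inv_cancel₀ hr.ne', one_smul]
    have h9 := hrh (r⁻¹ • z.1) (h7.trans (by norm_num))
    rw [h8, ← h6] at h9
    refine ⟨r⁻¹ • z.1, h7, ?_⟩
    have h10 : (r • (r⁻¹ • z.1), r ^ 2 • h (r⁻¹ • z.1)) = z := by
      rw [h8, smul_eq_mul, ← h9]
    have h11 : ((((LinearEquiv.smulOfNeZero ℝ E2 r hr.ne').toContinuousLinearEquiv).prodCongr
      ((LinearEquiv.smulOfNeZero ℝ ℝ (r ^ 2) hr2).toContinuousLinearEquiv)).trans L0)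
        (r⁻¹ • z.1, h (r⁻¹ • z.1)) = L0 (r • (r⁻¹ • z.1), r ^ 2 • h (r⁻¹ • z.1)) := rfl
    rw [h11, h10, hLz, add_sub_cancel]

/-- A smooth function with compact support has bounded derivatives. -/
theorem exists_bounds {u : E2 → ℝ} (hu : ContDiff ℝ ∞ u) (hc : HasCompactSupport u) :
    ∃ B : ℕ → ℝ, ∀ k ξ, ‖iteratedFDeriv ℝ k u ξ‖ ≤ B k := by
  have h1 : ∀ k : ℕ, ∃ B : ℝ, ∀ ξ, ‖iteratedFDeriv ℝ k u ξ‖ ≤ B := fun k =>
    (hc.iteratedFDeriv (𝕜 := ℝ) k).exists_bound_of_continuous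
      (hu.continuous_iteratedFDeriv (mod_cast le_top))
  choose B hB using h1
  exact ⟨B, hB⟩

end Crest.Agent.R138.Geo789
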