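import Mathlib
import Crest.Prelude.Def_CurvedSurface
import Crest.Agent.R138.RsDef_134
import Crest.Agent.R138.Geo1_789

/-!
R138 / S0190, geometry block, part 6: linear change of variables, transfer of integrals and of
`L^p` norms from a piece of the surface to the parameter plane.
-/

set_option autoImplicit false
open MeasureTheory Set Filter Topology
open scoped ENNReal NNReal ContDiff RealInnerProductSpace MeasureTheory
open Crest.Agent.R138.Rs134 (E2 Par ee ph ext)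
open Crest.AnalysisR.Surface3 (E3 extension)

namespace Crest.Agent.R138.Geo789

/-- Transpose of a linear isomorphism `E2 × ℝ → E3`. -/
theorem exists_transpose (L : (E2 × ℝ) ≃L[ℝ] E3) :
    ∃ T : E3 ≃L[ℝ] (E2 × ℝ), ∀ (x : E3) (z : E2 × ℝ),
      ⟪x, L z⟫ = ⟪(T x).1, z.1⟫ + (T x).2 * z.2 := by
  set A : E2 →L[ℝ] E3 := (L : (E2 × ℝ) →L[ℝ] E3).comp (ContinuousLinearMap.inl ℝ E2 ℝ) with hA
  set T1 : E3 →L[ℝ] (E2 × ℝ) := (ContinuousLinearMap.adjoint A).prod (innerSL ℝ (L (0, 1))) with hT1'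
  set T0 : E3 →ₗ[ℝ] (E2 × ℝ) := (T1 : E3 →ₗ[ℝ] (E2 × ℝ)) with hT0
  have hT1 : ∀ x, (T0 x).1 = ContinuousLinearMap.adjoint A x := fun x => rfl
  have hT2 : ∀ x, (T0 x).2 = ⟪L (0, 1), x⟫ := fun x => rfl
  have hT : ∀ (x : E3) (z : E2 × ℝ), ⟪x, L z⟫ = ⟪(T0 x).1, z.1⟫ + (T0 x).2 * z.2 := by
    intro x z
    have h1 : L z = A z.1 + z.2 • L (0, 1) := by
      rw [hA, ← map_smul]
      change L z = L (z.1, 0) + L (z.2 • ((0 : E2), (1 : ℝ)))
      rw [← map_add]
      congr 1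
      ext <;> simp
    rw [h1, inner_add_right, inner_smul_right, hT1, hT2, ContinuousLinearMap.adjoint_inner_left,
      real_inner_comm (L (0, 1)) x]
    ring
  have hinj : Function.Injective T0 := by
    rw [← LinearMap.ker_eq_bot, LinearMap.ker_eq_bot']
    intro x hx
    have h2 : ⟪x, x⟫ = (0 : ℝ) := by
      have := hT x (L.symm x)
      rw [L.apply_symm_apply, hx] at this
      simpa using this
    exact inner_self_eq_zero.1 h2
  have hfr : Module.finrank ℝ E3 = Module.finrank ℝ (E2 × ℝ) := by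
    rw [Module.finrank_prod, finrank_euclideanSpace_fin, finrank_euclideanSpace_fin,
      Module.finrank_self]
  exact ⟨(LinearEquiv.ofInjectiveOfFinrankEq T0 hinj hfr).toContinuousLinearEquiv,
    fun x z => hT x z⟩

/-- Linear change of variables in `L^p` norms. -/
theorem exists_change (T : E3 ≃L[ℝ] (E2 × ℝ)) (p : ℝ≥0∞) (hp : p ≠ ⊤) :
    ∃ c : ℝ≥0, ∀ G : E2 × ℝ → ℂ,
      eLpNorm (fun x => G (T x)) p (volume : Measure E3) ≤ c * eLpNorm G p volume := by
  have : (volume : Measure (E2 × ℝ)).IsAddHaarMeasure := by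
    rw [Measure.volume_eq_prod]; infer_instance
  have : (Measure.map T (volume : Measure E3)).IsAddHaarMeasure := T.isAddHaarMeasure_map _
  obtain ⟨c, h1⟩ : ∃ c : ℝ≥0, Measure.map T (volume : Measure E3) =
      c • (volume : Measure (E2 × ℝ)) :=
    ⟨_, Measure.isAddLeftInvariant_eq_smul _ _⟩
  have hT : MeasurableEmbedding T := T.toHomeomorph.measurableEmbedding
  refine ⟨c ^ p.toReal⁻¹, fun G => ?_⟩
  have h2 : eLpNorm (fun x => G (T x)) p (volume : Measure E3) =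
      eLpNorm G p (Measure.map T (volume : Measure E3)) := (hT.eLpNorm_map_measure (g := G)).symm
  rw [h2, h1, eLpNorm_smul_measure_of_ne_top' hp, ENNReal.smul_def, smul_eq_mul]

/-- Integrals over a piece of the surface. -/
theorem integral_piece {γ : E2 → E3} (hγ : MeasurableEmbedding γ) {A : Set E2}
    (hA : MeasurableSet A) {J : E2 → ℝ≥0} (hJ : Measurable J)
    (h : (μHE[2] : Measure E3).restrict (γ '' A) =
      (((volume : Measure E2).restrict A).withDensity (fun ξ => (J ξ : ℝ≥0∞))).map γ)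
    (F : E3 → ℂ) :
    ∫ x in γ '' A, F x ∂(μHE[2] : Measure E3) = ∫ ξ, A.indicator (fun ξ => J ξ • F (γ ξ)) ξ := by
  rw [h, hγ.integral_map, integral_withDensity_eq_integral_smul hJ, integral_indicator hA]

/-- `L^p` norms over a piece of the surface. -/
theorem eLpNorm_piece {γ : E2 → E3} (hγ : MeasurableEmbedding γ) {A : Set E2}
    (hA : MeasurableSet A) {J : E2 → ℝ≥0} (hJ : Measurable J)
    (h : (μHE[2] : Measure E3).restrict (γ '' A) =
      (((volume : Measure E2).restrict A).withDensity (fun ξ => (J ξ : ℝ≥0∞))).map γ)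
    {K : ℝ≥0} (hK : ∀ ξ, J ξ ≤ K) {f : E3 → ℂ} (hf : Measurable f) {p : ℝ} (hp : 1 ≤ p) :
    eLpNorm (A.indicator (fun ξ => J ξ • f (γ ξ))) (ENNReal.ofReal p) (volume : Measure E2) ≤
      ((K ^ ((p - 1) / p) : ℝ≥0) : ℝ≥0∞) *
        eLpNorm f (ENNReal.ofReal p) ((μHE[2] : Measure E3).restrict (γ '' A)) := by
  have hp0 : 0 < p := by linarith
  have hpne : ENNReal.ofReal p ≠ 0 := by simpa using hp0
  have hfm : Measurable (fun ξ => ‖f (γ ξ)‖ₑ ^ p) := by
    have := (hf.comp hγ.measurable)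
    exact (this.enorm).pow_const p
  rw [h, hγ.eLpNorm_map_measure,
    eLpNorm_eq_lintegral_rpow_enorm_toReal hpne ENNReal.ofReal_ne_top,
    eLpNorm_eq_lintegral_rpow_enorm_toReal hpne ENNReal.ofReal_ne_top,
    ENNReal.toReal_ofReal hp0.le]
  simp only [Function.comp_apply]
  rw [lintegral_withDensity_eq_lintegral_mul _ (by fun_prop) hfm]
  have h1 : ∫⁻ ξ, ‖A.indicator (fun ξ => J ξ • f (γ ξ)) ξ‖ₑ ^ p =
      ∫⁻ ξ in A, (J ξ : ℝ≥0∞) ^ p * ‖f (γ ξ)‖ₑ ^ p := by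
    rw [← lintegral_indicator hA]
    congr 1
    ext ξ
    by_cases hξ : ξ ∈ A
    · rw [indicator_of_mem hξ, indicator_of_mem hξ]
      rw [NNReal.smul_def, enorm_smul, ENNReal.mul_rpow_of_nonneg _ _ hp0.le]
      congr 2
      simp [enorm_eq_nnnorm]
    · rw [indicator_of_notMem hξ, indicator_of_notMem hξ]
      simp [hp0]
  rw [h1]
  have h2 : ∫⁻ ξ in A, (J ξ : ℝ≥0∞) ^ p * ‖f (γ ξ)‖ₑ ^ p ≤
      (K : ℝ≥0∞) ^ (p - 1) * ∫⁻ ξ in A, (J ξ : ℝ≥0∞) * ‖f (γ ξ)‖ₑ ^ p := by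
    rw [← lintegral_const_mul _ (by fun_prop)]
    refine lintegral_mono fun ξ => ?_
    have h3 : (J ξ : ℝ≥0∞) ^ p = (J ξ : ℝ≥0∞) ^ (p - 1) * (J ξ : ℝ≥0∞) := by
      conv_lhs => rw [show p = (p - 1) + 1 by ring]
      rw [ENNReal.rpow_add_of_nonneg _ _ (by linarith) zero_le_one, ENNReal.rpow_one]
    rw [h3, mul_assoc]
    gcongr
    exact hK ξ
  calc (∫⁻ ξ in A, (J ξ : ℝ≥0∞) ^ p * ‖f (γ ξ)‖ₑ ^ p) ^ (1 / p)
      ≤ ((K : ℝ≥0∞) ^ (p - 1) * ∫⁻ ξ in A, (J ξ : ℝ≥0∞) * ‖f (γ ξ)‖ₑ ^ p) ^ (1 / p) := by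
        gcongr
    _ = _ := by
        rw [ENNReal.mul_rpow_of_nonneg _ _ (by positivity), ← ENNReal.rpow_mul,
          ENNReal.coe_rpow_of_nonneg _ (by apply div_nonneg <;> linarith)]
        congr 2
        ring

end Crest.Agent.R138.Geo789
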