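import Mathlib
import Crest.Prelude.Def_CurvedSurface
import Crest.Agent.R138.RsDef_134
import Crest.Agent.R138.Geo1_789
import Crest.Agent.R138.Geo5_789
import Crest.Agent.R138.Geo6_789

/-!
R138 / S0190, geometry block, part 7: the statement S0190 from the global estimates for the
extension operators of the graphs of the class `Par`.
-/

set_option autoImplicit false
open MeasureTheory Set Filter Topology
open scoped ENNReal NNReal ContDiff RealInnerProductSpace MeasureTheory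
open Crest.Agent.R138.Rs134 (E2 Par ee ph ext)
open Crest.AnalysisR.Surface3 (E3 extension IsCurvedChartAt IsCompactCurvedSurface)

namespace Crest.Agent.R138.Geo789

/-- The `L^p` bound for the piece `P`. -/
def Bdd (p : ℝ) (P : Set E3) : Prop :=
  (μHE[2] : Measure E3) P < ⊤ ∧ ∃ C : ℝ≥0, ∀ f : E3 → ℂ, Measurable f →
    eLpNorm (extension P f) (ENNReal.ofReal p) volume ≤
      C * eLpNorm f (ENNReal.ofReal p) ((μHE[2] : Measure E3).restrict P)

theorem exp_eq_ee (x ξ : E3) :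
    Complex.exp (2 * Real.pi * ((⟪x, ξ⟫ : ℝ) : ℂ) * Complex.I) = ee ⟪x, ξ⟫ := by
  unfold ee; congr 1; push_cast; ring

theorem extension_eq (P : Set E3) (f : E3 → ℂ) (x : E3) :
    extension P f x = ∫ ξ in P, f ξ * ee ⟪x, ξ⟫ ∂(μHE[2] : Measure E3) := by
  unfold extension
  simp_rw [← exp_eq_ee]

/-- The extension operator of a piece in the chart. -/
theorem extension_piece {γ : E2 → E3} (hγ : MeasurableEmbedding γ) {A : Set E2}
    (hA : MeasurableSet A) {J : E2 → ℝ≥0} (hJ : Measurable J)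
    (hres : (μHE[2] : Measure E3).restrict (γ '' A) =
      (((volume : Measure E2).restrict A).withDensity (fun ξ => (J ξ : ℝ≥0∞))).map γ)
    (h : E2 → ℝ) (q x : E3) (u : E2) (t : ℝ)
    (hph : ∀ ξ, ⟪x, γ ξ⟫ = ⟪x, q⟫ + ph h u t ξ) (f : E3 → ℂ) :
    extension (γ '' A) f x =
      ee ⟪x, q⟫ * ext h (A.indicator (fun ξ => J ξ • f (γ ξ))) u t := by
  rw [extension_eq, integral_piece hγ hA hJ hres (fun ξ => f ξ * ee ⟪x, ξ⟫)]
  unfold Crest.Agent.R138.Rs134.ext
  rw [← integral_const_mul]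
  refine integral_congr_ae (Eventually.of_forall fun ξ => ?_)
  by_cases hξ : ξ ∈ A
  · simp only [indicator_of_mem hξ, hph, Crest.Agent.R138.Rs134.ee_add, NNReal.smul_def,
      Complex.real_smul]
    ring
  · simp only [indicator_of_notMem hξ, zero_mul, mul_zero]

/-- The parametrisation of the graph. -/
theorem param_facts (q : E3) (L : (E2 × ℝ) ≃L[ℝ] E3) {h : E2 → ℝ} (hh : ContDiff ℝ ∞ h)
    {γ : E2 → E3} (hγ : ∀ ξ, γ ξ = q + L (ξ, h ξ)) :
    Continuous γ ∧ Function.Injective γ ∧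
      ∃ K1 : ℝ≥0, LipschitzOnWith K1 γ (Metric.closedBall 0 1) := by
  have hγs : ContDiff ℝ ∞ γ := by
    have : γ = fun ξ => q + L (ξ, h ξ) := funext hγ
    rw [this]
    exact contDiff_const.add (L.contDiff.comp (contDiff_id.prodMk hh))
  refine ⟨hγs.continuous, ?_, ?_⟩
  · intro ξ η hξη
    rw [hγ, hγ] at hξη
    have := L.injective (add_left_cancel hξη)
    exact (Prod.ext_iff.1 this).1
  · obtain ⟨M, hM⟩ := (isCompact_closedBall (0 : E2) 1).exists_bound_of_continuousOn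
      (hγs.continuous_fderiv (by simp)).continuousOn
    refine ⟨M.toNNReal, Convex.lipschitzOnWith_of_nnnorm_fderiv_le (𝕜 := ℝ)
      (fun x _ => hγs.differentiable (by simp) x) (fun x hx => ?_) (convex_closedBall _ _)⟩
    rw [← NNReal.coe_le_coe, coe_nnnorm]
    exact (hM x hx).trans (Real.le_coe_toNNReal M)

/-- Chaining of three bounds. -/
theorem chain_bound {X1 X2 X3 X4 : ℝ≥0∞} {c Kp : ℝ≥0} {C : ℝ} (e1 : X1 ≤ c * X2)
    (e2 : X2 ≤ ENNReal.ofReal C * X3) (e3 : X3 ≤ Kp * X4) :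
    X1 ≤ ((c * (C.toNNReal * Kp) : ℝ≥0) : ℝ≥0∞) * X4 := by
  calc X1 ≤ c * X2 := e1
    _ ≤ c * (ENNReal.ofReal C * X3) := by gcongr
    _ ≤ c * (ENNReal.ofReal C * (Kp * X4)) := by gcongr
    _ = _ := by
      rw [ENNReal.coe_mul, ENNReal.coe_mul, ENNReal.ofReal]
      ring

/-- The estimate for a piece in the chart. -/
theorem piece_bound {p : ℝ} (hp : 3 < p) {h : E2 → ℝ} {C : ℝ}
    (hC : ∀ g : E2 → ℂ, Measurable g → (∀ ξ, 1 / 2 < ‖ξ‖ → g ξ = 0) →
        eLpNorm (fun z : E2 × ℝ => ext h g z.1 z.2) (ENNReal.ofReal p) volume ≤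
          ENNReal.ofReal C * eLpNorm g (ENNReal.ofReal p) volume)
    (q : E3) (L : (E2 × ℝ) ≃L[ℝ] E3) {γ : E2 → E3} (hγ : ∀ ξ, γ ξ = q + L (ξ, h ξ))
    (hγe : MeasurableEmbedding γ) {A : Set E2} (hA : MeasurableSet A)
    (hA1 : A ⊆ Metric.closedBall 0 (1 / 2)) {J : E2 → ℝ≥0} (hJ : Measurable J) {K : ℝ≥0}
    (hK : ∀ ξ, J ξ ≤ K)
    (hres : (μHE[2] : Measure E3).restrict (γ '' A) =
      (((volume : Measure E2).restrict A).withDensity (fun ξ => (J ξ : ℝ≥0∞))).map γ) :
    ∃ D : ℝ≥0, ∀ f : E3 → ℂ, Measurable f →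
      eLpNorm (extension (γ '' A) f) (ENNReal.ofReal p) volume ≤
        D * eLpNorm f (ENNReal.ofReal p) ((μHE[2] : Measure E3).restrict (γ '' A)) := by
  obtain ⟨T, hT⟩ := exists_transpose L
  obtain ⟨c, hc⟩ := exists_change T (ENNReal.ofReal p) ENNReal.ofReal_ne_top
  refine ⟨c * (C.toNNReal * K ^ ((p - 1) / p)), fun f hf => ?_⟩
  have hgm : Measurable (A.indicator (fun ξ => J ξ • f (γ ξ))) := by
    refine Measurable.indicator ?_ hA
    exact hJ.smul (hf.comp hγe.measurable)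
  have hgs : ∀ ξ, 1 / 2 < ‖ξ‖ → (A.indicator (fun ξ => J ξ • f (γ ξ))) ξ = 0 := by
    intro ξ hξ
    rw [indicator_of_notMem]
    intro hmem
    have := hA1 hmem
    rw [mem_closedBall_zero_iff] at this
    linarith
  have hn : eLpNorm (extension (γ '' A) f) (ENNReal.ofReal p) volume =
      eLpNorm (fun x => (fun z : E2 × ℝ => ext h (A.indicator (fun ξ => J ξ • f (γ ξ))) z.1 z.2)
        (T x)) (ENNReal.ofReal p) volume := by
    refine eLpNorm_congr_norm_ae (Eventually.of_forall fun x => ?_)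
    have h1 := extension_piece hγe hA hJ hres h q x (T x).1 (T x).2 (fun ξ => by
      rw [hγ, inner_add_right, hT]
      unfold Crest.Agent.R138.Rs134.ph
      ring) f
    simp only [h1, norm_mul, Crest.Agent.R138.Rs134.norm_ee, one_mul]
  have hpc := eLpNorm_piece hγe hA hJ hres hK hf (show (1 : ℝ) ≤ p by linarith)
  have e1 := hc (fun z : E2 × ℝ => ext h (A.indicator (fun ξ => J ξ • f (γ ξ))) z.1 z.2)
  rw [← hn] at e1
  exact chain_bound e1 (hC _ hgm hgs) hpc

/-- The local estimate at a point of the surface. -/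
theorem local_bound (c0 : ℝ) (hc0 : 0 < c0) (K : ℕ) (p : ℝ) (hp : 3 < p)
    (H : ∀ h : E2 → ℝ, Par c0 K h → HasCompactSupport (fun η : E2 => h η - ‖η‖ ^ 2 / 2) →
      ∃ C : ℝ, ∀ g : E2 → ℂ, Measurable g → (∀ ξ, 1 / 2 < ‖ξ‖ → g ξ = 0) →
        eLpNorm (fun z : E2 × ℝ => ext h g z.1 z.2) (ENNReal.ofReal p) volume ≤
          ENNReal.ofReal C * eLpNorm g (ENNReal.ofReal p) volume)
    {S : Set E3} {q : E3} (hS : IsCurvedChartAt S q) (hq : q ∈ S) :
    ∃ V : Set E3, IsOpen V ∧ q ∈ V ∧ ∀ P : Set E3, MeasurableSet P → P ⊆ S ∩ V → Bdd p P := by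
  obtain ⟨V, hV, hqV, L, h, hpar, hcs, hcov⟩ := exists_chart c0 hc0 K hS hq
  obtain ⟨C, hC⟩ := H h hpar hcs
  obtain ⟨γ, hγ⟩ : ∃ γ : E2 → E3, ∀ ξ, γ ξ = q + L (ξ, h ξ) := ⟨_, fun _ => rfl⟩
  obtain ⟨hγc, hγi, K1, hK1⟩ := param_facts q L hpar.smooth hγ
  obtain ⟨J, hJm, hJle, hJ⟩ := exists_density hγc hγi hK1
  have hγe : MeasurableEmbedding γ := hγc.measurableEmbedding hγi
  refine ⟨V, hV, hqV, fun P hP hPV => ?_⟩
  have hA : MeasurableSet (γ ⁻¹' P ∩ Metric.closedBall 0 (1 / 2)) :=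
    (hγe.measurable hP).inter measurableSet_closedBall
  have hA1 : (γ ⁻¹' P ∩ Metric.closedBall 0 (1 / 2)) ⊆ Metric.closedBall 0 1 :=
    inter_subset_right.trans (Metric.closedBall_subset_closedBall (by norm_num))
  have hγA : γ '' (γ ⁻¹' P ∩ Metric.closedBall 0 (1 / 2)) = P := by
    refine Subset.antisymm (image_subset_iff.2 inter_subset_left) fun x hx => ?_
    obtain ⟨ξ, hξ, hxξ⟩ := hcov x (hPV hx)
    rw [← hγ] at hxξ
    refine ⟨ξ, ⟨?_, by rwa [mem_closedBall_zero_iff]⟩, hxξ.symm⟩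
    rwa [mem_preimage, ← hxξ]
  have hres := hJ _ hA1 hA
  have h1 := piece_bound hp hC q L hγ hγe hA inter_subset_right hJm hJle hres
  rw [hγA] at h1
  refine ⟨?_, h1⟩
  rw [← hγA]
  refine (muHE_image_le hK1 hA1).trans_lt (ENNReal.mul_lt_top ENNReal.coe_lt_top ?_)
  exact (measure_mono hA1).trans_lt measure_closedBall_lt_top

theorem stronglyMeasurable_extension {P : Set E3} (hP : (μHE[2] : Measure E3) P < ⊤)
    {f : E3 → ℂ} (hf : Measurable f) : StronglyMeasurable (extension P f) := by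
  have : IsFiniteMeasure ((μHE[2] : Measure E3).restrict P) :=
    ⟨by rwa [Measure.restrict_apply_univ]⟩
  have h1 : StronglyMeasurable (Function.uncurry fun (x ξ : E3) => f ξ * ee ⟪x, ξ⟫) := by
    apply Measurable.stronglyMeasurable
    refine (hf.comp measurable_snd).mul ?_
    have h2 : Continuous fun z : E3 × E3 => ee ⟪z.1, z.2⟫ :=
      Crest.Agent.R138.Rs134.continuous_ee.comp (continuous_fst.inner continuous_snd)
    exact h2.measurable
  have h3 := h1.integral_prod_right (ν := (μHE[2] : Measure E3).restrict P)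
  have h4 : extension P f = fun x => ∫ ξ in P, f ξ * ee ⟪x, ξ⟫ ∂(μHE[2] : Measure E3) :=
    funext fun x => extension_eq P f x
  rw [h4]
  exact h3

theorem Bdd.union {p : ℝ} (hp : 3 < p) {P Q : Set E3}
    (hQ : MeasurableSet Q) (hd : Disjoint P Q) (h1 : Bdd p P) (h2 : Bdd p Q) :
    Bdd p (P ∪ Q) := by
  obtain ⟨hf1, C1, hC1⟩ := h1
  obtain ⟨hf2, C2, hC2⟩ := h2
  have hfin : (μHE[2] : Measure E3) (P ∪ Q) < ⊤ :=
    (measure_union_le _ _).trans_lt (ENNReal.add_lt_top.2 ⟨hf1, hf2⟩)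
  have : IsFiniteMeasure ((μHE[2] : Measure E3).restrict (P ∪ Q)) :=
    ⟨by rwa [Measure.restrict_apply_univ]⟩
  refine ⟨hfin, C1 + C2 + 1, fun f hf => ?_⟩
  have hp1 : (1 : ℝ≥0∞) ≤ ENNReal.ofReal p := by
    rw [← ENNReal.ofReal_one]; exact ENNReal.ofReal_le_ofReal (by linarith)
  by_cases htop : eLpNorm f (ENNReal.ofReal p) ((μHE[2] : Measure E3).restrict (P ∪ Q)) = ⊤
  · rw [htop, ENNReal.mul_top (by simp)]
    exact le_top
  have hmem : MemLp f (ENNReal.ofReal p) ((μHE[2] : Measure E3).restrict (P ∪ Q)) :=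
    ⟨hf.aestronglyMeasurable, lt_top_iff_ne_top.2 htop⟩
  have hint : Integrable f ((μHE[2] : Measure E3).restrict (P ∪ Q)) := hmem.integrable hp1
  have hint' : ∀ x, IntegrableOn (fun ξ => f ξ * ee ⟪x, ξ⟫) (P ∪ Q) (μHE[2] : Measure E3) := by
    intro x
    refine Integrable.mono hint ?_ (Eventually.of_forall fun ξ => ?_)
    · refine (hf.mul ?_).aestronglyMeasurable
      have : Continuous fun ξ : E3 => ee ⟪x, ξ⟫ :=
        Crest.Agent.R138.Rs134.continuous_ee.comp (continuous_const.inner continuous_id)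
      exact this.measurable
    · rw [norm_mul, Crest.Agent.R138.Rs134.norm_ee, mul_one]
  have hadd : extension (P ∪ Q) f = extension P f + extension Q f := by
    ext x
    rw [Pi.add_apply, extension_eq, extension_eq, extension_eq]
    exact setIntegral_union hd hQ ((hint' x).mono_set subset_union_left)
      ((hint' x).mono_set subset_union_right)
  rw [hadd]
  calc eLpNorm (extension P f + extension Q f) (ENNReal.ofReal p) volume
      ≤ eLpNorm (extension P f) (ENNReal.ofReal p) volume +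
        eLpNorm (extension Q f) (ENNReal.ofReal p) volume :=
        eLpNorm_add_le (stronglyMeasurable_extension hf1 hf).aestronglyMeasurable
          (stronglyMeasurable_extension hf2 hf).aestronglyMeasurable hp1
    _ ≤ C1 * eLpNorm f (ENNReal.ofReal p) ((μHE[2] : Measure E3).restrict (P ∪ Q)) +
        C2 * eLpNorm f (ENNReal.ofReal p) ((μHE[2] : Measure E3).restrict (P ∪ Q)) := by
        refine add_le_add ((hC1 f hf).trans ?_) ((hC2 f hf).trans ?_)
        · gcongr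
          exact subset_union_left
        · gcongr
          exact subset_union_right
    _ = ((C1 : ℝ≥0∞) + C2) *
        eLpNorm f (ENNReal.ofReal p) ((μHE[2] : Measure E3).restrict (P ∪ Q)) := by ring
    _ ≤ _ := by
        gcongr
        push_cast
        exact le_self_add

theorem bdd_of_chart {S : Set E3} (hS : IsCompact S) {p : ℝ} (hp : 3 < p)
    (hloc : ∀ q ∈ S, ∃ V : Set E3, IsOpen V ∧ q ∈ V ∧
      ∀ P : Set E3, MeasurableSet P → P ⊆ S ∩ V → Bdd p P) : Bdd p S := by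
  have key : ∃ M : Set E3, MeasurableSet M ∧ S ⊆ M ∧
      ∀ P : Set E3, MeasurableSet P → P ⊆ S ∩ M → Bdd p P := by
    refine hS.induction_on (p := fun W => ∃ M : Set E3, MeasurableSet M ∧ W ⊆ M ∧
      ∀ P : Set E3, MeasurableSet P → P ⊆ S ∩ M → Bdd p P) ?_ ?_ ?_ ?_
    · refine ⟨∅, MeasurableSet.empty, Subset.rfl, fun P _ hP => ?_⟩
      have hP0 : P = ∅ := by simpa using hP
      subst hP0
      refine ⟨by simp, 0, fun f _ => ?_⟩
      have : extension (∅ : Set E3) f = 0 := by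
        ext x; simp [extension]
      rw [this]; simp
    · rintro s t hst ⟨M, hM, htM, hMP⟩
      exact ⟨M, hM, hst.trans htM, hMP⟩
    · rintro s t ⟨M, hM, hsM, hMP⟩ ⟨N, hN, htN, hNP⟩
      refine ⟨M ∪ N, hM.union hN, union_subset_union hsM htN, fun P hP hPS => ?_⟩
      have h1 : Bdd p (P ∩ M) := hMP _ (hP.inter hM)
        (subset_inter (inter_subset_left.trans (hPS.trans inter_subset_left)) inter_subset_right)
      have h2 : Bdd p (P \ M) := by
        refine hNP _ (hP.diff hM) fun x hx => ⟨(hPS hx.1).1, ?_⟩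
        rcases (hPS hx.1).2 with h | h
        · exact absurd h hx.2
        · exact h
      have h3 := h1.union hp (hP.diff hM) disjoint_inf_sdiff h2
      have h4 : P ∩ M ∪ P \ M = P := inter_union_sdiff P M
      exact h4 ▸ h3
    · intro q hq
      obtain ⟨V, hV, hqV, hVP⟩ := hloc q hq
      exact ⟨V, mem_nhdsWithin_of_mem_nhds (hV.mem_nhds hqV), V, hV.measurableSet, Subset.rfl, hVP⟩
  obtain ⟨M, -, hSM, hMP⟩ := key
  exact hMP S hS.measurableSet (subset_inter Subset.rfl hSM)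

/-- **S0190 from the global estimates for the class `Par`.** -/
theorem S0190_of_ext_cs (c0 : ℝ) (hc0 : 0 < c0) (K : ℕ)
    (H : ∀ p : ℝ, 3 < p → ∀ h : E2 → ℝ, Par c0 K h →
      HasCompactSupport (fun η : E2 => h η - ‖η‖ ^ 2 / 2) →
      ∃ C : ℝ, ∀ g : E2 → ℂ, Measurable g → (∀ ξ, 1 / 2 < ‖ξ‖ → g ξ = 0) →
        eLpNorm (fun z : E2 × ℝ => ext h g z.1 z.2) (ENNReal.ofReal p) volume ≤
          ENNReal.ofReal C * eLpNorm g (ENNReal.ofReal p) volume)
    (S : Set (EuclideanSpace ℝ (Fin 3))) (hS : Crest.AnalysisR.Surface3.IsCompactCurvedSurface S)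
    (p : ℝ) (hp : 3 < p) :
    ∃ C : ℝ, ∀ f : EuclideanSpace ℝ (Fin 3) → ℂ,
      MeasureTheory.eLpNorm (Crest.AnalysisR.Surface3.extension S f) (ENNReal.ofReal p)
          MeasureTheory.volume ≤
        ENNReal.ofReal C * MeasureTheory.eLpNorm f (ENNReal.ofReal p) (μHE[2].restrict S) := by
  obtain ⟨-, C, hC⟩ : Bdd p S := bdd_of_chart hS.1 hp fun q hq =>
    local_bound c0 hc0 K p hp (H p hp) (hS.2 q hq) hq
  refine ⟨(C : ℝ), fun f => ?_⟩
  rw [ENNReal.ofReal_coe_nnreal]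
  by_cases hf : AEStronglyMeasurable f ((μHE[2] : Measure E3).restrict S)
  · have h1 := hC (hf.mk f) hf.stronglyMeasurable_mk.measurable
    have h2 : extension S f = extension S (hf.mk f) := by
      ext x
      rw [extension_eq, extension_eq]
      refine integral_congr_ae ?_
      filter_upwards [hf.ae_eq_mk] with ξ hξ
      rw [hξ]
    rw [h2]
    refine h1.trans (le_of_eq ?_)
    rw [eLpNorm_congr_ae hf.ae_eq_mk]
  · have h0 : extension S f = 0 := by
      ext x
      rw [extension_eq, Pi.zero_apply]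
      refine integral_undef fun hint => hf ?_
      have h3 : Continuous fun ξ : E3 => ee (-⟪x, ξ⟫) :=
        Crest.Agent.R138.Rs134.continuous_ee.comp
          (continuous_const.inner continuous_id).neg
      have h4 := hint.aestronglyMeasurable.mul h3.aestronglyMeasurable
      refine h4.congr (Eventually.of_forall fun ξ => ?_)
      simp only [Pi.mul_apply]
      rw [mul_assoc, ← Crest.Agent.R138.Rs134.ee_add, add_neg_cancel,
        Crest.Agent.R138.Rs134.ee_zero, mul_one]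
    rw [h0]
    simp

/-- **S0190 from the global estimates for the class `Par`.** -/
theorem S0190_of_ext (c0 : ℝ) (hc0 : 0 < c0) (K : ℕ)
    (H : ∀ p : ℝ, 3 < p → ∀ h : E2 → ℝ, Par c0 K h →
      ∃ C : ℝ, ∀ g : E2 → ℂ, Measurable g → (∀ ξ, 1 / 2 < ‖ξ‖ → g ξ = 0) →
        eLpNorm (fun z : E2 × ℝ => ext h g z.1 z.2) (ENNReal.ofReal p) volume ≤
          ENNReal.ofReal C * eLpNorm g (ENNReal.ofReal p) volume)
    (S : Set (EuclideanSpace ℝ (Fin 3))) (hS : Crest.AnalysisR.Surface3.IsCompactCurvedSurface S)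
    (p : ℝ) (hp : 3 < p) :
    ∃ C : ℝ, ∀ f : EuclideanSpace ℝ (Fin 3) → ℂ,
      MeasureTheory.eLpNorm (Crest.AnalysisR.Surface3.extension S f) (ENNReal.ofReal p)
          MeasureTheory.volume ≤
        ENNReal.ofReal C * MeasureTheory.eLpNorm f (ENNReal.ofReal p) (μHE[2].restrict S) :=
  S0190_of_ext_cs c0 hc0 K (fun p hp h hpar _ => H p hp h hpar) S hS p hp

/-- Version in which the perturbation has bounded derivatives of all orders. -/
theorem S0190_of_ext_bdd (c0 : ℝ) (hc0 : 0 < c0) (K : ℕ)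
    (H : ∀ p : ℝ, 3 < p → ∀ h : E2 → ℝ, Par c0 K h →
      (∃ B : ℕ → ℝ, ∀ k ξ, ‖iteratedFDeriv ℝ k (fun η : E2 => h η - ‖η‖ ^ 2 / 2) ξ‖ ≤ B k) →
      ∃ C : ℝ, ∀ g : E2 → ℂ, Measurable g → (∀ ξ, 1 / 2 < ‖ξ‖ → g ξ = 0) →
        eLpNorm (fun z : E2 × ℝ => ext h g z.1 z.2) (ENNReal.ofReal p) volume ≤
          ENNReal.ofReal C * eLpNorm g (ENNReal.ofReal p) volume)
    (S : Set (EuclideanSpace ℝ (Fin 3))) (hS : Crest.AnalysisR.Surface3.IsCompactCurvedSurface S)
    (p : ℝ) (hp : 3 < p) :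
    ∃ C : ℝ, ∀ f : EuclideanSpace ℝ (Fin 3) → ℂ,
      MeasureTheory.eLpNorm (Crest.AnalysisR.Surface3.extension S f) (ENNReal.ofReal p)
          MeasureTheory.volume ≤
        ENNReal.ofReal C * MeasureTheory.eLpNorm f (ENNReal.ofReal p) (μHE[2].restrict S) :=
  S0190_of_ext_cs c0 hc0 K (fun p hp h hpar hcs => H p hp h hpar
    (exists_bounds (hpar.smooth.sub ((contDiff_norm_sq ℝ).div_const 2)) hcs)) S hS p hp

end Crest.Agent.R138.Geo789
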