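import Crest.Agent.R138.Rs7_134
import Crest.Agent.R138.Loc_665
import Crest.Agent.R138.Geo7_789

/-!
Bridge `EBn ⟹ LocH h ⟹ strong (p, p) ⟹ S0190` (helper134).
-/

set_option autoImplicit false
set_option maxSynthPendingDepth 3

namespace Crest.Agent.R138.Rs134

open MeasureTheory Set Metric
open scoped ContDiff RealInnerProductSpace ENNReal MeasureTheory

/-- `EBn` gives the local estimate for every phase of the class. -/
theorem locH_of_EBn (H : Defs.EBn) : ∃ c0 : ℝ, 0 < c0 ∧ ∃ K : ℕ, 2 ≤ K ∧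
    ∀ h : E2 → ℝ, Par c0 K h →
      (∀ k : ℕ, ∃ B : ℝ, ∀ ξ, ‖iteratedFDeriv ℝ k (fun η : E2 => h η - ‖η‖ ^ 2 / 2) ξ‖ ≤ B) →
      LocH h := by
  obtain ⟨c0, hc0, K0, L0, H⟩ := H
  refine ⟨min c0 (1 / 2), by positivity, max K0 2, le_max_right _ _, ?_⟩
  intro h hP hB ε hε
  obtain ⟨B', hB', hPB⟩ := parB_of (min_le_left _ _) (le_max_left K0 2) hP hB
  obtain ⟨C, hC0, hC⟩ := H B' hB' ε hε 0
  refine ⟨C * Real.sqrt 128, ?_⟩
  intro g hg hg1 hg2 R hR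
  have h1 := hC h hPB hP.zero hP.grad R (128 * R ^ (-2 : ℝ)) hR (by positivity) g hg ⟨1, hg1⟩ hg2
    (fun c b s hs ψ hψ x0 t0 _ _ => boxBound_all hP (le_max_right _ _) (min_le_right _ _) 0 hg hg1
      hg2 hR c b s hs ψ hψ x0 t0)
  rw [cyl_defs] at h1
  exact h1.trans (le_of_eq (ofReal_shape hC0 hR hg hg1 hg2))

/-- **`EBn` gives the extension estimates for all phases of the class.** -/
theorem strong_of_EBn (H : Defs.EBn) : ∃ c0 : ℝ, 0 < c0 ∧ c0 ≤ 1 / 4 ∧ ∃ K : ℕ, 3 ≤ K ∧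
    ∀ h : E2 → ℝ, Par c0 K h →
      (∀ k : ℕ, ∃ B : ℝ, ∀ ξ, ‖iteratedFDeriv ℝ k (fun η : E2 => h η - ‖η‖ ^ 2 / 2) ξ‖ ≤ B) →
      ∀ p : ℝ, 3 < p → ∃ C : ℝ, ∀ g : E2 → ℂ, Measurable g → (∀ ξ, 1 / 2 < ‖ξ‖ → g ξ = 0) →
        eLpNorm (fun z : E2 × ℝ => ext h g z.1 z.2) (ENNReal.ofReal p) volume ≤
          ENNReal.ofReal C * eLpNorm g (ENNReal.ofReal p) volume := by
  obtain ⟨c0, hc0, K, hK, H⟩ := locH_of_EBn H
  refine ⟨min c0 (1 / 4), by positivity, min_le_right _ _, max K 3, le_max_right _ _, ?_⟩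
  intro h hP hB p hp
  have hP1 : Par c0 K h := ⟨hP.smooth, hP.zero, hP.grad, fun k hk hk2 ξ =>
    (hP.close k hk (hk2.trans (le_max_left _ _)) ξ).trans (min_le_left _ _)⟩
  exact strong_of_locH hP (le_max_right _ _) (min_le_right _ _) (H h hP1 hB) p hp

/-- **S0190 from `EBn`.** -/
theorem S0190_of_EBn (H : Defs.EBn)
    (S : Set (EuclideanSpace ℝ (Fin 3))) (hS : Crest.AnalysisR.Surface3.IsCompactCurvedSurface S)
    (p : ℝ) (hp : 3 < p) :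
    ∃ C : ℝ, ∀ f : EuclideanSpace ℝ (Fin 3) → ℂ,
      MeasureTheory.eLpNorm (Crest.AnalysisR.Surface3.extension S f) (ENNReal.ofReal p)
          MeasureTheory.volume ≤
        ENNReal.ofReal C * MeasureTheory.eLpNorm f (ENNReal.ofReal p) (μHE[2].restrict S) := by
  obtain ⟨c0, hc0, _, K, _, H⟩ := strong_of_EBn H
  exact Geo789.S0190_of_ext_bdd c0 hc0 K
    (fun p hp h hP hB => H h hP (fun k => ⟨hB.choose k, hB.choose_spec k⟩) p hp) S hS p hp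

/-- **S0190 from `EB`.** -/
theorem S0190_of_EB (H : Defs.EB)
    (S : Set (EuclideanSpace ℝ (Fin 3))) (hS : Crest.AnalysisR.Surface3.IsCompactCurvedSurface S)
    (p : ℝ) (hp : 3 < p) :
    ∃ C : ℝ, ∀ f : EuclideanSpace ℝ (Fin 3) → ℂ,
      MeasureTheory.eLpNorm (Crest.AnalysisR.Surface3.extension S f) (ENNReal.ofReal p)
          MeasureTheory.volume ≤
        ENNReal.ofReal C * MeasureTheory.eLpNorm f (ENNReal.ofReal p) (μHE[2].restrict S) :=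
  S0190_of_EBn (Defs.EBn_of_EB H) S hS p hp

end Crest.Agent.R138.Rs134
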