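import Mathlib
import Crest.Agent.R138.Ps1_926

/-!
# R138, Kakeya side, calculus of the extremiser, part 1b (helper926)

* `Unif.of_bounds`, `Unif.of_uniform`: two-sided class sizes give `Unif`.
* `exists_calc`: a dense part which is stable for countably many functionals and uniform for
  countably many partitions.
* `Unif.prune`: after a dense refinement all classes of finitely many uniform partitions have the
  full size up to `d^o(1)`.
-/

set_option autoImplicit false
set_option linter.unusedVariables false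

open Filter Topology Finset

namespace Crest.Agent.R138.Ps926

open Crest.Agent.R138.Ex926 Crest.Agent.R138.Dp76

section

variable {B : Base} {α κ : ℕ → Type*}

open Classical in
/-- two-sided class sizes give uniformity. -/
theorem Unif.of_bounds {f : ∀ n, α n → κ n} {I : ∀ n, Finset (α n)}
    (hI : B.PB (fun n => ((I n).card : ℝ))) {X Y : ℕ → ℝ} (hX : B.PB X) (hY : B.PB Y)
    (hXY : B.ex X = B.ex Y)
    (h : ∀ᶠ n in (U : Filter ℕ), ∀ x ∈ I n, X n ≤ (((I n).filter fun y => f n y = f n x).card : ℝ) ∧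
      (((I n).filter fun y => f n y = f n x).card : ℝ) ≤ Y n) :
    Unif B f I ∧ B.ex (fun n => (cmax (f n) (I n) : ℝ)) = B.ex X := by
  have hne : ∀ᶠ n in (U : Filter ℕ), (I n).Nonempty := by
    filter_upwards [hI.pos] with n hn
    exact card_pos.1 (by exact_mod_cast hn)
  have hrefl : ∀ᶠ n in (U : Filter ℕ), I n ⊆ I n := Eventually.of_forall fun n => Subset.refl _
  have m1 := (monoF_ncl hI f).pb hrefl hne
  have m2 := (monoF_cmax hI f).pb hrefl hne
  have e1 : B.ex (fun n => (cmax (f n) (I n) : ℝ)) ≤ B.ex Y := by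
    refine Base.ex_le m2 hY ?_
    filter_upwards [h, hY.pos] with n hn hp
    have : (cmax (f n) (I n)) ≤ ⌊Y n⌋₊ :=
      cmax_le (f n) fun x hx => Nat.le_floor (hn x hx).2
    exact le_trans (by exact_mod_cast this) (Nat.floor_le hp.le)
  have e2 : B.ex X ≤ B.ex (fun n => (cmax (f n) (I n) : ℝ)) := by
    refine Base.ex_le hX m2 ?_
    filter_upwards [h, hne] with n hn hp
    obtain ⟨x, hx⟩ := hp
    exact (hn x hx).1.trans (by exact_mod_cast le_cmax (f n) hx)
  have e3 : B.ex (fun n => (cmax (f n) (I n) : ℝ)) = B.ex X := le_antisymm (e1.trans_eq hXY.symm) e2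
  have e4 : B.ex (fun n => (ncl (f n) (I n) : ℝ)) + B.ex X ≤ B.ex (fun n => ((I n).card : ℝ)) := by
    rw [← Base.ex_mul m1 hX]
    refine Base.ex_le (m1.mul hX) hI ?_
    filter_upwards [h] with n hn
    have h3 : (I n).card = ∑ k ∈ (I n).image (f n), ((I n).filter fun y => f n y = k).card :=
      card_eq_sum_card_image (f n) (I n)
    rw [h3]
    push_cast
    have h4 : ∀ k ∈ (I n).image (f n), X n ≤ (((I n).filter fun y => f n y = k).card : ℝ) := by
      intro k hk
      obtain ⟨x, hx, rfl⟩ := mem_image.1 hk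
      exact (hn x hx).1
    have h5 := card_nsmul_le_sum _ _ _ h4
    rw [nsmul_eq_mul] at h5
    exact h5
  have e5 : B.ex (fun n => ((I n).card : ℝ)) ≤ B.ex (fun n => (ncl (f n) (I n) : ℝ)) +
      B.ex (fun n => (cmax (f n) (I n) : ℝ)) := by
    rw [← Base.ex_mul m1 m2]
    refine Base.ex_le hI (m1.mul m2) ?_
    exact Eventually.of_forall fun n => by exact_mod_cast card_le_ncl_mul_cmax (f n) (I n)
  refine ⟨?_, e3⟩
  unfold Unif
  rw [e3] at e5 ⊢
  linarith

theorem filter_eq_cls {α κ : Type*} [DecidableEq κ] (I : Finset α) (f : α → κ) (x : α)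
    [DecidablePred fun y => f y = f x] : (I.filter fun y => f y = f x) = cls I f x := by
  unfold cls
  congr!

/-- countably many partitions become uniform on a dense part. -/
theorem exists_unif {I₀ : ∀ n, Finset (α n)} (hI₀ : B.PB (fun n => ((I₀ n).card : ℝ)))
    (f : ℕ → ∀ n, α n → κ n) :
    ∃ I : ∀ n, Finset (α n), Dense B I I₀ ∧ ∀ j, Unif B (f j) I := by
  classical
  have hne : ∀ᶠ n in (U : Filter ℕ), (I₀ n).Nonempty := by
    filter_upwards [hI₀.pos] with n hn
    exact card_pos.1 (by exact_mod_cast hn)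
  obtain ⟨C, hC, h3, h4⟩ := hI₀.bounds
  obtain ⟨I, M, S, k, hS, hk, hev⟩ := uniform_countable B I₀ (fun n j => f j n) hne hC.le h4
  have hd : Dense B I I₀ := by
    refine dense_of_sub hS ?_
    filter_upwards [hev] with n hn
    exact ⟨hn.1, hn.2.2.1⟩
  refine ⟨I, hd, fun j => ?_⟩
  obtain ⟨hI1, hI2⟩ := ex_card_dense hI₀ hd
  have hkj : ∀ᶠ n in (U : Filter ℕ), j ≤ k n := U_le_atTop.trans (le_refl _) |> fun _ =>
    hk.eventually_ge_atTop j
  have hM : B.PB (fun n => M n j) := by
    refine Base.PB.of_bounds (C := C) ?_ ?_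
    · filter_upwards [hev, hkj] with n hn hj
      exact (dpow_le_one B n hC.le).trans (hn.2.2.2.2 j hj).1
    · filter_upwards [hev, hkj, h4] with n hn hj hb
      obtain ⟨x, hx⟩ := hn.2.1
      have h5 := ((hn.2.2.2.2 j hj).2 x hx).1
      refine h5.trans (le_trans ?_ hb)
      exact_mod_cast card_le_card (cls_subset _ _ _)
  have hX : B.PB (fun n => M n j / S n) := hM.div hS.1
  have hY : B.PB (fun n => 2 * M n j) := (Base.PB.const two_pos).mul hM
  refine (Unif.of_bounds (f := f j) hI1 hX hY ?_ ?_).1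
  · rw [Base.ex_div hM hS.1, Base.ex_mul (Base.PB.const two_pos) hM, hS.2, Base.ex_const]
    ring
  · filter_upwards [hev, hkj, hS.1.pos] with n hn hj hSp x hx
    obtain ⟨a1, a2, a3⟩ := (hn.2.2.2.2 j hj).2 x hx
    rw [filter_eq_cls]
    constructor
    · rw [div_le_iff₀ hSp, mul_comm]
      exact a3
    · refine le_trans ?_ a2
      exact_mod_cast card_le_card (cls_mono hn.1 _ _)

/-- **The starting point of the calculus**: a dense part which is stable for countably many
functionals and uniform for countably many partitions. -/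
theorem exists_calc {I₀ : ∀ n, Finset (α n)} (hI₀ : B.PB (fun n => ((I₀ n).card : ℝ)))
    (Φ : ℕ → ∀ n, Finset (α n) → ℝ) (hΦ : ∀ j, MonoF B I₀ (Φ j)) (f : ℕ → ∀ n, α n → κ n) :
    ∃ I : ∀ n, Finset (α n), Dense B I I₀ ∧ (∀ j, StableF B (Φ j) I) ∧ ∀ j, Unif B (f j) I := by
  obtain ⟨I₁, h1, h2⟩ := exists_unif hI₀ f
  obtain ⟨hI1, -⟩ := ex_card_dense hI₀ h1
  have hne : ∀ᶠ n in (U : Filter ℕ), (I₁ n).Nonempty := by
    filter_upwards [hI1.pos] with n hn
    exact card_pos.1 (by exact_mod_cast hn)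
  obtain ⟨I, h3, h4⟩ := exists_stableF hne Φ fun j => (hΦ j).restrict h1.1
  exact ⟨I, h3.trans h1, h4, fun j => ((h2 j).dense hI1 h3).1⟩

/-- a dense refinement in which all classes of finitely many uniform partitions have the full size
up to `d^o(1)`. -/
theorem Unif.prune {m : ℕ} {f : Fin m → ∀ n, α n → κ n} {I J : ∀ n, Finset (α n)}
    [∀ n, DecidableEq (κ n)]
    (hI : B.PB (fun n => ((I n).card : ℝ))) (h : ∀ j, Unif B (f j) I) (hJ : Dense B J I) :
    ∃ J' : ∀ n, Finset (α n), (∀ n, J' n ⊆ J n) ∧ Dense B J' J ∧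
      (∀ᶠ n in (U : Filter ℕ), ((J n).card : ℝ) ≤ 2 * (J' n).card) ∧
      ∀ ε : ℝ, 0 < ε → ∀ᶠ n in (U : Filter ℕ), ∀ j, ∀ x ∈ J' n,
        B.d n ^ ε * (cmax (f j n) (I n) : ℝ) ≤ ((cls (J' n) (f j n) x).card : ℝ) := by
  classical
  rcases Nat.eq_zero_or_pos m with rfl | hm
  · refine ⟨J, fun n => Subset.refl _, Dense.refl B J, Eventually.of_forall fun n => ?_,
      fun ε hε => Eventually.of_forall fun n j => j.elim0⟩
    have : (0 : ℝ) ≤ (J n).card := Nat.cast_nonneg _
    linarith
  have hm' : (0 : ℝ) < m := by exact_mod_cast hm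
  have hfin : ∀ n, ∃ J' : Finset (α n), J' ⊆ J n ∧ ((J n).card : ℝ) ≤ 2 * J'.card ∧
      ∀ j, ∀ x ∈ J', ((J n).card : ℝ) / (2 * m * ncl (f j n) (J n)) ≤ (cls J' (f j n) x).card := by
    intro n
    by_cases hn : (J n).Nonempty
    · obtain ⟨A', hA', hA'c, hgood⟩ := Ex926.prune (J := Fin m) (J n) (fun _ => (1 : ℝ))
        (fun _ _ => zero_le_one) (fun j => f j n)
        (fun j => ((J n).card : ℝ) / (2 * m * ncl (f j n) (J n))) (fun j => by positivity) (by
          have h2 : ∀ j : Fin m, ((J n).card : ℝ) / (2 * m * ncl (f j n) (J n)) *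
              (((J n).image (f j n)).card : ℝ) = (J n).card / (2 * m) := by
            intro j
            have e : (((J n).image (f j n)).card : ℝ) = ncl (f j n) (J n) := by
              unfold ncl
              congr!
            have e2 : (0 : ℝ) < ncl (f j n) (J n) := by exact_mod_cast one_le_ncl (f j n) hn
            rw [e]
            field_simp
          calc ∑ j : Fin m, ((J n).card : ℝ) / (2 * m * ncl (f j n) (J n)) *
                (((J n).image (f j n)).card : ℝ)
              = ∑ _j : Fin m, ((J n).card : ℝ) / (2 * m) := Finset.sum_congr rfl fun j _ => h2 j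
            _ = (J n).card / 2 := by
                rw [sum_const, card_univ, Fintype.card_fin, nsmul_eq_mul]
                field_simp
            _ ≤ (∑ _i ∈ J n, (1 : ℝ)) / 2 := by
                rw [sum_const, nsmul_eq_mul, mul_one])
      refine ⟨A', hA', ?_, fun j x hx => ?_⟩
      · have := hA'c
        simp only [sum_const, nsmul_eq_mul, mul_one] at this
        linarith
      · simpa using hgood j x hx
    · rw [not_nonempty_iff_eq_empty] at hn
      exact ⟨∅, by simp, by simp [hn], fun j x hx => absurd hx (notMem_empty x)⟩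
  choose J' h1 h2 h3 using hfin
  refine ⟨J', h1, dense_of_sub (S := fun _ => 2) (Base.Sub.const two_pos)
    (Eventually.of_forall fun n => ⟨h1 n, h2 n⟩), Eventually.of_forall h2, fun ε hε => ?_⟩
  obtain ⟨hJ1, hJ2⟩ := ex_card_dense hI hJ
  have hJne : ∀ᶠ n in (U : Filter ℕ), (J n).Nonempty := by
    filter_upwards [hJ1.pos] with n hn
    exact card_pos.1 (by exact_mod_cast hn)
  have hne : ∀ᶠ n in (U : Filter ℕ), (I n).Nonempty := by
    filter_upwards [hI.pos] with n hn
    exact card_pos.1 (by exact_mod_cast hn)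
  have hrefl : ∀ᶠ n in (U : Filter ℕ), I n ⊆ I n := Eventually.of_forall fun n => Subset.refl _
  have key : ∀ j : Fin m, ∀ᶠ n in (U : Filter ℕ), B.d n ^ ε * (cmax (f j n) (I n) : ℝ) ≤
      ((J n).card : ℝ) / (2 * m * ncl (f j n) (J n)) := by
    intro j
    obtain ⟨hu, e1, e2⟩ := (h j).dense hI hJ
    have m1 := (monoF_ncl hI (f j)).pb hJ.1 hJne
    have m2 := (monoF_cmax hI (f j)).pb hrefl hne
    have m3 : B.PB (fun n => (2 * m * ncl (f j n) (J n) : ℝ)) :=
      (Base.PB.const (by positivity : (0:ℝ) < 2 * m)).mul m1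
    obtain ⟨e, he, h5⟩ := Base.ev_lt_of_ex_lt (B := B) ((Base.PB.dpow ε).mul m2) (hJ1.div m3) (by
      rw [Base.ex_mul (Base.PB.dpow ε) m2, Base.ex_div hJ1 m3, Base.ex_mul
        (Base.PB.const (by positivity : (0:ℝ) < 2 * m)) m1, Base.ex_const, Base.ex_dpow]
      unfold Unif at hu
      rw [e2] at hu
      linarith)
    filter_upwards [h5] with n hn
    refine hn.trans (mul_le_of_le_one_left ?_ (dpow_le_one B n he.le))
    positivity
  filter_upwards [Filter.eventually_all.2 key] with n hn j x hx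
  exact (hn j).trans (h3 n j x hx)

end

end Crest.Agent.R138.Ps926
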