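import Mathlib
import Crest.Agent.R138.KDef_294
import Crest.Agent.R138.Ps1b_926
import Crest.Agent.R138.Ps2s_627

/-!
# R138, Kakeya side, calculus of the extremiser, part 3: windows (helper926)

Over the literal configurations `K294.Cf`:
* `kP` : the plank systems (level, penalty, cap of the wide width), normalised by the bottom level;
* `Fam` : a sequence of finite families in absolute dyadic scales, `lv` = levels, `DD` = exponent of
  the maximal density, `ow` = exponent of the own count;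
* `window_ok` : a family with honest classes at level `m2`, restricted to one cell of level `m1`, is
  a configuration of the window;
* `window_ineq` : `D(v) - D(u) + 2 (own(u) - own(v)) - 2 (v - u) ≤ β (v - u)`.
-/

set_option autoImplicit false
set_option linter.unusedVariables false

open Filter Topology Finset

namespace Crest.Agent.R138.Ps926

open Crest.Agent.R138.Ex926 Crest.Agent.R138.Dp76 Crest.Agent.R138.Flag51
open Crest.Agent.R138.K294

/-! ## The plank systems -/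

/-- a fixed unit vector -/
noncomputable def e0 : E2 := !₂[1, 0]

theorem dt_e0 : dt e0 e0 = 1 := by simp [dt, e0]

theorem cap_pos {q : ℝ} {m' : ℕ} {r : ℝ} (hr : 0 < r) {K : Plk} (hK : Legal m' r K) :
    0 < cap q m' K := by
  have h1 := hr.trans_le hK.r1
  have h2 := h1.trans_le hK.w12
  unfold cap
  positivity

theorem cap_ge {q : ℝ} (hq : 0 ≤ q) {m' : ℕ} {r : ℝ} (hr : 0 < r) {K : Plk} (hK : Legal m' r K) :
    r * r * (r * 2 ^ m') ^ q ≤ cap q m' K := by
  have h1 := hK.r1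
  have h2 := hK.r1.trans hK.w12
  unfold cap
  have h3 : (r * 2 ^ m') ^ q ≤ (K.w2 * 2 ^ m') ^ q :=
    Real.rpow_le_rpow (by positivity) (mul_le_mul_of_nonneg_right h2 (by positivity)) hq
  exact mul_le_mul (mul_le_mul h1 h2 hr.le (hr.le.trans h1)) h3 (by positivity)
    (mul_nonneg (hr.le.trans h1) (hr.le.trans h2))

/-- the plank system of level `m'`, penalty `q`, resolution `r`, wide width at most `max W r`,
normalised by the area of the bottom level `m0`. -/
noncomputable def kP (q : ℝ) (m0 m' : ℕ) (r W : ℝ) (hq : 0 ≤ q) (hr : 0 < r) :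
    PSys (Ln × ℝ) where
  κ := {K : Plk // Legal m' r K ∧ K.w2 ≤ max W r}
  ο := Ln × ℤ
  ob := K294.ob m'
  mem := fun K o => InK m' K.1 o
  vol := fun K => cap q m' K.1 * 4 ^ m0
  v0 := r * r * (r * 2 ^ m') ^ q * 4 ^ m0
  v0_pos := by positivity
  v0_le := fun K => mul_le_mul_of_nonneg_right (cap_ge hq hr K.2.1) (by positivity)

/-- the thinnest plank around an incidence -/
noncomputable def baseK (m' : ℕ) (r : ℝ) (x : Ln × ℝ) : Plk := ⟨zc m' x.2, x.1, e0, r, r⟩

theorem baseK_legal {m' : ℕ} {r : ℝ} (hr : r ≤ 1 / 2 ^ m') (x : Ln × ℝ) :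
    Legal m' r (baseK m' r x) := ⟨dt_e0, le_refl _, le_refl _, hr⟩

theorem inPlank_self {t : Ln} {e : E2} {a1 a2 z0 ρ : ℝ} (h1 : 0 ≤ a1) (h2 : 0 ≤ a2) :
    InPlank t t e a1 a2 z0 ρ := by
  intro z hz
  rw [sub_self]
  simp [dt, cr, h1, h2]

theorem baseK_mem {m' : ℕ} {r : ℝ} (hr : 0 ≤ r) (x : Ln × ℝ) :
    InK m' (baseK m' r x) (K294.ob m' x) := ⟨rfl, inPlank_self hr hr⟩

/-! ## Encoding of the classes -/

open Classical in
theorem encode_cls {ο κ : Type*} (S : Finset ο) (c : ο → κ) (Kc : κ → Plk) :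
    ∃ (cl : ο → ℕ) (K : ℕ → Plk), (∀ o ∈ S, K (cl o) = Kc (c o)) ∧
      ∀ o ∈ S, ∀ o' ∈ S, cl o = cl o' ↔ c o = c o' := by
  set T := S.image c with hT
  have hmem : ∀ o ∈ S, c o ∈ T := fun o ho => mem_image_of_mem c ho
  refine ⟨fun o => if h : c o ∈ T then (T.equivFin ⟨c o, h⟩ : ℕ) else 0,
    fun j => if h : j < T.card then Kc (T.equivFin.symm ⟨j, h⟩).1 else ⟨0, 0, 0, 0, 0⟩, ?_, ?_⟩
  · intro o ho
    have h := hmem o ho
    simp only [dif_pos h]
    rw [dif_pos (T.equivFin ⟨c o, h⟩).2]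
    simp
  · intro o ho o' ho'
    have h := hmem o ho
    have h' := hmem o' ho'
    simp only [dif_pos h, dif_pos h']
    constructor
    · intro he
      have := T.equivFin.injective (Fin.ext he)
      exact congrArg Subtype.val this
    · intro he
      congr 2
      exact Subtype.ext he

theorem card_inst {α ο κ : Type*} (d1 d2 : DecidableEq ο) (A : Finset α) (ob : α → ο) (c : ο → κ)
    (k : κ) (p1 p2 : DecidablePred fun o => c o = k) :
    (@Finset.filter ο (fun o => c o = k) p1 (@Finset.image α ο d1 ob A)).card =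
      (@Finset.filter ο (fun o => c o = k) p2 (@Finset.image α ο d2 ob A)).card := by
  congr!

/-! ## The window operation -/

open Classical in
/-- **window**: a finite family with honest classes at level `m2`, restricted to one cell of level
`m1`, is a valid configuration. -/
theorem window_ok {q : ℝ} {m1 m2 : ℕ} (h12 : m1 < m2) {r : ℝ} (hr : 0 < r) (hrle : r ≤ 1 / 2 ^ m2)
    {A : Finset (Ln × ℝ)} {x0 : Ln × ℝ} (hx0 : x0 ∈ A) {κ : Type*} (c : Ln × ℤ → κ) (Kc : κ → Plk)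
    {D0 D1 nu : ℝ} (hD1 : 0 < D1) (hnu : 0 < nu)
    (hleg : ∀ x ∈ A, Legal m2 r (Kc (c (K294.ob m2 x))))
    (hmem : ∀ x ∈ A, InK m2 (Kc (c (K294.ob m2 x))) (K294.ob m2 x))
    (hlow : ∀ x ∈ A, D1 * cap q m2 (Kc (c (K294.ob m2 x))) ≤
      ((((A.image (K294.ob m2)).filter fun o => c o = c (K294.ob m2 x)).card : ℕ) : ℝ))
    (hown : ∀ x ∈ A, nu ≤ (ownc m1 m2 A x : ℝ))
    (hup : ∀ K, Legal m1 r K → ((K294.objs m1 A K).card : ℝ) ≤ D0 * cap q m1 K) :
    ∃ F : Cf, F.Ok q ∧ F.m = m1 ∧ F.M = m2 - m1 ∧ F.r = r ∧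
      F.I = A.filter (fun x => zc m1 x.2 = zc m1 x0.2) ∧ F.D0 = D0 ∧ F.D1 = D1 ∧ F.nu = nu := by
  obtain ⟨cl, K, hK, hcl⟩ := encode_cls (A.image (K294.ob m2)) c Kc
  set A' := A.filter (fun x => zc m1 x.2 = zc m1 x0.2) with hA'
  set F : Cf := ⟨m1, m2 - m1, r, A', cl, K, D0, D1, nu⟩ with hF
  have htop : F.top = m2 := by simp [Cf.top, hF]; omega
  have hsub : A' ⊆ A := filter_subset _ _
  have hobm : ∀ x ∈ A, K294.ob m2 x ∈ A.image (K294.ob m2) := fun x hx => mem_image_of_mem _ hx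
  refine ⟨F, ?_, rfl, rfl, rfl, rfl, rfl, rfl, rfl⟩
  refine ⟨?_, hr, ?_, ⟨x0, ?_⟩, ?_, hD1, hnu, ?_, ?_, ?_, ?_, ?_⟩
  · show 1 ≤ m2 - m1
    omega
  · rw [htop]; exact hrle
  · exact mem_filter.2 ⟨hx0, rfl⟩
  · intro x hx y hy
    exact (mem_filter.1 hx).2.trans (mem_filter.1 hy).2.symm
  · intro x hx
    rw [htop]
    show Legal m2 r (K (cl (K294.ob m2 x)))
    rw [hK _ (hobm x (hsub hx))]
    exact hleg x (hsub hx)
  · intro x hx
    rw [htop]
    show InK m2 (K (cl (K294.ob m2 x))) _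
    rw [hK _ (hobm x (hsub hx))]
    exact hmem x (hsub hx)
  · intro x hx
    unfold Cf.cls
    rw [htop]
    show D1 * cap q m2 (K (cl (K294.ob m2 x))) ≤
      ((((A'.image (K294.ob m2)).filter fun o => cl o = cl (K294.ob m2 x)).card : ℕ) : ℝ)
    rw [hK _ (hobm x (hsub hx))]
    refine (hlow x (hsub hx)).trans ?_
    refine Nat.cast_le.2 (card_le_card fun o ho => ?_)
    rw [mem_filter, mem_image] at ho
    obtain ⟨⟨y, hy, rfl⟩, hc⟩ := ho
    rw [mem_filter]
    refine ⟨mem_image_of_mem _ (mem_filter.2 ⟨hy, ?_⟩),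
      (hcl _ (hobm y hy) _ (hobm x (hsub hx))).2 hc⟩
    have h1 := (hmem y hy).1
    have h2 := (hmem x (hsub hx)).1
    rw [hc] at h1
    have h3 : zc m2 y.2 = zc m2 x.2 := h1.trans h2.symm
    exact (zc_nested h12.le h3).trans (mem_filter.1 hx).2
  · intro x hx
    rw [htop]
    show nu ≤ (ownc m1 m2 A' x : ℝ)
    have : ownc m1 m2 A' x = ownc m1 m2 A x := by
      unfold ownc
      congr 2
      ext y
      rw [mem_filter, mem_filter, mem_filter]
      constructor
      · rintro ⟨⟨a, b⟩, d⟩; exact ⟨a, d⟩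
      · rintro ⟨a, d⟩
        refine ⟨⟨a, ?_⟩, d⟩
        have : zc m1 y.2 = zc m1 x.2 := congrArg Prod.snd d
        exact this.trans (mem_filter.1 hx).2
    rw [this]
    exact hown x (hsub hx)
  · intro K' hK'
    refine le_trans ?_ (hup K' hK')
    show (((K294.objs m1 A' K').card : ℕ) : ℝ) ≤ _
    refine Nat.cast_le.2 (card_le_card ?_)
    unfold K294.objs
    exact filter_subset_filter _ (image_subset_image hsub)

/-! ## Sequences of families -/

/-- admissible sequences of configurations: polynomial with ANY constant -/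
def AdmS (q : ℝ) (F : ℕ → Cf) : Prop :=
  (∀ᶠ n in (U : Filter ℕ), (F n).Ok q) ∧ Tendsto (fun n => ((F n).M : ℝ)) U atTop ∧
    ∃ C : ℝ, ∀ᶠ n in (U : Filter ℕ), ((F n).I.card : ℝ) ≤ (2 : ℝ) ^ (C * (F n).M) ∧
      (2 : ℝ) ^ (-(C * (F n).M)) ≤ (F n).r * 2 ^ (F n).m

/-- all limiting values -/
def valSet (q : ℝ) : Set ℝ := {x | ∃ F, AdmS q F ∧ Tendsto (fun n => (F n).val) U (𝓝 x)}

/-- a sequence of families in absolute dyadic scales -/
structure Fam (B : Base) (m M : ℕ → ℕ) (r : ℕ → ℝ) (I : ∀ n : ℕ, Finset (Ln × ℝ)) : Prop where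
  base : ∀ n, B.d n = (1 / 2 : ℝ) ^ (M n)
  rpos : ∀ n, 0 < r n
  rle : ∀ n, r n ≤ 1 / 2 ^ (m n + M n)
  poly : ∃ C : ℝ, ∀ᶠ n in (U : Filter ℕ), ((I n).card : ℝ) ≤ B.d n ^ (-C) ∧
    B.d n ^ C ≤ r n * 2 ^ (m n)
  ne : ∀ᶠ n in (U : Filter ℕ), (I n).Nonempty
  cell : ∀ᶠ n in (U : Filter ℕ), ∀ x ∈ I n, ∀ y ∈ I n, zc (m n) x.2 = zc (m n) y.2

/-- the dyadic level of `v ∈ [0,1]` -/
noncomputable def lv (m M : ℕ → ℕ) (n : ℕ) (v : ℝ) : ℕ := m n + ⌊v * M n⌋₊

/-- exponent of the maximal density of level `v`, penalty `q`, wide exponent at least `l` -/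
noncomputable def DD (B : Base) (q : ℝ) (hq : 0 ≤ q) (m M : ℕ → ℕ) (r : ℕ → ℝ)
    (hr : ∀ n, 0 < r n) (I : ∀ n : ℕ, Finset (Ln × ℝ)) (l v : ℝ) : ℝ :=
  B.ex fun n => (kP q (m n) (lv m M n v) (r n) (B.d n ^ l / 2 ^ (lv m M n v)) hq (hr n)).Dmax (I n)

/-- exponent of the own count of level `v` -/
noncomputable def ow (B : Base) (m M : ℕ → ℕ) (I : ∀ n : ℕ, Finset (Ln × ℝ)) (v : ℝ) : ℝ :=
  B.ex fun n => (cmax (K294.ob (lv m M n v)) (I n) : ℝ)

section

variable {B : Base} {m M : ℕ → ℕ} {r : ℕ → ℝ} {I : ∀ n : ℕ, Finset (Ln × ℝ)}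

theorem Fam.L_eq (h : Fam B m M r I) (n : ℕ) : B.L n = M n * Real.log 2 := by
  have : B.L n = - Real.log (B.d n) := rfl
  rw [this, h.base n, Real.log_pow, one_div, Real.log_inv]
  ring

theorem Fam.M_pos (h : Fam B m M r I) (n : ℕ) : 0 < (M n : ℝ) := by
  have h1 := B.L_pos n
  rw [h.L_eq n] at h1
  exact (mul_pos_iff_of_pos_right (Real.log_pos one_lt_two)).1 h1

theorem Fam.M_tendsto (h : Fam B m M r I) : Tendsto (fun n => (M n : ℝ)) U atTop := by
  have h1 := B.L_tendsto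
  have h2 : Tendsto (fun n => B.L n / Real.log 2) U atTop :=
    h1.atTop_div_const (Real.log_pos one_lt_two)
  refine h2.congr fun n => ?_
  rw [h.L_eq n]
  have := (Real.log_pos one_lt_two).ne'
  field_simp

theorem lv_mono {n : ℕ} {u v : ℝ} (huv : u ≤ v) : lv m M n u ≤ lv m M n v := by
  unfold lv
  exact Nat.add_le_add_left (Nat.floor_mono (mul_le_mul_of_nonneg_right huv (Nat.cast_nonneg _))) _

theorem le_lv {n : ℕ} {v : ℝ} : m n ≤ lv m M n v := Nat.le_add_right _ _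

theorem lv_le {n : ℕ} {v : ℝ} (hv : v ≤ 1) : lv m M n v ≤ m n + M n := by
  unfold lv
  refine Nat.add_le_add_left ?_ _
  have : ⌊v * M n⌋₊ ≤ ⌊(M n : ℝ)⌋₊ :=
    Nat.floor_mono (by have : (0:ℝ) ≤ M n := Nat.cast_nonneg _; nlinarith)
  rwa [Nat.floor_natCast] at this

theorem lv_zero {n : ℕ} : lv m M n 0 = m n := by simp [lv]

theorem lv_one {n : ℕ} : lv m M n 1 = m n + M n := by simp [lv]

theorem Fam.lv_lim (h : Fam B m M r I) {u v : ℝ} (hu : 0 ≤ u) (huv : u ≤ v) :
    Tendsto (fun n => (((lv m M n v - lv m M n u : ℕ) : ℝ)) / M n) U (𝓝 (v - u)) := by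
  have h1 : Tendsto (fun n => 1 / (M n : ℝ)) U (𝓝 0) := by
    refine (tendsto_inv_atTop_zero.comp h.M_tendsto).congr fun n => ?_
    simp [one_div]
  rw [Metric.tendsto_nhds]
  intro ε hε
  have h2 : ∀ᶠ n in (U : Filter ℕ), 1 / (M n : ℝ) < ε := by
    have := (Metric.tendsto_nhds.1 h1) ε hε
    filter_upwards [this] with n hn
    rw [Real.dist_eq, sub_zero] at hn
    exact (le_abs_self _).trans_lt hn
  filter_upwards [h2] with n hn
  have hM := h.M_pos n
  have e : (((lv m M n v - lv m M n u : ℕ) : ℝ)) = (⌊v * M n⌋₊ : ℝ) - ⌊u * M n⌋₊ := by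
    rw [Nat.cast_sub (lv_mono huv)]
    unfold lv
    push_cast
    ring
  have a1 := Nat.floor_le (mul_nonneg hu hM.le)
  have a2 := Nat.lt_floor_add_one (u * M n)
  have b1 := Nat.floor_le (mul_nonneg (hu.trans huv) hM.le)
  have b2 := Nat.lt_floor_add_one (v * M n)
  rw [Real.dist_eq, e]
  have e2 : ((⌊v * M n⌋₊ : ℝ) - ⌊u * M n⌋₊) / M n - (v - u) =
      ((⌊v * M n⌋₊ : ℝ) - v * M n - (⌊u * M n⌋₊ - u * M n)) / M n := by
    field_simp
    ring
  rw [e2, abs_div, abs_of_pos hM]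
  refine lt_of_lt_of_le ?_ hn.le
  refine div_lt_div_of_pos_right ?_ hM
  rw [abs_lt]
  constructor <;> linarith

/-- the plank systems are polynomial. -/
theorem Fam.padm (h : Fam B m M r I) {q : ℝ} (hq : 0 ≤ q) (W : ℕ → ℝ) {v : ℝ} (hv : v ≤ 1) :
    PAdm B (fun n => kP q (m n) (lv m M n v) (r n) (W n) hq (h.rpos n)) I := by
  obtain ⟨C, hC⟩ := h.poly
  refine ⟨(2 + q) * |C|, ?_⟩
  filter_upwards [hC] with n hn
  obtain ⟨h1, h2⟩ := hn
  have hr := h.rpos n
  have hc1 : |C| ≤ (2 + q) * |C| := by nlinarith [abs_nonneg C]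
  have e1 : B.d n ^ |C| ≤ r n * 2 ^ (m n) := (dpow_le B n (le_abs_self C)).trans h2
  have e2 : r n * 2 ^ (m n) ≤ r n * 2 ^ (lv m M n v) :=
    mul_le_mul_of_nonneg_left (pow_le_pow_right₀ one_le_two le_lv) hr.le
  have e3 : r n * 2 ^ (lv m M n v) ≤ 1 := by
    have h3 : r n ≤ 1 / 2 ^ (lv m M n v) := (h.rle n).trans
      (one_div_le_one_div_of_le (by positivity) (pow_le_pow_right₀ one_le_two (lv_le hv)))
    rwa [le_div_iff₀ (by positivity)] at h3
  have e4 : (4 : ℝ) ^ (m n) = 2 ^ (m n) * 2 ^ (m n) := by rw [← mul_pow]; norm_num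
  refine ⟨?_, h1.trans (dpow_le B n (by
    have := le_abs_self C; linarith)), fun x hx => ?_⟩
  · show B.d n ^ ((2 + q) * |C|) ≤ r n * r n * (r n * 2 ^ (lv m M n v)) ^ q * 4 ^ (m n)
    have e5 : B.d n ^ ((2 + q) * |C|) = B.d n ^ |C| * B.d n ^ |C| * (B.d n ^ |C|) ^ q := by
      rw [← Real.rpow_mul (B.pos n).le, ← dpow_add, ← dpow_add]
      congr 1
      ring
    have e6 : r n * r n * (r n * 2 ^ (lv m M n v)) ^ q * 4 ^ (m n) =
        (r n * 2 ^ (m n)) * (r n * 2 ^ (m n)) * (r n * 2 ^ (lv m M n v)) ^ q := by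
      rw [e4]; ring
    rw [e5, e6]
    have hp := dpow_pos B n |C|
    refine mul_le_mul (mul_le_mul e1 e1 hp.le (hp.le.trans e1))
      (Real.rpow_le_rpow hp.le (e1.trans e2) hq) (by positivity) (by positivity)
  · have hle : r n ≤ 1 / 2 ^ (lv m M n v) := by
      rw [le_div_iff₀ (by positivity)]; exact e3
    refine ⟨⟨baseK (lv m M n v) (r n) x, baseK_legal hle x, le_max_right _ _⟩,
      baseK_mem hr.le x, ?_⟩
    show cap q (lv m M n v) (baseK (lv m M n v) (r n) x) * 4 ^ (m n) ≤ _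
    have e7 : cap q (lv m M n v) (baseK (lv m M n v) (r n) x) * 4 ^ (m n) =
        (r n * 2 ^ (m n)) * (r n * 2 ^ (m n)) * (r n * 2 ^ (lv m M n v)) ^ q := by
      rw [e4]
      show r n * r n * (r n * 2 ^ (lv m M n v)) ^ q * _ = _
      ring
    rw [e7]
    have e8 : r n * 2 ^ (m n) ≤ 1 := e2.trans e3
    have e9 : (r n * 2 ^ (lv m M n v)) ^ q ≤ 1 :=
      Real.rpow_le_one (by positivity) e3 hq
    have e10 : (r n * 2 ^ (m n)) * (r n * 2 ^ (m n)) ≤ 1 :=
      mul_le_one₀ e8 (by positivity) e8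
    have e11 : (1 : ℝ) ≤ B.d n ^ (-((2 + q) * |C|)) := by
      have := Real.one_le_rpow_of_pos_of_le_one_of_nonpos (B.pos n) (B.lt n).le
        (z := -((2 + q) * |C|)) (by have := abs_nonneg C; nlinarith)
      exact this
    exact (mul_le_one₀ e10 (by positivity) e9).trans e11

theorem Fam.card_pb (h : Fam B m M r I) : B.PB (fun n => ((I n).card : ℝ)) := by
  obtain ⟨C, hC⟩ := h.poly
  refine Base.PB.of_bounds (C := |C|) ?_ ?_
  · filter_upwards [h.ne] with n hn
    have : (1 : ℝ) ≤ (I n).card := by exact_mod_cast card_pos.2 hn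
    exact (dpow_le_one B n (abs_nonneg C)).trans this
  · filter_upwards [hC] with n hn
    exact hn.1.trans (dpow_le B n (by have := le_abs_self C; linarith))

/-- a dense part of a family is a family. -/
theorem Fam.dense (h : Fam B m M r I) {J : ∀ n : ℕ, Finset (Ln × ℝ)} (hJ : Dense B J I) :
    Fam B m M r J := by
  obtain ⟨C, hC⟩ := h.poly
  refine ⟨h.base, h.rpos, h.rle, ⟨C, ?_⟩, hJ.nonempty h.ne, ?_⟩
  · filter_upwards [hC, hJ.1] with n hn hs
    exact ⟨le_trans (by exact_mod_cast card_le_card hs) hn.1, hn.2⟩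
  · filter_upwards [h.cell, hJ.1] with n hn hs x hx y hy
    exact hn x (hs hx) y (hs hy)

instance : Inhabited Cf := ⟨⟨0, 0, 0, ∅, fun _ => 0, fun _ => ⟨0, 0, 0, 0, 0⟩, 0, 0, 0⟩⟩

/-- **Window inequality.** -/
theorem window_ineq (h : Fam B m M r I) {q : ℝ} (hq : 0 ≤ q) {u v : ℝ} (hu : 0 ≤ u) (huv : u < v)
    (hv : v ≤ 1)
    (hS : StableF B (fun n J => (kP q (m n) (lv m M n v) (r n)
      (B.d n ^ (0 : ℝ) / 2 ^ (lv m M n v)) hq (h.rpos n)).Dmax J) I)
    (hUu : Unif B (fun n => K294.ob (lv m M n u)) I)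
    (hUv : Unif B (fun n => K294.ob (lv m M n v)) I)
    {β : ℝ} (hβ : ∀ x ∈ valSet q, x ≤ β) :
    DD B q hq m M r h.rpos I 0 v - DD B q hq m M r h.rpos I 0 u +
      2 * (ow B m M I u - ow B m M I v) - 2 * (v - u) ≤ β * (v - u) := by
  classical
  have hvu : 0 < v - u := by linarith
  have hIc := h.card_pb
  have hrefl : ∀ᶠ n in (U : Filter ℕ), I n ⊆ I n := Eventually.of_forall fun n => Subset.refl _
  set Pv : ∀ n : ℕ, PSys (Ln × ℝ) := fun n => kP q (m n) (lv m M n v) (r n)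
    (B.d n ^ (0 : ℝ) / 2 ^ (lv m M n v)) hq (h.rpos n) with hPv
  set Pu : ∀ n : ℕ, PSys (Ln × ℝ) := fun n => kP q (m n) (lv m M n u) (r n)
    (B.d n ^ (0 : ℝ) / 2 ^ (lv m M n u)) hq (h.rpos n) with hPu
  have hPvA : PAdm B Pv I := h.padm hq _ hv
  have hPuA : PAdm B Pu I := h.padm hq _ (huv.le.trans hv)
  have hne : ∀ (j : ℕ) (n : ℕ), Nonempty (Pv n).κ := by
    intro j n
    have hle : r n ≤ 1 / 2 ^ (lv m M n v) := (h.rle n).trans
      (one_div_le_one_div_of_le (by positivity) (pow_le_pow_right₀ one_le_two (lv_le hv)))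
    exact ⟨⟨baseK (lv m M n v) (r n) (0, 0), baseK_legal hle _, le_max_right _ _⟩⟩
  obtain ⟨I', hI', cl, hcl⟩ := Ps627.exists_honest hIc (fun _ => Pv) hne (fun _ => hPvA)
    (fun _ => hS) (fun _ => hUv) (fun _ n => K294.ob (lv m M n u)) (fun _ => hUu)
  obtain ⟨hmem, hcl2⟩ := hcl 0
  -- the four sequences
  have pbDv := (monoF_Dmax hPvA).pb hrefl h.ne
  have pbDu := (monoF_Dmax hPuA).pb hrefl h.ne
  have pbu := (monoF_cmax hIc (fun n => K294.ob (lv m M n u))).pb hrefl h.ne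
  have pbv := (monoF_cmax hIc (fun n => K294.ob (lv m M n v))).pb hrefl h.ne
  have hMt := h.M_tendsto
  have hlvlim := h.lv_lim hu huv.le
  have hM'pos : ∀ᶠ n in (U : Filter ℕ), (v - u) / 2 * M n ≤ ((lv m M n v - lv m M n u : ℕ) : ℝ) := by
    have := (Metric.tendsto_nhds.1 hlvlim) ((v - u) / 2) (by linarith)
    filter_upwards [this] with n hn
    rw [Real.dist_eq, abs_lt] at hn
    have hM := h.M_pos n
    have h1 : (v - u) / 2 < ((lv m M n v - lv m M n u : ℕ) : ℝ) / M n := by linarith [hn.1]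
    rw [lt_div_iff₀ hM] at h1
    exact h1.le
  refine le_of_forall_pos_le_add fun ε₀ hε₀ => ?_
  set ε : ℝ := ε₀ / 3 with hε
  have hεp : 0 < ε := by rw [hε]; linarith
  set D1 : ℕ → ℝ := fun n => B.d n ^ ε * (Pv n).Dmax (I n) * 4 ^ (m n) with hD1
  set D0 : ℕ → ℝ := fun n => (Pu n).Dmax (I n) * 4 ^ (m n) with hD0
  set nu : ℕ → ℝ := fun n => B.d n ^ ε * (cmax (K294.ob (lv m M n u)) (I n) : ℝ) /
    (cmax (K294.ob (lv m M n v)) (I n) : ℝ) with hnu
  -- the windows
  have hex : ∀ n, ∃ F : Cf, ((I' n ⊆ I n ∧ (I' n).Nonempty ∧ lv m M n u < lv m M n v ∧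
      0 < (Pv n).Dmax (I n) ∧ (∀ x ∈ I' n, (Pv n).mem (cl 0 n ((Pv n).ob x)) ((Pv n).ob x)) ∧
      (∀ x ∈ I' n, B.d n ^ ε * (Pv n).Dmax (I n) * (Pv n).vol (cl 0 n ((Pv n).ob x)) ≤
            ((((I' n).image (Pv n).ob).filter
              fun o => cl 0 n o = cl 0 n ((Pv n).ob x)).card : ℝ) ∧
          B.d n ^ ε * (cmax (Pv n).ob (I n) : ℝ) ≤
            (((I' n).filter fun y => (Pv n).ob y = (Pv n).ob x).card : ℝ) ∧
          B.d n ^ ε * (cmax (K294.ob (lv m M n u)) (I n) : ℝ) ≤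
            (((I' n).filter fun y => K294.ob (lv m M n u) y = K294.ob (lv m M n u) x).card : ℝ))) →
      F.Ok q ∧ F.m = lv m M n u ∧ F.M = lv m M n v - lv m M n u ∧ F.r = r n ∧
        F.I ⊆ I n ∧ F.D0 = D0 n ∧ F.D1 = D1 n ∧ F.nu = nu n) := by
    intro n
    by_cases hyp : (I' n ⊆ I n ∧ (I' n).Nonempty ∧ lv m M n u < lv m M n v ∧
      0 < (Pv n).Dmax (I n) ∧ (∀ x ∈ I' n, (Pv n).mem (cl 0 n ((Pv n).ob x)) ((Pv n).ob x)) ∧
      (∀ x ∈ I' n, B.d n ^ ε * (Pv n).Dmax (I n) * (Pv n).vol (cl 0 n ((Pv n).ob x)) ≤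
            ((((I' n).image (Pv n).ob).filter
              fun o => cl 0 n o = cl 0 n ((Pv n).ob x)).card : ℝ) ∧
          B.d n ^ ε * (cmax (Pv n).ob (I n) : ℝ) ≤
            (((I' n).filter fun y => (Pv n).ob y = (Pv n).ob x).card : ℝ) ∧
          B.d n ^ ε * (cmax (K294.ob (lv m M n u)) (I n) : ℝ) ≤
            (((I' n).filter fun y => K294.ob (lv m M n u) y = K294.ob (lv m M n u) x).card : ℝ)))
    swap
    · exact ⟨default, fun h' => absurd h' hyp⟩
    obtain ⟨g1, ⟨x0, hx0⟩, g3, g4, g5, g6⟩ := hyp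
    have hIn : (I n).Nonempty := ⟨x0, g1 hx0⟩
    have hcvp : (0 : ℝ) < (cmax (K294.ob (lv m M n v)) (I n) : ℝ) := by
      exact_mod_cast one_le_cmax _ hIn
    have hcup : (0 : ℝ) < (cmax (K294.ob (lv m M n u)) (I n) : ℝ) := by
      exact_mod_cast one_le_cmax _ hIn
    have hd := dpow_pos B n ε
    have hrle : r n ≤ 1 / 2 ^ (lv m M n v) := (h.rle n).trans
      (one_div_le_one_div_of_le (by positivity) (pow_le_pow_right₀ one_le_two (lv_le hv)))
    obtain ⟨F, hF1, hF2, hF3, hF4, hF5, hF6, hF7, hF8⟩ := window_ok (q := q) (m1 := lv m M n u)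
      (m2 := lv m M n v) g3 (h.rpos n) hrle hx0 (fun o => cl 0 n o) (fun K => K.1)
      (D0 := D0 n) (D1 := D1 n) (nu := nu n) (by simp only [hD1]; positivity)
      (by simp only [hnu]; positivity)
      (fun x hx => (cl 0 n (K294.ob (lv m M n v) x)).2.1)
      (fun x hx => g5 x hx)
      (fun x hx => by
        have h1 := (g6 x hx).1
        refine le_trans (le_of_eq ?_) (h1.trans (le_of_eq (congrArg Nat.cast
          (card_inst _ _ (I' n) (K294.ob (lv m M n v)) (fun o => cl 0 n o) _ _ _))))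
        show D1 n * cap q (lv m M n v) (cl 0 n (K294.ob (lv m M n v) x)).1 = _
        simp only [hD1]
        show _ = B.d n ^ ε * (Pv n).Dmax (I n) *
          (cap q (lv m M n v) (cl 0 n (K294.ob (lv m M n v) x)).1 * 4 ^ (m n))
        ring)
      (fun x hx => by
        have h1 := (g6 x hx).2.2
        simp only [hnu]
        rw [div_le_iff₀ hcvp]
        refine h1.trans ?_
        have h2 : ((I' n).filter fun y => K294.ob (lv m M n u) y = K294.ob (lv m M n u) x).card ≤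
            ownc (lv m M n u) (lv m M n v) (I' n) x * cmax (K294.ob (lv m M n v)) (I n) := by
          have h3 := card_le_ncl_mul_cmax (K294.ob (lv m M n v))
            ((I' n).filter fun y => K294.ob (lv m M n u) y = K294.ob (lv m M n u) x)
          refine h3.trans (Nat.mul_le_mul (le_of_eq ?_) (cmax_mono _ ((filter_subset _ _).trans g1)))
          unfold ncl ownc
          congr!
        exact_mod_cast h2)
      (fun K hK => by
        have h1 := (Pu n).objs_card_le_Dmax (I n) ⟨K, hK, by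
          refine le_max_of_le_left ?_
          rw [Real.rpow_zero]
          exact hK.w2⟩
        have h2 : (((K294.objs (lv m M n u) (I' n) K).card : ℕ) : ℝ) ≤
            (((Pu n).objs (I n) ⟨K, hK, by
          refine le_max_of_le_left ?_
          rw [Real.rpow_zero]
          exact hK.w2⟩).card : ℝ) := by
          refine Nat.cast_le.2 (card_le_card fun o ho => ?_)
          unfold K294.objs at ho
          rw [mem_filter, mem_image] at ho
          obtain ⟨⟨y, hy, rfl⟩, h3⟩ := ho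
          exact ((Pu n).mem_objs).2 ⟨⟨y, g1 hy, rfl⟩, h3⟩
        refine h2.trans (h1.trans (le_of_eq ?_))
        show (Pu n).Dmax (I n) * (cap q (lv m M n u) K * 4 ^ (m n)) = _
        simp only [hD0]
        ring)
    refine ⟨F, fun _ => ⟨hF1, hF2, hF3, hF4, ?_, hF6, hF7, hF8⟩⟩
    rw [hF5]
    exact (filter_subset _ _).trans g1
  choose G hG using hex
  have hlt : ∀ᶠ n in (U : Filter ℕ), lv m M n u < lv m M n v := by
    filter_upwards [hM'pos] with n hn
    have hM := h.M_pos n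
    have h1 : (0 : ℝ) < ((lv m M n v - lv m M n u : ℕ) : ℝ) := by
      have := mul_pos (half_pos hvu) hM
      linarith
    have h2 : 0 < lv m M n v - lv m M n u := by exact_mod_cast h1
    omega
  have hI'ne : ∀ᶠ n in (U : Filter ℕ), (I' n).Nonempty := by
    filter_upwards [hI', h.ne] with n h1 h2
    have h3 : (0 : ℝ) < (I n).card := by exact_mod_cast card_pos.2 h2
    have h4 : (0 : ℝ) < (I' n).card := by linarith [h1.2]
    exact card_pos.1 (by exact_mod_cast h4)
  have hGev : ∀ᶠ n in (U : Filter ℕ), (G n).Ok q ∧ (G n).m = lv m M n u ∧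
      (G n).M = lv m M n v - lv m M n u ∧ (G n).r = r n ∧
        (G n).I ⊆ I n ∧ (G n).D0 = D0 n ∧ (G n).D1 = D1 n ∧ (G n).nu = nu n := by
    filter_upwards [hI', hI'ne, hlt, pbDv.pos, hmem, hcl2 ε hεp] with n a1 a2 a3 a4 a5 a6
    refine hG n ⟨a1.1, a2, a3, a4, a5, fun x hx => ⟨(a6 x hx).1, (a6 x hx).2.1,
      (a6 x hx).2.2.trans (le_of_eq ?_)⟩⟩
    congr!
  -- the limit of the values
  set X : ℕ → ℝ := fun n => D1 n * nu n ^ 2 / (4 ^ (lv m M n v - lv m M n u) * D0 n) with hX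
  set Y : ℕ → ℝ := fun n => B.d n ^ ε * (Pv n).Dmax (I n) *
    (B.d n ^ ε * (cmax (K294.ob (lv m M n u)) (I n) : ℝ) /
      (cmax (K294.ob (lv m M n v)) (I n) : ℝ)) ^ 2 / (Pu n).Dmax (I n) with hY
  have pb1 : B.PB (fun n => B.d n ^ ε * (Pv n).Dmax (I n)) := (Base.PB.dpow ε).mul pbDv
  have pb2 : B.PB (fun n => B.d n ^ ε * (cmax (K294.ob (lv m M n u)) (I n) : ℝ) /
      (cmax (K294.ob (lv m M n v)) (I n) : ℝ)) := ((Base.PB.dpow ε).mul pbu).div pbv
  have pbY : B.PB Y := (pb1.mul (pb2.pow 2)).div pbDu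
  have hexY : B.ex Y = DD B q hq m M r h.rpos I 0 v - DD B q hq m M r h.rpos I 0 u +
      2 * (ow B m M I u - ow B m M I v) - 3 * ε := by
    simp only [hY]
    rw [Base.ex_div (pb1.mul (pb2.pow 2)) pbDu, Base.ex_mul pb1 (pb2.pow 2),
      Base.ex_mul (Base.PB.dpow ε) pbDv, Base.ex_pow pb2, Base.ex_div ((Base.PB.dpow ε).mul pbu) pbv,
      Base.ex_mul (Base.PB.dpow ε) pbu, Base.ex_dpow]
    unfold DD ow
    push_cast
    ring
  have hvalG : ∀ᶠ n in (U : Filter ℕ), (G n).val =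
      (B.lg Y n - 2 * (((lv m M n v - lv m M n u : ℕ) : ℝ) / M n)) /
        (((lv m M n v - lv m M n u : ℕ) : ℝ) / M n) := by
    filter_upwards [hGev, hlt, pbY.pos, pbDu.pos] with n a1 a2 a3 a4
    obtain ⟨b1, b2, b3, b4, b5, b6, b7, b8⟩ := a1
    have hM := h.M_pos n
    have hM' : (0 : ℝ) < ((lv m M n v - lv m M n u : ℕ) : ℝ) := by
      have : 0 < lv m M n v - lv m M n u := by omega
      exact_mod_cast this
    have hl2 := Real.log_pos one_lt_two
    unfold Cf.val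
    rw [b3, b6, b7, b8]
    have hXY : D1 n * nu n ^ 2 / (4 ^ (lv m M n v - lv m M n u) * D0 n) =
        Y n / 4 ^ (lv m M n v - lv m M n u) := by
      simp only [hD1, hD0, hnu, hY]
      field_simp
    rw [hXY]
    unfold Real.logb
    rw [Real.log_div a3.ne' (by positivity), Real.log_pow]
    have e4 : Real.log 4 = 2 * Real.log 2 := by
      rw [show (4 : ℝ) = 2 ^ 2 by norm_num, Real.log_pow]; push_cast; ring
    rw [e4]
    unfold Base.lg
    rw [h.L_eq n]
    field_simp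
  have hlim : Tendsto (fun n => (G n).val) U (𝓝 ((DD B q hq m M r h.rpos I 0 v -
      DD B q hq m M r h.rpos I 0 u + 2 * (ow B m M I u - ow B m M I v) - 3 * ε - 2 * (v - u)) /
        (v - u))) := by
    have t1 : Tendsto (B.lg Y) U (𝓝 (DD B q hq m M r h.rpos I 0 v -
      DD B q hq m M r h.rpos I 0 u + 2 * (ow B m M I u - ow B m M I v) - 3 * ε)) := by
      rw [← hexY]; exact pbY.tendsto
    refine ((t1.sub (hlvlim.const_mul 2)).div hlvlim hvu.ne').congr' ?_
    filter_upwards [hvalG] with n hn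
    rw [hn]
    rfl
  have hAdm : AdmS q G := by
    refine ⟨hGev.mono fun n hn => hn.1, ?_, ?_⟩
    · refine tendsto_atTop_mono' U (f₁ := fun n => (v - u) / 2 * (M n : ℝ)) ?_
        (hMt.const_mul_atTop (half_pos hvu))
      filter_upwards [hGev, hM'pos] with n a b
      rw [a.2.2.1]
      exact b
    · obtain ⟨C, hC⟩ := h.poly
      refine ⟨2 * |C| / (v - u), ?_⟩
      filter_upwards [hGev, hM'pos, hC] with n a b c
      obtain ⟨b1, b2, b3, b4, b5, b6, b7, b8⟩ := a
      have hdn : B.d n = (2 : ℝ) ^ (-(M n : ℝ)) := by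
        rw [h.base n, Real.rpow_neg (by norm_num), Real.rpow_natCast, one_div, inv_pow]
      have hexp : |C| * M n ≤ 2 * |C| / (v - u) * (G n).M := by
        rw [b3]
        have h1 : |C| * M n = 2 * |C| / (v - u) * ((v - u) / 2 * M n) := by
          field_simp
        rw [h1]
        exact mul_le_mul_of_nonneg_left b (by positivity)
      constructor
      · have h1 : ((G n).I.card : ℝ) ≤ (I n).card := by exact_mod_cast card_le_card b5
        refine h1.trans (c.1.trans ((dpow_le B n (by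
          have := le_abs_self C
          linarith : -|C| ≤ -C)).trans ?_))
        rw [hdn, ← Real.rpow_mul (by norm_num)]
        refine Real.rpow_le_rpow_of_exponent_le (by norm_num) ?_
        have : -(M n : ℝ) * -|C| = |C| * M n := by ring
        rw [this]
        exact hexp
      · rw [b4, b2]
        have h1 : r n * 2 ^ (m n) ≤ r n * 2 ^ (lv m M n u) :=
          mul_le_mul_of_nonneg_left (pow_le_pow_right₀ one_le_two le_lv) (h.rpos n).le
        refine le_trans ?_ ((dpow_le B n (le_abs_self C)).trans (c.2.trans h1))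
        rw [hdn, ← Real.rpow_mul (by norm_num)]
        refine Real.rpow_le_rpow_of_exponent_le (by norm_num) ?_
        have : -(M n : ℝ) * |C| = -(|C| * M n) := by ring
        rw [this]
        linarith
  have hle := hβ _ ⟨G, hAdm, hlim⟩
  rw [div_le_iff₀ hvu] at hle
  have : 3 * ε = ε₀ := by rw [hε]; ring
  linarith

end

end Crest.Agent.R138.Ps926
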