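import Mathlib
import Crest.Agent.R138.Ps3_926

/-!
# R138, Kakeya side, calculus of the extremiser, part 3b (helper926)

* `window_ok_lab` : window operation with an additional label of lines (constant on classes);
* `window_of_classes` : honest classes at level `v` of a family give configurations of the window
  `[u, v]` whose values tend to `ex (D1 nu² / D0) / (v - u) - 2`;
* `Bd`, `le_of_Bd` : bounds for all configurations.
-/

set_option autoImplicit false
set_option linter.unusedVariables false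

open Filter Topology Finset

namespace Crest.Agent.R138.Ps926

open Crest.Agent.R138.Ex926 Crest.Agent.R138.Dp76 Crest.Agent.R138.Flag51
open Crest.Agent.R138.K294

open Classical in
/-- **window with a label of lines**: a finite family with honest classes at level `m2`, restricted
to one cell of level `m1` and to one label, is a valid configuration. -/
theorem window_ok_lab {q : ℝ} {m1 m2 : ℕ} (h12 : m1 < m2) {r : ℝ} (hr : 0 < r)
    (hrle : r ≤ 1 / 2 ^ m2)
    {A : Finset (Ln × ℝ)} {x0 : Ln × ℝ} (hx0 : x0 ∈ A) {κ : Type*} (c : Ln × ℤ → κ) (Kc : κ → Plk)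
    {γ : Type*} (g : Ln → γ)
    {D0 D1 nu : ℝ} (hD1 : 0 < D1) (hnu : 0 < nu)
    (hleg : ∀ x ∈ A, Legal m2 r (Kc (c (K294.ob m2 x))))
    (hmem : ∀ x ∈ A, InK m2 (Kc (c (K294.ob m2 x))) (K294.ob m2 x))
    (hlab : ∀ x ∈ A, ∀ y ∈ A, c (K294.ob m2 y) = c (K294.ob m2 x) → g y.1 = g x.1)
    (hlow : ∀ x ∈ A, D1 * cap q m2 (Kc (c (K294.ob m2 x))) ≤
      ((((A.image (K294.ob m2)).filter fun o => c o = c (K294.ob m2 x)).card : ℕ) : ℝ))
    (hown : ∀ x ∈ A, nu ≤ (ownc m1 m2 A x : ℝ))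
    (hup : ∀ K, Legal m1 r K → ((K294.objs m1 A K).card : ℝ) ≤ D0 * cap q m1 K) :
    ∃ F : Cf, F.Ok q ∧ F.m = m1 ∧ F.M = m2 - m1 ∧ F.r = r ∧
      F.I = A.filter (fun x => zc m1 x.2 = zc m1 x0.2 ∧ g x.1 = g x0.1) ∧
      F.D0 = D0 ∧ F.D1 = D1 ∧ F.nu = nu := by
  obtain ⟨cl, K, hK, hcl⟩ := encode_cls (A.image (K294.ob m2)) c Kc
  set A' := A.filter (fun x => zc m1 x.2 = zc m1 x0.2 ∧ g x.1 = g x0.1) with hA'
  set F : Cf := ⟨m1, m2 - m1, r, A', cl, K, D0, D1, nu⟩ with hF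
  have htop : F.top = m2 := by simp [Cf.top, hF]; omega
  have hsub : A' ⊆ A := filter_subset _ _
  have hobm : ∀ x ∈ A, K294.ob m2 x ∈ A.image (K294.ob m2) := fun x hx => mem_image_of_mem _ hx
  refine ⟨F, ?_, rfl, rfl, rfl, rfl, rfl, rfl, rfl⟩
  refine ⟨?_, hr, ?_, ⟨x0, ?_⟩, ?_, hD1, hnu, ?_, ?_, ?_, ?_, ?_⟩
  · show 1 ≤ m2 - m1
    omega
  · rw [htop]; exact hrle
  · exact mem_filter.2 ⟨hx0, rfl, rfl⟩
  · intro x hx y hy
    exact (mem_filter.1 hx).2.1.trans (mem_filter.1 hy).2.1.symm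
  · intro x hx
    rw [htop]
    show Legal m2 r (K (cl (K294.ob m2 x)))
    rw [hK _ (hobm x (hsub hx))]
    exact hleg x (hsub hx)
  · intro x hx
    rw [htop]
    show InK m2 (K (cl (K294.ob m2 x))) _
    rw [hK _ (hobm x (hsub hx))]
    exact hmem x (hsub hx)
  · intro x hx
    unfold Cf.cls
    rw [htop]
    show D1 * cap q m2 (K (cl (K294.ob m2 x))) ≤
      ((((A'.image (K294.ob m2)).filter fun o => cl o = cl (K294.ob m2 x)).card : ℕ) : ℝ)
    rw [hK _ (hobm x (hsub hx))]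
    refine (hlow x (hsub hx)).trans ?_
    refine Nat.cast_le.2 (card_le_card fun o ho => ?_)
    rw [mem_filter, mem_image] at ho
    obtain ⟨⟨y, hy, rfl⟩, hc⟩ := ho
    rw [mem_filter]
    refine ⟨mem_image_of_mem _ (mem_filter.2 ⟨hy, ?_, ?_⟩),
      (hcl _ (hobm y hy) _ (hobm x (hsub hx))).2 hc⟩
    · have h1 := (hmem y hy).1
      have h2 := (hmem x (hsub hx)).1
      rw [hc] at h1
      have h3 : zc m2 y.2 = zc m2 x.2 := h1.trans h2.symm
      exact (zc_nested h12.le h3).trans (mem_filter.1 hx).2.1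
    · exact (hlab x (hsub hx) y hy hc).trans (mem_filter.1 hx).2.2
  · intro x hx
    rw [htop]
    show nu ≤ (ownc m1 m2 A' x : ℝ)
    have : ownc m1 m2 A' x = ownc m1 m2 A x := by
      unfold ownc
      congr 2
      ext y
      rw [mem_filter, mem_filter, mem_filter]
      constructor
      · rintro ⟨⟨a, b⟩, d⟩; exact ⟨a, d⟩
      · rintro ⟨a, d⟩
        refine ⟨⟨a, ?_, ?_⟩, d⟩
        · have : zc m1 y.2 = zc m1 x.2 := congrArg Prod.snd d
          exact this.trans (mem_filter.1 hx).2.1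
        · have d' : ((y.1, zc m1 y.2) : Ln × ℤ) = (x.1, zc m1 x.2) := d
          rw [Prod.mk.injEq] at d'
          rw [d'.1]
          exact (mem_filter.1 hx).2.2
    rw [this]
    exact hown x (hsub hx)
  · intro K' hK'
    refine le_trans ?_ (hup K' hK')
    show (((K294.objs m1 A' K').card : ℕ) : ℝ) ≤ _
    refine Nat.cast_le.2 (card_le_card ?_)
    unfold K294.objs
    exact filter_subset_filter _ (image_subset_image hsub)

section

variable {B : Base} {m M : ℕ → ℕ} {r : ℕ → ℝ} {I : ∀ n : ℕ, Finset (Ln × ℝ)}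

theorem Fam.d_eq (h : Fam B m M r I) (n : ℕ) : B.d n = (2 : ℝ) ^ (-(M n : ℝ)) := by
  rw [h.base n, Real.rpow_neg (by norm_num), Real.rpow_natCast, one_div, inv_pow]

theorem Fam.window_pos (h : Fam B m M r I) {u v : ℝ} (hu : 0 ≤ u) (huv : u < v) :
    ∀ᶠ n in (U : Filter ℕ), (v - u) / 2 * M n ≤ ((lv m M n v - lv m M n u : ℕ) : ℝ) ∧
      lv m M n u < lv m M n v := by
  have := (Metric.tendsto_nhds.1 (h.lv_lim hu huv.le)) ((v - u) / 2) (by linarith)
  filter_upwards [this] with n hn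
  rw [Real.dist_eq, abs_lt] at hn
  have hM := h.M_pos n
  have h1 : (v - u) / 2 < ((lv m M n v - lv m M n u : ℕ) : ℝ) / M n := by linarith [hn.1]
  rw [lt_div_iff₀ hM] at h1
  refine ⟨h1.le, ?_⟩
  have h2 : (0 : ℝ) < ((lv m M n v - lv m M n u : ℕ) : ℝ) := by
    have : 0 < (v - u) / 2 * M n := mul_pos (by linarith) hM
    linarith
  have h3 : 0 < lv m M n v - lv m M n u := by exact_mod_cast h2
  omega

open Classical in
/-- **Windows from honest classes.** -/
theorem window_of_classes (h : Fam B m M r I) {q : ℝ} {u v : ℝ} (hu : 0 ≤ u) (huv : u < v)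
    (hv : v ≤ 1) {I' : ∀ n : ℕ, Finset (Ln × ℝ)} {κ : ℕ → Type*} (c : ∀ n, Ln × ℤ → κ n)
    (Kc : ∀ n, κ n → Plk) {γ : ℕ → Type*} (g : ∀ n, Ln → γ n) {D0 D1 nu : ℕ → ℝ}
    (hev : ∀ᶠ n in (U : Filter ℕ), I' n ⊆ I n ∧ (I' n).Nonempty ∧ 0 < D0 n ∧ 0 < D1 n ∧ 0 < nu n ∧
      (∀ x ∈ I' n, Legal (lv m M n v) (r n) (Kc n (c n (K294.ob (lv m M n v) x)))) ∧
      (∀ x ∈ I' n, InK (lv m M n v) (Kc n (c n (K294.ob (lv m M n v) x)))
        (K294.ob (lv m M n v) x)) ∧
      (∀ x ∈ I' n, ∀ y ∈ I' n, c n (K294.ob (lv m M n v) y) = c n (K294.ob (lv m M n v) x) →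
        g n y.1 = g n x.1) ∧
      (∀ x ∈ I' n, D1 n * cap q (lv m M n v) (Kc n (c n (K294.ob (lv m M n v) x))) ≤
        (((((I' n).image (K294.ob (lv m M n v))).filter
          fun o => c n o = c n (K294.ob (lv m M n v) x)).card : ℕ) : ℝ)) ∧
      (∀ x ∈ I' n, nu n ≤ (ownc (lv m M n u) (lv m M n v) (I' n) x : ℝ)) ∧
      (∀ K, Legal (lv m M n u) (r n) K →
        ((K294.objs (lv m M n u) (I' n) K).card : ℝ) ≤ D0 n * cap q (lv m M n u) K))
    (hY : B.PB (fun n => D1 n * nu n ^ 2 / D0 n)) :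
    ∃ G : ℕ → Cf, (∀ᶠ n in (U : Filter ℕ), (G n).Ok q ∧ (G n).m = lv m M n u ∧
        (G n).M = lv m M n v - lv m M n u ∧ (G n).r = r n ∧ (G n).I ⊆ I' n ∧
        (∀ x ∈ (G n).I, ∀ y ∈ (G n).I, g n x.1 = g n y.1)) ∧ AdmS q G ∧
      Tendsto (fun n => (G n).val) U
        (𝓝 (B.ex (fun n => D1 n * nu n ^ 2 / D0 n) / (v - u) - 2)) := by
  classical
  have hvu : 0 < v - u := by linarith
  have hMt := h.M_tendsto
  have hlvlim := h.lv_lim hu huv.le
  have hwin := h.window_pos hu huv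
  -- the configurations
  have hex : ∀ᶠ n in (U : Filter ℕ), ∃ F : Cf, F.Ok q ∧ F.m = lv m M n u ∧
      F.M = lv m M n v - lv m M n u ∧ F.r = r n ∧ F.I ⊆ I' n ∧
      (∀ x ∈ F.I, ∀ y ∈ F.I, g n x.1 = g n y.1) ∧ F.I ⊆ I n ∧
      F.D0 = D0 n ∧ F.D1 = D1 n ∧ F.nu = nu n := by
    filter_upwards [hev, hwin] with n hn hw
    obtain ⟨a1, ⟨x0, hx0⟩, a0, a3, a4, a5, a6, a7, a8, a9, a10⟩ := hn
    have hrle : r n ≤ 1 / 2 ^ (lv m M n v) := (h.rle n).trans
      (one_div_le_one_div_of_le (by positivity) (pow_le_pow_right₀ one_le_two (lv_le hv)))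
    obtain ⟨F, b1, b2, b3, b4, b5, b6, b7, b8⟩ := window_ok_lab hw.2 (h.rpos n) hrle hx0
      (c n) (Kc n) (g n) a3 a4 a5 a6 a7 (fun x hx => (a8 x hx).trans (le_of_eq (by congr!)))
      a9 a10
    refine ⟨F, b1, b2, b3, b4, ?_, ?_, ?_, b6, b7, b8⟩
    · rw [b5]; exact filter_subset _ _
    · intro x hx y hy
      rw [b5] at hx hy
      exact (mem_filter.1 hx).2.2.trans (mem_filter.1 hy).2.2.symm
    · rw [b5]; exact (filter_subset _ _).trans a1
  have hch : ∀ n, ∃ F : Cf, (∃ F : Cf, F.Ok q ∧ F.m = lv m M n u ∧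
      F.M = lv m M n v - lv m M n u ∧ F.r = r n ∧ F.I ⊆ I' n ∧
      (∀ x ∈ F.I, ∀ y ∈ F.I, g n x.1 = g n y.1) ∧ F.I ⊆ I n ∧
      F.D0 = D0 n ∧ F.D1 = D1 n ∧ F.nu = nu n) → (F.Ok q ∧ F.m = lv m M n u ∧
      F.M = lv m M n v - lv m M n u ∧ F.r = r n ∧ F.I ⊆ I' n ∧
      (∀ x ∈ F.I, ∀ y ∈ F.I, g n x.1 = g n y.1) ∧ F.I ⊆ I n ∧
      F.D0 = D0 n ∧ F.D1 = D1 n ∧ F.nu = nu n) := by
    intro n
    by_cases hF : (∃ F : Cf, F.Ok q ∧ F.m = lv m M n u ∧
      F.M = lv m M n v - lv m M n u ∧ F.r = r n ∧ F.I ⊆ I' n ∧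
      (∀ x ∈ F.I, ∀ y ∈ F.I, g n x.1 = g n y.1) ∧ F.I ⊆ I n ∧
      F.D0 = D0 n ∧ F.D1 = D1 n ∧ F.nu = nu n)
    · obtain ⟨F, hF'⟩ := hF
      exact ⟨F, fun _ => hF'⟩
    · exact ⟨default, fun h' => absurd h' hF⟩
  choose G hG using hch
  have hGev : ∀ᶠ n in (U : Filter ℕ), (G n).Ok q ∧ (G n).m = lv m M n u ∧
      (G n).M = lv m M n v - lv m M n u ∧ (G n).r = r n ∧ (G n).I ⊆ I' n ∧
      (∀ x ∈ (G n).I, ∀ y ∈ (G n).I, g n x.1 = g n y.1) ∧ (G n).I ⊆ I n ∧
      (G n).D0 = D0 n ∧ (G n).D1 = D1 n ∧ (G n).nu = nu n := by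
    filter_upwards [hex] with n hn using hG n hn
  refine ⟨G, ?_, ?_, ?_⟩
  · filter_upwards [hGev] with n hn
    exact ⟨hn.1, hn.2.1, hn.2.2.1, hn.2.2.2.1, hn.2.2.2.2.1, hn.2.2.2.2.2.1⟩
  · refine ⟨hGev.mono fun n hn => hn.1, ?_, ?_⟩
    · refine tendsto_atTop_mono' U (f₁ := fun n => (v - u) / 2 * (M n : ℝ)) ?_
        (hMt.const_mul_atTop (half_pos hvu))
      filter_upwards [hGev, hwin] with n a b
      rw [a.2.2.1]
      exact b.1
    · obtain ⟨C, hC⟩ := h.poly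
      refine ⟨2 * |C| / (v - u), ?_⟩
      filter_upwards [hGev, hwin, hC] with n a b c'
      obtain ⟨b1, b2, b3, b4, -, -, b5, b6, b7, b8⟩ := a
      have hdn := h.d_eq n
      have hexp : |C| * M n ≤ 2 * |C| / (v - u) * (G n).M := by
        rw [b3]
        have h1 : |C| * M n = 2 * |C| / (v - u) * ((v - u) / 2 * M n) := by
          field_simp
        rw [h1]
        exact mul_le_mul_of_nonneg_left b.1 (by positivity)
      constructor
      · have h1 : ((G n).I.card : ℝ) ≤ (I n).card := by exact_mod_cast card_le_card b5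
        refine h1.trans (c'.1.trans ((dpow_le B n (by
          have := le_abs_self C
          linarith : -|C| ≤ -C)).trans ?_))
        rw [hdn, ← Real.rpow_mul (by norm_num)]
        refine Real.rpow_le_rpow_of_exponent_le (by norm_num) ?_
        have : -(M n : ℝ) * -|C| = |C| * M n := by ring
        rw [this]
        exact hexp
      · rw [b4, b2]
        have h1 : r n * 2 ^ (m n) ≤ r n * 2 ^ (lv m M n u) :=
          mul_le_mul_of_nonneg_left (pow_le_pow_right₀ one_le_two le_lv) (h.rpos n).le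
        refine le_trans ?_ ((dpow_le B n (le_abs_self C)).trans (c'.2.trans h1))
        rw [hdn, ← Real.rpow_mul (by norm_num)]
        refine Real.rpow_le_rpow_of_exponent_le (by norm_num) ?_
        have : -(M n : ℝ) * |C| = -(|C| * M n) := by ring
        rw [this]
        linarith
  · have hvalG : ∀ᶠ n in (U : Filter ℕ), (G n).val =
        B.lg (fun n => D1 n * nu n ^ 2 / D0 n) n /
          (((lv m M n v - lv m M n u : ℕ) : ℝ) / M n) - 2 := by
      filter_upwards [hGev, hwin, hY.pos, hev] with n a1 a2 a3 a4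
      obtain ⟨b1, b2, b3, b4, -, -, b5, b6, b7, b8⟩ := a1
      have hM := h.M_pos n
      have hM' : (0 : ℝ) < ((lv m M n v - lv m M n u : ℕ) : ℝ) := by
        have : 0 < lv m M n v - lv m M n u := by have := a2.2; omega
        exact_mod_cast this
      have hl2 := Real.log_pos one_lt_two
      have hD0 := a4.2.2.1
      unfold Cf.val
      rw [b3, b6, b7, b8]
      have hXY : D1 n * nu n ^ 2 / (4 ^ (lv m M n v - lv m M n u) * D0 n) =
          (D1 n * nu n ^ 2 / D0 n) / 4 ^ (lv m M n v - lv m M n u) := by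
        field_simp
      rw [hXY]
      unfold Real.logb
      rw [Real.log_div a3.ne' (by positivity), Real.log_pow]
      have e4 : Real.log 4 = 2 * Real.log 2 := by
        rw [show (4 : ℝ) = 2 ^ 2 by norm_num, Real.log_pow]; push_cast; ring
      rw [e4]
      unfold Base.lg
      rw [h.L_eq n]
      field_simp
    refine (((hY.tendsto).div hlvlim hvu.ne').sub_const 2).congr' ?_
    filter_upwards [hvalG] with n hn
    rw [hn]
    rfl

/-! ## Bounds for all configurations -/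

/-- `b` bounds the values of all large configurations with relative resolution exponent `R` and
size exponent `C` -/
def Bd (p b R C : ℝ) : Prop :=
  ∀ η : ℝ, 0 < η → ∃ M0 : ℕ, ∀ F : Cf, F.Ok p → M0 ≤ F.M →
    (2 : ℝ) ^ (-((F.m : ℝ) + R * F.M)) ≤ F.r → (F.I.card : ℝ) ≤ (2 : ℝ) ^ (C * F.M) →
    F.val ≤ b + η

theorem Bd.mono {p b R C R' C' : ℝ} (h : Bd p b R C) (hR : R' ≤ R) (hC : C' ≤ C) :
    Bd p b R' C' := by
  intro η hη
  obtain ⟨M0, h0⟩ := h η hη
  refine ⟨M0, fun F hF hM hr hI => h0 F hF hM (le_trans ?_ hr) (hI.trans ?_)⟩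
  · refine Real.rpow_le_rpow_of_exponent_le (by norm_num) ?_
    have : R' * F.M ≤ R * F.M := mul_le_mul_of_nonneg_right hR (Nat.cast_nonneg _)
    linarith
  · exact Real.rpow_le_rpow_of_exponent_le (by norm_num)
      (mul_le_mul_of_nonneg_right hC (Nat.cast_nonneg _))

/-- every limiting value is bounded by `b`. -/
theorem le_of_Bd {p b : ℝ} (h : ∀ R C : ℝ, Bd p b R C) : ∀ x ∈ valSet p, x ≤ b := by
  rintro x ⟨F, ⟨hOk, hM, C, hC⟩, hx⟩
  refine le_of_forall_pos_le_add fun η hη => ?_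
  obtain ⟨M0, h0⟩ := h C C η hη
  refine le_of_tendsto hx ?_
  filter_upwards [hOk, hM.eventually_ge_atTop (M0 : ℝ), hC] with n a b c
  refine h0 _ a (by exact_mod_cast b) ?_ c.1
  have h1 := c.2
  have h2 : (0 : ℝ) < 2 ^ (F n).m := by positivity
  have h3 : (2 : ℝ) ^ (-(((F n).m : ℝ) + C * (F n).M)) =
      (2 : ℝ) ^ (-(C * (F n).M)) / 2 ^ (F n).m := by
    rw [neg_add, Real.rpow_add (by norm_num), Real.rpow_neg (by norm_num) ((F n).m : ℝ),
      Real.rpow_natCast]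
    field_simp
  rw [h3, div_le_iff₀ h2]
  exact h1

end

end Crest.Agent.R138.Ps926
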