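import Mathlib
import Crest.Agent.R138.Ps3b_926

/-!
# R138, Kakeya side: bundle lemma, part 1 (helper926)

Finite statements for the replacement of all lines of one `r`-tube by one line.
`tb` = tube label of a line over the coarse cell, `φ x = (ρ (tb x.1), centre of the deep cell)`.
-/

set_option autoImplicit false
set_option linter.unusedVariables false

open Filter Topology Finset

namespace Crest.Agent.R138.Bun926

open Crest.Agent.R138.Flag51 Crest.Agent.R138.K294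
open Crest.Agent.R138.Ps926 (e0 dt_e0)

/-! ## Geometry -/

theorem zc_zm (m : ℕ) (j : ℤ) : zc m (zm m j) = j := by
  unfold zc zm
  have : (2 : ℝ) ^ m * (((j : ℝ) + 1 / 2) / 2 ^ m) = j + 1 / 2 := by field_simp
  rw [this, Int.floor_eq_iff]
  constructor <;> linarith

theorem zc_zm_of {m m' : ℕ} (h : m ≤ m') (z : ℝ) : zc m (zm m' (zc m' z)) = zc m z :=
  zc_nested h (zc_zm m' _)

theorem zm_inj {m : ℕ} {j j' : ℤ} (h : zm m j = zm m j') : j = j' := by
  rw [← zc_zm m j, ← zc_zm m j', h]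

/-- tube label of a line over the cell `(zm m J0, zr m)` -/
noncomputable def tb (m : ℕ) (J0 : ℤ) (r : ℝ) (l : Ln) : Fin 4 → ℤ :=
  gcell e0 r r (zm m J0) (zr m) l

theorem coord_of_tb {m : ℕ} {J0 : ℤ} {r : ℝ} (hr : 0 < r) {a b : Ln}
    (h : tb m J0 r a = tb m J0 r b) {z : ℝ} (hz : |z - zm m J0| ≤ zr m) :
    |(pos a z - pos b z) 0| ≤ r ∧ |(pos a z - pos b z) 1| ≤ r := by
  have h1 := inPlank_of_gcell hr hr (zr_pos m) h z hz
  simpa [dt, cr, e0] using h1

theorem dt_le {x e : E2} (he : dt e e = 1) {r : ℝ} (h0 : |x 0| ≤ r) (h1 : |x 1| ≤ r) :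
    |dt x e| ≤ 2 * r ∧ |cr e x| ≤ 2 * r := by
  have hr : 0 ≤ r := (abs_nonneg _).trans h0
  have e0 : |e 0| ≤ 1 := by
    simp only [dt] at he
    rw [abs_le]; constructor <;> nlinarith [sq_nonneg (e 0), sq_nonneg (e 1)]
  have e1 : |e 1| ≤ 1 := by
    simp only [dt] at he
    rw [abs_le]; constructor <;> nlinarith [sq_nonneg (e 0), sq_nonneg (e 1)]
  have a00 : |x 0 * e 0| ≤ r := by
    rw [abs_mul]
    calc |x 0| * |e 0| ≤ r * 1 := mul_le_mul h0 e0 (abs_nonneg _) hr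
      _ = r := mul_one r
  have a11 : |x 1 * e 1| ≤ r := by
    rw [abs_mul]
    calc |x 1| * |e 1| ≤ r * 1 := mul_le_mul h1 e1 (abs_nonneg _) hr
      _ = r := mul_one r
  have a01 : |e 0 * x 1| ≤ r := by
    rw [abs_mul]
    calc |e 0| * |x 1| ≤ 1 * r := mul_le_mul e0 h1 (abs_nonneg _) zero_le_one
      _ = r := one_mul r
  have a10 : |e 1 * x 0| ≤ r := by
    rw [abs_mul]
    calc |e 1| * |x 0| ≤ 1 * r := mul_le_mul e1 h0 (abs_nonneg _) zero_le_one
      _ = r := one_mul r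
  constructor
  · simp only [dt]
    exact (abs_add_le _ _).trans (by linarith)
  · simp only [cr]
    exact (abs_sub _ _).trans (by linarith)

/-- a line in the tube of a line of the plank lies in the tripled plank. -/
theorem shift_plank {m : ℕ} {J0 : ℤ} {r : ℝ} (hr : 0 < r) {a b l : Ln}
    (h : tb m J0 r b = tb m J0 r a) {e : E2} (he : dt e e = 1) {w1 w2 z0 ρ : ℝ} (hw1 : r ≤ w1)
    (hw2 : w1 ≤ w2) (hcell : ∀ z, |z - z0| ≤ ρ → |z - zm m J0| ≤ zr m)
    (ha : InPlank a l e w1 w2 z0 ρ) :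
    InPlank b l e ((3 : ℕ) * w1) ((3 : ℕ) * w2) z0 ρ := by
  intro z hz
  obtain ⟨c0, c1⟩ := coord_of_tb hr h (hcell z hz)
  obtain ⟨d1, d2⟩ := dt_le he c0 c1
  obtain ⟨a1, a2⟩ := ha z hz
  have hs : pos b z - pos l z = (pos b z - pos a z) + (pos a z - pos l z) := by abel
  have e1 : dt (pos b z - pos l z) e = dt (pos b z - pos a z) e + dt (pos a z - pos l z) e := by
    rw [hs]; simp only [dt, PiLp.add_apply]; ring
  have e2 : cr e (pos b z - pos l z) = cr e (pos b z - pos a z) + cr e (pos a z - pos l z) := by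
    rw [hs]; simp only [cr, PiLp.add_apply]; ring
  rw [e1, e2]
  push_cast
  constructor
  · exact (abs_add_le _ _).trans (by linarith)
  · exact (abs_add_le _ _).trans (by linarith)

/-! ## Counting -/

theorem card_le_fib {α β : Type*} [DecidableEq β] (S : Finset α) (f : α → β) (T : Finset β)
    (hST : ∀ x ∈ S, f x ∈ T) {a : ℝ} (h : ∀ t ∈ T, ((S.filter fun x => f x = t).card : ℝ) ≤ a) :
    (S.card : ℝ) ≤ T.card * a := by
  have h1 : S.card = ∑ t ∈ T, (S.filter fun x => f x = t).card :=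
    card_eq_sum_card_fiberwise fun x hx => hST x hx
  rw [h1]
  push_cast
  have := sum_le_card_nsmul T _ a h
  rwa [nsmul_eq_mul] at this

theorem fib_le_card {α β : Type*} [DecidableEq β] (S : Finset α) (f : α → β) (T : Finset β)
    {a : ℝ} (h : ∀ t ∈ T, a ≤ ((S.filter fun x => f x = t).card : ℝ)) :
    (T.card : ℝ) * a ≤ S.card := by
  classical
  have h1 := card_nsmul_le_sum T _ a h
  rw [nsmul_eq_mul] at h1
  refine h1.trans ?_
  have h5 : ∑ t ∈ T, (S.filter fun x => f x = t).card ≤ S.card := by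
    rw [← card_biUnion]
    · exact card_le_card (biUnion_subset.2 fun l _ => filter_subset _ _)
    · intro l _ l' _ hne
      rw [Function.onFun, disjoint_left]
      intro t ht ht'
      exact hne ((mem_filter.1 ht).2.symm.trans (mem_filter.1 ht').2)
  exact_mod_cast h5

section count

variable {J : Finset (Ln × ℝ)} {m : ℕ} {J0 : ℤ} {r : ℝ} {ρ : (Fin 4 → ℤ) → Ln}

open Classical in
/-- the representative of the tube, at the centre of the deep cell -/
noncomputable def phi (m top : ℕ) (J0 : ℤ) (r : ℝ) (ρ : (Fin 4 → ℤ) → Ln) (x : Ln × ℝ) : Ln × ℝ :=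
  (ρ (tb m J0 r x.1), zm top (zc top x.2))

theorem phi_eq_iff {top : ℕ} {x y : Ln × ℝ} (hx : tb m J0 r (ρ (tb m J0 r x.1)) = tb m J0 r x.1)
    (hy : tb m J0 r (ρ (tb m J0 r y.1)) = tb m J0 r y.1) :
    phi m top J0 r ρ x = phi m top J0 r ρ y ↔
      tb m J0 r x.1 = tb m J0 r y.1 ∧ zc top x.2 = zc top y.2 := by
  unfold phi
  rw [Prod.mk.injEq]
  constructor
  · rintro ⟨h1, h2⟩
    exact ⟨by rw [← hx, h1, hy], zm_inj h2⟩
  · rintro ⟨h1, h2⟩
    exact ⟨by rw [h1], by rw [h2]⟩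

open Classical in
theorem exists_rep (m : ℕ) (J0 : ℤ) (r : ℝ) (J : Finset (Ln × ℝ)) :
    ∃ ρ : (Fin 4 → ℤ) → Ln, ∀ x ∈ J, tb m J0 r (ρ (tb m J0 r x.1)) = tb m J0 r x.1 := by
  refine ⟨fun t => if h : ∃ x ∈ J, tb m J0 r x.1 = t then (Classical.choose h).1 else 0,
    fun x hx => ?_⟩
  have h : ∃ y ∈ J, tb m J0 r y.1 = tb m J0 r x.1 := ⟨x, hx, rfl⟩
  simp only [dif_pos h]
  exact (Classical.choose_spec h).2

open Classical in
/-- the lines of `J` in the tripled plank. -/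
theorem triple_count {q D : ℝ} (hr : 0 < r) (hJ0 : ∀ x ∈ J, zc m x.2 = J0)
    (hup : ∀ K, Legal m r K → ((K294.objs m J K).card : ℝ) ≤ D * cap q m K)
    {K : Plk} (hK : Legal m r K) :
    (((J.image Prod.fst).filter fun t =>
      InPlank t K.l K.e ((3 : ℕ) * K.w1) ((3 : ℕ) * K.w2) (zm m J0) (zr m)).card : ℝ) ≤
        2401 * (D * cap q m K) := by
  have hw1 : 0 < K.w1 := hr.trans_le hK.r1
  have hw2 : 0 < K.w2 := hw1.trans_le hK.w12
  have hcapK : 0 ≤ D * cap q m K := le_trans (Nat.cast_nonneg _) (hup K hK)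
  have h1 := cover ((J.image Prod.fst).filter fun t =>
      InPlank t K.l K.e ((3 : ℕ) * K.w1) ((3 : ℕ) * K.w2) (zm m J0) (zr m)) (fun t => t) hw1 hw2
    (zr_pos m) (n := 3) (l := K.l) (e := K.e)
    (z0 := zm m J0) (fun t ht => (mem_filter.1 ht).2) hcapK (fun t0 ht0 => by
      have hleg : Legal m r ⟨J0, t0, K.e, K.w1, K.w2⟩ := ⟨hK.unit, hK.r1, hK.w12, hK.w2⟩
      have h2 := hup _ hleg
      have h3 : cap q m ⟨J0, t0, K.e, K.w1, K.w2⟩ = cap q m K := rfl
      rw [h3] at h2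
      refine le_trans (Nat.cast_le.2 ?_) h2
      refine card_le_card_of_injOn (fun t => (t, J0)) (fun t ht => ?_) (fun t _ t' _ h => ?_)
      · rw [mem_coe, mem_filter, mem_filter, mem_image] at ht
        obtain ⟨⟨⟨x, hx, rfl⟩, -⟩, hp⟩ := ht
        unfold K294.objs
        rw [mem_coe, mem_filter, mem_image]
        exact ⟨⟨x, hx, by unfold K294.ob; rw [hJ0 x hx]⟩, rfl, hp⟩
      · exact congrArg Prod.fst h)
  refine h1.trans (le_of_eq ?_)
  norm_num

open Classical in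
/-- **(a)** densities of the coarse level after bundling. -/
theorem level0_count {q D a b : ℝ} (hr : 0 < r) (hJ0 : ∀ x ∈ J, zc m x.2 = J0)
    (hρ : ∀ x ∈ J, tb m J0 r (ρ (tb m J0 r x.1)) = tb m J0 r x.1) (ha : 0 < a) (hb : 0 < b)
    (hline : ∀ x ∈ J, ((J.filter fun y => y.1 = x.1).card : ℝ) ≤ a)
    (htube : ∀ x ∈ J, b ≤ ((J.filter fun y => tb m J0 r y.1 = tb m J0 r x.1).card : ℝ))
    (hup : ∀ K, Legal m r K → ((K294.objs m J K).card : ℝ) ≤ D * cap q m K) {top : ℕ}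
    (hmt : m ≤ top) {K : Plk} (hK : Legal m r K) :
    ((K294.objs m (J.image (phi m top J0 r ρ)) K).card : ℝ) ≤
      2401 * D * (a / b) * cap q m K := by
  obtain ⟨S, hS⟩ : ∃ S : Finset Ln, S = (J.image Prod.fst).filter fun t =>
    InPlank t K.l K.e ((3 : ℕ) * K.w1) ((3 : ℕ) * K.w2) (zm m J0) (zr m) := ⟨_, rfl⟩
  have hScard : (S.card : ℝ) ≤ 2401 * (D * cap q m K) := by
    rw [hS]; exact triple_count hr hJ0 hup hK
  have hSmem : ∀ t, t ∈ S ↔ (∃ x ∈ J, x.1 = t) ∧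
      InPlank t K.l K.e ((3 : ℕ) * K.w1) ((3 : ℕ) * K.w2) (zm m J0) (zr m) := by
    intro t
    rw [hS, mem_filter, mem_image]
  clear hS
  -- the representatives
  obtain ⟨TT, hTT⟩ : ∃ TT : Finset Ln, ∀ l, l ∈ TT ↔ (∃ x ∈ J, ρ (tb m J0 r x.1) = l) ∧
    InPlank l K.l K.e K.w1 K.w2 (zm m J0) (zr m) :=
    ⟨(J.image fun x => ρ (tb m J0 r x.1)).filter fun l =>
      InPlank l K.l K.e K.w1 K.w2 (zm m J0) (zr m), fun l => by rw [mem_filter, mem_image]⟩
  have h1 : ((K294.objs m (J.image (phi m top J0 r ρ)) K).card : ℝ) ≤ TT.card := by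
    refine Nat.cast_le.2 ?_
    refine card_le_card_of_injOn Prod.fst (fun o ho => ?_) (fun o ho o' ho' h => ?_)
    · rw [mem_coe] at ho
      unfold K294.objs at ho
      rw [mem_filter, mem_image] at ho
      obtain ⟨⟨y, hy, rfl⟩, hin⟩ := ho
      obtain ⟨x, hx, rfl⟩ := mem_image.1 hy
      rw [mem_coe, hTT]
      refine ⟨⟨x, hx, rfl⟩, ?_⟩
      have h2 := hin.1
      have h3 : zc m (zm top (zc top x.2)) = J0 := (zc_zm_of hmt _).trans (hJ0 x hx)
      have h4 : K.j = J0 := by rw [← h2]; exact h3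
      have h5 := hin.2
      rw [h4] at h5
      exact h5
    · rw [mem_coe] at ho ho'
      unfold K294.objs at ho ho'
      rw [mem_filter] at ho ho'
      exact Prod.ext h (ho.2.1.trans ho'.2.1.symm)
  have h2 : (TT.card : ℝ) * (b / a) ≤ S.card := by
    refine fib_le_card S (fun t => ρ (tb m J0 r t)) TT fun l hl => ?_
    obtain ⟨⟨x, hx, rfl⟩, hin⟩ := (hTT l).1 hl
    rw [div_le_iff₀ ha]
    refine (htube x hx).trans ?_
    refine card_le_fib _ Prod.fst _ (fun y hy => ?_) (fun t ht => ?_)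
    · obtain ⟨hyJ, hyt⟩ := mem_filter.1 hy
      refine mem_filter.2 ⟨(hSmem _).2 ⟨⟨y, hyJ, rfl⟩, ?_⟩, by rw [hyt]⟩
      have hb : tb m J0 r y.1 = tb m J0 r (ρ (tb m J0 r x.1)) := by rw [hρ x hx, hyt]
      exact shift_plank hr hb hK.unit hK.r1 hK.w12 (fun z hz => hz) hin
    · obtain ⟨⟨y, hy, rfl⟩, -⟩ := (hSmem t).1 (mem_filter.1 ht).1
      refine le_trans (Nat.cast_le.2 (card_le_card fun y' hy' => ?_)) (hline y hy)
      obtain ⟨h7, h8⟩ := mem_filter.1 hy'
      exact mem_filter.2 ⟨(mem_filter.1 h7).1, h8⟩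
  have hba : 0 < b / a := div_pos hb ha
  have h6 : (TT.card : ℝ) ≤ S.card * (a / b) := by
    have : S.card * (a / b) = S.card / (b / a) := by field_simp
    rw [this, le_div_iff₀ hba]
    exact h2
  calc _ ≤ (TT.card : ℝ) := h1
    _ ≤ S.card * (a / b) := h6
    _ ≤ 2401 * (D * cap q m K) * (a / b) := mul_le_mul_of_nonneg_right hScard (by positivity)
    _ = _ := by ring

open Classical in
/-- **(b)** own count after bundling: at least (tube class) / (tube, cell) class. -/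
theorem own_count {top : ℕ} {b w2 : ℝ} (hw2 : 0 < w2)
    (hρ : ∀ x ∈ J, tb m J0 r (ρ (tb m J0 r x.1)) = tb m J0 r x.1)
    (htube : ∀ x ∈ J, b ≤ ((J.filter fun y => tb m J0 r y.1 = tb m J0 r x.1).card : ℝ))
    (hpc : ∀ x ∈ J, ((J.filter fun y => tb m J0 r y.1 = tb m J0 r x.1 ∧
      zc top y.2 = zc top x.2).card : ℝ) ≤ w2) :
    ∀ x' ∈ J.image (phi m top J0 r ρ),
      b / w2 ≤ (((J.image (phi m top J0 r ρ)).filter fun y' => y'.1 = x'.1).card : ℝ) := by
  intro x' hx'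
  obtain ⟨x, hx, rfl⟩ := mem_image.1 hx'
  rw [div_le_iff₀ hw2]
  refine (htube x hx).trans ?_
  set T := J.filter fun y => tb m J0 r y.1 = tb m J0 r x.1 with hT
  have h3 : (T.image (phi m top J0 r ρ)).card ≤
      ((J.image (phi m top J0 r ρ)).filter fun y' => y'.1 = (phi m top J0 r ρ x).1).card := by
    refine card_le_card fun o ho => ?_
    obtain ⟨y, hy, rfl⟩ := mem_image.1 ho
    rw [hT, mem_filter] at hy
    rw [mem_filter]
    refine ⟨mem_image_of_mem _ hy.1, ?_⟩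
    unfold phi
    simp only
    rw [hy.2]
  refine (card_le_fib T (phi m top J0 r ρ) (T.image (phi m top J0 r ρ))
    (fun y hy => mem_image_of_mem _ hy) (a := w2) fun o ho => ?_).trans
      (mul_le_mul_of_nonneg_right (by exact_mod_cast h3) hw2.le)
  obtain ⟨y, hy, rfl⟩ := mem_image.1 ho
  have hyJ := (mem_filter.1 hy).1
  refine le_trans (Nat.cast_le.2 (card_le_card fun t ht => ?_)) (hpc y hyJ)
  rw [mem_filter] at ht ⊢
  have htJ := (mem_filter.1 ht.1).1
  exact ⟨htJ, (phi_eq_iff (hρ t htJ) (hρ y hyJ)).1 ht.2⟩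

open Classical in
/-- **(c)** a tube has at least as many deep cells as one of its lines. -/
theorem tube_ge_line {top : ℕ} {a1 b2 w1 : ℝ} (hw1 : 0 ≤ w1)
    (hone : ∀ x ∈ J, ∀ y ∈ J, x.1 = y.1 → zc top x.2 = zc top y.2 → x = y)
    {x : Ln × ℝ} (hx : x ∈ J) (hline : a1 ≤ ((J.filter fun y => y.1 = x.1).card : ℝ))
    (htube : ((J.filter fun y => tb m J0 r y.1 = tb m J0 r x.1).card : ℝ) ≤ b2)
    (hpc : ∀ x ∈ J, w1 ≤ ((J.filter fun y => tb m J0 r y.1 = tb m J0 r x.1 ∧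
      zc top y.2 = zc top x.2).card : ℝ)) : a1 * w1 ≤ b2 := by
  refine le_trans ?_ htube
  set A := J.filter fun y => y.1 = x.1 with hA
  have h2 : ((A.image fun y => zc top y.2).card : ℝ) * w1 ≤
      ((J.filter fun y => tb m J0 r y.1 = tb m J0 r x.1).card : ℝ) := by
    refine fib_le_card _ (fun y => zc top y.2) _ fun c hc => ?_
    obtain ⟨y, hy, rfl⟩ := mem_image.1 hc
    rw [hA, mem_filter] at hy
    refine (hpc y hy.1).trans (Nat.cast_le.2 (card_le_card fun t ht => ?_))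
    rw [mem_filter] at ht ⊢
    refine ⟨mem_filter.2 ⟨ht.1, ?_⟩, ht.2.2⟩
    rw [ht.2.1, hy.2]
  have h3 : (A.image fun y => zc top y.2).card = A.card := by
    refine card_image_of_injOn fun y hy y' hy' h => ?_
    rw [mem_coe, hA, mem_filter] at hy hy'
    exact hone y hy.1 y' hy'.1 (hy.2.trans hy'.2.symm) h
  rw [h3] at h2
  exact (mul_le_mul_of_nonneg_right hline hw1).trans h2

open Classical in
/-- **(d)** pull back of a part of the bundled family. -/
theorem pull_count {top : ℕ} {w1 w2 : ℝ}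
    (hρ : ∀ x ∈ J, tb m J0 r (ρ (tb m J0 r x.1)) = tb m J0 r x.1)
    (hpc : ∀ x ∈ J, w1 ≤ ((J.filter fun y => tb m J0 r y.1 = tb m J0 r x.1 ∧
      zc top y.2 = zc top x.2).card : ℝ) ∧ ((J.filter fun y => tb m J0 r y.1 = tb m J0 r x.1 ∧
      zc top y.2 = zc top x.2).card : ℝ) ≤ w2)
    {J2 : Finset (Ln × ℝ)} (hJ2 : J2 ⊆ J.image (phi m top J0 r ρ)) :
    w1 * (J2.card : ℝ) ≤ ((J.filter fun x => phi m top J0 r ρ x ∈ J2).card : ℝ) ∧
      ((J.filter fun x => phi m top J0 r ρ x ∈ J2).card : ℝ) ≤ w2 * (J2.card : ℝ) := by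
  have h2 : ∀ o ∈ J2, w1 ≤ ((((J.filter fun x => phi m top J0 r ρ x ∈ J2).filter
      fun x => phi m top J0 r ρ x = o).card : ℕ) : ℝ) ∧
      ((((J.filter fun x => phi m top J0 r ρ x ∈ J2).filter
        fun x => phi m top J0 r ρ x = o).card : ℕ) : ℝ) ≤ w2 := by
    intro o ho
    obtain ⟨x, hx, rfl⟩ := mem_image.1 (hJ2 ho)
    have h3 : ((J.filter fun x => phi m top J0 r ρ x ∈ J2).filter
        fun y => phi m top J0 r ρ y = phi m top J0 r ρ x) =
        J.filter fun y => tb m J0 r y.1 = tb m J0 r x.1 ∧ zc top y.2 = zc top x.2 := by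
      ext y
      rw [mem_filter, mem_filter, mem_filter]
      constructor
      · rintro ⟨⟨a, -⟩, b⟩
        exact ⟨a, (phi_eq_iff (hρ y a) (hρ x hx)).1 b⟩
      · rintro ⟨a, b⟩
        have hy := (phi_eq_iff (top := top) (hρ y a) (hρ x hx)).2 b
        exact ⟨⟨a, by rw [hy]; exact ho⟩, hy⟩
    rw [h3]
    exact hpc x hx
  constructor
  · have := fib_le_card _ (phi m top J0 r ρ) J2 fun o ho => (h2 o ho).1
    linarith
  · have := card_le_fib (J.filter fun x => phi m top J0 r ρ x ∈ J2) (phi m top J0 r ρ) J2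
      (fun x hx => (mem_filter.1 hx).2) fun o ho => (h2 o ho).2
    linarith

end count

end Crest.Agent.R138.Bun926
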