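import Mathlib
import Crest.Agent.R138.Bun1_926

/-!
# R138, Kakeya side: bundle lemma, part 2 (helper926)

* `wide_of_deep` : the lines of a deep plank stay within `6 · 2^-m` in the coarse cell.
* `thin` : one incidence per (line, deep cell).
* `pull_plank` : a part of the bundled family has a plank (with a box label) of large density.
* `card_box` : number of bundled incidences in one box.
-/

set_option autoImplicit false
set_option linter.unusedVariables false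

open Filter Topology Finset

namespace Crest.Agent.R138.Bun926

open Crest.Agent.R138.Flag51 Crest.Agent.R138.K294
open Crest.Agent.R138.Ps926 (e0 dt_e0)

/-! ## Geometry of the boxes -/

theorem coord_le {x e : E2} (he : dt e e = 1) {s : ℝ} (h0 : |dt x e| ≤ s) (h1 : |cr e x| ≤ s) :
    |x 0| ≤ 2 * s ∧ |x 1| ≤ 2 * s := by
  have hs : 0 ≤ s := (abs_nonneg _).trans h0
  have e0 : |e 0| ≤ 1 := by
    simp only [dt] at he
    rw [abs_le]; constructor <;> nlinarith [sq_nonneg (e 0), sq_nonneg (e 1)]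
  have e1 : |e 1| ≤ 1 := by
    simp only [dt] at he
    rw [abs_le]; constructor <;> nlinarith [sq_nonneg (e 0), sq_nonneg (e 1)]
  have hx0 : x 0 = dt x e * e 0 - cr e x * e 1 := by
    have : x 0 * dt e e = dt x e * e 0 - cr e x * e 1 := by simp only [dt, cr]; ring
    rwa [he, mul_one] at this
  have hx1 : x 1 = dt x e * e 1 + cr e x * e 0 := by
    have : x 1 * dt e e = dt x e * e 1 + cr e x * e 0 := by simp only [dt, cr]; ring
    rwa [he, mul_one] at this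
  have b1 : |dt x e * e 0| ≤ s := by
    rw [abs_mul]
    calc |dt x e| * |e 0| ≤ s * 1 := mul_le_mul h0 e0 (abs_nonneg _) hs
      _ = s := mul_one s
  have b2 : |cr e x * e 1| ≤ s := by
    rw [abs_mul]
    calc |cr e x| * |e 1| ≤ s * 1 := mul_le_mul h1 e1 (abs_nonneg _) hs
      _ = s := mul_one s
  have b3 : |dt x e * e 1| ≤ s := by
    rw [abs_mul]
    calc |dt x e| * |e 1| ≤ s * 1 := mul_le_mul h0 e1 (abs_nonneg _) hs
      _ = s := mul_one s
  have b4 : |cr e x * e 0| ≤ s := by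
    rw [abs_mul]
    calc |cr e x| * |e 0| ≤ s * 1 := mul_le_mul h1 e0 (abs_nonneg _) hs
      _ = s := mul_one s
  constructor
  · rw [hx0]; exact (abs_sub _ _).trans (by linarith)
  · rw [hx1]; exact (abs_add_le _ _).trans (by linarith)

/-- an affine function bounded by `w` on a small cell. -/
theorem affine_bd {a b w z1 ρ1 z : ℝ} (hρ : 0 < ρ1) (h : ∀ y, |y - z1| ≤ ρ1 → |a + b * y| ≤ w) :
    |a + b * z| ≤ w + w / ρ1 * |z - z1| := by
  have h0 := h z1 (by simp [hρ.le])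
  have h1 := h (z1 + ρ1) (by simp [abs_of_pos hρ])
  have h2 := h (z1 - ρ1) (by simp [abs_of_pos hρ])
  have hb : |b| ≤ w / ρ1 := by
    rw [le_div_iff₀ hρ]
    have e : b * (2 * ρ1) = (a + b * (z1 + ρ1)) - (a + b * (z1 - ρ1)) := by ring
    have e2 : |b| * (2 * ρ1) ≤ 2 * w := by
      have : |b * (2 * ρ1)| ≤ 2 * w := by
        rw [e]; exact (abs_sub _ _).trans (by linarith)
      rwa [abs_mul, abs_of_pos (by linarith : (0:ℝ) < 2 * ρ1)] at this
    linarith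
  have e : a + b * z = (a + b * z1) + b * (z - z1) := by ring
  rw [e]
  refine (abs_add_le _ _).trans ?_
  rw [abs_mul]
  exact add_le_add h0 (mul_le_mul_of_nonneg_right hb (abs_nonneg _))

theorem wide_of_deep {m top : ℕ} (hmt : m ≤ top) {t l : Ln} {e : E2} (he : dt e e = 1) {w1 w2 : ℝ}
    (hw12 : w1 ≤ w2) (hw2 : w2 ≤ 1 / 2 ^ top) {z1 : ℝ}
    (h : InPlank t l e w1 w2 (zm top (zc top z1)) (zr top)) {z : ℝ}
    (hz : |z - zm m (zc m z1)| ≤ zr m) :
    |(pos t z - pos l z) 0| ≤ (6 : ℕ) * (1 / 2 ^ m) ∧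
      |(pos t z - pos l z) 1| ≤ (6 : ℕ) * (1 / 2 ^ m) := by
  have hρ := zr_pos top
  have hc := cell_sub hmt z1
  have h2m := two_zr m
  have h2t := two_zr top
  have hzr := zr_anti hmt
  set Z1 := zm top (zc top z1) with hZ1
  set Z0 := zm m (zc m z1) with hZ0
  have hzz : |z - Z1| ≤ 2 * zr m := by
    have : |z - Z1| ≤ |z - Z0| + |Z0 - Z1| := by
      have := abs_add_le (z - Z0) (Z0 - Z1)
      simpa using this
    have h3 : |Z0 - Z1| = |Z1 - Z0| := abs_sub_comm _ _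
    linarith
  have hw : w2 ≤ 2 * zr top := by rw [h2t]; exact hw2
  have key : ∀ w : ℝ, w ≤ 2 * zr top → ∀ a b : ℝ, (∀ y, |y - Z1| ≤ zr top → |a + b * y| ≤ w) →
      |a + b * z| ≤ 3 * (1 / 2 ^ m) := by
    intro w hw a b hab
    have h1 := affine_bd (z := z) hρ hab
    have hw0 : 0 ≤ w := (abs_nonneg _).trans (hab Z1 (by simp [hρ.le]))
    have h4 : w / zr top ≤ 2 := by rw [div_le_iff₀ hρ]; exact hw
    have h5 : w / zr top * |z - Z1| ≤ 2 * (2 * zr m) :=
      mul_le_mul h4 hzz (abs_nonneg _) (by norm_num)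
    rw [← h2m]
    linarith
  have f1 : ∀ y, dt (pos t y - pos l y) e = dt (t.1 - l.1) e + dt (t.2 - l.2) e * y := by
    intro y
    simp only [dt, pos, PiLp.sub_apply, PiLp.add_apply, PiLp.smul_apply, smul_eq_mul]; ring
  have f2 : ∀ y, cr e (pos t y - pos l y) = cr e (t.1 - l.1) + cr e (t.2 - l.2) * y := by
    intro y
    simp only [cr, pos, PiLp.sub_apply, PiLp.add_apply, PiLp.smul_apply, smul_eq_mul]; ring
  have g1 : |dt (pos t z - pos l z) e| ≤ 3 * (1 / 2 ^ m) := by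
    rw [f1]
    refine key w1 (hw12.trans hw) _ _ fun y hy => ?_
    rw [← f1]; exact (h y hy).1
  have g2 : |cr e (pos t z - pos l z)| ≤ 3 * (1 / 2 ^ m) := by
    rw [f2]
    refine key w2 hw _ _ fun y hy => ?_
    rw [← f2]; exact (h y hy).2
  obtain ⟨c1, c2⟩ := coord_le he g1 g2
  push_cast
  constructor <;> linarith

/-- the box labels of the lines of a deep plank. -/
theorem box_near {m top : ℕ} (hmt : m ≤ top) {t l : Ln} {e : E2} (he : dt e e = 1) {w1 w2 : ℝ}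
    (hw12 : w1 ≤ w2) (hw2 : w2 ≤ 1 / 2 ^ top) {z1 : ℝ}
    (h : InPlank t l e w1 w2 (zm top (zc top z1)) (zr top)) :
    tb m (zc m z1) (1 / 2 ^ m) t ∈ Fintype.piFinset fun i =>
      Icc (tb m (zc m z1) (1 / 2 ^ m) l i - (6 : ℕ)) (tb m (zc m z1) (1 / 2 ^ m) l i + (6 : ℕ)) := by
  have hw : (0 : ℝ) < 1 / 2 ^ m := by positivity
  have hzr := zr_pos m
  have a1 := wide_of_deep hmt he hw12 hw2 h (z := zm m (zc m z1) - zr m) (by
    rw [sub_sub_cancel_left, abs_neg, abs_of_pos hzr])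
  have a2 := wide_of_deep hmt he hw12 hw2 h (z := zm m (zc m z1) + zr m) (by
    rw [add_sub_cancel_left, abs_of_pos hzr])
  rw [Fintype.mem_piFinset]
  have d0 : ∀ x : E2, dt x e0 = x 0 := fun x => by simp [dt, e0]
  have d1 : ∀ x : E2, cr e0 x = x 1 := fun x => by simp [cr, e0]
  intro i
  fin_cases i
  · refine floor_mem_Icc hw ?_
    show |dt _ e0 - dt _ e0| ≤ _
    rw [← dt_sub, d0]; exact a1.1
  · refine floor_mem_Icc hw ?_
    show |dt _ e0 - dt _ e0| ≤ _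
    rw [← dt_sub, d0]; exact a2.1
  · refine floor_mem_Icc hw ?_
    show |cr e0 _ - cr e0 _| ≤ _
    rw [← cr_sub, d1]; exact a1.2
  · refine floor_mem_Icc hw ?_
    show |cr e0 _ - cr e0 _| ≤ _
    rw [← cr_sub, d1]; exact a2.2

/-! ## One incidence per (line, deep cell) -/

open Classical in
/-- one incidence per (line, deep cell) -/
noncomputable def thin (top : ℕ) (I : Finset (Ln × ℝ)) : Finset (Ln × ℝ) :=
  (I.image (K294.ob top)).image fun o => (o.1, zm top o.2)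

theorem ob_thin (top : ℕ) (o : Ln × ℤ) : K294.ob top (o.1, zm top o.2) = o := by
  unfold K294.ob
  rw [zc_zm]

open Classical in
theorem image_ob_thin (top : ℕ) (I : Finset (Ln × ℝ)) :
    (thin top I).image (K294.ob top) = I.image (K294.ob top) := by
  unfold thin
  rw [image_image]
  ext o
  simp only [mem_image, Function.comp_apply, ob_thin]
  constructor
  · rintro ⟨o', ho', rfl⟩; exact ho'
  · intro ho; exact ⟨o, ho, rfl⟩

theorem mem_thin {top : ℕ} {I : Finset (Ln × ℝ)} {x : Ln × ℝ} (hx : x ∈ thin top I) :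
    ∃ y ∈ I, K294.ob top y = K294.ob top x ∧ x.2 = zm top (zc top x.2) := by
  classical
  unfold thin at hx
  obtain ⟨o, ho, rfl⟩ := mem_image.1 hx
  obtain ⟨y, hy, rfl⟩ := mem_image.1 ho
  refine ⟨y, hy, ?_, ?_⟩
  · rw [ob_thin]
  · show zm top _ = zm top (zc top (zm top _))
    rw [zc_zm]

theorem thin_one {top : ℕ} {I : Finset (Ln × ℝ)} {x y : Ln × ℝ} (hx : x ∈ thin top I)
    (hy : y ∈ thin top I) (h1 : x.1 = y.1) (h2 : zc top x.2 = zc top y.2) : x = y := by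
  obtain ⟨-, -, -, hx2⟩ := mem_thin hx
  obtain ⟨-, -, -, hy2⟩ := mem_thin hy
  refine Prod.ext h1 ?_
  rw [hx2, hy2, h2]

theorem thin_zc {m top : ℕ} (h : m ≤ top) {I : Finset (Ln × ℝ)} {J0 : ℤ}
    (hI : ∀ x ∈ I, zc m x.2 = J0) {x : Ln × ℝ} (hx : x ∈ thin top I) : zc m x.2 = J0 := by
  obtain ⟨y, hy, h1, -⟩ := mem_thin hx
  unfold K294.ob at h1
  rw [Prod.mk.injEq] at h1
  rw [← hI y hy]
  exact (zc_nested h h1.2).symm

theorem thin_nonempty {top : ℕ} {I : Finset (Ln × ℝ)} (h : I.Nonempty) : (thin top I).Nonempty := by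
  classical
  unfold thin
  exact (h.image _).image _

theorem thin_card_le {top : ℕ} {I : Finset (Ln × ℝ)} : (thin top I).card ≤ I.card := by
  classical
  unfold thin
  exact card_image_le.trans card_image_le

/-! ## The pulled back plank -/

open Classical in
/-- **(e)** a part `J2` of the bundled family has a top plank, with a box label, of density at
least `δ D1 / (w2 · 2401 · 28561)`, `δ` = portion of the pulled back incidences. -/
theorem pull_plank {q : ℝ} {F : Cf} (hF : F.Ok q) {J : Finset (Ln × ℝ)}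
    (hJ : J ⊆ thin F.top F.I) {J0 : ℤ} (hJ0 : ∀ x ∈ F.I, zc F.m x.2 = J0)
    {ρ : (Fin 4 → ℤ) → Ln}
    (hρ : ∀ x ∈ J, tb F.m J0 F.r (ρ (tb F.m J0 F.r x.1)) = tb F.m J0 F.r x.1) {w2 : ℝ}
    (hw2 : 0 ≤ w2)
    (hpc : ∀ x ∈ J, ((J.filter fun y => tb F.m J0 F.r y.1 = tb F.m J0 F.r x.1 ∧
      zc F.top y.2 = zc F.top x.2).card : ℝ) ≤ w2)
    {J2 : Finset (Ln × ℝ)} (hJ2 : J2 ⊆ J.image (phi F.m F.top J0 F.r ρ)) {δ : ℝ} (hδ : 0 ≤ δ)
    (hδ2 : δ * ((thin F.top F.I).card : ℝ) ≤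
      ((J.filter fun x => phi F.m F.top J0 F.r ρ x ∈ J2).card : ℝ)) :
    ∃ (K : Plk) (c : Fin 4 → ℤ), Legal F.top F.r K ∧ δ * F.D1 * cap q F.top K ≤
      w2 * (2401 * 28561) * (((J2.image (K294.ob F.top)).filter fun o =>
        InK F.top K o ∧ tb F.m J0 (1 / 2 ^ F.m) o.1 = c).card : ℝ) := by
  have hmt : F.m ≤ F.top := Nat.le_add_right _ _
  set top := F.top with htop
  set Js := J.filter fun x => phi F.m top J0 F.r ρ x ∈ J2 with hJs
  have hJsJ : Js ⊆ J := filter_subset _ _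
  -- injectivity of `ob top` on the thinned family
  have hinj : Set.InjOn (K294.ob top) (thin top F.I : Set (Ln × ℝ)) := by
    intro x hx y hy h
    unfold K294.ob at h
    rw [Prod.mk.injEq] at h
    exact thin_one hx hy h.1 h.2
  have hcS : (F.I.image (K294.ob top)).card = (thin top F.I).card := by
    rw [← image_ob_thin, card_image_of_injOn hinj]
  have hcT : (Js.image (K294.ob top)).card = Js.card :=
    card_image_of_injOn (hinj.mono (by exact_mod_cast hJsJ.trans hJ))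
  have hTS : Js.image (K294.ob top) ⊆ F.I.image (K294.ob top) := by
    rw [← image_ob_thin top F.I]
    exact image_subset_image (hJsJ.trans hJ)
  obtain ⟨o₀, ho₀, hden⟩ := Ps627.converse (fun K o => InK top K o) (cap q top) hTS
    (hF.ne.image _) (fun o => F.K (F.cl o)) (fun o ho => by
      obtain ⟨x, hx, rfl⟩ := mem_image.1 (hTS ho)
      exact hF.mem x hx) (D := F.D1) (δ := δ) hδ (fun o ho => by
      obtain ⟨x, hx, rfl⟩ := mem_image.1 ho
      refine (hF.low x hx).trans (Nat.cast_le.2 (card_le_card fun o' ho' => ?_))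
      unfold Cf.cls at ho'
      rw [mem_filter] at ho' ⊢
      exact ⟨ho'.1, by rw [ho'.2]⟩) (by
      rw [hcS, hcT]; exact hδ2)
  obtain ⟨x₀, hx₀, rfl⟩ := mem_image.1 ho₀
  set K₀ := F.K (F.cl (K294.ob top x₀)) with hK₀
  have hleg : Legal top F.r K₀ := hF.legal x₀ hx₀
  have hmem₀ : K₀.j = zc top x₀.2 := (hF.mem x₀ hx₀).1.symm
  have hw1p : 0 < K₀.w1 := hF.r0.trans_le hleg.r1
  have hw2p : 0 < K₀.w2 := hw1p.trans_le hleg.w12
  -- lines of `J2` in the tripled plank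
  obtain ⟨S2, hS2⟩ : ∃ S2 : Finset Ln, ∀ t, t ∈ S2 ↔ (t, K₀.j) ∈ J2.image (K294.ob top) ∧
      InPlank t K₀.l K₀.e ((3 : ℕ) * K₀.w1) ((3 : ℕ) * K₀.w2) (zm top K₀.j) (zr top) := by
    refine ⟨((J2.image (K294.ob top)).image Prod.fst).filter fun t =>
      (t, K₀.j) ∈ J2.image (K294.ob top) ∧
      InPlank t K₀.l K₀.e ((3 : ℕ) * K₀.w1) ((3 : ℕ) * K₀.w2) (zm top K₀.j) (zr top), fun t => ?_⟩
    rw [mem_filter]
    exact ⟨fun h => h.2, fun h => ⟨mem_image.2 ⟨_, h.1, rfl⟩, h⟩⟩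
  have hcell : ∀ z, |z - zm top K₀.j| ≤ zr top → |z - zm F.m J0| ≤ zr F.m := by
    intro z hz
    have h1 := cell_sub hmt x₀.2
    rw [hmem₀] at hz
    rw [hJ0 x₀ hx₀] at h1
    have h2 : |z - zm F.m J0| ≤ |z - zm top (zc top x₀.2)| +
        |zm top (zc top x₀.2) - zm F.m J0| := by
      have := abs_add_le (z - zm top (zc top x₀.2)) (zm top (zc top x₀.2) - zm F.m J0)
      simpa using this
    linarith
  have h3 : (((Js.image (K294.ob top)).filter fun o' => InK top K₀ o').card : ℝ) ≤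
      S2.card * w2 := by
    have h4 : ((Js.image (K294.ob top)).filter fun o' => InK top K₀ o').card ≤
        (Js.filter fun y => InK top K₀ (K294.ob top y)).card := by
      refine (card_le_card (t := (Js.filter fun y => InK top K₀ (K294.ob top y)).image
        (K294.ob top)) fun o ho => ?_).trans card_image_le
      obtain ⟨h5, h6⟩ := mem_filter.1 ho
      obtain ⟨y, hy, rfl⟩ := mem_image.1 h5
      exact mem_image_of_mem _ (mem_filter.2 ⟨hy, h6⟩)
    refine (Nat.cast_le.2 h4).trans ?_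
    refine card_le_fib _ (fun y => ρ (tb F.m J0 F.r y.1)) _ (fun y hy => ?_) (fun t ht => ?_)
    · obtain ⟨hy1, hy2⟩ := mem_filter.1 hy
      have hyJ := hJsJ hy1
      have hyφ := (mem_filter.1 hy1).2
      rw [hS2]
      constructor
      · refine mem_image.2 ⟨_, hyφ, ?_⟩
        unfold phi
        rw [← hy2.1]
        exact ob_thin top (ρ (tb F.m J0 F.r y.1), zc top y.2)
      · exact shift_plank hF.r0 (hρ y hyJ) hleg.unit hleg.r1 hleg.w12 hcell hy2.2
    · by_cases hne : ((Js.filter fun y => InK top K₀ (K294.ob top y)).filter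
        fun y => ρ (tb F.m J0 F.r y.1) = t).Nonempty
      · obtain ⟨y, hy⟩ := hne
        obtain ⟨hy1, hy2⟩ := mem_filter.1 hy
        obtain ⟨hy3, hy4⟩ := mem_filter.1 hy1
        refine le_trans (Nat.cast_le.2 (card_le_card fun y' hy' => ?_)) (hpc y (hJsJ hy3))
        obtain ⟨k1, k2⟩ := mem_filter.1 hy'
        obtain ⟨k3, k4⟩ := mem_filter.1 k1
        refine mem_filter.2 ⟨hJsJ k3, ?_, ?_⟩
        · rw [← hρ y' (hJsJ k3), k2, ← hy2, hρ y (hJsJ hy3)]
        · exact k4.1.trans hy4.1.symm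
      · rw [not_nonempty_iff_eq_empty] at hne
        rw [hne]
        simpa using hw2
  -- cover by planks of the right dimensions
  by_cases hS2ne : S2.Nonempty
  swap
  · rw [not_nonempty_iff_eq_empty] at hS2ne
    refine ⟨K₀, 0, hleg, ?_⟩
    rw [hS2ne] at h3
    simp only [card_empty, Nat.cast_zero, zero_mul] at h3
    exact hden.trans (h3.trans (by positivity))
  obtain ⟨t0, ht0, hmax⟩ := S2.exists_max_image
    (fun t0 => (S2.filter fun t => InPlank t t0 K₀.e K₀.w1 K₀.w2 (zm top K₀.j) (zr top)).card)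
    hS2ne
  have h5 := cover S2 (fun t => t) hw1p hw2p (zr_pos top) (n := 3) (l := K₀.l) (e := K₀.e)
    (z0 := zm top K₀.j) (fun t ht => ((hS2 t).1 ht).2)
    (A := ((S2.filter fun t => InPlank t t0 K₀.e K₀.w1 K₀.w2 (zm top K₀.j) (zr top)).card : ℝ))
    (Nat.cast_nonneg _) (fun t1 ht1 => Nat.cast_le.2 (hmax t1 ht1))
  -- the box label
  set S3 := S2.filter fun t => InPlank t t0 K₀.e K₀.w1 K₀.w2 (zm top K₀.j) (zr top) with hS3
  set bx : Ln → Fin 4 → ℤ := fun t => tb F.m J0 (1 / 2 ^ F.m) t with hbx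
  have hlab : ∀ t ∈ S3, bx t ∈ Fintype.piFinset fun i =>
      Icc (bx t0 i - (6 : ℕ)) (bx t0 i + (6 : ℕ)) := by
    intro t ht
    have h6 := (mem_filter.1 ht).2
    rw [hmem₀] at h6
    have h7 := box_near hmt hleg.unit hleg.w12 hleg.w2 h6
    rw [hJ0 x₀ hx₀] at h7
    exact h7
  have hcardlab : ((S3.image bx).card : ℝ) ≤ 28561 := by
    have h6 : S3.image bx ⊆ Fintype.piFinset fun i =>
        Icc (bx t0 i - (6 : ℕ)) (bx t0 i + (6 : ℕ)) := by
      intro c hc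
      obtain ⟨t, ht, rfl⟩ := mem_image.1 hc
      exact hlab t ht
    have h7 := card_le_card h6
    rw [Fintype.card_piFinset] at h7
    have h8 : ∀ i : Fin 4, (Icc (bx t0 i - (6 : ℕ)) (bx t0 i + (6 : ℕ))).card = 13 := by
      intro i; rw [Int.card_Icc]; omega
    simp only [h8, prod_const, card_univ, Fintype.card_fin] at h7
    have h9 : (13 : ℕ) ^ 4 = 28561 := by norm_num
    rw [h9] at h7
    exact_mod_cast h7
  have hS3ne : S3.Nonempty := by
    refine ⟨t0, mem_filter.2 ⟨ht0, ?_⟩⟩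
    exact Ps926.inPlank_self hw1p.le hw2p.le
  obtain ⟨c, hc, hcmax⟩ := (S3.image bx).exists_max_image
    (fun c => (S3.filter fun t => bx t = c).card) (hS3ne.image _)
  have h6 : (S3.card : ℝ) ≤ 28561 * ((S3.filter fun t => bx t = c).card : ℝ) := by
    have h7 := card_le_fib S3 bx (S3.image bx) (fun t ht => mem_image_of_mem _ ht)
      (a := ((S3.filter fun t => bx t = c).card : ℝ)) (fun c' hc' => by
        exact Nat.cast_le.2 (hcmax c' hc'))
    exact h7.trans (mul_le_mul_of_nonneg_right hcardlab (Nat.cast_nonneg _))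
  refine ⟨⟨K₀.j, t0, K₀.e, K₀.w1, K₀.w2⟩, c, ⟨hleg.unit, hleg.r1, hleg.w12, hleg.w2⟩, ?_⟩
  have h7 : ((S3.filter fun t => bx t = c).card : ℝ) ≤
      (((J2.image (K294.ob top)).filter fun o =>
        InK top ⟨K₀.j, t0, K₀.e, K₀.w1, K₀.w2⟩ o ∧ tb F.m J0 (1 / 2 ^ F.m) o.1 = c).card : ℝ) := by
    refine Nat.cast_le.2 (card_le_card_of_injOn (fun t => (t, K₀.j)) (fun t ht => ?_)
      (fun t _ t' _ h => congrArg Prod.fst h))
    rw [mem_coe] at ht ⊢
    obtain ⟨k1, k2⟩ := mem_filter.1 ht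
    obtain ⟨k3, k4⟩ := mem_filter.1 k1
    exact mem_filter.2 ⟨((hS2 t).1 k3).1, ⟨rfl, k4⟩, k2⟩
  have hn : ((2 : ℝ) * (3 : ℕ) + 1) ^ 4 = 2401 := by norm_num
  rw [hn] at h5
  calc δ * F.D1 * cap q top K₀ ≤ _ := hden
    _ ≤ S2.card * w2 := h3
    _ ≤ (2401 * (28561 * ((S3.filter fun t => bx t = c).card : ℝ))) * w2 := by
        refine mul_le_mul_of_nonneg_right (h5.trans ?_) hw2
        exact mul_le_mul_of_nonneg_left h6 (by norm_num)
    _ ≤ (2401 * (28561 * (((J2.image (K294.ob top)).filter fun o =>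
        InK top ⟨K₀.j, t0, K₀.e, K₀.w1, K₀.w2⟩ o ∧
          tb F.m J0 (1 / 2 ^ F.m) o.1 = c).card : ℝ))) * w2 := by
        refine mul_le_mul_of_nonneg_right ?_ hw2
        exact mul_le_mul_of_nonneg_left (mul_le_mul_of_nonneg_left h7 (by norm_num)) (by norm_num)
    _ = _ := by ring

/-! ## The size of one box -/

theorem zc_mem_Ico {m k : ℕ} {z : ℝ} {J0 : ℤ} (h : zc m z = J0) :
    zc (m + k) z ∈ Ico (J0 * 2 ^ k) ((J0 + 1) * 2 ^ k) := by
  unfold zc at h ⊢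
  rw [Int.floor_eq_iff] at h
  have hk : (0 : ℝ) < 2 ^ k := by positivity
  have e : (2 : ℝ) ^ (m + k) * z = 2 ^ k * (2 ^ m * z) := by rw [pow_add]; ring
  rw [mem_Ico]
  constructor
  · rw [Int.le_floor]
    push_cast
    rw [e]
    nlinarith [h.1]
  · rw [Int.floor_lt]
    push_cast
    rw [e]
    nlinarith [h.2]

theorem tb_mem_of_box {m : ℕ} {J0 : ℤ} {r : ℝ} (hr : 0 < r) {t : Ln} {c : Fin 4 → ℤ}
    (h : tb m J0 (1 / 2 ^ m) t = c) :
    tb m J0 r t ∈ Fintype.piFinset fun i =>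
      Icc ⌊(c i : ℝ) * (1 / 2 ^ m) / r⌋ ⌊((c i : ℝ) + 1) * (1 / 2 ^ m) / r⌋ := by
  rw [Fintype.mem_piFinset]
  have hw : (0 : ℝ) < 1 / 2 ^ m := by positivity
  have key : ∀ (x : ℝ) (ci : ℤ), ⌊x / (1 / 2 ^ m)⌋ = ci → ⌊x / r⌋ ∈
      Icc ⌊(ci : ℝ) * (1 / 2 ^ m) / r⌋ ⌊((ci : ℝ) + 1) * (1 / 2 ^ m) / r⌋ := by
    intro x ci hx
    rw [Int.floor_eq_iff] at hx
    rw [mem_Icc]
    have h1 : (ci : ℝ) * (1 / 2 ^ m) ≤ x := by
      have := hx.1
      rwa [le_div_iff₀ hw] at this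
    have h2 : x ≤ ((ci : ℝ) + 1) * (1 / 2 ^ m) := by
      have := hx.2
      rw [div_lt_iff₀ hw] at this
      exact this.le
    exact ⟨Int.floor_mono (div_le_div_of_nonneg_right h1 hr.le),
      Int.floor_mono (div_le_div_of_nonneg_right h2 hr.le)⟩
  intro i
  have hi := congrFun h i
  fin_cases i
  · exact key _ _ hi
  · exact key _ _ hi
  · exact key _ _ hi
  · exact key _ _ hi

open Classical in
/-- **(f)** number of bundled incidences in one box. -/
theorem card_box {J A : Finset (Ln × ℝ)} {m k : ℕ} {J0 : ℤ} {r : ℝ} (hr : 0 < r)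
    (hr2 : r ≤ 1 / 2 ^ m)
    {ρ : (Fin 4 → ℤ) → Ln} (hJ0 : ∀ x ∈ J, zc m x.2 = J0)
    (hρ : ∀ x ∈ J, tb m J0 r (ρ (tb m J0 r x.1)) = tb m J0 r x.1)
    (hA : A ⊆ J.image (phi m (m + k) J0 r ρ))
    (hlab : ∀ x ∈ A, ∀ y ∈ A, tb m J0 (1 / 2 ^ m) x.1 = tb m J0 (1 / 2 ^ m) y.1) :
    (A.card : ℝ) ≤ (3 * (1 / (2 ^ m * r))) ^ 4 * 2 ^ k := by
  have hX1 : (1 : ℝ) ≤ 1 / (2 ^ m * r) := by
    rw [le_div_iff₀ (by positivity), one_mul, mul_comm]
    rwa [le_div_iff₀ (by positivity)] at hr2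
  rcases A.eq_empty_or_nonempty with rfl | ⟨a0, ha0⟩
  · simp only [card_empty, Nat.cast_zero]; positivity
  set c := tb m J0 (1 / 2 ^ m) a0.1 with hc
  set PF := Fintype.piFinset fun i : Fin 4 =>
      Icc ⌊(c i : ℝ) * (1 / 2 ^ m) / r⌋ ⌊((c i : ℝ) + 1) * (1 / 2 ^ m) / r⌋ with hPF
  have h1 : A.card ≤ (PF ×ˢ Ico (J0 * 2 ^ k) ((J0 + 1) * 2 ^ k)).card := by
    refine card_le_card_of_injOn (fun x => (tb m J0 r x.1, zc (m + k) x.2)) (fun x hx => ?_)
      (fun x hx y hy h => ?_)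
    · rw [mem_coe] at hx ⊢
      rw [mem_product]
      refine ⟨tb_mem_of_box hr (hlab x hx a0 ha0), zc_mem_Ico ?_⟩
      obtain ⟨x', hx', rfl⟩ := mem_image.1 (hA hx)
      exact (zc_zm_of (Nat.le_add_right _ _) _).trans (hJ0 x' hx')
    · rw [mem_coe] at hx hy
      obtain ⟨x', hx', rfl⟩ := mem_image.1 (hA hx)
      obtain ⟨y', hy', rfl⟩ := mem_image.1 (hA hy)
      have h2 := congrArg Prod.fst h
      have h3 := congrArg Prod.snd h
      simp only [phi] at h2 h3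
      rw [hρ x' hx', hρ y' hy'] at h2
      rw [zc_zm, zc_zm] at h3
      exact (phi_eq_iff (hρ x' hx') (hρ y' hy')).2 ⟨h2, h3⟩
  have h2 : (PF.card : ℝ) ≤ (3 * (1 / (2 ^ m * r))) ^ 4 := by
    rw [hPF, Fintype.card_piFinset]
    push_cast
    have h3 : ∀ i : Fin 4, ((Icc ⌊(c i : ℝ) * (1 / 2 ^ m) / r⌋
        ⌊((c i : ℝ) + 1) * (1 / 2 ^ m) / r⌋).card : ℝ) ≤ 3 * (1 / (2 ^ m * r)) := by
      intro i
      rw [Int.card_Icc]
      have hw : (0 : ℝ) < 1 / 2 ^ m := by positivity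
      have a1 := Int.lt_floor_add_one ((c i : ℝ) * (1 / 2 ^ m) / r)
      have a2 := Int.floor_le (((c i : ℝ) + 1) * (1 / 2 ^ m) / r)
      have a3 : ⌊(c i : ℝ) * (1 / 2 ^ m) / r⌋ ≤ ⌊((c i : ℝ) + 1) * (1 / 2 ^ m) / r⌋ :=
        Int.floor_mono (div_le_div_of_nonneg_right (by nlinarith) hr.le)
      have a4 : (((⌊((c i : ℝ) + 1) * (1 / 2 ^ m) / r⌋ + 1 -
          ⌊(c i : ℝ) * (1 / 2 ^ m) / r⌋).toNat : ℕ) : ℝ) =
          ((⌊((c i : ℝ) + 1) * (1 / 2 ^ m) / r⌋ : ℤ) : ℝ) + 1 -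
            ((⌊(c i : ℝ) * (1 / 2 ^ m) / r⌋ : ℤ) : ℝ) := by
        have h0 : (0 : ℤ) ≤ ⌊((c i : ℝ) + 1) * (1 / 2 ^ m) / r⌋ + 1 -
          ⌊(c i : ℝ) * (1 / 2 ^ m) / r⌋ := by omega
        have h4 := Int.toNat_of_nonneg h0
        have h5 : (((⌊((c i : ℝ) + 1) * (1 / 2 ^ m) / r⌋ + 1 -
          ⌊(c i : ℝ) * (1 / 2 ^ m) / r⌋).toNat : ℤ) : ℝ) =
          ((⌊((c i : ℝ) + 1) * (1 / 2 ^ m) / r⌋ + 1 -
          ⌊(c i : ℝ) * (1 / 2 ^ m) / r⌋ : ℤ) : ℝ) := by rw [h4]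
        push_cast at h5
        exact_mod_cast h5
      rw [a4]
      have a5 : ((c i : ℝ) + 1) * (1 / 2 ^ m) / r - (c i : ℝ) * (1 / 2 ^ m) / r =
          1 / (2 ^ m * r) := by
        field_simp
        ring
      linarith
    calc ∏ i : Fin 4, ((Icc ⌊(c i : ℝ) * (1 / 2 ^ m) / r⌋
        ⌊((c i : ℝ) + 1) * (1 / 2 ^ m) / r⌋).card : ℝ)
        ≤ ∏ _i : Fin 4, (3 * (1 / (2 ^ m * r))) :=
          prod_le_prod (fun i _ => Nat.cast_nonneg _) fun i _ => h3 i
      _ = _ := by rw [prod_const, card_univ, Fintype.card_fin]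
  have h3 : ((Ico (J0 * 2 ^ k) ((J0 + 1) * 2 ^ k)).card : ℝ) = 2 ^ k := by
    rw [Int.card_Ico]
    have : (J0 + 1) * 2 ^ k - J0 * 2 ^ k = ((2 ^ k : ℕ) : ℤ) := by push_cast; ring
    rw [this, Int.toNat_natCast]
    push_cast
    rfl
  calc (A.card : ℝ) ≤ ((PF ×ˢ Ico (J0 * 2 ^ k) ((J0 + 1) * 2 ^ k)).card : ℝ) := by
        exact_mod_cast h1
    _ = PF.card * ((Ico (J0 * 2 ^ k) ((J0 + 1) * 2 ^ k)).card : ℝ) := by
        rw [card_product]; push_cast; rfl
    _ ≤ _ := by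
        rw [h3]
        exact mul_le_mul_of_nonneg_right h2 (by positivity)

end Crest.Agent.R138.Bun926
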