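import Mathlib
import Crest.Agent.R138.Bun2_926

/-!
# R138, Kakeya side: bundle lemma, part 3 (helper926)

`bun` : `Bd p b R (4 |R| + 2) → ∀ C, Bd p b R C` (`p, b ≥ 0`): the size of the configurations is
bounded by the resolution.  `hB` = the hypothesis of `K294.ubx`.
-/

set_option autoImplicit false
set_option linter.unusedVariables false

open Filter Topology Finset

namespace Crest.Agent.R138.Bun926

open Crest.Agent.R138.Ex926 Crest.Agent.R138.Dp76 Crest.Agent.R138.Flag51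
open Crest.Agent.R138.K294 Crest.Agent.R138.Ps926

/-- plank system with box labels -/
noncomputable def kG (q : ℝ) (m0 m' : ℕ) (r : ℝ) (bx : Ln → Fin 4 → ℤ) (hq : 0 ≤ q) (hr : 0 < r) :
    PSys (Ln × ℝ) where
  κ := {K : Plk // Legal m' r K} × (Fin 4 → ℤ)
  ο := Ln × ℤ
  ob := K294.ob m'
  mem := fun K o => InK m' K.1.1 o ∧ bx o.1 = K.2
  vol := fun K => cap q m' K.1.1 * 4 ^ m0
  v0 := r * r * (r * 2 ^ m') ^ q * 4 ^ m0
  v0_pos := by positivity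
  v0_le := fun K => mul_le_mul_of_nonneg_right (cap_ge hq hr K.1.2) (by positivity)

theorem padm0 {B : Base} {m M : ℕ → ℕ} {r : ℕ → ℝ} {I : ∀ n : ℕ, Finset (Ln × ℝ)}
    (h : Fam B m M r I) {q : ℝ} (hq : 0 ≤ q) (W : ℕ → ℝ) :
    PAdm B (fun n => kP q (m n) (m n) (r n) (W n) hq (h.rpos n)) I := by
  have := h.padm hq W (v := 0) zero_le_one
  simpa only [lv_zero] using this

theorem padm1 {B : Base} {m M : ℕ → ℕ} {r : ℕ → ℝ} {I : ∀ n : ℕ, Finset (Ln × ℝ)}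
    (h : Fam B m M r I) {q : ℝ} (hq : 0 ≤ q) (W : ℕ → ℝ) :
    PAdm B (fun n => kP q (m n) (m n + M n) (r n) (W n) hq (h.rpos n)) I := by
  have := h.padm hq W (v := 1) le_rfl
  simpa only [lv_one] using this

theorem padmG {B : Base} {m M : ℕ → ℕ} {r : ℕ → ℝ} {I : ∀ n : ℕ, Finset (Ln × ℝ)}
    (h : Fam B m M r I) {q : ℝ} (hq : 0 ≤ q) (bx : ∀ n : ℕ, Ln → Fin 4 → ℤ) :
    PAdm B (fun n => kG q (m n) (m n + M n) (r n) (bx n) hq (h.rpos n)) I := by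
  obtain ⟨C, hC⟩ := padm1 h hq (fun _ => 0)
  refine ⟨C, ?_⟩
  filter_upwards [hC] with n hn
  obtain ⟨h1, h2, h3⟩ := hn
  refine ⟨h1, h2, fun x hx => ?_⟩
  obtain ⟨K, hK, hv⟩ := h3 x hx
  exact ⟨(⟨K.1, K.2.1⟩, bx n x.1), ⟨hK, rfl⟩, hv⟩

/-- the three partitions: line; (tube, deep cell); tube -/
noncomputable def enc (m top : ℕ) (J0 : ℤ) (r : ℝ) (j : ℕ) (x : Ln × ℝ) :
    Ln ⊕ (((Fin 4 → ℤ) × ℤ) ⊕ (Fin 4 → ℤ)) :=
  match j with
  | 0 => Sum.inl x.1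
  | 1 => Sum.inr (Sum.inl (tb m J0 r x.1, zc top x.2))
  | _ => Sum.inr (Sum.inr (tb m J0 r x.1))

section enc

variable {m top : ℕ} {J0 : ℤ} {r : ℝ} {x y : Ln × ℝ} {J : Finset (Ln × ℝ)}

theorem enc0 : enc m top J0 r 0 x = enc m top J0 r 0 y ↔ x.1 = y.1 := by
  simp [enc]

theorem enc1 : enc m top J0 r 1 x = enc m top J0 r 1 y ↔
    tb m J0 r x.1 = tb m J0 r y.1 ∧ zc top x.2 = zc top y.2 := by
  simp [enc]

theorem enc2 : enc m top J0 r 2 x = enc m top J0 r 2 y ↔ tb m J0 r x.1 = tb m J0 r y.1 := by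
  simp [enc]

open Classical in
theorem card_cls_enc {κ : Type*} [d : DecidableEq κ] (f : Ln × ℝ → κ) (P : Ln × ℝ → Prop)
    [DecidablePred P]
    (h : ∀ y, f y = f x ↔ P y) : (cls J f x).card = (J.filter P).card := by
  congr 1
  ext y
  rw [mem_cls, mem_filter, h]

end enc

theorem num_final {E FD1 FD0 Fnu D1 D0 nu a w T c1 : ℝ} (hE : 0 < E) (hFD1 : 0 < FD1)
    (hFD0 : 0 < FD0) (hFnu : 0 < Fnu) (ha : 0 < a) (hw : 0 < w) (hT : 0 < T) (hc1 : 0 < c1)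
    (hD0 : 0 < D0) (h1 : E ^ 4 * FD1 / (w * c1) ≤ D1) (h2 : E ^ 3 * (T / w) ≤ nu)
    (h3 : D0 ≤ 2401 * FD0 * (a / (E * T))) (h4 : E ^ 2 * (a * w) ≤ T) (h5 : E * Fnu ≤ a) :
    E ^ 19 / (2401 * c1) * (FD1 * Fnu ^ 2 / FD0) ≤ D1 * nu ^ 2 / D0 := by
  have s1 : (E ^ 4 * FD1 / (w * c1)) * (E ^ 3 * (T / w)) ^ 2 / (2401 * FD0 * (a / (E * T))) ≤
      D1 * nu ^ 2 / D0 := by
    refine div_le_div₀ ?_ (mul_le_mul h1 (pow_le_pow_left₀ (by positivity) h2 2) (by positivity)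
      (le_trans (by positivity) h1)) hD0 h3
    exact mul_nonneg (le_trans (by positivity) h1) (by positivity)
  refine le_trans ?_ s1
  have s2 : (E ^ 4 * FD1 / (w * c1)) * (E ^ 3 * (T / w)) ^ 2 / (2401 * FD0 * (a / (E * T))) =
      E ^ 11 * FD1 / (2401 * c1 * FD0 * w ^ 3 * a) * T ^ 3 := by
    field_simp
  rw [s2]
  have s3 : (E ^ 2 * (a * w)) ^ 3 ≤ T ^ 3 := pow_le_pow_left₀ (by positivity) h4 3
  have s4 : E ^ 11 * FD1 / (2401 * c1 * FD0 * w ^ 3 * a) * (E ^ 2 * (a * w)) ^ 3 ≤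
      E ^ 11 * FD1 / (2401 * c1 * FD0 * w ^ 3 * a) * T ^ 3 :=
    mul_le_mul_of_nonneg_left s3 (by positivity)
  refine le_trans ?_ s4
  have s5 : E ^ 11 * FD1 / (2401 * c1 * FD0 * w ^ 3 * a) * (E ^ 2 * (a * w)) ^ 3 =
      E ^ 17 * FD1 / (2401 * c1 * FD0) * a ^ 2 := by
    field_simp
  rw [s5]
  have s6 : (E * Fnu) ^ 2 ≤ a ^ 2 := pow_le_pow_left₀ (by positivity) h5 2
  have s7 : E ^ 17 * FD1 / (2401 * c1 * FD0) * (E * Fnu) ^ 2 ≤
      E ^ 17 * FD1 / (2401 * c1 * FD0) * a ^ 2 := mul_le_mul_of_nonneg_left s6 (by positivity)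
  refine le_trans (le_of_eq ?_) s7
  field_simp

theorem D0_pos {q : ℝ} {F : Cf} (hF : F.Ok q) : 0 < F.D0 := by
  classical
  obtain ⟨x, hx⟩ := hF.ne
  have hmt : F.m ≤ F.top := Nat.le_add_right _ _
  have hr : F.r ≤ 1 / 2 ^ F.m := hF.rle.trans
    (one_div_le_one_div_of_le (by positivity) (pow_le_pow_right₀ one_le_two hmt))
  have hleg := baseK_legal hr x
  have h1 := hF.up _ hleg
  have h2 : (0 : ℝ) < ((K294.objs F.m F.I (baseK F.m F.r x)).card : ℝ) := by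
    have : 0 < (K294.objs F.m F.I (baseK F.m F.r x)).card := by
      refine card_pos.2 ⟨K294.ob F.m x, ?_⟩
      unfold K294.objs
      exact mem_filter.2 ⟨mem_image_of_mem _ hx, baseK_mem hF.r0.le x⟩
    exact_mod_cast this
  have h3 := h2.trans_le h1
  exact (mul_pos_iff_of_pos_right (cap_pos hF.r0 hleg)).1 h3

theorem objs_thin_le {m top : ℕ} (hmt : m ≤ top) (I : Finset (Ln × ℝ)) (K : Plk) :
    (K294.objs m (thin top I) K).card ≤ (K294.objs m I K).card := by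
  classical
  refine card_le_card fun o ho => ?_
  unfold K294.objs at ho ⊢
  obtain ⟨h1, h2⟩ := mem_filter.1 ho
  obtain ⟨x, hx, rfl⟩ := mem_image.1 h1
  obtain ⟨y, hy, h3, -⟩ := mem_thin hx
  refine mem_filter.2 ⟨mem_image.2 ⟨y, hy, ?_⟩, h2⟩
  unfold K294.ob at h3 ⊢
  rw [Prod.mk.injEq] at h3
  rw [h3.1, zc_nested hmt h3.2]

open Classical in
/-- every line of the thinned family has at least `nu` incidences. -/
theorem thin_own {q : ℝ} {F : Cf} (hF : F.Ok q) {x : Ln × ℝ} (hx : x ∈ thin F.top F.I) :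
    F.nu ≤ (((thin F.top F.I).filter fun y => y.1 = x.1).card : ℝ) := by
  have hmt : F.m ≤ F.top := Nat.le_add_right _ _
  obtain ⟨y, hy, h1, -⟩ := mem_thin hx
  refine (hF.own y hy).trans (Nat.cast_le.2 ?_)
  unfold ownc
  refine card_le_card_of_injOn (fun o => (o.1, zm F.top o.2)) (fun o ho => ?_)
    (fun o ho o' ho' h => ?_)
  · rw [mem_coe] at ho ⊢
    obtain ⟨z, hz, rfl⟩ := mem_image.1 ho
    obtain ⟨hz1, hz2⟩ := mem_filter.1 hz
    refine mem_filter.2 ⟨?_, ?_⟩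
    · unfold thin
      exact mem_image_of_mem _ (mem_image_of_mem _ hz1)
    · unfold K294.ob at hz2 h1
      rw [Prod.mk.injEq] at hz2 h1
      show z.1 = x.1
      rw [hz2.1, h1.1]
  · simp only [Prod.mk.injEq] at h
    exact Prod.ext h.1 (zm_inj h.2)

theorem size_bd {R r : ℝ} {m M : ℕ} (hM : 4 ≤ M)
    (hres : (2 : ℝ) ^ (-((m : ℝ) + R * M)) ≤ r) {N : ℝ}
    (hN : N ≤ (3 * (1 / (2 ^ m * r))) ^ 4 * 2 ^ M) : N ≤ (2 : ℝ) ^ ((4 * |R| + 3) * M) := by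
  have hr : 0 < r := lt_of_lt_of_le (Real.rpow_pos_of_pos two_pos _) hres
  have h1 : 1 / (2 ^ m * r) ≤ (2 : ℝ) ^ (|R| * M) := by
    rw [div_le_iff₀ (by positivity)]
    have e1 : (2 : ℝ) ^ (|R| * M) * (2 ^ m * (2 : ℝ) ^ (-((m : ℝ) + R * M))) ≤
        (2 : ℝ) ^ (|R| * M) * (2 ^ m * r) := by gcongr
    refine le_trans ?_ e1
    rw [← Real.rpow_natCast, ← Real.rpow_add two_pos, ← Real.rpow_add two_pos]
    refine Real.one_le_rpow (by norm_num) ?_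
    have : R * M ≤ |R| * M := mul_le_mul_of_nonneg_right (le_abs_self R) (Nat.cast_nonneg _)
    linarith
  have h2 : (3 * (1 / (2 ^ m * r))) ^ 4 ≤ (3 * (2 : ℝ) ^ (|R| * M)) ^ 4 :=
    pow_le_pow_left₀ (by positivity) (by linarith) 4
  refine hN.trans ((mul_le_mul_of_nonneg_right h2 (by positivity)).trans ?_)
  have e2 : (3 * (2 : ℝ) ^ (|R| * M)) ^ 4 * 2 ^ M = 81 * (2 : ℝ) ^ (4 * |R| * M + M) := by
    rw [mul_pow, ← Real.rpow_natCast ((2 : ℝ) ^ (|R| * M)), ← Real.rpow_mul two_pos.le,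
      ← Real.rpow_natCast 2 M, mul_assoc, ← Real.rpow_add two_pos]
    norm_num
    ring_nf
  rw [e2]
  have hM' : (4 : ℝ) ≤ M := by exact_mod_cast hM
  have h3 : (81 : ℝ) ≤ (2 : ℝ) ^ (2 * (M : ℝ)) := by
    calc (81 : ℝ) ≤ (2 : ℝ) ^ (8 : ℝ) := by
          rw [show (8 : ℝ) = ((8 : ℕ) : ℝ) by norm_num, Real.rpow_natCast]; norm_num
      _ ≤ _ := Real.rpow_le_rpow_of_exponent_le (by norm_num) (by linarith)
  calc 81 * (2 : ℝ) ^ (4 * |R| * M + M) ≤ (2 : ℝ) ^ (2 * (M : ℝ)) *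
        (2 : ℝ) ^ (4 * |R| * M + M) := mul_le_mul_of_nonneg_right h3 (by positivity)
    _ = (2 : ℝ) ^ ((4 * |R| + 3) * M) := by
        rw [← Real.rpow_add two_pos]; congr 1; ring


open Classical in
/-- the pruned classes of `J`. -/
theorem jcls {m top : ℕ} {J0 : ℤ} {r E : ℝ} {I J : Finset (Ln × ℝ)} (hJI : J ⊆ I)
    (hn : ∀ j : Fin 3, ∀ x ∈ J, E * (cmax (enc m top J0 r j) I : ℝ) ≤
      ((cls J (enc m top J0 r j) x).card : ℝ)) {x : Ln × ℝ} (hx : x ∈ J) :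
    (E * (cmax (enc m top J0 r 0) I : ℝ) ≤ ((J.filter fun y => y.1 = x.1).card : ℝ) ∧
      ((J.filter fun y => y.1 = x.1).card : ℝ) ≤ (cmax (enc m top J0 r 0) I : ℝ)) ∧
    (E * (cmax (enc m top J0 r 1) I : ℝ) ≤ ((J.filter fun y => tb m J0 r y.1 = tb m J0 r x.1 ∧
        zc top y.2 = zc top x.2).card : ℝ) ∧
      ((J.filter fun y => tb m J0 r y.1 = tb m J0 r x.1 ∧
        zc top y.2 = zc top x.2).card : ℝ) ≤ (cmax (enc m top J0 r 1) I : ℝ)) ∧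
    (E * (cmax (enc m top J0 r 2) I : ℝ) ≤
        ((J.filter fun y => tb m J0 r y.1 = tb m J0 r x.1).card : ℝ) ∧
      ((J.filter fun y => tb m J0 r y.1 = tb m J0 r x.1).card : ℝ) ≤
        (cmax (enc m top J0 r 2) I : ℝ)) := by
  have up : ∀ (j : ℕ) (N : ℕ) (A : Finset (Ln × ℝ)), A.card = N → A ⊆ J →
      (∀ y ∈ A, enc m top J0 r j y = enc m top J0 r j x) →
      (N : ℝ) ≤ (cmax (enc m top J0 r j) I : ℝ) := by
    intro j N A hA hAJ hAx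
    rw [← hA]
    refine Nat.cast_le.2 (le_trans (card_le_card fun y hy => ?_)
      (le_cmax (enc m top J0 r j) (hJI hx)))
    exact mem_filter.2 ⟨hJI (hAJ hy), hAx y hy⟩
  have lo : ∀ (j : Fin 3) (N : ℕ) (A : Finset (Ln × ℝ)), A.card = N →
      (∀ y ∈ J, enc m top J0 r j y = enc m top J0 r j x → y ∈ A) →
      E * (cmax (enc m top J0 r j) I : ℝ) ≤ (N : ℝ) := by
    intro j N A hA hAx
    rw [← hA]
    refine (hn j x hx).trans (Nat.cast_le.2 (card_le_card fun y hy => ?_))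
    rw [mem_cls] at hy
    exact hAx y hy.1 hy.2
  refine ⟨⟨lo 0 _ _ rfl fun y hy h => ?_, up 0 _ _ rfl (filter_subset _ _) fun y hy => ?_⟩,
    ⟨lo 1 _ _ rfl fun y hy h => ?_, up 1 _ _ rfl (filter_subset _ _) fun y hy => ?_⟩,
    ⟨lo 2 _ _ rfl fun y hy h => ?_, up 2 _ _ rfl (filter_subset _ _) fun y hy => ?_⟩⟩
  · exact mem_filter.2 ⟨hy, enc0.1 h⟩
  · exact enc0.2 (mem_filter.1 hy).2
  · exact mem_filter.2 ⟨hy, enc1.1 h⟩
  · exact enc1.2 (mem_filter.1 hy).2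
  · exact mem_filter.2 ⟨hy, enc2.1 h⟩
  · exact enc2.2 (mem_filter.1 hy).2

open Classical in
/-- coarse densities of the bundled family. -/
theorem up_fin {p : ℝ} (hp : 0 ≤ p) {m top : ℕ} (hmt : m ≤ top) {J0 : ℤ} {r : ℝ} (hr : 0 < r)
    {I J A : Finset (Ln × ℝ)} (hJI : J ⊆ I) (hI : ∀ x ∈ I, zc m x.2 = J0)
    {ρ : (Fin 4 → ℤ) → Ln} (hρ : ∀ x ∈ J, tb m J0 r (ρ (tb m J0 r x.1)) = tb m J0 r x.1)
    {a b : ℝ} (ha : 0 < a) (hb : 0 < b)
    (hline : ∀ x ∈ J, ((J.filter fun y => y.1 = x.1).card : ℝ) ≤ a)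
    (htube : ∀ x ∈ J, b ≤ ((J.filter fun y => tb m J0 r y.1 = tb m J0 r x.1).card : ℝ))
    (hA : A ⊆ J.image (phi m top J0 r ρ)) {K : Plk} (hK : Legal m r K) :
    ((K294.objs m A K).card : ℝ) ≤
      2401 * ((kP p m m r (1 / 2 ^ m) hp hr).Dmax I * 4 ^ m) * (a / b) * cap p m K := by
  have h1 : ((K294.objs m A K).card : ℝ) ≤
      ((K294.objs m (J.image (phi m top J0 r ρ)) K).card : ℝ) := by
    refine Nat.cast_le.2 (card_le_card ?_)
    unfold K294.objs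
    exact filter_subset_filter _ (image_subset_image hA)
  refine h1.trans (level0_count hr (fun x hx => hI x (hJI hx)) hρ ha hb hline htube
    (fun K' hK' => ?_) hmt hK)
  have hle' : K'.w2 ≤ max (1 / 2 ^ m) r := le_max_of_le_left hK'.w2
  have k1 := (kP p m m r (1 / 2 ^ m) hp hr).objs_card_le_Dmax I ⟨K', hK', hle'⟩
  have k2 : (K294.objs m J K').card ≤
      ((kP p m m r (1 / 2 ^ m) hp hr).objs I ⟨K', hK', hle'⟩).card := by
    refine card_le_card fun o ho => ?_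
    unfold K294.objs at ho
    obtain ⟨h2, h3⟩ := mem_filter.1 ho
    obtain ⟨y, hy, rfl⟩ := mem_image.1 h2
    exact ((kP p m m r (1 / 2 ^ m) hp hr).mem_objs).2 ⟨⟨y, hJI hy, rfl⟩, h3⟩
  refine (Nat.cast_le.2 k2).trans (k1.trans (le_of_eq ?_))
  show (kP p m m r (1 / 2 ^ m) hp hr).Dmax I * (cap p m K' * 4 ^ m) = _
  ring

open Classical in
/-- the coarse density of `I` is at most `F.D0`. -/
theorem Z_le {p : ℝ} (hp : 0 ≤ p) {F : Cf} (hF : F.Ok p) {I : Finset (Ln × ℝ)}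
    (hI : I ⊆ thin F.top F.I) :
    (kP p F.m F.m F.r (1 / 2 ^ F.m) hp hF.r0).Dmax I * 4 ^ F.m ≤ F.D0 := by
  have hFD0 := D0_pos hF
  have hmt : F.m ≤ F.top := Nat.le_add_right _ _
  have k1 : (kP p F.m F.m F.r (1 / 2 ^ F.m) hp hF.r0).Dmax I ≤ F.D0 / 4 ^ F.m := by
    refine PSys.Dmax_le _ (by positivity) fun K => ?_
    unfold PSys.dens
    rw [div_le_iff₀ (PSys.vol_pos _ K)]
    have k2 : ((kP p F.m F.m F.r (1 / 2 ^ F.m) hp hF.r0).objs I K).card ≤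
        (K294.objs F.m F.I K.1).card := by
      refine le_trans (card_le_card (t := K294.objs F.m (thin F.top F.I) K.1) fun o ho => ?_)
        (objs_thin_le hmt _ _)
      obtain ⟨⟨y, hy, rfl⟩, h2⟩ := (PSys.mem_objs _).1 ho
      unfold K294.objs
      exact mem_filter.2 ⟨mem_image_of_mem _ (hI hy), h2⟩
    refine (Nat.cast_le.2 k2).trans ((hF.up K.1 K.2.1).trans (le_of_eq ?_))
    show _ = F.D0 / 4 ^ F.m * (cap p F.m K.1 * 4 ^ F.m)
    field_simp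
  rwa [le_div_iff₀ (by positivity)] at k1

end Crest.Agent.R138.Bun926
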