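import Mathlib
import Crest.Agent.R138.Bun3_926

/-!
# R138, Kakeya side: bundle lemma, part 4 (helper926): the finite inequalities
-/

set_option autoImplicit false
set_option linter.unusedVariables false

open Filter Topology Finset

namespace Crest.Agent.R138.Bun926

open Crest.Agent.R138.Ex926 Crest.Agent.R138.Dp76 Crest.Agent.R138.Flag51
open Crest.Agent.R138.K294 Crest.Agent.R138.Ps926

open Classical in
/-- (v) -/
theorem a_ge {p : ℝ} {F : Cf} (hF : F.Ok p) {J0 : ℤ} {I : Finset (Ln × ℝ)}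
    (hI : I ⊆ thin F.top F.I) (hne : I.Nonempty) {E : ℝ} (hE : 0 < E)
    (hd : E * ((thin F.top F.I).card : ℝ) ≤ I.card) :
    E * F.nu ≤ (cmax (enc F.m F.top J0 F.r 0) I : ℝ) := by
  set g := enc F.m F.top J0 F.r 0 with hg
  have k1 : (I.card : ℝ) ≤ (ncl g I : ℝ) * (cmax g I : ℝ) := by
    exact_mod_cast card_le_ncl_mul_cmax g I
  have k2 : (ncl g (thin F.top F.I) : ℝ) * F.nu ≤ ((thin F.top F.I).card : ℝ) := by
    refine fib_le_card (thin F.top F.I) g ((thin F.top F.I).image g) fun t ht => ?_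
    obtain ⟨x, hx, rfl⟩ := mem_image.1 ht
    refine (thin_own hF hx).trans (Nat.cast_le.2 (card_le_card fun y hy => ?_))
    obtain ⟨h1, h2⟩ := mem_filter.1 hy
    exact mem_filter.2 ⟨h1, enc0.2 h2⟩
  have k3 : (ncl g I : ℝ) ≤ (ncl g (thin F.top F.I) : ℝ) := by
    exact_mod_cast ncl_mono g hI
  have k4 : (0 : ℝ) < (ncl g I : ℝ) := by exact_mod_cast one_le_ncl g hne
  have hnu := hF.nup
  have k6 : (ncl g I : ℝ) * (E * F.nu) ≤ (ncl g I : ℝ) * (cmax g I : ℝ) := by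
    calc (ncl g I : ℝ) * (E * F.nu) ≤ (ncl g (thin F.top F.I) : ℝ) * (E * F.nu) :=
          mul_le_mul_of_nonneg_right k3 (by positivity)
      _ = E * ((ncl g (thin F.top F.I) : ℝ) * F.nu) := by ring
      _ ≤ E * ((thin F.top F.I).card : ℝ) := mul_le_mul_of_nonneg_left k2 hE.le
      _ ≤ _ := hd.trans k1
  exact le_of_mul_le_mul_left k6 k4

open Classical in
/-- (ii) -/
theorem nu_ge {m top : ℕ} {J0 : ℤ} {r : ℝ} {J J2 : Finset (Ln × ℝ)} {ρ : (Fin 4 → ℤ) → Ln}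
    (hρ : ∀ x ∈ J, tb m J0 r (ρ (tb m J0 r x.1)) = tb m J0 r x.1) {b w E : ℝ} (hb : 0 < b)
    (hw : 0 < w) (hE : 0 < E)
    (htube : ∀ x ∈ J, b ≤ ((J.filter fun y => tb m J0 r y.1 = tb m J0 r x.1).card : ℝ))
    (hpc : ∀ x ∈ J, ((J.filter fun y => tb m J0 r y.1 = tb m J0 r x.1 ∧
      zc top y.2 = zc top x.2).card : ℝ) ≤ w)
    (hzc : ∀ x ∈ J.image (phi m top J0 r ρ), zc m x.2 = J0)
    (hJ2 : J2 ⊆ J.image (phi m top J0 r ρ)) (hne : J2.Nonempty)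
    (hd : E * ((J.image (phi m top J0 r ρ)).card : ℝ) ≤ J2.card) :
    E * (b / w) ≤ (cmax (K294.ob m) J2 : ℝ) := by
  have hown := own_count (top := top) hw hρ htube hpc
  obtain ⟨J1, hJ1⟩ : ∃ J1, J1 = J.image (phi m top J0 r ρ) := ⟨_, rfl⟩
  rw [← hJ1] at hown hzc hJ2 hd
  have k1 : (J2.card : ℝ) ≤ (ncl (K294.ob m) J2 : ℝ) * (cmax (K294.ob m) J2 : ℝ) := by
    exact_mod_cast card_le_ncl_mul_cmax (K294.ob m) J2
  have e0 : (ncl (K294.ob m) J1 : ℝ) = ((J1.image (K294.ob m)).card : ℝ) := by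
    unfold ncl
    congr!
  have k2 : (ncl (K294.ob m) J1 : ℝ) * (b / w) ≤ (J1.card : ℝ) := by
    rw [e0]
    refine fib_le_card J1 (K294.ob m) (J1.image (K294.ob m)) fun t ht => ?_
    obtain ⟨x, hx, rfl⟩ := mem_image.1 ht
    refine (hown x hx).trans (Nat.cast_le.2 (card_le_card fun y hy => ?_))
    obtain ⟨h1, h2⟩ := mem_filter.1 hy
    refine mem_filter.2 ⟨h1, ?_⟩
    unfold K294.ob
    rw [h2, hzc x hx, hzc y h1]
  have k3 : (ncl (K294.ob m) J2 : ℝ) ≤ (ncl (K294.ob m) J1 : ℝ) := by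
    exact_mod_cast ncl_mono (K294.ob m) hJ2
  have k4 : (0 : ℝ) < (ncl (K294.ob m) J2 : ℝ) := by exact_mod_cast one_le_ncl (K294.ob m) hne
  have k6 : (ncl (K294.ob m) J2 : ℝ) * (E * (b / w)) ≤
      (ncl (K294.ob m) J2 : ℝ) * (cmax (K294.ob m) J2 : ℝ) := by
    calc (ncl (K294.ob m) J2 : ℝ) * (E * (b / w)) ≤ (ncl (K294.ob m) J1 : ℝ) * (E * (b / w)) :=
          mul_le_mul_of_nonneg_right k3 (by positivity)
      _ = E * ((ncl (K294.ob m) J1 : ℝ) * (b / w)) := by ring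
      _ ≤ E * (J1.card : ℝ) := mul_le_mul_of_nonneg_left k2 hE.le
      _ ≤ _ := hd.trans k1
  exact le_of_mul_le_mul_left k6 k4

open Classical in
/-- (i) -/
theorem D1_ge {p : ℝ} (hp : 0 ≤ p) {F : Cf} (hF : F.Ok p) {J0 : ℤ}
    (hJ0 : ∀ x ∈ F.I, zc F.m x.2 = J0) {J J2 : Finset (Ln × ℝ)} (hJ : J ⊆ thin F.top F.I)
    {ρ : (Fin 4 → ℤ) → Ln}
    (hρ : ∀ x ∈ J, tb F.m J0 F.r (ρ (tb F.m J0 F.r x.1)) = tb F.m J0 F.r x.1) {w E : ℝ}
    (hw : 0 < w) (hE : 0 < E)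
    (hpc : ∀ x ∈ J, E * w ≤ ((J.filter fun y => tb F.m J0 F.r y.1 = tb F.m J0 F.r x.1 ∧
      zc F.top y.2 = zc F.top x.2).card : ℝ) ∧
      ((J.filter fun y => tb F.m J0 F.r y.1 = tb F.m J0 F.r x.1 ∧
      zc F.top y.2 = zc F.top x.2).card : ℝ) ≤ w)
    (hJ2 : J2 ⊆ J.image (phi F.m F.top J0 F.r ρ))
    (hd1 : E * ((thin F.top F.I).card : ℝ) ≤ J.card)
    (hd2 : E * ((J.image (phi F.m F.top J0 F.r ρ)).card : ℝ) ≤ J2.card) :
    E ^ 3 * F.D1 ≤ w * (2401 * 28561) *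
      ((kG p F.m (F.m + F.M) F.r (fun t => tb F.m J0 (1 / 2 ^ F.m) t) hp hF.r0).Dmax J2 *
        4 ^ F.m) := by
  have hpc2 := pull_count (top := F.top) (w1 := E * w) (w2 := w) hρ hpc hJ2
  have hpc1 := pull_count (top := F.top) (w1 := E * w) (w2 := w) hρ hpc
    (J2 := J.image (phi F.m F.top J0 F.r ρ)) (Subset.refl _)
  have k1 : (J.card : ℝ) ≤ w * ((J.image (phi F.m F.top J0 F.r ρ)).card : ℝ) := by
    refine le_trans (Nat.cast_le.2 (card_le_card fun x hx => ?_)) hpc1.2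
    exact mem_filter.2 ⟨hx, mem_image_of_mem _ hx⟩
  have hδ : E ^ 3 * ((thin F.top F.I).card : ℝ) ≤
      ((J.filter fun x => phi F.m F.top J0 F.r ρ x ∈ J2).card : ℝ) := by
    refine le_trans ?_ hpc2.1
    calc E ^ 3 * ((thin F.top F.I).card : ℝ) = E ^ 2 * (E * (thin F.top F.I).card) := by ring
      _ ≤ E ^ 2 * J.card := mul_le_mul_of_nonneg_left hd1 (by positivity)
      _ ≤ E ^ 2 * (w * ((J.image (phi F.m F.top J0 F.r ρ)).card : ℝ)) :=
          mul_le_mul_of_nonneg_left k1 (by positivity)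
      _ = E * w * (E * ((J.image (phi F.m F.top J0 F.r ρ)).card : ℝ)) := by ring
      _ ≤ E * w * J2.card := mul_le_mul_of_nonneg_left hd2 (by positivity)
  obtain ⟨K, c, hK, hKc⟩ := pull_plank hF hJ hJ0 hρ hw.le (fun x hx => (hpc x hx).2) hJ2
    (δ := E ^ 3) (by positivity) hδ
  set P := kG p F.m (F.m + F.M) F.r (fun t => tb F.m J0 (1 / 2 ^ F.m) t) hp hF.r0 with hP
  have k7 := P.objs_card_le_Dmax J2 (⟨K, hK⟩, c)
  have k8 : ((J2.image (K294.ob F.top)).filter fun o =>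
    InK F.top K o ∧ tb F.m J0 (1 / 2 ^ F.m) o.1 = c).card ≤ (P.objs J2 (⟨K, hK⟩, c)).card := by
    refine card_le_card fun o ho => ?_
    obtain ⟨h8, h9⟩ := mem_filter.1 ho
    obtain ⟨y, hy, rfl⟩ := mem_image.1 h8
    exact (P.mem_objs).2 ⟨⟨y, hy, rfl⟩, h9⟩
  have hcap : 0 < cap p F.top K := cap_pos hF.r0 hK
  have k9 : E ^ 3 * F.D1 * cap p F.top K ≤
      w * (2401 * 28561) * (P.Dmax J2 * (cap p F.top K * 4 ^ F.m)) := by
    refine hKc.trans (mul_le_mul_of_nonneg_left ?_ (by positivity))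
    exact (Nat.cast_le.2 k8).trans k7
  refine le_of_mul_le_mul_right ?_ hcap
  calc E ^ 3 * F.D1 * cap p F.top K ≤ _ := k9
    _ = _ := by ring

/-- lower bound from the value. -/
theorem val_ge {p : ℝ} {F : Cf} (hF : F.Ok p) {c : ℝ} (hv : c < F.val) :
    4 ^ F.M * (2 : ℝ) ^ (c * F.M) ≤ F.D1 * F.nu ^ 2 / F.D0 := by
  have hFD0 := D0_pos hF
  have hFD1 := hF.D1p
  have hFnu := hF.nup
  unfold Cf.val at hv
  have hMp : (0 : ℝ) < F.M := by
    have := hF.M1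
    exact_mod_cast this
  rw [lt_div_iff₀ hMp] at hv
  have harg : 0 < F.D1 * F.nu ^ 2 / (4 ^ F.M * F.D0) := by positivity
  have hv2 := (Real.lt_logb_iff_rpow_lt one_lt_two harg).1 hv
  have e1 : F.D1 * F.nu ^ 2 / F.D0 = 4 ^ F.M * (F.D1 * F.nu ^ 2 / (4 ^ F.M * F.D0)) := by
    field_simp
  rw [e1]
  exact mul_le_mul_of_nonneg_left hv2.le (by positivity)

open Classical in
/-- **All together**: the bundled configuration is at least as good. -/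
theorem bundle_ge {p : ℝ} (hp : 0 ≤ p) {F : Cf} (hF : F.Ok p) {J0 : ℤ}
    (hJ0 : ∀ x ∈ F.I, zc F.m x.2 = J0) {I J J2 : Finset (Ln × ℝ)} (hI : I ⊆ thin F.top F.I)
    (hJI : J ⊆ I) (hJne : J.Nonempty) {ρ : (Fin 4 → ℤ) → Ln}
    (hρ : ∀ x ∈ J, tb F.m J0 F.r (ρ (tb F.m J0 F.r x.1)) = tb F.m J0 F.r x.1) {E : ℝ}
    (hE : 0 < E)
    (hn : ∀ j : Fin 3, ∀ x ∈ J, E * (cmax (enc F.m F.top J0 F.r j) I : ℝ) ≤
      ((cls J (enc F.m F.top J0 F.r j) x).card : ℝ))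
    (hJ2 : J2 ⊆ J.image (phi F.m F.top J0 F.r ρ)) (hJ2ne : J2.Nonempty)
    (hdI : E * ((thin F.top F.I).card : ℝ) ≤ I.card)
    (hdJ : E * ((thin F.top F.I).card : ℝ) ≤ J.card)
    (hd2 : E * ((J.image (phi F.m F.top J0 F.r ρ)).card : ℝ) ≤ J2.card) :
    let a : ℝ := (cmax (enc F.m F.top J0 F.r 0) I : ℝ)
    let T : ℝ := (cmax (enc F.m F.top J0 F.r 2) I : ℝ)
    let Z : ℝ := (kP p F.m F.m F.r (1 / 2 ^ F.m) hp hF.r0).Dmax I
    let X : ℝ := (kG p F.m (F.m + F.M) F.r (fun t => tb F.m J0 (1 / 2 ^ F.m) t) hp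
      hF.r0).Dmax J2
    let D0 : ℝ := 2401 * (Z * 4 ^ F.m) * (a / (E * T))
    let D1 : ℝ := E * X * 4 ^ F.m
    let nu : ℝ := E * (cmax (K294.ob F.m) J2 : ℝ)
    0 < D0 → E ^ 19 / (2401 * (2401 * 28561)) * (F.D1 * F.nu ^ 2 / F.D0) ≤ D1 * nu ^ 2 / D0 := by
  intro a T Z X D0 D1 nu hD0
  have hmt : F.m ≤ F.top := Nat.le_add_right _ _
  have hIne : I.Nonempty := hJne.mono hJI
  have hJthin : J ⊆ thin F.top F.I := hJI.trans hI
  have hcl := fun x (hx : x ∈ J) => jcls hJI hn hx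
  have hcp : ∀ j : ℕ, (0 : ℝ) < (cmax (enc F.m F.top J0 F.r j) I : ℝ) := fun j => by
    have := one_le_cmax (enc F.m F.top J0 F.r j) hIne
    exact_mod_cast this
  set w : ℝ := (cmax (enc F.m F.top J0 F.r 1) I : ℝ) with hw
  have hap : 0 < a := hcp 0
  have hwp : 0 < w := hcp 1
  have hTp : 0 < T := hcp 2
  obtain ⟨x0, hx0⟩ := hJne
  have h4 : E ^ 2 * (a * w) ≤ T := by
    have k1 := tube_ge_line (J := J) (m := F.m) (J0 := J0) (r := F.r) (top := F.top)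
      (a1 := E * a) (b2 := T) (w1 := E * w) (by positivity)
      (fun x hx y hy h1 h2 => thin_one (hJthin hx) (hJthin hy) h1 h2) hx0 (hcl x0 hx0).1.1
      (hcl x0 hx0).2.2.2 (fun x hx => (hcl x hx).2.1.1)
    calc E ^ 2 * (a * w) = E * a * (E * w) := by ring
      _ ≤ T := k1
  have h5 : E * F.nu ≤ a := a_ge hF hI hIne hE hdI
  have h2 : E ^ 3 * (T / w) ≤ nu := by
    have k1 := nu_ge (J2 := J2) hρ (b := E * T) (w := w) (E := E) (by positivity) hwp hE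
      (fun x hx => (hcl x hx).2.2.1) (fun x hx => (hcl x hx).2.1.2) (fun x hx => by
        obtain ⟨y, hy, rfl⟩ := mem_image.1 hx
        exact (zc_zm_of hmt _).trans (thin_zc hmt hJ0 (hJthin hy))) hJ2 hJ2ne hd2
    calc E ^ 3 * (T / w) = E * (E * (E * T / w)) := by ring
      _ ≤ nu := mul_le_mul_of_nonneg_left k1 hE.le
  have h1 : E ^ 4 * F.D1 / (w * (2401 * 28561)) ≤ D1 := by
    have k10 := D1_ge hp hF hJ0 hJthin hρ hwp hE (fun x hx => (hcl x hx).2.1) hJ2 hdJ hd2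
    rw [div_le_iff₀ (by positivity)]
    calc E ^ 4 * F.D1 = E * (E ^ 3 * F.D1) := by ring
      _ ≤ E * (w * (2401 * 28561) * (X * 4 ^ F.m)) := mul_le_mul_of_nonneg_left k10 hE.le
      _ = D1 * (w * (2401 * 28561)) := by
        show _ = E * X * 4 ^ F.m * (w * (2401 * 28561))
        ring
  have h3 : D0 ≤ 2401 * F.D0 * (a / (E * T)) := by
    have k1 := Z_le hp hF hI
    have k2 : (0 : ℝ) ≤ a / (E * T) := by positivity
    exact mul_le_mul_of_nonneg_right (by linarith) k2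
  exact num_final hE hF.D1p (D0_pos hF) hF.nup hap hwp hTp (by norm_num) hD0 h1 h2 h3 h4 h5

end Crest.Agent.R138.Bun926
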