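import Mathlib
import Crest.Agent.R138.Bun4_926

/-!
# R138, Kakeya side: bundle lemma, part 5 (helper926): the sequence theorem

`bun` : `Bd p b R (4 |R| + 3) → ∀ C, Bd p b R C` (`p, b ≥ 0`): the size of the configurations is
bounded by the resolution.  `hB` = the hypothesis of `K294.ubx`.
-/

set_option autoImplicit false
set_option linter.unusedVariables false

open Filter Topology Finset

namespace Crest.Agent.R138.Bun926

open Crest.Agent.R138.Ex926 Crest.Agent.R138.Dp76 Crest.Agent.R138.Flag51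
open Crest.Agent.R138.K294 Crest.Agent.R138.Ps926

/-- distinct bundled incidences are distinct objects of the fine level. -/
theorem one_fin {m M : ℕ} {J0 : ℤ} {r : ℝ} {ρ : (Fin 4 → ℤ) → Ln} {J A : Finset (Ln × ℝ)}
    (hA : ∀ x ∈ A, ∃ y ∈ J, phi m (m + M) J0 r ρ y = x) : ∀ x ∈ A, ∀ y ∈ A,
      K294.ob (m + M) x = K294.ob (m + M) y → x = y := by
  intro x hx y hy h
  obtain ⟨x', hx', rfl⟩ := hA x hx
  obtain ⟨y', hy', rfl⟩ := hA y hy
  unfold K294.ob phi at h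
  rw [Prod.mk.injEq] at h
  have h2 : zc (m + M) (zm (m + M) (zc (m + M) x'.2)) =
    zc (m + M) (zm (m + M) (zc (m + M) y'.2)) := h.2
  rw [zc_zm, zc_zm] at h2
  have h3 : ρ (tb m J0 r x'.1) = ρ (tb m J0 r y'.1) := h.1
  unfold phi
  rw [h2, h3]

open Classical in
/-- the per-`n` facts of the bundled family. -/
theorem hev_fin {p : ℝ} (hp : 0 ≤ p) {m M : ℕ} {J0 : ℤ} {r E : ℝ} (hr : 0 < r) (hE : 0 < E)
    {I J J2 J3 : Finset (Ln × ℝ)} (hJI : J ⊆ I) (hJ3ne : J3.Nonempty)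
    (hIzc : ∀ x ∈ I, zc m x.2 = J0) {ρ : (Fin 4 → ℤ) → Ln}
    (hρ : ∀ x ∈ J, tb m J0 r (ρ (tb m J0 r x.1)) = tb m J0 r x.1)
    (hn : ∀ j : Fin 3, ∀ x ∈ J, E * (cmax (enc m (m + M) J0 r j) I : ℝ) ≤
      ((cls J (enc m (m + M) J0 r j) x).card : ℝ))
    (hJ2 : J2 ⊆ J.image (phi m (m + M) J0 r ρ)) (hJ3 : J3 ⊆ J2)
    (hZ : 0 < (kP p m m r (1 / 2 ^ m) hp hr).Dmax I)
    (hX : 0 < (kG p m (m + M) r (fun t => tb m J0 (1 / 2 ^ m) t) hp hr).Dmax J2)
    (cl : Ln × ℤ → {K : Plk // Legal (m + M) r K} × (Fin 4 → ℤ))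
    (hclm : ∀ x ∈ J3, InK (m + M) (cl (K294.ob (m + M) x)).1.1 (K294.ob (m + M) x) ∧
      tb m J0 (1 / 2 ^ m) x.1 = (cl (K294.ob (m + M) x)).2)
    (hcle : ∀ x ∈ J3,
      E * (kG p m (m + M) r (fun t => tb m J0 (1 / 2 ^ m) t) hp hr).Dmax J2 *
        (cap p (m + M) (cl (K294.ob (m + M) x)).1.1 * 4 ^ m) ≤
          ((((J3.image (K294.ob (m + M))).filter
            fun o => cl o = cl (K294.ob (m + M) x)).card : ℕ) : ℝ))
    (hown : ∀ x ∈ J3, E * (cmax (K294.ob m) J2 : ℝ) ≤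
      ((J3.filter fun y => K294.ob m y = K294.ob m x).card : ℝ)) :
    let a : ℝ := (cmax (enc m (m + M) J0 r 0) I : ℝ)
    let T : ℝ := (cmax (enc m (m + M) J0 r 2) I : ℝ)
    let Z : ℝ := (kP p m m r (1 / 2 ^ m) hp hr).Dmax I
    let X : ℝ := (kG p m (m + M) r (fun t => tb m J0 (1 / 2 ^ m) t) hp hr).Dmax J2
    let D0 : ℝ := 2401 * (Z * 4 ^ m) * (a / (E * T))
    let D1 : ℝ := E * X * 4 ^ m
    let nu : ℝ := E * (cmax (K294.ob m) J2 : ℝ)
    J3 ⊆ J2 ∧ J3.Nonempty ∧ 0 < D0 ∧ 0 < D1 ∧ 0 < nu ∧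
      (∀ x ∈ J3, Legal (m + M) r (cl (K294.ob (m + M) x)).1.1) ∧
      (∀ x ∈ J3, InK (m + M) (cl (K294.ob (m + M) x)).1.1 (K294.ob (m + M) x)) ∧
      (∀ x ∈ J3, ∀ y ∈ J3, cl (K294.ob (m + M) y) = cl (K294.ob (m + M) x) →
        tb m J0 (1 / 2 ^ m) y.1 = tb m J0 (1 / 2 ^ m) x.1) ∧
      (∀ x ∈ J3, D1 * cap p (m + M) (cl (K294.ob (m + M) x)).1.1 ≤
        ((((J3.image (K294.ob (m + M))).filter
          fun o => cl o = cl (K294.ob (m + M) x)).card : ℕ) : ℝ)) ∧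
      (∀ x ∈ J3, nu ≤ (ownc m (m + M) J3 x : ℝ)) ∧
      (∀ K, Legal m r K →
        ((K294.objs m J3 K).card : ℝ) ≤ D0 * cap p m K) := by
  intro a T Z X D0 D1 nu
  obtain ⟨x3, hx3⟩ := hJ3ne
  have hIne : I.Nonempty := by
    obtain ⟨y, hy, -⟩ := mem_image.1 (hJ2 (hJ3 hx3))
    exact ⟨y, hJI hy⟩
  have hcp : ∀ j : ℕ, (0 : ℝ) < (cmax (enc m (m + M) J0 r j) I : ℝ) := fun j => by
    have := one_le_cmax (enc m (m + M) J0 r j) hIne
    exact_mod_cast this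
  have hap : 0 < a := hcp 0
  have hTp : 0 < T := hcp 2
  have hc2 : (0 : ℝ) < (cmax (K294.ob m) J2 : ℝ) := by
    have := one_le_cmax (K294.ob m) ⟨x3, hJ3 hx3⟩
    exact_mod_cast this
  have hZ' : 0 < Z := hZ
  have hX' : 0 < X := hX
  refine ⟨hJ3, ⟨x3, hx3⟩, ?_, ?_, ?_, fun x hx => (cl (K294.ob (m + M) x)).1.2,
    fun x hx => (hclm x hx).1, fun x hx y hy h => ?_, fun x hx => ?_, fun x hx => ?_,
    fun K hK => ?_⟩
  · show 0 < 2401 * (Z * 4 ^ m) * (a / (E * T))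
    positivity
  · show 0 < E * X * 4 ^ m
    positivity
  · show 0 < E * (cmax (K294.ob m) J2 : ℝ)
    positivity
  · rw [(hclm y hy).2, (hclm x hx).2, h]
  · refine le_trans (le_of_eq ?_) (hcle x hx)
    show E * X * 4 ^ m * cap p (m + M) (cl (K294.ob (m + M) x)).1.1 =
      E * X * (cap p (m + M) (cl (K294.ob (m + M) x)).1.1 * 4 ^ m)
    ring
  · refine (hown x hx).trans (Nat.cast_le.2 ?_)
    unfold ownc
    rw [card_image_of_injOn]
    · intro y hy z hz h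
      rw [mem_coe, mem_filter] at hy hz
      exact one_fin (J := J) (fun w hw => by
        obtain ⟨y, hy, h⟩ := mem_image.1 (hJ2 (hJ3 hw)); exact ⟨y, hy, h⟩) y hy.1 z hz.1 h
  · exact up_fin hp (Nat.le_add_right m M) hr hJI hIzc hρ hap (by positivity)
      (fun x hx => (jcls hJI hn hx).1.2) (fun x hx => (jcls hJI hn hx).2.2.1)
      (hJ3.trans hJ2) hK

/-- the size of the windows, one index. -/
theorem gsz_fin {p b R δ : ℝ} {M0 : ℕ}
    (hM0 : ∀ F : Cf, F.Ok p → M0 ≤ F.M → (2 : ℝ) ^ (-((F.m : ℝ) + R * F.M)) ≤ F.r →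
      (F.I.card : ℝ) ≤ (2 : ℝ) ^ ((4 * |R| + 3) * F.M) → F.val ≤ b + δ)
    {G : Cf} (hG : G.Ok p) {m M : ℕ} {J0 : ℤ} {r : ℝ} (hr : 0 < r) (hrle : r ≤ 1 / 2 ^ (m + M))
    (e2 : G.m = m) (e3 : G.M = M) (e4 : G.r = r) (hM : max M0 4 ≤ M)
    (hres : (2 : ℝ) ^ (-((m : ℝ) + R * M)) ≤ r) {J : Finset (Ln × ℝ)}
    (hzc : ∀ x ∈ J, zc m x.2 = J0) {ρ : (Fin 4 → ℤ) → Ln}
    (hρ : ∀ x ∈ J, tb m J0 r (ρ (tb m J0 r x.1)) = tb m J0 r x.1)
    (hA : ∀ x ∈ G.I, ∃ y ∈ J, phi m (m + M) J0 r ρ y = x)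
    (hlab : ∀ x ∈ G.I, ∀ y ∈ G.I, tb m J0 (1 / 2 ^ m) x.1 = tb m J0 (1 / 2 ^ m) y.1) :
    G.val ≤ b + δ := by
  classical
  have hM0' : M0 ≤ M := (le_max_left _ _).trans hM
  have hM4 : 4 ≤ M := (le_max_right _ _).trans hM
  refine hM0 G hG (by rw [e3]; exact hM0') (by rw [e2, e3, e4]; exact hres) ?_
  rw [e3]
  refine size_bd hM4 hres ?_
  refine card_box (J := J) (J0 := J0) (ρ := ρ) hr ?_ hzc hρ (fun x hx => ?_) hlab
  · exact hrle.trans (one_div_le_one_div_of_le (by positivity)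
      (pow_le_pow_right₀ one_le_two (Nat.le_add_right _ _)))
  · obtain ⟨y, hy, h⟩ := hA x hx
    exact mem_image.2 ⟨y, hy, h⟩

/-- numerical form of the lower bound. -/
theorem low_num {b η ε d E V Y : ℝ} {M : ℕ} (hd : d = (2 : ℝ) ^ (-(M : ℝ))) (hE : E = d ^ ε)
    (hV : 4 ^ M * (2 : ℝ) ^ ((b + η) * M) ≤ V)
    (hY : E ^ 19 / (2401 * (2401 * 28561)) * V ≤ Y) :
    d ^ (19 * ε) * (1 / (2401 * (2401 * 28561))) * d ^ (-(2 + b + η)) ≤ Y := by
  have hdp : 0 < d := by rw [hd]; exact Real.rpow_pos_of_pos two_pos _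
  have e2 : d ^ (-(2 + b + η)) = 4 ^ M * (2 : ℝ) ^ ((b + η) * M) := by
    rw [hd, ← Real.rpow_mul two_pos.le]
    have : (4 : ℝ) ^ M = (2 : ℝ) ^ (2 * (M : ℝ)) := by
      rw [Real.rpow_mul two_pos.le]
      norm_num
    rw [this, ← Real.rpow_add two_pos]
    congr 1
    ring
  have e3 : d ^ (19 * ε) = E ^ 19 := by
    rw [hE, ← Real.rpow_natCast, ← Real.rpow_mul hdp.le]
    congr 1
    push_cast
    ring
  have hEp : 0 < E := by rw [hE]; exact Real.rpow_pos_of_pos hdp _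
  rw [e2, e3]
  refine le_trans ?_ hY
  calc E ^ 19 * (1 / (2401 * (2401 * 28561))) * (4 ^ M * (2 : ℝ) ^ ((b + η) * M))
      ≤ E ^ 19 * (1 / (2401 * (2401 * 28561))) * V :=
        mul_le_mul_of_nonneg_left hV (by positivity)
    _ = _ := by ring


/-- **The bundle lemma**: the size is bounded by the resolution. -/
theorem bun {p b R : ℝ} (hp : 0 ≤ p) (hb : 0 ≤ b) (hBd : Bd p b R (4 * |R| + 3)) :
    ∀ C : ℝ, Bd p b R C := by
  intro C η hη
  by_contra hcon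
  push Not at hcon
  choose F hOk hMn hres hcard hval using hcon
  -- the base
  set m : ℕ → ℕ := fun n => (F n).m with hm
  set M : ℕ → ℕ := fun n => (F n).M with hM
  set r : ℕ → ℝ := fun n => (F n).r with hr
  have hM1 : ∀ n, 1 ≤ M n := fun n => (hOk n).M1
  have hrp : ∀ n, 0 < r n := fun n => (hOk n).r0
  have hrle : ∀ n, r n ≤ 1 / 2 ^ (m n + M n) := fun n => (hOk n).rle
  have hmt : ∀ n, m n ≤ m n + M n := fun n => Nat.le_add_right _ _
  let B : Base :=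
    { d := fun n => (1 / 2 : ℝ) ^ (M n)
      pos := fun n => by positivity
      lt := fun n => pow_lt_one₀ (by norm_num) (by norm_num) (by have := hM1 n; omega)
      lim0 := by
        have h1 : Tendsto (fun n : ℕ => (1 / 2 : ℝ) ^ n) atTop (𝓝 0) :=
          tendsto_pow_atTop_nhds_zero_of_lt_one (by norm_num) (by norm_num)
        refine squeeze_zero (fun n => by positivity) (fun n => ?_) (h1.mono_left U_le_atTop)
        exact pow_le_pow_of_le_one (by norm_num) (by norm_num) (hMn n) }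
  have hBd' : ∀ n, B.d n = (1 / 2 : ℝ) ^ (M n) := fun n => rfl
  have hdn : ∀ n, B.d n = (2 : ℝ) ^ (-(M n : ℝ)) := fun n => by
    rw [hBd' n, Real.rpow_neg (by norm_num), Real.rpow_natCast, one_div, inv_pow]
  have hdpow : ∀ (n : ℕ) (s : ℝ), B.d n ^ s = (2 : ℝ) ^ (-(M n : ℝ) * s) := fun n s => by
    rw [hdn n, ← Real.rpow_mul two_pos.le]
  -- the coarse cell
  have hJ0ex : ∀ n, ∃ J0 : ℤ, ∀ x ∈ (F n).I, zc (m n) x.2 = J0 := by
    intro n
    obtain ⟨x, hx⟩ := (hOk n).ne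
    exact ⟨zc (m n) x.2, fun y hy => (hOk n).cell y hy x hx⟩
  choose J0 hJ0 using hJ0ex
  -- the thinned family
  set I₁ : ∀ n : ℕ, Finset (Ln × ℝ) := fun n => thin (m n + M n) (F n).I with hI₁
  have hpoly : ∃ C : ℝ, ∀ᶠ n in (U : Filter ℕ), ((I₁ n).card : ℝ) ≤ B.d n ^ (-C) ∧
      B.d n ^ C ≤ r n * 2 ^ (m n) := by
    refine ⟨max |C| |R|, Eventually.of_forall fun n => ⟨?_, ?_⟩⟩
    · have h1 : ((I₁ n).card : ℝ) ≤ ((F n).I.card : ℝ) := by exact_mod_cast thin_card_le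
      refine h1.trans ((hcard n).trans ?_)
      rw [hdpow]
      refine Real.rpow_le_rpow_of_exponent_le (by norm_num) ?_
      have h2 : C ≤ max |C| |R| := (le_abs_self C).trans (le_max_left _ _)
      have h3 : (0 : ℝ) ≤ M n := Nat.cast_nonneg _
      nlinarith
    · rw [hdpow]
      have h1 : (2 : ℝ) ^ (-((m n : ℝ) + R * M n)) * 2 ^ (m n) ≤ r n * 2 ^ (m n) :=
        mul_le_mul_of_nonneg_right (hres n) (by positivity)
      refine le_trans ?_ h1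
      rw [← Real.rpow_natCast 2 (m n), ← Real.rpow_add two_pos]
      refine Real.rpow_le_rpow_of_exponent_le (by norm_num) ?_
      have h2 : R ≤ max |C| |R| := (le_abs_self R).trans (le_max_right _ _)
      have h3 : (0 : ℝ) ≤ M n := Nat.cast_nonneg _
      nlinarith
  have hI₁zc : ∀ n, ∀ x ∈ I₁ n, zc (m n) x.2 = J0 n := fun n x hx =>
    thin_zc (hmt n) (hJ0 n) hx
  have hfam1 : Fam B m M r I₁ :=
    ⟨hBd', hrp, hrle, hpoly,
      Eventually.of_forall fun n => thin_nonempty (hOk n).ne,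
      Eventually.of_forall fun n x hx y hy => (hI₁zc n x hx).trans (hI₁zc n y hy).symm⟩
  have hI₁c := hfam1.card_pb
  -- uniform part
  obtain ⟨I, hdI, hUI⟩ := exists_unif hI₁c
    (fun (j : ℕ) (n : ℕ) => enc (m n) (m n + M n) (J0 n) (r n) j)
  have hfamI : Fam B m M r I := hfam1.dense hdI
  have hIc := hfamI.card_pb
  have hrefl : ∀ᶠ n in (U : Filter ℕ), I n ⊆ I n := Eventually.of_forall fun n => Subset.refl _
  classical
  obtain ⟨J, hJs, hdJ, -, hJp⟩ := Unif.prune (m := 3)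
    (f := fun (j : Fin 3) (n : ℕ) => enc (m n) (m n + M n) (J0 n) (r n) j) hIc
    (fun j => hUI j) (Dense.refl B I)
  have hdJ1 : Dense B J I₁ := hdJ.trans hdI
  have hfamJ : Fam B m M r J := hfam1.dense hdJ1
  -- representatives
  choose ρ hρ using fun n => exists_rep (m n) (J0 n) (r n) (J n)
  obtain ⟨J1, hJ1⟩ : ∃ J1 : ∀ n : ℕ, Finset (Ln × ℝ), ∀ n, J1 n =
    (J n).image (phi (m n) (m n + M n) (J0 n) (r n) (ρ n)) := ⟨_, fun n => rfl⟩
  have hJ1m : ∀ n, ∀ x ∈ J1 n, ∃ y ∈ J n, phi (m n) (m n + M n) (J0 n) (r n) (ρ n) y = x := by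
    intro n x hx
    rw [hJ1 n] at hx
    exact mem_image.1 hx
  have hJ1zc : ∀ᶠ n in (U : Filter ℕ), ∀ x ∈ J1 n, zc (m n) x.2 = J0 n := by
    filter_upwards [hdJ1.1] with n hn x hx
    obtain ⟨y, hy, rfl⟩ := hJ1m n x hx
    exact (zc_zm_of (hmt n) _).trans (hI₁zc n y (hn hy))
  have hfamJ1 : Fam B m M r J1 := by
    obtain ⟨C', hC'⟩ := hfamJ.poly
    refine ⟨hBd', hrp, hrle, ⟨C', ?_⟩, ?_, ?_⟩
    · filter_upwards [hC'] with n hn
      rw [hJ1 n]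
      exact ⟨le_trans (by exact_mod_cast card_image_le) hn.1, hn.2⟩
    · filter_upwards [hfamJ.ne] with n hn
      rw [hJ1 n]
      exact hn.image _
    · filter_upwards [hJ1zc] with n hn x hx y hy
      exact (hn x hx).trans (hn y hy).symm
  -- the stable part of the bundled family
  set bx : ∀ n : ℕ, Ln → Fin 4 → ℤ := fun n t => tb (m n) (J0 n) (1 / 2 ^ (m n)) t with hbx
  have hPJ1 : PAdm B (fun n => kG p (m n) (m n + M n) (r n) (bx n) hp (hrp n)) J1 :=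
    padmG hfamJ1 hp bx
  obtain ⟨J2, hdJ2, hst, hun⟩ := exists_calc hfamJ1.card_pb
    (fun _ n J => (kG p (m n) (m n + M n) (r n) (bx n) hp (hrp n)).Dmax J)
    (fun _ => monoF_Dmax hPJ1) (fun _ n => K294.ob (m n))
  have hfamJ2 : Fam B m M r J2 := hfamJ1.dense hdJ2
  have hJ2c := hfamJ2.card_pb
  have hrefl2 : ∀ᶠ n in (U : Filter ℕ), J2 n ⊆ J2 n := Eventually.of_forall fun n => Subset.refl _
  have hPJ2 : PAdm B (fun n => kG p (m n) (m n + M n) (r n) (bx n) hp (hrp n)) J2 :=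
    padmG hfamJ2 hp bx
  -- one incidence per object
  have hone : ∀ n, ∀ x ∈ J1 n, ∀ y ∈ J1 n,
      K294.ob (m n + M n) x = K294.ob (m n + M n) y → x = y := fun n => one_fin (hJ1m n)
  have hUob : Unif B (fun n => (kG p (m n) (m n + M n) (r n) (bx n) hp (hrp n)).ob) J2 := by
    refine (Unif.of_bounds (X := fun _ => 1) (Y := fun _ => 1) hJ2c (Base.PB.const one_pos)
      (Base.PB.const one_pos) rfl ?_).1
    filter_upwards [hdJ2.1] with n h2 x hx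
    have h3 : ((J2 n).filter fun y => (kG p (m n) (m n + M n) (r n) (bx n) hp (hrp n)).ob y =
        (kG p (m n) (m n + M n) (r n) (bx n) hp (hrp n)).ob x) = {x} := by
      ext y
      rw [mem_filter, mem_singleton]
      constructor
      · rintro ⟨hy, h⟩; exact hone n y (h2 hy) x (h2 hx) h
      · rintro rfl; exact ⟨hx, rfl⟩
    have h4 : ∀ (N : ℕ), N = 1 → (1 : ℝ) ≤ N ∧ (N : ℝ) ≤ 1 := by
      rintro N rfl; simp
    refine h4 _ ?_
    rw [← card_singleton x, ← h3]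
  have hPne : ∀ (j : ℕ) (n : ℕ), Nonempty (kG p (m n) (m n + M n) (r n) (bx n) hp (hrp n)).κ :=
    fun j n => ⟨(⟨baseK (m n + M n) (r n) (0, 0), baseK_legal (hrle n) _⟩, 0)⟩
  obtain ⟨J3, hJ3, cl, hcl⟩ := Ps627.exists_honest hJ2c
    (fun _ n => kG p (m n) (m n + M n) (r n) (bx n) hp (hrp n)) hPne (fun _ => hPJ2)
    (fun _ => hst 0) (fun _ => hUob) (fun _ n => K294.ob (m n)) (fun _ => hun 0)
  obtain ⟨hclm, hcle⟩ := hcl 0
  have hJ3ne : ∀ᶠ n in (U : Filter ℕ), (J3 n).Nonempty := by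
    filter_upwards [hJ3, hfamJ2.ne] with n h1 h2
    have h3 : (0 : ℝ) < (J2 n).card := by exact_mod_cast card_pos.2 h2
    have h4 : (0 : ℝ) < (J3 n).card := by linarith [h1.2]
    exact card_pos.1 (by exact_mod_cast h4)
  -- the numbers
  have hP0A : PAdm B (fun n => kP p (m n) (m n) (r n) (1 / 2 ^ (m n)) hp (hrp n)) I :=
    padm0 hfamI hp _
  set Z : ℕ → ℝ := fun n => (kP p (m n) (m n) (r n) (1 / 2 ^ (m n)) hp (hrp n)).Dmax (I n) with hZ
  set X : ℕ → ℝ := fun n => (kG p (m n) (m n + M n) (r n) (bx n) hp (hrp n)).Dmax (J2 n) with hX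
  set a : ℕ → ℝ := fun n => (cmax (enc (m n) (m n + M n) (J0 n) (r n) 0) (I n) : ℝ) with ha
  set T : ℕ → ℝ := fun n => (cmax (enc (m n) (m n + M n) (J0 n) (r n) 2) (I n) : ℝ) with hT
  set c2 : ℕ → ℝ := fun n => (cmax (K294.ob (m n)) (J2 n) : ℝ) with hc2
  have pbZ : B.PB Z := (monoF_Dmax hP0A).pb hrefl hfamI.ne
  have pbX : B.PB X := (monoF_Dmax hPJ2).pb hrefl2 hfamJ2.ne
  have pba : B.PB a :=
    (monoF_cmax hIc (fun n => enc (m n) (m n + M n) (J0 n) (r n) 0)).pb hrefl hfamI.ne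
  have pbT : B.PB T :=
    (monoF_cmax hIc (fun n => enc (m n) (m n + M n) (J0 n) (r n) 2)).pb hrefl hfamI.ne
  have pbc2 : B.PB c2 := (monoF_cmax hJ2c (fun n => K294.ob (m n))).pb hrefl2 hfamJ2.ne
  set ε : ℝ := η / 38 with hε
  have hεp : 0 < ε := by rw [hε]; linarith
  set E : ℕ → ℝ := fun n => B.d n ^ ε with hE
  have hEp : ∀ n, 0 < E n := fun n => dpow_pos B n ε
  have pbE : B.PB E := Base.PB.dpow ε
  set D0 : ℕ → ℝ := fun n => 2401 * (Z n * 4 ^ (m n)) * (a n / (E n * T n)) with hD0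
  set D1 : ℕ → ℝ := fun n => E n * X n * 4 ^ (m n) with hD1
  set nu : ℕ → ℝ := fun n => E n * c2 n with hnu
  have hYe : ∀ᶠ n in (U : Filter ℕ), D1 n * nu n ^ 2 / D0 n =
      E n * X n * nu n ^ 2 * (E n * T n / a n) / (2401 * Z n) := by
    filter_upwards [pbZ.pos, pba.pos, pbT.pos] with n h1 h2 h3
    have := hEp n
    simp only [hD1, hD0]
    field_simp
  have pbY' : B.PB (fun n => E n * X n * nu n ^ 2 * (E n * T n / a n) / (2401 * Z n)) :=
    (((pbE.mul pbX).mul ((pbE.mul pbc2).pow 2)).mul ((pbE.mul pbT).div pba)).div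
      ((Base.PB.const (by norm_num)).mul pbZ)
  have pbY : B.PB (fun n => D1 n * nu n ^ 2 / D0 n) :=
    pbY'.congr (hYe.mono fun n hn => hn.symm)
  -- the windows
  have hIzc : ∀ᶠ n in (U : Filter ℕ), ∀ x ∈ I n, zc (m n) x.2 = J0 n := by
    filter_upwards [hdI.1] with n hn x hx
    exact hI₁zc n x (hn hx)
  have hJ2im : ∀ᶠ n in (U : Filter ℕ),
      J2 n ⊆ (J n).image (phi (m n) (m n + M n) (J0 n) (r n) (ρ n)) := by
    filter_upwards [hdJ2.1] with n hn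
    rw [← hJ1 n]
    exact hn
  have hev : ∀ᶠ n in (U : Filter ℕ), J3 n ⊆ J2 n ∧ (J3 n).Nonempty ∧ 0 < D0 n ∧ 0 < D1 n ∧
      0 < nu n ∧
      (∀ x ∈ J3 n, Legal (m n + M n) (r n) (cl 0 n (K294.ob (m n + M n) x)).1.1) ∧
      (∀ x ∈ J3 n, InK (m n + M n) (cl 0 n (K294.ob (m n + M n) x)).1.1
        (K294.ob (m n + M n) x)) ∧
      (∀ x ∈ J3 n, ∀ y ∈ J3 n, cl 0 n (K294.ob (m n + M n) y) = cl 0 n (K294.ob (m n + M n) x) →
        bx n y.1 = bx n x.1) ∧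
      (∀ x ∈ J3 n, D1 n * cap p (m n + M n) (cl 0 n (K294.ob (m n + M n) x)).1.1 ≤
        (((((J3 n).image (K294.ob (m n + M n))).filter
          fun o => cl 0 n o = cl 0 n (K294.ob (m n + M n) x)).card : ℕ) : ℝ)) ∧
      (∀ x ∈ J3 n, nu n ≤ (ownc (m n) (m n + M n) (J3 n) x : ℝ)) ∧
      (∀ K, Legal (m n) (r n) K →
        ((K294.objs (m n) (J3 n) K).card : ℝ) ≤ D0 n * cap p (m n) K) := by
    filter_upwards [hJ3, hJ3ne, pbZ.pos, pbX.pos, hclm, hcle ε hεp, hJp ε hεp, hIzc, hJ2im]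
      with n g1 g2 g3 g4 g8 g9 g10 g11 g12
    obtain ⟨e1, e2, e3, e4, e5, e6, e7, e8, e9, e10, e11⟩ :=
      hev_fin hp (hrp n) (hEp n) (hJs n) g2 g11 (hρ n) g10 g12 g1.1 g3 g4 (cl 0 n) g8
      (fun x hx => (g9 x hx).1.trans (le_of_eq (congrArg Nat.cast
          (card_inst _ _ (J3 n) (K294.ob (m n + M n)) (fun o => cl 0 n o) _ _ _))))
      (fun x hx => by convert (g9 x hx).2.2)
    exact ⟨e1, e2, e3, e4, e5, e6, e7, e8, fun x hx => (e9 x hx).trans (le_of_eq (congrArg Nat.cast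
          (card_inst _ _ (J3 n) (K294.ob (m n + M n)) (fun o => cl 0 n o) _ _ _))), e10, e11⟩
  obtain ⟨G, hG1, hG2, hG3⟩ := window_of_classes hfamJ2 (q := p) (u := 0) (v := 1) le_rfl
    zero_lt_one le_rfl (I' := J3) (fun n => cl 0 n) (fun n K => K.1.1) bx
    (D0 := D0) (D1 := D1) (nu := nu) (hev.mono fun n hn => by
      obtain ⟨e1, e2, e3, e4, e5, e6, e7, e8, e9, e10, e11⟩ := hn
      simp only [lv_one, lv_zero]
      exact ⟨e1, e2, e3, e4, e5, e6, e7, e8, fun x hx => (e9 x hx).trans (le_of_eq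
        (congrArg Nat.cast (card_inst _ _ (J3 n) (K294.ob (m n + M n)) (fun o => cl 0 n o)
          _ _ _))), e10, e11⟩) pbY
  -- the size of the windows
  have hGsz : ∀ᶠ n in (U : Filter ℕ), (G n).val ≤ b + η / 4 := by
    obtain ⟨M0, hM0⟩ := hBd (η / 4) (by linarith)
    filter_upwards [hG1, hJ3, hdJ2.1, hIzc, ev_ge (max M0 4)] with n k1 k2 k3 k4 k5
    obtain ⟨e1, e2, e3, e4, e5, e6⟩ := k1
    simp only [lv_one, lv_zero] at e2 e3
    exact gsz_fin hM0 e1 (hrp n) (hrle n) e2 (by rw [e3]; omega) e4 (k5.trans (hMn n)) (hres n)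
      (fun x hx => k4 x (hJs n hx)) (hρ n) (fun x hx => hJ1m n x (k3 (k2.1 (e5 hx)))) e6
  have hle : B.ex (fun n => D1 n * nu n ^ 2 / D0 n) / (1 - 0) - 2 ≤ b + η / 4 :=
    le_of_tendsto hG3 hGsz
  -- the lower bound
  have hlow : ∀ᶠ n in (U : Filter ℕ), B.d n ^ (19 * ε) * (1 / (2401 * (2401 * 28561))) *
      B.d n ^ (-(2 + b + η)) ≤ D1 n * nu n ^ 2 / D0 n := by
    filter_upwards [hev, hJp ε hεp, hdI.1, hdJ2.2 ε hεp, hdJ1.2 ε hεp, hdI.2 ε hεp, hfamJ.ne,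
      hfamJ2.ne, hJ2im] with n g1 g2 g3 g4 g5 g6 g7 g8 g9
    refine low_num (hdn n) rfl (val_ge (hOk n) (hval n)) ?_
    refine bundle_ge hp (hOk n) (hJ0 n) g3 (hJs n) g7 (hρ n) (hEp n) g2 g9 g8 g6 g5 ?_ g1.2.2.1
    rw [hJ1 n] at g4
    exact g4
  have pbl : B.PB (fun n => B.d n ^ (19 * ε) * (1 / (2401 * (2401 * 28561))) *
      B.d n ^ (-(2 + b + η))) :=
    ((Base.PB.dpow _).mul (Base.PB.const (by norm_num))).mul (Base.PB.dpow _)
  have hge := Base.ex_le pbl pbY hlow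
  rw [Base.ex_mul ((Base.PB.dpow _).mul (Base.PB.const (by norm_num))) (Base.PB.dpow _),
    Base.ex_mul (Base.PB.dpow _) (Base.PB.const (by norm_num)), Base.ex_dpow, Base.ex_dpow,
    Base.ex_const] at hge
  have h19 : 19 * ε = η / 2 := by rw [hε]; ring
  rw [h19] at hge
  have : B.ex (fun n => D1 n * nu n ^ 2 / D0 n) / (1 - 0) =
      B.ex (fun n => D1 n * nu n ^ 2 / D0 n) := by norm_num
  rw [this] at hle
  linarith

/-- **hB** of `K294.ubx`. -/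
theorem hB : ∀ L0 q0 : ℝ, 0 < q0 → ∃ C0 : ℝ, ∀ p, q0 ≤ p → p ≤ 2 → ∀ b, 0 ≤ b →
    Bd p b L0 C0 → ∀ C, Bd p b L0 C := by
  intro L0 q0 hq0
  exact ⟨4 * |L0| + 3, fun p hp _ b hb h => bun (hq0.le.trans hp) hb h⟩

end Crest.Agent.R138.Bun926
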