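import Crest.Agent.R138.Ps2_627

/-!
# R138, TEXT I (helper294): the bundle lemma, finite combinatorial part

Objects `O ⊆ lines × cells`, labels `cl`, tubes `T : lines → τ`.  New objects = (tube, cell).
-/

set_option autoImplicit false
set_option linter.unusedVariables false

open Finset

namespace Crest.Agent.R138.Bun294

open Crest.Agent.R138.Ps627

open Classical in
/-- popular colour + pruning -/
theorem pop_prune {α γ M η : Type} [Fintype M] (h : M → α → η) (O : Finset α) (hO : O.Nonempty)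
    (col : α → γ) (T : Finset γ) (hT : ∀ o ∈ O, col o ∈ T) {δ : ℝ} (hδ0 : 0 < δ)
    (hδ : 2 * (Fintype.card M : ℝ) * δ * T.card ≤ 1) :
    ∃ c ∈ T, ∃ A ⊆ O, A.Nonempty ∧ (∀ o ∈ A, col o = c) ∧ ∀ i, ∀ x ∈ A,
      δ * ((O.filter fun y => h i y = h i x).card : ℝ) ≤
        ((A.filter fun y => h i y = h i x).card : ℝ) := by
  have hO0 : (0:ℝ) < O.card := by exact_mod_cast hO.card_pos
  have hT0 : 0 < T.card := by
    obtain ⟨o, ho⟩ := hO
    exact card_pos.2 ⟨_, hT o ho⟩
  have hT0' : (0:ℝ) < T.card := by exact_mod_cast hT0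
  obtain ⟨c, hc, hpop⟩ : ∃ c ∈ T, (O.card : ℝ) ≤ T.card * ((O.filter fun o => col o = c).card : ℝ) := by
    by_contra hcon
    push Not at hcon
    have h1 : (O.card : ℝ) = ∑ c ∈ T, ((O.filter fun o => col o = c).card : ℝ) := by
      rw [card_eq_sum_card_fiberwise (f := col) (t := T) (s := O) (fun o ho => hT o ho)]
      push_cast; rfl
    have h2 : ∑ c ∈ T, (T.card : ℝ) * ((O.filter fun o => col o = c).card : ℝ) <
        ∑ c ∈ T, (O.card : ℝ) :=
      sum_lt_sum_of_nonempty (card_pos.1 hT0) fun c hc => hcon c hc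
    rw [← mul_sum, ← h1, sum_const, nsmul_eq_mul] at h2
    exact lt_irrefl _ h2
  obtain ⟨A', hA'A, hloss, hfib⟩ := prune_rel h (filter_subset (fun o => col o = c) O) hδ0.le
  refine ⟨c, hc, A', hA'A.trans (filter_subset _ _), ?_, fun o ho => (mem_filter.1 (hA'A ho)).2,
    fun i x hx => hfib i x hx⟩
  rw [← card_pos]
  set a : ℝ := ((O.filter fun o => col o = c).card : ℝ) with ha
  have ha0 : 0 < a := by
    by_contra h5
    push Not at h5
    have : (T.card : ℝ) * a ≤ 0 := mul_nonpos_of_nonneg_of_nonpos hT0'.le h5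
    linarith
  have h3 : (Fintype.card M : ℝ) * δ * O.card ≤ a / 2 := by
    have h4 : (Fintype.card M : ℝ) * δ * O.card ≤ (Fintype.card M : ℝ) * δ * (T.card * a) := by
      gcongr
    have h5 : (Fintype.card M : ℝ) * δ * (T.card * a) = (2 * (Fintype.card M : ℝ) * δ * T.card) * a / 2 := by
      ring
    rw [h5] at h4
    have h6 : (2 * (Fintype.card M : ℝ) * δ * T.card) * a ≤ 1 * a :=
      mul_le_mul_of_nonneg_right hδ ha0.le
    linarith
  have h1 : (0:ℝ) < A'.card := by linarith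
  exact_mod_cast h1

theorem cfm {α ο : Type*} [DecidableEq ο] (ob : α → ο) (I : Finset α) (p : ο → Prop)
    [DecidablePred p] {n₂ : ℝ}
    (h : ∀ x ∈ I, ((I.filter fun y => ob y = ob x).card : ℝ) ≤ n₂) :
    ((I.filter fun x => p (ob x)).card : ℝ) ≤ n₂ * (((I.image ob).filter p).card : ℝ) := by
  have := card_filter_le_mul ob I p (n₂ := n₂) (fun x hx => by convert h x hx)
  convert this

theorem cfm1 {α ο : Type*} [DecidableEq ο] (ob : α → ο) (I : Finset α) {n₂ : ℝ}
    (h : ∀ x ∈ I, ((I.filter fun y => ob y = ob x).card : ℝ) ≤ n₂) :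
    (I.card : ℝ) ≤ n₂ * ((I.image ob).card : ℝ) := by
  have := cfm ob I (fun _ => True) h
  simpa using this

theorem mcf {α ο : Type*} [DecidableEq ο] (ob : α → ο) (I : Finset α) (p : ο → Prop)
    [DecidablePred p] {n₁ : ℝ}
    (h : ∀ x ∈ I, n₁ ≤ ((I.filter fun y => ob y = ob x).card : ℝ)) :
    n₁ * (((I.image ob).filter p).card : ℝ) ≤ ((I.filter fun x => p (ob x)).card : ℝ) := by
  have := mul_card_filter_le ob I p (n₁ := n₁) (fun x hx => by convert h x hx)
  convert this

theorem mcf1 {α ο : Type*} [DecidableEq ο] (ob : α → ο) (I : Finset α) {n₁ : ℝ}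
    (h : ∀ x ∈ I, n₁ ≤ ((I.filter fun y => ob y = ob x).card : ℝ)) :
    n₁ * ((I.image ob).card : ℝ) ≤ (I.card : ℝ) := by
  have := mcf ob I (fun _ => True) h
  simpa using this

open Classical in
/-- **bundle lemma**, finite combinatorial form. -/
theorem bundle {Λ κ τ : Type} (O : Finset (Λ × κ)) (hO : O.Nonempty) (cl : Λ × κ → ℕ)
    (T : Λ → τ) {n1 ν : ℝ} (hn1 : 0 < n1)
    (hcls : ∀ o ∈ O, n1 ≤ ((O.filter fun o' => cl o' = cl o).card : ℝ))
    (hown : ∀ o ∈ O, ν ≤ ((O.filter fun o' => o'.1 = o.1).card : ℝ)) :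
    ∃ (W : ℝ) (A : Finset (τ × κ)) (g : τ × κ → ℕ), 0 < W ∧ A.Nonempty ∧
      (∀ a ∈ A, ∃ o ∈ O, T o.1 = a.1 ∧ o.2 = a.2 ∧ cl o = g a) ∧
      (∀ a ∈ A, 1 / (2304 * ((Nat.log 2 O.card : ℝ) + 1) ^ 4) * n1 / W ≤
        ((A.filter fun a' => g a' = g a).card : ℝ)) ∧
      (∀ a ∈ A, 1 / (2304 * ((Nat.log 2 O.card : ℝ) + 1) ^ 4) * ν ≤
        ((A.filter fun a' => a'.1 = a.1).card : ℝ)) ∧
      (∀ S ⊆ A.image Prod.fst, (S.card : ℝ) *
        (1 / (2304 * ((Nat.log 2 O.card : ℝ) + 1) ^ 4) * W) ≤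
        (((O.image Prod.fst).filter fun l => T l ∈ S).card : ℝ)) := by
  set K : ℕ := Nat.log 2 O.card with hK
  set δ : ℝ := 1 / (6 * ((K:ℝ) + 1) ^ 2) with hδ
  have hK0 : (0:ℝ) ≤ K := Nat.cast_nonneg _
  have hδ0 : 0 < δ := by positivity
  have hδ1 : δ ≤ 1 := by
    rw [hδ, div_le_one (by positivity)]
    nlinarith
  have hδδ : 1 / (2304 * ((K:ℝ) + 1) ^ 4) = δ ^ 2 / 64 := by
    rw [hδ]; field_simp; norm_num
  rw [hδδ]
  set φ : Λ × κ → τ × κ := fun o => (T o.1, o.2) with hφ
  set TT : Finset (ℕ × ℕ) := range (K + 1) ×ˢ range (K + 1) with hTT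
  have hTTc : (TT.card : ℝ) = ((K:ℝ) + 1) ^ 2 := by
    rw [hTT, card_product, card_range]; push_cast; ring
  -- colours and first pruning
  obtain ⟨c, hc, A1, hA1O, hA1ne, hcol, hfib⟩ := pop_prune (M := Fin 3) (η := ℕ ⊕ (Λ ⊕ (τ × κ)))
    (fun i o => match i with
      | 0 => Sum.inl (cl o) | 1 => Sum.inr (Sum.inl o.1) | 2 => Sum.inr (Sum.inr (φ o))) O hO
    (fun o => (Nat.log 2 (O.filter fun o' => o'.1 = o.1).card,
      Nat.log 2 (O.filter fun o' => φ o' = φ o).card)) TT (fun o ho => by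
        rw [hTT, mem_product, mem_range, mem_range]
        refine ⟨Nat.lt_succ_of_le ?_, Nat.lt_succ_of_le ?_⟩
        · show Nat.log 2 _ ≤ Nat.log 2 _
          exact Nat.log_mono_right (card_le_card (filter_subset _ _))
        · show Nat.log 2 _ ≤ Nat.log 2 _
          exact Nat.log_mono_right (card_le_card (filter_subset _ _))) hδ0 (by
        rw [hTTc, Fintype.card_fin, hδ]
        have : ((K:ℝ) + 1) ^ 2 ≠ 0 := by positivity
        have e : 2 * ((3:ℕ):ℝ) * (1 / (6 * ((K:ℝ) + 1) ^ 2)) * ((K:ℝ) + 1) ^ 2 = 1 := by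
          push_cast; field_simp; norm_num
        rw [e])
  have hf0 : ∀ o ∈ A1, δ * ((O.filter fun o' => cl o' = cl o).card : ℝ) ≤
      ((A1.filter fun o' => cl o' = cl o).card : ℝ) := by
    intro o ho
    have := hfib 0 o ho
    simpa only [Sum.inl.injEq] using this
  have hf1 : ∀ o ∈ A1, δ * ((O.filter fun o' => o'.1 = o.1).card : ℝ) ≤
      ((A1.filter fun o' => o'.1 = o.1).card : ℝ) := by
    intro o ho
    have := hfib 1 o ho
    simpa only [Sum.inr.injEq, Sum.inl.injEq] using this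
  have hf2 : ∀ o ∈ A1, δ * ((O.filter fun o' => φ o' = φ o).card : ℝ) ≤
      ((A1.filter fun o' => φ o' = φ o).card : ℝ) := by
    intro o ho
    have := hfib 2 o ho
    simpa only [Sum.inr.injEq] using this
  -- dyadic values
  set ν0 : ℝ := 2 ^ c.1 with hν0
  set W : ℝ := 2 ^ c.2 with hW
  have hν0p : 0 < ν0 := by positivity
  have hWp : 0 < W := by positivity
  have hlog : ∀ (s : Finset (Λ × κ)) (k : ℕ), s.Nonempty → Nat.log 2 s.card = k →
      (2:ℝ) ^ k ≤ s.card ∧ (s.card : ℝ) ≤ 2 * 2 ^ k := by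
    intro s k hs hk
    have hs0 : s.card ≠ 0 := hs.card_pos.ne'
    constructor
    · rw [← hk]; exact_mod_cast Nat.pow_log_le_self 2 hs0
    · have := Nat.lt_pow_succ_log_self (b := 2) one_lt_two s.card
      rw [hk, pow_succ, mul_comm] at this
      exact_mod_cast this.le
  have hmem1 : ∀ o ∈ A1, (O.filter fun o' => o'.1 = o.1).Nonempty := fun o ho =>
    ⟨o, mem_filter.2 ⟨hA1O ho, rfl⟩⟩
  have hmem2 : ∀ o ∈ A1, (O.filter fun o' => φ o' = φ o).Nonempty := fun o ho =>
    ⟨o, mem_filter.2 ⟨hA1O ho, rfl⟩⟩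
  have hv1 : ∀ o ∈ A1, ν0 ≤ ((O.filter fun o' => o'.1 = o.1).card : ℝ) ∧
      ((O.filter fun o' => o'.1 = o.1).card : ℝ) ≤ 2 * ν0 := by
    intro o ho
    exact hlog _ _ (hmem1 o ho) (by rw [← hcol o ho])
  have hw1 : ∀ o ∈ A1, W ≤ ((O.filter fun o' => φ o' = φ o).card : ℝ) ∧
      ((O.filter fun o' => φ o' = φ o).card : ℝ) ≤ 2 * W := by
    intro o ho
    exact hlog _ _ (hmem2 o ho) (by rw [← hcol o ho])
  -- fibres of `A1`
  have up1 : ∀ o ∈ A1, ((A1.filter fun o' => o'.1 = o.1).card : ℝ) ≤ 2 * ν0 := fun o ho =>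
    (Nat.cast_le.2 (card_le_card (filter_subset_filter _ hA1O))).trans (hv1 o ho).2
  have up2 : ∀ o ∈ A1, ((A1.filter fun o' => φ o' = φ o).card : ℝ) ≤ 2 * W := fun o ho =>
    (Nat.cast_le.2 (card_le_card (filter_subset_filter _ hA1O))).trans (hw1 o ho).2
  have lo2 : ∀ o ∈ A1, δ * W ≤ ((A1.filter fun o' => φ o' = φ o).card : ℝ) := fun o ho =>
    (mul_le_mul_of_nonneg_left (hw1 o ho).1 hδ0.le).trans (hf2 o ho)
  have lo1 : ∀ o ∈ A1, δ * ν0 ≤ ((A1.filter fun o' => o'.1 = o.1).card : ℝ) := fun o ho =>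
    (mul_le_mul_of_nonneg_left (hv1 o ho).1 hδ0.le).trans (hf1 o ho)
  have lo1' : ∀ o ∈ A1, δ * ν ≤ ((A1.filter fun o' => o'.1 = o.1).card : ℝ) := fun o ho =>
    (mul_le_mul_of_nonneg_left (hown o (hA1O ho)) hδ0.le).trans (hf1 o ho)
  have lo0 : ∀ o ∈ A1, δ * n1 ≤ ((A1.filter fun o' => cl o' = cl o).card : ℝ) := fun o ho =>
    (mul_le_mul_of_nonneg_left (hcls o (hA1O ho)) hδ0.le).trans (hf0 o ho)
  -- new objects
  set O' : Finset (τ × κ) := A1.image φ with hO'
  have hA1W : (A1.card : ℝ) ≤ 2 * W * O'.card := cfm1 φ A1 up2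
  have hO'A : δ * W * O'.card ≤ (A1.card : ℝ) := mcf1 φ A1 lo2
  -- greedy assignment
  set θ : ℝ := δ * n1 / (8 * W) with hθ
  have hθ0 : 0 < θ := by positivity
  obtain ⟨g0, hg1, hg2, hg3⟩ := greedy (fun (k : ℕ) (o' : τ × κ) => ∃ o ∈ A1, φ o = o' ∧ cl o = k)
    (fun _ => (1:ℝ)) (fun _ => one_pos) hθ0 O'
  simp only [mul_one] at hg2 hg3
  have hg3' : ∀ k, ((O'.filter fun a => g0 a = none ∧ ∃ o ∈ A1, φ o = a ∧ cl o = k).card : ℝ) < θ := by
    intro k; convert hg3 k
  have hg2' : ∀ (o : τ × κ) (K : ℕ), g0 o = some K →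
      θ ≤ ((O'.filter fun o' => g0 o' = some K).card : ℝ) := by
    intro o K hoK; convert hg2 o K hoK
  set P : Finset (Λ × κ) := A1.filter fun o => g0 (φ o) = none with hP
  -- the unassigned part is small
  have hPsmall : (P.card : ℝ) ≤ A1.card / 4 := by
    have h1 : (P.card : ℝ) ≤ ((A1.image cl).card : ℝ) * (2 * W * θ) := by
      have e : (P.card : ℝ) = ∑ k ∈ A1.image cl, ((P.filter fun o => cl o = k).card : ℝ) := by
        rw [card_eq_sum_card_fiberwise (f := cl) (s := P) (t := A1.image cl) (fun o ho => by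
          exact mem_image_of_mem _ (filter_subset _ _ ho))]
        push_cast; rfl
      rw [e]
      calc ∑ k ∈ A1.image cl, ((P.filter fun o => cl o = k).card : ℝ) ≤
            ∑ k ∈ A1.image cl, 2 * W * θ := by
            refine sum_le_sum fun k hk => ?_
            have h2 : ((P.filter fun o => cl o = k).card : ℝ) ≤
                2 * W * (((P.filter fun o => cl o = k).image φ).card : ℝ) := by
              refine cfm1 φ (P.filter fun o => cl o = k) (fun x hx => ?_)
              have hPA : P ⊆ A1 := filter_subset _ _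
              have hsub : (P.filter fun o => cl o = k) ⊆ A1 := (filter_subset _ _).trans hPA
              exact (Nat.cast_le.2 (card_le_card (filter_subset_filter _ hsub))).trans
                (up2 x (hsub hx))
            have h3 : (((P.filter fun o => cl o = k).image φ).card : ℝ) ≤ θ := by
              refine le_trans (Nat.cast_le.2 (card_le_card ?_)) (hg3' k).le
              intro a ha
              obtain ⟨o, ho, rfl⟩ := mem_image.1 ha
              rw [mem_filter, hP, mem_filter] at ho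
              exact mem_filter.2 ⟨mem_image_of_mem _ ho.1.1, ho.1.2, o, ho.1.1, rfl, ho.2⟩
            exact h2.trans (mul_le_mul_of_nonneg_left h3 (by positivity))
        _ = _ := by rw [sum_const, nsmul_eq_mul]
    have h2 : ((A1.image cl).card : ℝ) * (δ * n1) ≤ A1.card := by
      have := mcf1 cl A1 lo0
      linarith
    have h3 : 2 * W * θ = δ * n1 / 4 := by rw [hθ]; field_simp; ring
    rw [h3] at h1
    linarith
  set R : Finset (τ × κ) := O'.filter fun a => g0 a ≠ none with hR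
  have hRge : 3 / 8 * δ * O'.card ≤ (R.card : ℝ) := by
    have h1 : ((A1.filter fun o => g0 (φ o) ≠ none).card : ℝ) ≤ 2 * W * R.card :=
      cfm φ A1 (fun a => g0 a ≠ none) up2
    have h2 : (A1.card : ℝ) = P.card + ((A1.filter fun o => g0 (φ o) ≠ none).card : ℝ) := by
      rw [hP]
      exact_mod_cast (card_filter_add_card_filter_not (s := A1) (fun o => g0 (φ o) = none)).symm
    have h3 : 3 / 4 * (A1.card : ℝ) ≤ 2 * W * R.card := by linarith
    have h4 : 3 / 4 * (δ * W * O'.card) ≤ 2 * W * R.card := by linarith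
    have h5 : W * (3 / 8 * δ * O'.card) ≤ W * R.card := by linarith
    exact le_of_mul_le_mul_left h5 hWp
  have hO'ne : O'.Nonempty := hA1ne.image _
  have hO'0 : (0:ℝ) < O'.card := by exact_mod_cast hO'ne.card_pos
  -- second pruning
  obtain ⟨A2, hA2R, hloss, hfib2⟩ := prune_rel (M := Bool) (η := fun _ => τ ⊕ Option ℕ)
    (fun b a => match b with | true => Sum.inl a.1 | false => Sum.inr (g0 a))
    (filter_subset (fun a => g0 a ≠ none) O') (show (0:ℝ) ≤ δ / 8 by positivity)
  have hk0 : ∀ a ∈ A2, δ / 8 * ((O'.filter fun a' => a'.1 = a.1).card : ℝ) ≤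
      ((A2.filter fun a' => a'.1 = a.1).card : ℝ) := by
    intro a ha
    have := hfib2 true a ha
    simpa only [Sum.inl.injEq] using this
  have hk1 : ∀ a ∈ A2, δ / 8 * ((O'.filter fun a' => g0 a' = g0 a).card : ℝ) ≤
      ((A2.filter fun a' => g0 a' = g0 a).card : ℝ) := by
    intro a ha
    have := hfib2 false a ha
    simpa only [Sum.inr.injEq] using this
  have hA2ne : A2.Nonempty := by
    rw [← card_pos]
    rw [Fintype.card_bool] at hloss
    push_cast at hloss
    have h1 : (0:ℝ) < A2.card := by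
      have : 2 * (δ / 8) * (O'.card : ℝ) < R.card := by
        have : (0:ℝ) < δ * O'.card := by positivity
        linarith
      linarith
    exact_mod_cast h1
  have hsome : ∀ a ∈ A2, ∃ k, g0 a = some k := fun a ha =>
    Option.ne_none_iff_exists'.1 (mem_filter.1 (hA2R ha)).2
  have hA2O' : A2 ⊆ O' := hA2R.trans (filter_subset _ _)
  refine ⟨W, A2, fun a => (g0 a).getD 0, hWp, hA2ne, ?_, ?_, ?_, ?_⟩
  · intro a ha
    obtain ⟨k, hk⟩ := hsome a ha
    obtain ⟨-, o, ho, h1, h2⟩ := hg1 a k hk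
    refine ⟨o, hA1O ho, by rw [← h1], by rw [← h1], ?_⟩
    show cl o = (g0 a).getD 0
    rw [h2, hk, Option.getD_some]
  · intro a ha
    obtain ⟨k, hk⟩ := hsome a ha
    have h1 := hg2' a k hk
    have h2 : δ / 8 * ((O'.filter fun a' => g0 a' = some k).card : ℝ) ≤
        ((A2.filter fun a' => g0 a' = some k).card : ℝ) := by
      have := hk1 a ha
      rw [hk] at this
      convert this
    have h3 : ((A2.filter fun a' => g0 a' = some k).card : ℝ) ≤
        ((A2.filter fun a' => (g0 a').getD 0 = (g0 a).getD 0).card : ℝ) := by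
      refine Nat.cast_le.2 (card_le_card fun a' ha' => ?_)
      rw [mem_filter] at ha' ⊢
      exact ⟨ha'.1, by rw [ha'.2, hk]⟩
    refine le_trans ?_ (h2.trans h3)
    calc δ ^ 2 / 64 * n1 / W = δ / 8 * θ := by rw [hθ]; field_simp; ring
      _ ≤ _ := mul_le_mul_of_nonneg_left h1 (by positivity)
  · intro a ha
    obtain ⟨o, ho, hoa⟩ := mem_image.1 (hA2O' ha)
    have h1 := lo1' o ho
    have h2 : ((A1.filter fun o' => o'.1 = o.1).card : ℝ) ≤
        ((O'.filter fun a' => a'.1 = a.1).card : ℝ) := by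
      refine Nat.cast_le.2 (card_le_card_of_injOn φ (fun o' ho' => ?_) (fun x hx y hy hxy => ?_))
      · rw [Finset.mem_coe, mem_filter] at ho'
        rw [Finset.mem_coe, mem_filter]
        refine ⟨mem_image_of_mem _ ho'.1, ?_⟩
        rw [← hoa]; show T o'.1 = T o.1; rw [ho'.2]
      · rw [Finset.mem_coe, mem_filter] at hx hy
        exact Prod.ext (hx.2.trans hy.2.symm) (Prod.ext_iff.1 hxy).2
    have h3 := hk0 a ha
    have hνle : δ ^ 2 / 64 * ν ≤ δ / 8 * (δ * ν) ∨ ν < 0 := by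
      rcases lt_or_ge ν 0 with hν | hν
      · exact Or.inr hν
      · left
        have : 0 ≤ δ ^ 2 * ν := by positivity
        nlinarith
    rcases hνle with h4 | h4
    · calc δ ^ 2 / 64 * ν ≤ δ / 8 * (δ * ν) := h4
        _ ≤ δ / 8 * ((O'.filter fun a' => a'.1 = a.1).card : ℝ) :=
            mul_le_mul_of_nonneg_left (h1.trans h2) (by positivity)
        _ ≤ _ := h3
    · have : δ ^ 2 / 64 * ν ≤ 0 := mul_nonpos_of_nonneg_of_nonpos (by positivity) h4.le
      exact this.trans (Nat.cast_nonneg _)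
  · intro S hS
    -- lines of one tube
    have hone : ∀ t ∈ S, δ ^ 2 / 64 * W ≤
        ((((O.image Prod.fst).filter fun l => T l ∈ S).filter fun l => T l = t).card : ℝ) := by
      intro t ht
      obtain ⟨a, ha, hat⟩ := mem_image.1 (hS ht)
      obtain ⟨o, ho, hoa⟩ := mem_image.1 (hA2O' ha)
      have hTo : T o.1 = t := by rw [← hat, ← hoa]
      have h1 : ((A1.filter fun o' => T o'.1 = t).card : ℝ) ≤
          2 * ν0 * (((A1.image Prod.fst).filter fun l => T l = t).card : ℝ) :=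
        cfm Prod.fst A1 (fun l => T l = t) up1
      have h2 : δ * W * ((O'.filter fun a' => a'.1 = t).card : ℝ) ≤
          ((A1.filter fun o' => T o'.1 = t).card : ℝ) :=
        mcf φ A1 (fun a' => a'.1 = t) lo2
      have h3 : ((A1.filter fun o' => o'.1 = o.1).card : ℝ) ≤
          ((O'.filter fun a' => a'.1 = t).card : ℝ) := by
        refine Nat.cast_le.2 (card_le_card_of_injOn φ (fun o' ho' => ?_) (fun x hx y hy hxy => ?_))
        · rw [Finset.mem_coe, mem_filter] at ho'
          rw [Finset.mem_coe, mem_filter]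
          refine ⟨mem_image_of_mem _ ho'.1, ?_⟩
          show T o'.1 = t; rw [ho'.2, hTo]
        · rw [Finset.mem_coe, mem_filter] at hx hy
          exact Prod.ext (hx.2.trans hy.2.symm) (Prod.ext_iff.1 hxy).2
      have h4 := lo1 o ho
      have h5 : (((A1.image Prod.fst).filter fun l => T l = t).card : ℝ) ≤
          ((((O.image Prod.fst).filter fun l => T l ∈ S).filter fun l => T l = t).card : ℝ) := by
        refine Nat.cast_le.2 (card_le_card fun l hl => ?_)
        rw [mem_filter] at hl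
        rw [mem_filter, mem_filter]
        exact ⟨⟨image_subset_image hA1O hl.1, by rw [hl.2]; exact ht⟩, hl.2⟩
      have h6 : δ * W * (δ * ν0) ≤
          2 * ν0 * ((((O.image Prod.fst).filter fun l => T l ∈ S).filter fun l => T l = t).card : ℝ) := by
        calc δ * W * (δ * ν0) ≤ δ * W * ((O'.filter fun a' => a'.1 = t).card : ℝ) := by
              have := h4.trans h3
              gcongr
          _ ≤ _ := h2.trans (h1.trans (mul_le_mul_of_nonneg_left h5 (by positivity)))
      have h7 : ν0 * (δ ^ 2 / 2 * W) ≤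
          ν0 * ((((O.image Prod.fst).filter fun l => T l ∈ S).filter fun l => T l = t).card : ℝ) := by
        nlinarith
      have h8 := le_of_mul_le_mul_left h7 hν0p
      have h9 : δ ^ 2 / 64 * W ≤ δ ^ 2 / 2 * W := by
        have : 0 < δ ^ 2 * W := by positivity
        nlinarith
      exact h9.trans h8
    have hsum : (((O.image Prod.fst).filter fun l => T l ∈ S).card : ℝ) =
        ∑ t ∈ S, ((((O.image Prod.fst).filter fun l => T l ∈ S).filter fun l => T l = t).card : ℝ) := by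
      rw [card_eq_sum_card_fiberwise (f := T) (s := (O.image Prod.fst).filter fun l => T l ∈ S)
        (t := S) (fun l hl => by
          rw [Finset.mem_coe, mem_filter] at hl; exact hl.2)]
      push_cast; rfl
    rw [hsum]
    calc (S.card : ℝ) * (δ ^ 2 / 64 * W) = ∑ t ∈ S, δ ^ 2 / 64 * W := by
          rw [sum_const, nsmul_eq_mul]
      _ ≤ _ := sum_le_sum hone

end Crest.Agent.R138.Bun294
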