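import Mathlib
import Crest.Agent.R138.Tilt_51

/-!
# R138: affine normalisation of a class (helper70)

Frame (i), TEXT I, lemma NORM.  The class lies in a container with frame `E`, base line `L0`,
widths `W1 ≤ W2`.  The affine map `nrm` (heights untouched) sends it to the unit container.
`DMax` and `Near` of helper51 transform with `M ↦ 8 M W1^(1+p) W2^(1+q)`, at every cell (`q ≤ 2`).
-/

set_option autoImplicit false
set_option linter.unusedVariables false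

open Finset

namespace Crest.Agent.R138.Norm70

open Crest.Agent.R138.Flag51 Crest.Agent.R138.Tilt51

noncomputable section

/-- linear part of the normalisation -/
def lin (E : E2) (W1 W2 : ℝ) (x : E2) : E2 := !₂[dt x E / W1, cr E x / W2]

/-- the normalised line -/
def nrm (E : E2) (L0 : Ln) (W1 W2 : ℝ) (t : Ln) : Ln :=
  (lin E W1 W2 (t.1 - L0.1), lin E W1 W2 (t.2 - L0.2))

/-- inverse of `lin` -/
def unlin (E : E2) (W1 W2 : ℝ) (y : E2) : E2 :=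
  !₂[W1 * y 0 * E 0 - W2 * y 1 * E 1, W1 * y 0 * E 1 + W2 * y 1 * E 0]

/-- inverse of `nrm` -/
def unnrm (E : E2) (L0 : Ln) (W1 W2 : ℝ) (l : Ln) : Ln :=
  (L0.1 + unlin E W1 W2 l.1, L0.2 + unlin E W1 W2 l.2)

theorem lin_zero_apply (E : E2) (W1 W2 : ℝ) (x : E2) : lin E W1 W2 x 0 = dt x E / W1 := by
  simp [lin]

theorem lin_one_apply (E : E2) (W1 W2 : ℝ) (x : E2) : lin E W1 W2 x 1 = cr E x / W2 := by
  simp [lin]

theorem pos_nrm (E : E2) (L0 : Ln) (W1 W2 : ℝ) (t : Ln) (z : ℝ) :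
    pos (nrm E L0 W1 W2 t) z = lin E W1 W2 (pos t z - pos L0 z) := by
  ext i
  fin_cases i
  · simp [pos, nrm, lin, dt]; ring
  · simp [pos, nrm, lin, cr]; ring

theorem lin_unlin {E : E2} {W1 W2 : ℝ} (hE : dt E E = 1) (h1 : 0 < W1) (h2 : 0 < W2) (y : E2) :
    lin E W1 W2 (unlin E W1 W2 y) = y := by
  have hE' : E 0 * E 0 + E 1 * E 1 = 1 := hE
  ext i
  fin_cases i
  · have : lin E W1 W2 (unlin E W1 W2 y) 0 = (W1 * y 0 * (E 0 * E 0 + E 1 * E 1)) / W1 := by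
      simp [lin, dt, unlin]; ring
    show lin E W1 W2 (unlin E W1 W2 y) 0 = y 0
    rw [this, hE']; field_simp
  · have : lin E W1 W2 (unlin E W1 W2 y) 1 = (W2 * y 1 * (E 0 * E 0 + E 1 * E 1)) / W2 := by
      simp [lin, cr, unlin]; ring
    show lin E W1 W2 (unlin E W1 W2 y) 1 = y 1
    rw [this, hE']; field_simp

theorem pos_unnrm (E : E2) (L0 : Ln) (W1 W2 : ℝ) (l : Ln) (z : ℝ) :
    pos (unnrm E L0 W1 W2 l) z = pos L0 z + unlin E W1 W2 (pos l z) := by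
  ext i
  fin_cases i
  · simp [pos, unnrm, unlin]; ring
  · simp [pos, unnrm, unlin]; ring

theorem lin_sub (E : E2) (W1 W2 : ℝ) (x y : E2) :
    lin E W1 W2 (x - y) = lin E W1 W2 x - lin E W1 W2 y := by
  ext i
  fin_cases i
  · simp [lin, dt]; ring
  · simp [lin, cr]; ring

/-- `nrm t` relative to `l` is the linear image of `t` relative to `unnrm l` -/
theorem pos_nrm_sub {E : E2} {W1 W2 : ℝ} (hE : dt E E = 1) (h1 : 0 < W1) (h2 : 0 < W2)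
    (L0 t l : Ln) (z : ℝ) :
    pos (nrm E L0 W1 W2 t) z - pos l z
      = lin E W1 W2 (pos t z - pos (unnrm E L0 W1 W2 l) z) := by
  rw [pos_nrm, pos_unnrm]
  have : pos t z - (pos L0 z + unlin E W1 W2 (pos l z))
      = (pos t z - pos L0 z) - unlin E W1 W2 (pos l z) := by abel
  rw [this, lin_sub _ _ _ (pos t z - pos L0 z), lin_unlin hE h1 h2]

/-! ### parallelograms -/

/-- identity `(x·n₂)|n₁|² = (x·n₁)(n₁·n₂) + (n₁×x)(n₁×n₂)` -/
theorem three_id (n1 n2 x : E2) :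
    dt x n2 * dt n1 n1 = dt x n1 * dt n1 n2 + cr n1 x * cr n1 n2 := by
  simp only [dt, cr]; ring

theorem abs_dt_le_mul {n1 n2 : E2} {N1 N2 : ℝ} (h1 : dt n1 n1 = N1 ^ 2) (h2 : dt n2 n2 = N2 ^ 2)
    (p1 : 0 ≤ N1) (p2 : 0 ≤ N2) : |dt n1 n2| ≤ N1 * N2 := by
  have := unit_id n1 n2
  rw [h1, h2] at this
  apply abs_le_of_sq_le_sq' _ (by positivity) |> abs_le.2
  nlinarith [sq_nonneg (cr n1 n2)]

/-- the intersection of two slabs lies in a rectangle of twice the area -/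
theorem two_slabs {n1 n2 : E2} {V N1 N2 b1 b2 : ℝ} (hV : 0 < V) (hcr : |cr n1 n2| * V = 1)
    (h1 : dt n1 n1 = N1 ^ 2) (h2 : dt n2 n2 = N2 ^ 2) (p1 : 0 < N1) (p2 : 0 < N2)
    (hb1 : 0 ≤ b1) (hb2 : 0 ≤ b2) (hb : b1 * N2 ≤ b2 * N1) :
    ∃ e' : E2, dt e' e' = 1 ∧ ∀ x : E2, |dt x n1| ≤ b1 → |dt x n2| ≤ b2 →
      |dt x e'| ≤ b1 / N1 ∧ |cr e' x| ≤ 2 * V * N1 * b2 := by
  refine ⟨(1 / N1) • n1, ?_, fun x hx1 hx2 => ?_⟩
  · have : dt ((1 / N1) • n1) ((1 / N1) • n1) = dt n1 n1 / N1 ^ 2 := by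
      simp only [dt, PiLp.smul_apply, smul_eq_mul]; field_simp
    rw [this, h1]; field_simp
  · have e1 : dt x ((1 / N1) • n1) = dt x n1 / N1 := by
      simp only [dt, PiLp.smul_apply, smul_eq_mul]; field_simp
    have e2 : cr ((1 / N1) • n1) x = cr n1 x / N1 := by
      simp only [cr, PiLp.smul_apply, smul_eq_mul]; field_simp
    rw [e1, e2, abs_div, abs_div, abs_of_pos p1]
    refine ⟨div_le_div_of_nonneg_right hx1 p1.le, ?_⟩
    rw [div_le_iff₀ p1]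
    have hid := three_id n1 n2 x
    have hdd := abs_dt_le_mul h1 h2 p1.le p2.le
    have k1 : |cr n1 x| * |cr n1 n2| ≤ 2 * N1 ^ 2 * b2 := by
      rw [← abs_mul]
      have : cr n1 x * cr n1 n2 = dt x n2 * dt n1 n1 - dt x n1 * dt n1 n2 := by linarith
      rw [this, h1]
      refine (abs_sub _ _).trans ?_
      rw [abs_mul, abs_mul, abs_of_nonneg (sq_nonneg N1)]
      have k2 : |dt x n2| * N1 ^ 2 ≤ b2 * N1 ^ 2 := mul_le_mul_of_nonneg_right hx2 (sq_nonneg _)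
      have k3 : |dt x n1| * |dt n1 n2| ≤ b1 * (N1 * N2) :=
        mul_le_mul hx1 hdd (abs_nonneg _) hb1
      have k4 : b1 * (N1 * N2) ≤ b2 * N1 ^ 2 := by nlinarith
      linarith
    calc |cr n1 x| = |cr n1 x| * (|cr n1 n2| * V) := by rw [hcr, mul_one]
      _ = (|cr n1 x| * |cr n1 n2|) * V := by ring
      _ ≤ (2 * N1 ^ 2 * b2) * V := mul_le_mul_of_nonneg_right k1 hV.le
      _ = 2 * V * N1 * b2 * N1 := by ring

/-- two slabs with `N W1 ≤ 1`: rectangle form, one order -/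
theorem rect_aux {n1 n2 : E2} {W1 W2 N1 N2 b1 b2 c : ℝ} (hW1 : 0 < W1) (hW2 : 0 < W2)
    (hcr : |cr n1 n2| * (W1 * W2) = 1)
    (h1 : dt n1 n1 = N1 ^ 2) (h2 : dt n2 n2 = N2 ^ 2) (p1 : 0 < N1) (p2 : 0 < N2)
    (u1 : N1 * W1 ≤ 1) (hb1 : 0 < b1) (hb2 : 0 < b2) (hb2c : b2 ≤ c) (hb : b1 * N2 ≤ b2 * N1) :
    ∃ (e' : E2) (a1' a2' : ℝ), dt e' e' = 1 ∧ a1' * a2' = 2 * W1 * W2 * b1 * b2 ∧
      W1 * b1 ≤ a1' ∧ a1' ≤ a2' ∧ a2' ≤ 2 * W2 * c ∧
      ∀ x : E2, |dt x n1| ≤ b1 → |dt x n2| ≤ b2 → |dt x e'| ≤ a1' ∧ |cr e' x| ≤ a2' := by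
  have hV : 0 < W1 * W2 := mul_pos hW1 hW2
  have hNN : 1 ≤ W1 * W2 * (N1 * N2) := by
    have h3 := unit_id n1 n2
    rw [h1, h2] at h3
    have h4 : |cr n1 n2| ≤ N1 * N2 := by
      apply abs_le_of_sq_le_sq' _ (by positivity) |> abs_le.2
      nlinarith [sq_nonneg (dt n1 n2)]
    calc (1 : ℝ) = |cr n1 n2| * (W1 * W2) := hcr.symm
      _ ≤ (N1 * N2) * (W1 * W2) := mul_le_mul_of_nonneg_right h4 hV.le
      _ = W1 * W2 * (N1 * N2) := by ring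
  obtain ⟨e', g1, g2⟩ := two_slabs (b1 := b1) (b2 := b2) hV hcr h1 h2 p1 p2 hb1.le hb2.le hb
  refine ⟨e', b1 / N1, 2 * (W1 * W2) * N1 * b2, g1, by field_simp, ?_, ?_, ?_, g2⟩
  · rw [le_div_iff₀ p1]
    calc W1 * b1 * N1 = b1 * (N1 * W1) := by ring
      _ ≤ b1 * 1 := mul_le_mul_of_nonneg_left u1 hb1.le
      _ = b1 := mul_one _
  · rw [div_le_iff₀ p1]
    have k4 : (0:ℝ) ≤ (W1 * W2 * N1) * (b2 * N1) := by positivity
    calc b1 = b1 * 1 := (mul_one _).symm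
      _ ≤ b1 * (W1 * W2 * (N1 * N2)) := mul_le_mul_of_nonneg_left hNN hb1.le
      _ = (W1 * W2 * N1) * (b1 * N2) := by ring
      _ ≤ (W1 * W2 * N1) * (b2 * N1) := mul_le_mul_of_nonneg_left hb (by positivity)
      _ ≤ 2 * (W1 * W2) * N1 * b2 * N1 := by
        have e : 2 * (W1 * W2) * N1 * b2 * N1 = 2 * ((W1 * W2 * N1) * (b2 * N1)) := by ring
        rw [e]; linarith
  · calc 2 * (W1 * W2) * N1 * b2 = (2 * W2 * b2) * (N1 * W1) := by ring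
      _ ≤ (2 * W2 * b2) * 1 := mul_le_mul_of_nonneg_left u1 (by positivity)
      _ = 2 * W2 * b2 := mul_one _
      _ ≤ 2 * W2 * c := mul_le_mul_of_nonneg_left hb2c (by positivity)

theorem norm_bd {W1 W2 a b : ℝ} (hW1 : 0 < W1) (hW : W1 ≤ W2) (hab : a * a + b * b = 1) :
    0 < (a / W1) ^ 2 + (b / W2) ^ 2 ∧ (a / W1) ^ 2 + (b / W2) ^ 2 ≤ (1 / W1) ^ 2 := by
  have hW2 : 0 < W2 := hW1.trans_le hW
  constructor
  · have h1 : (a / W2) ^ 2 ≤ (a / W1) ^ 2 := by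
      rw [div_pow, div_pow]
      exact div_le_div_of_nonneg_left (sq_nonneg a) (by positivity)
        (pow_le_pow_left₀ hW1.le hW 2)
    calc (0 : ℝ) < (1 / W2) ^ 2 := by positivity
      _ = (a * a + b * b) / W2 ^ 2 := by rw [hab]; ring
      _ = (a / W2) ^ 2 + (b / W2) ^ 2 := by ring
      _ ≤ (a / W1) ^ 2 + (b / W2) ^ 2 := by linarith
  · have h1 : (b / W2) ^ 2 ≤ (b / W1) ^ 2 := by
      rw [div_pow, div_pow]
      exact div_le_div_of_nonneg_left (sq_nonneg b) (by positivity)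
        (pow_le_pow_left₀ hW1.le hW 2)
    calc (a / W1) ^ 2 + (b / W2) ^ 2 ≤ (a / W1) ^ 2 + (b / W1) ^ 2 := by linarith
      _ = (a * a + b * b) / W1 ^ 2 := by ring
      _ = (1 / W1) ^ 2 := by rw [hab]; ring

/-- **(N1)** the preimage of a plank is contained in a plank -/
theorem exists_plank {E e : E2} {W1 W2 a1 a2 : ℝ} (hE : dt E E = 1) (he : dt e e = 1)
    (hW1 : 0 < W1) (hW : W1 ≤ W2) (ha1 : 0 < a1) (ha : a1 ≤ a2) :
    ∃ (e' : E2) (a1' a2' : ℝ), dt e' e' = 1 ∧ a1' * a2' = 2 * W1 * W2 * a1 * a2 ∧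
      W1 * a1 ≤ a1' ∧ a1' ≤ a2' ∧ a2' ≤ 2 * W2 * a2 ∧
      ∀ x : E2, |dt (lin E W1 W2 x) e| ≤ a1 → |cr e (lin E W1 W2 x)| ≤ a2 →
        |dt x e'| ≤ a1' ∧ |cr e' x| ≤ a2' := by
  have hW2 : 0 < W2 := hW1.trans_le hW
  have ha2 : 0 < a2 := ha1.trans_le ha
  have hE' : E 0 * E 0 + E 1 * E 1 = 1 := hE
  have he' : e 0 * e 0 + e 1 * e 1 = 1 := he
  obtain ⟨n1, n2, d1, d2, q1, q2, q3⟩ : ∃ n1 n2 : E2, (∀ x, dt (lin E W1 W2 x) e = dt x n1) ∧
      (∀ x, cr e (lin E W1 W2 x) = dt x n2) ∧ dt n1 n1 = (e 0 / W1) ^ 2 + (e 1 / W2) ^ 2 ∧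
      dt n2 n2 = (e 1 / W1) ^ 2 + (e 0 / W2) ^ 2 ∧ cr n1 n2 = 1 / (W1 * W2) := by
    refine ⟨!₂[e 0 / W1 * E 0 - e 1 / W2 * E 1, e 0 / W1 * E 1 + e 1 / W2 * E 0],
      !₂[-(e 1) / W1 * E 0 - e 0 / W2 * E 1, -(e 1) / W1 * E 1 + e 0 / W2 * E 0],
      fun x => by simp [lin, dt, cr]; ring, fun x => by simp [lin, dt, cr]; ring, ?_, ?_, ?_⟩
    · trans ((e 0 / W1) ^ 2 + (e 1 / W2) ^ 2) * (E 0 * E 0 + E 1 * E 1)
      · simp [dt]; ring
      · rw [hE', mul_one]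
    · trans ((e 1 / W1) ^ 2 + (e 0 / W2) ^ 2) * (E 0 * E 0 + E 1 * E 1)
      · simp [dt]; ring
      · rw [hE', mul_one]
    · trans (e 0 * e 0 + e 1 * e 1) * (E 0 * E 0 + E 1 * E 1) / (W1 * W2)
      · simp [cr]; field_simp; ring
      · rw [hE', he', one_mul]
  have hp1 : 0 < dt n1 n1 := by rw [q1]; exact (norm_bd hW1 hW he').1
  have hp2 : 0 < dt n2 n2 := by rw [q2]; exact (norm_bd hW1 hW (by linarith)).1
  have hcr : |cr n1 n2| * (W1 * W2) = 1 := by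
    rw [q3, abs_of_pos (by positivity)]; field_simp
  have hcr' : |cr n2 n1| * (W1 * W2) = 1 := by
    rw [abs_cr_swap n1 n2]; exact hcr
  have u1 : Real.sqrt (dt n1 n1) * W1 ≤ 1 := by
    rw [← le_div_iff₀ hW1]
    apply Real.sqrt_le_iff.2
    exact ⟨by positivity, by rw [q1]; exact (norm_bd hW1 hW he').2⟩
  have u2 : Real.sqrt (dt n2 n2) * W1 ≤ 1 := by
    rw [← le_div_iff₀ hW1]
    apply Real.sqrt_le_iff.2
    exact ⟨by positivity, by rw [q2]; exact (norm_bd hW1 hW (by linarith)).2⟩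
  have p1 := Real.sqrt_pos.2 hp1
  have p2 := Real.sqrt_pos.2 hp2
  have s1 := (Real.sq_sqrt hp1.le).symm
  have s2 := (Real.sq_sqrt hp2.le).symm
  rcases le_total (a1 * Real.sqrt (dt n2 n2)) (a2 * Real.sqrt (dt n1 n1)) with hc | hc
  · obtain ⟨e', a1', a2', g0, g1, g2, g3, g4, g5⟩ :=
      rect_aux hW1 hW2 hcr s1 s2 p1 p2 u1 ha1 ha2 le_rfl hc
    exact ⟨e', a1', a2', g0, g1, g2, g3, g4, fun x hx1 hx2 =>
      g5 x (by rw [← d1]; exact hx1) (by rw [← d2]; exact hx2)⟩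
  · obtain ⟨e', a1', a2', g0, g1, g2, g3, g4, g5⟩ :=
      rect_aux hW1 hW2 hcr' s2 s1 p2 p1 u2 ha2 ha1 ha hc
    refine ⟨e', a1', a2', g0, by rw [g1]; ring, ?_, g3, g4, fun x hx1 hx2 =>
      g5 x (by rw [← d2]; exact hx2) (by rw [← d1]; exact hx1)⟩
    exact (mul_le_mul_of_nonneg_left ha hW1.le).trans g2

/-- **(N1)**, lines: for every cell at once -/
theorem inPlank_nrm {E e : E2} {W1 W2 a1 a2 : ℝ} (L0 l : Ln) (hE : dt E E = 1) (he : dt e e = 1)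
    (hW1 : 0 < W1) (hW : W1 ≤ W2) (ha1 : 0 < a1) (ha : a1 ≤ a2) :
    ∃ (l' : Ln) (e' : E2) (a1' a2' : ℝ), dt e' e' = 1 ∧ a1' * a2' = 2 * W1 * W2 * a1 * a2 ∧
      W1 * a1 ≤ a1' ∧ a1' ≤ a2' ∧ a2' ≤ 2 * W2 * a2 ∧
      ∀ (t : Ln) (z0 ρ : ℝ), InPlank (nrm E L0 W1 W2 t) l e a1 a2 z0 ρ →
        InPlank t l' e' a1' a2' z0 ρ := by
  obtain ⟨e', a1', a2', g0, g1, g2, g3, g4, g5⟩ := exists_plank (a1 := a1) (a2 := a2) hE he hW1 hW
    ha1 ha
  refine ⟨unnrm E L0 W1 W2 l, e', a1', a2', g0, g1, g2, g3, g4, fun t z0 ρ h z hz => ?_⟩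
  obtain ⟨h1, h2⟩ := h z hz
  rw [pos_nrm_sub hE hW1 (hW1.trans_le hW)] at h1 h2
  exact g5 _ h1 h2

/-- **(N2)** penalised maximality of the normalised family, at every cell -/
theorem dmax_nrm {ι : Type*} {S : Finset ι} {L : ι → Ln} {m : ι → ℝ}
    {z0 ρ M p q r0 R0 : ℝ} (h : DMax S L m z0 ρ M p q r0 R0) (hm : ∀ t ∈ S, 0 ≤ m t)
    {E : E2} {W1 W2 : ℝ} (L0 : Ln) (hE : dt E E = 1) (hW1 : 0 < W1) (hW : W1 ≤ W2)
    (hM : 0 ≤ M) (hp : 0 ≤ p) (hpq : p ≤ q) (hq : q ≤ 2) (hr0 : 0 < r0) :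
    DMax S (fun t => nrm E L0 W1 W2 (L t)) m z0 ρ (8 * M * W1 ^ (1 + p) * W2 ^ (1 + q)) p q
      (r0 / W1) (R0 / (2 * W2)) := by
  classical
  have hW2 : 0 < W2 := hW1.trans_le hW
  intro l e a1 a2 he h1 h12 h2
  have ha1 : 0 < a1 := (div_pos hr0 hW1).trans_le h1
  have ha2 : 0 < a2 := ha1.trans_le h12
  obtain ⟨l', e', a1', a2', g0, g1, g2, g3, g4, g5⟩ := inPlank_nrm L0 l hE he hW1 hW ha1 h12
  have hb1 : 0 < a1' := (mul_pos hW1 ha1).trans_le g2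
  have hb2 : 0 < a2' := hb1.trans_le g3
  have k1 : r0 ≤ a1' := by
    refine le_trans ?_ g2
    rw [div_le_iff₀ hW1] at h1; linarith
  have k2 : a2' ≤ R0 := by
    refine g4.trans ?_
    rw [le_div_iff₀ (by positivity)] at h2; linarith
  have k3 : ∑ t ∈ S with InPlank (nrm E L0 W1 W2 (L t)) l e a1 a2 z0 ρ, m t
      ≤ ∑ t ∈ S with InPlank (L t) l' e' a1' a2' z0 ρ, m t := by
    refine sum_le_sum_of_subset_of_nonneg ?_ ?_
    · intro t ht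
      rw [mem_filter] at ht ⊢
      exact ⟨ht.1, g5 _ _ _ ht.2⟩
    · intro t ht _
      exact hm t (mem_filter.1 ht).1
  refine k3.trans ((h l' e' a1' a2' g0 k1 g3 k2).trans ?_)
  have e1 : M * a1' ^ (1 + p) * a2' ^ (1 + q) = M * (a1' * a2') ^ (1 + p) * a2' ^ (q - p) := by
    rw [Real.mul_rpow hb1.le hb2.le]
    have : a2' ^ (1 + q) = a2' ^ (1 + p) * a2' ^ (q - p) := by
      rw [← Real.rpow_add hb2]; congr 1; ring
    rw [this]; ring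
  rw [e1, g1]
  have e2 : a2' ^ (q - p) ≤ (2 * W2 * a2) ^ (q - p) :=
    Real.rpow_le_rpow hb2.le g4 (by linarith)
  have e3 : (2 * W1 * W2 * a1 * a2) ^ (1 + p) =
      2 ^ (1 + p) * W1 ^ (1 + p) * W2 ^ (1 + p) * a1 ^ (1 + p) * a2 ^ (1 + p) := by
    rw [Real.mul_rpow (by positivity) ha2.le, Real.mul_rpow (by positivity) ha1.le,
      Real.mul_rpow (by positivity) hW2.le, Real.mul_rpow (by norm_num) hW1.le]
  have e4 : (2 * W2 * a2) ^ (q - p) = 2 ^ (q - p) * W2 ^ (q - p) * a2 ^ (q - p) := by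
    rw [Real.mul_rpow (by positivity) ha2.le, Real.mul_rpow (by norm_num) hW2.le]
  have e5 : (2:ℝ) ^ (1 + p) * 2 ^ (q - p) ≤ 8 := by
    rw [← Real.rpow_add (by norm_num)]
    calc (2:ℝ) ^ (1 + p + (q - p)) ≤ 2 ^ (3 : ℝ) :=
          Real.rpow_le_rpow_of_exponent_le (by norm_num) (by linarith)
      _ = 8 := by norm_num
  have e6 : W2 ^ (1 + p) * W2 ^ (q - p) = W2 ^ (1 + q) := by
    rw [← Real.rpow_add hW2]; congr 1; ring
  have e7 : a2 ^ (1 + p) * a2 ^ (q - p) = a2 ^ (1 + q) := by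
    rw [← Real.rpow_add ha2]; congr 1; ring
  calc M * (2 * W1 * W2 * a1 * a2) ^ (1 + p) * a2' ^ (q - p)
      ≤ M * (2 * W1 * W2 * a1 * a2) ^ (1 + p) * (2 * W2 * a2) ^ (q - p) :=
        mul_le_mul_of_nonneg_left e2 (by positivity)
    _ = ((2:ℝ) ^ (1 + p) * 2 ^ (q - p)) * (M * W1 ^ (1 + p) * (W2 ^ (1 + p) * W2 ^ (q - p)) *
          a1 ^ (1 + p) * (a2 ^ (1 + p) * a2 ^ (q - p))) := by rw [e3, e4]; ring
    _ ≤ 8 * (M * W1 ^ (1 + p) * (W2 ^ (1 + p) * W2 ^ (q - p)) *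
          a1 ^ (1 + p) * (a2 ^ (1 + p) * a2 ^ (q - p))) :=
        mul_le_mul_of_nonneg_right e5 (by positivity)
    _ = 8 * M * W1 ^ (1 + p) * W2 ^ (1 + q) * a1 ^ (1 + p) * a2 ^ (1 + q) := by
        rw [e6, e7]; ring

/-! ### images of planks -/

/-- the normal vector of the image plane -/
def imgN (E e : E2) (W1 W2 : ℝ) : E2 := !₂[W1 * dt E e, W2 * cr E e]

/-- frame of the image plank -/
def imgE (E e : E2) (W1 W2 : ℝ) : E2 :=
  (1 / Real.sqrt (dt (imgN E e W1 W2) (imgN E e W1 W2))) • imgN E e W1 W2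

theorem dt_lin_imgN {E e : E2} {W1 W2 : ℝ} (hE : dt E E = 1) (h1 : 0 < W1) (h2 : 0 < W2)
    (x : E2) : dt (lin E W1 W2 x) (imgN E e W1 W2) = dt x e := by
  have e1 : dt (lin E W1 W2 x) (imgN E e W1 W2) = dt x E * dt E e + cr E x * cr E e := by
    simp [lin, imgN, dt, cr]; field_simp
  rw [e1]
  have := dt_of (e := e) hE x
  rw [this]
  have h3 : dt e E = dt E e := by simp only [dt]; ring
  have h4 : cr e E = - cr E e := by simp only [cr]; ring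
  rw [h3, h4]; ring

theorem imgN_sq {E e : E2} {W1 W2 : ℝ} (hE : dt E E = 1) (he : dt e e = 1) (h1 : 0 < W1)
    (h : W1 ≤ W2) : W1 ^ 2 ≤ dt (imgN E e W1 W2) (imgN E e W1 W2) := by
  have e1 : dt (imgN E e W1 W2) (imgN E e W1 W2) = W1 ^ 2 * dt E e ^ 2 + W2 ^ 2 * cr E e ^ 2 := by
    simp only [imgN, dt]; simp; ring
  rw [e1]
  have := unit_id E e
  rw [hE, he] at this
  have h3 : W1 ^ 2 ≤ W2 ^ 2 := pow_le_pow_left₀ h1.le h 2
  have h4 : 0 ≤ cr E e ^ 2 := sq_nonneg _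
  calc W1 ^ 2 = W1 ^ 2 * (dt E e ^ 2 + cr E e ^ 2) := by rw [← this]; ring
    _ = W1 ^ 2 * dt E e ^ 2 + W1 ^ 2 * cr E e ^ 2 := by ring
    _ ≤ W1 ^ 2 * dt E e ^ 2 + W2 ^ 2 * cr E e ^ 2 := by
      have := mul_le_mul_of_nonneg_right h3 h4
      linarith

theorem imgE_unit {E e : E2} {W1 W2 : ℝ} (hE : dt E E = 1) (he : dt e e = 1) (h1 : 0 < W1)
    (h : W1 ≤ W2) : dt (imgE E e W1 W2) (imgE E e W1 W2) = 1 := by
  have hN : 0 < dt (imgN E e W1 W2) (imgN E e W1 W2) :=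
    (by positivity : (0:ℝ) < W1 ^ 2).trans_le (imgN_sq hE he h1 h)
  have hs := Real.sq_sqrt hN.le
  have hp := Real.sqrt_pos.2 hN
  have : dt (imgE E e W1 W2) (imgE E e W1 W2)
      = dt (imgN E e W1 W2) (imgN E e W1 W2) /
        Real.sqrt (dt (imgN E e W1 W2) (imgN E e W1 W2)) ^ 2 := by
    simp only [imgE]
    generalize Real.sqrt (dt (imgN E e W1 W2) (imgN E e W1 W2)) = r at hp ⊢
    simp only [dt, PiLp.smul_apply, smul_eq_mul]; field_simp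
  rw [this, hs]; field_simp

/-- the image of a plank whose frame is tilted by at most `θ` -/
theorem lin_plank {E e : E2} {W1 W2 w1 w2 θ A : ℝ} (hE : dt E E = 1) (he : dt e e = 1)
    (h1 : 0 < W1) (h : W1 ≤ W2) (hw1 : 0 ≤ w1) (hA1 : w1 + θ * w2 ≤ A * W1)
    (hA2 : w1 + w2 ≤ A * W2) (hθ : |cr E e| ≤ θ) {x : E2} (hx1 : |dt x e| ≤ w1)
    (hx2 : |cr e x| ≤ w2) :
    |dt (lin E W1 W2 x) (imgE E e W1 W2)| ≤ w1 / W1 ∧
      |cr (imgE E e W1 W2) (lin E W1 W2 x)| ≤ 2 * A := by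
  have hW2 : 0 < W2 := h1.trans_le h
  have hNsq := imgN_sq (W2 := W2) hE he h1 h
  have hN : 0 < dt (imgN E e W1 W2) (imgN E e W1 W2) :=
    (by positivity : (0:ℝ) < W1 ^ 2).trans_le hNsq
  have hp := Real.sqrt_pos.2 hN
  have hge : W1 ≤ Real.sqrt (dt (imgN E e W1 W2) (imgN E e W1 W2)) :=
    Real.le_sqrt_of_sq_le hNsq
  constructor
  · have e1 : dt (lin E W1 W2 x) (imgE E e W1 W2) = dt x e /
        Real.sqrt (dt (imgN E e W1 W2) (imgN E e W1 W2)) := by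
      rw [← dt_lin_imgN (e := e) hE h1 hW2 x]
      simp only [imgE]
      generalize Real.sqrt (dt (imgN E e W1 W2) (imgN E e W1 W2)) = r at hp ⊢
      simp only [dt, PiLp.smul_apply, smul_eq_mul]; field_simp
    rw [e1, abs_div, abs_of_pos hp]
    exact div_le_div₀ hw1 hx1 h1 hge
  · -- coordinates
    have hu := imgE_unit (W2 := W2) hE he h1 h
    have hc0 : |(imgE E e W1 W2) 0| ≤ 1 := by
      rw [abs_le]; simp only [dt] at hu
      constructor <;> nlinarith [sq_nonneg ((imgE E e W1 W2) 0), sq_nonneg ((imgE E e W1 W2) 1)]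
    have hc1 : |(imgE E e W1 W2) 1| ≤ 1 := by
      rw [abs_le]; simp only [dt] at hu
      constructor <;> nlinarith [sq_nonneg ((imgE E e W1 W2) 0), sq_nonneg ((imgE E e W1 W2) 1)]
    have hy0 : |lin E W1 W2 x 0| ≤ A := by
      rw [lin_zero_apply, abs_div, abs_of_pos h1, div_le_iff₀ h1]
      have : dt x E = dt E e * dt x e - cr E e * cr e x := dt_of he x
      rw [this]
      refine (abs_sub _ _).trans ?_
      rw [abs_mul, abs_mul]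
      have g1 : |dt E e| * |dt x e| ≤ 1 * w1 :=
        mul_le_mul (abs_dt_le_one hE he) hx1 (abs_nonneg _) zero_le_one
      have g2 : |cr E e| * |cr e x| ≤ θ * w2 :=
        mul_le_mul hθ hx2 (abs_nonneg _) ((abs_nonneg _).trans hθ)
      linarith
    have hy1 : |lin E W1 W2 x 1| ≤ A := by
      rw [lin_one_apply, abs_div, abs_of_pos hW2, div_le_iff₀ hW2]
      have : cr E x = cr E e * dt x e + dt E e * cr e x := cr_of he x
      rw [this]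
      refine (abs_add_le _ _).trans ?_
      rw [abs_mul, abs_mul]
      have g1 : |cr E e| * |dt x e| ≤ 1 * w1 :=
        mul_le_mul (abs_cr_le_one hE he) hx1 (abs_nonneg _) zero_le_one
      have g2 : |dt E e| * |cr e x| ≤ 1 * w2 :=
        mul_le_mul (abs_dt_le_one hE he) hx2 (abs_nonneg _) zero_le_one
      linarith
    have : cr (imgE E e W1 W2) (lin E W1 W2 x) = (imgE E e W1 W2) 0 * lin E W1 W2 x 1 -
        (imgE E e W1 W2) 1 * lin E W1 W2 x 0 := rfl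
    rw [this]
    refine (abs_sub _ _).trans ?_
    rw [abs_mul, abs_mul]
    have g1 : |(imgE E e W1 W2) 0| * |lin E W1 W2 x 1| ≤ 1 * A :=
      mul_le_mul hc0 hy1 (abs_nonneg _) zero_le_one
    have g2 : |(imgE E e W1 W2) 1| * |lin E W1 W2 x 0| ≤ 1 * A :=
      mul_le_mul hc1 hy0 (abs_nonneg _) zero_le_one
    linarith

/-- **(N3)**, one line: image of the plank `(b, e; w1, w2)`, dimensions `(w1/W1, 2A)` -/
theorem inPlank_img {E e : E2} {W1 W2 w1 w2 θ A z0 ρ : ℝ} {t b : Ln} (L0 : Ln) (hE : dt E E = 1)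
    (he : dt e e = 1) (h1 : 0 < W1) (h : W1 ≤ W2) (hw1 : 0 ≤ w1)
    (hA1 : w1 + θ * w2 ≤ A * W1) (hA2 : w1 + w2 ≤ A * W2)
    (hθ : |cr E e| ≤ θ) (ht : InPlank t b e w1 w2 z0 ρ) :
    InPlank (nrm E L0 W1 W2 t) (nrm E L0 W1 W2 b) (imgE E e W1 W2) (w1 / W1) (2 * A) z0 ρ := by
  intro z hz
  obtain ⟨g1, g2⟩ := ht z hz
  have : pos (nrm E L0 W1 W2 t) z - pos (nrm E L0 W1 W2 b) z
      = lin E W1 W2 (pos t z - pos b z) := by
    rw [pos_nrm, pos_nrm, ← lin_sub]; congr 1; abel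
  rw [this]
  exact lin_plank hE he h1 h hw1 hA1 hA2 hθ g1 g2

/-- the numerical part of (N3) -/
theorem vol_img {W1 W2 w1 w2 A M p q : ℝ} (h1 : 0 < W1) (h2 : 0 < W2) (hw1 : 0 < w1)
    (hw2 : 0 < w2) (hA : 0 < A) :
    8 * M * W1 ^ (1 + p) * W2 ^ (1 + q) * (w1 / W1) ^ (1 + p) * (2 * A) ^ (1 + q)
      = 8 * (2 * A * W2 / w2) ^ (1 + q) * (M * w1 ^ (1 + p) * w2 ^ (1 + q)) := by
  have e1 : (w1 / W1) ^ (1 + p) = w1 ^ (1 + p) / W1 ^ (1 + p) := Real.div_rpow hw1.le h1.le _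
  have e2 : (2 * A * W2 / w2) ^ (1 + q) = (2 * A) ^ (1 + q) * W2 ^ (1 + q) / w2 ^ (1 + q) := by
    rw [Real.div_rpow (by positivity) hw2.le, Real.mul_rpow (by positivity) h2.le]
  have hA' : 0 < W1 ^ (1 + p) := by positivity
  have hB' : 0 < w2 ^ (1 + q) := by positivity
  rw [e1, e2]; field_simp

/-- **(N3)** near-maximal systems -/
theorem near_nrm {ι α : Type*} {S : Finset ι} {L : ι → Ln} {m : ι → ℝ} {f : ι → α} {b : α → Ln}
    {e : α → E2} {w1 w2 z0 ρ M K p q : ℝ} (hN : Near S L m f b e w1 w2 z0 ρ M K p q)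
    {E : E2} {W1 W2 θ A : ℝ} (L0 : Ln) (hE : dt E E = 1) (h1 : 0 < W1) (h : W1 ≤ W2)
    (hw1 : 0 < w1) (hw2 : 0 < w2) (hA : 0 < A) (hA1 : w1 + θ * w2 ≤ A * W1)
    (hA2 : w1 + w2 ≤ A * W2) (hθ : ∀ t ∈ S, |cr E (e (f t))| ≤ θ) :
    Near S (fun t => nrm E L0 W1 W2 (L t)) m f (fun a => nrm E L0 W1 W2 (b a))
      (fun a => imgE E (e a) W1 W2) (w1 / W1) (2 * A) z0 ρ (8 * M * W1 ^ (1 + p) * W2 ^ (1 + q))
      (8 * (2 * A * W2 / w2) ^ (1 + q) * K) p q := by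
  classical
  have hW2 : 0 < W2 := h1.trans_le h
  refine ⟨fun t ht => imgE_unit hE (hN.unit t ht) h1 h, fun t ht =>
    inPlank_img L0 hE (hN.unit t ht) h1 h hw1.le hA1 hA2 (hθ t ht) (hN.mem t ht),
    fun t ht => ?_⟩
  have hlow := hN.low t ht
  rw [vol_img h1 hW2 hw1 hw2 hA]
  calc 8 * (2 * A * W2 / w2) ^ (1 + q) * (M * w1 ^ (1 + p) * w2 ^ (1 + q))
      ≤ 8 * (2 * A * W2 / w2) ^ (1 + q) * (K * ∑ s ∈ S with f s = f t, m s) :=
        mul_le_mul_of_nonneg_left hlow (by positivity)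
    _ = _ := by ring

end

end Crest.Agent.R138.Norm70
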