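import Mathlib
import Crest.Agent.R138.Norm_70
import Crest.Agent.R138.TiltG_51

/-!
# R138: normalisation of a configuration with one deep level (helper70)

Frame (i), TEXT I, lemma NORM, finite form.  `I` = incidences (line, small cell); every incidence
lies in its top plank (label `g`, dimensions `(a1, a2)`, the small cell).  If the gap is not
negative, most flags of one line agree up to `θ = (a1/a2)/X`, and a dense part of `I` splits into
classes contained in one container; the affine map sends the container to the unit cube.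
-/

set_option autoImplicit false
set_option linter.unusedVariables false

open Finset

namespace Crest.Agent.R138.Norm70

open Crest.Agent.R138.Flag51 Crest.Agent.R138.Tilt51

noncomputable section

variable {Λ κ β : Type*}

open Classical in
/-- configuration with one deep level -/
structure Cfg1 (I : Finset (Λ × κ)) (L : Λ → Ln) (zc : κ → ℝ) (g : Λ × κ → β) (bK : β → Ln)
    (eK : β → E2) (a1 a2 z0 ρ ρ' M0 M1 E1 p q r0 R0 : ℝ) : Prop where
  cell : ∀ x ∈ I, ∀ y ∈ I, g x = g y → x.2 = y.2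
  unit : ∀ x ∈ I, dt (eK (g x)) (eK (g x)) = 1
  mem : ∀ x ∈ I, InPlank (L x.1) (bK (g x)) (eK (g x)) a1 a2 (zc x.2) ρ'
  low : ∀ x ∈ I, M1 * a1 ^ (1 + p) * a2 ^ (1 + q) ≤ E1 * ((I.filter fun y => g y = g x).card : ℝ)
  dmax : ∀ (l : Ln) (e : E2) (b1 b2 : ℝ), dt e e = 1 → r0 ≤ b1 → b1 ≤ b2 → b2 ≤ R0 →
    (((I.image Prod.fst).filter fun i => InPlank (L i) l e b1 b2 z0 ρ).card : ℝ) ≤
      M0 * b1 ^ (1 + p) * b2 ^ (1 + q)
  hz : ∀ x ∈ I, |zc x.2 - z0| ≤ ρ

open Classical in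
/-- lines alive in the small cell `j` -/
def sl (I : Finset (Λ × κ)) (j : κ) : Finset Λ := (I.image Prod.fst).filter fun i => (i, j) ∈ I

theorem mem_sl {I : Finset (Λ × κ)} {i : Λ} {j : κ} : i ∈ sl I j ↔ (i, j) ∈ I := by
  classical
  unfold sl
  rw [mem_filter, mem_image]
  exact ⟨fun h => h.2, fun h => ⟨⟨(i, j), h, rfl⟩, h⟩⟩

variable {I : Finset (Λ × κ)} {L : Λ → Ln} {zc : κ → ℝ} {g : Λ × κ → β} {bK : β → Ln}
  {eK : β → E2} {a1 a2 z0 ρ ρ' M0 M1 E1 p q r0 R0 : ℝ}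

theorem Cfg1.near (h : Cfg1 I L zc g bK eK a1 a2 z0 ρ ρ' M0 M1 E1 p q r0 R0) (j : κ) :
    Near (sl I j) L (fun _ => (1 : ℝ)) (fun i => g (i, j)) bK eK a1 a2 (zc j) ρ' M1 E1 p q := by
  classical
  refine ⟨fun t ht => h.unit _ (mem_sl.1 ht), fun t ht => h.mem _ (mem_sl.1 ht), fun t ht => ?_⟩
  have h1 := h.low (t, j) (mem_sl.1 ht)
  have h2 : (I.filter fun y => g y = g (t, j)).card ≤
      ((sl I j).filter fun s => g (s, j) = g (t, j)).card := by
    refine card_le_card_of_injOn Prod.fst ?_ ?_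
    · intro y hy
      rw [mem_coe, mem_filter] at hy
      have hj : y.2 = j := h.cell y hy.1 (t, j) (mem_sl.1 ht) hy.2
      have hy' : (y.1, j) = y := by rw [← hj]
      rw [mem_coe, mem_filter, mem_sl, hy']
      exact hy
    · intro y hy y' hy' heq
      rw [mem_coe, mem_filter] at hy hy'
      have hj : y.2 = j := h.cell y hy.1 (t, j) (mem_sl.1 ht) hy.2
      have hj' : y'.2 = j := h.cell y' hy'.1 (t, j) (mem_sl.1 ht) hy'.2
      exact Prod.ext heq (hj.trans hj'.symm)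
  have h3 : ((I.filter fun y => g y = g (t, j)).card : ℝ) ≤
      ∑ s ∈ sl I j with g (s, j) = g (t, j), (1 : ℝ) := by
    rw [sum_const, nsmul_eq_mul, mul_one]; exact_mod_cast h2
  rcases le_or_gt 0 E1 with hE | hE
  · exact h1.trans (mul_le_mul_of_nonneg_left h3 hE)
  · -- `E1 < 0`: impossible to use monotonicity; the sets have equal size
    have h4 : ((sl I j).filter fun s => g (s, j) = g (t, j)).card ≤
        (I.filter fun y => g y = g (t, j)).card := by
      refine card_le_card_of_injOn (fun s => (s, j)) ?_ ?_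
      · intro s hs
        rw [mem_coe, mem_filter, mem_sl] at hs
        rw [mem_coe, mem_filter]
        exact hs
      · intro s _ s' _ heq
        exact (Prod.mk.inj heq).1
    have h5 := le_antisymm h2 h4
    have h6 : ((I.filter fun y => g y = g (t, j)).card : ℝ) =
        ∑ s ∈ sl I j with g (s, j) = g (t, j), (1 : ℝ) := by
      rw [sum_const, nsmul_eq_mul, mul_one]; exact_mod_cast h5
    rw [h6] at h1
    exact h1

theorem Cfg1.dMax (h : Cfg1 I L zc g bK eK a1 a2 z0 ρ ρ' M0 M1 E1 p q r0 R0) (j : κ) :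
    DMax (sl I j) L (fun _ => (1 : ℝ)) z0 ρ M0 p q r0 R0 := by
  classical
  intro l e b1 b2 he h1 h2 h3
  refine le_trans ?_ (h.dmax l e b1 b2 he h1 h2 h3)
  rw [sum_const, nsmul_eq_mul, mul_one]
  have : ((sl I j).filter fun t => InPlank (L t) l e b1 b2 z0 ρ) ⊆
      (I.image Prod.fst).filter fun i => InPlank (L i) l e b1 b2 z0 ρ := by
    refine filter_subset_filter _ ?_
    unfold sl; exact filter_subset _ _
  exact_mod_cast card_le_card this

/-- the constant of the flag lemma for two small cells -/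
def kap (E1 M0 M1 lam p q X : ℝ) : ℝ :=
  TiltG51.c0 p q * (E1 * (M0 / M1) * lam ^ (2 + p + q)) * (E1 * (M0 / M1) * lam ^ (2 + p + q)) /
    (1 - 2 ^ (p - q)) * X ^ (q - p)

theorem kap_nonneg {lam X : ℝ} (hpq : p < q) (hX : 0 ≤ X) (hE1 : 0 ≤ E1) (hM0 : 0 < M0)
    (hM1 : 0 < M1) (hlam : 0 ≤ lam) : 0 ≤ kap E1 M0 M1 lam p q X := by
  have h2 : (2:ℝ) ^ (p - q) < 1 := Real.rpow_lt_one_of_one_lt_of_neg (by norm_num) (by linarith)
  have h3 : 0 < 1 - (2:ℝ) ^ (p - q) := by linarith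
  unfold kap
  have h5 : 0 ≤ X ^ (q - p) := Real.rpow_nonneg hX _
  have h6 : 0 ≤ E1 * (M0 / M1) * lam ^ (2 + p + q) := by positivity
  have h7 := TiltG51.c0_pos p q
  positivity

open Classical in
/-- two small cells: few lines have different flags -/
theorem Cfg1.pair (h : Cfg1 I L zc g bK eK a1 a2 z0 ρ ρ' M0 M1 E1 p q r0 R0)
    (hp : 0 ≤ p) (hpq : p < q) (hρ' : 0 < ρ') (hρ : ρ' ≤ ρ)
    (ha1 : 0 < a1) (ha12 : a1 ≤ a2) (hr0 : r0 ≤ 3 * (ρ / ρ') * a1)
    (hR0 : 8 * (3 * (ρ / ρ') * a2) ≤ R0) (hM0 : 0 < M0) (hM1 : 0 < M1) (hE1 : 0 ≤ E1)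
    {θ : ℝ} (hθ : a1 ≤ θ * a2) (j j' : κ) :
    (((sl I j).filter fun i => (i, j') ∈ I ∧
      θ ≤ |cr (eK (g (i, j))) (eK (g (i, j')))|).card : ℝ) ≤
      kap E1 M0 M1 (3 * (ρ / ρ')) p q (a1 / (θ * a2)) * ((sl I j).card : ℝ) := by
  have ha2 : 0 < a2 := ha1.trans_le ha12
  have hρ0 : 0 < ρ := hρ'.trans_le hρ
  have hl : 0 < 3 * (ρ / ρ') := by positivity
  have hθ0 : 0 < θ := by
    by_contra hc
    have : θ * a2 ≤ 0 := mul_nonpos_of_nonpos_of_nonneg (not_lt.1 hc) ha2.le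
    linarith
  by_cases hE : ∃ i ∈ sl I j, i ∈ sl I j'
  · obtain ⟨i0, hi0, hi0'⟩ := hE
    have hz1 : |zc j - z0| ≤ ρ := h.hz (i0, j) (mem_sl.1 hi0)
    have hz2 : |zc j' - z0| ≤ ρ := h.hz (i0, j') (mem_sl.1 hi0')
    have n1 := (h.near j).extend hρ' hρ hz1 ha1 ha2 hM0.le hM1
    have n2 := (h.near j').extend hρ' hρ hz2 ha1 ha2 hM0.le hM1
    have hlam : 3 * (ρ / ρ') * a1 ≤ 3 * (ρ / ρ') * a2 := mul_le_mul_of_nonneg_left ha12 hl.le
    have hEE : 0 ≤ E1 * (M0 / M1) * (3 * (ρ / ρ')) ^ (2 + p + q) := by positivity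
    have key := TiltG51.flag2 n1 n2 (h.dMax j) (fun _ _ => zero_le_one) (h.dMax j')
      (fun _ _ => zero_le_one) hp hpq (w := 3 * (ρ / ρ') * a1) (by positivity) le_rfl
      (by positivity) (by positivity) hlam le_rfl (by rw [min_self]; exact hr0) hR0 hM0.le hM0
      hEE hEE (θ := θ) (by
        rw [max_self]
        calc 3 * (ρ / ρ') * a1 ≤ 3 * (ρ / ρ') * (θ * a2) := mul_le_mul_of_nonneg_left hθ hl.le
          _ = θ * (3 * (ρ / ρ') * a2) := by ring)
    rw [max_self, sum_const, nsmul_eq_mul, mul_one, sum_const, nsmul_eq_mul, mul_one] at key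
    have hX : 3 * (ρ / ρ') * a1 / (θ * (3 * (ρ / ρ') * a2)) = a1 / (θ * a2) := by
      field_simp
    rw [hX] at key
    refine le_trans ?_ key
    refine Nat.cast_le.2 (card_le_card ?_)
    intro i hi
    rw [mem_filter] at hi ⊢
    exact ⟨hi.1, i, mem_sl.2 hi.2.1, close_self (by positivity) _, hi.2.2⟩
  · have : ((sl I j).filter fun i => (i, j') ∈ I ∧
        θ ≤ |cr (eK (g (i, j))) (eK (g (i, j')))|) = ∅ := by
      rw [filter_eq_empty_iff]
      intro i hi hc
      exact hE ⟨i, hi, mem_sl.2 hc.1⟩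
    rw [this, card_empty, Nat.cast_zero]
    have h2 : (2:ℝ) ^ (p - q) < 1 := Real.rpow_lt_one_of_one_lt_of_neg (by norm_num) (by linarith)
    have h3 : 0 < 1 - (2:ℝ) ^ (p - q) := by linarith
    unfold kap
    have h4 : 0 ≤ a1 / (θ * a2) := by positivity
    have h5 : 0 ≤ (a1 / (θ * a2)) ^ (q - p) := Real.rpow_nonneg h4 _
    have h6 : 0 ≤ E1 * (M0 / M1) * (3 * (ρ / ρ')) ^ (2 + p + q) := by positivity
    have h7 := TiltG51.c0_pos p q
    positivity

end

end Crest.Agent.R138.Norm70
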