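import Mathlib
import Crest.Agent.R138.Norm2_70

/-!
# R138: flags of lines, labels, popular classes, pruning (helper70)
-/

set_option autoImplicit false
set_option linter.unusedVariables false

open Finset

namespace Crest.Agent.R138.Norm70

open Crest.Agent.R138.Flag51 Crest.Agent.R138.Tilt51

noncomputable section

/-! ### choice of the flag of a line -/

section flags

variable {Λ κ β : Type*} {I : Finset (Λ × κ)} {L : Λ → Ln} {zc : κ → ℝ} {g : Λ × κ → β}
  {bK : β → Ln} {eK : β → E2} {a1 a2 z0 ρ ρ' M0 M1 E1 p q r0 R0 : ℝ}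

open Classical in
/-- averaging over pairs of cells -/
theorem choose_flag (I : Finset (Λ × κ)) (hI : I.Nonempty) (T : Λ → κ → κ → Prop) {K N n1 : ℝ}
    (hK : 0 ≤ K)
    (hT : ∀ j j', (((sl I j).filter fun i => (i, j') ∈ I ∧ T i j j').card : ℝ) ≤
      K * ((sl I j).card : ℝ))
    (hN : ((I.image Prod.snd).card : ℝ) ≤ N) (hn1 : 0 < n1)
    (hn : ∀ x ∈ I, n1 ≤ ((I.filter fun y => y.1 = x.1).card : ℝ)) (hs : 4 * (K * N) ≤ n1) :
    ∃ φ : Λ → κ, (∀ x ∈ I, (x.1, φ x.1) ∈ I) ∧
      4 * ((I.filter fun x => T x.1 (φ x.1) x.2).card : ℝ) ≤ (I.card : ℝ) := by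
  obtain ⟨x0, hx0⟩ := hI
  set S := I.image Prod.fst with hS
  set C := I.image Prod.snd with hC
  set ce : Λ → Finset κ := fun i => C.filter fun j => (i, j) ∈ I with hce
  have mem_ce : ∀ i j, j ∈ ce i ↔ (i, j) ∈ I := by
    intro i j
    rw [hce]; simp only [mem_filter]
    exact ⟨fun h => h.2, fun h => ⟨mem_image.2 ⟨(i, j), h, rfl⟩, h⟩⟩
  set b : Λ → κ → ℕ := fun i j => ((ce i).filter fun j' => T i j j').card with hb
  -- minimiser
  have hmin : ∀ i ∈ S, ∃ j ∈ ce i, ∀ j' ∈ ce i, b i j ≤ b i j' := by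
    intro i hi
    obtain ⟨x, hx, rfl⟩ := mem_image.1 hi
    obtain ⟨j, hj, hj2⟩ := exists_min_image (ce x.1) (b x.1) ⟨x.2, (mem_ce _ _).2 hx⟩
    exact ⟨j, hj, hj2⟩
  set φ : Λ → κ := fun i => if h : ∃ j ∈ ce i, ∀ j' ∈ ce i, b i j ≤ b i j' then h.choose else x0.2
    with hφ
  have hφ1 : ∀ i ∈ S, φ i ∈ ce i ∧ ∀ j' ∈ ce i, b i (φ i) ≤ b i j' := by
    intro i hi
    have h := hmin i hi
    simp only [hφ, dif_pos h]
    exact ⟨h.choose_spec.1, h.choose_spec.2⟩
  refine ⟨φ, fun x hx => (mem_ce _ _).1 (hφ1 x.1 (mem_image_of_mem _ hx)).1, ?_⟩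
  -- sum over lines of the square
  have hcard : ∀ i ∈ S, (ce i).card = (I.filter fun y => y.1 = i).card := by
    intro i _
    refine card_bij (fun j _ => (i, j)) ?_ ?_ ?_
    · intro j hj; rw [mem_filter]; exact ⟨(mem_ce _ _).1 hj, rfl⟩
    · intro j _ j' _ h; exact (Prod.mk.inj h).2
    · intro y hy
      rw [mem_filter] at hy
      have : (i, y.2) = y := by rw [← hy.2]
      exact ⟨y.2, (mem_ce _ _).2 (by rw [this]; exact hy.1), this⟩
  have hbad : (I.filter fun x => T x.1 (φ x.1) x.2).card = ∑ i ∈ S, b i (φ i) := by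
    rw [card_eq_sum_card_fiberwise (f := Prod.fst) (t := S)]
    · refine sum_congr rfl fun i hi => ?_
      rw [hb]
      refine card_bij' (fun y _ => y.2) (fun j _ => (i, j)) ?_ ?_ ?_ ?_
      · intro y hy
        rw [mem_filter, mem_filter] at hy
        have : (i, y.2) = y := by rw [← hy.2]
        rw [mem_filter, mem_ce, this]
        refine ⟨hy.1.1, ?_⟩
        have h2 := hy.1.2
        rw [hy.2] at h2
        exact h2
      · intro j hj
        rw [mem_filter, mem_ce] at hj
        rw [mem_filter, mem_filter]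
        exact ⟨⟨hj.1, hj.2⟩, rfl⟩
      · intro y hy
        rw [mem_filter] at hy
        exact Prod.ext hy.2.symm rfl
      · intro j _; rfl
    · intro x hx
      rw [mem_coe, mem_filter] at hx
      exact mem_coe.2 (mem_image_of_mem _ hx.1)
  -- double sum
  have hdouble : ∑ i ∈ S, ∑ j ∈ ce i, (b i j : ℝ) ≤ K * N * (I.card : ℝ) := by
    have e1 : ∀ i ∈ S, ∑ j ∈ ce i, (b i j : ℝ) =
        ∑ j ∈ C, ∑ j' ∈ C, if (i, j) ∈ I ∧ (i, j') ∈ I ∧ T i j j' then (1:ℝ) else 0 := by
      intro i _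
      rw [hce]; simp only
      rw [sum_filter]
      refine sum_congr rfl fun j _ => ?_
      by_cases h : (i, j) ∈ I
      · rw [if_pos h, hb]; simp only
        rw [hce]; simp only
        rw [filter_filter, card_filter, Nat.cast_sum]
        refine sum_congr rfl fun j' _ => ?_
        by_cases h2 : (i, j') ∈ I ∧ T i j j'
        · rw [if_pos h2, if_pos ⟨h, h2⟩]; simp
        · rw [if_neg h2, if_neg (fun hc => h2 hc.2)]; simp
      · rw [if_neg h]
        symm
        refine sum_eq_zero fun j' _ => if_neg fun hc => h hc.1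
    rw [sum_congr rfl e1, sum_comm]
    have e2 : ∀ j ∈ C, ∑ i ∈ S, ∑ j' ∈ C,
        (if (i, j) ∈ I ∧ (i, j') ∈ I ∧ T i j j' then (1:ℝ) else 0) ≤
        (C.card : ℝ) * (K * ((sl I j).card : ℝ)) := by
      intro j _
      rw [sum_comm, ← nsmul_eq_mul]
      refine sum_le_card_nsmul _ _ _ fun j' _ => ?_
      refine le_trans (le_of_eq ?_) (hT j j')
      rw [← sum_filter, sum_const, nsmul_eq_mul, mul_one]
      congr 2
      ext i
      rw [mem_filter, mem_filter, mem_sl]
      constructor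
      · rintro ⟨_, h1, h2, h3⟩; exact ⟨h1, h2, h3⟩
      · rintro ⟨h1, h2, h3⟩; exact ⟨mem_image.2 ⟨(i, j), h1, rfl⟩, h1, h2, h3⟩
    refine (sum_le_sum e2).trans ?_
    rw [← mul_sum, ← mul_sum]
    have e3 : ∑ j ∈ C, ((sl I j).card : ℝ) = (I.card : ℝ) := by
      rw [card_eq_sum_card_fiberwise (f := Prod.snd) (s := I) (t := C)
        (fun x hx => mem_coe.2 (mem_image_of_mem _ (mem_coe.1 hx)))]
      push_cast
      refine sum_congr rfl fun j _ => ?_
      norm_cast
      refine card_bij (fun i _ => (i, j)) ?_ ?_ ?_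
      · intro i hi; rw [mem_filter]; exact ⟨mem_sl.1 hi, rfl⟩
      · intro i _ i' _ h; exact (Prod.mk.inj h).1
      · intro y hy
        rw [mem_filter] at hy
        have : (y.1, j) = y := by rw [← hy.2]
        exact ⟨y.1, mem_sl.2 (by rw [this]; exact hy.1), this⟩
    rw [e3]
    have : (0:ℝ) ≤ K * (I.card : ℝ) := by positivity
    calc (C.card : ℝ) * (K * (I.card : ℝ)) ≤ N * (K * (I.card : ℝ)) :=
          mul_le_mul_of_nonneg_right hN this
      _ = K * N * (I.card : ℝ) := by ring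
  have hsq : n1 * ((I.filter fun x => T x.1 (φ x.1) x.2).card : ℝ) ≤
      ∑ i ∈ S, ∑ j ∈ ce i, (b i j : ℝ) := by
    rw [hbad]; push_cast; rw [mul_sum]
    refine sum_le_sum fun i hi => ?_
    obtain ⟨x, hx, rfl⟩ := mem_image.1 hi
    have h1 := hn x hx
    rw [← hcard _ hi] at h1
    calc n1 * (b x.1 (φ x.1) : ℝ) ≤ ((ce x.1).card : ℝ) * (b x.1 (φ x.1) : ℝ) :=
          mul_le_mul_of_nonneg_right h1 (Nat.cast_nonneg _)
      _ = ∑ j ∈ ce x.1, (b x.1 (φ x.1) : ℝ) := by rw [sum_const, nsmul_eq_mul]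
      _ ≤ ∑ j ∈ ce x.1, (b x.1 j : ℝ) :=
          sum_le_sum fun j hj => by exact_mod_cast (hφ1 x.1 hi).2 j hj
  have h3 : n1 * (4 * ((I.filter fun x => T x.1 (φ x.1) x.2).card : ℝ)) ≤ n1 * (I.card : ℝ) := by
    have h0 : (0:ℝ) ≤ (I.card : ℝ) := Nat.cast_nonneg _
    calc n1 * (4 * ((I.filter fun x => T x.1 (φ x.1) x.2).card : ℝ))
        = 4 * (n1 * ((I.filter fun x => T x.1 (φ x.1) x.2).card : ℝ)) := by ring
      _ ≤ 4 * (K * N * (I.card : ℝ)) :=
          mul_le_mul_of_nonneg_left (hsq.trans hdouble) (by norm_num)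
      _ = (4 * (K * N)) * (I.card : ℝ) := by ring
      _ ≤ n1 * (I.card : ℝ) := mul_le_mul_of_nonneg_right hs h0
  exact le_of_mul_le_mul_left h3 hn1

end flags

/-! ### pruning with thresholds relative to the original fibres -/

open Classical in
theorem prune_rel {α β γ : Type*} (I A0 : Finset α) (hA0 : A0 ⊆ I) (f : α → β) (g : α → γ)
    {δ : ℝ} (hδ : 0 ≤ δ) :
    ∃ A ⊆ A0, (A0.card : ℝ) - 2 * δ * (I.card : ℝ) ≤ (A.card : ℝ) ∧
      (∀ x ∈ A, δ * ((I.filter fun y => f y = f x).card : ℝ) ≤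
        ((A.filter fun y => f y = f x).card : ℝ)) ∧
      (∀ x ∈ A, δ * ((I.filter fun y => g y = g x).card : ℝ) ≤
        ((A.filter fun y => g y = g x).card : ℝ)) := by
  set F : β → ℝ := fun b => δ * ((I.filter fun y => f y = b).card : ℝ) with hF
  set G : γ → ℝ := fun b => δ * ((I.filter fun y => g y = b).card : ℝ) with hG
  have hF0 : ∀ b, 0 ≤ F b := fun b => by rw [hF]; positivity
  have hG0 : ∀ b, 0 ≤ G b := fun b => by rw [hG]; positivity
  set Ψ : Finset α → ℝ := fun A => (A.card : ℝ) - ∑ b ∈ A.image f, F b - ∑ b ∈ A.image g, G b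
    with hΨ
  obtain ⟨A, hA, hmax⟩ := exists_max_image A0.powerset Ψ ⟨A0, mem_powerset_self A0⟩
  rw [mem_powerset] at hA
  have hsumF : ∀ B ⊆ I, ∑ b ∈ B.image f, F b ≤ δ * (I.card : ℝ) := by
    intro B hB
    rw [hF, ← mul_sum]
    refine mul_le_mul_of_nonneg_left ?_ hδ
    rw [card_eq_sum_card_fiberwise (f := f) (s := I) (t := I.image f)
      (fun x hx => mem_coe.2 (mem_image_of_mem _ (mem_coe.1 hx)))]
    push_cast
    exact sum_le_sum_of_subset_of_nonneg (image_subset_image hB) fun _ _ _ => Nat.cast_nonneg _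
  have hsumG : ∀ B ⊆ I, ∑ b ∈ B.image g, G b ≤ δ * (I.card : ℝ) := by
    intro B hB
    rw [hG, ← mul_sum]
    refine mul_le_mul_of_nonneg_left ?_ hδ
    rw [card_eq_sum_card_fiberwise (f := g) (s := I) (t := I.image g)
      (fun x hx => mem_coe.2 (mem_image_of_mem _ (mem_coe.1 hx)))]
    push_cast
    exact sum_le_sum_of_subset_of_nonneg (image_subset_image hB) fun _ _ _ => Nat.cast_nonneg _
  refine ⟨A, hA, ?_, ?_, ?_⟩
  · have h1 := hmax A0 (mem_powerset_self A0)
    have h2 := hsumF A0 hA0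
    have h3 := hsumG A0 hA0
    have h4 : 0 ≤ ∑ b ∈ A.image f, F b := sum_nonneg fun b _ => hF0 b
    have h5 : 0 ≤ ∑ b ∈ A.image g, G b := sum_nonneg fun b _ => hG0 b
    simp only [hΨ] at h1
    linarith
  · intro x hx
    set B := A.filter fun y => f y ≠ f x with hB
    have hBA : B ⊆ A := filter_subset _ _
    have h1 := hmax B (mem_powerset.2 (hBA.trans hA))
    have h2 : ∑ b ∈ B.image g, G b ≤ ∑ b ∈ A.image g, G b :=
      sum_le_sum_of_subset_of_nonneg (image_subset_image hBA) fun b _ _ => hG0 b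
    have h3 : ∑ b ∈ B.image f, F b + F (f x) ≤ ∑ b ∈ A.image f, F b := by
      have hnot : f x ∉ B.image f := by
        intro hc
        obtain ⟨y, hy, hy2⟩ := mem_image.1 hc
        rw [hB, mem_filter] at hy
        exact hy.2 hy2
      have : ∑ b ∈ insert (f x) (B.image f), F b = F (f x) + ∑ b ∈ B.image f, F b :=
        sum_insert hnot
      rw [add_comm, ← this]
      refine sum_le_sum_of_subset_of_nonneg ?_ fun b _ _ => hF0 b
      intro b hb
      rcases mem_insert.1 hb with h | h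
      · rw [h]; exact mem_image_of_mem _ hx
      · exact image_subset_image hBA h
    have h4 : (A.card : ℝ) = (B.card : ℝ) + ((A.filter fun y => f y = f x).card : ℝ) := by
      have := card_filter_add_card_filter_not (s := A) (fun y => f y = f x)
      rw [hB]; push_cast [← this]; ring
    simp only [hΨ] at h1
    have h5 : F (f x) = δ * ((I.filter fun y => f y = f x).card : ℝ) := rfl
    linarith
  · intro x hx
    set B := A.filter fun y => g y ≠ g x with hB
    have hBA : B ⊆ A := filter_subset _ _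
    have h1 := hmax B (mem_powerset.2 (hBA.trans hA))
    have h2 : ∑ b ∈ B.image f, F b ≤ ∑ b ∈ A.image f, F b :=
      sum_le_sum_of_subset_of_nonneg (image_subset_image hBA) fun b _ _ => hF0 b
    have h3 : ∑ b ∈ B.image g, G b + G (g x) ≤ ∑ b ∈ A.image g, G b := by
      have hnot : g x ∉ B.image g := by
        intro hc
        obtain ⟨y, hy, hy2⟩ := mem_image.1 hc
        rw [hB, mem_filter] at hy
        exact hy.2 hy2
      have : ∑ b ∈ insert (g x) (B.image g), G b = G (g x) + ∑ b ∈ B.image g, G b :=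
        sum_insert hnot
      rw [add_comm, ← this]
      refine sum_le_sum_of_subset_of_nonneg ?_ fun b _ _ => hG0 b
      intro b hb
      rcases mem_insert.1 hb with h | h
      · rw [h]; exact mem_image_of_mem _ hx
      · exact image_subset_image hBA h
    have h4 : (A.card : ℝ) = (B.card : ℝ) + ((A.filter fun y => g y = g x).card : ℝ) := by
      have := card_filter_add_card_filter_not (s := A) (fun y => g y = g x)
      rw [hB]; push_cast [← this]; ring
    simp only [hΨ] at h1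
    have h5 : G (g x) = δ * ((I.filter fun y => g y = g x).card : ℝ) := rfl
    linarith

/-! ### popular labels -/

theorem pigeon {α γ : Type*} [DecidableEq γ] (s : Finset α) (hs : s.Nonempty) (f : α → γ) (t : Finset γ)
    (hf : ∀ a ∈ s, f a ∈ t) {K : ℕ} (ht : t.card ≤ K) :
    ∃ y, (s.card : ℝ) ≤ K * ((s.filter fun a => f a = y).card : ℝ) := by
  obtain ⟨a0, ha0⟩ := hs
  by_contra hcon
  push Not at hcon
  have h1 : (s.card : ℝ) = ∑ y ∈ t, ((s.filter fun a => f a = y).card : ℝ) := by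
    rw [card_eq_sum_card_fiberwise (f := f) (s := s) (t := t)
      (fun x hx => mem_coe.2 (hf x (mem_coe.1 hx)))]
    push_cast; rfl
  have hK : 0 < K := lt_of_lt_of_le (card_pos.2 ⟨_, hf a0 ha0⟩) ht
  have hK' : (0:ℝ) < K := by exact_mod_cast hK
  have h2 : ∑ y ∈ t, ((s.filter fun a => f a = y).card : ℝ) < ∑ y ∈ t, (s.card : ℝ) / K := by
    refine sum_lt_sum_of_nonempty ⟨_, hf a0 ha0⟩ fun y _ => ?_
    rw [lt_div_iff₀ hK', mul_comm]; exact hcon y
  rw [sum_const, nsmul_eq_mul, ← h1] at h2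
  have h3 : (t.card : ℝ) * ((s.card : ℝ) / K) ≤ K * ((s.card : ℝ) / K) := by
    refine mul_le_mul_of_nonneg_right (by exact_mod_cast ht) (by positivity)
  have h4 : (K : ℝ) * ((s.card : ℝ) / K) = s.card := by field_simp
  linarith

theorem popular {α β γ : Type*} [Nonempty γ] [DecidableEq β] [DecidableEq γ] (A : Finset α) (g : α → β) (f : α → γ) {K : ℝ}
    (h : ∀ x ∈ A, ∃ y, ((A.filter fun z => g z = g x).card : ℝ) ≤
      K * ((A.filter fun z => g z = g x ∧ f z = y).card : ℝ)) :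
    ∃ pop : β → γ, (A.card : ℝ) ≤ K * ((A.filter fun z => f z = pop (g z)).card : ℝ) := by
  classical
  set pop : β → γ := fun a => if hx : ∃ y, ((A.filter fun z => g z = a).card : ℝ) ≤
      K * ((A.filter fun z => g z = a ∧ f z = y).card : ℝ) then hx.choose
    else Classical.arbitrary γ with hpop
  have hp : ∀ x ∈ A, ((A.filter fun z => g z = g x).card : ℝ) ≤
      K * ((A.filter fun z => g z = g x ∧ f z = pop (g x)).card : ℝ) := by
    intro x hx
    have := h x hx
    simp only [hpop]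
    rw [dif_pos this]
    exact this.choose_spec
  refine ⟨pop, ?_⟩
  rw [card_eq_sum_card_fiberwise (f := g) (s := A) (t := A.image g)
      (fun x hx => mem_coe.2 (mem_image_of_mem _ (mem_coe.1 hx))),
    card_eq_sum_card_fiberwise (f := g) (s := A.filter fun z => f z = pop (g z)) (t := A.image g)
      (fun x hx => mem_coe.2 (mem_image_of_mem _ (mem_filter.1 (mem_coe.1 hx)).1))]
  push_cast
  rw [mul_sum]
  refine sum_le_sum fun a ha => ?_
  obtain ⟨x, hx, rfl⟩ := mem_image.1 ha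
  refine (hp x hx).trans (le_of_eq ?_)
  congr 3
  ext z
  rw [mem_filter, mem_filter, mem_filter]
  constructor
  · rintro ⟨h1, h2, h3⟩; exact ⟨⟨h1, by rw [h2]; exact h3⟩, h2⟩
  · rintro ⟨⟨h1, h2⟩, h3⟩; exact ⟨h1, h3, by rw [← h3]; exact h2⟩

end

end Crest.Agent.R138.Norm70
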