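import Mathlib
import Crest.Agent.R138.Norm3_70

/-!
# R138: NORM, the container class and the normalised configuration (helper70)
-/

set_option autoImplicit false
set_option linter.unusedVariables false

open Finset

namespace Crest.Agent.R138.Norm70

open Crest.Agent.R138.Flag51 Crest.Agent.R138.Tilt51

noncomputable section

/-- entries of the projection on `e` -/
def pr0 (e : E2) : ℝ := e 0 * e 0
def pr1 (e : E2) : ℝ := e 0 * e 1

theorem cr_sq {e e' : E2} (h : dt e e = 1) (h' : dt e' e' = 1) :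
    cr e e' ^ 2 = (pr0 e - pr0 e') ^ 2 + (pr1 e - pr1 e') ^ 2 := by
  have h1 : e 0 * e 0 + e 1 * e 1 = 1 := h
  have h2 : e' 0 * e' 0 + e' 1 * e' 1 = 1 := h'
  simp only [cr, pr0, pr1]
  linear_combination (e' 0 ^ 2 - e 0 ^ 2) * h1 + (e 0 ^ 2 - e' 0 ^ 2) * h2

theorem pr_le {e e' : E2} (h : dt e e = 1) (h' : dt e' e' = 1) {θ : ℝ} (hθ : |cr e e'| ≤ θ) :
    |pr0 e - pr0 e'| ≤ θ ∧ |pr1 e - pr1 e'| ≤ θ := by
  have h0 : 0 ≤ θ := (abs_nonneg _).trans hθ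
  have h1 := cr_sq h h'
  have h2 : cr e e' ^ 2 ≤ θ ^ 2 := by
    rw [← sq_abs]; exact pow_le_pow_left₀ (abs_nonneg _) hθ 2
  constructor
  · apply abs_le_of_sq_le_sq' _ h0 |> abs_le.2
    nlinarith [sq_nonneg (pr1 e - pr1 e')]
  · apply abs_le_of_sq_le_sq' _ h0 |> abs_le.2
    nlinarith [sq_nonneg (pr0 e - pr0 e')]

theorem cr_le_of_pr {e e' : E2} (h : dt e e = 1) (h' : dt e' e' = 1) {θ : ℝ} (hθ : 0 ≤ θ)
    (h0 : |pr0 e - pr0 e'| ≤ θ) (h1 : |pr1 e - pr1 e'| ≤ θ) : |cr e e'| ≤ 2 * θ := by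
  have h2 := cr_sq h h'
  have a0 : (pr0 e - pr0 e') ^ 2 ≤ θ ^ 2 := by
    rw [← sq_abs]; exact pow_le_pow_left₀ (abs_nonneg _) h0 2
  have a1 : (pr1 e - pr1 e') ^ 2 ≤ θ ^ 2 := by
    rw [← sq_abs]; exact pow_le_pow_left₀ (abs_nonneg _) h1 2
  apply abs_le_of_sq_le_sq' _ (by positivity) |> abs_le.2
  nlinarith [sq_nonneg θ]

theorem floor_mem {x c : ℝ} (h : |x - c| ≤ 1) : ⌊x⌋ ∈ Icc (⌊c⌋ - 1) (⌊c⌋ + 1) := by
  rw [abs_le] at h
  rw [mem_Icc]
  constructor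
  · rw [← Int.floor_sub_one]; exact Int.floor_le_floor (by linarith)
  · rw [← Int.floor_add_one]; exact Int.floor_le_floor (by linarith)

theorem card_three (a : ℤ) : (Icc (a - 1) (a + 1)).card = 3 := by
  rw [Int.card_Icc]; omega

theorem floor_div_mem {x c W : ℝ} (hW : 0 < W) (h : |x - c| ≤ W) :
    ⌊x / W⌋ ∈ Icc (⌊c / W⌋ - 1) (⌊c / W⌋ + 1) := by
  apply floor_mem
  rw [← sub_div, abs_div, abs_of_pos hW, div_le_one hW]; exact h

theorem abs_le_of_floor {x y W : ℝ} (hW : 0 < W) (h : ⌊x / W⌋ = ⌊y / W⌋) : |x - y| ≤ W := by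
  have h1 := Int.abs_sub_lt_one_of_floor_eq_floor h
  rw [← sub_div, abs_div, abs_of_pos hW, div_lt_one hW] at h1
  exact h1.le

/-- an affine function bounded at the two ends -/
theorem affine_ends {A B W z0 ρ : ℝ} (hρ : 0 < ρ) (h1 : |A + (z0 + ρ) * B| ≤ W)
    (h2 : |A + (z0 - ρ) * B| ≤ W) {z : ℝ} (hz : |z - z0| ≤ ρ) : |A + z * B| ≤ W := by
  rw [abs_le] at *
  obtain ⟨a, b⟩ := hz
  constructor
  · have e : 2 * ρ * (A + z * B) = (z - z0 + ρ) * (A + (z0 + ρ) * B) +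
        (ρ - (z - z0)) * (A + (z0 - ρ) * B) := by ring
    have k1 : (z - z0 + ρ) * (-W) ≤ (z - z0 + ρ) * (A + (z0 + ρ) * B) :=
      mul_le_mul_of_nonneg_left h1.1 (by linarith)
    have k2 : (ρ - (z - z0)) * (-W) ≤ (ρ - (z - z0)) * (A + (z0 - ρ) * B) :=
      mul_le_mul_of_nonneg_left h2.1 (by linarith)
    have k3 : 2 * ρ * (-W) ≤ 2 * ρ * (A + z * B) := by
      rw [e]; linarith
    exact le_of_mul_le_mul_left k3 (by linarith)
  · have e : 2 * ρ * (A + z * B) = (z - z0 + ρ) * (A + (z0 + ρ) * B) +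
        (ρ - (z - z0)) * (A + (z0 - ρ) * B) := by ring
    have k1 : (z - z0 + ρ) * (A + (z0 + ρ) * B) ≤ (z - z0 + ρ) * W :=
      mul_le_mul_of_nonneg_left h1.2 (by linarith)
    have k2 : (ρ - (z - z0)) * (A + (z0 - ρ) * B) ≤ (ρ - (z - z0)) * W :=
      mul_le_mul_of_nonneg_left h2.2 (by linarith)
    have k3 : 2 * ρ * (A + z * B) ≤ 2 * ρ * W := by
      rw [e]; linarith
    exact le_of_mul_le_mul_left k3 (by linarith)

theorem inPlank_of_ends {t l : Ln} {e : E2} {b1 b2 z0 ρ : ℝ} (hρ : 0 < ρ)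
    (h1 : |dt (pos t (z0 + ρ)) e - dt (pos l (z0 + ρ)) e| ≤ b1)
    (h2 : |dt (pos t (z0 - ρ)) e - dt (pos l (z0 - ρ)) e| ≤ b1)
    (h3 : |cr e (pos t (z0 + ρ)) - cr e (pos l (z0 + ρ))| ≤ b2)
    (h4 : |cr e (pos t (z0 - ρ)) - cr e (pos l (z0 - ρ))| ≤ b2) : InPlank t l e b1 b2 z0 ρ := by
  intro z hz
  have f1 : ∀ z, dt (pos t z) e - dt (pos l z) e = (dt t.1 e - dt l.1 e) +
      z * (dt t.2 e - dt l.2 e) := by
    intro z; simp [dt, pos]; ring
  have f2 : ∀ z, cr e (pos t z) - cr e (pos l z) = (cr e t.1 - cr e l.1) +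
      z * (cr e t.2 - cr e l.2) := by
    intro z; simp [cr, pos]; ring
  rw [f1] at h1 h2
  rw [f2] at h3 h4
  rw [dt_sub, cr_sub, f1, f2]
  exact ⟨affine_ends hρ h1 h2 hz, affine_ends hρ h3 h4 hz⟩

/-- distance of a line of the plank `(b, e; c1, c2)` to `b` in the frame `E` -/
theorem frame_change {t b : Ln} {E e : E2} {c1 c2 θ z0 ρ : ℝ} (hE : dt E E = 1)
    (he : dt e e = 1) (hθ : |cr E e| ≤ θ) (h : InPlank t b e c1 c2 z0 ρ) {z : ℝ}
    (hz : |z - z0| ≤ ρ) :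
    |dt (pos t z) E - dt (pos b z) E| ≤ c1 + θ * c2 ∧
      |cr E (pos t z) - cr E (pos b z)| ≤ c1 + c2 := by
  obtain ⟨g1, g2⟩ := h z hz
  rw [← dt_sub, ← cr_sub]
  constructor
  · rw [dt_of he (pos t z - pos b z)]
    refine (abs_sub _ _).trans ?_
    rw [abs_mul, abs_mul]
    have k1 : |dt E e| * |dt (pos t z - pos b z) e| ≤ 1 * c1 :=
      mul_le_mul (abs_dt_le_one hE he) g1 (abs_nonneg _) zero_le_one
    have k2 : |cr E e| * |cr e (pos t z - pos b z)| ≤ θ * c2 :=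
      mul_le_mul hθ g2 (abs_nonneg _) ((abs_nonneg _).trans hθ)
    linarith
  · rw [cr_of he (pos t z - pos b z)]
    refine (abs_add_le _ _).trans ?_
    rw [abs_mul, abs_mul]
    have k1 : |cr E e| * |dt (pos t z - pos b z) e| ≤ 1 * c1 :=
      mul_le_mul (abs_cr_le_one hE he) g1 (abs_nonneg _) zero_le_one
    have k2 : |dt E e| * |cr e (pos t z - pos b z)| ≤ 1 * c2 :=
      mul_le_mul (abs_dt_le_one hE he) g2 (abs_nonneg _) zero_le_one
    linarith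

section cls

variable {Λ κ β : Type*} {I : Finset (Λ × κ)} {L : Λ → Ln} {zc : κ → ℝ} {g : Λ × κ → β}
  {bK : β → Ln} {eK : β → E2} {a1 a2 z0 ρ ρ' M0 M1 E1 p q r0 R0 : ℝ}

open Classical in
/-- flags of the lines -/
theorem Cfg1.exists_flags (h : Cfg1 I L zc g bK eK a1 a2 z0 ρ ρ' M0 M1 E1 p q r0 R0)
    (hI : I.Nonempty) (hp : 0 ≤ p) (hpq : p < q) (hρ' : 0 < ρ') (hρ : ρ' ≤ ρ)
    (ha1 : 0 < a1) (ha12 : a1 ≤ a2) (hr0 : r0 ≤ 3 * (ρ / ρ') * a1)
    (hR0 : 8 * (3 * (ρ / ρ') * a2) ≤ R0) (hM0 : 0 < M0) (hM1 : 0 < M1) (hE1 : 0 ≤ E1)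
    {θ N n1 : ℝ} (hθ : a1 ≤ θ * a2)
    (hN : ((I.image Prod.snd).card : ℝ) ≤ N) (hn1 : 0 < n1)
    (hn : ∀ x ∈ I, n1 ≤ ((I.filter fun y => y.1 = x.1).card : ℝ))
    (hs : θ = 1 ∨ 4 * (kap E1 M0 M1 (3 * (ρ / ρ')) p q (a1 / (θ * a2)) * N) ≤ n1) :
    ∃ φ : Λ → κ, (∀ x ∈ I, (x.1, φ x.1) ∈ I) ∧
      4 * ((I.filter fun x => θ < |cr (eK (g (x.1, φ x.1))) (eK (g x))|).card : ℝ) ≤
        (I.card : ℝ) := by
  have ha2 : 0 < a2 := ha1.trans_le ha12
  have hθ0 : 0 < θ := by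
    by_contra hc
    have : θ * a2 ≤ 0 := mul_nonpos_of_nonpos_of_nonneg (not_lt.1 hc) ha2.le
    linarith
  rcases hs with hs | hs
  · obtain ⟨φ, h1, h2⟩ := choose_flag I hI
      (fun i j j' => θ < |cr (eK (g (i, j))) (eK (g (i, j')))|)
      (K := 0) (N := N) le_rfl (fun j j' => by
        rw [zero_mul]
        refine le_of_eq ?_
        rw [Nat.cast_eq_zero, card_eq_zero, filter_eq_empty_iff]
        rintro i hi ⟨c2, c3⟩
        rw [hs] at c3
        exact absurd (abs_cr_le_one (h.unit _ (mem_sl.1 hi)) (h.unit _ c2)) (not_le.2 c3))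
        hN hn1 hn (by simpa using hn1.le)
    exact ⟨φ, h1, h2⟩
  · obtain ⟨φ, h1, h2⟩ := choose_flag I hI
      (fun i j j' => θ < |cr (eK (g (i, j))) (eK (g (i, j')))|)
      (K := kap E1 M0 M1 (3 * (ρ / ρ')) p q (a1 / (θ * a2))) (N := N)
      (kap_nonneg hpq (by positivity) hE1 hM0 hM1 (by
        have : 0 < ρ := hρ'.trans_le hρ
        positivity)) (fun j j' => by
        refine le_trans ?_ (h.pair hp hpq hρ' hρ ha1 ha12 hr0 hR0 hM0 hM1 hE1 hθ j j')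
        refine Nat.cast_le.2 (card_le_card ?_)
        intro i hi
        rw [mem_filter] at hi ⊢
        exact ⟨hi.1, hi.2.1, hi.2.2.le⟩) hN hn1 hn hs
    exact ⟨φ, h1, h2⟩

/-- labels of a line: quantised flag, quantised position at the two ends -/
abbrev Lab := (ℤ × ℤ) × ((ℤ × ℤ) × (ℤ × ℤ))

/-- quantised flag -/
def fl (fe : Λ → E2) (θ : ℝ) (i : Λ) : ℤ × ℤ := (⌊pr0 (fe i) / θ⌋, ⌊pr1 (fe i) / θ⌋)

/-- quantised position in the frame `E` -/
def pl (L : Λ → Ln) (E : E2) (W1 W2 z0 ρ : ℝ) (i : Λ) : (ℤ × ℤ) × (ℤ × ℤ) :=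
  ((⌊dt (pos (L i) (z0 + ρ)) E / W1⌋, ⌊cr E (pos (L i) (z0 + ρ)) / W2⌋),
    (⌊dt (pos (L i) (z0 - ρ)) E / W1⌋, ⌊cr E (pos (L i) (z0 - ρ)) / W2⌋))

theorem inPlank_of_pl {E : E2} {W1 W2 : ℝ} (hρ : 0 < ρ) (hW1 : 0 < W1) (hW2 : 0 < W2) {i i' : Λ}
    (h : pl L E W1 W2 z0 ρ i = pl L E W1 W2 z0 ρ i') :
    InPlank (L i) (L i') E W1 W2 z0 ρ := by
  simp only [pl, Prod.mk.injEq] at h
  obtain ⟨⟨h1, h2⟩, h3, h4⟩ := h
  exact inPlank_of_ends hρ (abs_le_of_floor hW1 h1) (abs_le_of_floor hW1 h3)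
    (abs_le_of_floor hW2 h2) (abs_le_of_floor hW2 h4)

theorem pl_mem {E e : E2} {b : Ln} {c1 c2 W1 W2 θ : ℝ} (hρ : 0 < ρ) (hW1 : 0 < W1) (hW2 : 0 < W2)
    (hE : dt E E = 1) (he : dt e e = 1) (hθ : |cr E e| ≤ θ) (h1 : c1 + θ * c2 ≤ W1)
    (h2 : c1 + c2 ≤ W2) {i : Λ} (h : InPlank (L i) b e c1 c2 z0 ρ) :
    pl L E W1 W2 z0 ρ i ∈
      (Icc (⌊dt (pos b (z0 + ρ)) E / W1⌋ - 1) (⌊dt (pos b (z0 + ρ)) E / W1⌋ + 1) ×ˢ
        Icc (⌊cr E (pos b (z0 + ρ)) / W2⌋ - 1) (⌊cr E (pos b (z0 + ρ)) / W2⌋ + 1)) ×ˢ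
      (Icc (⌊dt (pos b (z0 - ρ)) E / W1⌋ - 1) (⌊dt (pos b (z0 - ρ)) E / W1⌋ + 1) ×ˢ
        Icc (⌊cr E (pos b (z0 - ρ)) / W2⌋ - 1) (⌊cr E (pos b (z0 - ρ)) / W2⌋ + 1)) := by
  have e1 : |(z0 + ρ) - z0| ≤ ρ := by rw [add_sub_cancel_left, abs_of_pos hρ]
  have e2 : |(z0 - ρ) - z0| ≤ ρ := by rw [sub_sub_cancel_left, abs_neg, abs_of_pos hρ]
  obtain ⟨a, b'⟩ := frame_change hE he hθ h e1
  obtain ⟨c, d⟩ := frame_change hE he hθ h e2
  rw [mem_product, mem_product, mem_product]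
  exact ⟨⟨floor_div_mem hW1 (a.trans h1), floor_div_mem hW2 (b'.trans h2)⟩,
    floor_div_mem hW1 (c.trans h1), floor_div_mem hW2 (d.trans h2)⟩

open Classical in
/-- **container classes**: `fe` = flag of a line, most incidences agree with it up to `θ` -/
theorem exists_class (I : Finset (Λ × κ)) (g : Λ × κ → β) (L : Λ → Ln) (fe : Λ → E2)
    (bK : β → Ln) (eK : β → E2) {c1 c2 θ : ℝ} (hρ : 0 < ρ) (hc1 : 0 < c1) (hc2 : 0 < c2)
    (hθ : c1 ≤ θ * c2) (hθ1 : θ ≤ 1) (hI : I.Nonempty)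
    (hu : ∀ x ∈ I, dt (fe x.1) (fe x.1) = 1) (hue : ∀ x ∈ I, dt (eK (g x)) (eK (g x)) = 1)
    (hmem : ∀ x ∈ I, InPlank (L x.1) (bK (g x)) (eK (g x)) c1 c2 z0 ρ)
    (hbad : 4 * ((I.filter fun x => θ < |cr (fe x.1) (eK (g x))|).card : ℝ) ≤ (I.card : ℝ)) :
    ∃ I' ⊆ I, ∃ (E : E2), ∃ x0 ∈ I', dt E E = 1 ∧
      (∀ x ∈ I', InPlank (L x.1) (L x0.1) E (4 * θ * c2) (4 * c2) z0 ρ) ∧
      (∀ x ∈ I', |cr (fe x.1) (eK (g x))| ≤ θ) ∧ (∀ x ∈ I', |cr E (eK (g x))| ≤ 3 * θ) ∧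
      (∀ x ∈ I', ((I.filter fun y => y.1 = x.1).card : ℝ) ≤
        2000 * ((I'.filter fun y => y.1 = x.1).card : ℝ)) ∧
      (∀ x ∈ I', ((I.filter fun y => g y = g x).card : ℝ) ≤
        2000 * ((I'.filter fun y => g y = g x).card : ℝ)) := by
  have hθ0 : 0 < θ := by
    by_contra hc
    have : θ * c2 ≤ 0 := mul_nonpos_of_nonpos_of_nonneg (not_lt.1 hc) hc2.le
    linarith
  have hIc : (0:ℝ) < (I.card : ℝ) := by exact_mod_cast card_pos.2 hI
  set W1 : ℝ := 4 * θ * c2 with hW1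
  set W2 : ℝ := 4 * c2 with hW2
  have hW1p : 0 < W1 := by positivity
  have hW2p : 0 < W2 := by positivity
  set S := I.image Prod.fst with hS
  -- representative frames
  obtain ⟨x00, hx00⟩ := hI
  set EE : ℤ × ℤ → E2 := fun l => if h : ∃ i ∈ S, fl fe θ i = l then fe h.choose else fe x00.1
    with hEE
  have hfeS : ∀ i ∈ S, dt (fe i) (fe i) = 1 := by
    intro i hi
    obtain ⟨x, hx, rfl⟩ := mem_image.1 hi
    exact hu x hx
  have hEEu : ∀ l, dt (EE l) (EE l) = 1 := by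
    intro l
    simp only [hEE]
    split_ifs with h
    · exact hfeS _ h.choose_spec.1
    · exact hu _ hx00
  have hEEc : ∀ i ∈ S, |cr (EE (fl fe θ i)) (fe i)| ≤ 2 * θ := by
    intro i hi
    have hex : ∃ i' ∈ S, fl fe θ i' = fl fe θ i := ⟨i, hi, rfl⟩
    have h1 : EE (fl fe θ i) = fe hex.choose := by simp only [hEE, dif_pos hex]
    rw [h1]
    have h2 := hex.choose_spec
    have h3 := h2.2
    exact cr_le_of_pr (hfeS _ h2.1) (hfeS _ hi) hθ0.le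
      (abs_le_of_floor hθ0 (congrArg Prod.fst h3)) (abs_le_of_floor hθ0 (congrArg Prod.snd h3))
  -- labels
  set lab : Λ × κ → Lab := fun x => (fl fe θ x.1, pl L (EE (fl fe θ x.1)) W1 W2 z0 ρ x.1) with hlab
  set A1 := I.filter fun x => ¬ θ < |cr (fe x.1) (eK (g x))| with hA1
  have hA1c : (3 / 4 : ℝ) * (I.card : ℝ) ≤ (A1.card : ℝ) := by
    have h1 := card_filter_add_card_filter_not (s := I) (fun x => θ < |cr (fe x.1) (eK (g x))|)
    have h2 : ((I.filter fun x => θ < |cr (fe x.1) (eK (g x))|).card : ℝ) + (A1.card : ℝ) =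
        (I.card : ℝ) := by
      rw [hA1]; exact_mod_cast h1
    linarith
  have hpop : ∀ x ∈ A1, ∃ y, ((A1.filter fun z => g z = g x).card : ℝ) ≤
      729 * ((A1.filter fun z => g z = g x ∧ lab z = y).card : ℝ) := by
    intro x hx
    set G := A1.filter fun z => g z = g x with hG
    have hxG : x ∈ G := by rw [hG, mem_filter]; exact ⟨hx, rfl⟩
    have hGI : ∀ z ∈ G, z ∈ I ∧ |cr (fe z.1) (eK (g x))| ≤ θ := by
      intro z hz
      rw [hG, mem_filter, hA1, mem_filter] at hz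
      refine ⟨hz.1.1, ?_⟩
      rw [← hz.2]; exact not_lt.1 hz.1.2
    have hxI : x ∈ I := (hGI x hxG).1
    -- first pigeonhole
    obtain ⟨l, hl⟩ := pigeon (K := 9) G ⟨x, hxG⟩ (fun z => fl fe θ z.1)
      (Icc (⌊pr0 (eK (g x)) / θ⌋ - 1) (⌊pr0 (eK (g x)) / θ⌋ + 1) ×ˢ
        Icc (⌊pr1 (eK (g x)) / θ⌋ - 1) (⌊pr1 (eK (g x)) / θ⌋ + 1))
      (fun z hz => by
        obtain ⟨h1, h2⟩ := hGI z hz
        have h3 := pr_le (hu z h1) (hue x hxI) h2
        rw [mem_product]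
        exact ⟨floor_div_mem hθ0 h3.1, floor_div_mem hθ0 h3.2⟩)
      (by rw [card_product, card_three, card_three])
    have hGpos : 0 < (G.card : ℝ) := by exact_mod_cast card_pos.2 ⟨x, hxG⟩
    set G2 := G.filter fun z => fl fe θ z.1 = l with hG2
    have hG2ne : G2.Nonempty := by
      rw [← card_pos]
      by_contra hc
      have : G2.card = 0 := by omega
      have hl2 : (G.card : ℝ) ≤ 9 * (G2.card : ℝ) := by exact_mod_cast hl
      rw [this] at hl2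
      simp only [Nat.cast_zero, mul_zero] at hl2
      linarith
    -- second pigeonhole
    obtain ⟨y, hy⟩ := pigeon (K := 81) G2 hG2ne (fun z => pl L (EE l) W1 W2 z0 ρ z.1)
      ((Icc (⌊dt (pos (bK (g x)) (z0 + ρ)) (EE l) / W1⌋ - 1)
          (⌊dt (pos (bK (g x)) (z0 + ρ)) (EE l) / W1⌋ + 1) ×ˢ
        Icc (⌊cr (EE l) (pos (bK (g x)) (z0 + ρ)) / W2⌋ - 1)
          (⌊cr (EE l) (pos (bK (g x)) (z0 + ρ)) / W2⌋ + 1)) ×ˢ
      (Icc (⌊dt (pos (bK (g x)) (z0 - ρ)) (EE l) / W1⌋ - 1)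
          (⌊dt (pos (bK (g x)) (z0 - ρ)) (EE l) / W1⌋ + 1) ×ˢ
        Icc (⌊cr (EE l) (pos (bK (g x)) (z0 - ρ)) / W2⌋ - 1)
          (⌊cr (EE l) (pos (bK (g x)) (z0 - ρ)) / W2⌋ + 1)))
      (fun z hz => by
        rw [hG2, mem_filter] at hz
        obtain ⟨hz1, hz2⟩ := hz
        obtain ⟨h1, h2⟩ := hGI z hz1
        have hzS : z.1 ∈ S := mem_image_of_mem _ h1
        have h3 : |cr (EE l) (eK (g x))| ≤ 3 * θ := by
          refine (abs_cr_triangle (hEEu l) (hu z h1) (hue x hxI)).trans ?_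
          have := hEEc z.1 hzS
          rw [hz2] at this
          linarith
        have h4 : InPlank (L z.1) (bK (g x)) (eK (g x)) c1 c2 z0 ρ := by
          have h5 := hmem z h1
          rw [hG, mem_filter] at hz1
          rw [hz1.2] at h5
          exact h5
        refine pl_mem hρ hW1p hW2p (hEEu l) (hue x hxI) h3 ?_ ?_ h4
        · rw [hW1]; nlinarith
        · rw [hW2]; nlinarith)
      (by rw [card_product, card_product, card_product, card_three, card_three, card_three,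
            card_three])
    refine ⟨(l, y), ?_⟩
    have h6 : (G2.filter fun z => pl L (EE l) W1 W2 z0 ρ z.1 = y).card ≤
        (A1.filter fun z => g z = g x ∧ lab z = (l, y)).card := by
      refine card_le_card ?_
      intro z hz
      rw [mem_filter, hG2, mem_filter, hG, mem_filter] at hz
      obtain ⟨⟨⟨h1, h2⟩, h3⟩, h4⟩ := hz
      rw [mem_filter]
      refine ⟨h1, h2, ?_⟩
      simp only [hlab, Prod.mk.injEq]
      rw [h3]
      exact ⟨rfl, h4⟩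
    have h7 : ((G2.filter fun z => pl L (EE l) W1 W2 z0 ρ z.1 = y).card : ℝ) ≤
        ((A1.filter fun z => g z = g x ∧ lab z = (l, y)).card : ℝ) := by exact_mod_cast h6
    push_cast at hl hy
    calc (G.card : ℝ) ≤ 9 * (G2.card : ℝ) := hl
      _ ≤ 9 * (81 * ((G2.filter fun z => pl L (EE l) W1 W2 z0 ρ z.1 = y).card : ℝ)) :=
          mul_le_mul_of_nonneg_left hy (by norm_num)
      _ ≤ 9 * (81 * ((A1.filter fun z => g z = g x ∧ lab z = (l, y)).card : ℝ)) := by gcongr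
      _ = 729 * ((A1.filter fun z => g z = g x ∧ lab z = (l, y)).card : ℝ) := by ring
  obtain ⟨pop, hpop'⟩ := popular (γ := Lab) A1 g lab hpop
  set A2 := A1.filter fun z => lab z = pop (g z) with hA2
  have hA2I : A2 ⊆ I := (filter_subset _ _).trans (filter_subset _ _)
  obtain ⟨A, hA, hc, hp1, hp2⟩ := prune_rel I A2 hA2I (Prod.fst : Λ × κ → Λ) g
    (δ := 1 / 2000) (by norm_num)
  have hAne : A.Nonempty := by
    rw [← card_pos]
    have : (0:ℝ) < (A.card : ℝ) := by linarith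
    exact_mod_cast this
  obtain ⟨x0, hx0⟩ := hAne
  have hAI : A ⊆ I := hA.trans hA2I
  refine ⟨A.filter fun x => lab x = lab x0, (filter_subset _ _).trans hAI, EE (fl fe θ x0.1), x0,
    by rw [mem_filter]; exact ⟨hx0, rfl⟩, hEEu _, ?_, ?_, ?_, ?_, ?_⟩
  · intro x hx
    rw [mem_filter] at hx
    have h1 := hx.2
    simp only [hlab, Prod.mk.injEq] at h1
    obtain ⟨h2, h3⟩ := h1
    rw [h2] at h3
    exact inPlank_of_pl hρ hW1p hW2p h3
  · intro x hx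
    rw [mem_filter] at hx
    have h1 : x ∈ A1 := (filter_subset _ _) (hA hx.1)
    rw [hA1, mem_filter] at h1
    exact not_lt.1 h1.2
  · intro x hx
    rw [mem_filter] at hx
    have h1 : x ∈ A1 := (filter_subset _ _) (hA hx.1)
    rw [hA1, mem_filter] at h1
    have h2 := hx.2
    simp only [hlab, Prod.mk.injEq] at h2
    have h3 := hEEc x.1 (mem_image_of_mem _ h1.1)
    rw [h2.1] at h3
    refine (abs_cr_triangle (hEEu _) (hu x h1.1) (hue x h1.1)).trans ?_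
    have h4 := not_lt.1 h1.2
    linarith
  · intro x hx
    rw [mem_filter] at hx
    have h1 := hp1 x hx.1
    have h2 : (A.filter fun y => y.1 = x.1) ⊆
        (A.filter fun x => lab x = lab x0).filter fun y => y.1 = x.1 := by
      intro y hy
      rw [mem_filter] at hy
      rw [mem_filter, mem_filter]
      refine ⟨⟨hy.1, ?_⟩, hy.2⟩
      rw [← hx.2]
      simp only [hlab]
      rw [hy.2]
    have h3 : ((A.filter fun y => y.1 = x.1).card : ℝ) ≤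
        (((A.filter fun x => lab x = lab x0).filter fun y => y.1 = x.1).card : ℝ) := by
      exact_mod_cast card_le_card h2
    linarith
  · intro x hx
    rw [mem_filter] at hx
    have h1 := hp2 x hx.1
    have h2 : (A.filter fun y => g y = g x) ⊆
        (A.filter fun x => lab x = lab x0).filter fun y => g y = g x := by
      intro y hy
      rw [mem_filter] at hy
      rw [mem_filter, mem_filter]
      refine ⟨⟨hy.1, ?_⟩, hy.2⟩
      have h4 : y ∈ A2 := hA hy.1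
      have h5 : x ∈ A2 := hA hx.1
      rw [hA2, mem_filter] at h4 h5
      rw [h4.2, hy.2, ← h5.2]; exact hx.2
    have h3 : ((A.filter fun y => g y = g x).card : ℝ) ≤
        (((A.filter fun x => lab x = lab x0).filter fun y => g y = g x).card : ℝ) := by
      exact_mod_cast card_le_card h2
    linarith

end cls

end

end Crest.Agent.R138.Norm70
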