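import Mathlib
import Crest.Agent.R138.Norm4_70

/-!
# R138: NORM, final finite form (helper70)

`Cfg1.norm_of_flags`: flags `fe` of lines with precision `θ` (any admissible precision) give a
normalised configuration.  `Cfg1.norm`: the flag lemma gives `θ = min 1 (a1 / (a2 X))` as soon as
`4 κ(X) N ≤ n1`.
-/

set_option autoImplicit false
set_option linter.unusedVariables false

open Finset

namespace Crest.Agent.R138.Norm70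

open Crest.Agent.R138.Flag51 Crest.Agent.R138.Tilt51

noncomputable section

variable {Λ κ β : Type*} {I : Finset (Λ × κ)} {L : Λ → Ln} {zc : κ → ℝ} {g : Λ × κ → β}
  {bK : β → Ln} {eK : β → E2} {a1 a2 z0 ρ ρ' M0 M1 E1 p q r0 R0 : ℝ}

open Classical in
/-- a sub-configuration inside the container `(L0, E; W1, W2)`, normalised -/
theorem Cfg1.nrm_sub (h : Cfg1 I L zc g bK eK a1 a2 z0 ρ ρ' M0 M1 E1 p q r0 R0)
    (hp : 0 ≤ p) (hpq : p ≤ q) (hq : q ≤ 2) (ha1 : 0 < a1) (ha2 : 0 < a2) (hr0 : 0 < r0)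
    (hM0 : 0 ≤ M0) (hE1 : 0 ≤ E1) {I' : Finset (Λ × κ)} (hI' : I' ⊆ I) {E : E2} (L0 : Ln)
    {W1 W2 θ A K : ℝ} (hE : dt E E = 1) (hW1 : 0 < W1) (hW : W1 ≤ W2) (hA : 0 < A)
    (hA1 : a1 + θ * a2 ≤ A * W1) (hA2 : a1 + a2 ≤ A * W2)
    (hθ : ∀ x ∈ I', |cr E (eK (g x))| ≤ θ)
    (hK : ∀ x ∈ I', ((I.filter fun y => g y = g x).card : ℝ) ≤
        K * ((I'.filter fun y => g y = g x).card : ℝ)) :
    Cfg1 I' (fun i => nrm E L0 W1 W2 (L i)) zc g (fun a => nrm E L0 W1 W2 (bK a))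
      (fun a => imgE E (eK a) W1 W2) (a1 / W1) (2 * A) z0 ρ ρ'
      (8 * M0 * W1 ^ (1 + p) * W2 ^ (1 + q)) (8 * M1 * W1 ^ (1 + p) * W2 ^ (1 + q))
      (8 * (2 * A * W2 / a2) ^ (1 + q) * K * E1) p q (r0 / W1) (R0 / (2 * W2)) := by
  have hW2 : 0 < W2 := hW1.trans_le hW
  refine ⟨fun x hx y hy => h.cell x (hI' hx) y (hI' hy), fun x hx =>
    imgE_unit hE (h.unit x (hI' hx)) hW1 hW, fun x hx =>
    inPlank_img L0 hE (h.unit x (hI' hx)) hW1 hW ha1.le hA1 hA2 (hθ x hx) (h.mem x (hI' hx)),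
    fun x hx => ?_, ?_, fun x hx => h.hz x (hI' hx)⟩
  · rw [vol_img hW1 hW2 ha1 ha2 hA]
    have h1 := h.low x (hI' hx)
    have h2 := hK x hx
    calc 8 * (2 * A * W2 / a2) ^ (1 + q) * (M1 * a1 ^ (1 + p) * a2 ^ (1 + q))
        ≤ 8 * (2 * A * W2 / a2) ^ (1 + q) *
          (E1 * (K * ((I'.filter fun y => g y = g x).card : ℝ))) := by
          refine mul_le_mul_of_nonneg_left (h1.trans ?_) (by positivity)
          exact mul_le_mul_of_nonneg_left h2 hE1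
      _ = _ := by ring
  · have hD : DMax (I'.image Prod.fst) L (fun _ => (1:ℝ)) z0 ρ M0 p q r0 R0 := by
      have hD0 : DMax (I.image Prod.fst) L (fun _ => (1:ℝ)) z0 ρ M0 p q r0 R0 := by
        intro l e b1 b2 he h1 h2 h3
        rw [sum_const, nsmul_eq_mul, mul_one]
        exact h.dmax l e b1 b2 he h1 h2 h3
      exact hD0.subset (image_subset_image hI') fun _ _ => zero_le_one
    have hD' := dmax_nrm hD (fun _ _ => zero_le_one) L0 hE hW1 hW hM0 hp hpq hq hr0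
    intro l e b1 b2 he h1 h2 h3
    have := hD' l e b1 b2 he h1 h2 h3
    rw [sum_const, nsmul_eq_mul, mul_one] at this
    exact this

/-- a line of the container is mapped into the unit cube -/
theorem nrm_unit {E : E2} {W1 W2 z0 ρ : ℝ} {t L0 : Ln} (hW1 : 0 < W1) (hW2 : 0 < W2)
    (h : InPlank t L0 E W1 W2 z0 ρ) {z : ℝ} (hz : |z - z0| ≤ ρ) :
    |pos (nrm E L0 W1 W2 t) z 0| ≤ 1 ∧ |pos (nrm E L0 W1 W2 t) z 1| ≤ 1 := by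
  obtain ⟨h1, h2⟩ := h z hz
  rw [pos_nrm, lin_zero_apply, lin_one_apply, abs_div, abs_div, abs_of_pos hW1, abs_of_pos hW2,
    div_le_one hW1, div_le_one hW2]
  exact ⟨h1, h2⟩

open Classical in
/-- **NORM with flags of any precision `θ`** (`a1 ≤ θ a2`, `θ ≤ 1`). -/
theorem Cfg1.norm_of_flags (h : Cfg1 I L zc g bK eK a1 a2 z0 ρ ρ' M0 M1 E1 p q r0 R0)
    (hI : I.Nonempty) (hp : 0 ≤ p) (hpq : p ≤ q) (hq : q ≤ 2) (hρ' : 0 < ρ') (hρ : ρ' ≤ ρ)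
    (ha1 : 0 < a1) (ha12 : a1 ≤ a2) (hr0 : 0 < r0) (hM0 : 0 ≤ M0) (hE1 : 0 ≤ E1)
    {θ : ℝ} (hθ : a1 ≤ θ * a2) (hθ1 : θ ≤ 1) (fe : Λ → E2)
    (hu : ∀ x ∈ I, dt (fe x.1) (fe x.1) = 1)
    (hbad : 4 * ((I.filter fun x => θ < |cr (fe x.1) (eK (g x))|).card : ℝ) ≤ (I.card : ℝ)) :
    ∃ I' ⊆ I, ∃ (E : E2) (L0 : Ln), I'.Nonempty ∧ dt E E = 1 ∧
      Cfg1 I' (fun i => nrm E L0 (12 * θ * (ρ / ρ') * a2) (12 * (ρ / ρ') * a2) (L i)) zc g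
        (fun a => nrm E L0 (12 * θ * (ρ / ρ') * a2) (12 * (ρ / ρ') * a2) (bK a))
        (fun a => imgE E (eK a) (12 * θ * (ρ / ρ') * a2) (12 * (ρ / ρ') * a2))
        (a1 / (12 * θ * (ρ / ρ') * a2)) (2 * (ρ' / (3 * ρ))) z0 ρ ρ'
        (8 * M0 * (12 * θ * (ρ / ρ') * a2) ^ (1 + p) * (12 * (ρ / ρ') * a2) ^ (1 + q))
        (8 * M1 * (12 * θ * (ρ / ρ') * a2) ^ (1 + p) * (12 * (ρ / ρ') * a2) ^ (1 + q))
        (8192000 * E1) p q (r0 / (12 * θ * (ρ / ρ') * a2)) (R0 / (2 * (12 * (ρ / ρ') * a2))) ∧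
      (∀ x ∈ I', ∀ z, |z - z0| ≤ ρ →
        |pos (nrm E L0 (12 * θ * (ρ / ρ') * a2) (12 * (ρ / ρ') * a2) (L x.1)) z 0| ≤ 1 ∧
        |pos (nrm E L0 (12 * θ * (ρ / ρ') * a2) (12 * (ρ / ρ') * a2) (L x.1)) z 1| ≤ 1) ∧
      (∀ x ∈ I', |cr (fe x.1) (eK (g x))| ≤ θ) ∧ (∀ x ∈ I', |cr E (eK (g x))| ≤ 3 * θ) ∧
      (∀ x ∈ I', ((I.filter fun y => y.1 = x.1).card : ℝ) ≤
        2000 * ((I'.filter fun y => y.1 = x.1).card : ℝ)) ∧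
      (∀ x ∈ I', ((I.filter fun y => g y = g x).card : ℝ) ≤
        2000 * ((I'.filter fun y => g y = g x).card : ℝ)) := by
  have ha2 : 0 < a2 := ha1.trans_le ha12
  have hρ0 : 0 < ρ := hρ'.trans_le hρ
  have hl : 0 < ρ / ρ' := by positivity
  have hl1 : 1 ≤ ρ / ρ' := by rw [le_div_iff₀ hρ']; linarith
  have hθ0 : 0 < θ := by
    by_contra hc
    have : θ * a2 ≤ 0 := mul_nonpos_of_nonpos_of_nonneg (not_lt.1 hc) ha2.le
    linarith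
  obtain ⟨I', hI', E, x0, hx0, hE, g1, g2, g3, g4, g5⟩ := exists_class (ρ := ρ) (z0 := z0) I g L fe
    bK eK (c1 := 3 * (ρ / ρ') * a1) (c2 := 3 * (ρ / ρ') * a2) (θ := θ) hρ0 (by positivity)
    (by positivity)
    (by
      calc 3 * (ρ / ρ') * a1 ≤ 3 * (ρ / ρ') * (θ * a2) :=
            mul_le_mul_of_nonneg_left hθ (by positivity)
        _ = θ * (3 * (ρ / ρ') * a2) := by ring) hθ1 hI hu h.unit
    (fun x hx => inPlank_extend (h.mem x hx) hρ' hρ (h.hz x hx)) hbad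
  have e1 : 4 * θ * (3 * (ρ / ρ') * a2) = 12 * θ * (ρ / ρ') * a2 := by ring
  have e2 : 4 * (3 * (ρ / ρ') * a2) = 12 * (ρ / ρ') * a2 := by ring
  rw [e1, e2] at g1
  have hW1 : 0 < 12 * θ * (ρ / ρ') * a2 := by positivity
  have hW2 : 0 < 12 * (ρ / ρ') * a2 := by positivity
  have hW : 12 * θ * (ρ / ρ') * a2 ≤ 12 * (ρ / ρ') * a2 := by
    calc 12 * θ * (ρ / ρ') * a2 = θ * (12 * (ρ / ρ') * a2) := by ring
      _ ≤ 1 * (12 * (ρ / ρ') * a2) := mul_le_mul_of_nonneg_right hθ1 hW2.le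
      _ = _ := one_mul _
  have hA : 0 < ρ' / (3 * ρ) := by positivity
  have hA1 : a1 + 3 * θ * a2 ≤ ρ' / (3 * ρ) * (12 * θ * (ρ / ρ') * a2) := by
    have : ρ' / (3 * ρ) * (12 * θ * (ρ / ρ') * a2) = 4 * θ * a2 := by field_simp; ring
    rw [this]; linarith
  have hA2 : a1 + a2 ≤ ρ' / (3 * ρ) * (12 * (ρ / ρ') * a2) := by
    have : ρ' / (3 * ρ) * (12 * (ρ / ρ') * a2) = 4 * a2 := by field_simp; ring
    rw [this]; linarith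
  have hc := h.nrm_sub (θ := 3 * θ) (K := 2000) hp hpq hq ha1 ha2 hr0 hM0 hE1 hI' (L x0.1) hE hW1
    hW hA hA1 hA2 g3 g5
  refine ⟨I', hI', E, L x0.1, ⟨x0, hx0⟩, hE, ?_, fun x hx z hz => nrm_unit hW1 hW2 (g1 x hx) hz,
    g2, g3, g4, g5⟩
  refine ⟨hc.cell, hc.unit, hc.mem, fun x hx => (hc.low x hx).trans ?_, hc.dmax, hc.hz⟩
  have e3 : 2 * (ρ' / (3 * ρ)) * (12 * (ρ / ρ') * a2) / a2 = 8 := by field_simp; norm_num
  rw [e3]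
  have e4 : (8:ℝ) ^ (1 + q) ≤ 512 := by
    calc (8:ℝ) ^ (1 + q) ≤ 8 ^ (3:ℝ) :=
          Real.rpow_le_rpow_of_exponent_le (by norm_num) (by linarith)
      _ = 512 := by norm_num
  refine mul_le_mul_of_nonneg_right ?_ (Nat.cast_nonneg _)
  refine mul_le_mul_of_nonneg_right ?_ hE1
  linarith

open Classical in
/-- **NORM, finite form.** `X` = lower bound of the new thin width (up to `ρ'/(12ρ)`), condition
`4 κ(X) N ≤ n1`: `N` = number of small cells, `n1` = least number of small cells of a line. -/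
theorem Cfg1.norm (h : Cfg1 I L zc g bK eK a1 a2 z0 ρ ρ' M0 M1 E1 p q r0 R0)
    (hI : I.Nonempty) (hp : 0 ≤ p) (hpq : p < q) (hq : q ≤ 2) (hρ' : 0 < ρ') (hρ : ρ' ≤ ρ)
    (ha1 : 0 < a1) (ha12 : a1 ≤ a2) (hr0 : 0 < r0) (hr0' : r0 ≤ 3 * (ρ / ρ') * a1)
    (hR0 : 8 * (3 * (ρ / ρ') * a2) ≤ R0) (hM0 : 0 < M0) (hM1 : 0 < M1) (hE1 : 0 ≤ E1)
    {X N n1 : ℝ} (hX : 0 < X) (hX1 : X ≤ 1)
    (hN : ((I.image Prod.snd).card : ℝ) ≤ N) (hn1 : 0 < n1)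
    (hn : ∀ x ∈ I, n1 ≤ ((I.filter fun y => y.1 = x.1).card : ℝ))
    (hs : 4 * (kap E1 M0 M1 (3 * (ρ / ρ')) p q X * N) ≤ n1) :
    ∃ θ : ℝ, 0 < θ ∧ θ ≤ 1 ∧ a1 ≤ θ * a2 ∧ X * θ * a2 ≤ a1 ∧
    ∃ I' ⊆ I, ∃ (E : E2) (L0 : Ln) (fe : Λ → E2), I'.Nonempty ∧ dt E E = 1 ∧
      (∀ x ∈ I, dt (fe x.1) (fe x.1) = 1) ∧
      Cfg1 I' (fun i => nrm E L0 (12 * θ * (ρ / ρ') * a2) (12 * (ρ / ρ') * a2) (L i)) zc g
        (fun a => nrm E L0 (12 * θ * (ρ / ρ') * a2) (12 * (ρ / ρ') * a2) (bK a))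
        (fun a => imgE E (eK a) (12 * θ * (ρ / ρ') * a2) (12 * (ρ / ρ') * a2))
        (a1 / (12 * θ * (ρ / ρ') * a2)) (2 * (ρ' / (3 * ρ))) z0 ρ ρ'
        (8 * M0 * (12 * θ * (ρ / ρ') * a2) ^ (1 + p) * (12 * (ρ / ρ') * a2) ^ (1 + q))
        (8 * M1 * (12 * θ * (ρ / ρ') * a2) ^ (1 + p) * (12 * (ρ / ρ') * a2) ^ (1 + q))
        (8192000 * E1) p q (r0 / (12 * θ * (ρ / ρ') * a2)) (R0 / (2 * (12 * (ρ / ρ') * a2))) ∧
      (∀ x ∈ I', ∀ z, |z - z0| ≤ ρ →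
        |pos (nrm E L0 (12 * θ * (ρ / ρ') * a2) (12 * (ρ / ρ') * a2) (L x.1)) z 0| ≤ 1 ∧
        |pos (nrm E L0 (12 * θ * (ρ / ρ') * a2) (12 * (ρ / ρ') * a2) (L x.1)) z 1| ≤ 1) ∧
      (∀ x ∈ I', |cr (fe x.1) (eK (g x))| ≤ θ) ∧ (∀ x ∈ I', |cr E (eK (g x))| ≤ 3 * θ) ∧
      (∀ x ∈ I', ((I.filter fun y => y.1 = x.1).card : ℝ) ≤
        2000 * ((I'.filter fun y => y.1 = x.1).card : ℝ)) ∧
      (∀ x ∈ I', ((I.filter fun y => g y = g x).card : ℝ) ≤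
        2000 * ((I'.filter fun y => g y = g x).card : ℝ)) := by
  have ha2 : 0 < a2 := ha1.trans_le ha12
  obtain ⟨θ, hθ0, hθ1, hθa, hθX, hcase⟩ : ∃ θ : ℝ, 0 < θ ∧ θ ≤ 1 ∧ a1 ≤ θ * a2 ∧
      X * θ * a2 ≤ a1 ∧ (θ = 1 ∨ a1 / (θ * a2) = X) := by
    by_cases hc : a1 / (a2 * X) ≤ 1
    · refine ⟨a1 / (a2 * X), by positivity, hc, ?_, ?_, Or.inr (by field_simp)⟩
      · have : a1 / (a2 * X) * a2 = a1 / X := by field_simp
        rw [this, le_div_iff₀ hX]; nlinarith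
      · have : X * (a1 / (a2 * X)) * a2 = a1 := by field_simp
        rw [this]
    · refine ⟨1, one_pos, le_rfl, by linarith, ?_, Or.inl rfl⟩
      rw [not_le, lt_div_iff₀ (by positivity)] at hc
      linarith
  have hs' : θ = 1 ∨ 4 * (kap E1 M0 M1 (3 * (ρ / ρ')) p q (a1 / (θ * a2)) * N) ≤ n1 := by
    rcases hcase with hc | hc
    · exact Or.inl hc
    · rw [hc]; exact Or.inr hs
  obtain ⟨φ, f1, f2⟩ := h.exists_flags hI hp hpq hρ' hρ ha1 ha12 hr0' hR0 hM0 hM1 hE1 hθa hN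
    hn1 hn hs'
  have hfe : ∀ x ∈ I, dt (eK (g (x.1, φ x.1))) (eK (g (x.1, φ x.1))) = 1 :=
    fun x hx => h.unit _ (f1 x hx)
  obtain ⟨I', hI', E, L0, k1, k2, k3, k4, k5, k6, k7, k8⟩ := h.norm_of_flags hI hp hpq.le hq hρ' hρ
    ha1 ha12 hr0 hM0.le hE1 hθa hθ1 (fun i => eK (g (i, φ i))) hfe f2
  exact ⟨θ, hθ0, hθ1, hθa, hθX, I', hI', E, L0, fun i => eK (g (i, φ i)), k1, k2, hfe, k3, k4, k5, k6,
    k7, k8⟩

end

end Crest.Agent.R138.Norm70
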