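import Mathlib
import Crest.Agent.R138.Norm5_70
import Crest.Agent.R138.KDef_294

/-!
# R138: NORM over the literal configurations of helper294, part 1 (helper70)

`Ok.dm` : penalised maximality of the level `m` for `r ≤ b1 ≤ b2 ≤ 48 / 2^m`;
`Ok.pig` : a part of the top objects with deep planks of common dimensions.
-/

set_option autoImplicit false
set_option linter.unusedVariables false

open Finset

namespace Crest.Agent.R138.Norm70

open Crest.Agent.R138.Flag51 Crest.Agent.R138.Tilt51 Crest.Agent.R138.K294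

noncomputable section

open Classical in
/-- objects of the top level -/
def tob (F : Cf) : Finset (Ln × ℤ) := F.I.image (ob F.top)

theorem mem_tob {F : Cf} {o : Ln × ℤ} : o ∈ tob F ↔ ∃ x ∈ F.I, ob F.top x = o := by
  classical
  unfold tob; rw [mem_image]

theorem mono_plank {t l : Ln} {e : E2} {a1 a2 b1 b2 z0 ρ : ℝ} (h : InPlank t l e a1 a2 z0 ρ)
    (h1 : a1 ≤ b1) (h2 : a2 ≤ b2) : InPlank t l e b1 b2 z0 ρ := fun z hz =>
  ⟨(h z hz).1.trans h1, (h z hz).2.trans h2⟩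

variable {F : Cf} {q : ℝ}

/-- the cell of level `m` -/
def j0 (F : Cf) (h : F.I.Nonempty) : ℤ := zc F.m h.choose.2

theorem j0_eq (h : F.Ok q) {x : Ln × ℝ} (hx : x ∈ F.I) : zc F.m x.2 = j0 F h.ne :=
  h.cell x hx _ h.ne.choose_spec

theorem D0_pos (h : F.Ok q) : 0 < F.D0 := by
  classical
  -- a plank with one object
  obtain ⟨x, hx⟩ := h.ne
  have hr := h.r0
  have hrm : F.r ≤ 1 / 2 ^ F.m := by
    refine h.rle.trans ?_
    unfold Cf.top
    exact one_div_le_one_div_of_le (by positivity)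
      (pow_le_pow_right₀ (by norm_num) (Nat.le_add_right _ _))
  set K : Plk := ⟨zc F.m x.2, x.1, !₂[1, 0], F.r, F.r⟩ with hK
  have hleg : Legal F.m F.r K := ⟨by simp [hK, dt], le_rfl, le_rfl, hrm⟩
  have h1 := h.up K hleg
  have h2 : ob F.m x ∈ objs F.m F.I K := by
    unfold objs
    rw [mem_filter]
    refine ⟨mem_image_of_mem _ hx, rfl, ?_⟩
    intro z _
    have : pos (ob F.m x).1 z - pos K.l z = 0 := by simp [ob, hK]
    rw [this]
    simp [dt, cr, hK, hr.le]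
  have h3 : (1:ℝ) ≤ ((objs F.m F.I K).card : ℝ) := by
    exact_mod_cast card_pos.2 ⟨_, h2⟩
  have h4 : 0 < cap q F.m K := by unfold cap; simp only [hK]; positivity
  by_contra hc
  have : F.D0 * cap q F.m K ≤ 0 := mul_nonpos_of_nonpos_of_nonneg (not_lt.1 hc) h4.le
  linarith

open Classical in
/-- penalised maximality of the level `m`, enlarged to `b2 ≤ 48 / 2^m` -/
theorem Ok_dm (h : F.Ok q) (hq : 0 ≤ q) (l : Ln) (e : E2) (b1 b2 : ℝ) (he : dt e e = 1)
    (h1 : F.r ≤ b1) (h12 : b1 ≤ b2) (h2 : b2 ≤ 48 / 2 ^ F.m) :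
    (((F.I.image Prod.fst).filter fun i => InPlank i l e b1 b2 (zm F.m (j0 F h.ne))
      (zr F.m)).card : ℝ) ≤ (97 ^ 4 * F.D0 * (2 ^ F.m) ^ q) * b1 ^ (1 + (0:ℝ)) * b2 ^ (1 + q) := by
  have hr := h.r0
  have hb1 : 0 < b1 := hr.trans_le h1
  have hb2 : 0 < b2 := hb1.trans_le h12
  have h2m : (0:ℝ) < 2 ^ F.m := by positivity
  have hrm : F.r ≤ 1 / 2 ^ F.m := by
    refine h.rle.trans ?_
    unfold Cf.top
    exact one_div_le_one_div_of_le (by positivity)
      (pow_le_pow_right₀ (by norm_num) (Nat.le_add_right _ _))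
  set v1 : ℝ := max (b1 / 48) F.r with hv1
  set v2 : ℝ := max (b2 / 48) F.r with hv2
  have hv1p : 0 < v1 := lt_max_of_lt_right hr
  have hv2p : 0 < v2 := lt_max_of_lt_right hr
  have hv12 : v1 ≤ v2 := max_le_max (div_le_div_of_nonneg_right h12 (by norm_num)) le_rfl
  have hv1b : v1 ≤ b1 := max_le (by linarith) h1
  have hv2b : v2 ≤ b2 := max_le (by linarith) (h1.trans h12)
  have hv2m : v2 ≤ 1 / 2 ^ F.m := by
    refine max_le ?_ hrm
    rw [div_le_iff₀ (by norm_num : (0:ℝ) < 48)]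
    calc b2 ≤ 48 / 2 ^ F.m := h2
      _ = 1 / 2 ^ F.m * 48 := by ring
  have c1 : b1 ≤ 48 * v1 := by
    have := le_max_left (b1 / 48) F.r
    rw [← hv1] at this; linarith
  have c2 : b2 ≤ 48 * v2 := by
    have := le_max_left (b2 / 48) F.r
    rw [← hv2] at this; linarith
  set S := (F.I.image Prod.fst).filter fun i => InPlank i l e b1 b2 (zm F.m (j0 F h.ne)) (zr F.m)
    with hS
  have hcapA : ∀ t0 ∈ S, ((S.filter fun t => InPlank (id t) (id t0) e v1 v2
      (zm F.m (j0 F h.ne)) (zr F.m)).card : ℝ) ≤ F.D0 * (v1 * v2 * (v2 * 2 ^ F.m) ^ q) := by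
    intro t0 ht0
    have hleg : Legal F.m F.r ⟨j0 F h.ne, t0, e, v1, v2⟩ :=
      ⟨he, le_max_right _ _, hv12, hv2m⟩
    refine le_trans ?_ (h.up _ hleg)
    refine Nat.cast_le.2 (card_le_card_of_injOn (fun t => (t, j0 F h.ne)) ?_ ?_)
    · intro t ht
      rw [mem_coe, mem_filter, hS, mem_filter, mem_image] at ht
      obtain ⟨⟨⟨x, hx, rfl⟩, _⟩, h3⟩ := ht
      unfold objs
      rw [mem_coe, mem_filter, mem_image]
      refine ⟨⟨x, hx, ?_⟩, rfl, h3⟩
      unfold ob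
      rw [j0_eq h hx]
    · intro t _ t' _ heq
      exact (Prod.mk.inj heq).1
  have hcov := cover S id (e := e) (w1 := v1) (w2 := v2) (z0 := zm F.m (j0 F h.ne)) (ρ := zr F.m)
    hv1p hv2p (zr_pos _) (n := 48) (l := l)
    (fun t ht => by
      rw [hS, mem_filter] at ht
      exact mono_plank ht.2 (by push_cast; exact c1) (by push_cast; exact c2))
    (A := F.D0 * (v1 * v2 * (v2 * 2 ^ F.m) ^ q)) (by
      have := D0_pos h
      positivity) hcapA
  have e1 : v1 * v2 * (v2 * 2 ^ F.m) ^ q ≤ b1 * b2 * (b2 * 2 ^ F.m) ^ q := by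
    have k1 : (v2 * 2 ^ F.m) ^ q ≤ (b2 * 2 ^ F.m) ^ q :=
      Real.rpow_le_rpow (by positivity) (mul_le_mul_of_nonneg_right hv2b h2m.le) hq
    exact mul_le_mul (mul_le_mul hv1b hv2b hv2p.le hb1.le) k1 (by positivity) (by positivity)
  have e2 : b1 * b2 * (b2 * 2 ^ F.m) ^ q = (2 ^ F.m) ^ q * b1 ^ (1 + (0:ℝ)) * b2 ^ (1 + q) := by
    rw [Real.mul_rpow hb2.le h2m.le, add_zero, Real.rpow_one, Real.rpow_add hb2, Real.rpow_one]
    ring
  calc (S.card : ℝ) ≤ (2 * ((48:ℕ):ℝ) + 1) ^ 4 * (F.D0 * (v1 * v2 * (v2 * 2 ^ F.m) ^ q)) := hcov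
    _ ≤ (2 * ((48:ℕ):ℝ) + 1) ^ 4 * (F.D0 * (b1 * b2 * (b2 * 2 ^ F.m) ^ q)) := by
        have := D0_pos h
        gcongr
    _ = _ := by rw [e2]; push_cast; ring

end

end Crest.Agent.R138.Norm70
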