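import Mathlib
import Crest.Agent.R138.Norm6_70

/-!
# R138: NORM over `Cf`, part 2: common dimensions of the deep planks (helper70)
-/

set_option autoImplicit false
set_option linter.unusedVariables false

open Finset

namespace Crest.Agent.R138.Norm70

open Crest.Agent.R138.Flag51 Crest.Agent.R138.Tilt51 Crest.Agent.R138.K294

noncomputable section

/-- dyadic index of a width -/
def dyi (r w : ℝ) : ℕ := ⌊Real.logb 2 (w / r)⌋₊

theorem dyi_spec {r w : ℝ} (hr : 0 < r) (h : r ≤ w) :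
    2 ^ dyi r w * r ≤ w ∧ w ≤ 2 ^ (dyi r w + 1) * r := by
  have hx : 1 ≤ w / r := by rw [le_div_iff₀ hr]; linarith
  have hx0 : 0 < w / r := lt_of_lt_of_le one_pos hx
  have hl : 0 ≤ Real.logb 2 (w / r) := Real.logb_nonneg (by norm_num) hx
  have h1 := Nat.floor_le hl
  have h2 := (Nat.lt_floor_add_one (Real.logb 2 (w / r))).le
  have e : (2:ℝ) ^ Real.logb 2 (w / r) = w / r :=
    Real.rpow_logb (by norm_num) (by norm_num) hx0
  constructor
  · rw [← le_div_iff₀ hr, ← e, ← Real.rpow_natCast]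
    exact Real.rpow_le_rpow_of_exponent_le (by norm_num) h1
  · rw [← div_le_iff₀ hr, ← e, ← Real.rpow_natCast]
    refine Real.rpow_le_rpow_of_exponent_le (by norm_num) ?_
    push_cast; exact h2

theorem dyi_mono {r w w' : ℝ} (hr : 0 < r) (h0 : 0 < w) (h : w ≤ w') : dyi r w ≤ dyi r w' := by
  unfold dyi
  refine Nat.floor_le_floor ?_
  exact Real.logb_le_logb_of_le (by norm_num) (by positivity)
    (div_le_div_of_nonneg_right h hr.le)

variable {F : Cf} {q : ℝ}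

theorem tob_legal (h : F.Ok q) {o : Ln × ℤ} (ho : o ∈ tob F) :
    Legal F.top F.r (F.K (F.cl o)) ∧ InK F.top (F.K (F.cl o)) o := by
  obtain ⟨x, hx, rfl⟩ := mem_tob.1 ho
  exact ⟨h.legal x hx, h.mem x hx⟩

theorem cls_eq (F : Cf) (x : Ln × ℝ) :
    F.cls x = (by classical exact (tob F).filter fun o => F.cl o = F.cl (ob F.top x)) := by
  classical
  unfold Cf.cls tob
  congr

open Classical in
theorem tob_low (h : F.Ok q) {o : Ln × ℤ} (ho : o ∈ tob F) :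
    F.D1 * cap q F.top (F.K (F.cl o)) ≤ (((tob F).filter fun o' => F.cl o' = F.cl o).card : ℝ) := by
  obtain ⟨x, hx, rfl⟩ := mem_tob.1 ho
  have := h.low x hx
  rw [cls_eq] at this
  exact this

open Classical in
theorem tob_own (h : F.Ok q) {o : Ln × ℤ} (ho : o ∈ tob F) :
    F.nu ≤ (((tob F).filter fun o' => o'.1 = o.1).card : ℝ) := by
  obtain ⟨x, hx, rfl⟩ := mem_tob.1 ho
  refine (h.own x hx).trans ?_
  unfold ownc
  refine Nat.cast_le.2 (card_le_card ?_)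
  intro o' ho'
  rw [mem_image] at ho'
  obtain ⟨y, hy, rfl⟩ := ho'
  rw [mem_filter] at hy
  rw [mem_filter]
  refine ⟨mem_tob.2 ⟨y, hy.1, rfl⟩, ?_⟩
  have := hy.2
  unfold ob at this ⊢
  exact (Prod.mk.inj this).1

theorem tob_cells (h : F.Ok q) {o : Ln × ℤ} (ho : o ∈ tob F) :
    o.2 ∈ Ico (2 ^ F.M * j0 F h.ne) (2 ^ F.M * j0 F h.ne + 2 ^ F.M) := by
  obtain ⟨x, hx, rfl⟩ := mem_tob.1 ho
  have hj := j0_eq h hx
  unfold zc at hj
  have h1 := Int.floor_le ((2:ℝ) ^ F.m * x.2)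
  have h2 := Int.lt_floor_add_one ((2:ℝ) ^ F.m * x.2)
  rw [hj] at h1 h2
  rw [mem_Ico]
  unfold ob zc Cf.top
  have hk : (0:ℝ) < 2 ^ F.M := by positivity
  constructor
  · rw [Int.le_floor]
    push_cast
    calc (2:ℝ) ^ F.M * (j0 F h.ne : ℝ) ≤ 2 ^ F.M * (2 ^ F.m * x.2) := by gcongr
      _ = 2 ^ (F.m + F.M) * x.2 := by rw [pow_add]; ring
  · rw [Int.floor_lt]
    push_cast
    calc (2:ℝ) ^ (F.m + F.M) * x.2 = 2 ^ F.M * (2 ^ F.m * x.2) := by rw [pow_add]; ring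
      _ < 2 ^ F.M * (j0 F h.ne + 1) := by gcongr
      _ = _ := by ring

open Classical in
/-- **common dimensions**: a sub-family of the top objects which is a `Cfg1`. -/
theorem Ok_cfg1 (h : F.Ok q) (hq : 0 ≤ q) (hq2 : q ≤ 2) {T : ℕ}
    (hT : ∀ o ∈ tob F, dyi F.r (F.K (F.cl o)).w2 < T) :
    ∃ A ⊆ tob F, A.Nonempty ∧ ∃ a1 a2 : ℝ, F.r ≤ a1 ∧ a1 ≤ a2 ∧ a2 ≤ 2 / 2 ^ F.top ∧
      Cfg1 A (fun l => l) (fun j => zm F.top j) F.cl (fun a => (F.K a).l) (fun a => (F.K a).e)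
        a1 a2 (zm F.m (j0 F h.ne)) (zr F.m) (zr F.top) (97 ^ 4 * F.D0 * (2 ^ F.m) ^ q)
        (F.D1 * (2 ^ F.top) ^ q) (64 * (T:ℝ) ^ 2) 0 q F.r (48 / 2 ^ F.m) ∧
      (∀ x ∈ A, F.nu / (4 * (T:ℝ) ^ 2) ≤ ((A.filter fun y => y.1 = x.1).card : ℝ)) ∧
      ((A.image Prod.snd).card : ℝ) ≤ 2 ^ F.M := by
  obtain ⟨x0, hx0⟩ := h.ne
  have ho0 : ob F.top x0 ∈ tob F := mem_tob.2 ⟨x0, hx0, rfl⟩
  have hr := h.r0
  have hTpos : 0 < T := lt_of_le_of_lt (Nat.zero_le _) (hT _ ho0)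
  have hTr : (0:ℝ) < (T:ℝ) ^ 2 := by
    have : (0:ℝ) < (T:ℝ) := by exact_mod_cast hTpos
    positivity
  obtain ⟨y, hy⟩ := pigeon (K := T ^ 2) (tob F) ⟨_, ho0⟩
    (fun o => (dyi F.r (F.K (F.cl o)).w1, dyi F.r (F.K (F.cl o)).w2)) (range T ×ˢ range T)
    (fun o ho => by
      have hl := (tob_legal h ho).1
      rw [mem_product, mem_range, mem_range]
      exact ⟨lt_of_le_of_lt (dyi_mono hr (hr.trans_le hl.r1) hl.w12) (hT o ho), hT o ho⟩)
    (by rw [card_product, card_range, sq])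
  set J1 := (tob F).filter fun o =>
    (dyi F.r (F.K (F.cl o)).w1, dyi F.r (F.K (F.cl o)).w2) = y with hJ1
  have hJ1c : ((tob F).card : ℝ) ≤ (T:ℝ) ^ 2 * (J1.card : ℝ) := by
    have := hy; push_cast at this; convert this
  have htpos : (0:ℝ) < ((tob F).card : ℝ) := by exact_mod_cast card_pos.2 ⟨_, ho0⟩
  obtain ⟨A, hA, hAc, hp1, hp2⟩ := prune_rel (tob F) J1 (filter_subset _ _)
    (Prod.fst : Ln × ℤ → Ln) F.cl (δ := 1 / (4 * (T:ℝ) ^ 2)) (by positivity)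
  have hAsub : A ⊆ tob F := hA.trans (filter_subset _ _)
  have hAne : A.Nonempty := by
    rw [← card_pos]
    have e1 : 2 * (1 / (4 * (T:ℝ) ^ 2)) * ((tob F).card : ℝ) ≤ (J1.card : ℝ) / 2 := by
      have : 2 * (1 / (4 * (T:ℝ) ^ 2)) * ((tob F).card : ℝ) =
          ((tob F).card : ℝ) / (2 * (T:ℝ) ^ 2) := by field_simp; ring
      rw [this, div_le_iff₀ (by positivity)]
      linarith
    have e2 : (0:ℝ) < (J1.card : ℝ) := by
      by_contra hc
      have : (T:ℝ) ^ 2 * (J1.card : ℝ) ≤ 0 :=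
        mul_nonpos_of_nonneg_of_nonpos hTr.le (not_lt.1 hc)
      linarith
    have : (0:ℝ) < (A.card : ℝ) := by linarith
    exact_mod_cast this
  obtain ⟨o1, ho1⟩ := hAne
  have hlab : ∀ o ∈ A, dyi F.r (F.K (F.cl o)).w1 = y.1 ∧ dyi F.r (F.K (F.cl o)).w2 = y.2 := by
    intro o ho
    have := hA ho
    rw [hJ1, mem_filter] at this
    rw [← this.2]
    exact ⟨rfl, rfl⟩
  have hw : ∀ o ∈ A, 2 ^ y.1 * F.r ≤ (F.K (F.cl o)).w1 ∧
      (F.K (F.cl o)).w1 ≤ 2 ^ (y.1 + 1) * F.r ∧ 2 ^ y.2 * F.r ≤ (F.K (F.cl o)).w2 ∧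
      (F.K (F.cl o)).w2 ≤ 2 ^ (y.2 + 1) * F.r := by
    intro o ho
    have hl := (tob_legal h (hAsub ho)).1
    have h1 := dyi_spec hr hl.r1
    have h2 := dyi_spec hr (hl.r1.trans hl.w12)
    rw [(hlab o ho).1] at h1
    rw [(hlab o ho).2] at h2
    exact ⟨h1.1, h1.2, h2.1, h2.2⟩
  have hl1 := (tob_legal h (hAsub ho1)).1
  have hy12 : y.1 ≤ y.2 := by
    rw [← (hlab o1 ho1).1, ← (hlab o1 ho1).2]
    exact dyi_mono hr (hr.trans_le hl1.r1) hl1.w12
  have hone : ∀ n : ℕ, (1:ℝ) ≤ 2 ^ n := fun n => one_le_pow₀ (by norm_num)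
  refine ⟨A, hAsub, ⟨o1, ho1⟩, 2 ^ (y.1 + 1) * F.r, 2 ^ (y.2 + 1) * F.r, ?_, ?_, ?_, ?_, ?_, ?_⟩
  · have := hone (y.1 + 1); nlinarith
  · exact mul_le_mul_of_nonneg_right
      (pow_le_pow_right₀ (by norm_num) (by omega)) hr.le
  · have := (hw o1 ho1).2.2.1
    calc 2 ^ (y.2 + 1) * F.r = 2 * (2 ^ y.2 * F.r) := by rw [pow_succ]; ring
      _ ≤ 2 * (1 / 2 ^ F.top) := by
          have := this.trans hl1.w2
          linarith
      _ = 2 / 2 ^ F.top := by ring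
  · refine ⟨?_, ?_, ?_, ?_, ?_, ?_⟩
    · intro x hx y' hy' hxy
      have h1 := (tob_legal h (hAsub hx)).2.1
      have h2 := (tob_legal h (hAsub hy')).2.1
      rw [h1, h2, hxy]
    · intro x hx
      exact (tob_legal h (hAsub hx)).1.unit
    · intro x hx
      obtain ⟨h1, h2⟩ := (tob_legal h (hAsub hx)).2
      rw [h1]
      exact mono_plank h2 (hw x hx).2.1 (hw x hx).2.2.2
    · intro x hx
      have h1 := tob_low h (hAsub hx)
      have h2 : 1 / (4 * (T:ℝ) ^ 2) * (((tob F).filter fun y => F.cl y = F.cl x).card : ℝ) ≤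
          ((A.filter fun y => F.cl y = F.cl x).card : ℝ) := by convert hp2 x hx
      have h3 := hw x hx
      set w1 := (F.K (F.cl x)).w1 with hw1
      set w2 := (F.K (F.cl x)).w2 with hw2
      have hw1p : 0 < w1 := hr.trans_le (tob_legal h (hAsub hx)).1.r1
      have hw2p : 0 < w2 := hw1p.trans_le (tob_legal h (hAsub hx)).1.w12
      have k1 : 2 ^ (y.1 + 1) * F.r ≤ 2 * w1 := by
        rw [pow_succ]; linarith [h3.1]
      have k2 : 2 ^ (y.2 + 1) * F.r ≤ 2 * w2 := by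
        rw [pow_succ]; linarith [h3.2.2.1]
      have p1 : 0 < 2 ^ (y.1 + 1) * F.r := by positivity
      have p2 : 0 < 2 ^ (y.2 + 1) * F.r := by positivity
      have k3 : (2 ^ (y.2 + 1) * F.r) ^ (1 + q) ≤ 8 * w2 ^ (1 + q) := by
        calc (2 ^ (y.2 + 1) * F.r) ^ (1 + q) ≤ (2 * w2) ^ (1 + q) :=
              Real.rpow_le_rpow p2.le k2 (by linarith)
          _ = 2 ^ (1 + q) * w2 ^ (1 + q) := Real.mul_rpow (by norm_num) hw2p.le
          _ ≤ 8 * w2 ^ (1 + q) := by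
              refine mul_le_mul_of_nonneg_right ?_ (by positivity)
              calc (2:ℝ) ^ (1 + q) ≤ 2 ^ (3:ℝ) :=
                    Real.rpow_le_rpow_of_exponent_le (by norm_num) (by linarith)
                _ = 8 := by norm_num
      have k4 : cap q F.top (F.K (F.cl x)) = w1 * (w2 ^ (1 + q) * (2 ^ F.top) ^ q) := by
        unfold cap
        rw [← hw1, ← hw2, Real.mul_rpow hw2p.le (by positivity), Real.rpow_add hw2p, Real.rpow_one]
        ring
      rw [add_zero, Real.rpow_one]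
      have hD1 := h.D1p
      have hfin : F.D1 * (2 ^ F.top) ^ q * (2 ^ (y.1 + 1) * F.r) *
          (2 ^ (y.2 + 1) * F.r) ^ (1 + q) ≤
          64 * (T:ℝ) ^ 2 * ((A.filter fun y => F.cl y = F.cl x).card : ℝ) := by
       calc F.D1 * (2 ^ F.top) ^ q * (2 ^ (y.1 + 1) * F.r) * (2 ^ (y.2 + 1) * F.r) ^ (1 + q)
          ≤ F.D1 * (2 ^ F.top) ^ q * (2 * w1) * (8 * w2 ^ (1 + q)) := by gcongr
        _ = 16 * (F.D1 * cap q F.top (F.K (F.cl x))) := by rw [k4]; ring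
        _ ≤ 16 * ((((tob F).filter fun o' => F.cl o' = F.cl x).card : ℝ)) := by gcongr
        _ ≤ 16 * (4 * (T:ℝ) ^ 2 * ((A.filter fun y => F.cl y = F.cl x).card : ℝ)) := by
            refine mul_le_mul_of_nonneg_left ?_ (by norm_num)
            rw [div_mul_eq_mul_div, one_mul, div_le_iff₀ (by positivity)] at h2
            linarith
        _ = _ := by ring
      convert hfin
    · intro l e b1 b2 he h1 h12 h2
      refine le_trans ?_ (Ok_dm h hq l e b1 b2 he h1 h12 h2)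
      refine Nat.cast_le.2 (card_le_card ?_)
      refine filter_subset_filter _ ?_
      intro i hi
      simp only [mem_image] at hi ⊢
      obtain ⟨o, ho, rfl⟩ := hi
      obtain ⟨x, hx, rfl⟩ := mem_tob.1 (hAsub ho)
      exact ⟨x, hx, rfl⟩
    · intro o ho
      obtain ⟨x, hx, rfl⟩ := mem_tob.1 (hAsub ho)
      have h1 := cell_sub (m := F.m) (m' := F.top) (Nat.le_add_right _ _) x.2
      have h2 := zr_pos F.top
      have h3 := j0_eq h hx
      rw [← h3]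
      show |zm F.top (zc F.top x.2) - zm F.m (zc F.m x.2)| ≤ zr F.m
      linarith
  · intro x hx
    have h1 := hp1 x hx
    have h2 := tob_own h (hAsub hx)
    have e : F.nu / (4 * (T:ℝ) ^ 2) = 1 / (4 * (T:ℝ) ^ 2) * F.nu := by ring
    rw [e]
    have h3 : 1 / (4 * (T:ℝ) ^ 2) * F.nu ≤
        1 / (4 * (T:ℝ) ^ 2) * (((tob F).filter fun o' => o'.1 = x.1).card : ℝ) :=
      mul_le_mul_of_nonneg_left h2 (by positivity)
    have h4 : 1 / (4 * (T:ℝ) ^ 2) * (((tob F).filter fun o' => o'.1 = x.1).card : ℝ) ≤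
        ((A.filter fun y => y.1 = x.1).card : ℝ) := by convert h1
    exact h3.trans h4
  · have h1 : A.image Prod.snd ⊆ Ico (2 ^ F.M * j0 F h.ne) (2 ^ F.M * j0 F h.ne + 2 ^ F.M) := by
      intro j hj
      obtain ⟨o, ho, rfl⟩ := mem_image.1 hj
      exact tob_cells h (hAsub ho)
    have h2 := card_le_card h1
    rw [Int.card_Ico] at h2
    have h3 : (2 ^ F.M * j0 F h.ne + 2 ^ F.M - 2 ^ F.M * j0 F h.ne : ℤ).toNat = 2 ^ F.M := by
      rw [add_sub_cancel_left]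
      exact Int.toNat_natCast (2 ^ F.M) ▸ by norm_cast
    rw [h3] at h2
    exact_mod_cast h2

end

end Crest.Agent.R138.Norm70
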