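import Mathlib
import Crest.Agent.R138.Norm7_70

/-!
# R138: NORM over `Cf`, part 3: the normalised configuration is a `Cf` (helper70)
-/

set_option autoImplicit false
set_option linter.unusedVariables false

open Finset

namespace Crest.Agent.R138.Norm70

open Crest.Agent.R138.Flag51 Crest.Agent.R138.Tilt51 Crest.Agent.R138.K294

noncomputable section

section cls

variable {Λ κ β : Type*} {I : Finset (Λ × κ)} {L : Λ → Ln} {zc : κ → ℝ} {g : Λ × κ → β}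
  {bK : β → Ln} {eK : β → E2} {a1 a2 z0 ρ ρ' M0 M1 E1 p q r0 R0 : ℝ}

open Classical in
/-- **container class** (no affine map yet) -/
theorem Cfg1.cont (h : Cfg1 I L zc g bK eK a1 a2 z0 ρ ρ' M0 M1 E1 p q r0 R0)
    (hI : I.Nonempty) (hp : 0 ≤ p) (hpq : p < q) (hρ' : 0 < ρ') (hρ : ρ' ≤ ρ)
    (ha1 : 0 < a1) (ha12 : a1 ≤ a2) (hr0' : r0 ≤ 3 * (ρ / ρ') * a1)
    (hR0 : 8 * (3 * (ρ / ρ') * a2) ≤ R0) (hM0 : 0 < M0) (hM1 : 0 < M1) (hE1 : 0 ≤ E1)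
    {X N n1 : ℝ} (hX : 0 < X) (hX1 : X ≤ 1)
    (hN : ((I.image Prod.snd).card : ℝ) ≤ N) (hn1 : 0 < n1)
    (hn : ∀ x ∈ I, n1 ≤ ((I.filter fun y => y.1 = x.1).card : ℝ))
    (hs : 4 * (kap E1 M0 M1 (3 * (ρ / ρ')) p q X * N) ≤ n1) :
    ∃ θ : ℝ, 0 < θ ∧ θ ≤ 1 ∧ a1 ≤ θ * a2 ∧ X * θ * a2 ≤ a1 ∧
    ∃ I' ⊆ I, ∃ (E : E2), ∃ x0 ∈ I', dt E E = 1 ∧
      (∀ x ∈ I', InPlank (L x.1) (L x0.1) E (12 * θ * (ρ / ρ') * a2) (12 * (ρ / ρ') * a2) z0 ρ) ∧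
      (∀ x ∈ I', |cr E (eK (g x))| ≤ 3 * θ) ∧
      (∀ x ∈ I', ((I.filter fun y => y.1 = x.1).card : ℝ) ≤
        2000 * ((I'.filter fun y => y.1 = x.1).card : ℝ)) ∧
      (∀ x ∈ I', ((I.filter fun y => g y = g x).card : ℝ) ≤
        2000 * ((I'.filter fun y => g y = g x).card : ℝ)) := by
  have ha2 : 0 < a2 := ha1.trans_le ha12
  have hρ0 : 0 < ρ := hρ'.trans_le hρ
  obtain ⟨θ, hθ0, hθ1, hθa, hθX, hcase⟩ : ∃ θ : ℝ, 0 < θ ∧ θ ≤ 1 ∧ a1 ≤ θ * a2 ∧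
      X * θ * a2 ≤ a1 ∧ (θ = 1 ∨ a1 / (θ * a2) = X) := by
    by_cases hc : a1 / (a2 * X) ≤ 1
    · refine ⟨a1 / (a2 * X), by positivity, hc, ?_, ?_, Or.inr (by field_simp)⟩
      · have : a1 / (a2 * X) * a2 = a1 / X := by field_simp
        rw [this, le_div_iff₀ hX]; nlinarith
      · have : X * (a1 / (a2 * X)) * a2 = a1 := by field_simp
        rw [this]
    · refine ⟨1, one_pos, le_rfl, by linarith, ?_, Or.inl rfl⟩
      rw [not_le, lt_div_iff₀ (by positivity)] at hc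
      linarith
  have hs' : θ = 1 ∨ 4 * (kap E1 M0 M1 (3 * (ρ / ρ')) p q (a1 / (θ * a2)) * N) ≤ n1 := by
    rcases hcase with hc | hc
    · exact Or.inl hc
    · rw [hc]; exact Or.inr hs
  obtain ⟨φ, f1, f2⟩ := h.exists_flags hI hp hpq hρ' hρ ha1 ha12 hr0' hR0 hM0 hM1 hE1 hθa hN
    hn1 hn hs'
  have hfe : ∀ x ∈ I, dt (eK (g (x.1, φ x.1))) (eK (g (x.1, φ x.1))) = 1 :=
    fun x hx => h.unit _ (f1 x hx)
  obtain ⟨I', hI', E, x0, hx0, hE, g1, g2, g3, g4, g5⟩ := exists_class (ρ := ρ) (z0 := z0) I g L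
    (fun i => eK (g (i, φ i)))
    bK eK (c1 := 3 * (ρ / ρ') * a1) (c2 := 3 * (ρ / ρ') * a2) (θ := θ) hρ0 (by positivity)
    (by positivity)
    (by
      calc 3 * (ρ / ρ') * a1 ≤ 3 * (ρ / ρ') * (θ * a2) :=
            mul_le_mul_of_nonneg_left hθa (by positivity)
        _ = θ * (3 * (ρ / ρ') * a2) := by ring) hθ1 hI hfe h.unit
    (fun x hx => inPlank_extend (h.mem x hx) hρ' hρ (h.hz x hx)) f2
  have e1 : 4 * θ * (3 * (ρ / ρ') * a2) = 12 * θ * (ρ / ρ') * a2 := by ring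
  have e2 : 4 * (3 * (ρ / ρ') * a2) = 12 * (ρ / ρ') * a2 := by ring
  rw [e1, e2] at g1
  exact ⟨θ, hθ0, hθ1, hθa, hθX, I', hI', E, x0, hx0, hE, g1, g3, g4, g5⟩

end cls

theorem unnrm_nrm {E : E2} {W1 W2 : ℝ} (hE : dt E E = 1) (h1 : 0 < W1) (h2 : 0 < W2) (L0 t : Ln) :
    unnrm E L0 W1 W2 (nrm E L0 W1 W2 t) = t := by
  have hE' : E 0 * E 0 + E 1 * E 1 = 1 := hE
  have key : ∀ x : E2, unlin E W1 W2 (lin E W1 W2 x) = x := by
    intro x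
    ext i
    fin_cases i
    · have : unlin E W1 W2 (lin E W1 W2 x) 0 = x 0 * (E 0 * E 0 + E 1 * E 1) := by
        simp [lin, dt, cr, unlin]; field_simp; ring
      show unlin E W1 W2 (lin E W1 W2 x) 0 = x 0
      rw [this, hE', mul_one]
    · have : unlin E W1 W2 (lin E W1 W2 x) 1 = x 1 * (E 0 * E 0 + E 1 * E 1) := by
        simp [lin, dt, cr, unlin]; field_simp; ring
      show unlin E W1 W2 (lin E W1 W2 x) 1 = x 1
      rw [this, hE', mul_one]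
  unfold unnrm nrm
  simp only [key]
  ext i <;> simp

theorem nrm_inj {E : E2} {W1 W2 : ℝ} (hE : dt E E = 1) (h1 : 0 < W1) (h2 : 0 < W2) (L0 : Ln)
    {t t' : Ln} (h : nrm E L0 W1 W2 t = nrm E L0 W1 W2 t') : t = t' := by
  rw [← unnrm_nrm hE h1 h2 L0 t, h, unnrm_nrm hE h1 h2 L0 t']

variable {F : Cf} {q : ℝ}

open Classical in
/-- the normalised configuration -/
def nF (F : Cf) (A : Finset (Ln × ℤ)) (E : E2) (L0 : Ln) (W1 W2 c1 c2 D0 D1 nu : ℝ) : Cf where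
  m := F.m
  M := F.M
  r := c1
  I := (F.I.filter fun x => ob F.top x ∈ A).image fun x => (nrm E L0 W1 W2 x.1, x.2)
  cl := fun o => F.cl (unnrm E L0 W1 W2 o.1, o.2)
  K := fun a => ⟨(F.K a).j, nrm E L0 W1 W2 (F.K a).l, imgE E (F.K a).e W1 W2, c1, c2⟩
  D0 := D0
  D1 := D1
  nu := nu

open Classical in
theorem nF_card (F : Cf) (A : Finset (Ln × ℤ)) (E : E2) (L0 : Ln) (W1 W2 c1 c2 D0 D1 nu : ℝ) :
    (nF F A E L0 W1 W2 c1 c2 D0 D1 nu).I.card ≤ F.I.card :=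
  card_image_le.trans (card_filter_le _ _)

open Classical in
theorem nF_ok (h : F.Ok q) {A : Finset (Ln × ℤ)} (hA : A ⊆ tob F) (hAne : A.Nonempty) {E : E2}
    {L0 : Ln} {W1 W2 c1 c2 N0 N1 E1 s0 S0 nu : ℝ} (hE : dt E E = 1) (hW1 : 0 < W1) (hW : W1 ≤ W2)
    (hc : Cfg1 A (fun l => nrm E L0 W1 W2 l) (fun j => zm F.top j) F.cl
      (fun a => nrm E L0 W1 W2 (F.K a).l) (fun a => imgE E (F.K a).e W1 W2) c1 c2
      (zm F.m (j0 F h.ne)) (zr F.m) (zr F.top) N0 N1 E1 0 q s0 S0)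
    (hc1 : 0 < c1) (hs0 : s0 ≤ c1) (hc12 : c1 ≤ c2) (hc2 : c2 ≤ 1 / 2 ^ F.top)
    (hS0 : 1 / 2 ^ F.m ≤ S0) (hN0 : 0 < N0) (hN1 : 0 < N1) (hE1 : 0 < E1) (hnu : 0 < nu)
    (hown : ∀ x ∈ A, nu ≤ ((A.filter fun y => y.1 = x.1).card : ℝ)) :
    (nF F A E L0 W1 W2 c1 c2 (N0 / (2 ^ F.m) ^ q) (N1 / (E1 * (2 ^ F.top) ^ q)) nu).Ok q := by
  have hW2 : 0 < W2 := hW1.trans_le hW
  have h2m : (0:ℝ) < (2 ^ F.m) ^ q := by positivity
  have h2t : (0:ℝ) < (2 ^ F.top) ^ q := by positivity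
  have htop : (nF F A E L0 W1 W2 c1 c2 (N0 / (2 ^ F.m) ^ q) (N1 / (E1 * (2 ^ F.top) ^ q)) nu).top
      = F.top := rfl
  have memI : ∀ {x'}, x' ∈ (nF F A E L0 W1 W2 c1 c2 (N0 / (2 ^ F.m) ^ q)
      (N1 / (E1 * (2 ^ F.top) ^ q)) nu).I ↔
      ∃ x ∈ F.I, ob F.top x ∈ A ∧ (nrm E L0 W1 W2 x.1, x.2) = x' := by
    intro x'
    simp only [nF, mem_image, mem_filter]
    constructor
    · rintro ⟨x, ⟨h1, h2⟩, h3⟩; exact ⟨x, h1, h2, h3⟩
    · rintro ⟨x, h1, h2, h3⟩; exact ⟨x, ⟨h1, h2⟩, h3⟩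
  have hcl : ∀ x : Ln × ℝ, (nF F A E L0 W1 W2 c1 c2 (N0 / (2 ^ F.m) ^ q)
      (N1 / (E1 * (2 ^ F.top) ^ q)) nu).cl (ob F.top (nrm E L0 W1 W2 x.1, x.2))
      = F.cl (ob F.top x) := by
    intro x
    simp only [nF, ob]
    rw [unnrm_nrm hE hW1 hW2]
  refine ⟨h.M1, hc1, hc12.trans hc2, ?_, ?_, by show 0 < N1 / (E1 * (2 ^ F.top) ^ q); positivity,
    hnu, ?_, ?_, ?_, ?_, ?_⟩
  · obtain ⟨o, ho⟩ := hAne
    obtain ⟨x, hx, rfl⟩ := mem_tob.1 (hA ho)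
    exact ⟨_, memI.2 ⟨x, hx, ho, rfl⟩⟩
  · intro x' hx' y' hy'
    obtain ⟨x, hx, _, rfl⟩ := memI.1 hx'
    obtain ⟨y, hy, _, rfl⟩ := memI.1 hy'
    exact h.cell x hx y hy
  · intro x' hx'
    obtain ⟨x, hx, hxA, rfl⟩ := memI.1 hx'
    rw [htop, hcl]
    exact ⟨imgE_unit hE (h.legal x hx).unit hW1 hW, le_rfl, hc12, hc2⟩
  · intro x' hx'
    obtain ⟨x, hx, hxA, rfl⟩ := memI.1 hx'
    rw [htop, hcl]
    have h1 := hc.mem _ hxA
    have h2 := (h.mem x hx).1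
    refine ⟨h2, ?_⟩
    show InPlank (nrm E L0 W1 W2 x.1) (nrm E L0 W1 W2 (F.K (F.cl (ob F.top x))).l)
      (imgE E (F.K (F.cl (ob F.top x))).e W1 W2) c1 c2 (zm F.top (F.K (F.cl (ob F.top x))).j)
      (zr F.top)
    rw [← h2]
    exact h1
  · intro x' hx'
    obtain ⟨x, hx, hxA, rfl⟩ := memI.1 hx'
    rw [htop, hcl]
    have h1 := hc.low _ hxA
    -- the classes
    have h2 : (A.filter fun y => F.cl y = F.cl (ob F.top x)).card ≤
        ((nF F A E L0 W1 W2 c1 c2 (N0 / (2 ^ F.m) ^ q)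
          (N1 / (E1 * (2 ^ F.top) ^ q)) nu).cls (nrm E L0 W1 W2 x.1, x.2)).card := by
      refine card_le_card_of_injOn (fun y => (nrm E L0 W1 W2 y.1, y.2)) ?_ ?_
      · intro y hy
        rw [mem_coe, mem_filter] at hy
        obtain ⟨z, hz, hz2⟩ := mem_tob.1 (hA hy.1)
        rw [mem_coe]
        unfold Cf.cls
        rw [mem_filter, mem_image]
        refine ⟨⟨(nrm E L0 W1 W2 z.1, z.2), memI.2 ⟨z, hz, by rw [hz2]; exact hy.1, rfl⟩, ?_⟩, ?_⟩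
        · rw [← hz2]; rfl
        · rw [htop, hcl x, ← hy.2, ← hz2]
          exact hcl z
      · intro y _ y' _ heq
        have h3 := Prod.mk.inj heq
        exact Prod.ext (nrm_inj hE hW1 hW2 L0 h3.1) h3.2
    have h2' : ((A.filter fun y => F.cl y = F.cl (ob F.top x)).card : ℝ) ≤
        (((nF F A E L0 W1 W2 c1 c2 (N0 / (2 ^ F.m) ^ q)
          (N1 / (E1 * (2 ^ F.top) ^ q)) nu).cls (nrm E L0 W1 W2 x.1, x.2)).card : ℝ) := by
      exact_mod_cast h2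
    have hc2p : 0 < c2 := hc1.trans_le hc12
    have h3 : N1 * c1 ^ (1 + (0:ℝ)) * c2 ^ (1 + q) ≤
        E1 * ((A.filter fun y => F.cl y = F.cl (ob F.top x)).card : ℝ) := by convert h1
    rw [add_zero, Real.rpow_one] at h3
    refine le_trans ?_ h2'
    have e1 : N1 / (E1 * (2 ^ F.top) ^ q) * (c1 * c2 * (c2 * 2 ^ F.top) ^ q) =
        N1 * c1 * c2 ^ (1 + q) / E1 := by
      rw [Real.mul_rpow hc2p.le (by positivity), Real.rpow_add hc2p, Real.rpow_one]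
      field_simp
    show N1 / (E1 * (2 ^ F.top) ^ q) * (c1 * c2 * (c2 * 2 ^ F.top) ^ q) ≤ _
    rw [e1, div_le_iff₀ hE1]
    linarith
  · intro x' hx'
    obtain ⟨x, hx, hxA, rfl⟩ := memI.1 hx'
    have h1 := hown _ hxA
    refine h1.trans ?_
    unfold ownc
    refine Nat.cast_le.2 (card_le_card_of_injOn (fun y => (nrm E L0 W1 W2 y.1, y.2)) ?_ ?_)
    · intro y hy
      rw [mem_coe, mem_filter] at hy
      obtain ⟨z, hz, hz2⟩ := mem_tob.1 (hA hy.1)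
      have hz3 : z.1 = x.1 := by
        have := hy.2
        rw [← hz2] at this
        exact this
      rw [mem_coe, mem_image]
      refine ⟨(nrm E L0 W1 W2 z.1, z.2), ?_, ?_⟩
      · rw [mem_filter]
        refine ⟨memI.2 ⟨z, hz, by rw [hz2]; exact hy.1, rfl⟩, ?_⟩
        show (nrm E L0 W1 W2 z.1, zc F.m z.2) = (nrm E L0 W1 W2 x.1, zc F.m x.2)
        rw [hz3, h.cell z hz x hx]
      · rw [← hz2]; rfl
    · intro y _ y' _ heq
      have h3 := Prod.mk.inj heq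
      exact Prod.ext (nrm_inj hE hW1 hW2 L0 h3.1) h3.2
  · intro K hK
    show ((objs F.m _ K).card : ℝ) ≤ N0 / (2 ^ F.m) ^ q * cap q F.m K
    have hw1 : 0 < K.w1 := hc1.trans_le hK.r1
    have hw2 : 0 < K.w2 := hw1.trans_le hK.w12
    have hcap : N0 / (2 ^ F.m) ^ q * cap q F.m K = N0 * K.w1 ^ (1 + (0:ℝ)) * K.w2 ^ (1 + q) := by
      unfold cap
      rw [Real.mul_rpow hw2.le (by positivity), add_zero, Real.rpow_one, Real.rpow_add hw2,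
        Real.rpow_one]
      field_simp
    rw [hcap]
    rcases (objs F.m (nF F A E L0 W1 W2 c1 c2 (N0 / (2 ^ F.m) ^ q)
      (N1 / (E1 * (2 ^ F.top) ^ q)) nu).I K).eq_empty_or_nonempty with hemp | ⟨o, ho⟩
    · rw [hemp]; simp; positivity
    · have hKj : K.j = j0 F h.ne := by
        unfold objs at ho
        rw [mem_filter, mem_image] at ho
        obtain ⟨⟨x', hx', rfl⟩, h2, _⟩ := ho
        obtain ⟨x, hx, _, rfl⟩ := memI.1 hx'
        rw [← h2]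
        exact j0_eq (x := x) h hx
      have hd := hc.dmax K.l K.e K.w1 K.w2 hK.unit (hs0.trans hK.r1) hK.w12 (hK.w2.trans hS0)
      refine le_trans ?_ hd
      have hsub : objs F.m (nF F A E L0 W1 W2 c1 c2 (N0 / (2 ^ F.m) ^ q)
          (N1 / (E1 * (2 ^ F.top) ^ q)) nu).I K ⊆
          ((A.image Prod.fst).filter fun i => InPlank (nrm E L0 W1 W2 i) K.l K.e K.w1 K.w2
            (zm F.m (j0 F h.ne)) (zr F.m)).image
            fun i => (nrm E L0 W1 W2 i, j0 F h.ne) := by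
        intro o ho
        unfold objs at ho
        rw [mem_filter, mem_image] at ho
        obtain ⟨⟨x', hx', rfl⟩, h2, h3⟩ := ho
        obtain ⟨x, hx, hxA, rfl⟩ := memI.1 hx'
        rw [hKj] at h3
        rw [mem_image]
        refine ⟨x.1, ?_, ?_⟩
        · rw [mem_filter]
          exact ⟨mem_image.2 ⟨_, hxA, rfl⟩, h3⟩
        · show (nrm E L0 W1 W2 x.1, j0 F h.ne) = (nrm E L0 W1 W2 x.1, zc F.m x.2)
          rw [j0_eq h hx]
      have := (card_le_card hsub).trans card_image_le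
      refine (Nat.cast_le.2 this).trans (le_of_eq ?_)
      congr 2
      ext i
      simp only [mem_filter, mem_image]

end

end Crest.Agent.R138.Norm70
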