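import Mathlib
import Crest.Agent.R138.Norm8_70

/-!
# R138: NORM over `Cf`, part 4: numbers and the final statement (helper70)

`norm_cf` = leaf L3 of doc 1983.
-/

set_option autoImplicit false
set_option linter.unusedVariables false

open Finset Filter Topology

namespace Crest.Agent.R138.Norm70

open Crest.Agent.R138.Flag51 Crest.Agent.R138.Tilt51 Crest.Agent.R138.K294

noncomputable section

/-- polynomial against exponential -/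
theorem growth (C a B : ℝ) (ha : 0 < a) :
    ∃ M₀ : ℕ, ∀ M : ℕ, M₀ ≤ M → C * (B * M + 1) ^ 6 ≤ (2:ℝ) ^ (a * M) := by
  have h1 : (1:ℝ) < 2 ^ a := Real.one_lt_rpow (by norm_num) ha
  have h2 := (isLittleO_pow_const_const_pow_of_one_lt 6 h1 : (fun n : ℕ => (n:ℝ) ^ 6) =o[atTop]
    fun n => ((2:ℝ) ^ a) ^ n)
  have h3 : ∀ᶠ n : ℕ in atTop, |C| * (|B| + 1) ^ 6 * (n:ℝ) ^ 6 ≤ ((2:ℝ) ^ a) ^ n := by
    have hc : (0:ℝ) < 1 / (|C| * (|B| + 1) ^ 6 + 1) := by positivity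
    filter_upwards [h2.bound hc] with n hn
    rw [Real.norm_of_nonneg (by positivity), Real.norm_of_nonneg (by positivity)] at hn
    have hp : 0 < |C| * (|B| + 1) ^ 6 + 1 := by positivity
    rw [div_mul_eq_mul_div, one_mul, le_div_iff₀ hp] at hn
    have : (0:ℝ) ≤ (n:ℝ) ^ 6 := by positivity
    nlinarith
  obtain ⟨M₀, hM₀⟩ := eventually_atTop.1 h3
  refine ⟨max M₀ 1, fun M hM => ?_⟩
  have hM1 : (1:ℝ) ≤ M := by exact_mod_cast (le_max_right _ _).trans hM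
  have h4 := hM₀ M ((le_max_left _ _).trans hM)
  have e1 : (2:ℝ) ^ (a * M) = ((2:ℝ) ^ a) ^ M := by
    rw [Real.rpow_mul (by norm_num), Real.rpow_natCast]
  rw [e1]
  refine le_trans ?_ h4
  have h5 : (B * M + 1) ^ 6 ≤ ((|B| + 1) * M) ^ 6 := by
    have : |B * M + 1| ≤ (|B| + 1) * M := by
      refine (abs_add_le _ _).trans ?_
      rw [abs_mul, abs_one, abs_of_nonneg (by linarith : (0:ℝ) ≤ M)]
      nlinarith
    calc (B * M + 1) ^ 6 = |B * M + 1| ^ 6 := by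
          rw [← abs_pow]; exact (abs_of_nonneg (by positivity)).symm
      _ ≤ ((|B| + 1) * M) ^ 6 := pow_le_pow_left₀ (abs_nonneg _) this 6
  calc C * (B * M + 1) ^ 6 ≤ |C| * (B * M + 1) ^ 6 :=
        mul_le_mul_of_nonneg_right (le_abs_self C) (by positivity)
    _ ≤ |C| * ((|B| + 1) * M) ^ 6 := mul_le_mul_of_nonneg_left h5 (abs_nonneg _)
    _ = |C| * (|B| + 1) ^ 6 * (M:ℝ) ^ 6 := by ring

variable {F : Cf} {q : ℝ}

theorem zr_ratio (F : Cf) : zr F.m / zr F.top = 2 ^ F.M := by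
  unfold zr Cf.top
  have : (2:ℝ) ^ (F.m + F.M + 1) = 2 ^ (F.m + 1) * 2 ^ F.M := by
    rw [← pow_add]; congr 1; ring
  rw [this]; field_simp

theorem nu_le (h : F.Ok q) : F.nu ≤ 2 ^ F.M := by
  classical
  obtain ⟨x, hx⟩ := h.ne
  have ho : ob F.top x ∈ tob F := mem_tob.2 ⟨x, hx, rfl⟩
  refine (tob_own h ho).trans ?_
  have h1 : (((tob F).filter fun o' => o'.1 = (ob F.top x).1)).card ≤
      (Ico (2 ^ F.M * j0 F h.ne) (2 ^ F.M * j0 F h.ne + 2 ^ F.M)).card := by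
    refine card_le_card_of_injOn Prod.snd ?_ ?_
    · intro o ho
      rw [mem_coe, mem_filter] at ho
      exact mem_coe.2 (tob_cells h ho.1)
    · intro o ho o' ho' heq
      rw [mem_coe, mem_filter] at ho ho'
      exact Prod.ext (ho.2.trans ho'.2.symm) heq
  have h2 : (Ico (2 ^ F.M * j0 F h.ne) (2 ^ F.M * j0 F h.ne + 2 ^ F.M)).card = 2 ^ F.M := by
    rw [Int.card_Ico, add_sub_cancel_left]
    exact Int.toNat_natCast (2 ^ F.M) ▸ by norm_cast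
  rw [h2] at h1
  exact_mod_cast h1

theorem val_nonneg (h : F.Ok q) (hv : 0 ≤ F.val) : 4 ^ F.M * F.D0 ≤ F.D1 * F.nu ^ 2 := by
  have hD0 := D0_pos h
  have hD1 := h.D1p
  have hnu := h.nup
  have hM : (0:ℝ) < F.M := by exact_mod_cast h.M1
  unfold Cf.val at hv
  have h1 : 0 ≤ Real.logb 2 (F.D1 * F.nu ^ 2 / (4 ^ F.M * F.D0)) := by
    by_contra hc
    have := div_neg_of_neg_of_pos (not_le.1 hc) hM
    linarith
  have h2 : 1 ≤ F.D1 * F.nu ^ 2 / (4 ^ F.M * F.D0) := by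
    by_contra hc
    have := Real.logb_neg (b := 2) (by norm_num) (by positivity) (not_le.1 hc)
    linarith
  rwa [le_div_iff₀ (by positivity), one_mul] at h2

/-- the smallness condition of the flag lemma -/
theorem small_cond (h : F.Ok q) {q0 : ℝ} (hq0 : 0 < q0) (hq : q0 ≤ q) (hq2 : q ≤ 2)
    (hv : 0 ≤ F.val) {T : ℝ} (hT : 1 ≤ T)
    (hbig : 16 * 3538944 * (64 * 97 ^ 4 * 81) ^ 2 * T ^ 6 ≤ (1 - 2 ^ (-q0)) * 2 ^ F.M) :
    4 * (kap (64 * T ^ 2) (97 ^ 4 * F.D0 * (2 ^ F.m) ^ q) (F.D1 * (2 ^ F.top) ^ q)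
      (3 * (zr F.m / zr F.top)) 0 q (2 ^ (-(5 * (F.M:ℝ) / q))) * 2 ^ F.M) ≤
      F.nu / (4 * T ^ 2) := by
  have hqp : 0 < q := hq0.trans_le hq
  have hD0 := D0_pos h
  have hD1 := h.D1p
  have hnu := h.nup
  have hv' := val_nonneg h hv
  have hnuM := nu_le h
  have hP : (0:ℝ) < 2 ^ F.M := by positivity
  have hP4 : (4:ℝ) ^ F.M = (2 ^ F.M) ^ 2 := by
    rw [← pow_mul, mul_comm, pow_mul]; norm_num
  rw [zr_ratio]
  -- the factor `E`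
  have e1 : 64 * T ^ 2 * (97 ^ 4 * F.D0 * (2 ^ F.m) ^ q / (F.D1 * (2 ^ F.top) ^ q)) *
      (3 * 2 ^ F.M) ^ (2 + 0 + q) ≤ 64 * 97 ^ 4 * 81 * T ^ 2 * F.nu ^ 2 := by
    have k1 : (3 * (2:ℝ) ^ F.M) ^ (2 + 0 + q) = 3 ^ (2 + q) * ((2 ^ F.M) ^ 2 * (2 ^ F.M) ^ q) := by
      rw [Real.mul_rpow (by norm_num) hP.le, add_zero, Real.rpow_add hP]
      norm_num
    have k2 : (3:ℝ) ^ (2 + q) ≤ 81 := by
      calc (3:ℝ) ^ (2 + q) ≤ 3 ^ (4:ℝ) :=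
            Real.rpow_le_rpow_of_exponent_le (by norm_num) (by linarith)
        _ = 81 := by norm_num
    have k3 : ((2:ℝ) ^ F.top) ^ q = (2 ^ F.m) ^ q * (2 ^ F.M) ^ q := by
      unfold Cf.top
      rw [pow_add, Real.mul_rpow (by positivity) hP.le]
    have p1 : (0:ℝ) < (2 ^ F.m) ^ q := by positivity
    have p2 : (0:ℝ) < (2 ^ F.M) ^ q := by positivity
    rw [k1, k3]
    calc 64 * T ^ 2 * (97 ^ 4 * F.D0 * (2 ^ F.m) ^ q / (F.D1 * ((2 ^ F.m) ^ q * (2 ^ F.M) ^ q))) *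
          (3 ^ (2 + q) * ((2 ^ F.M) ^ 2 * (2 ^ F.M) ^ q))
        = 64 * 97 ^ 4 * T ^ 2 * 3 ^ (2 + q) * (4 ^ F.M * F.D0 / F.D1) := by
          rw [hP4]; field_simp
      _ ≤ 64 * 97 ^ 4 * T ^ 2 * 81 * (F.nu ^ 2) := by
          have k5 : 4 ^ F.M * F.D0 / F.D1 ≤ F.nu ^ 2 := by
            rw [div_le_iff₀ hD1]; linarith
          gcongr
      _ = _ := by ring
  have hγ : 0 < 1 - (2:ℝ) ^ (-q0) := by
    have : (2:ℝ) ^ (-q0) < 1 := Real.rpow_lt_one_of_one_lt_of_neg (by norm_num) (by linarith)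
    linarith
  have hγ' : 1 - (2:ℝ) ^ (-q0) ≤ 1 - (2:ℝ) ^ (0 - q) := by
    have : (2:ℝ) ^ (0 - q) ≤ 2 ^ (-q0) :=
      Real.rpow_le_rpow_of_exponent_le (by norm_num) (by linarith)
    linarith
  have e2 : ((2:ℝ) ^ (-(5 * (F.M:ℝ) / q))) ^ (q - 0) = 1 / (2 ^ F.M) ^ 5 := by
    rw [sub_zero, ← Real.rpow_mul (by norm_num)]
    have : -(5 * (F.M:ℝ) / q) * q = -((F.M * 5 : ℕ) : ℝ) := by push_cast; field_simp
    rw [this, Real.rpow_neg (by norm_num), Real.rpow_natCast, pow_mul, one_div]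
  have e3 : TiltG51.c0 0 q ≤ 3538944 := by
    unfold TiltG51.c0
    rw [add_zero, Real.rpow_one]
    calc (32:ℝ) * 48 ^ (1 + q) ≤ 32 * 48 ^ (3:ℝ) := by
          refine mul_le_mul_of_nonneg_left ?_ (by norm_num)
          exact Real.rpow_le_rpow_of_exponent_le (by norm_num) (by linarith)
      _ = 3538944 := by norm_num
  unfold kap
  rw [e2]
  set Ee := 64 * T ^ 2 * (97 ^ 4 * F.D0 * (2 ^ F.m) ^ q / (F.D1 * (2 ^ F.top) ^ q)) *
      (3 * 2 ^ F.M) ^ (2 + 0 + q) with hEe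
  have hEe0 : 0 ≤ Ee := by rw [hEe]; positivity
  have hc0 := TiltG51.c0_pos 0 q
  have k6 : TiltG51.c0 0 q * Ee * Ee ≤
      3538944 * (64 * 97 ^ 4 * 81 * T ^ 2 * F.nu ^ 2) * (64 * 97 ^ 4 * 81 * T ^ 2 * F.nu ^ 2) := by
    gcongr
  have k7 : TiltG51.c0 0 q * Ee * Ee / (1 - 2 ^ (0 - q)) ≤
      3538944 * (64 * 97 ^ 4 * 81 * T ^ 2 * F.nu ^ 2) * (64 * 97 ^ 4 * 81 * T ^ 2 * F.nu ^ 2) /
        (1 - 2 ^ (-q0)) :=
    div_le_div₀ (by positivity) k6 hγ hγ'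
  have hT0 : 0 < T := by linarith
  rw [le_div_iff₀ (by positivity)]
  calc 4 * (TiltG51.c0 0 q * Ee * Ee / (1 - 2 ^ (0 - q)) * (1 / (2 ^ F.M) ^ 5) * 2 ^ F.M) *
        (4 * T ^ 2)
      ≤ 4 * (3538944 * (64 * 97 ^ 4 * 81 * T ^ 2 * F.nu ^ 2) *
          (64 * 97 ^ 4 * 81 * T ^ 2 * F.nu ^ 2) / (1 - 2 ^ (-q0)) * (1 / (2 ^ F.M) ^ 5) *
          2 ^ F.M) * (4 * T ^ 2) := by gcongr
    _ = (16 * 3538944 * (64 * 97 ^ 4 * 81) ^ 2 * T ^ 6) * (F.nu ^ 3 * F.nu) /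
          ((1 - 2 ^ (-q0)) * (2 ^ F.M) ^ 4) := by field_simp; ring
    _ ≤ ((1 - 2 ^ (-q0)) * 2 ^ F.M) * ((2 ^ F.M) ^ 3 * F.nu) /
          ((1 - 2 ^ (-q0)) * (2 ^ F.M) ^ 4) := by gcongr
    _ = F.nu := by field_simp

end

end Crest.Agent.R138.Norm70
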