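import Mathlib
import Crest.Agent.R138.Norm9_70

/-!
# R138: NORM, literal leaf L3 over `K294.Cf` (helper70)

`norm_cf` : a configuration with nonnegative value can be replaced by a normalised one (resolution
`≥ 2^-(m + (5/q0 + 5) M)`, all lines in one box of size `2/2^m`, deep planks of equal dimensions),
the value drops by at most `η`.
-/

set_option autoImplicit false
set_option linter.unusedVariables false

open Finset Filter Topology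

namespace Crest.Agent.R138.Norm70

open Crest.Agent.R138.Flag51 Crest.Agent.R138.Tilt51 Crest.Agent.R138.K294

noncomputable section

variable {F : Cf} {q : ℝ}

theorem dyi_bound (h : F.Ok q) {R : ℝ} (hR : (2:ℝ) ^ (-((F.m:ℝ) + R * F.M)) ≤ F.r) :
    ∀ o ∈ tob F, dyi F.r (F.K (F.cl o)).w2 < ⌊|R| * F.M⌋₊ + 1 := by
  intro o ho
  have hr := h.r0
  have hl := (tob_legal h ho).1
  have hw2p : 0 < (F.K (F.cl o)).w2 := hr.trans_le (hl.r1.trans hl.w12)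
  rw [Nat.lt_succ_iff]
  unfold dyi
  refine Nat.floor_le_floor ?_
  have hM : (0:ℝ) ≤ F.M := Nat.cast_nonneg _
  rw [Real.logb_le_iff_le_rpow (by norm_num) (by positivity), div_le_iff₀ hr]
  have e1 : (1:ℝ) / 2 ^ F.top = 2 ^ (-((F.m:ℝ) + F.M)) := by
    rw [Real.rpow_neg (by norm_num), one_div]
    congr 1
    unfold Cf.top
    rw [← Real.rpow_natCast]; push_cast; rfl
  calc (F.K (F.cl o)).w2 ≤ 1 / 2 ^ F.top := hl.w2
    _ = 2 ^ (-((F.m:ℝ) + F.M)) := e1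
    _ ≤ 2 ^ (|R| * F.M + -((F.m:ℝ) + R * F.M)) := by
        refine Real.rpow_le_rpow_of_exponent_le (by norm_num) ?_
        have := mul_le_mul_of_nonneg_right (le_abs_self R) hM
        linarith
    _ = 2 ^ (|R| * F.M) * 2 ^ (-((F.m:ℝ) + R * F.M)) := Real.rpow_add (by norm_num) _ _
    _ ≤ 2 ^ (|R| * F.M) * F.r := mul_le_mul_of_nonneg_left hR (by positivity)

open Classical in
/-- one configuration, explicit constants -/
theorem norm_one (h : F.Ok q) {q0 : ℝ} (hq0 : 0 < q0) (hq : q0 ≤ q) (hq2 : q ≤ 2)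
    (hv : 0 ≤ F.val) {T : ℕ} (hT1 : 1 ≤ T) (hT : ∀ o ∈ tob F, dyi F.r (F.K (F.cl o)).w2 < T)
    (hbig : 16 * 3538944 * (64 * 97 ^ 4 * 81) ^ 2 * (T:ℝ) ^ 6 ≤ (1 - 2 ^ (-q0)) * 2 ^ F.M) :
    ∃ F' : Cf, F'.Ok q ∧ F'.m = F.m ∧ F'.M = F.M ∧
      2 ^ (-(5 * (F.M:ℝ) / q)) / (12 * 2 ^ F.top) ≤ F'.r ∧ F'.I.card ≤ F.I.card ∧
      (∀ a, (F'.K a).w1 = F'.r ∧ (F'.K a).w2 = 2 / (3 * 2 ^ F.top)) ∧
      (∀ x ∈ F'.I, ∀ y ∈ F'.I, zc F.m y.2 = zc F.m x.2) ∧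
      (∀ x ∈ F'.I, ∀ z, zc F.m z = zc F.m x.2 →
        |pos x.1 z 0| ≤ 1 / 2 ^ F.m ∧ |pos x.1 z 1| ≤ 1 / 2 ^ F.m) ∧
      F.D1 * F.nu ^ 2 / (4 ^ F.M * F.D0) ≤
        (97 ^ 4 * 524288000 * 64000000 * (T:ℝ) ^ 6) * (F'.D1 * F'.nu ^ 2 / (4 ^ F'.M * F'.D0)) := by
  have hqp : 0 < q := hq0.trans_le hq
  have hD0 := D0_pos h
  have hD1 := h.D1p
  have hnu := h.nup
  have hr := h.r0
  have hTr : (1:ℝ) ≤ (T:ℝ) := by exact_mod_cast hT1
  have hTp : (0:ℝ) < (T:ℝ) := by linarith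
  have hP : (0:ℝ) < 2 ^ F.M := by positivity
  have hP1 : (1:ℝ) ≤ 2 ^ F.M := one_le_pow₀ (by norm_num)
  have hm : (0:ℝ) < 2 ^ F.m := by positivity
  have htop : (2:ℝ) ^ F.top = 2 ^ F.m * 2 ^ F.M := by unfold Cf.top; rw [pow_add]
  have htp : (0:ℝ) < 2 ^ F.top := by positivity
  obtain ⟨A, hA, hAne, a1, a2, hra1, ha12, ha2, hC, hown, hcells⟩ := Ok_cfg1 h hqp.le hq2 hT
  have ha1 : 0 < a1 := hr.trans_le hra1
  have ha2p : 0 < a2 := ha1.trans_le ha12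
  have hsm := small_cond h hq0 hq hq2 hv hTr hbig
  have hratio := zr_ratio F
  -- a2 bounds
  have hA2 : 2 ^ F.M * a2 ≤ 2 / 2 ^ F.m := by
    have := mul_le_mul_of_nonneg_left ha2 hP.le
    rw [htop] at this
    calc 2 ^ F.M * a2 ≤ 2 ^ F.M * (2 / (2 ^ F.m * 2 ^ F.M)) := this
      _ = 2 / 2 ^ F.m := by field_simp
  obtain ⟨θ, hθ0, hθ1, hθa, hθX, I', hI', E, x0, hx0, hE, g1, g2, g3, g4⟩ :=
    hC.cont hAne le_rfl hqp (zr_pos _) (zr_anti (Nat.le_add_right _ _)) ha1 ha12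
      (by rw [hratio]; nlinarith)
      (by
        rw [hratio]
        calc 8 * (3 * 2 ^ F.M * a2) = 24 * (2 ^ F.M * a2) := by ring
          _ ≤ 24 * (2 / 2 ^ F.m) := by gcongr
          _ = 48 / 2 ^ F.m := by ring)
      (by positivity) (by positivity) (by positivity)
      (X := 2 ^ (-(5 * (F.M:ℝ) / q))) (by positivity)
      (Real.rpow_le_one_of_one_le_of_nonpos (by norm_num) (by
        have : 0 ≤ 5 * (F.M:ℝ) / q := by positivity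
        linarith))
      (by convert hcells) (n1 := F.nu / (4 * (T:ℝ) ^ 2)) (by positivity)
      (fun x hx => by convert hown x hx) hsm
  rw [hratio] at g1
  -- scaled container
  set W1 : ℝ := 12 * θ * 2 ^ F.top * a2 with hW1
  set W2 : ℝ := 12 * 2 ^ F.top * a2 with hW2
  have hW1p : 0 < W1 := by positivity
  have hW2p : 0 < W2 := by positivity
  have hW12 : W1 ≤ W2 := by
    rw [hW1, hW2]
    have : 12 * θ * 2 ^ F.top * a2 = θ * (12 * 2 ^ F.top * a2) := by ring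
    rw [this]
    exact mul_le_of_le_one_left (by positivity) hθ1
  have hAp : (0:ℝ) < 1 / (3 * 2 ^ F.top) := by positivity
  have hcc := hC.nrm_sub (θ := 3 * θ) (K := 2000) (A := 1 / (3 * 2 ^ F.top)) le_rfl hqp.le hq2 ha1
    ha2p hr (by positivity) (by positivity) hI' x0.1 hE hW1p hW12 hAp
    (by
      have : 1 / (3 * 2 ^ F.top) * W1 = 4 * θ * a2 := by rw [hW1]; field_simp; norm_num
      rw [this]; linarith)
    (by
      have : 1 / (3 * 2 ^ F.top) * W2 = 4 * a2 := by rw [hW2]; field_simp; norm_num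
      rw [this]; linarith) g2 g4
  have hown' : ∀ x ∈ I', F.nu / (8000 * (T:ℝ) ^ 2) ≤
      ((I'.filter fun y => y.1 = x.1).card : ℝ) := by
    intro x hx
    have k1 := hown x (hI' hx)
    have k2 : ((A.filter fun y => y.1 = x.1).card : ℝ) ≤
        2000 * ((I'.filter fun y => y.1 = x.1).card : ℝ) := by convert g3 x hx
    have k3 : F.nu / (8000 * (T:ℝ) ^ 2) = F.nu / (4 * (T:ℝ) ^ 2) / 2000 := by
      field_simp; norm_num
    rw [k3, div_le_iff₀ (by norm_num)]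
    linarith
  have hc1 : 0 < a1 / W1 := by positivity
  have hc2 : 2 * (1 / (3 * (2:ℝ) ^ F.top)) ≤ 1 / 2 ^ F.top := by
    have : 2 * (1 / (3 * (2:ℝ) ^ F.top)) = (2 / 3) * (1 / 2 ^ F.top) := by field_simp
    rw [this]
    have : (0:ℝ) < 1 / 2 ^ F.top := by positivity
    linarith
  have hc12 : a1 / W1 ≤ 2 * (1 / (3 * 2 ^ F.top)) := by
    rw [div_le_iff₀ hW1p, hW1]
    have : 2 * (1 / (3 * 2 ^ F.top)) * (12 * θ * 2 ^ F.top * a2) = 8 * (θ * a2) := by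
      field_simp; norm_num
    rw [this]
    have : 0 < θ * a2 := by positivity
    linarith
  have hS0 : 1 / 2 ^ F.m ≤ 48 / 2 ^ F.m / (2 * W2) := by
    rw [div_div, div_le_div_iff₀ hm (by positivity), hW2]
    have : 2 ^ F.top * a2 ≤ 2 := by
      rw [htop]
      calc 2 ^ F.m * 2 ^ F.M * a2 = 2 ^ F.m * (2 ^ F.M * a2) := by ring
        _ ≤ 2 ^ F.m * (2 / 2 ^ F.m) := mul_le_mul_of_nonneg_left hA2 hm.le
        _ = 2 := by field_simp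
    nlinarith
  have e8 : (8:ℝ) ^ (1 + q) ≤ 512 := by
    calc (8:ℝ) ^ (1 + q) ≤ 8 ^ (3:ℝ) :=
          Real.rpow_le_rpow_of_exponent_le (by norm_num) (by linarith)
      _ = 512 := by norm_num
  have eW : 2 * (1 / (3 * 2 ^ F.top)) * W2 / a2 = 8 := by rw [hW2]; field_simp; norm_num
  rw [eW] at hcc
  set N0 : ℝ := 8 * (97 ^ 4 * F.D0 * (2 ^ F.m) ^ q) * W1 ^ (1 + (0:ℝ)) * W2 ^ (1 + q) with hN0
  set N1 : ℝ := 8 * (F.D1 * (2 ^ F.top) ^ q) * W1 ^ (1 + (0:ℝ)) * W2 ^ (1 + q) with hN1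
  set E1 : ℝ := 8 * 8 ^ (1 + q) * 2000 * (64 * (T:ℝ) ^ 2) with hE1
  have hok := nF_ok h (hI'.trans hA) ⟨x0, hx0⟩ (nu := F.nu / (8000 * (T:ℝ) ^ 2)) hE hW1p hW12 hcc
    hc1 (div_le_div_of_nonneg_right hra1 hW1p.le) hc12 hc2 hS0 (by positivity) (by positivity)
    (by positivity) (by positivity) (fun x hx => by convert hown' x hx)
  refine ⟨_, hok, rfl, rfl, ?_, nF_card _ _ _ _ _ _ _ _ _ _ _, ?_, ?_, ?_, ?_⟩
  · show 2 ^ (-(5 * (F.M:ℝ) / q)) / (12 * 2 ^ F.top) ≤ a1 / W1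
    rw [div_le_div_iff₀ (by positivity) hW1p, hW1]
    calc 2 ^ (-(5 * (F.M:ℝ) / q)) * (12 * θ * 2 ^ F.top * a2)
        = (2 ^ (-(5 * (F.M:ℝ) / q)) * θ * a2) * (12 * 2 ^ F.top) := by ring
      _ ≤ a1 * (12 * 2 ^ F.top) := mul_le_mul_of_nonneg_right hθX (by positivity)
  · intro a
    refine ⟨rfl, ?_⟩
    show 2 * (1 / (3 * (2:ℝ) ^ F.top)) = 2 / (3 * 2 ^ F.top)
    ring
  · intro x hx y hy
    exact (hok.cell x hx y hy).symm
  · intro x' hx' z hz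
    have hx'' : x' ∈ (F.I.filter fun x => ob F.top x ∈ I').image
        fun x => (nrm E x0.1 W1 W2 x.1, x.2) := hx'
    rw [mem_image] at hx''
    obtain ⟨x, hx, rfl⟩ := hx''
    rw [mem_filter] at hx
    have hzz : |z - zm F.m (j0 F h.ne)| ≤ zr F.m := by
      rw [← j0_eq h hx.1, ← hz]
      exact abs_sub_zm _ _
    obtain ⟨k1, k2⟩ := g1 _ hx.2 z hzz
    have k3 : (ob F.top x).1 = x.1 := rfl
    rw [k3] at k1 k2
    show |pos (nrm E x0.1 W1 W2 x.1) z 0| ≤ _ ∧ |pos (nrm E x0.1 W1 W2 x.1) z 1| ≤ _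
    rw [pos_nrm, lin_zero_apply, lin_one_apply, abs_div, abs_div, abs_of_pos hW1p,
      abs_of_pos hW2p, div_le_div_iff₀ hW1p hm, div_le_div_iff₀ hW2p hm, hW1, hW2, htop]
    constructor
    · calc |dt (pos x.1 z - pos x0.1 z) E| * 2 ^ F.m
          ≤ (12 * θ * 2 ^ F.M * a2) * 2 ^ F.m := mul_le_mul_of_nonneg_right k1 hm.le
        _ = 1 * (12 * θ * (2 ^ F.m * 2 ^ F.M) * a2) := by ring
    · calc |cr E (pos x.1 z - pos x0.1 z)| * 2 ^ F.m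
          ≤ (12 * 2 ^ F.M * a2) * 2 ^ F.m := mul_le_mul_of_nonneg_right k2 hm.le
        _ = 1 * (12 * (2 ^ F.m * 2 ^ F.M) * a2) := by ring
  · show F.D1 * F.nu ^ 2 / (4 ^ F.M * F.D0) ≤
      (97 ^ 4 * 524288000 * 64000000 * (T:ℝ) ^ 6) * (N1 / (E1 * (2 ^ F.top) ^ q) *
        (F.nu / (8000 * (T:ℝ) ^ 2)) ^ 2 / (4 ^ F.M * (N0 / (2 ^ F.m) ^ q)))
    have p1 : (0:ℝ) < (2 ^ F.m) ^ q := by positivity
    have p2 : (0:ℝ) < (2 ^ F.top) ^ q := by positivity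
    have p3 : (0:ℝ) < W1 ^ (1 + (0:ℝ)) := by positivity
    have p4 : (0:ℝ) < W2 ^ (1 + q) := by positivity
    have k1 : N1 / (E1 * (2 ^ F.top) ^ q) * (F.nu / (8000 * (T:ℝ) ^ 2)) ^ 2 /
        (4 ^ F.M * (N0 / (2 ^ F.m) ^ q)) =
        (F.D1 * F.nu ^ 2 / (4 ^ F.M * F.D0)) / (97 ^ 4 * E1 * (8000 * (T:ℝ) ^ 2) ^ 2) := by
      rw [hN0, hN1]; field_simp
    rw [k1]
    have hE1p : 0 < E1 := by rw [hE1]; positivity
    have k2 : E1 ≤ 524288000 * (T:ℝ) ^ 2 := by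
      rw [hE1]
      calc 8 * 8 ^ (1 + q) * 2000 * (64 * (T:ℝ) ^ 2) ≤ 8 * 512 * 2000 * (64 * (T:ℝ) ^ 2) := by
            gcongr
        _ = 524288000 * (T:ℝ) ^ 2 := by ring
    rw [← mul_div_assoc, le_div_iff₀ (by positivity), mul_comm]
    have hpos : 0 < F.D1 * F.nu ^ 2 / (4 ^ F.M * F.D0) := by positivity
    refine mul_le_mul_of_nonneg_right ?_ hpos.le
    calc 97 ^ 4 * E1 * (8000 * (T:ℝ) ^ 2) ^ 2
        ≤ 97 ^ 4 * (524288000 * (T:ℝ) ^ 2) * (8000 * (T:ℝ) ^ 2) ^ 2 := by gcongr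
      _ = 97 ^ 4 * 524288000 * 64000000 * (T:ℝ) ^ 6 := by ring

/-- **L3 = NORM.** -/
theorem norm_cf {q0 : ℝ} (hq0 : 0 < q0) (R : ℝ) {η : ℝ} (hη : 0 < η) :
    ∃ M₀ : ℕ, ∀ q, q0 ≤ q → q ≤ 2 → ∀ F : Cf, F.Ok q → M₀ ≤ F.M →
      (2:ℝ) ^ (-((F.m:ℝ) + R * F.M)) ≤ F.r → 0 ≤ F.val →
      ∃ F' : Cf, F'.Ok q ∧ F'.m = F.m ∧ F'.M = F.M ∧
        (2:ℝ) ^ (-((F'.m:ℝ) + (5 / q0 + 5) * F'.M)) ≤ F'.r ∧ F'.I.card ≤ F.I.card ∧
        F.val - η ≤ F'.val ∧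
        (∀ a, (F'.K a).w1 = F'.r ∧ (F'.K a).w2 = 2 / (3 * 2 ^ F.top)) ∧
        (∀ x ∈ F'.I, ∀ z, zc F.m z = zc F.m x.2 →
          |pos x.1 z 0| ≤ 1 / 2 ^ F.m ∧ |pos x.1 z 1| ≤ 1 / 2 ^ F.m) := by
  have hγ : 0 < 1 - (2:ℝ) ^ (-q0) := by
    have : (2:ℝ) ^ (-q0) < 1 := Real.rpow_lt_one_of_one_lt_of_neg (by norm_num) (by linarith)
    linarith
  obtain ⟨M1, hM1⟩ := growth (16 * 3538944 * (64 * 97 ^ 4 * 81) ^ 2 / (1 - (2:ℝ) ^ (-q0))) 1 |R|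
    one_pos
  obtain ⟨M2, hM2⟩ := growth (97 ^ 4 * 524288000 * 64000000) η |R| hη
  refine ⟨max (max M1 M2) 4, fun q hq hq2 F h hM hR hv => ?_⟩
  have hMM1 : M1 ≤ F.M := (le_max_left _ _).trans ((le_max_left _ _).trans hM)
  have hMM2 : M2 ≤ F.M := (le_max_right _ _).trans ((le_max_left _ _).trans hM)
  have hM4 : 4 ≤ F.M := (le_max_right _ _).trans hM
  have hM4r : (4:ℝ) ≤ F.M := by exact_mod_cast hM4
  have hMp : (0:ℝ) < F.M := by linarith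
  have hTle : ((⌊|R| * F.M⌋₊ + 1 : ℕ) : ℝ) ≤ |R| * F.M + 1 := by
    push_cast
    have := Nat.floor_le (by positivity : (0:ℝ) ≤ |R| * F.M)
    linarith
  have hT0 : (0:ℝ) ≤ ((⌊|R| * F.M⌋₊ + 1 : ℕ) : ℝ) := Nat.cast_nonneg _
  have hT6 : ((⌊|R| * F.M⌋₊ + 1 : ℕ) : ℝ) ^ 6 ≤ (|R| * F.M + 1) ^ 6 :=
    pow_le_pow_left₀ hT0 hTle 6
  have hbig : 16 * 3538944 * (64 * 97 ^ 4 * 81) ^ 2 * ((⌊|R| * F.M⌋₊ + 1 : ℕ) : ℝ) ^ 6 ≤
      (1 - 2 ^ (-q0)) * 2 ^ F.M := by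
    have k1 := hM1 F.M hMM1
    rw [one_mul, Real.rpow_natCast, div_mul_eq_mul_div, div_le_iff₀ hγ] at k1
    refine le_trans ?_ (k1.trans (le_of_eq (mul_comm _ _)))
    exact mul_le_mul_of_nonneg_left hT6 (by norm_num)
  obtain ⟨F', g1, g2, g3, g4, g5, g6, g7, g8, g9⟩ := norm_one h hq0 hq hq2 hv (Nat.le_add_left _ _)
    (dyi_bound h hR) hbig
  refine ⟨F', g1, g2, g3, ?_, g5, ?_, g6, g8⟩
  · refine le_trans ?_ g4
    rw [g2, g3]
    have hqp : 0 < q := hq0.trans_le hq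
    have e1 : (12 * 2 ^ F.top : ℝ) ≤ 2 ^ ((F.m:ℝ) + 2 * F.M) := by
      have : ((F.m:ℝ) + 2 * F.M) = ((F.m + F.M : ℕ) : ℝ) + F.M := by push_cast; ring
      rw [this, Real.rpow_add (by norm_num), Real.rpow_natCast, Real.rpow_natCast, mul_comm]
      have h16 : (12:ℝ) ≤ 2 ^ F.M := by
        calc (12:ℝ) ≤ 2 ^ 4 := by norm_num
          _ ≤ 2 ^ F.M := pow_le_pow_right₀ (by norm_num) hM4
      exact mul_le_mul_of_nonneg_left h16 (by unfold Cf.top; positivity)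
    calc (2:ℝ) ^ (-((F.m:ℝ) + (5 / q0 + 5) * F.M))
        ≤ 2 ^ (-(5 * (F.M:ℝ) / q) - ((F.m:ℝ) + 2 * F.M)) := by
          refine Real.rpow_le_rpow_of_exponent_le (by norm_num) ?_
          have : 5 * (F.M:ℝ) / q ≤ 5 * F.M / q0 :=
            div_le_div_of_nonneg_left (by positivity) hq0 hq
          have e2 : (5 / q0 + 5) * (F.M:ℝ) = 5 * F.M / q0 + 5 * F.M := by ring
          rw [e2]; linarith
      _ = 2 ^ (-(5 * (F.M:ℝ) / q)) / 2 ^ ((F.m:ℝ) + 2 * F.M) := Real.rpow_sub (by norm_num) _ _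
      _ ≤ 2 ^ (-(5 * (F.M:ℝ) / q)) / (12 * 2 ^ F.top) :=
          div_le_div_of_nonneg_left (by positivity) (by positivity) e1
  · have hD0 := D0_pos h
    have hD1 := h.D1p
    have hnu := h.nup
    have hD0' := D0_pos g1
    have hD1' := g1.D1p
    have hnu' := g1.nup
    have k2 := hM2 F.M hMM2
    have k3 : F.D1 * F.nu ^ 2 / (4 ^ F.M * F.D0) ≤
        2 ^ (η * F.M) * (F'.D1 * F'.nu ^ 2 / (4 ^ F'.M * F'.D0)) := by
      refine g9.trans (mul_le_mul_of_nonneg_right ?_ (by positivity))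
      refine le_trans ?_ k2
      exact mul_le_mul_of_nonneg_left hT6 (by norm_num)
    have k4 := Real.logb_le_logb_of_le (b := 2) (by norm_num) (by positivity) k3
    rw [Real.logb_mul (by positivity) (by positivity), Real.logb_rpow (by norm_num) (by norm_num)]
      at k4
    show Real.logb 2 (F.D1 * F.nu ^ 2 / (4 ^ F.M * F.D0)) / F.M - η ≤
      Real.logb 2 (F'.D1 * F'.nu ^ 2 / (4 ^ F'.M * F'.D0)) / F'.M
    rw [g3] at k4 ⊢
    rw [sub_le_iff_le_add, div_le_iff₀ hMp, add_mul, div_mul_cancel₀ _ hMp.ne']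
    linarith

end

end Crest.Agent.R138.Norm70
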