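import Crest.Agent.R138.Ps3_926
import Crest.Agent.R138.MkDef_163

/-!
# R138, helper248: X1 output, interface (over `Ps3_926`, `MkDef_163`)

* `shP` : plank system of FIXED widths `(w1, w2)` over a level (long cells `[zl - rho, zl + rho]`,
  the convention of `Mk163.Mk`), volume `w1 w2 4^m0`.
* `XS`  : extremal stable family with one maximal shape `(w1 n v, w2 n v)` for every rational level.
* target `MkOfXs` : `XS` gives the marked extremal sequence `Mk`.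
-/

set_option autoImplicit false
set_option linter.unusedVariables false

open Filter Topology Finset

namespace Crest.Agent.R138.X248

open Crest.Agent.R138.Ex926 Crest.Agent.R138.Dp76 Crest.Agent.R138.Flag51
open Crest.Agent.R138.K294 Crest.Agent.R138.Ps926

/-- the plank system of level `m'` and fixed widths `(w1, w2)`; `vol = w1 w2 4^m0`. -/
noncomputable def shP (m0 m' : ℕ) (w1 w2 : ℝ) (h1 : 0 < w1) (h2 : 0 < w2) : PSys (Ln × ℝ) where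
  κ := {K : ℤ × Ln × E2 // dt K.2.2 K.2.2 = 1}
  ο := Ln × ℤ
  ob := K294.ob m'
  mem := fun K o => o.2 = K.1.1 ∧
    InPlank o.1 K.1.2.1 K.1.2.2 w1 w2 (Mk163.zl m' K.1.1) (Mk163.rho m')
  vol := fun _ => w1 * w2 * 4 ^ m0
  v0 := w1 * w2 * 4 ^ m0
  v0_pos := by positivity
  v0_le := fun _ => le_refl _

/-- extremal stable family: `up` = penalised maximality for ALL legal planks of every level,
`st`, `near` = the planks of widths `(w1 n v, w2 n v)` are maximal and stable. -/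
structure XS (B : Base) (m M : ℕ → ℕ) (r : ℕ → ℝ) (I : ℕ → Finset (Ln × ℝ)) (A : ℕ → ℝ)
    (q g : ℝ) (Λ l : ℝ → ℝ) (w1 w2 : ℕ → ℚ → ℝ) (h1 : ∀ n v, 0 < w1 n v)
    (h2 : ∀ n v, 0 < w2 n v) : Prop where
  fam : Fam B m M r I
  /-- one incidence per line and top cell -/
  one : ∀ᶠ n in (U : Filter ℕ), ∀ x ∈ I n, ∀ y ∈ I n,
    K294.ob (m n + M n) x = K294.ob (m n + M n) y → x = y
  q0 : 0 < q
  q2 : q ≤ 2
  g0 : 0 < g
  Apos : ∀ n, 0 < A n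
  lam0 : Λ 0 = 0
  lam : ∀ u v : ℝ, 0 ≤ u → u ≤ v → v ≤ 1 → 0 ≤ Λ v - Λ u ∧ Λ v - Λ u ≤ v - u
  unif : ∀ v : ℚ, 0 ≤ v → v ≤ 1 → Unif B (fun n => K294.ob (lv m M n v)) I
  own : ∀ v : ℚ, 0 ≤ v → v ≤ 1 → ow B m M I v = (1 - v) - (Λ 1 - Λ v)
  dims : ∀ v : ℚ, 0 ≤ v → v ≤ 1 → ∀ n,
    r n ≤ w1 n v ∧ w1 n v ≤ w2 n v ∧ w2 n v ≤ 1 / 2 ^ (lv m M n v)
  wide : ∀ v : ℚ, 0 ≤ v → v ≤ 1 →
    Tendsto (fun n => Real.log (Mk163.rho (lv m M n v) / w2 n v) / B.L n) U (𝓝 (l v))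
  adm : ∀ v : ℚ, 0 ≤ v → v ≤ 1 →
    PAdm B (fun n => shP (m n) (lv m M n v) (w1 n v) (w2 n v) (h1 n v) (h2 n v)) I
  st : ∀ v : ℚ, 0 ≤ v → v ≤ 1 → StableF B (fun n J =>
    (shP (m n) (lv m M n v) (w1 n v) (w2 n v) (h1 n v) (h2 n v)).Dmax J) I
  near : ∀ v : ℚ, 0 ≤ v → v ≤ 1 → ∀ ε : ℝ, 0 < ε → ∀ᶠ n in (U : Filter ℕ),
    B.d n ^ ε * (Mk163.amp B (fun n v => lv m M n v) A q g Λ n v *
      (w1 n v * w2 n v ^ (1 + q))) ≤
    (shP (m n) (lv m M n v) (w1 n v) (w2 n v) (h1 n v) (h2 n v)).Dmax (I n) *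
      (w1 n v * w2 n v * 4 ^ (m n))
  up : ∀ v : ℚ, 0 ≤ v → v ≤ 1 → ∀ ε : ℝ, 0 < ε → ∀ᶠ n in (U : Filter ℕ), ∀ K,
    Legal (lv m M n v) (r n) K → ((K294.objs (lv m M n v) (I n) K).card : ℝ) ≤
      B.d n ^ (-ε) * (Mk163.amp B (fun n v => lv m M n v) A q g Λ n v *
        (K.w1 * K.w2 ^ (1 + q)))

/-- **L7**: the marked extremal sequence. -/
def MkOfXs : Prop :=
  ∀ (B : Base) (m M : ℕ → ℕ) (r : ℕ → ℝ) (I : ℕ → Finset (Ln × ℝ)) (A : ℕ → ℝ)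
    (q g : ℝ) (Λ l : ℝ → ℝ) (w1 w2 : ℕ → ℚ → ℝ) (h1 : ∀ n v, 0 < w1 n v)
    (h2 : ∀ n v, 0 < w2 n v), XS B m M r I A q g Λ l w1 w2 h1 h2 →
    ∃ (I' : ℕ → Finset (ℕ × ℝ)) (L : ℕ → ℕ → Ln) (f : ℕ → ℚ → ℕ → ℤ → ℕ) (b : ℕ → ℚ → ℕ → Ln)
      (e : ℕ → ℚ → ℕ → E2),
      Mk163.Mk B I' L (fun n v => lv m M n v) r A q g Λ (fun v => l v - l 1) f b e w1 w2

/-- input of the first half: near-extremal sequence of configurations at the penalty `q`;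
`UBq p b` : every limiting value at the penalty `p` is at most `b`. -/
structure NearX (F : ℕ → Cf) (q β : ℝ) : Prop where
  ok : ∀ n, (F n).Ok q
  M : ∀ n, n ≤ (F n).M
  poly : ∃ C : ℝ, ∀ n, ((F n).I.card : ℝ) ≤ (2 : ℝ) ^ (C * (F n).M) ∧
      (2 : ℝ) ^ (-(C * (F n).M)) ≤ (F n).r * 2 ^ (F n).m
  val : ∀ η : ℝ, 0 < η → ∀ᶠ n in (U : Filter ℕ), β - η ≤ (F n).val

/-- **Ext** (first half of L6): representatives of a near-extremal sequence form a family, and for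
every dense part `β` is reached between the levels `0` and `1`. -/
def ExtX : Prop :=
  ∀ (F : ℕ → Cf) (q β : ℝ) (hq : 0 ≤ q), NearX F q β →
    ∃ (B : Base) (m M : ℕ → ℕ) (r : ℕ → ℝ) (hr : ∀ n, 0 < r n) (I : ℕ → Finset (Ln × ℝ)),
      Fam B m M r I ∧
      (∀ n, ∀ x ∈ I n, ∀ y ∈ I n, K294.ob (m n + M n) x = K294.ob (m n + M n) y → x = y) ∧
      ∀ J : ℕ → Finset (Ln × ℝ), Dense B J I →
        β ≤ DD B q hq m M r hr J 0 1 - DD B q hq m M r hr J 0 0 +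
          2 * (ow B m M J 0 - ow B m M J 1) - 2

end Crest.Agent.R138.X248
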