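import Crest.Agent.R138.Jc_294
import Crest.Agent.R138.Ps3b_926
import Crest.Agent.R138.XDef_248

/-!
# R138, TEXT I (helper294): input of the extremiser in the form of `X248.NearX`

`ubx`: if `KMseq` fails, then (given NORM = `hN` and the bundle lemma = `hB`) there are a penalty
`q ∈ (0, 2)`, `β > 0`, `κ > 0`, a near-extremal sequence at `q`, and every limiting value at a
penalty `p ∈ [q, 2]` is at most `β - κ (p - q)`.
-/

set_option autoImplicit false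
set_option linter.unusedVariables false

open Finset Filter

namespace Crest.Agent.R138.K294

open Crest.Agent.R138.Flag51
open Crest.Agent.R138.GrW294
open Crest.Agent.R138.Ex926
open Crest.Agent.R138.X248

theorem half_rpow (x : ℝ) : (1 / 2 : ℝ) ^ x = 2 ^ (-x) := by
  rw [one_div, Real.inv_rpow (by norm_num), ← Real.rpow_neg (by norm_num)]

theorem Bd.of926 {p b R C : ℝ} (h : Ps926.Bd p b R C) : Bd p b R C := by
  intro η hη
  obtain ⟨M0, h0⟩ := h η hη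
  exact ⟨M0, fun F hF hM hS => h0 F hF hM (by rw [← half_rpow]; exact hS.res) hS.card⟩

theorem Bd.to926 {p b R C : ℝ} (h : Bd p b R C) : Ps926.Bd p b R C := by
  intro η hη
  obtain ⟨M0, h0⟩ := h η hη
  exact ⟨M0, fun F hF hM h1 h2 => h0 F hF hM ⟨by rw [half_rpow]; exact h1, h2⟩⟩

theorem bd926 {p b R C : ℝ} : Ps926.Bd p b R C ↔ Bd p b R C := ⟨Bd.of926, Bd.to926⟩

/-- **input of the extremiser** (`hN` = NORM, `hB` = bundle lemma) -/
theorem ubx (hK : ¬ KMseq)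
    (hN : ∀ q0 : ℝ, 0 < q0 → ∃ L0 : ℝ, ∀ p, q0 ≤ p → p ≤ 2 → ∀ b : ℝ, 0 ≤ b → ∀ C : ℝ,
      Ps926.Bd p b L0 C → ∀ R, Ps926.Bd p b R C)
    (hB : ∀ L0 q0 : ℝ, 0 < q0 → ∃ C0 : ℝ, ∀ p, q0 ≤ p → p ≤ 2 → ∀ b : ℝ, 0 ≤ b →
      Ps926.Bd p b L0 C0 → ∀ C, Ps926.Bd p b L0 C) :
    ∃ (q κ β : ℝ) (F : ℕ → Cf), 0 < q ∧ q < 2 ∧ 0 < κ ∧ 0 < β ∧ NearX F q β ∧
      ∀ p, q ≤ p → p ≤ 2 → ∀ x ∈ Ps926.valSet p, x ≤ β - κ * (p - q) := by
  obtain ⟨q0, κ, q, β, R0, C0, h1, h2, h3, h4, h5, h6, h7⟩ := joint_all hK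
    (fun q0 hq0 => by
      obtain ⟨L0, h⟩ := hN q0 hq0
      exact ⟨L0, fun p hp1 hp2 b hb C hbd R => Bd.of926 (h p hp1 hp2 b hb C hbd.to926 R)⟩)
    (fun L0 q0 hq0 => by
      obtain ⟨C0, h⟩ := hB L0 q0 hq0
      exact ⟨C0, fun p hp1 hp2 b hb hbd C => Bd.of926 (h p hp1 hp2 b hb hbd.to926 C)⟩)
  have h8 : ∀ n : ℕ, ∃ F : Cf, F.Ok q ∧ n ≤ F.M ∧ F.Sz R0 C0 ∧ β - 1 / ((n:ℝ) + 1) ≤ F.val :=
    fun n => h7 _ (by positivity) n
  choose F hF hM hS hv using h8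
  refine ⟨q, κ, β, F, by linarith, h5, h2, h3, ⟨hF, hM, ⟨max R0 C0, fun n => ⟨?_, ?_⟩⟩, ?_⟩, ?_⟩
  · exact ((hS n).mono (R' := max R0 C0) (C' := max R0 C0) (le_max_left _ _)
      (le_max_right _ _)).card
  · exact ((hS n).mono (R' := max R0 C0) (C' := max R0 C0) (le_max_left _ _)
      (le_max_right _ _)).resX
  · intro η hη
    have e1 : Tendsto (fun n : ℕ => 1 / ((n:ℝ) + 1)) (U : Filter ℕ) (nhds 0) :=
      (tendsto_one_div_add_atTop_nhds_zero_nat (𝕜 := ℝ)).mono_left Nat.hyperfilter_le_atTop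
    filter_upwards [e1.eventually_lt_const hη] with n hn
    have := hv n
    linarith
  · intro p hp1 hp2 x hx
    have := Ps926.le_of_Bd (fun R C => (h6 p (h4.trans hp1) hp2 R C).to926) x hx
    linarith

end Crest.Agent.R138.K294
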