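import Crest.Agent.R138.BunA_294
import Crest.Agent.R138.NormA_70
import Crest.Agent.R138.Ubx_294

/-!
# R138, TEXT I (helper294): the bundle lemma for configurations
-/

set_option autoImplicit false
set_option linter.unusedVariables false

open Finset

namespace Crest.Agent.R138.Bun294

open Crest.Agent.R138.Flag51
open Crest.Agent.R138.K294

noncomputable section

/-- first coordinate vector -/
def e0 : E2 := !₂[1, 0]

theorem e0_unit : dt e0 e0 = 1 := by simp [dt, e0]

theorem dt_e0 (x : E2) : dt x e0 = x 0 := by simp [dt, e0]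

theorem cr_e0 (x : E2) : cr e0 x = x 1 := by simp [cr, e0]

/-- change of the frame: closeness in coordinates gives closeness in every frame -/
theorem close_any {t l : Ln} {w z0 ρ : ℝ} (h : InPlank t l e0 w w z0 ρ) {e : E2}
    (he : dt e e = 1) : InPlank t l e (2 * w) (2 * w) z0 ρ := by
  intro z hz
  obtain ⟨h1, h2⟩ := h z hz
  rw [dt_e0] at h1
  rw [cr_e0] at h2
  exact ⟨dt_le he h1 h2, cr_le he h1 h2⟩

theorem inPlank_trans {t l k : Ln} {e : E2} {a1 a2 b1 b2 z0 ρ : ℝ}
    (h : InPlank t l e a1 a2 z0 ρ) (h' : InPlank l k e b1 b2 z0 ρ) :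
    InPlank t k e (a1 + b1) (a2 + b2) z0 ρ := by
  intro z hz
  obtain ⟨p1, p2⟩ := h z hz
  obtain ⟨q1, q2⟩ := h' z hz
  rw [dt_sub] at p1 q1 ⊢
  rw [cr_sub] at p2 q2 ⊢
  constructor
  · have : dt (pos t z) e - dt (pos k z) e = (dt (pos t z) e - dt (pos l z) e) +
      (dt (pos l z) e - dt (pos k z) e) := by ring
    rw [this]; exact (abs_add_le _ _).trans (add_le_add p1 q1)
  · have : cr e (pos t z) - cr e (pos k z) = (cr e (pos t z) - cr e (pos l z)) +
      (cr e (pos l z) - cr e (pos k z)) := by ring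
    rw [this]; exact (abs_add_le _ _).trans (add_le_add p2 q2)

theorem inPlank_mono {t l : Ln} {e : E2} {a1 a2 b1 b2 z0 ρ z0' ρ' : ℝ}
    (h : InPlank t l e a1 a2 z0 ρ) (h1 : a1 ≤ b1) (h2 : a2 ≤ b2)
    (hz : ∀ z, |z - z0'| ≤ ρ' → |z - z0| ≤ ρ) : InPlank t l e b1 b2 z0' ρ' := by
  intro z hz'
  obtain ⟨p1, p2⟩ := h z (hz z hz')
  exact ⟨p1.trans h1, p2.trans h2⟩

theorem inPlank_symm {t l : Ln} {e : E2} {a1 a2 z0 ρ : ℝ}
    (h : InPlank t l e a1 a2 z0 ρ) : InPlank l t e a1 a2 z0 ρ := by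
  intro z hz
  obtain ⟨p1, p2⟩ := h z hz
  rw [dt_sub, abs_sub_comm] at p1
  rw [cr_sub, abs_sub_comm] at p2
  rw [dt_sub, cr_sub]
  exact ⟨p1, p2⟩

variable {F : Cf} {q : ℝ}

/-- the cell of a configuration -/
theorem exists_cell (h : F.Ok q) : ∃ j0 : ℤ, ∀ x ∈ F.I, zc F.m x.2 = j0 := by
  obtain ⟨x0, hx0⟩ := h.ne
  exact ⟨zc F.m x0.2, fun x hx => h.cell x hx x0 hx0⟩

/-- number of deep cells inside a coarse cell -/
theorem deep_mem {m M : ℕ} {z : ℝ} {j0 : ℤ} (h : zc m z = j0) :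
    zc (m + M) z ∈ Ico (2 ^ M * j0) (2 ^ M * (j0 + 1)) := by
  rw [← h, mem_Ico]
  unfold zc
  have f1 := Int.floor_le ((2:ℝ) ^ m * z)
  have f2 := Int.lt_floor_add_one ((2:ℝ) ^ m * z)
  have hk : (0:ℝ) < 2 ^ M := by positivity
  constructor
  · rw [Int.le_floor]
    push_cast
    calc (2:ℝ) ^ M * ⌊(2:ℝ) ^ m * z⌋ ≤ 2 ^ M * (2 ^ m * z) := by gcongr
      _ = 2 ^ (m + M) * z := by rw [pow_add]; ring
  · rw [Int.floor_lt]
    push_cast
    calc (2:ℝ) ^ (m + M) * z = 2 ^ M * (2 ^ m * z) := by rw [pow_add]; ring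
      _ < 2 ^ M * (⌊(2:ℝ) ^ m * z⌋ + 1) := by gcongr

theorem card_deep (M : ℕ) (j0 : ℤ) : ((Ico (2 ^ M * j0) (2 ^ M * (j0 + 1))).card : ℝ) = 2 ^ M := by
  rw [Int.card_Ico]
  have h3 : (2 ^ M * (j0 + 1) - 2 ^ M * j0 : ℤ) = 2 ^ M := by ring
  rw [h3]
  have h4 : ((2:ℤ) ^ M).toNat = 2 ^ M := by
    rw [Int.toNat_pow_of_nonneg (by norm_num)]; rfl
  rw [h4]; push_cast; rfl

/-- the logarithmic loss -/
def los (F : Cf) : ℝ := 1 / (2304 * ((Nat.log 2 F.I.card : ℝ) + 1) ^ 4)

theorem los_pos (F : Cf) : 0 < los F := by unfold los; positivity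

open Classical in
/-- **bundle lemma for configurations** (all deep planks `(r, W2)`, `W2 = 2 / (3·2^top)`, all lines
in one box over the coarse cell) -/
theorem bun_cf (h : F.Ok q) (hq0 : 0 ≤ q) (hq2 : q ≤ 2)
    (hK : ∀ a, (F.K a).w1 = F.r ∧ (F.K a).w2 = 2 / (3 * 2 ^ F.top))
    (hbox : ∀ x ∈ F.I, ∀ z, zc F.m z = zc F.m x.2 →
      |pos x.1 z 0| ≤ 1 / 2 ^ F.m ∧ |pos x.1 z 1| ≤ 1 / 2 ^ F.m) :
    ∃ F' : Cf, F'.Ok q ∧ F'.m = F.m ∧ F'.M = F.M ∧ F'.r = F.r ∧
      (F'.I.card : ℝ) ≤ 2 ^ 23 * (1 / (2 ^ F.m * F.r)) ^ 4 * 2 ^ F.M ∧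
      los F ^ 4 / 1875 * (F.D1 * F.nu ^ 2 / (4 ^ F.M * F.D0)) ≤
        F'.D1 * F'.nu ^ 2 / (4 ^ F'.M * F'.D0) := by
  obtain ⟨j0, hj0⟩ := exists_cell h
  have hr := h.r0
  have hD0 := h.D0p'
  have hD1 := h.D1p
  have hnu := h.nup
  set W2 : ℝ := 2 / (3 * 2 ^ F.top) with hW2
  have hW2p : 0 < W2 := by positivity
  have hrW : F.r ≤ W2 := by
    obtain ⟨x, hx⟩ := h.ne
    have := (h.legal x hx).w12
    rwa [(hK _).1, (hK _).2] at this
  set O : Finset (Ln × ℤ) := F.I.image (ob F.top) with hO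
  have hOne : O.Nonempty := h.ne.image _
  set z0 : ℝ := zm F.m j0 with hz0
  set ρ : ℝ := zr F.m with hρ
  have hρp : 0 < ρ := zr_pos _
  have hr8 : 0 < F.r / 8 := by positivity
  set T : Ln → Fin 4 → ℤ := fun l => gcell e0 (F.r / 8) (F.r / 8) z0 ρ l with hT
  set n1 : ℝ := F.D1 * (F.r * W2 * (W2 * 2 ^ F.top) ^ q) with hn1
  have hn1p : 0 < n1 := by positivity
  have hcap : ∀ c, cap q F.top (F.K c) = F.r * W2 * (W2 * 2 ^ F.top) ^ q := by
    intro c; unfold cap; rw [(hK c).1, (hK c).2]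
  obtain ⟨W, A, g, hWp, hAne, hA1, hA2, hA3, hA4⟩ := bundle O hOne F.cl T (n1 := n1) (ν := F.nu)
    hn1p (fun o ho => by
      obtain ⟨x, hx, rfl⟩ := mem_image.1 ho
      have := h.low x hx
      rw [hcap] at this
      exact this) (fun o ho => by
      obtain ⟨x, hx, rfl⟩ := mem_image.1 ho
      have key : F.nu ≤ ((O.filter fun o' => o'.1 = (ob F.top x).1).card : ℝ) := by
        refine (h.own x hx).trans (Nat.cast_le.2 ?_)
        unfold ownc
        refine card_le_card fun o ho => ?_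
        obtain ⟨y, hy, rfl⟩ := mem_image.1 ho
        rw [mem_filter] at hy
        rw [mem_filter]
        refine ⟨mem_image_of_mem _ hy.1, ?_⟩
        show y.1 = x.1
        exact (Prod.ext_iff.1 hy.2).1
      convert key)
  -- the loss
  set K : ℕ := Nat.log 2 O.card with hKdef
  set δ : ℝ := 1 / (2304 * ((K:ℝ) + 1) ^ 4) with hδ
  have hδp : 0 < δ := by positivity
  have hlos : los F ≤ δ := by
    unfold los
    rw [hδ]
    have h1 : K ≤ Nat.log 2 F.I.card := Nat.log_mono_right card_image_le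
    have h2 : (K:ℝ) ≤ (Nat.log 2 F.I.card : ℝ) := by exact_mod_cast h1
    gcongr
  -- representatives
  set rep : (Fin 4 → ℤ) → Ln := fun t => if h : ∃ o ∈ O, T o.1 = t then h.choose.1 else ((0, 0) : Ln)
    with hrep
  have hrep1 : ∀ t, (∃ o ∈ O, T o.1 = t) → T (rep t) = t ∧ ∃ j, (rep t, j) ∈ O := by
    intro t ht
    have e1 : rep t = ht.choose.1 := by rw [hrep]; simp only [dif_pos ht]
    rw [e1]
    exact ⟨ht.choose_spec.2, ht.choose.2, ht.choose_spec.1⟩
  set zrep : ℤ → ℝ := fun j => if h : ∃ x ∈ F.I, zc F.top x.2 = j then h.choose.2 else 0 with hzrep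
  have hzrep1 : ∀ j, (∃ x ∈ F.I, zc F.top x.2 = j) → zc F.top (zrep j) = j ∧
      zc F.m (zrep j) = j0 := by
    intro j hj
    have e1 : zrep j = hj.choose.2 := by rw [hzrep]; simp only [dif_pos hj]
    rw [e1]
    exact ⟨hj.choose_spec.2, hj0 _ hj.choose_spec.1⟩
  have hAx : ∀ a ∈ A, ∃ x ∈ F.I, T x.1 = a.1 ∧ zc F.top x.2 = a.2 ∧ F.cl (ob F.top x) = g a := by
    intro a ha
    obtain ⟨o, ho, h1, h2, h3⟩ := hA1 a ha
    obtain ⟨x, hx, rfl⟩ := mem_image.1 ho
    exact ⟨x, hx, h1, h2, h3⟩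
  have hTrep : ∀ a ∈ A, T (rep a.1) = a.1 := by
    intro a ha
    obtain ⟨x, hx, h1, h2, h3⟩ := hAx a ha
    exact (hrep1 a.1 ⟨ob F.top x, mem_image_of_mem _ hx, h1⟩).1
  have hzA : ∀ a ∈ A, zc F.top (zrep a.2) = a.2 ∧ zc F.m (zrep a.2) = j0 := by
    intro a ha
    obtain ⟨x, hx, h1, h2, h3⟩ := hAx a ha
    exact hzrep1 a.2 ⟨x, hx, h2⟩
  -- new incidences
  set ψ : (Fin 4 → ℤ) × ℤ → Ln × ℝ := fun a => (rep a.1, zrep a.2) with hψ
  have hobψ : ∀ a ∈ A, ob F.top (ψ a) = (rep a.1, a.2) := by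
    intro a ha
    show (rep a.1, zc F.top (zrep a.2)) = _
    rw [(hzA a ha).1]
  have hobm : ∀ a ∈ A, ob F.m (ψ a) = (rep a.1, j0) := by
    intro a ha
    show (rep a.1, zc F.m (zrep a.2)) = _
    rw [(hzA a ha).2]
  have hinj : ∀ a ∈ A, ∀ b ∈ A, (rep a.1, a.2) = (rep b.1, b.2) → a = b := by
    intro a ha b hb hab
    have h1 : rep a.1 = rep b.1 := (Prod.ext_iff.1 hab).1
    have h2 : a.2 = b.2 := (Prod.ext_iff.1 hab).2
    refine Prod.ext ?_ h2
    rw [← hTrep a ha, ← hTrep b hb, h1]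
  set cl' : Ln × ℤ → ℕ := fun o => g (T o.1, o.2) with hcl'
  have hclA : ∀ a ∈ A, cl' (rep a.1, a.2) = g a := by
    intro a ha
    show g (T (rep a.1), a.2) = g a
    rw [hTrep a ha]
  set F' : Cf := ⟨F.m, F.M, F.r, A.image ψ, cl', fun c => {F.K c with w1 := 5 / 4 * F.r, w2 := 5 / 4 * W2},
    625 * F.D0 / (δ * W), δ * F.D1 / (3 * W), δ * F.nu⟩ with hF'
  have htop : F'.top = F.top := rfl
  -- closeness of the representative
  have hclose : ∀ (t : Fin 4 → ℤ) (l : Ln), T l = t → T (rep t) = t → ∀ e : E2, dt e e = 1 →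
      InPlank (rep t) l e (F.r / 4) (F.r / 4) z0 ρ := by
    intro t l h1 h2 e he
    have h3 : InPlank (rep t) l e0 (F.r / 8) (F.r / 8) z0 ρ :=
      inPlank_of_gcell hr8 hr8 hρp (by
        have : T (rep t) = T l := h2.trans h1.symm
        exact this)
    have h4 := close_any h3 he
    have h5 : 2 * (F.r / 8) = F.r / 4 := by ring
    rwa [h5] at h4
  refine ⟨F', ?_, rfl, rfl, rfl, ?_, ?_⟩
  · refine ⟨h.M1, h.r0, h.rle, hAne.image _, ?_, ?_, ?_, ?_, ?_, ?_, ?_, ?_⟩
    · -- cell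
      intro x hx y hy
      obtain ⟨a, ha, rfl⟩ := mem_image.1 hx
      obtain ⟨b, hb, rfl⟩ := mem_image.1 hy
      exact (hzA a ha).2.trans (hzA b hb).2.symm
    · show 0 < δ * F.D1 / (3 * W); positivity
    · show 0 < δ * F.nu; positivity
    · -- legal
      intro x hx
      obtain ⟨a, ha, rfl⟩ := mem_image.1 hx
      show Legal F.top F.r {F.K (cl' (ob F.top (ψ a))) with w1 := 5 / 4 * F.r, w2 := 5 / 4 * W2}
      rw [hobψ a ha, hclA a ha]
      obtain ⟨y, hy, h1, h2, h3⟩ := hAx a ha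
      have hl := h.legal y hy
      rw [h3] at hl
      refine ⟨hl.unit, by show F.r ≤ 5 / 4 * F.r; linarith, by
        show 5 / 4 * F.r ≤ 5 / 4 * W2; linarith, ?_⟩
      show 5 / 4 * W2 ≤ 1 / 2 ^ F.top
      rw [hW2]
      have hp : (0:ℝ) < 2 ^ F.top := by positivity
      have : 5 / 4 * (2 / (3 * (2:ℝ) ^ F.top)) = (5 / 6) * (1 / 2 ^ F.top) := by field_simp; norm_num
      rw [this]
      have : (0:ℝ) < 1 / 2 ^ F.top := by positivity
      linarith
    · -- mem
      intro x hx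
      obtain ⟨a, ha, rfl⟩ := mem_image.1 hx
      show InK F.top {F.K (cl' (ob F.top (ψ a))) with w1 := 5 / 4 * F.r, w2 := 5 / 4 * W2}
        (ob F.top (ψ a))
      rw [hobψ a ha, hclA a ha]
      obtain ⟨y, hy, h1, h2, h3⟩ := hAx a ha
      obtain ⟨m1, m2⟩ := h.mem y hy
      rw [h3] at m1 m2
      have hl := h.legal y hy
      rw [h3] at hl
      rw [(hK _).1, (hK _).2] at m2
      have m1' : a.2 = (F.K (g a)).j := by rw [← m1]; exact h2.symm
      refine ⟨m1', ?_⟩
      have k1 := hclose a.1 y.1 h1 (hTrep a ha) _ hl.unit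
      have hsub : ∀ z, |z - zm F.top (F.K (g a)).j| ≤ zr F.top → |z - z0| ≤ ρ := by
        intro z hz
        rw [← m1', ← h2] at hz
        have k2 := cell_sub (m := F.m) (m' := F.top) (Nat.le_add_right _ _) y.2
        rw [hj0 y hy] at k2
        have k3 := abs_sub_le z (zm F.top (zc F.top y.2)) z0
        linarith
      have k2 : InPlank (rep a.1) y.1 (F.K (g a)).e (F.r / 4) (F.r / 4) (zm F.top (F.K (g a)).j)
          (zr F.top) := inPlank_mono k1 le_rfl le_rfl hsub
      have k3 := inPlank_trans k2 m2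
      exact inPlank_mono k3 (by show F.r / 4 + F.r ≤ 5 / 4 * F.r; linarith)
        (by show F.r / 4 + W2 ≤ 5 / 4 * W2; linarith) (fun z hz => hz)
    · -- low
      intro x hx
      obtain ⟨a, ha, rfl⟩ := mem_image.1 hx
      show δ * F.D1 / (3 * W) * (5 / 4 * F.r * (5 / 4 * W2) * (5 / 4 * W2 * 2 ^ F.top) ^ q) ≤
        ((((A.image ψ).image (ob F.top)).filter fun o => cl' o = cl' (ob F.top (ψ a))).card : ℝ)
      rw [hobψ a ha, hclA a ha]
      have h1 := hA2 a ha
      have h2 : ((A.filter fun a' => g a' = g a).card : ℝ) ≤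
          ((((A.image ψ).image (ob F.top)).filter fun o => cl' o = g a).card : ℝ) := by
        refine Nat.cast_le.2 (card_le_card_of_injOn (fun b => (rep b.1, b.2)) (fun b hb => ?_)
          (fun b hb c hc hbc => ?_))
        · rw [Finset.mem_coe, mem_filter] at hb
          rw [Finset.mem_coe, mem_filter]
          refine ⟨?_, ?_⟩
          · show (rep b.1, b.2) ∈ _
            rw [← hobψ b hb.1]
            exact mem_image_of_mem _ (mem_image_of_mem _ hb.1)
          · show cl' (rep b.1, b.2) = _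
            rw [hclA b hb.1]; exact hb.2
        · rw [Finset.mem_coe, mem_filter] at hb hc
          exact hinj b hb.1 c hc.1 hbc
      refine le_trans ?_ (h1.trans h2)
      have h3 : (5 / 4 * W2 * 2 ^ F.top) ^ q ≤ 25 / 16 * (W2 * 2 ^ F.top) ^ q := by
        rw [mul_assoc, Real.mul_rpow (by norm_num) (by positivity)]
        have h4 : (5 / 4 : ℝ) ^ q ≤ (5 / 4) ^ (2:ℝ) :=
          Real.rpow_le_rpow_of_exponent_le (by norm_num) hq2
        have h5 : (5 / 4 : ℝ) ^ (2:ℝ) = 25 / 16 := by norm_num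
        rw [h5] at h4
        gcongr
      calc δ * F.D1 / (3 * W) * (5 / 4 * F.r * (5 / 4 * W2) * (5 / 4 * W2 * 2 ^ F.top) ^ q) ≤
            δ * F.D1 / (3 * W) * (5 / 4 * F.r * (5 / 4 * W2) * (25 / 16 * (W2 * 2 ^ F.top) ^ q)) := by
            gcongr
        _ = 625 / 768 * (δ * n1 / W) := by rw [hn1]; field_simp; norm_num
        _ ≤ 1 * (δ * n1 / W) := by
            have : 0 < δ * n1 / W := by positivity
            gcongr
            norm_num
        _ = δ * n1 / W := one_mul _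
    · -- own
      intro x hx
      obtain ⟨a, ha, rfl⟩ := mem_image.1 hx
      show δ * F.nu ≤ (ownc F.m F.top (A.image ψ) (ψ a) : ℝ)
      have hA3' : δ * F.nu ≤ ((A.filter fun a' => a'.1 = a.1).card : ℝ) := by convert hA3 a ha
      refine hA3'.trans (Nat.cast_le.2 ?_)
      unfold ownc
      refine card_le_card_of_injOn (fun b => (rep b.1, b.2)) (fun b hb => ?_)
        (fun b hb c hc hbc => ?_)
      · rw [Finset.mem_coe, mem_filter] at hb
        rw [Finset.mem_coe]
        show (rep b.1, b.2) ∈ _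
        rw [← hobψ b hb.1]
        refine mem_image_of_mem _ (mem_filter.2 ⟨mem_image_of_mem _ hb.1, ?_⟩)
        rw [hobm b hb.1, hobm a ha, hb.2]
      · rw [Finset.mem_coe, mem_filter] at hb hc
        exact hinj b hb.1 c hc.1 hbc
    · -- up
      intro P hP
      show ((objs F.m (A.image ψ) P).card : ℝ) ≤ 625 * F.D0 / (δ * W) * cap q F.m P
      set S : Finset (Fin 4 → ℤ) := (A.image Prod.fst).filter fun t => InK F.m P (rep t, j0) with hS
      have hw1 : 0 < P.w1 := hr.trans_le hP.r1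
      have hw2 : 0 < P.w2 := hw1.trans_le hP.w12
      have h1 : ((objs F.m (A.image ψ) P).card : ℝ) ≤ S.card := by
        refine Nat.cast_le.2 ((card_le_card (t := S.image fun t => (rep t, j0)) ?_).trans
          card_image_le)
        intro o ho
        unfold objs at ho
        rw [mem_filter, mem_image] at ho
        obtain ⟨⟨x, hx, rfl⟩, hoK⟩ := ho
        obtain ⟨a, ha, rfl⟩ := mem_image.1 hx
        rw [hobm a ha] at hoK ⊢
        exact mem_image_of_mem _ (mem_filter.2 ⟨mem_image_of_mem _ ha, hoK⟩)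
      have hSA : S ⊆ A.image Prod.fst := filter_subset _ _
      set Y : Finset Ln := (O.image Prod.fst).filter fun l => T l ∈ S with hY
      have h2 : (S.card : ℝ) * (δ * W) ≤ Y.card := by
        rw [hY]
        convert hA4 S (by convert hSA)
      have hj : ∀ t ∈ S, P.j = j0 := fun t ht => (mem_filter.1 ht).2.1.symm
      have h3 : (Y.card : ℝ) ≤ 625 * (F.D0 * cap q F.m P) := by
        rcases S.eq_empty_or_nonempty with hSe | ⟨t1, ht1⟩
        · have : Y = ∅ := by
            rw [hY, hSe]; simp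
          rw [this, card_empty, Nat.cast_zero]
          unfold cap; positivity
        have hjP := hj t1 ht1
        have hcov := cover Y id (e := P.e) (w1 := P.w1) (w2 := P.w2) (z0 := z0) (ρ := ρ) hw1 hw2 hρp
          (n := 2) (l := P.l) (fun l hl => by
            obtain ⟨hl1, hl2⟩ := mem_filter.1 hl
            have h4 := (mem_filter.1 hl2).2.2
            obtain ⟨a, ha, hat⟩ := mem_image.1 (mem_filter.1 hl2).1
            have h5 := hTrep a ha
            rw [hat] at h5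
            have h6 := inPlank_symm (hclose (T l) l rfl h5 _ hP.unit)
            rw [hjP] at h4
            have h7 := inPlank_trans h6 h4
            have hr1 := hP.r1
            have hr2 := hP.w12
            exact inPlank_mono h7 (by push_cast; linarith) (by push_cast; linarith)
              (fun z hz => hz)) (A := F.D0 * cap q F.m P) (by unfold cap; positivity)
          (fun l0 hl0 => by
            have hu := h.up ⟨j0, l0, P.e, P.w1, P.w2⟩ ⟨hP.unit, hP.r1, hP.w12, hP.w2⟩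
            refine le_trans (Nat.cast_le.2 ?_) hu
            refine card_le_card_of_injOn (fun l => (l, j0)) (fun l hl => ?_)
              (fun a _ b _ hab => (Prod.ext_iff.1 hab).1)
            rw [Finset.mem_coe, mem_filter] at hl
            obtain ⟨hl1, hl2⟩ := hl
            obtain ⟨o, ho, rfl⟩ := mem_image.1 (mem_filter.1 hl1).1
            obtain ⟨x, hx, rfl⟩ := mem_image.1 ho
            rw [Finset.mem_coe]
            unfold objs
            rw [mem_filter, mem_image]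
            refine ⟨⟨x, hx, ?_⟩, rfl, hl2⟩
            show (x.1, zc F.m x.2) = (x.1, j0)
            rw [hj0 x hx])
        have e1 : (2 * ((2:ℕ):ℝ) + 1) ^ 4 = 625 := by norm_num
        rw [e1] at hcov
        exact hcov
      refine h1.trans ?_
      have h4 := h2.trans h3
      rw [div_mul_eq_mul_div, le_div_iff₀ (by positivity)]
      linarith
  · -- cardinality
    show ((A.image ψ).card : ℝ) ≤ _
    have hX1 : 1 ≤ 1 / (2 ^ F.m * F.r) := by
      rw [le_div_iff₀ (by positivity), one_mul]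
      have h1 := h.rle
      have h2 : (1:ℝ) / 2 ^ F.top ≤ 1 / 2 ^ F.m := one_div_le_one_div_of_le (by positivity)
        (pow_le_pow_right₀ one_le_two (Nat.le_add_right _ _))
      have h3 := h1.trans h2
      rw [le_div_iff₀ (by positivity)] at h3
      linarith
    set X : ℝ := 1 / (2 ^ F.m * F.r) with hX
    set N : ℕ := ⌈24 * X⌉₊ with hN
    have hN1 : 24 * X ≤ N := Nat.le_ceil _
    have hN2 : 2 * (N:ℝ) + 1 ≤ 51 * X := by
      have := (Nat.ceil_lt_add_one (show 0 ≤ 24 * X by linarith)).le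
      rw [← hN] at this
      linarith
    have hsub : A ⊆ (Fintype.piFinset fun _ : Fin 4 => Icc (-(N:ℤ)) N) ×ˢ
        (Ico (2 ^ F.M * j0) (2 ^ F.M * (j0 + 1))) := by
      intro a ha
      obtain ⟨x, hx, h1, h2, h3⟩ := hAx a ha
      rw [mem_product]
      constructor
      · rw [Fintype.mem_piFinset]
        intro i
        rw [← h1]
        -- the ends
        have hzl : zc F.m (z0 - ρ) = j0 := by
          unfold zc
          rw [hz0, hρ]
          unfold zm zr
          have : (2:ℝ) ^ F.m * (((j0:ℝ) + 1 / 2) / 2 ^ F.m - 1 / 2 ^ (F.m + 1)) = j0 := by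
            rw [pow_succ]; field_simp; ring
          rw [this, Int.floor_intCast]
        have hzc : zc F.m z0 = j0 := by
          unfold zc
          rw [hz0]
          unfold zm
          have : (2:ℝ) ^ F.m * (((j0:ℝ) + 1 / 2) / 2 ^ F.m) = j0 + 1 / 2 := by field_simp
          rw [this]
          rw [Int.floor_eq_iff]
          constructor <;> linarith
        obtain ⟨a1, a2⟩ := hbox x hx (z0 - ρ) (by rw [hzl, hj0 x hx])
        obtain ⟨b1, b2⟩ := hbox x hx z0 (by rw [hzc, hj0 x hx])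
        have hpos : ∀ i : Fin 2, pos x.1 (z0 + ρ) i = 2 * pos x.1 z0 i - pos x.1 (z0 - ρ) i := by
          intro i
          simp only [pos, PiLp.add_apply, PiLp.smul_apply, smul_eq_mul]; ring
        have c1 : |pos x.1 (z0 + ρ) 0| ≤ 3 * (1 / 2 ^ F.m) := by
          rw [hpos]
          calc |2 * pos x.1 z0 0 - pos x.1 (z0 - ρ) 0| ≤ |2 * pos x.1 z0 0| + |pos x.1 (z0 - ρ) 0| :=
                abs_sub _ _
            _ = 2 * |pos x.1 z0 0| + |pos x.1 (z0 - ρ) 0| := by
                rw [abs_mul, abs_two]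
            _ ≤ _ := by linarith
        have c2 : |pos x.1 (z0 + ρ) 1| ≤ 3 * (1 / 2 ^ F.m) := by
          rw [hpos]
          calc |2 * pos x.1 z0 1 - pos x.1 (z0 - ρ) 1| ≤ |2 * pos x.1 z0 1| + |pos x.1 (z0 - ρ) 1| :=
                abs_sub _ _
            _ = 2 * |pos x.1 z0 1| + |pos x.1 (z0 - ρ) 1| := by
                rw [abs_mul, abs_two]
            _ ≤ _ := by linarith
        have h1m : (0:ℝ) < 1 / 2 ^ F.m := by positivity
        have a1' : |pos x.1 (z0 - ρ) 0| ≤ 3 * (1 / 2 ^ F.m) := by linarith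
        have a2' : |pos x.1 (z0 - ρ) 1| ≤ 3 * (1 / 2 ^ F.m) := by linarith
        have hfl : ∀ y : ℝ, |y| ≤ 3 * (1 / 2 ^ F.m) → ⌊y / (F.r / 8)⌋ ∈ Icc (-(N:ℤ)) N := by
          intro y hy
          have h5 := floor_mem_Icc (x := y) (y := 0) (w := F.r / 8) (n := N) hr8 (by
            rw [sub_zero]
            refine hy.trans ?_
            have : 3 * (1 / (2:ℝ) ^ F.m) = (24 * X) * (F.r / 8) := by rw [hX]; field_simp; norm_num
            rw [this]
            exact mul_le_mul_of_nonneg_right hN1 hr8.le)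
          simpa using h5
        show gcell e0 (F.r / 8) (F.r / 8) z0 ρ x.1 i ∈ _
        unfold gcell ends
        fin_cases i
        · show ⌊dt (pos x.1 (z0 - ρ)) e0 / (F.r / 8)⌋ ∈ _
          rw [dt_e0]; exact hfl _ a1'
        · show ⌊dt (pos x.1 (z0 + ρ)) e0 / (F.r / 8)⌋ ∈ _
          rw [dt_e0]; exact hfl _ c1
        · show ⌊cr e0 (pos x.1 (z0 - ρ)) / (F.r / 8)⌋ ∈ _
          rw [cr_e0]; exact hfl _ a2'
        · show ⌊cr e0 (pos x.1 (z0 + ρ)) / (F.r / 8)⌋ ∈ _
          rw [cr_e0]; exact hfl _ c2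
      · rw [← h2]
        exact deep_mem (hj0 x hx)
    have h1 : ((A.image ψ).card : ℝ) ≤ A.card := by exact_mod_cast card_image_le
    have h2 := card_le_card hsub
    rw [card_product, Fintype.card_piFinset] at h2
    have h5 : (Icc (-(N:ℤ)) N).card = 2 * N + 1 := by rw [Int.card_Icc]; omega
    simp only [h5, prod_const, card_univ, Fintype.card_fin] at h2
    have h3 : (A.card : ℝ) ≤ (2 * (N:ℝ) + 1) ^ 4 * 2 ^ F.M := by
      rw [← card_deep F.M j0]
      exact_mod_cast h2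
    refine h1.trans (h3.trans ?_)
    have h6 : (2 * (N:ℝ) + 1) ^ 4 ≤ (51 * X) ^ 4 := by gcongr
    have h7 : (51 * X) ^ 4 ≤ 2 ^ 23 * X ^ 4 := by
      rw [mul_pow]
      have : (0:ℝ) ≤ X ^ 4 := by positivity
      gcongr
      norm_num
    exact mul_le_mul_of_nonneg_right (h6.trans h7) (by positivity)
  · -- value
    show los F ^ 4 / 1875 * (F.D1 * F.nu ^ 2 / (4 ^ F.M * F.D0)) ≤
      δ * F.D1 / (3 * W) * (δ * F.nu) ^ 2 / (4 ^ F.M * (625 * F.D0 / (δ * W)))
    have e1 : δ * F.D1 / (3 * W) * (δ * F.nu) ^ 2 / (4 ^ F.M * (625 * F.D0 / (δ * W))) =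
        δ ^ 4 / 1875 * (F.D1 * F.nu ^ 2 / (4 ^ F.M * F.D0)) := by
      field_simp
      ring
    rw [e1]
    have := los_pos F
    gcongr

end

end Crest.Agent.R138.Bun294
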