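import Crest.Agent.R138.XDef_248

/-!
# R138, TEXT I, L6 first half (helper615): `X248.ExtX`

Representatives (one incidence per line and top cell) of a near-extremal sequence of configurations
form a family; for every dense part `J` the value `β` is reached between the levels `0` and `1`.
-/

set_option autoImplicit false
set_option linter.unusedVariables false

open Filter Topology Finset

namespace Crest.Agent.R138.Ext615

open Crest.Agent.R138.Ex926 Crest.Agent.R138.Dp76 Crest.Agent.R138.Flag51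
open Crest.Agent.R138.K294 Crest.Agent.R138.Ps926 Crest.Agent.R138.X248

/-! ### finite part -/

/-- representatives of the fibres of `f` -/
theorem exists_rep {α β : Type*} (S : Finset α) (f : α → β) :
    ∃ R : Finset α, R ⊆ S ∧ (∀ y ∈ S, ∃ z ∈ R, f z = f y) ∧
      ∀ x ∈ R, ∀ y ∈ R, f x = f y → x = y := by
  classical
  rcases S.eq_empty_or_nonempty with rfl | ⟨x0, hx0⟩
  · exact ⟨∅, by simp, by simp, by simp⟩
  have : Nonempty α := ⟨x0⟩
  have h : ∀ b ∈ S.image f, ∃ a ∈ S, f a = b := fun b hb => by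
    obtain ⟨a, ha, rfl⟩ := mem_image.1 hb
    exact ⟨a, ha, rfl⟩
  choose! g hg1 hg2 using h
  refine ⟨(S.image f).image g, ?_, ?_, ?_⟩
  · intro x hx
    obtain ⟨b, hb, rfl⟩ := mem_image.1 hx
    exact hg1 b hb
  · intro y hy
    have hb : f y ∈ S.image f := mem_image_of_mem f hy
    exact ⟨g (f y), mem_image_of_mem g hb, hg2 _ hb⟩
  · intro x hx y hy h
    obtain ⟨b, hb, rfl⟩ := mem_image.1 hx
    obtain ⟨c, hc, rfl⟩ := mem_image.1 hy
    rw [hg2 b hb, hg2 c hc] at h
    rw [h]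

/-- pigeonhole: some class of `J` has at least the same proportion -/
theorem exists_class {α κ : Type*} [DecidableEq κ] (g : α → κ) {J R : Finset α} (hJR : J ⊆ R) (hne : J.Nonempty)
    {δ : ℝ} (hδ : 0 ≤ δ) (hd : δ * (R.card : ℝ) ≤ (J.card : ℝ)) :
    ∃ x ∈ J, δ * ((R.filter fun y => g y = g x).card : ℝ) ≤
      ((J.filter fun y => g y = g x).card : ℝ) := by
  by_contra hcon
  push Not at hcon
  have h1 : J.card = ∑ k ∈ J.image g, (J.filter fun y => g y = k).card :=
    card_eq_sum_card_image g J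
  have h2 : ∑ k ∈ J.image g, (R.filter fun y => g y = k).card ≤ R.card := by
    rw [card_eq_sum_card_image g R]
    exact sum_le_sum_of_subset (image_subset_image hJR)
  have h3 : (J.card : ℝ) < δ * ∑ k ∈ J.image g, ((R.filter fun y => g y = k).card : ℝ) := by
    rw [h1, mul_sum]
    push_cast
    refine sum_lt_sum_of_nonempty (hne.image g) fun k hk => ?_
    obtain ⟨x, hx, rfl⟩ := mem_image.1 hk
    exact hcon x hx
  have h4 : δ * ∑ k ∈ J.image g, ((R.filter fun y => g y = k).card : ℝ) ≤ δ * R.card := by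
    refine mul_le_mul_of_nonneg_left ?_ hδ
    exact_mod_cast h2
  linarith

theorem ob_mem_objs {m : ℕ} {I : Finset (Ln × ℝ)} {K : Plk} {y : Ln × ℝ} (hy : y ∈ I)
    (h : InK m K (K294.ob m y)) : K294.ob m y ∈ K294.objs m I K := by
  classical
  unfold K294.objs
  rw [mem_filter, mem_image]
  exact ⟨⟨y, hy, rfl⟩, h⟩

section

variable {F : Cf} {q : ℝ} {R J : Finset (Ln × ℝ)}

theorem D0_pos (hF : F.Ok q) : 0 < F.D0 := by
  classical
  obtain ⟨x, hx⟩ := hF.ne
  have hle : F.r ≤ 1 / 2 ^ F.m := hF.rle.trans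
    (one_div_le_one_div_of_le (by positivity)
      (pow_le_pow_right₀ one_le_two (Nat.le_add_right _ _)))
  have hleg := baseK_legal hle x
  have h1 := hF.up _ hleg
  have h2 : (1 : ℝ) ≤ (objs F.m F.I (baseK F.m F.r x)).card := by
    have : 0 < (objs F.m F.I (baseK F.m F.r x)).card := by
      refine card_pos.2 ⟨K294.ob F.m x, ?_⟩
      unfold K294.objs
      exact mem_filter.2 ⟨mem_image_of_mem _ hx, baseK_mem hF.r0.le x⟩
    exact_mod_cast this
  have h3 := cap_pos (q := q) hF.r0 hleg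
  by_contra hcon
  push Not at hcon
  nlinarith

/-- top level: density of the classes -/
theorem top_ge (hF : F.Ok q) (hq : 0 ≤ q) (hr : 0 < F.r)
    (hRI : R ⊆ F.I) (hR : ∀ y ∈ F.I, ∃ z ∈ R, K294.ob F.top z = K294.ob F.top y)
    (hinj : ∀ x ∈ R, ∀ y ∈ R, K294.ob F.top x = K294.ob F.top y → x = y)
    (hJ : J ⊆ R) (hne : J.Nonempty) {δ : ℝ} (hδ : 0 ≤ δ) (hd : δ * (R.card : ℝ) ≤ (J.card : ℝ))
    {m' : ℕ} (hm' : m' = F.top) {W : ℝ} (hW : 1 / 2 ^ m' ≤ W) (m0 : ℕ) :
    δ * F.D1 / 4 ^ m0 ≤ (kP q m0 m' F.r W hq hr).Dmax J := by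
  classical
  subst hm'
  obtain ⟨x, hx, h1⟩ := exists_class (fun y => F.cl (K294.ob F.top y)) hJ hne hδ hd
  have hxI := hRI (hJ hx)
  have hleg := hF.legal x hxI
  have hlow := hF.low x hxI
  have hcap := cap_pos (q := q) hF.r0 hleg
  set K := F.K (F.cl (K294.ob F.top x)) with hK
  -- the class in terms of representatives
  have h2 : (F.cls x).card ≤ (R.filter fun y => F.cl (K294.ob F.top y) =
      F.cl (K294.ob F.top x)).card := by
    have h3 : F.cls x ⊆ (R.filter fun y => F.cl (K294.ob F.top y) =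
        F.cl (K294.ob F.top x)).image (K294.ob F.top) := by
      intro o ho
      unfold Cf.cls at ho
      rw [mem_filter, mem_image] at ho
      obtain ⟨⟨y, hy, rfl⟩, hc⟩ := ho
      obtain ⟨z, hz, hzy⟩ := hR y hy
      refine mem_image.2 ⟨z, mem_filter.2 ⟨hz, ?_⟩, hzy⟩
      rw [hzy]; exact hc
    exact (card_le_card h3).trans card_image_le
  have h4 : (J.filter fun y => F.cl (K294.ob F.top y) = F.cl (K294.ob F.top x)).card ≤
      ((kP q m0 F.top F.r W hq hr).objs J ⟨K, hleg, (hleg.w2.trans hW).trans (le_max_left _ _)⟩).card := by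
    have h5 : (J.filter fun y => F.cl (K294.ob F.top y) = F.cl (K294.ob F.top x)).card =
        ((J.filter fun y => F.cl (K294.ob F.top y) = F.cl (K294.ob F.top x)).image
          (K294.ob F.top)).card := by
      rw [card_image_of_injOn]
      intro a ha b hb hab
      exact hinj a (hJ (mem_filter.1 ha).1) b (hJ (mem_filter.1 hb).1) hab
    rw [h5]
    refine card_le_card fun o ho => ?_
    obtain ⟨y, hy, rfl⟩ := mem_image.1 ho
    rw [mem_filter] at hy
    refine (PSys.mem_objs _).2 ⟨⟨y, hy.1, rfl⟩, ?_⟩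
    have h6 := hF.mem y (hRI (hJ hy.1))
    rw [hy.2] at h6
    exact h6
  refine le_trans ?_ ((kP q m0 F.top F.r W hq hr).dens_le_Dmax J
    ⟨K, hleg, (hleg.w2.trans hW).trans (le_max_left _ _)⟩)
  unfold PSys.dens
  have hvol : (kP q m0 F.top F.r W hq hr).vol ⟨K, hleg, (hleg.w2.trans hW).trans (le_max_left _ _)⟩ =
      cap q F.top K * 4 ^ m0 := rfl
  rw [hvol, div_le_div_iff₀ (by positivity) (by positivity)]
  have h7 : ((F.cls x).card : ℝ) ≤ ((R.filter fun y => F.cl (K294.ob F.top y) =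
      F.cl (K294.ob F.top x)).card : ℝ) := by exact_mod_cast h2
  have h8 : ((J.filter fun y => F.cl (K294.ob F.top y) = F.cl (K294.ob F.top x)).card : ℝ) ≤
      (((kP q m0 F.top F.r W hq hr).objs J
        ⟨K, hleg, (hleg.w2.trans hW).trans (le_max_left _ _)⟩).card : ℝ) := by exact_mod_cast h4
  have h9 : δ * (F.D1 * cap q F.top K) ≤ (((kP q m0 F.top F.r W hq hr).objs J
        ⟨K, hleg, (hleg.w2.trans hW).trans (le_max_left _ _)⟩).card : ℝ) :=
    ((mul_le_mul_of_nonneg_left (hlow.trans h7) hδ).trans h1).trans h8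
  have h10 : (0 : ℝ) ≤ 4 ^ m0 := by positivity
  calc δ * F.D1 * (cap q F.top K * 4 ^ m0) = δ * (F.D1 * cap q F.top K) * 4 ^ m0 := by ring
    _ ≤ _ := mul_le_mul_of_nonneg_right h9 h10

/-- bottom level -/
theorem bot_le (hF : F.Ok q) (hq : 0 ≤ q) (hr : 0 < F.r) (hJ : J ⊆ F.I) {m' : ℕ}
    (hm' : m' = F.m) (W : ℝ) (m0 : ℕ) : (kP q m0 m' F.r W hq hr).Dmax J ≤ F.D0 / 4 ^ m0 := by
  classical
  subst hm'
  have hD0 := D0_pos hF
  refine PSys.Dmax_le _ (by positivity) fun K => ?_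
  have h1 := hF.up K.1 K.2.1
  have hcap := cap_pos (q := q) hF.r0 K.2.1
  have h2 : ((kP q m0 F.m F.r W hq hr).objs J K).card ≤ (K294.objs F.m F.I K.1).card := by
    refine card_le_card fun o ho => ?_
    obtain ⟨⟨y, hy, rfl⟩, h3⟩ := (PSys.mem_objs _).1 ho
    exact ob_mem_objs (hJ hy) h3
  unfold PSys.dens
  have hvol : (kP q m0 F.m F.r W hq hr).vol K = cap q F.m K.1 * 4 ^ m0 := rfl
  rw [hvol, div_le_div_iff₀ (by positivity) (by positivity)]
  have h4 : (((kP q m0 F.m F.r W hq hr).objs J K).card : ℝ) ≤ F.D0 * cap q F.m K.1 :=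
    le_trans (by exact_mod_cast h2) h1
  calc _ ≤ F.D0 * cap q F.m K.1 * 4 ^ m0 := mul_le_mul_of_nonneg_right h4 (by positivity)
    _ = _ := by ring

/-- own count of a dense part -/
theorem own_ge (hF : F.Ok q) (hRI : R ⊆ F.I)
    (hR : ∀ y ∈ F.I, ∃ z ∈ R, K294.ob F.top z = K294.ob F.top y)
    (hJ : J ⊆ R) (hne : J.Nonempty) {δ : ℝ} (hδ : 0 ≤ δ) (hd : δ * (R.card : ℝ) ≤ (J.card : ℝ))
    {m' : ℕ} (hm' : m' = F.m) : δ * F.nu ≤ (cmax (K294.ob m') J : ℝ) := by
  classical
  subst hm'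
  obtain ⟨x, hx, h1⟩ := exists_class (K294.ob F.m) hJ hne hδ hd
  have h2 := hF.own x (hRI (hJ hx))
  have h3 : ownc F.m F.top F.I x ≤ (R.filter fun y => K294.ob F.m y = K294.ob F.m x).card := by
    unfold ownc
    have h4 : ((F.I.filter fun y => K294.ob F.m y = K294.ob F.m x).image (K294.ob F.top)) ⊆
        (R.filter fun y => K294.ob F.m y = K294.ob F.m x).image (K294.ob F.top) := by
      intro o ho
      obtain ⟨y, hy, rfl⟩ := mem_image.1 ho
      rw [mem_filter] at hy
      obtain ⟨z, hz, hzy⟩ := hR y hy.1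
      refine mem_image.2 ⟨z, mem_filter.2 ⟨hz, ?_⟩, hzy⟩
      rw [← hy.2]
      have e1 : z.1 = y.1 := (Prod.ext_iff.1 hzy).1
      have e2 : zc F.top z.2 = zc F.top y.2 := (Prod.ext_iff.1 hzy).2
      exact Prod.ext e1 (zc_nested (Nat.le_add_right _ _) e2)
    refine le_trans (le_of_eq ?_) ((card_le_card h4).trans card_image_le)
    congr!
  have h5 : (F.nu : ℝ) ≤ ((R.filter fun y => K294.ob F.m y = K294.ob F.m x).card : ℝ) :=
    h2.trans (by exact_mod_cast h3)
  have h6 : ((J.filter fun y => K294.ob F.m y = K294.ob F.m x).card : ℝ) ≤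
      (cmax (K294.ob F.m) J : ℝ) := by exact_mod_cast le_cmax _ hx
  exact ((mul_le_mul_of_nonneg_left h5 hδ).trans h1).trans h6

theorem cmax_one (hinj : ∀ x ∈ R, ∀ y ∈ R, K294.ob F.top x = K294.ob F.top y → x = y)
    (hJ : J ⊆ R) (hne : J.Nonempty) {m' : ℕ} (hm' : m' = F.top) :
    cmax (K294.ob m') J = 1 := by
  classical
  subst hm'
  refine le_antisymm (cmax_le _ fun x hx => ?_) (one_le_cmax _ hne)
  rw [card_le_one]
  intro a ha b hb
  rw [mem_filter] at ha hb
  exact hinj a (hJ ha.1) b (hJ hb.1) (ha.2.trans hb.2.symm)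

end

/-! ### the sequence -/

theorem extX : X248.ExtX := by
  classical
  intro F q β hq h
  -- representatives
  choose R hR1 hR2 hR3 using fun n => exists_rep (F n).I (K294.ob (F n).top)
  have hR2' := hR2
  have hRne : ∀ n, (R n).Nonempty := by
    intro n
    obtain ⟨x, hx⟩ := (h.ok n).ne
    obtain ⟨z, hz, -⟩ := hR2' n x hx
    exact ⟨z, hz⟩
  -- the base
  have hM1 : ∀ n, 1 ≤ (F n).M := fun n => (h.ok n).M1
  have hMt : Tendsto (fun n => ((F n).M : ℝ)) U atTop := by
    have h1 : Tendsto (fun n : ℕ => (n : ℝ)) U atTop :=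
      tendsto_natCast_atTop_atTop.mono_left U_le_atTop
    exact tendsto_atTop_mono (fun n => by exact_mod_cast h.M n) h1
  have hlim : Tendsto (fun n => (1 / 2 : ℝ) ^ (F n).M) U (𝓝 0) := by
    have h1 : Tendsto (fun n => (F n).M) U atTop := tendsto_natCast_atTop_iff.1 hMt
    exact (tendsto_pow_atTop_nhds_zero_of_lt_one (by norm_num) (by norm_num)).comp h1
  let B : Base := ⟨fun n => (1 / 2 : ℝ) ^ (F n).M, fun n => by positivity,
    fun n => pow_lt_one₀ (by norm_num) (by norm_num) (by have := hM1 n; omega), hlim⟩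
  have hBd : ∀ n, B.d n = (1 / 2 : ℝ) ^ (F n).M := fun n => rfl
  have hdn : ∀ n, B.d n = (2 : ℝ) ^ (-((F n).M : ℝ)) := fun n => by
    rw [hBd n, Real.rpow_neg (by norm_num), Real.rpow_natCast, one_div, inv_pow]
  have hdC : ∀ n (C : ℝ), B.d n ^ (-C) = (2 : ℝ) ^ (C * (F n).M) := fun n C => by
    rw [hdn, ← Real.rpow_mul (by norm_num)]; congr 1; ring
  have hr : ∀ n, 0 < (F n).r := fun n => (h.ok n).r0
  have hfam : Fam B (fun n => (F n).m) (fun n => (F n).M) (fun n => (F n).r) R := by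
    obtain ⟨C, hC⟩ := h.poly
    refine ⟨hBd, hr, fun n => (h.ok n).rle, ⟨C, Eventually.of_forall fun n => ⟨?_, ?_⟩⟩,
      Eventually.of_forall hRne, Eventually.of_forall fun n x hx y hy => ?_⟩
    · rw [hdC]
      exact le_trans (by exact_mod_cast card_le_card (hR1 n)) (hC n).1
    · have e : B.d n ^ C = (2 : ℝ) ^ (-(C * (F n).M)) := by
        have := hdC n (-C)
        rw [neg_neg] at this
        rw [this]; congr 1; ring
      rw [e]
      exact (hC n).2
    · exact (h.ok n).cell x (hR1 n hx) y (hR1 n hy)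
  refine ⟨B, fun n => (F n).m, fun n => (F n).M, fun n => (F n).r, hr, R, hfam, hR3, ?_⟩
  intro J hJ
  set m : ℕ → ℕ := fun n => (F n).m with hm
  set M : ℕ → ℕ := fun n => (F n).M with hM
  set r : ℕ → ℝ := fun n => (F n).r with hrr
  have hfJ := hfam.dense hJ
  have hIc := hfJ.card_pb
  have hrefl : ∀ᶠ n in (U : Filter ℕ), J n ⊆ J n := Eventually.of_forall fun n => Subset.refl _
  set P1 : ∀ n : ℕ, PSys (Ln × ℝ) := fun n => kP q (m n) (lv m M n 1) (r n)
    (B.d n ^ (0 : ℝ) / 2 ^ (lv m M n 1)) hq (hr n) with hP1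
  set P0 : ∀ n : ℕ, PSys (Ln × ℝ) := fun n => kP q (m n) (lv m M n 0) (r n)
    (B.d n ^ (0 : ℝ) / 2 ^ (lv m M n 0)) hq (hr n) with hP0
  have hA1 : PAdm B P1 J := hfJ.padm hq _ le_rfl
  have hA0 : PAdm B P0 J := hfJ.padm hq _ zero_le_one
  have pb1 := (monoF_Dmax hA1).pb hrefl hfJ.ne
  have pb0 := (monoF_Dmax hA0).pb hrefl hfJ.ne
  have pbc := (monoF_cmax hIc (fun n => K294.ob (lv m M n 0))).pb hrefl hfJ.ne
  have how1 : ow B m M J 1 = 0 := by
    unfold ow
    have e : ∀ᶠ n in (U : Filter ℕ), (1 : ℝ) = (cmax (K294.ob (lv m M n 1)) (J n) : ℝ) := by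
      filter_upwards [hJ.1, hfJ.ne] with n a b
      rw [cmax_one (F := F n) (hR3 n) a b (by rw [lv_one]; rfl)]
      simp
    rw [← Base.ex_congr (Base.PB.const one_pos) e, Base.ex_const]
  set Y : ℕ → ℝ := fun n => (P1 n).Dmax (J n) * (cmax (K294.ob (lv m M n 0)) (J n) : ℝ) ^ 2 /
    (P0 n).Dmax (J n) with hY
  have pbY : B.PB Y := (pb1.mul (pbc.pow 2)).div pb0
  have hexY : B.ex Y = DD B q hq m M r hr J 0 1 - DD B q hq m M r hr J 0 0 +
      2 * ow B m M J 0 := by
    simp only [hY]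
    rw [Base.ex_div (pb1.mul (pbc.pow 2)) pb0, Base.ex_mul pb1 (pbc.pow 2), Base.ex_pow pbc]
    unfold DD ow
    push_cast
    ring
  rw [how1]
  have goal' : β + 2 ≤ B.ex Y := by
    refine le_of_forall_pos_le_add fun ε₀ hε₀ => ?_
    set ε : ℝ := ε₀ / 4 with hε
    have hεp : 0 < ε := by rw [hε]; linarith
    have key : ∀ᶠ n in (U : Filter ℕ), B.d n ^ (-(2 + β - 4 * ε)) ≤ Y n := by
      filter_upwards [hJ.1, hfJ.ne, hJ.2 ε hεp, h.val ε hεp, pb0.pos, pb1.pos, pbc.pos] with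
        n a1 a2 a3 a4 a5 a6 a7
      have hOk := h.ok n
      have hd := dpow_pos B n ε
      have hD0 := D0_pos hOk
      have hD1 := hOk.D1p
      have hnu := hOk.nup
      have b1 := top_ge hOk hq (hr n) (hR1 n) (hR2' n) (hR3 n) a1 a2 hd.le a3
        (m' := lv m M n 1) (by rw [lv_one]; rfl) (W := B.d n ^ (0 : ℝ) / 2 ^ (lv m M n 1))
        (by rw [Real.rpow_zero]) (m n)
      have b2 := bot_le hOk hq (hr n) (a1.trans (hR1 n)) (m' := lv m M n 0)
        (by rw [lv_zero]) (B.d n ^ (0 : ℝ) / 2 ^ (lv m M n 0)) (m n)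
      have b3 := own_ge hOk (hR1 n) (hR2' n) a1 a2 hd.le a3 (m' := lv m M n 0)
        (by rw [lv_zero])
      have hMp : (0 : ℝ) < (F n).M := by exact_mod_cast hM1 n
      have hl2 := Real.log_pos one_lt_two
      -- lower bound of X
      set X : ℝ := (F n).D1 * (F n).nu ^ 2 / (4 ^ (F n).M * (F n).D0) with hX
      have hX0 : 0 < X := by rw [hX]; positivity
      have c1 : B.d n ^ (-(β - ε)) ≤ X := by
        unfold Cf.val at a4
        rw [le_div_iff₀ hMp] at a4
        rw [hdC]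
        rw [Real.le_logb_iff_rpow_le one_lt_two hX0] at a4
        exact a4
      have c2 : B.d n ^ (-(2 : ℝ)) = 4 ^ (F n).M := by
        rw [hdC, Real.rpow_mul (by norm_num), Real.rpow_natCast]
        norm_num
      have c3 : B.d n ^ (3 * ε) * (4 ^ (F n).M * X) ≤ Y n := by
        have e1 : B.d n ^ (3 * ε) = B.d n ^ ε * (B.d n ^ ε) ^ 2 := by
          rw [← Real.rpow_natCast (B.d n ^ ε) 2, ← Real.rpow_mul (B.pos n).le, ← dpow_add]
          congr 1; push_cast; ring
        have e2 : B.d n ^ (3 * ε) * (4 ^ (F n).M * X) =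
            (B.d n ^ ε * (F n).D1 / 4 ^ (m n)) * (B.d n ^ ε * (F n).nu) ^ 2 /
              ((F n).D0 / 4 ^ (m n)) := by
          rw [e1, hX]
          field_simp
        rw [e2]
        simp only [hY]
        have f1 : 0 < (B.d n ^ ε * (F n).D1 / 4 ^ (m n)) := by positivity
        have f2 : 0 < B.d n ^ ε * (F n).nu := by positivity
        refine div_le_div₀ (by positivity) (mul_le_mul b1 (pow_le_pow_left₀ f2.le b3 2)
          (by positivity) (f1.le.trans b1)) a5 b2
      refine le_trans ?_ c3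
      have c4 : B.d n ^ (-(2 + β - 4 * ε)) =
          B.d n ^ (3 * ε) * (B.d n ^ (-(2 : ℝ)) * B.d n ^ (-(β - ε))) := by
        rw [← dpow_add, ← dpow_add]; congr 1; ring
      rw [c4, c2]
      exact mul_le_mul_of_nonneg_left (mul_le_mul_of_nonneg_left c1 (by positivity))
        (dpow_pos B n _).le
    have h1 := Base.ex_le (B := B) (Base.PB.dpow _) pbY key
    rw [Base.ex_dpow] at h1
    have : 4 * ε = ε₀ := by rw [hε]; ring
    linarith
  rw [hexY] at goal'
  linarith

end Crest.Agent.R138.Ext615
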