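import Crest.Agent.R138.MkOfA_501

/-!
# R138, L7 of TEXT I: the marked extremal sequence (helper501)

`mkOfXs : MkOfXs`.
-/

set_option autoImplicit false
set_option linter.unusedVariables false

open Filter Topology Finset

namespace Crest.Agent.R138.X248

open Crest.Agent.R138.Ex926 Crest.Agent.R138.Dp76 Crest.Agent.R138.Flag51
open Crest.Agent.R138.K294 Crest.Agent.R138.Ps926

/-- planks over long cells, without widths -/
abbrev KK : Type := {K : ℤ × Ln × E2 // dt K.2.2 K.2.2 = 1}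

instance : Nonempty KK := ⟨⟨(0, 0, Ps926.e0), Ps926.dt_e0⟩⟩

theorem exists_enum : ∃ (V : ℕ → ℚ) (idx : ℚ → ℕ), (∀ j, 0 ≤ V j ∧ V j ≤ 1) ∧
    ∀ v : ℚ, 0 ≤ v → v ≤ 1 → V (idx v) = v := by
  classical
  have : Nonempty {v : ℚ // 0 ≤ v ∧ v ≤ 1} := ⟨⟨0, le_rfl, zero_le_one⟩⟩
  obtain ⟨F, hF⟩ := exists_surjective_nat {v : ℚ // 0 ≤ v ∧ v ≤ 1}
  refine ⟨fun j => (F j).1, fun v => if h : 0 ≤ v ∧ v ≤ 1 then (hF ⟨v, h⟩).choose else 0,
    fun j => (F j).2, fun v h0 h1 => ?_⟩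
  simp only [dif_pos (show 0 ≤ v ∧ v ≤ 1 from ⟨h0, h1⟩)]
  exact congrArg Subtype.val (hF ⟨v, h0, h1⟩).choose_spec

section

variable {B : Base} {m M : ℕ → ℕ} {r : ℕ → ℝ} {I : ℕ → Finset (Ln × ℝ)} {A : ℕ → ℝ}
    {q g : ℝ} {Λ l : ℝ → ℝ} {w1 w2 : ℕ → ℚ → ℝ} {h1 : ∀ n v, 0 < w1 n v}
    {h2 : ∀ n v, 0 < w2 n v}

open Classical in
/-- honest classes for all rational levels -/
theorem XS.exists_hon (hX : XS B m M r I A q g Λ l w1 w2 h1 h2) {V : ℕ → ℚ}
    (hV : ∀ j, 0 ≤ V j ∧ V j ≤ 1) :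
    ∃ I1 : ℕ → Finset (Ln × ℝ), (∀ᶠ n in (U : Filter ℕ), I1 n ⊆ I n ∧ (I1 n).Nonempty) ∧
      ∃ cl : ℕ → ℕ → Ln × ℤ → KK, ∀ j,
        (∀ᶠ n in (U : Filter ℕ), ∀ x ∈ I1 n, (K294.ob (lv m M n (V j)) x).2 =
            (cl j n (K294.ob (lv m M n (V j)) x)).1.1 ∧
          InPlank (K294.ob (lv m M n (V j)) x).1 (cl j n (K294.ob (lv m M n (V j)) x)).1.2.1
            (cl j n (K294.ob (lv m M n (V j)) x)).1.2.2 (w1 n (V j)) (w2 n (V j))
            (Mk163.zl (lv m M n (V j)) (cl j n (K294.ob (lv m M n (V j)) x)).1.1)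
            (Mk163.rho (lv m M n (V j)))) ∧
        ∀ ε : ℝ, 0 < ε → ∀ᶠ n in (U : Filter ℕ), ∀ x ∈ I1 n,
          Mk163.amp B (fun n v => lv m M n v) A q g Λ n (V j) *
              (w1 n (V j) * w2 n (V j) ^ (1 + q)) ≤
            B.d n ^ (-ε) * (ccard (I1 n) (K294.ob (lv m M n (V j))) (cl j n)
              (cl j n (K294.ob (lv m M n (V j)) x)) : ℝ) ∧
          B.d n ^ ε * (cmax (K294.ob (lv m M n (V j))) (I n) : ℝ) ≤
            (((I1 n).filter fun y => K294.ob (lv m M n (V j)) y =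
              K294.ob (lv m M n (V j)) x).card : ℝ) := by
  have hIc := hX.fam.card_pb
  obtain ⟨I1, hI1, cl, hcl⟩ := Ps627.exists_honest hIc
    (fun j n => shP (m n) (lv m M n (V j)) (w1 n (V j)) (w2 n (V j)) (h1 n (V j)) (h2 n (V j)))
    (fun j n => (inferInstance : Nonempty KK)) (fun j => hX.adm (V j) (hV j).1 (hV j).2)
    (fun j => hX.st (V j) (hV j).1 (hV j).2) (fun j => hX.unif (V j) (hV j).1 (hV j).2)
    (fun j n => K294.ob (lv m M n (V j))) (fun j => hX.unif (V j) (hV j).1 (hV j).2)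
  refine ⟨I1, ?_, fun j n o => cl j n o, fun j => ⟨(hcl j).1, fun ε hε => ?_⟩⟩
  · filter_upwards [hI1, hX.fam.ne] with n a b
    refine ⟨a.1, ?_⟩
    have h3 : (0 : ℝ) < (I n).card := by exact_mod_cast card_pos.2 b
    have h4 : (0 : ℝ) < (I1 n).card := by linarith [a.2]
    exact card_pos.1 (by exact_mod_cast h4)
  · filter_upwards [(hcl j).2 (ε / 2) (by positivity), (hcl j).2 ε hε,
      hX.near (V j) (hV j).1 (hV j).2 (ε / 2) (by positivity)] with n a a' b x hx
    obtain ⟨c1, c2, c3⟩ := a x hx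
    obtain ⟨c1', c2', c3'⟩ := a' x hx
    have hd := dpow_pos B n (ε / 2)
    refine ⟨?_, ?_⟩
    · have e0 : B.d n ^ (-ε) * (B.d n ^ (ε / 2) * B.d n ^ (ε / 2)) = 1 := by
        rw [← dpow_add, ← dpow_add]
        have : -ε + (ε / 2 + ε / 2) = 0 := by ring
        rw [this, Real.rpow_zero]
      have e1 : B.d n ^ (ε / 2) * (B.d n ^ (ε / 2) *
          (Mk163.amp B (fun n v => lv m M n v) A q g Λ n (V j) *
            (w1 n (V j) * w2 n (V j) ^ (1 + q)))) ≤
          (ccard (I1 n) (K294.ob (lv m M n (V j))) (fun o : Ln × ℤ => (cl j n o : KK))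
              (cl j n (K294.ob (lv m M n (V j)) x)) : ℝ) := by
        refine (mul_le_mul_of_nonneg_left b hd.le).trans ?_
        refine le_trans (le_of_eq ?_) (c1.trans (le_of_eq (congrArg Nat.cast
          (ccard_eq _ (I1 n) (K294.ob (lv m M n (V j))) (fun o => cl j n o) _ _))))
        exact (mul_assoc _ _ _).symm
      calc Mk163.amp B (fun n v => lv m M n v) A q g Λ n (V j) *
              (w1 n (V j) * w2 n (V j) ^ (1 + q))
          = B.d n ^ (-ε) * (B.d n ^ (ε / 2) * (B.d n ^ (ε / 2) *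
          (Mk163.amp B (fun n v => lv m M n v) A q g Λ n (V j) *
            (w1 n (V j) * w2 n (V j) ^ (1 + q))))) := by
            rw [← mul_assoc (B.d n ^ (ε / 2)), ← mul_assoc (B.d n ^ (-ε)), e0, one_mul]
        _ ≤ _ := mul_le_mul_of_nonneg_left e1 (dpow_pos B n _).le
    · refine c2'.trans (le_of_eq ?_)
      congr!

/-- exponent of the own counts, in powers of `d` -/
theorem XS.cmax_bounds (hX : XS B m M r I A q g Λ l w1 w2 h1 h2) {v : ℚ} (hv0 : 0 ≤ v)
    (hv1 : v ≤ 1) {ε : ℝ} (hε : 0 < ε) : ∀ᶠ n in (U : Filter ℕ),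
      B.d n ^ (-((1 - (v : ℝ)) - (Λ 1 - Λ v)) + ε) ≤ (cmax (K294.ob (lv m M n v)) (I n) : ℝ) ∧
      (cmax (K294.ob (lv m M n v)) (I n) : ℝ) ≤ B.d n ^ (-((1 - (v : ℝ)) - (Λ 1 - Λ v)) - ε) := by
  have hrefl : ∀ᶠ n in (U : Filter ℕ), I n ⊆ I n := Eventually.of_forall fun n => Subset.refl _
  have pb := (monoF_cmax hX.fam.card_pb (fun n => K294.ob (lv m M n v))).pb hrefl hX.fam.ne
  have hex : B.ex (fun n => (cmax (K294.ob (lv m M n v)) (I n) : ℝ)) =
      (1 - (v : ℝ)) - (Λ 1 - Λ v) := hX.own v hv0 hv1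
  have k1 := Base.lt_ex_dpow pb (a := (1 - (v : ℝ)) - (Λ 1 - Λ v) - ε) (by rw [hex]; linarith)
  have k2 := Base.ex_lt_iff_dpow pb (a := (1 - (v : ℝ)) - (Λ 1 - Λ v) + ε)
    (by rw [hex]; linarith)
  filter_upwards [k1, k2] with n a b
  constructor
  · refine le_trans (le_of_eq ?_) a.le
    congr 1; ring
  · refine b.le.trans (le_of_eq ?_)
    congr 1; ring

end

/-- **L7 of TEXT I.** -/
theorem mkOfXs : MkOfXs := by
  classical
  intro B m M r I A q g Λ l w1 w2 h1 h2 hX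
  obtain ⟨V, idx, hV, hidx⟩ := exists_enum
  obtain ⟨I1, hI1, cl, hcl⟩ := hX.exists_hon hV
  have hcode : ∀ n, ∃ (code : Ln → ℕ) (L : ℕ → Ln), ∀ x ∈ I1 n, L (code x.1) = x.1 :=
    fun n => exists_code ⟨0⟩ (I1 n) Prod.fst
  choose code L hL using hcode
  have hK : ∀ (n : ℕ) (v : ℚ), ∃ (ck : KK → ℕ) (dk : ℕ → KK),
      ∀ x ∈ I1 n, dk (ck (cl (idx v) n (K294.ob (lv m M n v) x))) =
        cl (idx v) n (K294.ob (lv m M n v) x) :=
    fun n v => exists_code inferInstance (I1 n) (fun x => cl (idx v) n (K294.ob (lv m M n v) x))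
  choose ck dk hck using hK
  -- the facts for rational levels
  have hmem : ∀ v : ℚ, 0 ≤ v → v ≤ 1 → ∀ᶠ n in (U : Filter ℕ), ∀ x ∈ I1 n,
      (K294.ob (lv m M n v) x).2 = (cl (idx v) n (K294.ob (lv m M n v) x)).1.1 ∧
      InPlank (K294.ob (lv m M n v) x).1 (cl (idx v) n (K294.ob (lv m M n v) x)).1.2.1
        (cl (idx v) n (K294.ob (lv m M n v) x)).1.2.2 (w1 n v) (w2 n v)
        (Mk163.zl (lv m M n v) (cl (idx v) n (K294.ob (lv m M n v) x)).1.1)
        (Mk163.rho (lv m M n v)) := by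
    intro v hv0 hv1
    have := (hcl (idx v)).1
    rwa [hidx v hv0 hv1] at this
  have hlow : ∀ v : ℚ, 0 ≤ v → v ≤ 1 → ∀ ε : ℝ, 0 < ε → ∀ᶠ n in (U : Filter ℕ), ∀ x ∈ I1 n,
      Mk163.amp B (fun n v => lv m M n v) A q g Λ n v * (w1 n v * w2 n v ^ (1 + q)) ≤
        B.d n ^ (-ε) * (ccard (I1 n) (K294.ob (lv m M n v)) (cl (idx v) n)
          (cl (idx v) n (K294.ob (lv m M n v) x)) : ℝ) ∧
      B.d n ^ ε * (cmax (K294.ob (lv m M n v)) (I n) : ℝ) ≤
        (((I1 n).filter fun y => K294.ob (lv m M n v) y = K294.ob (lv m M n v) x).card : ℝ) := by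
    intro v hv0 hv1 ε hε
    have := (hcl (idx v)).2 ε hε
    rwa [hidx v hv0 hv1] at this
  have hsub : ∀ᶠ n in (U : Filter ℕ), I1 n ⊆ I n := hI1.mono fun n h => h.1
  have hne1 : ∀ᶠ n in (U : Filter ℕ), (I1 n).Nonempty := hI1.mono fun n h => h.2
  refine ⟨fun n => cdI (I1 n) (code n), L, fun n v t J => ck n v (cl (idx v) n (L n t, J)),
    fun n v c => (dk n v c).1.2.1, fun n v c => (dk n v c).1.2.2, ?_⟩
  refine
    { ne := ?_
      card := ?_
      q0 := hX.q0
      q2 := hX.q2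
      g0 := hX.g0
      Apos := hX.Apos
      rpos := hX.fam.rpos
      lam0 := hX.lam0
      lam := hX.lam
      tau1 := sub_self _
      lev_mono := ?_
      lev_lim := ?_
      cell0 := ?_
      one := ?_
      own := ?_
      dmax := ?_
      near := ?_
      dims := ?_
      tau := ?_ }
  · -- nonempty
    filter_upwards [hne1] with n hn
    obtain ⟨x, hx⟩ := hn
    exact ⟨_, mem_cdI.2 ⟨x, hx, rfl⟩⟩
  · -- card
    intro ε hε
    obtain ⟨C, hC⟩ := hX.fam.poly
    have hsubp : B.Sub (fun n => (|C| + 1) * (1 + B.L n)) :=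
      (Base.Sub.const (by positivity)).mul Base.Sub.one_add_L
    have h3 := Base.ex_lt_iff_dpow hsubp.1 (a := ε) (by rw [hsubp.2]; exact hε)
    filter_upwards [hC, h3, hsub, hne1] with n a b c d
    refine le_trans ?_ b.le
    have hpos : 0 < (cdI (I1 n) (code n)).card := by
      obtain ⟨x, hx⟩ := d
      exact card_pos.2 ⟨_, mem_cdI.2 ⟨x, hx, rfl⟩⟩
    have hle : ((cdI (I1 n) (code n)).card : ℝ) ≤ B.d n ^ (-C) := by
      refine le_trans ?_ a.1
      have : (cdI (I1 n) (code n)).card ≤ (I n).card := by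
        unfold cdI
        exact card_image_le.trans (card_le_card c)
      exact_mod_cast this
    have h4 := Real.log_le_log (by exact_mod_cast hpos) hle
    rw [Real.log_rpow (B.pos n)] at h4
    have h5 : B.L n = - Real.log (B.d n) := rfl
    have h6 := B.L_pos n
    have h7 : -C * Real.log (B.d n) = C * B.L n := by rw [h5]; ring
    rw [h7] at h4
    have h8 := le_abs_self C
    have h9 := abs_nonneg C
    nlinarith
  · -- lev_mono
    intro u v _ huv _
    exact Eventually.of_forall fun n => lv_mono (by exact_mod_cast huv)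
  · -- lev_lim
    intro u v hu huv _
    have h3 := hX.fam.lv_lim (u := u) (v := v) (by exact_mod_cast hu) (by exact_mod_cast huv)
    refine h3.congr fun n => ?_
    have hM := hX.fam.M_pos n
    have hl2 := Real.log_pos one_lt_two
    rw [hX.fam.L_eq n, Nat.cast_sub (lv_mono (by exact_mod_cast huv))]
    field_simp
  · -- cell0
    filter_upwards [hX.fam.cell, hsub] with n a b x hx y hy
    obtain ⟨x', hx', rfl⟩ := mem_cdI.1 hx
    obtain ⟨y', hy', rfl⟩ := mem_cdI.1 hy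
    have h3 := a x' (b hx') y' (b hy')
    have h4 : lv m M n ((0 : ℚ) : ℝ) = m n := by rw [Rat.cast_zero]; exact lv_zero
    rw [h4]
    exact h3
  · -- one
    filter_upwards [hX.one, hsub] with n a b x hx y hy h3 h4
    obtain ⟨x', hx', rfl⟩ := mem_cdI.1 hx
    obtain ⟨y', hy', rfl⟩ := mem_cdI.1 hy
    have h5 : lv m M n ((1 : ℚ) : ℝ) = m n + M n := by rw [Rat.cast_one]; exact lv_one
    rw [h5] at h4
    have h3 : code n x'.1 = code n y'.1 := h3
    have h6 : x'.1 = y'.1 := by rw [← hL n x' hx', ← hL n y' hy', h3]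
    have h7 : x' = y' := a x' (b hx') y' (b hy') (Prod.ext h6 h4)
    rw [h7]
  · -- own
    intro u v hu huv hv ε hε
    have hu1 : u ≤ 1 := huv.trans hv
    have hv0 : 0 ≤ v := hu.trans huv
    filter_upwards [hlow u hu hu1 (ε / 4) (by positivity), hlow v hv0 hv (ε / 4) (by positivity),
      hX.cmax_bounds hu hu1 (ε := ε / 4) (by positivity),
      hX.cmax_bounds hv0 hv (ε := ε / 4) (by positivity), hsub] with n a1 a2 b1 b2 hs x hx
    obtain ⟨x', hx', rfl⟩ := mem_cdI.1 hx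
    rw [own_cd (hL n) hx']
    have hlev : lv m M n (u : ℝ) ≤ lv m M n (v : ℝ) := lv_mono (by exact_mod_cast huv)
    obtain ⟨c1, c2⟩ := own_bounds (a := B.d n ^ (ε / 4)) hlev hs hx' (fun y hy => (a2 y hy).2)
      (fun y hy => (a1 y hy).2)
    have hd := dpow_pos B n (ε / 4)
    have hcv : (0 : ℝ) < (cmax (K294.ob (lv m M n v)) (I n) : ℝ) :=
      (dpow_pos B n _).trans_le b2.1
    set N : ℝ := (ownc (lv m M n u) (lv m M n v) (I1 n) x' : ℝ) with hN
    have hN0 : 0 ≤ N := Nat.cast_nonneg _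
    constructor
    · -- lower bound
      have e1 : B.d n ^ (-((v : ℝ) - u) + (Λ v - Λ u) + ε) *
          B.d n ^ (-((1 - (v : ℝ)) - (Λ 1 - Λ v)) - ε / 4) ≤ N *
          B.d n ^ (-((1 - (v : ℝ)) - (Λ 1 - Λ v)) - ε / 4) := by
        have e2 : N * (cmax (K294.ob (lv m M n v)) (I n) : ℝ) ≤ N *
            B.d n ^ (-((1 - (v : ℝ)) - (Λ 1 - Λ v)) - ε / 4) :=
          mul_le_mul_of_nonneg_left b2.2 hN0
        refine le_trans ?_ (c2.trans e2)
        refine le_trans ?_ (mul_le_mul_of_nonneg_left b1.1 hd.le)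
        rw [← dpow_add, ← dpow_add]
        refine dpow_le B n ?_
        linarith
      exact le_of_mul_le_mul_right e1 (dpow_pos B n _)
    · have e1 : N * (B.d n ^ (ε / 4) * B.d n ^ (-((1 - (v : ℝ)) - (Λ 1 - Λ v)) + ε / 4)) ≤
          B.d n ^ (-((v : ℝ) - u) + (Λ v - Λ u) - ε) *
            (B.d n ^ (ε / 4) * B.d n ^ (-((1 - (v : ℝ)) - (Λ 1 - Λ v)) + ε / 4)) := by
        have e2 : N * (B.d n ^ (ε / 4) * B.d n ^ (-((1 - (v : ℝ)) - (Λ 1 - Λ v)) + ε / 4)) ≤
            N * (B.d n ^ (ε / 4) * (cmax (K294.ob (lv m M n v)) (I n) : ℝ)) :=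
          mul_le_mul_of_nonneg_left (mul_le_mul_of_nonneg_left b2.1 hd.le) hN0
        refine e2.trans (c1.trans (b1.2.trans ?_))
        rw [← dpow_add, ← dpow_add]
        refine dpow_le B n ?_
        linarith
      exact le_of_mul_le_mul_right e1 (mul_pos hd (dpow_pos B n _))
  · -- dmax
    intro v hv0 hv1 ε hε
    filter_upwards [hX.up v hv0 hv1 (ε / 2) (by positivity), hsub,
      dpow_small B (c := ε / 2) (by positivity) (ε := 1 / 201 ^ 4) (by positivity)] with n a hs c J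
    have hamp : 0 < Mk163.amp B (fun n v => lv m M n v) A q g Λ n v := by
      unfold Mk163.amp
      have h3 := hX.Apos n
      have h4 := dpow_pos B n (-(2 * Λ v + g * v))
      have h5 : 0 < Mk163.rho (lv m M n v) := by unfold Mk163.rho; positivity
      have h6 := Real.rpow_pos_of_pos h5 (-q)
      positivity
    have hrle : r n ≤ 1 / 2 ^ (lv m M n v) := (hX.fam.rle n).trans
      (one_div_le_one_div_of_le (by positivity) (pow_le_pow_right₀ one_le_two
        (lv_le (by exact_mod_cast hv1))))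
    have h3 := dmax_cd (L := L n) (code := code n) (A := B.d n ^ (-(ε / 2)) *
      Mk163.amp B (fun n v => lv m M n v) A q g Λ n v) hs (hL n) (hX.fam.rpos n) hrle hX.q0.le
      (mul_nonneg (dpow_pos B n _).le hamp.le) (fun K hK => by
        rw [mul_assoc]; exact a K hK) J
    intro l' e' a1 a2 k1 k2 k3 k4
    refine (h3 l' e' a1 a2 k1 k2 k3 k4).trans ?_
    have ha1 : 0 < a1 := (hX.fam.rpos n).trans_le k2
    have ha2 : 0 < a2 := ha1.trans_le k3
    have h4 : (201 : ℝ) ^ 4 * (B.d n ^ (-(ε / 2)) *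
        Mk163.amp B (fun n v => lv m M n v) A q g Λ n v) ≤
        B.d n ^ (-ε) * Mk163.amp B (fun n v => lv m M n v) A q g Λ n v := by
      rw [← mul_assoc]
      refine mul_le_mul_of_nonneg_right ?_ hamp.le
      have e1 : B.d n ^ (-(ε / 2)) = B.d n ^ (-ε) * B.d n ^ (ε / 2) := by
        rw [← dpow_add]; congr 1; ring
      rw [e1]
      have e2 : (201 : ℝ) ^ 4 * B.d n ^ (ε / 2) ≤ 1 := by
        rw [lt_div_iff₀ (by positivity)] at c
        linarith
      have e3 := dpow_pos B n (-ε)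
      nlinarith
    exact mul_le_mul_of_nonneg_right (mul_le_mul_of_nonneg_right h4
      (Real.rpow_pos_of_pos ha1 _).le) (Real.rpow_pos_of_pos ha2 _).le
  · -- near
    intro v hv0 hv1 ε hε
    filter_upwards [hmem v hv0 hv1, hlow v hv0 hv1 ε hε] with n a b J
    exact near_cd (hL n) (fun k : KK => k.1) (cl (idx v) n) (ck n v) (dk n v) (hck n v)
      (fun k => k.2) a (fun x hx => (b x hx).1) (dpow_pos B n _).le J
  · -- dims
    intro v hv0 hv1
    exact Eventually.of_forall fun n => hX.dims v hv0 hv1 n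
  · -- tau
    intro v hv0 hv1
    have h3 := (hX.wide v hv0 hv1).sub (hX.wide 1 zero_le_one le_rfl)
    rw [Rat.cast_one] at h3
    refine h3.congr fun n => ?_
    have p1 : 0 < Mk163.rho (lv m M n v) / w2 n v :=
      div_pos (by unfold Mk163.rho; positivity) (h2 n v)
    have p2 : 0 < Mk163.rho (lv m M n ((1 : ℚ) : ℝ)) / w2 n 1 :=
      div_pos (by unfold Mk163.rho; positivity) (h2 n 1)
    rw [Real.log_div p1.ne' p2.ne', sub_div, Rat.cast_one]

end Crest.Agent.R138.X248
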