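import Mathlib
import Crest.Agent.R138.Defs_665

/-!
# Shell between the geometric theorem and the weighted integral form of Kakeya (R138)

`KM32` = helper70's integral form; `GridW` = weighted inequality for grid lines.
-/

set_option autoImplicit false

open MeasureTheory

namespace Crest.Agent.R138.Gr63

open Crest.Agent.R138.Defs (E2)

/-- grid lines: `((a,b),(c,d))`, the line `x(z) = ((a,b) + z (c,d)) / N`. -/
abbrev GLine := (ℤ × ℤ) × (ℤ × ℤ)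

/-- position at height `0`. -/
noncomputable def gp (N : ℕ) (l : GLine) : E2 :=
  WithLp.toLp 2 ![(l.1.1 : ℝ) / N, (l.1.2 : ℝ) / N]

/-- velocity. -/
noncomputable def gv (N : ℕ) (l : GLine) : E2 :=
  WithLp.toLp 2 ![(l.2.1 : ℝ) / N, (l.2.2 : ℝ) / N]

/-- the cell (square of side `1/N`) containing the point of `l` at height `j/N`. -/
noncomputable def cell (N : ℕ) (l : GLine) (j : ℤ) : ℤ × ℤ :=
  (⌊(l.1.1 : ℝ) + l.2.1 * (j : ℝ) / N⌋, ⌊(l.1.2 : ℝ) + l.2.2 * (j : ℝ) / N⌋)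

/-- the line `(p, v)` lies in the plank of half-widths `w` around the line `(p0, v0)`. -/
def InPl (b : OrthonormalBasis (Fin 2) ℝ E2) (p0 v0 : E2) (w : Fin 2 → ℝ) (p v : E2) : Prop :=
  ∀ z : ℝ, |z| ≤ 1 → ∀ i, |inner ℝ (p - p0 + z • (v - v0)) (b i)| ≤ w i

/-- all coordinates of the grid line are at most `N` in absolute value. -/
def Bd (N : ℕ) (l : GLine) : Prop :=
  |l.1.1| ≤ (N : ℤ) ∧ |l.1.2| ≤ (N : ℤ) ∧ |l.2.1| ≤ (N : ℤ) ∧ |l.2.2| ≤ (N : ℤ)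

open Classical in
/-- the total weight of the lines of `s` whose cell at height `q.2` is `q.1`. -/
noncomputable def cw (N : ℕ) (s : Finset GLine) (A : GLine → ℝ) (q : (ℤ × ℤ) × ℤ) : ℝ :=
  ∑ l ∈ s.filter (fun l => cell N l q.2 = q.1), A l

open Classical in
/-- all cells met by the lines of `s`. -/
noncomputable def cells (N : ℕ) (s : Finset GLine) : Finset ((ℤ × ℤ) × ℤ) :=
  (s ×ˢ Finset.Icc (-(N : ℤ)) N).image fun x => (cell N x.1 x.2, x.2)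

open Classical in
/-- **GridW**: the weighted grid inequality. -/
def GridW : Prop :=
  ∀ ε : ℝ, 0 < ε → ∃ C : ℝ, 0 ≤ C ∧ ∀ N : ℕ, 1 ≤ N → ∀ (s : Finset GLine) (A : GLine → ℝ) (Δ : ℝ),
    0 ≤ Δ → (∀ l ∈ s, 0 ≤ A l) → (∀ l ∈ s, Bd N l) →
    (∀ (b : OrthonormalBasis (Fin 2) ℝ E2) (p0 v0 : E2) (w : Fin 2 → ℝ),
      (∀ i, 1 / (N : ℝ) ≤ w i ∧ w i ≤ 1) →
      ∑ l ∈ s.filter (fun l => InPl b p0 v0 w (gp N l) (gv N l)), A l ≤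
        Δ * (w 0 * w 1) * (N : ℝ) ^ 2) →
    ∑ q ∈ cells N s, cw N s A q ^ (3 / 2 : ℝ) ≤
      C * (N : ℝ) ^ ε * Real.sqrt Δ * N * ∑ l ∈ s, A l

open Classical in
/-- **KM32** (integral form of the Kakeya maximal estimate for weighted tubes). -/
def KM32 : Prop :=
  ∀ ε : ℝ, 0 < ε → ∃ C : ℝ, 0 ≤ C ∧ ∀ δ : ℝ, 0 < δ → δ ≤ 1 →
    ∀ (ι : Type) (s : Finset ι) (p v : ι → E2) (a : ι → ℝ) (Δ : ℝ), 0 ≤ Δ →
    (∀ i ∈ s, 0 ≤ a i) → (∀ i ∈ s, ‖p i‖ ≤ 1 ∧ ‖v i‖ ≤ 1) →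
    (∀ (b : OrthonormalBasis (Fin 2) ℝ E2) (p0 v0 : E2) (w : Fin 2 → ℝ),
      (∀ i, δ ≤ w i ∧ w i ≤ 1) →
      (∑ i ∈ s.filter (fun i => InPl b p0 v0 w (p i) (v i)), a i) * δ ^ 2 ≤
        Δ * (w 0 * w 1)) →
    ∫⁻ q in {q : E2 × ℝ | |q.2| ≤ 1},
        ENNReal.ofReal ((∑ i ∈ s, if ‖q.1 - p i - q.2 • v i‖ ≤ δ then a i else 0) ^ (3 / 2 : ℝ)) ≤
      ENNReal.ofReal (C * δ ^ (-ε) * Real.sqrt Δ * ((∑ i ∈ s, a i) * δ ^ 2))

end Crest.Agent.R138.Gr63
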