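import Mathlib
import Crest.Agent.R138.GrW1_294

/-!
# R138: discrete half of the shell, part 2 (helper294): `GridU → GridW` (weights)
-/

set_option autoImplicit false
set_option linter.unusedVariables false

open Finset

namespace Crest.Agent.R138.GrW294

open Crest.Agent.R138.Defs (E2)
open Crest.Agent.R138.Gr63

open Classical in
theorem cw_eq {N : ℕ} {s : Finset GLine} {A : GLine → ℝ} {q : (ℤ × ℤ) × ℤ}
    (hq : |q.2| ≤ (N : ℤ)) :
    cw N s A q = ∑ x ∈ (inc N s).filter (fun y => key N y = q), A x.1 := by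
  unfold cw
  symm
  refine sum_nbij' (fun x => x.1) (fun l => (l, q.2)) ?_ ?_ ?_ ?_ ?_
  · intro x hx
    rw [mem_filter] at hx
    obtain ⟨h1, h2⟩ := hx
    rw [inc, mem_product] at h1
    refine mem_filter.2 ⟨h1.1, ?_⟩
    rw [← h2]
    rfl
  · intro l hl
    rw [mem_filter] at hl
    refine mem_filter.2 ⟨?_, ?_⟩
    · rw [inc, mem_product, mem_Icc]; exact ⟨hl.1, abs_le.1 hq⟩
    · simp only [key, hl.2]
  · intro x hx
    rw [mem_filter] at hx
    have : x.2 = q.2 := by rw [← hx.2]; rfl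
    simp only [← this]
  · intro l _; rfl
  · intro x _; rfl

theorem abs_of_mem_cells {N : ℕ} {s : Finset GLine} {q : (ℤ × ℤ) × ℤ} (hq : q ∈ cells N s) :
    |q.2| ≤ (N : ℤ) := by
  classical
  unfold cells at hq
  obtain ⟨x, hx, rfl⟩ := mem_image.1 hq
  simp only [mem_product, mem_Icc] at hx
  exact abs_le.2 hx.2

open Classical in
theorem sum_cw {N : ℕ} {s : Finset GLine} {A : GLine → ℝ} :
    ∑ q ∈ cells N s, cw N s A q = ((Icc (-(N : ℤ)) N).card : ℝ) * ∑ l ∈ s, A l := by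
  have h1 : ∀ x ∈ inc N s, key N x ∈ cells N s := by
    intro x hx
    exact mem_image_of_mem (fun x : GLine × ℤ => (cell N x.1 x.2, x.2)) hx
  calc ∑ q ∈ cells N s, cw N s A q =
      ∑ q ∈ cells N s, ∑ x ∈ (inc N s).filter (fun y => key N y = q), A x.1 :=
        sum_congr rfl fun q hq => cw_eq (abs_of_mem_cells hq)
    _ = ∑ x ∈ inc N s, A x.1 := sum_fiberwise_of_maps_to h1 (fun x => A x.1)
    _ = _ := by
        unfold inc
        rw [sum_product]
        simp only [sum_const, nsmul_eq_mul]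
        rw [mul_sum]

theorem cw_nonneg {N : ℕ} {s : Finset GLine} {A : GLine → ℝ} (hA : ∀ l ∈ s, 0 ≤ A l)
    (q : (ℤ × ℤ) × ℤ) : 0 ≤ cw N s A q := by
  classical
  unfold cw
  exact sum_nonneg fun l hl => hA l (mem_filter.1 hl).1

open Classical in
/-- only the cells met by the lines count. -/
theorem sum_cells_sub {N : ℕ} {s t : Finset GLine} (ht : t ⊆ s) (A : GLine → ℝ) :
    ∑ q ∈ cells N s, cw N t A q ^ (3 / 2 : ℝ) = ∑ q ∈ cells N t, cw N t A q ^ (3 / 2 : ℝ) := by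
  symm
  refine sum_subset ?_ ?_
  · unfold cells
    exact image_subset_image (product_subset_product_left ht)
  · intro q hq hqt
    have hq2 := abs_of_mem_cells hq
    have : t.filter (fun l => cell N l q.2 = q.1) = ∅ := by
      rw [filter_eq_empty_iff]
      intro l hl hlq
      apply hqt
      unfold cells
      refine mem_image.2 ⟨(l, q.2), ?_, ?_⟩
      · rw [mem_product, mem_Icc]; exact ⟨hl, abs_le.1 hq2⟩
      · simp only [hlq]
    unfold cw
    rw [this, sum_empty, Real.zero_rpow (by norm_num)]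

open Classical in
/-- a class of comparable weights. -/
theorem class_bound {N : ℕ} {s : Finset GLine} {A : GLine → ℝ} {Δ C E : ℝ} (hΔ : 0 < Δ)
    (hpl : ∀ (b : OrthonormalBasis (Fin 2) ℝ E2) (p0 v0 : E2) (w : Fin 2 → ℝ),
      (∀ i, 1 / (N : ℝ) ≤ w i ∧ w i ≤ 1) →
      ∑ l ∈ s.filter (fun l => InPl b p0 v0 w (gp N l) (gv N l)), A l ≤
        Δ * (w 0 * w 1) * (N : ℝ) ^ 2)
    (hE : 0 ≤ E)
    (hU : ∀ Δ' : ℝ, Dens N s Δ' →
      ∑ q ∈ cells N s, cw N s (fun _ => 1) q ^ (3 / 2 : ℝ) ≤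
        E * Real.sqrt Δ' * N * s.card)
    (i : ℕ) (hA1 : ∀ l ∈ s, A l ≤ Δ / 2 ^ i) (hA2 : ∀ l ∈ s, Δ / 2 ^ (i + 1) ≤ A l) :
    ∑ q ∈ cells N s, cw N s A q ^ (3 / 2 : ℝ) ≤
      2 * Real.sqrt 2 * E * Real.sqrt Δ * N * ∑ l ∈ s, A l := by
  have hd : 0 < Δ / 2 ^ i := by positivity
  have hd' : 0 < Δ / 2 ^ (i + 1) := by positivity
  have hA0 : ∀ l ∈ s, 0 ≤ A l := fun l hl => hd'.le.trans (hA2 l hl)
  have hdens : Dens N s (2 ^ (i + 1)) := by
    intro b p0 v0 w hw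
    have h1 := hpl b p0 v0 w hw
    have h2 : ((s.filter (fun l => InPl b p0 v0 w (gp N l) (gv N l))).card : ℝ) *
        (Δ / 2 ^ (i + 1)) ≤ ∑ l ∈ s.filter (fun l => InPl b p0 v0 w (gp N l) (gv N l)), A l := by
      rw [← nsmul_eq_mul]
      exact card_nsmul_le_sum _ _ _ fun l hl => hA2 l (mem_filter.1 hl).1
    have h3 := h2.trans h1
    rw [mul_div_assoc', div_le_iff₀ (by positivity)] at h3
    have h4 : ((s.filter (fun l => InPl b p0 v0 w (gp N l) (gv N l))).card : ℝ) * Δ ≤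
        (2 ^ (i + 1) * (w 0 * w 1) * (N : ℝ) ^ 2) * Δ := by
      linarith [h3, show Δ * (w 0 * w 1) * (N : ℝ) ^ 2 * 2 ^ (i + 1) =
        (2 ^ (i + 1) * (w 0 * w 1) * (N : ℝ) ^ 2) * Δ by ring]
    exact le_of_mul_le_mul_right h4 hΔ
  have hcw : ∀ q ∈ cells N s, cw N s A q ^ (3 / 2 : ℝ) ≤
      (Δ / 2 ^ i * Real.sqrt (Δ / 2 ^ i)) * cw N s (fun _ => 1) q ^ (3 / 2 : ℝ) := by
    intro q _
    have h1 : cw N s A q ≤ (Δ / 2 ^ i) * cw N s (fun _ => 1) q := by
      unfold cw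
      rw [mul_sum]
      exact sum_le_sum fun l hl => by rw [mul_one]; exact hA1 l (mem_filter.1 hl).1
    have h2 : 0 ≤ cw N s (fun _ => 1) q := cw_nonneg (fun _ _ => zero_le_one) q
    calc cw N s A q ^ (3 / 2 : ℝ) ≤ ((Δ / 2 ^ i) * cw N s (fun _ => 1) q) ^ (3 / 2 : ℝ) :=
          Real.rpow_le_rpow (cw_nonneg hA0 q) h1 (by norm_num)
      _ = (Δ / 2 ^ i) ^ (3 / 2 : ℝ) * cw N s (fun _ => 1) q ^ (3 / 2 : ℝ) :=
          Real.mul_rpow hd.le h2
      _ = _ := by rw [rpow_three_half hd.le]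
  have hcard : Δ / 2 ^ i * s.card ≤ 2 * ∑ l ∈ s, A l := by
    have h1 : (s.card : ℝ) * (Δ / 2 ^ (i + 1)) ≤ ∑ l ∈ s, A l := by
      rw [← nsmul_eq_mul]
      exact card_nsmul_le_sum _ _ _ hA2
    have h2 : Δ / 2 ^ i * s.card = 2 * ((s.card : ℝ) * (Δ / 2 ^ (i + 1))) := by
      rw [pow_succ]; field_simp
    rw [h2]; linarith
  have hs0 : (0 : ℝ) ≤ s.card := Nat.cast_nonneg _
  calc ∑ q ∈ cells N s, cw N s A q ^ (3 / 2 : ℝ) ≤
        ∑ q ∈ cells N s, (Δ / 2 ^ i * Real.sqrt (Δ / 2 ^ i)) *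
          cw N s (fun _ => 1) q ^ (3 / 2 : ℝ) := sum_le_sum hcw
    _ = (Δ / 2 ^ i * Real.sqrt (Δ / 2 ^ i)) *
          ∑ q ∈ cells N s, cw N s (fun _ => 1) q ^ (3 / 2 : ℝ) := by rw [mul_sum]
    _ ≤ (Δ / 2 ^ i * Real.sqrt (Δ / 2 ^ i)) * (E * Real.sqrt (2 ^ (i + 1)) * N * s.card) := by
        have := hU _ hdens
        gcongr
    _ = E * (Real.sqrt (Δ / 2 ^ i) * Real.sqrt (2 ^ (i + 1))) * N * (Δ / 2 ^ i * s.card) := by
        ring
    _ = E * (Real.sqrt 2 * Real.sqrt Δ) * N * (Δ / 2 ^ i * s.card) := by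
        congr 3
        rw [← Real.sqrt_mul hd.le, ← Real.sqrt_mul (by norm_num : (0 : ℝ) ≤ 2)]
        congr 1
        rw [pow_succ]; field_simp
    _ ≤ E * (Real.sqrt 2 * Real.sqrt Δ) * N * (2 * ∑ l ∈ s, A l) := by gcongr
    _ = _ := by ring

open Classical in
/-- negligible weights. -/
theorem small_bound {N : ℕ} (hN : 1 ≤ N) {s : Finset GLine} {A : GLine → ℝ} {Δ : ℝ}
    (hΔ : 0 ≤ Δ) (hs : ∀ l ∈ s, Bd N l) (hA0 : ∀ l ∈ s, 0 ≤ A l)
    (hA : ∀ l ∈ s, A l * (N : ℝ) ^ 4 ≤ Δ) :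
    ∑ q ∈ cells N s, cw N s A q ^ (3 / 2 : ℝ) ≤ 27 * Real.sqrt Δ * N * ∑ l ∈ s, A l := by
  have hNp : (0 : ℝ) < N := by exact_mod_cast hN
  have hS : 0 ≤ ∑ l ∈ s, A l := sum_nonneg hA0
  have h1 : ∀ q ∈ cells N s, cw N s A q ^ (3 / 2 : ℝ) ≤ (9 * Real.sqrt Δ) * cw N s A q := by
    intro q _
    have h0 := cw_nonneg (N := N) hA0 q
    rw [rpow_three_half h0, mul_comm]
    refine mul_le_mul_of_nonneg_right ?_ h0
    have h2 : cw N s A q ≤ 81 * Δ := by
      have h3 : cw N s A q ≤ ∑ l ∈ s, A l := by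
        unfold cw
        exact sum_le_sum_of_subset_of_nonneg (filter_subset _ _) fun l hl _ => hA0 l hl
      have h4 : (∑ l ∈ s, A l) * (N : ℝ) ^ 4 ≤ s.card * Δ := by
        rw [sum_mul, ← nsmul_eq_mul]
        exact sum_le_card_nsmul _ _ _ hA
      have h5 : (∑ l ∈ s, A l) * (N : ℝ) ^ 4 ≤ (81 * Δ) * (N : ℝ) ^ 4 := by
        calc _ ≤ s.card * Δ := h4
          _ ≤ (81 * (N : ℝ) ^ 4) * Δ := by
              have := card_le_of_Bd hN hs
              gcongr
          _ = _ := by ring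
      exact h3.trans (le_of_mul_le_mul_right h5 (by positivity))
    calc Real.sqrt (cw N s A q) ≤ Real.sqrt (81 * Δ) := Real.sqrt_le_sqrt h2
      _ = 9 * Real.sqrt Δ := by
          rw [Real.sqrt_mul (by norm_num), show (81 : ℝ) = 9 ^ 2 by norm_num,
            Real.sqrt_sq (by norm_num)]
  have hic : ((Icc (-(N : ℤ)) N).card : ℝ) ≤ 3 * N := by exact_mod_cast card_Icc_le hN
  calc ∑ q ∈ cells N s, cw N s A q ^ (3 / 2 : ℝ) ≤
        ∑ q ∈ cells N s, (9 * Real.sqrt Δ) * cw N s A q := sum_le_sum h1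
    _ = (9 * Real.sqrt Δ) * (((Icc (-(N : ℤ)) N).card : ℝ) * ∑ l ∈ s, A l) := by
        rw [← mul_sum, sum_cw]
    _ ≤ (9 * Real.sqrt Δ) * ((3 * N) * ∑ l ∈ s, A l) := by gcongr
    _ = _ := by ring

open Classical in
/-- every weight is at most the plank density. -/
theorem weight_le {N : ℕ} (hN : 1 ≤ N) {s : Finset GLine} {A : GLine → ℝ} {Δ : ℝ}
    (hA0 : ∀ l ∈ s, 0 ≤ A l)
    (hpl : ∀ (b : OrthonormalBasis (Fin 2) ℝ E2) (p0 v0 : E2) (w : Fin 2 → ℝ),
      (∀ i, 1 / (N : ℝ) ≤ w i ∧ w i ≤ 1) →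
      ∑ l ∈ s.filter (fun l => InPl b p0 v0 w (gp N l) (gv N l)), A l ≤
        Δ * (w 0 * w 1) * (N : ℝ) ^ 2) :
    ∀ l ∈ s, A l ≤ Δ := by
  intro l hl
  have hN0 : (0 : ℝ) < N := by exact_mod_cast hN
  have hN1 : (1 : ℝ) ≤ N := by exact_mod_cast hN
  have b : OrthonormalBasis (Fin 2) ℝ E2 := EuclideanSpace.basisFun (Fin 2) ℝ
  have h1 := hpl b (gp N l) (gv N l) (fun _ => 1 / (N : ℝ)) (fun i => ⟨le_rfl, by
    rw [div_le_one hN0]; exact hN1⟩)
  have hmem : l ∈ s.filter (fun l' => InPl b (gp N l) (gv N l) (fun _ => 1 / (N : ℝ))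
      (gp N l') (gv N l')) := by
    refine mem_filter.2 ⟨hl, ?_⟩
    intro z _ i
    simp only [sub_self, smul_zero, add_zero, inner_zero_left, abs_zero]
    positivity
  have h2 := single_le_sum (f := A) (fun l' hl' => hA0 l' (mem_filter.1 hl').1) hmem
  have h3 := h2.trans h1
  have h4 : Δ * (1 / (N : ℝ) * (1 / (N : ℝ))) * (N : ℝ) ^ 2 = Δ := by
    field_simp
  rwa [h4] at h3

open Classical in
theorem gridW_of_gridU (h : GridU) : GridW := by
  intro ε hε
  obtain ⟨C, hC, hU⟩ := h (ε / 2) (by positivity)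
  set a : ℝ := ε / 2 with ha
  have ha0 : 0 < a := by positivity
  set D : ℝ := 2 * (17 + 10 / a) * (27 + 2 * Real.sqrt 2 * C) with hD
  refine ⟨D, by positivity, ?_⟩
  intro N hN s A Δ hΔ0 hA0 hs hpl
  have hN1 : (1 : ℝ) ≤ N := by exact_mod_cast hN
  have hNp : (0 : ℝ) < N := by linarith
  have hAΔ := weight_le hN hA0 hpl
  have hS : 0 ≤ ∑ l ∈ s, A l := sum_nonneg hA0
  rcases hΔ0.eq_or_lt with hΔz | hΔ
  · -- zero density
    have hz : ∀ l ∈ s, A l = 0 := fun l hl => le_antisymm (hΔz ▸ hAΔ l hl) (hA0 l hl)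
    have : ∀ q ∈ cells N s, cw N s A q ^ (3 / 2 : ℝ) = 0 := by
      intro q _
      have : cw N s A q = 0 := by
        unfold cw
        exact sum_eq_zero fun l hl => hz l (mem_filter.1 hl).1
      rw [this, Real.zero_rpow (by norm_num)]
    rw [sum_eq_zero this]
    positivity
  -- the class function
  set c : GLine → ℕ := fun l =>
    if A l * (N : ℝ) ^ 4 ≤ Δ then 0 else Nat.log 2 ⌊Δ / A l⌋₊ + 1 with hc
  set R := range (Lg N + 1) with hR
  have hcR : ∀ l ∈ s, c l ∈ R := by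
    intro l hl
    rw [hR, mem_range, hc]
    dsimp only
    split_ifs with h1
    · omega
    · push Not at h1
      have hAl : 0 < A l := by
        by_contra hcon
        have : A l = 0 := le_antisymm (not_lt.1 hcon) (hA0 l hl)
        rw [this, zero_mul] at h1
        linarith
      have h2 : ⌊Δ / A l⌋₊ ≤ N ^ 4 := by
        have h3 : Δ / A l ≤ ((N ^ 4 : ℕ) : ℝ) := by
          rw [div_le_iff₀ hAl]; push_cast; linarith [mul_comm (A l) ((N : ℝ) ^ 4)]
        have := Nat.floor_le_floor h3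
        rwa [Nat.floor_natCast] at this
      have h3 : N ^ 4 ≤ 243 * N ^ 5 := by
        calc N ^ 4 ≤ 243 * N ^ 4 := by omega
          _ ≤ 243 * N ^ 5 := by gcongr <;> omega
      have h4 : Nat.log 2 ⌊Δ / A l⌋₊ ≤ Nat.log 2 (243 * N ^ 5) := Nat.log_mono_right (h2.trans h3)
      unfold Lg
      omega
  set t : ℕ → Finset GLine := fun i => s.filter (fun l => c l = i) with ht
  have hts : ∀ i, t i ⊆ s := fun i => filter_subset _ _
  have hcwt : ∀ q, cw N s A q = ∑ i ∈ R, cw N (t i) A q := by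
    intro q
    unfold cw
    rw [← sum_fiberwise_of_maps_to (s := s.filter (fun l => cell N l q.2 = q.1)) (g := c)
      (t := R) (fun l hl => hcR l (mem_filter.1 hl).1) A]
    refine sum_congr rfl fun i _ => ?_
    refine sum_congr ?_ fun _ _ => rfl
    ext l
    simp only [ht, mem_filter]
    tauto
  have hRc : (R.card : ℝ) = Lg N + 1 := by rw [hR, card_range]; push_cast; ring
  have hL1 : (1 : ℝ) ≤ Lg N := by exact_mod_cast Lg_pos N
  have hpow : ∀ q, cw N s A q ^ (3 / 2 : ℝ) ≤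
      (Lg N + 1 : ℝ) * ∑ i ∈ R, cw N (t i) A q ^ (3 / 2 : ℝ) := by
    intro q
    have hn : ∀ i ∈ R, 0 ≤ cw N (t i) A q := fun i _ =>
      cw_nonneg (fun l hl => hA0 l (hts i hl)) q
    have h1 := Real.rpow_sum_le_const_mul_sum_rpow_of_nonneg R (f := fun i => cw N (t i) A q)
      (p := 3 / 2) (by norm_num) hn
    rw [← hcwt q, hRc] at h1
    refine h1.trans ?_
    refine mul_le_mul_of_nonneg_right ?_ (sum_nonneg fun i hi => Real.rpow_nonneg (hn i hi) _)
    calc (Lg N + 1 : ℝ) ^ (3 / 2 - 1 : ℝ) ≤ (Lg N + 1 : ℝ) ^ (1 : ℝ) :=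
          Real.rpow_le_rpow_of_exponent_le (by linarith) (by norm_num)
      _ = _ := Real.rpow_one _
  set E : ℝ := C * (N : ℝ) ^ (ε / 2) with hE
  have hE0 : 0 ≤ E := by positivity
  have hNε : 1 ≤ (N : ℝ) ^ (ε / 2) := Real.one_le_rpow hN1 (by positivity)
  have hclass : ∀ i ∈ R, ∑ q ∈ cells N s, cw N (t i) A q ^ (3 / 2 : ℝ) ≤
      (27 + 2 * Real.sqrt 2 * C) * (N : ℝ) ^ (ε / 2) * Real.sqrt Δ * N * ∑ l ∈ t i, A l := by
    intro i _
    rw [sum_cells_sub (hts i)]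
    have hSi : 0 ≤ ∑ l ∈ t i, A l := sum_nonneg fun l hl => hA0 l (hts i hl)
    rcases Nat.eq_zero_or_pos i with rfl | hi
    · have h1 := small_bound hN hΔ.le (s := t 0) (A := A) (fun l hl => hs l (hts 0 hl))
        (fun l hl => hA0 l (hts 0 hl)) (by
          intro l hl
          simp only [ht, hc, mem_filter] at hl
          by_contra hcon
          rw [if_neg hcon] at hl
          omega)
      refine h1.trans ?_
      have : 27 ≤ (27 + 2 * Real.sqrt 2 * C) * (N : ℝ) ^ (ε / 2) := by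
        calc (27 : ℝ) = 27 * 1 := by ring
          _ ≤ (27 + 2 * Real.sqrt 2 * C) * (N : ℝ) ^ (ε / 2) := by
              gcongr
              have : 0 ≤ 2 * Real.sqrt 2 * C := by positivity
              linarith
      gcongr
    · obtain ⟨k, rfl⟩ : ∃ k, i = k + 1 := ⟨i - 1, by omega⟩
      have hmem : ∀ l ∈ t (k + 1), 0 < A l ∧ Nat.log 2 ⌊Δ / A l⌋₊ = k := by
        intro l hl
        have hls := hts _ hl
        simp only [ht, hc, mem_filter] at hl
        obtain ⟨-, h2⟩ := hl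
        split_ifs at h2 with h3
        push Not at h3
        refine ⟨?_, by omega⟩
        by_contra hcon
        have : A l = 0 := le_antisymm (not_lt.1 hcon) (hA0 l hls)
        rw [this, zero_mul] at h3
        linarith
      have h1 := class_bound (N := N) (s := t (k + 1)) (A := A) (C := C) (E := E) hΔ (by
          intro b p0 v0 w hw
          refine le_trans ?_ (hpl b p0 v0 w hw)
          exact sum_le_sum_of_subset_of_nonneg (filter_subset_filter _ (hts _))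
            fun l hl _ => hA0 l (mem_filter.1 hl).1) hE0
        (fun Δ' hΔ' => hU N hN (t (k + 1)) Δ' (fun l hl => hs l (hts _ hl)) hΔ') k
        (by
          intro l hl
          obtain ⟨h2, h3⟩ := hmem l hl
          have h4 : 1 ≤ Δ / A l := by rw [one_le_div h2]; exact hAΔ l (hts _ hl)
          have h5 : ⌊Δ / A l⌋₊ ≠ 0 := by
            have : 1 ≤ ⌊Δ / A l⌋₊ := by rw [Nat.one_le_floor_iff]; exact h4
            omega
          have h6 := Nat.pow_log_le_self 2 h5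
          rw [h3] at h6
          have h7 : ((2 : ℝ) ^ k) ≤ Δ / A l := by
            refine le_trans ?_ (Nat.floor_le (by positivity))
            exact_mod_cast h6
          rw [le_div_iff₀ h2] at h7
          rw [le_div_iff₀ (by positivity)]
          linarith)
        (by
          intro l hl
          obtain ⟨h2, h3⟩ := hmem l hl
          have h6 := Nat.lt_pow_succ_log_self (b := 2) (by norm_num) ⌊Δ / A l⌋₊
          rw [h3] at h6
          have h7 : Δ / A l < (2 : ℝ) ^ (k + 1) := by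
            refine lt_of_lt_of_le (Nat.lt_floor_add_one _) ?_
            exact_mod_cast h6
          rw [div_lt_iff₀ h2] at h7
          rw [div_le_iff₀ (by positivity)]
          linarith)
      refine h1.trans ?_
      have : 2 * Real.sqrt 2 * E ≤ (27 + 2 * Real.sqrt 2 * C) * (N : ℝ) ^ (ε / 2) := by
        rw [hE]
        have : 0 ≤ 27 * (N : ℝ) ^ (ε / 2) := by positivity
        linarith
      gcongr
  have hsumt : ∑ i ∈ R, ∑ l ∈ t i, A l = ∑ l ∈ s, A l :=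
    sum_fiberwise_of_maps_to hcR A
  calc ∑ q ∈ cells N s, cw N s A q ^ (3 / 2 : ℝ) ≤
        ∑ q ∈ cells N s, (Lg N + 1 : ℝ) * ∑ i ∈ R, cw N (t i) A q ^ (3 / 2 : ℝ) :=
          sum_le_sum fun q _ => hpow q
    _ = (Lg N + 1 : ℝ) * ∑ i ∈ R, ∑ q ∈ cells N s, cw N (t i) A q ^ (3 / 2 : ℝ) := by
          rw [← mul_sum, sum_comm]
    _ ≤ (Lg N + 1 : ℝ) * ∑ i ∈ R,
          (27 + 2 * Real.sqrt 2 * C) * (N : ℝ) ^ (ε / 2) * Real.sqrt Δ * N * ∑ l ∈ t i, A l := by
          gcongr with i hi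
          exact hclass i hi
    _ = (Lg N + 1 : ℝ) * ((27 + 2 * Real.sqrt 2 * C) * (N : ℝ) ^ (ε / 2) * Real.sqrt Δ * N *
          ∑ l ∈ s, A l) := by rw [← mul_sum, hsumt]
    _ ≤ (2 * ((17 + 10 / a) * (N : ℝ) ^ a)) * ((27 + 2 * Real.sqrt 2 * C) * (N : ℝ) ^ (ε / 2) *
          Real.sqrt Δ * N * ∑ l ∈ s, A l) := by
          have h1 := Lg_le ha0 hN
          have h2 : (Lg N + 1 : ℝ) ≤ 2 * ((17 + 10 / a) * (N : ℝ) ^ a) := by linarith
          gcongr
    _ = D * ((N : ℝ) ^ a * (N : ℝ) ^ (ε / 2)) * Real.sqrt Δ * N * ∑ l ∈ s, A l := by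
          rw [hD]; ring
    _ = _ := by
          rw [← Real.rpow_add hNp, ha, add_halves]

theorem gridW_of_KMreg (h : KMreg) : GridW := gridW_of_gridU (gridU_of_KMreg h)

end Crest.Agent.R138.GrW294
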