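import Mathlib
import Crest.Agent.R138.GrW2_294
import Crest.Agent.R138.Ex_926

/-!
# R138: discrete half of the shell, part 3 (helper294)

`KMseq` = sequence form over the free ultrafilter `U` of `Ex_926` (all uniformities up to
`N^o(1)`, base `d n = 1 / N n`).  Here: `KMseq → KMreg`, hence `KMseq → GridW`.
-/

set_option autoImplicit false
set_option linter.unusedVariables false

open Finset Filter Topology

namespace Crest.Agent.R138.GrW294

open Crest.Agent.R138.Defs (E2)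
open Crest.Agent.R138.Gr63
open Crest.Agent.R138.Ex926 (Base U)

open Classical in
/-- **KMseq**: the sequence form.  `d n = 1 / N n` is a base; distinct grid lines `s n`,
incidences `I n`, every line has `ν` up to `N^o(1)` incidences, every cell of `I n` carries
`μ` up to `N^o(1)` incidences, plank density `Δ`. -/
def KMseq : Prop :=
  ∀ (B : Base) (N : ℕ → ℕ) (s : ℕ → Finset GLine) (I : ℕ → Finset (GLine × ℤ))
    (Δ μ ν : ℕ → ℝ),
    (∀ n, 2 ≤ N n) → (∀ n, B.d n = 1 / (N n : ℝ)) →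
    (∀ n, (s n).Nonempty) → (∀ n, (I n).Nonempty) → (∀ n, 1 ≤ Δ n) → (∀ n, 0 < μ n) →
    (∀ n, 0 < ν n) →
    (∀ n, ∀ l ∈ s n, Bd (N n) l) →
    (∀ n, ∀ x ∈ I n, x.1 ∈ s n ∧ |x.2| ≤ (N n : ℤ)) →
    (∀ n, ∀ l ∈ s n, ν n ≤ (((I n).filter (fun x => x.1 = l)).card : ℝ)) →
    (∀ n, ∀ x ∈ I n, μ n ≤ (((I n).filter (fun y => key (N n) y = key (N n) x)).card : ℝ)) →
    (∀ η : ℝ, 0 < η → ∀ᶠ n in (U : Filter ℕ), ∀ l ∈ s n,
      (((I n).filter (fun x => x.1 = l)).card : ℝ) ≤ (N n : ℝ) ^ η * ν n) →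
    (∀ η : ℝ, 0 < η → ∀ᶠ n in (U : Filter ℕ), ∀ x ∈ I n,
      (((I n).filter (fun y => key (N n) y = key (N n) x)).card : ℝ) ≤ (N n : ℝ) ^ η * μ n) →
    (∀ n, Dens (N n) (s n) (Δ n)) →
    ∀ ε : ℝ, 0 < ε → ∀ᶠ n in (U : Filter ℕ),
      μ n * ν n ^ 2 ≤ (N n : ℝ) ^ ε * Δ n * (N n : ℝ) ^ 2

open Classical in
theorem KMreg_of_KMseq (h : KMseq) : KMreg := by
  intro ε hε
  by_contra hcon
  push Not at hcon
  have hcon2 : ∀ n : ℕ, ∃ (N : ℕ) (_ : 1 ≤ N) (s : Finset GLine) (I : Finset (GLine × ℤ))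
      (Δ μ ν : ℝ) (_ : s.Nonempty) (_ : 0 < μ) (_ : 0 < ν)
      (_ : ∀ l ∈ s, Bd N l)
      (_ : ∀ x ∈ I, x.1 ∈ s ∧ |x.2| ≤ (N : ℤ))
      (_ : ∀ l ∈ s, ν ≤ ((I.filter (fun x => x.1 = l)).card : ℝ) ∧
        ((I.filter (fun x => x.1 = l)).card : ℝ) ≤ (N : ℝ) ^ (1 / ((n : ℝ) + 1)) * ν)
      (_ : ∀ x ∈ I, μ ≤ ((I.filter (fun y => key N y = key N x)).card : ℝ) ∧
        ((I.filter (fun y => key N y = key N x)).card : ℝ) ≤ (N : ℝ) ^ (1 / ((n : ℝ) + 1)) * μ)
      (_ : Dens N s Δ),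
      (2187 * 2 ^ 7 + (n : ℝ)) * (N : ℝ) ^ ε * Δ * (N : ℝ) ^ 2 < μ * ν ^ 2 := by
    intro n
    obtain ⟨N, hN, s, I, Δ, μ, ν, h1, h2, h3, h4, h5, h6, h7, h8, h9⟩ :=
      hcon (1 / ((n : ℝ) + 1)) (by positivity) (2187 * 2 ^ 7 + (n : ℝ)) (by positivity)
    exact ⟨N, hN, s, I, Δ, μ, ν, h1, h2, h3, h4, h5, h6, h7, h8, h9⟩
  choose N hN s I Δ μ ν hs hμ hν hBd hI hreg1 hreg2 hdens hlt using hcon2
  have hΔ1 : ∀ n, 1 ≤ Δ n := fun n => one_le_of_Dens (hN n) (hdens n) (hs n)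
  have hIne : ∀ n, (I n).Nonempty := by
    intro n
    obtain ⟨l, hl⟩ := hs n
    have h1 := (hreg1 n l hl).1
    have h2 : 0 < (((I n).filter (fun x => x.1 = l)).card : ℝ) := (hν n).trans_le h1
    have h3 : 0 < ((I n).filter (fun x => x.1 = l)).card := by exact_mod_cast h2
    obtain ⟨x, hx⟩ := card_pos.1 h3
    exact ⟨x, (mem_filter.1 hx).1⟩
  -- `N n` tends to infinity
  have hIsub : ∀ n, I n ⊆ inc (N n) (s n) := by
    intro n x hx
    obtain ⟨h1, h2⟩ := hI n x hx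
    unfold inc
    rw [mem_product, mem_Icc]
    exact ⟨h1, abs_le.1 h2⟩
  have hμle : ∀ n, μ n ≤ 243 * (N n : ℝ) ^ 5 := by
    intro n
    obtain ⟨x, hx⟩ := hIne n
    have h1 := (hreg2 n x hx).1
    have h2 : ((I n).filter (fun y => key (N n) y = key (N n) x)).card ≤ 243 * N n ^ 5 :=
      (card_le_card (filter_subset _ _)).trans
        ((card_le_card (hIsub n)).trans (card_inc_le (hN n) (hBd n)))
    refine h1.trans ?_
    exact_mod_cast h2
  have hνle : ∀ n, ν n ≤ 3 * (N n : ℝ) := by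
    intro n
    obtain ⟨l, hl⟩ := hs n
    have h1 := (hreg1 n l hl).1
    have h2 : ((I n).filter (fun x => x.1 = l)).card ≤ 3 * N n := by
      have h3 : ((I n).filter (fun x => x.1 = l)).card ≤ (Icc (-(N n : ℤ)) (N n)).card := by
        refine card_le_card_of_injOn (fun x => x.2) ?_ ?_
        · intro x hx
          have hx' := (mem_filter.1 (Finset.mem_coe.1 hx)).1
          simp only [coe_Icc, Set.mem_Icc]
          exact abs_le.1 (hI n x hx').2
        · intro x hx y hy hxy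
          have h4 := (mem_filter.1 (Finset.mem_coe.1 hx)).2
          have h5 := (mem_filter.1 (Finset.mem_coe.1 hy)).2
          exact Prod.ext (h4.trans h5.symm) hxy
      exact h3.trans (card_Icc_le (hN n))
    refine h1.trans ?_
    exact_mod_cast h2
  have hNlow : ∀ n : ℕ, 2187 * 2 ^ 7 + (n : ℝ) ≤ 2187 * (N n : ℝ) ^ 7 := by
    intro n
    have hN1 : (1 : ℝ) ≤ N n := by exact_mod_cast hN n
    have h1 : μ n * ν n ^ 2 ≤ 2187 * (N n : ℝ) ^ 7 := by
      have h2 := hμle n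
      have h3 := hνle n
      have h4 := (hν n).le
      have h5 := (hμ n).le
      calc μ n * ν n ^ 2 ≤ (243 * (N n : ℝ) ^ 5) * (3 * (N n : ℝ)) ^ 2 := by gcongr
        _ = 2187 * (N n : ℝ) ^ 7 := by ring
    have h2 := (hlt n).le.trans h1
    have h3 : 1 ≤ (N n : ℝ) ^ ε := Real.one_le_rpow hN1 hε.le
    have h4 : (2187 * 2 ^ 7 + (n : ℝ)) * 1 * 1 * 1 ≤
        (2187 * 2 ^ 7 + (n : ℝ)) * (N n : ℝ) ^ ε * Δ n * (N n : ℝ) ^ 2 := by
      have h5 := hΔ1 n
      have h6 : (1 : ℝ) ≤ (N n : ℝ) ^ 2 := one_le_pow₀ hN1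
      gcongr
    linarith
  have hN2 : ∀ n, 2 ≤ N n := by
    intro n
    by_contra hlt2
    have h1 : N n = 1 := by have := hN n; omega
    have h2 := hNlow n
    rw [h1] at h2
    have h3 : (0 : ℝ) ≤ n := Nat.cast_nonneg _
    norm_num at h2
    linarith
  have hNinf : Tendsto (fun n => (N n : ℝ)) atTop atTop := by
    have h1 : Tendsto (fun n => 2187 * (N n : ℝ) ^ 7) atTop atTop := by
      refine tendsto_atTop_mono hNlow ?_
      exact tendsto_atTop_add_const_left _ _ tendsto_natCast_atTop_atTop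
    have h2 : Tendsto (fun n => (N n : ℝ) ^ 7) atTop atTop := by
      have := h1.const_mul_atTop (show (0 : ℝ) < 1 / 2187 by norm_num)
      refine this.congr fun n => ?_
      ring
    refine tendsto_atTop.2 fun b => ?_
    filter_upwards [tendsto_atTop.1 h2 ((max b 0) ^ 7)] with n hn
    have h3 : max b 0 ≤ (N n : ℝ) := by
      by_contra hc
      push Not at hc
      have : (N n : ℝ) ^ 7 < (max b 0) ^ 7 := by
        apply pow_lt_pow_left₀ hc (Nat.cast_nonneg _) (by norm_num)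
      linarith
    exact (le_max_left _ _).trans h3
  let B : Base :=
    { d := fun n => 1 / (N n : ℝ)
      pos := fun n => by
        have : (0 : ℝ) < N n := by
          have := hN n
          exact_mod_cast this
        positivity
      lt := fun n => by
        have : (1 : ℝ) < N n := by
          have := hN2 n
          exact_mod_cast this
        rw [div_lt_one (by linarith)]
        exact this
      lim0 := by
        have h1 : Tendsto (fun n => 1 / (N n : ℝ)) atTop (𝓝 0) := by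
          have := tendsto_inv_atTop_zero.comp hNinf
          refine this.congr fun n => ?_
          simp
        exact h1.mono_left Ex926.U_le_atTop }
  have hev : ∀ η : ℝ, 0 < η → ∀ᶠ n : ℕ in (U : Filter ℕ), (1 / ((n : ℝ) + 1)) ≤ η := by
    intro η hη
    obtain ⟨k, hk⟩ := exists_nat_one_div_lt hη
    filter_upwards [Ex926.ev_ge k] with n hn
    have h1 : (k : ℝ) ≤ n := by exact_mod_cast hn
    calc 1 / ((n : ℝ) + 1) ≤ 1 / ((k : ℝ) + 1) := by gcongr
      _ ≤ η := hk.le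
  have hpowle : ∀ η : ℝ, 0 < η → ∀ᶠ n in (U : Filter ℕ),
      (N n : ℝ) ^ (1 / ((n : ℝ) + 1)) ≤ (N n : ℝ) ^ η := by
    intro η hη
    filter_upwards [hev η hη] with n hn
    have hN1 : (1 : ℝ) ≤ N n := by exact_mod_cast hN n
    exact Real.rpow_le_rpow_of_exponent_le hN1 hn
  have hfin := h B N s I Δ μ ν hN2 (fun n => rfl) hs hIne hΔ1 hμ hν hBd hI
    (fun n l hl => (hreg1 n l hl).1) (fun n x hx => (hreg2 n x hx).1)
    (by
      intro η hη
      filter_upwards [hpowle η hη] with n hn l hl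
      refine (hreg1 n l hl).2.trans ?_
      have := (hν n).le
      gcongr)
    (by
      intro η hη
      filter_upwards [hpowle η hη] with n hn x hx
      refine (hreg2 n x hx).2.trans ?_
      have := (hμ n).le
      gcongr)
    hdens ε hε
  obtain ⟨n, hn⟩ := hfin.exists
  have h1 := hlt n
  have hN1 : (1 : ℝ) ≤ N n := by exact_mod_cast hN n
  have h2 : (N n : ℝ) ^ ε * Δ n * (N n : ℝ) ^ 2 ≤
      (2187 * 2 ^ 7 + (n : ℝ)) * (N n : ℝ) ^ ε * Δ n * (N n : ℝ) ^ 2 := by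
    have h3 : 0 ≤ (N n : ℝ) ^ ε * Δ n * (N n : ℝ) ^ 2 := by
      have := hΔ1 n
      positivity
    have h4 : (1 : ℝ) ≤ 2187 * 2 ^ 7 + (n : ℝ) := by
      have : (0 : ℝ) ≤ n := Nat.cast_nonneg _
      linarith
    calc _ = 1 * ((N n : ℝ) ^ ε * Δ n * (N n : ℝ) ^ 2) := by ring
      _ ≤ (2187 * 2 ^ 7 + (n : ℝ)) * ((N n : ℝ) ^ ε * Δ n * (N n : ℝ) ^ 2) := by gcongr
      _ = _ := by ring
  linarith

/-- **the discrete half of the shell.** -/
theorem gridW_of_KMseq (h : KMseq) : GridW := gridW_of_KMreg (KMreg_of_KMseq h)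

end Crest.Agent.R138.GrW294
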