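import Crest.Agent.R138.KDef_294
import Crest.Agent.R138.GrW3_294

/-!
# R138: the enemy (helper294): `¬ KMseq` gives configurations `Cf` with value `≥ b0 - q`.
-/

set_option autoImplicit false
set_option linter.unusedVariables false

open Finset

namespace Crest.Agent.R138.K294

open Crest.Agent.R138.Flag51
open Crest.Agent.R138.Gr63
open Crest.Agent.R138.GrW294

noncomputable section

/-- the real line of a grid line, in the coordinates `z' = (z + 2) / 4`, `x' = x / 64` -/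
def rl (N : ℕ) (l : GLine) : Ln := ((1 / 64 : ℝ) • (gp N l - (2:ℝ) • gv N l), (1 / 16 : ℝ) • gv N l)

/-- the new height of the grid height `j` -/
def rh (N : ℕ) (j : ℤ) : ℝ := ((j:ℝ) / N + 2) / 4

theorem pos_rl (N : ℕ) (l : GLine) (z : ℝ) :
    pos (rl N l) ((z + 2) / 4) = (1 / 64 : ℝ) • (gp N l + z • gv N l) := by
  unfold pos rl
  ext i
  simp only [PiLp.add_apply, PiLp.smul_apply, PiLp.sub_apply, smul_eq_mul]
  ring

theorem rl_inj {N : ℕ} (hN : 1 ≤ N) {l l' : GLine} (h : rl N l = rl N l') : l = l' := by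
  have hN0 : (N : ℝ) ≠ 0 := by
    have : (0:ℝ) < N := by exact_mod_cast hN
    exact this.ne'
  unfold rl at h
  rw [Prod.mk.injEq] at h
  obtain ⟨h1, h2⟩ := h
  have e20 := congrFun (congrArg WithLp.ofLp h2) 0
  have e21 := congrFun (congrArg WithLp.ofLp h2) 1
  have e10 := congrFun (congrArg WithLp.ofLp h1) 0
  have e11 := congrFun (congrArg WithLp.ofLp h1) 1
  simp only [gp, gv, PiLp.smul_apply, PiLp.sub_apply, smul_eq_mul, Matrix.cons_val_zero,
    Matrix.cons_val_one] at e20 e21 e10 e11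
  have f20 : (l.2.1 : ℝ) = l'.2.1 := by
    have : (l.2.1 : ℝ) / N = l'.2.1 / N := by linarith
    field_simp at this; exact this
  have f21 : (l.2.2 : ℝ) = l'.2.2 := by
    have : (l.2.2 : ℝ) / N = l'.2.2 / N := by linarith
    field_simp at this; exact this
  have f10 : (l.1.1 : ℝ) = l'.1.1 := by
    have : (l.1.1 : ℝ) / N = l'.1.1 / N := by linarith
    field_simp at this; exact this
  have f11 : (l.1.2 : ℝ) = l'.1.2 := by
    have : (l.1.2 : ℝ) / N = l'.1.2 / N := by linarith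
    field_simp at this; exact this
  have g20 : l.2.1 = l'.2.1 := by exact_mod_cast f20
  have g21 : l.2.2 = l'.2.2 := by exact_mod_cast f21
  have g10 : l.1.1 = l'.1.1 := by exact_mod_cast f10
  have g11 : l.1.2 = l'.1.2 := by exact_mod_cast f11
  exact Prod.ext (Prod.ext g10 g11) (Prod.ext g20 g21)

theorem rh_mem {N : ℕ} (hN : 1 ≤ N) {j : ℤ} (hj : |j| ≤ (N : ℤ)) :
    1 / 4 ≤ rh N j ∧ rh N j ≤ 3 / 4 := by
  have hN0 : (0:ℝ) < N := by exact_mod_cast hN
  have h1 : |(j:ℝ)| ≤ N := by exact_mod_cast hj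
  rw [abs_le] at h1
  have h2 : -1 ≤ (j:ℝ) / N := by rw [le_div_iff₀ hN0]; linarith [h1.1]
  have h3 : (j:ℝ) / N ≤ 1 := by rw [div_le_one hN0]; exact h1.2
  unfold rh
  constructor <;> linarith

theorem zc0 {z : ℝ} (h : 0 ≤ z) (h1 : z < 1) : zc 0 z = 0 := by
  unfold zc
  rw [pow_zero, one_mul, Int.floor_eq_zero_iff]
  exact ⟨h, h1⟩

theorem zc_rh_inj {N M : ℕ} (hN : 1 ≤ N) (hM : 4 * N ≤ 2 ^ M) {j j' : ℤ}
    (h : zc M (rh N j) = zc M (rh N j')) : j = j' := by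
  have hN0 : (0:ℝ) < N := by exact_mod_cast hN
  have h1 := Int.abs_sub_lt_one_of_floor_eq_floor h
  have h2 : (2:ℝ) ^ M * rh N j - 2 ^ M * rh N j' = (2 ^ M / (4 * N)) * ((j:ℝ) - j') := by
    unfold rh; field_simp; ring
  have h3 : (1:ℝ) ≤ 2 ^ M / (4 * N) := by
    rw [le_div_iff₀ (by positivity)]
    have : ((4 * N : ℕ) : ℝ) ≤ ((2 ^ M : ℕ) : ℝ) := by exact_mod_cast hM
    push_cast at this; linarith
  rw [h2, abs_mul, abs_of_pos (by linarith)] at h1
  have h4 : |(j:ℝ) - j'| < 1 := by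
    have : |(j:ℝ) - j'| ≤ 2 ^ M / (4 * N) * |(j:ℝ) - j'| :=
      le_mul_of_one_le_left (abs_nonneg _) h3
    linarith
  have h5 : |j - j'| < 1 := by exact_mod_cast h4
  have := Int.abs_lt_one_iff.1 h5
  omega

theorem dt_le {x e : E2} {a : ℝ} (he : dt e e = 1) (h0 : |x 0| ≤ a) (h1 : |x 1| ≤ a) :
    |dt x e| ≤ 2 * a := by
  have ha : 0 ≤ a := (abs_nonneg _).trans h0
  have he0 : |e 0| ≤ 1 := by
    rw [← abs_one, ← sq_le_sq]; simp only [dt] at he; nlinarith [sq_nonneg (e 1)]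
  have he1 : |e 1| ≤ 1 := by
    rw [← abs_one, ← sq_le_sq]; simp only [dt] at he; nlinarith [sq_nonneg (e 0)]
  unfold dt
  calc |x 0 * e 0 + x 1 * e 1| ≤ |x 0 * e 0| + |x 1 * e 1| := abs_add_le _ _
    _ = |x 0| * |e 0| + |x 1| * |e 1| := by rw [abs_mul, abs_mul]
    _ ≤ a * 1 + a * 1 := by gcongr
    _ = 2 * a := by ring

theorem cr_le {x e : E2} {a : ℝ} (he : dt e e = 1) (h0 : |x 0| ≤ a) (h1 : |x 1| ≤ a) :
    |cr e x| ≤ 2 * a := by
  rw [← dt_rt]
  exact dt_le (rt_unit he) h0 h1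

/-- two incidences in the same grid cell: the lines are close over the cell of level `M` -/
theorem close_of_key {N M : ℕ} (hN : 1 ≤ N) (hM : 4 * N ≤ 2 ^ M) (hM' : 2 ^ M ≤ 8 * N)
    {x y : GLine × ℤ} (hx : Bd N x.1) (hy : Bd N y.1) (h : key N x = key N y) {e : E2}
    (he : dt e e = 1) :
    InPlank (rl N x.1) (rl N y.1) e (1 / 2 ^ M) (1 / 2 ^ M) (zm M (zc M (rh N y.2))) (zr M) := by
  have hN0 : (0:ℝ) < N := by exact_mod_cast hN
  have hMr : (4:ℝ) * N ≤ 2 ^ M := by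
    have : ((4 * N : ℕ) : ℝ) ≤ ((2 ^ M : ℕ) : ℝ) := by exact_mod_cast hM
    push_cast at this; exact this
  have hMr' : (2:ℝ) ^ M ≤ 8 * N := by
    have : ((2 ^ M : ℕ) : ℝ) ≤ ((8 * N : ℕ) : ℝ) := by exact_mod_cast hM'
    push_cast at this; exact this
  have hp : (0:ℝ) < 2 ^ M := by positivity
  unfold key at h
  rw [Prod.mk.injEq] at h
  obtain ⟨h1, h2⟩ := h
  rw [← h2] at h1 ⊢
  set j := x.2 with hj
  unfold cell at h1
  rw [Prod.mk.injEq] at h1
  obtain ⟨ha, hb⟩ := h1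
  have ha' := (Int.abs_sub_lt_one_of_floor_eq_floor ha).le
  have hb' := (Int.abs_sub_lt_one_of_floor_eq_floor hb).le
  obtain ⟨-, -, bx1, bx2⟩ := hx
  obtain ⟨-, -, by1, by2⟩ := hy
  have bx1' : |(x.1.2.1 : ℝ)| ≤ N := by exact_mod_cast bx1
  have bx2' : |(x.1.2.2 : ℝ)| ≤ N := by exact_mod_cast bx2
  have by1' : |(y.1.2.1 : ℝ)| ≤ N := by exact_mod_cast by1
  have by2' : |(y.1.2.2 : ℝ)| ≤ N := by exact_mod_cast by2
  intro z hz
  -- distance of heights
  have hzj : |z - rh N j| ≤ 1 / 2 ^ M := by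
    have e1 := abs_sub_zm M (rh N j)
    have e2 : |z - rh N j| ≤ |z - zm M (zc M (rh N j))| + |rh N j - zm M (zc M (rh N j))| := by
      have := abs_sub_le z (zm M (zc M (rh N j))) (rh N j)
      rwa [abs_sub_comm (zm M (zc M (rh N j))) (rh N j)] at this
    have := two_zr M
    linarith
  set w : ℝ := 4 * z - 2 with hw
  have hzw : z = (w + 2) / 4 := by rw [hw]; ring
  have hwj : |w - (j:ℝ) / N| ≤ 4 / 2 ^ M := by
    have : w - (j:ℝ) / N = 4 * (z - rh N j) := by rw [hw]; unfold rh; ring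
    rw [this, abs_mul, abs_of_pos (by norm_num : (0:ℝ) < 4)]
    calc 4 * |z - rh N j| ≤ 4 * (1 / 2 ^ M) := by gcongr
      _ = _ := by ring
  have hwj' : |w - (j:ℝ) / N| ≤ 1 / N := by
    refine hwj.trans ?_
    rw [div_le_div_iff₀ hp hN0]; linarith
  -- coordinates
  have key1 : ∀ {A A' C C' : ℝ}, |(A + C * (j:ℝ) / N) - (A' + C' * (j:ℝ) / N)| ≤ 1 → |C| ≤ N →
      |C'| ≤ N → |(1 / 64 : ℝ) * ((A / N + w * (C / N)) - (A' / N + w * (C' / N)))| ≤
        1 / 2 / 2 ^ M := by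
    intro A A' C C' hA hC hC'
    have e1 : (A / N + w * (C / N)) - (A' / N + w * (C' / N)) =
        (1 / N) * ((A + C * (j:ℝ) / N) - (A' + C' * (j:ℝ) / N)) +
        (w - (j:ℝ) / N) * ((C - C') / N) := by field_simp; ring
    have e2 : |(C - C') / N| ≤ 2 := by
      rw [abs_div, abs_of_pos hN0, div_le_iff₀ hN0]
      calc |C - C'| ≤ |C| + |C'| := abs_sub _ _
        _ ≤ 2 * N := by linarith
    have e3 : |(A / N + w * (C / N)) - (A' / N + w * (C' / N))| ≤ 3 / N := by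
      rw [e1]
      calc _ ≤ |(1 / (N:ℝ)) * ((A + C * (j:ℝ) / N) - (A' + C' * (j:ℝ) / N))| +
            |(w - (j:ℝ) / N) * ((C - C') / N)| := abs_add_le _ _
        _ = (1 / N) * |(A + C * (j:ℝ) / N) - (A' + C' * (j:ℝ) / N)| +
            |w - (j:ℝ) / N| * |(C - C') / N| := by
          rw [abs_mul, abs_mul, abs_of_pos (by positivity : (0:ℝ) < 1 / N)]
        _ ≤ (1 / N) * 1 + (1 / N) * 2 := by gcongr
        _ = 3 / N := by ring
    rw [abs_mul, abs_of_pos (by norm_num : (0:ℝ) < 1 / 64)]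
    calc 1 / 64 * |(A / N + w * (C / N)) - (A' / N + w * (C' / N))| ≤ 1 / 64 * (3 / N) := by
          gcongr
      _ ≤ 1 / 2 / 2 ^ M := by
        rw [div_div, ← div_div, div_mul_div_comm, one_mul]
        rw [div_div, div_le_div_iff₀ (by positivity) (by positivity)]
        nlinarith
  have c0 : |(pos (rl N x.1) z - pos (rl N y.1) z) 0| ≤ 1 / 2 / 2 ^ M := by
    rw [hzw, pos_rl, pos_rl]
    have := key1 (A := (x.1.1.1 : ℝ)) (A' := (y.1.1.1 : ℝ)) (C := (x.1.2.1 : ℝ))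
      (C' := (y.1.2.1 : ℝ)) ha' bx1' by1'
    simp only [PiLp.sub_apply, PiLp.smul_apply, PiLp.add_apply, smul_eq_mul, gp, gv,
      Matrix.cons_val_zero] at *
    rw [← mul_sub]; exact this
  have c1 : |(pos (rl N x.1) z - pos (rl N y.1) z) 1| ≤ 1 / 2 / 2 ^ M := by
    rw [hzw, pos_rl, pos_rl]
    have := key1 (A := (x.1.1.2 : ℝ)) (A' := (y.1.1.2 : ℝ)) (C := (x.1.2.2 : ℝ))
      (C' := (y.1.2.2 : ℝ)) hb' bx2' by2'
    simp only [PiLp.sub_apply, PiLp.smul_apply, PiLp.add_apply, smul_eq_mul, gp, gv,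
      Matrix.cons_val_one, Matrix.cons_val] at *
    rw [← mul_sub]; exact this
  have e1 := dt_le he c0 c1
  have e2 := cr_le he c0 c1
  have e3 : 2 * ((1:ℝ) / 2 / 2 ^ M) = 1 / 2 ^ M := by ring
  rw [e3] at e1 e2
  exact ⟨e1, e2⟩

/-- the orthonormal basis `(e, rt e)` -/
theorem exists_basis {e : E2} (he : dt e e = 1) : ∃ b : OrthonormalBasis (Fin 2) ℝ E2,
    (∀ x : E2, inner ℝ x (b 0) = dt x e) ∧ (∀ x : E2, inner ℝ x (b 1) = cr e x) := by
  have hin : ∀ x y : E2, inner ℝ x y = dt x y := by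
    intro x y
    simp [dt, PiLp.inner_apply, Fin.sum_univ_two]
    ring
  have hon : Orthonormal ℝ ![e, rt e] := by
    rw [orthonormal_iff_ite]
    intro i j
    fin_cases i <;> fin_cases j
    · show inner ℝ e e = _
      rw [hin]; simpa using he
    · show inner ℝ e (rt e) = _
      rw [hin, dt_rt]; simp only [cr]; simp; ring
    · show inner ℝ (rt e) e = _
      rw [real_inner_comm, hin, dt_rt]; simp only [cr]; simp; ring
    · show inner ℝ (rt e) (rt e) = _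
      rw [hin]; simpa using rt_unit he
  have hc : Fintype.card (Fin 2) = Module.finrank ℝ E2 := by simp
  set b0 : Module.Basis (Fin 2) ℝ E2 := basisOfOrthonormalOfCardEqFinrank hon hc with hb0
  have hb : (b0 : Fin 2 → E2) = ![e, rt e] := coe_basisOfOrthonormalOfCardEqFinrank hon hc
  refine ⟨b0.toOrthonormalBasis (by rw [hb]; exact hon), fun x => ?_, fun x => ?_⟩
  · rw [Module.Basis.coe_toOrthonormalBasis, hb]
    show inner ℝ x e = _
    rw [hin]
  · rw [Module.Basis.coe_toOrthonormalBasis, hb]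
    show inner ℝ x (rt e) = _
    rw [hin, dt_rt]

open Classical in
/-- upper density at level `0` -/
theorem dens_up {N M : ℕ} (hN : 1 ≤ N) (hM' : 2 ^ M ≤ 8 * N) {s : Finset GLine} {Δ : ℝ}
    (hΔ : 0 ≤ Δ) (hd : Dens N s Δ) (l0 : Ln) {e : E2} (he : dt e e = 1) {w1 w2 : ℝ}
    (h1 : 1 / 2 ^ M ≤ w1) (h12 : w1 ≤ w2) (h2 : w2 ≤ 1) :
    ((s.filter fun l => InPlank (rl N l) l0 e w1 w2 (1 / 2) (1 / 2)).card : ℝ) ≤
      129 ^ 4 * (64 * Δ * (w1 * w2) * (N : ℝ) ^ 2) := by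
  have hN0 : (0:ℝ) < N := by exact_mod_cast hN
  have hp : (0:ℝ) < 2 ^ M := by positivity
  have hMr' : (2:ℝ) ^ M ≤ 8 * N := by
    have : ((2 ^ M : ℕ) : ℝ) ≤ ((8 * N : ℕ) : ℝ) := by exact_mod_cast hM'
    push_cast at this; exact this
  have hw1 : 0 < w1 := lt_of_lt_of_le (by positivity) h1
  have hw2 : 0 < w2 := hw1.trans_le h12
  have h8 : 1 / (N:ℝ) ≤ 8 * w1 := by
    have : 1 / (N:ℝ) ≤ 8 * (1 / 2 ^ M) := by
      rw [mul_one_div, div_le_div_iff₀ hN0 hp]; linarith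
    linarith
  obtain ⟨b, hb0, hb1⟩ := exists_basis he
  have hn : ((64 : ℕ) : ℝ) = 64 := by norm_num
  have hcov := cover (s.filter fun l => InPlank (rl N l) l0 e w1 w2 (1 / 2) (1 / 2)) (rl N)
    (e := e) (w1 := w1 / 64) (w2 := w2 / 64) (z0 := 1 / 2) (ρ := 1 / 2) (by positivity)
    (by positivity) (by norm_num) (n := 64) (l := l0) (fun t ht => by
      rw [mem_filter] at ht
      have e1 : ((64 : ℕ) : ℝ) * (w1 / 64) = w1 := by rw [hn]; ring
      have e2 : ((64 : ℕ) : ℝ) * (w2 / 64) = w2 := by rw [hn]; ring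
      rw [e1, e2]; exact ht.2) (A := 64 * Δ * (w1 * w2) * (N : ℝ) ^ 2) (by positivity)
    (fun t0 ht0 => by
      -- widths
      set w : Fin 2 → ℝ := ![max w1 (1 / N), max w2 (1 / N)] with hw
      have hN1 : 1 / (N:ℝ) ≤ 1 := by
        rw [div_le_one hN0]; exact_mod_cast hN
      have hwb : ∀ i, 1 / (N : ℝ) ≤ w i ∧ w i ≤ 1 := by
        intro i
        fin_cases i
        · exact ⟨le_max_right _ _, max_le (h12.trans h2) hN1⟩
        · exact ⟨le_max_right _ _, max_le h2 hN1⟩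
      have h3 := hd b (gp N t0) (gv N t0) w hwb
      refine le_trans (Nat.cast_le.2 (card_le_card fun t ht => ?_)) (h3.trans ?_)
      · rw [mem_filter] at ht ⊢
        refine ⟨(mem_filter.1 ht.1).1, fun z hz i => ?_⟩
        have hz' : |(z + 2) / 4 - 1 / 2| ≤ 1 / 2 := by
          rw [abs_le] at hz ⊢; constructor <;> linarith [hz.1, hz.2]
        obtain ⟨a1, a2⟩ := ht.2 _ hz'
        rw [pos_rl, pos_rl, ← smul_sub] at a1 a2
        have e3 : gp N t - gp N t0 + z • (gv N t - gv N t0) =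
            (gp N t + z • gv N t) - (gp N t0 + z • gv N t0) := by
          rw [smul_sub]; abel
        rw [e3]
        have sc1 : ∀ x : E2, dt ((1 / 64 : ℝ) • x) e = 1 / 64 * dt x e := by
          intro x; simp only [dt, PiLp.smul_apply, smul_eq_mul]; ring
        have sc2 : ∀ x : E2, cr e ((1 / 64 : ℝ) • x) = 1 / 64 * cr e x := by
          intro x; simp only [cr, PiLp.smul_apply, smul_eq_mul]; ring
        rw [sc1, abs_mul, abs_of_pos (by norm_num : (0:ℝ) < 1 / 64)] at a1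
        rw [sc2, abs_mul, abs_of_pos (by norm_num : (0:ℝ) < 1 / 64)] at a2
        fin_cases i
        · show |inner ℝ _ (b 0)| ≤ max w1 (1 / N)
          rw [hb0]
          exact le_trans (by linarith) (le_max_left _ _)
        · show |inner ℝ _ (b 1)| ≤ max w2 (1 / N)
          rw [hb1]
          exact le_trans (by linarith) (le_max_left _ _)
      · have f1 : w 0 ≤ 8 * w1 := max_le (by linarith) h8
        have f2 : w 1 ≤ 8 * w2 := max_le (by linarith) (h8.trans (by linarith))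
        have f3 : 0 ≤ w 0 := hw1.le.trans (le_max_left _ _)
        have f4 : 0 ≤ w 1 := hw2.le.trans (le_max_left _ _)
        calc Δ * (w 0 * w 1) * (N:ℝ) ^ 2 ≤ Δ * ((8 * w1) * (8 * w2)) * (N:ℝ) ^ 2 := by gcongr
          _ = 64 * Δ * (w1 * w2) * (N:ℝ) ^ 2 := by ring)
  rw [hn] at hcov
  have : (2 * (64:ℝ) + 1) = 129 := by norm_num
  rw [this] at hcov
  exact hcov

open Classical in
/-- **configuration of a grid family** -/
theorem exists_cf {N : ℕ} (hN : 2 ≤ N) (s : Finset GLine) (I : Finset (GLine × ℤ)) (Δ μ ν : ℝ)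
    (hI : I.Nonempty) (hΔ : 0 < Δ) (hμ : 0 < μ) (hν : 0 < ν) (hBd : ∀ l ∈ s, Bd N l)
    (hmem : ∀ x ∈ I, x.1 ∈ s ∧ |x.2| ≤ (N : ℤ))
    (hown : ∀ l ∈ s, ν ≤ ((I.filter (fun x => x.1 = l)).card : ℝ))
    (hmul : ∀ x ∈ I, μ ≤ ((I.filter (fun y => key N y = key N x)).card : ℝ))
    (hd : Dens N s Δ) {q : ℝ} (hq : 0 ≤ q) :
    ∃ F : Cf, F.Ok q ∧ F.m = 0 ∧ 4 * N ≤ 2 ^ F.M ∧ 2 ^ F.M ≤ 8 * N ∧ F.r = 1 / 2 ^ F.M ∧
      F.I.card = I.card ∧ F.D1 = μ * 4 ^ F.M ∧ F.nu = ν ∧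
      F.D0 = 129 ^ 4 * (64 * Δ * (N : ℝ) ^ 2) * (2 ^ F.M) ^ q := by
  have hN1 : 1 ≤ N := by omega
  have hN0 : (0:ℝ) < N := by exact_mod_cast hN1
  set M : ℕ := Nat.clog 2 (4 * N) with hMdef
  have hM : 4 * N ≤ 2 ^ M := Nat.le_pow_clog one_lt_two _
  have hM1 : 1 ≤ M := by
    by_contra h
    have : M = 0 := by omega
    rw [this] at hM; omega
  have hM' : 2 ^ M ≤ 8 * N := by
    have h1 : 2 ^ (M - 1) < 4 * N := Nat.pow_pred_clog_lt_self one_lt_two (by omega)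
    have h2 : 2 ^ M = 2 * 2 ^ (M - 1) := by
      rw [← pow_succ']; congr 1; omega
    omega
  have hp : (0:ℝ) < 2 ^ M := by positivity
  -- the map on incidences
  set φ : GLine × ℤ → Ln × ℝ := fun x => (rl N x.1, rh N x.2) with hφ
  have hφi : Function.Injective φ := by
    intro x y h
    simp only [hφ, Prod.mk.injEq] at h
    have h1 := rl_inj hN1 h.1
    have h2 : x.2 = y.2 := zc_rh_inj hN1 hM (by rw [h.2])
    exact Prod.ext h1 h2
  have hobi : ∀ x y : GLine × ℤ, ob M (φ x) = ob M (φ y) → x = y := by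
    intro x y h
    simp only [ob, hφ, Prod.mk.injEq] at h
    exact Prod.ext (rl_inj hN1 h.1) (zc_rh_inj hN1 hM h.2)
  -- classes
  set cl : Ln × ℤ → ℕ := fun o => if h : ∃ x : GLine × ℤ, ob M (φ x) = o then
    Encodable.encode (key N h.choose) else 0 with hcl
  have hcl' : ∀ x, cl (ob M (φ x)) = Encodable.encode (key N x) := by
    intro x
    have hex : ∃ x' : GLine × ℤ, ob M (φ x') = ob M (φ x) := ⟨x, rfl⟩
    simp only [hcl]
    rw [dif_pos hex]
    rw [hobi _ _ hex.choose_spec]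
  obtain ⟨x0, hx0⟩ := hI
  set e : E2 := !₂[1, 0] with he0
  have he : dt e e = 1 := by simp [dt, he0]
  set K : ℕ → Plk := fun c => if h : ∃ x ∈ I, Encodable.encode (key N x) = c then
    ⟨zc M (rh N h.choose.2), rl N h.choose.1, e, 1 / 2 ^ M, 1 / 2 ^ M⟩
    else ⟨0, rl N x0.1, e, 1 / 2 ^ M, 1 / 2 ^ M⟩ with hK
  have hK' : ∀ x ∈ I, ∃ y ∈ I, key N y = key N x ∧ K (cl (ob M (φ x))) =
      ⟨zc M (rh N y.2), rl N y.1, e, 1 / 2 ^ M, 1 / 2 ^ M⟩ := by
    intro x hx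
    rw [hcl']
    have hex : ∃ y ∈ I, Encodable.encode (key N y) = Encodable.encode (key N x) := ⟨x, hx, rfl⟩
    refine ⟨hex.choose, hex.choose_spec.1, Encodable.encode_injective hex.choose_spec.2, ?_⟩
    simp only [hK]
    rw [dif_pos hex]
  -- the configuration
  refine ⟨⟨0, M, 1 / 2 ^ M, I.image φ, cl, K, 129 ^ 4 * (64 * Δ * (N : ℝ) ^ 2) * (2 ^ M) ^ q,
    μ * 4 ^ M, ν⟩, ?_, rfl, hM, hM', rfl, card_image_of_injective _ hφi, rfl, rfl, rfl⟩
  have htop : (0 + M) = M := by omega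
  have hz0 : ∀ x ∈ I, zc 0 (rh N x.2) = 0 := by
    intro x hx
    obtain ⟨a1, a2⟩ := rh_mem hN1 (hmem x hx).2
    exact zc0 (by linarith) (by linarith)
  constructor
  · exact hM1
  · show (0:ℝ) < 1 / 2 ^ M; positivity
  · show (1:ℝ) / 2 ^ M ≤ 1 / 2 ^ (0 + M); rw [htop]
  · exact ⟨φ x0, mem_image_of_mem _ hx0⟩
  · intro x hx y hy
    obtain ⟨x', hx', rfl⟩ := mem_image.1 hx
    obtain ⟨y', hy', rfl⟩ := mem_image.1 hy
    show zc 0 (rh N x'.2) = zc 0 (rh N y'.2)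
    rw [hz0 x' hx', hz0 y' hy']
  · show 0 < μ * 4 ^ M; positivity
  · exact hν
  · intro x hx
    obtain ⟨x', hx', rfl⟩ := mem_image.1 hx
    show Legal (0 + M) (1 / 2 ^ M) (K (cl (ob (0 + M) (φ x'))))
    rw [htop]
    obtain ⟨y, hy, hxy, hKy⟩ := hK' x' hx'
    rw [hKy]
    exact ⟨he, le_rfl, le_rfl, le_rfl⟩
  · intro x hx
    obtain ⟨x', hx', rfl⟩ := mem_image.1 hx
    show InK (0 + M) (K (cl (ob (0 + M) (φ x')))) (ob (0 + M) (φ x'))
    rw [htop]
    obtain ⟨y, hy, hxy, hKy⟩ := hK' x' hx'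
    rw [hKy]
    refine ⟨?_, ?_⟩
    · show zc M (rh N x'.2) = zc M (rh N y.2)
      have : x'.2 = y.2 := by
        have := congrArg Prod.snd hxy; simpa [key] using this.symm
      rw [this]
    · exact close_of_key hN1 hM hM' (hBd _ (hmem x' hx').1) (hBd _ (hmem y hy).1) hxy.symm he
  · intro x hx
    obtain ⟨x', hx', rfl⟩ := mem_image.1 hx
    show μ * 4 ^ M * cap q (0 + M) (K (cl (ob (0 + M) (φ x')))) ≤
      ((((I.image φ).image (ob (0 + M))).filter fun o => cl o = cl (ob (0 + M) (φ x'))).card : ℝ)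
    rw [htop]
    obtain ⟨y, hy, hxy, hKy⟩ := hK' x' hx'
    rw [hKy, hcl']
    have e1 : cap q M ⟨zc M (rh N y.2), rl N y.1, e, 1 / 2 ^ M, 1 / 2 ^ M⟩ = 1 / 4 ^ M := by
      unfold cap
      show (1:ℝ) / 2 ^ M * (1 / 2 ^ M) * (1 / 2 ^ M * 2 ^ M) ^ q = 1 / 4 ^ M
      have : (1:ℝ) / 2 ^ M * 2 ^ M = 1 := by field_simp
      rw [this, Real.one_rpow, mul_one, show (4:ℝ) = 2 * 2 by norm_num, mul_pow]
      field_simp
    rw [e1]
    have e2 : μ * 4 ^ M * (1 / 4 ^ M) = μ := by field_simp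
    rw [e2]
    refine (hmul x' hx').trans (Nat.cast_le.2 ?_)
    refine card_le_card_of_injOn (fun y => ob M (φ y)) (fun y hy => ?_)
      (fun a _ b _ h => hobi a b h)
    rw [Finset.mem_coe, mem_filter] at hy
    rw [Finset.mem_coe, mem_filter]
    refine ⟨mem_image_of_mem _ (mem_image_of_mem _ hy.1), ?_⟩
    rw [hcl', hy.2]
  · intro x hx
    obtain ⟨x', hx', rfl⟩ := mem_image.1 hx
    show ν ≤ (ownc 0 (0 + M) (I.image φ) (φ x') : ℝ)
    rw [htop]
    refine (hown x'.1 (hmem x' hx').1).trans (Nat.cast_le.2 ?_)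
    unfold ownc
    refine card_le_card_of_injOn (fun y => ob M (φ y)) (fun y hy => ?_)
      (fun a _ b _ h => hobi a b h)
    rw [Finset.mem_coe, mem_filter] at hy
    rw [Finset.mem_coe]
    refine mem_image_of_mem _ ?_
    rw [mem_filter]
    refine ⟨mem_image_of_mem _ hy.1, ?_⟩
    show (rl N y.1, zc 0 (rh N y.2)) = (rl N x'.1, zc 0 (rh N x'.2))
    rw [hy.2, hz0 y hy.1, hz0 x' hx']
  · intro P hP
    show ((objs 0 (I.image φ) P).card : ℝ) ≤
      129 ^ 4 * (64 * Δ * (N : ℝ) ^ 2) * (2 ^ M) ^ q * cap q 0 P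
    have hr : (1:ℝ) / 2 ^ M ≤ P.w1 := hP.r1
    have hw2 : P.w2 ≤ 1 := by have := hP.w2; simpa using this
    have hw1 : 0 < P.w1 := lt_of_lt_of_le (by positivity) hr
    have hw20 : 0 < P.w2 := hw1.trans_le hP.w12
    have hcard : (objs 0 (I.image φ) P).card ≤
        (s.filter fun l => InPlank (rl N l) P.l P.e P.w1 P.w2 (1 / 2) (1 / 2)).card := by
      refine le_trans (card_le_card (t := (s.filter fun l =>
        InPlank (rl N l) P.l P.e P.w1 P.w2 (1 / 2) (1 / 2)).image fun l => (rl N l, (0:ℤ))) ?_)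
        card_image_le
      intro o ho
      unfold objs at ho
      rw [mem_filter, mem_image] at ho
      obtain ⟨⟨x, hx, rfl⟩, hoK⟩ := ho
      obtain ⟨x', hx', rfl⟩ := mem_image.1 hx
      rw [mem_image]
      have hz := hz0 x' hx'
      obtain ⟨g1, g2⟩ := hoK
      have g1' : (0:ℤ) = P.j := by
        rw [← g1]; exact hz.symm
      refine ⟨x'.1, mem_filter.2 ⟨(hmem x' hx').1, ?_⟩, ?_⟩
      · have e1 : zm 0 P.j = 1 / 2 := by rw [← g1']; unfold zm; norm_num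
        have e2 : zr 0 = 1 / 2 := by unfold zr; norm_num
        rw [e1, e2] at g2
        exact g2
      · show (rl N x'.1, (0:ℤ)) = (rl N x'.1, zc 0 (rh N x'.2))
        rw [hz]
    have h1 := dens_up hN1 hM' hΔ.le hd P.l hP.unit hr hP.w12 hw2
    refine (Nat.cast_le.2 hcard).trans (h1.trans ?_)
    have h2 : 1 ≤ ((2:ℝ) ^ M) ^ q * (P.w2 * 2 ^ 0) ^ q := by
      rw [pow_zero, mul_one, ← Real.mul_rpow hp.le hw20.le]
      refine Real.one_le_rpow ?_ hq
      have : (1:ℝ) / 2 ^ M ≤ P.w2 := hr.trans hP.w12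
      rw [div_le_iff₀ hp] at this
      linarith
    unfold cap
    have h3 : 0 ≤ 129 ^ 4 * (64 * Δ * (P.w1 * P.w2) * (N:ℝ) ^ 2) := by positivity
    calc 129 ^ 4 * (64 * Δ * (P.w1 * P.w2) * (N:ℝ) ^ 2)
        ≤ 129 ^ 4 * (64 * Δ * (P.w1 * P.w2) * (N:ℝ) ^ 2) *
          (((2:ℝ) ^ M) ^ q * (P.w2 * 2 ^ 0) ^ q) := le_mul_of_one_le_right h3 h2
      _ = _ := by ring

open Filter in
open Crest.Agent.R138.Ex926 in
/-- **ENEMY**: if `KMseq` fails there are configurations of value `≥ b0 - q`, arbitrarily long,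
of polynomial size, with resolution `2^-M`, for every penalty `q ≥ 0`. -/
theorem enemy (h : ¬ KMseq) : ∃ b0 : ℝ, 0 < b0 ∧ ∀ q : ℝ, 0 ≤ q → ∀ M0 : ℕ, ∃ F : Cf, F.Ok q ∧
    M0 ≤ F.M ∧ F.m = 0 ∧ F.r = 1 / 2 ^ F.M ∧ (F.I.card : ℝ) ≤ 2 ^ (5 * F.M) ∧
    b0 - q ≤ F.val := by
  classical
  unfold KMseq at h
  push Not at h
  obtain ⟨B, N, s, I, Δ, μ, ν, hN2, hBd, hs, hI, hΔ, hμ, hν, hlBd, hmem, hown, hmul, -, -, hd,
    ε, hε, hfail⟩ := h
  refine ⟨ε / 2, by linarith, fun q hq M0 => ?_⟩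
  -- large `N`
  have hNlarge : ∀ A : ℝ, ∀ᶠ n in (U : Filter ℕ), A ≤ (N n : ℝ) := by
    intro A
    have h1 : ∀ᶠ n in (U : Filter ℕ), B.d n < 1 / (|A| + 1) :=
      B.lim0.eventually_lt_const (by positivity)
    filter_upwards [h1] with n hn
    rw [hBd n, div_lt_div_iff₀ (by have := hN2 n; positivity) (by positivity)] at hn
    have := le_abs_self A
    linarith
  set C : ℝ := 129 ^ 4 * 64 with hC
  -- threshold
  set A : ℝ := 2 ^ M0 * Real.exp ((2 * (3 * ε + Real.logb 2 C) / ε + 3)) with hA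
  have hfail' : ∀ᶠ n in (U : Filter ℕ), (N n : ℝ) ^ ε * Δ n * (N n : ℝ) ^ 2 < μ n * ν n ^ 2 :=
    hfail
  obtain ⟨n, hn1, hn2⟩ := (hfail'.and (hNlarge A)).exists
  obtain ⟨F, hF, hm, hM, hM', hr, hcard, hD1, hnu, hD0⟩ := exists_cf (hN2 n) (s n) (I n) (Δ n)
    (μ n) (ν n) (hI n) (by linarith [hΔ n]) (hμ n) (hν n) (hlBd n) (hmem n) (hown n) (hmul n)
    (hd n) hq
  have hN0 : (0:ℝ) < N n := by have := hN2 n; positivity
  have hMr : (4:ℝ) * N n ≤ 2 ^ F.M := by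
    have : ((4 * N n : ℕ) : ℝ) ≤ ((2 ^ F.M : ℕ) : ℝ) := by exact_mod_cast hM
    push_cast at this; exact this
  have hMr' : (2:ℝ) ^ F.M ≤ 8 * N n := by
    have : ((2 ^ F.M : ℕ) : ℝ) ≤ ((8 * N n : ℕ) : ℝ) := by exact_mod_cast hM'
    push_cast at this; exact this
  have hp : (0:ℝ) < 2 ^ F.M := by positivity
  have hM1 : (1:ℝ) ≤ F.M := by exact_mod_cast hF.M1
  refine ⟨F, hF, ?_, hm, hr, ?_, ?_⟩
  · -- `M0 ≤ M`
    have h1 : (2:ℝ) ^ M0 ≤ 2 ^ F.M := by
      have e1 : (1:ℝ) ≤ Real.exp ((2 * (3 * ε + Real.logb 2 C) / ε + 3)) := by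
        apply Real.one_le_exp
        have : 0 ≤ Real.logb 2 C := Real.logb_nonneg one_lt_two (by norm_num [hC])
        positivity
      have e2 : (2:ℝ) ^ M0 ≤ A := le_mul_of_one_le_right (by positivity) e1
      linarith
    exact (pow_le_pow_iff_right₀ one_lt_two).1 h1
  · -- cardinality
    rw [hcard]
    have h1 : I n ⊆ s n ×ˢ Icc (-(N n : ℤ)) (N n) := by
      intro x hx
      obtain ⟨a1, a2⟩ := hmem n x hx
      rw [mem_product, mem_Icc]
      exact ⟨a1, abs_le.1 a2⟩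
    have h2 := card_le_card h1
    rw [card_product] at h2
    have h3 := card_Icc_le (N := N n) (by have := hN2 n; omega)
    have h4 := card_le_of_Bd (N := N n) (by have := hN2 n; omega) (hlBd n)
    have h5 : ((I n).card : ℝ) ≤ (s n).card * (3 * N n) := by
      have : (I n).card ≤ (s n).card * (3 * N n) := h2.trans (Nat.mul_le_mul_left _ h3)
      exact_mod_cast this
    calc ((I n).card : ℝ) ≤ (s n).card * (3 * N n) := h5
      _ ≤ (81 * (N n : ℝ) ^ 4) * (3 * N n) := by gcongr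
      _ ≤ (4 * (N n : ℝ)) ^ 5 := by
        have : (0:ℝ) ≤ (N n : ℝ) ^ 5 := by positivity
        nlinarith
      _ ≤ (2 ^ F.M) ^ 5 := by gcongr
      _ = 2 ^ (5 * F.M) := by rw [← pow_mul]; ring_nf
  · -- value
    unfold Cf.val
    rw [hD1, hnu, hD0]
    rw [le_div_iff₀ (by linarith)]
    have hn1' : (N n : ℝ) ^ ε * Δ n * (N n : ℝ) ^ 2 < μ n * ν n ^ 2 := hn1
    have hΔ0 : 0 < Δ n := by linarith [hΔ n]
    have hμν : 0 < μ n * ν n ^ 2 := by have := hμ n; have := hν n; positivity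
    have e0 : μ n * 4 ^ F.M * ν n ^ 2 / (4 ^ F.M * (129 ^ 4 * (64 * Δ n * (N n : ℝ) ^ 2) *
        (2 ^ F.M) ^ q)) = μ n * ν n ^ 2 / (C * (Δ n * (N n : ℝ) ^ 2) * (2 ^ F.M) ^ q) := by
      rw [hC]; field_simp
    rw [e0]
    have e1 : (N n : ℝ) ^ ε / (C * (2 ^ F.M) ^ q) ≤
        μ n * ν n ^ 2 / (C * (Δ n * (N n : ℝ) ^ 2) * (2 ^ F.M) ^ q) := by
      rw [div_le_div_iff₀ (by positivity) (by positivity)]
      calc (N n : ℝ) ^ ε * (C * (Δ n * (N n : ℝ) ^ 2) * (2 ^ F.M) ^ q) =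
          ((N n : ℝ) ^ ε * Δ n * (N n : ℝ) ^ 2) * (C * (2 ^ F.M) ^ q) := by ring
        _ ≤ μ n * ν n ^ 2 * (C * (2 ^ F.M) ^ q) := by
          have : (0:ℝ) ≤ C * (2 ^ F.M) ^ q := by positivity
          exact mul_le_mul_of_nonneg_right hn1'.le this
    have e2 : Real.logb 2 ((N n : ℝ) ^ ε / (C * (2 ^ F.M) ^ q)) ≤
        Real.logb 2 (μ n * ν n ^ 2 / (C * (Δ n * (N n : ℝ) ^ 2) * (2 ^ F.M) ^ q)) :=
      Real.logb_le_logb_of_le one_lt_two (by positivity) e1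
    refine le_trans ?_ e2
    have hCpos : 0 < C := by norm_num [hC]
    have e3 : Real.logb 2 ((N n : ℝ) ^ ε / (C * (2 ^ F.M) ^ q)) =
        ε * Real.logb 2 (N n) - Real.logb 2 C - q * F.M := by
      rw [Real.logb_div (by positivity) (by positivity),
        Real.logb_mul (by positivity) (by positivity), Real.logb_rpow_eq_mul_logb_of_pos hN0,
        Real.logb_rpow_eq_mul_logb_of_pos hp, Real.logb_pow, Real.logb_self_eq_one one_lt_two]
      ring
    rw [e3]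
    -- `logb N ≥ M - 3`
    have e4 : (F.M : ℝ) - 3 ≤ Real.logb 2 (N n) := by
      have h8 : (2:ℝ) ^ (F.M : ℝ) ≤ 2 ^ ((3:ℝ) + Real.logb 2 (N n)) := by
        rw [Real.rpow_add (by norm_num), Real.rpow_logb (by norm_num) (by norm_num) hN0,
          Real.rpow_natCast]
        have : (2:ℝ) ^ (3:ℝ) = 8 := by norm_num
        rw [this]; exact hMr'
      have := (Real.rpow_le_rpow_left_iff one_lt_two).1 h8
      linarith
    -- `M` is large
    have e5 : 2 * (3 * ε + Real.logb 2 C) / ε ≤ F.M := by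
      have hz : Real.exp (2 * (3 * ε + Real.logb 2 C) / ε + 3) ≤ (2:ℝ) ^ F.M := by
        have e1 : Real.exp ((2 * (3 * ε + Real.logb 2 C) / ε + 3)) ≤ A :=
          le_mul_of_one_le_left (Real.exp_pos _).le (one_le_pow₀ (by norm_num))
        linarith
      have h2e : (2:ℝ) ^ F.M ≤ Real.exp F.M := by
        rw [← Real.exp_one_pow]
        exact pow_le_pow_left₀ (by norm_num) (by linarith [Real.add_one_le_exp (1:ℝ)]) _
      have := Real.exp_le_exp.1 (hz.trans h2e)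
      linarith
    rw [div_le_iff₀ hε] at e5
    have e6 := mul_le_mul_of_nonneg_left e4 hε.le
    clear_value C
    clear e3 e2 e1 e0 hfail hfail' hNlarge hd
    generalize Real.logb 2 (N n : ℝ) = X at *
    generalize Real.logb 2 C = Y at *
    generalize (F.M : ℝ) = m at *
    nlinarith [e5, e6]

end

end Crest.Agent.R138.K294
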