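import Crest.Agent.R138.Vb_294
import Crest.Agent.R138.En1_294

/-!
# R138, TEXT I (helper294): joint choice of the penalty

`joint`: if `KMseq` fails there are `q0, κ, g0 > 0` such that for all `R ≥ 1`, `C ≥ 5` there is a
penalty `q ∈ [q0, 2 - g0 / (2R)]` and `β ≥ g0` with: `val ≤ β + κ (q - p) + o(1)` for all
penalties `p ∈ [q0, 2]` and all configurations of size `(R, C)`, and `q`-configurations with
`val ≥ β - o(1)` exist.
-/

set_option autoImplicit false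
set_option linter.unusedVariables false

open Finset

namespace Crest.Agent.R138.K294

open Crest.Agent.R138.Flag51
open Crest.Agent.R138.GrW294

noncomputable section

/-- size of a configuration: resolution exponent `R`, polynomial exponent `C` -/
structure Cf.Sz (F : Cf) (R C : ℝ) : Prop where
  res : (1 / 2 : ℝ) ^ ((F.m : ℝ) + R * F.M) ≤ F.r
  card : (F.I.card : ℝ) ≤ (2:ℝ) ^ (C * F.M)

variable {F : Cf} {R C : ℝ}

theorem Cf.Sz.resX (h : F.Sz R C) : (2:ℝ) ^ (-(R * F.M)) ≤ F.r * 2 ^ F.m := by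
  have h1 := h.res
  have e1 : (1 / 2 : ℝ) ^ ((F.m : ℝ) + R * F.M) = 2 ^ (-(R * F.M)) / 2 ^ F.m := by
    rw [one_div, Real.inv_rpow (by norm_num), ← Real.rpow_neg (by norm_num), neg_add,
      Real.rpow_add (by norm_num), Real.rpow_neg (by norm_num), Real.rpow_natCast]
    ring
  rw [e1, div_le_iff₀ (by positivity)] at h1
  exact h1

theorem logb_ge {X e : ℝ} (h : (2:ℝ) ^ e ≤ X) : e ≤ Real.logb 2 X := by
  rw [Real.le_logb_iff_rpow_le one_lt_two (lt_of_lt_of_le (by positivity) h)]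
  exact h

/-- change of the penalty -/
theorem Cf.Ok.shift {p : ℝ} (h : F.Ok p) (hS : F.Sz R C) (hR : 0 ≤ R) (p' : ℝ) :
    ∃ F' : Cf, F'.Ok p' ∧ F'.Sz R C ∧ F'.m = F.m ∧ F'.M = F.M ∧ F'.r = F.r ∧ F'.I = F.I ∧
      F'.cl = F.cl ∧ F'.K = F.K ∧ F'.nu = F.nu ∧ F.val - R * |p - p'| ≤ F'.val := by
  classical
  have hr := h.r0
  have hM : (1:ℝ) ≤ F.M := by exact_mod_cast h.M1
  have hD0 := h.D0p'
  have hD1 := h.D1p
  have hnu := h.nup
  have hX0 : 0 < F.r * 2 ^ F.m := by positivity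
  have hX := logb_ge hS.resX
  have hpos : 0 < F.D1 * F.nu ^ 2 / (4 ^ F.M * F.D0) := by positivity
  rcases le_or_gt p p' with hp | hp
  · -- larger penalty
    set Z : ℝ := (F.r * 2 ^ F.m) ^ (p' - p) with hZ
    have hZ0 : 0 < Z := Real.rpow_pos_of_pos hX0 _
    refine ⟨{F with D0 := F.D0 / Z}, ⟨h.M1, h.r0, h.rle, h.ne, h.cell, h.D1p, h.nup, h.legal,
      h.mem, ?_, h.own, ?_⟩, ⟨hS.res, hS.card⟩, rfl, rfl, rfl, rfl, rfl, rfl, rfl, ?_⟩
    · intro x hx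
      refine le_trans ?_ (h.low x hx)
      show F.D1 * cap p' F.top (F.K (F.cl (ob F.top x))) ≤ _
      have hl := h.legal x hx
      have hw1 : 0 < (F.K (F.cl (ob F.top x))).w1 := hr.trans_le hl.r1
      have hw2 : 0 < (F.K (F.cl (ob F.top x))).w2 := hw1.trans_le hl.w12
      unfold cap
      have h1 : (F.K (F.cl (ob F.top x))).w2 * 2 ^ F.top ≤ 1 := by
        have := hl.w2
        rwa [le_div_iff₀ (by positivity)] at this
      have h2 := Real.rpow_le_rpow_of_exponent_ge (by positivity) h1 hp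
      gcongr
    · intro K hK
      show ((objs F.m F.I K).card : ℝ) ≤ F.D0 / Z * cap p' F.m K
      refine (h.up K hK).trans ?_
      have hw1 : 0 < K.w1 := hr.trans_le hK.r1
      have hw2 : 0 < K.w2 := hw1.trans_le hK.w12
      unfold cap
      have hy : 0 < K.w2 * 2 ^ F.m := by positivity
      have e1 : (K.w2 * 2 ^ F.m) ^ p' = (K.w2 * 2 ^ F.m) ^ p * (K.w2 * 2 ^ F.m) ^ (p' - p) := by
        rw [← Real.rpow_add hy]; ring_nf
      have h3 : Z ≤ (K.w2 * 2 ^ F.m) ^ (p' - p) := by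
        refine Real.rpow_le_rpow hX0.le ?_ (by linarith)
        have := hK.r1.trans hK.w12
        gcongr
      rw [e1, div_mul_eq_mul_div, le_div_iff₀ hZ0]
      calc F.D0 * (K.w1 * K.w2 * (K.w2 * 2 ^ F.m) ^ p) * Z ≤
            F.D0 * (K.w1 * K.w2 * (K.w2 * 2 ^ F.m) ^ p) * (K.w2 * 2 ^ F.m) ^ (p' - p) := by
            gcongr
        _ = _ := by ring
    · unfold Cf.val
      show Real.logb 2 (F.D1 * F.nu ^ 2 / (4 ^ F.M * F.D0)) / F.M - R * |p - p'| ≤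
        Real.logb 2 (F.D1 * F.nu ^ 2 / (4 ^ F.M * (F.D0 / Z))) / F.M
      have e1 : F.D1 * F.nu ^ 2 / (4 ^ F.M * (F.D0 / Z)) =
          (F.D1 * F.nu ^ 2 / (4 ^ F.M * F.D0)) * Z := by field_simp
      rw [e1, Real.logb_mul hpos.ne' hZ0.ne', add_div, hZ,
        Real.logb_rpow_eq_mul_logb_of_pos hX0]
      have h4 : (p' - p) * (-(R * F.M)) ≤ (p' - p) * Real.logb 2 (F.r * 2 ^ F.m) :=
        mul_le_mul_of_nonneg_left hX (by linarith)
      have h5 : -(R * |p - p'|) ≤ (p' - p) * Real.logb 2 (F.r * 2 ^ F.m) / F.M := by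
        rw [le_div_iff₀ (by linarith), abs_of_nonpos (by linarith)]
        linarith
      linarith
  · -- smaller penalty
    have hY0 : 0 < F.r * 2 ^ F.top := by positivity
    have hXY : F.r * 2 ^ F.m ≤ F.r * 2 ^ F.top := by
      have : (2:ℝ) ^ F.m ≤ 2 ^ F.top := pow_le_pow_right₀ one_le_two (Nat.le_add_right _ _)
      gcongr
    have hY : -(R * F.M) ≤ Real.logb 2 (F.r * 2 ^ F.top) :=
      hX.trans (Real.logb_le_logb_of_le one_lt_two hX0 hXY)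
    set Z : ℝ := (F.r * 2 ^ F.top) ^ (p - p') with hZ
    have hZ0 : 0 < Z := Real.rpow_pos_of_pos hY0 _
    refine ⟨{F with D1 := F.D1 * Z}, ⟨h.M1, h.r0, h.rle, h.ne, h.cell, by
      show 0 < F.D1 * Z; positivity, h.nup, h.legal,
      h.mem, ?_, h.own, ?_⟩, ⟨hS.res, hS.card⟩, rfl, rfl, rfl, rfl, rfl, rfl, rfl, ?_⟩
    · intro x hx
      refine le_trans ?_ (h.low x hx)
      show F.D1 * Z * cap p' F.top (F.K (F.cl (ob F.top x))) ≤ _
      have hl := h.legal x hx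
      have hw1 : 0 < (F.K (F.cl (ob F.top x))).w1 := hr.trans_le hl.r1
      have hw2 : 0 < (F.K (F.cl (ob F.top x))).w2 := hw1.trans_le hl.w12
      unfold cap
      set K := F.K (F.cl (ob F.top x)) with hK
      have hy : 0 < K.w2 * 2 ^ F.top := by positivity
      have e1 : (K.w2 * 2 ^ F.top) ^ p = (K.w2 * 2 ^ F.top) ^ p' * (K.w2 * 2 ^ F.top) ^ (p - p') := by
        rw [← Real.rpow_add hy]; ring_nf
      have h3 : Z ≤ (K.w2 * 2 ^ F.top) ^ (p - p') := by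
        refine Real.rpow_le_rpow hY0.le ?_ (by linarith)
        have := hl.r1.trans hl.w12
        gcongr
      rw [e1]
      calc F.D1 * Z * (K.w1 * K.w2 * (K.w2 * 2 ^ F.top) ^ p') =
            F.D1 * (K.w1 * K.w2 * (K.w2 * 2 ^ F.top) ^ p') * Z := by ring
        _ ≤ F.D1 * (K.w1 * K.w2 * (K.w2 * 2 ^ F.top) ^ p') * (K.w2 * 2 ^ F.top) ^ (p - p') := by
            gcongr
        _ = _ := by ring
    · intro K hK
      show ((objs F.m F.I K).card : ℝ) ≤ F.D0 * cap p' F.m K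
      refine (h.up K hK).trans ?_
      have hw1 : 0 < K.w1 := hr.trans_le hK.r1
      have hw2 : 0 < K.w2 := hw1.trans_le hK.w12
      unfold cap
      have h1 : K.w2 * 2 ^ F.m ≤ 1 := by
        have := hK.w2
        rwa [le_div_iff₀ (by positivity)] at this
      have h2 := Real.rpow_le_rpow_of_exponent_ge (by positivity) h1 hp.le
      gcongr
    · unfold Cf.val
      show Real.logb 2 (F.D1 * F.nu ^ 2 / (4 ^ F.M * F.D0)) / F.M - R * |p - p'| ≤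
        Real.logb 2 (F.D1 * Z * F.nu ^ 2 / (4 ^ F.M * F.D0)) / F.M
      have e1 : F.D1 * Z * F.nu ^ 2 / (4 ^ F.M * F.D0) =
          (F.D1 * F.nu ^ 2 / (4 ^ F.M * F.D0)) * Z := by field_simp
      rw [e1, Real.logb_mul hpos.ne' hZ0.ne', add_div, hZ,
        Real.logb_rpow_eq_mul_logb_of_pos hY0]
      have h4 : (p - p') * (-(R * F.M)) ≤ (p - p') * Real.logb 2 (F.r * 2 ^ F.top) :=
        mul_le_mul_of_nonneg_left hY (by linarith)
      have h5 : -(R * |p - p'|) ≤ (p - p') * Real.logb 2 (F.r * 2 ^ F.top) / F.M := by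
        rw [le_div_iff₀ (by linarith), abs_of_nonneg (by linarith)]
        linarith
      linarith

/-- value at a penalty `p ≤ 2` -/
theorem Cf.Ok.val_le_sub {p : ℝ} (h : F.Ok p) (hS : F.Sz R C) (hR : 0 ≤ R) (hp : p ≤ 2) :
    F.val ≤ R * (2 - p) + 13 / F.M := by
  obtain ⟨F', h', -, -, hM, -, -, -, -, -, hv⟩ := h.shift hS hR 2
  have := h'.val_two
  rw [hM] at this
  have e : |p - 2| = 2 - p := by rw [abs_of_nonpos (by linarith)]; ring
  rw [e] at hv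
  linarith

/-- **JOINT CHOICE of the penalty** (with the bound `g0 ≤ β + κ (q - 2)`) -/
theorem joint' (hK : ¬ KMseq) : ∃ q0 κ g0 : ℝ, 0 < q0 ∧ q0 ≤ 1 ∧ 0 < κ ∧ 0 < g0 ∧
    ∀ R C : ℝ, 1 ≤ R → 5 ≤ C → ∃ q β : ℝ, q0 ≤ q ∧ q ≤ 2 - g0 / R ∧ g0 ≤ β + κ * (q - 2) ∧
      (∀ η : ℝ, 0 < η → ∃ M0 : ℕ, ∀ p, q0 ≤ p → p ≤ 2 → ∀ F : Cf, F.Ok p → M0 ≤ F.M →
        F.Sz R C → F.val ≤ β + κ * (q - p) + η) ∧
      (∀ η : ℝ, 0 < η → ∀ M0 : ℕ, ∃ F : Cf, F.Ok q ∧ M0 ≤ F.M ∧ F.Sz R C ∧ β - η ≤ F.val) := by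
  classical
  obtain ⟨b0, hb0, hen⟩ := enemy hK
  set q0 : ℝ := min (b0 / 2) 1 with hq0
  have hq0p : 0 < q0 := lt_min (by linarith) one_pos
  have hq01 : q0 ≤ 1 := min_le_right _ _
  have hq0b : q0 ≤ b0 / 2 := min_le_left _ _
  set g0 : ℝ := b0 / 4 with hg0
  set κ : ℝ := b0 / 8 with hκ
  have hκ0 : 0 < κ := by positivity
  refine ⟨q0, κ, g0, hq0p, hq01, hκ0, by positivity, fun R C hR hC => ?_⟩
  have hR0 : 0 ≤ R := by linarith
  -- the set of asymptotic values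
  set V : Set ℝ := {y | ∀ M0 : ℕ, ∃ (F : Cf) (p : ℝ), q0 ≤ p ∧ p ≤ 2 ∧ F.Ok p ∧ M0 ≤ F.M ∧
    F.Sz R C ∧ y ≤ F.val + κ * p} with hV
  have hVmem : b0 / 2 + κ * q0 ∈ V := by
    intro M0
    obtain ⟨F, hF, hM, hm, hr, hc, hv⟩ := hen q0 hq0p.le M0
    have hM1 : (1:ℝ) ≤ F.M := by exact_mod_cast hF.M1
    refine ⟨F, q0, le_rfl, by linarith, hF, hM, ⟨?_, ?_⟩, by linarith⟩
    · rw [hm, hr, Nat.cast_zero, zero_add, ← one_div_pow, ← Real.rpow_natCast]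
      refine Real.rpow_le_rpow_of_exponent_ge (by norm_num) (by norm_num) ?_
      nlinarith
    · refine hc.trans ?_
      rw [← Real.rpow_natCast]
      refine Real.rpow_le_rpow_of_exponent_le one_le_two ?_
      push_cast
      nlinarith
  have hVb : ∀ y ∈ V, y ≤ 2 * R + 13 + 2 * κ := by
    intro y hy
    obtain ⟨F, p, h1, h2, h3, h4, h5, h6⟩ := hy 0
    have h7 := h3.val_le_sub h5 hR0 h2
    have hM1 : (1:ℝ) ≤ F.M := by exact_mod_cast h3.M1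
    have h8 : 13 / (F.M : ℝ) ≤ 13 := by rw [div_le_iff₀ (by linarith)]; linarith
    have h9 : κ * p ≤ κ * 2 := mul_le_mul_of_nonneg_left h2 hκ0.le
    have h10 : R * (2 - p) ≤ R * 2 := mul_le_mul_of_nonneg_left (by linarith) hR0
    linarith
  have hbdd : BddAbove V := ⟨_, hVb⟩
  set S : ℝ := sSup V with hS
  have hSge : b0 / 2 + κ * q0 ≤ S := le_csSup hbdd hVmem
  -- near-optimal configurations
  have hnear : ∀ n : ℕ, ∃ (F : Cf) (p : ℝ), q0 ≤ p ∧ p ≤ 2 ∧ F.Ok p ∧ n ≤ F.M ∧ F.Sz R C ∧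
      S - 1 / ((n:ℝ) + 1) ≤ F.val + κ * p := by
    intro n
    obtain ⟨y, hy, hlt⟩ := exists_lt_of_lt_csSup ⟨_, hVmem⟩
      (show S - 1 / ((n:ℝ) + 1) < S by have : (0:ℝ) < 1 / ((n:ℝ) + 1) := by positivity
                                       linarith)
    obtain ⟨F, p, h1, h2, h3, h4, h5, h6⟩ := hy n
    exact ⟨F, p, h1, h2, h3, h4, h5, hlt.le.trans h6⟩
  choose G P hP1 hP2 hOk hGM hSz hval using hnear
  -- convergent subsequence of the penalties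
  obtain ⟨q, hq, φ, hφ, hlim⟩ := (isCompact_Icc (a := q0) (b := (2:ℝ))).tendsto_subseq
    (fun n => ⟨hP1 n, hP2 n⟩ : ∀ n, P n ∈ Set.Icc q0 2)
  have hEX : ∀ η : ℝ, 0 < η → ∀ M0 : ℕ, ∃ F : Cf, F.Ok q ∧ M0 ≤ F.M ∧ F.Sz R C ∧
      S - κ * q - η ≤ F.val := by
    intro η hη M0
    have h1 : ∀ᶠ n in Filter.atTop, |P (φ n) - q| < η / (2 * (R + κ)) := by
      have := Metric.tendsto_atTop.1 hlim (η / (2 * (R + κ))) (by positivity)
      obtain ⟨N, hN⟩ := this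
      exact Filter.eventually_atTop.2 ⟨N, fun n hn => by
        have := hN n hn; rwa [Real.dist_eq] at this⟩
    have h2 : ∀ᶠ n in Filter.atTop, 1 / ((φ n : ℝ) + 1) < η / 2 := by
      have := (tendsto_one_div_add_atTop_nhds_zero_nat (𝕜 := ℝ)).comp hφ.tendsto_atTop
      exact this.eventually_lt_const (by linarith)
    have h3 : ∀ᶠ n in Filter.atTop, M0 ≤ φ n := hφ.tendsto_atTop.eventually_ge_atTop M0
    obtain ⟨n, e1, e2, e3⟩ := (h1.and (h2.and h3)).exists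
    obtain ⟨F', hF', hSz', -, hM', -, -, -, -, -, hv'⟩ := (hOk (φ n)).shift (hSz (φ n)) hR0 q
    refine ⟨F', hF', ?_, hSz', ?_⟩
    · rw [hM']; exact e3.trans (hGM _)
    · have h4 := hval (φ n)
      have h5 : (R + κ) * |P (φ n) - q| ≤ η / 2 := by
        have h6 : (R + κ) * |P (φ n) - q| ≤ (R + κ) * (η / (2 * (R + κ))) := by
          have : 0 ≤ R + κ := by linarith
          gcongr
        have h7 : (R + κ) * (η / (2 * (R + κ))) = η / 2 := by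
          have : R + κ ≠ 0 := by positivity
          field_simp
        linarith
      have h8 : κ * (P (φ n) - q) ≤ κ * |P (φ n) - q| :=
        mul_le_mul_of_nonneg_left (le_abs_self _) hκ0.le
      have h9 : (R + κ) * |P (φ n) - q| = R * |P (φ n) - q| + κ * |P (φ n) - q| := by ring
      linarith
  have hβ2 : g0 ≤ S - κ * q + κ * (q - 2) := by
    have h2 : 0 ≤ κ * q0 := by positivity
    have h3 : κ * 2 = b0 / 4 := by rw [hκ]; ring
    have h4 : κ * (q - 2) = κ * q - κ * 2 := by ring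
    rw [hg0]; linarith
  have hβ : g0 ≤ S - κ * q := by
    have h1 : κ * (q - 2) ≤ 0 := mul_nonpos_of_nonneg_of_nonpos hκ0.le (by linarith [hq.2])
    linarith
  refine ⟨q, S - κ * q, hq.1, ?_, hβ2, ?_, hEX⟩
  · -- `q ≤ 2 - g0 / R`
    have h1 : g0 ≤ R * (2 - q) := by
      refine le_of_forall_pos_le_add fun η hη => ?_
      obtain ⟨M0, hM0⟩ := exists_nat_gt (13 / (η / 2))
      obtain ⟨F, hF, hM, hFS, hv⟩ := hEX (η / 2) (by linarith) (M0 + 1)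
      have h2 := hF.val_le_sub hFS hR0 hq.2
      have h3 : 13 / (F.M : ℝ) ≤ η / 2 := by
        have hM' : (M0 : ℝ) + 1 ≤ F.M := by exact_mod_cast hM
        have hM0' : (0:ℝ) ≤ M0 := Nat.cast_nonneg _
        rw [div_lt_iff₀ (by linarith)] at hM0
        rw [div_le_iff₀ (by linarith)]
        nlinarith
      linarith
    have h2 : g0 / R ≤ 2 - q := by rw [div_le_iff₀ (by linarith)]; linarith
    linarith
  · -- upper bound
    intro η hη
    by_contra hcon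
    push Not at hcon
    have hmem : S + η ∈ V := by
      intro M0
      obtain ⟨p, h1, h2, F, h3, h4, h5, h6⟩ := hcon M0
      refine ⟨F, p, h1, h2, h3, h4, h5, ?_⟩
      have : κ * (q - p) = κ * q - κ * p := by ring
      linarith
    have := le_csSup hbdd hmem
    linarith

/-- **JOINT CHOICE of the penalty** -/
theorem joint (hK : ¬ KMseq) : ∃ q0 κ g0 : ℝ, 0 < q0 ∧ q0 ≤ 1 ∧ 0 < κ ∧ 0 < g0 ∧
    ∀ R C : ℝ, 1 ≤ R → 5 ≤ C → ∃ q β : ℝ, q0 ≤ q ∧ q ≤ 2 - g0 / R ∧ g0 ≤ β ∧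
      (∀ η : ℝ, 0 < η → ∃ M0 : ℕ, ∀ p, q0 ≤ p → p ≤ 2 → ∀ F : Cf, F.Ok p → M0 ≤ F.M →
        F.Sz R C → F.val ≤ β + κ * (q - p) + η) ∧
      (∀ η : ℝ, 0 < η → ∀ M0 : ℕ, ∃ F : Cf, F.Ok q ∧ M0 ≤ F.M ∧ F.Sz R C ∧ β - η ≤ F.val) := by
  obtain ⟨q0, κ, g0, h1, h2, h3, h4, h5⟩ := joint' hK
  refine ⟨q0, κ, g0, h1, h2, h3, h4, fun R C hR hC => ?_⟩
  obtain ⟨q, β, h6, h7, h8, h9⟩ := h5 R C hR hC
  refine ⟨q, β, h6, h7, ?_, h9⟩
  have hq2 : q ≤ 2 := by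
    have : 0 ≤ g0 / R := by positivity
    linarith
  have := mul_nonpos_of_nonneg_of_nonpos h3.le (by linarith : q - 2 ≤ 0)
  linarith

/-- asymptotic bound for all configurations of size `(R, C)` at the penalty `p` -/
def Bd (p b R C : ℝ) : Prop := ∀ η : ℝ, 0 < η → ∃ M0 : ℕ, ∀ F : Cf, F.Ok p → M0 ≤ F.M →
  F.Sz R C → F.val ≤ b + η

theorem Cf.Sz.mono {R' C' : ℝ} (h : F.Sz R C) (hR : R ≤ R') (hC : C ≤ C') : F.Sz R' C' := by
  have hM : (0:ℝ) ≤ F.M := Nat.cast_nonneg _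
  refine ⟨le_trans ?_ h.res, h.card.trans ?_⟩
  · exact Real.rpow_le_rpow_of_exponent_ge (by norm_num) (by norm_num)
      (by have := mul_le_mul_of_nonneg_right hR hM; linarith)
  · exact Real.rpow_le_rpow_of_exponent_le one_le_two (mul_le_mul_of_nonneg_right hC hM)

theorem Bd.mono {p b b' R' C' : ℝ} (h : Bd p b R C) (hb : b ≤ b') (hR : R' ≤ R) (hC : C' ≤ C) :
    Bd p b' R' C' := by
  intro η hη
  obtain ⟨M0, h0⟩ := h η hη
  exact ⟨M0, fun F hF hM hS => (h0 F hF hM (hS.mono hR hC)).trans (by linarith)⟩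

/-- **X1 input, all sizes**: `hN` = NORM (70), `hB` = bundle lemma (926). -/
theorem joint_all (hK : ¬ KMseq)
    (hN : ∀ q0 : ℝ, 0 < q0 → ∃ L0 : ℝ, ∀ p, q0 ≤ p → p ≤ 2 → ∀ b : ℝ, 0 ≤ b → ∀ C : ℝ,
      Bd p b L0 C → ∀ R, Bd p b R C)
    (hB : ∀ L0 q0 : ℝ, 0 < q0 → ∃ C0 : ℝ, ∀ p, q0 ≤ p → p ≤ 2 → ∀ b : ℝ, 0 ≤ b →
      Bd p b L0 C0 → ∀ C, Bd p b L0 C) :
    ∃ q0 κ q β R0 C0 : ℝ, 0 < q0 ∧ 0 < κ ∧ 0 < β ∧ q0 ≤ q ∧ q < 2 ∧
      (∀ p, q0 ≤ p → p ≤ 2 → ∀ R C, Bd p (β + κ * (q - p)) R C) ∧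
      (∀ η : ℝ, 0 < η → ∀ M0 : ℕ, ∃ F : Cf, F.Ok q ∧ M0 ≤ F.M ∧ F.Sz R0 C0 ∧ β - η ≤ F.val) := by
  obtain ⟨q0, κ, g0, h1, h2, h3, h4, h5⟩ := joint' hK
  obtain ⟨L0, hL⟩ := hN q0 h1
  obtain ⟨C1, hC1⟩ := hB (max L0 1) q0 h1
  set L : ℝ := max L0 1 with hLdef
  have hL1 : 1 ≤ L := le_max_right _ _
  obtain ⟨q, β, h6, h7, h8, h9, h10⟩ := h5 L (max C1 5) hL1 (le_max_right _ _)
  have hq2 : q < 2 := by
    have : 0 < g0 / L := by positivity
    linarith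
  have hβ : g0 ≤ β := by
    have := mul_nonpos_of_nonneg_of_nonpos h3.le (by linarith : q - 2 ≤ 0)
    linarith
  refine ⟨q0, κ, q, β, L, max C1 5, h1, h3, by linarith, h6, hq2, ?_, h10⟩
  intro p hp1 hp2 R C
  have hb : 0 ≤ β + κ * (q - p) := by
    have := mul_le_mul_of_nonneg_left (by linarith : q - 2 ≤ q - p) h3.le
    linarith
  have e1 : Bd p (β + κ * (q - p)) L (max C1 5) := by
    intro η hη
    obtain ⟨M0, h0⟩ := h9 η hη
    exact ⟨M0, fun F hF hM hS => h0 p hp1 hp2 F hF hM hS⟩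
  have e2 := hC1 p hp1 hp2 _ hb (e1.mono le_rfl le_rfl (le_max_left _ _)) C
  exact hL p hp1 hp2 _ hb C (e2.mono le_rfl (le_max_left _ _) le_rfl) R

end

end Crest.Agent.R138.K294
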