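import Crest.Agent.R138.NormA_70
import Crest.Agent.R138.Jc_294
import Crest.Agent.R138.Ps3b_926

/-!
# R138: NORM in the form `hN` of `joint_all` / `ubx` (helper70)
-/

set_option autoImplicit false
set_option linter.unusedVariables false

open Finset

namespace Crest.Agent.R138.Norm70

open Crest.Agent.R138.K294

/-- **NORM**, form `hN` of `K294.ubx`: the bound at resolution `L0 = 5/q0 + 5` holds at every
resolution. -/
theorem hN926 (q0 : ℝ) (hq0 : 0 < q0) : ∃ L0 : ℝ, ∀ p, q0 ≤ p → p ≤ 2 → ∀ b : ℝ, 0 ≤ b →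
    ∀ C : ℝ, Ps926.Bd p b L0 C → ∀ R, Ps926.Bd p b R C := by
  refine ⟨5 / q0 + 5, fun p hp1 hp2 b hb C h R η hη => ?_⟩
  obtain ⟨M1, h1⟩ := h (η / 2) (by linarith)
  obtain ⟨M2, h2⟩ := norm_cf hq0 R (half_pos hη)
  refine ⟨max M1 M2, fun F hF hM hR hC => ?_⟩
  rcases le_or_gt 0 F.val with hv | hv
  · obtain ⟨F', g1, g2, g3, g4, g5, g6, -, -⟩ := h2 p hp1 hp2 F hF ((le_max_right _ _).trans hM)
      hR hv
    have g7 : F'.val ≤ b + η / 2 := by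
      refine h1 F' g1 ?_ g4 ?_
      · rw [g3]; exact (le_max_left _ _).trans hM
      · rw [g3]
        exact (Nat.cast_le.2 g5).trans hC
    linarith
  · linarith

/-- the same over `K294.Bd` -/
theorem hN294 (q0 : ℝ) (hq0 : 0 < q0) : ∃ L0 : ℝ, ∀ p, q0 ≤ p → p ≤ 2 → ∀ b : ℝ, 0 ≤ b →
    ∀ C : ℝ, K294.Bd p b L0 C → ∀ R, K294.Bd p b R C := by
  have hh : ∀ x : ℝ, (1 / 2 : ℝ) ^ x = 2 ^ (-x) := fun x => by
    rw [one_div, Real.inv_rpow (by norm_num), ← Real.rpow_neg (by norm_num)]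
  obtain ⟨L0, h0⟩ := hN926 q0 hq0
  refine ⟨L0, fun p hp1 hp2 b hb C h R => ?_⟩
  have e1 : Ps926.Bd p b L0 C := by
    intro η hη
    obtain ⟨M0, k0⟩ := h η hη
    exact ⟨M0, fun F hF hM k1 k2 => k0 F hF hM ⟨by rw [hh]; exact k1, k2⟩⟩
  intro η hη
  obtain ⟨M0, k0⟩ := h0 p hp1 hp2 b hb C e1 R η hη
  exact ⟨M0, fun F hF hM hS => k0 F hF hM (by rw [← hh]; exact hS.res) hS.card⟩

end Crest.Agent.R138.Norm70
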