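import Crest.Agent.R138.X1_248
import Crest.Agent.R138.Ext_615
import Crest.Agent.R138.MkOfXs_501
import Crest.Agent.R138.NormB_70

/-!
# R138, helper248: X1 output, instantiated (`ExtX` 615, `MkOfXs` 501, NORM 70); the bundle lemma
`hB` (926) is the only hypothesis.
-/

set_option autoImplicit false

open Finset

namespace Crest.Agent.R138.X248

open Crest.Agent.R138.Ex926 Crest.Agent.R138.Flag51

/-- the bundle lemma, literal form -/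
def BunX : Prop := ∀ L0 q0 : ℝ, 0 < q0 → ∃ C0 : ℝ, ∀ p, q0 ≤ p → p ≤ 2 → ∀ b : ℝ, 0 ≤ b →
  K294.Bd p b L0 C0 → ∀ C, K294.Bd p b L0 C

theorem mk_of_bun (hK : ¬ GrW294.KMseq) (hB : BunX) :
    ∃ (B : Base) (I : ℕ → Finset (ℕ × ℝ)) (L : ℕ → ℕ → Ln) (lev : ℕ → ℚ → ℕ)
      (r0 A : ℕ → ℝ) (q g : ℝ) (Λ τ : ℝ → ℝ) (f : ℕ → ℚ → ℕ → ℤ → ℕ) (b : ℕ → ℚ → ℕ → Ln)
      (e : ℕ → ℚ → ℕ → E2) (w1 w2 : ℕ → ℚ → ℝ) (κ : ℝ), 0 < κ ∧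
      Mk163.Mk B I L lev r0 A q g Λ τ f b e w1 w2 ∧
      ∀ u v : ℚ, 0 ≤ u → u ≤ v → v ≤ 1 → κ * ((v : ℝ) - u) ≤ τ u - τ v :=
  mk_of_leaves hK Norm70.hN294 hB Ext615.extX mkOfXs

end Crest.Agent.R138.X248
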