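import Crest.Agent.R138.BunB_294
import Crest.Agent.R138.X2_248

/-!
# R138, TEXT I (helper294): NORM + bundle lemma: the bound of one size bounds all sizes;
X1 output unconditional.
-/

set_option autoImplicit false
set_option linter.unusedVariables false

open Finset

namespace Crest.Agent.R138.Bun294

open Crest.Agent.R138.Flag51
open Crest.Agent.R138.K294

/-- logarithm of a monomial is `o(M)` -/
theorem logb_small (A : ℝ) (hA : 0 < A) (k : ℕ) {η : ℝ} (hη : 0 < η) :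
    ∃ M0 : ℕ, ∀ M : ℕ, M0 ≤ M → 1 ≤ M → Real.logb 2 (A * (M:ℝ) ^ k) / (M:ℝ) ≤ η := by
  have hlim : Filter.Tendsto (fun M : ℕ => Real.logb 2 (A * (M:ℝ) ^ k) / (M:ℝ))
      Filter.atTop (nhds 0) := by
    have h1 : Filter.Tendsto (fun x : ℝ => Real.log x / x) Filter.atTop (nhds 0) := by
      have := Real.isLittleO_log_id_atTop.tendsto_div_nhds_zero
      simpa using this
    have h2 := h1.comp (tendsto_natCast_atTop_atTop (R := ℝ))
    have h3 : Filter.Tendsto (fun M : ℕ => (Real.log A) * (1 / (M:ℝ)))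
        Filter.atTop (nhds ((Real.log A) * 0)) :=
      tendsto_one_div_atTop_nhds_zero_nat.const_mul _
    have h4 := (h3.add (h2.const_mul (k:ℝ))).div_const (Real.log 2)
    simp only [mul_zero, add_zero, zero_div] at h4
    refine h4.congr' ?_
    filter_upwards [Filter.eventually_ge_atTop 1] with M hM
    have hM' : (0:ℝ) < M := by exact_mod_cast hM
    simp only [Function.comp]
    have e0 : Real.log (A * (M:ℝ) ^ k) = Real.log A + k * Real.log M := by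
      rw [Real.log_mul hA.ne' (by positivity), Real.log_pow]
    rw [Real.logb, e0]
    field_simp
  obtain ⟨M0, hM0⟩ := Filter.eventually_atTop.1 (hlim.eventually_le_const hη)
  exact ⟨M0, fun M hM _ => hM0 M hM⟩

/-- **the bound for one size bounds all sizes** -/
theorem bd_all {q0 : ℝ} (hq0 : 0 < q0) : ∃ L0 C0 : ℝ, ∀ p, q0 ≤ p → p ≤ 2 → ∀ b : ℝ, 0 ≤ b →
    Bd p b L0 C0 → ∀ R C, Bd p b R C := by
  set L0 : ℝ := 5 / q0 + 5 with hL0
  have hL0p : 0 < L0 := by positivity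
  refine ⟨L0, 4 * L0 + 2, fun p hp0 hp2 b hb hbd R C η hη => ?_⟩
  obtain ⟨M1, h1⟩ := Norm70.norm_cf hq0 R (η := η / 3) (by linarith)
  obtain ⟨M2, h2⟩ := logb_small (1875 * (2304 * (|C| + 1) ^ 4) ^ 4) (by positivity) 16
    (η := η / 3) (by linarith)
  obtain ⟨M3, h3⟩ := hbd (η / 3) (by linarith)
  refine ⟨max (max M1 M2) (max M3 23), fun F hF hM hS => ?_⟩
  have hM1 : M1 ≤ F.M := (le_max_left _ _).trans ((le_max_left _ _).trans hM)
  have hM2 : M2 ≤ F.M := (le_max_right _ _).trans ((le_max_left _ _).trans hM)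
  have hM3 : M3 ≤ F.M := (le_max_left _ _).trans ((le_max_right _ _).trans hM)
  have hM4 : 23 ≤ F.M := (le_max_right _ _).trans ((le_max_right _ _).trans hM)
  by_contra hcon
  push Not at hcon
  have hMp : (1:ℝ) ≤ F.M := by exact_mod_cast hF.M1
  have hM23 : (23:ℝ) ≤ F.M := by exact_mod_cast hM4
  have hp0' : 0 ≤ p := hq0.le.trans hp0
  obtain ⟨F1, hF1, e1, e2, e3, e4, e5, e6, e7⟩ := h1 p hp0 hp2 F hF hM1
    (by rw [← half_rpow]; exact hS.res) (by linarith)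
  have etop : F1.top = F.top := by unfold Cf.top; rw [e1, e2]
  obtain ⟨F2, hF2, f1, f2, f3, f4, f5⟩ := bun_cf hF1 hp0' hp2 (by rw [etop]; exact e6)
    (by rw [e1]; exact e7)
  have hr1 := hF1.r0
  -- size
  have hX : 1 / (2 ^ F1.m * F1.r) ≤ 2 ^ (L0 * F.M) := by
    rw [div_le_iff₀ (by positivity)]
    have k1 : (2:ℝ) ^ (-((F1.m:ℝ) + L0 * F1.M)) ≤ F1.r := e3
    have k2 : (2:ℝ) ^ (-((F1.m:ℝ) + L0 * F1.M)) = 2 ^ (-(L0 * F.M)) / 2 ^ F1.m := by
      rw [e2, neg_add, Real.rpow_add (by norm_num), Real.rpow_neg (by norm_num) (F1.m : ℝ),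
        Real.rpow_natCast]
      ring
    rw [k2, div_le_iff₀ (by positivity)] at k1
    have k3 : (1:ℝ) = 2 ^ (L0 * F.M) * 2 ^ (-(L0 * F.M)) := by
      rw [← Real.rpow_add (by norm_num)]; simp
    calc (1:ℝ) = 2 ^ (L0 * F.M) * 2 ^ (-(L0 * F.M)) := k3
      _ ≤ 2 ^ (L0 * F.M) * (F1.r * 2 ^ F1.m) := by gcongr
      _ = 2 ^ (L0 * F.M) * (2 ^ F1.m * F1.r) := by ring
  have hSz : F2.Sz L0 (4 * L0 + 2) := by
    refine ⟨?_, ?_⟩
    · rw [half_rpow, f1, f2, f3]; exact e3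
    · refine f4.trans ?_
      rw [f2, e2]
      calc 2 ^ 23 * (1 / (2 ^ F1.m * F1.r)) ^ 4 * 2 ^ F.M ≤
            2 ^ 23 * (2 ^ (L0 * F.M)) ^ 4 * 2 ^ F.M := by
            gcongr
        _ = 2 ^ ((23:ℝ) + L0 * F.M * 4 + F.M) := by
            rw [Real.rpow_add (by norm_num), Real.rpow_add (by norm_num),
              Real.rpow_mul (by norm_num) (L0 * F.M) 4, Real.rpow_natCast]
            norm_num
        _ ≤ 2 ^ ((4 * L0 + 2) * F.M) := by
            refine Real.rpow_le_rpow_of_exponent_le one_le_two ?_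
            linarith
  have h4 := h3 F2 hF2 (by rw [f2, e2]; exact hM3) hSz
  -- value
  have hD0 := hF1.D0p'
  have hD1 := hF1.D1p
  have hnu := hF1.nup
  have hlos := los_pos F1
  have hV : 0 < F1.D1 * F1.nu ^ 2 / (4 ^ F1.M * F1.D0) := by positivity
  have h5 : F1.val - η / 3 ≤ F2.val := by
    unfold Cf.val
    rw [f2, e2]
    rw [f2, e2] at f5
    rw [e2] at hV
    have k1 := Real.logb_le_logb_of_le one_lt_two (by positivity) f5
    rw [Real.logb_mul (by positivity) hV.ne', Real.logb_div (by positivity) (by norm_num)] at k1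
    -- the loss
    have k2 : -(Real.logb 2 (1875 * (2304 * (|C| + 1) ^ 4) ^ 4 * (F.M : ℝ) ^ 16)) ≤
        Real.logb 2 (los F1 ^ 4) - Real.logb 2 1875 := by
      rw [← Real.logb_div (by positivity) (by norm_num), ← Real.logb_inv]
      refine Real.logb_le_logb_of_le one_lt_two (by positivity) ?_
      have k3 : (Nat.log 2 F1.I.card : ℝ) + 1 ≤ (|C| + 1) * F.M := by
        have k4 : Nat.log 2 F1.I.card ≤ Nat.log 2 F.I.card := Nat.log_mono_right e4
        have k5 : (2:ℝ) ^ (Nat.log 2 F.I.card : ℝ) ≤ 2 ^ (C * F.M) := by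
          rw [Real.rpow_natCast]
          refine le_trans ?_ hS.card
          exact_mod_cast Nat.pow_log_le_self 2 hF.ne.card_pos.ne'
        have k6 := (Real.rpow_le_rpow_left_iff one_lt_two).1 k5
        have k7 : C * F.M ≤ |C| * F.M := mul_le_mul_of_nonneg_right (le_abs_self C) (by linarith)
        have k8 : (Nat.log 2 F1.I.card : ℝ) ≤ Nat.log 2 F.I.card := by exact_mod_cast k4
        have : (|C| + 1) * (F.M : ℝ) = |C| * F.M + F.M := by ring
        rw [this]; linarith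
      have k9 : los F1 ^ 4 / 1875 =
          (1875 * (2304 * ((Nat.log 2 F1.I.card : ℝ) + 1) ^ 4) ^ 4)⁻¹ := by
        unfold los; field_simp
      rw [k9]
      have k10 : 1875 * (2304 * ((Nat.log 2 F1.I.card : ℝ) + 1) ^ 4) ^ 4 ≤
          1875 * (2304 * (|C| + 1) ^ 4) ^ 4 * (F.M : ℝ) ^ 16 := by
        calc 1875 * (2304 * ((Nat.log 2 F1.I.card : ℝ) + 1) ^ 4) ^ 4 ≤
              1875 * (2304 * ((|C| + 1) * F.M) ^ 4) ^ 4 := by gcongr
          _ = _ := by ring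
      exact inv_anti₀ (by positivity) k10
    have k11 := h2 F.M hM2 hF.M1
    rw [div_le_iff₀ (by linarith)] at k11
    rw [sub_le_iff_le_add, div_le_iff₀ (by linarith), add_mul, div_mul_cancel₀ _ (by linarith)]
    linarith
  linarith

/-- X1 input, all sizes, unconditional -/
theorem joint_full (hK : ¬ GrW294.KMseq) :
    ∃ q0 κ q β R0 C0 : ℝ, 0 < q0 ∧ 0 < κ ∧ 0 < β ∧ q0 ≤ q ∧ q < 2 ∧
      (∀ p, q0 ≤ p → p ≤ 2 → ∀ R C, Bd p (β + κ * (q - p)) R C) ∧
      (∀ η : ℝ, 0 < η → ∀ M0 : ℕ, ∃ F : Cf, F.Ok q ∧ M0 ≤ F.M ∧ F.Sz R0 C0 ∧ β - η ≤ F.val) := by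
  obtain ⟨q0, κ, g0, h1, h2, h3, h4, h5⟩ := joint' hK
  obtain ⟨L0, C1, hL⟩ := bd_all h1
  set L : ℝ := max L0 1 with hLdef
  have hL1 : 1 ≤ L := le_max_right _ _
  obtain ⟨q, β, h6, h7, h8, h9, h10⟩ := h5 L (max C1 5) hL1 (le_max_right _ _)
  have hq2 : q < 2 := by
    have : 0 < g0 / L := by positivity
    linarith
  have hβ : g0 ≤ β := by
    have := mul_nonpos_of_nonneg_of_nonpos h3.le (by linarith : q - 2 ≤ 0)
    linarith
  refine ⟨q0, κ, q, β, L, max C1 5, h1, h3, by linarith, h6, hq2, ?_, h10⟩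
  intro p hp1 hp2 R C
  have hb : 0 ≤ β + κ * (q - p) := by
    have := mul_le_mul_of_nonneg_left (by linarith : q - 2 ≤ q - p) h3.le
    linarith
  have e1 : Bd p (β + κ * (q - p)) L (max C1 5) := by
    intro η hη
    obtain ⟨M0, h0⟩ := h9 η hη
    exact ⟨M0, fun F hF hM hS => h0 p hp1 hp2 F hF hM hS⟩
  exact hL p hp1 hp2 _ hb (e1.mono le_rfl (le_max_left _ _) (le_max_left _ _)) R C

open Crest.Agent.R138.Ex926 in
open Crest.Agent.R138.X248 in
/-- **X1 OUTPUT, UNCONDITIONAL**: if `KMseq` fails there is a marked extremal sequence. -/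
theorem exists_mk (hK : ¬ GrW294.KMseq) :
    ∃ (B : Base) (I : ℕ → Finset (ℕ × ℝ)) (L : ℕ → ℕ → Ln) (lev : ℕ → ℚ → ℕ)
      (r0 A : ℕ → ℝ) (q g : ℝ) (Λ τ : ℝ → ℝ) (f : ℕ → ℚ → ℕ → ℤ → ℕ) (b : ℕ → ℚ → ℕ → Ln)
      (e : ℕ → ℚ → ℕ → E2) (w1 w2 : ℕ → ℚ → ℝ) (κ : ℝ), 0 < κ ∧
      Mk163.Mk B I L lev r0 A q g Λ τ f b e w1 w2 ∧
      ∀ u v : ℚ, 0 ≤ u → u ≤ v → v ≤ 1 → κ * ((v : ℝ) - u) ≤ τ u - τ v := by
  obtain ⟨q0, κ, q, β, R0, C0, h0, hκ, hβ, hq, hq2, hub, hex⟩ := joint_full hK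
  obtain ⟨B, m, M, r, I, A, Λ, l, w1, w2, h1, h2, hxs, hsw⟩ :=
    exists_xs (inX_of_joint h0 hκ hβ hq hq2 hub hex) Ext615.extX
  obtain ⟨I', L, f, b, e, hmk⟩ := mkOfXs B m M r I A q β Λ l w1 w2 h1 h2 hxs
  refine ⟨B, I', L, _, r, A, q, β, Λ, _, f, b, e, w1, w2, κ, hκ, hmk, fun u v hu huv hv => ?_⟩
  have := hsw u v hu huv hv
  linarith

end Crest.Agent.R138.Bun294
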