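import Crest.Agent.R138.GenRoot3_639

/-!
# R138 wave side: domination and one step (helper639), part 4: ROOT and GEN over `DecOut`
-/

set_option autoImplicit false

open MeasureTheory FourierTransform
open scoped ContDiff ENNReal

namespace Crest.Agent.R138.GR639

open Crest.Agent.R138.Defs Crest.Agent.R138.Bil882 Crest.Agent.R138.W188
open Crest.Agent.R138.Wpk685 Crest.Agent.R138.W323
open Crest.Agent.R138.T774 (haar3 cyl_eq finrank3)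

/-- the two bounds of the plate functional (conclusion of `Ph_bound`). -/
def PhB (B : ℕ → ℝ) (q : ℝ) (F : ℝ → ℝ → ℝ → (E2 → ℝ) → (E2 → ℂ) → ℝ → ℝ≥0∞) (c β : ℝ) : Prop :=
  ∀ e : ℝ, 0 < e → ∀ (Na : ℕ) (M0 : ℝ), ∃ C : ℝ, 0 ≤ C ∧
      ∀ h g R D, St B q Na M0 1 h g R D → ∀ r s1 s2, R ^ (1/2 : ℝ) ≤ r → r ≤ R ^ (1 - e) →
        Sd r s1 s2 →
        Ph q F r s1 s2 h g R ≤
          ENNReal.ofReal (C * R ^ (2 * e) * (max 1 (R / (s1 * r) ^ 2)) ^ (c / 2) * SS g R D) ∧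
        Ph q F r s1 s2 h g R ≤
          ENNReal.ofReal (C * R ^ (2 * e) * (s2 ^ 2 * R) ^ (β / 2) * SS g R D)

theorem phB {B : ℕ → ℝ} {q : ℝ} {F : ℝ → ℝ → ℝ → (E2 → ℝ) → (E2 → ℂ) → ℝ → ℝ≥0∞} {c β : ℝ}
    (hc : 0 ≤ c) (hβ : 0 ≤ β) (H : LB B q 1 c) (HK : KMw B q)
    (HT : TRIV1 B q) (HE : END B q β) (H5 : A5b B q) (H2 : A2 B q F) (H2K : A2K B q F) :
    PhB B q F c β := Ph_bound hc hβ H HK HT HE H5 H2 H2K

/-- `SS` of a piece is bounded by the coefficient sum. -/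
theorem SS_le_en {q A σ Cn : ℝ} {B : ℕ → ℝ} {nb M : ℕ} {h : E2 → ℝ} {g : E2 → ℂ} {R r : ℝ}
    {z : E2 × ℝ} {cls : OrthonormalBasis (Fin 2) ℝ E2 → ℤ × ℤ → E2 → ℕ}
    {Λ : Finset ℕ} {s : ℕ → ℝ × ℝ} {cl : ℕ → ℕ} {G : ℕ → E2 → ℂ} {D' : ℕ → ℝ} {rest : E2 → ℂ}
    {I : ℕ → Finset ℕ} {P : ℕ → ℕ → Plate} (hr : 0 ≤ r)
    (H : DecOut q A σ Cn B nb M h g R r z cls Λ s cl G D' rest I P) {k : ℕ} (hk : k ∈ Λ) :
    ENNReal.ofReal (SS (G k) r (D' k)) ≤ ENNReal.ofReal Cn *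
      (ENNReal.ofReal (r * Real.sqrt (D' k)) *
        ∑ i ∈ I k, en (r ^ (-(1/2) : ℝ)) (tr h z g) (P k i).S) := by
  have h1 := H.energy k hk
  have e1 : SS (G k) r (D' k) = (r * Real.sqrt (D' k)) * En (G k) := by unfold SS; ring
  rw [e1, ENNReal.ofReal_mul (by positivity)]
  calc ENNReal.ofReal (r * Real.sqrt (D' k)) * ENNReal.ofReal (En (G k))
      ≤ ENNReal.ofReal (r * Real.sqrt (D' k)) * (ENNReal.ofReal Cn *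
        ∑ i ∈ I k, en (r ^ (-(1/2) : ℝ)) (tr h z g) (P k i).S) := by gcongr
    _ = _ := by ring

section main

variable {q A σ Cn : ℝ} {B : ℕ → ℝ} {nb M : ℕ} {h : E2 → ℝ} {g : E2 → ℂ} {R r : ℝ}
    {cls : E2 × ℝ → OrthonormalBasis (Fin 2) ℝ E2 → ℤ × ℤ → E2 → ℕ}
    {Λ : Finset ℕ} {s : ℕ → ℝ × ℝ} {cl : ℕ → ℕ} {G : E2 × ℝ → ℕ → E2 → ℂ}
    {D' : E2 × ℝ → ℕ → ℝ} {rest : E2 × ℝ → E2 → ℂ} {I : E2 × ℝ → ℕ → Finset ℕ}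
    {P : E2 × ℝ → ℕ → ℕ → Plate} {Z : Finset (E2 × ℝ)}

/-- the coefficient sum is bounded by the value of the plate systems. -/
theorem Sk_le_val (hr : 0 < r) (hCn : 0 ≤ Cn)
    (hSd : ∀ k ∈ Λ, Sd r (s k).1 (s k).2)
    (H : ∀ z ∈ Z, DecOut q A σ Cn B nb M h g R r z (cls z) Λ s cl (G z) (D' z) (rest z) (I z)
      (P z)) {k : ℕ} (hk : k ∈ Λ) :
    Sk h g r Z I P D' k ≤ ENNReal.ofReal (Real.sqrt (Cn * nb)) *
      (ENNReal.ofReal ((s k).2 ^ (-q / 2)) *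
        ∑ z ∈ Z, val h g r (s k).1 (s k).2 (I z k) (P z k)) := by
  obtain ⟨hs1, hs2⟩ := (hSd k hk).s2pos hr
  unfold Sk
  rw [Finset.mul_sum, Finset.mul_sum]
  refine Finset.sum_le_sum fun z hz => ?_
  unfold val
  rw [Finset.mul_sum, Finset.mul_sum, Finset.mul_sum]
  refine Finset.sum_le_sum fun i hi => ?_
  rw [((H z hz).pl k hk).2 i hi]
  exact plate_dense hr hs1 hs2 (by positivity) ((H z hz).dense k hk i hi)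

/-- **ROOT, coefficient form.** -/
theorem root_en (hr : 0 < r) (hCn : 0 ≤ Cn)
    (hSd : ∀ k ∈ Λ, Sd r (s k).1 (s k).2) (hsep : ∀ z ∈ Z, ∀ z' ∈ Z, Sep r z z')
    (H : ∀ z ∈ Z, DecOut q A σ Cn B nb M h g R r z (cls z) Λ s cl (G z) (D' z) (rest z) (I z)
      (P z)) {k : ℕ} (hk : k ∈ Λ) :
    Sk h g r Z I P D' k ≤ ENNReal.ofReal (Real.sqrt (Cn * nb)) *
      Ph q (SIG A) r (s k).1 (s k).2 h g R := by
  refine (Sk_le_val hr hCn hSd H hk).trans ?_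
  unfold Ph
  gcongr
  exact sum_val_le_SIG Z hsep (fun z => I z k) (fun z => P z k)
    (fun z hz => ((H z hz).pl k hk).1) (fun z hz => ((H z hz).pl k hk).2) g

end main

/-- **ROOT with the bounds of the plate functional**: thick labels gain through the first bound,
narrow labels through the second one. -/
theorem root_bounds {B : ℕ → ℝ} {q A c β : ℝ} (PB : PhB B q (SIG A) c β) {e : ℝ} (he : 0 < e)
    (Na : ℕ) (M0 : ℝ) : ∃ C : ℝ, 0 ≤ C ∧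
    ∀ (σ Cn : ℝ) (nb M : ℕ) (h : E2 → ℝ) (g : E2 → ℂ) (R D r : ℝ), St B q Na M0 1 h g R D →
      R ^ (1/2 : ℝ) ≤ r → r ≤ R ^ (1 - e) → 0 ≤ Cn →
    ∀ (Z : Finset (E2 × ℝ)) (cls : E2 × ℝ → OrthonormalBasis (Fin 2) ℝ E2 → ℤ × ℤ → E2 → ℕ)
      (Λ : Finset ℕ) (s : ℕ → ℝ × ℝ) (cl : ℕ → ℕ) (G : E2 × ℝ → ℕ → E2 → ℂ)
      (D' : E2 × ℝ → ℕ → ℝ) (rest : E2 × ℝ → E2 → ℂ) (I : E2 × ℝ → ℕ → Finset ℕ)
      (P : E2 × ℝ → ℕ → ℕ → Plate),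
      (∀ k ∈ Λ, Sd r (s k).1 (s k).2) → (∀ z ∈ Z, ∀ z' ∈ Z, Sep r z z') →
      (∀ z ∈ Z, DecOut q A σ Cn B nb M h g R r z (cls z) Λ s cl (G z) (D' z) (rest z) (I z)
        (P z)) → ∀ k ∈ Λ,
      Sk h g r Z I P D' k ≤ ENNReal.ofReal (C * Real.sqrt (Cn * nb) * R ^ (2 * e) *
        (max 1 (R / ((s k).1 * r) ^ 2)) ^ (c / 2) * SS g R D) ∧
      Sk h g r Z I P D' k ≤ ENNReal.ofReal (C * Real.sqrt (Cn * nb) * R ^ (2 * e) *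
        ((s k).2 ^ 2 * R) ^ (β / 2) * SS g R D) := by
  obtain ⟨C, hC, HP⟩ := PB e he Na M0
  refine ⟨C, hC, ?_⟩
  intro σ Cn nb M h g R D r hSt hr1 hr2 hCn Z cls Λ s cl G D' rest I P hSd hsep H k hk
  have hR0 := hSt.Rpos
  have hr0 : 0 < r := lt_of_lt_of_le (by positivity) hr1
  have h1 := root_en hr0 hCn hSd hsep H hk
  obtain ⟨h2, h3⟩ := HP h g R D hSt r (s k).1 (s k).2 hr1 hr2 (hSd k hk)
  constructor
  · refine h1.trans ((mul_le_mul_right h2 _).trans ?_)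
    rw [← ENNReal.ofReal_mul (by positivity)]
    apply ENNReal.ofReal_le_ofReal
    apply le_of_eq
    ring
  · refine h1.trans ((mul_le_mul_right h3 _).trans ?_)
    rw [← ENNReal.ofReal_mul (by positivity)]
    apply ENNReal.ofReal_le_ofReal
    apply le_of_eq
    ring

/-- data of one level, all frames of a net. -/
structure LvD (q A σ Cn : ℝ) (B : ℕ → ℝ) (nb M : ℕ) (h : E2 → ℝ) (g : E2 → ℂ) (R r : ℝ)
    (Z : Finset (E2 × ℝ)) (cls : E2 × ℝ → OrthonormalBasis (Fin 2) ℝ E2 → ℤ × ℤ → E2 → ℕ)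
    (Λ : Finset ℕ) (s : ℕ → ℝ × ℝ) (cl : ℕ → ℕ) (G : E2 × ℝ → ℕ → E2 → ℂ)
    (D' : E2 × ℝ → ℕ → ℝ) (rest : E2 × ℝ → E2 → ℂ) (I : E2 × ℝ → ℕ → Finset ℕ)
    (P : E2 × ℝ → ℕ → ℕ → Plate) : Prop where
  sd : ∀ k ∈ Λ, Sd r (s k).1 (s k).2
  mem : ∀ z ∈ Z, z ∈ cyl R
  sep : ∀ z ∈ Z, ∀ z' ∈ Z, Sep r z z'
  out : ∀ z ∈ Z, DecOut q A σ Cn B nb M h g R r z (cls z) Λ s cl (G z) (D' z) (rest z) (I z) (P z)

/-- **GEN**: one step under domination, coefficient form. -/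
theorem gen_en {B : ℕ → ℝ} {q A c β : ℝ} (hA : 1 ≤ A)
    (PB : PhB B q (SIG A) c β) {e : ℝ}
    (he : 0 < e) : ∃ C : ℝ, 0 ≤ C ∧ ∀ (M0 K b C1 : ℝ), 0 ≤ b → 0 ≤ C1 → ∃ C' : ℝ, 0 ≤ C' ∧
    ∀ (Na M : ℕ), 13 + |q| + |M0| + |K| + 4 * b ≤ M →
    ∀ (h : E2 → ℝ) (g : E2 → ℂ) (R D σ : ℝ), St B q Na M0 σ h g R D → σ ≤ 2 →
    ∀ r1 r2 : ℝ, R ^ (1/2 : ℝ) ≤ r2 → A * r2 ≤ r1 → r1 ≤ R → r2 ≤ r1 ^ (1 - e) →
      σ + 3 * r1 ^ (-(1/2) : ℝ) ≤ 1 →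
    ∀ (nb1 M1 : ℕ) (Z1 : Finset (E2 × ℝ))
      (cls1 : E2 × ℝ → OrthonormalBasis (Fin 2) ℝ E2 → ℤ × ℤ → E2 → ℕ)
      (Λ1 : Finset ℕ) (s1 : ℕ → ℝ × ℝ) (cl1 : ℕ → ℕ) (G1 : E2 × ℝ → ℕ → E2 → ℂ)
      (D1 : E2 × ℝ → ℕ → ℝ) (rest1 : E2 × ℝ → E2 → ℂ) (I1 : E2 × ℝ → ℕ → Finset ℕ)
      (P1 : E2 × ℝ → ℕ → ℕ → Plate), M ≤ M1 →
      LvD q A σ C1 B nb1 M1 h g R r1 Z1 cls1 Λ1 s1 cl1 G1 D1 rest1 I1 P1 →
      (Λ1.card : ℝ) ≤ C1 * R ^ b → (nb1 : ℝ) ≤ R ^ b →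
    ∀ (C2 : ℝ) (nb2 M2 : ℕ) (Z2 : Finset (E2 × ℝ))
      (cls2 : E2 × ℝ → OrthonormalBasis (Fin 2) ℝ E2 → ℤ × ℤ → E2 → ℕ)
      (Λ2 : Finset ℕ) (s2 : ℕ → ℝ × ℝ) (cl2 : ℕ → ℕ) (G2 : E2 × ℝ → ℕ → E2 → ℂ)
      (D2 : E2 × ℝ → ℕ → ℝ) (rest2 : E2 × ℝ → E2 → ℂ) (I2 : E2 × ℝ → ℕ → Finset ℕ)
      (P2 : E2 × ℝ → ℕ → ℕ → Plate), 0 ≤ C2 →
      LvD q A σ C2 B nb2 M2 h g R r2 Z2 cls2 Λ2 s2 cl2 G2 D2 rest2 I2 P2 →
    ∀ (ζ : E2 × ℝ → E2 × ℝ), (∀ z ∈ Z2, ζ z ∈ Z1 ∧ z - ζ z ∈ cyl r1) →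
    ∀ k ∈ Λ2, ∀ π ∈ Λ1,
      (∀ z ∈ Z2, ∀ i ∈ I2 z k, ∀ κ ∈ Λ1,
        en (r2 ^ (-(1/2) : ℝ)) (tr h (z - ζ z) (G1 (ζ z) κ)) (P2 z k i).S ≤
          en (r2 ^ (-(1/2) : ℝ)) (tr h (z - ζ z) (G1 (ζ z) π)) (P2 z k i).S) →
      Sk h g r2 Z2 I2 P2 D2 k ≤
        ENNReal.ofReal (C * Real.sqrt (C2 * nb2) * C1 * (Λ1.card + 1) ^ 3 * r1 ^ (2 * e) *
          (max 1 (r1 / ((s2 k).1 * r2) ^ 2)) ^ (c / 2)) * Sk h g r1 Z1 I1 P1 D1 π +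
        ENNReal.ofReal (C' * Real.sqrt (C2 * nb2) * (R ^ (-K) * SS g R D)) := by
  obtain ⟨C, hC, HP⟩ := PB e he 6 4
  refine ⟨2 * C, by positivity, ?_⟩
  intro M0 K b C1 hb hC1
  set k0 : ℕ := ⌈10 + |q| + |M0| + |K| + 3 * b⌉₊ with hk0
  have hk0' : 10 + |q| + |M0| + |K| + 3 * b ≤ k0 := Nat.le_ceil _
  have hk0'' : (k0 : ℝ) < 10 + |q| + |M0| + |K| + 3 * b + 1 := Nat.ceil_lt_add_one (by positivity)
  obtain ⟨CW, hCW, HW⟩ := exists_restW B hA k0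
  set C3 : ℝ := CW * (64 * C1 ^ 2 + C1) with hC3
  have hC30 : 0 ≤ C3 := by positivity
  refine ⟨2 * (C1 + 1) ^ 3 * (216 * C3) ^ (3/2 : ℝ), by positivity, ?_⟩
  intro Na M hM h g R D σ hSt hσ2 r1 r2 hr2 h21 hr1R hr21e hσ1 nb1 M1 Z1 cls1 Λ1 s1 cl1 G1 D1 rest1
    I1 P1 hMM1 H1 hΛ1 hnb1 C2 nb2 M2 Z2 cls2 Λ2 s2 cl2 G2 D2 rest2 I2 P2 hC2 H2 ζ hζ k hk π hπ hmax
  have hR : 1 ≤ R := hSt.R1
  have hR0 : 0 < R := by linarith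
  have hr2' : 1 ≤ r2 := (Real.one_le_rpow hR (by norm_num)).trans hr2
  have hr20 : 0 < r2 := by linarith
  have h21' : r2 ≤ r1 := by nlinarith
  have hr10 : 0 < r1 := by linarith
  have hr11 : 1 ≤ r1 := by linarith
  have hhc : Continuous h := hSt.par.1.continuous
  have hSd := H2.sd k hk
  have hs2 : (s2 k).2 ≤ 1 := hSd.hi
  have hs1 : (s2 k).1 ≤ 1 := hSd.le.trans hs2
  have hEn : 0 ≤ En g := integral_nonneg fun ξ => by positivity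
  have hRb : 1 ≤ R ^ b := Real.one_le_rpow hR hb
  -- the rest
  have hGd : ∀ z ∈ Z1, ∀ κ ∈ Λ1, Gd (G1 z κ) := fun z hz κ hκ =>
    W323.St.gd ((H1.out z hz).st κ hκ) (by linarith)
  have hGe : ∀ z ∈ Z1, Gd (rest1 z) := fun z hz =>
    ⟨(H1.out z hz).rmeas, (H1.out z hz).rbdd, (H1.out z hz).rsupp⟩
  set W : ℝ≥0∞ := ENNReal.ofReal (C3 * (R ^ (-(k0 : ℝ)) * En g)) with hWdef
  have hW : ∀ z ∈ Z1, ∀ z' ∈ cyl r1, en (r2 ^ (-(1/2) : ℝ)) (tr h z' (rest1 z))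
      (fun _ => Metric.closedBall 0 (3 * A * r2)) ≤ W := by
    intro z hz z' hz'
    refine HW C1 hC1 h hSt.par R r1 r2 hR hr2 h21 hr1R (En g) hEn (rest1 z) (hGe z hz)
      (H1.out z hz).ren (fun p hp1 hp2 => ((H1.out z hz).small p hp1 hp2).trans ?_) z' hz'
    have h3 : (nb1 : ℝ) * R ^ (-(M1 : ℝ)) ≤ R ^ (-((k0 + 1 : ℕ) : ℝ)) := by
      calc (nb1 : ℝ) * R ^ (-(M1 : ℝ)) ≤ R ^ b * R ^ (-(M1 : ℝ)) := by gcongr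
        _ = R ^ (b + -(M1 : ℝ)) := by rw [← Real.rpow_add hR0]
        _ ≤ _ := by
            apply Real.rpow_le_rpow_of_exponent_le hR
            have : (M : ℝ) ≤ M1 := by exact_mod_cast hMM1
            push_cast
            linarith
    calc C1 * nb1 * R ^ (-(M1 : ℝ)) * Real.sqrt (En g)
        = C1 * (nb1 * R ^ (-(M1 : ℝ))) * Real.sqrt (En g) := by ring
      _ ≤ C1 * R ^ (-((k0 + 1 : ℕ) : ℝ)) * Real.sqrt (En g) := by gcongr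
  have hcore := gen_core hhc (by linarith : 0 ≤ A) hr20.le hs1 hs2 (g := g) Z1 Z2 H2.sep ζ hζ Λ1
    G1 rest1 hGd hGe (fun z hz => (H1.out z hz).sum) W hW (fun z => I2 z k) (fun z => P2 z k)
    (fun z hz => ((H2.out z hz).pl k hk).1) (fun z hz => ((H2.out z hz).pl k hk).2) hmax
  have hval := Sk_le_val hr20 hC2 H2.sd H2.out hk
  have hcard := card_net hr20 (h21'.trans hr1R) Z2 H2.mem H2.sep
  have hrest := rest_total' (C2 := C1) (C3 := C3) (R := R) (D := D) (r2 := r2) (s1 := (s2 k).1)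
    (s2 := (s2 k).2) (q := q) (M0 := M0) (e := En g) (n := Λ1.card) (b := b) (K := K)
    (F := Z2.card) (k0 := k0) hC1 hC30 hR hr2 (h21'.trans hr1R) hSd hEn hb (Nat.cast_nonneg _)
    hΛ1 hcard hSt.nd hk0'
  have hn : ENNReal.ofReal (2 * ((Λ1.card : ℝ) + 1) ^ 3) = 2 * ((Λ1.card : ℝ≥0∞) + 1) ^ 3 := by
    rw [ENNReal.ofReal_mul (by norm_num), ENNReal.ofReal_pow (by positivity),
      ENNReal.ofReal_add (by positivity) (by norm_num), ENNReal.ofReal_natCast,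
      ENNReal.ofReal_ofNat, ENNReal.ofReal_one]
  rw [hn] at hrest
  -- the main part
  have hmain : ENNReal.ofReal ((s2 k).2 ^ (-q / 2)) * (2 * ((Λ1.card : ℝ≥0∞) + 1) ^ 3 *
      ∑ z ∈ Z1, SIG A r2 (s2 k).1 (s2 k).2 h (G1 z π) r1) ≤
      ENNReal.ofReal (2 * C * C1 * (Λ1.card + 1) ^ 3 * r1 ^ (2 * e) *
          (max 1 (r1 / ((s2 k).1 * r2) ^ 2)) ^ (c / 2)) * Sk h g r1 Z1 I1 P1 D1 π := by
    have h4 : ∀ z ∈ Z1, ENNReal.ofReal ((s2 k).2 ^ (-q / 2)) *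
        SIG A r2 (s2 k).1 (s2 k).2 h (G1 z π) r1 ≤
        ENNReal.ofReal (C * C1 * r1 ^ (2 * e) *
          (max 1 (r1 / ((s2 k).1 * r2) ^ 2)) ^ (c / 2)) *
          (ENNReal.ofReal (r1 * Real.sqrt (D1 z π)) *
            ∑ i ∈ I1 z π, en (r1 ^ (-(1/2) : ℝ)) (tr h z g) (P1 z π i).S) := by
      intro z hz
      have h5 := (HP h (G1 z π) r1 (D1 z π) (((H1.out z hz).st π hπ).mono hσ1) r2 (s2 k).1
        (s2 k).2 ((Real.rpow_le_rpow hr10.le hr1R (by norm_num)).trans hr2) hr21e hSd).1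
      have h6 := SS_le_en hr10.le (H1.out z hz) hπ
      refine h5.trans ?_
      have e1 : C * r1 ^ (2 * e) * (max 1 (r1 / ((s2 k).1 * r2) ^ 2)) ^ (c / 2) *
          SS (G1 z π) r1 (D1 z π) = (C * r1 ^ (2 * e) *
          (max 1 (r1 / ((s2 k).1 * r2) ^ 2)) ^ (c / 2)) * SS (G1 z π) r1 (D1 z π) := by ring
      have hm0 : 0 ≤ (max 1 (r1 / ((s2 k).1 * r2) ^ 2)) ^ (c / 2) := by positivity
      rw [ENNReal.ofReal_mul (by positivity)]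
      calc ENNReal.ofReal (C * r1 ^ (2 * e) * (max 1 (r1 / ((s2 k).1 * r2) ^ 2)) ^ (c / 2)) *
            ENNReal.ofReal (SS (G1 z π) r1 (D1 z π))
          ≤ ENNReal.ofReal (C * r1 ^ (2 * e) * (max 1 (r1 / ((s2 k).1 * r2) ^ 2)) ^ (c / 2)) *
            (ENNReal.ofReal C1 * (ENNReal.ofReal (r1 * Real.sqrt (D1 z π)) *
            ∑ i ∈ I1 z π, en (r1 ^ (-(1/2) : ℝ)) (tr h z g) (P1 z π i).S)) := by gcongr
        _ = _ := by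
            rw [← mul_assoc, ← ENNReal.ofReal_mul (by positivity)]
            congr 2
            ring
    calc ENNReal.ofReal ((s2 k).2 ^ (-q / 2)) * (2 * ((Λ1.card : ℝ≥0∞) + 1) ^ 3 *
          ∑ z ∈ Z1, SIG A r2 (s2 k).1 (s2 k).2 h (G1 z π) r1)
        = (2 * ((Λ1.card : ℝ≥0∞) + 1) ^ 3) * ∑ z ∈ Z1, ENNReal.ofReal ((s2 k).2 ^ (-q / 2)) *
            SIG A r2 (s2 k).1 (s2 k).2 h (G1 z π) r1 := by
          rw [← Finset.mul_sum]; ring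
      _ ≤ (2 * ((Λ1.card : ℝ≥0∞) + 1) ^ 3) * ∑ z ∈ Z1, ENNReal.ofReal (C * C1 * r1 ^ (2 * e) *
          (max 1 (r1 / ((s2 k).1 * r2) ^ 2)) ^ (c / 2)) *
          (ENNReal.ofReal (r1 * Real.sqrt (D1 z π)) *
            ∑ i ∈ I1 z π, en (r1 ^ (-(1/2) : ℝ)) (tr h z g) (P1 z π i).S) := by
          exact mul_le_mul' le_rfl (Finset.sum_le_sum fun z hz => h4 z hz)
      _ = _ := by
          have hm0 : 0 ≤ (max 1 (r1 / ((s2 k).1 * r2) ^ 2)) ^ (c / 2) := by positivity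
          rw [← Finset.mul_sum, ← hn, ← mul_assoc, ← ENNReal.ofReal_mul (by positivity)]
          unfold Sk
          congr 2
          ring
  have hs2p : 0 ≤ (s2 k).2 ^ (-q / 2) := by
    have := (hSd.s2pos hr20).2
    positivity
  calc Sk h g r2 Z2 I2 P2 D2 k
      ≤ ENNReal.ofReal (Real.sqrt (C2 * nb2)) * (ENNReal.ofReal ((s2 k).2 ^ (-q / 2)) *
        ∑ z ∈ Z2, val h g r2 (s2 k).1 (s2 k).2 (I2 z k) (P2 z k)) := hval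
    _ ≤ ENNReal.ofReal (Real.sqrt (C2 * nb2)) * (ENNReal.ofReal ((s2 k).2 ^ (-q / 2)) *
        (2 * ((Λ1.card : ℝ≥0∞) + 1) ^ 3 * (∑ z ∈ Z1, SIG A r2 (s2 k).1 (s2 k).2 h (G1 z π) r1 +
        ENNReal.ofReal (((s2 k).1 * (s2 k).2 * r2 ^ 3) ^ (-(1/2) : ℝ)) *
          (ENNReal.ofReal r2 * ((Z2.card : ℝ≥0∞) * W)) ^ (3 / 2 : ℝ)))) := by gcongr
    _ = ENNReal.ofReal (Real.sqrt (C2 * nb2)) * (ENNReal.ofReal ((s2 k).2 ^ (-q / 2)) *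
        (2 * ((Λ1.card : ℝ≥0∞) + 1) ^ 3 * ∑ z ∈ Z1, SIG A r2 (s2 k).1 (s2 k).2 h (G1 z π) r1) +
        ENNReal.ofReal ((s2 k).2 ^ (-q / 2)) * (2 * ((Λ1.card : ℝ≥0∞) + 1) ^ 3 *
          (ENNReal.ofReal (((s2 k).1 * (s2 k).2 * r2 ^ 3) ^ (-(1/2) : ℝ)) *
          (ENNReal.ofReal r2 * ((Z2.card : ℝ≥0∞) * W)) ^ (3 / 2 : ℝ)))) := by ring
    _ ≤ ENNReal.ofReal (Real.sqrt (C2 * nb2)) *
        (ENNReal.ofReal (2 * C * C1 * (Λ1.card + 1) ^ 3 * r1 ^ (2 * e) *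
          (max 1 (r1 / ((s2 k).1 * r2) ^ 2)) ^ (c / 2)) * Sk h g r1 Z1 I1 P1 D1 π +
        ENNReal.ofReal (2 * (C1 + 1) ^ 3 * (216 * C3) ^ (3/2 : ℝ) *
        (R ^ (-K) * (R * En g * Real.sqrt D)))) := by gcongr
    _ = _ := by
        rw [mul_add, ← mul_assoc, ← ENNReal.ofReal_mul (by positivity),
          ← ENNReal.ofReal_mul (by positivity)]
        unfold SS
        congr 2
        · congr 1; ring
        · ring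

end Crest.Agent.R138.GR639
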