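import Crest.Agent.R138.Low3_448
import Crest.Agent.R138.Wpk4_685

/-!
# R138 / R139: leaf LOW of doc 1812 (helper448), part 4: LOW over the packets of helper685
-/

set_option autoImplicit false

open MeasureTheory FourierTransform
open scoped ContDiff ENNReal

namespace Crest.Agent.R138.Low448

open Crest.Agent.R138.Defs Crest.Agent.R138.Wf448
open Crest.Agent.R138.W188 (tr PBox En)
open Crest.Agent.R138.Wpk685 (win cap cen caps um en pbox SV WE)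

/-- 685's caps at scale `r` form a `Cap` family. -/
theorem exists_cap (n : ℕ) : ∃ Kc : ℝ, 0 < Kc ∧ ∀ r : ℝ, 1 ≤ r →
    Cap n Kc 36 r (fun m : {m // m ∈ caps (r ^ (-(1/2) : ℝ))} =>
      cap win (cen (r ^ (-(1/2) : ℝ)) m.1) (r ^ (-(1/2) : ℝ))) := by
  obtain ⟨Aw, hAw, hwin⟩ := Wpk685.exists_win Wpk685.win_contDiff
    (fun ζ hζ => Wpk685.win_zero' (by linarith)) n
  refine ⟨Aw + 1, by positivity, ?_⟩
  intro r hr
  have hr0 : 0 < r := by linarith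
  set ρ := r ^ (-(1/2) : ℝ) with hρdef
  have hρ : 0 < ρ := Real.rpow_pos_of_pos hr0 _
  have hz : ∀ ζ : E2, 71 / 50 < ‖ζ‖ → win ζ = 0 := fun ζ hζ => Wpk685.win_zero' hζ
  refine ⟨fun m => Wpk685.contDiff_cap Wpk685.win_contDiff _ _, fun m => Wpk685.hcs_cap hz _ hρ,
    fun m j hj ξ => ?_, fun ξ => ?_⟩
  · refine (Wpk685.norm_iteratedFDeriv_cap_le Wpk685.win_contDiff (cen ρ m.1) hρ j
      (hwin.bd j hj) ξ).trans ?_
    have : 0 ≤ ρ⁻¹ ^ j := by positivity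
    nlinarith
  · have h1 : Set.ncard {m : ℤ × ℤ | m ∈ caps ρ ∧ ξ ∈ tsupport (cap win (cen ρ m) ρ)} ≤ 36 := by
      refine Wpk685.card_near hρ ξ _ fun m hm => ?_
      have h2 : tsupport (cap win (cen ρ m) ρ) ⊆ Metric.closedBall (cen ρ m) (71 / 50 * ρ) := by
        refine closure_minimal (fun ζ hζ => ?_) Metric.isClosed_closedBall
        rw [mem_closedBall_iff_norm]
        by_contra h3
        exact hζ (Wpk685.cap_supp hz (cen ρ m) hρ ζ (not_le.1 h3))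
      have h3 := h2 hm.2
      rw [mem_closedBall_iff_norm] at h3
      linarith
    have h4 : Set.ncard {m : {m // m ∈ caps ρ} | ξ ∈ tsupport (cap win (cen ρ m.1) ρ)} ≤
        Set.ncard {m : ℤ × ℤ | m ∈ caps ρ ∧ ξ ∈ tsupport (cap win (cen ρ m) ρ)} := by
      rw [← Set.ncard_image_of_injective _ Subtype.val_injective]
      refine Set.ncard_le_ncard ?_ ?_
      · rintro m ⟨m', hm', rfl⟩
        exact ⟨m'.2, hm'⟩
      · exact (caps ρ).finite_toSet.subset fun m hm => hm.1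
    exact_mod_cast h4.trans h1

theorem cap_near {B : ℕ → ℝ} {h : E2 → ℝ} (hh : ParB B h) {ρ : ℝ} (hρ : 0 < ρ) (m : ℤ × ℤ) {ξ : E2}
    (hξ : cap win (cen ρ m) ρ ξ ≠ 0) :
    ‖gradient h ξ - gradient h (cen ρ m)‖ ≤ 2 * (1 + |B 2|) * ρ := by
  have h1 : ‖ξ - cen ρ m‖ ≤ 71 / 50 * ρ := by
    by_contra h3
    exact hξ (Wpk685.cap_supp (fun ζ hζ => Wpk685.win_zero' hζ) (cen ρ m) hρ ξ (not_le.1 h3))
  have h2 := gradient_lip hh.1 (M := 1 + |B 2|) (fun ζ =>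
    (ParB.bound hh 2 le_rfl ζ).trans (by linarith [le_abs_self (B 2)])) ξ (cen ρ m)
  have h3 : 0 ≤ 1 + |B 2| := by positivity
  calc _ ≤ _ := h2
    _ ≤ (1 + |B 2|) * (71 / 50 * ρ) := by gcongr
    _ ≤ _ := by nlinarith

/-- `∫|g|²`, two forms. -/
theorem LI_eq_En {g : E2 → ℂ} (hg : MemLp g 2) : LI (fun ξ => ‖g ξ‖ ^ 2) = ENNReal.ofReal (En g) := by
  unfold LI En
  rw [ofReal_integral_eq_lintegral_ofReal]
  · exact hg.integrable_norm_pow (by norm_num)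
  · exact Filter.Eventually.of_forall fun ξ => by positivity

/-- Bessel for the packets. -/
theorem bessel (B : ℕ → ℝ) : ∃ C : ℝ, 0 ≤ C ∧ ∀ h, ParB B h → ∀ ρ : ℝ, 0 < ρ → ρ ≤ 1 →
    ∀ (s : Finset (ℤ × ℤ)) (g : E2 → ℂ), Integrable g → MemLp g 2 →
    ∑ m ∈ s, ∫⁻ y, ‖um ρ g m y‖ₑ ^ 2 ≤ ENNReal.ofReal C * LI (fun ξ => ‖g ξ‖ ^ 2) := by
  obtain ⟨C, hC, h1⟩ := Wpk685.thmB B 0 1 le_rfl
  refine ⟨C, hC, ?_⟩
  intro h hh ρ hρ hρ1 s g hg hg2
  have hSV : SV ρ 1 0 (fun _ : E2 => (1:ℝ)) := ⟨measurable_const, fun _ => one_pos, fun x y => by simp⟩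
  have h2 := h1 h hh ρ 1 _ hρ hρ1 hSV s g hg hg2 0 (by simp)
  simp only [ENNReal.ofReal_one, one_mul, one_pow, mul_one] at h2
  refine h2.trans (le_of_eq ?_)
  rw [Wpk685.sl_zero]
  congr 1
  unfold WE
  simp only [ENNReal.ofReal_one, one_mul]
  rw [← planchL hg hg2, LI_sq_eq]

theorem card_sq_ennreal (N : ℕ) : ((Bn759.sq N).card : ℝ≥0∞) = ENNReal.ofReal ((2 * N + 1) ^ 2) := by
  rw [← card_sq, ENNReal.ofReal_natCast]

/-- lower bound for the reference quantity. -/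
theorem Q_ge {q : ℝ} (hq : 0 ≤ q) {r R D : ℝ} (hr : 1 ≤ r) (hrR : r ≤ R) (hD : 0 ≤ D)
    {s : Fin 2 → ℝ} (hs : ∀ i, r ^ (-(1/2) : ℝ) ≤ s i) :
    D * R ^ (2 - q / 2) ≤ D * (max (s 0) (s 1)) ^ q * (s 0 * s 1 * R ^ 3) := by
  have hr0 : 0 < r := by linarith
  have hR0 : 0 < R := by linarith
  have h0 : ∀ i, R ^ (-(1/2) : ℝ) ≤ s i := fun i =>
    (Real.rpow_le_rpow_of_nonpos hr0 hrR (by norm_num)).trans (hs i)
  have hp : 0 < R ^ (-(1/2) : ℝ) := Real.rpow_pos_of_pos hR0 _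
  have h1 : (R ^ (-(1/2) : ℝ)) ^ q ≤ (max (s 0) (s 1)) ^ q :=
    Real.rpow_le_rpow hp.le ((h0 0).trans (le_max_left _ _)) hq
  have h2 : R ^ (2 - q / 2) = (R ^ (-(1/2) : ℝ)) ^ q * (R ^ (-(1/2) : ℝ) * R ^ (-(1/2) : ℝ) * R ^ 3) := by
    rw [← Real.rpow_mul hR0.le, ← Real.rpow_natCast R 3, ← Real.rpow_add hR0, ← Real.rpow_add hR0,
      ← Real.rpow_add hR0]
    congr 1
    push_cast
    ring
  have h3 := h0 0
  have h4 := h0 1
  calc D * R ^ (2 - q / 2) = D * (R ^ (-(1/2) : ℝ)) ^ q *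
        (R ^ (-(1/2) : ℝ) * R ^ (-(1/2) : ℝ) * R ^ 3) := by rw [h2]; ring
    _ ≤ D * (max (s 0) (s 1)) ^ q * (s 0 * s 1 * R ^ 3) := by
        have h5 : 0 ≤ s 0 := hp.le.trans h3
        have h6 : 0 ≤ max (s 0) (s 1) := h5.trans (le_max_left _ _)
        gcongr

theorem en_eq (ρ : ℝ) (g : E2 → ℂ) (S : ℤ × ℤ → Set E2) :
    en ρ g S = ∑ m : {m // m ∈ caps ρ}, ∫⁻ y in S m.1,
      ‖𝓕⁻ (fun ξ => cap win (cen ρ m.1) ρ ξ * g ξ) y‖ₑ ^ 2 := by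
  unfold en um
  exact (Finset.sum_coe_sort (caps ρ) fun m => ∫⁻ y in S m,
      ‖𝓕⁻ (fun ξ => cap win (cen ρ m) ρ ξ * g ξ) y‖ₑ ^ 2).symm

theorem En_nonneg (g : E2 → ℂ) : 0 ≤ En g := integral_nonneg fun ξ => by positivity

/-- total packet energy. -/
theorem en_le (B : ℕ → ℝ) : ∃ C : ℝ, 0 ≤ C ∧ ∀ h, ParB B h → ∀ r : ℝ, 1 ≤ r →
    ∀ g : E2 → ℂ, Measurable g → (∃ M' : ℝ, ∀ ξ, ‖g ξ‖ ≤ M') → (∃ σ : ℝ, ∀ ξ, σ < ‖ξ‖ → g ξ = 0) →
    ∀ (z : E2 × ℝ) (S : ℤ × ℤ → Set E2),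
    en (r ^ (-(1/2) : ℝ)) (tr h z g) S ≤ ENNReal.ofReal (C * En g) := by
  obtain ⟨C, hC, h1⟩ := bessel B
  refine ⟨C, hC, ?_⟩
  intro h hh r hr g hg ⟨Mg, hMg⟩ ⟨σ, hσ⟩ z S
  have hr0 : 0 < r := by linarith
  have hρ : 0 < r ^ (-(1/2) : ℝ) := Real.rpow_pos_of_pos hr0 _
  have hρ1 : r ^ (-(1/2) : ℝ) ≤ 1 := Real.rpow_le_one_of_one_le_of_nonpos hr (by norm_num)
  have hm := measurable_tr hh.1.continuous z hg
  have h2 := Wpk685.int_of_bdd (g := tr h z g) hm (M := Mg) (R := σ)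
    (fun ξ => by rw [norm_tr]; exact hMg ξ)
    (fun ξ hξ => by rw [← norm_eq_zero, norm_tr, hσ ξ hξ, norm_zero])
  have h3 := h1 h hh _ hρ hρ1 (caps (r ^ (-(1/2) : ℝ))) (tr h z g) h2.1 h2.2
  have h4 : LI (fun ξ => ‖tr h z g ξ‖ ^ 2) = ENNReal.ofReal (En g) := by
    simp only [norm_tr]
    exact LI_eq_En (Wpk685.int_of_bdd hg hMg hσ).2
  rw [h4, ← ENNReal.ofReal_mul hC] at h3
  refine le_trans ?_ h3
  unfold en
  exact Finset.sum_le_sum fun m _ => setLIntegral_le_lintegral _ _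

/-- the thinning factor. -/
theorem exists_kappa {ε' R r : ℝ} (hε' : 0 < ε') (hε4 : ε' ≤ 1 / 4) (hr : 1 ≤ r) (hrR : r ≤ R)
    (hR : (2:ℝ) ^ 20 ≤ R) : ∃ κ : ℝ, 0 < κ ∧ κ * r ≤ R ^ (1 - ε') / 32 ∧
      r ^ (-(1/2) : ℝ) ≤ κ ∧ 1 ≤ 32 * R ^ ε' * κ := by
  have hr0 : 0 < r := by linarith
  have hR1 : 1 ≤ R := hr.trans hrR
  have hR0 : 0 < R := by linarith
  have hRp : 0 < R ^ (1 - ε') := Real.rpow_pos_of_pos hR0 _
  have hT1 : 1 ≤ R ^ ε' := Real.one_le_rpow hR1 hε'.le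
  have hRε : R ^ (1 - ε') * R ^ ε' = R := by
    rw [← Real.rpow_add hR0, sub_add_cancel, Real.rpow_one]
  refine ⟨min 1 (R ^ (1 - ε') / (32 * r)), lt_min one_pos (by positivity), ?_, ?_, ?_⟩
  · calc min 1 (R ^ (1 - ε') / (32 * r)) * r ≤ R ^ (1 - ε') / (32 * r) * r := by
          gcongr; exact min_le_right _ _
      _ = _ := by field_simp
  · have h32 : (32:ℝ) ≤ R ^ (1/4 : ℝ) := by
      calc (32:ℝ) = ((2:ℝ) ^ 20) ^ (1/4 : ℝ) := by
            rw [← Real.rpow_natCast, ← Real.rpow_mul (by norm_num)]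
            norm_num
        _ ≤ _ := by gcongr
    refine le_min (Real.rpow_le_one_of_one_le_of_nonpos hr (by norm_num)) ?_
    rw [le_div_iff₀ (by positivity)]
    have h1 : r ^ (-(1/2) : ℝ) * r = r ^ (1/2 : ℝ) := by
      nth_rewrite 2 [← Real.rpow_one r]
      rw [← Real.rpow_add hr0]; norm_num
    calc r ^ (-(1/2) : ℝ) * (32 * r) = 32 * (r ^ (-(1/2) : ℝ) * r) := by ring
      _ = 32 * r ^ (1/2 : ℝ) := by rw [h1]
      _ ≤ R ^ (1/4 : ℝ) * R ^ (1/2 : ℝ) := by gcongr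
      _ = R ^ (3/4 : ℝ) := by rw [← Real.rpow_add hR0]; norm_num
      _ ≤ R ^ (1 - ε') := Real.rpow_le_rpow_of_exponent_le hR1 (by linarith)
  · rcases min_choice 1 (R ^ (1 - ε') / (32 * r)) with h1 | h1
    · rw [h1]; linarith
    · rw [h1]
      have : 32 * R ^ ε' * (R ^ (1 - ε') / (32 * r)) = (R ^ (1 - ε') * R ^ ε') / r := by
        field_simp
      rw [this, hRε, one_le_div hr0]
      exact hrR

/-- the final arithmetic. -/
theorem final_arith {C1 a T Q X N N0 E' : ℝ} (hC1 : 0 ≤ C1) (hT : 1 ≤ T)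
    (hQ : 0 ≤ Q) (hN : 0 ≤ N) (hN0 : 0 ≤ N0) (hE : 0 ≤ E') (hNa : 2 * N + 1 ≤ a * T)
    (hNb : 2 * N0 + 1 ≤ 5 * T) (hX0 : 0 ≤ X) (hX : X ≤ 2 * Q) (hEQ : E' ≤ Q) :
    C1 * (((2 * N + 1) ^ 2) ^ 3 * (X + (2 * N0 + 1) ^ 2 * E')) ≤ 27 * C1 * a ^ 6 * T ^ 8 * Q := by
  have h1 : 0 ≤ 2 * N + 1 := by linarith
  have h2 : 0 ≤ 2 * N0 + 1 := by linarith
  have h3 : 0 ≤ a * T := h1.trans hNa
  have hT0 : 0 < T := by linarith
  calc C1 * (((2 * N + 1) ^ 2) ^ 3 * (X + (2 * N0 + 1) ^ 2 * E'))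
      ≤ C1 * (((a * T) ^ 2) ^ 3 * (2 * Q + (5 * T) ^ 2 * Q)) := by gcongr
    _ = C1 * (a ^ 6 * Q) * (2 * T ^ 6 + 25 * T ^ 8) := by ring
    _ ≤ C1 * (a ^ 6 * Q) * (27 * T ^ 8) := by
        have h6 : T ^ 6 ≤ T ^ 8 := pow_le_pow_right₀ hT (by norm_num)
        have h7 : 0 ≤ C1 * (a ^ 6 * Q) := by
          have : 0 ≤ a ^ 6 := by positivity
          positivity
        exact mul_le_mul_of_nonneg_left (by linarith) h7
    _ = _ := by ring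

set_option maxHeartbeats 1000000 in
/-- **LOW**, the most general form: packets of scale `r` in the frame `z`, planks of length `R` at
the base time `z.2`. -/
theorem low_at (B : ℕ → ℝ) {q : ℝ} (hq : 0 ≤ q) {A : ℝ} (hA : 0 ≤ A) {ε : ℝ} (hε : 0 < ε) (Na : ℕ)
    (M0 : ℝ) : ∃ C : ℝ, 0 ≤ C ∧ ∀ (h : E2 → ℝ) (g : E2 → ℂ) (R D : ℝ), ParB B h → Measurable g →
    (∃ M' : ℝ, ∀ ξ, ‖g ξ‖ ≤ M') → (∃ σ : ℝ, ∀ ξ, σ < ‖ξ‖ → g ξ = 0) → 0 ≤ D →
    En g ≤ R ^ M0 * D → ∀ r : ℝ, 1 ≤ r → r ≤ R → ∀ (z : E2 × ℝ) (c : E2)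
    (b : OrthonormalBasis (Fin 2) ℝ E2) (s : Fin 2 → ℝ), (∀ i, r ^ (-(1/2) : ℝ) ≤ s i ∧ s i ≤ 1) →
    ∀ (x : E2) (S : ℤ × ℤ → Set E2), (∀ m, MeasurableSet (S m)) →
    (∀ m, S m ⊆ pbox h r c b (fun k => A * s k) x m) → (∀ m, ∀ y ∈ S m, ‖y + z.1‖ ≤ 3 * R) →
    (∀ (c' : E2) (s' : Fin 2 → ℝ), (∀ i, r ^ (-(1/2) : ℝ) ≤ s' i ∧ s' i ≤ s i) → ∀ ψ, Adm Na ψ →
      ∀ x0 : E2, ‖x0‖ ≤ 4 * R → ∫⁻ p in plank c' b s' R x0 z.2,
        ‖ext h (fun ξ => g ξ * chi h c' b s' ψ ξ) p.1 p.2‖ₑ ^ 2 ≤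
          ENNReal.ofReal (D * (max (s' 0) (s' 1)) ^ q * (s' 0 * s' 1 * R ^ 3))) →
    ENNReal.ofReal r * en (r ^ (-(1/2) : ℝ)) (tr h z g) S ≤
      ENNReal.ofReal (C * R ^ ε * (D * (max (s 0) (s 1)) ^ q * (s 0 * s 1 * R ^ 3))) := by
  set ε' : ℝ := min (ε / 8) (1 / 4) with hε'def
  have hε' : 0 < ε' := lt_min (by positivity) (by norm_num)
  have hε'4 : ε' ≤ 1 / 4 := min_le_right _ _
  have hε'8 : 8 * ε' ≤ ε := by have := min_le_left (ε / 8) (1 / 4); rw [← hε'def] at this; linarith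
  clear_value ε'
  obtain ⟨n, hn⟩ := exists_nat_ge ((|M0| + q) / (2 * ε'))
  have hn' : |M0| + q ≤ 2 * n * ε' := by
    rw [div_le_iff₀ (by positivity)] at hn
    linarith
  obtain ⟨Kc, hKc, hcap⟩ := exists_cap n
  obtain ⟨K, C1, hK, hadm, hC1, hcore⟩ := core n
    (1 + ∑ k ∈ Finset.range (max n 2 + 1), |B k|) Kc 36 hKc (by norm_num) Na
  obtain ⟨C2, hC2, hen⟩ := en_le B
  obtain ⟨AA, hAA⟩ : ∃ AA : ℝ, AA = A + 2 * (1 + |B 2|) := ⟨_, rfl⟩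
  have hAA0 : 0 ≤ AA := by rw [hAA]; positivity
  have hAle : A ≤ AA := by rw [hAA]; have := abs_nonneg (B 2); linarith
  obtain ⟨a, ha⟩ : ∃ a : ℝ, a = 128 * AA + 3 := ⟨_, rfl⟩
  refine ⟨27 * C1 * a ^ 6 + C2 * ((2:ℝ) ^ 20) ^ (|M0| + q), by rw [ha]; positivity, ?_⟩
  intro h g R D hh hg hb hsup hD hnd r hr hrR z c b s hs x S hSm hSb hloc hbox
  have hr0 : 0 < r := by linarith
  have hR : 1 ≤ R := hr.trans hrR
  have hR0 : 0 < R := by linarith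
  have hρ : 0 < r ^ (-(1/2) : ℝ) := Real.rpow_pos_of_pos hr0 _
  have hs0 : ∀ i, 0 < s i := fun i => hρ.trans_le (hs i).1
  have hmax : 0 ≤ max (s 0) (s 1) := (hs0 0).le.trans (le_max_left _ _)
  have hQ0 : 0 ≤ D * (max (s 0) (s 1)) ^ q * (s 0 * s 1 * R ^ 3) := by
    have := hs0 0; have := hs0 1; positivity
  have hQge : D * R ^ (2 - q / 2) ≤ D * (max (s 0) (s 1)) ^ q * (s 0 * s 1 * R ^ 3) :=
    Q_ge hq hr hrR hD fun i => (hs i).1
  have hE'f : ∀ s' : Fin 2 → ℝ, (∀ i, 0 ≤ s' i) → (∀ i, s' i ≤ s i) →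
      0 ≤ D * (max (s' 0) (s' 1)) ^ q * (s' 0 * s' 1 * R ^ 3) ∧
      D * (max (s' 0) (s' 1)) ^ q * (s' 0 * s' 1 * R ^ 3) ≤
        D * (max (s 0) (s 1)) ^ q * (s 0 * s 1 * R ^ 3) := by
    intro s' h0 h1
    have h00 := h0 0
    have h01 := h0 1
    have h10 := h1 0
    have h11 := h1 1
    have hm' : 0 ≤ max (s' 0) (s' 1) := h00.trans (le_max_left _ _)
    have h2 : max (s' 0) (s' 1) ≤ max (s 0) (s 1) := max_le_max h10 h11
    have h3 := (hs0 0).le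
    have h4 := (hs0 1).le
    exact ⟨by positivity, by gcongr⟩
  obtain ⟨Q, hQ⟩ : ∃ Q : ℝ, Q = D * (max (s 0) (s 1)) ^ q * (s 0 * s 1 * R ^ 3) := ⟨_, rfl⟩
  rw [← hQ] at hQ0 hQge ⊢
  have hEn := En_nonneg g
  have hRε1 : 1 ≤ R ^ ε := Real.one_le_rpow hR hε.le
  rcases lt_or_ge R ((2:ℝ) ^ 20) with hsmall | hlarge
  · -- bounded range
    have h1 := hen h hh r hr g hg hb hsup z S
    refine (mul_le_mul_right h1 (ENNReal.ofReal r)).trans ?_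
    rw [← ENNReal.ofReal_mul hr0.le]
    refine ENNReal.ofReal_le_ofReal ?_
    have h2 : R * R ^ M0 ≤ ((2:ℝ) ^ 20) ^ (|M0| + q) * R ^ (2 - q / 2) := by
      calc R * R ^ M0 = R ^ (1 + M0) := by
            rw [Real.rpow_add hR0, Real.rpow_one]
        _ ≤ R ^ ((|M0| + q) + (2 - q / 2)) :=
            Real.rpow_le_rpow_of_exponent_le hR (by have := le_abs_self M0; linarith)
        _ = R ^ (|M0| + q) * R ^ (2 - q / 2) := Real.rpow_add hR0 _ _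
        _ ≤ _ := by
            gcongr
    have h3 : 0 ≤ 27 * C1 * a ^ 6 * (R ^ ε * Q) := by rw [ha]; positivity
    have h4 : 0 ≤ C2 * ((2:ℝ) ^ 20) ^ (|M0| + q) * Q := by positivity
    calc r * (C2 * En g) ≤ R * (C2 * (R ^ M0 * D)) := by gcongr
      _ = C2 * D * (R * R ^ M0) := by ring
      _ ≤ C2 * D * (((2:ℝ) ^ 20) ^ (|M0| + q) * R ^ (2 - q / 2)) := by gcongr
      _ = C2 * ((2:ℝ) ^ 20) ^ (|M0| + q) * (D * R ^ (2 - q / 2)) := by ring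
      _ ≤ C2 * ((2:ℝ) ^ 20) ^ (|M0| + q) * Q := by gcongr
      _ ≤ (C2 * ((2:ℝ) ^ 20) ^ (|M0| + q) * Q) * R ^ ε := le_mul_of_one_le_right h4 hRε1
      _ ≤ _ := by
          have e : (27 * C1 * a ^ 6 + C2 * ((2:ℝ) ^ 20) ^ (|M0| + q)) * R ^ ε * Q =
            27 * C1 * a ^ 6 * (R ^ ε * Q) + (C2 * ((2:ℝ) ^ 20) ^ (|M0| + q) * Q) * R ^ ε := by ring
          rw [e]
          linarith
  · -- large `R`
    obtain ⟨κ, hκ0, hκr, hκρ, hκ32⟩ := exists_kappa hε' hε'4 hr hrR hlarge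
    have hRε : R ^ (1 - ε') * R ^ ε' = R := by
      rw [← Real.rpow_add hR0, sub_add_cancel, Real.rpow_one]
    have hT8 : (R ^ ε') ^ 8 ≤ R ^ ε := by
      rw [← Real.rpow_natCast, ← Real.rpow_mul hR0.le]
      refine Real.rpow_le_rpow_of_exponent_le hR ?_
      push_cast
      linarith
    have htail : ((R ^ ε') ^ (2 * n))⁻¹ * (2 * r * En g) ≤ 2 * Q := by
      have h1 : ((R ^ ε') ^ (2 * n))⁻¹ = R ^ (-(2 * n * ε')) := by
        rw [← Real.rpow_natCast, ← Real.rpow_mul hR0.le, ← Real.rpow_neg hR0.le]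
        congr 1
        push_cast
        ring
      rw [h1]
      have h2 : R ^ (-(2 * n * ε')) * (R * R ^ M0) ≤ R ^ (2 - q / 2) := by
        calc R ^ (-(2 * n * ε')) * (R * R ^ M0) = R ^ (-(2 * n * ε') + (1 + M0)) := by
              rw [Real.rpow_add hR0, Real.rpow_add hR0, Real.rpow_one]
          _ ≤ _ := Real.rpow_le_rpow_of_exponent_le hR
              (by have := le_abs_self M0; linarith)
      have h3 : 0 ≤ R ^ (-(2 * n * ε')) := (Real.rpow_pos_of_pos hR0 _).le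
      calc R ^ (-(2 * n * ε')) * (2 * r * En g) ≤ R ^ (-(2 * n * ε')) * (2 * R * (R ^ M0 * D)) := by
            gcongr
        _ = 2 * D * (R ^ (-(2 * n * ε')) * (R * R ^ M0)) := by ring
        _ ≤ 2 * D * R ^ (2 - q / 2) := by gcongr
        _ = 2 * (D * R ^ (2 - q / 2)) := by ring
        _ ≤ 2 * Q := by gcongr
    obtain ⟨T, hT⟩ : ∃ T : ℝ, T = R ^ ε' := ⟨_, rfl⟩
    rw [← hT] at hκ32 hRε hT8 htail
    have hT1 : 1 ≤ T := by rw [hT]; exact Real.one_le_rpow hR hε'.le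
    have hT0 : 0 < T := by linarith
    obtain ⟨s', hs'⟩ : ∃ s' : Fin 2 → ℝ, s' = fun i => min (s i) κ := ⟨_, rfl⟩
    have hs'1 : ∀ i, r ^ (-(1/2) : ℝ) ≤ s' i := fun i => by
      rw [hs']; exact le_min (hs i).1 hκρ
    have hs'0 : ∀ i, 0 < s' i := fun i => hρ.trans_le (hs'1 i)
    have hs'2 : ∀ i, s' i ≤ s i := fun i => by rw [hs']; exact min_le_left _ _
    have hs'κ : ∀ i, s' i ≤ κ := fun i => by rw [hs']; exact min_le_right _ _
    have hs'3 : ∀ i, s i ≤ 32 * T * s' i := by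
      intro i
      rcases min_choice (s i) κ with h1 | h1
      · have h2 : s' i = s i := by rw [hs']; exact h1
        rw [h2]
        refine le_mul_of_one_le_left (hs0 i).le ?_
        linarith
      · have h2 : s' i = κ := by rw [hs']; exact h1
        rw [h2]
        exact (hs i).2.trans hκ32
    obtain ⟨N, hN⟩ : ∃ N : ℕ, N = ⌈2 * AA * (32 * T)⌉₊ := ⟨_, rfl⟩
    have hN1 : 2 * AA * (32 * T) ≤ N := by rw [hN]; exact Nat.le_ceil _
    have hN2 : (N : ℝ) ≤ 2 * AA * (32 * T) + 1 := by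
      rw [hN]; exact (Nat.ceil_lt_add_one (by positivity)).le
    obtain ⟨N0, hN0⟩ : ∃ N0 : ℕ, N0 = ⌈T⌉₊ := ⟨_, rfl⟩
    have hN01 : T ≤ N0 := by rw [hN0]; exact Nat.le_ceil _
    have hN02 : (N0 : ℝ) ≤ T + 1 := by rw [hN0]; exact (Nat.ceil_lt_add_one hT0.le).le
    have hNs : ∀ i, 2 * (AA * s i) ≤ N * s' i := by
      intro i
      calc 2 * (AA * s i) ≤ 2 * (AA * (32 * T * s' i)) := by have := hs'3 i; gcongr
        _ = 2 * AA * (32 * T) * s' i := by ring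
        _ ≤ N * s' i := by have := (hs'0 i).le; gcongr
    have hNs' : ∀ i, A * s i ≤ N * s' i := by
      intro i
      have h1 := hNs i
      have h2 : A * s i ≤ AA * s i := mul_le_mul_of_nonneg_right hAle (hs0 i).le
      have h3 : 0 ≤ AA * s i := mul_nonneg hAA0 (hs0 i).le
      linarith
    have hmain := hcore h hh.1 (ParB.bound_max hh n) r R hr hrR {m // m ∈ caps (r ^ (-(1/2) : ℝ))}
      (fun m => cap win (cen (r ^ (-(1/2) : ℝ)) m.1) (r ^ (-(1/2) : ℝ))) (hcap r hr) b s' hs'1 c x g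
      hg hb hsup z T N0 N (ENNReal.ofReal (D * (max (s' 0) (s' 1)) ^ q * (s' 0 * s' 1 * R ^ 3)))
      hT1 hN01 (fun m => S m.1) (fun m => hSm m.1) ?_ ?_ ?_ ?_
    · clear hcore hcap hen
      rw [← en_eq] at hmain
      have hE' := hE'f s' (fun i => (hs'0 i).le) hs'2
      rw [← hQ] at hE'
      have hLI : LI (fun ξ => ‖g ξ‖ ^ 2) = ENNReal.ofReal (En g) := by
        obtain ⟨Mg, hMg⟩ := hb
        obtain ⟨σ, hσ⟩ := hsup
        exact LI_eq_En (Wpk685.int_of_bdd hg hMg hσ).2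
      have hX0 : 0 ≤ (T ^ (2 * n))⁻¹ * (2 * r * En g) := by positivity
      have hNa : 2 * (N:ℝ) + 1 ≤ a * T := by
        have e : a * T = 128 * (AA * T) + 3 * T := by rw [ha]; ring
        rw [e]; linarith
      have harith := final_arith (N := N) (N0 := N0) (a := a) hC1 hT1 hQ0 (Nat.cast_nonneg _)
        (Nat.cast_nonneg _) hE'.1 hNa (by linarith) hX0 htail hE'.2
      obtain ⟨E', hE'def⟩ : ∃ E' : ℝ, E' = D * (max (s' 0) (s' 1)) ^ q * (s' 0 * s' 1 * R ^ 3) :=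
        ⟨_, rfl⟩
      rw [← hE'def] at hmain hE' harith
      have hE'0 := hE'.1
      rw [hLI, card_sq_ennreal, card_sq_ennreal, ← ENNReal.ofReal_pow (by positivity),
        ← ENNReal.ofReal_mul (by positivity), ← ENNReal.ofReal_mul (by positivity),
        ← ENNReal.ofReal_mul (by positivity), ← ENNReal.ofReal_add hX0 (by positivity),
        ← ENNReal.ofReal_mul (by positivity), ← ENNReal.ofReal_mul hC1] at hmain
      have h2r : ENNReal.ofReal r ≤ ENNReal.ofReal (2 * r) :=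
        ENNReal.ofReal_le_ofReal (by linarith)
      refine (mul_le_mul_left h2r _).trans (hmain.trans (ENNReal.ofReal_le_ofReal ?_))
      refine harith.trans ?_
      have h4 : 0 ≤ 27 * C1 * a ^ 6 := by rw [ha]; positivity
      have h5 : 0 ≤ C2 * ((2:ℝ) ^ 20) ^ (|M0| + q) * R ^ ε * Q := by positivity
      have h6 : 27 * C1 * a ^ 6 * T ^ 8 * Q ≤ 27 * C1 * a ^ 6 * R ^ ε * Q :=
        mul_le_mul_of_nonneg_right (mul_le_mul_of_nonneg_left hT8 h4) hQ0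
      have e : (27 * C1 * a ^ 6 + C2 * ((2:ℝ) ^ 20) ^ (|M0| + q)) * R ^ ε * Q =
          27 * C1 * a ^ 6 * R ^ ε * Q + C2 * ((2:ℝ) ^ 20) ^ (|M0| + q) * R ^ ε * Q := by ring
      rw [e]
      linarith
    · -- directions
      intro m hne ξ hξ i
      obtain ⟨y, hy⟩ := hne
      have h1 := (hSb m.1 hy).1 i
      have h2 := cap_near hh hρ m.1 hξ
      have h3 : |inner ℝ (gradient h ξ - gradient h (cen (r ^ (-(1/2) : ℝ)) m.1)) (b i)| ≤
          2 * (1 + |B 2|) * s i := by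
        refine (abs_real_inner_le_norm _ _).trans ?_
        rw [b.norm_eq_one, mul_one]
        refine h2.trans (mul_le_mul_of_nonneg_left (hs i).1 (by positivity))
      have e : gradient h ξ - c = (gradient h ξ - gradient h (cen (r ^ (-(1/2) : ℝ)) m.1)) +
          (gradient h (cen (r ^ (-(1/2) : ℝ)) m.1) - c) := by abel
      rw [e, inner_add_left]
      have h4 := abs_add_le (inner ℝ (gradient h ξ - gradient h (cen (r ^ (-(1/2) : ℝ)) m.1)) (b i))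
        (inner ℝ (gradient h (cen (r ^ (-(1/2) : ℝ)) m.1) - c) (b i))
      have h5 := hNs i
      have h6 : AA * s i = A * s i + 2 * (1 + |B 2|) * s i := by rw [hAA]; ring
      linarith
    · -- positions
      intro m y hy i
      have h1 := (hSb m.1 hy).2 i
      have h2 := mul_le_mul_of_nonneg_right (hNs' i) hr0.le
      calc |inner ℝ (y - x) (b i)| ≤ A * s i * r := h1
        _ ≤ (N * s' i) * r := h2
        _ = _ := by ring
    · -- base points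
      intro m y hy
      have h1 := hloc m.1 y hy
      have h2 : s' 0 * r + s' 1 * r ≤ 2 * (R ^ (1 - ε') / 32) := by
        have h3 : ∀ i, s' i * r ≤ R ^ (1 - ε') / 32 := fun i =>
          (mul_le_mul_of_nonneg_right (hs'κ i) hr0.le).trans hκr
        linarith [h3 0, h3 1]
      have h4 : ((N0:ℝ) + 1) * (s' 0 * r + s' 1 * r) ≤ R := by
        calc ((N0:ℝ) + 1) * (s' 0 * r + s' 1 * r) ≤ (3 * T) * (2 * (R ^ (1 - ε') / 32)) := by
              have h0' := mul_pos (hs'0 0) hr0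
              have h1' := mul_pos (hs'0 1) hr0
              refine mul_le_mul (by linarith) h2 (by linarith) (by linarith)
          _ = 6 / 32 * (R ^ (1 - ε') * T) := by ring
          _ = 6 / 32 * R := by rw [hRε]
          _ ≤ R := by linarith
      linarith
    · intro c' x0 hx0
      exact hbox c' s' (fun i => ⟨hs'1 i, hs'2 i⟩) (bmK K) hadm x0 hx0

/-- **LOW** (doc 1812), two-scale form over `PBox`. -/
theorem low (B : ℕ → ℝ) {q : ℝ} (hq : 0 ≤ q) {A : ℝ} (hA : 0 ≤ A) {ε : ℝ} (hε : 0 < ε) (Na : ℕ)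
    (M0 : ℝ) : ∃ C : ℝ, 0 ≤ C ∧ ∀ (h : E2 → ℝ) (g : E2 → ℂ) (R D : ℝ), ParB B h → Measurable g →
    (∃ M' : ℝ, ∀ ξ, ‖g ξ‖ ≤ M') → (∃ σ : ℝ, ∀ ξ, σ < ‖ξ‖ → g ξ = 0) → 0 ≤ D →
    PBox q Na h g R D → En g ≤ R ^ M0 * D → ∀ r : ℝ, 1 ≤ r → r ≤ R → ∀ (z : E2 × ℝ),
    |z.2| ≤ 4 * R → ∀ (c : E2)
    (b : OrthonormalBasis (Fin 2) ℝ E2) (s : Fin 2 → ℝ), (∀ i, r ^ (-(1/2) : ℝ) ≤ s i ∧ s i ≤ 1) →
    ∀ (x : E2) (S : ℤ × ℤ → Set E2), (∀ m, MeasurableSet (S m)) →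
    (∀ m, S m ⊆ pbox h r c b (fun k => A * s k) x m) → (∀ m, ∀ y ∈ S m, ‖y + z.1‖ ≤ 3 * R) →
    ENNReal.ofReal r * en (r ^ (-(1/2) : ℝ)) (tr h z g) S ≤
      ENNReal.ofReal (C * R ^ ε * (D * (max (s 0) (s 1)) ^ q * (s 0 * s 1 * R ^ 3))) := by
  obtain ⟨C, hC, h1⟩ := low_at B hq hA hε Na M0
  refine ⟨C, hC, ?_⟩
  intro h g R D hh hg hb hsup hD hbox hnd r hr hrR z hz c b s hs x S hSm hSb hloc
  refine h1 h g R D hh hg hb hsup hD hnd r hr hrR z c b s hs x S hSm hSb hloc ?_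
  intro c' s' hs' ψ hψ x0 hx0
  have hr0 : 0 < r := by linarith
  refine hbox c' b s' (fun i => ⟨?_, (hs' i).2.trans (hs i).2⟩) ψ hψ x0 z.2 hx0 hz
  exact (Real.rpow_le_rpow_of_nonpos hr0 hrR (by norm_num)).trans (hs' i).1

end Crest.Agent.R138.Low448
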