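import Crest.Agent.R138.Tv2_323
import Crest.Agent.R138.Low4_448

/-!
# R138 wave side: **TRIV2** (helper323), from LOW (448) and the energy count
-/

set_option autoImplicit false

open MeasureTheory FourierTransform
open scoped ContDiff ENNReal

namespace Crest.Agent.R138.W323

open Crest.Agent.R138.Defs Crest.Agent.R138.Bil882 Crest.Agent.R138.W188
open Crest.Agent.R138.Wpk685

/-- arithmetic of **TRIV2**. -/
theorem triv2_arith {q C1 C2 R D r s1 s2 e ε : ℝ} (hC1 : 0 ≤ C1) (hC2 : 0 ≤ C2) (hr : 1 ≤ r)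
    (hrR : r ≤ R) (hD : 0 ≤ D) (hs1 : 0 < s1) (hs2 : 0 < s2) (he : 0 ≤ e) (hε : 0 < ε) :
    s2 ^ (-q / 2) * ((s1 * s2 * r ^ 3) ^ (-(1/2) : ℝ) *
      ((C1 * R ^ ε * (D * s2 ^ q * (s1 * s2 * R ^ 3))) ^ (1/2 : ℝ) * (C2 * R * e))) ≤
    (C1 ^ (1/2 : ℝ) * C2) * R ^ ε * (R / r) ^ (2 : ℝ) * (R * e * Real.sqrt D) := by
  have hr0 : 0 < r := by linarith
  have hR0 : 0 < R := by linarith
  have hR : 1 ≤ R := by linarith
  have e1 : (C1 * R ^ ε * (D * s2 ^ q * (s1 * s2 * R ^ 3))) ^ (1/2 : ℝ) =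
      C1 ^ (1/2 : ℝ) * R ^ (ε / 2) * (Real.sqrt D * s2 ^ (q / 2) * ((s1 * s2) ^ (1/2 : ℝ) *
        (R ^ 3) ^ (1/2 : ℝ))) := by
    rw [Real.mul_rpow (by positivity) (by positivity), Real.mul_rpow hC1 (by positivity),
      Real.mul_rpow (by positivity) (by positivity), Real.mul_rpow hD (by positivity),
      Real.mul_rpow (x := s1 * s2) (by positivity) (by positivity), Real.sqrt_eq_rpow,
      ← Real.rpow_mul hR0.le, ← Real.rpow_mul hs2.le]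
    congr 3
    · congr 1; ring
    · congr 2; ring
  have e2 : (s1 * s2 * r ^ 3) ^ (-(1/2) : ℝ) = ((s1 * s2) ^ (1/2 : ℝ))⁻¹ * ((r ^ 3) ^ (1/2 : ℝ))⁻¹ := by
    rw [Real.rpow_neg (by positivity), Real.mul_rpow (by positivity) (by positivity), mul_inv]
  have e3 : s2 ^ (-q / 2) * s2 ^ (q / 2) = 1 := by
    rw [← Real.rpow_add hs2]
    rw [show -q / 2 + q / 2 = 0 by ring, Real.rpow_zero]
  have e4 : ((r ^ 3) ^ (1/2 : ℝ))⁻¹ * (R ^ 3) ^ (1/2 : ℝ) ≤ (R / r) ^ (2 : ℝ) := by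
    have h1 : ((r ^ 3) ^ (1/2 : ℝ))⁻¹ * (R ^ 3) ^ (1/2 : ℝ) = (R / r) ^ (3/2 : ℝ) := by
      rw [mul_comm, ← div_eq_mul_inv, ← Real.div_rpow (by positivity) (by positivity), ← div_pow,
        ← Real.rpow_natCast, ← Real.rpow_mul (by positivity)]
      norm_num
    rw [h1]
    refine Real.rpow_le_rpow_of_exponent_le ?_ (by norm_num)
    rwa [one_le_div hr0]
  have e5 : R ^ (ε / 2) ≤ R ^ ε := Real.rpow_le_rpow_of_exponent_le hR (by linarith)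
  have e6 : 0 < (s1 * s2) ^ (1/2 : ℝ) := by positivity
  calc s2 ^ (-q / 2) * ((s1 * s2 * r ^ 3) ^ (-(1/2) : ℝ) *
      ((C1 * R ^ ε * (D * s2 ^ q * (s1 * s2 * R ^ 3))) ^ (1/2 : ℝ) * (C2 * R * e)))
      = (s2 ^ (-q / 2) * s2 ^ (q / 2)) * (((s1 * s2) ^ (1/2 : ℝ))⁻¹ * (s1 * s2) ^ (1/2 : ℝ)) *
          ((C1 ^ (1/2 : ℝ) * C2) * R ^ (ε / 2) *
            (((r ^ 3) ^ (1/2 : ℝ))⁻¹ * (R ^ 3) ^ (1/2 : ℝ)) * (R * e * Real.sqrt D)) := by
        rw [e1, e2]; ring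
    _ = (C1 ^ (1/2 : ℝ) * C2) * R ^ (ε / 2) *
            (((r ^ 3) ^ (1/2 : ℝ))⁻¹ * (R ^ 3) ^ (1/2 : ℝ)) * (R * e * Real.sqrt D) := by
        rw [e3, inv_mul_cancel₀ e6.ne', one_mul, one_mul]
    _ ≤ (C1 ^ (1/2 : ℝ) * C2) * R ^ ε * (R / r) ^ (2 : ℝ) * (R * e * Real.sqrt D) := by
        gcongr

/-- **TRIV2**. -/
theorem TRIV2_holds (B : ℕ → ℝ) {q : ℝ} (hq : 0 ≤ q) {A : ℝ} (hA : 0 ≤ A) :
    TRIV2 B q (SIG A) := by
  obtain ⟨C2, hC2, H2⟩ := exists_plates_energy B A hA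
  refine ⟨max 1 (2 * A), le_max_left _ _, fun ε hε Na M0 => ?_⟩
  obtain ⟨C1, hC1, H1⟩ := Low448.low B hq hA hε Na M0
  refine ⟨C1 ^ (1/2 : ℝ) * C2, by positivity, fun h g R D r s1 s2 hSt hr1 hK hSd => ?_⟩
  have hR : 1 ≤ R := hSt.R1
  have hR0 : 0 < R := by linarith
  have hr : 1 ≤ r := (Real.one_le_rpow hR (by norm_num)).trans hr1
  have hr0 : 0 < r := by linarith
  have hrR : r ≤ R := by
    have : 1 * r ≤ max 1 (2 * A) * r := by gcongr; exact le_max_left _ _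
    linarith
  have hAr : 2 * A * r ≤ R := by
    have : 2 * A * r ≤ max 1 (2 * A) * r := by gcongr; exact le_max_right _ _
    linarith
  have hs10 : 0 < s1 := (by positivity : (0:ℝ) < r ^ (-(1/2) : ℝ)).trans_le hSd.lo
  have hs20 : 0 < s2 := hs10.trans_le hSd.le
  have hs2 : s2 ≤ 1 := hSd.hi
  have hs1 : s1 ≤ 1 := hSd.le.trans hs2
  have hEn : 0 ≤ En g := integral_nonneg fun ξ => by positivity
  have hGd : Gd g := W323.St.gd hSt (by norm_num)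
  set X : ℝ := C1 * R ^ ε * (D * s2 ^ q * (s1 * s2 * R ^ 3)) with hX
  have hX0 : 0 ≤ X := by rw [hX]; have := hSt.D0; positivity
  have hSIG : SIG A r s1 s2 h g R ≤ ENNReal.ofReal ((s1 * s2 * r ^ 3) ^ (-(1/2) : ℝ)) *
      (ENNReal.ofReal (X ^ (1/2 : ℝ)) * ENNReal.ofReal (C2 * R * En g)) := by
    unfold SIG
    refine iSup_le fun I => iSup_le fun P => iSup_le fun hP => ?_
    unfold val
    rw [← Finset.mul_sum]
    gcongr
    refine le_trans ?_ (mul_le_mul' le_rfl (H2 h hSt.par hSt.h1 r R hr hrR g hGd s1 s2 hs1 hs2 I P hP))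
    rw [Finset.mul_sum]
    refine Finset.sum_le_sum fun i hi => ?_
    rw [show (3 / 2 : ℝ) = 1 / 2 + 1 by norm_num,
      ENNReal.rpow_add_of_nonneg _ _ (by norm_num) (by norm_num), ENNReal.rpow_one,
      ← ENNReal.ofReal_rpow_of_nonneg hX0 (by norm_num)]
    gcongr
    have hz := hP.mem i hi
    have h1 := H1 h g R D hSt.par hSt.meas hSt.bdd ⟨1, hSt.supp⟩ hSt.D0 hSt.box hSt.nd r hr hrR
      (P i).z (by have := hz.2; linarith) (P i).c (P i).b ![s1, s2] (fun k => by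
        fin_cases k
        · exact ⟨hSd.lo, hs1⟩
        · exact ⟨hSd.lo.trans hSd.le, hs2⟩) (P i).x (P i).S (hP.meas i hi) (hP.box i hi)
      (fun m y hy => by
        have h2 := pos_le hA hr0.le hs1 hs2 (hP.x i hi) (hP.box i hi m hy)
        have h3 : ‖y + (P i).z.1‖ ≤ ‖y‖ + ‖(P i).z.1‖ := norm_add_le _ _
        have h4 : ‖(P i).z.1‖ ≤ R := hz.1
        nlinarith)
    refine h1.trans (le_of_eq ?_)
    simp only [Matrix.cons_val_zero, Matrix.cons_val_one, max_eq_right hSd.le]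
    rw [hX]
  calc ENNReal.ofReal (s2 ^ (-q / 2)) * SIG A r s1 s2 h g R
      ≤ ENNReal.ofReal (s2 ^ (-q / 2)) * (ENNReal.ofReal ((s1 * s2 * r ^ 3) ^ (-(1/2) : ℝ)) *
          (ENNReal.ofReal (X ^ (1/2 : ℝ)) * ENNReal.ofReal (C2 * R * En g))) := by gcongr
    _ ≤ _ := by
        rw [← ENNReal.ofReal_mul (by positivity), ← ENNReal.ofReal_mul (by positivity),
          ← ENNReal.ofReal_mul (by positivity)]
        refine ENNReal.ofReal_le_ofReal ?_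
        exact triv2_arith hC1 hC2 hr hrR hSt.D0 hs10 hs20 hEn hε

end Crest.Agent.R138.W323
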