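import Crest.Agent.R138.DecDef_774

/-!
# R138 / R139: WAVE side, interface Props, part 2 (helper188): `A3k` (= `A3` for `K0 r2 ≤ r1`) and
`W3g` (the boundary slab statement under `LB (c1+)`, request of 555 / 639).
-/

set_option autoImplicit false

open MeasureTheory FourierTransform
open scoped ContDiff ENNReal

namespace Crest.Agent.R138.W188

open Crest.Agent.R138.Defs Crest.Agent.R138.Bil882 Crest.Agent.R138.Wpk685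

section leaves2

variable (B : ℕ → ℝ) (q : ℝ) (F : ℝ → ℝ → ℝ → (E2 → ℝ) → (E2 → ℂ) → ℝ → ℝ≥0∞)

/-- **A3k** = RR + DEC (D6): re-rooting at level `r1`, only for `K0 * r2 ≤ r1`. -/
def A3k : Prop := ∃ K0 : ℝ, 1 ≤ K0 ∧ ∀ ε : ℝ, 0 < ε → ∃ Na' : ℕ, ∀ (Na : ℕ) (M0 : ℝ),
  ∃ C : ℝ, 0 ≤ C ∧
  ∀ h g R D, St B q Na M0 (1/2) h g R D → ∀ r1 r2 s1 s2, R ^ (1/2 : ℝ) ≤ r2 → K0 * r2 ≤ r1 →
    r1 ≤ R → Sd r2 s1 s2 → ∀ Q : ℝ, 1 ≤ Q →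
      (∀ g' D', St B q Na' 4 1 h g' r1 D' →
        ENNReal.ofReal (s2 ^ (-q / 2)) * F r2 s1 s2 h g' r1 ≤ ENNReal.ofReal (Q * SS g' r1 D')) →
      ∃ s1' s2', Sd r1 s1' s2' ∧ ENNReal.ofReal (s2 ^ (-q / 2)) * F r2 s1 s2 h g R ≤
        ENNReal.ofReal (C * R ^ ε * Q) * (ENNReal.ofReal (s2' ^ (-q / 2)) * F r1 s1' s2' h g R) +
          ENNReal.ofReal (C * SS g R D)

/-- conclusion of **W3g** at `c1`: thin wide plates grow strictly slower than `c1`. -/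
def W3gC (c1 : ℝ) : Prop := ∃ κ c3 A η' : ℝ, 0 < κ ∧ κ ≤ 1 ∧ 0 < c3 ∧ c3 ≤ 1 ∧ 1 ≤ A ∧ 0 < η' ∧
  ∀ ε : ℝ, 0 < ε → ∀ Na : ℕ,
  ∃ C : ℝ, 0 ≤ C ∧ ∀ h g R D, St B q Na 4 1 h g R D → ∀ d s1 s2 : ℝ, 0 < d → d ≤ c3 →
    d ^ (-A) ≤ R → Sd (d * R) s1 s2 → s1 ≤ d ^ (-η') * (d * R) ^ (-(1/2) : ℝ) →
    d ^ (-A) * s1 ≤ s2 →
      ENNReal.ofReal (s2 ^ (-q / 2)) * F (d * R) s1 s2 h g R ≤
        ENNReal.ofReal (C * R ^ ε * d ^ (-(c1 / 2 * (1 - κ))) * SS g R D)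

/-- **W3g**: under `LB (c1+)`, thin wide plates grow strictly slower than `c1`. -/
def W3g : Prop := ∀ c1 : ℝ, 0 < c1 → (∀ c, c1 < c → LB B q 1 c) → W3gC B q F c1

end leaves2

variable {B : ℕ → ℝ} {q : ℝ} {F : ℝ → ℝ → ℝ → (E2 → ℝ) → (E2 → ℂ) → ℝ → ℝ≥0∞}

theorem A1_of_A1n {Na0 : ℕ} (H : A1n B q F Na0) : A1 B q F := fun ε hε => ⟨Na0, H ε hε⟩

theorem A3k_of_A3 (H : A3 B q F) : A3k B q F := by
  refine ⟨1, le_rfl, fun ε hε => ?_⟩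
  obtain ⟨Na', H⟩ := H ε hε
  refine ⟨Na', fun Na M0 => ?_⟩
  obtain ⟨C, hC, H⟩ := H Na M0
  refine ⟨C, hC, fun h g R D hSt r1 r2 s1 s2 h1 h2 h3 h4 => H h g R D hSt r1 r2 s1 s2 h1 ?_ h3 h4⟩
  linarith

/-- the packet cut-offs: the class `Adm` is antitone, hence `PBox` and `St` are monotone in `Na`. -/
theorem PBox.mono_Na {Na Na' : ℕ} (hN : Na ≤ Na') {h : E2 → ℝ} {g : E2 → ℂ} {R D : ℝ}
    (H : PBox q Na h g R D) : PBox q Na' h g R D := by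
  intro c b s hs ψ hψ
  exact H c b s hs ψ (by
    obtain ⟨h1, h2, h3⟩ := hψ
    refine ⟨?_, h2, ?_⟩
    · first | exact h1 | exact h1.of_le (by exact_mod_cast hN)
    · intro j hj
      exact h3 j (hj.trans hN))

theorem W3g_of_W3z (H : W3z B q F) : W3g B q F := by
  intro c1 hc1 _
  obtain ⟨c3, hc3, hc31, H⟩ := H
  obtain ⟨A, η', hA, hη', H⟩ := H (c1 / 4) (by positivity)
  refine ⟨1/2, c3, A, η', by norm_num, by norm_num, hc3, hc31, hA, hη', ?_⟩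
  intro ε hε Na
  obtain ⟨C, hC, H⟩ := H ε hε Na
  refine ⟨C, hC, fun h g R D hSt d s1 s2 h1 h2 h3 h4 h5 h6 => ?_⟩
  have e : -(c1 / 2 * (1 - 1 / 2)) = -(c1 / 4) := by ring
  rw [e]
  exact H h g R D hSt d s1 s2 h1 h2 h3 h4 h5 h6

end Crest.Agent.R138.W188
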