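import Crest.Agent.R138.RR6_323
import Crest.Agent.R138.DecC_685
import Crest.Agent.R138.WDef2_188
import Crest.Agent.R138.Tv3_323
import Crest.Agent.R138.Wpk9_685

/-!
# R138 wave side (helper323): re-rooting over `DecOut` (DEC with classes)
-/

set_option autoImplicit false
set_option linter.unusedVariables false

open MeasureTheory FourierTransform
open scoped ContDiff ENNReal

namespace Crest.Agent.R138.W323

open Crest.Agent.R138.Defs Crest.Agent.R138.Bil882 Crest.Agent.R138.W188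
open Crest.Agent.R138.Wpk685
open Crest.Agent.R138.T774 (haar3 cyl_eq finrank3)

/-- the total contribution of the rest, with a power to spare. -/
theorem rest_totalK {C3 R D r2 s1 s2 q M0 e n b K : ℝ} {F k0 : ℕ} (hC3 : 0 ≤ C3)
    (hR : 1 ≤ R) (hr2 : R ^ (1/2 : ℝ) ≤ r2) (h2R : r2 ≤ R) (hSd : Sd r2 s1 s2) (he : 0 ≤ e)
    (hb : 0 ≤ b) (hK : 0 ≤ K)
    {C2 : ℝ} (hC2 : 0 ≤ C2) (hn0 : 0 ≤ n) (hn : n ≤ C2 * R ^ b) (hF : (F : ℝ) ≤ 216 * (R / r2) ^ 3)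
    (hnd : e ≤ R ^ M0 * D) (hk0 : 10 + |q| + |M0| + 2 * b + K ≤ k0) :
    ENNReal.ofReal (s2 ^ (-q / 2)) * (ENNReal.ofReal (2 * (n + 1) ^ 2) *
      (ENNReal.ofReal ((s1 * s2 * r2 ^ 3) ^ (-(1/2) : ℝ)) *
        (ENNReal.ofReal r2 * ((F : ℝ≥0∞) * ENNReal.ofReal (C3 * (R ^ (-(k0 : ℝ)) * e)))) ^
          (3 / 2 : ℝ))) ≤
      ENNReal.ofReal (2 * (C2 + 1) ^ 2 * (216 * C3) ^ (3/2 : ℝ) * R ^ (-K) *
        (R * e * Real.sqrt D)) := by
  have hR0 : 0 < R := by linarith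
  have hr2' : 1 ≤ r2 := (Real.one_le_rpow hR (by norm_num)).trans hr2
  have hr20 : 0 < r2 := by linarith
  have hs1 : 0 < s1 := (by positivity : (0:ℝ) < r2 ^ (-(1/2) : ℝ)).trans_le hSd.lo
  have hs2 : 0 < s2 := hs1.trans_le hSd.le
  have hk : (0:ℝ) ≤ k0 := Nat.cast_nonneg _
  -- everything is real
  rw [← ENNReal.ofReal_natCast, ← ENNReal.ofReal_mul (Nat.cast_nonneg _),
    ← ENNReal.ofReal_mul hr20.le, ENNReal.ofReal_rpow_of_nonneg (by positivity) (by norm_num),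
    ← ENNReal.ofReal_mul (by positivity), ← ENNReal.ofReal_mul (by positivity),
    ← ENNReal.ofReal_mul (by positivity)]
  refine ENNReal.ofReal_le_ofReal ?_
  have a1 : s2 ^ (-q / 2) ≤ R ^ (|q| / 4) := by
    rcases le_or_gt 0 q with hq | hq
    · have h1 : r2 ^ (-(1/2) : ℝ) ≤ s2 := hSd.lo.trans hSd.le
      calc s2 ^ (-q / 2) ≤ (r2 ^ (-(1/2) : ℝ)) ^ (-q / 2) :=
            Real.rpow_le_rpow_of_nonpos (by positivity) h1 (by linarith)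
        _ = r2 ^ (|q| / 4) := by
            rw [← Real.rpow_mul hr20.le, abs_of_nonneg hq]; congr 1; ring
        _ ≤ R ^ (|q| / 4) := by gcongr
    · calc s2 ^ (-q / 2) ≤ 1 := Real.rpow_le_one hs2.le hSd.hi (by linarith)
        _ ≤ R ^ (|q| / 4) := Real.one_le_rpow hR (by positivity)
  have a2 : 2 * (n + 1) ^ 2 ≤ 2 * ((C2 + 1) ^ 2 * R ^ (2 * b)) := by
    have h1 : n + 1 ≤ (C2 + 1) * R ^ b := by
      have : 1 ≤ R ^ b := Real.one_le_rpow hR hb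
      nlinarith
    have h2 : R ^ (2 * b) = (R ^ b) ^ 2 := by
      rw [← Real.rpow_natCast, ← Real.rpow_mul hR0.le]; congr 1; push_cast; ring
    rw [h2, ← mul_pow]
    gcongr
  have a3 : (s1 * s2 * r2 ^ 3) ^ (-(1/2) : ℝ) ≤ 1 := by
    refine Real.rpow_le_one_of_one_le_of_nonpos ?_ (by norm_num)
    have h1 : r2 ^ (-(1/2) : ℝ) * r2 ^ (-(1/2) : ℝ) ≤ s1 * s2 := by
      have := hSd.lo
      have := hSd.le
      gcongr
      linarith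
    have h2 : r2 ^ (-(1/2) : ℝ) * r2 ^ (-(1/2) : ℝ) = r2⁻¹ := by
      rw [← Real.rpow_add hr20, ← Real.rpow_neg_one]; norm_num
    rw [h2] at h1
    calc (1:ℝ) ≤ r2 ^ 2 := by nlinarith
      _ = r2⁻¹ * r2 ^ 3 := by field_simp
      _ ≤ s1 * s2 * r2 ^ 3 := by gcongr
  have a4 : (r2 * (F * (C3 * (R ^ (-(k0 : ℝ)) * e)))) ^ (3/2 : ℝ) ≤
      (216 * C3) ^ (3/2 : ℝ) * (R ^ ((4 - (k0:ℝ)) * (3/2)) * (e * (R ^ (M0 / 2) * Real.sqrt D))) := by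
    have h1 : r2 * (F * (C3 * (R ^ (-(k0 : ℝ)) * e))) ≤
        216 * C3 * (R ^ (4 - (k0:ℝ)) * e) := by
      have h2 : r2 * F ≤ 216 * R ^ (4:ℝ) := by
        have h3 : (F : ℝ) ≤ 216 * R ^ 3 := by
          refine hF.trans ?_
          gcongr
          exact div_le_self hR0.le hr2'
        calc r2 * F ≤ R * (216 * R ^ 3) := by gcongr
          _ = 216 * R ^ (4:ℝ) := by
              rw [show (4:ℝ) = ((4:ℕ):ℝ) by norm_num, Real.rpow_natCast]; ring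
      calc r2 * (F * (C3 * (R ^ (-(k0 : ℝ)) * e)))
          = (r2 * F) * (C3 * (R ^ (-(k0 : ℝ)) * e)) := by ring
        _ ≤ (216 * R ^ (4:ℝ)) * (C3 * (R ^ (-(k0 : ℝ)) * e)) := by gcongr
        _ = 216 * C3 * ((R ^ (4:ℝ) * R ^ (-(k0 : ℝ))) * e) := by ring
        _ = _ := by rw [← Real.rpow_add hR0]; ring_nf
    have h4 : e ^ (3/2 : ℝ) ≤ e * (R ^ (M0 / 2) * Real.sqrt D) := by
      have h5 : e ^ (3 / 2 : ℝ) = e * Real.sqrt e := by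
        rw [show (3 / 2 : ℝ) = 1 + 1 / 2 by norm_num, Real.rpow_add_of_nonneg he (by norm_num)
          (by norm_num), Real.rpow_one, Real.sqrt_eq_rpow]
      rw [h5]
      gcongr
      refine (Real.sqrt_le_sqrt hnd).trans ?_
      rw [Real.sqrt_mul (by positivity)]
      gcongr
      rw [Real.sqrt_eq_rpow, ← Real.rpow_mul hR0.le]
      apply le_of_eq; congr 1; ring
    calc (r2 * (F * (C3 * (R ^ (-(k0 : ℝ)) * e)))) ^ (3/2 : ℝ)
        ≤ (216 * C3 * (R ^ (4 - (k0:ℝ)) * e)) ^ (3/2 : ℝ) := by gcongr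
      _ = (216 * C3) ^ (3/2 : ℝ) * (R ^ ((4 - (k0:ℝ)) * (3/2)) * e ^ (3/2 : ℝ)) := by
          rw [Real.mul_rpow (by positivity) (by positivity), Real.mul_rpow (by positivity) he,
            ← Real.rpow_mul hR0.le]
      _ ≤ _ := by gcongr
  calc s2 ^ (-q / 2) * (2 * (n + 1) ^ 2 * ((s1 * s2 * r2 ^ 3) ^ (-(1/2) : ℝ) *
        (r2 * (F * (C3 * (R ^ (-(k0 : ℝ)) * e)))) ^ (3/2 : ℝ)))
      ≤ R ^ (|q| / 4) * (2 * ((C2 + 1) ^ 2 * R ^ (2 * b)) * (1 * ((216 * C3) ^ (3/2 : ℝ) *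
          (R ^ ((4 - (k0:ℝ)) * (3/2)) * (e * (R ^ (M0 / 2) * Real.sqrt D)))))) := by
        gcongr
    _ = 2 * (C2 + 1) ^ 2 * (216 * C3) ^ (3/2 : ℝ) *
          ((R ^ (|q| / 4) * R ^ (2 * b) * R ^ ((4 - (k0:ℝ)) * (3/2)) * R ^ (M0 / 2)) *
            (e * Real.sqrt D)) := by ring
    _ ≤ 2 * (C2 + 1) ^ 2 * (216 * C3) ^ (3/2 : ℝ) * (R ^ (-K + 1) * (e * Real.sqrt D)) := by
        rw [← Real.rpow_add hR0, ← Real.rpow_add hR0, ← Real.rpow_add hR0]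
        have h0 : R ^ (|q| / 4 + 2 * b + (4 - (k0:ℝ)) * (3/2) + M0 / 2) ≤ R ^ (-K + 1) := by
          refine Real.rpow_le_rpow_of_exponent_le hR ?_
          have h1 := le_abs_self M0
          have h2 := abs_nonneg M0
          have h3 := abs_nonneg q
          linarith
        gcongr
    _ = _ := by rw [Real.rpow_add hR0, Real.rpow_one]; ring

set_option maxHeartbeats 1000000 in
/-- **RR over `DecOut`**; `M1` does not depend on the constant `Cn` of `DecOut`. -/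
theorem rr_outM (B : ℕ → ℝ) (q A M0 : ℝ) (hA : 1 ≤ A) (b K : ℝ) (hb : 0 ≤ b)
    (hK : 0 ≤ K) : ∃ M1 : ℕ, ∀ Cn : ℝ, 0 ≤ Cn → ∃ C : ℝ, 0 ≤ C ∧ ∀ M : ℕ, M1 ≤ M →
    ∀ (Na : ℕ) (σ0 σ : ℝ) (h : E2 → ℝ) (g : E2 → ℂ) (R D : ℝ), St B q Na M0 σ0 h g R D →
    ∀ r1 : ℝ, r1 ≤ R → σ + 3 * r1 ^ (-(1/2) : ℝ) ≤ 2 →
    ∀ nb : ℕ, (nb : ℝ) ≤ R ^ b →
    ∀ (Z : Finset (E2 × ℝ)) (ζ : E2 × ℝ → E2 × ℝ), (∀ z ∈ Z, z ∈ cyl R) →
    (∀ p ∈ cyl R, ζ p ∈ Z ∧ p - ζ p ∈ cyl r1) →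
    ∀ (cls : E2 × ℝ → OrthonormalBasis (Fin 2) ℝ E2 → ℤ × ℤ → E2 → ℕ)
      (Λ : Finset ℕ) (s : ℕ → ℝ × ℝ) (cl : ℕ → ℕ)
      (G : E2 × ℝ → ℕ → E2 → ℂ) (D' : E2 × ℝ → ℕ → ℝ) (rest : E2 × ℝ → E2 → ℂ)
      (I : E2 × ℝ → ℕ → Finset ℕ) (P : E2 × ℝ → ℕ → ℕ → Plate),
    (Λ.card : ℝ) ≤ Cn * R ^ b →
    (∀ z ∈ Z, DecOut q A σ Cn B nb M h g R r1 z (cls z) Λ s cl (G z) (D' z) (rest z)
      (I z) (P z)) →
    ∀ r2 s1 s2 : ℝ, R ^ (1/2 : ℝ) ≤ r2 → A * r2 ≤ r1 → Sd r2 s1 s2 →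
      ENNReal.ofReal (s2 ^ (-q / 2)) * SIG A r2 s1 s2 h g R ≤
        ENNReal.ofReal (2 * ((Λ.card : ℝ) + 1) ^ 2) * (∑ z ∈ Z, ∑ k ∈ Λ,
          ENNReal.ofReal (s2 ^ (-q / 2)) * SIG A r2 s1 s2 h (G z k) r1) +
        ENNReal.ofReal (C * R ^ (-K) * SS g R D) := by
  set k0 : ℕ := ⌈10 + |q| + |M0| + 2 * b + K⌉₊ with hk0
  have hk0' : 10 + |q| + |M0| + 2 * b + K ≤ k0 := Nat.le_ceil _
  obtain ⟨C1, hC1, Hen⟩ := exists_en_le B (4 * (k0 + 1))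
  refine ⟨k0 + 1 + ⌈b⌉₊, fun Cn hCn => ?_⟩
  set C3 : ℝ := C1 * (64 * Cn ^ 2 + Cn) with hC3
  have hC3' : 0 ≤ C3 := by rw [hC3]; positivity
  refine ⟨2 * (Cn + 1) ^ 2 * (216 * C3) ^ (3/2 : ℝ), by positivity, ?_⟩
  intro M hM Na σ0 σ h g R D hSt r1 hr1R hσ nb hnb Z ζ hZ1 hζ cls Λ s cl G D' rest I P hcard HD
    r2 s1 s2 hr2 h21 hSd
  have hR : 1 ≤ R := hSt.R1
  have hR0 : 0 < R := by linarith
  have hr2' : 1 ≤ r2 := (Real.one_le_rpow hR (by norm_num)).trans hr2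
  have hr20 : 0 < r2 := by linarith
  have h21' : r2 ≤ r1 := by nlinarith
  have hr1 : R ^ (1/2 : ℝ) ≤ r1 := hr2.trans h21'
  have hr10 : 0 < r1 := by linarith
  have hhc : Continuous h := hSt.par.1.continuous
  have hs2 : s2 ≤ 1 := hSd.hi
  have hs1 : s1 ≤ 1 := hSd.le.trans hs2
  have hEn : 0 ≤ En g := integral_nonneg fun ξ => by positivity
  have hGd : ∀ z ∈ Z, ∀ k ∈ Λ, Gd (G z k) := fun z hz k hk =>
    W323.St.gd ((HD z hz).st k hk) hσ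
  have hGe : ∀ z ∈ Z, Gd (rest z) := fun z hz =>
    ⟨(HD z hz).rmeas, (HD z hz).rbdd, (HD z hz).rsupp⟩
  -- the rest
  set ρ : ℝ := r2 ^ (-(1/2) : ℝ) with hρ
  have hρ0 : 0 < ρ := by rw [hρ]; positivity
  have hρ1 : ρ ≤ 1 := Real.rpow_le_one_of_one_le_of_nonpos hr2' (by norm_num)
  have hsmall : ∀ z ∈ Z, ∀ p : E2 × ℝ, ‖p.1‖ ≤ 8 * r1 → |p.2| ≤ 8 * r1 →
      ‖ext h (rest z) p.1 p.2‖ ≤ Cn * R ^ (-((k0 + 1 : ℕ) : ℝ)) * Real.sqrt (En g) := by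
    intro z hz p h1 h2
    refine ((HD z hz).small p h1 h2).trans ?_
    have h3 : (nb : ℝ) * R ^ (-(M : ℝ)) ≤ R ^ (-((k0 + 1 : ℕ) : ℝ)) := by
      calc (nb : ℝ) * R ^ (-(M : ℝ)) ≤ R ^ b * R ^ (-(M : ℝ)) := by gcongr
        _ = R ^ (b + -(M : ℝ)) := (Real.rpow_add hR0 _ _).symm
        _ ≤ _ := by
          refine Real.rpow_le_rpow_of_exponent_le hR ?_
          have h4 : ((k0 + 1 + ⌈b⌉₊ : ℕ) : ℝ) ≤ M := by exact_mod_cast hM
          have h5 : b ≤ ⌈b⌉₊ := Nat.le_ceil _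
          push_cast at h4 ⊢
          linarith
    calc Cn * nb * R ^ (-(M : ℝ)) * Real.sqrt (En g) =
        Cn * (nb * R ^ (-(M : ℝ))) * Real.sqrt (En g) := by ring
      _ ≤ _ := by gcongr
  set W : ℝ := C3 * (R ^ (-(k0 : ℝ)) * En g) with hWdef
  have hW : ∀ z ∈ Z, ∀ z' ∈ cyl r1, en ρ (tr h z' (rest z))
      (fun _ => Metric.closedBall 0 (3 * A * r2)) ≤ ENNReal.ofReal W := by
    intro z hz z' hz'
    have h1 := Hen h hSt.par ρ (3 * A * r2) hρ0 hρ1 (tr h z' (rest z))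
      (W323.Gd.tr hhc (hGe z hz) z') (fun _ => Metric.closedBall 0 (3 * A * r2))
      (fun _ _ => Metric.isClosed_closedBall.measurableSet) (fun _ _ y hy => by simpa using hy)
    refine h1.trans ?_
    have h2 := WE_bw_le (4 * (k0 + 1)) (ρ := ρ) (a := 3 * A * r2) (d := r1)
      (β := Cn * R ^ (-((k0 + 1 : ℕ) : ℝ)) * Real.sqrt (En g)) hρ0.le (by positivity) hr10.le
      (by positivity) (W323.Gd.tr hhc (hGe z hz) z') (fun x hx => by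
        rw [fourierInv_tr]
        refine hsmall z hz (x + z'.1, z'.2) ?_ ?_
        · have h3 : ‖x + z'.1‖ ≤ ‖x‖ + ‖z'.1‖ := norm_add_le _ _
          have h4 : ‖z'.1‖ ≤ r1 := hz'.1
          simp only
          nlinarith
        · have h4 : |z'.2| ≤ r1 := hz'.2
          simp only
          linarith)
    refine (mul_le_mul' le_rfl h2).trans ?_
    rw [← ENNReal.ofReal_mul hC1]
    refine ENNReal.ofReal_le_ofReal ?_
    rw [En_tr]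
    have h5 := rest_W (C1 := C1) (C2 := Cn) (R := R) (r1 := r1) (r2 := r2) (ρ := ρ) (A := A)
      (e := En g) (e' := En (rest z))
      (β := Cn * R ^ (-((k0 + 1 : ℕ) : ℝ)) * Real.sqrt (En g)) (ε' := 0) (k0 := k0)
      hC1 hCn hR hA hr2 h21 hr1R hρ hEn zero_le_one rfl (by
        rw [Real.rpow_zero, mul_one]; exact (HD z hz).ren)
    rw [hWdef, hC3]
    exact h5
  -- the core
  set F : ℕ := ⌊216 * (R / r2) ^ 3⌋₊ with hFdef
  have hFc : (F : ℝ) ≤ 216 * (R / r2) ^ 3 := Nat.floor_le (by positivity)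
  have hcore : SIG A r2 s1 s2 h g R ≤ 2 * ((Λ.card : ℝ≥0∞) + 1) ^ 2 *
      (∑ z ∈ Z, ∑ k ∈ Λ, SIG A r2 s1 s2 h (G z k) r1 +
        ENNReal.ofReal ((s1 * s2 * r2 ^ 3) ^ (-(1/2) : ℝ)) *
          (ENNReal.ofReal r2 * ((F : ℝ≥0∞) * ENNReal.ofReal W)) ^ (3 / 2 : ℝ)) := by
    unfold SIG
    refine iSup_le fun I => iSup_le fun P => iSup_le fun hP => ?_
    refine rr_core (Z := Z) (ζ := ζ) hhc (by linarith) hr20.le hs1 hs2 hζ
      Λ G rest hGd hGe (fun z hz => funext fun ξ => (HD z hz).sum ξ) (ENNReal.ofReal W) hW I P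
      hP F (fun t ht1 ht2 => ?_)
    refine Nat.le_floor ?_
    exact card_net hr20 (h21'.trans hr1R) t ht1 ht2
  calc ENNReal.ofReal (s2 ^ (-q / 2)) * SIG A r2 s1 s2 h g R
      ≤ ENNReal.ofReal (s2 ^ (-q / 2)) * (2 * ((Λ.card : ℝ≥0∞) + 1) ^ 2 *
        (∑ z ∈ Z, ∑ k ∈ Λ, SIG A r2 s1 s2 h (G z k) r1 +
          ENNReal.ofReal ((s1 * s2 * r2 ^ 3) ^ (-(1/2) : ℝ)) *
            (ENNReal.ofReal r2 * ((F : ℝ≥0∞) * ENNReal.ofReal W)) ^ (3 / 2 : ℝ))) := by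
        gcongr
    _ = ENNReal.ofReal (2 * ((Λ.card : ℝ) + 1) ^ 2) * (∑ z ∈ Z, ∑ k ∈ Λ,
          ENNReal.ofReal (s2 ^ (-q / 2)) * SIG A r2 s1 s2 h (G z k) r1) +
        ENNReal.ofReal (s2 ^ (-q / 2)) * (ENNReal.ofReal (2 * ((Λ.card : ℝ) + 1) ^ 2) *
          (ENNReal.ofReal ((s1 * s2 * r2 ^ 3) ^ (-(1/2) : ℝ)) *
            (ENNReal.ofReal r2 * ((F : ℝ≥0∞) * ENNReal.ofReal W)) ^ (3 / 2 : ℝ))) := by
        have e1 : (2 * ((Λ.card : ℝ≥0∞) + 1) ^ 2) = ENNReal.ofReal (2 * ((Λ.card : ℝ) + 1) ^ 2) := by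
          rw [ENNReal.ofReal_mul (by norm_num), ENNReal.ofReal_pow (by positivity),
            ENNReal.ofReal_add (Nat.cast_nonneg _) zero_le_one, ENNReal.ofReal_natCast,
            ENNReal.ofReal_one, ENNReal.ofReal_ofNat]
        rw [e1]
        simp only [← Finset.mul_sum]
        ring
    _ ≤ _ := by
        gcongr
        refine (rest_totalK (C2 := Cn) hC3' hR hr2 (h21'.trans hr1R) hSd hEn hb hK hCn
          (Nat.cast_nonneg _) hcard hFc hSt.nd hk0').trans ?_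
        unfold SS
        exact le_rfl

/-- **FIN over `DecOut`**: bounds of the last SIG by sums of `SS` of the children. -/
theorem fin_out (B : ℕ → ℝ) (q A M0 : ℝ) (hA : 1 ≤ A) (b K : ℝ) (hb : 0 ≤ b)
    (hK : 0 ≤ K) : ∃ M1 : ℕ, ∀ Cn : ℝ, 0 ≤ Cn → ∃ C : ℝ, 0 ≤ C ∧ ∀ M : ℕ, M1 ≤ M →
    ∀ (Na : ℕ) (σ0 σ : ℝ) (h : E2 → ℝ) (g : E2 → ℂ) (R D : ℝ), St B q Na M0 σ0 h g R D →
    ∀ r1 : ℝ, r1 ≤ R → σ + 3 * r1 ^ (-(1/2) : ℝ) ≤ 2 →
    ∀ nb : ℕ, (nb : ℝ) ≤ R ^ b →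
    ∀ (Z : Finset (E2 × ℝ)) (ζ : E2 × ℝ → E2 × ℝ), (∀ z ∈ Z, z ∈ cyl R) →
    (∀ p ∈ cyl R, ζ p ∈ Z ∧ p - ζ p ∈ cyl r1) →
    ∀ (cls : E2 × ℝ → OrthonormalBasis (Fin 2) ℝ E2 → ℤ × ℤ → E2 → ℕ)
      (Λ : Finset ℕ) (s : ℕ → ℝ × ℝ) (cl : ℕ → ℕ)
      (G : E2 × ℝ → ℕ → E2 → ℂ) (D' : E2 × ℝ → ℕ → ℝ) (rest : E2 × ℝ → E2 → ℂ)
      (I : E2 × ℝ → ℕ → Finset ℕ) (P : E2 × ℝ → ℕ → ℕ → Plate),
    (Λ.card : ℝ) ≤ Cn * R ^ b →
    (∀ z ∈ Z, DecOut q A σ Cn B nb M h g R r1 z (cls z) Λ s cl (G z) (D' z) (rest z)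
      (I z) (P z)) →
    ∀ r2 s1 s2 Q : ℝ, R ^ (1/2 : ℝ) ≤ r2 → A * r2 ≤ r1 → Sd r2 s1 s2 → 0 ≤ Q →
      (∀ z ∈ Z, ∀ k ∈ Λ, ENNReal.ofReal (s2 ^ (-q / 2)) * SIG A r2 s1 s2 h (G z k) r1 ≤
        ENNReal.ofReal (Q * SS (G z k) r1 (D' z k))) →
      ENNReal.ofReal (s2 ^ (-q / 2)) * SIG A r2 s1 s2 h g R ≤
        ENNReal.ofReal (2 * ((Λ.card : ℝ) + 1) ^ 2 * Q) * (∑ k ∈ Λ, ∑ z ∈ Z,
          ENNReal.ofReal (SS (G z k) r1 (D' z k))) +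
        ENNReal.ofReal (C * R ^ (-K) * SS g R D) := by
  obtain ⟨M1, H⟩ := rr_outM B q A M0 hA b K hb hK
  refine ⟨M1, fun Cn hCn => ?_⟩
  obtain ⟨C, hC, H⟩ := H Cn hCn
  refine ⟨C, hC, ?_⟩
  intro M hM Na σ0 σ h g R D hSt r1 hr1R hσ nb hnb Z ζ hZ1 hζ cls Λ s cl G D' rest I P hcard HD
    r2 s1 s2 Q hr2 h21 hSd hQ hF
  refine (H M hM Na σ0 σ h g R D hSt r1 hr1R hσ nb hnb Z ζ hZ1 hζ cls Λ s cl G D' rest I P hcard
    HD r2 s1 s2 hr2 h21 hSd).trans ?_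
  refine add_le_add ?_ le_rfl
  have e1 : ENNReal.ofReal (2 * ((Λ.card : ℝ) + 1) ^ 2 * Q) =
      ENNReal.ofReal (2 * ((Λ.card : ℝ) + 1) ^ 2) * ENNReal.ofReal Q :=
    ENNReal.ofReal_mul (by positivity)
  rw [e1, mul_assoc, Finset.sum_comm]
  refine mul_le_mul' le_rfl ?_
  rw [Finset.mul_sum]
  refine Finset.sum_le_sum fun k hk => ?_
  rw [Finset.mul_sum]
  refine Finset.sum_le_sum fun z hz => ?_
  rw [← ENNReal.ofReal_mul hQ]
  exact hF z hz k hk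

/-- coefficient form of the energy of a class. -/
noncomputable def Sc (g : E2 → ℂ) (h : E2 → ℝ) (r : ℝ) (z : E2 × ℝ) (D' : ℝ) (I : Finset ℕ)
    (P : ℕ → Plate) : ℝ≥0∞ :=
  ENNReal.ofReal (r * Real.sqrt D') * ∑ i ∈ I, en (r ^ (-(1/2) : ℝ)) (tr h z g) (P i).S

/-- `SS` of a class is bounded by the coefficient form. -/
theorem SS_le_Sc {q A σ Cn : ℝ} {B : ℕ → ℝ} {nb M : ℕ} {h : E2 → ℝ} {g : E2 → ℂ} {R r : ℝ}
    {z : E2 × ℝ} {cls : OrthonormalBasis (Fin 2) ℝ E2 → ℤ × ℤ → E2 → ℕ}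
    {Λ : Finset ℕ} {s : ℕ → ℝ × ℝ} {cl : ℕ → ℕ}
    {G : ℕ → E2 → ℂ} {D' : ℕ → ℝ} {rest : E2 → ℂ} {I : ℕ → Finset ℕ} {P : ℕ → ℕ → Plate}
    (hr : 0 ≤ r) (H : DecOut q A σ Cn B nb M h g R r z cls Λ s cl G D' rest I P) {k : ℕ}
    (hk : k ∈ Λ) :
    ENNReal.ofReal (SS (G k) r (D' k)) ≤ ENNReal.ofReal Cn * Sc g h r z (D' k) (I k) (P k) := by
  have h1 := H.energy k hk
  have h2 : SS (G k) r (D' k) = (r * Real.sqrt (D' k)) * En (G k) := by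
    unfold SS; ring
  have h3 : 0 ≤ r * Real.sqrt (D' k) := by positivity
  rw [h2, ENNReal.ofReal_mul h3]
  unfold Sc
  calc ENNReal.ofReal (r * Real.sqrt (D' k)) * ENNReal.ofReal (En (G k)) ≤
      ENNReal.ofReal (r * Real.sqrt (D' k)) * (ENNReal.ofReal Cn *
        ∑ i ∈ I k, en (r ^ (-(1/2) : ℝ)) (tr h z g) (P k i).S) := by gcongr
    _ = _ := by ring

/-- the coefficient form is bounded by the value of the plates. -/
theorem Sc_le_val {q A σ Cn : ℝ} {B : ℕ → ℝ} {nb M : ℕ} {h : E2 → ℝ} {g : E2 → ℂ} {R r : ℝ}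
    {z : E2 × ℝ} {cls : OrthonormalBasis (Fin 2) ℝ E2 → ℤ × ℤ → E2 → ℕ}
    {Λ : Finset ℕ} {s : ℕ → ℝ × ℝ} {cl : ℕ → ℕ}
    {G : ℕ → E2 → ℂ} {D' : ℕ → ℝ} {rest : E2 → ℂ} {I : ℕ → Finset ℕ} {P : ℕ → ℕ → Plate}
    (hr : 0 < r) (hC : 0 ≤ Cn * nb)
    (H : DecOut q A σ Cn B nb M h g R r z cls Λ s cl G D' rest I P) {k : ℕ}
    (hk : k ∈ Λ) (hSd : Sd r (s k).1 (s k).2) :
    Sc g h r z (D' k) (I k) (P k) ≤ ENNReal.ofReal (Real.sqrt (Cn * nb)) *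
      (ENNReal.ofReal ((s k).2 ^ (-q / 2)) * val h g r (s k).1 (s k).2 (I k) (P k)) := by
  have hs1 : 0 < (s k).1 := (by positivity : (0:ℝ) < r ^ (-(1/2) : ℝ)).trans_le hSd.lo
  have hs2 : 0 < (s k).2 := hs1.trans_le hSd.le
  unfold Sc val
  rw [Finset.mul_sum, Finset.mul_sum, Finset.mul_sum]
  refine Finset.sum_le_sum fun i hi => ?_
  have hz : (P k i).z = z := (H.pl k hk).2 i hi
  rw [hz]
  set e := en (r ^ (-(1/2) : ℝ)) (tr h z g) (P k i).S with he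
  have hd := H.dense k hk i hi
  rw [← he] at hd
  have hD0 : 0 ≤ D' k := (H.st k hk).D0
  rcases eq_or_ne e ⊤ with het | het
  · rw [het]
    have h1 : (ENNReal.ofReal r * ⊤ : ℝ≥0∞) = ⊤ := ENNReal.mul_top (by
      rw [Ne, ENNReal.ofReal_eq_zero]; linarith)
    rw [h1, ENNReal.top_rpow_of_pos (by norm_num)]
    rcases eq_or_lt_of_le (Real.sqrt_nonneg (Cn * nb)) with h2 | h2
    · -- `Cn * nb = 0`, hence `D' = 0`
      have h3 : Cn * nb = 0 := by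
        have := Real.sq_sqrt hC
        rw [← h2] at this
        linarith
      rw [h3] at hd
      simp only [ENNReal.ofReal_zero, zero_mul, nonpos_iff_eq_zero, ENNReal.ofReal_eq_zero] at hd
      have h4 : 0 < (s k).2 ^ q * ((s k).1 * (s k).2 * r ^ 2) := by positivity
      have h5 : D' k ≤ 0 := by
        by_contra h6
        push Not at h6
        have : 0 < D' k * ((s k).2 ^ q * ((s k).1 * (s k).2 * r ^ 2)) := mul_pos h6 h4
        linarith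
      have h6 : D' k = 0 := le_antisymm h5 hD0
      rw [h6]
      simp
    · have h3 : ENNReal.ofReal ((s k).2 ^ (-q / 2)) ≠ 0 := by
        rw [Ne, ENNReal.ofReal_eq_zero, not_le]; positivity
      have h4 : ENNReal.ofReal (((s k).1 * (s k).2 * r ^ 3) ^ (-(1/2) : ℝ)) ≠ 0 := by
        rw [Ne, ENNReal.ofReal_eq_zero, not_le]; positivity
      have h5 : ENNReal.ofReal (Real.sqrt (Cn * nb)) ≠ 0 := by
        rw [Ne, ENNReal.ofReal_eq_zero, not_le]; exact h2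
      rw [ENNReal.mul_top h4, ENNReal.mul_top h3, ENNReal.mul_top h5]
      exact le_top
  · -- real numbers
    obtain ⟨x, hx0, hx⟩ : ∃ x : ℝ, 0 ≤ x ∧ e = ENNReal.ofReal x :=
      ⟨e.toReal, ENNReal.toReal_nonneg, (ENNReal.ofReal_toReal het).symm⟩
    rw [hx] at hd ⊢
    rw [← ENNReal.ofReal_mul hC, ENNReal.ofReal_le_ofReal_iff (by positivity)] at hd
    rw [← ENNReal.ofReal_mul hr.le, ENNReal.ofReal_rpow_of_nonneg (by positivity) (by norm_num),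
      ← ENNReal.ofReal_mul (by positivity), ← ENNReal.ofReal_mul (by positivity),
      ← ENNReal.ofReal_mul (by positivity), ← ENNReal.ofReal_mul (by positivity)]
    refine ENNReal.ofReal_le_ofReal ?_
    have h1 := d6_real (q := q) (s1 := (s k).1) (s2 := (s k).2) (r := r)
      (Δ := 2 * (D' k / (Cn * nb))) (e := x) hs1 hs2 hr (by positivity) (by
        rcases eq_or_lt_of_le hC with h2 | h2
        · rw [← h2, div_zero]
          simpa using hx0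
        · have e1 : 2 * (D' k / (Cn * nb)) / 2 * ((s k).2 ^ q * ((s k).1 * (s k).2 * r ^ 2)) =
              (D' k * ((s k).2 ^ q * ((s k).1 * (s k).2 * r ^ 2))) / (Cn * nb) := by
            ring
          rw [e1, div_le_iff₀ h2]
          linarith) hx0
    rcases eq_or_lt_of_le hC with h2 | h2
    · have h4 : 0 < (s k).2 ^ q * ((s k).1 * (s k).2 * r ^ 2) := by positivity
      rw [← h2, zero_mul] at hd
      have h5 : D' k ≤ 0 := by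
        by_contra h6
        push Not at h6
        have : 0 < D' k * ((s k).2 ^ q * ((s k).1 * (s k).2 * r ^ 2)) := mul_pos h6 h4
        linarith
      have h6 : D' k = 0 := le_antisymm h5 hD0
      rw [h6]
      simp only [Real.sqrt_zero, mul_zero, zero_mul]
      positivity
    · have h3 : Real.sqrt (D' k) = Real.sqrt (Cn * nb) * Real.sqrt (D' k / (Cn * nb)) := by
        rw [← Real.sqrt_mul hC]
        congr 1
        exact (mul_div_cancel₀ (D' k) h2.ne').symm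
      have h4 : Real.sqrt (2 * (D' k / (Cn * nb))) = Real.sqrt 2 * Real.sqrt (D' k / (Cn * nb)) :=
        Real.sqrt_mul (by norm_num : (0:ℝ) ≤ 2) _
      rw [h4] at h1
      have h5 : Real.sqrt (D' k / (Cn * nb)) * r * x ≤ (s k).2 ^ (-q / 2) *
          (((s k).1 * (s k).2 * r ^ 3) ^ (-(1/2) : ℝ) * (r * x) ^ (3 / 2 : ℝ)) := by
        have h6 : 0 < Real.sqrt 2 := Real.sqrt_pos.2 (by norm_num)
        have h7 : Real.sqrt 2 * (Real.sqrt (D' k / (Cn * nb)) * r * x) ≤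
            Real.sqrt 2 * ((s k).2 ^ (-q / 2) *
          (((s k).1 * (s k).2 * r ^ 3) ^ (-(1/2) : ℝ) * (r * x) ^ (3 / 2 : ℝ))) := by
          calc _ = Real.sqrt 2 * Real.sqrt (D' k / (Cn * nb)) * r * x := by ring
            _ ≤ _ := h1
        exact le_of_mul_le_mul_left h7 h6
      calc r * Real.sqrt (D' k) * x =
          Real.sqrt (Cn * nb) * (Real.sqrt (D' k / (Cn * nb)) * r * x) := by rw [h3]; ring
        _ ≤ _ := by gcongr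

/-- **A3k** whose children have support radius `σ1` only. -/
def A3k' (B : ℕ → ℝ) (q : ℝ) (F : ℝ → ℝ → ℝ → (E2 → ℝ) → (E2 → ℂ) → ℝ → ℝ≥0∞) (σ1 : ℝ) : Prop :=
  ∃ K0 : ℝ, 1 ≤ K0 ∧ ∀ ε : ℝ, 0 < ε → ∃ Na' : ℕ, ∀ (Na : ℕ) (M0 : ℝ),
  ∃ C : ℝ, 0 ≤ C ∧
  ∀ h g R D, St B q Na M0 (1/2) h g R D → ∀ r1 r2 s1 s2, R ^ (1/2 : ℝ) ≤ r2 → K0 * r2 ≤ r1 →
    r1 ≤ R → Sd r2 s1 s2 → ∀ Q : ℝ, 1 ≤ Q →
      (∀ g' D', St B q Na' 4 σ1 h g' r1 D' →
        ENNReal.ofReal (s2 ^ (-q / 2)) * F r2 s1 s2 h g' r1 ≤ ENNReal.ofReal (Q * SS g' r1 D')) →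
      ∃ s1' s2', Sd r1 s1' s2' ∧ ENNReal.ofReal (s2 ^ (-q / 2)) * F r2 s1 s2 h g R ≤
        ENNReal.ofReal (C * R ^ ε * Q) * (ENNReal.ofReal (s2' ^ (-q / 2)) * F r1 s1' s2' h g R) +
          ENNReal.ofReal (C * SS g R D)

theorem St_mono_supp {B : ℕ → ℝ} {q : ℝ} {Na : ℕ} {M0 σ σ' : ℝ} {h : E2 → ℝ} {g : E2 → ℂ}
    {R D : ℝ} (hσ : σ ≤ σ') (H : St B q Na M0 σ h g R D) : St B q Na M0 σ' h g R D :=
  ⟨H.par, H.h0, H.h1, H.meas, H.bdd, fun ξ hξ => H.supp ξ (lt_of_le_of_lt hσ hξ), H.R1, H.D0,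
    H.box, H.nd⟩

set_option maxHeartbeats 1000000 in
/-- **A3k** with children of support radius `3/4`, from **DECc**. -/
theorem A3k34 {B : ℕ → ℝ} {q A : ℝ} (hq : 0 ≤ q) (hA : 1 ≤ A) (H : DECc B q A) :
    A3k' B q (SIG A) (3/4) := by
  obtain ⟨Kt, hKt, HT⟩ := TRIV2_holds B hq (A := A) (by linarith)
  refine ⟨max A Kt, le_max_of_le_left hA, fun ε hε => ⟨6, fun Na M0 => ?_⟩⟩
  set ε' : ℝ := min ε 1 / 3 with hε'
  have hε'0 : 0 < ε' := by rw [hε']; have := lt_min hε one_pos; positivity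
  have hε'1 : ε' ≤ 1 := by
    rw [hε']; have := min_le_right ε 1; linarith
  have hε'3 : 3 * ε' ≤ ε := by
    rw [hε']; have := min_le_left ε 1; linarith
  -- `DECc` has a constant depending on `M`, `rr_out` has `M1` depending on the constant `Cn`;
  -- `M1` does not depend on `Cn`
  obtain ⟨Ct, hCt, HT⟩ := HT 1 one_pos Na M0
  have hM1 : ∃ M1 : ℕ, ∀ Cn : ℝ, 0 ≤ Cn → ∃ C : ℝ, 0 ≤ C ∧ ∀ M : ℕ, M1 ≤ M →
    ∀ (Na : ℕ) (σ0 σ : ℝ) (h : E2 → ℝ) (g : E2 → ℂ) (R D : ℝ), St B q Na M0 σ0 h g R D →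
    ∀ r1 : ℝ, r1 ≤ R → σ + 3 * r1 ^ (-(1/2) : ℝ) ≤ 2 →
    ∀ nb : ℕ, (nb : ℝ) ≤ R ^ (1:ℝ) →
    ∀ (Z : Finset (E2 × ℝ)) (ζ : E2 × ℝ → E2 × ℝ), (∀ z ∈ Z, z ∈ cyl R) →
    (∀ p ∈ cyl R, ζ p ∈ Z ∧ p - ζ p ∈ cyl r1) →
    ∀ (cls : E2 × ℝ → OrthonormalBasis (Fin 2) ℝ E2 → ℤ × ℤ → E2 → ℕ)
      (Λ : Finset ℕ) (s : ℕ → ℝ × ℝ) (cl : ℕ → ℕ)
      (G : E2 × ℝ → ℕ → E2 → ℂ) (D' : E2 × ℝ → ℕ → ℝ) (rest : E2 × ℝ → E2 → ℂ)
      (I : E2 × ℝ → ℕ → Finset ℕ) (P : E2 × ℝ → ℕ → ℕ → Plate),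
    (Λ.card : ℝ) ≤ Cn * R ^ (1:ℝ) →
    (∀ z ∈ Z, DecOut q A σ Cn B nb M h g R r1 z (cls z) Λ s cl (G z) (D' z) (rest z)
      (I z) (P z)) →
    ∀ r2 s1 s2 : ℝ, R ^ (1/2 : ℝ) ≤ r2 → A * r2 ≤ r1 → Sd r2 s1 s2 →
      ENNReal.ofReal (s2 ^ (-q / 2)) * SIG A r2 s1 s2 h g R ≤
        ENNReal.ofReal (2 * ((Λ.card : ℝ) + 1) ^ 2) * (∑ z ∈ Z, ∑ k ∈ Λ,
          ENNReal.ofReal (s2 ^ (-q / 2)) * SIG A r2 s1 s2 h (G z k) r1) +
        ENNReal.ofReal (C * R ^ (-(0:ℝ)) * SS g R D) := rr_outM B q A M0 hA 1 0 zero_le_one le_rfl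
  obtain ⟨M1, hM1⟩ := hM1
  obtain ⟨C2, hC2, HD⟩ := H ε' hε'0 Na M0 M1
  obtain ⟨C4, hC4, HR⟩ := hM1 C2 hC2
  have HR := HR M1 le_rfl
  refine ⟨max (2 * (C2 + 1) ^ 4) (max C4 (Ct * 20736 ^ 3)), le_max_of_le_left (by positivity), ?_⟩
  set C : ℝ := max (2 * (C2 + 1) ^ 4) (max C4 (Ct * 20736 ^ 3)) with hC
  have hC0 : 0 ≤ C := le_max_of_le_left (by positivity)
  intro h g R D hSt r1 r2 s1 s2 hr2 h21 hr1R hSd Q hQ hF
  have hR : 1 ≤ R := hSt.R1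
  have hR0 : 0 < R := by linarith
  have hr2' : 1 ≤ r2 := (Real.one_le_rpow hR (by norm_num)).trans hr2
  have hr20 : 0 < r2 := by linarith
  have hA21 : A * r2 ≤ r1 := by
    refine le_trans ?_ h21
    have := le_max_left A Kt
    gcongr
  have h21' : r2 ≤ r1 := by nlinarith
  have hr1 : R ^ (1/2 : ℝ) ≤ r1 := hr2.trans h21'
  have hr10 : 0 < r1 := by linarith
  have hr11 : 1 ≤ r1 := hr2'.trans h21'
  have hEn : 0 ≤ En g := integral_nonneg fun ξ => by positivity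
  have hSS : 0 ≤ SS g R D := by unfold SS; positivity
  by_cases h144 : 144 ≤ r1
  swap
  · push Not at h144
    refine ⟨1, 1, ⟨Real.rpow_le_one_of_one_le_of_nonpos hr11 (by norm_num), le_rfl, le_rfl⟩, ?_⟩
    have h1 := HT h g R D r2 s1 s2 (St_mono_supp (by norm_num) hSt) hr2 (by
      refine le_trans ?_ (h21.trans hr1R)
      have := le_max_right A Kt
      gcongr) hSd
    refine le_trans h1 (le_trans (ENNReal.ofReal_le_ofReal ?_) le_add_self)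
    have hR2 : R ≤ 20736 := by
      have h2 : R = (R ^ (1/2 : ℝ)) ^ 2 := by
        rw [← Real.rpow_natCast, ← Real.rpow_mul hR0.le]; norm_num
      rw [h2]
      have h3 : 0 ≤ R ^ (1/2 : ℝ) := by positivity
      nlinarith
    have h2 : R / r2 ≤ R := div_le_self hR0.le hr2'
    have h3 : R ^ (1:ℝ) * (R / r2) ^ (2:ℝ) ≤ 20736 ^ 3 := by
      rw [Real.rpow_one, Real.rpow_two]
      have h4 : 0 ≤ R / r2 := by positivity
      calc R * (R / r2) ^ 2 ≤ 20736 * 20736 ^ 2 := by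
            have := h2.trans hR2
            gcongr
        _ = _ := by norm_num
    calc Ct * R ^ (1:ℝ) * (R / r2) ^ (2:ℝ) * SS g R D =
        Ct * (R ^ (1:ℝ) * (R / r2) ^ (2:ℝ)) * SS g R D := by ring
      _ ≤ Ct * 20736 ^ 3 * SS g R D := by gcongr
      _ ≤ C * SS g R D := by
        gcongr
        exact (le_max_right _ _).trans (le_max_right _ _)
  have hσ : (1/2 : ℝ) + 3 * r1 ^ (-(1/2) : ℝ) ≤ 3/4 := by
    have h1 : r1 ^ (-(1/2) : ℝ) ≤ 1/12 := by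
      have h2 : (r1 ^ (-(1/2) : ℝ)) ^ 2 ≤ (1/12) ^ 2 := by
        rw [← Real.rpow_natCast, ← Real.rpow_mul hr10.le]
        norm_num
        rw [Real.rpow_neg_one]
        exact (inv_anti₀ (by norm_num) h144).trans (by norm_num)
      exact le_of_sq_le_sq h2 (by norm_num)
    linarith
  obtain ⟨Λ, s, cl, hcard, hSdΛ, hclΛ, HD⟩ := HD R r1 hR hr1 hr1R 1 le_rfl
  obtain ⟨Z, hZ1, hZ2, hZ3, hZ4⟩ := exists_net hr10 hr1R
  have : Inhabited Plate := ⟨⟨0, 0, EuclideanSpace.basisFun (Fin 2) ℝ, 0, fun _ => ∅⟩⟩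
  have HD' := fun z : E2 × ℝ => fun hz : z ∈ cyl R => HD (1/2) h g D (by norm_num) hSt z hz
    (fun _ _ _ => 0) (fun _ _ => measurable_const) (fun _ _ _ => by norm_num)
  choose! G D' rest I P HO using HD'
  choose! ζ hζ1 hζ2 using hZ3
  have hcard0 : (Λ.card : ℝ) ≤ C2 * R ^ ε' := by simpa using hcard
  have hRε1 : R ^ ε' ≤ R ^ (1:ℝ) := Real.rpow_le_rpow_of_exponent_le hR hε'1
  have hcore := HR Na (1/2) (1/2) h g R D hSt r1 hr1R (by linarith) 1 (by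
      rw [Real.rpow_one]; simpa using hR) Z ζ hZ1 (fun p hp => ⟨hζ1 p hp, hζ2 p hp⟩)
    (fun _ _ _ _ => 0) Λ s cl G D' rest I P (hcard0.trans (by gcongr))
    (fun z hz => HO z (hZ1 z hz)) r2 s1 s2 hr2 hA21 hSd
  -- constants
  obtain ⟨Y, hY⟩ : ∃ Y : ℝ, Y = (C2 + 1) * R ^ ε' := ⟨_, rfl⟩
  have hRe : (1:ℝ) ≤ R ^ ε' := Real.one_le_rpow hR hε'0.le
  have hY0 : 0 ≤ Y := by rw [hY]; positivity
  have hcardY : (Λ.card : ℝ) + 1 ≤ Y := by rw [hY]; nlinarith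
  have hC2Y : C2 ≤ Y := by rw [hY]; nlinarith
  have hY4 : 2 * (C2 + 1) ^ 4 * R ^ (3 * ε') ≤ C * R ^ ε := by
    gcongr
    exact le_max_left _ _
  -- the maximal label
  have hmain : ∃ s1' s2', Sd r1 s1' s2' ∧
      ENNReal.ofReal (2 * ((Λ.card : ℝ) + 1) ^ 2) * (∑ z ∈ Z, ∑ k ∈ Λ,
          ENNReal.ofReal (s2 ^ (-q / 2)) * SIG A r2 s1 s2 h (G z k) r1) ≤
      ENNReal.ofReal (C * R ^ ε * Q) *
        (ENNReal.ofReal (s2' ^ (-q / 2)) * SIG A r1 s1' s2' h g R) := by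
    rcases Λ.eq_empty_or_nonempty with hΛ | hΛ
    · refine ⟨1, 1, ⟨Real.rpow_le_one_of_one_le_of_nonpos hr11 (by norm_num),
        le_rfl, le_rfl⟩, ?_⟩
      rw [hΛ]
      simp
    · obtain ⟨k1, hk1, hmax⟩ := Finset.exists_max_image Λ (fun k =>
        ENNReal.ofReal ((s k).2 ^ (-q / 2)) * SIG A r1 (s k).1 (s k).2 h g R) hΛ
      refine ⟨(s k1).1, (s k1).2, hSdΛ k1 hk1, ?_⟩
      set X := ENNReal.ofReal ((s k1).2 ^ (-q / 2)) * SIG A r1 (s k1).1 (s k1).2 h g R with hX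
      have h1 : ∀ z ∈ Z, ∀ k ∈ Λ, ENNReal.ofReal (s2 ^ (-q / 2)) *
          SIG A r2 s1 s2 h (G z k) r1 ≤ ENNReal.ofReal Q *
          (ENNReal.ofReal C2 * (ENNReal.ofReal ((s k).2 ^ (-q / 2)) *
            val h g r1 (s k).1 (s k).2 (I z k) (P z k))) := by
        intro z hz k hk
        have hO := HO z (hZ1 z hz)
        refine (hF _ _ (St_mono_supp hσ (hO.st k hk))).trans ?_
        rw [ENNReal.ofReal_mul (by linarith)]
        refine mul_le_mul' le_rfl ((hO.ss k hk).trans ?_)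
        simp
      have h2 : ∀ k ∈ Λ, ∑ z ∈ Z, ENNReal.ofReal (s2 ^ (-q / 2)) *
          SIG A r2 s1 s2 h (G z k) r1 ≤ ENNReal.ofReal Q * (ENNReal.ofReal C2 * X) := by
        intro k hk
        refine (Finset.sum_le_sum fun z hz => h1 z hz k hk).trans ?_
        rw [← Finset.mul_sum, ← Finset.mul_sum, ← Finset.mul_sum]
        gcongr
        refine le_trans ?_ (hmax k hk)
        gcongr
        exact sum_val_le_SIG Z hZ2 (fun z => I z k) (fun z => P z k)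
          (fun z hz => ((HO z (hZ1 z hz)).pl k hk).1) (fun z hz => ((HO z (hZ1 z hz)).pl k hk).2) g
      calc ENNReal.ofReal (2 * ((Λ.card : ℝ) + 1) ^ 2) * (∑ z ∈ Z, ∑ k ∈ Λ,
            ENNReal.ofReal (s2 ^ (-q / 2)) * SIG A r2 s1 s2 h (G z k) r1)
          = ENNReal.ofReal (2 * ((Λ.card : ℝ) + 1) ^ 2) * (∑ k ∈ Λ, ∑ z ∈ Z,
              ENNReal.ofReal (s2 ^ (-q / 2)) * SIG A r2 s1 s2 h (G z k) r1) := by
            rw [Finset.sum_comm]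
        _ ≤ ENNReal.ofReal (2 * ((Λ.card : ℝ) + 1) ^ 2) * (∑ k ∈ Λ,
              ENNReal.ofReal Q * (ENNReal.ofReal C2 * X)) := by
            refine mul_le_mul' le_rfl (Finset.sum_le_sum fun k hk => h2 k hk)
        _ = ENNReal.ofReal (2 * ((Λ.card : ℝ) + 1) ^ 2 * Λ.card * C2 * Q) * X := by
            have e1 : ENNReal.ofReal (2 * ((Λ.card : ℝ) + 1) ^ 2 * Λ.card * C2 * Q) =
                ENNReal.ofReal (2 * ((Λ.card : ℝ) + 1) ^ 2) * ENNReal.ofReal Λ.card *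
                  ENNReal.ofReal C2 * ENNReal.ofReal Q := by
              rw [ENNReal.ofReal_mul (p := 2 * ((Λ.card : ℝ) + 1) ^ 2 * Λ.card * C2)
                  (by positivity),
                ENNReal.ofReal_mul (p := 2 * ((Λ.card : ℝ) + 1) ^ 2 * Λ.card) (by positivity),
                ENNReal.ofReal_mul (p := 2 * ((Λ.card : ℝ) + 1) ^ 2) (by positivity)]
            rw [Finset.sum_const, nsmul_eq_mul, ← ENNReal.ofReal_natCast, e1]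
            ring
        _ ≤ ENNReal.ofReal (C * R ^ ε * Q) * X := by
            refine mul_le_mul' (ENNReal.ofReal_le_ofReal ?_) le_rfl
            have h3 : 2 * ((Λ.card : ℝ) + 1) ^ 2 * Λ.card * C2 ≤
                2 * (C2 + 1) ^ 4 * R ^ (3 * ε') := by
              calc 2 * ((Λ.card : ℝ) + 1) ^ 2 * Λ.card * C2 ≤ 2 * Y ^ 2 * Y * (C2 + 1) := by
                    gcongr
                    · linarith
                    · linarith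
                _ = 2 * (C2 + 1) ^ 4 * (R ^ ε') ^ 3 := by rw [hY]; ring
                _ = _ := by
                    have e2 : (R ^ ε') ^ 3 = R ^ (3 * ε') := by
                      rw [← Real.rpow_natCast, ← Real.rpow_mul hR0.le]
                      congr 1
                      push_cast
                      ring
                    rw [e2]
            have := h3.trans hY4
            gcongr
  obtain ⟨s1', s2', hSd', hmain⟩ := hmain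
  refine ⟨s1', s2', hSd', hcore.trans (add_le_add hmain (ENNReal.ofReal_le_ofReal ?_))⟩
  rw [neg_zero, Real.rpow_zero, mul_one]
  have h1 : C4 ≤ C := (le_max_left _ _).trans (le_max_right _ _)
  gcongr

end Crest.Agent.R138.W323
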