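import Crest.Agent.R138.ExtDef_188
import Crest.Agent.R138.GenRoot4_639
import Crest.Agent.R138.Rr7_323

/-!
# R138 / R139: WAVE side, chain, part 1 (helper188): ROOT, GEN, FIN over 210's `Lev`.
-/

set_option autoImplicit false

open MeasureTheory FourierTransform
open scoped ContDiff ENNReal

namespace Crest.Agent.R138.Chn188

open Crest.Agent.R138.Defs Crest.Agent.R138.Bil882 Crest.Agent.R138.Wpk685
  Crest.Agent.R138.W188 Crest.Agent.R138.Gl210 Crest.Agent.R138.GR639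

/-- 210's level as 639's level data. -/
theorem LevOk.lvD {q A σ Cn : ℝ} {B : ℕ → ℝ} {M : ℕ} {h : E2 → ℝ} {g : E2 → ℂ} {R : ℝ} {L : Lev}
    (H : LevOk q A σ Cn B M h g R L) :
    ∃ cls, LvD q A σ Cn B L.nb M h g R L.r L.Z cls (Finset.range L.n) L.s L.cl L.G L.D L.rest
      L.I L.P := by
  classical
  refine ⟨fun z => if hz : z ∈ L.Z then (H.dec z hz).choose else fun _ _ _ => 0,
    ⟨fun k hk => H.sd k (Finset.mem_range.1 hk), H.Zmem, H.Zsep, ?_⟩⟩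
  intro z hz
  simp only [dif_pos hz]
  exact (H.dec z hz).choose_spec

/-- the coefficient sums are the same. -/
theorem Lev.S_eq (L : Lev) (h : E2 → ℝ) (g : E2 → ℂ) (k : ℕ) :
    L.S h g k = Sk h g L.r L.Z L.I L.P L.D k := rfl

theorem lbl_range {n i : ℕ} (hi : i < n) : Dom878.lbl (Finset.range n) i = i := by
  unfold Dom878.lbl
  rw [Finset.sort_range, List.getD_eq_getElem _ _ (by simpa using hi)]
  simp

/-- the parent label dominates pointwise. -/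
theorem Next.domi {h : E2 → ℝ} {L L' : Lev} {aux : Aux} (H : Next h L L' aux) {z : E2 × ℝ}
    (hz : z ∈ L'.Z) {k : ℕ} (hk : k < L'.n) {i : ℕ} (hi : i ∈ L'.I z k) (m : ℤ × ℤ) {y : E2}
    (hy : y ∈ (L'.P z k i).S m) :
    Dom878.Dom (L'.r ^ (-(1/2) : ℝ)) (L.pf h z) (Finset.range L.n) (L'.par k) m y := by
  have h1 := H.arg z hz k hk i hi m y hy
  have h2 := H.par_lt k hk
  have h3 := Dom878.argi_dom (L'.r ^ (-(1/2) : ℝ)) (L.pf h z)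
    (Λ := Finset.range L.n) ⟨L'.par k, Finset.mem_range.2 h2⟩ m y
  rwa [h1, lbl_range h2] at h3

/-- **ROOT**. -/
theorem root_lev {B : ℕ → ℝ} {q A c β : ℝ} (PB : PhB B q (SIG A) c β) {e : ℝ} (he : 0 < e)
    (Na : ℕ) (M0 : ℝ) : ∃ C : ℝ, 0 ≤ C ∧
    ∀ (Cn : ℝ) (M : ℕ) (h : E2 → ℝ) (g : E2 → ℂ) (R D : ℝ) (L : Lev),
      St B q Na M0 (1/2) h g R D → LevOk q A (1/2) Cn B M h g R L → 0 ≤ Cn →
      L.r ≤ R ^ (1 - e) → ∀ k < L.n,
      L.S h g k ≤ ENNReal.ofReal (C * Real.sqrt (Cn * L.nb) * R ^ (2 * e) *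
        (max 1 (R / ((L.s k).1 * L.r) ^ 2)) ^ (c / 2) * SS g R D) ∧
      L.S h g k ≤ ENNReal.ofReal (C * Real.sqrt (Cn * L.nb) * R ^ (2 * e) *
        ((L.s k).2 ^ 2 * R) ^ (β / 2) * SS g R D) := by
  obtain ⟨C, hC, H⟩ := root_bounds PB he Na M0
  refine ⟨C, hC, ?_⟩
  intro Cn M h g R D L hSt hL hCn hr k hk
  obtain ⟨cls, hD⟩ := LevOk.lvD hL
  exact H (1/2) Cn L.nb M h g R D L.r (hSt.mono (by norm_num)) hL.lo hr hCn L.Z cls
    (Finset.range L.n) L.s L.cl L.G L.D L.rest L.I L.P hD.sd hD.sep hD.out k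
    (Finset.mem_range.2 hk)

/-- **GEN**. -/
theorem gen_lev {B : ℕ → ℝ} {q A c β : ℝ} (hA : 1 ≤ A) (PB : PhB B q (SIG A) c β) {e : ℝ}
    (he : 0 < e) : ∃ C : ℝ, 0 ≤ C ∧ ∀ (M0 K b C1 : ℝ), 0 ≤ b → 0 ≤ C1 → ∃ C' : ℝ, 0 ≤ C' ∧
    ∀ (Na M : ℕ), 13 + |q| + |M0| + |K| + 4 * b ≤ M →
    ∀ (h : E2 → ℝ) (g : E2 → ℂ) (R D : ℝ), St B q Na M0 (1/2) h g R D →
    ∀ (L L' : Lev) (aux : Aux), LevOk q A (1/2) C1 B M h g R L → LevOk q A (1/2) C1 B M h g R L' →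
      Next h L L' aux → A * L'.r ≤ L.r → L'.r ≤ L.r ^ (1 - e) → 36 ≤ L.r →
      (L.n : ℝ) ≤ C1 * R ^ b → (L.nb : ℝ) ≤ R ^ b → ∀ k < L'.n,
      L'.S h g k ≤
        ENNReal.ofReal (C * Real.sqrt (C1 * L'.nb) * C1 * ((L.n : ℝ) + 1) ^ 3 * L.r ^ (2 * e) *
          (max 1 (L.r / ((L'.s k).1 * L'.r) ^ 2)) ^ (c / 2)) * L.S h g (L'.par k) +
        ENNReal.ofReal (C' * Real.sqrt (C1 * L'.nb) * (R ^ (-K) * SS g R D)) := by
  obtain ⟨C, hC, H⟩ := gen_en hA PB he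
  refine ⟨C, hC, ?_⟩
  intro M0 K b C1 hb hC1
  obtain ⟨C', hC', H⟩ := H M0 K b C1 hb hC1
  refine ⟨C', hC', ?_⟩
  intro Na M hM h g R D hSt L L' aux hL hL' hN hA' hr hL36 hn hnb k hk
  obtain ⟨cls, hD⟩ := LevOk.lvD hL
  obtain ⟨cls', hD'⟩ := LevOk.lvD hL'
  have hL0 : 0 < L.r := by linarith
  have hσ : (1/2 : ℝ) + 3 * L.r ^ (-(1/2) : ℝ) ≤ 1 := by
    have h1 : L.r ^ (-(1/2) : ℝ) ≤ (36:ℝ) ^ (-(1/2) : ℝ) :=
      Real.rpow_le_rpow_of_nonpos (by norm_num) hL36 (by norm_num)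
    have h2 : (36:ℝ) ^ (-(1/2) : ℝ) = 1/6 := by
      rw [show (36:ℝ) = 6 ^ (2:ℝ) by norm_num, ← Real.rpow_mul (by norm_num)]
      norm_num [Real.rpow_neg_one]
    rw [h2] at h1
    linarith
  have hcard : ((Finset.range L.n).card : ℝ) = L.n := by rw [Finset.card_range]
  have hpar := hN.par_lt k hk
  have key := H Na M hM h g R D (1/2) hSt (by norm_num) L.r L'.r hL'.lo hA' hL.hi hr hσ
    L.nb M L.Z cls (Finset.range L.n) L.s L.cl L.G L.D L.rest L.I L.P le_rfl hD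
    (by rw [hcard]; exact hn) hnb C1 L'.nb M L'.Z cls' (Finset.range L'.n) L'.s L'.cl L'.G L'.D
    L'.rest L'.I L'.P hC1 hD' L.ζ (fun z hz => hL.near z (hL'.Zmem z hz)) k
    (Finset.mem_range.2 hk) (L'.par k) (Finset.mem_range.2 hpar) ?_
  · rw [hcard] at key
    exact key
  · intro z hz i hi κ hκ
    refine en_mono_pt ?_ ?_
    · intro m
      exact (((hD'.out z hz).pl k (Finset.mem_range.2 hk)).1).meas i hi m
    · intro m _ y hy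
      have h1 := Next.domi hN hz hk hi m hy κ hκ
      unfold Lev.pf at h1
      rw [enorm_le_iff_norm_le]
      exact h1

/-- **FIN**. -/
theorem fin_lev {B : ℕ → ℝ} {q A c β : ℝ} (hA : 1 ≤ A) (hc : 0 ≤ c)
    (PB : PhB B q (SIG A) c β) {e : ℝ} (he : 0 < e) (M0 b K : ℝ) (hb : 0 ≤ b) (hK : 0 ≤ K) :
    ∃ M1 : ℕ, ∃ Cf : ℝ, 0 ≤ Cf ∧ ∀ Cn : ℝ, 0 ≤ Cn → ∃ C : ℝ, 0 ≤ C ∧ ∀ M : ℕ, M1 ≤ M →
    ∀ (Na : ℕ) (h : E2 → ℝ) (g : E2 → ℂ) (R D : ℝ), St B q Na M0 (1/2) h g R D →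
    ∀ L : Lev, LevOk q A (1/2) Cn B M h g R L → 36 ≤ L.r → (L.nb : ℝ) ≤ R ^ b →
      (L.n : ℝ) ≤ Cn * R ^ b →
    ∀ r s1 s2 : ℝ, R ^ (1/2 : ℝ) ≤ r → A * r ≤ L.r → r ≤ L.r ^ (1 - e) → Sd r s1 s2 →
      ENNReal.ofReal (s2 ^ (-q / 2)) * SIG A r s1 s2 h g R ≤
        ENNReal.ofReal (2 * ((L.n : ℝ) + 1) ^ 2 * (Cf * R ^ (2 * e) * (L.r / r) ^ (c / 2)) * Cn) *
          (∑ k ∈ Finset.range L.n, L.S h g k) +
        ENNReal.ofReal (C * R ^ (-K) * SS g R D) := by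
  obtain ⟨M1, H⟩ := W323.fin_out B q A M0 hA b K hb hK
  obtain ⟨Cf, hCf, HP⟩ := PB e he 6 4
  refine ⟨M1, Cf, hCf, fun Cn hCn => ?_⟩
  obtain ⟨C, hC, H⟩ := H Cn hCn
  refine ⟨C, hC, ?_⟩
  intro M hM Na h g R D hSt L hL hL36 hnb hn r s1 s2 hr hAr hre hSd
  obtain ⟨cls, hD⟩ := LevOk.lvD hL
  have hR : 1 ≤ R := hSt.R1
  have hR0 : 0 < R := by linarith
  have hL0 : 0 < L.r := by linarith
  have hr1 : 1 ≤ r := (Real.one_le_rpow hR (by norm_num)).trans hr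
  have hr0 : 0 < r := by linarith
  have hrL : r ≤ L.r := by nlinarith
  have h1 : L.r ^ (-(1/2) : ℝ) ≤ 1/6 := by
    have h1 : L.r ^ (-(1/2) : ℝ) ≤ (36:ℝ) ^ (-(1/2) : ℝ) :=
      Real.rpow_le_rpow_of_nonpos (by norm_num) hL36 (by norm_num)
    have h2 : (36:ℝ) ^ (-(1/2) : ℝ) = 1/6 := by
      rw [show (36:ℝ) = 6 ^ (2:ℝ) by norm_num, ← Real.rpow_mul (by norm_num)]
      norm_num [Real.rpow_neg_one]
    rwa [h2] at h1
  have hcard : ((Finset.range L.n).card : ℝ) = L.n := by rw [Finset.card_range]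
  obtain ⟨hs1, hs2⟩ := hSd.s2pos hr0
  obtain ⟨hf1, -⟩ := hSd.facts hr0
  set Q : ℝ := Cf * R ^ (2 * e) * (L.r / r) ^ (c / 2) with hQ
  have hQ0 : 0 ≤ Q := by positivity
  have key := H M hM Na (1/2) (1/2) h g R D hSt L.r hL.hi (by linarith) L.nb hnb L.Z L.ζ hL.Zmem
    hL.near cls (Finset.range L.n) L.s L.cl L.G L.D L.rest L.I L.P (by rw [hcard]; exact hn)
    hD.out r s1 s2 Q hr hAr hSd hQ0 ?_
  · rw [hcard] at key
    refine key.trans ?_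
    refine add_le_add ?_ le_rfl
    have h2 : ∑ k ∈ Finset.range L.n, ∑ z ∈ L.Z, ENNReal.ofReal (SS (L.G z k) L.r (L.D z k)) ≤
        ENNReal.ofReal Cn * ∑ k ∈ Finset.range L.n, L.S h g k := by
      rw [Finset.mul_sum]
      refine Finset.sum_le_sum fun k hk => ?_
      unfold Lev.S
      rw [Finset.mul_sum]
      refine Finset.sum_le_sum fun z hz => ?_
      exact SS_le_en hL0.le (hD.out z hz) hk
    calc ENNReal.ofReal (2 * ((L.n : ℝ) + 1) ^ 2 * Q) *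
          (∑ k ∈ Finset.range L.n, ∑ z ∈ L.Z, ENNReal.ofReal (SS (L.G z k) L.r (L.D z k)))
        ≤ ENNReal.ofReal (2 * ((L.n : ℝ) + 1) ^ 2 * Q) *
          (ENNReal.ofReal Cn * ∑ k ∈ Finset.range L.n, L.S h g k) := by gcongr
      _ = ENNReal.ofReal (2 * ((L.n : ℝ) + 1) ^ 2 * Q * Cn) *
          ∑ k ∈ Finset.range L.n, L.S h g k := by
        rw [← mul_assoc, ← ENNReal.ofReal_mul (by positivity)]
  · intro z hz k hk
    have hStk : St B q 6 4 1 h (L.G z k) L.r (L.D z k) :=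
      ((hD.out z hz).st k hk).mono (by linarith)
    have hr2 : L.r ^ (1/2 : ℝ) ≤ r := (Real.rpow_le_rpow hL0.le hL.hi (by norm_num)).trans hr
    have h3 := (HP h (L.G z k) L.r (L.D z k) hStk r s1 s2 hr2 hre hSd).1
    unfold Ph at h3
    refine h3.trans (ENNReal.ofReal_le_ofReal ?_)
    have hss := hStk.ss
    refine mul_le_mul_of_nonneg_right ?_ hss
    rw [hQ]
    have h4 : L.r ^ (2 * e) ≤ R ^ (2 * e) := Real.rpow_le_rpow hL0.le hL.hi (by positivity)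
    have h5 : max 1 (L.r / (s1 * r) ^ 2) ≤ L.r / r := by
      apply max_le
      · rwa [le_div_iff₀ hr0, one_mul]
      · have : r ≤ (s1 * r) ^ 2 := by nlinarith
        gcongr
    have h6 : (max 1 (L.r / (s1 * r) ^ 2)) ^ (c / 2) ≤ (L.r / r) ^ (c / 2) :=
      Real.rpow_le_rpow (by positivity) h5 (by positivity)
    gcongr

end Crest.Agent.R138.Chn188
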