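import Crest.Agent.R138.W10b_298

/-!
# R138 / R139: WAVE side, chain, part 2 (helper188): abstract tower of labels over 298's
`assembly_tiny` (extended non-negative reals, one chain of ancestors).
-/

set_option autoImplicit false

open scoped ENNReal

namespace Crest.Agent.R138.Chn188

/-- chain of ancestors: `anc 0 = k`, `anc (i+1)` = parent (level `n - i - 1`) of `anc i`. -/
def anc (par : ℕ → ℕ → ℕ) (n k : ℕ) : ℕ → ℕ
  | 0 => k
  | i + 1 => par (n - i - 1) (anc par n k i)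

/-- the abstract tower of labels: `M = j0 + n` levels. -/
def TowerAbs (c1 : ℝ) (j0 M : ℕ) : Prop :=
    ∀ n : ℕ, j0 + n = M →
    ∀ c γ δ : ℝ, c1 ≤ c → 0 ≤ γ → 0 ≤ δ → δ ≤ c1 / 4 → ∀ X E T τ : ℝ, 1 < X → 1 ≤ E → 0 ≤ T →
    0 ≤ τ → ∀ (N : ℕ → ℕ) (S : ℕ → ℕ → ℝ≥0∞) (par : ℕ → ℕ → ℕ) (p : ℕ → ℕ → ℝ)
      (gd : ℕ → ℕ → Prop),
    (∀ k < N 0, S 0 k ≤ ENNReal.ofReal (E * X ^ (c / 2 * j0) * T + τ)) →
    (∀ t < n, ∀ k < N (t + 1), par t k < N t) →
    (∀ t < n, ∀ k < N (t + 1),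
      S (t + 1) k ≤ ENNReal.ofReal (E * X ^ (c / 2)) * S t (par t k) + ENNReal.ofReal τ) →
    (∀ t ≤ n, ∀ k < N t, ¬ gd t k →
      S t k ≤ ENNReal.ofReal (E * X ^ (c / 2 * ((j0 + t : ℕ) : ℝ) - γ) * T + τ)) →
    (∀ t ≤ n, ∀ k < N t, 1 ≤ p t k ∧ p t k ≤ E * X ^ (1 / 2 : ℝ)) →
    (∀ t < n, ∀ k < N (t + 1), gd (t + 1) k → gd t (par t k) →
      S (t + 1) k ≤ ENNReal.ofReal (E * X ^ δ * (p t (par t k) / p (t + 1) k) ^ (1 / 2 : ℝ)
        + E * X ^ (c / 2 - γ)) * S t (par t k) + ENNReal.ofReal τ) →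
    ∀ k < N n, S n k ≤ ENNReal.ofReal ((2 * E) ^ (M + 2) * X ^ (c / 2 * M - min γ (1 / 4)) *
      (T + X ^ γ * (2 * E * X) ^ (M + 1) * τ))

/-- **abstract tower.** -/
theorem tower_abs {c1 : ℝ} (hc1 : 0 < c1) (j0 : ℕ) : ∃ M : ℕ, j0 + 1 ≤ M ∧
    TowerAbs c1 j0 M := by
  obtain ⟨n0, H⟩ := W298.assembly_tiny hc1 j0
  obtain ⟨hM, H⟩ := H n0 le_rfl
  refine ⟨n0, hM, ?_⟩
  intro n hn c γ δ hc hγ hδ0 hδ X E T τ hX hE hT hτ N S par p gd h0 hpar hG hR hp hS k hk
  have hX0 : 0 < X := by linarith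
  have hE0 : 0 < E := by linarith
  -- finiteness
  have hfin : ∀ t ≤ n, ∀ k < N t, S t k ≠ ⊤ := by
    intro t
    induction t with
    | zero => intro _ k hk; exact ne_top_of_le_ne_top ENNReal.ofReal_ne_top (h0 k hk)
    | succ t ih =>
      intro ht k hk
      refine ne_top_of_le_ne_top ?_ (hG t (by omega) k hk)
      exact ENNReal.add_ne_top.2 ⟨ENNReal.mul_ne_top ENNReal.ofReal_ne_top
        (ih (by omega) _ (hpar t (by omega) k hk)), ENNReal.ofReal_ne_top⟩
  -- the chain of ancestors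
  set kk : ℕ → ℕ := fun t => anc par n k (n - t) with hkk
  have hkn : kk n = k := by simp [hkk, anc]
  have hks : ∀ t < n, kk t = par t (kk (t + 1)) := by
    intro t ht
    have e1 : n - t = (n - (t + 1)) + 1 := by omega
    simp only [hkk]
    rw [e1, anc]
    congr 1
    omega
  have hkN : ∀ i ≤ n, kk (n - i) < N (n - i) := by
    intro i
    induction i with
    | zero => intro _; simpa [hkn] using hk
    | succ i ih =>
      intro hi
      have e1 : n - i = (n - (i + 1)) + 1 := by omega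
      have h1 := ih (by omega)
      rw [e1] at h1
      rw [hks (n - (i + 1)) (by omega)]
      exact hpar _ (by omega) _ h1
  have hkN' : ∀ t ≤ n, kk t < N t := by
    intro t ht
    have := hkN (n - t) (by omega)
    rwa [show n - (n - t) = t by omega] at this
  -- the real numbers
  set SR : ℕ → ℝ := fun j => (S (j - j0) (kk (j - j0))).toReal with hSR
  have hreal : ∀ {x : ℝ≥0∞} {y : ℝ}, x ≤ ENNReal.ofReal y → 0 ≤ y → x.toReal ≤ y := by
    intro x y hxy hy
    calc x.toReal ≤ (ENNReal.ofReal y).toReal := ENNReal.toReal_mono ENNReal.ofReal_ne_top hxy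
      _ = y := ENNReal.toReal_ofReal hy
  have hreal2 : ∀ {x z : ℝ≥0∞} {a b : ℝ}, x ≤ ENNReal.ofReal a * z + ENNReal.ofReal b → 0 ≤ a →
      0 ≤ b → z ≠ ⊤ → x.toReal ≤ a * z.toReal + b := by
    intro x z a b hx ha hb hz
    have h1 : ENNReal.ofReal a * z + ENNReal.ofReal b ≠ ⊤ :=
      ENNReal.add_ne_top.2 ⟨ENNReal.mul_ne_top ENNReal.ofReal_ne_top hz, ENNReal.ofReal_ne_top⟩
    calc x.toReal ≤ (ENNReal.ofReal a * z + ENNReal.ofReal b).toReal := ENNReal.toReal_mono h1 hx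
      _ = a * z.toReal + b := by
        rw [ENNReal.toReal_add (ENNReal.mul_ne_top ENNReal.ofReal_ne_top hz)
          ENNReal.ofReal_ne_top, ENNReal.toReal_mul, ENNReal.toReal_ofReal ha,
          ENNReal.toReal_ofReal hb]
  have key := H c γ δ hc hγ hδ0 hδ X E T τ hX hE hT hτ SR (fun j => p (j - j0) (kk (j - j0)))
    (fun j => gd (j - j0) (kk (j - j0))) (fun j _ _ => ENNReal.toReal_nonneg) ?_ ?_ ?_ ?_ ?_
  · have e1 : n0 - j0 = n := by omega
    have h1 : S n k ≤ ENNReal.ofReal (SR n0) := by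
      simp only [hSR, e1, hkn]
      rw [ENNReal.ofReal_toReal (hfin n le_rfl k hk)]
    exact h1.trans (ENNReal.ofReal_le_ofReal key)
  · simp only [hSR, Nat.sub_self]
    exact hreal (h0 _ (hkN' 0 (by omega))) (by positivity)
  · intro j hj hjM
    obtain ⟨t, rfl⟩ := Nat.exists_eq_add_of_le hj
    have ht : t < n := by omega
    simp only [hSR, show j0 + t + 1 - j0 = t + 1 by omega, show j0 + t - j0 = t by omega]
    rw [hks t ht]
    exact hreal2 (hG t ht _ (hkN' (t + 1) (by omega))) (by positivity) hτ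
      (hfin t (by omega) _ (hpar t ht _ (hkN' (t + 1) (by omega))))
  · intro j hj hjM hng
    obtain ⟨t, rfl⟩ := Nat.exists_eq_add_of_le hj
    have ht : t ≤ n := by omega
    simp only [hSR, show j0 + t - j0 = t by omega] at hng ⊢
    exact hreal (hR t ht _ (hkN' t ht) hng) (by positivity)
  · intro j hj hjM
    obtain ⟨t, rfl⟩ := Nat.exists_eq_add_of_le hj
    have ht : t ≤ n := by omega
    simp only [show j0 + t - j0 = t by omega]
    exact hp t ht _ (hkN' t ht)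
  · intro j hj hjM hg1 hg2
    obtain ⟨t, rfl⟩ := Nat.exists_eq_add_of_le hj
    have ht : t < n := by omega
    simp only [hSR, show j0 + t + 1 - j0 = t + 1 by omega, show j0 + t - j0 = t by omega]
      at hg1 hg2 ⊢
    have hN1 := hkN' (t + 1) (by omega)
    have hN2 := hkN' t (by omega)
    rw [hks t ht] at hg1 hN2 ⊢
    have hp1 := (hp t ht.le _ hN2).1
    have hp2 := (hp (t + 1) (by omega) _ hN1).1
    have := hreal2 (hS t ht _ hN1 hg2 hg1) (by positivity) hτ
      (hfin t (by omega) _ (hpar t ht _ hN1))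
    refine this.trans (le_of_eq ?_)
    ring

end Crest.Agent.R138.Chn188
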