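import Crest.Agent.R138.WAsm1_188

/-!
# R138 / R139: WAVE side, chain, part 3 (helper188): exponents of thick / narrow labels.
-/

set_option autoImplicit false

open scoped ENNReal

namespace Crest.Agent.R138.Chn188

open Crest.Agent.R138.W188

/-- any label. -/
theorem max_le_X {X r R s1 j : ℝ} (hX : 1 ≤ X) (hr : 0 < r) (hR : R = X ^ j * r) (hj : 0 ≤ j)
    (h1 : 1 ≤ s1 ^ 2 * r) : max 1 (R / (s1 * r) ^ 2) ≤ X ^ j := by
  have hX0 : 0 < X := by linarith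
  have hXj : 0 < X ^ j := by positivity
  apply max_le
  · exact Real.one_le_rpow hX hj
  · have h2 : r ≤ (s1 * r) ^ 2 := by nlinarith
    have h3 : 0 < (s1 * r) ^ 2 := by linarith
    rw [div_le_iff₀ h3, hR]
    gcongr

/-- thick label. -/
theorem max_thick {X r R s1 j γm c : ℝ} (hX : 1 ≤ X) (hr : 0 < r) (hR : R = X ^ j * r)
    (hj : 2 * γm ≤ j) (hc : 0 ≤ c) (h1 : X ^ γm * r ^ (-(1/2) : ℝ) < s1) :
    (max 1 (R / (s1 * r) ^ 2)) ^ (c / 2) ≤ X ^ (c / 2 * j - γm * c) := by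
  have hX0 : 0 < X := by linarith
  have h0 : 0 < X ^ γm * r ^ (-(1/2) : ℝ) := by positivity
  have hs1 : 0 < s1 := h0.trans h1
  have h2 : max 1 (R / (s1 * r) ^ 2) ≤ X ^ (j - 2 * γm) := by
    apply max_le
    · exact Real.one_le_rpow hX (by linarith)
    · have h3 : X ^ (2 * γm) * r ≤ (s1 * r) ^ 2 := by
        have e1 : (X ^ γm * r ^ (-(1/2) : ℝ)) ^ 2 * r ^ 2 = X ^ (2 * γm) * r := by
          have e2 : (X ^ γm) ^ 2 = X ^ (2 * γm) := by
            rw [← Real.rpow_natCast, ← Real.rpow_mul hX0.le]; congr 1; push_cast; ring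
          have e3 : (r ^ (-(1/2) : ℝ)) ^ 2 = r⁻¹ := by
            rw [← Real.rpow_natCast, ← Real.rpow_mul hr.le, ← Real.rpow_neg_one]
            congr 1; push_cast; ring
          rw [mul_pow, e2, e3]
          field_simp
        rw [← e1, show (s1 * r) ^ 2 = s1 ^ 2 * r ^ 2 by ring]
        have h5 := h1.le
        gcongr
      have h4 : 0 < (s1 * r) ^ 2 := by positivity
      rw [div_le_iff₀ h4, hR]
      calc X ^ j * r = X ^ (j - 2 * γm) * (X ^ (2 * γm) * r) := by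
            rw [← mul_assoc, ← Real.rpow_add hX0]; ring_nf
        _ ≤ _ := by gcongr
  calc (max 1 (R / (s1 * r) ^ 2)) ^ (c / 2) ≤ (X ^ (j - 2 * γm)) ^ (c / 2) :=
        Real.rpow_le_rpow (by positivity) h2 (by positivity)
    _ = X ^ (c / 2 * j - γm * c) := by
        rw [← Real.rpow_mul hX0.le]; congr 1; ring

/-- narrow label. -/
theorem narrow_le {X r R s2 j g0 β : ℝ} (hX : 1 ≤ X) (hr : 0 < r) (hR : R = X ^ j * r)
    (hβ : 0 ≤ β) (hs : 0 ≤ s2) (h1 : s2 < X ^ g0 * r ^ (-(1/2) : ℝ)) :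
    (s2 ^ 2 * R) ^ (β / 2) ≤ X ^ ((2 * g0 + j) * (β / 2)) := by
  have hX0 : 0 < X := by linarith
  have h2 : s2 ^ 2 * R ≤ X ^ (2 * g0 + j) := by
    have e2 : (X ^ g0) ^ 2 = X ^ (2 * g0) := by
      rw [← Real.rpow_natCast, ← Real.rpow_mul hX0.le]; congr 1; push_cast; ring
    have e3 : (r ^ (-(1/2) : ℝ)) ^ 2 = r⁻¹ := by
      rw [← Real.rpow_natCast, ← Real.rpow_mul hr.le, ← Real.rpow_neg_one]
      congr 1; push_cast; ring
    calc s2 ^ 2 * R ≤ (X ^ g0 * r ^ (-(1/2) : ℝ)) ^ 2 * (X ^ j * r) := by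
          rw [hR]
          have : 0 ≤ X ^ j * r := by positivity
          gcongr
      _ = X ^ (2 * g0) * X ^ j := by
          rw [mul_pow, e2, e3]; field_simp
      _ = X ^ (2 * g0 + j) := by rw [← Real.rpow_add hX0]
  have hR0 : 0 ≤ R := by rw [hR]; positivity
  calc (s2 ^ 2 * R) ^ (β / 2) ≤ (X ^ (2 * g0 + j)) ^ (β / 2) :=
        Real.rpow_le_rpow (by positivity) h2 (by positivity)
    _ = _ := by rw [← Real.rpow_mul hX0.le]

/-- `√(C nb) ≤ C R^e`. -/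
theorem sqrt_nb {C nb R e : ℝ} (hC : 1 ≤ C) (hR : 1 ≤ R) (he : 0 ≤ e) (hnb0 : 0 ≤ nb)
    (hnb : nb ≤ C * R ^ e) : Real.sqrt (C * nb) ≤ C * R ^ e := by
  have hR0 : 0 < R := by linarith
  have h1 : 1 ≤ R ^ e := Real.one_le_rpow hR he
  rw [show C * R ^ e = Real.sqrt ((C * R ^ e) ^ 2) by
    rw [Real.sqrt_sq (by positivity)]]
  apply Real.sqrt_le_sqrt
  calc C * nb ≤ C * (C * R ^ e) := by gcongr
    _ = C * (C * R ^ e) * 1 := by ring
    _ ≤ C * (C * R ^ e) * R ^ e := by gcongr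
    _ = _ := by ring

end Crest.Agent.R138.Chn188
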