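import Crest.Agent.R138.Chn1_188
import Crest.Agent.R138.Chn2_188
import Crest.Agent.R138.Chn3_188

/-!
# R138 / R139: WAVE side, chain, part 4 (helper188): the bound of the last level of a tower.
-/

set_option autoImplicit false

open MeasureTheory FourierTransform
open scoped ContDiff ENNReal

namespace Crest.Agent.R138.Chn188

open Crest.Agent.R138.Defs Crest.Agent.R138.Bil882 Crest.Agent.R138.Wpk685
  Crest.Agent.R138.W188 Crest.Agent.R138.Gl210 Crest.Agent.R138.GR639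

/-- ROOT with its constant. -/
def RootB (B : ℕ → ℝ) (q A c β e : ℝ) (Na : ℕ) (M0 C : ℝ) : Prop :=
    ∀ (Cn : ℝ) (M : ℕ) (h : E2 → ℝ) (g : E2 → ℂ) (R D : ℝ) (L : Lev),
      St B q Na M0 (1/2) h g R D → LevOk q A (1/2) Cn B M h g R L → 0 ≤ Cn →
      L.r ≤ R ^ (1 - e) → ∀ k < L.n,
      L.S h g k ≤ ENNReal.ofReal (C * Real.sqrt (Cn * L.nb) * R ^ (2 * e) *
        (max 1 (R / ((L.s k).1 * L.r) ^ 2)) ^ (c / 2) * SS g R D) ∧
      L.S h g k ≤ ENNReal.ofReal (C * Real.sqrt (Cn * L.nb) * R ^ (2 * e) *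
        ((L.s k).2 ^ 2 * R) ^ (β / 2) * SS g R D)

/-- GEN with its constants. -/
def GenB (B : ℕ → ℝ) (q A c e M0 K b C1 C C' : ℝ) : Prop :=
    ∀ (Na M : ℕ), 13 + |q| + |M0| + |K| + 4 * b ≤ M →
    ∀ (h : E2 → ℝ) (g : E2 → ℂ) (R D : ℝ), St B q Na M0 (1/2) h g R D →
    ∀ (L L' : Lev) (aux : Aux), LevOk q A (1/2) C1 B M h g R L → LevOk q A (1/2) C1 B M h g R L' →
      Next h L L' aux → A * L'.r ≤ L.r → L'.r ≤ L.r ^ (1 - e) → 36 ≤ L.r →
      (L.n : ℝ) ≤ C1 * R ^ b → (L.nb : ℝ) ≤ R ^ b → ∀ k < L'.n,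
      L'.S h g k ≤
        ENNReal.ofReal (C * Real.sqrt (C1 * L'.nb) * C1 * ((L.n : ℝ) + 1) ^ 3 * L.r ^ (2 * e) *
          (max 1 (L.r / ((L'.s k).1 * L'.r) ^ 2)) ^ (c / 2)) * L.S h g (L'.par k) +
        ENNReal.ofReal (C' * Real.sqrt (C1 * L'.nb) * (R ^ (-K) * SS g R D))

section geom

variable {B : ℕ → ℝ} {q A C0 g0 γm e C K : ℝ} {M j0 n : ℕ} {h : E2 → ℝ} {g : E2 → ℂ}
  {R D dl : ℝ} {L : ℕ → Lev} {p : ℕ → ℕ → ℝ} {gd : ℕ → ℕ → Prop}

theorem rad_X (HT : Tower B q A C0 g0 γm e C K M j0 n h g R D dl L p gd) (hdl : 0 < dl) {t : ℕ}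
    (ht : t ≤ n) : R = (dl⁻¹) ^ ((j0 + t : ℕ) : ℝ) * (L t).r := by
  rw [HT.rad t ht, Real.rpow_natCast, inv_pow]
  field_simp

theorem rad_succ (HT : Tower B q A C0 g0 γm e C K M j0 n h g R D dl L p gd) {t : ℕ}
    (ht : t < n) : (L (t + 1)).r = dl * (L t).r := by
  rw [HT.rad (t + 1) (by omega), HT.rad t ht.le, ← add_assoc, pow_succ]
  ring

theorem rad_36 (HT : Tower B q A C0 g0 γm e C K M j0 n h g R D dl L p gd) (hR : 1296 ≤ R) {t : ℕ}
    (ht : t ≤ n) : 36 ≤ (L t).r := by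
  refine le_trans ?_ (HT.ok t ht).lo
  calc (36:ℝ) = (1296:ℝ) ^ (1/2 : ℝ) := by
        rw [show (1296:ℝ) = 36 ^ (2:ℝ) by norm_num, ← Real.rpow_mul (by norm_num)]
        norm_num
    _ ≤ R ^ (1/2 : ℝ) := Real.rpow_le_rpow (by norm_num) hR (by norm_num)

theorem dl_le (hR : 0 < R) (hdl : 0 < dl) (h1 : R ^ e ≤ dl⁻¹) : dl ≤ R ^ (-e) := by
  rw [Real.rpow_neg hR.le]
  have h2 : 0 < R ^ e := by positivity
  rw [le_inv_comm₀ hdl h2]
  exact h1

theorem rad_e (HT : Tower B q A C0 g0 γm e C K M j0 n h g R D dl L p gd) (hR : 1 ≤ R)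
    (hdl : 0 < dl) (hdl1 : dl ≤ 1) (h1 : R ^ e ≤ dl⁻¹) (hj0 : 1 ≤ j0) {t : ℕ} (ht : t ≤ n) :
    (L t).r ≤ R ^ (1 - e) := by
  have hR0 : 0 < R := by linarith
  rw [HT.rad t ht, sub_eq_add_neg, Real.rpow_add hR0, Real.rpow_one]
  have h2 : dl ^ (j0 + t) ≤ dl := by
    calc dl ^ (j0 + t) ≤ dl ^ 1 := pow_le_pow_of_le_one hdl.le hdl1 (by omega)
      _ = dl := pow_one dl
  have h3 := h2.trans (dl_le hR0 hdl h1)
  gcongr

/-- a step with ratio `dl`. -/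
theorem step_e {r : ℝ} (hR : 1 ≤ R) (he : 0 ≤ e) (hr : 1 ≤ r) (hrR : r ≤ R) (hdl : 0 < dl)
    (h1 : R ^ e ≤ dl⁻¹) : dl * r ≤ r ^ (1 - e) := by
  have hR0 : 0 < R := by linarith
  have hr0 : 0 < r := by linarith
  rw [sub_eq_add_neg, Real.rpow_add hr0, Real.rpow_one, mul_comm]
  have h2 := dl_le hR0 hdl h1
  have h3 : R ^ (-e) ≤ r ^ (-e) := Real.rpow_le_rpow_of_nonpos hr0 hrR (by linarith)
  have := h2.trans h3
  gcongr

end geom

set_option maxHeartbeats 1000000 in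
/-- **the bound of the last level.** -/
theorem top_bound {B : ℕ → ℝ} {q A C0 g0 γm e C K c1 c β γ CR CG CG' CE Cτ M0 : ℝ}
    {M MD j0 n Na : ℕ} {h : E2 → ℝ} {g : E2 → ℂ} {R D dl : ℝ} {L : ℕ → Lev} {p : ℕ → ℕ → ℝ}
    {gd : ℕ → ℕ → Prop}
    (hTA : TowerAbs c1 j0 M) (hn : j0 + n = M) (hj0 : 1 ≤ j0)
    (hc1 : 0 < c1) (hc : c1 ≤ c) (hγ : 0 ≤ γ) (hγ1 : γ ≤ γm * c1) (hγ2 : γ ≤ c1 / 4)
    (hγm : 0 < γm) (hγm2 : γm ≤ 1/2) (hδ0 : 0 ≤ C0) (hδ : C0 * γm ≤ c1 / 4)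
    (hβ : 0 ≤ β) (hg0 : 0 ≤ g0) (hnar : g0 * β + γ ≤ (c1 - β) / 2 * j0) (hβc : β ≤ c1)
    (he : 0 < e) (hC : 1 ≤ C) (hCR : 0 ≤ CR) (hCG : 0 ≤ CG) (hCG' : 0 ≤ CG')
    (hE1 : 1 ≤ CE) (hE2 : CR * C ≤ CE) (hE3 : 8 * CG * C ^ 5 ≤ CE) (hE4 : C ≤ CE)
    (hτ1 : CG' * C ≤ Cτ) (hτ2 : C ≤ Cτ) (hK : 0 ≤ K)
    (hM : 13 + |q| + |M0| + |K| + 4 * (2 * e) ≤ MD)
    (HR : RootB B q A c β e Na M0 CR) (HG : GenB B q A c e M0 K (2 * e) C CG CG')
    (hSt : St B q Na M0 (1/2) h g R D) (hR : 1296 ≤ R) (hCRe : C ≤ R ^ e)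
    (hdl : 0 < dl) (hAdl : A * dl ≤ 1) (hdlR : R ^ e ≤ dl⁻¹)
    (HT : Tower B q A C0 g0 γm e C K MD j0 n h g R D dl L p gd) :
    ∀ k < (L n).n, (L n).S h g k ≤
      ENNReal.ofReal ((2 * (CE * R ^ (6 * e))) ^ (M + 2) *
        (dl⁻¹) ^ (c / 2 * M - min γ (1 / 4)) *
        (SS g R D + (dl⁻¹) ^ γ * (2 * (CE * R ^ (6 * e)) * dl⁻¹) ^ (M + 1) *
          (Cτ * R ^ (e - K) * SS g R D))) := by
  have hR1 : 1 ≤ R := by linarith
  have hR0 : 0 < R := by linarith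
  have hss := hSt.ss
  have hc0 : 0 ≤ c := by linarith
  have hRe1 : 1 < R ^ e := Real.one_lt_rpow (by linarith) he
  obtain ⟨X, hX⟩ : ∃ X, X = dl⁻¹ := ⟨_, rfl⟩
  have hXi : dl = X⁻¹ := by rw [hX, inv_inv]
  have hX1 : 1 < X := by rw [hX]; linarith
  have hX0 : 0 < X := by linarith
  have hXle : 1 ≤ X := hX1.le
  have hdl1 : dl ≤ 1 := by
    rw [hXi]; exact inv_le_one_of_one_le₀ hXle
  have hdlp : ∀ a : ℝ, dl ^ (-a) = X ^ a := by
    intro a
    rw [hXi, Real.inv_rpow hX0.le, Real.rpow_neg hX0.le, inv_inv]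
  rw [← hX]
  obtain ⟨T, hT⟩ : ∃ T, T = SS g R D := ⟨_, rfl⟩
  rw [← hT] at hss ⊢
  obtain ⟨E, hE⟩ : ∃ E, E = CE * R ^ (6 * e) := ⟨_, rfl⟩
  rw [← hE]
  have hR6 : 1 ≤ R ^ (6 * e) := Real.one_le_rpow hR1 (by positivity)
  have hEE : 1 ≤ E := by
    rw [hE]; calc (1:ℝ) = 1 * 1 := by ring
      _ ≤ _ := by gcongr
  have hE0 : 0 < E := by linarith
  have hCe : C * R ^ e ≤ E := by
    rw [hE]
    have : R ^ e ≤ R ^ (6 * e) := rpow_le_rpow_of_one_le hR1 (by linarith)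
    gcongr
  obtain ⟨τ, hτ⟩ : ∃ τ, τ = Cτ * R ^ (e - K) * T := ⟨_, rfl⟩
  rw [← hτ]
  have hCτ : 1 ≤ Cτ := hC.trans hτ2
  have hτ0 : 0 ≤ τ := by rw [hτ]; positivity
  -- tiny terms
  have hReK : R ^ (e - K) = R ^ e * R ^ (-K) := by
    rw [← Real.rpow_add hR0]; ring_nf
  have htiny : C * R ^ (-K) * T ≤ τ := by
    rw [hτ, hReK]
    calc C * R ^ (-K) * T = C * (1 * R ^ (-K)) * T := by ring
      _ ≤ Cτ * (R ^ e * R ^ (-K)) * T := by gcongr
  -- number of classes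
  have hnb : ∀ t ≤ n, Real.sqrt (C * (L t).nb) ≤ C * R ^ e := fun t ht =>
    sqrt_nb hC hR1 he.le (Nat.cast_nonneg _) (HT.le t ht).2
  have hloss : ∀ t ≤ n, CR * Real.sqrt (C * (L t).nb) * R ^ (2 * e) ≤ E := by
    intro t ht
    have h1 := hnb t ht
    calc CR * Real.sqrt (C * (L t).nb) * R ^ (2 * e) ≤ CR * (C * R ^ e) * R ^ (2 * e) := by gcongr
      _ = (CR * C) * R ^ (3 * e) := by
          rw [show (3 * e) = e + 2 * e by ring, Real.rpow_add hR0]; ring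
      _ ≤ CE * R ^ (6 * e) := by
          have : R ^ (3 * e) ≤ R ^ (6 * e) := rpow_le_rpow_of_one_le hR1 (by linarith)
          gcongr
      _ = E := hE.symm
  have hrpos : ∀ t ≤ n, 0 < (L t).r := fun t ht => by
    have := rad_36 HT hR ht
    linarith
  have hsd : ∀ t ≤ n, ∀ k < (L t).n, 0 < ((L t).s k).1 ∧ 0 < ((L t).s k).2 ∧
      1 ≤ ((L t).s k).1 ^ 2 * (L t).r := by
    intro t ht k hk
    have h1 := (HT.ok t ht).sd k hk
    exact ⟨(h1.s2pos (hrpos t ht)).1, (h1.s2pos (hrpos t ht)).2, (h1.facts (hrpos t ht)).1⟩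
  have hroot : ∀ t ≤ n, ∀ k < (L t).n, _ := fun t ht k hk =>
    HR C MD h g R D (L t) hSt (HT.ok t ht) (by linarith) (rad_e HT hR1 hdl hdl1 hdlR hj0 ht) k hk
  have key := hTA n hn c γ (C0 * γm) hc hγ (by positivity) hδ X E T τ hX1 hEE hss hτ0
    (fun t => (L t).n) (fun t k => (L t).S h g k) (fun t k => (L (t + 1)).par k) p gd
    ?_ ?_ ?_ ?_ ?_ ?_
  · exact key
  · -- ROOT at the first level
    intro k hk
    have h1 := (hroot 0 (Nat.zero_le _) k hk).1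
    refine h1.trans (ENNReal.ofReal_le_ofReal ?_)
    rw [← hT]
    have hRX := rad_X HT hdl (Nat.zero_le n)
    rw [← hX] at hRX
    have h2 := max_le_X hXle (hrpos 0 (Nat.zero_le _)) hRX (by positivity)
      (hsd 0 (Nat.zero_le _) k hk).2.2
    have h3 : (max 1 (R / (((L 0).s k).1 * (L 0).r) ^ 2)) ^ (c / 2) ≤ X ^ (c / 2 * j0) := by
      calc _ ≤ (X ^ ((j0 + 0 : ℕ) : ℝ)) ^ (c / 2) :=
            Real.rpow_le_rpow (by positivity) h2 (by positivity)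
        _ = X ^ (c / 2 * j0) := by
            rw [← Real.rpow_mul hX0.le]; congr 1; push_cast; ring
    have h4 := hloss 0 (Nat.zero_le _)
    have h5 : CR * Real.sqrt (C * (L 0).nb) * R ^ (2 * e) *
        (max 1 (R / (((L 0).s k).1 * (L 0).r) ^ 2)) ^ (c / 2) * T ≤ E * X ^ (c / 2 * j0) * T := by
      gcongr
    linarith
  · intro t ht k hk
    obtain ⟨aux, h1⟩ := HT.next t ht
    exact h1.par_lt k hk
  · -- GEN
    intro t ht k hk
    obtain ⟨aux, h1⟩ := HT.next t ht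
    have hr36 := rad_36 HT hR ht.le
    have hsucc := rad_succ HT ht
    have hle := HT.le t ht.le
    have hb : C * R ^ e ≤ R ^ (2 * e) := by
      rw [show 2 * e = e + e by ring, Real.rpow_add hR0]
      gcongr
    have h2 := HG Na MD hM h g R D hSt (L t) (L (t + 1)) aux (HT.ok t ht.le)
      (HT.ok (t + 1) (by omega)) h1 (by rw [hsucc]; nlinarith)
      (by rw [hsucc]; exact step_e hR1 he.le (by linarith) (HT.ok t ht.le).hi hdl hdlR) hr36
      (by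
        calc ((L t).n : ℝ) ≤ C * R ^ e := hle.1
          _ ≤ C * R ^ (2 * e) := by
              have : R ^ e ≤ R ^ (2 * e) := rpow_le_rpow_of_one_le hR1 (by linarith)
              gcongr) (hle.2.trans hb) k hk
    refine h2.trans (add_le_add ?_ ?_)
    · refine mul_le_mul_left (ENNReal.ofReal_le_ofReal ?_) _
      have h3 := hnb (t + 1) (by omega)
      have h4 : ((L t).n : ℝ) + 1 ≤ 2 * C * R ^ e := by
        have h5 : 1 ≤ C * R ^ e := by
          calc (1:ℝ) = 1 * 1 := by ring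
            _ ≤ _ := by gcongr
        have := hle.1
        linarith
      have h5 : (L t).r ^ (2 * e) ≤ R ^ (2 * e) :=
        Real.rpow_le_rpow (by linarith) (HT.ok t ht.le).hi (by positivity)
      have h6 : max 1 ((L t).r / (((L (t + 1)).s k).1 * (L (t + 1)).r) ^ 2) ≤ X := by
        have := max_le_X (j := 1) hXle (hrpos (t + 1) (by omega)) (R := (L t).r)
          (by rw [hsucc, Real.rpow_one, hX]; field_simp) (by norm_num)
          (hsd (t + 1) (by omega) k hk).2.2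
        rwa [Real.rpow_one] at this
      calc _ ≤ CG * (C * R ^ e) * C * (2 * C * R ^ e) ^ 3 * R ^ (2 * e) * X ^ (c / 2) := by
            have h7 := Real.rpow_le_rpow (by positivity) h6 (show 0 ≤ c / 2 by positivity)
            gcongr
        _ = (8 * CG * C ^ 5) * R ^ (6 * e) * X ^ (c / 2) := by
            rw [show 6 * e = e + e + e + e + 2 * e by ring]
            rw [Real.rpow_add hR0, Real.rpow_add hR0, Real.rpow_add hR0, Real.rpow_add hR0]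
            ring
        _ ≤ CE * R ^ (6 * e) * X ^ (c / 2) := by gcongr
        _ = E * X ^ (c / 2) := by rw [hE]
    · refine ENNReal.ofReal_le_ofReal ?_
      rw [← hT, hτ, hReK]
      have h3 := hnb (t + 1) (by omega)
      calc CG' * Real.sqrt (C * (L (t + 1)).nb) * (R ^ (-K) * T) ≤
            CG' * (C * R ^ e) * (R ^ (-K) * T) := by gcongr
        _ = (CG' * C) * (R ^ e * R ^ (-K)) * T := by ring
        _ ≤ Cτ * (R ^ e * R ^ (-K)) * T := by gcongr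
  · -- ROOT gains
    intro t ht k hk hng
    have hrp := hrpos t ht
    have hRX := rad_X HT hdl ht
    rw [← hX] at hRX
    obtain ⟨hs1, hs2, hs3⟩ := hsd t ht k hk
    have h4 := hloss t ht
    have hjt : (1:ℝ) ≤ ((j0 + t : ℕ) : ℝ) := by exact_mod_cast (by omega : 1 ≤ j0 + t)
    have hjj : (j0 : ℝ) ≤ ((j0 + t : ℕ) : ℝ) := by exact_mod_cast (by omega : j0 ≤ j0 + t)
    rcases HT.bad t ht k hk with h1 | h1 | h1
    · exact absurd h1 hng
    · unfold Good at h1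
      rw [not_and_or, not_le, not_le, hdlp, hdlp] at h1
      rcases h1 with h1 | h1
      · -- thick
        refine (hroot t ht k hk).1.trans (ENNReal.ofReal_le_ofReal ?_)
        rw [← hT]
        have h2 := max_thick (c := c) hXle hrp hRX (by linarith) hc0 h1
        have h3 : X ^ (c / 2 * ((j0 + t : ℕ) : ℝ) - γm * c) ≤
            X ^ (c / 2 * ((j0 + t : ℕ) : ℝ) - γ) := by
          apply rpow_le_rpow_of_one_le hXle
          have : γm * c1 ≤ γm * c := by gcongr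
          linarith
        have h5 := h2.trans h3
        have h6 : CR * Real.sqrt (C * (L t).nb) * R ^ (2 * e) *
            (max 1 (R / (((L t).s k).1 * (L t).r) ^ 2)) ^ (c / 2) * T ≤
            E * X ^ (c / 2 * ((j0 + t : ℕ) : ℝ) - γ) * T := by gcongr
        linarith
      · -- narrow
        refine (hroot t ht k hk).2.trans (ENNReal.ofReal_le_ofReal ?_)
        rw [← hT]
        have h2 := narrow_le hXle hrp hRX hβ hs2.le h1
        have h3 : X ^ ((2 * g0 + ((j0 + t : ℕ) : ℝ)) * (β / 2)) ≤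
            X ^ (c / 2 * ((j0 + t : ℕ) : ℝ) - γ) := by
          apply rpow_le_rpow_of_one_le hXle
          have h7 : (c1 - β) / 2 * j0 ≤ (c1 - β) / 2 * ((j0 + t : ℕ) : ℝ) := by
            have : 0 ≤ (c1 - β) / 2 := by linarith
            gcongr
          have h8 : c1 * ((j0 + t : ℕ) : ℝ) ≤ c * ((j0 + t : ℕ) : ℝ) := by gcongr
          nlinarith
        have h5 := h2.trans h3
        have h6 : CR * Real.sqrt (C * (L t).nb) * R ^ (2 * e) *
            (((L t).s k).2 ^ 2 * R) ^ (β / 2) * T ≤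
            E * X ^ (c / 2 * ((j0 + t : ℕ) : ℝ) - γ) * T := by gcongr
        linarith
    · refine h1.trans (ENNReal.ofReal_le_ofReal ?_)
      rw [← hT]
      have : 0 ≤ E * X ^ (c / 2 * ((j0 + t : ℕ) : ℝ) - γ) * T := by positivity
      linarith
  · intro t ht k hk
    obtain ⟨h1, h2⟩ := HT.pc t ht k hk
    refine ⟨h1, h2.trans ?_⟩
    rw [hdlp]
    have h3 : C ≤ E := by
      calc C = C * 1 := by ring
        _ ≤ C * R ^ e := by gcongr
        _ ≤ E := hCe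
    gcongr
  · -- STEP
    intro t ht k hk hg1 hg2
    refine (HT.step t ht k hk hg1 hg2).trans (add_le_add ?_ (ENNReal.ofReal_le_ofReal ?_))
    · refine mul_le_mul_left (ENNReal.ofReal_le_ofReal ?_) _
      rw [hdlp]
      have h2 : 1 ≤ X ^ (c / 2 - γ) := Real.one_le_rpow hXle (by linarith)
      obtain ⟨aux, h1⟩ := HT.next t ht
      have hp1 := (HT.pc t ht.le _ (h1.par_lt k hk)).1
      have hp2 := (HT.pc (t + 1) (by omega) _ hk).1
      calc C * R ^ e * (X ^ (C0 * γm) * (p t ((L (t + 1)).par k) / p (t + 1) k) ^ (1 / 2 : ℝ) + 1)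
          ≤ E * (X ^ (C0 * γm) * (p t ((L (t + 1)).par k) / p (t + 1) k) ^ (1 / 2 : ℝ) +
            X ^ (c / 2 - γ)) := by gcongr
        _ = _ := by ring
    · rw [← hT]
      exact htiny

end Crest.Agent.R138.Chn188
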