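import Crest.Agent.R138.WAsm1_188

/-!
# R138 / R139: WAVE side, chain, part 5 (helper188): final real inequality.
-/

set_option autoImplicit false

open scoped ENNReal

namespace Crest.Agent.R138.Chn188

open Crest.Agent.R138.W188

/-- the tiny terms are absorbed. -/
theorem tiny_abs {CE Cτ R e X T γ K : ℝ} {M : ℕ} (hR : 1 ≤ R) (hX : 1 ≤ X) (hXR : X ≤ R)
    (he : 0 < e) (he1 : e ≤ 1) (hCE : 1 ≤ CE) (hCτ : 0 ≤ Cτ) (hT : 0 ≤ T) (hγ : 0 ≤ γ)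
    (hγ1 : γ ≤ 1) (hK : 7 * ((M : ℝ) + 1) + 2 ≤ K) :
    X ^ γ * (2 * (CE * R ^ (6 * e)) * X) ^ (M + 1) * (Cτ * R ^ (e - K) * T) ≤
      Cτ * (2 * CE) ^ (M + 1) * T := by
  have hR0 : 0 < R := by linarith
  have hX0 : 0 < X := by linarith
  have h1 : X ^ γ ≤ R := by
    calc X ^ γ ≤ X ^ (1:ℝ) := rpow_le_rpow_of_one_le hX hγ1
      _ = X := Real.rpow_one X
      _ ≤ R := hXR
  have h2 : (2 * (CE * R ^ (6 * e)) * X) ^ (M + 1) ≤ (2 * CE) ^ (M + 1) * R ^ (7 * ((M : ℝ) + 1)) := by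
    have h3 : 2 * (CE * R ^ (6 * e)) * X ≤ (2 * CE) * R ^ (7:ℝ) := by
      have h4 : R ^ (6 * e) * X ≤ R ^ (7:ℝ) := by
        calc R ^ (6 * e) * X ≤ R ^ (6:ℝ) * R ^ (1:ℝ) := by
              rw [Real.rpow_one R]
              have : R ^ (6 * e) ≤ R ^ (6:ℝ) := rpow_le_rpow_of_one_le hR (by linarith)
              gcongr
          _ = R ^ (7:ℝ) := by rw [← Real.rpow_add hR0]; norm_num
      calc 2 * (CE * R ^ (6 * e)) * X = (2 * CE) * (R ^ (6 * e) * X) := by ring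
        _ ≤ _ := by gcongr
    calc (2 * (CE * R ^ (6 * e)) * X) ^ (M + 1) ≤ ((2 * CE) * R ^ (7:ℝ)) ^ (M + 1) := by gcongr
      _ = (2 * CE) ^ (M + 1) * R ^ (7 * ((M : ℝ) + 1)) := by
        rw [mul_pow, ← Real.rpow_natCast (R ^ (7:ℝ)), ← Real.rpow_mul hR0.le]
        push_cast; ring_nf
  have h5 : R * R ^ (7 * ((M : ℝ) + 1)) * R ^ (e - K) ≤ 1 := by
    nth_rewrite 1 [← Real.rpow_one R]
    rw [← Real.rpow_add hR0, ← Real.rpow_add hR0]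
    exact Real.rpow_le_one_of_one_le_of_nonpos hR (by linarith)
  calc X ^ γ * (2 * (CE * R ^ (6 * e)) * X) ^ (M + 1) * (Cτ * R ^ (e - K) * T)
      ≤ R * ((2 * CE) ^ (M + 1) * R ^ (7 * ((M : ℝ) + 1))) * (Cτ * R ^ (e - K) * T) := by gcongr
    _ = (R * R ^ (7 * ((M : ℝ) + 1)) * R ^ (e - K)) * (Cτ * (2 * CE) ^ (M + 1) * T) := by ring
    _ ≤ 1 * (Cτ * (2 * CE) ^ (M + 1) * T) := by gcongr
    _ = _ := one_mul _

/-- the final real inequality. -/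
theorem final_real {N C Cf CE Cτ CF R e ε X T c γ γ' K : ℝ} {M : ℕ} (hR : 1 ≤ R) (hX : 1 ≤ X)
    (hXR : X ≤ R) (he : 0 < e) (he1 : e ≤ 1) (hN : 0 ≤ N) (hNC : N ≤ C * R ^ e) (hC : 1 ≤ C)
    (hCf : 0 ≤ Cf) (hCE : 1 ≤ CE) (hCτ : 0 ≤ Cτ) (hCF : 0 ≤ CF) (hT : 0 ≤ T) (hγ : 0 ≤ γ)
    (hγ1 : γ ≤ 1) (hK : 7 * ((M : ℝ) + 1) + 2 ≤ K) (hε : 6 * e * ((M : ℝ) + 3) ≤ ε)
    (hγ' : γ' ≤ c / 2 * ((M : ℝ) + 1)) :
    2 * (N + 1) ^ 2 * (Cf * R ^ (2 * e) * X ^ (c / 2)) * C *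
        (N * ((2 * (CE * R ^ (6 * e))) ^ (M + 2) * X ^ (c / 2 * M - γ') *
          (T + X ^ γ * (2 * (CE * R ^ (6 * e)) * X) ^ (M + 1) * (Cτ * R ^ (e - K) * T)))) +
      CF * R ^ (-K) * T ≤
    (8 * C ^ 4 * Cf * (2 * CE) ^ (M + 2) * (1 + Cτ * (2 * CE) ^ (M + 1)) + CF) * R ^ ε *
      X ^ (c / 2 * ((M : ℝ) + 1) - γ') * T := by
  have hR0 : 0 < R := by linarith
  have hX0 : 0 < X := by linarith
  have hM0 : (0:ℝ) ≤ M := Nat.cast_nonneg M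
  have hRe : 1 ≤ R ^ e := Real.one_le_rpow hR he.le
  have h1 := tiny_abs (M := M) hR hX hXR he he1 hCE hCτ hT hγ hγ1 hK
  have h2 : T + X ^ γ * (2 * (CE * R ^ (6 * e)) * X) ^ (M + 1) * (Cτ * R ^ (e - K) * T) ≤
      (1 + Cτ * (2 * CE) ^ (M + 1)) * T := by linarith
  have h20 : 0 ≤ T + X ^ γ * (2 * (CE * R ^ (6 * e)) * X) ^ (M + 1) * (Cτ * R ^ (e - K) * T) := by
    positivity
  have h3 : N + 1 ≤ 2 * C * R ^ e := by
    have : 1 ≤ C * R ^ e := by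
      calc (1:ℝ) = 1 * 1 := by ring
        _ ≤ _ := by gcongr
    linarith
  have h4 : (2 * (CE * R ^ (6 * e))) ^ (M + 2) = (2 * CE) ^ (M + 2) * R ^ (6 * e * ((M : ℝ) + 2)) := by
    rw [← mul_assoc, mul_pow, ← Real.rpow_natCast (R ^ (6 * e)), ← Real.rpow_mul hR0.le]
    push_cast; ring_nf
  have h5 : X ^ (c / 2) * X ^ (c / 2 * M - γ') = X ^ (c / 2 * ((M : ℝ) + 1) - γ') := by
    rw [← Real.rpow_add hX0]; ring_nf
  have h6 : R ^ (2 * e) * R ^ e * R ^ e * R ^ e * R ^ (6 * e * ((M : ℝ) + 2)) ≤ R ^ ε := by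
    rw [← Real.rpow_add hR0, ← Real.rpow_add hR0, ← Real.rpow_add hR0, ← Real.rpow_add hR0]
    exact rpow_le_rpow_of_one_le hR (by nlinarith)
  have h7 : CF * R ^ (-K) * T ≤ CF * R ^ ε * X ^ (c / 2 * ((M : ℝ) + 1) - γ') * T := by
    have h8 : R ^ (-K) ≤ 1 := Real.rpow_le_one_of_one_le_of_nonpos hR (by linarith)
    have h9 : 1 ≤ R ^ ε := Real.one_le_rpow hR (le_trans (by positivity) hε)
    have h10 : 1 ≤ X ^ (c / 2 * ((M : ℝ) + 1) - γ') := Real.one_le_rpow hX (by linarith)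
    calc CF * R ^ (-K) * T ≤ CF * 1 * T := by gcongr
      _ = CF * 1 * 1 * T := by ring
      _ ≤ _ := by gcongr
  have h8 : 2 * (N + 1) ^ 2 * (Cf * R ^ (2 * e) * X ^ (c / 2)) * C *
        (N * ((2 * (CE * R ^ (6 * e))) ^ (M + 2) * X ^ (c / 2 * M - γ') *
          (T + X ^ γ * (2 * (CE * R ^ (6 * e)) * X) ^ (M + 1) * (Cτ * R ^ (e - K) * T)))) ≤
      8 * C ^ 4 * Cf * (2 * CE) ^ (M + 2) * (1 + Cτ * (2 * CE) ^ (M + 1)) * R ^ ε *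
        X ^ (c / 2 * ((M : ℝ) + 1) - γ') * T := by
    calc _ ≤ 2 * (2 * C * R ^ e) ^ 2 * (Cf * R ^ (2 * e) * X ^ (c / 2)) * C *
        ((C * R ^ e) * ((2 * (CE * R ^ (6 * e))) ^ (M + 2) * X ^ (c / 2 * M - γ') *
          ((1 + Cτ * (2 * CE) ^ (M + 1)) * T))) := by gcongr
      _ = (8 * C ^ 4 * Cf * (2 * CE) ^ (M + 2) * (1 + Cτ * (2 * CE) ^ (M + 1))) *
          (R ^ (2 * e) * R ^ e * R ^ e * R ^ e * R ^ (6 * e * ((M : ℝ) + 2))) *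
          (X ^ (c / 2) * X ^ (c / 2 * M - γ')) * T := by
        rw [h4]; ring
      _ ≤ (8 * C ^ 4 * Cf * (2 * CE) ^ (M + 2) * (1 + Cτ * (2 * CE) ^ (M + 1))) *
          R ^ ε * X ^ (c / 2 * ((M : ℝ) + 1) - γ') * T := by
        rw [h5]; gcongr
  calc _ ≤ _ := add_le_add h8 h7
    _ = _ := by ring

end Crest.Agent.R138.Chn188
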