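import Crest.Agent.R138.Chn4_188
import Crest.Agent.R138.Chn5_188

/-!
# R138 / R139: WAVE side, chain, part 6 (helper188): constants, one state.
-/

set_option autoImplicit false

open MeasureTheory FourierTransform
open scoped ContDiff ENNReal

namespace Crest.Agent.R138.Chn188

open Crest.Agent.R138.Defs Crest.Agent.R138.Bil882 Crest.Agent.R138.Wpk685
  Crest.Agent.R138.W188 Crest.Agent.R138.Gl210 Crest.Agent.R138.GR639

/-- the constants of the chain. -/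
structure Cst (c1 β C0 g0 γm γ γ' c κ : ℝ) (j0 M n : ℕ) : Prop where
  m0 : 0 < γm
  m1 : γm ≤ 1/2
  mc : C0 * γm ≤ c1 / 4
  mh : C0 * γm ≤ 1/2
  g0' : 0 < γ
  g1 : γ ≤ γm * c1
  g2 : γ ≤ c1 / 4
  g3 : γ ≤ 1
  gg : γ' = min γ (1/4)
  j1 : 1 ≤ j0
  nar : g0 * β + γ ≤ (c1 - β) / 2 * j0
  TA : TowerAbs c1 j0 M
  hn : j0 + n = M
  cc : c1 < c
  gc : γ' ≤ c / 2 * ((M:ℝ) + 1)
  k0 : 0 < κ
  k1 : κ ≤ 1
  ex : c / 2 * ((M : ℝ) + 1) - γ' = ((M:ℝ) + 1) * (c1 / 2 * (1 - κ))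

theorem exists_cst {c1 β C0 g0 : ℝ} (hc1 : 0 < c1) (hβ : 0 ≤ β) (hβc : β < c1) (hC0 : 0 ≤ C0)
    (hg0 : 0 ≤ g0) : ∃ (γm γ γ' c κ : ℝ) (j0 M n : ℕ), Cst c1 β C0 g0 γm γ γ' c κ j0 M n := by
  -- thin margin
  obtain ⟨γm, hγmdef⟩ : ∃ x, x = min (1/2) (min (c1 / (4 * (C0 + 1))) (1 / (2 * (C0 + 1)))) :=
    ⟨_, rfl⟩
  have hC01 : 0 < C0 + 1 := by linarith
  have hγm : 0 < γm := by
    rw [hγmdef]; exact lt_min (by norm_num) (lt_min (by positivity) (by positivity))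
  have hγm2 : γm ≤ 1/2 := by rw [hγmdef]; exact min_le_left _ _
  have hγmc : C0 * γm ≤ c1 / 4 := by
    have h1 : γm ≤ c1 / (4 * (C0 + 1)) := by
      rw [hγmdef]; exact (min_le_right _ _).trans (min_le_left _ _)
    calc C0 * γm ≤ (C0 + 1) * γm := by nlinarith
      _ ≤ (C0 + 1) * (c1 / (4 * (C0 + 1))) := by gcongr
      _ = c1 / 4 := by field_simp
  have hγmh : C0 * γm ≤ 1/2 := by
    have h1 : γm ≤ 1 / (2 * (C0 + 1)) := by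
      rw [hγmdef]; exact (min_le_right _ _).trans (min_le_right _ _)
    calc C0 * γm ≤ (C0 + 1) * γm := by nlinarith
      _ ≤ (C0 + 1) * (1 / (2 * (C0 + 1))) := by gcongr
      _ = 1/2 := by field_simp
  -- gain
  obtain ⟨γ, hγdef⟩ : ∃ x, x = min (min (γm * c1) (c1 / 4)) 1 := ⟨_, rfl⟩
  have hγ : 0 < γ := by
    rw [hγdef]; exact lt_min (lt_min (by positivity) (by positivity)) one_pos
  have hγ1 : γ ≤ γm * c1 := by rw [hγdef]; exact (min_le_left _ _).trans (min_le_left _ _)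
  have hγ2 : γ ≤ c1 / 4 := by rw [hγdef]; exact (min_le_left _ _).trans (min_le_right _ _)
  have hγ3 : γ ≤ 1 := by rw [hγdef]; exact min_le_right _ _
  obtain ⟨γ', hγ'def⟩ : ∃ x, x = min γ (1/4) := ⟨_, rfl⟩
  have hγ' : 0 < γ' := by rw [hγ'def]; exact lt_min hγ (by norm_num)
  have hγ'γ : γ' ≤ γ := by rw [hγ'def]; exact min_le_left _ _
  -- first level
  have hcb : 0 < c1 - β := by linarith
  obtain ⟨j0, hj0def⟩ : ∃ j : ℕ, j = max 1 ⌈2 * (g0 * β + γ) / (c1 - β)⌉₊ := ⟨_, rfl⟩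
  have hj0 : 1 ≤ j0 := by rw [hj0def]; exact le_max_left _ _
  have hnar : g0 * β + γ ≤ (c1 - β) / 2 * j0 := by
    have h1 : 2 * (g0 * β + γ) / (c1 - β) ≤ j0 := by
      refine (Nat.le_ceil _).trans ?_
      rw [hj0def]
      exact_mod_cast le_max_right _ _
    rw [div_le_iff₀ hcb] at h1
    linarith
  obtain ⟨M, hM, hTA⟩ := tower_abs hc1 j0
  obtain ⟨n, hn⟩ : ∃ n, j0 + n = M := ⟨M - j0, by omega⟩
  have hM0 : (0:ℝ) ≤ M := Nat.cast_nonneg M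
  have hJ : (0:ℝ) < (M:ℝ) + 1 := by linarith
  have hJ1 : (1:ℝ) ≤ (M:ℝ) + 1 := by linarith
  have hcc : c1 < c1 + γ' / ((M:ℝ) + 1) := by
    have : 0 < γ' / ((M:ℝ) + 1) := by positivity
    linarith
  refine ⟨γm, γ, γ', c1 + γ' / ((M:ℝ) + 1), γ' / (((M:ℝ) + 1) * c1), j0, M, n,
    hγm, hγm2, hγmc, hγmh, hγ, hγ1, hγ2, hγ3, hγ'def, hj0, hnar, hTA, hn, hcc, ?_, by positivity,
    ?_, ?_⟩
  · have h1 : c1 / 2 * 1 ≤ (c1 + γ' / ((M:ℝ) + 1)) / 2 * ((M:ℝ) + 1) := by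
      have h2 : c1 ≤ c1 + γ' / ((M:ℝ) + 1) := hcc.le
      gcongr
    linarith
  · rw [div_le_one (by positivity)]
    calc γ' ≤ c1 := by linarith
      _ = 1 * c1 := by ring
      _ ≤ ((M:ℝ) + 1) * c1 := by gcongr
  · field_simp
    ring

/-- FIN with its constants. -/
def FinB (B : ℕ → ℝ) (q A c e M0 b K : ℝ) (M1 : ℕ) (Cf Cn C : ℝ) : Prop :=
    ∀ M : ℕ, M1 ≤ M →
    ∀ (Na : ℕ) (h : E2 → ℝ) (g : E2 → ℂ) (R D : ℝ), St B q Na M0 (1/2) h g R D →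
    ∀ L : Lev, LevOk q A (1/2) Cn B M h g R L → 36 ≤ L.r → (L.nb : ℝ) ≤ R ^ b →
      (L.n : ℝ) ≤ Cn * R ^ b →
    ∀ r s1 s2 : ℝ, R ^ (1/2 : ℝ) ≤ r → A * r ≤ L.r → r ≤ L.r ^ (1 - e) → Sd r s1 s2 →
      ENNReal.ofReal (s2 ^ (-q / 2)) * SIG A r s1 s2 h g R ≤
        ENNReal.ofReal (2 * ((L.n : ℝ) + 1) ^ 2 * (Cf * R ^ (2 * e) * (L.r / r) ^ (c / 2)) * Cn) *
          (∑ k ∈ Finset.range L.n, L.S h g k) +
        ENNReal.ofReal (C * R ^ (-K) * SS g R D)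

/-- **one state.** -/
theorem close_state {B : ℕ → ℝ} {q A C0 g0 γm e C K c1 c β γ γ' κ CR CG CG' CE Cτ CF Cf M0 ε : ℝ}
    {M M1 MD j0 n Na : ℕ} {h : E2 → ℝ} {g : E2 → ℂ} {R D dl d s1 s2 : ℝ} {L : ℕ → Lev}
    {p : ℕ → ℕ → ℝ} {gd : ℕ → ℕ → Prop}
    (HC : Cst c1 β C0 g0 γm γ γ' c κ j0 M n) (hc1 : 0 < c1) (hβ : 0 ≤ β) (hβc : β < c1)
    (hC0 : 0 ≤ C0) (hg0 : 0 ≤ g0)
    (he : 0 < e) (he1 : e ≤ 1) (heε : 6 * e * ((M:ℝ) + 3) ≤ ε)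
    (hC : 1 ≤ C) (hCR : 0 ≤ CR) (hCG : 0 ≤ CG) (hCG' : 0 ≤ CG') (hCf : 0 ≤ Cf) (hCF : 0 ≤ CF)
    (hE1 : 1 ≤ CE) (hE2 : CR * C ≤ CE) (hE3 : 8 * CG * C ^ 5 ≤ CE) (hE4 : C ≤ CE)
    (hτ1 : CG' * C ≤ Cτ) (hτ2 : C ≤ Cτ) (hK : 7 * ((M:ℝ) + 1) + 2 = K)
    (hM1 : M1 ≤ MD) (hM : 13 + |q| + |M0| + |K| + 4 * (2 * e) ≤ MD)
    (HR : RootB B q A c β e Na M0 CR) (HG : GenB B q A c e M0 K (2 * e) C CG CG')
    (HF : FinB B q A c e M0 (2 * e) K M1 Cf C CF)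
    (hSt : St B q Na M0 (1/2) h g R D) (hR : 1296 ≤ R) (hCRe : C ≤ R ^ e)
    (hdl : 0 < dl) (hdl1 : dl ≤ 1) (hAdl : A * dl ≤ 1) (hdlR : R ^ e ≤ dl⁻¹) (hXR : dl⁻¹ ≤ R)
    (hd : dl ^ (M + 1) = d) (hdR2 : R ^ (1/2 : ℝ) ≤ d * R) (hSd : Sd (d * R) s1 s2)
    (HT : Tower B q A C0 g0 γm e C K MD j0 n h g R D dl L p gd) :
    ENNReal.ofReal (s2 ^ (-q / 2)) * SIG A (d * R) s1 s2 h g R ≤
      ENNReal.ofReal ((8 * C ^ 4 * Cf * (2 * CE) ^ (M + 2) * (1 + Cτ * (2 * CE) ^ (M + 1)) + CF) *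
        R ^ ε * (dl⁻¹) ^ (c / 2 * ((M : ℝ) + 1) - γ') * SS g R D) := by
  have hR1 := hSt.R1
  have hRp := hSt.Rpos
  have hss := hSt.ss
  have hK0 : 0 ≤ K := by rw [← hK]; positivity
  have hTop := top_bound HC.TA HC.hn HC.j1 hc1 HC.cc.le HC.g0'.le HC.g1 HC.g2 HC.m0 HC.m1 hC0
    HC.mc hβ hg0 HC.nar hβc.le he hC hCR hCG hCG' hE1 hE2 hE3 hE4 hτ1 hτ2 hK0 hM HR HG hSt hR
    hCRe hdl hAdl hdlR HT
  have hLn := HT.ok n le_rfl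
  have hle := HT.le n le_rfl
  have hr36 := rad_36 HT hR le_rfl
  have hrn : d * R = dl * (L n).r := by
    rw [HT.rad n le_rfl, HC.hn, ← hd, pow_succ]; ring
  have hb : C * R ^ e ≤ R ^ (2 * e) := by
    rw [show 2 * e = e + e by ring, Real.rpow_add hRp]
    gcongr
  have hb2 : C * R ^ e ≤ C * R ^ (2 * e) := by
    have : R ^ e ≤ R ^ (2 * e) := rpow_le_rpow_of_one_le hR1 (by linarith)
    gcongr
  have hAr : A * (d * R) ≤ (L n).r := by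
    rw [hrn]
    calc A * (dl * (L n).r) = (A * dl) * (L n).r := by ring
      _ ≤ 1 * (L n).r := by
          have : 0 ≤ (L n).r := by linarith
          gcongr
      _ = _ := one_mul _
  have hF := HF MD hM1 Na h g R D hSt (L n) hLn hr36 (hle.2.trans hb) (hle.1.trans hb2) (d * R) s1
    s2 hdR2 hAr
    (by rw [hrn]; exact step_e hR1 he.le (by linarith) hLn.hi hdl hdlR) hSd
  have hratio : (L n).r / (d * R) = dl⁻¹ := by
    rw [hrn]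
    have : (L n).r ≠ 0 := by
      have : 0 < (L n).r := by linarith
      exact this.ne'
    field_simp
  rw [hratio] at hF
  obtain ⟨X, hX⟩ : ∃ X, X = dl⁻¹ := ⟨_, rfl⟩
  have hXle : 1 ≤ X := by rw [hX]; exact (one_le_inv₀ hdl).2 hdl1
  have hX0 : 0 < X := by linarith
  rw [← hX] at hTop hF hXR ⊢
  rw [← HC.gg] at hTop
  obtain ⟨Bd, hBd⟩ : ∃ x, x = (2 * (CE * R ^ (6 * e))) ^ (M + 2) * X ^ (c / 2 * M - γ') *
      (SS g R D + X ^ γ * (2 * (CE * R ^ (6 * e)) * X) ^ (M + 1) *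
        (Cτ * R ^ (e - K) * SS g R D)) := ⟨_, rfl⟩
  rw [← hBd] at hTop
  have hCE0 : 0 ≤ CE := by linarith
  have hCτ0 : 0 ≤ Cτ := by linarith
  have hBd0 : 0 ≤ Bd := by rw [hBd]; positivity
  have hsum : ∑ k ∈ Finset.range (L n).n, (L n).S h g k ≤
      ENNReal.ofReal (((L n).n : ℝ) * Bd) := by
    calc ∑ k ∈ Finset.range (L n).n, (L n).S h g k
        ≤ ∑ _k ∈ Finset.range (L n).n, ENNReal.ofReal Bd :=
          Finset.sum_le_sum fun k hk => hTop k (Finset.mem_range.1 hk)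
      _ = ENNReal.ofReal (((L n).n : ℝ) * Bd) := by
          rw [Finset.sum_const, Finset.card_range, nsmul_eq_mul,
            ENNReal.ofReal_mul (Nat.cast_nonneg _), ENNReal.ofReal_natCast]
  have hfin := final_real (N := (L n).n) (C := C) (Cf := Cf) (CE := CE) (Cτ := Cτ) (CF := CF)
    (R := R) (e := e) (ε := ε) (X := X) (T := SS g R D) (c := c) (γ := γ) (γ' := γ') (K := K)
    (M := M) hR1 hXle hXR he he1 (Nat.cast_nonneg _) hle.1 hC hCf hE1 hCτ0 hCF hss HC.g0'.le HC.g3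
    hK.le heε HC.gc
  rw [← hBd] at hfin
  exact comb (by positivity) (by positivity) (by positivity) hF hsum hfin

end Crest.Agent.R138.Chn188
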