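import Crest.Agent.R138.Chn6_188

/-!
# R138 / R139: WAVE side, chain, part 7 (helper188): `WChE` from the existence of towers `EXT`.
-/

set_option autoImplicit false

open MeasureTheory FourierTransform
open scoped ContDiff ENNReal

namespace Crest.Agent.R138.Chn188

open Crest.Agent.R138.Defs Crest.Agent.R138.Bil882 Crest.Agent.R138.Wpk685
  Crest.Agent.R138.W188 Crest.Agent.R138.Gl210 Crest.Agent.R138.GR639

/-- small `R`: trivial bound. -/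
theorem small_R {CT R0 R ε d T x C' : ℝ} (hR : 1 ≤ R) (hRR : R ≤ R0) (hd : 0 < d) (hd1 : d ≤ 1)
    (hdR : d⁻¹ ≤ R) (hCT : 0 ≤ CT) (hT : 0 ≤ T) (hx : 0 ≤ x) (hC' : CT * R0 ^ 2 ≤ C') :
    CT * R ^ ε * (R / (d * R)) ^ (2:ℝ) * T ≤ C' * R ^ ε * d ^ (-x) * T := by
  have hR0 : 0 < R := by linarith
  have h1 : R / (d * R) = d⁻¹ := by field_simp
  have h2 : (d⁻¹) ^ (2:ℝ) ≤ R0 ^ 2 := by
    rw [Real.rpow_two]
    have : 0 ≤ d⁻¹ := by positivity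
    have h3 : d⁻¹ ≤ R0 := hdR.trans hRR
    gcongr
  have h3 : 1 ≤ d ^ (-x) := by
    rw [Real.rpow_neg hd.le]
    exact (one_le_inv₀ (by positivity)).2 (Real.rpow_le_one hd.le hd1 hx)
  rw [h1]
  have h4 : 0 ≤ R ^ ε := by positivity
  have h5 : 0 ≤ CT * R0 ^ 2 := by positivity
  have h6 : 0 ≤ C' := h5.trans hC'
  calc CT * R ^ ε * (d⁻¹) ^ (2:ℝ) * T ≤ CT * R ^ ε * R0 ^ 2 * T := by gcongr
    _ = (CT * R0 ^ 2) * R ^ ε * 1 * T := by ring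
    _ ≤ C' * R ^ ε * d ^ (-x) * T := by gcongr

/-- consequences of `d ^ (-A') ≤ R`, `2 ≤ A'`. -/
theorem d_facts {d R A' : ℝ} (hR : 1 ≤ R) (hd : 0 < d) (hd1 : d ≤ 1) (hA' : 2 ≤ A')
    (hdA : d ^ (-A') ≤ R) : (∀ a : ℝ, a ≤ A' → d ^ (-a) ≤ R) ∧ d⁻¹ ≤ R ∧
      R ^ (1/2 : ℝ) ≤ d * R := by
  have hRp : 0 < R := by linarith
  have hdpow : ∀ a : ℝ, a ≤ A' → d ^ (-a) ≤ R := by
    intro a ha
    refine le_trans ?_ hdA
    exact Real.rpow_le_rpow_of_exponent_ge hd hd1 (by linarith)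
  have hdR : d⁻¹ ≤ R := by
    have := hdpow 1 (by linarith)
    rwa [Real.rpow_neg_one] at this
  refine ⟨hdpow, hdR, ?_⟩
  have h1 := hdpow 2 hA'
  have h2 : d⁻¹ ≤ R ^ (1/2 : ℝ) := by
    calc d⁻¹ = (d ^ (-(2:ℝ))) ^ (1/2 : ℝ) := by
          rw [← Real.rpow_mul hd.le, ← Real.rpow_neg_one]; norm_num
      _ ≤ R ^ (1/2 : ℝ) := Real.rpow_le_rpow (by positivity) h1 (by norm_num)
  have h3 : R ^ (1/2 : ℝ) * R ^ (1/2 : ℝ) = R := by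
    rw [← Real.rpow_add hRp]; norm_num
  have h4 : 1 ≤ d * R ^ (1/2 : ℝ) := by
    calc (1:ℝ) = d * d⁻¹ := by field_simp
      _ ≤ _ := by gcongr
  calc R ^ (1/2 : ℝ) = 1 * R ^ (1/2 : ℝ) := by ring
    _ ≤ (d * R ^ (1/2 : ℝ)) * R ^ (1/2 : ℝ) := by gcongr
    _ = d * (R ^ (1/2 : ℝ) * R ^ (1/2 : ℝ)) := by ring
    _ = d * R := by rw [h3]

/-- the ratio `dl = d^(1/(M+1))`. -/
theorem dl_facts {d cc : ℝ} {M : ℕ} (hd : 0 < d) (hcc0 : 0 < cc) (hd1 : d ≤ 1)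
    (hdc : d ≤ cc ^ (M + 1)) : ∃ dl : ℝ, 0 < dl ∧ dl ≤ 1 ∧ dl ^ (M + 1) = d ∧ dl ≤ cc ∧ d ≤ dl := by
  have hM0 : (0:ℝ) ≤ M := Nat.cast_nonneg M
  have hJ : (0:ℝ) < (M:ℝ) + 1 := by linarith
  obtain ⟨dl, hdldef⟩ : ∃ x, x = d ^ ((M + 1 : ℝ)⁻¹) := ⟨_, rfl⟩
  have hdl : 0 < dl := by rw [hdldef]; positivity
  have hdl1 : dl ≤ 1 := by rw [hdldef]; exact Real.rpow_le_one hd.le hd1 (by positivity)
  have hdlM : dl ^ (M + 1) = d := by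
    rw [hdldef, ← Real.rpow_natCast, ← Real.rpow_mul hd.le]
    push_cast
    rw [inv_mul_cancel₀ hJ.ne', Real.rpow_one]
  refine ⟨dl, hdl, hdl1, hdlM, ?_, ?_⟩
  · rw [hdldef]
    calc d ^ ((M + 1 : ℝ)⁻¹) ≤ (cc ^ (M + 1)) ^ ((M + 1 : ℝ)⁻¹) :=
          Real.rpow_le_rpow hd.le hdc (by positivity)
      _ = cc := by
        rw [← Real.rpow_natCast, ← Real.rpow_mul hcc0.le]
        push_cast
        rw [mul_inv_cancel₀ hJ.ne', Real.rpow_one]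
  · rw [← hdlM]
    calc dl ^ (M + 1) ≤ dl ^ 1 := pow_le_pow_of_le_one hdl.le hdl1 (by omega)
      _ = dl := pow_one dl

/-- `R^e ≤ dl⁻¹`. -/
theorem dl_R {R ε e d dl : ℝ} {M : ℕ} (hR : 1 ≤ R) (he : 0 < e)
    (heε : 6 * e * ((M:ℝ) + 3) ≤ ε) (hdl : 0 < dl) (hdlM : dl ^ (M + 1) = d)
    (hdε : R ^ ε ≤ d⁻¹) : R ^ e ≤ dl⁻¹ := by
  have hRp : 0 < R := by linarith
  have hM0 : (0:ℝ) ≤ M := Nat.cast_nonneg M
  have h1 : R ^ (((M:ℝ) + 1) * e) ≤ d⁻¹ := by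
    refine le_trans (rpow_le_rpow_of_one_le hR ?_) hdε
    nlinarith
  have h2 : (R ^ e) ^ (M + 1) ≤ (dl⁻¹) ^ (M + 1) := by
    rw [inv_pow, hdlM, ← Real.rpow_natCast, ← Real.rpow_mul hRp.le]
    push_cast
    rwa [mul_comm e]
  exact le_of_pow_le_pow_left₀ (by omega) (by positivity) h2

/-- the final exponent. -/
theorem hdX {d dl x y : ℝ} {M : ℕ} (hdl : 0 < dl) (hdlM : dl ^ (M + 1) = d)
    (hxy : x = ((M:ℝ) + 1) * y) : (dl⁻¹) ^ x = d ^ (-y) := by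
  rw [hxy, ← hdlM, Real.inv_rpow hdl.le, ← Real.rpow_neg hdl.le, ← Real.rpow_natCast,
    ← Real.rpow_mul hdl.le]
  congr 1
  push_cast
  ring

/-- **`EXT` implies `WChE`.** -/
theorem wchE_of_EXT {B : ℕ → ℝ} {q A : ℝ} (hA : 1 ≤ A) (HK : KMw B q) (HT1 : TRIV1 B q)
    (HT2 : TRIV2 B q (SIG A)) (H2 : A2 B q (SIG A)) (H2K : A2K B q (SIG A)) (H5 : A5b B q)
    (HX : EXT B q A) : WChE B q (SIG A) := by
  intro c1 hc1 hLB β hβ hβc hE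
  obtain ⟨C0, g0, hC0, hg0, HX⟩ := HX
  obtain ⟨γm, γ, γ', c, κ, j0, M, n, HC⟩ := exists_cst hc1 hβ hβc hC0 hg0
  have hM0 : (0:ℝ) ≤ M := Nat.cast_nonneg M
  have hc0 : 0 ≤ c := by have := HC.cc; linarith
  obtain ⟨c3, Aw, hc3, hc31, hAw, HX⟩ := HX γm HC.m0 HC.m1 HC.mh j0 n HC.j1
  obtain ⟨K0, hK0, HT2⟩ := HT2
  have hK00 : 0 < K0 := by linarith
  have hA0 : 0 < A := by linarith
  obtain ⟨cc, hccdef⟩ : ∃ x, x = min c3 (min A⁻¹ K0⁻¹) := ⟨_, rfl⟩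
  have hcc0 : 0 < cc := by
    rw [hccdef]; exact lt_min hc3 (lt_min (by positivity) (by positivity))
  have hcc3 : cc ≤ c3 := by rw [hccdef]; exact min_le_left _ _
  have hccA : cc ≤ A⁻¹ := by rw [hccdef]; exact (min_le_right _ _).trans (min_le_left _ _)
  have hccK : cc ≤ K0⁻¹ := by rw [hccdef]; exact (min_le_right _ _).trans (min_le_right _ _)
  have hcc1 : cc ≤ 1 := hcc3.trans hc31
  refine ⟨κ, cc ^ (M + 1), max 2 Aw, HC.k0, HC.k1, by positivity, pow_le_one₀ hcc0.le hcc1,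
    le_trans (by norm_num) (le_max_left _ _), ?_⟩
  intro ε hε Na M0
  -- losses
  obtain ⟨e, hedef⟩ : ∃ x, x = min 1 (ε / (6 * ((M:ℝ) + 3))) := ⟨_, rfl⟩
  have he : 0 < e := by rw [hedef]; exact lt_min one_pos (by positivity)
  have he1 : e ≤ 1 := by rw [hedef]; exact min_le_left _ _
  have heε : 6 * e * ((M:ℝ) + 3) ≤ ε := by
    have h1 : e ≤ ε / (6 * ((M:ℝ) + 3)) := by rw [hedef]; exact min_le_right _ _
    rw [le_div_iff₀ (by positivity)] at h1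
    linarith
  have PB : PhB B q (SIG A) c β := phB hc0 hβ (hLB c HC.cc) HK HT1 hE H5 H2 H2K
  obtain ⟨CR, hCR, HR⟩ := root_lev PB he Na M0
  obtain ⟨CG, hCG, HG⟩ := gen_lev hA PB he
  obtain ⟨K, hKdef⟩ : ∃ x : ℝ, 7 * ((M:ℝ) + 1) + 2 = x := ⟨_, rfl⟩
  have hK : 0 ≤ K := by rw [← hKdef]; positivity
  obtain ⟨M1, Cf, hCf, HF⟩ := fin_lev hA hc0 PB he M0 (2 * e) K (by positivity) hK
  obtain ⟨MD, hMDdef⟩ : ∃ m : ℕ, m = max M1 ⌈13 + |q| + |M0| + |K| + 4 * (2 * e)⌉₊ := ⟨_, rfl⟩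
  have hMD1 : M1 ≤ MD := by rw [hMDdef]; exact le_max_left _ _
  have hMD2 : 13 + |q| + |M0| + |K| + 4 * (2 * e) ≤ MD := by
    refine (Nat.le_ceil _).trans ?_
    rw [hMDdef]
    exact_mod_cast le_max_right _ _
  obtain ⟨C, hC, HX⟩ := HX e he Na M0 K MD hK
  have hC00 : 0 ≤ C := by linarith
  obtain ⟨CG', hCG', HG⟩ := HG M0 K (2 * e) C (by positivity) hC00
  obtain ⟨CF, hCF, HF⟩ := HF C hC00
  obtain ⟨CT, hCT, HT2⟩ := HT2 ε hε Na M0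
  obtain ⟨CE, hCEdef⟩ : ∃ x : ℝ, x = CR * C + 8 * CG * C ^ 5 + C := ⟨_, rfl⟩
  have hp1 : 0 ≤ CR * C := by positivity
  have hp2 : 0 ≤ 8 * CG * C ^ 5 := by positivity
  have hE1 : 1 ≤ CE := by rw [hCEdef]; linarith
  have hE2 : CR * C ≤ CE := by rw [hCEdef]; linarith
  have hE3 : 8 * CG * C ^ 5 ≤ CE := by rw [hCEdef]; linarith
  have hE4 : C ≤ CE := by rw [hCEdef]; linarith
  obtain ⟨Cτ, hCτdef⟩ : ∃ x : ℝ, x = CG' * C + C := ⟨_, rfl⟩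
  have hp3 : 0 ≤ CG' * C := by positivity
  have hτ1 : CG' * C ≤ Cτ := by rw [hCτdef]; linarith
  have hτ2 : C ≤ Cτ := by rw [hCτdef]; linarith
  have hCτ0 : 0 ≤ Cτ := by linarith
  obtain ⟨R0, hR0def⟩ : ∃ x : ℝ, x = max 1296 (C ^ (e⁻¹)) := ⟨_, rfl⟩
  have hR01 : 1296 ≤ R0 := by rw [hR0def]; exact le_max_left _ _
  have hR0C : C ^ (e⁻¹) ≤ R0 := by rw [hR0def]; exact le_max_right _ _
  obtain ⟨CM, hCMdef⟩ : ∃ x : ℝ, x = 8 * C ^ 4 * Cf * (2 * CE) ^ (M + 2) *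
    (1 + Cτ * (2 * CE) ^ (M + 1)) + CF := ⟨_, rfl⟩
  have hCM0 : 0 ≤ CM := by rw [hCMdef]; positivity
  have hCT0 : 0 ≤ CT * R0 ^ 2 := by positivity
  refine ⟨CT * R0 ^ 2 + CM, by positivity, ?_⟩
  intro h g R D hSt d s1 s2 hd hdc hdA hdε hSd
  have hR1 := hSt.R1
  have hRp := hSt.Rpos
  have hss := hSt.ss
  have hd1 : d ≤ 1 := hdc.trans (pow_le_one₀ hcc0.le hcc1)
  have hx0 : 0 ≤ c1 / 2 * (1 - κ) := mul_nonneg (by positivity) (by have := HC.k1; linarith)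
  obtain ⟨hdpow, hdR, hdR2⟩ := d_facts hR1 hd hd1 (le_max_left _ _) hdA
  obtain ⟨dl, hdl, hdl1, hdlM, hdlcc, hddl⟩ := dl_facts hd hcc0 hd1 hdc
  rcases le_or_gt R R0 with hsm | hbig
  · -- small `R`
    have hK0d : K0 * (d * R) ≤ R := by
      have h2 : K0 * d ≤ 1 := by
        calc K0 * d ≤ K0 * K0⁻¹ := by
              have := (hddl.trans hdlcc).trans hccK
              gcongr
          _ = 1 := mul_inv_cancel₀ hK00.ne'
      calc K0 * (d * R) = (K0 * d) * R := by ring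
        _ ≤ 1 * R := by gcongr
        _ = R := one_mul R
    have h1 := HT2 h g R D (d * R) s1 s2 (hSt.mono (by norm_num)) hdR2 hK0d hSd
    refine h1.trans (ENNReal.ofReal_le_ofReal ?_)
    exact small_R hR1 hsm hd hd1 hdR hCT hss hx0 (by linarith)
  · -- main case
    have hR1296 : 1296 ≤ R := hR01.trans hbig.le
    have hCRe : C ≤ R ^ e := by
      calc C = (C ^ (e⁻¹)) ^ e := by
            rw [← Real.rpow_mul hC00, inv_mul_cancel₀ he.ne', Real.rpow_one]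
        _ ≤ R ^ e := Real.rpow_le_rpow (by positivity) (hR0C.trans hbig.le) he.le
    have hCR' : C ≤ R := by
      calc C ≤ R ^ e := hCRe
        _ ≤ R ^ (1:ℝ) := rpow_le_rpow_of_one_le hR1 he1
        _ = R := Real.rpow_one R
    have hAdl : A * dl ≤ 1 := by
      calc A * dl ≤ A * A⁻¹ := by
            have := hdlcc.trans hccA
            gcongr
        _ = 1 := mul_inv_cancel₀ hA0.ne'
    have hdlA : dl ^ (-Aw) ≤ R := by
      refine le_trans ?_ (hdpow Aw (le_max_right _ _))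
      rw [Real.rpow_neg hdl.le, Real.rpow_neg hd.le]
      have h1 : 0 < d ^ Aw := by positivity
      have h2 : d ^ Aw ≤ dl ^ Aw := Real.rpow_le_rpow hd.le hddl (by linarith)
      exact inv_anti₀ h1 h2
    have hdlR := dl_R hR1 he heε hdl hdlM hdε
    obtain ⟨L, p, gd, HT⟩ := HX h g R D hSt dl hdl (hdlcc.trans hcc3) hdlA hdlR hCR'
    have hXR : dl⁻¹ ≤ R := le_trans (inv_anti₀ hd hddl) hdR
    have key := close_state (CE := CE) (Cτ := Cτ) HC hc1 hβ hβc hC0 hg0 he he1 heε hC hCR hCG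
      hCG' hCf hCF hE1 hE2 hE3 hE4 hτ1 hτ2 hKdef hMD1 hMD2 HR HG HF hSt hR1296 hCRe hdl hdl1
      hAdl hdlR hXR hdlM hdR2 hSd HT
    refine key.trans (ENNReal.ofReal_le_ofReal ?_)
    rw [← hCMdef, hdX hdl hdlM HC.ex]
    have h9 : 0 ≤ R ^ ε := by positivity
    have h10 : 0 ≤ d ^ (-(c1 / 2 * (1 - κ))) := by positivity
    have h11 : CM ≤ CT * R0 ^ 2 + CM := by linarith
    gcongr

end Crest.Agent.R138.Chn188
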