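import Crest.Agent.R138.Acl2_101
import Crest.Agent.R138.PDef_654

/-!
# R138 / R139: WAVE side, `COHu` of PDef_654 (helper101): the classes of the level `i` phase points
imply the coherence bound.
-/

set_option autoImplicit false

open MeasureTheory
open scoped ENNReal

namespace Crest.Agent.R138.Cohu101

open Crest.Agent.R138.Defs Crest.Agent.R138.W188 Crest.Agent.R138.Wpk685 Crest.Agent.R138.Loc878
  Crest.Agent.R138.Ad480 Crest.Agent.R138.Rect779 Crest.Agent.R138.P654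

/-- orthogonal part in the plane. -/
theorem orth_eq (b : OrthonormalBasis (Fin 2) ℝ E2) (v : E2) :
    orth (b 0) v = (inner ℝ (b 1) v : ℝ) • b 1 := by
  unfold orth
  conv_lhs => rw [← b.sum_repr' v]
  rw [Fin.sum_univ_two, inner_add_right, inner_smul_right, inner_smul_right]
  have h0 : (inner ℝ (b 0) (b 0) : ℝ) = 1 := by
    rw [real_inner_self_eq_norm_sq, b.orthonormal.1 0]; norm_num
  have h1 : (inner ℝ (b 0) (b 1) : ℝ) = 0 := b.orthonormal.2 (by decide)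
  rw [h0, h1, mul_one, mul_zero, add_zero]
  abel

theorem norm_orth (b : OrthonormalBasis (Fin 2) ℝ E2) (v : E2) :
    ‖orth (b 0) v‖ = |(inner ℝ (b 1) v : ℝ)| := by
  rw [orth_eq, norm_smul, b.orthonormal.1 1, mul_one, Real.norm_eq_abs]

/-- change of the frame, `sn b b0 ≤ δ`. -/
theorem norm_orth_change (b b0 : OrthonormalBasis (Fin 2) ℝ E2) {δ : ℝ} (hs : sn b b0 ≤ δ) (v : E2) :
    ‖orth (b0 0) v‖ ≤ δ * ‖v‖ + ‖orth (b 0) v‖ := by
  rw [norm_orth, norm_orth]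
  have e : (inner ℝ (b0 1) v : ℝ) = inner ℝ (b 0) v * inner ℝ (b0 1) (b 0) +
      inner ℝ (b 1) v * inner ℝ (b0 1) (b 1) := by
    conv_lhs => rw [← b.sum_repr' v]
    rw [Fin.sum_univ_two, inner_add_right, inner_smul_right, inner_smul_right]
  rw [e]
  refine (abs_add_le _ _).trans ?_
  rw [abs_mul, abs_mul]
  have h1 : |(inner ℝ (b0 1) (b 0) : ℝ)| ≤ δ := by
    rw [real_inner_comm]; exact hs
  have h2 : |(inner ℝ (b 0) v : ℝ)| ≤ ‖v‖ := by
    have := abs_real_inner_le_norm (b 0) v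
    rwa [b.orthonormal.1 0, one_mul] at this
  have h3 : |(inner ℝ (b0 1) (b 1) : ℝ)| ≤ 1 := by
    have := abs_real_inner_le_norm (b0 1) (b 1)
    rwa [b.orthonormal.1 1, b0.orthonormal.1 1, one_mul] at this
  have h4 : 0 ≤ ‖v‖ := norm_nonneg v
  have h5 : |(inner ℝ (b 0) v : ℝ)| * |(inner ℝ (b0 1) (b 0) : ℝ)| ≤ ‖v‖ * δ :=
    mul_le_mul h2 h1 (abs_nonneg _) h4
  have h6 : |(inner ℝ (b 1) v : ℝ)| * |(inner ℝ (b0 1) (b 1) : ℝ)| ≤ |(inner ℝ (b 1) v : ℝ)| * 1 :=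
    mul_le_mul_of_nonneg_left h3 (abs_nonneg _)
  linarith

/-- `θ` of two consecutive levels. -/
theorem an_step {r dl : ℝ} (hr : 0 < r) (hd : 0 < dl) :
    dl ^ (1/2 : ℝ) * an (dl * r) = an r := by
  unfold an
  rw [Real.mul_rpow hd.le hr.le, ← mul_assoc, ← Real.rpow_add hd]
  norm_num

theorem an_sq {r : ℝ} (hr : 0 < r) : r * (an r * an r) = 1 := by
  unfold an
  rw [← Real.rpow_add hr]
  norm_num
  rw [Real.rpow_neg_one]
  exact mul_inv_cancel₀ hr.ne'

/-- **COHu**, with `d0 = 1`. -/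
theorem cohuOne (B : ℕ → ℝ) : ∃ d0 : ℝ, d0 = 1 ∧ d0 ≤ 1 ∧ ∀ n : ℕ, ∃ K0 : ℝ, 1 ≤ K0 ∧
    ∀ K : ℝ, K0 ≤ K →
  ∀ h, ParB B h → fderiv ℝ h 0 = 0 → ∀ (r0 dl Y a pp : ℝ) (g0 : E2 → ℂ)
    (S0 : ℤ × ℤ → Set E2) (ζ : E2 × ℝ) (I1 : Finset ℕ) (P1 : ℕ → Plate),
    1 ≤ dl * r0 → 0 < dl → dl ≤ d0 → 1 ≤ Y → Y ≤ dl ^ (-(1/4) : ℝ) → |ζ.2| ≤ r0 → 0 ≤ a →
    1 ≤ pp → (∀ m, MeasurableSet (S0 m)) →
    (∀ i ∈ I1, ∀ m, ∀ y ∈ (P1 i).S m,
      ENNReal.ofReal a ≤ Ad n h (an r0) (an (dl * r0)) g0 S0 m ζ y ∧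
      Ad n h (an r0) (an (dl * r0)) g0 S0 m ζ y ≤ ENNReal.ofReal (8 * a) ∧
      (pot n h (an r0) (an (dl * r0)) (an (dl * (dl * r0))) K g0 S0 (P1 i).b ζ m y : ℝ) ≤ pp) →
    Coh h (an (dl * r0)) (an (dl * (dl * r0))) (dl ^ (1/2 : ℝ)) Y (2 * (dl * r0)) I1 P1 pp := by
  refine ⟨1, rfl, le_rfl, fun n => ?_⟩
  set L : ℝ := 1 + |B 2| with hLdef
  have hL0 : 0 ≤ L := by positivity
  set X : ℝ := 2 + 32 * L with hXdef
  have hX0 : 0 ≤ X := by positivity
  refine ⟨8 * (1 + X) ^ n, ?_, ?_⟩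
  · have : (1:ℝ) ≤ (1 + X) ^ n := one_le_pow₀ (by linarith)
    linarith
  intro K hK h hh h1 r0 dl Y a pp g0 S0 ζ I1 P1 hr hd hd1 hY1 hY2 hζ ha hpp hS0 hcls b c z x hz M hM
  rcases M.eq_empty_or_nonempty with rfl | ⟨m0, hm0⟩
  · simp; linarith
  obtain ⟨hm0c, hm0R, y0, hy0, hy0d⟩ := hM m0 hm0
  obtain ⟨i0, hi0, hs0, hy0S⟩ := hy0
  have hr0 : 0 < r0 := by
    by_contra hcon
    push Not at hcon
    nlinarith
  have hdr : 0 < dl * r0 := mul_pos hd hr0
  have hddr : 0 < dl * (dl * r0) := mul_pos hd hdr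
  -- angles
  set θ0 : ℝ := an r0 with hθ0
  set θ1 : ℝ := an (dl * r0) with hθ1
  set θ2 : ℝ := an (dl * (dl * r0)) with hθ2
  set δ : ℝ := dl ^ (1/2 : ℝ) with hδ
  have p0 : 0 < θ0 := Real.rpow_pos_of_pos hr0 _
  have p1 : 0 < θ1 := Real.rpow_pos_of_pos hdr _
  have p2 : 0 < θ2 := Real.rpow_pos_of_pos hddr _
  have pδ : 0 < δ := Real.rpow_pos_of_pos hd _
  have e01 : δ * θ1 = θ0 := an_step hr0 hd
  have e12 : δ * θ2 = θ1 := an_step hdr hd
  have e1 : dl * r0 * (θ1 * θ1) = 1 := an_sq hdr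
  have hδY : δ * Y ≤ 1 := by
    have h2 : δ * Y ≤ dl ^ (1/2 : ℝ) * dl ^ (-(1/4) : ℝ) := by gcongr
    rw [← Real.rpow_add hd] at h2
    refine h2.trans (Real.rpow_le_one hd.le hd1 (by norm_num))
  have hcard : (M.card : ℝ) ≤ (pot n h θ0 θ1 θ2 K g0 S0 (P1 i0).b ζ m0 y0 : ℝ) := by
    classical
    have : M.card ≤ pot n h θ0 θ1 θ2 K g0 S0 (P1 i0).b ζ m0 y0 := by
      unfold pot
      refine Finset.card_le_card fun m hm => ?_
      obtain ⟨hmc, hmR, y, hy, hyd⟩ := hM m hm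
      obtain ⟨i, hi, hs, hyS⟩ := hy
      rw [Finset.mem_filter]
      refine ⟨hmc, ?_, ?_⟩
      · -- rectangle
        obtain ⟨a1, a2⟩ := hmR
        obtain ⟨b1, b2⟩ := hm0R
        have e : cen θ1 m - cen θ1 m0 = (cen θ1 m - c) - (cen θ1 m0 - c) := by abel
        have hn : ‖cen θ1 m - cen θ1 m0‖ ≤ 16 * θ2 := by
          rw [e]
          exact (norm_sub_le _ _).trans (by linarith)
        refine ⟨hn, ?_⟩
        have h3 := norm_orth_change b (P1 i0).b hs0 (cen θ1 m - cen θ1 m0)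
        have h4 : ‖orth (b 0) (cen θ1 m - cen θ1 m0)‖ ≤ 8 * θ1 := by
          rw [e, orth_sub]
          exact (norm_sub_le _ _).trans (by linarith)
        have h5 : δ * ‖cen θ1 m - cen θ1 m0‖ ≤ δ * (16 * θ2) := by gcongr
        have h6 : δ * (16 * θ2) = 16 * θ1 := by rw [← e12]; ring
        linarith
      · -- densities
        obtain ⟨-, h8, -⟩ := hcls i0 hi0 m0 y0 hy0S
        obtain ⟨h9, -, -⟩ := hcls i hi m y hyS
        have hyy : θ0 * ‖y - y0‖ ≤ X := by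
          have g1 : ‖gradient h (cen θ1 m) - gradient h (cen θ1 m0)‖ ≤ L * (16 * θ2) := by
            have g2 := Crest.Agent.R138.Wf448.gradient_lip hh.1 (M := 1 + |B 2|)
              (fun ξ => (Wf448.ParB.bound hh 2 le_rfl ξ).trans (by
                have := le_abs_self (B 2); linarith)) (cen θ1 m) (cen θ1 m0)
            refine g2.trans ?_
            have e : cen θ1 m - cen θ1 m0 = (cen θ1 m - c) - (cen θ1 m0 - c) := by abel
            have hn : ‖cen θ1 m - cen θ1 m0‖ ≤ 16 * θ2 := by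
              rw [e]
              exact (norm_sub_le _ _).trans (by linarith [hmR.1, hm0R.1])
            gcongr
          have e : y - y0 = (y - z.1 - z.2 • gradient h (cen θ1 m) - x) -
              (y0 - z.1 - z.2 • gradient h (cen θ1 m0) - x) +
              z.2 • (gradient h (cen θ1 m) - gradient h (cen θ1 m0)) := by
            rw [smul_sub]; abel
          have h10 : θ1 * ‖y - y0‖ ≤ 2 * Y + θ1 * (2 * (dl * r0) * (L * (16 * θ2))) := by
            have h11 : ‖y - y0‖ ≤ ‖y - z.1 - z.2 • gradient h (cen θ1 m) - x‖ +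
                ‖y0 - z.1 - z.2 • gradient h (cen θ1 m0) - x‖ +
                |z.2| * ‖gradient h (cen θ1 m) - gradient h (cen θ1 m0)‖ := by
              rw [e]
              refine (norm_add_le _ _).trans ?_
              rw [norm_smul, Real.norm_eq_abs]
              have := norm_sub_le (y - z.1 - z.2 • gradient h (cen θ1 m) - x)
                (y0 - z.1 - z.2 • gradient h (cen θ1 m0) - x)
              linarith
            have h12 : |z.2| * ‖gradient h (cen θ1 m) - gradient h (cen θ1 m0)‖ ≤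
                2 * (dl * r0) * (L * (16 * θ2)) := by gcongr
            have h13 := mul_le_mul_of_nonneg_left (h11.trans (add_le_add le_rfl h12)) p1.le
            rw [mul_add, mul_add] at h13
            linarith
          have h14 : θ0 * ‖y - y0‖ = δ * (θ1 * ‖y - y0‖) := by rw [← e01]; ring
          rw [h14]
          have h15 := mul_le_mul_of_nonneg_left h10 pδ.le
          have h16 : δ * (θ1 * (2 * (dl * r0) * (L * (16 * θ2)))) =
              32 * L * (dl * r0 * (θ1 * (δ * θ2))) := by ring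
          rw [mul_add, h16, e12, e1] at h15
          rw [hXdef]
          nlinarith
        have h17 : θ0 * ‖y - y0‖ = θ0 * ‖y - y0‖ := rfl
        have h18 := Acl101.Ad_near (n := n) (h := h) (ρ := θ0) (ρ' := θ1) (g := g0) (S := S0)
          p0.le hX0 m ζ hyy
        calc Ad n h θ0 θ1 g0 S0 m0 ζ y0 ≤ ENNReal.ofReal (8 * a) := h8
          _ = 8 * ENNReal.ofReal a := by
              rw [ENNReal.ofReal_mul (by norm_num)]; norm_num
          _ ≤ 8 * (ENNReal.ofReal ((1 + X) ^ n) * Ad n h θ0 θ1 g0 S0 m ζ y0) := by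
              gcongr; exact h9.trans h18
          _ = ENNReal.ofReal (8 * (1 + X) ^ n) * Ad n h θ0 θ1 g0 S0 m ζ y0 := by
              rw [← mul_assoc, ENNReal.ofReal_mul (by norm_num)]; norm_num
          _ ≤ ENNReal.ofReal K * Ad n h θ0 θ1 g0 S0 m ζ y0 := by gcongr
    exact_mod_cast this
  exact hcard.trans (hcls i0 hi0 m0 y0 hy0S).2.2

/-- **COHu**. -/
theorem cohu (B : ℕ → ℝ) : COHu B := by
  obtain ⟨d0, h0, h1, H⟩ := cohuOne B
  exact ⟨d0, by rw [h0]; exact one_pos, h1, H⟩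

end Crest.Agent.R138.Cohu101
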