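import Mathlib

/-!
# R138: decoupling lemma, algebraic part (helper848)

`ν : (Fin 4 → ℝ) → ℝ` (log of the number of objects in the box of side exponents `p`), near the
natural surface `X k v t = ((1+k)v+t, kv+t, t, v+t)`.

* `SubOn`: increments `E ν i s p = ν p - ν (p + s e_i)` lie in `[0, C s]` and are antitone in the
  other coordinates (number of children of a smaller box).
* `D ν i h p`: defect of separation of the direction `i` on the window `p + [0,h]^4`.
* `D_two_le`, `D_zero_le`, `M_le_of_lt`, `M_le_of_gt`: the defects at a natural box are bounded by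
  differences of increments at two natural boxes (stationarity).
* `sep`: `ν` is additively separated on the window up to the sum of the defects;
  `halfSep` : the same with the pair `(1,3)` kept together.
-/

set_option autoImplicit false

open scoped BigOperators

namespace Crest.Agent.R138.Dec848

/-- exponent vectors -/
abbrev V4 := Fin 4 → ℝ

/-- unit vectors -/
noncomputable def e (i : Fin 4) : V4 := Pi.single i 1

/-- the natural box -/
def X (k v t : ℝ) : V4 := ![(1 + k) * v + t, k * v + t, t, v + t]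

/-- increment of `ν` in direction `i` -/
noncomputable def E (ν : V4 → ℝ) (i : Fin 4) (s : ℝ) (p : V4) : ℝ := ν p - ν (p + s • e i)

/-- the hypotheses on the counting exponent on a region `S` -/
structure SubOn (ν : V4 → ℝ) (S : Set V4) (C H : ℝ) : Prop where
  nonneg : ∀ p ∈ S, ∀ i s, 0 ≤ s → s ≤ H → 0 ≤ E ν i s p
  le : ∀ p ∈ S, ∀ i s, 0 ≤ s → s ≤ H → E ν i s p ≤ C * s
  sub : ∀ p ∈ S, ∀ p' ∈ S, ∀ i s, p ≤ p' → p i = p' i → 0 ≤ s → s ≤ H → E ν i s p' ≤ E ν i s p

/-- far corner of the window in the directions `≠ i` -/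
noncomputable def far (i : Fin 4) (h : ℝ) (p : V4) : V4 := fun j => if j = i then p j else p j + h

/-- defect of separation of direction `i` on the window `p + [0,h]^4` -/
noncomputable def D (ν : V4 → ℝ) (i : Fin 4) (h : ℝ) (p : V4) : ℝ :=
  E ν i h p - E ν i h (far i h p)

/-- the remaining mixed difference `(1,3)` -/
noncomputable def M (ν : V4 → ℝ) (h : ℝ) (p : V4) : ℝ := E ν 1 h p - E ν 1 h (p + h • e 3)

theorem e_same (i : Fin 4) : e i i = 1 := by simp [e]

theorem e_ne {i j : Fin 4} (h : j ≠ i) : e i j = 0 := by simp [e, h]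

theorem add_e_same (p : V4) (s : ℝ) (i : Fin 4) : (p + s • e i) i = p i + s := by
  simp [e_same]

theorem add_e_ne (p : V4) (s : ℝ) {i j : Fin 4} (h : j ≠ i) : (p + s • e i) j = p j := by
  simp [e_ne h]

theorem add_e_apply (p : V4) (s : ℝ) (i j : Fin 4) :
    (p + s • e i) j = p j + (if j = i then s else 0) := by
  by_cases h : j = i
  · subst h; rw [add_e_same, if_pos rfl]
  · rw [add_e_ne _ _ h, if_neg h, add_zero]

theorem X_zero (k v t : ℝ) : X k v t 0 = (1 + k) * v + t := rfl

theorem X_one (k v t : ℝ) : X k v t 1 = k * v + t := rfl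

theorem X_two (k v t : ℝ) : X k v t 2 = t := rfl

theorem X_three (k v t : ℝ) : X k v t 3 = v + t := rfl

/-- comparison of vectors in `Fin 4 → ℝ` -/
theorem le_of4 {p q : V4} (h0 : p 0 ≤ q 0) (h1 : p 1 ≤ q 1) (h2 : p 2 ≤ q 2) (h3 : p 3 ≤ q 3) :
    p ≤ q := by
  intro j; fin_cases j
  · exact h0
  · exact h1
  · exact h2
  · exact h3

theorem le_add_e (p : V4) {s : ℝ} (hs : 0 ≤ s) (i : Fin 4) : p ≤ p + s • e i := by
  intro j
  by_cases h : j = i
  · subst h; rw [add_e_same]; linarith
  · rw [add_e_ne _ _ h]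

theorem E_add (ν : V4 → ℝ) (i : Fin 4) (s s' : ℝ) (p : V4) :
    E ν i (s + s') p = E ν i s p + E ν i s' (p + s • e i) := by
  unfold E
  rw [add_smul, add_assoc]; ring

theorem E_swap (ν : V4 → ℝ) (i j : Fin 4) (s s' : ℝ) (p : V4) :
    E ν i s p - E ν i s (p + s' • e j) = E ν j s' p - E ν j s' (p + s • e i) := by
  unfold E
  have : p + s • e i + s' • e j = p + s' • e j + s • e i := by abel
  rw [this]; ring

/-- the ball around `p` (sup norm) -/
def Bx (p : V4) (r : ℝ) : Set V4 := {q | ∀ i, |q i - p i| ≤ r}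

theorem mem_Bx_self {p : V4} {r : ℝ} (hr : 0 ≤ r) : p ∈ Bx p r := by
  intro i; simpa using hr

section

variable {ν : V4 → ℝ} {S : Set V4} {C H : ℝ}

/-- differences of increments grow with the step -/
theorem diff_mono (hν : SubOn ν S C H) {i : Fin 4} {s s' : ℝ} {p p' : V4} (hs : 0 ≤ s)
    (hss : s ≤ s') (hH : s' ≤ H) (hp : p + s • e i ∈ S) (hp' : p' + s • e i ∈ S) (hle : p ≤ p')
    (hi : p i = p' i) :
    E ν i s p - E ν i s p' ≤ E ν i s' p - E ν i s' p' := by
  have h1 := E_add ν i s (s' - s) p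
  have h2 := E_add ν i s (s' - s) p'
  rw [show s + (s' - s) = s' by ring] at h1 h2
  have h3 := hν.sub _ hp _ hp' i (s' - s) (add_le_add hle le_rfl)
    (by rw [add_e_same, add_e_same, hi]) (by linarith) (by linarith)
  rw [h1, h2]; linarith

/-- a mixed difference inside the window is bounded by the defect -/
theorem mix_le_D (hν : SubOn ν S C H) {i : Fin 4} {s h : ℝ} {p₀ p p' : V4} (hs : 0 ≤ s)
    (hsh : s ≤ h) (hH : h ≤ H) (hS : Bx p₀ h ⊆ S) (h1 : p₀ ≤ p) (h2 : p ≤ p')
    (h3 : p' ≤ far i h p₀) (hi : p i = p₀ i) (hi' : p' i = p₀ i) :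
    E ν i s p - E ν i s p' ≤ D ν i h p₀ := by
  have hh : 0 ≤ h := hs.trans hsh
  have hfar : far i h p₀ ∈ Bx p₀ h := by
    intro j; unfold far; split_ifs with hj
    · simpa using hh
    · simp [abs_of_nonneg hh]
  have hmem : ∀ q : V4, p₀ ≤ q → q ≤ far i h p₀ → q ∈ Bx p₀ h := by
    intro q hq1 hq2 j
    have a := hq1 j
    have b := hq2 j
    unfold far at b
    rw [abs_le]
    split_ifs at b with hj
    · constructor <;> linarith
    · constructor <;> linarith
  have hmem' : ∀ q : V4, p₀ ≤ q → q ≤ far i h p₀ → q + s • e i ∈ Bx p₀ h := by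
    intro q hq1 hq2 j
    have a := hq1 j
    have b := hq2 j
    unfold far at b
    rw [abs_le]
    by_cases hj : j = i
    · subst hj
      rw [add_e_same]
      simp only [if_true] at b
      constructor <;> linarith
    · rw [add_e_ne _ _ hj]
      simp only [hj, if_false] at b
      constructor <;> linarith
  have hpS := hmem p h1 (h2.trans h3)
  have hp'S := hmem p' (h1.trans h2) h3
  have a1 : E ν i s p ≤ E ν i s p₀ :=
    hν.sub _ (hS (mem_Bx_self hh)) _ (hS hpS) i s h1 hi.symm hs (hsh.trans hH)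
  have a2 : E ν i s (far i h p₀) ≤ E ν i s p' :=
    hν.sub _ (hS hp'S) _ (hS hfar) i s h3 (by rw [hi']; simp [far]) hs (hsh.trans hH)
  have a3 : E ν i s p₀ - E ν i s (far i h p₀) ≤ E ν i h p₀ - E ν i h (far i h p₀) := by
    apply diff_mono hν hs hsh hH (hS (hmem' _ le_rfl (h1.trans (h2.trans h3))))
      (hS (hmem' _ (h1.trans (h2.trans h3)) le_rfl)) (h1.trans (h2.trans h3))
    simp [far]
  unfold D; linarith

theorem D_nonneg (hν : SubOn ν S C H) {i : Fin 4} {h : ℝ} {p₀ : V4} (hh : 0 ≤ h) (hH : h ≤ H)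
    (hS : Bx p₀ h ⊆ S) : 0 ≤ D ν i h p₀ := by
  have hfar : far i h p₀ ∈ Bx p₀ h := by
    intro j; unfold far; split_ifs with hj
    · simpa using hh
    · simp [abs_of_nonneg hh]
  have := hν.sub _ (hS (mem_Bx_self hh)) _ (hS hfar) i h (by
    intro j; unfold far; split_ifs <;> linarith) (by simp [far]) hh hH
  unfold D; linarith

theorem X_diff (k v t a b : ℝ) : X k (v + a) (t + b) =
    X k v t + ![(1 + k) * a + b, k * a + b, b, a + b] := by
  ext i; fin_cases i <;> simp [X] <;> ring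

theorem X_mem {k v t a b r : ℝ} (hk : 0 ≤ k) (h : (1 + k) * |a| + |b| ≤ r) :
    X k (v + a) (t + b) ∈ Bx (X k v t) r := by
  have ha := abs_nonneg a
  have hb := abs_nonneg b
  have hka : 0 ≤ k * |a| := mul_nonneg hk ha
  have e1 : |(1 + k) * a + b| ≤ (1 + k) * |a| + |b| := by
    refine (abs_add_le _ _).trans ?_
    rw [abs_mul, abs_of_nonneg (by linarith : (0:ℝ) ≤ 1 + k)]
  have e2 : |k * a + b| ≤ (1 + k) * |a| + |b| := by
    refine (abs_add_le _ _).trans ?_
    rw [abs_mul, abs_of_nonneg hk]; nlinarith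
  have e3 : |a + b| ≤ (1 + k) * |a| + |b| := by
    refine (abs_add_le _ _).trans ?_
    nlinarith
  rw [X_diff]
  intro i
  fin_cases i
  · simpa using e1.trans h
  · simpa using e2.trans h
  · have : |b| ≤ r := by nlinarith
    simpa using this
  · simpa using e3.trans h

/-- **Direction 2** (lateral velocity) decouples: stationarity along `d_v`. -/
theorem D_two_le (hν : SubOn ν S C H) {k B h v t : ℝ} (hk : 0 ≤ k) (hB : 1 ≤ B) (hkB : 1 ≤ k * B)
    (hh : 0 ≤ h) (hH : h ≤ H) (hS : Bx (X k v t) ((1 + k) * (B * h) + h) ⊆ S) :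
    D ν 2 h (X k v t) ≤ E ν 2 h (X k v t) - E ν 2 h (X k (v + B * h) (t + 0)) := by
  have hBh : 0 ≤ B * h := by positivity
  have hr : h ≤ (1 + k) * (B * h) + h := by nlinarith
  have hfar : far 2 h (X k v t) ∈ S := by
    apply hS
    intro j; unfold far; split_ifs with hj
    · simpa using hh.trans hr
    · simpa [abs_of_nonneg hh] using hr
  have hX : X k (v + B * h) (t + 0) ∈ S := by
    apply hS
    apply X_mem hk
    rw [abs_of_nonneg hBh, abs_zero]
    nlinarith
  have key := hν.sub _ hfar _ hX 2 h (by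
    rw [X_diff]
    intro j
    fin_cases j
    · simp [far]; nlinarith
    · simp [far]; nlinarith
    · simp [far]
    · simp [far]; nlinarith) (by rw [X_diff]; simp [far]) hh hH
  unfold D; linarith

/-- **Direction 0** (normal position) decouples for every `k > 0`. -/
theorem D_zero_le (hν : SubOn ν S C H) {k B h v t : ℝ} (hk : 0 ≤ k) (hB : 1 ≤ B)
    (hkB : 1 ≤ k * B) (hh : 0 ≤ h) (hH : h ≤ H)
    (hS : Bx (X k v t) (2 * (1 + k) * (B * h) + h) ⊆ S) :
    D ν 0 h (X k v t) ≤ E ν 0 h (X k v t)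
      - E ν 0 h (X k (v + -(B * h)) (t + (1 + k) * (B * h))) := by
  have hBh : 0 ≤ B * h := by positivity
  have hkh : 0 ≤ (1 + k) * (B * h) := by positivity
  have hr : h ≤ 2 * (1 + k) * (B * h) + h := by nlinarith
  have hfar : far 0 h (X k v t) ∈ S := by
    apply hS
    intro j; unfold far; split_ifs with hj
    · simpa using hh.trans hr
    · simpa [abs_of_nonneg hh] using hr
  have hX : X k (v + -(B * h)) (t + (1 + k) * (B * h)) ∈ S := by
    apply hS
    apply X_mem hk
    rw [abs_neg, abs_of_nonneg hBh, abs_of_nonneg hkh]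
    nlinarith
  have hb1 : h ≤ B * h := by nlinarith
  have hb2 : h ≤ k * (B * h) := by nlinarith
  have key := hν.sub _ hfar _ hX 0 h (by
    rw [X_diff]
    intro j
    fin_cases j
    · simp [far]
    · simp [far]; nlinarith
    · simp [far]; nlinarith
    · simp [far]; nlinarith) (by rw [X_diff]; simp [far]) hh hH
  unfold D; linarith

/-- **Pair (1,3)**, `k < 1`. -/
theorem M_le_of_lt (hν : SubOn ν S C H) {k B h v t : ℝ} (hk : 0 ≤ k) (hB : 1 ≤ B)
    (hkB : 1 ≤ (1 - k) * B) (hh : 0 ≤ h) (hH : B * h ≤ H)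
    (hS : Bx (X k v t) (4 * (B * h)) ⊆ S) :
    M ν h (X k v t) ≤ E ν 1 h (X k v t) - E ν 1 h (X k (v + B * h) (t + -(k * (B * h))))
      + D ν 2 (B * h) (X k (v + B * h) (t + -(k * (B * h)))) := by
  set y := X k (v + B * h) (t + -(k * (B * h))) with hy
  have hBh : 0 ≤ B * h := by positivity
  have hb1 : h ≤ B * h := by nlinarith
  have hkBh : 0 ≤ k * (B * h) := by positivity
  have hkBh1 : k * (B * h) ≤ B * h := by nlinarith
  have hbk : h ≤ (1 - k) * (B * h) := by nlinarith
  have hyX : y ∈ Bx (X k v t) (3 * (B * h)) := by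
    apply X_mem hk
    rw [abs_neg, abs_of_nonneg hBh, abs_of_nonneg hkBh]
    nlinarith
  have hyS : Bx y (B * h) ⊆ S := by
    intro q hq
    apply hS
    intro i
    have a := hq i
    have b := hyX i
    have : q i - X k v t i = (q i - y i) + (y i - X k v t i) := by ring
    rw [this]
    refine (abs_add_le _ _).trans ?_
    linarith
  -- mixed difference at y
  have hmix : E ν 1 h y - E ν 1 h (y + (k * (B * h)) • e 2) ≤ D ν 2 (B * h) y := by
    rw [E_swap]
    apply mix_le_D hν hkBh hkBh1 hH hyS le_rfl (le_add_e _ hh _)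
    · intro j
      unfold far
      by_cases hj : j = 2
      · subst hj; rw [add_e_ne _ _ (by decide)]; simp
      · rw [if_neg hj]
        by_cases hj1 : j = 1
        · subst hj1; rw [add_e_same]; linarith
        · rw [add_e_ne _ _ hj1]; linarith
    · rfl
    · rw [add_e_ne _ _ (by decide)]
  -- compare with the natural box
  have h1 : X k v t + h • e 3 ∈ S := by
    apply hS
    intro j
    by_cases hj : j = 3
    · subst hj; rw [add_e_same]; simp [abs_of_nonneg hh]; nlinarith
    · rw [add_e_ne _ _ hj]; simp; positivity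
  have h2 : y + (k * (B * h)) • e 2 ∈ S := by
    apply hyS
    intro j
    by_cases hj : j = 2
    · subst hj; rw [add_e_same, add_sub_cancel_left, abs_of_nonneg hkBh]; exact hkBh1
    · rw [add_e_ne _ _ hj]; simpa using hBh
  have key := hν.sub _ h1 _ h2 1 h (by
    rw [hy]
    apply le_of4
    · rw [add_e_apply, add_e_apply, if_neg (by decide), if_neg (by decide), X_zero, X_zero]
      nlinarith
    · rw [add_e_apply, add_e_apply, if_neg (by decide), if_neg (by decide), X_one, X_one]
      nlinarith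
    · rw [add_e_apply, add_e_apply, if_neg (by decide), if_pos rfl, X_two, X_two]
      linarith
    · rw [add_e_apply, add_e_apply, if_pos rfl, if_neg (by decide), X_three, X_three]
      nlinarith) (by
    rw [hy, add_e_apply, add_e_apply, if_neg (by decide), if_neg (by decide), X_one, X_one]
    ring) hh (by linarith)
  unfold M; linarith

/-- **Pair (1,3)**, `k > 1`. -/
theorem M_le_of_gt (hν : SubOn ν S C H) {k B h v t : ℝ} (hk1 : 1 ≤ k) (hB : 1 ≤ B)
    (hkB : 1 ≤ (k - 1) * B) (hh : 0 ≤ h) (hH : B * h ≤ H)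
    (hS : Bx (X k v t) ((2 * k + 2) * (B * h)) ⊆ S) :
    M ν h (X k v t) ≤ E ν 1 h (X k v t) - E ν 1 h (X k (v + -(B * h)) (t + k * (B * h)))
      + D ν 0 (B * h) (X k (v + -(B * h)) (t + k * (B * h))) := by
  set y := X k (v + -(B * h)) (t + k * (B * h)) with hy
  have hk : 0 ≤ k := by linarith
  have hBh : 0 ≤ B * h := by positivity
  have hb1 : h ≤ B * h := by nlinarith
  have hkBh : 0 ≤ k * (B * h) := by positivity
  have hbk : h ≤ (k - 1) * (B * h) := by nlinarith
  have hyX : y ∈ Bx (X k v t) ((2 * k + 1) * (B * h)) := by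
    apply X_mem hk
    rw [abs_neg, abs_of_nonneg hBh, abs_of_nonneg hkBh]
    nlinarith
  have hyS : Bx y (B * h) ⊆ S := by
    intro q hq
    apply hS
    intro i
    have a := hq i
    have b := hyX i
    have : q i - X k v t i = (q i - y i) + (y i - X k v t i) := by ring
    rw [this]
    refine (abs_add_le _ _).trans ?_
    linarith
  have hmix : E ν 1 h y - E ν 1 h (y + (B * h) • e 0) ≤ D ν 0 (B * h) y := by
    rw [E_swap]
    apply mix_le_D hν hBh le_rfl hH hyS le_rfl (le_add_e _ hh _)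
    · intro j
      unfold far
      by_cases hj : j = 0
      · subst hj; rw [add_e_ne _ _ (by decide)]; simp
      · rw [if_neg hj]
        by_cases hj1 : j = 1
        · subst hj1; rw [add_e_same]; linarith
        · rw [add_e_ne _ _ hj1]; linarith
    · rfl
    · rw [add_e_ne _ _ (by decide)]
  have h1 : X k v t + h • e 3 ∈ S := by
    apply hS
    intro j
    by_cases hj : j = 3
    · subst hj; rw [add_e_same]; simp [abs_of_nonneg hh]; nlinarith
    · rw [add_e_ne _ _ hj]; simp; positivity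
  have h2 : y + (B * h) • e 0 ∈ S := by
    apply hyS
    intro j
    by_cases hj : j = 0
    · subst hj; rw [add_e_same, add_sub_cancel_left, abs_of_nonneg hBh]
    · rw [add_e_ne _ _ hj]; simpa using hBh
  have key := hν.sub _ h1 _ h2 1 h (by
    rw [hy]
    apply le_of4
    · rw [add_e_apply, add_e_apply, if_neg (by decide), if_pos rfl, X_zero, X_zero]
      nlinarith
    · rw [add_e_apply, add_e_apply, if_neg (by decide), if_neg (by decide), X_one, X_one]
      nlinarith
    · rw [add_e_apply, add_e_apply, if_neg (by decide), if_neg (by decide), X_two, X_two]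
      nlinarith
    · rw [add_e_apply, add_e_apply, if_pos rfl, if_neg (by decide), X_three, X_three]
      nlinarith) (by
    rw [hy, add_e_apply, add_e_apply, if_neg (by decide), if_neg (by decide), X_one, X_one]
    ring) hh (by linarith)
  unfold M; linarith

theorem far_apply (i : Fin 4) (h : ℝ) (p : V4) (j : Fin 4) :
    far i h p j = if j = i then p j else p j + h := rfl

theorem D_one_le (hν : SubOn ν S C H) {h : ℝ} {p : V4} (hh : 0 ≤ h) (hH : h ≤ H)
    (hS : Bx p h ⊆ S) : D ν 1 h p ≤ M ν h p + D ν 0 h p + D ν 2 h p := by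
  have hfar : far 1 h p = p + h • e 3 + h • e 0 + h • e 2 := by
    funext j
    rw [far_apply, add_e_apply, add_e_apply, add_e_apply]
    fin_cases j <;> simp
  have h1 : E ν 1 h (p + h • e 3) - E ν 1 h (p + h • e 3 + h • e 0) ≤ D ν 0 h p := by
    rw [E_swap]
    apply mix_le_D hν hh le_rfl hH hS (le_add_e _ hh _) (le_add_e _ hh _)
    · apply le_of4 <;> rw [far_apply, add_e_apply, add_e_apply] <;> simp [hh]
    · rw [add_e_ne _ _ (by decide)]
    · rw [add_e_ne _ _ (by decide), add_e_ne _ _ (by decide)]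
  have h2 : E ν 1 h (p + h • e 3 + h • e 0) - E ν 1 h (p + h • e 3 + h • e 0 + h • e 2)
      ≤ D ν 2 h p := by
    rw [E_swap]
    apply mix_le_D hν hh le_rfl hH hS
      ((le_add_e p hh 3).trans (le_add_e _ hh 0)) (le_add_e _ hh _)
    · apply le_of4 <;> rw [far_apply, add_e_apply, add_e_apply, add_e_apply] <;> simp
    · rw [add_e_ne _ _ (by decide), add_e_ne _ _ (by decide)]
    · rw [add_e_ne _ _ (by decide), add_e_ne _ _ (by decide), add_e_ne _ _ (by decide)]
  unfold M
  rw [show D ν 1 h p = E ν 1 h p - E ν 1 h (far 1 h p) from rfl, hfar]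
  linarith

theorem D_three_le (hν : SubOn ν S C H) {h : ℝ} {p : V4} (hh : 0 ≤ h) (hH : h ≤ H)
    (hS : Bx p h ⊆ S) : D ν 3 h p ≤ M ν h p + D ν 0 h p + D ν 2 h p := by
  have hfar : far 3 h p = p + h • e 1 + h • e 0 + h • e 2 := by
    funext j
    rw [far_apply, add_e_apply, add_e_apply, add_e_apply]
    fin_cases j <;> simp
  have h0 : E ν 3 h p - E ν 3 h (p + h • e 1) = M ν h p := by
    rw [E_swap]; rfl
  have h1 : E ν 3 h (p + h • e 1) - E ν 3 h (p + h • e 1 + h • e 0) ≤ D ν 0 h p := by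
    rw [E_swap]
    apply mix_le_D hν hh le_rfl hH hS (le_add_e _ hh _) (le_add_e _ hh _)
    · apply le_of4 <;> rw [far_apply, add_e_apply, add_e_apply] <;> simp [hh]
    · rw [add_e_ne _ _ (by decide)]
    · rw [add_e_ne _ _ (by decide), add_e_ne _ _ (by decide)]
  have h2 : E ν 3 h (p + h • e 1 + h • e 0) - E ν 3 h (p + h • e 1 + h • e 0 + h • e 2)
      ≤ D ν 2 h p := by
    rw [E_swap]
    apply mix_le_D hν hh le_rfl hH hS
      ((le_add_e p hh 1).trans (le_add_e _ hh 0)) (le_add_e _ hh _)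
    · apply le_of4 <;> rw [far_apply, add_e_apply, add_e_apply, add_e_apply] <;> simp
    · rw [add_e_ne _ _ (by decide), add_e_ne _ _ (by decide)]
    · rw [add_e_ne _ _ (by decide), add_e_ne _ _ (by decide), add_e_ne _ _ (by decide)]
  rw [show D ν 3 h p = E ν 3 h p - E ν 3 h (far 3 h p) from rfl, hfar]
  linarith

/-- increments at a shifted base point of the window -/
theorem E_near (hν : SubOn ν S C H) {i : Fin 4} {s h : ℝ} {p q : V4} (hs : 0 ≤ s)
    (hsh : s ≤ h) (hH : h ≤ H) (hS : Bx p h ⊆ S) (h1 : p ≤ q) (h2 : q ≤ far i h p)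
    (hi : q i = p i) : |E ν i s q - E ν i s p| ≤ D ν i h p := by
  have hh : 0 ≤ h := hs.trans hsh
  have a1 := mix_le_D hν hs hsh hH hS le_rfl h1 h2 rfl hi
  have hq : q ∈ S := by
    apply hS
    intro j
    have a := h1 j
    have b := h2 j
    rw [far_apply] at b
    rw [abs_le]
    split_ifs at b <;> constructor <;> linarith
  have a2 := hν.sub _ (hS (mem_Bx_self hh)) _ hq i s h1 hi.symm hs (hsh.trans hH)
  rw [abs_le]; constructor <;> linarith

theorem decomp (w : V4) (p : V4) :
    p + w = p + w 0 • e 0 + w 1 • e 1 + w 2 • e 2 + w 3 • e 3 := by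
  funext j
  rw [add_e_apply, add_e_apply, add_e_apply, add_e_apply]
  fin_cases j <;> simp

theorem decomp' (w : V4) (p : V4) :
    p + w = p + w 1 • e 1 + w 3 • e 3 + w 0 • e 0 + w 2 • e 2 := by
  funext j
  rw [add_e_apply, add_e_apply, add_e_apply, add_e_apply]
  fin_cases j <;> simp

/-- **additive separation** on the window `p + [0,h]^4` -/
theorem sep (hν : SubOn ν S C H) {h : ℝ} {p : V4} (hH : h ≤ H) (hS : Bx p h ⊆ S)
    {w : V4} (hw : ∀ i, 0 ≤ w i ∧ w i ≤ h) :
    |ν (p + w) - ν p + (E ν 0 (w 0) p + E ν 1 (w 1) p + E ν 2 (w 2) p + E ν 3 (w 3) p)|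
      ≤ D ν 0 h p + D ν 1 h p + D ν 2 h p + D ν 3 h p := by
  have hh : 0 ≤ h := (hw 0).1.trans (hw 0).2
  have n0 := D_nonneg (i := 0) hν hh hH hS
  have b1 : |E ν 1 (w 1) (p + w 0 • e 0) - E ν 1 (w 1) p| ≤ D ν 1 h p := by
    apply E_near hν (hw 1).1 (hw 1).2 hH hS (le_add_e _ (hw 0).1 _)
    · apply le_of4 <;> rw [far_apply, add_e_apply] <;> simp [(hw 0).2, hh]
    · rw [add_e_ne _ _ (by decide)]
  have b2 : |E ν 2 (w 2) (p + w 0 • e 0 + w 1 • e 1) - E ν 2 (w 2) p| ≤ D ν 2 h p := by
    apply E_near hν (hw 2).1 (hw 2).2 hH hS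
      ((le_add_e _ (hw 0).1 _).trans (le_add_e _ (hw 1).1 _))
    · apply le_of4 <;> rw [far_apply, add_e_apply, add_e_apply] <;>
        simp [(hw 0).2, (hw 1).2, hh]
    · rw [add_e_ne _ _ (by decide), add_e_ne _ _ (by decide)]
  have b3 : |E ν 3 (w 3) (p + w 0 • e 0 + w 1 • e 1 + w 2 • e 2) - E ν 3 (w 3) p|
      ≤ D ν 3 h p := by
    apply E_near hν (hw 3).1 (hw 3).2 hH hS
      (((le_add_e _ (hw 0).1 _).trans (le_add_e _ (hw 1).1 _)).trans (le_add_e _ (hw 2).1 _))
    · apply le_of4 <;> rw [far_apply, add_e_apply, add_e_apply, add_e_apply] <;>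
        simp [(hw 0).2, (hw 1).2, (hw 2).2]
    · rw [add_e_ne _ _ (by decide), add_e_ne _ _ (by decide), add_e_ne _ _ (by decide)]
  have key : ν (p + w) - ν p = -(E ν 0 (w 0) p + E ν 1 (w 1) (p + w 0 • e 0)
      + E ν 2 (w 2) (p + w 0 • e 0 + w 1 • e 1)
      + E ν 3 (w 3) (p + w 0 • e 0 + w 1 • e 1 + w 2 • e 2)) := by
    rw [decomp w p]; unfold E; ring
  rw [key]
  rw [abs_le] at b1 b2 b3 ⊢
  constructor <;> linarith [b1.1, b1.2, b2.1, b2.2, b3.1, b3.2]

/-- **half separation**: the pair `(1,3)` is kept together -/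
theorem halfSep (hν : SubOn ν S C H) {h : ℝ} {p : V4} (hH : h ≤ H) (hS : Bx p h ⊆ S)
    {w : V4} (hw : ∀ i, 0 ≤ w i ∧ w i ≤ h) :
    |ν (p + w) - ν (p + w 1 • e 1 + w 3 • e 3) + (E ν 0 (w 0) p + E ν 2 (w 2) p)|
      ≤ D ν 0 h p + D ν 2 h p := by
  have hh : 0 ≤ h := (hw 0).1.trans (hw 0).2
  have b0 : |E ν 0 (w 0) (p + w 1 • e 1 + w 3 • e 3) - E ν 0 (w 0) p| ≤ D ν 0 h p := by
    apply E_near hν (hw 0).1 (hw 0).2 hH hS
      ((le_add_e _ (hw 1).1 _).trans (le_add_e _ (hw 3).1 _))
    · apply le_of4 <;> rw [far_apply, add_e_apply, add_e_apply] <;>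
        simp [(hw 1).2, (hw 3).2, hh]
    · rw [add_e_ne _ _ (by decide), add_e_ne _ _ (by decide)]
  have b2 : |E ν 2 (w 2) (p + w 1 • e 1 + w 3 • e 3 + w 0 • e 0) - E ν 2 (w 2) p|
      ≤ D ν 2 h p := by
    apply E_near hν (hw 2).1 (hw 2).2 hH hS
      (((le_add_e _ (hw 1).1 _).trans (le_add_e _ (hw 3).1 _)).trans (le_add_e _ (hw 0).1 _))
    · apply le_of4 <;> rw [far_apply, add_e_apply, add_e_apply, add_e_apply] <;>
        simp [(hw 1).2, (hw 3).2, (hw 0).2]
    · rw [add_e_ne _ _ (by decide), add_e_ne _ _ (by decide), add_e_ne _ _ (by decide)]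
  have key : ν (p + w) - ν (p + w 1 • e 1 + w 3 • e 3) =
      -(E ν 0 (w 0) (p + w 1 • e 1 + w 3 • e 3)
      + E ν 2 (w 2) (p + w 1 • e 1 + w 3 • e 3 + w 0 • e 0)) := by
    rw [decomp' w p]; unfold E; ring
  rw [key]
  rw [abs_le] at b0 b2 ⊢
  constructor <;> linarith [b0.1, b0.2, b2.1, b2.2]

end

end Crest.Agent.R138.Dec848
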