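import Crest.Agent.R138.Dec1_848

/-!
# R138: decoupling lemma, measure part (helper848)

For almost every `(v,t)` the defects `D ν i h (X k v t)` are `o(h)` as `h → 0`:
`i = 0, 2` for every `k > 0`, all `i` for `k ≠ 1`.
-/

set_option autoImplicit false

open MeasureTheory Filter Topology Set
open scoped ENNReal

namespace Crest.Agent.R138.Dec848

theorem continuous_X (k : ℝ) : Continuous fun x : ℝ × ℝ => X k x.1 x.2 := by
  refine continuous_pi fun i => ?_
  fin_cases i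
  · exact ((continuous_const.mul continuous_fst).add continuous_snd)
  · exact ((continuous_const.mul continuous_fst).add continuous_snd)
  · exact continuous_snd
  · exact continuous_fst.add continuous_snd

theorem continuous_E {ν : V4 → ℝ} (hc : Continuous ν) (i : Fin 4) (s : ℝ) :
    Continuous (E ν i s) := by
  unfold E; fun_prop

theorem continuous_far (i : Fin 4) (h : ℝ) : Continuous (far i h) := by
  refine continuous_pi fun j => ?_
  unfold far
  split_ifs <;> fun_prop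

theorem continuous_D {ν : V4 → ℝ} (hc : Continuous ν) (i : Fin 4) (h : ℝ) :
    Continuous (D ν i h) :=
  (continuous_E hc i h).sub ((continuous_E hc i h).comp (continuous_far i h))

theorem continuous_M {ν : V4 → ℝ} (hc : Continuous ν) (h : ℝ) : Continuous (M ν h) :=
  (continuous_E hc 1 h).sub ((continuous_E hc 1 h).comp (by fun_prop))

/-- telescoping of a shift in an integral -/
theorem lint_shift {A : Set (ℝ × ℝ)} (hA : MeasurableSet A) (hAv : volume A ≠ ∞) (c : ℝ × ℝ)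
    {G D D' : ℝ × ℝ → ℝ≥0∞} (hG : Measurable G) (hD' : Measurable D')
    {g : ℝ≥0∞} (hg : g ≠ ∞)
    (h1 : ∀ x ∈ A, D x + G (x + c) ≤ G x + D' (x + c)) (h2 : ∀ x ∈ A, G x ≤ g)
    (h3 : ∀ x ∈ A, G (x + c) ≤ g) :
    ∫⁻ x in A, D x ≤ g * volume (A \ (fun x => x - c) ⁻¹' A)
      + ∫⁻ x in (fun x => x - c) ⁻¹' A, D' x := by
  set A' : Set (ℝ × ℝ) := (fun x => x - c) ⁻¹' A with hA'
  have mA' : MeasurableSet A' := (measurable_id.sub_const c) hA
  have hpre : (fun x : ℝ × ℝ => x + c) ⁻¹' A' = A := by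
    ext x; simp [hA']
  have tr : ∀ F : ℝ × ℝ → ℝ≥0∞, Measurable F → ∫⁻ x in A, F (x + c) = ∫⁻ x in A', F x := by
    intro F hF
    have := (measurePreserving_add_right (volume : Measure (ℝ × ℝ)) c).setLIntegral_comp_preimage
      mA' hF
    rwa [hpre] at this
  have hvA' : volume A' = volume A := by
    have := (measurePreserving_add_right (volume : Measure (ℝ × ℝ)) c).measure_preimage
      mA'.nullMeasurableSet
    rw [hpre] at this
    exact this.symm
  have hgA' : ∀ x ∈ A', G x ≤ g := by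
    intro x hx
    have := h3 (x - c) hx
    simpa using this
  have fin : ∫⁻ x in A', G x ≠ ∞ := by
    refine ne_of_lt (lt_of_le_of_lt (setLIntegral_mono measurable_const hgA') ?_)
    rw [setLIntegral_const, hvA']
    exact ENNReal.mul_lt_top hg.lt_top hAv.lt_top
  have s1 : ∫⁻ x in A, D x + G (x + c) ≤ ∫⁻ x in A, G x + D' (x + c) :=
    setLIntegral_mono (hG.add (hD'.comp (measurable_id.add_const c))) h1
  have hGc : Measurable (fun x => G (x + c)) := hG.comp (measurable_id.add_const c)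
  have s2 : ∫⁻ x in A, D x + G (x + c) = (∫⁻ x in A, D x) + ∫⁻ x in A', G x := by
    rw [lintegral_add_right _ hGc, tr G hG]
  have s3 : ∫⁻ x in A, G x + D' (x + c) = (∫⁻ x in A, G x) + ∫⁻ x in A', D' x := by
    rw [lintegral_add_left hG, tr D' hD']
  have s4 : ∫⁻ x in A, G x ≤ (∫⁻ x in A', G x) + g * volume (A \ A') := by
    rw [← lintegral_inter_add_sdiff G A mA']
    refine add_le_add (lintegral_mono_set inter_subset_right) ?_
    refine (setLIntegral_mono measurable_const (fun x hx => h2 x hx.1)).trans ?_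
    rw [setLIntegral_const]
  rw [s2, s3] at s1
  have s5 : (∫⁻ x in A, D x) + ∫⁻ x in A', G x
      ≤ (g * volume (A \ A') + ∫⁻ x in A', D' x) + ∫⁻ x in A', G x := by
    refine s1.trans ?_
    refine (add_le_add s4 le_rfl).trans ?_
    apply le_of_eq; ring
  exact (ENNReal.add_le_add_iff_right fin).1 s5

theorem vol_Icc_diff (a b c : ℝ) :
    volume (Icc a b \ Icc (a + c) (b + c)) ≤ ENNReal.ofReal |c| := by
  rcases le_total 0 c with h | h
  · have : Icc a b \ Icc (a + c) (b + c) ⊆ Icc a (a + c) := by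
      rintro x ⟨⟨h1, h2⟩, h3⟩
      refine ⟨h1, ?_⟩
      by_contra h4
      exact h3 ⟨by linarith [not_le.1 h4], by linarith⟩
    refine (measure_mono this).trans ?_
    rw [Real.volume_Icc, abs_of_nonneg h]
    apply le_of_eq; congr 1; ring
  · have : Icc a b \ Icc (a + c) (b + c) ⊆ Icc (b + c) b := by
      rintro x ⟨⟨h1, h2⟩, h3⟩
      refine ⟨?_, h2⟩
      by_contra h4
      exact h3 ⟨by linarith, by linarith [not_le.1 h4]⟩
    refine (measure_mono this).trans ?_
    rw [Real.volume_Icc, abs_of_nonpos h]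
    apply le_of_eq; congr 1; ring

/-- the rectangle -/
def Rc (v₀ v₁ t₀ t₁ : ℝ) : Set (ℝ × ℝ) := Icc v₀ v₁ ×ˢ Icc t₀ t₁

theorem measurableSet_Rc (v₀ v₁ t₀ t₁ : ℝ) : MeasurableSet (Rc v₀ v₁ t₀ t₁) :=
  measurableSet_Icc.prod measurableSet_Icc

theorem vol_Rc (v₀ v₁ t₀ t₁ : ℝ) :
    volume (Rc v₀ v₁ t₀ t₁) = ENNReal.ofReal (v₁ - v₀) * ENNReal.ofReal (t₁ - t₀) := by
  rw [Rc, Measure.volume_eq_prod, Measure.prod_prod, Real.volume_Icc, Real.volume_Icc]

theorem preimage_Rc (v₀ v₁ t₀ t₁ : ℝ) (c : ℝ × ℝ) :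
    (fun x => x - c) ⁻¹' Rc v₀ v₁ t₀ t₁ = Rc (v₀ + c.1) (v₁ + c.1) (t₀ + c.2) (t₁ + c.2) := by
  ext x
  simp only [Rc, mem_preimage, mem_prod, Prod.fst_sub, Prod.snd_sub, mem_Icc]
  constructor
  · rintro ⟨⟨h1, h2⟩, h3, h4⟩
    exact ⟨⟨by linarith, by linarith⟩, by linarith, by linarith⟩
  · rintro ⟨⟨h1, h2⟩, h3, h4⟩
    exact ⟨⟨by linarith, by linarith⟩, by linarith, by linarith⟩

theorem vol_Rc_diff {v₀ v₁ t₀ t₁ : ℝ} (hv : v₀ ≤ v₁) (ht : t₀ ≤ t₁) (c : ℝ × ℝ) :
    volume (Rc v₀ v₁ t₀ t₁ \ (fun x => x - c) ⁻¹' Rc v₀ v₁ t₀ t₁)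
      ≤ ENNReal.ofReal (|c.1| * (t₁ - t₀) + |c.2| * (v₁ - v₀)) := by
  rw [preimage_Rc]
  have hsub : Rc v₀ v₁ t₀ t₁ \ Rc (v₀ + c.1) (v₁ + c.1) (t₀ + c.2) (t₁ + c.2) ⊆
      (Icc v₀ v₁ \ Icc (v₀ + c.1) (v₁ + c.1)) ×ˢ Icc t₀ t₁ ∪
      Icc v₀ v₁ ×ˢ (Icc t₀ t₁ \ Icc (t₀ + c.2) (t₁ + c.2)) := by
    rintro ⟨v, t⟩ ⟨⟨h1, h2⟩, h3⟩
    by_cases h4 : v ∈ Icc (v₀ + c.1) (v₁ + c.1)
    · right
      refine ⟨h1, h2, fun h5 => h3 ⟨h4, h5⟩⟩
    · left
      exact ⟨⟨h1, h4⟩, h2⟩
  refine (measure_mono hsub).trans ((measure_union_le _ _).trans ?_)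
  rw [ENNReal.ofReal_add (by have := abs_nonneg c.1; nlinarith)
    (by have := abs_nonneg c.2; nlinarith)]
  refine add_le_add ?_ ?_
  · rw [Measure.volume_eq_prod, Measure.prod_prod, Real.volume_Icc,
      ENNReal.ofReal_mul (abs_nonneg _)]
    gcongr
    exact vol_Icc_diff _ _ _
  · rw [Measure.volume_eq_prod, Measure.prod_prod, Real.volume_Icc, mul_comm,
      ENNReal.ofReal_mul (abs_nonneg _)]
    gcongr
    exact vol_Icc_diff _ _ _

section

variable {ν : V4 → ℝ} {S : Set V4} {C H : ℝ}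

theorem int_D_two (hν : SubOn ν S C H) (hc : Continuous ν) {k B h v₀ v₁ t₀ t₁ : ℝ} (hk : 0 ≤ k)
    (hB : 1 ≤ B) (hkB : 1 ≤ k * B) (hh : 0 ≤ h) (hH : h ≤ H) (hv : v₀ ≤ v₁) (ht : t₀ ≤ t₁)
    (hS : ∀ x ∈ Rc v₀ v₁ t₀ t₁, Bx (X k x.1 x.2) ((1 + k) * (B * h) + h) ⊆ S) :
    ∫⁻ x in Rc v₀ v₁ t₀ t₁, ENNReal.ofReal (D ν 2 h (X k x.1 x.2))
      ≤ ENNReal.ofReal (C * h) * ENNReal.ofReal (B * h * (t₁ - t₀)) := by
  have hBh : 0 ≤ B * h := by positivity
  have key := lint_shift (A := Rc v₀ v₁ t₀ t₁) (measurableSet_Rc _ _ _ _)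
    (by rw [vol_Rc]; exact ENNReal.mul_ne_top ENNReal.ofReal_ne_top ENNReal.ofReal_ne_top)
    ((B * h, 0) : ℝ × ℝ)
    (G := fun x => ENNReal.ofReal (E ν 2 h (X k x.1 x.2)))
    (D := fun x => ENNReal.ofReal (D ν 2 h (X k x.1 x.2)))
    (D' := fun _ => 0)
    (((continuous_E hc 2 h).comp (continuous_X k)).measurable.ennreal_ofReal)
    measurable_const (g := ENNReal.ofReal (C * h)) ENNReal.ofReal_ne_top
    (by
      intro x hx
      have hx2 := D_two_le hν hk hB hkB hh hH (hS x hx)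
      have hmem : X k (x.1 + B * h) (x.2 + 0) ∈ S := by
        apply hS x hx
        apply X_mem hk
        rw [abs_of_nonneg hBh, abs_zero]; nlinarith
      have h0 := hν.nonneg _ hmem 2 h hh hH
      have hx0 : Bx (X k x.1 x.2) h ⊆ S := by
        intro q hq
        apply hS x hx
        intro i
        refine (hq i).trans ?_
        nlinarith
      have hD0 := D_nonneg (i := 2) hν hh hH hx0
      simp only [Prod.fst_add, Prod.snd_add, add_zero]
      rw [add_zero] at hx2 h0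
      rw [← ENNReal.ofReal_add hD0 h0]
      exact ENNReal.ofReal_le_ofReal (by linarith))
    (by
      intro x hx
      apply ENNReal.ofReal_le_ofReal
      exact hν.le _ (hS x hx (mem_Bx_self (by nlinarith))) 2 h hh hH)
    (by
      intro x hx
      apply ENNReal.ofReal_le_ofReal
      have hmem : X k (x.1 + B * h) (x.2 + 0) ∈ S := by
        apply hS x hx
        apply X_mem hk
        rw [abs_of_nonneg hBh, abs_zero]; nlinarith
      exact hν.le _ hmem 2 h hh hH)
  refine key.trans ?_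
  rw [lintegral_zero, add_zero]
  gcongr
  refine (vol_Rc_diff hv ht _).trans ?_
  apply ENNReal.ofReal_le_ofReal
  simp [abs_of_nonneg hBh]

theorem int_D_zero (hν : SubOn ν S C H) (hc : Continuous ν) {k B h v₀ v₁ t₀ t₁ : ℝ} (hk : 0 ≤ k)
    (hB : 1 ≤ B) (hkB : 1 ≤ k * B) (hh : 0 ≤ h) (hH : h ≤ H) (hv : v₀ ≤ v₁) (ht : t₀ ≤ t₁)
    (hS : ∀ x ∈ Rc v₀ v₁ t₀ t₁, Bx (X k x.1 x.2) (2 * (1 + k) * (B * h) + h) ⊆ S) :
    ∫⁻ x in Rc v₀ v₁ t₀ t₁, ENNReal.ofReal (D ν 0 h (X k x.1 x.2))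
      ≤ ENNReal.ofReal (C * h) *
        ENNReal.ofReal (B * h * (t₁ - t₀) + (1 + k) * (B * h) * (v₁ - v₀)) := by
  have hBh : 0 ≤ B * h := by positivity
  have hkBh : 0 ≤ (1 + k) * (B * h) := by positivity
  have hmem : ∀ x ∈ Rc v₀ v₁ t₀ t₁, X k (x.1 + -(B * h)) (x.2 + (1 + k) * (B * h)) ∈ S := by
    intro x hx
    apply hS x hx
    apply X_mem hk
    rw [abs_neg, abs_of_nonneg hBh, abs_of_nonneg hkBh]; nlinarith
  have key := lint_shift (A := Rc v₀ v₁ t₀ t₁) (measurableSet_Rc _ _ _ _)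
    (by rw [vol_Rc]; exact ENNReal.mul_ne_top ENNReal.ofReal_ne_top ENNReal.ofReal_ne_top)
    ((-(B * h), (1 + k) * (B * h)) : ℝ × ℝ)
    (G := fun x => ENNReal.ofReal (E ν 0 h (X k x.1 x.2)))
    (D := fun x => ENNReal.ofReal (D ν 0 h (X k x.1 x.2)))
    (D' := fun _ => 0)
    (((continuous_E hc 0 h).comp (continuous_X k)).measurable.ennreal_ofReal)
    measurable_const (g := ENNReal.ofReal (C * h)) ENNReal.ofReal_ne_top
    (by
      intro x hx
      have hx2 := D_zero_le hν hk hB hkB hh hH (hS x hx)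
      have h0 := hν.nonneg _ (hmem x hx) 0 h hh hH
      have hx0 : Bx (X k x.1 x.2) h ⊆ S := by
        intro q hq
        apply hS x hx
        intro i
        refine (hq i).trans ?_
        nlinarith
      have hD0 := D_nonneg (i := 0) hν hh hH hx0
      simp only [Prod.fst_add, Prod.snd_add, add_zero]
      rw [← ENNReal.ofReal_add hD0 h0]
      exact ENNReal.ofReal_le_ofReal (by linarith))
    (by
      intro x hx
      apply ENNReal.ofReal_le_ofReal
      exact hν.le _ (hS x hx (mem_Bx_self (by nlinarith))) 0 h hh hH)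
    (by
      intro x hx
      apply ENNReal.ofReal_le_ofReal
      exact hν.le _ (hmem x hx) 0 h hh hH)
  refine key.trans ?_
  rw [lintegral_zero, add_zero]
  gcongr
  refine (vol_Rc_diff hv ht _).trans ?_
  apply ENNReal.ofReal_le_ofReal
  simp only [abs_neg, abs_of_nonneg hBh, abs_of_nonneg hkBh]
  exact le_rfl

theorem Bx_trans {p q : V4} {r r' : ℝ} (h : q ∈ Bx p r) : Bx q r' ⊆ Bx p (r + r') := by
  intro z hz i
  have a := hz i
  have b := h i
  have : z i - p i = (z i - q i) + (q i - p i) := by ring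
  rw [this]
  refine (abs_add_le _ _).trans ?_
  linarith

theorem Bx_mono {p : V4} {r r' : ℝ} (h : r ≤ r') : Bx p r ⊆ Bx p r' := fun _ hq i => (hq i).trans h

theorem int_M_lt (hν : SubOn ν S C H) (hc : Continuous ν) {k B h v₀ v₁ t₀ t₁ : ℝ} (hk : 0 ≤ k)
    (hk1 : k ≤ 1)
    (hB : 1 ≤ B) (hkB : 1 ≤ k * B) (hkB' : 1 ≤ (1 - k) * B) (hh : 0 ≤ h) (hH : B * h ≤ H)
    (hv : v₀ ≤ v₁) (ht : t₀ ≤ t₁)
    (hS : ∀ x ∈ Rc v₀ v₁ t₀ t₁, Bx (X k x.1 x.2) (6 * B * (B * h)) ⊆ S) :
    ∫⁻ x in Rc v₀ v₁ t₀ t₁, ENNReal.ofReal (M ν h (X k x.1 x.2))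
      ≤ ENNReal.ofReal (C * h) *
        ENNReal.ofReal (B * h * (t₁ - t₀) + k * (B * h) * (v₁ - v₀))
        + ENNReal.ofReal (C * (B * h)) * ENNReal.ofReal (B * (B * h) * (t₁ - t₀)) := by
  have hBh : 0 ≤ B * h := by positivity
  have hB0 : 0 ≤ B := by linarith
  have hkBh : 0 ≤ k * (B * h) := by positivity
  have hkBh1 : k * (B * h) ≤ B * h := by nlinarith
  have hBB : B * h ≤ B * (B * h) := by nlinarith
  have hb1 : h ≤ B * h := by nlinarith
  have hhH : h ≤ H := hb1.trans hH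
  have hyX : ∀ x : ℝ × ℝ, X k (x.1 + B * h) (x.2 + -(k * (B * h))) ∈
      Bx (X k x.1 x.2) (3 * (B * h)) := by
    intro x
    apply X_mem hk
    rw [abs_neg, abs_of_nonneg hBh, abs_of_nonneg hkBh]; nlinarith
  have hmem : ∀ x ∈ Rc v₀ v₁ t₀ t₁, X k (x.1 + B * h) (x.2 + -(k * (B * h))) ∈ S := by
    intro x hx
    exact hS x hx (Bx_mono (by nlinarith) (hyX x))
  have hx0 : ∀ x ∈ Rc v₀ v₁ t₀ t₁, Bx (X k x.1 x.2) h ⊆ S := fun x hx =>
    (Bx_mono (by nlinarith)).trans (hS x hx)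
  have key := lint_shift (A := Rc v₀ v₁ t₀ t₁) (measurableSet_Rc _ _ _ _)
    (by rw [vol_Rc]; exact ENNReal.mul_ne_top ENNReal.ofReal_ne_top ENNReal.ofReal_ne_top)
    ((B * h, -(k * (B * h))) : ℝ × ℝ)
    (G := fun x => ENNReal.ofReal (E ν 1 h (X k x.1 x.2)))
    (D := fun x => ENNReal.ofReal (M ν h (X k x.1 x.2)))
    (D' := fun x => ENNReal.ofReal (D ν 2 (B * h) (X k x.1 x.2)))
    (((continuous_E hc 1 h).comp (continuous_X k)).measurable.ennreal_ofReal)
    (((continuous_D hc 2 (B * h)).comp (continuous_X k)).measurable.ennreal_ofReal)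
    (g := ENNReal.ofReal (C * h)) ENNReal.ofReal_ne_top
    (by
      intro x hx
      have hx2 := M_le_of_lt hν hk hB hkB' hh hH
        ((Bx_mono (by nlinarith)).trans (hS x hx))
      have h0 := hν.nonneg _ (hmem x hx) 1 h hh hhH
      have hM0 : 0 ≤ M ν h (X k x.1 x.2) := by
        have := hν.sub _ (hS x hx (mem_Bx_self (by positivity))) _
          (hx0 x hx (show X k x.1 x.2 + h • e 3 ∈ _ by
            intro j; rw [add_e_apply]; split_ifs <;> simp [abs_of_nonneg hh, hh])) 1 h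
          (le_add_e _ hh _) (by rw [add_e_ne _ _ (by decide)]) hh hhH
        unfold M; linarith
      have hD0 : 0 ≤ D ν 2 (B * h) (X k (x.1 + B * h) (x.2 + -(k * (B * h)))) := by
        apply D_nonneg hν hBh hH
        refine (Bx_trans (hyX x)).trans ((Bx_mono (by nlinarith)).trans (hS x hx))
      have hE0 := hν.nonneg _ (hS x hx (mem_Bx_self (by positivity))) 1 h hh hhH
      simp only [Prod.fst_add, Prod.snd_add]
      rw [← ENNReal.ofReal_add hM0 h0, ← ENNReal.ofReal_add hE0 hD0]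
      exact ENNReal.ofReal_le_ofReal (by linarith))
    (by
      intro x hx
      apply ENNReal.ofReal_le_ofReal
      exact hν.le _ (hS x hx (mem_Bx_self (by positivity))) 1 h hh hhH)
    (by
      intro x hx
      apply ENNReal.ofReal_le_ofReal
      exact hν.le _ (hmem x hx) 1 h hh hhH)
  refine key.trans ?_
  refine add_le_add ?_ ?_
  · gcongr
    refine (vol_Rc_diff hv ht _).trans ?_
    apply ENNReal.ofReal_le_ofReal
    simp only [abs_neg, abs_of_nonneg hBh, abs_of_nonneg hkBh]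
    exact le_rfl
  · rw [preimage_Rc]
    refine (int_D_two hν hc hk hB hkB hBh hH (by simpa using hv) (by simpa using ht) ?_).trans ?_
    · intro x hx
      rw [← preimage_Rc] at hx
      have hx' : (x - ((B * h, -(k * (B * h))) : ℝ × ℝ)) ∈ Rc v₀ v₁ t₀ t₁ := hx
      have h1 := hyX (x - ((B * h, -(k * (B * h))) : ℝ × ℝ))
      simp only [Prod.fst_sub, Prod.snd_sub, sub_add_cancel] at h1
      refine (Bx_trans h1).trans ((Bx_mono ?_).trans (hS _ hx'))
      nlinarith
    · simp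

theorem int_M_gt (hν : SubOn ν S C H) (hc : Continuous ν) {k B h v₀ v₁ t₀ t₁ : ℝ}
    (hk1 : 1 ≤ k)
    (hB : 1 ≤ B) (hkB' : 1 ≤ (k - 1) * B) (hh : 0 ≤ h) (hH : B * h ≤ H)
    (hv : v₀ ≤ v₁) (ht : t₀ ≤ t₁)
    (hS : ∀ x ∈ Rc v₀ v₁ t₀ t₁, Bx (X k x.1 x.2) (6 * k * B * (B * h)) ⊆ S) :
    ∫⁻ x in Rc v₀ v₁ t₀ t₁, ENNReal.ofReal (M ν h (X k x.1 x.2))
      ≤ ENNReal.ofReal (C * h) *
        ENNReal.ofReal (B * h * (t₁ - t₀) + k * (B * h) * (v₁ - v₀))
        + ENNReal.ofReal (C * (B * h)) *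
          ENNReal.ofReal (B * (B * h) * (t₁ - t₀) + (1 + k) * (B * (B * h)) * (v₁ - v₀)) := by
  have hk : 0 ≤ k := by linarith
  have hBh : 0 ≤ B * h := by positivity
  have hB0 : 0 ≤ B := by linarith
  have hkBh : 0 ≤ k * (B * h) := by positivity
  have hkBh1 : B * h ≤ k * (B * h) := by nlinarith
  have hBB : B * h ≤ B * (B * h) := by nlinarith
  have hkBB : k * (B * h) ≤ k * (B * (B * h)) := by nlinarith
  have hkBB' : B * (B * h) ≤ k * (B * (B * h)) := by
    have : 0 ≤ B * (B * h) := by positivity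
    nlinarith
  have hb1 : h ≤ B * h := by nlinarith
  have hhH : h ≤ H := hb1.trans hH
  have e6 : 6 * k * B * (B * h) = 6 * (k * (B * (B * h))) := by ring
  have hyX : ∀ x : ℝ × ℝ, X k (x.1 + -(B * h)) (x.2 + k * (B * h)) ∈
      Bx (X k x.1 x.2) ((2 * k + 1) * (B * h)) := by
    intro x
    apply X_mem hk
    rw [abs_neg, abs_of_nonneg hBh, abs_of_nonneg hkBh]; nlinarith
  have hmem : ∀ x ∈ Rc v₀ v₁ t₀ t₁, X k (x.1 + -(B * h)) (x.2 + k * (B * h)) ∈ S := by
    intro x hx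
    exact hS x hx (Bx_mono (by rw [e6]; nlinarith) (hyX x))
  have hx0 : ∀ x ∈ Rc v₀ v₁ t₀ t₁, Bx (X k x.1 x.2) h ⊆ S := fun x hx =>
    (Bx_mono (by rw [e6]; nlinarith)).trans (hS x hx)
  have key := lint_shift (A := Rc v₀ v₁ t₀ t₁) (measurableSet_Rc _ _ _ _)
    (by rw [vol_Rc]; exact ENNReal.mul_ne_top ENNReal.ofReal_ne_top ENNReal.ofReal_ne_top)
    ((-(B * h), k * (B * h)) : ℝ × ℝ)
    (G := fun x => ENNReal.ofReal (E ν 1 h (X k x.1 x.2)))
    (D := fun x => ENNReal.ofReal (M ν h (X k x.1 x.2)))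
    (D' := fun x => ENNReal.ofReal (D ν 0 (B * h) (X k x.1 x.2)))
    (((continuous_E hc 1 h).comp (continuous_X k)).measurable.ennreal_ofReal)
    (((continuous_D hc 0 (B * h)).comp (continuous_X k)).measurable.ennreal_ofReal)
    (g := ENNReal.ofReal (C * h)) ENNReal.ofReal_ne_top
    (by
      intro x hx
      have hx2 := M_le_of_gt hν hk1 hB hkB' hh hH
        ((Bx_mono (by rw [e6]; nlinarith)).trans (hS x hx))
      have h0 := hν.nonneg _ (hmem x hx) 1 h hh hhH
      have hM0 : 0 ≤ M ν h (X k x.1 x.2) := by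
        have := hν.sub _ (hS x hx (mem_Bx_self (by positivity))) _
          (hx0 x hx (show X k x.1 x.2 + h • e 3 ∈ _ by
            intro j; rw [add_e_apply]; split_ifs <;> simp [abs_of_nonneg hh, hh])) 1 h
          (le_add_e _ hh _) (by rw [add_e_ne _ _ (by decide)]) hh hhH
        unfold M; linarith
      have hD0 : 0 ≤ D ν 0 (B * h) (X k (x.1 + -(B * h)) (x.2 + k * (B * h))) := by
        apply D_nonneg hν hBh hH
        refine (Bx_trans (hyX x)).trans ((Bx_mono (by rw [e6]; nlinarith)).trans (hS x hx))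
      have hE0 := hν.nonneg _ (hS x hx (mem_Bx_self (by positivity))) 1 h hh hhH
      simp only [Prod.fst_add, Prod.snd_add]
      rw [← ENNReal.ofReal_add hM0 h0, ← ENNReal.ofReal_add hE0 hD0]
      exact ENNReal.ofReal_le_ofReal (by linarith))
    (by
      intro x hx
      apply ENNReal.ofReal_le_ofReal
      exact hν.le _ (hS x hx (mem_Bx_self (by positivity))) 1 h hh hhH)
    (by
      intro x hx
      apply ENNReal.ofReal_le_ofReal
      exact hν.le _ (hmem x hx) 1 h hh hhH)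
  refine key.trans ?_
  refine add_le_add ?_ ?_
  · gcongr
    refine (vol_Rc_diff hv ht _).trans ?_
    apply ENNReal.ofReal_le_ofReal
    simp only [abs_neg, abs_of_nonneg hBh, abs_of_nonneg hkBh]
    exact le_rfl
  · rw [preimage_Rc]
    refine (int_D_zero hν hc hk hB (by nlinarith) hBh hH (by simpa using hv)
      (by simpa using ht) ?_).trans ?_
    · intro x hx
      rw [← preimage_Rc] at hx
      have hx' : (x - ((-(B * h), k * (B * h)) : ℝ × ℝ)) ∈ Rc v₀ v₁ t₀ t₁ := hx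
      have h1 := hyX (x - ((-(B * h), k * (B * h)) : ℝ × ℝ))
      simp only [Prod.fst_sub, Prod.snd_sub, sub_add_cancel] at h1
      refine (Bx_trans h1).trans ((Bx_mono ?_).trans (hS _ hx'))
      rw [e6]; nlinarith
    · simp

theorem D_mono (hν : SubOn ν S C H) {i : Fin 4} {h h' : ℝ} {p : V4} (hh : 0 ≤ h) (hhh : h ≤ h')
    (hH : h' ≤ H) (hS : Bx p h' ⊆ S) : D ν i h p ≤ D ν i h' p := by
  apply mix_le_D hν hh hhh hH hS le_rfl _ _ rfl
  · rw [far_apply, if_pos rfl]
  · intro j; rw [far_apply]; split_ifs <;> linarith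
  · intro j; rw [far_apply, far_apply]; split_ifs <;> linarith

theorem M_nonneg (hν : SubOn ν S C H) {h : ℝ} {p : V4} (hh : 0 ≤ h)
    (hH : h ≤ H) (hS : Bx p h ⊆ S) : 0 ≤ M ν h p := by
  have := hν.sub _ (hS (mem_Bx_self hh)) _
    (hS (show p + h • e 3 ∈ _ by
      intro j; rw [add_e_apply]; split_ifs <;> simp [abs_of_nonneg hh, hh])) 1 h
    (le_add_e _ hh _) (by rw [add_e_ne _ _ (by decide)]) hh hH
  unfold M; linarith

theorem M_mono (hν : SubOn ν S C H) {h h' : ℝ} {p : V4} (hh : 0 ≤ h) (hhh : h ≤ h')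
    (hH : h' ≤ H) (hS : Bx p h' ⊆ S) : M ν h p ≤ M ν h' p := by
  have hh' : 0 ≤ h' := hh.trans hhh
  have m1 : p + h • e 3 ∈ S := by
    apply hS
    intro j; rw [add_e_apply]; split_ifs <;> simp [abs_of_nonneg hh, hhh, hh']
  have m2 : p + h' • e 3 ∈ S := by
    apply hS
    intro j; rw [add_e_apply]; split_ifs <;> simp [abs_of_nonneg hh', hh']
  have m3 : p + h • e 1 ∈ S := by
    apply hS
    intro j; rw [add_e_apply]; split_ifs <;> simp [abs_of_nonneg hh, hhh, hh']
  have m4 : p + h' • e 3 + h • e 1 ∈ S := by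
    apply hS
    intro j; rw [add_e_apply, add_e_apply]
    by_cases h1 : j = 1
    · subst h1; simp [abs_of_nonneg hh, hhh]
    · rw [if_neg h1]; split_ifs <;> simp [abs_of_nonneg hh', hh']
  have a1 := hν.sub _ m1 _ m2 1 h (by
    intro j; rw [add_e_apply, add_e_apply]; split_ifs <;> linarith)
    (by rw [add_e_ne _ _ (by decide), add_e_ne _ _ (by decide)]) hh (hhh.trans hH)
  have a2 := diff_mono hν (i := 1) hh hhh hH m3 m4 (le_add_e p hh' 3)
    (by rw [add_e_ne _ _ (by decide)])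
  unfold M; linarith

/-- summable dyadic integrals of a monotone family give an a.e. limit -/
theorem ae_tendsto_of_int {A : Set (ℝ × ℝ)} (hA : MeasurableSet A) {T : ℝ → ℝ × ℝ → ℝ}
    (hm : ∀ h, Measurable (T h)) {h₀ K : ℝ} (h₀pos : 0 < h₀) (hK : 0 ≤ K)
    (nonneg : ∀ h, 0 < h → h ≤ h₀ → ∀ x ∈ A, 0 ≤ T h x)
    (mono : ∀ h h', 0 < h → h ≤ h' → h' ≤ h₀ → ∀ x ∈ A, T h x ≤ T h' x)
    (bound : ∀ h, 0 < h → h ≤ h₀ → ∫⁻ x in A, ENNReal.ofReal (T h x) ≤ ENNReal.ofReal (K * h ^ 2)) :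
    ∀ᵐ x ∂(volume.restrict A), Tendsto (fun h => T h x / h) (𝓝[>] 0) (𝓝 0) := by
  set a : ℕ → ℝ := fun n => (1 / 2 : ℝ) ^ n * h₀ with ha
  have apos : ∀ n, 0 < a n := fun n => by positivity
  have ale : ∀ n, a n ≤ h₀ := fun n => by
    have : (1 / 2 : ℝ) ^ n ≤ 1 := pow_le_one₀ (by norm_num) (by norm_num)
    simp only [ha]; nlinarith
  have hmeas : ∀ n, Measurable fun x => ENNReal.ofReal (T (a n) x / a n) := fun n =>
    ((hm _).div_const _).ennreal_ofReal
  have hint : ∀ n, ∫⁻ x in A, ENNReal.ofReal (T (a n) x / a n) ≤ ENNReal.ofReal (K * a n) := by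
    intro n
    have h1 : ∀ x, ENNReal.ofReal (T (a n) x / a n) =
        ENNReal.ofReal (1 / a n) * ENNReal.ofReal (T (a n) x) := by
      intro x
      rw [← ENNReal.ofReal_mul (by have := apos n; positivity)]
      congr 1; ring
    simp_rw [h1]
    rw [lintegral_const_mul _ (hm _).ennreal_ofReal]
    refine (mul_le_mul_right (bound _ (apos n) (ale n)) _).trans ?_
    rw [← ENNReal.ofReal_mul (by have := apos n; positivity)]
    apply ENNReal.ofReal_le_ofReal
    have := apos n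
    apply le_of_eq; field_simp
  have hsum : ∫⁻ x in A, ∑' n, ENNReal.ofReal (T (a n) x / a n) ≠ ∞ := by
    rw [lintegral_tsum (fun n => (hmeas n).aemeasurable)]
    refine ne_of_lt (lt_of_le_of_lt (ENNReal.tsum_le_tsum hint) ?_)
    have hs : Summable fun n => K * a n := by
      simp only [ha]
      have := (summable_geometric_of_lt_one (by norm_num : (0:ℝ) ≤ 1 / 2) (by norm_num)).mul_right h₀
      exact this.mul_left K
    rw [← ENNReal.ofReal_tsum_of_nonneg (fun n => by have := apos n; positivity) hs]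
    exact ENNReal.ofReal_lt_top
  have hae : ∀ᵐ x ∂(volume.restrict A), ∑' n, ENNReal.ofReal (T (a n) x / a n) < ∞ :=
    ae_lt_top (Measurable.tsum hmeas) hsum
  filter_upwards [hae, ae_restrict_mem hA] with x hx hxA
  have h1 : Tendsto (fun n => ENNReal.ofReal (T (a n) x / a n)) atTop (𝓝 0) :=
    ENNReal.tendsto_atTop_zero_of_tsum_ne_top hx.ne
  have h2 : Tendsto (fun n => T (a n) x / a n) atTop (𝓝 0) := by
    have h3 := (ENNReal.tendsto_toReal ENNReal.zero_ne_top).comp h1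
    refine (h3.congr fun n => ?_)
    simp only [Function.comp]
    rw [ENNReal.toReal_ofReal]
    exact div_nonneg (nonneg _ (apos n) (ale n) x hxA) (apos n).le
  rw [Metric.tendsto_nhdsWithin_nhds]
  intro ε hε
  obtain ⟨N, hN⟩ := (Metric.tendsto_atTop.1 h2) (ε / 2) (by positivity)
  refine ⟨a N, apos N, fun {h} hh hd => ?_⟩
  have hh' : 0 < h := hh
  rw [Real.dist_eq, sub_zero, abs_of_pos hh'] at hd
  have hhh0 : h / h₀ ≤ 1 := by rw [div_le_one h₀pos]; linarith [ale N]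
  obtain ⟨n, hn1, hn2⟩ := exists_nat_pow_near_of_lt_one (div_pos hh' h₀pos) hhh0
    (by norm_num : (0:ℝ) < 1 / 2) (by norm_num)
  rw [lt_div_iff₀ h₀pos] at hn1
  rw [div_le_iff₀ h₀pos] at hn2
  have hnN : N ≤ n := by
    by_contra hc
    have h5 : n + 1 ≤ N := by omega
    have : a N ≤ a (n + 1) := by
      simp only [ha]
      gcongr ?_ * h₀
      exact pow_le_pow_of_le_one (by norm_num) (by norm_num) h5
    have h6 : a (n + 1) < h := hn1
    linarith
  have h7 := hN n hnN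
  rw [Real.dist_eq, sub_zero, abs_of_nonneg
    (div_nonneg (nonneg _ (apos n) (ale n) x hxA) (apos n).le)] at h7
  have h8 : T h x ≤ T (a n) x := mono h (a n) hh' hn2 (ale n) x hxA
  have h9 : 0 ≤ T h x := nonneg h hh' (by linarith [ale N]) x hxA
  rw [Real.dist_eq, sub_zero, abs_of_nonneg (div_nonneg h9 hh'.le), div_lt_iff₀ hh']
  rw [div_lt_iff₀ (apos n)] at h7
  have h10 : a (n + 1) = a n / 2 := by simp only [ha]; ring
  have h11 : a (n + 1) < h := hn1
  nlinarith

/-- the region hypothesis -/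
theorem ae_D_two (hν : SubOn ν S C H) (hc : Continuous ν) (hC : 0 ≤ C) (hH : 0 < H)
    {k r v₀ v₁ t₀ t₁ : ℝ} (hk : 0 < k) (hr : 0 < r) (hv : v₀ ≤ v₁) (ht : t₀ ≤ t₁)
    (hS : ∀ x ∈ Rc v₀ v₁ t₀ t₁, Bx (X k x.1 x.2) r ⊆ S) :
    ∀ᵐ x ∂(volume.restrict (Rc v₀ v₁ t₀ t₁)),
      Tendsto (fun h => D ν 2 h (X k x.1 x.2) / h) (𝓝[>] 0) (𝓝 0) := by
  set B : ℝ := 1 + 1 / k with hB
  have hB1 : 1 ≤ B := by have : 0 < 1 / k := by positivity
                         linarith
  have hkB : 1 ≤ k * B := by rw [hB]; field_simp; linarith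
  set h₀ : ℝ := min H (r / ((1 + k) * B + 1)) with hh₀
  have hden : 0 < (1 + k) * B + 1 := by positivity
  have hpos : 0 < h₀ := lt_min hH (by positivity)
  have hle : ∀ h, h ≤ h₀ → (1 + k) * (B * h) + h ≤ r := by
    intro h hh
    have := hh.trans (min_le_right _ _)
    rw [le_div_iff₀ hden] at this
    nlinarith
  have hx : ∀ h, 0 < h → h ≤ h₀ → ∀ x ∈ Rc v₀ v₁ t₀ t₁, Bx (X k x.1 x.2) h ⊆ S := by
    intro h hh hh2 x hx
    refine (Bx_mono ?_).trans (hS x hx)
    have := hle h hh2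
    have : 0 ≤ (1 + k) * (B * h) := by positivity
    linarith
  refine ae_tendsto_of_int (measurableSet_Rc _ _ _ _)
    (T := fun h x => D ν 2 h (X k x.1 x.2))
    (fun h => ((continuous_D hc 2 h).comp (continuous_X k)).measurable) hpos
    (K := C * (B * (t₁ - t₀))) ?_ ?_ ?_ ?_
  · have : 0 ≤ t₁ - t₀ := by linarith
    positivity
  · intro h hh hh2 x hxA
    exact D_nonneg hν hh.le (hh2.trans (min_le_left _ _)) (hx h hh hh2 x hxA)
  · intro h h' hh hhh hh2 x hxA
    exact D_mono hν hh.le hhh (hh2.trans (min_le_left _ _)) (hx h' (hh.trans_le hhh) hh2 x hxA)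
  · intro h hh hh2
    refine (int_D_two hν hc hk.le hB1 hkB hh.le (hh2.trans (min_le_left _ _)) hv ht ?_).trans ?_
    · intro x hxA
      exact (Bx_mono (hle h hh2)).trans (hS x hxA)
    · rw [← ENNReal.ofReal_mul (by positivity)]
      apply ENNReal.ofReal_le_ofReal
      apply le_of_eq; ring

theorem ae_D_zero (hν : SubOn ν S C H) (hc : Continuous ν) (hC : 0 ≤ C) (hH : 0 < H)
    {k r v₀ v₁ t₀ t₁ : ℝ} (hk : 0 < k) (hr : 0 < r) (hv : v₀ ≤ v₁) (ht : t₀ ≤ t₁)
    (hS : ∀ x ∈ Rc v₀ v₁ t₀ t₁, Bx (X k x.1 x.2) r ⊆ S) :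
    ∀ᵐ x ∂(volume.restrict (Rc v₀ v₁ t₀ t₁)),
      Tendsto (fun h => D ν 0 h (X k x.1 x.2) / h) (𝓝[>] 0) (𝓝 0) := by
  set B : ℝ := 1 + 1 / k with hB
  have hB1 : 1 ≤ B := by have : 0 < 1 / k := by positivity
                         linarith
  have hkB : 1 ≤ k * B := by rw [hB]; field_simp; linarith
  set h₀ : ℝ := min H (r / (2 * (1 + k) * B + 1)) with hh₀
  have hden : 0 < 2 * (1 + k) * B + 1 := by positivity
  have hpos : 0 < h₀ := lt_min hH (by positivity)
  have hle : ∀ h, h ≤ h₀ → 2 * (1 + k) * (B * h) + h ≤ r := by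
    intro h hh
    have := hh.trans (min_le_right _ _)
    rw [le_div_iff₀ hden] at this
    nlinarith
  have hx : ∀ h, 0 < h → h ≤ h₀ → ∀ x ∈ Rc v₀ v₁ t₀ t₁, Bx (X k x.1 x.2) h ⊆ S := by
    intro h hh hh2 x hx
    refine (Bx_mono ?_).trans (hS x hx)
    have := hle h hh2
    have : 0 ≤ 2 * (1 + k) * (B * h) := by positivity
    linarith
  refine ae_tendsto_of_int (measurableSet_Rc _ _ _ _)
    (T := fun h x => D ν 0 h (X k x.1 x.2))
    (fun h => ((continuous_D hc 0 h).comp (continuous_X k)).measurable) hpos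
    (K := C * (B * (t₁ - t₀) + (1 + k) * B * (v₁ - v₀))) ?_ ?_ ?_ ?_
  · have : 0 ≤ t₁ - t₀ := by linarith
    have : 0 ≤ v₁ - v₀ := by linarith
    positivity
  · intro h hh hh2 x hxA
    exact D_nonneg hν hh.le (hh2.trans (min_le_left _ _)) (hx h hh hh2 x hxA)
  · intro h h' hh hhh hh2 x hxA
    exact D_mono hν hh.le hhh (hh2.trans (min_le_left _ _)) (hx h' (hh.trans_le hhh) hh2 x hxA)
  · intro h hh hh2
    refine (int_D_zero hν hc hk.le hB1 hkB hh.le (hh2.trans (min_le_left _ _)) hv ht ?_).trans ?_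
    · intro x hxA
      exact (Bx_mono (hle h hh2)).trans (hS x hxA)
    · rw [← ENNReal.ofReal_mul (by positivity)]
      apply ENNReal.ofReal_le_ofReal
      apply le_of_eq; ring

theorem ae_M (hν : SubOn ν S C H) (hc : Continuous ν) (hC : 0 ≤ C) (hH : 0 < H)
    {k r v₀ v₁ t₀ t₁ : ℝ} (hk : 0 < k) (hk1 : k ≠ 1) (hr : 0 < r) (hv : v₀ ≤ v₁) (ht : t₀ ≤ t₁)
    (hS : ∀ x ∈ Rc v₀ v₁ t₀ t₁, Bx (X k x.1 x.2) r ⊆ S) :
    ∀ᵐ x ∂(volume.restrict (Rc v₀ v₁ t₀ t₁)),
      Tendsto (fun h => M ν h (X k x.1 x.2) / h) (𝓝[>] 0) (𝓝 0) := by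
  have ht' : 0 ≤ t₁ - t₀ := by linarith
  have hv' : 0 ≤ v₁ - v₀ := by linarith
  rcases lt_or_gt_of_ne hk1 with hlt | hgt
  · set B : ℝ := 1 + 1 / k + 1 / (1 - k) with hB
    have h1k : 0 < 1 - k := by linarith
    have hi1 : 0 < 1 / k := by positivity
    have hi2 : 0 < 1 / (1 - k) := by positivity
    have hB1 : 1 ≤ B := by linarith
    have hkB : 1 ≤ k * B := by
      have e1 : k * (1 / k) = 1 := by field_simp
      have : k * B = k + k * (1 / k) + k * (1 / (1 - k)) := by rw [hB]; ring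
      rw [this, e1]
      have : 0 < k * (1 / (1 - k)) := by positivity
      linarith
    have hkB' : 1 ≤ (1 - k) * B := by
      have e1 : (1 - k) * (1 / (1 - k)) = 1 := by field_simp
      have : (1 - k) * B = (1 - k) + (1 - k) * (1 / k) + (1 - k) * (1 / (1 - k)) := by
        rw [hB]; ring
      rw [this, e1]
      have : 0 < (1 - k) * (1 / k) := by positivity
      linarith
    set h₀ : ℝ := min (H / B) (r / (6 * B * B)) with hh₀
    have hpos : 0 < h₀ := lt_min (by positivity) (by positivity)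
    have hle : ∀ h, h ≤ h₀ → 6 * B * (B * h) ≤ r := by
      intro h hh
      have := hh.trans (min_le_right _ _)
      rw [le_div_iff₀ (by positivity)] at this
      nlinarith
    have hleH : ∀ h, h ≤ h₀ → B * h ≤ H := by
      intro h hh
      have := hh.trans (min_le_left _ _)
      rw [le_div_iff₀ (by positivity)] at this
      nlinarith
    have hBh : ∀ h, 0 < h → h ≤ B * h := by intro h hh; nlinarith
    have hx : ∀ h, 0 < h → h ≤ h₀ → ∀ x ∈ Rc v₀ v₁ t₀ t₁, Bx (X k x.1 x.2) h ⊆ S := by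
      intro h hh hh2 x hx
      refine (Bx_mono ?_).trans (hS x hx)
      have h3 := hle h hh2
      have h4 : B * h ≤ B * (B * h) := by
        have : 0 ≤ B * h := by positivity
        nlinarith
      nlinarith [hBh h hh]
    refine ae_tendsto_of_int (measurableSet_Rc _ _ _ _)
      (T := fun h x => M ν h (X k x.1 x.2))
      (fun h => ((continuous_M hc h).comp (continuous_X k)).measurable) hpos
      (K := C * (B * (t₁ - t₀) + k * B * (v₁ - v₀)) + C * B * (B * B * (t₁ - t₀)))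
      (by positivity) ?_ ?_ ?_
    · intro h hh hh2 x hxA
      exact M_nonneg hν hh.le ((hBh h hh).trans (hleH h hh2)) (hx h hh hh2 x hxA)
    · intro h h' hh hhh hh2 x hxA
      exact M_mono hν hh.le hhh ((hBh h' (hh.trans_le hhh)).trans (hleH h' hh2))
        (hx h' (hh.trans_le hhh) hh2 x hxA)
    · intro h hh hh2
      refine (int_M_lt hν hc hk.le hlt.le hB1 hkB hkB' hh.le (hleH h hh2) hv ht ?_).trans ?_
      · intro x hxA
        exact (Bx_mono (hle h hh2)).trans (hS x hxA)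
      · rw [← ENNReal.ofReal_mul (by positivity), ← ENNReal.ofReal_mul (by positivity),
          ← ENNReal.ofReal_add (by positivity) (by positivity)]
        apply ENNReal.ofReal_le_ofReal
        apply le_of_eq; ring
  · set B : ℝ := 1 + 1 / (k - 1) with hB
    have h1k : 0 < k - 1 := by linarith
    have hi2 : 0 < 1 / (k - 1) := by positivity
    have hB1 : 1 ≤ B := by linarith
    have hkB' : 1 ≤ (k - 1) * B := by
      have e1 : (k - 1) * (1 / (k - 1)) = 1 := by field_simp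
      have : (k - 1) * B = (k - 1) + (k - 1) * (1 / (k - 1)) := by
        rw [hB]; ring
      rw [this, e1]
      linarith
    set h₀ : ℝ := min (H / B) (r / (6 * k * B * B)) with hh₀
    have hpos : 0 < h₀ := lt_min (by positivity) (by positivity)
    have hle : ∀ h, h ≤ h₀ → 6 * k * B * (B * h) ≤ r := by
      intro h hh
      have := hh.trans (min_le_right _ _)
      rw [le_div_iff₀ (by positivity)] at this
      nlinarith
    have hleH : ∀ h, h ≤ h₀ → B * h ≤ H := by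
      intro h hh
      have := hh.trans (min_le_left _ _)
      rw [le_div_iff₀ (by positivity)] at this
      nlinarith
    have hBh : ∀ h, 0 < h → h ≤ B * h := by intro h hh; nlinarith
    have hx : ∀ h, 0 < h → h ≤ h₀ → ∀ x ∈ Rc v₀ v₁ t₀ t₁, Bx (X k x.1 x.2) h ⊆ S := by
      intro h hh hh2 x hx
      refine (Bx_mono ?_).trans (hS x hx)
      have h3 := hle h hh2
      have h4 : B * h ≤ B * (B * h) := by
        have : 0 ≤ B * h := by positivity
        nlinarith
      have h5 : B * (B * h) ≤ k * (B * (B * h)) := by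
        have : 0 ≤ B * (B * h) := by positivity
        nlinarith
      nlinarith [hBh h hh]
    refine ae_tendsto_of_int (measurableSet_Rc _ _ _ _)
      (T := fun h x => M ν h (X k x.1 x.2))
      (fun h => ((continuous_M hc h).comp (continuous_X k)).measurable) hpos
      (K := C * (B * (t₁ - t₀) + k * B * (v₁ - v₀))
        + C * B * (B * B * (t₁ - t₀) + (1 + k) * (B * B) * (v₁ - v₀)))
      (by positivity) ?_ ?_ ?_
    · intro h hh hh2 x hxA
      exact M_nonneg hν hh.le ((hBh h hh).trans (hleH h hh2)) (hx h hh hh2 x hxA)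
    · intro h h' hh hhh hh2 x hxA
      exact M_mono hν hh.le hhh ((hBh h' (hh.trans_le hhh)).trans (hleH h' hh2))
        (hx h' (hh.trans_le hhh) hh2 x hxA)
    · intro h hh hh2
      refine (int_M_gt hν hc hgt.le hB1 hkB' hh.le (hleH h hh2) hv ht ?_).trans ?_
      · intro x hxA
        exact (Bx_mono (hle h hh2)).trans (hS x hxA)
      · rw [← ENNReal.ofReal_mul (by positivity), ← ENNReal.ofReal_mul (by positivity),
          ← ENNReal.ofReal_add (by positivity) (by positivity)]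
        apply ENNReal.ofReal_le_ofReal
        apply le_of_eq; ring

end

end Crest.Agent.R138.Dec848
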