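import Crest.Agent.R138.Dec2_848

/-!
# R138: decoupling lemma, existence of the rates (helper848)

If the defect `D ν i h` is `o(h)` at almost every natural box, then the one-sided rate
`lim E ν i w (X k v t) / w` exists at almost every natural box.
-/

set_option autoImplicit false

open MeasureTheory Filter Topology Set
open scoped ENNReal

namespace Crest.Agent.R138.Dec848

/-- a free ultrafilter -/
noncomputable def UF : Ultrafilter ℕ := hyperfilter ℕ

theorem UF_le : (UF : Filter ℕ) ≤ atTop := Nat.hyperfilter_le_atTop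

instance UF_neBot : (UF : Filter ℕ).NeBot := UF.neBot

theorem X_add_t (k v t b : ℝ) (j : Fin 4) : X k v (t + b) j = X k v t j + b := by
  fin_cases j <;> simp [X] <;> ring

section

variable {ν : V4 → ℝ} {S : Set V4} {C H : ℝ}

theorem E_sum (ν : V4 → ℝ) (i : Fin 4) (s : ℝ) (p : V4) (m : ℕ) :
    E ν i (m * s) p = ∑ j ∈ Finset.range m, E ν i s (p + ((j : ℝ) * s) • e i) := by
  induction m with
  | zero => simp [E]
  | succ m ih =>
    rw [Finset.sum_range_succ, ← ih, Nat.cast_succ, add_mul, one_mul, E_add]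

/-- the sum of small increments at natural boxes -/
theorem sum_bound (hν : SubOn ν S C H) {i : Fin 4} {s h k v t : ℝ} {m : ℕ} (hs : 0 ≤ s)
    (hm : (m : ℝ) * s ≤ h) (hsH : s ≤ H) (hH : h ≤ H) (hS : Bx (X k v t) (2 * h) ⊆ S)
    (hsh : s ≤ h) :
    E ν i (m * s) (X k v t) - D ν i h (X k v t)
      ≤ ∑ j ∈ Finset.range m, E ν i s (X k v (t + j * s)) ∧
    ∑ j ∈ Finset.range m, E ν i s (X k v (t + j * s)) ≤ E ν i (m * s) (X k v t) := by
  have hh : 0 ≤ h := hs.trans hsh
  have hjs : ∀ j ∈ Finset.range m, 0 ≤ (j : ℝ) * s ∧ (j : ℝ) * s ≤ h := by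
    intro j hj
    have : (j : ℝ) ≤ m := by exact_mod_cast (Finset.mem_range.1 hj).le
    exact ⟨by positivity, le_trans (by gcongr) hm⟩
  have m1 : ∀ j ∈ Finset.range m, X k v t + ((j : ℝ) * s) • e i ∈ S := by
    intro j hj
    apply hS
    intro l; rw [add_e_apply]
    split_ifs
    · rw [add_sub_cancel_left, abs_of_nonneg (hjs j hj).1]; linarith [(hjs j hj).2]
    · simp; linarith
  have m2 : ∀ j ∈ Finset.range m, X k v (t + j * s) ∈ S := by
    intro j hj
    apply hS
    intro l; rw [X_add_t, add_sub_cancel_left, abs_of_nonneg (hjs j hj).1]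
    linarith [(hjs j hj).2]
  have m3 : ∀ j ∈ Finset.range m, far i h (X k v t) + ((j : ℝ) * s) • e i ∈ S := by
    intro j hj
    apply hS
    intro l; rw [add_e_apply, far_apply]
    split_ifs
    · rw [add_sub_cancel_left, abs_of_nonneg (hjs j hj).1]; linarith [(hjs j hj).2]
    · rw [add_zero, add_sub_cancel_left, abs_of_nonneg hh]; linarith
  constructor
  · -- lower bound
    have h1 : E ν i (m * s) (far i h (X k v t)) ≤
        ∑ j ∈ Finset.range m, E ν i s (X k v (t + j * s)) := by
      rw [E_sum]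
      refine Finset.sum_le_sum fun j hj => ?_
      apply hν.sub _ (m2 j hj) _ (m3 j hj) i s _ _ hs hsH
      · intro l
        rw [X_add_t, add_e_apply, far_apply]
        split_ifs
        · exact le_rfl
        · rw [add_zero]; linarith [(hjs j hj).2]
      · rw [X_add_t, add_e_apply, far_apply]; simp
    have hms : 0 ≤ (m : ℝ) * s := by positivity
    have h2 : E ν i (m * s) (X k v t) - E ν i (m * s) (far i h (X k v t)) ≤
        D ν i h (X k v t) := by
      apply diff_mono hν hms hm hH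
      · apply hS
        intro l; rw [add_e_apply]
        split_ifs
        · rw [add_sub_cancel_left, abs_of_nonneg hms]; linarith
        · simp; linarith
      · apply hS
        intro l; rw [add_e_apply, far_apply]
        split_ifs
        · rw [add_sub_cancel_left, abs_of_nonneg hms]; linarith
        · rw [add_zero, add_sub_cancel_left, abs_of_nonneg hh]; linarith
      · intro l; rw [far_apply]; split_ifs <;> linarith
      · rw [far_apply, if_pos rfl]
    linarith
  · rw [E_sum]
    refine Finset.sum_le_sum fun j hj => ?_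
    apply hν.sub _ (m1 j hj) _ (m2 j hj) i s _ _ hs hsH
    · intro l
      rw [X_add_t, add_e_apply]
      split_ifs
      · exact le_rfl
      · rw [add_zero]; linarith [(hjs j hj).1]
    · rw [X_add_t, add_e_apply, if_pos rfl]

/-- Lipschitz bound along nonnegative vectors -/
theorem nu_lip (hν : SubOn ν S C H) {r : ℝ} {p w : V4} (hH : r ≤ H) (hS : Bx p r ⊆ S)
    (hw : ∀ i, 0 ≤ w i ∧ w i ≤ r) :
    0 ≤ ν p - ν (p + w) ∧ ν p - ν (p + w) ≤ C * (w 0 + w 1 + w 2 + w 3) := by
  have hr : 0 ≤ r := (hw 0).1.trans (hw 0).2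
  have b0 : p ∈ S := hS (mem_Bx_self hr)
  have b1 : p + w 0 • e 0 ∈ S := by
    apply hS
    intro j; rw [add_e_apply]
    fin_cases j <;> simp [abs_of_nonneg, (hw 0).1, (hw 0).2, hr]
  have b2 : p + w 0 • e 0 + w 1 • e 1 ∈ S := by
    apply hS
    intro j; rw [add_e_apply, add_e_apply]
    fin_cases j <;> simp [abs_of_nonneg, (hw 0).1, (hw 0).2, (hw 1).1, (hw 1).2, hr]
  have b3 : p + w 0 • e 0 + w 1 • e 1 + w 2 • e 2 ∈ S := by
    apply hS
    intro j; rw [add_e_apply, add_e_apply, add_e_apply]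
    fin_cases j <;> simp [abs_of_nonneg, (hw 0).1, (hw 0).2, (hw 1).1, (hw 1).2,
      (hw 2).1, (hw 2).2, hr]
  have key : ν p - ν (p + w) = E ν 0 (w 0) p + E ν 1 (w 1) (p + w 0 • e 0)
      + E ν 2 (w 2) (p + w 0 • e 0 + w 1 • e 1)
      + E ν 3 (w 3) (p + w 0 • e 0 + w 1 • e 1 + w 2 • e 2) := by
    rw [decomp w p]; unfold E; ring
  have c0 := hν.nonneg _ b0 0 (w 0) (hw 0).1 ((hw 0).2.trans hH)
  have c1 := hν.nonneg _ b1 1 (w 1) (hw 1).1 ((hw 1).2.trans hH)
  have c2 := hν.nonneg _ b2 2 (w 2) (hw 2).1 ((hw 2).2.trans hH)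
  have c3 := hν.nonneg _ b3 3 (w 3) (hw 3).1 ((hw 3).2.trans hH)
  have d0 := hν.le _ b0 0 (w 0) (hw 0).1 ((hw 0).2.trans hH)
  have d1 := hν.le _ b1 1 (w 1) (hw 1).1 ((hw 1).2.trans hH)
  have d2 := hν.le _ b2 2 (w 2) (hw 2).1 ((hw 2).2.trans hH)
  have d3 := hν.le _ b3 3 (w 3) (hw 3).1 ((hw 3).2.trans hH)
  rw [key]
  constructor
  · linarith
  · linarith

/-- shift of a vector by a constant in all coordinates (at most `σ`) -/
theorem nu_lip' (hν : SubOn ν S C H) (hC : 0 ≤ C) {σ r : ℝ} {p q : V4} (hH : r ≤ H)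
    (hS : Bx p r ⊆ S) (hσ : σ ≤ r) (h : ∀ i, p i ≤ q i ∧ q i ≤ p i + σ) :
    0 ≤ ν p - ν q ∧ ν p - ν q ≤ 4 * C * σ := by
  have e1 : q = p + (q - p) := by abel
  have hw : ∀ i, 0 ≤ (q - p) i ∧ (q - p) i ≤ r := by
    intro i; have := h i; simp only [Pi.sub_apply]; constructor <;> linarith
  have := nu_lip hν hH hS hw
  rw [← e1] at this
  refine ⟨this.1, this.2.trans ?_⟩
  have h0 := (h 0).2
  have h1 := (h 1).2
  have h2 := (h 2).2
  have h3 := (h 3).2
  have : (q - p) 0 + (q - p) 1 + (q - p) 2 + (q - p) 3 ≤ 4 * σ := by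
    simp only [Pi.sub_apply]; linarith
  nlinarith

theorem continuous_g {ν : V4 → ℝ} (hc : Continuous ν) (i : Fin 4) (s k v : ℝ) :
    Continuous fun τ => E ν i s (X k v τ) :=
  (continuous_E hc i s).comp ((continuous_X k).comp (by fun_prop : Continuous fun τ => (v, τ)))

/-- comparison of the averaged integral of small increments with the large increment -/
theorem int_compare (hν : SubOn ν S C H) (hc : Continuous ν) (hC : 0 ≤ C) {i : Fin 4}
    {s h k v t w : ℝ} (hs : 0 < s) (hw : 0 ≤ w) (hwh : w ≤ h) (hH : 4 * h ≤ H) (hsh : s ≤ h)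
    (hS : Bx (X k v t) (6 * h) ⊆ S) :
    |(1 / s) * (∫ τ in t..(t + w), E ν i s (X k v τ)) - E ν i w (X k v t)|
      ≤ D ν i h (X k v t) + 40 * C * s := by
  have hh : 0 ≤ h := hw.trans hwh
  have hhH : h ≤ H := by linarith
  have hsH : s ≤ H := hsh.trans hhH
  set m : ℕ := ⌊w / s⌋₊ with hm
  have hm1 : (m : ℝ) * s ≤ w := by
    have := Nat.floor_le (div_nonneg hw hs.le)
    rwa [← hm, le_div_iff₀ hs] at this
  have hm2 : w < (m + 1) * s := by
    have := Nat.lt_floor_add_one (w / s)
    rwa [← hm, div_lt_iff₀ hs] at this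
  have hms : 0 ≤ (m : ℝ) * s := by positivity
  set g : ℝ → ℝ := fun τ => E ν i s (X k v τ) with hg
  have hgc : Continuous g := continuous_g hc i s k v
  have hii : ∀ a b : ℝ, IntervalIntegrable g volume a b := fun a b => hgc.intervalIntegrable a b
  -- membership of natural boxes
  have hmem : ∀ b, 0 ≤ b → b ≤ 2 * h → X k v (t + b) ∈ Bx (X k v t) (2 * h) := by
    intro b hb hb2 l
    rw [X_add_t, add_sub_cancel_left, abs_of_nonneg hb]; exact hb2
  have hsub : ∀ b, 0 ≤ b → b ≤ 2 * h → Bx (X k v (t + b)) (4 * h) ⊆ S := by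
    intro b hb hb2
    refine (Bx_trans (hmem b hb hb2)).trans ((Bx_mono (by linarith)).trans hS)
  have hg0 : ∀ b, 0 ≤ b → b ≤ 2 * h → 0 ≤ g (t + b) ∧ g (t + b) ≤ C * s := by
    intro b hb hb2
    have hm0 : X k v (t + b) ∈ S := hsub b hb hb2 (mem_Bx_self (by linarith))
    exact ⟨hν.nonneg _ hm0 i s hs.le hsH, hν.le _ hm0 i s hs.le hsH⟩
  -- split the integral
  have hsplit : (∫ τ in t..(t + w), g τ) =
      (∫ σ in (0:ℝ)..s, ∑ j ∈ Finset.range m, g (t + σ + j * s)) +
        ∫ τ in (t + m * s)..(t + w), g τ := by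
    have h1 : (∫ τ in t..(t + m * s), g τ) =
        ∑ j ∈ Finset.range m, ∫ τ in (t + (j : ℝ) * s)..(t + ((j + 1 : ℕ) : ℝ) * s), g τ := by
      have := intervalIntegral.sum_integral_adjacent_intervals (f := g) (μ := volume)
        (a := fun j : ℕ => t + (j : ℝ) * s) (n := m) (fun j _ => hii _ _)
      simp only [Nat.cast_zero, zero_mul, add_zero] at this
      rw [← this]
    have h2 : ∀ j : ℕ, (∫ τ in (t + (j : ℝ) * s)..(t + ((j + 1 : ℕ) : ℝ) * s), g τ) =
        ∫ σ in (0:ℝ)..s, g (t + σ + j * s) := by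
      intro j
      have := intervalIntegral.integral_comp_add_right (a := 0) (b := s) g (t + (j : ℝ) * s)
      rw [zero_add] at this
      rw [show t + ((j + 1 : ℕ) : ℝ) * s = s + (t + (j : ℝ) * s) by push_cast; ring, ← this]
      congr 1; ext σ; congr 1; ring
    rw [← intervalIntegral.integral_add_adjacent_intervals (hii t (t + m * s)) (hii _ _), h1]
    congr 1
    rw [intervalIntegral.integral_finsetSum]
    · exact Finset.sum_congr rfl fun j _ => h2 j
    · intro j _
      exact (hgc.comp (by fun_prop)).intervalIntegrable _ _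
  -- the pointwise estimate
  have hpt : ∀ σ ∈ Icc (0:ℝ) s,
      |(∑ j ∈ Finset.range m, g (t + σ + j * s)) - E ν i w (X k v t)|
        ≤ D ν i h (X k v t) + 30 * C * s := by
    intro σ hσ
    have hσ2 : σ ≤ 2 * h := hσ.2.trans (by linarith)
    have hsb := sum_bound (m := m) hν (i := i) (k := k) (v := v) (t := t + σ) hs.le
      (hm1.trans hwh) hsH hhH ((Bx_mono (by linarith)).trans (hsub σ hσ.1 hσ2)) hsh
    -- E at shifted base
    have hnn : 0 ≤ C * s := by positivity
    have hX : ∀ l, X k v t l ≤ X k v (t + σ) l ∧ X k v (t + σ) l ≤ X k v t l + s := by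
      intro l; rw [X_add_t]; exact ⟨by linarith [hσ.1], by linarith [hσ.2]⟩
    have hS1 : Bx (X k v t) h ⊆ S := (Bx_mono (by linarith)).trans hS
    have a1 := nu_lip' hν hC hhH hS1 hsh hX
    -- second endpoint
    have hbase : Bx (X k v t + (m * s) • e i) h ⊆ S := by
      refine Subset.trans ?_ hS
      intro q hq l
      have h3 := hq l
      rw [add_e_apply] at h3
      rw [abs_le] at h3 ⊢
      split_ifs at h3
      · constructor <;> linarith [h3.1, h3.2]
      · constructor <;> linarith [h3.1, h3.2]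
    have a2 := nu_lip' hν hC (q := X k v (t + σ) + (m * s) • e i) hhH hbase hsh (by
      intro l; rw [add_e_apply, add_e_apply, X_add_t]
      exact ⟨by linarith [hσ.1], by linarith [hσ.2]⟩)
    have a3 := nu_lip' hν hC (q := X k v t + w • e i) hhH hbase hsh (by
      intro l; rw [add_e_apply, add_e_apply]
      split_ifs
      · exact ⟨by linarith, by linarith⟩
      · exact ⟨by linarith, by linarith⟩)
    -- D at shifted base
    have hfarb : Bx (far i h (X k v t)) h ⊆ S := by
      refine Subset.trans ?_ hS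
      intro q hq l
      have h3 := hq l
      rw [far_apply] at h3
      rw [abs_le] at h3 ⊢
      split_ifs at h3 <;> constructor <;> linarith [h3.1, h3.2]
    have hfarb2 : Bx (far i h (X k v t) + h • e i) h ⊆ S := by
      refine Subset.trans ?_ hS
      intro q hq l
      have h3 := hq l
      rw [add_e_apply, far_apply] at h3
      rw [abs_le] at h3 ⊢
      split_ifs at h3 <;> constructor <;> linarith [h3.1, h3.2]
    have hbh : Bx (X k v t + h • e i) h ⊆ S := by
      refine Subset.trans ?_ hS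
      intro q hq l
      have h3 := hq l
      rw [add_e_apply] at h3
      rw [abs_le] at h3 ⊢
      split_ifs at h3 <;> constructor <;> linarith [h3.1, h3.2]
    have c1 := nu_lip' hν hC (q := X k v (t + σ) + h • e i) hhH hbh hsh (by
      intro l; rw [add_e_apply, add_e_apply, X_add_t]
      exact ⟨by linarith [hσ.1], by linarith [hσ.2]⟩)
    have c2 := nu_lip' hν hC (q := far i h (X k v (t + σ))) hhH hfarb hsh (by
      intro l; rw [far_apply, far_apply, X_add_t]
      split_ifs
      · exact ⟨by linarith [hσ.1], by linarith [hσ.2]⟩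
      · exact ⟨by linarith [hσ.1], by linarith [hσ.2]⟩)
    have c3 := nu_lip' hν hC (q := far i h (X k v (t + σ)) + h • e i) hhH hfarb2 hsh (by
      intro l; rw [add_e_apply, add_e_apply, far_apply, far_apply, X_add_t]
      split_ifs
      · exact ⟨by linarith [hσ.1], by linarith [hσ.2]⟩
      · exact ⟨by linarith [hσ.1], by linarith [hσ.2]⟩)
    have hDσ : D ν i h (X k v (t + σ)) ≤ D ν i h (X k v t) + 16 * C * s := by
      unfold D E
      linarith [a1.1, a1.2, c1.1, c1.2, c2.1, c2.2, c3.1, c3.2]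
    have hEσ : |E ν i (m * s) (X k v (t + σ)) - E ν i w (X k v t)| ≤ 12 * C * s := by
      unfold E
      rw [abs_le]
      constructor <;> linarith [a1.1, a1.2, a2.1, a2.2, a3.1, a3.2]
    rw [abs_le] at hEσ ⊢
    have hD0 : 0 ≤ D ν i h (X k v t) := D_nonneg hν hh hhH hS1
    constructor
    · linarith [hsb.1, hEσ.1]
    · linarith [hsb.2, hEσ.2]
  -- averaging
  have hF : Continuous fun σ => ∑ j ∈ Finset.range m, g (t + σ + j * s) := by
    refine continuous_finsetSum _ fun j _ => ?_
    exact hgc.comp (by fun_prop)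
  have hlow : s * (E ν i w (X k v t) - (D ν i h (X k v t) + 30 * C * s)) ≤
      ∫ σ in (0:ℝ)..s, ∑ j ∈ Finset.range m, g (t + σ + j * s) := by
    have := intervalIntegral.integral_mono_on (μ := volume) hs.le
      (intervalIntegrable_const (c := E ν i w (X k v t) - (D ν i h (X k v t) + 30 * C * s)))
      (hF.intervalIntegrable 0 s) (fun σ hσ => by
        have := (abs_le.1 (hpt σ hσ)).1; linarith)
    rw [intervalIntegral.integral_const] at this
    simpa using this
  have hupp : (∫ σ in (0:ℝ)..s, ∑ j ∈ Finset.range m, g (t + σ + j * s)) ≤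
      s * (E ν i w (X k v t) + (D ν i h (X k v t) + 30 * C * s)) := by
    have := intervalIntegral.integral_mono_on (μ := volume) hs.le
      (hF.intervalIntegrable 0 s)
      (intervalIntegrable_const (c := E ν i w (X k v t) + (D ν i h (X k v t) + 30 * C * s)))
      (fun σ hσ => by
        have := (abs_le.1 (hpt σ hσ)).2; linarith)
    rw [intervalIntegral.integral_const] at this
    simpa using this
  have hrem0 : 0 ≤ ∫ τ in (t + m * s)..(t + w), g τ := by
    apply intervalIntegral.integral_nonneg (by linarith)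
    intro τ hτ
    have := (hg0 (τ - t) (by linarith [hτ.1]) (by linarith [hτ.2])).1
    simpa using this
  have hrem1 : (∫ τ in (t + m * s)..(t + w), g τ) ≤ s * (C * s) := by
    have h5 := intervalIntegral.integral_mono_on (μ := volume) (show t + m * s ≤ t + w by linarith)
      (hii _ _) (intervalIntegrable_const (c := C * s)) (fun τ hτ => by
        have := (hg0 (τ - t) (by linarith [hτ.1]) (by linarith [hτ.2])).2
        simpa using this)
    rw [intervalIntegral.integral_const] at h5
    refine h5.trans ?_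
    simp only [smul_eq_mul]
    have : (t + w - (t + m * s)) ≤ s := by linarith
    have h0 : 0 ≤ C * s := by positivity
    nlinarith
  rw [hsplit, mul_add]
  have hs1 : (1 / s) * s = 1 := by field_simp
  have u1 : (1 / s) * (∫ σ in (0:ℝ)..s, ∑ j ∈ Finset.range m, g (t + σ + j * s)) ≤
      E ν i w (X k v t) + (D ν i h (X k v t) + 30 * C * s) := by
    rw [one_div, inv_mul_le_iff₀ hs]; exact hupp
  have u2 : E ν i w (X k v t) - (D ν i h (X k v t) + 30 * C * s) ≤
      (1 / s) * (∫ σ in (0:ℝ)..s, ∑ j ∈ Finset.range m, g (t + σ + j * s)) := by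
    rw [one_div, le_inv_mul_iff₀ hs]; exact hlow
  have u3 : 0 ≤ (1 / s) * ∫ τ in (t + m * s)..(t + w), g τ := by positivity
  have u4 : (1 / s) * (∫ τ in (t + m * s)..(t + w), g τ) ≤ C * s := by
    rw [one_div, inv_mul_le_iff₀ hs]; exact hrem1
  have hCs : 0 ≤ C * s := by positivity
  rw [abs_le]
  constructor <;> linarith

/-- bounded sequences converge along `UF` -/
theorem exists_tendsto_UF {f : ℕ → ℝ} {K : ℝ} (h : ∀ n, |f n| ≤ K) :
    ∃ x, Tendsto f UF (𝓝 x) := by
  have hc : IsCompact (Set.Icc (-K) K) := isCompact_Icc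
  have h1 : (↑(UF.map f) : Filter ℝ) ≤ 𝓟 (Set.Icc (-K) K) := by
    rw [le_principal_iff]
    change ∀ᶠ n in (UF : Filter ℕ), f n ∈ Set.Icc (-K) K
    exact Filter.Eventually.of_forall fun n => abs_le.1 (h n)
  obtain ⟨x, _, hx2⟩ := hc.ultrafilter_le_nhds _ h1
  exact ⟨x, hx2⟩

/-- **existence of the rate** on a vertical line -/
theorem rate_ae_line (hν : SubOn ν S C H) (hc : Continuous ν) (hC : 0 ≤ C) (hH : 0 < H)
    {i : Fin 4} {k r v t₀ t₁ : ℝ} (hr : 0 < r) (ht : t₀ ≤ t₁)
    (hS : ∀ t ∈ Icc t₀ t₁, Bx (X k v t) r ⊆ S)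
    (hD : ∀ᵐ t ∂(volume.restrict (Icc t₀ t₁)),
      Tendsto (fun h => D ν i h (X k v t) / h) (𝓝[>] 0) (𝓝 0)) :
    ∀ᵐ t ∂(volume.restrict (Icc t₀ t₁)),
      ∃ ρ, Tendsto (fun w => E ν i w (X k v t) / w) (𝓝[>] 0) (𝓝 ρ) := by
  set r' : ℝ := min (r / 8) (H / 4) with hr'
  have hr'0 : 0 < r' := lt_min (by positivity) (by positivity)
  have hr'8 : 8 * r' ≤ r := by have := min_le_left (r / 8) (H / 4); linarith
  have hr'H : 4 * r' ≤ H := by have := min_le_right (r / 8) (H / 4); linarith
  set s : ℕ → ℝ := fun n => r' / ((n : ℝ) + 1) with hs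
  have spos : ∀ n, 0 < s n := fun n => by positivity
  have sle : ∀ n, s n ≤ r' := fun n => by
    simp only [hs]
    rw [div_le_iff₀ (by positivity)]
    have : (0:ℝ) ≤ n := Nat.cast_nonneg n
    nlinarith
  have s0 : Tendsto s atTop (𝓝 0) := by
    simp only [hs]
    have := (tendsto_one_div_add_atTop_nhds_zero_nat (𝕜 := ℝ)).const_mul r'
    rw [mul_zero] at this
    refine this.congr fun n => ?_
    ring
  set g : ℕ → ℝ → ℝ := fun n τ => E ν i (s n) (X k v τ) with hg
  have hgc : ∀ n, Continuous (g n) := fun n => continuous_g hc i (s n) k v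
  have hmem : ∀ τ ∈ Icc t₀ (t₁ + r'), X k v τ ∈ S := by
    intro τ hτ
    rcases le_total τ t₁ with h | h
    · exact hS τ ⟨hτ.1, h⟩ (mem_Bx_self hr.le)
    · apply hS t₁ ⟨ht, le_rfl⟩
      have : τ = t₁ + (τ - t₁) := by ring
      intro l
      rw [this, X_add_t, add_sub_cancel_left, abs_of_nonneg (by linarith)]
      linarith [hτ.2]
  have hgb : ∀ n, ∀ τ ∈ Icc t₀ (t₁ + r'), 0 ≤ g n τ ∧ g n τ ≤ C * s n := by
    intro n τ hτ
    exact ⟨hν.nonneg _ (hmem τ hτ) i _ (spos n).le ((sle n).trans (by linarith)),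
      hν.le _ (hmem τ hτ) i _ (spos n).le ((sle n).trans (by linarith))⟩
  set J : ℕ → ℝ → ℝ := fun n τ => (1 / s n) * ∫ y in t₀..τ, g n y with hJ
  have hJd : ∀ n, ∀ a b, J n b - J n a = (1 / s n) * ∫ y in a..b, g n y := by
    intro n a b
    simp only [hJ]
    rw [← mul_sub, intervalIntegral.integral_interval_sub_left
      ((hgc n).intervalIntegrable _ _) ((hgc n).intervalIntegrable _ _)]
  have hJb : ∀ n, ∀ a ∈ Icc t₀ (t₁ + r'), ∀ b ∈ Icc t₀ (t₁ + r'), a ≤ b →
      0 ≤ J n b - J n a ∧ J n b - J n a ≤ C * (b - a) := by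
    intro n a ha b hb hab
    rw [hJd]
    have h1 : 0 ≤ ∫ y in a..b, g n y := by
      apply intervalIntegral.integral_nonneg hab
      intro y hy
      exact (hgb n y ⟨ha.1.trans hy.1, hy.2.trans hb.2⟩).1
    have h2 : (∫ y in a..b, g n y) ≤ (b - a) * (C * s n) := by
      have := intervalIntegral.integral_mono_on (μ := volume) hab ((hgc n).intervalIntegrable _ _)
        (intervalIntegrable_const (c := C * s n)) (fun y hy =>
          (hgb n y ⟨ha.1.trans hy.1, hy.2.trans hb.2⟩).2)
      rw [intervalIntegral.integral_const] at this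
      simpa using this
    have hsn := spos n
    refine ⟨by positivity, ?_⟩
    rw [one_div, inv_mul_le_iff₀ hsn]
    linarith
  have hJ0 : ∀ n, J n t₀ = 0 := by intro n; simp [hJ]
  have hex : ∀ τ, ∃ x, τ ∈ Icc t₀ (t₁ + r') → Tendsto (fun n => J n τ) UF (𝓝 x) := by
    intro τ
    by_cases hτ : τ ∈ Icc t₀ (t₁ + r')
    · obtain ⟨x, hx⟩ := exists_tendsto_UF (f := fun n => J n τ) (K := C * (τ - t₀)) (by
        intro n
        have := hJb n t₀ ⟨le_rfl, by linarith⟩ τ hτ hτ.1
        rw [hJ0, sub_zero] at this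
        rw [abs_le]; constructor <;> linarith [this.1, this.2])
      exact ⟨x, fun _ => hx⟩
    · exact ⟨0, fun h => absurd h hτ⟩
  choose I hI using hex
  have hIb : ∀ a ∈ Icc t₀ (t₁ + r'), ∀ b ∈ Icc t₀ (t₁ + r'), a ≤ b →
      0 ≤ I b - I a ∧ I b - I a ≤ C * (b - a) := by
    intro a ha b hb hab
    have := (hI b hb).sub (hI a ha)
    exact ⟨ge_of_tendsto' this fun n => (hJb n a ha b hb hab).1,
      le_of_tendsto' this fun n => (hJb n a ha b hb hab).2⟩
  have hLip : LipschitzOnWith (Real.toNNReal C) I (Icc t₀ (t₁ + r')) := by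
    apply LipschitzOnWith.of_dist_le_mul
    intro a ha b hb
    rw [Real.coe_toNNReal _ hC, Real.dist_eq, Real.dist_eq]
    rcases le_total a b with h | h
    · have := hIb a ha b hb h
      rw [abs_sub_comm, abs_of_nonneg this.1, abs_sub_comm, abs_of_nonneg (by linarith)]
      exact this.2
    · have := hIb b hb a ha h
      rw [abs_of_nonneg this.1, abs_of_nonneg (by linarith)]
      exact this.2
  have hdiff := hLip.ae_differentiableWithinAt_of_mem_real
  -- comparison
  have hcmp : ∀ t ∈ Icc t₀ t₁, ∀ w, 0 < w → w ≤ r' →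
      |I (t + w) - I t - E ν i w (X k v t)| ≤ D ν i w (X k v t) := by
    intro t htt w hw hwr
    have m1 : t + w ∈ Icc t₀ (t₁ + r') := ⟨by linarith [htt.1], by linarith [htt.2]⟩
    have m2 : t ∈ Icc t₀ (t₁ + r') := ⟨htt.1, by linarith [htt.2]⟩
    have hlim := (((hI _ m1).sub (hI _ m2)).sub_const (E ν i w (X k v t))).abs
    have hlim2 : Tendsto (fun n => D ν i w (X k v t) + 40 * C * s n) UF
        (𝓝 (D ν i w (X k v t) + 40 * C * 0)) :=
      ((s0.mono_left UF_le).const_mul (40 * C)).const_add _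
    have hev : ∀ᶠ n in (UF : Filter ℕ), |J n (t + w) - J n t - E ν i w (X k v t)| ≤
        D ν i w (X k v t) + 40 * C * s n := by
      have hsm : ∀ᶠ n in (UF : Filter ℕ), s n < w := (s0.mono_left UF_le).eventually_lt_const hw
      filter_upwards [hsm] with n hn
      rw [hJd]
      exact int_compare hν hc hC (spos n) hw.le le_rfl (by linarith) hn.le
        ((Bx_mono (by linarith)).trans (hS t htt))
    have := le_of_tendsto_of_tendsto hlim hlim2 hev
    simpa using this
  have hall : ∀ᵐ t ∂(volume.restrict (Icc t₀ t₁)), t ∈ Icc t₀ (t₁ + r') →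
      DifferentiableWithinAt ℝ I (Icc t₀ (t₁ + r')) t := ae_restrict_of_ae hdiff
  filter_upwards [hD, hall, ae_restrict_mem measurableSet_Icc] with t hDt hdt htt
  have m2 : t ∈ Icc t₀ (t₁ + r') := ⟨htt.1, by linarith [htt.2]⟩
  have hder := (hdt m2).hasDerivWithinAt
  rw [hasDerivWithinAt_iff_tendsto_slope] at hder
  set f' := derivWithin I (Icc t₀ (t₁ + r')) t with hf'
  refine ⟨f', ?_⟩
  have hmap : Tendsto (fun w : ℝ => t + w) (𝓝[>] 0) (𝓝[Icc t₀ (t₁ + r') \ {t}] t) := by
    apply tendsto_nhdsWithin_iff.2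
    constructor
    · have : Tendsto (fun w : ℝ => t + w) (𝓝 0) (𝓝 (t + 0)) :=
        (continuous_const.add continuous_id).tendsto 0
      rw [add_zero] at this
      exact this.mono_left nhdsWithin_le_nhds
    · have h1 : ∀ᶠ w : ℝ in 𝓝[>] 0, w < r' :=
        (tendsto_id.mono_left nhdsWithin_le_nhds).eventually_lt_const hr'0
      filter_upwards [h1, self_mem_nhdsWithin] with w hw1 hw2
      have hw2' : 0 < w := hw2
      refine ⟨⟨by linarith [htt.1], by linarith [htt.2]⟩, ?_⟩
      simp only [mem_singleton_iff]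
      linarith
  have hsl := hder.comp hmap
  have hsl2 : Tendsto (fun w : ℝ => (I (t + w) - I t) / w) (𝓝[>] 0) (𝓝 f') := by
    refine hsl.congr fun w => ?_
    simp only [Function.comp, slope_def_field]
    congr 1; ring
  have hz : Tendsto (fun w : ℝ => (I (t + w) - I t) / w - E ν i w (X k v t) / w)
      (𝓝[>] 0) (𝓝 0) := by
    rw [tendsto_zero_iff_abs_tendsto_zero]
    refine squeeze_zero' (Filter.Eventually.of_forall fun w => abs_nonneg _) ?_ hDt
    have h1 : ∀ᶠ w : ℝ in 𝓝[>] 0, w < r' :=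
      (tendsto_id.mono_left nhdsWithin_le_nhds).eventually_lt_const hr'0
    filter_upwards [h1, self_mem_nhdsWithin] with w hw1 hw2
    have hw2' : 0 < w := hw2
    simp only [Function.comp]
    rw [← sub_div, abs_div, abs_of_pos hw2']
    exact div_le_div_of_nonneg_right (hcmp t htt w hw2' hw1.le) hw2'.le
  have := hsl2.sub hz
  simpa using this

end

end Crest.Agent.R138.Dec848
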