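import Crest.Agent.R138.Wpk11_685

/-!
# R138 / R139: DEC with classes (helper323), leaf W2 of doc 1979.

The greedy algorithm of 685 run over PAIRS (test box `p`, class `b`), candidate sets
`{x : inP p x ∧ cls p x = b}` for an arbitrary function `cls : Tst → Cel → ℕ` with values `< K`.
-/

set_option autoImplicit false
set_option linter.unusedSectionVars false
set_option linter.unusedVariables false

open MeasureTheory FourierTransform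
open scoped ContDiff ENNReal

namespace Crest.Agent.R138.W323

open Crest.Agent.R138.Defs Crest.Agent.R138.W188 Crest.Agent.R138.Wpk685

/-! ### greedy with classes -/

theorem greedyc {q : ℝ} {h : E2 → ℝ} {ρ l r : ℝ} (hρ : 0 < ρ) (hρ1 : ρ ≤ 1) (hr : 0 < r)
    {g : E2 → ℂ} {n : ℕ} (X0 : Finset Cel)
    {Δ0 : ℝ} (hΔ0 : 0 ≤ Δ0) (H0 : DD q h ρ l r g n X0 Δ0) {K : ℕ} (hK : 1 ≤ K)
    (cls : Tst → Cel → ℕ) (hcls : ∀ p x, cls p x < K) :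
    ∃ (X : ℕ → Finset Cel) (nn : ℕ → ℕ) (P : ℕ → ℕ → Tst × ℕ) (A : ℕ → ℕ → Finset Cel),
      X 0 = X0 ∧
      (∀ j, ∀ i < nn j, A j i ⊆ X j ∧ (P j i).1.a 0 ≤ (P j i).1.a 1 ∧ (P j i).1.a 1 ≤ n ∧
        (P j i).2 < K ∧
        (∀ x ∈ A j i, inP h ρ l r (P j i).1 x ∧ cls (P j i).1 x = (P j i).2) ∧
        ENNReal.ofReal (Δ0 / 2 ^ (j + 1) * cst q ρ r (P j i).1.a) < ∑ x ∈ A j i, ec ρ l g x) ∧
      (∀ j, ∀ i < nn j, ∀ i' < nn j, i ≠ i' → Disjoint (A j i) (A j i')) ∧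
      (∀ j, ∀ x, x ∈ X (j + 1) ↔ x ∈ X j ∧ ∀ i < nn j, x ∉ A j i) ∧
      ∀ j, DD q h ρ l r g n (X j) (K * (Δ0 / 2 ^ j)) := by
  classical
  obtain ⟨X, nn, P, A, hX0, H⟩ := levels (π := Tst × ℕ) (ec ρ l g)
    (fun pb x => inP h ρ l r pb.1 x ∧ cls pb.1 x = pb.2)
    (fun j pb => if pb.1.a 0 ≤ pb.1.a 1 ∧ pb.1.a 1 ≤ n ∧ pb.2 < K then
      ENNReal.ofReal (Δ0 / 2 ^ (j + 1) * cst q ρ r pb.1.a) else ⊤) X0
  have hcst : ∀ a : Fin 2 → ℕ, 0 ≤ cst q ρ r a := fun a => by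
    unfold cst
    have h0 := hρ.trans_le (sg_ge hρ hρ1 (a 0))
    have h1 := hρ.trans_le (sg_ge hρ hρ1 (a 1))
    positivity
  refine ⟨X, nn, fun j i => (P j i).getD
    (⟨0, EuclideanSpace.basisFun (Fin 2) ℝ, 0, fun _ => 0⟩, 0), A,
    hX0, ?_, fun j => (H j).2.1, fun j => (H j).2.2.1, ?_⟩
  · intro j i hi
    obtain ⟨h1, p, hp, h2, h3⟩ := (H j).1 i hi
    simp only [hp, Option.getD_some]
    by_cases hc : p.1.a 0 ≤ p.1.a 1 ∧ p.1.a 1 ≤ n ∧ p.2 < K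
    · simp only [if_pos hc] at h3
      exact ⟨h1, hc.1, hc.2.1, hc.2.2, h2, h3⟩
    · simp only [if_neg hc] at h3
      exact absurd h3 not_top_lt
  · intro j
    rcases j with _ | j
    · rw [hX0, pow_zero, div_one]
      intro p h1 h2
      refine (H0 p h1 h2).trans (ENNReal.ofReal_le_ofReal ?_)
      have hK' : (1:ℝ) ≤ K := by exact_mod_cast hK
      have h3 := hcst p.a
      have h4 : Δ0 ≤ K * Δ0 := le_mul_of_one_le_left hΔ0 hK'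
      gcongr
    · intro p h1 h2
      have h5 : ∑ x ∈ X (j + 1) with inP h ρ l r p x, ec ρ l g x ≤
          ∑ b ∈ Finset.range K, ∑ x ∈ X (j + 1) with (inP h ρ l r p x ∧ cls p x = b),
            ec ρ l g x := by
        refine cover_sum _ _ _ _ _ fun x hx hQx => ?_
        exact ⟨cls p x, Finset.mem_range.2 (hcls p x), hQx, rfl⟩
      refine h5.trans ?_
      have h6 : ∀ b ∈ Finset.range K, ∑ x ∈ X (j + 1) with (inP h ρ l r p x ∧ cls p x = b),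
            ec ρ l g x ≤ ENNReal.ofReal (Δ0 / 2 ^ (j + 1) * cst q ρ r p.a) := by
        intro b hb
        have h3 := (H j).2.2.2 (p, b)
        simp only [if_pos (And.intro h1 (And.intro h2 (Finset.mem_range.1 hb)))] at h3
        refine le_trans (le_of_eq ?_) h3
        refine Finset.sum_congr ?_ fun _ _ => rfl
        ext x
        simp only [Finset.mem_filter]
      refine (Finset.sum_le_sum h6).trans ?_
      rw [Finset.sum_const, Finset.card_range, nsmul_eq_mul, ← ENNReal.ofReal_natCast,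
        ← ENNReal.ofReal_mul (by positivity)]
      refine ENNReal.ofReal_le_ofReal (le_of_eq ?_)
      ring

/-! ### labels with classes -/

/-- the finite set of labels with classes. -/
def LamK (n J K : ℕ) : Finset ℕ :=
  (Lam n J ×ˢ Finset.range K).image (fun t => Nat.pair t.1 t.2)

/-- side exponents of a label. -/
def la (k : ℕ) : Fin 2 → ℕ := ![la0 (Nat.unpair k).1, la1 (Nat.unpair k).1]
/-- level of a label. -/
def lv (k : ℕ) : ℕ := lj (Nat.unpair k).1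
/-- class of a label. -/
def lc (k : ℕ) : ℕ := (Nat.unpair k).2

theorem mem_LamK {n J K k : ℕ} : k ∈ LamK n J K ↔
    la k 0 ≤ la k 1 ∧ la k 1 ≤ n ∧ lv k < J ∧ lc k < K := by
  unfold LamK
  rw [Finset.mem_image]
  constructor
  · rintro ⟨t, ht, rfl⟩
    rw [Finset.mem_product, mem_Lam, Finset.mem_range] at ht
    obtain ⟨⟨h1, h2, h3⟩, h4⟩ := ht
    refine ⟨?_, ?_, ?_, ?_⟩
    · simpa [la] using h1
    · simpa [la] using h2
    · simpa [lv] using h3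
    · simpa [lc] using h4
  · rintro ⟨h1, h2, h3, h4⟩
    refine ⟨((Nat.unpair k).1, (Nat.unpair k).2), ?_, by simp [Nat.pair_unpair]⟩
    rw [Finset.mem_product, mem_Lam, Finset.mem_range]
    exact ⟨⟨h1, h2, h3⟩, h4⟩

theorem card_LamK (n J K : ℕ) : (LamK n J K).card ≤ (Lam n J).card * K := by
  unfold LamK
  refine Finset.card_image_le.trans ?_
  rw [Finset.card_product, Finset.card_range]

theorem lab_ext {k k' : ℕ} (h0 : la k 0 = la k' 0) (h1 : la k 1 = la k' 1) (h2 : lv k = lv k')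
    (h3 : lc k = lc k') : k = k' := by
  have e1 : (Nat.unpair k).1 = (Nat.unpair k').1 := by
    rw [← lab_self (Nat.unpair k).1, ← lab_self (Nat.unpair k').1]
    have a0 : la0 (Nat.unpair k).1 = la0 (Nat.unpair k').1 := h0
    have a1 : la1 (Nat.unpair k).1 = la1 (Nat.unpair k').1 := h1
    have a2 : lj (Nat.unpair k).1 = lj (Nat.unpair k').1 := h2
    rw [a0, a1, a2]
  have e2 : (Nat.unpair k).2 = (Nat.unpair k').2 := h3
  rw [← Nat.pair_unpair k, ← Nat.pair_unpair k', e1, e2]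

theorem exists_lab (a : Fin 2 → ℕ) (j b : ℕ) : ∃ k, la k = a ∧ lv k = j ∧ lc k = b := by
  refine ⟨Nat.pair (lab (a 0) (a 1) j) b, ?_, ?_, ?_⟩
  · funext i
    fin_cases i
    · simp [la, la0_lab]
    · simp [la, la1_lab]
  · simp [lv, lj_lab]
  · simp [lc]

section lab

variable (nn : ℕ → ℕ) (P : ℕ → ℕ → Tst × ℕ) (A : ℕ → ℕ → Finset Cel)

open Classical in
/-- plates of a label. -/
noncomputable def IK (k : ℕ) : Finset ℕ :=
  (Finset.range (nn (lv k))).filter (fun i => (P (lv k) i).1.a = la k ∧ (P (lv k) i).2 = lc k)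

variable {nn P A}

theorem mem_IK {k i : ℕ} : i ∈ IK nn P k ↔ i < nn (lv k) ∧ (P (lv k) i).1.a = la k ∧
    (P (lv k) i).2 = lc k := by
  unfold IK
  rw [Finset.mem_filter, Finset.mem_range]

variable {X : ℕ → Finset Cel}
  (hA : ∀ j, ∀ i < nn j, A j i ⊆ X j)
  (hd : ∀ j, ∀ i < nn j, ∀ i' < nn j, i ≠ i' → Disjoint (A j i) (A j i'))
  (hX : ∀ j, ∀ x, x ∈ X (j + 1) ↔ x ∈ X j ∧ ∀ i < nn j, x ∉ A j i)

include hA hd hX in
theorem IK_disj {k k' i i' : ℕ} (hi : i ∈ IK nn P k) (hi' : i' ∈ IK nn P k')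
    (hne : k ≠ k' ∨ i ≠ i') : Disjoint (A (lv k) i) (A (lv k') i') := by
  rw [Finset.disjoint_left]
  intro x hx hx'
  obtain ⟨h1, h2, h3⟩ := mem_IK.1 hi
  obtain ⟨h1', h2', h3'⟩ := mem_IK.1 hi'
  obtain ⟨e1, e2⟩ := A_uniq hA hd hX h1 h1' hx hx'
  subst e2
  rcases hne with h | h
  · apply h
    rw [← e1] at h2' h3'
    have h4 : la k = la k' := h2.symm.trans h2'
    exact lab_ext (by rw [h4]) (by rw [h4]) e1 (h3.symm.trans h3')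
  · exact h rfl

include hA hX in
theorem IK_union {n J K : ℕ} (hP : ∀ j, ∀ i < nn j, (P j i).1.a 0 ≤ (P j i).1.a 1 ∧
    (P j i).1.a 1 ≤ n ∧ (P j i).2 < K) (x : Cel) :
    x ∈ X 0 \ X J ↔ ∃ k ∈ LamK n J K, ∃ i ∈ IK nn P k, x ∈ A (lv k) i := by
  rw [Finset.mem_sdiff, X_part hA hX J]
  constructor
  · rintro ⟨h1 | ⟨j, hj, i, hi, h1⟩, h2⟩
    · exact absurd h1 h2
    · obtain ⟨k, hk1, hk2, hk3⟩ := exists_lab (P j i).1.a j (P j i).2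
      obtain ⟨hP1, hP2, hP3⟩ := hP j i hi
      refine ⟨k, ?_, i, ?_, ?_⟩
      · rw [mem_LamK, hk1, hk2, hk3]
        exact ⟨hP1, hP2, hj, hP3⟩
      · rw [mem_IK, hk1, hk2, hk3]
        exact ⟨hi, rfl, rfl⟩
      · rw [hk2]; exact h1
  · rintro ⟨k, hk, i, hi, hx⟩
    obtain ⟨h1, h2, h3⟩ := mem_IK.1 hi
    rw [mem_LamK] at hk
    refine ⟨Or.inr ⟨lv k, hk.2.2.1, i, h1, hx⟩, fun h5 => ?_⟩
    have h6 := X_anti hX (Nat.succ_le_of_lt hk.2.2.1) h5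
    exact ((hX (lv k) x).1 h6).2 i h1 hx

end lab

/-! ### raw data -/

/-- constant of the position box. -/
noncomputable def KB (B2 : ℝ) : ℝ := 2 * (1 + 8 + 4 * 8 * (1 + |B2|) + 1)

/-- cells of the plates `I'` of the label `k`. -/
noncomputable def cells (A : ℕ → ℕ → Finset Cel) (k : ℕ) (I' : Finset ℕ) : Finset Cel :=
  I'.biUnion (A k)

/-- **raw data of the decomposition with classes** of the function `g'` at the level `r`. -/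
structure DecD (B2 q C0 : ℝ) (h : E2 → ℝ) (r : ℝ) (g' : E2 → ℂ) (K : ℕ) (cls : Tst → Cel → ℕ)
    (Λ : Finset ℕ) (Δ : ℕ → ℝ) (I : ℕ → Finset ℕ) (P : ℕ → ℕ → Tst) (A : ℕ → ℕ → Finset Cel) :
    Prop where
  nonneg : ∀ k, 0 ≤ Δ k
  /-- cells -/
  cell : ∀ k ∈ Λ, ∀ i ∈ I k, ∀ x ∈ A k i, x.1 ∈ caps (r ^ (-(1/2) : ℝ)) ∧
    ‖cen (r ^ (-(1/2) : ℝ) * r) x.2‖ ≤ KB B2 * r
  /-- the sides of the plates are those of the label -/
  side : ∀ k ∈ Λ, ∀ i ∈ I k, (P k i).a = la k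
  /-- the cells lie in the plate -/
  test : ∀ k ∈ Λ, ∀ i ∈ I k, ∀ x ∈ A k i,
    inP h (r ^ (-(1/2) : ℝ)) (r ^ (-(1/2) : ℝ) * r) r (P k i) x
  /-- the cells have the class of the label, relative to their own plate -/
  cls : ∀ k ∈ Λ, ∀ i ∈ I k, ∀ x ∈ A k i, cls (P k i) x = lc k
  /-- position of the plates -/
  pos : ∀ k ∈ Λ, ∀ i ∈ I k, ‖(P k i).y‖ ≤ (KB B2 + 2) * r
  /-- the plates are dense -/
  dense : ∀ k ∈ Λ, ∀ i ∈ I k, ENNReal.ofReal (Δ k / 2 * cst q (r ^ (-(1/2) : ℝ)) r (la k)) <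
    ∑ x ∈ A k i, ec (r ^ (-(1/2) : ℝ)) (r ^ (-(1/2) : ℝ) * r) g' x
  /-- the selections of all plates of all labels are disjoint -/
  disj : ∀ k ∈ Λ, ∀ k' ∈ Λ, ∀ i ∈ I k, ∀ i' ∈ I k', (k ≠ k' ∨ i ≠ i') →
    Disjoint (A k i) (A k' i')
  /-- hereditary density bound -/
  dens : ∀ k ∈ Λ, ∀ Y ⊆ cells A k (I k),
    Dens q h r g' (cs (r ^ (-(1/2) : ℝ) * r) Y) (C0 * K * Δ k)
  /-- hereditary penalised box bound -/
  pbox : ∀ k ∈ Λ, ∀ Y ⊆ cells A k (I k),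
    PBox q 6 h (sel (r ^ (-(1/2) : ℝ)) g' (cs (r ^ (-(1/2) : ℝ) * r) Y)) r (C0 * K * Δ k)
  /-- hereditary energy bound -/
  energy : ∀ k ∈ Λ, ∀ Y ⊆ cells A k (I k),
    En (sel (r ^ (-(1/2) : ℝ)) g' (cs (r ^ (-(1/2) : ℝ) * r) Y)) ≤ C0 * K * Δ k * r ^ 2

/-- union of all cells of all labels. -/
noncomputable def allc (Λ : Finset ℕ) (I : ℕ → Finset ℕ) (A : ℕ → ℕ → Finset Cel) : Finset Cel :=
  Λ.biUnion fun k => cells A k (I k)

theorem mem_cells {A : ℕ → ℕ → Finset Cel} {k : ℕ} {I' : Finset ℕ} {x : Cel} :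
    x ∈ cells A k I' ↔ ∃ i ∈ I', x ∈ A k i := by
  unfold cells
  rw [Finset.mem_biUnion]

theorem mem_allc {Λ : Finset ℕ} {I : ℕ → Finset ℕ} {A : ℕ → ℕ → Finset Cel} {x : Cel} :
    x ∈ allc Λ I A ↔ ∃ k ∈ Λ, ∃ i ∈ I k, x ∈ A k i := by
  unfold allc
  simp only [Finset.mem_biUnion, mem_cells]

theorem Dens_mono {q : ℝ} {h : E2 → ℝ} {r : ℝ} (hr : 1 ≤ r) {g : E2 → ℂ} {S : ℤ × ℤ → Set E2}
    {Δ Δ' : ℝ} (H : Dens q h r g S Δ) (hΔ : Δ ≤ Δ') : Dens q h r g S Δ' := by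
  intro c b s y0 hs
  refine (H c b s y0 hs).trans (ENNReal.ofReal_le_ofReal ?_)
  have hR0 : 0 < r := by linarith
  have h0 : 0 < s 0 := (Real.rpow_pos_of_pos hR0 _).trans_le (hs 0).1
  have h1 : 0 < s 1 := (Real.rpow_pos_of_pos hR0 _).trans_le (hs 1).1
  have h2 : 0 < max (s 0) (s 1) := lt_max_of_lt_left h0
  gcongr

/-! ### the decomposition with classes -/

set_option maxHeartbeats 2000000 in
theorem decc_big {B : ℕ → ℝ} {q : ℝ} (hq : 0 ≤ q) {M : ℕ} {C1 C2 C3 C4 C5 C6 : ℝ}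
    (hC1 : 0 ≤ C1) (hC2 : 0 ≤ C2) (hC3 : 0 ≤ C3) (hC4 : 0 ≤ C4) (hC5 : 0 ≤ C5) (hC6 : 0 ≤ C6)
    (H1 : ∀ h, ParB B h → ∀ r : ℝ, 1 ≤ r → ∀ g : E2 → ℂ, Integrable g →
      (∀ ξ, 2 < ‖ξ‖ → g ξ = 0) →
      ∀ S : ℤ × ℤ → Set E2, Bs (r ^ (-(1/2) : ℝ)) S → ∀ Δ : ℝ, 0 ≤ Δ → Dens q h r g S Δ →
      W188.PBox q 6 h (sel (r ^ (-(1/2) : ℝ)) g S) r (C1 * Δ))
    (H2 : ∀ ρ : ℝ, 0 < ρ → ρ ≤ 1 → ∀ g : E2 → ℂ, Integrable g → ∀ S : ℤ × ℤ → Set E2, Bs ρ S →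
      ∫⁻ ξ, ‖sel ρ g S ξ‖ₑ ^ 2 ≤ ENNReal.ofReal C2 * en ρ g S)
    (H3 : ∀ ρ : ℝ, 0 < ρ → ρ ≤ 1 → ∀ g : E2 → ℂ,
      Integrable g → MemLp g 2 → ∀ S : ℤ × ℤ → Set E2,
      en ρ g S ≤ ENNReal.ofReal C3 * ∫⁻ ξ, ‖g ξ‖ₑ ^ 2)
    (H4 : ∀ h, ParB B h → fderiv ℝ h 0 = 0 → ∀ r : ℝ, 1 ≤ r → ∀ g : E2 → ℂ, Integrable g →
      MemLp g 2 → (∀ ξ, 2 < ‖ξ‖ → g ξ = 0) → ∀ S : ℤ × ℤ → Set E2, Bs (r ^ (-(1/2) : ℝ)) S →
      (∀ m ∈ caps (r ^ (-(1/2) : ℝ)),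
        Metric.closedBall 0 ((1 + 8 + 4 * 8 * (1 + |B 2|)) * r) ⊆ S m) →
      ∀ (x : E2) (t : ℝ), ‖x‖ ≤ 8 * r → |t| ≤ 8 * r →
      ‖ext h g x t - ext h (sel (r ^ (-(1/2) : ℝ)) g S) x t‖ₑ ^ 2 ≤
        ENNReal.ofReal (C4 * (r ^ (2 * (2 * M)))⁻¹) * ∫⁻ ξ, ‖g ξ‖ₑ ^ 2)
    (H5 : ∀ (h : E2 → ℝ) (F : E2 → ℂ), MemLp F 2 → (∀ ξ, 2 < ‖ξ‖ → F ξ = 0) →
      ∀ (x : E2) (t : ℝ), ‖ext h F x t‖ ≤ C5 * Real.sqrt (En F))
    {ε : ℝ} (hε : 0 < ε)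
    (H6 : ∀ R : ℝ, 1 ≤ R → ((Lam ⌈Real.logb 2 R⌉₊
      ((2 * M + ⌈q / 2⌉₊ + 2) * ⌈Real.logb 2 R⌉₊)).card : ℝ) ≤ C6 * R ^ ε)
    {N7 C0 : ℝ} (hN7 : N7 = NB (B 2) (KB (B 2))) (hC01 : 49 * 2 ^ (q + 2) ≤ C0)
    (hC02 : C1 * (49 * 2 ^ (q + 2)) ≤ C0) (hC03 : C2 * N7 ≤ C0)
    {C : ℝ} (hCC6 : C6 ≤ C)
    (hCC4 : Real.sqrt C4 + C5 * Real.sqrt (C2 * (N7 * C3)) ≤ C)
    {R r : ℝ} (hR : 1 ≤ R) (hRr : R ^ (1/2 : ℝ) ≤ r) (hrR : r ≤ R) (hr36 : 36 ≤ r)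
    {K : ℕ} (hK1 : 1 ≤ K) :
    ∃ Λ : Finset ℕ, (Λ.card : ℝ) ≤ C * R ^ ε * K ∧ (∀ k ∈ Λ, la k 0 ≤ la k 1 ∧ lc k < K) ∧
    ∀ h, ParB B h → fderiv ℝ h 0 = 0 → ∀ g' : E2 → ℂ, Measurable g' →
      (∃ L, ∀ ξ, ‖g' ξ‖ ≤ L) → (∀ ξ, 1 < ‖ξ‖ → g' ξ = 0) →
      ∀ cls : Tst → Cel → ℕ, (∀ p x, cls p x < K) →
      ∃ (Δ : ℕ → ℝ) (I : ℕ → Finset ℕ) (P : ℕ → ℕ → Tst) (A : ℕ → ℕ → Finset Cel),
        DecD (B 2) q C0 h r g' K cls Λ Δ I P A ∧
        ∀ p : E2 × ℝ, ‖p.1‖ ≤ 8 * r → |p.2| ≤ 8 * r →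
          ‖ext h (fun ξ => g' ξ - sel (r ^ (-(1/2) : ℝ)) g'
            (cs (r ^ (-(1/2) : ℝ) * r) (allc Λ I A)) ξ) p.1 p.2‖ ≤
          C * K * R ^ (-(M : ℝ)) * Real.sqrt (En g') := by
  classical
  have hR0 : 0 < R := by linarith
  have hr1 : 1 ≤ r := by linarith
  have hr0 : 0 < r := by linarith
  have hRe : 1 ≤ R ^ ε := Real.one_le_rpow hR hε.le
  have hC0 : 0 ≤ C := hC6.trans hCC6
  have hK1' : (1:ℝ) ≤ K := by exact_mod_cast hK1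
  have hK0' : (0:ℝ) < K := by linarith
  have hB2 : 0 ≤ |B 2| := abs_nonneg _
  have hC0' : 0 < C0 := by
    refine lt_of_lt_of_le ?_ hC01
    positivity
  obtain ⟨Kp, hKp⟩ : ∃ Kp : ℝ, Kp = 1 + 8 + 4 * 8 * (1 + |B 2|) := ⟨_, rfl⟩
  have hKB : KB (B 2) = 2 * (Kp + 1) := by rw [hKp]; rfl
  have hKp0 : 0 ≤ Kp := by rw [hKp]; positivity
  have hK11 : 1 ≤ KB (B 2) := by rw [hKB]; linarith
  have hN70 : 0 ≤ N7 := by rw [hN7]; positivity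
  obtain ⟨hρ, hρ1, hρ2⟩ := rp_facts hr1
  have hρ6 : r ^ (-(1/2) : ℝ) ≤ 1 / 6 := by
    refine le_of_sq_le_sq ?_ (by norm_num)
    rw [hρ2]
    rw [inv_eq_one_div, div_le_iff₀ hr0]
    linarith
  -- abbreviations
  obtain ⟨ρ, hρe⟩ : ∃ ρ : ℝ, ρ = r ^ (-(1/2) : ℝ) := ⟨_, rfl⟩
  rw [← hρe] at hρ hρ1 hρ2 hρ6
  set l : ℝ := ρ * r with hl
  have hl2 : l ^ 2 = r := by
    rw [hl, mul_pow, hρ2]; field_simp
  have hl0 : 0 < l := by positivity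
  have hl1 : 1 ≤ l := by
    refine le_of_sq_le_sq ?_ hl0.le
    rw [hl2]; linarith
  set n : ℕ := ⌈Real.logb 2 R⌉₊ with hn
  have hRn : R ≤ 2 ^ n := two_pow_logb hR
  have hnρ : 1 ≤ 2 ^ n * ρ := by
    calc (1:ℝ) ≤ l := hl1
      _ = r * ρ := by rw [hl]; ring
      _ ≤ 2 ^ n * ρ := by
        have := hrR.trans hRn
        gcongr
  set T : ℕ := 2 * M + ⌈q / 2⌉₊ + 2 with hT
  set J : ℕ := T * n with hJ
  have hJR : R ^ T ≤ 2 ^ J := by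
    rw [hJ, mul_comm, pow_mul]
    gcongr
  refine ⟨LamK n J K, ?_, ?_, ?_⟩
  · have h1 : ((LamK n J K).card : ℝ) ≤ (Lam n J).card * K := by exact_mod_cast card_LamK n J K
    refine h1.trans ?_
    have h2 := H6 R hR
    have h3 : ((Lam n J).card : ℝ) ≤ C * R ^ ε := h2.trans (by gcongr)
    gcongr
  · intro k hk
    rw [mem_LamK] at hk
    exact ⟨hk.1, hk.2.2.2⟩
  intro h hh hh1 g' htm htb0 hts' cls hcls
  have hhc : Continuous h := hh.1.continuous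
  obtain ⟨L, htb⟩ := htb0
  have hts : ∀ ξ, 2 < ‖ξ‖ → g' ξ = 0 := fun ξ hξ => hts' ξ (by linarith)
  obtain ⟨hgi, hg2⟩ := int_of_bdd htm htb hts
  -- the cells
  set X0 : Finset Cel := caps ρ ×ˢ
    (Finset.Icc (-⌈Kp * l⌉) ⌈Kp * l⌉ ×ˢ Finset.Icc (-⌈Kp * l⌉) ⌈Kp * l⌉) with hX0
  have hX0c : ∀ x ∈ X0, x.1 ∈ caps ρ := fun x hx => (Finset.mem_product.1 hx).1
  have hX0p : ∀ x ∈ X0, ‖cen l x.2‖ ≤ KB (B 2) * r := by
    intro x hx
    rw [hKB, ← hl2]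
    exact pos_box' hl1 hKp0 (Finset.mem_product.1 hx).2
  set Δ0 : ℝ := C3 * En g' * r ^ (q / 2) with hΔ0
  have hrq : 0 < r ^ (q / 2) := Real.rpow_pos_of_pos hr0 _
  have hΔ00 : 0 ≤ Δ0 := mul_nonneg (mul_nonneg hC3 (En_nn g')) hrq.le
  have hDD0 : DD q h ρ l r g' n X0 Δ0 := by
    rw [hΔ0, hl, hρe]
    exact dd_zero hC3 H3 hq hr1 hgi hg2 (by rw [← hρe]; exact hX0c)
  obtain ⟨X, nn, P, Ac, hXz, hAc, hdis, hXs, hDD⟩ := greedyc hρ hρ1 hr0 X0 hΔ00 hDD0 hK1 cls hcls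
  have hAX : ∀ j, ∀ i < nn j, Ac j i ⊆ X j := fun j i hi => (hAc j i hi).1
  have hXX0 : ∀ j, X j ⊆ X0 := fun j => by
    rw [← hXz]; exact X_anti hXs (Nat.zero_le j)
  have hBs : ∀ Y : Finset Cel, Bs ρ (cs l Y) := fun Y => cs_Bs hl0 ρ Y
  have hΔj : ∀ j : ℕ, 0 ≤ Δ0 / 2 ^ j := fun j => by positivity
  have hKΔj : ∀ j : ℕ, 0 ≤ (K:ℝ) * (Δ0 / 2 ^ j) := fun j => mul_nonneg hK0'.le (hΔj j)
  -- energies
  have hsel2 : ∀ Y : Finset Cel, MemLp (sel ρ g' (cs l Y)) 2 := fun Y =>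
    (sel_int hρ hgi (hBs Y)).2
  have hseli : ∀ Y : Finset Cel, Integrable (sel ρ g' (cs l Y)) := fun Y =>
    (sel_int hρ hgi (hBs Y)).1
  have hselEn : ∀ Y : Finset Cel, (∀ x ∈ Y, x.1 ∈ caps ρ) →
      ENNReal.ofReal (En (sel ρ g' (cs l Y))) ≤ ENNReal.ofReal C2 * ∑ x ∈ Y, ec ρ l g' x := by
    intro Y hYc
    rw [← lintEn (hsel2 Y), ← en_cs ρ l g' Y hYc]
    exact H2 ρ hρ hρ1 g' hgi _ (hBs Y)
  have hselD : ∀ (Y : Finset Cel) (j : ℕ), Y ⊆ X j →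
      En (sel ρ g' (cs l Y)) ≤ C2 * (N7 * (K * (Δ0 / 2 ^ j) * r ^ 2)) := by
    intro Y j hYj
    have hYc : ∀ x ∈ Y, x.1 ∈ caps ρ := fun x hx => hX0c x (hXX0 j (hYj hx))
    have h1 := hselEn Y hYc
    have h2 : ∑ x ∈ Y, ec ρ l g' x ≤ ENNReal.ofReal (N7 * (K * (Δ0 / 2 ^ j) * r ^ 2)) := by
      rw [hl, hρe, hN7]
      refine tot_le B hh hh1 hr1 (n := n) (by rw [← hρe]; exact hnρ) hK11 ?_ (hKΔj j)
        (q := q) ?_
      · intro x hx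
        rw [← hρe]
        exact ⟨hYc x hx, hX0p x (hXX0 j (hYj hx))⟩
      · rw [← hρe]
        exact (hDD j).mono hYj
    have h3 : ENNReal.ofReal (En (sel ρ g' (cs l Y))) ≤
        ENNReal.ofReal (C2 * (N7 * (K * (Δ0 / 2 ^ j) * r ^ 2))) := by
      rw [ENNReal.ofReal_mul hC2]
      exact h1.trans (by gcongr)
    have := hΔj j
    rwa [ENNReal.ofReal_le_ofReal_iff (by positivity)] at h3
  have hsupp : ∀ (Y : Finset Cel) (ξ : E2), 2 < ‖ξ‖ → sel ρ g' (cs l Y) ξ = 0 := by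
    intro Y ξ hξ
    exact sel_supp hρ hts' ξ (by linarith)
  have hcsub : ∀ k, cells (fun k i => Ac (lv k) i) k (IK nn P k) ⊆ X (lv k) := by
    intro k x hx
    rw [mem_cells] at hx
    obtain ⟨i, hi, hx⟩ := hx
    exact hAX _ i (mem_IK.1 hi).1 hx
  have hAP : ∀ j, ∀ i < nn j, (P j i).1.a 0 ≤ (P j i).1.a 1 ∧ (P j i).1.a 1 ≤ n ∧
      (P j i).2 < K := fun j i hi =>
    ⟨(hAc j i hi).2.1, (hAc j i hi).2.2.1, (hAc j i hi).2.2.2.1⟩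
  refine ⟨fun k => Δ0 / 2 ^ lv k, IK nn P, fun k i => (P (lv k) i).1, fun k i => Ac (lv k) i,
    ⟨fun k => hΔj _, ?_, ?_, ?_, ?_, ?_, ?_, ?_, ?_, ?_, ?_⟩, ?_⟩
  · -- cell
    intro k hk i hi x hx
    have h1 := hXX0 _ (hAX _ i (mem_IK.1 hi).1 hx)
    rw [← hρe]
    exact ⟨hX0c x h1, hX0p x h1⟩
  · intro k hk i hi
    exact (mem_IK.1 hi).2.1
  · intro k hk i hi x hx
    rw [← hρe]
    exact ((hAc _ i (mem_IK.1 hi).1).2.2.2.2.1 x hx).1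
  · intro k hk i hi x hx
    exact ((hAc _ i (mem_IK.1 hi).1).2.2.2.2.1 x hx).2.trans (mem_IK.1 hi).2.2
  · -- pos
    intro k hk i hi
    have hi1 := (mem_IK.1 hi).1
    obtain ⟨h1, h2, h3, h3', h4, h5⟩ := hAc _ i hi1
    have hne : (Ac (lv k) i).Nonempty := by
      by_contra hne
      rw [Finset.not_nonempty_iff_eq_empty] at hne
      rw [hne, Finset.sum_empty] at h5
      exact not_lt_zero h5
    obtain ⟨x, hx⟩ := hne
    exact plate_pos hr0 (h4 x hx).1 (hX0p x (hXX0 _ (h1 hx)))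
  · -- dense
    intro k hk i hi
    obtain ⟨hi1, hi2, hi3⟩ := mem_IK.1 hi
    obtain ⟨h1, h2, h3, h3', h4, h5⟩ := hAc _ i hi1
    rw [← hρe, ← hi2]
    refine lt_of_le_of_lt (le_of_eq ?_) h5
    rw [pow_succ]
    congr 2
    ring
  · -- disj
    intro k hk k' hk' i hi i' hi' hne
    exact IK_disj hAX hdis hXs hi hi' hne
  · -- dens
    intro k hk Y hY
    have hsub : Y ⊆ X (lv k) := hY.trans (hcsub k)
    have h1 : Dens q h r g' (cs l Y) (49 * 2 ^ (q + 2) * (K * (Δ0 / 2 ^ lv k))) := by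
      rw [hl, hρe]
      refine dens_of_dd hq hr1 (n := n) (by rw [← hρe]; exact hnρ) ?_ (hKΔj _) ?_
      · rw [← hρe]; exact fun x hx => hX0c x (hXX0 _ (hsub hx))
      · rw [← hρe]; exact (hDD (lv k)).mono hsub
    rw [← hρe]
    refine Dens_mono hr1 h1 ?_
    have h3 := hKΔj (lv k)
    calc 49 * 2 ^ (q + 2) * (K * (Δ0 / 2 ^ lv k)) ≤ C0 * (K * (Δ0 / 2 ^ lv k)) := by gcongr
      _ = _ := by ring
  · -- pbox
    intro k hk Y hY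
    have hsub : Y ⊆ X (lv k) := hY.trans (hcsub k)
    have h1 : Dens q h r g' (cs l Y) (49 * 2 ^ (q + 2) * (K * (Δ0 / 2 ^ lv k))) := by
      rw [hl, hρe]
      refine dens_of_dd hq hr1 (n := n) (by rw [← hρe]; exact hnρ) ?_ (hKΔj _) ?_
      · rw [← hρe]; exact fun x hx => hX0c x (hXX0 _ (hsub hx))
      · rw [← hρe]; exact (hDD (lv k)).mono hsub
    have h2 := H1 h hh r hr1 g' hgi hts (cs l Y) (by rw [← hρe]; exact hBs _)
      (49 * 2 ^ (q + 2) * (K * (Δ0 / 2 ^ lv k)))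
      (by have := hKΔj (lv k); positivity) h1
    rw [← hρe] at h2 ⊢
    refine PBox_mono hr1 h2 ?_
    have h3 := hKΔj (lv k)
    calc C1 * (49 * 2 ^ (q + 2) * (K * (Δ0 / 2 ^ lv k))) =
          C1 * (49 * 2 ^ (q + 2)) * (K * (Δ0 / 2 ^ lv k)) := by ring
      _ ≤ C0 * (K * (Δ0 / 2 ^ lv k)) := by gcongr
      _ = _ := by ring
  · -- energy
    intro k hk Y hY
    have hsub : Y ⊆ X (lv k) := hY.trans (hcsub k)
    have h1 := hselD Y (lv k) hsub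
    rw [← hρe]
    refine h1.trans ?_
    have h3 := hKΔj (lv k)
    calc C2 * (N7 * (K * (Δ0 / 2 ^ lv k) * r ^ 2)) =
          (C2 * N7) * (K * (Δ0 / 2 ^ lv k)) * r ^ 2 := by ring
      _ ≤ C0 * (K * (Δ0 / 2 ^ lv k)) * r ^ 2 := by gcongr
      _ = _ := by ring
  · -- the rest is small
    intro p hp1 hp2
    set Y : Finset Cel := allc (LamK n J K) (IK nn P) (fun k i => Ac (lv k) i) with hY
    have hYe : Y = X 0 \ X J := by
      ext x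
      rw [hY, mem_allc]
      exact (IK_union hAX hXs hAP x).symm
    have hsum2 : ∀ ξ, sel ρ g' (cs l X0) ξ = sel ρ g' (cs l Y) ξ + sel ρ g' (cs l (X J)) ξ := by
      intro ξ
      rw [hYe]
      have h1 := sel_sum (ρ := ρ) hl0 hgi (Finset.univ : Finset Bool)
        (fun b => if b then X 0 \ X J else X J) X0 ?_ ?_ ξ
      · rw [Fintype.sum_bool] at h1
        simpa using h1
      · intro b _ b' _ hne
        have hd : Disjoint (X 0 \ X J) (X J) := Finset.sdiff_disjoint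
        cases b <;> cases b' <;> simp at hne ⊢
        · exact hd.symm
        · exact hd
      · intro x
        have hsub : X J ⊆ X 0 := X_anti hXs (Nat.zero_le J)
        constructor
        · intro hx
          by_cases h2 : x ∈ X J
          · exact ⟨false, Finset.mem_univ _, by simpa using h2⟩
          · exact ⟨true, Finset.mem_univ _, by simp [hXz, hx, h2]⟩
        · rintro ⟨b, _, hb⟩
          cases b
          · exact hXX0 J (by simpa using hb)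
          · have h3 : x ∈ X 0 \ X J := by simpa using hb
            rw [← hXz]
            exact (Finset.mem_sdiff.1 h3).1
    rw [← hρe]
    have h1 : (fun ξ => g' ξ - sel ρ g' (cs l Y) ξ) =
        fun ξ => g' ξ - sel ρ g' (cs l X0) ξ + sel ρ g' (cs l (X J)) ξ := by
      funext ξ
      rw [hsum2 ξ]
      ring
    rw [h1, ext_lin hhc hgi (hseli X0) (hseli (X J))]
    have hRM : 0 < R ^ (-(M : ℝ)) := Real.rpow_pos_of_pos hR0 _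
    have e0 : R ^ (-(M : ℝ)) = (R ^ M)⁻¹ := by
      rw [Real.rpow_neg hR0.le, Real.rpow_natCast]
    -- first part
    have h2 := H4 h hh hh1 r hr1 g' hgi hg2 hts (cs l X0) (by rw [← hρe]; exact hBs _) (by
      intro m hm y hy
      rw [← hρe] at hm
      rw [Metric.mem_closedBall, dist_zero_right] at hy
      refine Finset.mem_product.2 ⟨hm, ?_⟩
      refine pos_box hl0 hKp0 ?_
      rw [hl2, hKp]
      exact hy) p.1 p.2 hp1 hp2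
    rw [← hρe, lintEn hg2, ← ENNReal.ofReal_mul (by positivity)] at h2
    have h3 := norm_le_of_enorm_sq (mul_nonneg (by positivity) (En_nn g')) h2
    have hrM : R ^ M ≤ r ^ (2 * M) := by
      have h4 : R ≤ r ^ 2 := by
        calc R = (R ^ (1/2 : ℝ)) ^ 2 := by
              rw [← Real.rpow_natCast, ← Real.rpow_mul hR0.le]; norm_num
          _ ≤ r ^ 2 := by gcongr
      rw [pow_mul]
      gcongr
    have h4 : ‖ext h g' p.1 p.2 - ext h (sel ρ g' (cs l X0)) p.1 p.2‖ ≤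
        Real.sqrt C4 * R ^ (-(M : ℝ)) * Real.sqrt (En g') := by
      refine h3.trans ?_
      have e1 : C4 * (r ^ (2 * (2 * M)))⁻¹ * En g' = C4 * (((r ^ (2 * M))⁻¹) ^ 2 * En g') := by
        rw [mul_comm 2 (2 * M), pow_mul, inv_pow]; ring
      rw [e1, Real.sqrt_mul hC4, Real.sqrt_mul (by positivity), Real.sqrt_sq (by positivity),
        ← mul_assoc, e0]
      gcongr
    -- second part
    have h5 := H5 h (sel ρ g' (cs l (X J))) (hsel2 _) (fun ξ hξ => hsupp _ ξ hξ) p.1 p.2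
    have h6 := hselD (X J) J (Finset.Subset.refl _)
    have h7 : C2 * (N7 * (K * (Δ0 / 2 ^ J) * r ^ 2)) ≤
        C2 * (N7 * C3) * (K * (((R ^ M)⁻¹) ^ 2 * En g')) := by
      have e2 : r ^ (q / 2) ≤ R ^ ⌈q / 2⌉₊ := by
        calc r ^ (q / 2) ≤ R ^ (q / 2) := Real.rpow_le_rpow hr0.le hrR (by positivity)
          _ ≤ R ^ ((⌈q / 2⌉₊ : ℕ) : ℝ) := Real.rpow_le_rpow_of_exponent_le hR (Nat.le_ceil _)
          _ = _ := Real.rpow_natCast _ _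
      have e3 : r ^ 2 ≤ R ^ 2 := by gcongr
      have e4 : r ^ (q / 2) * r ^ 2 / 2 ^ J ≤ ((R ^ M)⁻¹) ^ 2 := by
        rw [inv_pow, div_le_iff₀ (by positivity), ← div_eq_inv_mul, le_div_iff₀ (by positivity)]
        calc r ^ (q / 2) * r ^ 2 * (R ^ M) ^ 2 ≤ R ^ ⌈q / 2⌉₊ * R ^ 2 * (R ^ M) ^ 2 := by gcongr
          _ = R ^ T := by rw [hT]; ring
          _ ≤ 2 ^ J := hJR
      have h8 := En_nn g'
      rw [hΔ0]
      calc C2 * (N7 * (K * (C3 * En g' * r ^ (q / 2) / 2 ^ J) * r ^ 2)) =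
          C2 * (N7 * C3) * (K * (r ^ (q / 2) * r ^ 2 / 2 ^ J * En g')) := by ring
        _ ≤ _ := by gcongr
    have h8 : ‖ext h (sel ρ g' (cs l (X J))) p.1 p.2‖ ≤
        C5 * Real.sqrt (C2 * (N7 * C3)) * (K * R ^ (-(M : ℝ))) * Real.sqrt (En g') := by
      refine h5.trans ?_
      have h9 : Real.sqrt (En (sel ρ g' (cs l (X J)))) ≤
          Real.sqrt (C2 * (N7 * C3)) * (K * (R ^ (-(M : ℝ)) * Real.sqrt (En g'))) := by
        refine (Real.sqrt_le_sqrt (h6.trans h7)).trans ?_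
        rw [Real.sqrt_mul (by positivity : 0 ≤ C2 * (N7 * C3)), Real.sqrt_mul hK0'.le,
          Real.sqrt_mul (by positivity : 0 ≤ ((R ^ M)⁻¹) ^ 2), Real.sqrt_sq (by positivity), e0]
        have h10 : Real.sqrt K ≤ K := by
          rw [Real.sqrt_le_left (by linarith)]
          nlinarith
        gcongr
      calc C5 * Real.sqrt (En (sel ρ g' (cs l (X J)))) ≤
          C5 * (Real.sqrt (C2 * (N7 * C3)) * (K * (R ^ (-(M : ℝ)) * Real.sqrt (En g')))) := by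
            gcongr
        _ = _ := by ring
    calc ‖ext h g' p.1 p.2 - ext h (sel ρ g' (cs l X0)) p.1 p.2 +
          ext h (sel ρ g' (cs l (X J))) p.1 p.2‖ ≤
        Real.sqrt C4 * R ^ (-(M : ℝ)) * Real.sqrt (En g') +
          C5 * Real.sqrt (C2 * (N7 * C3)) * (K * R ^ (-(M : ℝ))) * Real.sqrt (En g') :=
          (norm_add_le _ _).trans (add_le_add h4 h8)
      _ ≤ Real.sqrt C4 * (K * R ^ (-(M : ℝ))) * Real.sqrt (En g') +
          C5 * Real.sqrt (C2 * (N7 * C3)) * (K * R ^ (-(M : ℝ))) * Real.sqrt (En g') := by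
            have : R ^ (-(M : ℝ)) ≤ K * R ^ (-(M : ℝ)) := le_mul_of_one_le_left hRM.le hK1'
            gcongr
      _ = (Real.sqrt C4 + C5 * Real.sqrt (C2 * (N7 * C3))) * (K * R ^ (-(M : ℝ))) *
          Real.sqrt (En g') := by ring
      _ ≤ C * (K * R ^ (-(M : ℝ))) * Real.sqrt (En g') := by gcongr
      _ = _ := by ring

/-- **DECc**: decomposition with classes, raw form. -/
theorem decc (B : ℕ → ℝ) {q : ℝ} (hq : 0 ≤ q) : ∃ C0 : ℝ, 1 ≤ C0 ∧ ∀ (M : ℕ) (ε : ℝ), 0 < ε →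
    ∃ C : ℝ, 0 ≤ C ∧ ∀ R r : ℝ, 1 ≤ R → R ^ (1/2 : ℝ) ≤ r → r ≤ R → ∀ K : ℕ, 1 ≤ K →
    ∃ Λ : Finset ℕ, (Λ.card : ℝ) ≤ C * R ^ ε * K ∧ (∀ k ∈ Λ, la k 0 ≤ la k 1 ∧ lc k < K) ∧
    ∀ h, ParB B h → fderiv ℝ h 0 = 0 → ∀ g' : E2 → ℂ, Measurable g' →
      (∃ L, ∀ ξ, ‖g' ξ‖ ≤ L) → (∀ ξ, 1 < ‖ξ‖ → g' ξ = 0) →
      ∀ cls : Tst → Cel → ℕ, (∀ p x, cls p x < K) →
      ∃ (Δ : ℕ → ℝ) (I : ℕ → Finset ℕ) (P : ℕ → ℕ → Tst) (A : ℕ → ℕ → Finset Cel),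
        DecD (B 2) q C0 h r g' K cls Λ Δ I P A ∧
        ∀ p : E2 × ℝ, ‖p.1‖ ≤ 8 * r → |p.2| ≤ 8 * r →
          ‖ext h (fun ξ => g' ξ - sel (r ^ (-(1/2) : ℝ)) g'
            (cs (r ^ (-(1/2) : ℝ) * r) (allc Λ I A)) ξ) p.1 p.2‖ ≤
          C * K * R ^ (-(M : ℝ)) * Real.sqrt (En g') := by
  obtain ⟨C1, hC1, H1⟩ := pbox_sel B q
  obtain ⟨C2, hC2, H2⟩ := sel_energy
  obtain ⟨C3, hC3, H3⟩ := en_le
  obtain ⟨C5, hC5, H5⟩ := sup_ext
  set N7 : ℝ := ((NB (B 2) (KB (B 2)) : ℕ) : ℝ) with hN7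
  have hN70 : 0 ≤ N7 := by rw [hN7]; positivity
  have t1 : 0 ≤ C1 * (49 * 2 ^ (q + 2)) := by positivity
  have t2 : 0 ≤ C2 * N7 := by positivity
  have t3 : 0 ≤ 49 * (2:ℝ) ^ (q + 2) := by positivity
  refine ⟨1 + 49 * 2 ^ (q + 2) + C1 * (49 * 2 ^ (q + 2)) + C2 * N7, by linarith,
    fun M ε hε => ?_⟩
  obtain ⟨C4, hC4, H4⟩ := rest_small B 8 (by norm_num) (2 * M)
  obtain ⟨C6, hC6, H6⟩ := card_bound hε (2 * M + ⌈q / 2⌉₊ + 2)
  have t4 : 0 ≤ Real.sqrt C4 + C5 * Real.sqrt (C2 * (N7 * C3)) := by positivity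
  have t5 : 0 ≤ C5 * 1296 ^ M := by positivity
  refine ⟨C6 + (Real.sqrt C4 + C5 * Real.sqrt (C2 * (N7 * C3))) + C5 * 1296 ^ M, by positivity, ?_⟩
  intro R r hR hRr hrR K hK
  by_cases hr36 : r < 36
  · have hR0 : 0 < R := by linarith
    have hRe : 1 ≤ R ^ ε := Real.one_le_rpow hR hε.le
    have hR1296 : R < 1296 := by
      have h1 : R = (R ^ (1/2 : ℝ)) ^ 2 := by
        rw [← Real.rpow_natCast, ← Real.rpow_mul hR0.le]; norm_num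
      rw [h1]
      have h2 : 0 ≤ R ^ (1/2 : ℝ) := by positivity
      nlinarith
    refine ⟨∅, by simp; positivity, by simp, ?_⟩
    intro h hh hh1 g' htm htb hts' cls hcls
    obtain ⟨L, htb⟩ := htb
    have hts : ∀ ξ, 2 < ‖ξ‖ → g' ξ = 0 := fun ξ hξ => hts' ξ (by linarith)
    refine ⟨fun _ => 0, fun _ => ∅, fun _ _ => ⟨0, EuclideanSpace.basisFun (Fin 2) ℝ, 0,
      fun _ => 0⟩, fun _ _ => ∅, ⟨by simp, by simp, by simp, by simp, by simp, by simp, by simp,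
      by simp, by simp, by simp, by simp⟩, ?_⟩
    intro p _ _
    have h0 : ∀ ξ, sel (r ^ (-(1/2) : ℝ)) g' (cs (r ^ (-(1/2) : ℝ) * r)
        (allc ∅ (fun _ => ∅) (fun _ _ => ∅))) ξ = 0 := by
      intro ξ
      unfold sel piece
      refine Finset.sum_eq_zero fun m _ => ?_
      have h1 : (cs (r ^ (-(1/2) : ℝ) * r) (allc ∅ (fun _ => ∅) (fun _ _ => ∅)) m) = ∅ := by
        ext y
        simp [cs, allc]
      rw [h1, Set.indicator_empty]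
      have h2 : 𝓕 (fun _ : E2 => (0:ℂ)) ξ = 0 := by
        rw [fourier_eq_int]
        simp
      rw [h2, mul_zero]
    have h1 : (fun ξ => g' ξ - sel (r ^ (-(1/2) : ℝ)) g' (cs (r ^ (-(1/2) : ℝ) * r)
        (allc ∅ (fun _ => ∅) (fun _ _ => ∅))) ξ) = g' := by
      funext ξ
      rw [h0, sub_zero]
    rw [h1]
    refine (H5 h _ (int_of_bdd htm htb hts).2 hts p.1 p.2).trans ?_
    have hK1' : (1:ℝ) ≤ K := by exact_mod_cast hK
    have h2 : C5 ≤ (C6 + (Real.sqrt C4 + C5 * Real.sqrt (C2 * (N7 * C3))) + C5 * 1296 ^ M) * K *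
        R ^ (-(M : ℝ)) := by
      rw [Real.rpow_neg hR0.le, Real.rpow_natCast, ← div_eq_mul_inv, le_div_iff₀ (by positivity)]
      calc C5 * R ^ M ≤ C5 * 1296 ^ M := by gcongr
        _ ≤ (C6 + (Real.sqrt C4 + C5 * Real.sqrt (C2 * (N7 * C3))) + C5 * 1296 ^ M) := by linarith
        _ ≤ _ := le_mul_of_one_le_right (by positivity) hK1'
    gcongr
  · push Not at hr36
    exact decc_big hq hC1 hC2 hC3 hC4 hC5 hC6 H1 H2 H3 H4 H5 hε H6 hN7 (by linarith)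
      (by linarith) (by linarith) (by linarith) (by linarith) hR hRr hrR hr36 hK

/-! ### consequences -/

/-- additivity over labels. -/
theorem sel_allc {ρ l : ℝ} (hl : 0 < l) {g : E2 → ℂ} (hg : Integrable g) {Λ : Finset ℕ}
    {I : ℕ → Finset ℕ} {A : ℕ → ℕ → Finset Cel}
    (hd : ∀ k ∈ Λ, ∀ k' ∈ Λ, ∀ i ∈ I k, ∀ i' ∈ I k', (k ≠ k' ∨ i ≠ i') →
      Disjoint (A k i) (A k' i')) (ξ : E2) :
    sel ρ g (cs l (allc Λ I A)) ξ = ∑ k ∈ Λ, sel ρ g (cs l (cells A k (I k))) ξ := by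
  refine sel_sum hl hg Λ (fun k => cells A k (I k)) _ ?_ ?_ ξ
  · intro k hk k' hk' hne
    rw [Finset.disjoint_left]
    intro x hx hx'
    rw [mem_cells] at hx hx'
    obtain ⟨i, hi, hx⟩ := hx
    obtain ⟨i', hi', hx'⟩ := hx'
    exact Finset.disjoint_left.1 (hd k hk k' hk' i hi i' hi' (Or.inl hne)) hx hx'
  · intro x
    rw [mem_allc]
    constructor
    · rintro ⟨k, hk, i, hi, hx⟩
      exact ⟨k, hk, mem_cells.2 ⟨i, hi, hx⟩⟩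
    · rintro ⟨k, hk, hx⟩
      obtain ⟨i, hi, hx⟩ := mem_cells.1 hx
      exact ⟨k, hk, i, hi, hx⟩

end Crest.Agent.R138.W323
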