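import Crest.Agent.R138.Jc_294
import Crest.Agent.R138.Ps2_627

/-!
# R138, TEXT I (helper294): pigeonholing inside a configuration, equal dimensions

* `Cf.Ok.popular` : a popular colour of the top objects, every class and every line keeps `1/(4 #T)`;
* `Cf.Ok.dims` : all top planks have the same dimensions.
-/

set_option autoImplicit false
set_option linter.unusedVariables false

open Finset

namespace Crest.Agent.R138.K294

open Crest.Agent.R138.Flag51

noncomputable section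

variable {F : Cf} {q R C : ℝ}

/-- the configuration with new incidences and smaller densities -/
def Cf.sub (F : Cf) (I' : Finset (Ln × ℝ)) (δ : ℝ) : Cf :=
  {F with I := I', D1 := δ * F.D1, nu := δ * F.nu}

open Classical in
/-- **popular colour**: `col` an arbitrary function of the top objects -/
theorem Cf.Ok.popular {γ : Type*} (h : F.Ok q) (col : Ln × ℤ → γ) (T : Finset γ)
    (hT : ∀ x ∈ F.I, col (ob F.top x) ∈ T) :
    ∃ c ∈ T, ∃ I' ⊆ F.I, (∀ x ∈ I', col (ob F.top x) = c) ∧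
      (F.sub I' (1 / (4 * T.card))).Ok q := by
  set O : Finset (Ln × ℤ) := F.I.image (ob F.top) with hO
  have hOne : O.Nonempty := h.ne.image _
  have hO0 : (0:ℝ) < O.card := by exact_mod_cast hOne.card_pos
  have hTO : ∀ o ∈ O, col o ∈ T := by
    intro o ho
    obtain ⟨x, hx, rfl⟩ := mem_image.1 ho
    exact hT x hx
  have hT0 : 0 < T.card := by
    obtain ⟨o, ho⟩ := hOne
    exact card_pos.2 ⟨_, hTO o ho⟩
  have hT0' : (0:ℝ) < T.card := by exact_mod_cast hT0
  -- popular colour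
  obtain ⟨c, hc, hpop⟩ : ∃ c ∈ T, (O.card : ℝ) ≤ T.card * ((O.filter fun o => col o = c).card : ℝ) := by
    by_contra hcon
    push Not at hcon
    have h1 : (O.card : ℝ) = ∑ c ∈ T, ((O.filter fun o => col o = c).card : ℝ) := by
      rw [card_eq_sum_card_fiberwise (f := col) (t := T) (s := O) (fun o ho => hTO o ho)]
      push_cast; rfl
    have h2 : ∑ c ∈ T, (T.card : ℝ) * ((O.filter fun o => col o = c).card : ℝ) <
        ∑ c ∈ T, (O.card : ℝ) := by
      refine sum_lt_sum_of_nonempty (card_pos.1 hT0) fun c hc => hcon c hc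
    rw [← mul_sum, ← h1, sum_const, nsmul_eq_mul] at h2
    exact lt_irrefl _ h2
  set A : Finset (Ln × ℤ) := O.filter fun o => col o = c with hA
  set δ : ℝ := 1 / (4 * T.card) with hδ
  have hδ0 : 0 < δ := by positivity
  have hAO : A ⊆ O := filter_subset _ _
  -- pruning
  obtain ⟨A', hA'A, hloss, hfib⟩ := Ps627.prune_rel (M := Bool)
    (η := fun b => match b with | true => ℕ | false => Ln)
    (fun b => match b with | true => F.cl | false => Prod.fst) hAO hδ0.le
  have hA'ne : A'.Nonempty := by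
    rw [← card_pos]
    have h1 : (0:ℝ) < A'.card := by
      have h2 : (Fintype.card Bool : ℝ) * δ * O.card = O.card / (2 * T.card) := by
        rw [hδ, Fintype.card_bool]; push_cast; field_simp; norm_num
      rw [h2] at hloss
      have h3 : (O.card : ℝ) / (2 * T.card) ≤ (A.card : ℝ) / 2 := by
        rw [div_le_div_iff₀ (by positivity) (by norm_num)]
        nlinarith
      have h4 : (0:ℝ) < A.card := by
        by_contra h5
        push Not at h5
        have : (T.card : ℝ) * A.card ≤ 0 := mul_nonpos_of_nonneg_of_nonpos hT0'.le h5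
        linarith
      linarith
    exact_mod_cast h1
  set I' : Finset (Ln × ℝ) := F.I.filter fun x => ob F.top x ∈ A' with hI'
  have hI'I : I' ⊆ F.I := filter_subset _ _
  have himg : I'.image (ob F.top) = A' := by
    ext o
    rw [mem_image]
    constructor
    · rintro ⟨x, hx, rfl⟩
      exact (mem_filter.1 hx).2
    · intro ho
      obtain ⟨x, hx, rfl⟩ := mem_image.1 (hAO (hA'A ho))
      exact ⟨x, mem_filter.2 ⟨hx, ho⟩, rfl⟩
  refine ⟨c, hc, I', hI'I, fun x hx => ?_, ?_⟩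
  · exact (mem_filter.1 (hA'A (mem_filter.1 hx).2)).2
  · refine ⟨h.M1, h.r0, h.rle, ?_, fun x hx y hy => h.cell x (hI'I hx) y (hI'I hy),
      mul_pos hδ0 h.D1p, mul_pos hδ0 h.nup, fun x hx => h.legal x (hI'I hx),
      fun x hx => h.mem x (hI'I hx), fun x hx => ?_, fun x hx => ?_, fun K hK => ?_⟩
    · obtain ⟨o, ho⟩ := hA'ne
      rw [← himg] at ho
      obtain ⟨x, hx, -⟩ := mem_image.1 ho
      exact ⟨x, hx⟩
    · -- classes
      show δ * F.D1 * cap q F.top (F.K (F.cl (ob F.top x))) ≤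
        (((I'.image (ob F.top)).filter fun o => F.cl o = F.cl (ob F.top x)).card : ℝ)
      rw [himg]
      have h1 : δ * ((O.filter fun o => F.cl o = F.cl (ob F.top x)).card : ℝ) ≤
          ((A'.filter fun o => F.cl o = F.cl (ob F.top x)).card : ℝ) := by
        convert hfib true (ob F.top x) (mem_filter.1 hx).2
      have h0 : (F.cls x).card = (O.filter fun o => F.cl o = F.cl (ob F.top x)).card := by
        unfold Cf.cls; congr
      rw [← h0] at h1
      have h2 := h.low x (hI'I hx)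
      calc δ * F.D1 * cap q F.top (F.K (F.cl (ob F.top x))) =
            δ * (F.D1 * cap q F.top (F.K (F.cl (ob F.top x)))) := by ring
        _ ≤ δ * ((F.cls x).card : ℝ) := mul_le_mul_of_nonneg_left h2 hδ0.le
        _ ≤ _ := h1
    · -- lines
      show δ * F.nu ≤ (ownc F.m F.top I' x : ℝ)
      have h1 : δ * ((O.filter fun o => o.1 = (ob F.top x).1).card : ℝ) ≤
          ((A'.filter fun o => o.1 = (ob F.top x).1).card : ℝ) := by
        convert hfib false (ob F.top x) (mem_filter.1 hx).2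
      have h2 := h.own x (hI'I hx)
      have h3 : ownc F.m F.top F.I x ≤ (O.filter fun o => o.1 = (ob F.top x).1).card := by
        unfold ownc
        refine card_le_card fun o ho => ?_
        obtain ⟨y, hy, rfl⟩ := mem_image.1 ho
        rw [mem_filter] at hy
        rw [mem_filter]
        refine ⟨mem_image_of_mem _ hy.1, ?_⟩
        have := congrArg Prod.fst hy.2
        exact this
      have h4 : (A'.filter fun o => o.1 = (ob F.top x).1).card ≤ ownc F.m F.top I' x := by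
        unfold ownc
        refine card_le_card fun o ho => ?_
        rw [mem_filter] at ho
        obtain ⟨ho1, ho2⟩ := ho
        rw [← himg] at ho1
        obtain ⟨y, hy, rfl⟩ := mem_image.1 ho1
        refine mem_image_of_mem _ (mem_filter.2 ⟨hy, ?_⟩)
        unfold ob
        exact Prod.ext ho2 (h.cell y (hI'I hy) x (hI'I hx))
      calc δ * F.nu ≤ δ * (ownc F.m F.top F.I x : ℝ) := mul_le_mul_of_nonneg_left h2 hδ0.le
        _ ≤ δ * ((O.filter fun o => o.1 = (ob F.top x).1).card : ℝ) :=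
            mul_le_mul_of_nonneg_left (by exact_mod_cast h3) hδ0.le
        _ ≤ ((A'.filter fun o => o.1 = (ob F.top x).1).card : ℝ) := h1
        _ ≤ _ := by exact_mod_cast h4
    · refine le_trans (Nat.cast_le.2 (card_le_card ?_)) (h.up K hK)
      exact filter_subset_filter _ (image_subset_image hI'I)

/-- dyadic index of a width -/
def kw (r w : ℝ) : ℕ := ⌈Real.logb 2 (w / r)⌉₊

/-- width of a dyadic index, capped by `t` -/
def wd (r t : ℝ) (k : ℕ) : ℝ := min (r * 2 ^ k) t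

theorem le_wd {r t w : ℝ} (hr : 0 < r) (hw : r ≤ w) (ht : w ≤ t) : w ≤ wd r t (kw r w) := by
  refine le_min ?_ ht
  have hw0 : 0 < w := hr.trans_le hw
  have h1 : Real.logb 2 (w / r) ≤ kw r w := Nat.le_ceil _
  rw [Real.logb_le_iff_le_rpow one_lt_two (by positivity), Real.rpow_natCast,
    div_le_iff₀ hr] at h1
  linarith

theorem wd_le {r t w : ℝ} (hr : 0 < r) (hw : r ≤ w) : wd r t (kw r w) ≤ 2 * w := by
  refine (min_le_left _ _).trans ?_
  have hw0 : 0 < w := hr.trans_le hw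
  have h0 : 0 ≤ Real.logb 2 (w / r) := Real.logb_nonneg one_lt_two (by rwa [le_div_iff₀ hr, one_mul])
  have h1 : (kw r w : ℝ) ≤ Real.logb 2 (w / r) + 1 := (Nat.ceil_lt_add_one h0).le
  have h2 : (2:ℝ) ^ (kw r w) ≤ 2 * (w / r) := by
    rw [← Real.rpow_natCast]
    refine (Real.rpow_le_rpow_of_exponent_le one_le_two h1).trans (le_of_eq ?_)
    rw [Real.rpow_add (by norm_num), Real.rpow_logb (by norm_num) (by norm_num) (by positivity)]
    norm_num; ring
  calc r * 2 ^ (kw r w) ≤ r * (2 * (w / r)) := mul_le_mul_of_nonneg_left h2 hr.le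
    _ = 2 * w := by field_simp

theorem wd_mono {r t : ℝ} (hr : 0 < r) {k k' : ℕ} (h : k ≤ k') : wd r t k ≤ wd r t k' :=
  min_le_min (mul_le_mul_of_nonneg_left (pow_le_pow_right₀ one_le_two h) hr.le) le_rfl

theorem kw_mono {r w w' : ℝ} (hr : 0 < r) (hw : 0 < w) (h : w ≤ w') : kw r w ≤ kw r w' :=
  Nat.ceil_le_ceil (Real.logb_le_logb_of_le one_lt_two (by positivity)
    (div_le_div_of_nonneg_right h hr.le))

theorem le_wd' {r t : ℝ} (hr : 0 < r) (ht : r ≤ t) (k : ℕ) : r ≤ wd r t k :=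
  le_min (le_mul_of_one_le_right hr.le (one_le_pow₀ one_le_two)) ht

/-- the indices are bounded -/
theorem kw_le (h : F.Ok q) (hS : F.Sz R C) (hR : 1 ≤ R) {w : ℝ} (hw : F.r ≤ w)
    (hw2 : w ≤ 1 / 2 ^ F.top) : kw F.r w ≤ ⌈R * F.M⌉₊ := by
  have hr := h.r0
  have hw0 : 0 < w := hr.trans_le hw
  refine Nat.ceil_le_ceil ?_
  rw [Real.logb_le_iff_le_rpow one_lt_two (by positivity), div_le_iff₀ hr]
  have h1 := hS.resX
  have h2 : (2:ℝ) ^ (R * F.M) * (2:ℝ) ^ (-(R * F.M)) = 1 := by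
    rw [← Real.rpow_add (by norm_num)]; simp
  have h3 : (1:ℝ) ≤ 2 ^ (R * F.M) * (F.r * 2 ^ F.m) := by
    rw [← h2]
    exact mul_le_mul_of_nonneg_left h1 (by positivity)
  have h4 : 1 / (2:ℝ) ^ F.top ≤ 1 / 2 ^ F.m := one_div_le_one_div_of_le (by positivity)
    (pow_le_pow_right₀ one_le_two (Nat.le_add_right _ _))
  refine (hw2.trans h4).trans ?_
  rw [div_le_iff₀ (by positivity)]
  linarith

/-- change the dimensions of all planks to `(W1, W2)` -/
def Cf.redim (F : Cf) (W1 W2 : ℝ) : Cf :=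
  {F with K := fun c => {F.K c with w1 := W1, w2 := W2}, D1 := F.D1 / 16}

/-- **equal dimensions** (finite form) -/
theorem Cf.Ok.dims (h : F.Ok q) (hq0 : 0 ≤ q) (hq2 : q ≤ 2) (hS : F.Sz R C) (hR : 1 ≤ R) :
    ∃ (F' : Cf) (W1 W2 : ℝ), F'.Ok q ∧ F'.Sz R C ∧ F'.m = F.m ∧ F'.M = F.M ∧ F'.r = F.r ∧
      F'.I ⊆ F.I ∧ F'.cl = F.cl ∧ F'.D0 = F.D0 ∧
      (∀ c, (F'.K c).w1 = W1 ∧ (F'.K c).w2 = W2 ∧ (F'.K c).j = (F.K c).j ∧
        (F'.K c).l = (F.K c).l ∧ (F'.K c).e = (F.K c).e) ∧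
      F'.nu = F.nu / (4 * (⌈R * F.M⌉₊ + 1) ^ 2) ∧
      F'.D1 = F.D1 / (64 * (⌈R * F.M⌉₊ + 1) ^ 2) ∧
      F.r ≤ W1 ∧ W1 ≤ W2 ∧ W2 ≤ 1 / 2 ^ F.top := by
  classical
  set N : ℕ := ⌈R * F.M⌉₊ with hN
  set t : ℝ := 1 / 2 ^ F.top with ht
  have hr := h.r0
  have hrt : F.r ≤ t := h.rle
  set T : Finset (ℕ × ℕ) := range (N + 1) ×ˢ range (N + 1) with hT
  have hTc : (T.card : ℝ) = ((N : ℝ) + 1) ^ 2 := by
    rw [hT, card_product, card_range]; push_cast; ring
  obtain ⟨c, hc, I', hI', hcol, hok⟩ := h.popular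
    (fun o => (kw F.r (F.K (F.cl o)).w1, kw F.r (F.K (F.cl o)).w2)) T (fun x hx => by
      have hl := h.legal x hx
      rw [hT, mem_product, mem_range, mem_range]
      exact ⟨Nat.lt_succ_of_le (kw_le h hS hR hl.r1 (hl.w12.trans hl.w2)),
        Nat.lt_succ_of_le (kw_le h hS hR (hl.r1.trans hl.w12) hl.w2)⟩)
  set W1 := wd F.r t c.1 with hW1
  set W2 := wd F.r t c.2 with hW2
  obtain ⟨x0, hx0⟩ := hok.ne
  have hc12 : c.1 ≤ c.2 := by
    have h1 := hcol x0 hx0
    have hl := h.legal x0 (hI' hx0)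
    rw [← h1]
    exact kw_mono hr (hr.trans_le hl.r1) hl.w12
  have hW12 : W1 ≤ W2 := wd_mono hr hc12
  have hrW1 : F.r ≤ W1 := le_wd' hr hrt _
  have hW2t : W2 ≤ t := min_le_right _ _
  refine ⟨(F.sub I' (1 / (4 * T.card))).redim W1 W2, W1, W2, ?_, ⟨hS.res, ?_⟩, rfl, rfl, rfl, hI',
    rfl, rfl, fun c => ⟨rfl, rfl, rfl, rfl, rfl⟩, ?_, ?_, hrW1, hW12, hW2t⟩
  · refine ⟨hok.M1, hok.r0, hok.rle, hok.ne, hok.cell, div_pos hok.D1p (by norm_num), hok.nup,
      fun x hx => ⟨(hok.legal x hx).unit, hrW1, hW12, hW2t⟩, fun x hx => ?_, fun x hx => ?_,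
      hok.own, hok.up⟩
    · obtain ⟨m1, m2⟩ := hok.mem x hx
      have hl := h.legal x (hI' hx)
      have h1 := hcol x hx
      refine ⟨m1, fun z hz => ?_⟩
      obtain ⟨a1, a2⟩ := m2 z hz
      have e1 : W1 = wd F.r t (kw F.r (F.K (F.cl (ob F.top x))).w1) := by rw [hW1, ← h1]
      have e2 : W2 = wd F.r t (kw F.r (F.K (F.cl (ob F.top x))).w2) := by rw [hW2, ← h1]
      constructor
      · refine a1.trans ?_
        show (F.K (F.cl (ob F.top x))).w1 ≤ W1
        rw [e1]; exact le_wd hr hl.r1 (hl.w12.trans hl.w2)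
      · refine a2.trans ?_
        show (F.K (F.cl (ob F.top x))).w2 ≤ W2
        rw [e2]; exact le_wd hr (hl.r1.trans hl.w12) hl.w2
    · refine le_trans ?_ (hok.low x hx)
      have hl := h.legal x (hI' hx)
      have h1 := hcol x hx
      have e1 : W1 ≤ 2 * (F.K (F.cl (ob F.top x))).w1 := by
        rw [hW1, ← h1]; exact wd_le hr hl.r1
      have e2 : W2 ≤ 2 * (F.K (F.cl (ob F.top x))).w2 := by
        rw [hW2, ← h1]; exact wd_le hr (hl.r1.trans hl.w12)
      show (F.sub I' (1 / (4 * T.card))).D1 / 16 * (W1 * W2 * (W2 * 2 ^ F.top) ^ q) ≤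
        (F.sub I' (1 / (4 * T.card))).D1 * ((F.K (F.cl (ob F.top x))).w1 *
          (F.K (F.cl (ob F.top x))).w2 * ((F.K (F.cl (ob F.top x))).w2 * 2 ^ F.top) ^ q)
      set w1 := (F.K (F.cl (ob F.top x))).w1 with hw1
      set w2 := (F.K (F.cl (ob F.top x))).w2 with hw2
      have hw10 : 0 < w1 := hr.trans_le hl.r1
      have hw20 : 0 < w2 := hw10.trans_le hl.w12
      have hW10 : 0 < W1 := hr.trans_le hrW1
      have hW20 : 0 < W2 := hW10.trans_le hW12
      have hp : (0:ℝ) < 2 ^ F.top := by positivity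
      have h2 : (W2 * 2 ^ F.top) ^ q ≤ 4 * (w2 * 2 ^ F.top) ^ q := by
        have h3 : (W2 * 2 ^ F.top) ^ q ≤ (2 * (w2 * 2 ^ F.top)) ^ q :=
          Real.rpow_le_rpow (by positivity) (by nlinarith) hq0
        refine h3.trans ?_
        rw [Real.mul_rpow (by norm_num) (by positivity)]
        have h4 : (2:ℝ) ^ q ≤ 2 ^ (2:ℝ) := Real.rpow_le_rpow_of_exponent_le one_le_two hq2
        have h5 : (2:ℝ) ^ (2:ℝ) = 4 := by norm_num
        rw [h5] at h4
        gcongr
      have hD := hok.D1p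
      have h6 : W1 * W2 * (W2 * 2 ^ F.top) ^ q ≤ 16 * (w1 * w2 * (w2 * 2 ^ F.top) ^ q) := by
        calc W1 * W2 * (W2 * 2 ^ F.top) ^ q ≤ (2 * w1) * (2 * w2) * (4 * (w2 * 2 ^ F.top) ^ q) := by
              gcongr
          _ = _ := by ring
      calc (F.sub I' (1 / (4 * T.card))).D1 / 16 * (W1 * W2 * (W2 * 2 ^ F.top) ^ q)
          ≤ (F.sub I' (1 / (4 * T.card))).D1 / 16 * (16 * (w1 * w2 * (w2 * 2 ^ F.top) ^ q)) := by
            gcongr
        _ = _ := by ring
  · refine le_trans (Nat.cast_le.2 (card_le_card hI')) hS.card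
  · show 1 / (4 * (T.card : ℝ)) * F.nu = _
    rw [hTc]; ring
  · show 1 / (4 * (T.card : ℝ)) * F.D1 / 16 = _
    rw [hTc]; field_simp; ring

/-- **equal dimensions** (asymptotic form) -/
theorem dims_val (R : ℝ) (hR : 1 ≤ R) (η : ℝ) (hη : 0 < η) : ∃ M0 : ℕ, ∀ (q C : ℝ), 0 ≤ q →
    q ≤ 2 → ∀ F : Cf, F.Ok q → M0 ≤ F.M → F.Sz R C →
    ∃ (F' : Cf) (W1 W2 : ℝ), F'.Ok q ∧ F'.Sz R C ∧ F'.m = F.m ∧ F'.M = F.M ∧ F'.r = F.r ∧
      F'.I ⊆ F.I ∧ F'.cl = F.cl ∧ F'.D0 = F.D0 ∧
      (∀ c, (F'.K c).w1 = W1 ∧ (F'.K c).w2 = W2 ∧ (F'.K c).j = (F.K c).j ∧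
        (F'.K c).l = (F.K c).l ∧ (F'.K c).e = (F.K c).e) ∧
      F.r ≤ W1 ∧ W1 ≤ W2 ∧ W2 ≤ 1 / 2 ^ F.top ∧ F.val - η ≤ F'.val := by
  -- logarithm of a polynomial
  have hlim : Filter.Tendsto (fun M : ℕ => Real.logb 2 (1024 * ((R + 2) * (M:ℝ)) ^ 6) / (M:ℝ))
      Filter.atTop (nhds 0) := by
    have h1 : Filter.Tendsto (fun x : ℝ => Real.log x / x) Filter.atTop (nhds 0) := by
      have := Real.isLittleO_log_id_atTop.tendsto_div_nhds_zero
      simpa using this
    have h2 := h1.comp (tendsto_natCast_atTop_atTop (R := ℝ))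
    have h3 : Filter.Tendsto (fun M : ℕ => (Real.log (1024 * (R + 2) ^ 6)) * (1 / (M:ℝ)))
        Filter.atTop (nhds ((Real.log (1024 * (R + 2) ^ 6)) * 0)) :=
      tendsto_one_div_atTop_nhds_zero_nat.const_mul _
    have h4 := (h3.add (h2.const_mul 6)).div_const (Real.log 2)
    simp only [mul_zero, add_zero, zero_div] at h4
    refine h4.congr' ?_
    filter_upwards [Filter.eventually_ge_atTop 1] with M hM
    have hM' : (0:ℝ) < M := by exact_mod_cast hM
    simp only [Function.comp]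
    have e0 : Real.log (1024 * ((R + 2) * (M:ℝ)) ^ 6) =
        Real.log (1024 * (R + 2) ^ 6) + 6 * Real.log M := by
      rw [mul_pow, ← mul_assoc, Real.log_mul (by positivity) (by positivity),
        Real.log_pow (M:ℝ)]
      push_cast; ring
    rw [Real.logb, e0]
    field_simp
  obtain ⟨M0, hM0⟩ := Filter.eventually_atTop.1 (hlim.eventually_le_const hη)
  refine ⟨max M0 1, fun q C hq0 hq2 F hF hM hS => ?_⟩
  obtain ⟨F', W1, W2, h1, h2, h3, h4, h5, h6, h7, h8, h9, h10, h11, h12, h13, h14⟩ :=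
    hF.dims hq0 hq2 hS hR
  refine ⟨F', W1, W2, h1, h2, h3, h4, h5, h6, h7, h8, h9, h12, h13, h14, ?_⟩
  have hM1 : (1:ℝ) ≤ F.M := by exact_mod_cast hF.M1
  have hD0 := hF.D0p'
  have hD1 := hF.D1p
  have hnu := hF.nup
  set N : ℕ := ⌈R * F.M⌉₊ with hN
  have hN0 : (0:ℝ) ≤ N := Nat.cast_nonneg _
  have hNle : (N : ℝ) + 1 ≤ (R + 2) * F.M := by
    have := Nat.ceil_lt_add_one (show 0 ≤ R * (F.M:ℝ) by positivity)
    have : (N:ℝ) ≤ R * F.M + 1 := this.le
    nlinarith
  unfold Cf.val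
  rw [h4, h8, h10, h11]
  have hpos : 0 < F.D1 * F.nu ^ 2 / (4 ^ F.M * F.D0) := by positivity
  have e1 : F.D1 / (64 * ((N:ℝ) + 1) ^ 2) * (F.nu / (4 * ((N:ℝ) + 1) ^ 2)) ^ 2 /
      (4 ^ F.M * F.D0) = (F.D1 * F.nu ^ 2 / (4 ^ F.M * F.D0)) / (1024 * ((N:ℝ) + 1) ^ 6) := by
    field_simp
    ring
  rw [e1, Real.logb_div hpos.ne' (by positivity), sub_div]
  have h15 : Real.logb 2 (1024 * ((N:ℝ) + 1) ^ 6) / F.M ≤ η := by
    refine le_trans ?_ (hM0 F.M ((le_max_left _ _).trans hM))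
    refine div_le_div_of_nonneg_right ?_ (by linarith)
    refine Real.logb_le_logb_of_le one_lt_two (by positivity) ?_
    gcongr
  linarith

end

end Crest.Agent.R138.K294
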