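import Crest.Agent.R138.Dl9_848

/-!
# R138: decoupling on the legal region, generic points (helper848)
-/

set_option autoImplicit false

open MeasureTheory Filter Topology Set
open scoped ENNReal

namespace Crest.Agent.R138.Dl848

/-- scaling of increments -/
theorem Inc_scale {f g : V6 → ℝ} {c : ℝ} (h : ∀ z, g z = (1 / c) * f (c • z)) (d p : V6) :
    Inc g d p = (1 / c) * Inc f (c • d) (c • p) := by
  unfold Inc; rw [h, h, smul_add]; ring

theorem good3_scale {f g : V6 → ℝ} {c : ℝ} (hc : 0 < c) (h : ∀ z, g z = (1 / c) * f (c • z))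
    (hf : Good3 f) : Good3 g := by
  intro p hp p' hp' h4 h5 r4 r5 hr4 hr5
  rw [Inc_scale h, Inc_scale h, w45_smul]
  congr 1
  exact hf _ (LEG_smul hc.le hp) _ (LEG_smul hc.le hp') (by simp [h4]) (by simp [h5]) _ _
    (by positivity) (by positivity)

theorem good4_scale {f g : V6 → ℝ} {c : ℝ} (hc : 0 < c) (h : ∀ z, g z = (1 / c) * f (c • z))
    {i : Fin 6} (hf : Good4 f i) : Good4 g i := by
  intro p hp p' hp' hi s hs hps hps'
  rw [Inc_scale h, Inc_scale h, smul_smul]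
  congr 1
  refine hf _ (LEG_smul hc.le hp) _ (LEG_smul hc.le hp') (by simp [hi]) _ (by positivity) ?_ ?_
  · rw [← smul_smul, ← smul_add]; exact LEG_smul hc.le hps
  · rw [← smul_smul, ← smul_add]; exact LEG_smul hc.le hps'

section

variable {ν : V6 → ℝ} {S : Set V6} {K : ℝ} {p0 : V6}

/-- from dyadic scales to all scales -/
theorem good_real (hlip : ∀ p q, |ν p - ν q| ≤ K * ‖p - q‖)
    (HG : ∀ U : Ultrafilter ℕ, (U : Filter ℕ) ≤ atTop → ∀ f,
      BU ν p0 U (fun m : ℕ => (1 / 2 : ℝ) ^ m) f → Good3 f ∧ Good4 f 0 ∧ Good4 f 2)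
    {W : Ultrafilter ℝ} (hW : (W : Filter ℝ) ≤ 𝓝[>] 0) {g : V6 → ℝ} (hg : BU ν p0 W id g) :
    Good3 g ∧ Good4 g 0 ∧ Good4 g 2 := by
  have hpos : ∀ᶠ w in (W : Filter ℝ), 0 < w := hW self_mem_nhdsWithin
  have hW0 : Tendsto (fun w : ℝ => w) W (𝓝 0) := (tendsto_id.mono_left hW).mono_right
    nhdsWithin_le_nhds
  have hle : ∀ᶠ w in (W : Filter ℝ), w < 1 := hW0.eventually_lt_const one_pos
  have hex : ∀ w : ℝ, ∃ m : ℕ, 0 < w → w ≤ 1 →
      (1 / 2 : ℝ) ^ (m + 1) < w ∧ w ≤ (1 / 2 : ℝ) ^ m := by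
    intro w
    by_cases h : 0 < w ∧ w ≤ 1
    · obtain ⟨m, h1, h2⟩ := exists_nat_pow_near_of_lt_one h.1 h.2
        (by norm_num : (0:ℝ) < 1 / 2) (by norm_num)
      exact ⟨m, fun _ _ => ⟨h1, h2⟩⟩
    · exact ⟨0, fun h1 h2 => absurd ⟨h1, h2⟩ h⟩
  choose mf hmf using hex
  have hm : ∀ᶠ w in (W : Filter ℝ), (1 / 2 : ℝ) ^ (mf w + 1) < w ∧ w ≤ (1 / 2 : ℝ) ^ (mf w) := by
    filter_upwards [hpos, hle] with w h1 h2
    exact hmf w h1 h2.le
  have hmt : Tendsto mf W atTop := by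
    rw [tendsto_atTop]
    intro N
    have h1 : ∀ᶠ w in (W : Filter ℝ), w < (1 / 2 : ℝ) ^ N := hW0.eventually_lt_const (hd_pos N)
    filter_upwards [hm, h1] with w h2 h3
    by_contra hc
    have h4 : mf w + 1 ≤ N := by omega
    have : (1 / 2 : ℝ) ^ N ≤ (1 / 2 : ℝ) ^ (mf w + 1) :=
      pow_le_pow_of_le_one (by norm_num) (by norm_num) h4
    linarith [h2.1]
  -- the ratio
  have hlam : ∀ᶠ w in (W : Filter ℝ), w / (1 / 2 : ℝ) ^ (mf w) ∈ Icc (1 / 2 : ℝ) 1 := by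
    filter_upwards [hm] with w h2
    have := hd_pos (mf w)
    constructor
    · rw [le_div_iff₀ this]
      have := h2.1
      rw [pow_succ] at this
      linarith
    · rw [div_le_one this]; exact h2.2
  obtain ⟨lam, hlamI, hlamT⟩ : ∃ lam ∈ Icc (1 / 2 : ℝ) 1,
      Tendsto (fun w : ℝ => w / (1 / 2 : ℝ) ^ (mf w)) W (𝓝 lam) := by
    have hc : IsCompact (Icc (1 / 2 : ℝ) 1) := isCompact_Icc
    have h1 : (↑(W.map fun w : ℝ => w / (1 / 2 : ℝ) ^ (mf w)) : Filter ℝ) ≤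
        𝓟 (Icc (1 / 2 : ℝ) 1) := by
      rw [le_principal_iff]; exact hlam
    obtain ⟨x, hx1, hx2⟩ := hc.ultrafilter_le_nhds _ h1
    exact ⟨x, hx1, hx2⟩
  have hlam0 : 0 < lam := by have := hlamI.1; linarith
  set U : Ultrafilter ℕ := W.map mf with hUdef
  have hU : (U : Filter ℕ) ≤ atTop := hmt
  obtain ⟨f, hf⟩ := exists_BU (p0 := p0) (s := fun m : ℕ => (1 / 2 : ℝ) ^ m) U hlip
    (Filter.Eventually.of_forall hd_pos)
  obtain ⟨g3, g40, g42⟩ := HG U hU f hf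
  -- the blow-up along W in terms of the dyadic one
  have hgf : ∀ z, g z = (1 / lam) * f (lam • z) := by
    intro z
    have h1 : Tendsto (fun w : ℝ => (ν (p0 + (1 / 2 : ℝ) ^ (mf w) • (lam • z)) - ν p0) /
        (1 / 2 : ℝ) ^ (mf w)) W (𝓝 (f (lam • z))) := (hf (lam • z))
    have h2 := conv_var (s := fun w : ℝ => (1 / 2 : ℝ) ^ (mf w)) hlip
      (Filter.Eventually.of_forall fun w => hd_pos (mf w))
      (C := fun w : ℝ => (w / (1 / 2 : ℝ) ^ (mf w)) • z) (hlamT.smul_const z) h1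
    have h3 := (hlamT.inv₀ hlam0.ne').mul h2
    have h4 := hg z
    simp only [id] at h4
    have h5 : Tendsto (fun w : ℝ => (ν (p0 + w • z) - ν p0) / w) W
        (𝓝 (lam⁻¹ * f (lam • z))) := by
      refine h3.congr' ?_
      filter_upwards [hpos] with w hw
      have hh := (hd_pos (mf w)).ne'
      rw [smul_smul]
      have e1 : (1 / 2 : ℝ) ^ (mf w) * (w / (1 / 2 : ℝ) ^ (mf w)) = w := by field_simp
      rw [e1]
      field_simp
    rw [one_div]
    exact tendsto_nhds_unique h4 h5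
  exact ⟨good3_scale hlam0 hgf g3, good4_scale hlam0 hgf g40, good4_scale hlam0 hgf g42⟩

/-- generic points -/
def GP (ν : V6 → ℝ) (p0 : V6) : Prop :=
  ∀ W : Ultrafilter ℝ, (W : Filter ℝ) ≤ 𝓝[>] 0 → ∀ g, BU ν p0 W id g →
    Good3 g ∧ Good4 g 0 ∧ Good4 g 2

/-- differences of increments which vanish for all blow-ups tend to zero -/
theorem diff_zero (hlip : ∀ p q, |ν p - ν q| ≤ K * ‖p - q‖) {c c' d : V6}
    {C C' D : ℝ → V6} (hC : Tendsto C (𝓝[>] 0) (𝓝 c)) (hC' : Tendsto C' (𝓝[>] 0) (𝓝 c'))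
    (hD : Tendsto D (𝓝[>] 0) (𝓝 d))
    (h : ∀ W : Ultrafilter ℝ, (W : Filter ℝ) ≤ 𝓝[>] 0 → ∀ g, BU ν p0 W id g →
      Inc g d c = Inc g d c') :
    Tendsto (fun w => (Inc ν (w • D w) (p0 + w • C w) - Inc ν (w • D w) (p0 + w • C' w)) / w)
      (𝓝[>] 0) (𝓝 0) := by
  rw [tendsto_iff_ultrafilter]
  intro W hW
  have hpos : ∀ᶠ w in (W : Filter ℝ), 0 < id w := hW self_mem_nhdsWithin
  obtain ⟨g, hg⟩ := exists_BU (p0 := p0) (s := id) W hlip hpos
  have h1 := hg.inc hlip hpos (hC.mono_left hW) (hD.mono_left hW)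
  have h2 := hg.inc hlip hpos (hC'.mono_left hW) (hD.mono_left hW)
  have h3 := h1.sub h2
  rw [h W hW g hg, sub_self] at h3
  refine h3.congr fun w => ?_
  simp only [id]
  rw [sub_div]

theorem smul_e_mem {i : Fin 6} (hi : i = 0 ∨ i = 2) {θ u : ℝ} (hu : 1 ≤ u) {s : ℝ}
    (hs : |s| ≤ 1) : X 0 0 θ + w45 u u + s • e i ∈ LEG := by
  have := abs_le.1 hs
  rcases hi with rfl | rfl <;> (refine mem_LEG ?_ ?_ ?_ ?_ <;> co6 <;> linarith)

/-- the defects of the directions `0, 2` are small at generic points -/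
theorem GP.d1 {α β t : ℝ} (h : GP ν (X α β t)) (hlip : ∀ p q, |ν p - ν q| ≤ K * ‖p - q‖)
    {i : Fin 6} (hi : i = 0 ∨ i = 2) (θ : ℝ) :
    Tendsto (fun w => d1 ν α β i w (t + θ * w) / w) (𝓝[>] 0) (𝓝 0) := by
  have hG4 : ∀ W : Ultrafilter ℝ, (W : Filter ℝ) ≤ 𝓝[>] 0 → ∀ g, BU ν (X α β t) W id g →
      Good4 g i := by
    intro W hW g hg
    rcases hi with rfl | rfl
    · exact (h W hW g hg).2.1
    · exact (h W hW g hg).2.2
  have hei : (e i : V6) i = 1 := by simp [e]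
  have key := diff_zero (p0 := X α β t) hlip (c := X 0 0 θ + w45 1 1)
    (c' := X 0 0 θ + w45 1 1 + (X 0 0 1 + (-1 : ℝ) • e i)) (d := e i)
    (tendsto_const_nhds (x := X 0 0 θ + w45 1 1))
    (tendsto_const_nhds (x := X 0 0 θ + w45 1 1 + (X 0 0 1 + (-1 : ℝ) • e i)))
    (tendsto_const_nhds (x := e i)) (by
      intro W hW g hg
      have := hG4 W hW g hg (X 0 0 θ + w45 1 1) (LEG_add (X_mem_LEG _ _ _)
        (w45_mem_LEG zero_le_one zero_le_one)) (X 0 0 θ + w45 1 1 + (X 0 0 1 + (-1 : ℝ) • e i))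
        (by
          have := smul_e_mem hi (θ := θ + 1) (u := 1) le_rfl (s := -1) (by norm_num)
          have e1 : X 0 0 θ + w45 1 1 + (X 0 0 1 + (-1 : ℝ) • e i) =
              X 0 0 (θ + 1) + w45 1 1 + (-1 : ℝ) • e i := by
            rw [← add_assoc, add_right_comm (X 0 0 θ), X_add, add_zero]
          rw [e1]; exact this)
        (by
          rw [Pi.add_apply (X 0 0 θ + w45 1 1), Pi.add_apply (X 0 0 1), Pi.smul_apply, hei]
          rcases hi with rfl | rfl <;> co6 <;> simp) 1 zero_le_one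
        (smul_e_mem hi le_rfl (by norm_num))
        (by
          have e1 : X 0 0 θ + w45 1 1 + (X 0 0 1 + (-1 : ℝ) • e i) + (1 : ℝ) • e i =
              X 0 0 (θ + 1) + w45 1 1 := by
            rw [← add_assoc, add_assoc, ← add_smul, neg_add_cancel, zero_smul, add_zero,
              add_right_comm, X_add, add_zero]
          rw [e1]
          exact LEG_add (X_mem_LEG _ _ _) (w45_mem_LEG zero_le_one zero_le_one))
      rwa [one_smul] at this)
  refine key.congr fun w => ?_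
  unfold Dl848.d1
  have e1 : X α β t + w • (X 0 0 θ + w45 1 1) = X α β (t + θ * w) + w45 w w := by
    rw [smul_add, X_smul, w45_smul, ← add_assoc, X_add]
    congr 2 <;> ring
  have e2 : X α β t + w • (X 0 0 θ + w45 1 1 + (X 0 0 1 + (-1 : ℝ) • e i)) =
      X α β (t + θ * w) + w45 w w + (X 0 0 w + (-w) • e i) := by
    rw [smul_add, ← add_assoc, e1, smul_add, X_smul, smul_smul]
    congr 3 <;> ring
  rw [e1, e2]

theorem GP.d2 {α β t : ℝ} (h : GP ν (X α β t)) (hlip : ∀ p q, |ν p - ν q| ≤ K * ‖p - q‖)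
    (θ : ℝ) : Tendsto (fun w => d2 ν α β w (t + θ * w) / w) (𝓝[>] 0) (𝓝 0) := by
  have key := diff_zero (p0 := X α β t) hlip (c := X 0 0 θ)
    (c' := X 0 0 (θ + 1)) (d := w45 1 1)
    (tendsto_const_nhds (x := X 0 0 θ)) (tendsto_const_nhds (x := X 0 0 (θ + 1)))
    (tendsto_const_nhds (x := w45 1 1)) (by
      intro W hW g hg
      exact (h W hW g hg).1 (X 0 0 θ) (X_mem_LEG _ _ _) (X 0 0 (θ + 1)) (X_mem_LEG _ _ _) rfl rfl
        1 1 zero_le_one zero_le_one)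
  refine key.congr fun w => ?_
  unfold Dl848.d2
  have e1 : X α β t + w • (X 0 0 θ) = X α β (t + θ * w) := by
    rw [X_smul, X_add]
    congr 1 <;> ring
  have e2 : X α β t + w • (X 0 0 (θ + 1)) = X α β (t + θ * w + w) := by
    rw [X_smul, X_add]
    congr 1 <;> ring
  rw [e1, e2, w45_smul, mul_one]

theorem tendsto_id_pos : Tendsto (fun w : ℝ => w) (𝓝[>] 0) (𝓝 0) :=
  tendsto_id.mono_left nhdsWithin_le_nhds

theorem GP.dJ {a b : ℝ → ℝ} {τ t x y Λ : ℝ} (h : GP ν (X (a τ) (b τ) t))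
    (hlip : ∀ p q, |ν p - ν q| ≤ K * ‖p - q‖) (hΛ : 0 ≤ Λ) (hx : HasDerivAt a x τ)
    (hy : HasDerivAt b y τ) (u : ℝ) :
    Tendsto (fun w => dJ ν a b Λ t w (τ + u * w) / w) (𝓝[>] 0) (𝓝 0) := by
  have hs : ∀ᶠ w : ℝ in 𝓝[>] 0, 0 < w := self_mem_nhdsWithin
  have ha := slope_conv hs tendsto_id_pos hx u
  have hb := slope_conv hs tendsto_id_pos hy u
  have key := diff_zero (p0 := X (a τ) (b τ) t) hlip (c := X (x * u) (y * u) 0)
    (c' := X (x * u) (y * u) (2 * Λ)) (d := w45 Λ Λ)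
    (tendsto_X ha hb tendsto_const_nhds) (tendsto_X ha hb tendsto_const_nhds)
    (tendsto_const_nhds (x := w45 Λ Λ)) (by
      intro W hW g hg
      exact (h W hW g hg).1 (X (x * u) (y * u) 0) (X_mem_LEG _ _ _)
        (X (x * u) (y * u) (2 * Λ)) (X_mem_LEG _ _ _) rfl rfl Λ Λ hΛ hΛ)
  refine key.congr' ?_
  filter_upwards [hs] with w hw
  unfold Dl848.dJ
  have e1 : ∀ v : ℝ, X (a τ) (b τ) t + w • (X ((a (τ + u * w) - a τ) / w)
      ((b (τ + u * w) - b τ) / w) v) = X (a (τ + u * w)) (b (τ + u * w)) (t + w * v) := by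
    intro v
    have hne := hw.ne'
    have f1 : w * ((a (τ + u * w) - a τ) / w) = a (τ + u * w) - a τ := by field_simp
    have f2 : w * ((b (τ + u * w) - b τ) / w) = b (τ + u * w) - b τ := by field_simp
    rw [X_smul, X_add, f1, f2]
    congr 1 <;> ring
  rw [e1, e1, w45_smul, mul_zero, add_zero, mul_comm w Λ]
  congr 3
  ring_nf

end

end Crest.Agent.R138.Dl848
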