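import Crest.Agent.R138.Dl10_848

/-!
# R138: decoupling on the legal region, tangents at generic points (helper848)
-/

set_option autoImplicit false

open MeasureTheory Filter Topology Set
open scoped ENNReal

namespace Crest.Agent.R138.Dl848

/-- the profile along the natural surface -/
def PP (ν : V6 → ℝ) (a b : ℝ → ℝ) (z : ℝ × ℝ) : ℝ := ν (X (a z.1) (b z.1) z.2)

/-- the rate in the direction `i` -/
def RateI (ν : V6 → ℝ) (α β t : ℝ) (i : Fin 6) (ρ : ℝ) : Prop :=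
  Tendsto (fun w => Inc ν (w • e i) (X α β t + w45 w w) / w) (𝓝[>] 0) (𝓝 ρ) ∧
  Tendsto (fun w => Inc ν (w • e i) (X α β (t - w) + w45 w w) / w) (𝓝[>] 0) (𝓝 ρ)

/-- the natural `(4,5)`-rate -/
def RateJ (ν : V6 → ℝ) (a b : ℝ → ℝ) (τ t ρ : ℝ) : Prop :=
  Tendsto (fun w => mJ ν a b t w τ / w) (𝓝[>] 0) (𝓝 ρ) ∧
  Tendsto (fun w => mJ ν a b t w (τ - w) / w) (𝓝[>] 0) (𝓝 ρ)

section

variable {ν : V6 → ℝ} {K : ℝ} {a b : ℝ → ℝ} {τ t x y r0 r2 J : ℝ}

theorem mul_tendsto {s : ℝ} (hs : 0 < s) : Tendsto (fun w : ℝ => s * w) (𝓝[>] 0) (𝓝[>] 0) := by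
  apply tendsto_nhdsWithin_iff.2
  constructor
  · have := tendsto_id_pos.const_mul s
    rwa [mul_zero] at this
  · filter_upwards [self_mem_nhdsWithin] with w hw
    have : (0:ℝ) < w := hw
    exact mul_pos hs this

theorem rate_transfer {F : ℝ → ℝ} {ρ s : ℝ} (hs : 0 < s)
    (hF : Tendsto (fun w => F w / w) (𝓝[>] 0) (𝓝 ρ)) :
    Tendsto (fun w => F (s * w) / w) (𝓝[>] 0) (𝓝 (ρ * s)) := by
  have := (hF.comp (mul_tendsto hs)).mul_const s
  refine this.congr' ?_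
  filter_upwards [self_mem_nhdsWithin] with w hw
  have h1 : (0:ℝ) < w := hw
  simp only [Function.comp]
  field_simp

/-- all blow-ups at a generic point satisfy the relations `Lim` -/
theorem lim_of_rates (hlip : ∀ p q, |ν p - ν q| ≤ K * ‖p - q‖) (hGP : GP ν (X (a τ) (b τ) t))
    (hx : HasDerivAt a x τ) (hy : HasDerivAt b y τ) {L : ℝ × ℝ →L[ℝ] ℝ}
    (hP : HasFDerivAt (PP ν a b) L (τ, t)) (h0 : RateI ν (a τ) (b τ) t 0 r0)
    (h2 : RateI ν (a τ) (b τ) t 2 r2) (hJ : RateJ ν a b τ t J) {W : Ultrafilter ℝ}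
    (hW : (W : Filter ℝ) ≤ 𝓝[>] 0) {g : V6 → ℝ} (hg : BU ν (X (a τ) (b τ) t) W id g) :
    Lim g x y (L (1, 0)) (L (0, 1)) r0 r2 J := by
  have hpos : ∀ᶠ w in (W : Filter ℝ), 0 < id w := hW self_mem_nhdsWithin
  have hpos' : ∀ᶠ w in (W : Filter ℝ), 0 < w := hpos
  have hW0 : Tendsto (fun w : ℝ => w) W (𝓝 0) := tendsto_id_pos.mono_left hW
  obtain ⟨g3, g40, g42⟩ := hGP W hW g hg
  set p0 := X (a τ) (b τ) t with hp0
  -- rates
  have ratei : ∀ (i : Fin 6) (ρ : ℝ), RateI ν (a τ) (b τ) t i ρ → ∀ s : ℝ, 0 < s →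
      Inc g (s • e i) (w45 s s) = ρ * s ∧
      Inc g (s • e i) (X 0 0 (-s) + w45 s s) = ρ * s := by
    intro i ρ hρ s hs
    constructor
    · have h3 := (rate_transfer hs hρ.1).mono_left hW
      have h4 := hg.inc hlip hpos (tendsto_const_nhds (x := w45 s s))
        (tendsto_const_nhds (x := s • e i))
      refine tendsto_nhds_unique (h4.congr fun w => ?_) h3
      simp only [id]
      rw [w45_smul, smul_smul, mul_comm w s]
    · have h3 := (rate_transfer hs hρ.2).mono_left hW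
      have h4 := hg.inc hlip hpos (tendsto_const_nhds (x := X 0 0 (-s) + w45 s s))
        (tendsto_const_nhds (x := s • e i))
      refine tendsto_nhds_unique (h4.congr fun w => ?_) h3
      simp only [id]
      rw [smul_add, X_smul, w45_smul, smul_smul, mul_comm w s, ← add_assoc, hp0, X_add, mul_zero,
        add_zero, add_zero]
      congr 4
      ring
  refine ⟨hg.zero, g3, g40, g42, ?_, fun s hs => (ratei 0 r0 h0 s hs).1,
    fun s hs => (ratei 0 r0 h0 s hs).2, fun s hs => (ratei 2 r2 h2 s hs).1,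
    fun s hs => (ratei 2 r2 h2 s hs).2, ?_, ?_⟩
  · -- derivative of the profile
    intro u v
    have ha := slope_conv hpos' hW0 hx u
    have hb := slope_conv hpos' hW0 hy u
    have h1 := conv_var (s := id) hlip hpos (C := fun w : ℝ => X ((a (τ + u * w) - a τ) / w)
      ((b (τ + u * w) - b τ) / w) v) (tendsto_X ha hb tendsto_const_nhds) (hg (T x y u v))
    have h2 : Tendsto (fun w : ℝ => (PP ν a b ((τ, t) + w • (u, v)) - PP ν a b (τ, t)) / w) W
        (𝓝 (L (u, v))) := by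
      have h3 := hP.hasLineDerivAt (u, v)
      have h4 := hasDerivAt_iff_tendsto_slope_zero.1 h3
      have h5 : Tendsto (fun w : ℝ => w) W (𝓝[≠] 0) := by
        apply tendsto_nhdsWithin_iff.2
        refine ⟨hW0, ?_⟩
        filter_upwards [hpos'] with w hw
        exact hw.ne'
      refine (h4.comp h5).congr fun w => ?_
      simp only [Function.comp, zero_add, zero_smul, add_zero, smul_eq_mul]
      rw [div_eq_inv_mul]
    have h3 : L (u, v) = u * L (1, 0) + v * L (0, 1) := by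
      have : ((u, v) : ℝ × ℝ) = u • (1, 0) + v • (0, 1) := by
        ext <;> simp
      rw [this, map_add, map_smul, map_smul, smul_eq_mul, smul_eq_mul]
    rw [← h3]
    refine tendsto_nhds_unique h1 (h2.congr' ?_)
    filter_upwards [hpos'] with w hw
    have hne := hw.ne'
    simp only [id]
    have f1 : w * ((a (τ + u * w) - a τ) / w) = a (τ + u * w) - a τ := by field_simp
    have f2 : w * ((b (τ + u * w) - b τ) / w) = b (τ + u * w) - b τ := by field_simp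
    rw [X_smul, f1, f2, hp0, X_add]
    unfold PP
    simp only [Prod.smul_mk, Prod.mk_add_mk, smul_eq_mul]
    rw [mul_comm w u]
    congr 3
    ring_nf
  · intro s hs
    have h3 := (rate_transfer hs hJ.1).mono_left hW
    have ha := slope_conv hpos' hW0 hx s
    have hb := slope_conv hpos' hW0 hy s
    have h4 := hg.inc hlip hpos (tendsto_const_nhds (x := (0 : V6))) (tendsto_w45 ha hb)
    refine tendsto_nhds_unique (h4.congr' ?_) h3
    filter_upwards [hpos'] with w hw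
    have hne := hw.ne'
    simp only [id]
    have f1 : w * ((a (τ + s * w) - a τ) / w) = a (τ + s * w) - a τ := by field_simp
    have f2 : w * ((b (τ + s * w) - b τ) / w) = b (τ + s * w) - b τ := by field_simp
    rw [w45_smul, f1, f2, smul_zero, add_zero]
    rfl
  · intro s hs
    have h3 := (rate_transfer (F := fun w => mJ ν a b t w (τ - w)) hs hJ.2).mono_left hW
    have ha := slope_conv hpos' hW0 hx (-s)
    have hb := slope_conv hpos' hW0 hy (-s)
    have h4 := hg.inc hlip hpos (tendsto_X ha hb (tendsto_const_nhds (x := (0:ℝ))))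
      (tendsto_w45 ha.neg hb.neg)
    have e1 : -(x * -s) = x * s := by ring
    have e2 : -(y * -s) = y * s := by ring
    rw [e1, e2] at h4
    refine tendsto_nhds_unique (h4.congr' ?_) h3
    filter_upwards [hpos'] with w hw
    have hne := hw.ne'
    simp only [id]
    have f1 : w * ((a (τ + -s * w) - a τ) / w) = a (τ - s * w) - a τ := by
      rw [neg_mul, ← sub_eq_add_neg]; field_simp
    have f2 : w * ((b (τ + -s * w) - b τ) / w) = b (τ - s * w) - b τ := by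
      rw [neg_mul, ← sub_eq_add_neg]; field_simp
    rw [w45_smul, mul_neg, mul_neg, f1, f2, X_smul, f1, f2, hp0, X_add]
    unfold mJ
    rw [sub_add_cancel, neg_sub, neg_sub]
    congr 3 <;> ring

/-- the function of the coordinates `1, 3` at scale `h` -/
noncomputable def bt (ν : V6 → ℝ) (p0 : V6) (R h u v : ℝ) : ℝ :=
  (ν (p0 + h • w45 R R) - ν (p0 + h • ![0, u, 0, v, R, R])) / h

theorem norm_13 {u v M : ℝ} (hu : |u| ≤ M) (hv : |v| ≤ M) :
    ‖(![0, u, 0, v, 0, 0] : V6)‖ ≤ M := by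
  have hM : 0 ≤ M := (abs_nonneg _).trans hu
  rw [pi_norm_le_iff_of_nonneg hM]
  refine forall6 ?_ ?_ ?_ ?_ ?_ ?_ <;> simp [hM, hu, hv]

theorem bt_lip (hlip : ∀ p q, |ν p - ν q| ≤ K * ‖p - q‖) (hK : 0 ≤ K) (p0 : V6) {R h : ℝ}
    (hh : 0 < h) {u v u' v' M : ℝ} (hu : |u - u'| ≤ M) (hv : |v - v'| ≤ M) :
    |bt ν p0 R h u v - bt ν p0 R h u' v'| ≤ K * M := by
  unfold bt
  rw [← sub_div, abs_div, abs_of_pos hh, div_le_iff₀ hh]
  have e1 : ν (p0 + h • w45 R R) - ν (p0 + h • ![0, u, 0, v, R, R]) -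
      (ν (p0 + h • w45 R R) - ν (p0 + h • ![0, u', 0, v', R, R])) =
      ν (p0 + h • ![0, u', 0, v', R, R]) - ν (p0 + h • ![0, u, 0, v, R, R]) := by ring
  rw [e1]
  refine (hlip _ _).trans ?_
  rw [add_sub_add_left_eq_sub, ← smul_sub, norm_smul, Real.norm_eq_abs, abs_of_pos hh]
  have e2 : (![0, u', 0, v', R, R] : V6) - ![0, u, 0, v, R, R] =
      ![0, u' - u, 0, v' - v, 0, 0] := by
    refine ext6 ?_ ?_ ?_ ?_ ?_ ?_ <;> simp
  rw [e2]
  have h1 := norm_13 (by rwa [abs_sub_comm] at hu : |u' - u| ≤ M)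
    (by rwa [abs_sub_comm] at hv : |v' - v| ≤ M)
  have h2 : h * ‖(![0, u' - u, 0, v' - v, 0, 0] : V6)‖ ≤ h * M :=
    mul_le_mul_of_nonneg_left h1 hh.le
  calc K * (h * ‖(![0, u' - u, 0, v' - v, 0, 0] : V6)‖) ≤ K * (h * M) :=
        mul_le_mul_of_nonneg_left h2 hK
    _ = K * M * h := by ring

/-- pointwise convergence of equi-Lipschitz functions on a compact set is uniform -/
theorem unif {E : Type*} [NormedAddCommGroup E] {𝒦 : Set E} (hc : IsCompact 𝒦)
    {G : ℝ → E → ℝ} {C : ℝ} (hC : 0 ≤ C)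
    (hG : ∀ w : ℝ, 0 < w → ∀ p q, |G w p - G w q| ≤ C * ‖p - q‖)
    (pt : ∀ p ∈ 𝒦, Tendsto (fun w => G w p) (𝓝[>] 0) (𝓝 0)) {ε : ℝ} (hε : 0 < ε) :
    ∀ᶠ w in 𝓝[>] (0:ℝ), ∀ p ∈ 𝒦, |G w p| ≤ ε := by
  obtain ⟨s, hs, hsf, hcov⟩ := hc.finite_cover_balls (e := ε / (2 * (C + 1))) (by positivity)
  have h1 : ∀ᶠ w in 𝓝[>] (0:ℝ), ∀ p ∈ s, |G w p| < ε / 2 := by
    rw [Filter.eventually_all_finite hsf]
    intro p hp
    have := (pt p (hs hp)).abs
    rw [abs_zero] at this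
    exact this.eventually_lt_const (by positivity)
  filter_upwards [h1, self_mem_nhdsWithin] with w hw hw0 p hp
  have hw0' : (0:ℝ) < w := hw0
  obtain ⟨q, hq, hpq⟩ := mem_iUnion₂.1 (hcov hp)
  rw [mem_ball_iff_norm] at hpq
  have h2 := hG w hw0' p q
  have h3 := hw q hq
  have h4 : C * ‖p - q‖ ≤ ε / 2 := by
    have h5 : C * ‖p - q‖ ≤ C * (ε / (2 * (C + 1))) := mul_le_mul_of_nonneg_left hpq.le hC
    refine h5.trans ?_
    rw [← mul_div_assoc, div_le_div_iff₀ (by positivity) (by norm_num)]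
    nlinarith
  have h6 : |G w p| ≤ |G w p - G w q| + |G w q| := by
    have := abs_add_le (G w p - G w q) (G w q)
    rwa [sub_add_cancel] at this
  linarith

/-- **the tangent at a generic point of the natural surface** -/
structure Tan (ν : V6 → ℝ) (p0 : V6) (x y Pτ Pt r0 r2 J : ℝ) : Prop where
  A : ∀ M R ε : ℝ, 2 * M ≤ R → 0 < ε → ∀ᶠ h in 𝓝[>] (0:ℝ), ∀ c ∈ LEG, ∀ c' ∈ LEG,
    (∀ i, |c i| ≤ M) → (∀ i, |c' i| ≤ M) → c 4 = c' 4 → c 5 = c' 5 →
    |ν (p0 + h • c) - ν (p0 + h • c') + h * (r0 * (c 0 - c' 0) + r2 * (c 2 - c' 2)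
      + bt ν p0 R h (c 1) (c 3) - bt ν p0 R h (c' 1) (c' 3))| ≤ ε * h
  B : ∀ M R ε : ℝ, 2 * M ≤ R → 0 < ε → ∀ᶠ h in 𝓝[>] (0:ℝ), ∀ v, |v| ≤ M →
    |bt ν p0 R h v v + (Pt + r0 + r2) * v| ≤ ε
  C : x ≠ y → ∀ r1 r3 : ℝ, r1 + r3 = -(Pt + r0 + r2) →
    y * r1 + x * r3 = -(Pτ + J + r0 * (x + y)) → ∀ M R ε : ℝ, 2 * M ≤ R → 0 < ε →
    ∀ᶠ h in 𝓝[>] (0:ℝ), ∀ u v, |u| ≤ M → |v| ≤ M →
    |bt ν p0 R h u v - (r1 * u + r3 * v)| ≤ ε
  D : ∀ M ε : ℝ, 0 < ε → ∀ᶠ h in 𝓝[>] (0:ℝ), ∀ u v, |u| ≤ M → |v| ≤ M →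
    |ν (p0 + h • T x y u v) - ν p0 - h * (u * Pτ + v * Pt)| ≤ ε * h

theorem isClosed_LEG : IsClosed LEG := by
  have h : LEG = {p : V6 | p 0 ≤ p 1 + p 4} ∩ ({p | p 3 ≤ p 2 + p 4} ∩
      ({p | p 0 ≤ p 5 + p 3} ∩ {p | p 1 ≤ p 5 + p 2})) := rfl
  rw [h]
  refine IsClosed.inter (isClosed_le ?_ ?_) (IsClosed.inter (isClosed_le ?_ ?_)
    (IsClosed.inter (isClosed_le ?_ ?_) (isClosed_le ?_ ?_))) <;> fun_prop

theorem compact_box (M : ℝ) : IsCompact {c : V6 | ∀ i, |c i| ≤ M} := by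
  have h : {c : V6 | ∀ i, |c i| ≤ M} = Set.pi univ fun _ => Icc (-M) M := by
    ext c
    exact ⟨fun hc i _ => abs_le.1 (hc i), fun hc i => abs_le.2 (hc i (mem_univ i))⟩
  rw [h]
  exact isCompact_univ_pi fun _ => isCompact_Icc

theorem compact_K (M : ℝ) : IsCompact {p : V6 × V6 | p.1 ∈ LEG ∧ p.2 ∈ LEG ∧ (∀ i, |p.1 i| ≤ M) ∧
    (∀ i, |p.2 i| ≤ M) ∧ p.1 4 = p.2 4 ∧ p.1 5 = p.2 5} := by
  have h : {p : V6 × V6 | p.1 ∈ LEG ∧ p.2 ∈ LEG ∧ (∀ i, |p.1 i| ≤ M) ∧
    (∀ i, |p.2 i| ≤ M) ∧ p.1 4 = p.2 4 ∧ p.1 5 = p.2 5} =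
    ({c : V6 | ∀ i, |c i| ≤ M} ×ˢ {c : V6 | ∀ i, |c i| ≤ M}) ∩
      ((Prod.fst ⁻¹' LEG) ∩ ((Prod.snd ⁻¹' LEG) ∩
        ({p : V6 × V6 | p.1 4 = p.2 4} ∩ {p : V6 × V6 | p.1 5 = p.2 5}))) := by
    ext p
    constructor
    · rintro ⟨h1, h2, h3, h4, h5, h6⟩
      exact ⟨⟨h3, h4⟩, h1, h2, h5, h6⟩
    · rintro ⟨⟨h3, h4⟩, h1, h2, h5, h6⟩
      exact ⟨h1, h2, h3, h4, h5, h6⟩
  rw [h]
  refine ((compact_box M).prod (compact_box M)).inter_right ?_
  refine (isClosed_LEG.preimage continuous_fst).inter ((isClosed_LEG.preimage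
    continuous_snd).inter (IsClosed.inter (isClosed_eq ?_ ?_) (isClosed_eq ?_ ?_))) <;> fun_prop

theorem bt_lim {p0 : V6} {W : Ultrafilter ℝ} {g : V6 → ℝ} (hg : BU ν p0 W id g) (R u v : ℝ) :
    Tendsto (fun w => bt ν p0 R w u v) W (𝓝 (bet g R u v)) := by
  have := (hg (w45 R R)).sub (hg ![0, u, 0, v, R, R])
  refine this.congr fun w => ?_
  simp only [id, bt]
  rw [← sub_div]; congr 1; ring

theorem tan_of_lim (hlip : ∀ p q, |ν p - ν q| ≤ K * ‖p - q‖) (hK : 0 ≤ K) {p0 : V6}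
    {Pτ Pt : ℝ} (hx0 : 0 < x) (hy0 : 0 < y)
    (HL : ∀ W : Ultrafilter ℝ, (W : Filter ℝ) ≤ 𝓝[>] 0 → ∀ g, BU ν p0 W id g →
      Lim g x y Pτ Pt r0 r2 J) : Tan ν p0 x y Pτ Pt r0 r2 J := by
  have hid : ∀ W : Ultrafilter ℝ, (W : Filter ℝ) ≤ 𝓝[>] 0 → ∀ᶠ w in (W : Filter ℝ), 0 < id w :=
    fun W hW => hW self_mem_nhdsWithin
  refine ⟨?_, ?_, ?_, ?_⟩
  · intro M R ε hMR hε
    have key := unif (compact_K M) (C := 4 * K + 2 * |r0| + 2 * |r2|) (ε := ε)
      (G := fun w p => (ν (p0 + w • p.1) - ν (p0 + w • p.2)) / w + (r0 * (p.1 0 - p.2 0)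
        + r2 * (p.1 2 - p.2 2) + bt ν p0 R w (p.1 1) (p.1 3) - bt ν p0 R w (p.2 1) (p.2 3)))
      (by positivity) ?_ ?_ hε
    · filter_upwards [key, self_mem_nhdsWithin] with h hh hpos c hc c' hc' hM hM' h4 h5
      have hpos' : (0:ℝ) < h := hpos
      have := hh (c, c') ⟨hc, hc', hM, hM', h4, h5⟩
      simp only at this
      have e1 : ν (p0 + h • c) - ν (p0 + h • c') + h * (r0 * (c 0 - c' 0) + r2 * (c 2 - c' 2)
          + bt ν p0 R h (c 1) (c 3) - bt ν p0 R h (c' 1) (c' 3)) =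
          ((ν (p0 + h • c) - ν (p0 + h • c')) / h + (r0 * (c 0 - c' 0)
        + r2 * (c 2 - c' 2) + bt ν p0 R h (c 1) (c 3) - bt ν p0 R h (c' 1) (c' 3))) * h := by
        field_simp
      rw [e1, abs_mul, abs_of_pos hpos']
      exact mul_le_mul_of_nonneg_right this hpos'.le
    · intro w hw p q
      have n1 : ‖p.1 - q.1‖ ≤ ‖p - q‖ := norm_fst_le (p - q)
      have n2 : ‖p.2 - q.2‖ ≤ ‖p - q‖ := norm_snd_le (p - q)
      have c1 : ∀ i, |p.1 i - q.1 i| ≤ ‖p - q‖ := fun i => (norm_le_pi_norm (p.1 - q.1) i).trans n1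
      have c2 : ∀ i, |p.2 i - q.2 i| ≤ ‖p - q‖ := fun i => (norm_le_pi_norm (p.2 - q.2) i).trans n2
      have l1 := hlip (p0 + w • p.1) (p0 + w • q.1)
      have l2 := hlip (p0 + w • p.2) (p0 + w • q.2)
      rw [add_sub_add_left_eq_sub, ← smul_sub, norm_smul, Real.norm_eq_abs, abs_of_pos hw] at l1 l2
      have b1 := bt_lip hlip hK p0 (R := R) hw (c1 1) (c1 3)
      have b2 := bt_lip hlip hK p0 (R := R) hw (c2 1) (c2 3)
      set N := ‖p - q‖ with hN
      have hN0 : 0 ≤ N := norm_nonneg _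
      have l1' : |ν (p0 + w • p.1) - ν (p0 + w • q.1)| / w ≤ K * N := by
        rw [div_le_iff₀ hw]
        refine l1.trans ?_
        have : w * ‖p.1 - q.1‖ ≤ w * N := mul_le_mul_of_nonneg_left n1 hw.le
        calc K * (w * ‖p.1 - q.1‖) ≤ K * (w * N) := mul_le_mul_of_nonneg_left this hK
          _ = K * N * w := by ring
      have l2' : |ν (p0 + w • p.2) - ν (p0 + w • q.2)| / w ≤ K * N := by
        rw [div_le_iff₀ hw]
        refine l2.trans ?_
        have : w * ‖p.2 - q.2‖ ≤ w * N := mul_le_mul_of_nonneg_left n2 hw.le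
        calc K * (w * ‖p.2 - q.2‖) ≤ K * (w * N) := mul_le_mul_of_nonneg_left this hK
          _ = K * N * w := by ring
      have e1 : (ν (p0 + w • p.1) - ν (p0 + w • p.2)) / w + (r0 * (p.1 0 - p.2 0)
          + r2 * (p.1 2 - p.2 2) + bt ν p0 R w (p.1 1) (p.1 3) - bt ν p0 R w (p.2 1) (p.2 3)) -
          ((ν (p0 + w • q.1) - ν (p0 + w • q.2)) / w + (r0 * (q.1 0 - q.2 0)
          + r2 * (q.1 2 - q.2 2) + bt ν p0 R w (q.1 1) (q.1 3) - bt ν p0 R w (q.2 1) (q.2 3))) =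
          (ν (p0 + w • p.1) - ν (p0 + w • q.1)) / w - (ν (p0 + w • p.2) - ν (p0 + w • q.2)) / w +
          (r0 * (p.1 0 - q.1 0) - r0 * (p.2 0 - q.2 0)) +
          (r2 * (p.1 2 - q.1 2) - r2 * (p.2 2 - q.2 2)) +
          (bt ν p0 R w (p.1 1) (p.1 3) - bt ν p0 R w (q.1 1) (q.1 3)) -
          (bt ν p0 R w (p.2 1) (p.2 3) - bt ν p0 R w (q.2 1) (q.2 3)) := by ring
      rw [e1]
      have a1 : |r0 * (p.1 0 - q.1 0)| ≤ |r0| * N := by
        rw [abs_mul]; exact mul_le_mul_of_nonneg_left (c1 0) (abs_nonneg _)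
      have a2 : |r0 * (p.2 0 - q.2 0)| ≤ |r0| * N := by
        rw [abs_mul]; exact mul_le_mul_of_nonneg_left (c2 0) (abs_nonneg _)
      have a3 : |r2 * (p.1 2 - q.1 2)| ≤ |r2| * N := by
        rw [abs_mul]; exact mul_le_mul_of_nonneg_left (c1 2) (abs_nonneg _)
      have a4 : |r2 * (p.2 2 - q.2 2)| ≤ |r2| * N := by
        rw [abs_mul]; exact mul_le_mul_of_nonneg_left (c2 2) (abs_nonneg _)
      rw [← abs_of_pos hw, ← abs_div, abs_of_pos hw] at l1' l2'
      have := abs_le.1 l1'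
      have := abs_le.1 l2'
      have := abs_le.1 a1
      have := abs_le.1 a2
      have := abs_le.1 a3
      have := abs_le.1 a4
      have := abs_le.1 b1
      have := abs_le.1 b2
      rw [abs_le]
      constructor <;> linarith
    · rintro ⟨c, c'⟩ ⟨hc, hc', hM, hM', h4, h5⟩
      rw [tendsto_iff_ultrafilter]
      intro W hW
      obtain ⟨g, hg⟩ := exists_BU (p0 := p0) (s := id) W hlip (hid W hW)
      have hL := (HL W hW g hg).A hMR hc hc' hM hM' h4 h5
      have l1 := (hg c).sub (hg c')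
      have l2 := (bt_lim hg R (c 1) (c 3)).sub (bt_lim hg R (c' 1) (c' 3))
      have l3 := (l1.add l2).add_const (r0 * (c 0 - c' 0) + r2 * (c 2 - c' 2))
      have e0 : g c - g c' + (bet g R (c 1) (c 3) - bet g R (c' 1) (c' 3)) +
          (r0 * (c 0 - c' 0) + r2 * (c 2 - c' 2)) = 0 := by rw [hL]; ring
      rw [e0] at l3
      refine l3.congr fun w => ?_
      simp only [id]
      rw [← sub_div]
      have : ν (p0 + w • c) - ν p0 - (ν (p0 + w • c') - ν p0) =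
        ν (p0 + w • c) - ν (p0 + w • c') := by ring
      rw [this]; ring
  · intro M R ε hMR hε
    have key := unif (isCompact_Icc (a := -M) (b := M)) (C := K + |Pt + r0 + r2|) (ε := ε)
      (G := fun w v => bt ν p0 R w v v + (Pt + r0 + r2) * v) (by positivity) ?_ ?_ hε
    · filter_upwards [key] with h hh v hv
      exact hh v (abs_le.1 hv)
    · intro w hw p q
      have b1 := abs_le.1 (bt_lip hlip hK p0 (R := R) hw (le_refl |p - q|) (le_refl |p - q|))
      have a1 : |(Pt + r0 + r2) * (p - q)| ≤ |Pt + r0 + r2| * |p - q| := by rw [abs_mul]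
      have := abs_le.1 a1
      rw [Real.norm_eq_abs, abs_le]
      constructor <;> linarith
    · intro v hv
      rw [tendsto_iff_ultrafilter]
      intro W hW
      obtain ⟨g, hg⟩ := exists_BU (p0 := p0) (s := id) W hlip (hid W hW)
      have hL := (HL W hW g hg).B0 hx0 hy0 hMR (abs_le.2 hv)
      have l3 := (bt_lim hg R v v).add_const ((Pt + r0 + r2) * v)
      rw [hL] at l3
      have e0 : -(Pt + r0 + r2) * v + (Pt + r0 + r2) * v = 0 := by ring
      rwa [e0] at l3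
  · intro hxy r1 r3 h13 h13' M R ε hMR hε
    have key := unif ((isCompact_Icc (a := -M) (b := M)).prod (isCompact_Icc (a := -M) (b := M)))
      (C := K + |r1| + |r3|) (ε := ε)
      (G := fun w p => bt ν p0 R w p.1 p.2 - (r1 * p.1 + r3 * p.2)) (by positivity) ?_ ?_ hε
    · filter_upwards [key] with h hh u v hu hv
      exact hh (u, v) ⟨abs_le.1 hu, abs_le.1 hv⟩
    · intro w hw p q
      have n1 : |p.1 - q.1| ≤ ‖p - q‖ := norm_fst_le (p - q)
      have n2 : |p.2 - q.2| ≤ ‖p - q‖ := norm_snd_le (p - q)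
      have b1 := abs_le.1 (bt_lip hlip hK p0 (R := R) hw n1 n2)
      have a1 : |r1 * (p.1 - q.1)| ≤ |r1| * ‖p - q‖ := by
        rw [abs_mul]; exact mul_le_mul_of_nonneg_left n1 (abs_nonneg _)
      have a2 : |r3 * (p.2 - q.2)| ≤ |r3| * ‖p - q‖ := by
        rw [abs_mul]; exact mul_le_mul_of_nonneg_left n2 (abs_nonneg _)
      have := abs_le.1 a1
      have := abs_le.1 a2
      rw [abs_le]
      constructor <;> linarith
    · rintro ⟨u, v⟩ ⟨hu, hv⟩
      rw [tendsto_iff_ultrafilter]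
      intro W hW
      obtain ⟨g, hg⟩ := exists_BU (p0 := p0) (s := id) W hlip (hid W hW)
      have hL := (HL W hW g hg).C hx0 hy0 hxy hMR (abs_le.2 hu) (abs_le.2 hv) h13 h13'
      have l3 := (bt_lim hg R u v).sub_const (r1 * u + r3 * v)
      rw [hL, sub_self] at l3
      exact l3
  · intro M ε hε
    have key := unif ((isCompact_Icc (a := -M) (b := M)).prod (isCompact_Icc (a := -M) (b := M)))
      (C := K * (1 + 2 * |x| + 2 * |y|) + |Pτ| + |Pt|) (ε := ε)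
      (G := fun w p => (ν (p0 + w • T x y p.1 p.2) - ν p0) / w - (p.1 * Pτ + p.2 * Pt))
      (by positivity) ?_ ?_ hε
    · filter_upwards [key, self_mem_nhdsWithin] with h hh hpos u v hu hv
      have hpos' : (0:ℝ) < h := hpos
      have := hh (u, v) ⟨abs_le.1 hu, abs_le.1 hv⟩
      simp only at this
      have e1 : ν (p0 + h • T x y u v) - ν p0 - h * (u * Pτ + v * Pt) =
          ((ν (p0 + h • T x y u v) - ν p0) / h - (u * Pτ + v * Pt)) * h := by
        field_simp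
      rw [e1, abs_mul, abs_of_pos hpos']
      exact mul_le_mul_of_nonneg_right this hpos'.le
    · intro w hw p q
      have n1 : |p.1 - q.1| ≤ ‖p - q‖ := norm_fst_le (p - q)
      have n2 : |p.2 - q.2| ≤ ‖p - q‖ := norm_snd_le (p - q)
      set N := ‖p - q‖ with hN
      have hN0 : 0 ≤ N := norm_nonneg _
      have l1 := hlip (p0 + w • T x y p.1 p.2) (p0 + w • T x y q.1 q.2)
      rw [add_sub_add_left_eq_sub, ← smul_sub, norm_smul, Real.norm_eq_abs, abs_of_pos hw] at l1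
      have n3 : ‖T x y p.1 p.2 - T x y q.1 q.2‖ ≤ (1 + 2 * |x| + 2 * |y|) * N := by
        have hx' : |x * p.1 - x * q.1| ≤ |x| * N := by
          rw [← mul_sub, abs_mul]; exact mul_le_mul_of_nonneg_left n1 (abs_nonneg _)
        have hy' : |y * p.1 - y * q.1| ≤ |y| * N := by
          rw [← mul_sub, abs_mul]; exact mul_le_mul_of_nonneg_left n1 (abs_nonneg _)
        have hxn : 0 ≤ |x| * N := by positivity
        have hyn : 0 ≤ |y| * N := by positivity
        have h1 := abs_le.1 hx'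
        have h2 := abs_le.1 hy'
        have h3 := abs_le.1 n2
        rw [pi_norm_le_iff_of_nonneg (by positivity)]
        refine forall6 ?_ ?_ ?_ ?_ ?_ ?_ <;> rw [Real.norm_eq_abs, Pi.sub_apply] <;>
          unfold T <;> simp only [X_0, X_1, X_2, X_3, X_4, X_5] <;> rw [abs_le] <;>
          constructor <;> linarith
      have l1' : |(ν (p0 + w • T x y p.1 p.2) - ν (p0 + w • T x y q.1 q.2)) / w| ≤
          K * (1 + 2 * |x| + 2 * |y|) * N := by
        rw [abs_div, abs_of_pos hw, div_le_iff₀ hw]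
        refine l1.trans ?_
        calc K * (w * ‖T x y p.1 p.2 - T x y q.1 q.2‖)
            ≤ K * (w * ((1 + 2 * |x| + 2 * |y|) * N)) := by gcongr
          _ = K * (1 + 2 * |x| + 2 * |y|) * N * w := by ring
      have a1 : |(p.1 - q.1) * Pτ| ≤ |Pτ| * N := by
        rw [abs_mul, mul_comm]; exact mul_le_mul_of_nonneg_left n1 (abs_nonneg _)
      have a2 : |(p.2 - q.2) * Pt| ≤ |Pt| * N := by
        rw [abs_mul, mul_comm]; exact mul_le_mul_of_nonneg_left n2 (abs_nonneg _)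
      have e1 : (ν (p0 + w • T x y p.1 p.2) - ν p0) / w - (p.1 * Pτ + p.2 * Pt) -
          ((ν (p0 + w • T x y q.1 q.2) - ν p0) / w - (q.1 * Pτ + q.2 * Pt)) =
          (ν (p0 + w • T x y p.1 p.2) - ν (p0 + w • T x y q.1 q.2)) / w -
          (p.1 - q.1) * Pτ - (p.2 - q.2) * Pt := by ring
      rw [e1]
      have := abs_le.1 l1'
      have := abs_le.1 a1
      have := abs_le.1 a2
      rw [abs_le]
      constructor <;> linarith
    · rintro ⟨u, v⟩ _
      rw [tendsto_iff_ultrafilter]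
      intro W hW
      obtain ⟨g, hg⟩ := exists_BU (p0 := p0) (s := id) W hlip (hid W hW)
      have hL := (HL W hW g hg).hP u v
      have l3 := (hg (T x y u v)).sub_const (u * Pτ + v * Pt)
      rw [hL, sub_self] at l3
      exact l3

/-- the linear expansion in the case `x ≠ y` -/
theorem Tan.linear {p0 : V6} {Pτ Pt : ℝ} (h : Tan ν p0 x y Pτ Pt r0 r2 J)
    (hxy : x ≠ y) {r1 r3 : ℝ} (h13 : r1 + r3 = -(Pt + r0 + r2))
    (h13' : y * r1 + x * r3 = -(Pτ + J + r0 * (x + y))) {M ε : ℝ} (hε : 0 < ε) :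
    ∀ᶠ h in 𝓝[>] (0:ℝ), ∀ c ∈ LEG, ∀ s, (∀ i, |c i| ≤ M) → |s| ≤ M → c 4 = x * s → c 5 = y * s →
      |ν (p0 + h • c) - ν p0 + h * (r0 * c 0 + r1 * c 1 + r2 * c 2 + r3 * c 3 + J * s)|
        ≤ ε * h := by
  set M' := (1 + |x| + |y|) * M + M with hM'
  have hA := h.A M' (2 * M') (ε / 4) le_rfl (by positivity)
  have hC := h.C hxy r1 r3 h13 h13' M' (2 * M') (ε / 4) le_rfl (by positivity)
  have hD := h.D M (ε / 4) (by positivity)
  filter_upwards [hA, hC, hD, self_mem_nhdsWithin] with w hA hC hD hw c hc s hM hs h4 h5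
  have hw' : (0:ℝ) < w := hw
  have hM0 : 0 ≤ M := (abs_nonneg _).trans hs
  have hxs : |x * s| ≤ |x| * M := by
    rw [abs_mul]; exact mul_le_mul_of_nonneg_left hs (abs_nonneg _)
  have hys : |y * s| ≤ |y| * M := by
    rw [abs_mul]; exact mul_le_mul_of_nonneg_left hs (abs_nonneg _)
  have hxM : 0 ≤ |x| * M := by positivity
  have hyM : 0 ≤ |y| * M := by positivity
  have hxl := abs_le.1 hxs
  have hyl := abs_le.1 hys
  have hcM : ∀ i, |c i| ≤ M' := fun i => (hM i).trans (by rw [hM']; nlinarith)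
  have hTM : ∀ i, |T x y s 0 i| ≤ M' := by
    refine forall6 ?_ ?_ ?_ ?_ ?_ ?_ <;> unfold T <;>
      simp only [X_0, X_1, X_2, X_3, X_4, X_5] <;> rw [abs_le, hM'] <;> constructor <;> linarith
  have k1 := hA c hc (T x y s 0) (T_mem _ _ _ _) hcM hTM h4 h5
  have k2 := hC (c 1) (c 3) (hcM 1) (hcM 3)
  have k3 := hC (T x y s 0 1) (T x y s 0 3) (hTM 1) (hTM 3)
  have k4 := hD s 0 hs (by rw [abs_zero]; exact hM0)
  have t0 : T x y s 0 0 = x * s + y * s := by simp [T]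
  have t1 : T x y s 0 1 = y * s := by simp [T]
  have t2 : T x y s 0 2 = 0 := by simp [T]
  have t3 : T x y s 0 3 = x * s := by simp [T]
  rw [t0, t1, t2, t3] at k1
  rw [t1, t3] at k3
  set B1 := bt ν p0 (2 * M') w (c 1) (c 3) with hB1
  set B2 := bt ν p0 (2 * M') w (y * s) (x * s) with hB2
  have m2 : |w * (B1 - (r1 * c 1 + r3 * c 3))| ≤ ε / 4 * w := by
    rw [abs_mul, abs_of_pos hw', mul_comm]; exact mul_le_mul_of_nonneg_right k2 hw'.le
  have m3 : |w * (B2 - (r1 * (y * s) + r3 * (x * s)))| ≤ ε / 4 * w := by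
    rw [abs_mul, abs_of_pos hw', mul_comm]; exact mul_le_mul_of_nonneg_right k3 hw'.le
  have e1 : ν (p0 + w • c) - ν p0 + w * (r0 * c 0 + r1 * c 1 + r2 * c 2 + r3 * c 3 + J * s) =
      (ν (p0 + w • c) - ν (p0 + w • T x y s 0) + w * (r0 * (c 0 - (x * s + y * s)) +
        r2 * (c 2 - 0) + B1 - B2)) - w * (B1 - (r1 * c 1 + r3 * c 3)) +
      w * (B2 - (r1 * (y * s) + r3 * (x * s))) +
      (ν (p0 + w • T x y s 0) - ν p0 - w * (s * Pτ + 0 * Pt)) := by
    have : J * s = -(s * Pτ) - r0 * (x * s + y * s) - (y * r1 + x * r3) * s := by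
      rw [h13']; ring
    rw [this]; ring
  rw [e1]
  have := abs_le.1 k1
  have := abs_le.1 m2
  have := abs_le.1 m3
  have := abs_le.1 k4
  rw [abs_le]
  constructor <;> linarith

end

end Crest.Agent.R138.Dl848
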