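import Crest.Agent.R138.Dl11_848

/-!
# R138: decoupling on the legal region, dyadic limits at almost every point (helper848)
-/

set_option autoImplicit false

open MeasureTheory Filter Topology Set
open scoped ENNReal

namespace Crest.Agent.R138.Dl848

open Crest.Agent.R138.Dec848 (Rc measurableSet_Rc vol_Rc)

section

variable {ν : V6 → ℝ} {S : Set V6} {K Λ : ℝ} {a b φ : ℝ → ℝ}

theorem exists_m₀ (C : ℝ) {r : ℝ} (hr : 0 < r) :
    ∃ m₀ : ℕ, ∀ m, m₀ ≤ m → C * (1 / 2 : ℝ) ^ m ≤ r := by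
  have h1 := hd_tendsto.const_mul C
  rw [mul_zero] at h1
  obtain ⟨m₀, hm₀⟩ := eventually_atTop.1 (h1.eventually_lt_const hr)
  exact ⟨m₀, fun m hm => (hm₀ m hm).le⟩

theorem Sf.ae_MJ (h : Sf ν S K Λ a b φ) {r τ₀ τ₁ s₀ s₁ : ℝ} (hr : 0 < r) (hτ : τ₀ ≤ τ₁)
    (hs : s₀ ≤ s₁) (hS : ∀ x ∈ Rc τ₀ τ₁ s₀ s₁, ∀ c ∈ LB r, Y a b φ x + c ∈ S) (n N R : ℕ) :
    ∀ᵐ x ∂(volume.restrict (Rc τ₀ τ₁ s₀ s₁)), Tendsto (fun m : ℕ => (2 : ℝ) ^ m *
      MJ ν a b φ (n * (1 / 2 : ℝ) ^ m) (N * (1 / 2 : ℝ) ^ m) (R * (1 / 2 : ℝ) ^ m) x)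
      atTop (𝓝 0) := by
  obtain ⟨m₀, hm₀⟩ := exists_m₀ (4 * (Λ * n) + N + R) hr
  have hD : ∀ m : ℕ, Λ * |(n : ℝ) * (1 / 2 : ℝ) ^ m| ≤ Λ * n * (1 / 2 : ℝ) ^ m := by
    intro m; rw [abs_of_nonneg (by positivity)]; apply le_of_eq; ring
  have hK := h.K0
  have hτ' : 0 ≤ τ₁ - τ₀ := by linarith
  apply ae_dyadic (measurableSet_Rc _ _ _ _) (fun m => h.meas_MJ _ _ _)
    (K := K * R * (2 * N * (τ₁ - τ₀))) (by positivity) m₀
  · intro m hm x hx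
    exact (h.MJ_nonneg (by positivity) (by positivity) (hD m) (hS x hx)
      (by have := hm₀ m hm; linarith)).2
  · intro m hm
    refine (h.int_MJ (by positivity) (by positivity) (hD m) hτ hs hS
      (by have := hm₀ m hm; linarith)).trans ?_
    apply ENNReal.ofReal_le_ofReal; apply le_of_eq; ring

theorem Sf.ae_VU (h : Sf ν S K Λ a b φ) {i : Fin 6} {δ : ℕ → ℝ} {r τ₀ τ₁ s₀ s₁ : ℝ} (hr : 0 < r)
    (hτ : τ₀ ≤ τ₁) (hs : s₀ ≤ s₁)
    (hS : ∀ x ∈ Rc τ₀ τ₁ s₀ s₁, ∀ c ∈ LB r, Y a b φ x + c ∈ S) {n N R : ℕ}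
    (hδ : ∀ m, |δ m| = n * (1 / 2 : ℝ) ^ m) (hc : ∀ m, Case a b φ i (δ m))
    (hR : Λ * n + 2 * N ≤ R) :
    ∀ᵐ x ∂(volume.restrict (Rc τ₀ τ₁ s₀ s₁)), Tendsto (fun m : ℕ => (2 : ℝ) ^ m *
      (VU ν a b φ i (N * (1 / 2 : ℝ) ^ m) (R * (1 / 2 : ℝ) ^ m) (δ m) x
        - VU ν a b φ i (N * (1 / 2 : ℝ) ^ m) (R * (1 / 2 : ℝ) ^ m) (-(δ m)) x))
      atTop (𝓝 0) := by
  obtain ⟨m₀, hm₀⟩ := exists_m₀ (4 * (Λ * n) + 4 * N + 4 * R) hr
  have hD : ∀ m : ℕ, Λ * |δ m| ≤ Λ * n * (1 / 2 : ℝ) ^ m := by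
    intro m; rw [hδ]; apply le_of_eq; ring
  have hK := h.K0
  have hΛ := h.Λ0
  have hτ' : 0 ≤ τ₁ - τ₀ := by linarith
  have hs' : 0 ≤ s₁ - s₀ := by linarith
  have hR' : ∀ m : ℕ, Λ * n * (1 / 2 : ℝ) ^ m + 2 * (N * (1 / 2 : ℝ) ^ m) ≤
      R * (1 / 2 : ℝ) ^ m := by
    intro m
    have := mul_le_mul_of_nonneg_right hR (hd_pos m).le
    linarith
  apply ae_dyadic (measurableSet_Rc _ _ _ _)
    (fun m => (h.meas_VU _ _ _ _).sub (h.meas_VU _ _ _ _))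
    (K := K * (2 * N) * (2 * n * (s₁ - s₀)) + K * (R + Λ * n) * (2 * N * (τ₁ - τ₀)))
    (by positivity) m₀
  · intro m hm x hx
    exact (h.U_bound (hc m) (by positivity) (hD m) (hS x hx) (hR' m)
      (by have := hm₀ m hm; linarith)).1
  · intro m hm
    refine (h.int_U (hc m) (by positivity) (hD m) hτ hs hS (hR' m)
      (by have := hm₀ m hm; linarith)).trans ?_
    rw [hδ]
    apply ENNReal.ofReal_le_ofReal; apply le_of_eq; ring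

theorem ae_of_local {P Q : ℝ × ℝ → Prop}
    (h : ∀ z, P z → ∃ u ∈ 𝓝 z, ∀ᵐ z' ∂(volume.restrict u), Q z') : ∀ᵐ z, P z → Q z := by
  rw [ae_iff]
  apply measure_null_of_locally_null
  intro z hz
  have hP : P z := by
    by_contra hn
    exact hz fun h' => absurd h' hn
  obtain ⟨u, hu, hae⟩ := h z hP
  refine ⟨{z | ¬ (P z → Q z)} ∩ u, ?_, ?_⟩
  · exact inter_mem self_mem_nhdsWithin (mem_nhdsWithin_of_mem_nhds hu)
  · refine measure_mono_null ?_ (le_antisymm ((Measure.le_restrict_apply u {z | ¬ Q z}).trans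
      (le_of_eq (ae_iff.1 hae))) bot_le)
    rintro w ⟨h1, h2⟩
    exact ⟨fun hQ => h1 fun _ => hQ, h2⟩

/-- points which have a neighbourhood inside `S` -/
def Loc (S : Set V6) (a b : ℝ → ℝ) (z : ℝ × ℝ) : Prop :=
  ∃ r > 0, ∀ z' : ℝ × ℝ, |z'.1 - z.1| ≤ r → |z'.2 - z.2| ≤ r → ∀ c ∈ LB r,
    X (a z'.1) (b z'.1) z'.2 + c ∈ S

theorem Rc_nhds (z : ℝ × ℝ) {r : ℝ} (hr : 0 < r) :
    Rc (z.1 - r) (z.1 + r) (z.2 - r) (z.2 + r) ∈ 𝓝 z := by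
  unfold Rc
  exact prod_mem_nhds (Icc_mem_nhds (by linarith) (by linarith))
    (Icc_mem_nhds (by linarith) (by linarith))

theorem Rc_abs {z z' : ℝ × ℝ} {r : ℝ} (h : z' ∈ Rc (z.1 - r) (z.1 + r) (z.2 - r) (z.2 + r)) :
    |z'.1 - z.1| ≤ r ∧ |z'.2 - z.2| ≤ r := by
  obtain ⟨⟨h1, h2⟩, h3, h4⟩ := h
  exact ⟨abs_le.2 ⟨by linarith, by linarith⟩, abs_le.2 ⟨by linarith, by linarith⟩⟩

/-- the shear -/
theorem mp_shear (hφ : Continuous φ) :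
    MeasurePreserving (fun z : ℝ × ℝ => (z.1, z.2 + φ z.1)) volume volume := by
  have := MeasurePreserving.skew_product (MeasurePreserving.id (volume : Measure ℝ))
    (μc := (volume : Measure ℝ)) (μd := (volume : Measure ℝ)) (g := fun x y => y + φ x)
    (by
      unfold Function.uncurry
      exact Continuous.measurable (by fun_prop))
    (Filter.Eventually.of_forall fun x => map_add_right_eq_self _ _)
  exact this

/-- dyadic limits at almost every point -/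
theorem ae_Dy (hν : Pr ν S) (hlip : ∀ p q, |ν p - ν q| ≤ K * ‖p - q‖) (hK : 0 ≤ K)
    (hΛ : 0 ≤ Λ) (ma : Monotone a) (mb : Monotone b)
    (la : ∀ s t, |a s - a t| ≤ Λ * |s - t|) (lb : ∀ s t, |b s - b t| ≤ Λ * |s - t|) :
    ∀ᵐ z : ℝ × ℝ, Loc S a b z → Dy ν a b z.1 z.2 := by
  have hSf0 : Sf ν S K Λ a b (fun _ => 0) :=
    ⟨hν, hK, hlip, hΛ, ma, mb, la, lb, fun s t => by rw [sub_self, abs_zero]; positivity⟩
  have hSf1 : Sf ν S K Λ a b (fun s => a s + b s) :=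
    ⟨hν, hK, hlip, hΛ, ma, mb, la, lb, fun s t => by
      have h1 := abs_le.1 (la s t)
      have h2 := abs_le.1 (lb s t)
      rw [abs_le]; constructor <;> linarith⟩
  have hc := hSf1.cφ
  -- the first two conditions
  have A1 : ∀ᵐ z : ℝ × ℝ, Loc S a b z → ((∀ n N R : ℕ, Tendsto (fun m : ℕ => (2 : ℝ) ^ m *
      MJ ν a b (fun _ => 0) (n * (1 / 2 : ℝ) ^ m) (N * (1 / 2 : ℝ) ^ m) (R * (1 / 2 : ℝ) ^ m) z)
      atTop (𝓝 0)) ∧ (∀ n N R : ℕ, Λ * n + 2 * N ≤ R → Tendsto (fun m : ℕ => (2 : ℝ) ^ m *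
      (VU ν a b (fun _ => 0) 2 (N * (1 / 2 : ℝ) ^ m) (R * (1 / 2 : ℝ) ^ m) (n * (1 / 2 : ℝ) ^ m) z
        - VU ν a b (fun _ => 0) 2 (N * (1 / 2 : ℝ) ^ m) (R * (1 / 2 : ℝ) ^ m)
          (-(n * (1 / 2 : ℝ) ^ m)) z)) atTop (𝓝 0))) := by
    apply ae_of_local
    rintro z ⟨r, hr, hz⟩
    have hS : ∀ x ∈ Rc (z.1 - r) (z.1 + r) (z.2 - r) (z.2 + r), ∀ c ∈ LB r,
        Y a b (fun _ => 0) x + c ∈ S := by
      intro x hx c hc
      obtain ⟨h1, h2⟩ := Rc_abs hx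
      have := hz x h1 h2 c hc
      rwa [Y, sub_zero]
    refine ⟨_, Rc_nhds z hr, ?_⟩
    have B1 := fun n N R : ℕ => hSf0.ae_MJ hr (by linarith) (by linarith) hS n N R
    have B2 := fun (n N R : ℕ) (hR : Λ * n + 2 * N ≤ R) => hSf0.ae_VU (i := 2)
      (δ := fun m => n * (1 / 2 : ℝ) ^ m) hr (by linarith) (by linarith) hS
      (fun m => abs_of_nonneg (by positivity))
      (fun m => Or.inl ⟨rfl, fun _ => rfl, by positivity⟩) hR
    have C1 := ae_all_iff.2 fun n => ae_all_iff.2 fun N => ae_all_iff.2 fun R => B1 n N R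
    have C2 := ae_all_iff.2 fun n => ae_all_iff.2 fun N => ae_all_iff.2 fun R =>
      ae_all_iff.2 fun hR => B2 n N R hR
    filter_upwards [C1, C2] with x h1 h2
    exact ⟨h1, h2⟩
  -- the last condition
  have A2 : ∀ᵐ z : ℝ × ℝ, Loc S a b z → ∀ n N R : ℕ, Λ * n + 2 * N ≤ R →
      Tendsto (fun m : ℕ => (2 : ℝ) ^ m *
      (VU ν a b (fun s => a s + b s) 0 (N * (1 / 2 : ℝ) ^ m) (R * (1 / 2 : ℝ) ^ m)
        (-(n * (1 / 2 : ℝ) ^ m)) (z.1, z.2 + (a z.1 + b z.1))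
      - VU ν a b (fun s => a s + b s) 0 (N * (1 / 2 : ℝ) ^ m) (R * (1 / 2 : ℝ) ^ m)
        (-(-(n * (1 / 2 : ℝ) ^ m))) (z.1, z.2 + (a z.1 + b z.1)))) atTop (𝓝 0) := by
    apply ae_of_local
    rintro z ⟨r, hr, hz⟩
    set w : ℝ × ℝ := (z.1, z.2 + (a z.1 + b z.1)) with hw
    set ρ := r / (1 + 2 * Λ) with hρ
    have hρ0 : 0 < ρ := by positivity
    have hρr : ρ + 2 * Λ * ρ = r := by rw [hρ]; field_simp
    have hρr' : ρ ≤ r := by have : 0 ≤ 2 * Λ * ρ := by positivity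
                            linarith
    have hS : ∀ x ∈ Rc (w.1 - ρ) (w.1 + ρ) (w.2 - ρ) (w.2 + ρ), ∀ c ∈ LB r,
        Y a b (fun s => a s + b s) x + c ∈ S := by
      intro x hx c hc
      obtain ⟨h1, h2⟩ := Rc_abs hx
      have h3 := abs_le.1 (la x.1 z.1)
      have h4 := abs_le.1 (lb x.1 z.1)
      have h5 : Λ * |x.1 - z.1| ≤ Λ * ρ := mul_le_mul_of_nonneg_left h1 hΛ
      have h6 := abs_le.1 h2
      simp only [hw] at h6
      refine hz (x.1, x.2 - (a x.1 + b x.1)) (h1.trans hρr') ?_ c hc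
      rw [abs_le]
      constructor <;> simp only <;> linarith
    have B2 := fun (n N R : ℕ) (hR : Λ * n + 2 * N ≤ R) => hSf1.ae_VU (i := 0)
      (δ := fun m => -(n * (1 / 2 : ℝ) ^ m)) hr (by linarith) (by linarith) hS
      (fun m => by rw [abs_neg]; exact abs_of_nonneg (by positivity))
      (fun m => Or.inr ⟨rfl, fun _ => rfl, neg_nonpos.2 (by positivity)⟩) hR
    have C2 := ae_all_iff.2 fun n => ae_all_iff.2 fun N => ae_all_iff.2 fun R =>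
      ae_all_iff.2 fun hR => B2 n N R hR
    have hmp := (mp_shear hc).restrict_preimage
      (measurableSet_Rc (w.1 - ρ) (w.1 + ρ) (w.2 - ρ) (w.2 + ρ))
    refine ⟨_, ?_, hmp.quasiMeasurePreserving.ae C2⟩
    have hcont : Continuous fun z : ℝ × ℝ => (z.1, z.2 + (a z.1 + b z.1)) := by
      have ca := hSf1.ca
      have cb := hSf1.cb
      fun_prop
    exact hcont.continuousAt.preimage_mem_nhds (Rc_nhds w hρ0)
  filter_upwards [A1, A2] with z h1 h2 hz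
  obtain ⟨h3, h4⟩ := h1 hz
  exact ⟨h3, fun n N => ⟨Λ * n + 2 * N, fun R hR => h4 n N R hR⟩,
    fun n N => ⟨Λ * n + 2 * N, fun R hR => h2 hz n N R hR⟩⟩

/-- almost every point with good derivatives is generic -/
theorem ae_GP (hν : Pr ν S) (hlip : ∀ p q, |ν p - ν q| ≤ K * ‖p - q‖) (hK : 0 ≤ K)
    (hΛ : 0 ≤ Λ) (ma : Monotone a) (mb : Monotone b)
    (la : ∀ s t, |a s - a t| ≤ Λ * |s - t|) (lb : ∀ s t, |b s - b t| ≤ Λ * |s - t|) :
    ∀ᵐ z : ℝ × ℝ, Loc S a b z → ∀ x y : ℝ, 0 < x → 0 < y → HasDerivAt a x z.1 →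
      HasDerivAt b y z.1 → GP ν (X (a z.1) (b z.1) z.2) := by
  filter_upwards [ae_Dy hν hlip hK hΛ ma mb la lb] with z hz hL x y hx hy ha hb
  obtain ⟨r, hr, hS⟩ := hL
  intro W hW g hg
  refine good_real hlip (fun U hU f hf => ?_) hW hg
  exact (hz ⟨r, hr, hS⟩).good hν hlip ha hb hx hy hr
    (hS z (by rw [sub_self, abs_zero]; exact hr.le) (by rw [sub_self, abs_zero]; exact hr.le))
    hU hf

end

end Crest.Agent.R138.Dl848
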