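import Crest.Agent.R138.Dl12_848

/-!
# R138: decoupling on the legal region, rates at almost every point (helper848)
-/

set_option autoImplicit false

open MeasureTheory Filter Topology Set
open scoped ENNReal

namespace Crest.Agent.R138.Dl848

/-- limits along the positive rationals -/
theorem tendsto_rat {f : ℝ → ℝ} (hf : ContinuousOn f (Ioi 0)) {ρ : ℝ} :
    Tendsto f (𝓝[>] 0) (𝓝 ρ) ↔
      Tendsto (fun q : ℚ => f q) (comap (fun q : ℚ => (q : ℝ)) (𝓝[>] 0)) (𝓝 ρ) := by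
  constructor
  · intro h
    exact h.comp tendsto_comap
  · intro h
    rw [(closed_nhds_basis ρ).tendsto_right_iff]
    rintro V ⟨hV, hVc⟩
    obtain ⟨U, hU, hUV⟩ := mem_comap.1 (h hV)
    obtain ⟨ε, hε, hεU⟩ := mem_nhdsGT_iff_exists_Ioo_subset.1 hU
    filter_upwards [Ioo_mem_nhdsGT hε] with w hw
    by_contra hn
    have hopen : IsOpen (Ioo 0 ε ∩ f ⁻¹' Vᶜ) :=
      (hf.mono Ioo_subset_Ioi_self).isOpen_inter_preimage isOpen_Ioo hVc.isOpen_compl
    obtain ⟨q, hq⟩ := Rat.denseRange_cast.exists_mem_open hopen ⟨w, hw, hn⟩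
    exact hq.2 (hUV (hεU hq.1))

theorem meas_rate {F G : ℝ → ℝ × ℝ → ℝ} (hF : ∀ w, Measurable (F w)) (hG : ∀ w, Measurable (G w))
    (cF : ∀ z, ContinuousOn (fun w => F w z) (Ioi 0))
    (cG : ∀ z, ContinuousOn (fun w => G w z) (Ioi 0)) :
    MeasurableSet {z | ∃ ρ, Tendsto (fun w => F w z) (𝓝[>] 0) (𝓝 ρ) ∧
      Tendsto (fun w => G w z) (𝓝[>] 0) (𝓝 ρ)} := by
  set l : Filter ℚ := comap (fun q : ℚ => (q : ℝ)) (𝓝[>] 0) with hl
  have h1 : MeasurableSet {z | ∃ ρ, Tendsto (fun q : ℚ => F q z) l (𝓝 ρ)} :=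
    measurableSet_exists_tendsto fun q => hF q
  have h2 : MeasurableSet {z | Tendsto (fun q : ℚ => F q z - G q z) l (𝓝 0)} :=
    measurableSet_tendsto (𝓝 0) fun q => (hF q).sub (hG q)
  have e : {z | ∃ ρ, Tendsto (fun w => F w z) (𝓝[>] 0) (𝓝 ρ) ∧
      Tendsto (fun w => G w z) (𝓝[>] 0) (𝓝 ρ)} =
      {z | ∃ ρ, Tendsto (fun q : ℚ => F q z) l (𝓝 ρ)} ∩
      {z | Tendsto (fun q : ℚ => F q z - G q z) l (𝓝 0)} := by
    ext z
    constructor
    · rintro ⟨ρ, h3, h4⟩
      have h3' := (tendsto_rat (cF z)).1 h3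
      have h4' := (tendsto_rat (cG z)).1 h4
      refine ⟨⟨ρ, h3'⟩, ?_⟩
      have := h3'.sub h4'
      rw [sub_self] at this
      exact this
    · rintro ⟨⟨ρ, h3⟩, h4⟩
      have h4' : Tendsto (fun q : ℚ => F q z - G q z) l (𝓝 0) := h4
      refine ⟨ρ, (tendsto_rat (cF z)).2 h3, (tendsto_rat (cG z)).2 ?_⟩
      have := h3.sub h4'
      simpa using this
  rw [e]
  exact h1.inter h2

theorem ae_of_local' {α : Type*} [TopologicalSpace α] [SecondCountableTopology α]
    [MeasurableSpace α] {μ : Measure α} {P Q : α → Prop}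
    (h : ∀ z, P z → ∃ u ∈ 𝓝 z, ∀ᵐ z' ∂(μ.restrict u), Q z') : ∀ᵐ z ∂μ, P z → Q z := by
  rw [ae_iff]
  apply measure_null_of_locally_null
  intro z hz
  have hP : P z := by
    by_contra hn
    exact hz fun h' => absurd h' hn
  obtain ⟨u, hu, hae⟩ := h z hP
  refine ⟨{z | ¬ (P z → Q z)} ∩ u, ?_, ?_⟩
  · exact inter_mem self_mem_nhdsWithin (mem_nhdsWithin_of_mem_nhds hu)
  · refine measure_mono_null ?_ (le_antisymm ((Measure.le_restrict_apply u {z | ¬ Q z}).trans
      (le_of_eq (ae_iff.1 hae))) bot_le)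
    rintro w ⟨h1, h2⟩
    exact ⟨fun hQ => h1 fun _ => hQ, h2⟩

/-- from lines to the plane -/
theorem fubini_fst {P D Q : ℝ × ℝ → Prop} (hP : MeasurableSet {z | P z})
    (hQ : MeasurableSet {z | Q z}) (hD : ∀ᵐ z, P z → D z)
    (hline : ∀ τ, ∀ᵐ t, P (τ, t) → D (τ, t) → Q (τ, t)) : ∀ᵐ z, P z → Q z := by
  have hm : MeasurableSet {z | P z → Q z} := by
    have e : {z | P z → Q z} = {z | P z}ᶜ ∪ {z | Q z} := by
      ext z
      by_cases h : P z <;> simp [h]
    rw [e]
    exact hP.compl.union hQ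
  have hD' : ∀ᵐ z ∂((volume : Measure ℝ).prod volume), P z → D z := hD
  have h1 := Measure.ae_ae_of_ae_prod hD'
  have h2 : ∀ᵐ z ∂((volume : Measure ℝ).prod volume), P z → Q z := by
    rw [Measure.ae_prod_iff_ae_ae hm]
    filter_upwards [h1] with τ h3
    filter_upwards [h3, hline τ] with t h4 h5 h6
    exact h5 h6 (h4 h6)
  exact h2

theorem mp_swap : MeasurePreserving (Prod.swap : ℝ × ℝ → ℝ × ℝ) volume volume :=
  Measure.measurePreserving_swap

theorem fubini_snd {P D Q : ℝ × ℝ → Prop} (hP : MeasurableSet {z | P z})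
    (hQ : MeasurableSet {z | Q z}) (hD : ∀ᵐ z, P z → D z)
    (hline : ∀ t, ∀ᵐ τ, P (τ, t) → D (τ, t) → Q (τ, t)) : ∀ᵐ z, P z → Q z := by
  have h1 := fubini_fst (P := fun z => P z.swap) (D := fun z => D z.swap) (Q := fun z => Q z.swap)
    (measurable_swap hP) (measurable_swap hQ) (mp_swap.quasiMeasurePreserving.ae hD) hline
  have h2 := mp_swap.quasiMeasurePreserving.ae h1
  simpa using h2

section

variable {ν : V6 → ℝ} {S : Set V6} {K Λ : ℝ} {a b : ℝ → ℝ}

theorem cν_of (hlip : ∀ p q, |ν p - ν q| ≤ K * ‖p - q‖) (hK : 0 ≤ K) : Continuous ν := by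
  have : LipschitzWith (Real.toNNReal K) ν := by
    apply LipschitzWith.of_dist_le_mul
    intro p q
    rw [Real.coe_toNNReal _ hK, Real.dist_eq, dist_eq_norm]
    exact hlip p q
  exact this.continuous

theorem cont_smul_e {α : Type*} [TopologicalSpace α] {f : α → ℝ} (hf : Continuous f)
    (i : Fin 6) : Continuous fun x => f x • e i := hf.smul continuous_const

/-- rates on the lines `τ = const` -/
theorem ae_rate_t (hν : Pr ν S) (hlip : ∀ p q, |ν p - ν q| ≤ K * ‖p - q‖) (hK : 0 ≤ K)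
    {i : Fin 6} (hi : i = 0 ∨ i = 2) (τ : ℝ) :
    ∀ᵐ t : ℝ, Loc S a b (τ, t) →
      (Tendsto (fun w => (d1 ν (a τ) (b τ) i w t + d2 ν (a τ) (b τ) w t) / w) (𝓝[>] 0) (𝓝 0) →
      Tendsto (fun w => (d1 ν (a τ) (b τ) i w (t - w) + d2 ν (a τ) (b τ) w (t - w)) / w)
        (𝓝[>] 0) (𝓝 0) → ∃ ρ, RateI ν (a τ) (b τ) t i ρ) := by
  have hc := cν_of hlip hK
  apply ae_of_local'
  rintro t0 ⟨r, hr, hz⟩
  have hS : ∀ u ∈ Icc (t0 - r) (t0 + r), ∀ c ∈ LB r, X (a τ) (b τ) u + c ∈ S := by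
    intro u hu c hc
    exact hz (τ, u) (by rw [sub_self, abs_zero]; exact hr.le)
      (abs_le.2 ⟨by linarith [hu.1], by linarith [hu.2]⟩) c hc
  have key := rate_line (m := fun w t => Inc ν (w • e i) (X (a τ) (b τ) t + w45 w w))
    (δ := fun w t => d1 ν (a τ) (b τ) i w t + d2 ν (a τ) (b τ) w t) (C := K) (w₀ := r / 8)
    (u₀ := t0 - r / 2) (u₁ := t0 + r / 2) hK (by positivity) (by linarith)
    (fun w => by
      refine cont_Inc hc continuous_const ((cont_X continuous_const continuous_const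
        continuous_id).add continuous_const))
    (by
      rintro w ⟨hw0, hw⟩ u ⟨hu0, hu1⟩
      have hSu := hS u ⟨by linarith, by linarith⟩
      constructor
      · apply hν.nonneg
        · rw [X_pt']
          exact hSu _ (pt_mem hi (D := 0) (N := 0) (by rw [abs_zero]) (by rw [abs_zero])
            (by rw [abs_zero]; linarith) (by rw [abs_zero]) hw0.le hw0.le (by linarith)
            (by linarith) (by linarith))
        · rw [X_pt', add_assoc, pt_add]
          exact hSu _ (pt_mem hi (D := 0) (N := w) (by rw [abs_zero]) (by rw [abs_zero])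
            (by rw [abs_zero]; linarith) (by rw [zero_add, abs_of_pos hw0]) le_rfl le_rfl
            (by linarith) (by linarith) (by linarith))
        · exact e_nonneg hw0.le i
      · exact (le_abs_self _).trans ((inc_abs hlip _ _).trans
          (mul_le_mul_of_nonneg_left (norm_smul_e hw0.le i) hK)))
    (by
      rintro w ⟨hw0, hw⟩ u ⟨hu0, hu1⟩ s hs σ hσ n h1 h2
      exact split_t hν hlip hK hi (hS u ⟨by linarith, by linarith⟩) hw0 (by linarith) hs hσ
        h1 h2)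
  exact ⟨Ioo (t0 - r / 2) (t0 + r / 2), Ioo_mem_nhds (by linarith) (by linarith), key⟩

/-- rates on the lines `t = const` -/
theorem ae_rate_τ (hν : Pr ν S) (hlip : ∀ p q, |ν p - ν q| ≤ K * ‖p - q‖) (hK : 0 ≤ K)
    (hΛ : 0 ≤ Λ) (ma : Monotone a) (mb : Monotone b)
    (la : ∀ s t, |a s - a t| ≤ Λ * |s - t|) (lb : ∀ s t, |b s - b t| ≤ Λ * |s - t|) (t : ℝ) :
    ∀ᵐ τ : ℝ, Loc S a b (τ, t) →
      (Tendsto (fun w => dJ ν a b Λ t w τ / w) (𝓝[>] 0) (𝓝 0) →
      Tendsto (fun w => dJ ν a b Λ t w (τ - w) / w) (𝓝[>] 0) (𝓝 0) →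
      ∃ ρ, RateJ ν a b τ t ρ) := by
  have hc := cν_of hlip hK
  have ca := cont_of_lip hΛ la
  have cb := cont_of_lip hΛ lb
  apply ae_of_local'
  rintro τ0 ⟨r, hr, hz⟩
  have hS : ∀ u ∈ Icc (τ0 - r) (τ0 + r), ∀ c ∈ LB r, X (a u) (b u) t + c ∈ S := by
    intro u hu c hc
    exact hz (u, t) (abs_le.2 ⟨by linarith [hu.1], by linarith [hu.2]⟩)
      (by rw [sub_self, abs_zero]; exact hr.le) c hc
  have hw₀ : 0 < r / (8 * (Λ + 1)) := by positivity
  have hw1 : r / (8 * (Λ + 1)) ≤ r / 8 := by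
    apply div_le_div_of_nonneg_left hr.le (by norm_num) (by linarith)
  have hw2 : 8 * (Λ * (r / (8 * (Λ + 1)))) ≤ r := by
    have e1 : 8 * (Λ * (r / (8 * (Λ + 1)))) = r * (Λ / (Λ + 1)) := by field_simp
    rw [e1]
    exact mul_le_of_le_one_right hr.le ((div_le_one (by linarith)).2 (by linarith))
  have inca : ∀ u u', u ≤ u' → 0 ≤ a u' - a u ∧ a u' - a u ≤ Λ * (u' - u) := by
    intro u u' h
    have := la u' u
    rw [abs_of_nonneg (by linarith : 0 ≤ u' - u)] at this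
    exact ⟨by linarith [ma h], (le_abs_self _).trans this⟩
  have incb : ∀ u u', u ≤ u' → 0 ≤ b u' - b u ∧ b u' - b u ≤ Λ * (u' - u) := by
    intro u u' h
    have := lb u' u
    rw [abs_of_nonneg (by linarith : 0 ≤ u' - u)] at this
    exact ⟨by linarith [mb h], (le_abs_self _).trans this⟩
  have key := rate_line (m := fun w τ => mJ ν a b t w τ)
    (δ := fun w τ => dJ ν a b Λ t w τ) (C := K * Λ) (w₀ := r / (8 * (Λ + 1)))
    (u₀ := τ0 - r / 2) (u₁ := τ0 + r / 2) (by positivity) hw₀ (by linarith)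
    (fun w => by
      unfold mJ
      refine cont_Inc hc (cont_w45 ?_ ?_) (cont_X ?_ ?_ ?_) <;> fun_prop)
    (by
      rintro w ⟨hw0, hw⟩ u ⟨hu0, hu1⟩
      have hSu := hS u ⟨by linarith, by linarith⟩
      have h3 := inca u (u + w) (by linarith)
      have h4 := incb u (u + w) (by linarith)
      rw [add_sub_cancel_left] at h3 h4
      have h5 : Λ * w ≤ Λ * (r / (8 * (Λ + 1))) := mul_le_mul_of_nonneg_left hw hΛ
      constructor
      · apply hν.nonneg
        · have := hSu 0 (mem_LB (mem_LEG (by simp) (by simp) (by simp) (by simp))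
            (by simpa using hr.le) (by simpa using hr.le) (by simpa using hr.le)
            (by simpa using hr.le) (by simpa using hr.le) (by simpa using hr.le))
          rwa [add_zero] at this
        · apply hSu
          mm6
        · exact w45_nonneg h3.1 h4.1
      · refine (le_abs_self _).trans ((inc_abs hlip _ _).trans ?_)
        rw [mul_assoc]
        refine mul_le_mul_of_nonneg_left (norm_w45' ?_ ?_) hK
        · rw [abs_of_nonneg h3.1]; exact h3.2
        · rw [abs_of_nonneg h4.1]; exact h4.2)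
    (by
      rintro w ⟨hw0, hw⟩ u ⟨hu0, hu1⟩ s hs σ hσ n h1 h2
      have h5 : Λ * w ≤ Λ * (r / (8 * (Λ + 1))) := mul_le_mul_of_nonneg_left hw hΛ
      exact split_J hν hlip hK hΛ ma mb la lb (hS u ⟨by linarith, by linarith⟩) hw0
        (by linarith) hs hσ h1 h2)
  exact ⟨Ioo (τ0 - r / 2) (τ0 + r / 2), Ioo_mem_nhds (by linarith) (by linarith), key⟩

end

end Crest.Agent.R138.Dl848
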