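import Crest.Agent.R138.Dl13_848

/-!
# R138: decoupling on the legal region at almost every natural point (helper848)
-/

set_option autoImplicit false

open MeasureTheory Filter Topology Set
open scoped ENNReal

namespace Crest.Agent.R138.Dl848

/-- points with positive derivatives -/
def Dp (a b : ℝ → ℝ) (τ : ℝ) : Prop :=
  (DifferentiableAt ℝ a τ ∧ 0 < deriv a τ) ∧ (DifferentiableAt ℝ b τ ∧ 0 < deriv b τ)

section

variable {ν : V6 → ℝ} {S : Set V6} {K Λ : ℝ} {a b : ℝ → ℝ}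

theorem meas_Dp (a b : ℝ → ℝ) : MeasurableSet {z : ℝ × ℝ | Dp a b z.1} := by
  have h : ∀ g : ℝ → ℝ, MeasurableSet {τ | DifferentiableAt ℝ g τ ∧ 0 < deriv g τ} := fun g =>
    (measurableSet_of_differentiableAt ℝ g).inter
      (measurableSet_lt measurable_const (measurable_deriv g))
  exact measurable_fst ((h a).inter (h b))

theorem isOpen_Loc (S : Set V6) (a b : ℝ → ℝ) : IsOpen {z | Loc S a b z} := by
  rw [isOpen_iff_mem_nhds]
  rintro z ⟨r, hr, hz⟩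
  filter_upwards [Rc_nhds z (half_pos hr)] with z' hz'
  obtain ⟨h1, h2⟩ := Rc_abs hz'
  refine ⟨r / 2, half_pos hr, fun z'' h3 h4 c hc => hz z'' ?_ ?_ c ⟨hc.1, fun i =>
    (hc.2 i).trans (by linarith)⟩⟩
  · have := abs_add_le (z''.1 - z'.1) (z'.1 - z.1)
    rw [sub_add_sub_cancel] at this
    linarith
  · have := abs_add_le (z''.2 - z'.2) (z'.2 - z.2)
    rw [sub_add_sub_cancel] at this
    linarith

theorem meas_P (S : Set V6) (a b : ℝ → ℝ) :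
    MeasurableSet {z : ℝ × ℝ | Loc S a b z ∧ Dp a b z.1} :=
  (isOpen_Loc S a b).measurableSet.inter (meas_Dp a b)

theorem div_contOn {f : ℝ → ℝ} (hf : Continuous f) : ContinuousOn (fun w => f w / w) (Ioi 0) :=
  hf.continuousOn.div continuousOn_id fun _ hw => ne_of_gt hw

theorem meas_QI (hlip : ∀ p q, |ν p - ν q| ≤ K * ‖p - q‖) (hK : 0 ≤ K)
    (hΛ : 0 ≤ Λ) (la : ∀ s t, |a s - a t| ≤ Λ * |s - t|) (lb : ∀ s t, |b s - b t| ≤ Λ * |s - t|)
    (i : Fin 6) : MeasurableSet {z : ℝ × ℝ | ∃ ρ, RateI ν (a z.1) (b z.1) z.2 i ρ} := by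
  have hc := cν_of hlip hK
  have ca := cont_of_lip hΛ la
  have cb := cont_of_lip hΛ lb
  apply meas_rate (F := fun w z => Inc ν (w • e i) (X (a z.1) (b z.1) z.2 + w45 w w) / w)
    (G := fun w z => Inc ν (w • e i) (X (a z.1) (b z.1) (z.2 - w) + w45 w w) / w)
  · intro w
    refine (Continuous.measurable ?_).div_const w
    refine cont_Inc hc continuous_const ((cont_X ?_ ?_ ?_).add continuous_const) <;> fun_prop
  · intro w
    refine (Continuous.measurable ?_).div_const w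
    refine cont_Inc hc continuous_const ((cont_X ?_ ?_ ?_).add continuous_const) <;> fun_prop
  · intro z
    apply div_contOn
    refine cont_Inc hc (cont_smul_e continuous_id i) (continuous_const.add
      (cont_w45 continuous_id continuous_id))
  · intro z
    apply div_contOn
    refine cont_Inc hc (cont_smul_e continuous_id i) ((cont_X continuous_const continuous_const
      (continuous_const.sub continuous_id)).add (cont_w45 continuous_id continuous_id))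

theorem meas_QJ (hlip : ∀ p q, |ν p - ν q| ≤ K * ‖p - q‖) (hK : 0 ≤ K)
    (hΛ : 0 ≤ Λ) (la : ∀ s t, |a s - a t| ≤ Λ * |s - t|)
    (lb : ∀ s t, |b s - b t| ≤ Λ * |s - t|) :
    MeasurableSet {z : ℝ × ℝ | ∃ ρ, RateJ ν a b z.1 z.2 ρ} := by
  have hc := cν_of hlip hK
  have ca := cont_of_lip hΛ la
  have cb := cont_of_lip hΛ lb
  apply meas_rate (F := fun w z => mJ ν a b z.2 w z.1 / w)
    (G := fun w z => mJ ν a b z.2 w (z.1 - w) / w)
  · intro w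
    refine (Continuous.measurable ?_).div_const w
    unfold mJ
    refine cont_Inc hc (cont_w45 ?_ ?_) (cont_X ?_ ?_ ?_) <;> fun_prop
  · intro w
    refine (Continuous.measurable ?_).div_const w
    unfold mJ
    refine cont_Inc hc (cont_w45 ?_ ?_) (cont_X ?_ ?_ ?_) <;> fun_prop
  · intro z
    apply div_contOn
    unfold mJ
    refine cont_Inc hc (cont_w45 ?_ ?_) (cont_X ?_ ?_ ?_) <;> fun_prop
  · intro z
    apply div_contOn
    unfold mJ
    refine cont_Inc hc (cont_w45 ?_ ?_) (cont_X ?_ ?_ ?_) <;> fun_prop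

theorem ae_rateI (hν : Pr ν S) (hlip : ∀ p q, |ν p - ν q| ≤ K * ‖p - q‖) (hK : 0 ≤ K)
    (hΛ : 0 ≤ Λ) (ma : Monotone a) (mb : Monotone b)
    (la : ∀ s t, |a s - a t| ≤ Λ * |s - t|) (lb : ∀ s t, |b s - b t| ≤ Λ * |s - t|)
    {i : Fin 6} (hi : i = 0 ∨ i = 2) :
    ∀ᵐ z : ℝ × ℝ, (Loc S a b z ∧ Dp a b z.1) → ∃ ρ, RateI ν (a z.1) (b z.1) z.2 i ρ := by
  refine fubini_fst (D := fun z : ℝ × ℝ =>
    Tendsto (fun w => (d1 ν (a z.1) (b z.1) i w z.2 + d2 ν (a z.1) (b z.1) w z.2) / w)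
      (𝓝[>] 0) (𝓝 0) ∧
    Tendsto (fun w => (d1 ν (a z.1) (b z.1) i w (z.2 - w) + d2 ν (a z.1) (b z.1) w (z.2 - w)) / w)
      (𝓝[>] 0) (𝓝 0)) (meas_P S a b) (meas_QI hlip hK hΛ la lb i) ?_ ?_
  · filter_upwards [ae_GP hν hlip hK hΛ ma mb la lb] with z hz h
    have hG := hz h.1 _ _ h.2.1.2 h.2.2.2 h.2.1.1.hasDerivAt h.2.2.1.hasDerivAt
    constructor
    · have := (hG.d1 hlip hi 0).add (hG.d2 hlip 0)
      rw [add_zero] at this
      refine this.congr fun w => ?_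
      rw [zero_mul, add_zero, add_div]
    · have := (hG.d1 hlip hi (-1)).add (hG.d2 hlip (-1))
      rw [add_zero] at this
      refine this.congr fun w => ?_
      rw [neg_one_mul, ← sub_eq_add_neg, add_div]
  · intro τ
    filter_upwards [ae_rate_t (a := a) (b := b) hν hlip hK hi τ] with t ht h1 h2
    exact ht h1.1 h2.1 h2.2

theorem ae_rateJ (hν : Pr ν S) (hlip : ∀ p q, |ν p - ν q| ≤ K * ‖p - q‖) (hK : 0 ≤ K)
    (hΛ : 0 ≤ Λ) (ma : Monotone a) (mb : Monotone b)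
    (la : ∀ s t, |a s - a t| ≤ Λ * |s - t|) (lb : ∀ s t, |b s - b t| ≤ Λ * |s - t|) :
    ∀ᵐ z : ℝ × ℝ, (Loc S a b z ∧ Dp a b z.1) → ∃ ρ, RateJ ν a b z.1 z.2 ρ := by
  refine fubini_snd (D := fun z : ℝ × ℝ =>
    Tendsto (fun w => dJ ν a b Λ z.2 w z.1 / w) (𝓝[>] 0) (𝓝 0) ∧
    Tendsto (fun w => dJ ν a b Λ z.2 w (z.1 - w) / w) (𝓝[>] 0) (𝓝 0))
    (meas_P S a b) (meas_QJ hlip hK hΛ la lb) ?_ ?_
  · filter_upwards [ae_GP hν hlip hK hΛ ma mb la lb] with z hz h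
    have hG := hz h.1 _ _ h.2.1.2 h.2.2.2 h.2.1.1.hasDerivAt h.2.2.1.hasDerivAt
    constructor
    · refine (hG.dJ hlip hΛ h.2.1.1.hasDerivAt h.2.2.1.hasDerivAt 0).congr fun w => ?_
      rw [zero_mul, add_zero]
    · refine (hG.dJ hlip hΛ h.2.1.1.hasDerivAt h.2.2.1.hasDerivAt (-1)).congr fun w => ?_
      rw [neg_one_mul, ← sub_eq_add_neg]
  · intro t
    filter_upwards [ae_rate_τ (a := a) (b := b) hν hlip hK hΛ ma mb la lb t] with τ hτ h1 h2
    exact hτ h1.1 h2.1 h2.2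

/-- the profile is Lipschitz -/
theorem lip_PP (hlip : ∀ p q, |ν p - ν q| ≤ K * ‖p - q‖) (hK : 0 ≤ K)
    (hΛ : 0 ≤ Λ) (la : ∀ s t, |a s - a t| ≤ Λ * |s - t|)
    (lb : ∀ s t, |b s - b t| ≤ Λ * |s - t|) :
    LipschitzWith (Real.toNNReal (K * (1 + 2 * Λ))) (PP ν a b) := by
  apply LipschitzWith.of_dist_le_mul
  intro z z'
  rw [Real.coe_toNNReal _ (by positivity), Real.dist_eq, dist_eq_norm]
  unfold PP
  refine (hlip _ _).trans ?_
  rw [mul_assoc]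
  refine mul_le_mul_of_nonneg_left ?_ hK
  have n1 : |z.1 - z'.1| ≤ ‖z - z'‖ := norm_fst_le (z - z')
  have n2 : |z.2 - z'.2| ≤ ‖z - z'‖ := norm_snd_le (z - z')
  have h1 := (la z.1 z'.1).trans (mul_le_mul_of_nonneg_left n1 hΛ)
  have h2 := (lb z.1 z'.1).trans (mul_le_mul_of_nonneg_left n1 hΛ)
  have h3 := abs_le.1 h1
  have h4 := abs_le.1 h2
  have h5 := abs_le.1 n2
  have hN : 0 ≤ ‖z - z'‖ := norm_nonneg _
  have hΛN : 0 ≤ Λ * ‖z - z'‖ := mul_nonneg hΛ hN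
  rw [pi_norm_le_iff_of_nonneg (by positivity)]
  refine forall6 ?_ ?_ ?_ ?_ ?_ ?_ <;> rw [Real.norm_eq_abs, Pi.sub_apply] <;>
    simp only [X_0, X_1, X_2, X_3, X_4, X_5] <;> rw [abs_le] <;> constructor <;> linarith

/-- **decoupling at almost every natural point** -/
theorem ae_lim (hν : Pr ν S) (hlip : ∀ p q, |ν p - ν q| ≤ K * ‖p - q‖) (hK : 0 ≤ K)
    (hΛ : 0 ≤ Λ) (ma : Monotone a) (mb : Monotone b)
    (la : ∀ s t, |a s - a t| ≤ Λ * |s - t|) (lb : ∀ s t, |b s - b t| ≤ Λ * |s - t|) :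
    ∀ᵐ z : ℝ × ℝ, Loc S a b z → ∀ x y : ℝ, 0 < x → 0 < y → HasDerivAt a x z.1 →
      HasDerivAt b y z.1 → ∃ (L : ℝ × ℝ →L[ℝ] ℝ) (r0 r2 J : ℝ), HasFDerivAt (PP ν a b) L z ∧
        RateI ν (a z.1) (b z.1) z.2 0 r0 ∧ RateI ν (a z.1) (b z.1) z.2 2 r2 ∧
        RateJ ν a b z.1 z.2 J ∧ GP ν (X (a z.1) (b z.1) z.2) ∧
        ∀ W : Ultrafilter ℝ, (W : Filter ℝ) ≤ 𝓝[>] 0 → ∀ g,
          BU ν (X (a z.1) (b z.1) z.2) W id g → Lim g x y (L (1, 0)) (L (0, 1)) r0 r2 J := by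
  filter_upwards [ae_GP hν hlip hK hΛ ma mb la lb,
    ae_rateI hν hlip hK hΛ ma mb la lb (Or.inl rfl),
    ae_rateI hν hlip hK hΛ ma mb la lb (Or.inr rfl),
    ae_rateJ hν hlip hK hΛ ma mb la lb,
    (lip_PP hlip hK hΛ la lb).ae_differentiableAt] with z hG h0 h2 hJ hd hL x y hx hy ha hb
  have hP : Loc S a b z ∧ Dp a b z.1 :=
    ⟨hL, ⟨ha.differentiableAt, by rw [ha.deriv]; exact hx⟩,
      hb.differentiableAt, by rw [hb.deriv]; exact hy⟩
  obtain ⟨r0, h0⟩ := h0 hP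
  obtain ⟨r2, h2⟩ := h2 hP
  obtain ⟨J, hJ⟩ := hJ hP
  have hGP := hG hL x y hx hy ha hb
  exact ⟨fderiv ℝ (PP ν a b) z, r0, r2, J, hd.hasFDerivAt, h0, h2, hJ, hGP, fun W hW g hg =>
    lim_of_rates hlip hGP ha hb hd.hasFDerivAt h0 h2 hJ hW hg⟩

end

end Crest.Agent.R138.Dl848
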