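import Mathlib

/-!
# R138: decoupling on the legal region, algebraic part (helper848)

Profiles `f : (Fin 6 → ℝ) → ℝ` (antitone and supermodular on the legal region) in the frame
`(p0,p1,p2,p3; z-level, slope-level)`.
-/

set_option autoImplicit false

open Set

namespace Crest.Agent.R138.Dl848

/-- parameter space -/
abbrev V6 : Type := Fin 6 → ℝ

/-- legal region -/
def LEG : Set V6 :=
  {p | p 0 ≤ p 1 + p 4 ∧ p 3 ≤ p 2 + p 4 ∧ p 0 ≤ p 5 + p 3 ∧ p 1 ≤ p 5 + p 2}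

/-- natural boxes -/
def X (a b t : ℝ) : V6 := ![t + a + b, t + b, t, t + a, a, b]

/-- vectors in the `(4,5)`-plane -/
def w45 (α β : ℝ) : V6 := ![0, 0, 0, 0, α, β]

/-- basis vectors -/
noncomputable def e (i : Fin 6) : V6 := Pi.single i 1

/-- bounded part of the legal cone -/
def LB (r : ℝ) : Set V6 := {c | c ∈ LEG ∧ ∀ i, |c i| ≤ r}

/-- profiles on a set -/
structure Pr (f : V6 → ℝ) (S : Set V6) : Prop where
  anti : ∀ p ∈ S, ∀ q ∈ S, p ≤ q → f q ≤ f p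
  sup : ∀ p ∈ S, ∀ q ∈ S, p ⊓ q ∈ S → p ⊔ q ∈ S → f p + f q ≤ f (p ⊔ q) + f (p ⊓ q)

/-- increment -/
def Inc (f : V6 → ℝ) (d p : V6) : ℝ := f p - f (p + d)

section simp
variable (a b t α β : ℝ)
@[simp] theorem X_0 : X a b t 0 = t + a + b := rfl
@[simp] theorem X_1 : X a b t 1 = t + b := rfl
@[simp] theorem X_2 : X a b t 2 = t := rfl
@[simp] theorem X_3 : X a b t 3 = t + a := rfl
@[simp] theorem X_4 : X a b t 4 = a := rfl
@[simp] theorem X_5 : X a b t 5 = b := rfl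
@[simp] theorem w45_0 : w45 α β 0 = 0 := rfl
@[simp] theorem w45_1 : w45 α β 1 = 0 := rfl
@[simp] theorem w45_2 : w45 α β 2 = 0 := rfl
@[simp] theorem w45_3 : w45 α β 3 = 0 := rfl
@[simp] theorem w45_4 : w45 α β 4 = α := rfl
@[simp] theorem w45_5 : w45 α β 5 = β := rfl
@[simp] theorem e_00 : e 0 0 = 1 := by simp [e]
@[simp] theorem e_01 : e 0 1 = 0 := by simp [e]
@[simp] theorem e_02 : e 0 2 = 0 := by simp [e]
@[simp] theorem e_03 : e 0 3 = 0 := by simp [e]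
@[simp] theorem e_04 : e 0 4 = 0 := by simp [e]
@[simp] theorem e_05 : e 0 5 = 0 := by simp [e]
@[simp] theorem e_20 : e 2 0 = 0 := by simp [e]
@[simp] theorem e_21 : e 2 1 = 0 := by simp [e]
@[simp] theorem e_22 : e 2 2 = 1 := by simp [e]
@[simp] theorem e_23 : e 2 3 = 0 := by simp [e]
@[simp] theorem e_24 : e 2 4 = 0 := by simp [e]
@[simp] theorem e_25 : e 2 5 = 0 := by simp [e]
end simp

theorem ext6 {p q : V6} (h0 : p 0 = q 0) (h1 : p 1 = q 1) (h2 : p 2 = q 2) (h3 : p 3 = q 3)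
    (h4 : p 4 = q 4) (h5 : p 5 = q 5) : p = q := by
  ext i; fin_cases i <;> assumption

theorem le6 {p q : V6} (h0 : p 0 ≤ q 0) (h1 : p 1 ≤ q 1) (h2 : p 2 ≤ q 2) (h3 : p 3 ≤ q 3)
    (h4 : p 4 ≤ q 4) (h5 : p 5 ≤ q 5) : p ≤ q := by
  intro i; fin_cases i <;> assumption

theorem forall6 {P : Fin 6 → Prop} (h0 : P 0) (h1 : P 1) (h2 : P 2) (h3 : P 3)
    (h4 : P 4) (h5 : P 5) : ∀ i, P i := by
  intro i; fin_cases i <;> assumption

theorem mem_LEG {c : V6} (h0 : c 0 ≤ c 1 + c 4) (h1 : c 3 ≤ c 2 + c 4) (h2 : c 0 ≤ c 5 + c 3)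
    (h3 : c 1 ≤ c 5 + c 2) : c ∈ LEG := ⟨h0, h1, h2, h3⟩

theorem mem_LB {c : V6} {r : ℝ} (h : c ∈ LEG) (b0 : |c 0| ≤ r) (b1 : |c 1| ≤ r) (b2 : |c 2| ≤ r)
    (b3 : |c 3| ≤ r) (b4 : |c 4| ≤ r) (b5 : |c 5| ≤ r) : c ∈ LB r :=
  ⟨h, forall6 b0 b1 b2 b3 b4 b5⟩

theorem X_mem_LEG (a b t : ℝ) : X a b t ∈ LEG := by
  refine mem_LEG ?_ ?_ ?_ ?_ <;> simp <;> linarith

theorem X_add (a b t a' b' t' : ℝ) : X a b t + X a' b' t' = X (a + a') (b + b') (t + t') := by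
  apply ext6 <;> simp <;> ring

theorem X_smul (s a b t : ℝ) : s • X a b t = X (s * a) (s * b) (s * t) := by
  apply ext6 <;> simp <;> ring

theorem w45_add (a b a' b' : ℝ) : w45 a b + w45 a' b' = w45 (a + a') (b + b') := by
  apply ext6 <;> simp

theorem w45_smul (s a b : ℝ) : s • w45 a b = w45 (s * a) (s * b) := by
  apply ext6 <;> simp

theorem X_zero : X 0 0 0 = 0 := by apply ext6 <;> simp

theorem LEG_smul {s : ℝ} (hs : 0 ≤ s) {c : V6} (h : c ∈ LEG) : s • c ∈ LEG := by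
  obtain ⟨h0, h1, h2, h3⟩ := h
  refine mem_LEG ?_ ?_ ?_ ?_ <;> simp only [Pi.smul_apply, smul_eq_mul] <;> nlinarith

theorem LEG_add {c d : V6} (h : c ∈ LEG) (h' : d ∈ LEG) : c + d ∈ LEG := by
  obtain ⟨h0, h1, h2, h3⟩ := h
  obtain ⟨h0', h1', h2', h3'⟩ := h'
  refine mem_LEG ?_ ?_ ?_ ?_ <;> simp only [Pi.add_apply] <;> linarith

theorem LEG_sup {c d : V6} (h : c ∈ LEG) (h' : d ∈ LEG) : c ⊔ d ∈ LEG := by
  obtain ⟨h0, h1, h2, h3⟩ := h
  obtain ⟨h0', h1', h2', h3'⟩ := h'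
  refine mem_LEG ?_ ?_ ?_ ?_ <;> simp only [Pi.sup_apply]
  · exact sup_le (h0.trans (add_le_add le_sup_left le_sup_left))
      (h0'.trans (add_le_add le_sup_right le_sup_right))
  · exact sup_le (h1.trans (add_le_add le_sup_left le_sup_left))
      (h1'.trans (add_le_add le_sup_right le_sup_right))
  · exact sup_le (h2.trans (add_le_add le_sup_left le_sup_left))
      (h2'.trans (add_le_add le_sup_right le_sup_right))
  · exact sup_le (h3.trans (add_le_add le_sup_left le_sup_left))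
      (h3'.trans (add_le_add le_sup_right le_sup_right))

theorem w45_mem_LEG {α β : ℝ} (hα : 0 ≤ α) (hβ : 0 ≤ β) : w45 α β ∈ LEG := by
  refine mem_LEG ?_ ?_ ?_ ?_ <;> simp <;> linarith

theorem w45_nonneg {α β : ℝ} (hα : 0 ≤ α) (hβ : 0 ≤ β) : (0 : V6) ≤ w45 α β := by
  apply le6 <;> simp <;> assumption

theorem e_nonneg {s : ℝ} (hs : 0 ≤ s) (i : Fin 6) : (0 : V6) ≤ s • e i := by
  intro j
  simp only [Pi.zero_apply, Pi.smul_apply, smul_eq_mul, e]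
  by_cases h : j = i
  · subst h; simpa using hs
  · simp [h]

theorem Inc_add (f : V6 → ℝ) (d d' p : V6) : Inc f (d + d') p = Inc f d p + Inc f d' (p + d) := by
  unfold Inc; rw [add_assoc]; ring

theorem Inc_swap (f : V6 → ℝ) (d d' p : V6) :
    Inc f d p - Inc f d (p + d') = Inc f d' p - Inc f d' (p + d) := by
  unfold Inc; rw [add_right_comm p d' d]; ring

theorem Inc_zero (f : V6 → ℝ) (p : V6) : Inc f 0 p = 0 := by simp [Inc]

theorem Pr.mono {f : V6 → ℝ} {S S' : Set V6} (h : Pr f S) (hs : S' ⊆ S) : Pr f S' :=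
  ⟨fun p hp q hq => h.anti p (hs hp) q (hs hq),
    fun p hp q hq h1 h2 => h.sup p (hs hp) q (hs hq) (hs h1) (hs h2)⟩

theorem Pr.nonneg {f : V6 → ℝ} {S : Set V6} (hf : Pr f S) {p d : V6} (hp : p ∈ S)
    (hpd : p + d ∈ S) (hd : 0 ≤ d) : 0 ≤ Inc f d p := by
  have := hf.anti p hp _ hpd (le_add_of_nonneg_right hd)
  unfold Inc; linarith

/-- increments decrease in the other coordinates -/
theorem Pr.sub {f : V6 → ℝ} {S : Set V6} (hf : Pr f S) {p q d : V6} (hp : p ∈ S) (hq : q ∈ S)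
    (hpd : p + d ∈ S) (hqd : q + d ∈ S) (hpq : p ≤ q) (hd : 0 ≤ d)
    (hdis : ∀ i, d i = 0 ∨ p i = q i) : Inc f d q ≤ Inc f d p := by
  have h1 : (p + d) ⊓ q = p := by
    ext i
    simp only [Pi.inf_apply, Pi.add_apply]
    rcases hdis i with h | h
    · rw [h, add_zero, inf_eq_left.2 (hpq i)]
    · rw [← h, inf_eq_right.2]
      exact le_add_of_nonneg_right (hd i)
  have h2 : (p + d) ⊔ q = q + d := by
    ext i
    simp only [Pi.sup_apply, Pi.add_apply]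
    rcases hdis i with h | h
    · rw [h, add_zero, add_zero, sup_eq_right.2 (hpq i)]
    · rw [← h, sup_eq_left.2]
      exact le_add_of_nonneg_right (hd i)
  have := hf.sup (p + d) hpd q hq (by rw [h1]; exact hp) (by rw [h2]; exact hqd)
  rw [h1, h2] at this
  unfold Inc; linarith

/-- mixed differences increase with the box -/
theorem Pr.mix {f : V6 → ℝ} {S : Set V6} (hf : Pr f S) {p q d1 d d2 : V6} (hp : p ∈ S)
    (hq : q ∈ S) (hp1 : p + d1 ∈ S) (hq1 : q + d1 ∈ S) (hp2 : p + d1 + d ∈ S)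
    (hq2 : q + d1 + d ∈ S) (hp3 : p + d1 + d + d2 ∈ S) (hq3 : q + d1 + d + d2 ∈ S)
    (hpq : p ≤ q) (h1 : 0 ≤ d1) (h2 : 0 ≤ d2)
    (hdis : ∀ i, (d1 i = 0 ∧ d i = 0 ∧ d2 i = 0) ∨ p i = q i) :
    Inc f d (p + d1) - Inc f d (q + d1) ≤ Inc f (d1 + d + d2) p - Inc f (d1 + d + d2) q := by
  have a1 : Inc f d1 q ≤ Inc f d1 p :=
    hf.sub hp hq hp1 hq1 hpq h1 fun i => (hdis i).imp (fun h => h.1) id
  have a3 : Inc f d2 (q + d1 + d) ≤ Inc f d2 (p + d1 + d) :=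
    hf.sub hp2 hq2 hp3 hq3 (add_le_add_left (add_le_add_left hpq _) _) h2
      fun i => (hdis i).imp (fun h => h.2.2) (fun h => by simp [h])
  rw [Inc_add f (d1 + d) d2 p, Inc_add f (d1 + d) d2 q, Inc_add f d1 d p, Inc_add f d1 d q]
  have e1 : p + (d1 + d) = p + d1 + d := by rw [add_assoc]
  have e2 : q + (d1 + d) = q + d1 + d := by rw [add_assoc]
  rw [e1, e2]
  linarith

end Crest.Agent.R138.Dl848
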