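import Crest.Agent.R138.Dl1_848

/-!
# R138: decoupling on the legal region, the one-step estimate for the coordinates 0 and 2
(helper848)
-/

set_option autoImplicit false

open Set

namespace Crest.Agent.R138.Dl848

/-- coordinates of sums of the standard vectors -/
macro "co6" : tactic => `(tactic| simp only [Pi.add_apply, Pi.smul_apply, smul_eq_mul, X_0, X_1,
  X_2, X_3, X_4, X_5, w45_0, w45_1, w45_2, w45_3, w45_4, w45_5, e_00, e_01, e_02, e_03, e_04, e_05,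
  e_20, e_21, e_22, e_23, e_24, e_25, mul_zero, add_zero, mul_one])

macro "fin6" : tactic => `(tactic| first | linarith | (rw [abs_le]; constructor <;> linarith))

macro "mm6" : tactic => `(tactic| (refine mem_LB (mem_LEG ?_ ?_ ?_ ?_) ?_ ?_ ?_ ?_ ?_ ?_ <;>
  co6 <;> fin6))

macro "ll6" : tactic => `(tactic| (refine le6 ?_ ?_ ?_ ?_ ?_ ?_ <;> co6 <;> linarith))

macro "xx6" : tactic => `(tactic| (refine ext6 ?_ ?_ ?_ ?_ ?_ ?_ <;> co6 <;> ring))

/-- a natural box with raised levels, moved in the direction `i` -/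
noncomputable def pt (i : Fin 6) (α β θ u v s : ℝ) : V6 := X α β θ + w45 u v + s • e i

theorem pt_mem {i : Fin 6} (hi : i = 0 ∨ i = 2) {α β θ u v s N D r : ℝ} (hα : |α| ≤ D)
    (hβ : |β| ≤ D) (hθ : |θ| ≤ 2 * D) (hs : |s| ≤ N) (hu : N ≤ u) (hv : N ≤ v)
    (h1 : 4 * D + N ≤ r) (h2 : D + u ≤ r) (h3 : D + v ≤ r) : pt i α β θ u v s ∈ LB r := by
  rw [abs_le] at hα hβ hθ hs
  unfold pt
  rcases hi with rfl | rfl <;> mm6

theorem pt_add (i : Fin 6) (α β θ u v s s' : ℝ) :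
    pt i α β θ u v s + s' • e i = pt i α β θ u v (s + s') := by
  unfold pt; rw [add_smul, add_assoc, add_assoc]

theorem pt_add45 (i : Fin 6) (α β θ u v s u' v' : ℝ) :
    pt i α β θ u v s + w45 u' v' = pt i α β θ (u + u') (v + v') s := by
  unfold pt
  rw [add_right_comm, add_assoc (X α β θ), w45_add]

theorem pt_le {i : Fin 6} (hi : i = 0 ∨ i = 2) {α β θ u v s α' β' θ' u' v' s' : ℝ}
    (m0 : θ + α + β ≤ θ' + α' + β') (m1 : θ + β ≤ θ' + β') (m2 : θ ≤ θ')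
    (m3 : θ + α ≤ θ' + α') (m4 : α + u ≤ α' + u') (m5 : β + v ≤ β' + v') (hs : s ≤ s') :
    pt i α β θ u v s ≤ pt i α' β' θ' u' v' s' := by
  unfold pt
  rcases hi with rfl | rfl <;> ll6

theorem pt_dis {i : Fin 6} (hi : i = 0 ∨ i = 2) {α β θ u v s α' β' θ' u' v' : ℝ} {c : ℝ}
    (heq : X α β θ i = X α' β' θ' i) :
    ∀ j, (c • e i) j = 0 ∨ pt i α β θ u v s j = pt i α' β' θ' u' v' s j := by
  unfold pt
  rcases hi with rfl | rfl
  · simp only [X_0] at heq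
    refine forall6 (Or.inr ?_) (Or.inl ?_) (Or.inl ?_) (Or.inl ?_) (Or.inl ?_) (Or.inl ?_) <;>
      co6
    linarith
  · simp only [X_2] at heq
    refine forall6 (Or.inl ?_) (Or.inl ?_) (Or.inr ?_) (Or.inl ?_) (Or.inl ?_) (Or.inl ?_) <;>
      co6
    linarith

theorem U_le {f : V6 → ℝ} {r : ℝ} (hf : Pr f (LB r)) {i : Fin 6} (hi : i = 0 ∨ i = 2)
    {α1 β1 θ1 α2 β2 θ2 N D R : ℝ} (hN : 0 ≤ N)
    (hα1 : |α1| ≤ D) (hβ1 : |β1| ≤ D) (hθ1 : |θ1| ≤ 2 * D)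
    (hα2 : |α2| ≤ D) (hβ2 : |β2| ≤ D) (hθ2 : |θ2| ≤ 2 * D)
    (m0 : θ1 + α1 + β1 ≤ θ2 + α2 + β2) (m1 : θ1 + β1 ≤ θ2 + β2) (m2 : θ1 ≤ θ2)
    (m3 : θ1 + α1 ≤ θ2 + α2) (heq : X α1 β1 θ1 i = X α2 β2 θ2 i)
    (hR : D + 2 * N ≤ R) (hr : 4 * D + 4 * N + 4 * R ≤ r) :
    0 ≤ Inc f ((2 * N) • e i) (pt i α1 β1 θ1 (R - α1) (R - β1) (-N))
        - Inc f ((2 * N) • e i) (pt i α2 β2 θ2 (R - α2) (R - β2) (-N)) ∧
    Inc f ((2 * N) • e i) (pt i α1 β1 θ1 (R - α1) (R - β1) (-N))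
        - Inc f ((2 * N) • e i) (pt i α2 β2 θ2 (R - α2) (R - β2) (-N))
      ≤ (Inc f (w45 (R + D) (R + D)) (X α1 β1 (θ1 - N))
          - Inc f (w45 (R + D) (R + D)) (X α1 β1 (θ1 + N)))
        + (Inc f ((2 * N) • e i) (pt i α1 β1 θ1 (R + D) (R + D) (-N))
          - Inc f ((2 * N) • e i) (pt i α2 β2 θ2 (R + D) (R + D) (-N))) := by
  have hD : 0 ≤ D := (abs_nonneg _).trans hα1
  obtain ⟨a1l, a1u⟩ := abs_le.1 hα1
  obtain ⟨b1l, b1u⟩ := abs_le.1 hβ1
  obtain ⟨a2l, a2u⟩ := abs_le.1 hα2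
  obtain ⟨b2l, b2u⟩ := abs_le.1 hβ2
  have h2N : (0 : ℝ) ≤ 2 * N := by linarith
  have hsN : |(-N)| ≤ N := by rw [abs_neg, abs_of_nonneg hN]
  have hsN' : |(-N + 2 * N)| ≤ N := by
    rw [show -N + 2 * N = N by ring, abs_of_nonneg hN]
  have mA : pt i α1 β1 θ1 (R - α1) (R - β1) (-N) ∈ LB r :=
    pt_mem hi hα1 hβ1 hθ1 hsN (by linarith) (by linarith) (by linarith) (by linarith)
      (by linarith)
  have mB : pt i α2 β2 θ2 (R - α2) (R - β2) (-N) ∈ LB r :=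
    pt_mem hi hα2 hβ2 hθ2 hsN (by linarith) (by linarith) (by linarith) (by linarith)
      (by linarith)
  have mA2 : pt i α1 β1 θ1 (R - α1) (R - β1) (-N) + (2 * N) • e i ∈ LB r := by
    rw [pt_add]
    exact pt_mem hi hα1 hβ1 hθ1 hsN' (by linarith) (by linarith) (by linarith) (by linarith)
      (by linarith)
  have mB2 : pt i α2 β2 θ2 (R - α2) (R - β2) (-N) + (2 * N) • e i ∈ LB r := by
    rw [pt_add]
    exact pt_mem hi hα2 hβ2 hθ2 hsN' (by linarith) (by linarith) (by linarith) (by linarith)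
      (by linarith)
  have mA' : pt i α1 β1 θ1 (R + D) (R + D) (-N) ∈ LB r :=
    pt_mem hi hα1 hβ1 hθ1 hsN (by linarith) (by linarith) (by linarith) (by linarith)
      (by linarith)
  have mB' : pt i α2 β2 θ2 (R + D) (R + D) (-N) ∈ LB r :=
    pt_mem hi hα2 hβ2 hθ2 hsN (by linarith) (by linarith) (by linarith) (by linarith)
      (by linarith)
  have mA2' : pt i α1 β1 θ1 (R + D) (R + D) (-N) + (2 * N) • e i ∈ LB r := by
    rw [pt_add]
    exact pt_mem hi hα1 hβ1 hθ1 hsN' (by linarith) (by linarith) (by linarith) (by linarith)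
      (by linarith)
  have mB2' : pt i α2 β2 θ2 (R + D) (R + D) (-N) + (2 * N) • e i ∈ LB r := by
    rw [pt_add]
    exact pt_mem hi hα2 hβ2 hθ2 hsN' (by linarith) (by linarith) (by linarith) (by linarith)
      (by linarith)
  have lAB : pt i α1 β1 θ1 (R - α1) (R - β1) (-N) ≤ pt i α2 β2 θ2 (R - α2) (R - β2) (-N) :=
    pt_le hi m0 m1 m2 m3 (by linarith) (by linarith) le_rfl
  have lBB' : pt i α2 β2 θ2 (R - α2) (R - β2) (-N) ≤ pt i α2 β2 θ2 (R + D) (R + D) (-N) :=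
    pt_le hi le_rfl le_rfl le_rfl le_rfl (by linarith) (by linarith) le_rfl
  have c1 := hf.sub mA mB mA2 mB2 lAB (e_nonneg h2N i) (pt_dis hi heq)
  have c2 := hf.sub mB mB' mB2 mB2' lBB' (e_nonneg h2N i) (pt_dis hi rfl)
  -- the change of the (4,5)-level
  have eA' : pt i α1 β1 θ1 (R - α1) (R - β1) (-N) + w45 (D + α1) (D + β1)
      = pt i α1 β1 θ1 (R + D) (R + D) (-N) := by
    rw [pt_add45]; congr 1 <;> ring
  have sw := Inc_swap f ((2 * N) • e i) (w45 (D + α1) (D + β1))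
    (pt i α1 β1 θ1 (R - α1) (R - β1) (-N))
  rw [eA'] at sw
  set A := pt i α1 β1 θ1 (R - α1) (R - β1) (-N) with hA
  set w := w45 (D + α1) (D + β1) with hw
  set L := X α1 β1 (θ1 - N) with hL
  set H := X α1 β1 (θ1 + N) with hH
  set d1 := w45 (R - α1) (R - β1) with hd1
  have hdw : (0 : V6) ≤ w := w45_nonneg (by linarith) (by linarith)
  have hdd : (0 : V6) ≤ d1 := w45_nonneg (by linarith) (by linarith)
  obtain ⟨t1l, t1u⟩ := abs_le.1 hθ1
  have mL : L ∈ LB r := by clear_value A w d1 H; rw [hL]; mm6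
  have mH : H ∈ LB r := by clear_value A w d1 L; rw [hH]; mm6
  have mL1 : L + d1 ∈ LB r := by clear_value A w H; rw [hL, hd1]; mm6
  have mH1 : H + d1 ∈ LB r := by clear_value A w L; rw [hH, hd1]; mm6
  have mL2 : L + d1 + w ∈ LB r := by clear_value A H; rw [hL, hd1, hw]; mm6
  have mH2 : H + d1 + w ∈ LB r := by clear_value A L; rw [hH, hd1, hw]; mm6
  have mAw : A + w ∈ LB r := by rw [eA']; exact mA'
  have mA2w : A + (2 * N) • e i + w ∈ LB r := by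
    rw [add_right_comm, eA']; exact mA2'
  have lLH : L ≤ H := by rw [hL, hH]; ll6
  have lLA : L + d1 ≤ A := by
    rw [hL, hA, hd1, pt]
    rcases hi with rfl | rfl <;> ll6
  have lAH : A + (2 * N) • e i ≤ H + d1 := by
    rw [hH, hA, hd1, pt]
    rcases hi with rfl | rfl <;> ll6
  have c3 := hf.sub mL1 mA mL2 mAw lLA hdw (by
    rw [hL, hA, hd1, hw, pt]
    rcases hi with rfl | rfl <;>
    · refine forall6 (Or.inl ?_) (Or.inl ?_) (Or.inl ?_) (Or.inl ?_) (Or.inr ?_) (Or.inr ?_) <;>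
        co6)
  have c4 := hf.sub mA2 mH1 mA2w mH2 lAH hdw (by
    rw [hH, hA, hd1, hw, pt]
    rcases hi with rfl | rfl <;>
    · refine forall6 (Or.inl ?_) (Or.inl ?_) (Or.inl ?_) (Or.inl ?_) (Or.inr ?_) (Or.inr ?_) <;>
        co6)
  have c5 := hf.mix (p := L) (q := H) (d1 := d1) (d := w) (d2 := 0) mL mH mL1 mH1 mL2 mH2
    (by rw [add_zero]; exact mL2) (by rw [add_zero]; exact mH2) lLH hdd le_rfl (by
      refine forall6 (Or.inl ?_) (Or.inl ?_) (Or.inl ?_) (Or.inl ?_) (Or.inr ?_) (Or.inr ?_) <;>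
        first | (rw [hd1, hw]; simp) | (rw [hL, hH]; co6))
  have ew : d1 + w + 0 = w45 (R + D) (R + D) := by
    rw [add_zero, hd1, hw, w45_add]; congr 1 <;> ring
  rw [ew] at c5
  constructor
  · linarith
  · linarith

end Crest.Agent.R138.Dl848
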