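import Crest.Agent.R138.Dl2_848

/-!
# R138: decoupling on the legal region, algebra of the blow-up limit (helper848)
-/

set_option autoImplicit false

open Set

namespace Crest.Agent.R138.Dl848

/-- natural tangent vector -/
def T (x y u v : ℝ) : V6 := X (x * u) (y * u) v

macro "ee6" : tactic => `(tactic| (refine mem_LEG ?_ ?_ ?_ ?_ <;> co6 <;> linarith))

theorem T_mem (x y u v : ℝ) : T x y u v ∈ LEG := X_mem_LEG _ _ _

section
variable {f : V6 → ℝ} {x y : ℝ}

/-- (F3) the `(4,5)`-increments do not depend on the other coordinates -/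
theorem F3 (hf : Pr f LEG) (hx : 0 < x) (hy : 0 < y)
    (hJ : ∀ n N R : ℕ, Inc f (w45 R R) (T x y (-n) (-N)) = Inc f (w45 R R) (T x y (-n) N))
    {c c' : V6} (hc : c ∈ LEG) (hc' : c' ∈ LEG) (h4 : c 4 = c' 4) (h5 : c 5 = c' 5)
    {r4 r5 : ℝ} (hr4 : 0 ≤ r4) (hr5 : 0 ≤ r5) :
    Inc f (w45 r4 r5) c = Inc f (w45 r4 r5) c' := by
  obtain ⟨M, hM⟩ : ∃ M : ℝ, ∀ i, |c i| ≤ M ∧ |c' i| ≤ M := by
    obtain ⟨M1, h1⟩ := (Finite.bddAbove_range fun i => |c i|)
    obtain ⟨M2, h2⟩ := (Finite.bddAbove_range fun i => |c' i|)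
    exact ⟨max M1 M2, fun i => ⟨(h1 (mem_range_self i)).trans (le_max_left _ _),
      (h2 (mem_range_self i)).trans (le_max_right _ _)⟩⟩
  have hM0 : 0 ≤ M := (abs_nonneg _).trans (hM 0).1
  obtain ⟨n, hn⟩ := exists_nat_ge (M / x + M / y)
  have hnx : M ≤ x * n := by
    have : M / x ≤ n := le_trans (by have := div_nonneg hM0 hy.le; linarith) hn
    rw [div_le_iff₀ hx] at this; linarith
  have hny : M ≤ y * n := by
    have : M / y ≤ n := le_trans (by have := div_nonneg hM0 hx.le; linarith) hn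
    rw [div_le_iff₀ hy] at this; linarith
  obtain ⟨N, hN⟩ := exists_nat_ge (M + x * n + y * n)
  obtain ⟨R, hR⟩ := exists_nat_ge (M + x * n + y * n + r4 + r5)
  have hn0 : (0 : ℝ) ≤ n := Nat.cast_nonneg n
  have hxn : 0 ≤ x * n := by positivity
  have hyn : 0 ≤ y * n := by positivity
  -- the value is determined by the bracket
  suffices key : ∀ c'' ∈ LEG, c'' 4 = c 4 → c'' 5 = c 5 → (∀ i, |c'' i| ≤ M) →
      Inc f (w45 r4 r5) c'' =
        Inc f (w45 r4 r5) (T x y (-n) (-N) + w45 (c 4 + x * n) (c 5 + y * n)) by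
    rw [key c hc rfl rfl fun i => (hM i).1, key c' hc' h4.symm h5.symm fun i => (hM i).2]
  intro c'' hc'' h4' h5' hM'
  have b4 := abs_le.1 (hM' 4)
  have b5 := abs_le.1 (hM' 5)
  have b0 := abs_le.1 (hM' 0)
  have b1 := abs_le.1 (hM' 1)
  have b2 := abs_le.1 (hM' 2)
  have b3 := abs_le.1 (hM' 3)
  rw [← h4', ← h5']
  clear hM' hM h4 h5 h4' h5' hc hc'
  set L := T x y (-n) (-N) with hL
  set H := T x y (-n) N with hH
  set d := w45 (c'' 4 + x * n) (c'' 5 + y * n) with hd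
  set w := w45 r4 r5 with hw
  have hd0 : (0 : V6) ≤ d := w45_nonneg (by linarith) (by linarith)
  have hw0 : (0 : V6) ≤ w := w45_nonneg hr4 hr5
  set d2 := w45 (R - r4 - (c'' 4 + x * n)) (R - r5 - (c'' 5 + y * n)) with hd2
  have hd20 : (0 : V6) ≤ d2 := w45_nonneg (by linarith) (by linarith)
  have mL : L ∈ LEG := T_mem _ _ _ _
  have mH : H ∈ LEG := T_mem _ _ _ _
  have md : d ∈ LEG := w45_mem_LEG (by linarith) (by linarith)
  have mw : w ∈ LEG := w45_mem_LEG hr4 hr5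
  have md2 : d2 ∈ LEG := w45_mem_LEG (by linarith) (by linarith)
  obtain ⟨g0, g1, g2, g3⟩ := hc''
  have mc : c'' ∈ LEG := ⟨g0, g1, g2, g3⟩
  have lL : L + d ≤ c'' := by
    rw [hL, hd, T]
    refine le6 ?_ ?_ ?_ ?_ ?_ ?_ <;> co6 <;> linarith
  have lH : c'' ≤ H + d := by
    rw [hH, hd, T]
    refine le6 ?_ ?_ ?_ ?_ ?_ ?_ <;> co6 <;> linarith
  have dis : ∀ z : V6, z = L ∨ z = H → ∀ i, w i = 0 ∨ (z + d) i = c'' i := by
    intro z hz
    have h1 : z 4 = x * (-n) ∧ z 5 = y * (-n) := by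
      rcases hz with rfl | rfl <;> exact ⟨rfl, rfl⟩
    refine forall6 (Or.inl rfl) (Or.inl rfl) (Or.inl rfl) (Or.inl rfl) (Or.inr ?_) (Or.inr ?_)
    · rw [Pi.add_apply, h1.1, hd, w45_4]; ring
    · rw [Pi.add_apply, h1.2, hd, w45_5]; ring
  have c1 := hf.sub (LEG_add mL md) mc (LEG_add (LEG_add mL md) mw) (LEG_add mc mw) lL hw0
    (dis L (Or.inl rfl))
  have c2 := hf.sub mc (LEG_add mH md) (LEG_add mc mw) (LEG_add (LEG_add mH md) mw) lH hw0
    (fun i => (dis H (Or.inr rfl) i).imp id Eq.symm)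
  have c3 := hf.mix (p := L) (q := H) (d1 := d) (d := w) (d2 := d2) mL mH (LEG_add mL md)
    (LEG_add mH md) (LEG_add (LEG_add mL md) mw) (LEG_add (LEG_add mH md) mw)
    (LEG_add (LEG_add (LEG_add mL md) mw) md2) (LEG_add (LEG_add (LEG_add mH md) mw) md2)
    (by
      rw [hL, hH, T, T]
      have : (0 : ℝ) ≤ N := Nat.cast_nonneg N
      refine le6 ?_ ?_ ?_ ?_ ?_ ?_ <;> co6 <;> linarith) hd0 hd20
    (forall6 (Or.inl ⟨rfl, rfl, rfl⟩) (Or.inl ⟨rfl, rfl, rfl⟩) (Or.inl ⟨rfl, rfl, rfl⟩)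
      (Or.inl ⟨rfl, rfl, rfl⟩) (Or.inr rfl) (Or.inr rfl))
  have ew : d + w + d2 = w45 R R := by
    rw [hd, hw, hd2, w45_add, w45_add]; congr 1 <;> ring
  rw [ew, hL, hH, hJ n N R, sub_self] at c3
  rw [← hL, ← hH] at c3
  linarith

theorem exists_bound (c c' : V6) : ∃ M : ℝ, 0 ≤ M ∧ ∀ i, |c i| ≤ M ∧ |c' i| ≤ M := by
  obtain ⟨M1, h1⟩ := (Finite.bddAbove_range fun i => |c i|)
  obtain ⟨M2, h2⟩ := (Finite.bddAbove_range fun i => |c' i|)
  have key : ∀ i, |c i| ≤ max M1 M2 ∧ |c' i| ≤ max M1 M2 := fun i =>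
    ⟨(h1 (mem_range_self i)).trans (le_max_left _ _),
      (h2 (mem_range_self i)).trans (le_max_right _ _)⟩
  exact ⟨max M1 M2, (abs_nonneg _).trans (key 0).1, key⟩

/-- (F4) the increments in the direction `i = 0, 2` depend only on the coordinate `i` -/
theorem F4 (hf : Pr f LEG) (hx : 0 < x) (hy : 0 < y)
    (hJ : ∀ n N R : ℕ, Inc f (w45 R R) (T x y (-n) (-N)) = Inc f (w45 R R) (T x y (-n) N))
    {i : Fin 6} (hi : i = 0 ∨ i = 2)
    (hU : ∀ n N : ℕ, ∃ R₀ : ℝ, ∀ R : ℕ, R₀ ≤ R → ∀ u v : ℝ,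
      u = (if i = 0 then (n : ℝ) else -n) → v = (if i = 0 then -((x + y) * n) else 0) →
      Inc f ((2 * N : ℝ) • e i) (pt i (x * u) (y * u) v (R - x * u) (R - y * u) (-N)) =
      Inc f ((2 * N : ℝ) • e i) (pt i (x * (-u)) (y * (-u)) (-v) (R - x * (-u)) (R - y * (-u))
        (-N)))
    {c c' : V6} (hc : c ∈ LEG) (hc' : c' ∈ LEG) (hi' : c i = c' i) (h4 : c 4 = c' 4)
    (h5 : c 5 = c' 5) {s : ℝ} (hs : 0 ≤ s) (hcs : c + s • e i ∈ LEG) (hcs' : c' + s • e i ∈ LEG) :
    Inc f (s • e i) c = Inc f (s • e i) c' := by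
  obtain ⟨M, hM0, hM⟩ := exists_bound c c'
  obtain ⟨n, hn⟩ := exists_nat_ge (M / x + M / y)
  have hnx : M ≤ x * n := by
    have : M / x ≤ n := le_trans (by have := div_nonneg hM0 hy.le; linarith) hn
    rw [div_le_iff₀ hx] at this; linarith
  have hny : M ≤ y * n := by
    have : M / y ≤ n := le_trans (by have := div_nonneg hM0 hx.le; linarith) hn
    rw [div_le_iff₀ hy] at this; linarith
  obtain ⟨N, hN⟩ := exists_nat_ge (M + s)
  obtain ⟨R₀, hR₀⟩ := hU n N
  obtain ⟨R, hR⟩ := exists_nat_ge (M + x * n + y * n + 2 * N + 2 * n + |R₀|)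
  have hR₀' := abs_nonneg R₀
  have hn0 : (0 : ℝ) ≤ n := Nat.cast_nonneg n
  have hN0 : (0 : ℝ) ≤ N := Nat.cast_nonneg N
  have hxn : 0 ≤ x * n := by positivity
  have hyn : 0 ≤ y * n := by positivity
  obtain ⟨u, hu⟩ : ∃ u : ℝ, u = (if i = 0 then (n : ℝ) else -n) := ⟨_, rfl⟩
  obtain ⟨v, hv⟩ : ∃ v : ℝ, v = (if i = 0 then -((x + y) * n) else 0) := ⟨_, rfl⟩
  have hUn := hR₀ R ((le_abs_self _).trans (by
    have h1 : 0 ≤ x * n := by positivity
    have h2 : 0 ≤ y * n := by positivity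
    linarith)) u v hu hv
  have hxu : |x * u| ≤ x * n := by
    rw [hu]; rcases hi with rfl | rfl
    · simp [abs_of_nonneg hxn]
    · simp [abs_of_nonneg hx.le]
  have hyu : |y * u| ≤ y * n := by
    rw [hu]; rcases hi with rfl | rfl
    · simp [abs_of_nonneg hyn]
    · simp [abs_of_nonneg hy.le]
  have hvb : |v| ≤ x * n + y * n := by
    rw [hv]; rcases hi with rfl | rfl
    · simp only [if_true, abs_neg]
      rw [abs_of_nonneg (by positivity)]; linarith
    · simp; positivity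
  have mpt : ∀ u' v' s' : ℝ, |x * u'| ≤ x * n → |y * u'| ≤ y * n → |v'| ≤ x * n + y * n →
      |s'| ≤ N → pt i (x * u') (y * u') v' (R - x * u') (R - y * u') s' ∈ LEG := by
    intro u' v' s' h1 h2 h3 h4
    have a1 := (abs_le.1 h1).2
    have a2 := (abs_le.1 h2).2
    refine (pt_mem (r := 4 * (x * n + y * n) + N + 3 * R) hi (D := x * n + y * n) (N := N)
      (h1.trans (by linarith)) (h2.trans (by linarith)) (h3.trans (by linarith)) h4
      (by linarith) (by linarith) (by linarith) ?_ ?_).1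
    · have := (abs_le.1 h1).1; linarith
    · have := (abs_le.1 h2).1; linarith
  set A := pt i (x * u) (y * u) v (R - x * u) (R - y * u) (-N) with hA
  set B := pt i (x * (-u)) (y * (-u)) (-v) (R - x * (-u)) (R - y * (-u)) (-N) with hB
  -- reduction to the level (R,R)
  suffices key : ∀ c'' ∈ LEG, c'' + s • e i ∈ LEG → c'' i = c i → c'' 4 = c 4 → c'' 5 = c 5 →
      (∀ i, |c'' i| ≤ M) → Inc f (s • e i) c'' = Inc f (s • e i) (A + (c i + N) • e i) by
    rw [key c hc hcs rfl rfl rfl fun i => (hM i).1,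
      key c' hc' hcs' hi'.symm h4.symm h5.symm fun i => (hM i).2]
  intro c'' hc'' hcs'' hi'' h4' h5' hM'
  have b4 := abs_le.1 (hM' 4)
  have b5 := abs_le.1 (hM' 5)
  have b0 := abs_le.1 (hM' 0)
  have b1 := abs_le.1 (hM' 1)
  have b2 := abs_le.1 (hM' 2)
  have b3 := abs_le.1 (hM' 3)
  have bi := abs_le.1 (hM' i)
  rw [← hi'']
  clear hM' hM h4 h5 h4' h5' hc hc' hi' hi'' hcs hcs'
  obtain ⟨w, hw⟩ : ∃ w, w = w45 (R - c'' 4) (R - c'' 5) := ⟨_, rfl⟩
  have mw : w ∈ LEG := by rw [hw]; exact w45_mem_LEG (by linarith) (by linarith)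
  have e1 : Inc f (s • e i) c'' = Inc f (s • e i) (c'' + w) := by
    have h1 := Inc_swap f (s • e i) w c''
    have h2 : Inc f w c'' = Inc f w (c'' + s • e i) := by
      rw [hw]
      apply F3 hf hx hy hJ hc'' hcs''
      · rcases hi with rfl | rfl <;> co6
      · rcases hi with rfl | rfl <;> co6
      · linarith
      · linarith
    linarith
  rw [e1]
  have hs0 : (0 : V6) ≤ s • e i := e_nonneg hs i
  have mA : A ∈ LEG := mpt u v (-N) hxu hyu hvb (by rw [abs_neg, abs_of_nonneg hN0])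
  have hxu' : |x * (-u)| ≤ x * n := by rw [mul_neg, abs_neg]; exact hxu
  have hyu' : |y * (-u)| ≤ y * n := by rw [mul_neg, abs_neg]; exact hyu
  have hvb' : |(-v)| ≤ x * n + y * n := by rw [abs_neg]; exact hvb
  have mB : B ∈ LEG := mpt (-u) (-v) (-N) hxu' hyu' hvb' (by rw [abs_neg, abs_of_nonneg hN0])
  have mAs : ∀ s' : ℝ, 0 ≤ s' → s' ≤ 2 * N → A + s' • e i ∈ LEG := by
    intro s' h1 h2
    rw [hA, pt_add]
    exact mpt u v _ hxu hyu hvb (by rw [abs_le]; constructor <;> linarith)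
  have mBs : ∀ s' : ℝ, 0 ≤ s' → s' ≤ 2 * N → B + s' • e i ∈ LEG := by
    intro s' h1 h2
    rw [hB, pt_add]
    exact mpt (-u) (-v) _ hxu' hyu' hvb' (by rw [abs_le]; constructor <;> linarith)
  have adds : ∀ (z : V6) (s' s'' : ℝ), z + s' • e i + s'' • e i = z + (s' + s'') • e i := by
    intro z s' s''; rw [add_smul, add_assoc]
  have m1 : A + (c'' i + N) • e i ∈ LEG := mAs _ (by linarith) (by linarith)
  have m2 : B + (c'' i + N) • e i ∈ LEG := mBs _ (by linarith) (by linarith)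
  have m3 : A + (c'' i + N) • e i + s • e i ∈ LEG := by
    rw [adds]; exact mAs _ (by linarith) (by linarith)
  have m4 : B + (c'' i + N) • e i + s • e i ∈ LEG := by
    rw [adds]; exact mBs _ (by linarith) (by linarith)
  have m5 : A + (c'' i + N) • e i + s • e i + (N - c'' i - s) • e i ∈ LEG := by
    rw [adds, adds]; exact mAs _ (by linarith) (by linarith)
  have m6 : B + (c'' i + N) • e i + s • e i + (N - c'' i - s) • e i ∈ LEG := by
    rw [adds, adds]; exact mBs _ (by linarith) (by linarith)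
  have mc : c'' + w ∈ LEG := LEG_add hc'' mw
  have mcs : c'' + w + s • e i ∈ LEG := by
    rw [add_right_comm]; exact LEG_add hcs'' mw
  have lA : A + (c'' i + N) • e i ≤ c'' + w := by
    rw [hA, pt_add, pt, hw, hu, hv]
    rcases hi with rfl | rfl
    · simp only [if_true]
      refine le6 ?_ ?_ ?_ ?_ ?_ ?_ <;> co6 <;> linarith
    · rw [if_neg (by decide), if_neg (by decide)]
      refine le6 ?_ ?_ ?_ ?_ ?_ ?_ <;> co6 <;> linarith
  have lB : c'' + w ≤ B + (c'' i + N) • e i := by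
    rw [hB, pt_add, pt, hw, hu, hv]
    rcases hi with rfl | rfl
    · simp only [if_true]
      refine le6 ?_ ?_ ?_ ?_ ?_ ?_ <;> co6 <;> linarith
    · rw [if_neg (by decide), if_neg (by decide)]
      refine le6 ?_ ?_ ?_ ?_ ?_ ?_ <;> co6 <;> linarith
  have dA : ∀ j, (s • e i) j = 0 ∨ (A + (c'' i + N) • e i) j = (c'' + w) j := by
    rw [hA, pt_add, pt, hw, hu, hv]
    rcases hi with rfl | rfl
    · simp only [if_true]
      refine forall6 (Or.inr ?_) (Or.inl ?_) (Or.inl ?_) (Or.inl ?_) (Or.inl ?_) (Or.inl ?_) <;>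
        co6
      ring
    · rw [if_neg (by decide), if_neg (by decide)]
      refine forall6 (Or.inl ?_) (Or.inl ?_) (Or.inr ?_) (Or.inl ?_) (Or.inl ?_) (Or.inl ?_) <;>
        co6
      ring
  have dB : ∀ j, (s • e i) j = 0 ∨ (c'' + w) j = (B + (c'' i + N) • e i) j := by
    rw [hB, pt_add, pt, hw, hu, hv]
    rcases hi with rfl | rfl
    · simp only [if_true]
      refine forall6 (Or.inr ?_) (Or.inl ?_) (Or.inl ?_) (Or.inl ?_) (Or.inl ?_) (Or.inl ?_) <;>
        co6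
      ring
    · rw [if_neg (by decide), if_neg (by decide)]
      refine forall6 (Or.inl ?_) (Or.inl ?_) (Or.inr ?_) (Or.inl ?_) (Or.inl ?_) (Or.inl ?_) <;>
        co6
      ring
  have lAB : A ≤ B := by
    have := lA.trans lB
    intro j
    have := this j
    simp only [Pi.add_apply] at this
    linarith
  have dAB : ∀ j, (((c'' i + N) • e i) j = 0 ∧ (s • e i) j = 0 ∧ ((N - c'' i - s) • e i) j = 0) ∨
      A j = B j := by
    intro j
    by_cases hj : j = i
    · right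
      subst hj
      have h1 := dA j
      have h2 := dB j
      have he : (e j : V6) j = 1 := by simp [e]
      simp only [Pi.smul_apply, he, smul_eq_mul, mul_one, Pi.add_apply] at h1 h2
      have h0 := lAB j
      rcases eq_or_lt_of_le hs with h | h
      · -- s = 0: use the bracket order
        have l1 := lA j
        have l2 := lB j
        rw [hA, hB, pt, pt, hu, hv]
        rcases hi with rfl | rfl
        · simp only [if_true]; co6; ring
        · rw [if_neg (by decide), if_neg (by decide)]; co6; ring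
      · rcases h1 with h1 | h1
        · exact absurd h1 h.ne'
        · rcases h2 with h2 | h2
          · exact absurd h2 h.ne'
          · linarith
    · left
      have he : (e i : V6) j = 0 := by simp [e, hj]
      simp [he]
  have c1 := hf.sub m1 mc m3 mcs lA hs0 dA
  have c2 := hf.sub mc m2 mcs m4 lB hs0 dB
  have c3 := hf.mix (p := A) (q := B) (d1 := (c'' i + N) • e i) (d := s • e i)
    (d2 := (N - c'' i - s) • e i) mA mB m1 m2 m3 m4 m5 m6 lAB (e_nonneg (by linarith) i)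
    (e_nonneg (by linarith) i) dAB
  have ew : (c'' i + N) • e i + s • e i + (N - c'' i - s) • e i = (2 * N : ℝ) • e i := by
    rw [← add_smul, ← add_smul]; congr 1; ring
  rw [ew, hUn, sub_self] at c3
  linarith

/-- (F4') the same, arbitrary `(4,5)`-levels -/
theorem F4' (hf : Pr f LEG) (hx : 0 < x) (hy : 0 < y)
    (hJ : ∀ n N R : ℕ, Inc f (w45 R R) (T x y (-n) (-N)) = Inc f (w45 R R) (T x y (-n) N))
    {i : Fin 6} (hi : i = 0 ∨ i = 2)
    (hU : ∀ n N : ℕ, ∃ R₀ : ℝ, ∀ R : ℕ, R₀ ≤ R → ∀ u v : ℝ,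
      u = (if i = 0 then (n : ℝ) else -n) → v = (if i = 0 then -((x + y) * n) else 0) →
      Inc f ((2 * N : ℝ) • e i) (pt i (x * u) (y * u) v (R - x * u) (R - y * u) (-N)) =
      Inc f ((2 * N : ℝ) • e i) (pt i (x * (-u)) (y * (-u)) (-v) (R - x * (-u)) (R - y * (-u))
        (-N)))
    {c c' : V6} (hc : c ∈ LEG) (hc' : c' ∈ LEG) (hi' : c i = c' i) {s : ℝ} (hs : 0 ≤ s)
    (hcs : c + s • e i ∈ LEG) (hcs' : c' + s • e i ∈ LEG) :
    Inc f (s • e i) c = Inc f (s • e i) c' := by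
  obtain ⟨M, hM0, hM⟩ := exists_bound c c'
  have key : ∀ z ∈ LEG, z + s • e i ∈ LEG → (∀ i, |z i| ≤ M) →
      Inc f (s • e i) z = Inc f (s • e i) (z + w45 (M - z 4) (M - z 5)) := by
    intro z hz hzs hM'
    have b4 := abs_le.1 (hM' 4)
    have b5 := abs_le.1 (hM' 5)
    have h1 := Inc_swap f (s • e i) (w45 (M - z 4) (M - z 5)) z
    have h2 : Inc f (w45 (M - z 4) (M - z 5)) z = Inc f (w45 (M - z 4) (M - z 5)) (z + s • e i) := by
      apply F3 hf hx hy hJ hz hzs
      · rcases hi with rfl | rfl <;> co6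
      · rcases hi with rfl | rfl <;> co6
      · linarith
      · linarith
    linarith
  rw [key c hc hcs fun i => (hM i).1, key c' hc' hcs' fun i => (hM i).2]
  have b4 := abs_le.1 (hM 4).1
  have b5 := abs_le.1 (hM 5).1
  have b4' := abs_le.1 (hM 4).2
  have b5' := abs_le.1 (hM 5).2
  have mw : w45 (M - c 4) (M - c 5) ∈ LEG := w45_mem_LEG (by linarith) (by linarith)
  have mw' : w45 (M - c' 4) (M - c' 5) ∈ LEG := w45_mem_LEG (by linarith) (by linarith)
  apply F4 hf hx hy hJ hi hU (LEG_add hc mw) (LEG_add hc' mw') _ _ _ hs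
  · rw [add_right_comm]; exact LEG_add hcs mw
  · rw [add_right_comm]; exact LEG_add hcs' mw'
  · rcases hi with rfl | rfl <;> co6 <;> exact hi'
  · co6; ring
  · co6; ring

/-- decoupled `(4,5)`-levels -/
def Good3 (f : V6 → ℝ) : Prop :=
  ∀ c ∈ LEG, ∀ c' ∈ LEG, c 4 = c' 4 → c 5 = c' 5 → ∀ r4 r5 : ℝ, 0 ≤ r4 → 0 ≤ r5 →
    Inc f (w45 r4 r5) c = Inc f (w45 r4 r5) c'

/-- decoupled coordinate `i` -/
def Good4 (f : V6 → ℝ) (i : Fin 6) : Prop :=
  ∀ c ∈ LEG, ∀ c' ∈ LEG, c i = c' i → ∀ s : ℝ, 0 ≤ s → c + s • e i ∈ LEG → c' + s • e i ∈ LEG →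
    Inc f (s • e i) c = Inc f (s • e i) c'

/-- the increments in the direction `i` are linear -/
theorem F6 {i : Fin 6} (hi : i = 0 ∨ i = 2) (hg : Good4 f i)
    {ρ : ℝ} (hR1 : ∀ s : ℝ, 0 < s → Inc f (s • e i) (w45 s s) = ρ * s)
    (hR2 : ∀ s : ℝ, 0 < s → Inc f (s • e i) (X 0 0 (-s) + w45 s s) = ρ * s)
    {c : V6} (hc : c ∈ LEG) {s : ℝ} (hs : 0 ≤ s)
    (hcs : c + s • e i ∈ LEG) : Inc f (s • e i) c = ρ * s := by
  set u := c i with hu
  obtain ⟨R, hR⟩ : ∃ R : ℝ, R = |u| + |u + s| + s := ⟨_, rfl⟩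
  have hau := abs_nonneg u
  have haus := abs_nonneg (u + s)
  have le1 := le_abs_self u
  have le2 := neg_abs_le u
  have le3 := le_abs_self (u + s)
  have le4 := neg_abs_le (u + s)
  have hR0 : 0 ≤ R := by linarith
  have mref : ∀ u' : ℝ, |u'| ≤ R → w45 R R + u' • e i ∈ LEG := by
    intro u' hu'
    have := abs_le.1 hu'
    rcases hi with rfl | rfl <;> (refine mem_LEG ?_ ?_ ?_ ?_ <;> co6 <;> linarith)
  have hei : (e i : V6) i = 1 := by simp [e]
  have hwi : ∀ a b : ℝ, w45 a b i = 0 := by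
    intro a b; rcases hi with rfl | rfl <;> rfl
  have adds : ∀ (z : V6) (s' s'' : ℝ), z + s' • e i + s'' • e i = z + (s' + s'') • e i := by
    intro z s' s''; rw [add_smul, add_assoc]
  -- the function along the reference line
  have lin : ∀ u' : ℝ, |u'| ≤ R → f (w45 R R + u' • e i) = f (w45 R R) - ρ * u' := by
    intro u' hu'
    rcases lt_trichotomy u' 0 with h | h | h
    · have h1 : Inc f ((-u') • e i) (w45 R R + u' • e i) = ρ * (-u') := by
        rw [← hR2 (-u') (by linarith)]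
        apply hg _ (mref _ hu') _ (LEG_add (X_mem_LEG _ _ _) (w45_mem_LEG (by linarith)
          (by linarith))) _ _ (by linarith)
        · rw [adds, add_neg_cancel, zero_smul, add_zero]
          exact w45_mem_LEG hR0 hR0
        · rcases hi with rfl | rfl <;> (refine mem_LEG ?_ ?_ ?_ ?_ <;> co6 <;> linarith)
        · rw [Pi.add_apply, Pi.add_apply, Pi.smul_apply, hei, hwi, hwi]
          rcases hi with rfl | rfl <;> co6 <;> ring
      have h2 : w45 R R + u' • e i + (-u') • e i = w45 R R := by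
        rw [adds, add_neg_cancel, zero_smul, add_zero]
      unfold Inc at h1
      rw [h2] at h1
      linarith
    · subst h; simp
    · have h1 : Inc f (u' • e i) (w45 R R) = ρ * u' := by
        rw [← hR1 u' h]
        apply hg _ (w45_mem_LEG hR0 hR0) _ (w45_mem_LEG h.le h.le) _ _ h.le
        · exact mref _ hu'
        · rcases hi with rfl | rfl <;> (refine mem_LEG ?_ ?_ ?_ ?_ <;> co6 <;> linarith)
        · rw [hwi, hwi]
      unfold Inc at h1
      linarith
  have h1 : Inc f (s • e i) c = Inc f (s • e i) (w45 R R + u • e i) := by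
    apply hg _ hc _ (mref _ (by linarith)) _ _ hs hcs
    · rw [adds]; exact mref _ (by linarith)
    · rw [Pi.add_apply, Pi.smul_apply, hei, hwi, ← hu]; simp
  rw [h1, Inc, adds, lin u (by linarith), lin (u + s) (by linarith)]
  ring

end

/-- the function of the two remaining coordinates -/
def bet (f : V6 → ℝ) (R u v : ℝ) : ℝ := f (w45 R R) - f ![0, u, 0, v, R, R]

/-- peel off the coordinates `0` and `2` at the level `(R,R)` -/
theorem peel {f : V6 → ℝ} {r0 r2 : ℝ}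
    (h0 : ∀ c ∈ LEG, ∀ s : ℝ, 0 ≤ s → c + s • e 0 ∈ LEG → Inc f (s • e 0) c = r0 * s)
    (h2 : ∀ c ∈ LEG, ∀ s : ℝ, 0 ≤ s → c + s • e 2 ∈ LEG → Inc f (s • e 2) c = r2 * s)
    {M R : ℝ} (hR : 2 * M ≤ R) {c : V6} (hM : ∀ i : Fin 6, i ≠ 4 → i ≠ 5 → |c i| ≤ M)
    (h4 : c 4 = R) (h5 : c 5 = R) :
    f c = f (w45 R R) - bet f R (c 1) (c 3) - r0 * c 0 - r2 * c 2 := by
  have b0 := abs_le.1 (hM 0 (by decide) (by decide))
  have b1 := abs_le.1 (hM 1 (by decide) (by decide))
  have b2 := abs_le.1 (hM 2 (by decide) (by decide))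
  have b3 := abs_le.1 (hM 3 (by decide) (by decide))
  have s0 : f c = f ![0, c 1, c 2, c 3, R, R] - r0 * c 0 := by
    rcases le_total 0 (c 0) with h | h
    · have := h0 ![0, c 1, c 2, c 3, R, R] (by refine mem_LEG ?_ ?_ ?_ ?_ <;> simp <;> linarith)
        (c 0) h (by refine mem_LEG ?_ ?_ ?_ ?_ <;> simp <;> linarith)
      have e1 : (![0, c 1, c 2, c 3, R, R] : V6) + c 0 • e 0 = c := by
        refine ext6 ?_ ?_ ?_ ?_ ?_ ?_ <;> simp [h4, h5]
      unfold Inc at this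
      rw [e1] at this
      linarith
    · have := h0 c (by refine mem_LEG ?_ ?_ ?_ ?_ <;> linarith) (-c 0) (by linarith)
        (by refine mem_LEG ?_ ?_ ?_ ?_ <;> simp <;> linarith)
      have e1 : c + (-c 0) • e 0 = ![0, c 1, c 2, c 3, R, R] := by
        refine ext6 ?_ ?_ ?_ ?_ ?_ ?_ <;> simp [h4, h5]
      unfold Inc at this
      rw [e1] at this
      linarith
  have s2 : f ![0, c 1, c 2, c 3, R, R] = f ![0, c 1, 0, c 3, R, R] - r2 * c 2 := by
    rcases le_total 0 (c 2) with h | h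
    · have := h2 ![0, c 1, 0, c 3, R, R] (by refine mem_LEG ?_ ?_ ?_ ?_ <;> simp <;> linarith)
        (c 2) h (by refine mem_LEG ?_ ?_ ?_ ?_ <;> simp <;> linarith)
      have e1 : (![0, c 1, 0, c 3, R, R] : V6) + c 2 • e 2 = ![0, c 1, c 2, c 3, R, R] := by
        refine ext6 ?_ ?_ ?_ ?_ ?_ ?_ <;> simp
      unfold Inc at this
      rw [e1] at this
      linarith
    · have := h2 ![0, c 1, c 2, c 3, R, R] (by refine mem_LEG ?_ ?_ ?_ ?_ <;> simp <;> linarith)
        (-c 2) (by linarith) (by refine mem_LEG ?_ ?_ ?_ ?_ <;> simp <;> linarith)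
      have e1 : (![0, c 1, c 2, c 3, R, R] : V6) + (-c 2) • e 2 = ![0, c 1, 0, c 3, R, R] := by
        refine ext6 ?_ ?_ ?_ ?_ ?_ ?_ <;> simp
      unfold Inc at this
      rw [e1] at this
      linarith
  rw [s0, s2, bet]; ring

end Crest.Agent.R138.Dl848
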