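import Crest.Agent.R138.Dl3_848

/-!
# R138: decoupling on the legal region, conclusions for the blow-up limit (helper848)
-/

set_option autoImplicit false

open Set

namespace Crest.Agent.R138.Dl848

/-- all exact relations which hold for the blow-up limit at a generic natural point -/
structure Lim (f : V6 → ℝ) (x y Pτ Pt r0 r2 J : ℝ) : Prop where
  zero : f 0 = 0
  g3 : Good3 f
  g40 : Good4 f 0
  g42 : Good4 f 2
  hP : ∀ u v, f (T x y u v) = u * Pτ + v * Pt
  h01 : ∀ s : ℝ, 0 < s → Inc f (s • e 0) (w45 s s) = r0 * s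
  h02 : ∀ s : ℝ, 0 < s → Inc f (s • e 0) (X 0 0 (-s) + w45 s s) = r0 * s
  h21 : ∀ s : ℝ, 0 < s → Inc f (s • e 2) (w45 s s) = r2 * s
  h22 : ∀ s : ℝ, 0 < s → Inc f (s • e 2) (X 0 0 (-s) + w45 s s) = r2 * s
  hJ1 : ∀ s : ℝ, 0 < s → Inc f (w45 (x * s) (y * s)) 0 = J * s
  hJ2 : ∀ s : ℝ, 0 < s → Inc f (w45 (x * s) (y * s)) (T x y (-s) 0) = J * s

section

variable {f : V6 → ℝ} {x y Pτ Pt r0 r2 J : ℝ}

theorem Lim.g0 (h : Lim f x y Pτ Pt r0 r2 J) :
    ∀ c ∈ LEG, ∀ s : ℝ, 0 ≤ s → c + s • e 0 ∈ LEG → Inc f (s • e 0) c = r0 * s :=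
  fun _ hc _ hs hcs => F6 (Or.inl rfl) h.g40 h.h01 h.h02 hc hs hcs

theorem Lim.g2 (h : Lim f x y Pτ Pt r0 r2 J) :
    ∀ c ∈ LEG, ∀ s : ℝ, 0 ≤ s → c + s • e 2 ∈ LEG → Inc f (s • e 2) c = r2 * s :=
  fun _ hc _ hs hcs => F6 (Or.inr rfl) h.g42 h.h21 h.h22 hc hs hcs

theorem Lim.level (h : Lim f x y Pτ Pt r0 r2 J) {c c' : V6}
    (hc : c ∈ LEG) (hc' : c' ∈ LEG) (h4 : c 4 = c' 4) (h5 : c 5 = c' 5) {r4 r5 : ℝ}
    (hr4 : 0 ≤ r4) (hr5 : 0 ≤ r5) :
    f c - f c' = f (c + w45 r4 r5) - f (c' + w45 r4 r5) := by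
  have := h.g3 _ hc _ hc' h4 h5 _ _ hr4 hr5
  unfold Inc at this
  linarith

/-- (A) -/
theorem Lim.A (h : Lim f x y Pτ Pt r0 r2 J) {M R : ℝ}
    (hR : 2 * M ≤ R) {c c' : V6} (hc : c ∈ LEG) (hc' : c' ∈ LEG) (hM : ∀ i, |c i| ≤ M)
    (hM' : ∀ i, |c' i| ≤ M) (h4 : c 4 = c' 4) (h5 : c 5 = c' 5) :
    f c - f c' = -(r0 * (c 0 - c' 0) + r2 * (c 2 - c' 2) + bet f R (c 1) (c 3)
      - bet f R (c' 1) (c' 3)) := by
  have b4 := abs_le.1 (hM 4)
  have b5 := abs_le.1 (hM 5)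
  have hM0 : 0 ≤ M := (abs_nonneg _).trans (hM 0)
  rw [h.level hc hc' h4 h5 (r4 := R - c 4) (r5 := R - c 5) (by linarith) (by linarith)]
  have e1 := peel h.g0 h.g2 hR (c := c + w45 (R - c 4) (R - c 5))
    (forall6 (fun _ _ => by co6; exact hM 0) (fun _ _ => by co6; exact hM 1)
      (fun _ _ => by co6; exact hM 2) (fun _ _ => by co6; exact hM 3) (fun h => absurd rfl h)
      (fun _ h => absurd rfl h)) (by co6; ring) (by co6; ring)
  have e2 := peel h.g0 h.g2 hR (c := c' + w45 (R - c 4) (R - c 5))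
    (forall6 (fun _ _ => by co6; exact hM' 0) (fun _ _ => by co6; exact hM' 1)
      (fun _ _ => by co6; exact hM' 2) (fun _ _ => by co6; exact hM' 3) (fun h => absurd rfl h)
      (fun _ h => absurd rfl h)) (by co6; linarith) (by co6; linarith)
  rw [e1, e2]
  co6
  ring

theorem bet_level (h : Lim f x y Pτ Pt r0 r2 J) {M R R' u v : ℝ}
    (hu : |u| ≤ M) (hv : |v| ≤ M) (hR : 2 * M ≤ R) (hR' : 2 * M ≤ R') :
    bet f R u v = bet f R' u v := by
  have hM0 : 0 ≤ M := (abs_nonneg _).trans hu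
  wlog hRR : R ≤ R' generalizing R R'
  · exact (this hR' hR (le_of_not_ge hRR)).symm
  have b1 := abs_le.1 hu
  have b2 := abs_le.1 hv
  have key := h.level (c := w45 R R) (c' := ![0, u, 0, v, R, R])
    (w45_mem_LEG (by linarith) (by linarith))
    (by refine mem_LEG ?_ ?_ ?_ ?_ <;> simp <;> linarith) rfl rfl
    (r4 := R' - R) (r5 := R' - R) (by linarith) (by linarith)
  have e1 : w45 R R + w45 (R' - R) (R' - R) = w45 R' R' := by
    rw [w45_add]; congr 1 <;> ring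
  have e2 : (![0, u, 0, v, R, R] : V6) + w45 (R' - R) (R' - R) = ![0, u, 0, v, R', R'] := by
    refine ext6 ?_ ?_ ?_ ?_ ?_ ?_ <;> simp
  rw [e1, e2] at key
  exact key

/-- the `(4,5)`-increment at a natural point -/
theorem Lim.nat45 (h : Lim f x y Pτ Pt r0 r2 J) (hx : 0 < x) (hy : 0 < y) {R u v : ℝ}
    (hR0 : 0 ≤ R) (hxu : x * u ≤ R) (hyu : y * u ≤ R) :
    Inc f (w45 (R - x * u) (R - y * u)) (T x y u v) = -(J * u) - f (w45 R R) := by
  rcases lt_trichotomy u 0 with hu | hu | hu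
  · have a1 : 0 ≤ x * (-u) := by nlinarith
    have a2 : 0 ≤ y * (-u) := by nlinarith
    have e1 : w45 (R - x * u) (R - y * u) = w45 (x * (-u)) (y * (-u)) + w45 R R := by
      rw [w45_add]; congr 1 <;> ring
    rw [e1, Inc_add]
    have h1 : Inc f (w45 (x * (-u)) (y * (-u))) (T x y u v) = J * (-u) := by
      rw [← h.hJ2 (-u) (by linarith)]
      exact h.g3 _ (T_mem _ _ _ _) _ (T_mem _ _ _ _) (by simp [T]) (by simp [T]) _ _ a1 a2
    have h2 : Inc f (w45 R R) (T x y u v + w45 (x * (-u)) (y * (-u))) = Inc f (w45 R R) 0 := by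
      exact h.g3 _ (LEG_add (T_mem _ _ _ _) (w45_mem_LEG a1 a2)) _
        (mem_LEG (by simp) (by simp) (by simp) (by simp)) (by simp [T]) (by simp [T]) _ _ hR0 hR0
    rw [h1, h2, Inc, h.zero, zero_add]
    ring
  · subst hu
    have h2 : Inc f (w45 (R - x * 0) (R - y * 0)) (T x y 0 v) =
        Inc f (w45 (R - x * 0) (R - y * 0)) 0 := by
      exact h.g3 _ (T_mem _ _ _ _) _
        (mem_LEG (by simp) (by simp) (by simp) (by simp)) (by simp [T]) (by simp [T]) _ _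
        (by simp [hR0]) (by simp [hR0])
    rw [h2, Inc, h.zero, zero_add]
    simp
  · have a1 : 0 ≤ x * u := by positivity
    have a2 : 0 ≤ y * u := by positivity
    have h1 : Inc f (w45 (R - x * u) (R - y * u)) (T x y u v) =
        Inc f (w45 (R - x * u) (R - y * u)) (w45 (x * u) (y * u)) := by
      exact h.g3 _ (T_mem _ _ _ _) _ (w45_mem_LEG a1 a2) (by simp [T]) (by simp [T]) _ _
        (by linarith) (by linarith)
    have h2 := h.hJ1 u hu
    have e2 : w45 (x * u) (y * u) + w45 (R - x * u) (R - y * u) = w45 R R := by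
      rw [w45_add]; congr 1 <;> ring
    unfold Inc at h2
    rw [h.zero, zero_add] at h2
    rw [h1, Inc, e2]
    linarith

/-- (B) the function of the coordinates `1, 3` along the natural surface -/
theorem Lim.B (h : Lim f x y Pτ Pt r0 r2 J) (hx : 0 < x) (hy : 0 < y) {M R u v : ℝ}
    (hR : 2 * M ≤ R) (hM : ∀ i, |T x y u v i| ≤ M) :
    bet f R (v + y * u) (v + x * u) =
      -(u * (Pτ + J + r0 * (x + y)) + v * (Pt + r0 + r2)) := by
  have hM0 : 0 ≤ M := (abs_nonneg _).trans (hM 0)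
  have b4 := abs_le.1 (hM 4)
  have b5 := abs_le.1 (hM 5)
  have c4 : T x y u v 4 = x * u := rfl
  have c5 : T x y u v 5 = y * u := rfl
  rw [c4] at b4
  rw [c5] at b5
  have h1 := h.nat45 hx hy (R := R) (u := u) (v := v) (by linarith) (by linarith) (by linarith)
  have e1 := peel h.g0 h.g2 hR
    (c := T x y u v + w45 (R - x * u) (R - y * u))
    (forall6 (fun _ _ => by rw [Pi.add_apply, w45_0, add_zero]; exact hM 0)
      (fun _ _ => by rw [Pi.add_apply, w45_1, add_zero]; exact hM 1)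
      (fun _ _ => by rw [Pi.add_apply, w45_2, add_zero]; exact hM 2)
      (fun _ _ => by rw [Pi.add_apply, w45_3, add_zero]; exact hM 3) (fun h => absurd rfl h)
      (fun _ h => absurd rfl h)) (by unfold T; co6; ring) (by unfold T; co6; ring)
  unfold Inc at h1
  rw [h.hP u v, e1] at h1
  have q0 : (T x y u v + w45 (R - x * u) (R - y * u)) 0 = v + x * u + y * u := by
    unfold T; co6
  have q1 : (T x y u v + w45 (R - x * u) (R - y * u)) 1 = v + y * u := by
    unfold T; co6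
  have q2 : (T x y u v + w45 (R - x * u) (R - y * u)) 2 = v := by
    unfold T; co6
  have q3 : (T x y u v + w45 (R - x * u) (R - y * u)) 3 = v + x * u := by
    unfold T; co6
  rw [q0, q1, q2, q3] at h1
  linarith

/-- diagonal values -/
theorem Lim.B0 (h : Lim f x y Pτ Pt r0 r2 J) (hx : 0 < x) (hy : 0 < y) {M R v : ℝ}
    (hR : 2 * M ≤ R) (hM : |v| ≤ M) : bet f R v v = -(Pt + r0 + r2) * v := by
  have hM0 : 0 ≤ M := (abs_nonneg _).trans hM
  have := h.B hx hy (u := 0) (v := v) hR (by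
    unfold T
    refine forall6 ?_ ?_ ?_ ?_ ?_ ?_ <;> co6 <;> first | exact hM | (rw [abs_zero]; exact hM0))
  rw [mul_zero, mul_zero, add_zero, zero_mul, zero_add] at this
  rw [this]; ring

/-- (C) for `x ≠ y` the function `bet` is linear -/
theorem Lim.C (h : Lim f x y Pτ Pt r0 r2 J) (hx : 0 < x) (hy : 0 < y) (hxy : x ≠ y)
    {M R : ℝ} (hR : 2 * M ≤ R) {p q r1 r3 : ℝ} (hp : |p| ≤ M) (hq : |q| ≤ M)
    (h13 : r1 + r3 = -(Pt + r0 + r2)) (h13' : y * r1 + x * r3 = -(Pτ + J + r0 * (x + y))) :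
    bet f R p q = r1 * p + r3 * q := by
  have hne : x - y ≠ 0 := sub_ne_zero.2 hxy
  set u := (q - p) / (x - y) with hu
  have hu' : (x - y) * u = q - p := by rw [hu]; field_simp
  set v := p - y * u with hv
  obtain ⟨M1, hM10, hM1⟩ := exists_bound (T x y u v) 0
  obtain ⟨M', hM'⟩ : ∃ M' : ℝ, M' = max M M1 := ⟨_, rfl⟩
  have l1 : M ≤ M' := by rw [hM']; exact le_max_left _ _
  have l2 : M1 ≤ M' := by rw [hM']; exact le_max_right _ _
  have key := h.B hx hy (u := u) (v := v) (M := M') (R := 2 * M') le_rfl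
    (fun i => (hM1 i).1.trans l2)
  have e1 : v + y * u = p := by rw [hv]; ring
  have e2 : v + x * u = q := by rw [hv]; linarith
  rw [e1, e2] at key
  have hM0 : 0 ≤ M := (abs_nonneg _).trans hp
  have hR0 : 0 ≤ R := by linarith
  rw [bet_level h hp hq hR (R' := 2 * M') (by linarith)]
  rw [key]
  have : -(u * (Pτ + J + r0 * (x + y)) + v * (Pt + r0 + r2)) =
      u * (y * r1 + x * r3) + v * (r1 + r3) := by rw [h13, h13']; ring
  rw [this, ← e1, ← e2]; ring

end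

end Crest.Agent.R138.Dl848
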