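import Crest.Agent.R138.Dl4_848
import Crest.Agent.R138.Dec2_848

/-!
# R138: decoupling on the legal region, integral estimates (helper848)
-/

set_option autoImplicit false

open MeasureTheory Filter Topology Set
open scoped ENNReal

namespace Crest.Agent.R138.Dl848

open Crest.Agent.R138.Dec848 (Rc measurableSet_Rc vol_Rc preimage_Rc vol_Rc_diff lint_shift)

/-- telescoping, error at the base point -/
theorem lint_shift2 {A : Set (ℝ × ℝ)} (hA : MeasurableSet A) (hAv : volume A ≠ ∞) (c : ℝ × ℝ)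
    {G D D' : ℝ × ℝ → ℝ≥0∞} (hG : Measurable G) (hD' : Measurable D')
    {g : ℝ≥0∞} (hg : g ≠ ∞)
    (h1 : ∀ x ∈ A, D x + G (x + c) ≤ G x + D' x) (h2 : ∀ x ∈ A, G x ≤ g)
    (h3 : ∀ x ∈ A, G (x + c) ≤ g) :
    ∫⁻ x in A, D x ≤ g * volume (A \ (fun x => x - c) ⁻¹' A) + ∫⁻ x in A, D' x := by
  have key := lint_shift hA hAv c (G := G) (D := D) (D' := fun y => D' (y - c)) hG
    (hD'.comp (measurable_id.sub_const c)) hg (by
      intro x hx
      simpa using h1 x hx) h2 h3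
  have tr := (measurePreserving_sub_right (volume : Measure (ℝ × ℝ)) c).setLIntegral_comp_preimage
    hA hD'
  rwa [tr] at key

/-- summable dyadic integrals give an a.e. limit -/
theorem ae_dyadic {A : Set (ℝ × ℝ)} (hA : MeasurableSet A) {T : ℕ → ℝ × ℝ → ℝ}
    (hm : ∀ m, Measurable (T m)) {K : ℝ} (hK : 0 ≤ K) (m₀ : ℕ)
    (nonneg : ∀ m, m₀ ≤ m → ∀ x ∈ A, 0 ≤ T m x)
    (bound : ∀ m, m₀ ≤ m →
      ∫⁻ x in A, ENNReal.ofReal (T m x) ≤ ENNReal.ofReal (K * ((1 / 2 : ℝ) ^ m) ^ 2)) :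
    ∀ᵐ x ∂(volume.restrict A), Tendsto (fun m => (2 : ℝ) ^ m * T m x) atTop (𝓝 0) := by
  have hmeas : ∀ n, Measurable fun x => ENNReal.ofReal ((2 : ℝ) ^ (n + m₀) * T (n + m₀) x) :=
    fun n => ((hm _).const_mul _).ennreal_ofReal
  have h12 : ∀ n : ℕ, (2 : ℝ) ^ n * (1 / 2 : ℝ) ^ n = 1 := by
    intro n; rw [← mul_pow]; norm_num
  have hint : ∀ n, ∫⁻ x in A, ENNReal.ofReal ((2 : ℝ) ^ (n + m₀) * T (n + m₀) x) ≤
      ENNReal.ofReal (K * (1 / 2 : ℝ) ^ (n + m₀)) := by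
    intro n
    have hp : (0 : ℝ) ≤ 2 ^ (n + m₀) := by positivity
    simp_rw [ENNReal.ofReal_mul hp]
    rw [lintegral_const_mul _ (hm _).ennreal_ofReal]
    refine (mul_le_mul_right (bound _ (by omega)) _).trans ?_
    rw [← ENNReal.ofReal_mul hp]
    apply ENNReal.ofReal_le_ofReal
    apply le_of_eq
    calc (2 : ℝ) ^ (n + m₀) * (K * ((1 / 2 : ℝ) ^ (n + m₀)) ^ 2)
        = K * (1 / 2 : ℝ) ^ (n + m₀) * ((2 : ℝ) ^ (n + m₀) * (1 / 2 : ℝ) ^ (n + m₀)) := by ring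
      _ = _ := by rw [h12, mul_one]
  have hsum : ∫⁻ x in A, ∑' n, ENNReal.ofReal ((2 : ℝ) ^ (n + m₀) * T (n + m₀) x) ≠ ∞ := by
    rw [lintegral_tsum (fun n => (hmeas n).aemeasurable)]
    refine ne_of_lt (lt_of_le_of_lt (ENNReal.tsum_le_tsum hint) ?_)
    have hs : Summable fun n => K * (1 / 2 : ℝ) ^ (n + m₀) := by
      have := (summable_geometric_of_lt_one (by norm_num : (0:ℝ) ≤ 1 / 2) (by norm_num)).mul_right
        ((1 / 2 : ℝ) ^ m₀)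
      refine (this.mul_left K).congr fun n => ?_
      rw [pow_add]
    rw [← ENNReal.ofReal_tsum_of_nonneg (fun n => by positivity) hs]
    exact ENNReal.ofReal_lt_top
  have hae : ∀ᵐ x ∂(volume.restrict A),
      ∑' n, ENNReal.ofReal ((2 : ℝ) ^ (n + m₀) * T (n + m₀) x) < ∞ :=
    ae_lt_top (Measurable.tsum hmeas) hsum
  filter_upwards [hae, ae_restrict_mem hA] with x hx hxA
  have h1 : Tendsto (fun n => ENNReal.ofReal ((2 : ℝ) ^ (n + m₀) * T (n + m₀) x)) atTop (𝓝 0) :=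
    ENNReal.tendsto_atTop_zero_of_tsum_ne_top hx.ne
  have h2 : Tendsto (fun n => (2 : ℝ) ^ (n + m₀) * T (n + m₀) x) atTop (𝓝 0) := by
    have h3 := (ENNReal.tendsto_toReal ENNReal.zero_ne_top).comp h1
    refine (h3.congr fun n => ?_)
    simp only [Function.comp]
    rw [ENNReal.toReal_ofReal]
    exact mul_nonneg (by positivity) (nonneg _ (by omega) x hxA)
  exact (tendsto_add_atTop_iff_nat m₀).1 h2

/-- the data of the natural surface in sheared coordinates -/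
structure Sf (ν : V6 → ℝ) (S : Set V6) (K Λ : ℝ) (a b φ : ℝ → ℝ) : Prop where
  pr : Pr ν S
  K0 : 0 ≤ K
  lip : ∀ p q, |ν p - ν q| ≤ K * ‖p - q‖
  Λ0 : 0 ≤ Λ
  ma : Monotone a
  mb : Monotone b
  la : ∀ s t, |a s - a t| ≤ Λ * |s - t|
  lb : ∀ s t, |b s - b t| ≤ Λ * |s - t|
  lφ : ∀ s t, |φ s - φ t| ≤ 2 * Λ * |s - t|

section

variable {ν : V6 → ℝ} {S : Set V6} {K Λ : ℝ} {a b φ : ℝ → ℝ}

theorem Sf.cν (h : Sf ν S K Λ a b φ) : Continuous ν := by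
  have : LipschitzWith (Real.toNNReal K) ν := by
    apply LipschitzWith.of_dist_le_mul
    intro p q
    rw [Real.coe_toNNReal _ h.K0, Real.dist_eq, dist_eq_norm]
    exact h.lip p q
  exact this.continuous

theorem cont_of_lip {g : ℝ → ℝ} {L : ℝ} (hL : 0 ≤ L) (h : ∀ s t, |g s - g t| ≤ L * |s - t|) :
    Continuous g := by
  have : LipschitzWith (Real.toNNReal L) g := by
    apply LipschitzWith.of_dist_le_mul
    intro p q
    rw [Real.coe_toNNReal _ hL, Real.dist_eq, Real.dist_eq]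
    exact h p q
  exact this.continuous

theorem Sf.ca (h : Sf ν S K Λ a b φ) : Continuous a := cont_of_lip h.Λ0 h.la
theorem Sf.cb (h : Sf ν S K Λ a b φ) : Continuous b := cont_of_lip h.Λ0 h.lb
theorem Sf.cφ (h : Sf ν S K Λ a b φ) : Continuous φ :=
  cont_of_lip (by have := h.Λ0; positivity) h.lφ

theorem cont_X {α : Type*} [TopologicalSpace α] {f g k : α → ℝ} (hf : Continuous f)
    (hg : Continuous g) (hk : Continuous k) : Continuous fun x => X (f x) (g x) (k x) := by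
  refine continuous_pi fun i => ?_
  fin_cases i
  · exact (hk.add hf).add hg
  · exact hk.add hg
  · exact hk
  · exact hk.add hf
  · exact hf
  · exact hg

theorem cont_w45 {α : Type*} [TopologicalSpace α] {f g : α → ℝ} (hf : Continuous f)
    (hg : Continuous g) : Continuous fun x => w45 (f x) (g x) := by
  refine continuous_pi fun i => ?_
  fin_cases i
  · exact continuous_const
  · exact continuous_const
  · exact continuous_const
  · exact continuous_const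
  · exact hf
  · exact hg

theorem cont_Inc {α : Type*} [TopologicalSpace α] {ν : V6 → ℝ} (hν : Continuous ν)
    {d p : α → V6} (hd : Continuous d) (hp : Continuous p) :
    Continuous fun x => Inc ν (d x) (p x) := by
  unfold Inc
  exact (hν.comp hp).sub (hν.comp (hp.add hd))

theorem norm_w45 {R : ℝ} (hR : 0 ≤ R) : ‖w45 R R‖ ≤ R := by
  rw [pi_norm_le_iff_of_nonneg hR]
  refine forall6 ?_ ?_ ?_ ?_ ?_ ?_ <;> simp [abs_of_nonneg hR, hR]

theorem norm_smul_e {s : ℝ} (hs : 0 ≤ s) (i : Fin 6) : ‖s • e i‖ ≤ s := by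
  rw [pi_norm_le_iff_of_nonneg hs]
  intro j
  rw [Pi.smul_apply, smul_eq_mul, e]
  by_cases h : j = i
  · subst h; simp [abs_of_nonneg hs]
  · simp [h, hs]

theorem Sf.inc_le (h : Sf ν S K Λ a b φ) (d p : V6) : |Inc ν d p| ≤ K * ‖d‖ := by
  have := h.lip p (p + d)
  rwa [sub_add_cancel_left, norm_neg] at this

/-- the `(4,5)`-defect -/
noncomputable def MJ (ν : V6 → ℝ) (a b φ : ℝ → ℝ) (δ ρ R : ℝ) (x : ℝ × ℝ) : ℝ :=
  Inc ν (w45 R R) (X (a (x.1 - δ)) (b (x.1 - δ)) (x.2 - φ (x.1 - δ) - ρ))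
    - Inc ν (w45 R R) (X (a (x.1 - δ)) (b (x.1 - δ)) (x.2 - φ (x.1 - δ) + ρ))

/-- the base point -/
def Y (a b φ : ℝ → ℝ) (x : ℝ × ℝ) : V6 := X (a x.1) (b x.1) (x.2 - φ x.1)

theorem Y_shift (a b φ : ℝ → ℝ) (x : ℝ × ℝ) (δ ρ : ℝ) :
    X (a (x.1 - δ)) (b (x.1 - δ)) (x.2 - φ (x.1 - δ) + ρ) =
      Y a b φ x + X (a (x.1 - δ) - a x.1) (b (x.1 - δ) - b x.1) (φ x.1 - φ (x.1 - δ) + ρ) := by
  rw [Y, X_add]; congr 1 <;> ring

theorem Y_shift' (a b φ : ℝ → ℝ) (x : ℝ × ℝ) (δ ρ : ℝ) :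
    X (a (x.1 - δ)) (b (x.1 - δ)) (x.2 - φ (x.1 - δ) - ρ) =
      Y a b φ x + X (a (x.1 - δ) - a x.1) (b (x.1 - δ) - b x.1) (φ x.1 - φ (x.1 - δ) - ρ) := by
  rw [Y, X_add]; congr 1 <;> ring

theorem Sf.small (h : Sf ν S K Λ a b φ) {δ D : ℝ} (hD : Λ * |δ| ≤ D) (x : ℝ) :
    |a (x - δ) - a x| ≤ D ∧ |b (x - δ) - b x| ≤ D ∧ |φ x - φ (x - δ)| ≤ 2 * D := by
  have e1 : |x - δ - x| = |δ| := by rw [show x - δ - x = -δ by ring, abs_neg]
  have e2 : |x - (x - δ)| = |δ| := by congr 1; ring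
  refine ⟨(h.la _ _).trans (by rw [e1]; exact hD), (h.lb _ _).trans (by rw [e1]; exact hD),
    (h.lφ _ _).trans (by rw [e2]; linarith)⟩

/-- the `(4,5)`-defect is nonnegative -/
theorem Sf.MJ_nonneg (h : Sf ν S K Λ a b φ) {x : ℝ × ℝ} {r D δ ρ R : ℝ} (hρ : 0 ≤ ρ)
    (hR : 0 ≤ R) (hD : Λ * |δ| ≤ D) (hS : ∀ c ∈ LB r, Y a b φ x + c ∈ S)
    (hr : 4 * D + ρ + R ≤ r) :
    0 ≤ Inc ν (w45 R R) (X (a (x.1 - δ)) (b (x.1 - δ)) (x.2 - φ (x.1 - δ) + ρ)) ∧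
    0 ≤ MJ ν a b φ δ ρ R x := by
  obtain ⟨h1, h2, h3⟩ := h.small hD x.1
  have hD0 : 0 ≤ D := (abs_nonneg _).trans h1
  obtain ⟨l1, u1⟩ := abs_le.1 h1
  obtain ⟨l2, u2⟩ := abs_le.1 h2
  obtain ⟨l3, u3⟩ := abs_le.1 h3
  have m1 : X (a (x.1 - δ)) (b (x.1 - δ)) (x.2 - φ (x.1 - δ) - ρ) ∈ S := by
    rw [Y_shift']; apply hS; mm6
  have m2 : X (a (x.1 - δ)) (b (x.1 - δ)) (x.2 - φ (x.1 - δ) + ρ) ∈ S := by
    rw [Y_shift]; apply hS; mm6
  have m3 : X (a (x.1 - δ)) (b (x.1 - δ)) (x.2 - φ (x.1 - δ) - ρ) + w45 R R ∈ S := by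
    rw [Y_shift', add_assoc]; apply hS; mm6
  have m4 : X (a (x.1 - δ)) (b (x.1 - δ)) (x.2 - φ (x.1 - δ) + ρ) + w45 R R ∈ S := by
    rw [Y_shift, add_assoc]; apply hS; mm6
  refine ⟨h.pr.nonneg m2 m4 (w45_nonneg hR hR), ?_⟩
  have := h.pr.sub m1 m2 m3 m4 (by ll6) (w45_nonneg hR hR)
    (forall6 (Or.inl rfl) (Or.inl rfl) (Or.inl rfl) (Or.inl rfl) (Or.inr rfl) (Or.inr rfl))
  unfold MJ; linarith

theorem Sf.meas_MJ (h : Sf ν S K Λ a b φ) (δ ρ R : ℝ) : Measurable (MJ ν a b φ δ ρ R) := by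
  have ca := h.ca
  have cb := h.cb
  have cφ := h.cφ
  unfold MJ
  refine Continuous.measurable ?_
  refine (cont_Inc h.cν continuous_const (cont_X ?_ ?_ ?_)).sub
    (cont_Inc h.cν continuous_const (cont_X ?_ ?_ ?_)) <;> fun_prop

theorem Sf.int_MJ (h : Sf ν S K Λ a b φ) {r D δ ρ R τ₀ τ₁ s₀ s₁ : ℝ} (hρ : 0 ≤ ρ)
    (hR : 0 ≤ R) (hD : Λ * |δ| ≤ D) (hτ : τ₀ ≤ τ₁) (hs : s₀ ≤ s₁)
    (hS : ∀ x ∈ Rc τ₀ τ₁ s₀ s₁, ∀ c ∈ LB r, Y a b φ x + c ∈ S)
    (hr : 4 * D + ρ + R ≤ r) :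
    ∫⁻ x in Rc τ₀ τ₁ s₀ s₁, ENNReal.ofReal (MJ ν a b φ δ ρ R x)
      ≤ ENNReal.ofReal (K * R * (2 * ρ * (τ₁ - τ₀))) := by
  have ca := h.ca
  have cb := h.cb
  have cφ := h.cφ
  have key := lint_shift2 (A := Rc τ₀ τ₁ s₀ s₁) (measurableSet_Rc _ _ _ _)
    (by rw [vol_Rc]; exact ENNReal.mul_ne_top ENNReal.ofReal_ne_top ENNReal.ofReal_ne_top)
    ((0, 2 * ρ) : ℝ × ℝ)
    (G := fun x => ENNReal.ofReal
      (Inc ν (w45 R R) (X (a (x.1 - δ)) (b (x.1 - δ)) (x.2 - φ (x.1 - δ) - ρ))))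
    (D := fun x => ENNReal.ofReal (MJ ν a b φ δ ρ R x))
    (D' := fun _ => 0)
    (by
      refine Measurable.ennreal_ofReal (Continuous.measurable ?_)
      refine cont_Inc h.cν continuous_const (cont_X ?_ ?_ ?_) <;> fun_prop)
    measurable_const (g := ENNReal.ofReal (K * R)) ENNReal.ofReal_ne_top
    (by
      intro x hx
      obtain ⟨n1, n2⟩ := h.MJ_nonneg hρ hR hD (hS x hx) hr
      simp only [Prod.fst_add, Prod.snd_add, add_zero]
      have e1 : x.2 + 2 * ρ - φ (x.1 - δ) - ρ = x.2 - φ (x.1 - δ) + ρ := by ring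
      rw [e1, ← ENNReal.ofReal_add n2 n1]
      apply ENNReal.ofReal_le_ofReal
      unfold MJ; linarith)
    (by
      intro x _
      apply ENNReal.ofReal_le_ofReal
      exact (le_abs_self _).trans ((h.inc_le _ _).trans
        (mul_le_mul_of_nonneg_left (norm_w45 hR) h.K0)))
    (by
      intro x _
      apply ENNReal.ofReal_le_ofReal
      exact (le_abs_self _).trans ((h.inc_le _ _).trans
        (mul_le_mul_of_nonneg_left (norm_w45 hR) h.K0)))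
  refine key.trans ?_
  rw [lintegral_zero, add_zero]
  have hKR : 0 ≤ K * R := mul_nonneg h.K0 hR
  rw [ENNReal.ofReal_mul hKR]
  gcongr
  refine (vol_Rc_diff hτ hs _).trans ?_
  apply ENNReal.ofReal_le_ofReal
  simp [abs_of_nonneg hρ]

end

end Crest.Agent.R138.Dl848
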