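import Crest.Agent.R138.Dl5_848

/-!
# R138: decoupling on the legal region, integral estimate for the directions 0 and 2 (helper848)
-/

set_option autoImplicit false

open MeasureTheory Filter Topology Set
open scoped ENNReal

namespace Crest.Agent.R138.Dl848

open Crest.Agent.R138.Dec848 (Rc measurableSet_Rc vol_Rc preimage_Rc vol_Rc_diff lint_shift)

theorem Pr.tr {ν : V6 → ℝ} {S : Set V6} (h : Pr ν S) {x0 : V6} {r : ℝ}
    (hS : ∀ c ∈ LB r, x0 + c ∈ S) : Pr (fun c => ν (x0 + c)) (LB r) := by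
  refine ⟨fun p hp q hq hpq => h.anti _ (hS p hp) _ (hS q hq) (by gcongr),
    fun p hp q hq h1 h2 => ?_⟩
  have e1 : (x0 + p) ⊓ (x0 + q) = x0 + (p ⊓ q) := by
    ext i; simp only [Pi.inf_apply, Pi.add_apply]; exact min_add_add_left _ _ _
  have e2 : (x0 + p) ⊔ (x0 + q) = x0 + (p ⊔ q) := by
    ext i; simp only [Pi.sup_apply, Pi.add_apply]; exact max_add_add_left _ _ _
  have := h.sup _ (hS p hp) _ (hS q hq) (by rw [e1]; exact hS _ h1) (by rw [e2]; exact hS _ h2)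
  rwa [e1, e2] at this

theorem Inc_tr (ν : V6 → ℝ) (x0 d c : V6) : Inc (fun c => ν (x0 + c)) d c = Inc ν d (x0 + c) := by
  unfold Inc; rw [add_assoc]

/-- increments at natural boxes with raised levels -/
noncomputable def GU (ν : V6 → ℝ) (a b φ : ℝ → ℝ) (i : Fin 6) (N R δ : ℝ) (x : ℝ × ℝ) : ℝ :=
  Inc ν ((2 * N) • e i)
    (X (a (x.1 - δ)) (b (x.1 - δ)) (x.2 - φ (x.1 - δ)) + w45 R R + (-N) • e i)

/-- increments at natural boxes with levels relative to the base point -/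
noncomputable def VU (ν : V6 → ℝ) (a b φ : ℝ → ℝ) (i : Fin 6) (N R δ : ℝ) (x : ℝ × ℝ) : ℝ :=
  Inc ν ((2 * N) • e i)
    (Y a b φ x + pt i (a (x.1 - δ) - a x.1) (b (x.1 - δ) - b x.1) (φ x.1 - φ (x.1 - δ))
      (R - (a (x.1 - δ) - a x.1)) (R - (b (x.1 - δ) - b x.1)) (-N))

section

variable {ν : V6 → ℝ} {S : Set V6} {K Λ : ℝ} {a b φ : ℝ → ℝ}

/-- the admissible cases -/
def Case (a b φ : ℝ → ℝ) (i : Fin 6) (δ : ℝ) : Prop :=
  (i = 2 ∧ (∀ s, φ s = 0) ∧ 0 ≤ δ) ∨ (i = 0 ∧ (∀ s, φ s = a s + b s) ∧ δ ≤ 0)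

theorem Sf.U_bound (h : Sf ν S K Λ a b φ) {x : ℝ × ℝ} {i : Fin 6} {r D δ N R : ℝ}
    (hc : Case a b φ i δ) (hN : 0 ≤ N) (hD : Λ * |δ| ≤ D)
    (hS : ∀ c ∈ LB r, Y a b φ x + c ∈ S) (hR : D + 2 * N ≤ R) (hr : 4 * D + 4 * N + 4 * R ≤ r) :
    0 ≤ VU ν a b φ i N R δ x - VU ν a b φ i N R (-δ) x ∧
    0 ≤ GU ν a b φ i N (R + D) (-δ) x ∧
    VU ν a b φ i N R δ x - VU ν a b φ i N R (-δ) x ≤
      MJ ν a b φ δ N (R + D) x + (GU ν a b φ i N (R + D) δ x - GU ν a b φ i N (R + D) (-δ) x) := by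
  have hD' : Λ * |(-δ)| ≤ D := by rwa [abs_neg]
  obtain ⟨h1, h2, h3⟩ := h.small hD x.1
  obtain ⟨h1', h2', h3'⟩ := h.small hD' x.1
  have hD0 : 0 ≤ D := (abs_nonneg _).trans h1
  have hf := h.pr.tr hS
  have hi : i = 0 ∨ i = 2 := by
    rcases hc with hc | hc
    · exact Or.inr hc.1
    · exact Or.inl hc.1
  have hmono : (x.1 - δ ≤ x.1 - -δ ∧ i = 2 ∧ (∀ s, φ s = 0)) ∨
      (x.1 - -δ ≤ x.1 - δ ∧ i = 0 ∧ (∀ s, φ s = a s + b s)) := by
    rcases hc with hc | hc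
    · left; exact ⟨by linarith [hc.2.2], hc.1, hc.2.1⟩
    · right; exact ⟨by linarith [hc.2.2], hc.1, hc.2.1⟩
  have key := U_le hf hi (α1 := a (x.1 - δ) - a x.1) (β1 := b (x.1 - δ) - b x.1)
    (θ1 := φ x.1 - φ (x.1 - δ)) (α2 := a (x.1 - -δ) - a x.1) (β2 := b (x.1 - -δ) - b x.1)
    (θ2 := φ x.1 - φ (x.1 - -δ)) (N := N) (D := D) (R := R) hN h1 h2 h3 h1' h2' h3'
    (by
      rcases hmono with ⟨hm, _, hφ⟩ | ⟨hm, _, hφ⟩
      · rw [hφ, hφ, hφ]; linarith [h.ma hm, h.mb hm]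
      · rw [hφ, hφ, hφ]; linarith)
    (by
      rcases hmono with ⟨hm, _, hφ⟩ | ⟨hm, _, hφ⟩
      · rw [hφ, hφ, hφ]; linarith [h.ma hm, h.mb hm]
      · rw [hφ, hφ, hφ]; linarith [h.ma hm, h.mb hm])
    (by
      rcases hmono with ⟨hm, _, hφ⟩ | ⟨hm, _, hφ⟩
      · rw [hφ, hφ, hφ]
      · rw [hφ, hφ, hφ]; linarith [h.ma hm, h.mb hm])
    (by
      rcases hmono with ⟨hm, _, hφ⟩ | ⟨hm, _, hφ⟩
      · rw [hφ, hφ, hφ]; linarith [h.ma hm, h.mb hm]
      · rw [hφ, hφ, hφ]; linarith [h.ma hm, h.mb hm])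
    (by
      rcases hmono with ⟨hm, rfl, hφ⟩ | ⟨hm, rfl, hφ⟩
      · rw [X_2, X_2, hφ, hφ, hφ]
      · rw [X_0, X_0, hφ, hφ, hφ]; ring)
    hR hr
  simp only [Inc_tr] at key
  have e1 : Y a b φ x + X (a (x.1 - δ) - a x.1) (b (x.1 - δ) - b x.1)
      (φ x.1 - φ (x.1 - δ) - N) = X (a (x.1 - δ)) (b (x.1 - δ)) (x.2 - φ (x.1 - δ) - N) :=
    (Y_shift' a b φ x δ N).symm
  have e2 : Y a b φ x + X (a (x.1 - δ) - a x.1) (b (x.1 - δ) - b x.1)
      (φ x.1 - φ (x.1 - δ) + N) = X (a (x.1 - δ)) (b (x.1 - δ)) (x.2 - φ (x.1 - δ) + N) :=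
    (Y_shift a b φ x δ N).symm
  have e3 : ∀ δ' : ℝ, Y a b φ x + pt i (a (x.1 - δ') - a x.1) (b (x.1 - δ') - b x.1)
      (φ x.1 - φ (x.1 - δ')) (R + D) (R + D) (-N) =
      X (a (x.1 - δ')) (b (x.1 - δ')) (x.2 - φ (x.1 - δ')) + w45 (R + D) (R + D) + (-N) • e i := by
    intro δ'
    have := Y_shift a b φ x δ' 0
    rw [add_zero, add_zero] at this
    rw [pt, this, add_assoc, add_assoc, add_assoc]
  rw [e1, e2, e3, e3] at key
  refine ⟨key.1, ?_, key.2⟩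
  -- nonnegativity of the far increment
  unfold GU
  rw [← e3]
  have hsN : |(-N)| ≤ N := by rw [abs_neg, abs_of_nonneg hN]
  have hsN' : |(-N + 2 * N)| ≤ N := by
    rw [show -N + 2 * N = N by ring, abs_of_nonneg hN]
  apply h.pr.nonneg
  · apply hS
    exact pt_mem hi h1' h2' h3' hsN (by linarith) (by linarith) (by linarith) (by linarith)
      (by linarith)
  · rw [add_assoc, pt_add]
    apply hS
    exact pt_mem hi h1' h2' h3' hsN' (by linarith) (by linarith) (by linarith) (by linarith)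
      (by linarith)
  · exact e_nonneg (by linarith) i

theorem Sf.meas_GU (h : Sf ν S K Λ a b φ) (i : Fin 6) (N R δ : ℝ) :
    Measurable (GU ν a b φ i N R δ) := by
  have ca := h.ca
  have cb := h.cb
  have cφ := h.cφ
  unfold GU
  refine Continuous.measurable ?_
  refine cont_Inc h.cν continuous_const (((cont_X ?_ ?_ ?_).add continuous_const).add
    continuous_const) <;> fun_prop

theorem Sf.meas_VU (h : Sf ν S K Λ a b φ) (i : Fin 6) (N R δ : ℝ) :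
    Measurable (VU ν a b φ i N R δ) := by
  have ca := h.ca
  have cb := h.cb
  have cφ := h.cφ
  unfold VU Y pt
  refine Continuous.measurable ?_
  refine cont_Inc h.cν continuous_const ((cont_X ?_ ?_ ?_).add (((cont_X ?_ ?_ ?_).add
    (cont_w45 ?_ ?_)).add continuous_const)) <;> fun_prop

theorem Sf.int_U (h : Sf ν S K Λ a b φ) {i : Fin 6} {r D δ N R τ₀ τ₁ s₀ s₁ : ℝ}
    (hc : Case a b φ i δ) (hN : 0 ≤ N) (hD : Λ * |δ| ≤ D) (hτ : τ₀ ≤ τ₁) (hs : s₀ ≤ s₁)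
    (hS : ∀ x ∈ Rc τ₀ τ₁ s₀ s₁, ∀ c ∈ LB r, Y a b φ x + c ∈ S)
    (hR : D + 2 * N ≤ R) (hr : 4 * D + 4 * N + 4 * R ≤ r) :
    ∫⁻ x in Rc τ₀ τ₁ s₀ s₁,
        ENNReal.ofReal (VU ν a b φ i N R δ x - VU ν a b φ i N R (-δ) x)
      ≤ ENNReal.ofReal (K * (2 * N) * (2 * |δ| * (s₁ - s₀)) +
        K * (R + D) * (2 * N * (τ₁ - τ₀))) := by
  have hD0 : 0 ≤ D := le_trans (mul_nonneg h.Λ0 (abs_nonneg _)) hD
  have hRD : 0 ≤ R + D := by linarith
  have h2N : 0 ≤ 2 * N := by linarith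
  have key := lint_shift2 (A := Rc τ₀ τ₁ s₀ s₁) (measurableSet_Rc _ _ _ _)
    (by rw [vol_Rc]; exact ENNReal.mul_ne_top ENNReal.ofReal_ne_top ENNReal.ofReal_ne_top)
    ((2 * δ, 0) : ℝ × ℝ)
    (G := fun x => ENNReal.ofReal (GU ν a b φ i N (R + D) δ x))
    (D := fun x => ENNReal.ofReal (VU ν a b φ i N R δ x - VU ν a b φ i N R (-δ) x))
    (D' := fun x => ENNReal.ofReal (MJ ν a b φ δ N (R + D) x))
    (h.meas_GU _ _ _ _).ennreal_ofReal
    (h.meas_MJ _ _ _).ennreal_ofReal (g := ENNReal.ofReal (K * (2 * N))) ENNReal.ofReal_ne_top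
    (by
      intro x hx
      obtain ⟨n1, n2, n3⟩ := h.U_bound hc hN hD (hS x hx) hR hr
      have e1 : GU ν a b φ i N (R + D) δ (x + (2 * δ, 0)) = GU ν a b φ i N (R + D) (-δ) x := by
        unfold GU
        simp only [Prod.fst_add, Prod.snd_add, add_zero]
        rw [show x.1 + 2 * δ - δ = x.1 - -δ by ring]
      rw [e1, ← ENNReal.ofReal_add n1 n2]
      refine le_trans (ENNReal.ofReal_le_ofReal ?_) ENNReal.ofReal_add_le
      linarith)
    (by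
      intro x _
      apply ENNReal.ofReal_le_ofReal
      exact (le_abs_self _).trans ((h.inc_le _ _).trans
        (mul_le_mul_of_nonneg_left (norm_smul_e h2N i) h.K0)))
    (by
      intro x _
      apply ENNReal.ofReal_le_ofReal
      exact (le_abs_self _).trans ((h.inc_le _ _).trans
        (mul_le_mul_of_nonneg_left (norm_smul_e h2N i) h.K0)))
  refine key.trans ?_
  have hKN : 0 ≤ K * (2 * N) := mul_nonneg h.K0 h2N
  have p1 : 0 ≤ s₁ - s₀ := by linarith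
  have p2 : 0 ≤ τ₁ - τ₀ := by linarith
  have hKR : 0 ≤ K * (R + D) := mul_nonneg h.K0 hRD
  rw [ENNReal.ofReal_add (by positivity) (by positivity)]
  refine add_le_add ?_ (h.int_MJ hN hRD hD hτ hs hS (by linarith))
  rw [ENNReal.ofReal_mul hKN]
  gcongr
  refine (vol_Rc_diff hτ hs _).trans ?_
  apply ENNReal.ofReal_le_ofReal
  simp [abs_mul]

end

end Crest.Agent.R138.Dl848
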