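import Crest.Agent.R138.Dec3_848

/-!
# R138: almost additive interval functions have derivatives (helper848)
-/

set_option autoImplicit false

open MeasureTheory Filter Topology Set

namespace Crest.Agent.R138.Dl848

open Crest.Agent.R138.Dec848 (UF UF_le exists_tendsto_UF)

section

variable {m δ : ℝ → ℝ → ℝ} {C u₀ u₁ w₀ : ℝ}

/-- comparison of averages of small increments with a large increment -/
theorem avg_compare (hC : 0 ≤ C) (hcont : ∀ w, Continuous (m w))
    (bd : ∀ w ∈ Ioc 0 w₀, ∀ u ∈ Icc u₀ (u₁ + w₀), 0 ≤ m w u ∧ m w u ≤ C * w)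
    (split : ∀ w ∈ Ioc 0 w₀, ∀ u ∈ Icc u₀ u₁, ∀ s ∈ Ioc 0 w, ∀ σ ∈ Icc 0 s, ∀ n : ℕ,
      σ + n * s ≤ w → w ≤ σ + (n + 2) * s →
      |m w u - ∑ j ∈ Finset.range n, m s (u + σ + j * s)| ≤ δ w u + 4 * C * s)
    {w u s : ℝ} (hw : w ∈ Ioc 0 w₀) (hu : u ∈ Icc u₀ u₁) (hs : s ∈ Ioc 0 w) :
    |(1 / s) * (∫ τ in u..(u + w), m s τ) - m w u| ≤ δ w u + 6 * C * s := by
  have hs0 : 0 < s := hs.1
  obtain ⟨n, hn1, hn2⟩ : ∃ n : ℕ, s + n * s ≤ w ∧ w ≤ (n + 2) * s := by
    have h1 : 1 ≤ w / s := by rw [le_div_iff₀ hs0]; linarith [hs.2]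
    obtain ⟨k, hk⟩ : ∃ k, ⌊w / s⌋₊ = k + 1 := by
      have : 1 ≤ ⌊w / s⌋₊ := Nat.one_le_floor_iff _ |>.2 h1
      exact ⟨⌊w / s⌋₊ - 1, by omega⟩
    refine ⟨k, ?_, ?_⟩
    · have := Nat.floor_le (show 0 ≤ w / s by positivity)
      rw [hk, le_div_iff₀ hs0] at this
      push_cast at this; linarith
    · have := Nat.lt_floor_add_one (w / s)
      rw [hk, div_lt_iff₀ hs0] at this
      push_cast at this; linarith
  have hii : ∀ a b : ℝ, IntervalIntegrable (m s) volume a b :=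
    fun a b => (hcont s).intervalIntegrable a b
  have hns : (n : ℝ) * s ≤ w := by linarith
  have hn0 : (0 : ℝ) ≤ n * s := by positivity
  have hsw0 : s ∈ Ioc 0 w₀ := ⟨hs.1, hs.2.trans hw.2⟩
  have hsplit : (∫ τ in u..(u + w), m s τ) =
      (∫ σ in (0:ℝ)..s, ∑ j ∈ Finset.range n, m s (u + σ + j * s)) +
        ∫ τ in (u + n * s)..(u + w), m s τ := by
    have h1 : (∫ τ in u..(u + n * s), m s τ) =
        ∑ j ∈ Finset.range n, ∫ τ in (u + (j : ℝ) * s)..(u + ((j + 1 : ℕ) : ℝ) * s), m s τ := by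
      have := intervalIntegral.sum_integral_adjacent_intervals (f := m s) (μ := volume)
        (a := fun j : ℕ => u + (j : ℝ) * s) (n := n) (fun j _ => hii _ _)
      simp only [Nat.cast_zero, zero_mul, add_zero] at this
      rw [← this]
    have h2 : ∀ j : ℕ, (∫ τ in (u + (j : ℝ) * s)..(u + ((j + 1 : ℕ) : ℝ) * s), m s τ) =
        ∫ σ in (0:ℝ)..s, m s (u + σ + j * s) := by
      intro j
      have := intervalIntegral.integral_comp_add_right (a := 0) (b := s) (m s) (u + (j : ℝ) * s)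
      rw [zero_add] at this
      rw [show u + ((j + 1 : ℕ) : ℝ) * s = s + (u + (j : ℝ) * s) by push_cast; ring, ← this]
      congr 1; ext σ; congr 1; ring
    rw [← intervalIntegral.integral_add_adjacent_intervals (hii u (u + n * s)) (hii _ _), h1]
    congr 1
    rw [intervalIntegral.integral_finsetSum]
    · exact Finset.sum_congr rfl fun j _ => h2 j
    · intro j _
      exact ((hcont s).comp (by fun_prop)).intervalIntegrable _ _
  have hpt : ∀ σ ∈ Icc (0:ℝ) s,
      |m w u - ∑ j ∈ Finset.range n, m s (u + σ + j * s)| ≤ δ w u + 4 * C * s := by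
    intro σ hσ
    exact split w hw u hu s hs σ hσ n (by linarith [hσ.2]) (by linarith [hσ.1])
  have hF : Continuous fun σ => ∑ j ∈ Finset.range n, m s (u + σ + j * s) := by
    refine continuous_finsetSum _ fun j _ => ?_
    exact (hcont s).comp (by fun_prop)
  have hlow : s * (m w u - (δ w u + 4 * C * s)) ≤
      ∫ σ in (0:ℝ)..s, ∑ j ∈ Finset.range n, m s (u + σ + j * s) := by
    have := intervalIntegral.integral_mono_on (μ := volume) hs0.le
      (intervalIntegrable_const (c := m w u - (δ w u + 4 * C * s)))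
      (hF.intervalIntegrable 0 s) (fun σ hσ => by
        have := (abs_le.1 (hpt σ hσ)).2; linarith)
    rw [intervalIntegral.integral_const] at this
    simpa using this
  have hupp : (∫ σ in (0:ℝ)..s, ∑ j ∈ Finset.range n, m s (u + σ + j * s)) ≤
      s * (m w u + (δ w u + 4 * C * s)) := by
    have := intervalIntegral.integral_mono_on (μ := volume) hs0.le
      (hF.intervalIntegrable 0 s)
      (intervalIntegrable_const (c := m w u + (δ w u + 4 * C * s)))
      (fun σ hσ => by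
        have := (abs_le.1 (hpt σ hσ)).1; linarith)
    rw [intervalIntegral.integral_const] at this
    simpa using this
  have hmem : ∀ τ ∈ Icc (u + n * s) (u + w), τ ∈ Icc u₀ (u₁ + w₀) := by
    intro τ hτ
    exact ⟨by linarith [hτ.1, hu.1], by linarith [hτ.2, hu.2, hw.2]⟩
  have hrem0 : 0 ≤ ∫ τ in (u + n * s)..(u + w), m s τ := by
    apply intervalIntegral.integral_nonneg (by linarith)
    intro τ hτ
    exact (bd s hsw0 τ (hmem τ hτ)).1
  have hrem1 : (∫ τ in (u + n * s)..(u + w), m s τ) ≤ s * (2 * C * s) := by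
    have h5 := intervalIntegral.integral_mono_on (μ := volume) (show u + n * s ≤ u + w by linarith)
      (hii _ _) (intervalIntegrable_const (c := C * s)) (fun τ hτ => (bd s hsw0 τ (hmem τ hτ)).2)
    rw [intervalIntegral.integral_const] at h5
    refine h5.trans ?_
    simp only [smul_eq_mul]
    have h6 : (u + w - (u + n * s)) ≤ 2 * s := by linarith
    have h0 : 0 ≤ C * s := by positivity
    nlinarith
  rw [hsplit, mul_add]
  have u1 : (1 / s) * (∫ σ in (0:ℝ)..s, ∑ j ∈ Finset.range n, m s (u + σ + j * s)) ≤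
      m w u + (δ w u + 4 * C * s) := by
    rw [one_div, inv_mul_le_iff₀ hs0]; exact hupp
  have u2 : m w u - (δ w u + 4 * C * s) ≤
      (1 / s) * (∫ σ in (0:ℝ)..s, ∑ j ∈ Finset.range n, m s (u + σ + j * s)) := by
    rw [one_div, le_inv_mul_iff₀ hs0]; exact hlow
  have u3 : 0 ≤ (1 / s) * ∫ τ in (u + n * s)..(u + w), m s τ := by positivity
  have u4 : (1 / s) * (∫ τ in (u + n * s)..(u + w), m s τ) ≤ 2 * C * s := by
    rw [one_div, inv_mul_le_iff₀ hs0]; exact hrem1
  have hCs : 0 ≤ C * s := by positivity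
  rw [abs_le]
  constructor <;> linarith

/-- the additive function behind an almost additive interval function -/
theorem exists_V (hC : 0 ≤ C) (hw₀ : 0 < w₀) (hu : u₀ ≤ u₁) (hcont : ∀ w, Continuous (m w))
    (bd : ∀ w ∈ Ioc 0 w₀, ∀ u ∈ Icc u₀ (u₁ + w₀), 0 ≤ m w u ∧ m w u ≤ C * w)
    (split : ∀ w ∈ Ioc 0 w₀, ∀ u ∈ Icc u₀ u₁, ∀ s ∈ Ioc 0 w, ∀ σ ∈ Icc 0 s, ∀ n : ℕ,
      σ + n * s ≤ w → w ≤ σ + (n + 2) * s →
      |m w u - ∑ j ∈ Finset.range n, m s (u + σ + j * s)| ≤ δ w u + 4 * C * s) :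
    ∃ V : ℝ → ℝ, (∀ p ∈ Icc u₀ (u₁ + w₀), ∀ q ∈ Icc u₀ (u₁ + w₀), p ≤ q →
        0 ≤ V q - V p ∧ V q - V p ≤ C * (q - p)) ∧
      ∀ w ∈ Ioc 0 w₀, ∀ u ∈ Icc u₀ u₁, |V (u + w) - V u - m w u| ≤ δ w u := by
  set s : ℕ → ℝ := fun n => w₀ / ((n : ℝ) + 1) with hs
  have spos : ∀ n, 0 < s n := fun n => by positivity
  have sle : ∀ n, s n ≤ w₀ := fun n => by
    simp only [hs]
    rw [div_le_iff₀ (by positivity)]
    have : (0:ℝ) ≤ n := Nat.cast_nonneg n
    nlinarith
  have s0 : Tendsto s atTop (𝓝 0) := by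
    simp only [hs]
    have := (tendsto_one_div_add_atTop_nhds_zero_nat (𝕜 := ℝ)).const_mul w₀
    rw [mul_zero] at this
    refine this.congr fun n => ?_
    ring
  set J : ℕ → ℝ → ℝ := fun n τ => (1 / s n) * ∫ y in u₀..τ, m (s n) y with hJ
  have hJd : ∀ n, ∀ a b, J n b - J n a = (1 / s n) * ∫ y in a..b, m (s n) y := by
    intro n a b
    simp only [hJ]
    rw [← mul_sub, intervalIntegral.integral_interval_sub_left
      ((hcont _).intervalIntegrable _ _) ((hcont _).intervalIntegrable _ _)]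
  have hJb : ∀ n, ∀ a ∈ Icc u₀ (u₁ + w₀), ∀ b ∈ Icc u₀ (u₁ + w₀), a ≤ b →
      0 ≤ J n b - J n a ∧ J n b - J n a ≤ C * (b - a) := by
    intro n a ha b hb hab
    rw [hJd]
    have hsn : s n ∈ Ioc 0 w₀ := ⟨spos n, sle n⟩
    have hm : ∀ y ∈ Icc a b, y ∈ Icc u₀ (u₁ + w₀) := fun y hy =>
      ⟨ha.1.trans hy.1, hy.2.trans hb.2⟩
    have h1 : 0 ≤ ∫ y in a..b, m (s n) y := by
      apply intervalIntegral.integral_nonneg hab
      intro y hy
      exact (bd _ hsn y (hm y hy)).1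
    have h2 : (∫ y in a..b, m (s n) y) ≤ (b - a) * (C * s n) := by
      have := intervalIntegral.integral_mono_on (μ := volume) hab
        ((hcont (s n)).intervalIntegrable _ _)
        (intervalIntegrable_const (c := C * s n)) (fun y hy => (bd _ hsn y (hm y hy)).2)
      rw [intervalIntegral.integral_const] at this
      simpa using this
    have hsn' := spos n
    refine ⟨by positivity, ?_⟩
    rw [one_div, inv_mul_le_iff₀ hsn']
    linarith
  have hJ0 : ∀ n, J n u₀ = 0 := by intro n; simp [hJ]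
  have hex : ∀ τ, ∃ x, τ ∈ Icc u₀ (u₁ + w₀) → Tendsto (fun n => J n τ) UF (𝓝 x) := by
    intro τ
    by_cases hτ : τ ∈ Icc u₀ (u₁ + w₀)
    · obtain ⟨x, hx⟩ := exists_tendsto_UF (f := fun n => J n τ) (K := C * (τ - u₀)) (by
        intro n
        have := hJb n u₀ ⟨le_rfl, by linarith⟩ τ hτ hτ.1
        rw [hJ0, sub_zero] at this
        rw [abs_le]; constructor <;> linarith [this.1, this.2])
      exact ⟨x, fun _ => hx⟩
    · exact ⟨0, fun h => absurd h hτ⟩
  choose I hI using hex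
  refine ⟨I, ?_, ?_⟩
  · intro a ha b hb hab
    have := (hI b hb).sub (hI a ha)
    exact ⟨ge_of_tendsto' this fun n => (hJb n a ha b hb hab).1,
      le_of_tendsto' this fun n => (hJb n a ha b hb hab).2⟩
  · intro w hw t ht
    have m1 : t + w ∈ Icc u₀ (u₁ + w₀) := ⟨by linarith [ht.1, hw.1], by linarith [ht.2, hw.2]⟩
    have m2 : t ∈ Icc u₀ (u₁ + w₀) := ⟨ht.1, by linarith [ht.2]⟩
    have hlim := (((hI _ m1).sub (hI _ m2)).sub_const (m w t)).abs
    have hlim2 : Tendsto (fun n => δ w t + 6 * C * s n) UF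
        (𝓝 (δ w t + 6 * C * 0)) :=
      ((s0.mono_left UF_le).const_mul (6 * C)).const_add _
    have hev : ∀ᶠ n in (UF : Filter ℕ), |J n (t + w) - J n t - m w t| ≤ δ w t + 6 * C * s n := by
      have hsm : ∀ᶠ n in (UF : Filter ℕ), s n < w := (s0.mono_left UF_le).eventually_lt_const hw.1
      filter_upwards [hsm] with n hn
      rw [hJd]
      exact avg_compare hC hcont bd split hw ht ⟨spos n, hn.le⟩
    have := le_of_tendsto_of_tendsto hlim hlim2 hev
    simpa using this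

/-- two-sided derivative at almost every point with small defects -/
theorem rate_line (hC : 0 ≤ C) (hw₀ : 0 < w₀) (hu : u₀ ≤ u₁) (hcont : ∀ w, Continuous (m w))
    (bd : ∀ w ∈ Ioc 0 w₀, ∀ u ∈ Icc u₀ (u₁ + w₀), 0 ≤ m w u ∧ m w u ≤ C * w)
    (split : ∀ w ∈ Ioc 0 w₀, ∀ u ∈ Icc u₀ u₁, ∀ s ∈ Ioc 0 w, ∀ σ ∈ Icc 0 s, ∀ n : ℕ,
      σ + n * s ≤ w → w ≤ σ + (n + 2) * s →
      |m w u - ∑ j ∈ Finset.range n, m s (u + σ + j * s)| ≤ δ w u + 4 * C * s) :
    ∀ᵐ u ∂(volume.restrict (Ioo u₀ u₁)),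
      Tendsto (fun w => δ w u / w) (𝓝[>] 0) (𝓝 0) →
      Tendsto (fun w => δ w (u - w) / w) (𝓝[>] 0) (𝓝 0) →
      ∃ ρ, Tendsto (fun w => m w u / w) (𝓝[>] 0) (𝓝 ρ) ∧
        Tendsto (fun w => m w (u - w) / w) (𝓝[>] 0) (𝓝 ρ) := by
  obtain ⟨V, hV1, hV2⟩ := exists_V hC hw₀ hu hcont bd split
  have hLip : LipschitzOnWith (Real.toNNReal C) V (Icc u₀ (u₁ + w₀)) := by
    apply LipschitzOnWith.of_dist_le_mul
    intro a ha b hb
    rw [Real.coe_toNNReal _ hC, Real.dist_eq, Real.dist_eq]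
    rcases le_total a b with h | h
    · have := hV1 a ha b hb h
      rw [abs_sub_comm, abs_of_nonneg this.1, abs_sub_comm, abs_of_nonneg (by linarith)]
      exact this.2
    · have := hV1 b hb a ha h
      rw [abs_of_nonneg this.1, abs_of_nonneg (by linarith)]
      exact this.2
  have hdiff := hLip.ae_differentiableWithinAt_of_mem_real
  have hall : ∀ᵐ t ∂(volume.restrict (Ioo u₀ u₁)), t ∈ Icc u₀ (u₁ + w₀) →
      DifferentiableWithinAt ℝ V (Icc u₀ (u₁ + w₀)) t := ae_restrict_of_ae hdiff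
  filter_upwards [hall, ae_restrict_mem measurableSet_Ioo] with t hdt htt h1 h2
  have hnh : Icc u₀ (u₁ + w₀) ∈ 𝓝 t := Icc_mem_nhds htt.1 (by linarith [htt.2])
  have hder := ((hdt ⟨htt.1.le, by linarith [htt.2]⟩).differentiableAt hnh).hasDerivAt
  set f' := deriv V t with hf'
  have hp : Tendsto (fun w : ℝ => (V (t + w) - V t) / w) (𝓝[≠] 0) (𝓝 f') := by
    have := hasDerivAt_iff_tendsto_slope_zero.1 hder
    refine this.congr fun w => ?_
    rw [smul_eq_mul]; ring
  have hpp : Tendsto (fun w : ℝ => (V (t + w) - V t) / w) (𝓝[>] 0) (𝓝 f') :=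
    hp.mono_left (nhdsWithin_mono _ fun w hw => ne_of_gt hw)
  have hpm : Tendsto (fun w : ℝ => (V t - V (t - w)) / w) (𝓝[>] 0) (𝓝 f') := by
    have hneg : Tendsto (fun w : ℝ => -w) (𝓝[>] 0) (𝓝[≠] 0) := by
      apply tendsto_nhdsWithin_iff.2
      constructor
      · have : Tendsto (fun w : ℝ => -w) (𝓝 0) (𝓝 (-0)) := (continuous_neg).tendsto 0
        rw [neg_zero] at this
        exact this.mono_left nhdsWithin_le_nhds
      · filter_upwards [self_mem_nhdsWithin] with w hw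
        have : (0:ℝ) < w := hw
        simp only [mem_compl_iff, mem_singleton_iff, neg_eq_zero]
        exact this.ne'
    refine (hp.comp hneg).congr fun w => ?_
    simp only [Function.comp]
    rw [← sub_eq_add_neg, div_neg, ← neg_div]
    congr 1; ring
  have hsmall : ∀ᶠ w : ℝ in 𝓝[>] 0, w < min w₀ (t - u₀) :=
    (tendsto_id.mono_left nhdsWithin_le_nhds).eventually_lt_const
      (lt_min hw₀ (by linarith [htt.1]))
  refine ⟨f', ?_, ?_⟩
  · have hz : Tendsto (fun w : ℝ => (V (t + w) - V t) / w - m w t / w) (𝓝[>] 0) (𝓝 0) := by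
      rw [tendsto_zero_iff_abs_tendsto_zero]
      refine squeeze_zero' (Filter.Eventually.of_forall fun w => abs_nonneg _) ?_ h1
      filter_upwards [hsmall, self_mem_nhdsWithin] with w hw1 hw2
      have hw2' : 0 < w := hw2
      have hw3 := lt_min_iff.1 hw1
      simp only [Function.comp]
      rw [← sub_div, abs_div, abs_of_pos hw2']
      exact div_le_div_of_nonneg_right (hV2 w ⟨hw2', hw3.1.le⟩ t ⟨htt.1.le, htt.2.le⟩) hw2'.le
    have := hpp.sub hz
    simpa using this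
  · have hz : Tendsto (fun w : ℝ => (V t - V (t - w)) / w - m w (t - w) / w) (𝓝[>] 0) (𝓝 0) := by
      rw [tendsto_zero_iff_abs_tendsto_zero]
      refine squeeze_zero' (Filter.Eventually.of_forall fun w => abs_nonneg _) ?_ h2
      filter_upwards [hsmall, self_mem_nhdsWithin] with w hw1 hw2
      have hw2' : 0 < w := hw2
      have hw3 := lt_min_iff.1 hw1
      simp only [Function.comp]
      rw [← sub_div, abs_div, abs_of_pos hw2']
      have := hV2 w ⟨hw2', hw3.1.le⟩ (t - w) ⟨by linarith [hw3.2], by linarith [htt.2]⟩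
      rw [sub_add_cancel] at this
      exact div_le_div_of_nonneg_right this hw2'.le
    have := hpm.sub hz
    simpa using this

end

end Crest.Agent.R138.Dl848
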