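import Crest.Agent.R138.Dl6_848

/-!
# R138: decoupling on the legal region, blow-ups (helper848)
-/

set_option autoImplicit false

open MeasureTheory Filter Topology Set
open scoped ENNReal

namespace Crest.Agent.R138.Dl848

/-- `g` is the blow-up of `ν` at `p0` along the scales `s` -/
def BU {α : Type*} (ν : V6 → ℝ) (p0 : V6) (l : Filter α) (s : α → ℝ) (g : V6 → ℝ) : Prop :=
  ∀ c, Tendsto (fun a => (ν (p0 + s a • c) - ν p0) / s a) l (𝓝 (g c))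

section

variable {α : Type*} {ν : V6 → ℝ} {K : ℝ} {p0 : V6} {s : α → ℝ} {g : V6 → ℝ}

theorem conv_var {l : Filter α} (hlip : ∀ p q, |ν p - ν q| ≤ K * ‖p - q‖)
    (hs : ∀ᶠ a in l, 0 < s a) {c : V6} {C : α → V6} (hC : Tendsto C l (𝓝 c)) {y : ℝ}
    (h : Tendsto (fun a => (ν (p0 + s a • c) - ν p0) / s a) l (𝓝 y)) :
    Tendsto (fun a => (ν (p0 + s a • C a) - ν p0) / s a) l (𝓝 y) := by
  have h1 : Tendsto (fun a => (ν (p0 + s a • C a) - ν p0) / s a -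
      (ν (p0 + s a • c) - ν p0) / s a) l (𝓝 0) := by
    rw [tendsto_zero_iff_abs_tendsto_zero]
    have h2 : Tendsto (fun a => K * ‖C a - c‖) l (𝓝 0) := by
      have := (tendsto_iff_norm_sub_tendsto_zero.1 hC).const_mul K
      rwa [mul_zero] at this
    refine squeeze_zero' (Filter.Eventually.of_forall fun _ => abs_nonneg _) ?_ h2
    filter_upwards [hs] with a ha
    simp only [Function.comp]
    rw [← sub_div, abs_div, abs_of_pos ha, div_le_iff₀ ha]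
    have := hlip (p0 + s a • C a) (p0 + s a • c)
    rw [add_sub_add_left_eq_sub, ← smul_sub, norm_smul, Real.norm_eq_abs, abs_of_pos ha] at this
    rw [show ν (p0 + s a • C a) - ν p0 - (ν (p0 + s a • c) - ν p0) =
      ν (p0 + s a • C a) - ν (p0 + s a • c) by ring]
    linarith
  have := h1.add h
  simpa using this

theorem BU.inc {l : Filter α} (hg : BU ν p0 l s g) (hlip : ∀ p q, |ν p - ν q| ≤ K * ‖p - q‖)
    (hs : ∀ᶠ a in l, 0 < s a) {c d : V6} {C D : α → V6} (hC : Tendsto C l (𝓝 c))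
    (hD : Tendsto D l (𝓝 d)) :
    Tendsto (fun a => Inc ν (s a • D a) (p0 + s a • C a) / s a) l (𝓝 (Inc g d c)) := by
  have h1 := conv_var hlip hs hC (hg c)
  have h2 := conv_var hlip hs (hC.add hD) (hg (c + d))
  refine (h1.sub h2).congr fun a => ?_
  unfold Inc
  rw [← sub_div, smul_add, add_assoc]
  congr 1; ring

theorem exists_BU (U : Ultrafilter α) (hlip : ∀ p q, |ν p - ν q| ≤ K * ‖p - q‖)
    (hs : ∀ᶠ a in (U : Filter α), 0 < s a) : ∃ g, BU ν p0 U s g := by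
  have : ∀ c : V6, ∃ y, Tendsto (fun a => (ν (p0 + s a • c) - ν p0) / s a) U (𝓝 y) := by
    intro c
    have hc : IsCompact (Set.Icc (-(K * ‖c‖)) (K * ‖c‖)) := isCompact_Icc
    have h1 : (↑(U.map fun a => (ν (p0 + s a • c) - ν p0) / s a) : Filter ℝ) ≤
        𝓟 (Set.Icc (-(K * ‖c‖)) (K * ‖c‖)) := by
      rw [le_principal_iff]
      change ∀ᶠ a in (U : Filter α), (ν (p0 + s a • c) - ν p0) / s a ∈
        Set.Icc (-(K * ‖c‖)) (K * ‖c‖)
      filter_upwards [hs] with a ha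
      apply abs_le.1
      rw [abs_div, abs_of_pos ha, div_le_iff₀ ha]
      have := hlip (p0 + s a • c) p0
      rw [add_sub_cancel_left, norm_smul, Real.norm_eq_abs, abs_of_pos ha] at this
      linarith
    obtain ⟨x, _, hx2⟩ := hc.ultrafilter_le_nhds _ h1
    exact ⟨x, hx2⟩
  choose g hg using this
  exact ⟨g, hg⟩

theorem BU.zero {l : Filter α} [l.NeBot] (hg : BU ν p0 l s g) : g 0 = 0 := by
  have := hg 0
  simp only [smul_zero, add_zero, sub_self, zero_div] at this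
  exact tendsto_nhds_unique this tendsto_const_nhds

/-- the blow-up of a profile is a profile -/
theorem BU.pr {S : Set V6} {l : Filter α} [l.NeBot] (hg : BU ν p0 l s g) (hν : Pr ν S) {r : ℝ}
    (hr : 0 < r) (hS : ∀ c ∈ LB r, p0 + c ∈ S) (hs : ∀ᶠ a in l, 0 < s a)
    (hs0 : Tendsto s l (𝓝 0)) : Pr g LEG := by
  have mem : ∀ c ∈ LEG, ∀ᶠ a in l, p0 + s a • c ∈ S := by
    intro c hc
    obtain ⟨M, hM0, hM⟩ := exists_bound c 0
    have h1 : ∀ᶠ a in l, s a < r / (M + 1) := hs0.eventually_lt_const (by positivity)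
    filter_upwards [hs, h1] with a ha1 ha2
    apply hS
    refine ⟨LEG_smul ha1.le hc, fun i => ?_⟩
    rw [Pi.smul_apply, smul_eq_mul, abs_mul, abs_of_pos ha1]
    have h2 := (hM i).1
    rw [lt_div_iff₀ (by linarith)] at ha2
    nlinarith [abs_nonneg (c i)]
  refine ⟨fun p hp q hq hpq => ?_, fun p hp q hq h1 h2 => ?_⟩
  · refine le_of_tendsto_of_tendsto (hg q) (hg p) ?_
    filter_upwards [hs, mem p hp, mem q hq] with a ha m1 m2
    have := hν.anti _ m1 _ m2 (by gcongr)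
    exact div_le_div_of_nonneg_right (by linarith) ha.le
  · refine le_of_tendsto_of_tendsto ((hg p).add (hg q)) ((hg _).add (hg _)) ?_
    filter_upwards [hs, mem p hp, mem q hq, mem _ h1, mem _ h2] with a ha m1 m2 m3 m4
    have e1 : (p0 + s a • p) ⊓ (p0 + s a • q) = p0 + s a • (p ⊓ q) := by
      ext i
      simp only [Pi.inf_apply, Pi.add_apply, Pi.smul_apply, smul_eq_mul]
      rw [mul_min_of_nonneg _ _ ha.le]
      exact min_add_add_left _ _ _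
    have e2 : (p0 + s a • p) ⊔ (p0 + s a • q) = p0 + s a • (p ⊔ q) := by
      ext i
      simp only [Pi.sup_apply, Pi.add_apply, Pi.smul_apply, smul_eq_mul]
      rw [mul_max_of_nonneg _ _ ha.le]
      exact max_add_add_left _ _ _
    have := hν.sup _ m1 _ m2 (by rw [e1]; exact m3) (by rw [e2]; exact m4)
    rw [e1, e2] at this
    rw [← add_div, ← add_div]
    exact div_le_div_of_nonneg_right (by linarith) ha.le

end

theorem tendsto_X {α : Type*} {l : Filter α} {f g k : α → ℝ} {x y z : ℝ}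
    (hf : Tendsto f l (𝓝 x)) (hg : Tendsto g l (𝓝 y)) (hk : Tendsto k l (𝓝 z)) :
    Tendsto (fun a => X (f a) (g a) (k a)) l (𝓝 (X x y z)) := by
  rw [tendsto_pi_nhds]
  refine forall6 ?_ ?_ ?_ ?_ ?_ ?_
  · exact (hk.add hf).add hg
  · exact hk.add hg
  · exact hk
  · exact hk.add hf
  · exact hf
  · exact hg

theorem tendsto_w45 {α : Type*} {l : Filter α} {f g : α → ℝ} {x y : ℝ}
    (hf : Tendsto f l (𝓝 x)) (hg : Tendsto g l (𝓝 y)) :
    Tendsto (fun a => w45 (f a) (g a)) l (𝓝 (w45 x y)) := by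
  rw [tendsto_pi_nhds]
  refine forall6 ?_ ?_ ?_ ?_ ?_ ?_
  · exact tendsto_const_nhds
  · exact tendsto_const_nhds
  · exact tendsto_const_nhds
  · exact tendsto_const_nhds
  · exact hf
  · exact hg

theorem hd_pos (m : ℕ) : 0 < (1 / 2 : ℝ) ^ m := by positivity

theorem hd_tendsto : Tendsto (fun m : ℕ => (1 / 2 : ℝ) ^ m) atTop (𝓝 0) :=
  tendsto_pow_atTop_nhds_zero_of_lt_one (by norm_num) (by norm_num)

theorem two_hd (m : ℕ) : (2 : ℝ) ^ m * (1 / 2 : ℝ) ^ m = 1 := by rw [← mul_pow]; norm_num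

/-- difference quotients -/
theorem slope_conv {α : Type*} {l : Filter α} {s : α → ℝ} (hs : ∀ᶠ a in l, 0 < s a)
    (hs0 : Tendsto s l (𝓝 0)) {f : ℝ → ℝ} {f' τ : ℝ} (hf : HasDerivAt f f' τ) (u : ℝ) :
    Tendsto (fun a => (f (τ + u * s a) - f τ) / s a) l (𝓝 (f' * u)) := by
  rcases eq_or_ne u 0 with hu | hu
  · subst hu
    simpa using tendsto_const_nhds
  · have h1 := hasDerivAt_iff_tendsto_slope_zero.1 hf
    have h2 : Tendsto (fun a => u * s a) l (𝓝[≠] 0) := by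
      apply tendsto_nhdsWithin_iff.2
      refine ⟨?_, ?_⟩
      · have := hs0.const_mul u
        rwa [mul_zero] at this
      · filter_upwards [hs] with a ha
        exact mul_ne_zero hu ha.ne'
    have h3 := (h1.comp h2).const_mul u
    rw [mul_comm u f'] at h3
    refine h3.congr' ?_
    filter_upwards [hs] with a ha
    simp only [Function.comp, smul_eq_mul]
    field_simp

section

variable {ν : V6 → ℝ} {S : Set V6} {K Λ : ℝ} {a b : ℝ → ℝ}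

/-- dyadic smallness of the defects at a point -/
structure Dy (ν : V6 → ℝ) (a b : ℝ → ℝ) (τ t : ℝ) : Prop where
  mj : ∀ n N R : ℕ, Tendsto (fun m : ℕ => (2 : ℝ) ^ m * MJ ν a b (fun _ => 0)
      (n * (1 / 2 : ℝ) ^ m) (N * (1 / 2 : ℝ) ^ m) (R * (1 / 2 : ℝ) ^ m) (τ, t)) atTop (𝓝 0)
  u2 : ∀ n N : ℕ, ∃ R₀ : ℝ, ∀ R : ℕ, R₀ ≤ R → Tendsto (fun m : ℕ => (2 : ℝ) ^ m *
      (VU ν a b (fun _ => 0) 2 (N * (1 / 2 : ℝ) ^ m) (R * (1 / 2 : ℝ) ^ m)
        (n * (1 / 2 : ℝ) ^ m) (τ, t)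
      - VU ν a b (fun _ => 0) 2 (N * (1 / 2 : ℝ) ^ m) (R * (1 / 2 : ℝ) ^ m)
        (-(n * (1 / 2 : ℝ) ^ m)) (τ, t))) atTop (𝓝 0)
  u0 : ∀ n N : ℕ, ∃ R₀ : ℝ, ∀ R : ℕ, R₀ ≤ R → Tendsto (fun m : ℕ => (2 : ℝ) ^ m *
      (VU ν a b (fun s => a s + b s) 0 (N * (1 / 2 : ℝ) ^ m) (R * (1 / 2 : ℝ) ^ m)
        (-(n * (1 / 2 : ℝ) ^ m)) (τ, t + (a τ + b τ))
      - VU ν a b (fun s => a s + b s) 0 (N * (1 / 2 : ℝ) ^ m) (R * (1 / 2 : ℝ) ^ m)
        (-(-(n * (1 / 2 : ℝ) ^ m))) (τ, t + (a τ + b τ)))) atTop (𝓝 0)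

/-- the limit of the `VU` increments -/
theorem VU_conv {φ : ℝ → ℝ} {U : Ultrafilter ℕ} (hU : (U : Filter ℕ) ≤ atTop)
    (hlip : ∀ p q, |ν p - ν q| ≤ K * ‖p - q‖) {τ t x y z : ℝ} {f : V6 → ℝ}
    (hf : BU ν (X (a τ) (b τ) t) U (fun m : ℕ => (1 / 2 : ℝ) ^ m) f)
    (hx : HasDerivAt a x τ) (hy : HasDerivAt b y τ) (hz : HasDerivAt φ z τ) (i : Fin 6)
    (N R u : ℝ) :
    Tendsto (fun m : ℕ => (2 : ℝ) ^ m * VU ν a b φ i (N * (1 / 2 : ℝ) ^ m)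
      (R * (1 / 2 : ℝ) ^ m) (-(u * (1 / 2 : ℝ) ^ m)) (τ, t + φ τ)) U
      (𝓝 (Inc f ((2 * N) • e i) (pt i (x * u) (y * u) (-(z * u)) (R - x * u) (R - y * u)
        (-N)))) := by
  have hs : ∀ᶠ m in (U : Filter ℕ), 0 < (1 / 2 : ℝ) ^ m := Filter.Eventually.of_forall hd_pos
  have hs0 : Tendsto (fun m : ℕ => (1 / 2 : ℝ) ^ m) U (𝓝 0) := hd_tendsto.mono_left hU
  have ha := slope_conv hs hs0 hx u
  have hb := slope_conv hs hs0 hy u
  have hφ := slope_conv hs hs0 hz u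
  have hC : Tendsto (fun m : ℕ => pt i ((a (τ + u * (1 / 2 : ℝ) ^ m) - a τ) / (1 / 2 : ℝ) ^ m)
      ((b (τ + u * (1 / 2 : ℝ) ^ m) - b τ) / (1 / 2 : ℝ) ^ m)
      (-((φ (τ + u * (1 / 2 : ℝ) ^ m) - φ τ) / (1 / 2 : ℝ) ^ m))
      (R - (a (τ + u * (1 / 2 : ℝ) ^ m) - a τ) / (1 / 2 : ℝ) ^ m)
      (R - (b (τ + u * (1 / 2 : ℝ) ^ m) - b τ) / (1 / 2 : ℝ) ^ m) (-N)) U
      (𝓝 (pt i (x * u) (y * u) (-(z * u)) (R - x * u) (R - y * u) (-N))) := by
    unfold pt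
    exact ((tendsto_X ha hb hφ.neg).add (tendsto_w45 (tendsto_const_nhds.sub ha)
      (tendsto_const_nhds.sub hb))).add tendsto_const_nhds
  have key := hf.inc hlip hs hC (tendsto_const_nhds (x := (2 * N) • e i))
  refine key.congr fun m => ?_
  have hm := hd_pos m
  have e1 : (1 / 2 : ℝ) ^ m • ((2 * N) • e i) = (2 * (N * (1 / 2 : ℝ) ^ m)) • e i := by
    rw [smul_smul]; congr 1; ring
  have e2 : X (a τ) (b τ) t + (1 / 2 : ℝ) ^ m •
      pt i ((a (τ + u * (1 / 2 : ℝ) ^ m) - a τ) / (1 / 2 : ℝ) ^ m)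
      ((b (τ + u * (1 / 2 : ℝ) ^ m) - b τ) / (1 / 2 : ℝ) ^ m)
      (-((φ (τ + u * (1 / 2 : ℝ) ^ m) - φ τ) / (1 / 2 : ℝ) ^ m))
      (R - (a (τ + u * (1 / 2 : ℝ) ^ m) - a τ) / (1 / 2 : ℝ) ^ m)
      (R - (b (τ + u * (1 / 2 : ℝ) ^ m) - b τ) / (1 / 2 : ℝ) ^ m) (-N) =
      Y a b φ (τ, t + φ τ) + pt i (a (τ - -(u * (1 / 2 : ℝ) ^ m)) - a τ)
        (b (τ - -(u * (1 / 2 : ℝ) ^ m)) - b τ) (φ τ - φ (τ - -(u * (1 / 2 : ℝ) ^ m)))
        (R * (1 / 2 : ℝ) ^ m - (a (τ - -(u * (1 / 2 : ℝ) ^ m)) - a τ))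
        (R * (1 / 2 : ℝ) ^ m - (b (τ - -(u * (1 / 2 : ℝ) ^ m)) - b τ))
        (-(N * (1 / 2 : ℝ) ^ m)) := by
    rw [sub_neg_eq_add]
    have hne := hm.ne'
    set h := (1 / 2 : ℝ) ^ m with hh
    unfold pt Y
    rw [smul_add, smul_add, X_smul, w45_smul, smul_smul]
    have f1 : h * ((a (τ + u * h) - a τ) / h) = a (τ + u * h) - a τ := by field_simp
    have f2 : h * ((b (τ + u * h) - b τ) / h) = b (τ + u * h) - b τ := by field_simp
    have f3 : h * -((φ (τ + u * h) - φ τ) / h) = φ τ - φ (τ + u * h) := by field_simp; ring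
    have f4 : h * (R - (a (τ + u * h) - a τ) / h) = R * h - (a (τ + u * h) - a τ) := by
      field_simp
    have f5 : h * (R - (b (τ + u * h) - b τ) / h) = R * h - (b (τ + u * h) - b τ) := by
      field_simp
    have f6 : h * -N = -(N * h) := by ring
    rw [f1, f2, f3, f4, f5, f6]
    simp
  rw [e1, e2]
  unfold VU
  rw [div_eq_iff hm.ne', mul_comm ((2 : ℝ) ^ m), mul_assoc, two_hd, mul_one]

/-- the dyadic blow-ups are decoupled -/
theorem Dy.good {τ t x y r : ℝ} (hD : Dy ν a b τ t) (hν : Pr ν S)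
    (hlip : ∀ p q, |ν p - ν q| ≤ K * ‖p - q‖) (hx : HasDerivAt a x τ) (hy : HasDerivAt b y τ)
    (hx0 : 0 < x) (hy0 : 0 < y) (hr : 0 < r) (hS : ∀ c ∈ LB r, X (a τ) (b τ) t + c ∈ S)
    {U : Ultrafilter ℕ} (hU : (U : Filter ℕ) ≤ atTop) {f : V6 → ℝ}
    (hf : BU ν (X (a τ) (b τ) t) U (fun m : ℕ => (1 / 2 : ℝ) ^ m) f) :
    Good3 f ∧ Good4 f 0 ∧ Good4 f 2 := by
  have hs : ∀ᶠ m in (U : Filter ℕ), 0 < (1 / 2 : ℝ) ^ m := Filter.Eventually.of_forall hd_pos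
  have hs0 : Tendsto (fun m : ℕ => (1 / 2 : ℝ) ^ m) U (𝓝 0) := hd_tendsto.mono_left hU
  have hpr : Pr f LEG := hf.pr hν hr hS hs hs0
  have hJ : ∀ n N R : ℕ, Inc f (w45 R R) (T x y (-n) (-N)) = Inc f (w45 R R) (T x y (-n) N) := by
    intro n N R
    have ha := slope_conv hs hs0 hx (-n)
    have hb := slope_conv hs hs0 hy (-n)
    have lim : ∀ N' : ℝ, Tendsto (fun m : ℕ => (2 : ℝ) ^ m *
        Inc ν (w45 (R * (1 / 2 : ℝ) ^ m) (R * (1 / 2 : ℝ) ^ m))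
          (X (a (τ - n * (1 / 2 : ℝ) ^ m)) (b (τ - n * (1 / 2 : ℝ) ^ m))
            (t + N' * (1 / 2 : ℝ) ^ m))) U (𝓝 (Inc f (w45 R R) (T x y (-n) N'))) := by
      intro N'
      have hC : Tendsto (fun m : ℕ => X ((a (τ + -n * (1 / 2 : ℝ) ^ m) - a τ) / (1 / 2 : ℝ) ^ m)
        ((b (τ + -n * (1 / 2 : ℝ) ^ m) - b τ) / (1 / 2 : ℝ) ^ m) N') U
        (𝓝 (T x y (-n) N')) := tendsto_X ha hb tendsto_const_nhds
      have key := hf.inc hlip hs hC (tendsto_const_nhds (x := w45 R R))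
      refine key.congr fun m => ?_
      have hm := hd_pos m
      have e2 : X (a τ) (b τ) t + (1 / 2 : ℝ) ^ m •
          X ((a (τ + -n * (1 / 2 : ℝ) ^ m) - a τ) / (1 / 2 : ℝ) ^ m)
          ((b (τ + -n * (1 / 2 : ℝ) ^ m) - b τ) / (1 / 2 : ℝ) ^ m) N' =
          X (a (τ - n * (1 / 2 : ℝ) ^ m)) (b (τ - n * (1 / 2 : ℝ) ^ m))
            (t + N' * (1 / 2 : ℝ) ^ m) := by
        rw [neg_mul, ← sub_eq_add_neg]
        set h := (1 / 2 : ℝ) ^ m with hh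
        have hne := hm.ne'
        have f1 : h * ((a (τ - n * h) - a τ) / h) = a (τ - n * h) - a τ := by field_simp
        have f2 : h * ((b (τ - n * h) - b τ) / h) = b (τ - n * h) - b τ := by field_simp
        rw [X_smul, X_add, f1, f2]
        congr 1 <;> ring
      rw [e2, w45_smul, mul_comm _ (R : ℝ), div_eq_iff hm.ne', mul_comm ((2 : ℝ) ^ m), mul_assoc,
        two_hd, mul_one]
    have l1 := lim (-N)
    have l2 := lim N
    have l3 := (hD.mj n N R).mono_left hU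
    have l4 := l1.sub l2
    have e3 : (fun m : ℕ => (2 : ℝ) ^ m * MJ ν a b (fun _ => 0)
      (n * (1 / 2 : ℝ) ^ m) (N * (1 / 2 : ℝ) ^ m) (R * (1 / 2 : ℝ) ^ m) (τ, t)) =
      fun m : ℕ => ((2 : ℝ) ^ m * Inc ν (w45 (R * (1 / 2 : ℝ) ^ m) (R * (1 / 2 : ℝ) ^ m))
          (X (a (τ - n * (1 / 2 : ℝ) ^ m)) (b (τ - n * (1 / 2 : ℝ) ^ m))
            (t + -N * (1 / 2 : ℝ) ^ m))) -
        (2 : ℝ) ^ m * Inc ν (w45 (R * (1 / 2 : ℝ) ^ m) (R * (1 / 2 : ℝ) ^ m))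
          (X (a (τ - n * (1 / 2 : ℝ) ^ m)) (b (τ - n * (1 / 2 : ℝ) ^ m))
            (t + N * (1 / 2 : ℝ) ^ m)) := by
      ext m
      unfold MJ
      rw [← mul_sub]
      simp only [sub_zero]
      rw [neg_mul, ← sub_eq_add_neg]
    rw [e3] at l3
    exact sub_eq_zero.1 (tendsto_nhds_unique l4 l3)
  have h2 : ∀ n N : ℕ, ∃ R₀ : ℝ, ∀ R : ℕ, R₀ ≤ R → ∀ u v : ℝ,
      u = (if (2 : Fin 6) = 0 then (n : ℝ) else -n) →
      v = (if (2 : Fin 6) = 0 then -((x + y) * n) else 0) →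
      Inc f ((2 * N : ℝ) • e 2) (pt 2 (x * u) (y * u) v (R - x * u) (R - y * u) (-N)) =
      Inc f ((2 * N : ℝ) • e 2) (pt 2 (x * (-u)) (y * (-u)) (-v) (R - x * (-u)) (R - y * (-u))
        (-N)) := by
    intro n N
    obtain ⟨R₀, hR₀⟩ := hD.u2 n N
    refine ⟨R₀, fun R hR u v hu hv => ?_⟩
    rw [if_neg (by decide)] at hu hv
    have l1 := VU_conv hU hlip hf hx hy (hasDerivAt_const τ (0 : ℝ)) 2 N R (-n)
    have l2 := VU_conv hU hlip hf hx hy (hasDerivAt_const τ (0 : ℝ)) 2 N R n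
    have l3 := (hR₀ R hR).mono_left hU
    have l4 := l1.sub l2
    have e3 : (fun m : ℕ => (2 : ℝ) ^ m *
      (VU ν a b (fun _ => 0) 2 (N * (1 / 2 : ℝ) ^ m) (R * (1 / 2 : ℝ) ^ m)
        (n * (1 / 2 : ℝ) ^ m) (τ, t)
      - VU ν a b (fun _ => 0) 2 (N * (1 / 2 : ℝ) ^ m) (R * (1 / 2 : ℝ) ^ m)
        (-(n * (1 / 2 : ℝ) ^ m)) (τ, t))) = fun m : ℕ =>
        (2 : ℝ) ^ m * VU ν a b (fun _ => 0) 2 (N * (1 / 2 : ℝ) ^ m) (R * (1 / 2 : ℝ) ^ m)
          (-(-n * (1 / 2 : ℝ) ^ m)) (τ, t + 0) -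
        (2 : ℝ) ^ m * VU ν a b (fun _ => 0) 2 (N * (1 / 2 : ℝ) ^ m) (R * (1 / 2 : ℝ) ^ m)
          (-(n * (1 / 2 : ℝ) ^ m)) (τ, t + 0) := by
      ext m
      rw [← mul_sub, add_zero, neg_mul, neg_neg]
    rw [e3] at l3
    have := sub_eq_zero.1 (tendsto_nhds_unique l4 l3)
    rw [hu, hv]
    simp only [zero_mul, neg_zero, neg_neg] at this ⊢
    exact this
  have h0 : ∀ n N : ℕ, ∃ R₀ : ℝ, ∀ R : ℕ, R₀ ≤ R → ∀ u v : ℝ,
      u = (if (0 : Fin 6) = 0 then (n : ℝ) else -n) →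
      v = (if (0 : Fin 6) = 0 then -((x + y) * n) else 0) →
      Inc f ((2 * N : ℝ) • e 0) (pt 0 (x * u) (y * u) v (R - x * u) (R - y * u) (-N)) =
      Inc f ((2 * N : ℝ) • e 0) (pt 0 (x * (-u)) (y * (-u)) (-v) (R - x * (-u)) (R - y * (-u))
        (-N)) := by
    intro n N
    obtain ⟨R₀, hR₀⟩ := hD.u0 n N
    refine ⟨R₀, fun R hR u v hu hv => ?_⟩
    rw [if_pos rfl] at hu hv
    have l1 := VU_conv hU hlip hf hx hy (hx.add hy) 0 N R n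
    have l2 := VU_conv hU hlip hf hx hy (hx.add hy) 0 N R (-n)
    have l3 := (hR₀ R hR).mono_left hU
    have l4 := l1.sub l2
    have e3 : (fun m : ℕ => (2 : ℝ) ^ m *
      (VU ν a b (fun s => a s + b s) 0 (N * (1 / 2 : ℝ) ^ m) (R * (1 / 2 : ℝ) ^ m)
        (-(n * (1 / 2 : ℝ) ^ m)) (τ, t + (a τ + b τ))
      - VU ν a b (fun s => a s + b s) 0 (N * (1 / 2 : ℝ) ^ m) (R * (1 / 2 : ℝ) ^ m)
        (-(-(n * (1 / 2 : ℝ) ^ m))) (τ, t + (a τ + b τ)))) = fun m : ℕ =>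
        (2 : ℝ) ^ m * VU ν a b (fun s => a s + b s) 0 (N * (1 / 2 : ℝ) ^ m)
          (R * (1 / 2 : ℝ) ^ m) (-(n * (1 / 2 : ℝ) ^ m)) (τ, t + (a τ + b τ)) -
        (2 : ℝ) ^ m * VU ν a b (fun s => a s + b s) 0 (N * (1 / 2 : ℝ) ^ m)
          (R * (1 / 2 : ℝ) ^ m) (-(-n * (1 / 2 : ℝ) ^ m)) (τ, t + (a τ + b τ)) := by
      ext m
      rw [← mul_sub, neg_mul]
    rw [e3] at l3
    have := sub_eq_zero.1 (tendsto_nhds_unique l4 l3)
    rw [hu, hv]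
    simp only [mul_neg, neg_neg] at this ⊢
    exact this
  refine ⟨fun c hc c' hc' h4 h5 r4 r5 hr4 hr5 => F3 hpr hx0 hy0 hJ hc hc' h4 h5 hr4 hr5,
    fun c hc c' hc' hi s hs hcs hcs' => F4' hpr hx0 hy0 hJ (Or.inl rfl) h0 hc hc' hi hs hcs hcs',
    fun c hc c' hc' hi s hs hcs hcs' => F4' hpr hx0 hy0 hJ (Or.inr rfl) h2 hc hc' hi hs hcs hcs'⟩

end

end Crest.Agent.R138.Dl848
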