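import Crest.Agent.R138.Dl8_848
import Crest.Agent.R138.Dl7_848

/-!
# R138: decoupling on the legal region, splitting of increments on lines (helper848)
-/

set_option autoImplicit false

open MeasureTheory Filter Topology Set
open scoped ENNReal

namespace Crest.Agent.R138.Dl848

section

variable {ν : V6 → ℝ} {S : Set V6} {K : ℝ}

/-- defect of the increments in the direction `i` -/
noncomputable def d1 (ν : V6 → ℝ) (α β : ℝ) (i : Fin 6) (w t : ℝ) : ℝ :=
  Inc ν (w • e i) (X α β t + w45 w w)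
    - Inc ν (w • e i) (X α β t + w45 w w + (X 0 0 w + (-w) • e i))

/-- defect of the `(4,5)`-increments -/
noncomputable def d2 (ν : V6 → ℝ) (α β : ℝ) (w t : ℝ) : ℝ :=
  Inc ν (w45 w w) (X α β t) - Inc ν (w45 w w) (X α β (t + w))

theorem inc_abs (hlip : ∀ p q, |ν p - ν q| ≤ K * ‖p - q‖) (d p : V6) : |Inc ν d p| ≤ K * ‖d‖ := by
  have := hlip p (p + d)
  rwa [sub_add_cancel_left, norm_neg] at this

theorem X_pt (i : Fin 6) (α β t u v : ℝ) :
    X α β (t + u) + w45 v v = X α β t + pt i 0 0 u v v 0 := by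
  unfold pt
  rw [zero_smul, add_zero, ← add_assoc, X_add, add_zero, add_zero]

theorem X_pt' (i : Fin 6) (α β t v : ℝ) :
    X α β t + w45 v v = X α β t + pt i 0 0 0 v v 0 := by
  rw [← X_pt, add_zero]

theorem split_t (hν : Pr ν S) (hlip : ∀ p q, |ν p - ν q| ≤ K * ‖p - q‖) (hK : 0 ≤ K) {i : Fin 6}
    (hi : i = 0 ∨ i = 2) {α β t w s σ r : ℝ} {n : ℕ} (hS : ∀ c ∈ LB r, X α β t + c ∈ S)
    (hw : 0 < w) (hwr : 8 * w ≤ r) (hs : s ∈ Ioc 0 w) (hσ : σ ∈ Icc 0 s)
    (h1 : σ + n * s ≤ w) (h2 : w ≤ σ + (n + 2) * s) :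
    |Inc ν (w • e i) (X α β t + w45 w w)
        - ∑ j ∈ Finset.range n, Inc ν (s • e i) (X α β (t + σ + j * s) + w45 s s)|
      ≤ d1 ν α β i w t + d2 ν α β w t + 4 * K * s := by
  obtain ⟨hs0, hsw⟩ := hs
  obtain ⟨hσ0, hσs⟩ := hσ
  set p0 := X α β t with hp0
  have mem : ∀ u v z : ℝ, 0 ≤ u → u ≤ w → s ≤ v → v ≤ w → |z| ≤ v →
      p0 + pt i 0 0 u v v z ∈ S := by
    intro u v z hu hu' hv hv' hz
    apply hS
    apply pt_mem hi (D := w) (N := v) (by rw [abs_zero]; exact hw.le)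
      (by rw [abs_zero]; exact hw.le) (by rw [abs_of_nonneg hu]; linarith) hz le_rfl le_rfl <;>
      linarith
  have adds : ∀ (u v z z' : ℝ), p0 + pt i 0 0 u v v z + z' • e i = p0 + pt i 0 0 u v v (z + z') := by
    intro u v z z'; rw [add_assoc, pt_add]
  have add45 : ∀ (u v z z' : ℝ), p0 + pt i 0 0 u v v z + w45 z' z' =
      p0 + pt i 0 0 u (v + z') (v + z') z := by
    intro u v z z'; rw [add_assoc, pt_add45]
  have dis : ∀ (u v z u' v' z' c : ℝ), u + z = u' + z' → ∀ j, (c • e i) j = 0 ∨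
      (p0 + pt i 0 0 u v v z) j = (p0 + pt i 0 0 u' v' v' z') j := by
    intro u v z u' v' z' c h
    unfold pt
    rcases hi with rfl | rfl
    · refine forall6 (Or.inr ?_) (Or.inl ?_) (Or.inl ?_) (Or.inl ?_) (Or.inl ?_) (Or.inl ?_) <;>
        co6
      linarith
    · refine forall6 (Or.inl ?_) (Or.inl ?_) (Or.inr ?_) (Or.inl ?_) (Or.inl ?_) (Or.inl ?_) <;>
        co6
      linarith
  have lle : ∀ (u v z u' v' z' : ℝ), u ≤ u' → u + z ≤ u' + z' → v ≤ v' →
      p0 + pt i 0 0 u v v z ≤ p0 + pt i 0 0 u' v' v' z' := by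
    intro u v z u' v' z' h h' h''
    refine add_le_add le_rfl ?_
    unfold pt
    rcases hi with rfl | rfl <;> ll6
  set FA : ℝ → ℝ := fun u => ν (p0 + pt i 0 0 0 w w u) with hFA
  set FC : ℝ → ℝ := fun u => ν (p0 + pt i 0 0 w w w (u - w)) with hFC
  set H : ℝ → ℝ := fun u => Inc ν (w45 (w - s) (w - s)) (p0 + pt i 0 0 u s s 0) with hH
  have hab : ∀ z : ℝ, 0 ≤ z → z ≤ w → |z| ≤ w := fun z h h' => by rwa [abs_of_nonneg h]
  have hab' : ∀ z : ℝ, 0 ≤ z → z ≤ w → |z - w| ≤ w := fun z h h' => by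
    rw [abs_le]; constructor <;> linarith
  -- monotonicity and Lipschitz
  have hFA' : ∀ u u', 0 ≤ u → u ≤ u' → u' ≤ w → 0 ≤ FA u - FA u' ∧ FA u - FA u' ≤ K * (u' - u) := by
    intro u u' h h' h''
    have hq : p0 + pt i 0 0 0 w w u' = p0 + pt i 0 0 0 w w u + (u' - u) • e i := by
      rw [adds]; congr 2; ring
    constructor
    · have := hν.anti _ (mem 0 w u le_rfl hw.le hsw le_rfl (hab u h (h'.trans h''))) _
        (mem 0 w u' le_rfl hw.le hsw le_rfl (hab u' (h.trans h') h''))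
        (lle _ _ _ _ _ _ le_rfl (by linarith) le_rfl)
      simp only [hFA]; linarith
    · have h3 := inc_abs hlip ((u' - u) • e i) (p0 + pt i 0 0 0 w w u)
      rw [Inc, ← hq] at h3
      refine (le_abs_self _).trans (h3.trans (mul_le_mul_of_nonneg_left ?_ hK))
      exact norm_smul_e (by linarith) i
  have hFC' : ∀ u u', 0 ≤ u → u ≤ u' → u' ≤ w → 0 ≤ FC u - FC u' ∧ FC u - FC u' ≤ K * (u' - u) := by
    intro u u' h h' h''
    have hq : p0 + pt i 0 0 w w w (u' - w) = p0 + pt i 0 0 w w w (u - w) + (u' - u) • e i := by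
      rw [adds]; congr 2; ring
    constructor
    · have := hν.anti _ (mem w w (u - w) hw.le le_rfl hsw le_rfl (hab' u h (h'.trans h''))) _
        (mem w w (u' - w) hw.le le_rfl hsw le_rfl (hab' u' (h.trans h') h''))
        (lle _ _ _ _ _ _ le_rfl (by linarith) le_rfl)
      simp only [hFC]; linarith
    · have h3 := inc_abs hlip ((u' - u) • e i) (p0 + pt i 0 0 w w w (u - w))
      rw [Inc, ← hq] at h3
      refine (le_abs_self _).trans (h3.trans (mul_le_mul_of_nonneg_left ?_ hK))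
      exact norm_smul_e (by linarith) i
  -- one step
  have step : ∀ u, 0 ≤ u → u + s ≤ w →
      FC u - FC (u + s) ≤ Inc ν (s • e i) (p0 + pt i 0 0 u s s 0) ∧
      Inc ν (s • e i) (p0 + pt i 0 0 u s s 0) ≤ FA u - FA (u + s) + (H u - H (u + s)) := by
    intro u hu hus
    have habs : |s| ≤ s := by rw [abs_of_pos hs0]
    have habs0 : ∀ v : ℝ, 0 ≤ v → |(0:ℝ)| ≤ v := fun v hv => by rw [abs_zero]; exact hv
    have a1 : FC u - FC (u + s) = Inc ν (s • e i) (p0 + pt i 0 0 w w w (u - w)) := by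
      simp only [hFC, Inc]
      rw [adds, show u - w + s = u + s - w by ring]
    have a2 : FA u - FA (u + s) = Inc ν (s • e i) (p0 + pt i 0 0 0 w w u) := by
      simp only [hFA, Inc]
      rw [adds]
    have m1 := mem u s 0 hu (by linarith) le_rfl hsw (habs0 s hs0.le)
    have m1' : p0 + pt i 0 0 u s s 0 + s • e i ∈ S := by
      rw [adds, zero_add]; exact mem u s s hu (by linarith) le_rfl hsw habs
    have m2 := mem u w 0 hu (by linarith) hsw le_rfl (habs0 w hw.le)
    have m2' : p0 + pt i 0 0 u w w 0 + s • e i ∈ S := by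
      rw [adds, zero_add]; exact mem u w s hu (by linarith) hsw le_rfl (by linarith)
    have m3 := mem w w (u - w) hw.le le_rfl hsw le_rfl (hab' u hu (by linarith))
    have m3' : p0 + pt i 0 0 w w w (u - w) + s • e i ∈ S := by
      rw [adds]; exact mem w w _ hw.le le_rfl hsw le_rfl (by rw [abs_le]; constructor <;> linarith)
    have m4 := mem 0 w u le_rfl hw.le hsw le_rfl (hab u hu (by linarith))
    have m4' : p0 + pt i 0 0 0 w w u + s • e i ∈ S := by
      rw [adds]; exact mem 0 w _ le_rfl hw.le hsw le_rfl (hab _ (by linarith) hus)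
    have es : (0 : V6) ≤ s • e i := e_nonneg hs0.le i
    constructor
    · rw [a1]
      exact hν.sub m1 m3 m1' m3' (lle _ _ _ _ _ _ (by linarith) (by linarith) hsw) es
        (dis _ _ _ _ _ _ _ (by ring))
    · -- through the level w
      have b1 : Inc ν (s • e i) (p0 + pt i 0 0 u w w 0) ≤ FA u - FA (u + s) := by
        rw [a2]
        exact hν.sub m4 m2 m4' m2' (lle _ _ _ _ _ _ hu (by linarith) le_rfl) es
          (dis _ _ _ _ _ _ _ (by ring))
      have sw := Inc_swap ν (s • e i) (w45 (w - s) (w - s)) (p0 + pt i 0 0 u s s 0)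
      rw [add45, show s + (w - s) = w by ring] at sw
      have hws : 0 ≤ w - s := by linarith
      have m5 := mem (u + s) s 0 (by linarith) hus le_rfl hsw (habs0 s hs0.le)
      have m5' : p0 + pt i 0 0 (u + s) s s 0 + w45 (w - s) (w - s) ∈ S := by
        rw [add45, show s + (w - s) = w by ring]
        exact mem (u + s) w 0 (by linarith) hus hsw le_rfl (habs0 w hw.le)
      have m6' : p0 + pt i 0 0 u s s 0 + s • e i + w45 (w - s) (w - s) ∈ S := by
        rw [add_right_comm, add45, show s + (w - s) = w by ring]; exact m2'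
      have b2 : H (u + s) ≤
          Inc ν (w45 (w - s) (w - s)) (p0 + pt i 0 0 u s s 0 + s • e i) := by
        simp only [hH]
        refine hν.sub m1' m5 m6' m5' ?_ (w45_nonneg hws hws) ?_
        · rw [adds]; exact lle _ _ _ _ _ _ (by linarith) (by linarith) le_rfl
        · rw [adds]
          unfold pt
          rcases hi with rfl | rfl <;>
          · refine forall6 (Or.inl ?_) (Or.inl ?_) (Or.inl ?_) (Or.inl ?_) (Or.inr ?_)
              (Or.inr ?_) <;> co6
      have b3 : H u = Inc ν (w45 (w - s) (w - s)) (p0 + pt i 0 0 u s s 0) := rfl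
      linarith
  -- sums
  have hsum : FC σ - FC (σ + n * s) ≤
      ∑ j ∈ Finset.range n, Inc ν (s • e i) (X α β (t + σ + j * s) + w45 s s) ∧
      ∑ j ∈ Finset.range n, Inc ν (s • e i) (X α β (t + σ + j * s) + w45 s s) ≤
        (FA σ - FA (σ + n * s)) + (H σ - H (σ + n * s)) := by
    clear h2
    induction n with
    | zero => simp
    | succ n ih =>
      push_cast at h1 ⊢
      have h1' : σ + n * s ≤ w := by linarith
      obtain ⟨i1, i2⟩ := ih h1'
      have hn0 : 0 ≤ (n : ℝ) * s := by positivity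
      obtain ⟨j1, j2⟩ := step (σ + n * s) (by linarith) (by linarith)
      rw [Finset.sum_range_succ]
      have e1 : X α β (t + σ + n * s) + w45 s s = p0 + pt i 0 0 (σ + n * s) s s 0 := by
        rw [add_assoc t, X_pt i]
      have e2 : σ + (n + 1) * s = σ + n * s + s := by ring
      rw [e1, e2]
      constructor <;> linarith
  have hn0 : 0 ≤ (n : ℝ) * s := by positivity
  -- the ends
  have c1 := hFC' 0 σ le_rfl hσ0 (by linarith)
  have c2 := hFC' (σ + n * s) w (by linarith) h1 le_rfl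
  have c3 := hFA' 0 σ le_rfl hσ0 (by linarith)
  have c4 := hFA' (σ + n * s) w (by linarith) h1 le_rfl
  have em : Inc ν (w • e i) (p0 + w45 w w) = FA 0 - FA w := by
    rw [hp0, X_pt' i, ← hp0, Inc, adds, zero_add]
  have ed1 : d1 ν α β i w t = (FA 0 - FA w) - (FC 0 - FC w) := by
    rw [d1, ← hp0, em]
    congr 1
    have e1 : p0 + w45 w w + (X 0 0 w + (-w) • e i) = p0 + pt i 0 0 w w w (0 - w) := by
      unfold pt; rw [zero_sub, add_assoc]; congr 1
      rw [← add_assoc, add_comm (w45 w w)]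
    rw [e1, Inc, adds]
    simp only [hFC]
    congr 4; ring
  -- nonnegativity of d1
  have hd1 : 0 ≤ d1 ν α β i w t := by
    have e1 : p0 + w45 w w + (X 0 0 w + (-w) • e i) = p0 + pt i 0 0 w w w (-w) := by
      unfold pt; rw [add_assoc]; congr 1
      rw [← add_assoc, add_comm (w45 w w)]
    rw [d1, ← hp0, e1]
    rw [hp0, X_pt' i, ← hp0]
    have m1 := mem 0 w 0 le_rfl hw.le hsw le_rfl (by rw [abs_zero]; exact hw.le)
    have m2 := mem w w (-w) hw.le le_rfl hsw le_rfl (by rw [abs_neg, abs_of_pos hw])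
    have m1' : p0 + pt i 0 0 0 w w 0 + w • e i ∈ S := by
      rw [adds]
      exact mem 0 w _ le_rfl hw.le hsw le_rfl (by rw [zero_add, abs_of_pos hw])
    have m2' : p0 + pt i 0 0 w w w (-w) + w • e i ∈ S := by
      rw [adds]
      exact mem w w _ hw.le le_rfl hsw le_rfl (by rw [neg_add_cancel, abs_zero]; exact hw.le)
    have := hν.sub m1 m2 m1' m2' (lle _ _ _ _ _ _ hw.le (by linarith) le_rfl) (e_nonneg hw.le i)
      (dis _ _ _ _ _ _ _ (by ring))
    linarith
  -- the (4,5)-part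
  have hHmono : ∀ u u', 0 ≤ u → u ≤ u' → u' ≤ w → H u' ≤ H u := by
    intro u u' h h' h''
    have hws : 0 ≤ w - s := by linarith
    have m1 := mem u s 0 h (by linarith) le_rfl hsw (by rw [abs_zero]; exact hs0.le)
    have m2 := mem u' s 0 (by linarith) h'' le_rfl hsw (by rw [abs_zero]; exact hs0.le)
    have m1' : p0 + pt i 0 0 u s s 0 + w45 (w - s) (w - s) ∈ S := by
      rw [add45, show s + (w - s) = w by ring]
      exact mem u w 0 h (by linarith) hsw le_rfl (by rw [abs_zero]; exact hw.le)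
    have m2' : p0 + pt i 0 0 u' s s 0 + w45 (w - s) (w - s) ∈ S := by
      rw [add45, show s + (w - s) = w by ring]
      exact mem u' w 0 (by linarith) h'' hsw le_rfl (by rw [abs_zero]; exact hw.le)
    refine hν.sub m1 m2 m1' m2' (lle _ _ _ _ _ _ h' (by linarith) le_rfl) (w45_nonneg hws hws) ?_
    unfold pt
    rcases hi with rfl | rfl <;>
    · refine forall6 (Or.inl ?_) (Or.inl ?_) (Or.inl ?_) (Or.inl ?_) (Or.inr ?_)
        (Or.inr ?_) <;> co6
  have hHd : H 0 - H w ≤ d2 ν α β w t := by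
    have hws : 0 ≤ w - s := by linarith
    have mX : ∀ u, 0 ≤ u → u ≤ w → X α β (t + u) ∈ S := by
      intro u hu hu'
      have : X α β (t + u) = p0 + X 0 0 u := by rw [hp0, X_add, add_zero, add_zero]
      rw [this]
      apply hS
      mm6
    have mXv : ∀ u v, 0 ≤ u → u ≤ w → 0 ≤ v → v ≤ w → X α β (t + u) + w45 v v ∈ S := by
      intro u v hu hu' hv hv'
      have : X α β (t + u) + w45 v v = p0 + (X 0 0 u + w45 v v) := by
        rw [hp0, ← add_assoc, X_add, add_zero, add_zero]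
      rw [this]
      apply hS
      mm6
    have e0 : X α β t = X α β (t + 0) := by rw [add_zero]
    have key := hν.mix (p := X α β (t + 0)) (q := X α β (t + w)) (d1 := w45 s s)
      (d := w45 (w - s) (w - s)) (d2 := 0) (mX 0 le_rfl hw.le) (mX w hw.le le_rfl)
      (mXv 0 s le_rfl hw.le hs0.le hsw) (mXv w s hw.le le_rfl hs0.le hsw)
      (by rw [add_assoc, w45_add, show s + (w - s) = w by ring]
          exact mXv 0 w le_rfl hw.le hw.le le_rfl)
      (by rw [add_assoc, w45_add, show s + (w - s) = w by ring]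
          exact mXv w w hw.le le_rfl hw.le le_rfl)
      (by rw [add_zero, add_assoc, w45_add, show s + (w - s) = w by ring]
          exact mXv 0 w le_rfl hw.le hw.le le_rfl)
      (by rw [add_zero, add_assoc, w45_add, show s + (w - s) = w by ring]
          exact mXv w w hw.le le_rfl hw.le le_rfl)
      (by ll6) (w45_nonneg hs0.le hs0.le) le_rfl
      (forall6 (Or.inl ⟨rfl, rfl, rfl⟩) (Or.inl ⟨rfl, rfl, rfl⟩) (Or.inl ⟨rfl, rfl, rfl⟩)
        (Or.inl ⟨rfl, rfl, rfl⟩) (Or.inr rfl) (Or.inr rfl))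
    rw [add_zero, w45_add, show s + (w - s) = w by ring] at key
    unfold d2
    have e1 : H 0 = Inc ν (w45 (w - s) (w - s)) (X α β (t + 0) + w45 s s) := by
      rw [X_pt i]
    have e2 : H w = Inc ν (w45 (w - s) (w - s)) (X α β (t + w) + w45 s s) := by
      rw [X_pt i]
    rw [e1, e2, e0]
    rw [e0] at key
    simp only [add_zero] at key ⊢
    exact key
  have q1 := hHmono 0 σ le_rfl hσ0 (by linarith)
  have q2 := hHmono (σ + n * s) w (by linarith) h1 le_rfl
  have q3 := hHmono 0 w le_rfl hw.le le_rfl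
  rw [em]
  have hKs : K * (σ - 0) ≤ K * s := mul_le_mul_of_nonneg_left (by linarith) hK
  have hKs2 : K * (w - (σ + n * s)) ≤ K * (2 * s) := mul_le_mul_of_nonneg_left (by linarith) hK
  have hKs0 : 0 ≤ K * s := mul_nonneg hK hs0.le
  rw [abs_le]
  constructor
  · linarith [hsum.2]
  · linarith [hsum.1]

/-- defect of the `(4,5)`-increments, along the surface -/
noncomputable def dJ (ν : V6 → ℝ) (a b : ℝ → ℝ) (Λ t : ℝ) (w τ : ℝ) : ℝ :=
  Inc ν (w45 (Λ * w) (Λ * w)) (X (a τ) (b τ) t)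
    - Inc ν (w45 (Λ * w) (Λ * w)) (X (a τ) (b τ) (t + 2 * Λ * w))

/-- natural `(4,5)`-increment -/
noncomputable def mJ (ν : V6 → ℝ) (a b : ℝ → ℝ) (t : ℝ) (w τ : ℝ) : ℝ :=
  Inc ν (w45 (a (τ + w) - a τ) (b (τ + w) - b τ)) (X (a τ) (b τ) t)

theorem norm_w45' {u v R : ℝ} (hu : |u| ≤ R) (hv : |v| ≤ R) : ‖w45 u v‖ ≤ R := by
  have hR : 0 ≤ R := (abs_nonneg _).trans hu
  rw [pi_norm_le_iff_of_nonneg hR]
  refine forall6 ?_ ?_ ?_ ?_ ?_ ?_ <;> simp [hR, hu, hv]

theorem split_J (hν : Pr ν S) (hlip : ∀ p q, |ν p - ν q| ≤ K * ‖p - q‖) (hK : 0 ≤ K)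
    {a b : ℝ → ℝ} {Λ : ℝ} (hΛ : 0 ≤ Λ) (ma : Monotone a) (mb : Monotone b)
    (la : ∀ s t, |a s - a t| ≤ Λ * |s - t|) (lb : ∀ s t, |b s - b t| ≤ Λ * |s - t|)
    {τ t w s σ r : ℝ} {n : ℕ} (hS : ∀ c ∈ LB r, X (a τ) (b τ) t + c ∈ S)
    (hw : 0 < w) (hwr : 8 * (Λ * w) ≤ r) (hs : s ∈ Ioc 0 w) (hσ : σ ∈ Icc 0 s)
    (h1 : σ + n * s ≤ w) (h2 : w ≤ σ + (n + 2) * s) :
    |mJ ν a b t w τ - ∑ j ∈ Finset.range n, mJ ν a b t s (τ + σ + j * s)|
      ≤ dJ ν a b Λ t w τ + 4 * (K * Λ) * s := by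
  obtain ⟨hs0, hsw⟩ := hs
  obtain ⟨hσ0, hσs⟩ := hσ
  have hΛw : 0 ≤ Λ * w := by positivity
  have inca : ∀ u u', u ≤ u' → 0 ≤ a u' - a u ∧ a u' - a u ≤ Λ * (u' - u) := by
    intro u u' h
    have := la u' u
    rw [abs_of_nonneg (by linarith : 0 ≤ u' - u)] at this
    exact ⟨by linarith [ma h], (le_abs_self _).trans this⟩
  have incb : ∀ u u', u ≤ u' → 0 ≤ b u' - b u ∧ b u' - b u ≤ Λ * (u' - u) := by
    intro u u' h
    have := lb u' u
    rw [abs_of_nonneg (by linarith : 0 ≤ u' - u)] at this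
    exact ⟨by linarith [mb h], (le_abs_self _).trans this⟩
  have hbw : ∀ u, u ≤ w → Λ * u ≤ Λ * w := fun u h => mul_le_mul_of_nonneg_left h hΛ
  -- memberships
  have mem : ∀ α β θ α' β' : ℝ, 0 ≤ α → α ≤ Λ * w → 0 ≤ β → β ≤ Λ * w → 0 ≤ θ →
      θ ≤ 2 * (Λ * w) → 0 ≤ α' → α' ≤ Λ * w → 0 ≤ β' → β' ≤ Λ * w →
      X (a τ) (b τ) t + (X α β θ + w45 α' β') ∈ S := by
    intro α β θ α' β' g1 g2 g3 g4 g5 g6 g7 g8 g9 g10
    apply hS
    mm6
  set FA : ℝ → ℝ := fun u =>
    ν (X (a τ) (b τ) t + w45 (a (τ + u) - a τ) (b (τ + u) - b τ)) with hFA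
  set FC : ℝ → ℝ := fun u => ν (X (a τ) (b τ) (t + 2 * Λ * w) +
    w45 (a (τ + u) - a τ) (b (τ + u) - b τ)) with hFC
  have memA : ∀ u, 0 ≤ u → u ≤ w →
      X (a τ) (b τ) t + w45 (a (τ + u) - a τ) (b (τ + u) - b τ) ∈ S := by
    intro u hu hu'
    have h3 := inca τ (τ + u) (by linarith)
    have h4 := incb τ (τ + u) (by linarith)
    rw [add_sub_cancel_left] at h3 h4
    have := mem 0 0 0 _ _ le_rfl hΛw le_rfl hΛw le_rfl (by linarith) h3.1
      (h3.2.trans (hbw u hu')) h4.1 (h4.2.trans (hbw u hu'))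
    rwa [X_zero, zero_add] at this
  have eC : ∀ u, X (a τ) (b τ) (t + 2 * Λ * w) + w45 (a (τ + u) - a τ) (b (τ + u) - b τ) =
      X (a τ) (b τ) t + (X 0 0 (2 * (Λ * w)) + w45 (a (τ + u) - a τ) (b (τ + u) - b τ)) := by
    intro u
    rw [← add_assoc, X_add]; congr 2 <;> ring
  have memC : ∀ u, 0 ≤ u → u ≤ w →
      X (a τ) (b τ) (t + 2 * Λ * w) + w45 (a (τ + u) - a τ) (b (τ + u) - b τ) ∈ S := by
    intro u hu hu'
    have h3 := inca τ (τ + u) (by linarith)
    have h4 := incb τ (τ + u) (by linarith)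
    rw [add_sub_cancel_left] at h3 h4
    rw [eC]
    exact mem 0 0 _ _ _ le_rfl hΛw le_rfl hΛw (by linarith) le_rfl h3.1
      (h3.2.trans (hbw u hu')) h4.1 (h4.2.trans (hbw u hu'))
  have addw : ∀ (p : V6) (u u' : ℝ), p + w45 (a (τ + u) - a τ) (b (τ + u) - b τ) +
      w45 (a (τ + u') - a (τ + u)) (b (τ + u') - b (τ + u)) =
      p + w45 (a (τ + u') - a τ) (b (τ + u') - b τ) := by
    intro p u u'
    rw [add_assoc, w45_add]; congr 2 <;> ring
  have lipF : ∀ p : V6, ∀ u u', u ≤ u' →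
      ν (p + w45 (a (τ + u) - a τ) (b (τ + u) - b τ)) -
        ν (p + w45 (a (τ + u') - a τ) (b (τ + u') - b τ)) ≤ K * Λ * (u' - u) := by
    intro p u u' h
    have h3 := inca (τ + u) (τ + u') (by linarith)
    have h4 := incb (τ + u) (τ + u') (by linarith)
    rw [add_sub_add_left_eq_sub] at h3 h4
    have h5 := inc_abs hlip (w45 (a (τ + u') - a (τ + u)) (b (τ + u') - b (τ + u)))
      (p + w45 (a (τ + u) - a τ) (b (τ + u) - b τ))
    rw [Inc, addw] at h5
    refine (le_abs_self _).trans (h5.trans ?_)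
    rw [mul_assoc]
    refine mul_le_mul_of_nonneg_left (norm_w45' ?_ ?_) hK
    · rw [abs_of_nonneg h3.1]; exact h3.2
    · rw [abs_of_nonneg h4.1]; exact h4.2
  have hFA' : ∀ u u', 0 ≤ u → u ≤ u' → u' ≤ w → 0 ≤ FA u - FA u' ∧
      FA u - FA u' ≤ K * Λ * (u' - u) := by
    intro u u' h h' h''
    refine ⟨?_, lipF _ u u' h'⟩
    have h3 := ma (by linarith : τ + u ≤ τ + u')
    have h4 := mb (by linarith : τ + u ≤ τ + u')
    have := hν.anti _ (memA u h (h'.trans h'')) _ (memA u' (h.trans h') h'') (by ll6)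
    simp only [hFA]; linarith
  have hFC' : ∀ u u', 0 ≤ u → u ≤ u' → u' ≤ w → 0 ≤ FC u - FC u' ∧
      FC u - FC u' ≤ K * Λ * (u' - u) := by
    intro u u' h h' h''
    refine ⟨?_, lipF _ u u' h'⟩
    have h3 := ma (by linarith : τ + u ≤ τ + u')
    have h4 := mb (by linarith : τ + u ≤ τ + u')
    have := hν.anti _ (memC u h (h'.trans h'')) _ (memC u' (h.trans h') h'') (by ll6)
    simp only [hFC]; linarith
  -- one step
  have step : ∀ u, 0 ≤ u → u + s ≤ w →
      FC u - FC (u + s) ≤ mJ ν a b t s (τ + u) ∧ mJ ν a b t s (τ + u) ≤ FA u - FA (u + s) := by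
    intro u hu hus
    have a3 := inca τ (τ + u) (by linarith)
    have b3 := incb τ (τ + u) (by linarith)
    have a4 := inca (τ + u) (τ + (u + s)) (by linarith)
    have b4 := incb (τ + u) (τ + (u + s)) (by linarith)
    rw [add_sub_cancel_left] at a3 b3
    rw [show τ + (u + s) - (τ + u) = s by ring] at a4 b4
    have huw := hbw u (by linarith)
    have hsw' := hbw s hsw
    obtain ⟨d, hd⟩ : ∃ d, d = w45 (a (τ + (u + s)) - a (τ + u)) (b (τ + (u + s)) - b (τ + u)) :=
      ⟨_, rfl⟩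
    have hd0 : (0 : V6) ≤ d := by rw [hd]; exact w45_nonneg a4.1 b4.1
    have eN : X (a (τ + u)) (b (τ + u)) t = X (a τ) (b τ) t +
        (X (a (τ + u) - a τ) (b (τ + u) - b τ) 0 + w45 0 0) := by
      have : w45 0 0 = 0 := by apply ext6 <;> simp
      rw [this, add_zero, X_add]; congr 1 <;> ring
    have eNd : X (a (τ + u)) (b (τ + u)) t + d = X (a τ) (b τ) t +
        (X (a (τ + u) - a τ) (b (τ + u) - b τ) 0 +
          w45 (a (τ + (u + s)) - a (τ + u)) (b (τ + (u + s)) - b (τ + u))) := by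
      rw [hd, ← add_assoc (X (a τ) (b τ) t), X_add]
      congr 2 <;> ring
    have mN : X (a (τ + u)) (b (τ + u)) t ∈ S := by
      rw [eN]
      exact mem _ _ _ _ _ a3.1 (a3.2.trans huw) b3.1 (b3.2.trans huw) le_rfl
        (by linarith) le_rfl hΛw le_rfl hΛw
    have mNd : X (a (τ + u)) (b (τ + u)) t + d ∈ S := by
      rw [eNd]
      exact mem _ _ _ _ _ a3.1 (a3.2.trans huw) b3.1 (b3.2.trans huw) le_rfl
        (by linarith) a4.1 (a4.2.trans hsw') b4.1 (b4.2.trans hsw')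
    have mA := memA u hu (by linarith)
    have mC := memC u hu (by linarith)
    have eAd := addw (X (a τ) (b τ) t) u (u + s)
    have eCd := addw (X (a τ) (b τ) (t + 2 * Λ * w)) u (u + s)
    rw [← hd] at eAd eCd
    have mAd : X (a τ) (b τ) t + w45 (a (τ + u) - a τ) (b (τ + u) - b τ) + d ∈ S := by
      rw [eAd]; exact memA (u + s) (by linarith) hus
    have mCd : X (a τ) (b τ) (t + 2 * Λ * w) + w45 (a (τ + u) - a τ) (b (τ + u) - b τ) + d ∈
        S := by
      rw [eCd]; exact memC (u + s) (by linarith) hus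
    have em : mJ ν a b t s (τ + u) = Inc ν d (X (a (τ + u)) (b (τ + u)) t) := by
      unfold mJ; rw [hd, add_assoc]
    have eA : FA u - FA (u + s) =
        Inc ν d (X (a τ) (b τ) t + w45 (a (τ + u) - a τ) (b (τ + u) - b τ)) := by
      simp only [hFA, Inc]; rw [eAd]
    have eC' : FC u - FC (u + s) =
        Inc ν d (X (a τ) (b τ) (t + 2 * Λ * w) + w45 (a (τ + u) - a τ) (b (τ + u) - b τ)) := by
      simp only [hFC, Inc]; rw [eCd]
    have hdis : ∀ z z' : V6, z 4 = z' 4 → z 5 = z' 5 → ∀ j, d j = 0 ∨ z j = z' j := by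
      intro z z' h4 h5
      rw [hd]
      exact forall6 (Or.inl rfl) (Or.inl rfl) (Or.inl rfl) (Or.inl rfl) (Or.inr h4) (Or.inr h5)
    rw [em, eA, eC']
    constructor
    · refine hν.sub mN mC mNd mCd ?_ hd0 (hdis _ _ ?_ ?_)
      · clear hd hd0
        ll6
      · co6; ring
      · co6; ring
    · refine hν.sub mA mN mAd mNd ?_ hd0 (hdis _ _ ?_ ?_)
      · clear hd hd0
        ll6
      · co6; ring
      · co6; ring
  have hsum : FC σ - FC (σ + n * s) ≤
      ∑ j ∈ Finset.range n, mJ ν a b t s (τ + σ + j * s) ∧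
      ∑ j ∈ Finset.range n, mJ ν a b t s (τ + σ + j * s) ≤ FA σ - FA (σ + n * s) := by
    clear h2
    induction n with
    | zero => simp
    | succ n ih =>
      push_cast at h1 ⊢
      have h1' : σ + n * s ≤ w := by linarith
      obtain ⟨i1, i2⟩ := ih h1'
      have hn0 : 0 ≤ (n : ℝ) * s := by positivity
      obtain ⟨j1, j2⟩ := step (σ + n * s) (by linarith) (by linarith)
      rw [Finset.sum_range_succ]
      have e1 : τ + σ + n * s = τ + (σ + n * s) := by ring
      have e2 : σ + (n + 1) * s = σ + n * s + s := by ring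
      rw [e1, e2]
      constructor <;> linarith
  have hn0 : 0 ≤ (n : ℝ) * s := by positivity
  have c1 := hFC' 0 σ le_rfl hσ0 (by linarith)
  have c2 := hFC' (σ + n * s) w (by linarith) h1 le_rfl
  have c3 := hFA' 0 σ le_rfl hσ0 (by linarith)
  have c4 := hFA' (σ + n * s) w (by linarith) h1 le_rfl
  have z0 : w45 (a (τ + 0) - a τ) (b (τ + 0) - b τ) = 0 := by
    rw [add_zero, sub_self, sub_self]; apply ext6 <;> simp
  have hA0 : FA 0 = ν (X (a τ) (b τ) t) := by
    simp only [hFA]; rw [z0, add_zero]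
  have hC0 : FC 0 = ν (X (a τ) (b τ) (t + 2 * Λ * w)) := by
    simp only [hFC]; rw [z0, add_zero]
  have em : mJ ν a b t w τ = FA 0 - FA w := by rw [hA0]; rfl
  -- the defect
  have a5 := inca τ (τ + w) (by linarith)
  have b5 := incb τ (τ + w) (by linarith)
  rw [add_sub_cancel_left] at a5 b5
  have hmix := hν.mix (p := X (a τ) (b τ) t) (q := X (a τ) (b τ) (t + 2 * Λ * w)) (d1 := 0)
    (d := w45 (a (τ + w) - a τ) (b (τ + w) - b τ))
    (d2 := w45 (Λ * w - (a (τ + w) - a τ)) (Λ * w - (b (τ + w) - b τ)))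
    (by have := memA 0 le_rfl hw.le; rwa [z0, add_zero] at this)
    (by have := memC 0 le_rfl hw.le; rwa [z0, add_zero] at this)
    (by have := memA 0 le_rfl hw.le; rwa [z0] at this)
    (by have := memC 0 le_rfl hw.le; rwa [z0] at this)
    (by rw [add_zero]; exact memA w hw.le le_rfl)
    (by rw [add_zero]; exact memC w hw.le le_rfl)
    (by
      rw [add_zero, add_assoc, w45_add]
      have := mem 0 0 0 (a (τ + w) - a τ + (Λ * w - (a (τ + w) - a τ)))
        (b (τ + w) - b τ + (Λ * w - (b (τ + w) - b τ))) le_rfl hΛw le_rfl hΛw le_rfl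
        (by linarith) (by linarith) (by linarith) (by linarith) (by linarith)
      rwa [X_zero, zero_add] at this)
    (by
      rw [add_zero, add_assoc, w45_add]
      have := mem 0 0 (2 * (Λ * w)) (a (τ + w) - a τ + (Λ * w - (a (τ + w) - a τ)))
        (b (τ + w) - b τ + (Λ * w - (b (τ + w) - b τ))) le_rfl hΛw le_rfl hΛw (by linarith)
        (by linarith) (by linarith) (by linarith) (by linarith) (by linarith)
      rw [← add_assoc, X_add, add_zero, add_zero, ← mul_assoc] at this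
      exact this)
    (by
      have : 0 ≤ 2 * Λ * w := by positivity
      ll6)
    le_rfl (w45_nonneg (by linarith) (by linarith))
    (forall6 (Or.inl ⟨rfl, rfl, rfl⟩) (Or.inl ⟨rfl, rfl, rfl⟩) (Or.inl ⟨rfl, rfl, rfl⟩)
      (Or.inl ⟨rfl, rfl, rfl⟩) (Or.inr rfl) (Or.inr rfl))
  have ew : (0 : V6) + w45 (a (τ + w) - a τ) (b (τ + w) - b τ) +
      w45 (Λ * w - (a (τ + w) - a τ)) (Λ * w - (b (τ + w) - b τ)) = w45 (Λ * w) (Λ * w) := by
    rw [zero_add, w45_add]; congr 1 <;> ring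
  rw [ew, add_zero, add_zero] at hmix
  have ed : (FA 0 - FA w) - (FC 0 - FC w) ≤ dJ ν a b Λ t w τ := by
    have e1 : FA 0 - FA w = Inc ν (w45 (a (τ + w) - a τ) (b (τ + w) - b τ))
        (X (a τ) (b τ) t) := by rw [hA0]; rfl
    have e2 : FC 0 - FC w = Inc ν (w45 (a (τ + w) - a τ) (b (τ + w) - b τ))
        (X (a τ) (b τ) (t + 2 * Λ * w)) := by rw [hC0]; rfl
    rw [e1, e2]
    exact hmix
  have hdJ0 : 0 ≤ dJ ν a b Λ t w τ := by
    have m1 := mem 0 0 0 0 0 le_rfl hΛw le_rfl hΛw le_rfl (by linarith) le_rfl hΛw le_rfl hΛw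
    have m2 := mem 0 0 (2 * (Λ * w)) 0 0 le_rfl hΛw le_rfl hΛw (by linarith) le_rfl le_rfl hΛw
      le_rfl hΛw
    have m3 := mem 0 0 0 (Λ * w) (Λ * w) le_rfl hΛw le_rfl hΛw le_rfl (by linarith) hΛw le_rfl
      hΛw le_rfl
    have m4 := mem 0 0 (2 * (Λ * w)) (Λ * w) (Λ * w) le_rfl hΛw le_rfl hΛw (by linarith) le_rfl
      hΛw le_rfl hΛw le_rfl
    have w0 : w45 0 0 = 0 := by apply ext6 <;> simp
    rw [X_zero, w0, add_zero, add_zero] at m1
    rw [w0, add_zero, X_add, add_zero, add_zero, ← mul_assoc] at m2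
    rw [X_zero, zero_add] at m3
    rw [← add_assoc, X_add, add_zero, add_zero, ← mul_assoc] at m4
    have := hν.sub m1 m2 m3 m4 (by
      have : 0 ≤ 2 * Λ * w := by positivity
      ll6) (w45_nonneg hΛw hΛw)
      (forall6 (Or.inl rfl) (Or.inl rfl) (Or.inl rfl) (Or.inl rfl) (Or.inr rfl) (Or.inr rfl))
    unfold dJ; linarith
  have hKΛ : 0 ≤ K * Λ := mul_nonneg hK hΛ
  have hKs : K * Λ * (σ - 0) ≤ K * Λ * s := mul_le_mul_of_nonneg_left (by linarith) hKΛ
  have hKs2 : K * Λ * (w - (σ + n * s)) ≤ K * Λ * (2 * s) :=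
    mul_le_mul_of_nonneg_left (by linarith) hKΛ
  have hKs0 : 0 ≤ K * Λ * s := mul_nonneg hKΛ hs0.le
  rw [em, abs_le]
  constructor
  · linarith [hsum.2]
  · linarith [hsum.1]

end

end Crest.Agent.R138.Dl848
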