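import Crest.Agent.R138.MK5_877

/-!
# Trilinear Kakeya in R^3, part 6 (helper877): non-narrow points

Lines `(a + c z, b + d z, z)`; velocity `(c, d)`.  If through every point `k` of a finite set there
is a sub-family `A k` of weight `M k` such that no strip of half-width `ν` in velocity space carries
more than half of it, then `∑ M k ^ (3/2) ≤ C r^3 ν^{-26} R^ε W^{3/2}`.
-/

set_option autoImplicit false

namespace Crest.Agent.R138.MK877

open Finset Matrix

/-- direction of the line with velocity `v` -/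
def dir (v : ℝ × ℝ) : Fin 3 → ℝ := ![v.1, v.2, 1]

lemma D3_dir (u v w : ℝ × ℝ) : D3 (dir u) (dir v) (dir w) =
    (v.1 - u.1) * (w.2 - u.2) - (v.2 - u.2) * (w.1 - u.1) := by
  rw [D3_eq]
  simp only [dir, Matrix.cons_val_zero, Matrix.cons_val_one, Matrix.cons_val]
  ring

/-- the strip of half-width `ν` around the line through `u` with unit normal `n` -/
def InStrip (ν : ℝ) (u n v : ℝ × ℝ) : Prop := |(v.1 - u.1) * n.1 + (v.2 - u.2) * n.2| ≤ ν

lemma tri_of_nonnarrow {ι : Type*} (A : Finset ι) (v : ι → ℝ × ℝ) (w : ι → ℝ)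
    (hw : ∀ l ∈ A, 0 ≤ w l) {ν : ℝ} (hν : 0 < ν)
    (hnn : ∀ u n : ℝ × ℝ, n.1 ^ 2 + n.2 ^ 2 = 1 →
      haveI := Classical.decPred fun l => InStrip ν u n (v l)
      ∑ l ∈ A.filter (fun l => InStrip ν u n (v l)), w l ≤ (∑ l ∈ A, w l) / 2) :
    haveI := Classical.propDecidable
    (∑ l ∈ A, w l) ^ 3 / 4 ≤ ∑ l0 ∈ A, ∑ l1 ∈ A, ∑ l2 ∈ A,
      if ν ^ 2 ≤ |D3 (dir (v l0)) (dir (v l1)) (dir (v l2))| then w l0 * w l1 * w l2 else 0 := by
  classical
  set μ : ℝ := ∑ l ∈ A, w l with hμ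
  have hμ0 : 0 ≤ μ := Finset.sum_nonneg hw
  -- complement weight
  have hcomp : ∀ u n : ℝ × ℝ, n.1 ^ 2 + n.2 ^ 2 = 1 →
      μ / 2 ≤ ∑ l ∈ A, if InStrip ν u n (v l) then 0 else w l := by
    intro u n hn
    have h1 := hnn u n hn
    have h2 : ∑ l ∈ A, (if InStrip ν u n (v l) then 0 else w l) +
        ∑ l ∈ A.filter (fun l => InStrip ν u n (v l)), w l = μ := by
      rw [Finset.sum_filter, ← Finset.sum_add_distrib, hμ]
      refine Finset.sum_congr rfl fun l _ => ?_
      split_ifs <;> simp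
    have h3 : ∑ l ∈ A.filter (fun l => InStrip ν u n (v l)), w l ≤ μ / 2 := by
      convert h1
    linarith
  have hlow : ∀ l0 ∈ A, μ ^ 2 / 4 ≤ ∑ l1 ∈ A, ∑ l2 ∈ A,
      if ν ^ 2 ≤ |D3 (dir (v l0)) (dir (v l1)) (dir (v l2))| then w l1 * w l2 else 0 := by
    intro l0 _
    -- points outside the vertical strip are far from `v l0`
    have h1 := hcomp (v l0) (1, 0) (by norm_num)
    calc μ ^ 2 / 4 = (μ / 2) * (μ / 2) := by ring
      _ ≤ (∑ l1 ∈ A, if InStrip ν (v l0) (1, 0) (v l1) then 0 else w l1) * (μ / 2) :=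
          mul_le_mul_of_nonneg_right h1 (by linarith)
      _ = ∑ l1 ∈ A, (if InStrip ν (v l0) (1, 0) (v l1) then 0 else w l1) * (μ / 2) := by
          rw [Finset.sum_mul]
      _ ≤ ∑ l1 ∈ A, ∑ l2 ∈ A,
          if ν ^ 2 ≤ |D3 (dir (v l0)) (dir (v l1)) (dir (v l2))| then w l1 * w l2 else 0 := by
          refine Finset.sum_le_sum fun l1 hl1 => ?_
          by_cases hs : InStrip ν (v l0) (1, 0) (v l1)
          · rw [if_pos hs, zero_mul]
            refine Finset.sum_nonneg fun l2 hl2 => ?_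
            split_ifs
            · exact mul_nonneg (hw l1 hl1) (hw l2 hl2)
            · exact le_rfl
          · rw [if_neg hs]
            unfold InStrip at hs
            push Not at hs
            set a : ℝ := (v l1).1 - (v l0).1 with ha
            set b : ℝ := (v l1).2 - (v l0).2 with hb
            have ha' : ν < |a| := by
              have : (v l1).1 - (v l0).1 = a := rfl
              simpa [ha] using hs
            set ρ : ℝ := √(a ^ 2 + b ^ 2) with hρ
            have hρν : ν ≤ ρ := by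
              rw [hρ]
              refine ha'.le.trans ?_
              rw [← Real.sqrt_sq_eq_abs]
              exact Real.sqrt_le_sqrt (by nlinarith [sq_nonneg b])
            have hρpos : 0 < ρ := lt_of_lt_of_le hν hρν
            have hρsq : ρ ^ 2 = a ^ 2 + b ^ 2 := Real.sq_sqrt (by positivity)
            have h2 := hcomp (v l0) (-(b / ρ), a / ρ) (by
              have : (-(b / ρ)) ^ 2 + (a / ρ) ^ 2 = (a ^ 2 + b ^ 2) / ρ ^ 2 := by
                field_simp
                ring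
              simp only [this, hρsq]
              rw [← hρsq]
              exact div_self (by positivity))
            calc w l1 * (μ / 2)
                ≤ w l1 * ∑ l2 ∈ A, (if InStrip ν (v l0) (-(b / ρ), a / ρ) (v l2) then 0
                    else w l2) := mul_le_mul_of_nonneg_left h2 (hw l1 hl1)
              _ = ∑ l2 ∈ A, w l1 * (if InStrip ν (v l0) (-(b / ρ), a / ρ) (v l2) then 0
                    else w l2) := by rw [Finset.mul_sum]
              _ ≤ ∑ l2 ∈ A, if ν ^ 2 ≤ |D3 (dir (v l0)) (dir (v l1)) (dir (v l2))|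
                    then w l1 * w l2 else 0 := by
                  refine Finset.sum_le_sum fun l2 hl2 => ?_
                  by_cases hs2 : InStrip ν (v l0) (-(b / ρ), a / ρ) (v l2)
                  · rw [if_pos hs2, mul_zero]
                    split_ifs
                    · exact mul_nonneg (hw l1 hl1) (hw l2 hl2)
                    · exact le_rfl
                  · rw [if_neg hs2, if_pos]
                    unfold InStrip at hs2
                    push Not at hs2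
                    rw [D3_dir]
                    have e1 : ((v l1).1 - (v l0).1) * ((v l2).2 - (v l0).2) -
                        ((v l1).2 - (v l0).2) * ((v l2).1 - (v l0).1) =
                        ρ * (((v l2).1 - (v l0).1) * (-(b / ρ)) +
                          ((v l2).2 - (v l0).2) * (a / ρ)) := by
                      have hρne : ρ ≠ 0 := hρpos.ne'
                      field_simp
                      ring
                    rw [e1, abs_mul, abs_of_pos hρpos, pow_two]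
                    exact mul_le_mul hρν hs2.le hν.le hρpos.le
  calc μ ^ 3 / 4 = ∑ l0 ∈ A, w l0 * (μ ^ 2 / 4) := by
        rw [← Finset.sum_mul, ← hμ]; ring
    _ ≤ ∑ l0 ∈ A, w l0 * ∑ l1 ∈ A, ∑ l2 ∈ A,
          (if ν ^ 2 ≤ |D3 (dir (v l0)) (dir (v l1)) (dir (v l2))| then w l1 * w l2 else 0) :=
        Finset.sum_le_sum fun l0 h0 => mul_le_mul_of_nonneg_left (hlow l0 h0) (hw l0 h0)
    _ = _ := by
        refine Finset.sum_congr rfl fun l0 _ => ?_
        rw [Finset.mul_sum]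
        refine Finset.sum_congr rfl fun l1 _ => ?_
        rw [Finset.mul_sum]
        refine Finset.sum_congr rfl fun l2 _ => ?_
        split_ifs
        · ring
        · ring

/-- **Kakeya at non-narrow points.** `p l` = any point on the line, direction `dir (v l)`. -/
theorem nonnarrow_kakeya (ε : ℝ) (hε : 0 < ε) : ∃ C : ℝ, 0 < C ∧
    ∀ {ι : Type} (s : Finset ι) (p : ι → Fin 3 → ℝ) (v : ι → ℝ × ℝ) (w : ι → ℝ)
      (_ : ∀ l ∈ s, 0 ≤ w l) (ν r R : ℝ) (_ : 0 < ν) (_ : ν ≤ 1)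
      (_ : 1 ≤ r) (_ : 1 ≤ R) (_ : ∀ l ∈ s, |(v l).1| ≤ 1 ∧ |(v l).2| ≤ 1)
      (X : Finset (Fin 3 → ℤ)) (_ : ∀ k ∈ X, ∀ i, |(k i : ℝ)| ≤ R)
      (A : (Fin 3 → ℤ) → Finset ι) (_ : ∀ k ∈ X, A k ⊆ s)
      (_ : ∀ k ∈ X, ∀ l ∈ A k, Near (pt 1 k) (p l) (dir (v l)) r)
      (_ : ∀ k ∈ X, ∀ u n : ℝ × ℝ, n.1 ^ 2 + n.2 ^ 2 = 1 →
        haveI := Classical.decPred fun l => InStrip ν u n (v l)
        ∑ l ∈ (A k).filter (fun l => InStrip ν u n (v l)), w l ≤ (∑ l ∈ A k, w l) / 2),
      ∑ k ∈ X, √(∑ l ∈ A k, w l) ^ 3 ≤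
        C * r ^ 3 * (ν⁻¹) ^ 26 * R ^ ε * √(∑ l ∈ s, w l) ^ 3 := by
  obtain ⟨C, hC, key⟩ := broad_kakeya ε hε
  refine ⟨2 * C, by positivity, ?_⟩
  intro ι s p v w hw ν r R hν hν1 hr hR hv X hX A hA hnear hnn
  classical
  have h1 := key s p (fun l => dir (v l)) w hw (ν ^ 2) r R (by positivity)
    (pow_le_one₀ hν.le hν1) hr hR (fun l hl i => by
      have := hv l hl
      fin_cases i
      · simpa [dir] using this.1
      · simpa [dir] using this.2
      · simp [dir]) X hX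
  have h2 : ∀ k ∈ X, √(∑ l ∈ A k, w l) ^ 3 ≤
      2 * √(Tri s p (fun l => dir (v l)) w (ν ^ 2) r (pt 1 k)) := by
    intro k hk
    have hwA : ∀ l ∈ A k, 0 ≤ w l := fun l hl => hw l (hA k hk hl)
    have h3 := tri_of_nonnarrow (A k) v w hwA hν (hnn k hk)
    have h4 : ∑ l0 ∈ A k, ∑ l1 ∈ A k, ∑ l2 ∈ A k,
        (if ν ^ 2 ≤ |D3 (dir (v l0)) (dir (v l1)) (dir (v l2))| then w l0 * w l1 * w l2 else 0) ≤
        Tri s p (fun l => dir (v l)) w (ν ^ 2) r (pt 1 k) := by
      unfold Tri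
      have hn : ∀ l0 ∈ s, ∀ l1 ∈ s, ∀ l2 ∈ s,
          0 ≤ (if Near (pt 1 k) (p l0) (dir (v l0)) r ∧ Near (pt 1 k) (p l1) (dir (v l1)) r ∧
            Near (pt 1 k) (p l2) (dir (v l2)) r ∧
            ν ^ 2 ≤ |D3 (dir (v l0)) (dir (v l1)) (dir (v l2))| then w l0 * w l1 * w l2
            else 0) := by
        intro l0 h0 l1 h1 l2 h2
        split_ifs
        · exact mul_nonneg (mul_nonneg (hw _ h0) (hw _ h1)) (hw _ h2)
        · exact le_rfl
      refine le_trans ?_ (Finset.sum_le_sum_of_subset_of_nonneg (hA k hk) fun l0 h0 _ =>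
        Finset.sum_nonneg fun l1 h1 => Finset.sum_nonneg fun l2 h2 => hn l0 h0 l1 h1 l2 h2)
      refine Finset.sum_le_sum fun l0 h0 => ?_
      refine le_trans ?_ (Finset.sum_le_sum_of_subset_of_nonneg (hA k hk) fun l1 h1 _ =>
        Finset.sum_nonneg fun l2 h2 => hn l0 (hA k hk h0) l1 h1 l2 h2)
      refine Finset.sum_le_sum fun l1 h1 => ?_
      refine le_trans ?_ (Finset.sum_le_sum_of_subset_of_nonneg (hA k hk) fun l2 h2 _ =>
        hn l0 (hA k hk h0) l1 (hA k hk h1) l2 h2)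
      refine Finset.sum_le_sum fun l2 h2 => ?_
      have n0 := hnear k hk l0 h0
      have n1 := hnear k hk l1 h1
      have n2 := hnear k hk l2 h2
      by_cases hD : ν ^ 2 ≤ |D3 (dir (v l0)) (dir (v l1)) (dir (v l2))|
      · rw [if_pos hD, if_pos ⟨n0, n1, n2, hD⟩]
      · rw [if_neg hD]
        exact hn l0 (hA k hk h0) l1 (hA k hk h1) l2 (hA k hk h2)
    have hμ0 : 0 ≤ ∑ l ∈ A k, w l := Finset.sum_nonneg hwA
    have h5 : (∑ l ∈ A k, w l) ^ 3 ≤ 4 * Tri s p (fun l => dir (v l)) w (ν ^ 2) r (pt 1 k) := by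
      have h3' : (∑ l ∈ A k, w l) ^ 3 / 4 ≤ ∑ l0 ∈ A k, ∑ l1 ∈ A k, ∑ l2 ∈ A k,
        (if ν ^ 2 ≤ |D3 (dir (v l0)) (dir (v l1)) (dir (v l2))| then w l0 * w l1 * w l2
          else 0) := by
        convert h3
      linarith
    have h6 : √(∑ l ∈ A k, w l) ^ 3 = √((∑ l ∈ A k, w l) ^ 3) := by
      rw [Real.sqrt_eq_rpow, Real.sqrt_eq_rpow, ← Real.rpow_natCast, ← Real.rpow_mul hμ0,
        ← Real.rpow_natCast, ← Real.rpow_mul hμ0]
      norm_num
    rw [h6]
    refine (Real.sqrt_le_sqrt h5).trans ?_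
    rw [Real.sqrt_mul (by norm_num), show (4 : ℝ) = 2 ^ 2 by norm_num, Real.sqrt_sq (by norm_num)]
  calc ∑ k ∈ X, √(∑ l ∈ A k, w l) ^ 3
      ≤ ∑ k ∈ X, 2 * √(Tri s p (fun l => dir (v l)) w (ν ^ 2) r (pt 1 k)) :=
        Finset.sum_le_sum h2
    _ = 2 * ∑ k ∈ X, √(Tri s p (fun l => dir (v l)) w (ν ^ 2) r (pt 1 k)) := by
        rw [Finset.mul_sum]
    _ ≤ 2 * (C * r ^ 3 * ((ν ^ 2)⁻¹) ^ 13 * R ^ ε * √(∑ l ∈ s, w l) ^ 3) :=
        mul_le_mul_of_nonneg_left h1 (by norm_num)
    _ = _ := by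
        rw [← inv_pow, ← pow_mul]
        ring

end Crest.Agent.R138.MK877
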