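import Mathlib
import Crest.Agent.R138.Dp1_76
import Crest.Agent.R138.GrW3_294
import Crest.Agent.R138.MK6_877

/-!
# R138, deep level, part 2 (helper76): the structure `Deep` and its existence

From the data of `KMseq` (helper294) to `(τ0, π, θ)`: a dense part `J` of the incidences such that
the velocities of the lines through one cell lie in a cap of radius `d^{τ0-o(1)}` and in a strip of
half-width `d^{π-o(1)}` with slope `θ`, and are not concentrated in any smaller cap or thinner strip.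
-/

set_option autoImplicit false
set_option linter.unusedVariables false

open Filter Topology Finset

namespace Crest.Agent.R138.Dp76

open Crest.Agent.R138.Ex926
open Crest.Agent.R138.Gr63
open Crest.Agent.R138.GrW294
open Crest.Agent.R138.MK877 (InStrip)

/-- pruning with respect to two partitions. -/
theorem prune_two {ι κ κ' : Type*} [DecidableEq ι] [DecidableEq κ] [DecidableEq κ']
    (I J : Finset ι) (hJ : J ⊆ I) (hI : I.Nonempty) (f : ι → κ) (g : ι → κ') {μ ν : ℝ}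
    (hμ : 0 < μ) (hν : 0 < ν) (hf : ∀ i ∈ I, μ ≤ ((cls I f i).card : ℝ))
    (hg : ∀ i ∈ I, ν ≤ ((cls I g i).card : ℝ)) :
    ∃ J' ⊆ J, (J.card : ℝ) / 2 ≤ J'.card ∧
      (∀ i ∈ J', (J.card : ℝ) / I.card * μ / 4 ≤ ((cls J' f i).card : ℝ)) ∧
      (∀ i ∈ J', (J.card : ℝ) / I.card * ν / 4 ≤ ((cls J' g i).card : ℝ)) := by
  classical
  have hIc : (0 : ℝ) < I.card := by exact_mod_cast card_pos.2 hI
  set F : Bool → ι → κ ⊕ κ' := fun b i => if b then Sum.inl (f i) else Sum.inr (g i) with hF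
  set M : Bool → ℝ := fun b => if b then μ else ν with hM
  have hcls1 : ∀ (A : Finset ι) i, cls A (F true) i = cls A f i := by
    intro A i; ext i'; simp [mem_cls, hF]
  have hcls2 : ∀ (A : Finset ι) i, cls A (F false) i = cls A g i := by
    intro A i; ext i'; simp [mem_cls, hF]
  have hMcls : ∀ b, ∀ i ∈ I, M b ≤ (1 : ℝ) * ((cls I (F b) i).card : ℝ) := by
    intro b i hi
    cases b
    · rw [hcls2, one_mul]; exact hg i hi
    · rw [hcls1, one_mul]; exact hf i hi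
  obtain ⟨A', hA', hA'c, hgood⟩ := uniform_stable (J := Bool) I J F M (S := 1)
    (p := (J.card : ℝ) / I.card) one_pos (div_nonneg (Nat.cast_nonneg _) hIc.le)
    (fun b => by
      cases b
      · exact hν.le
      · exact hμ.le)
    hMcls hJ (by rw [div_mul_cancel₀ _ hIc.ne'])
  refine ⟨A', hA', hA'c, fun i hi => ?_, fun i hi => ?_⟩
  · have h := hgood true i hi
    rw [hcls1] at h
    refine le_trans (le_of_eq ?_) h
    simp only [hM, Fintype.card_bool, if_true]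
    push_cast; ring
  · have h := hgood false i hi
    rw [hcls2] at h
    refine le_trans (le_of_eq ?_) h
    simp only [hM, Fintype.card_bool, Bool.false_eq_true, if_false]
    push_cast; ring

section Persist

variable {B : Base} {ι κ σ : ℕ → Type*} [∀ n, DecidableEq (ι n)] [∀ n, DecidableEq (κ n)]

/-- `Spread` passes to a part whose cells lose only `d^{o(1)}`. -/
theorem Spread.mono {g : ∀ n, ι n → κ n} {mem : ∀ n, ℝ → σ n → ι n → Prop}
    {J J' : ∀ n, Finset (ι n)} {a : ℝ} (h : Spread B g mem J a)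
    (hsub : ∀ᶠ n in (U : Filter ℕ), J' n ⊆ J n)
    (hc : ∀ η : ℝ, 0 < η → ∀ᶠ n in (U : Filter ℕ), ∀ i ∈ J' n,
      B.d n ^ η * ((cls (J n) (g n) i).card : ℝ) ≤ ((cls (J' n) (g n) i).card : ℝ)) :
    Spread B g mem J' a := by
  classical
  obtain ⟨c, hc0, h⟩ := h
  refine ⟨c / 2, by linarith, ?_⟩
  filter_upwards [h, hsub, hc (c / 2) (by linarith)] with n h1 h2 h3 i hi s
  have h4 := h1 i (h2 hi) s
  have h5 := h3 i hi
  have h6 : (((cls (J' n) (g n) i).filter fun i' => mem n a s i').card : ℝ) ≤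
      (((cls (J n) (g n) i).filter fun i' => mem n a s i').card : ℝ) := by
    have : ((cls (J' n) (g n) i).filter fun i' => mem n a s i').card ≤
        ((cls (J n) (g n) i).filter fun i' => mem n a s i').card :=
      card_le_card (filter_subset_filter _ (cls_mono h2 _ _))
    exact_mod_cast this
  have e : B.d n ^ c = B.d n ^ (c / 2) * B.d n ^ (c / 2) := by rw [← dpow_add]; congr 1; ring
  have hp := dpow_pos B n (c / 2)
  calc _ ≤ _ := h6
    _ ≤ B.d n ^ c * ((cls (J n) (g n) i).card : ℝ) := h4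
    _ = B.d n ^ (c / 2) * (B.d n ^ (c / 2) * ((cls (J n) (g n) i).card : ℝ)) := by rw [e]; ring
    _ ≤ _ := mul_le_mul_of_nonneg_left h5 hp.le

theorem InShape.mono {g : ∀ n, ι n → κ n} {mem : ∀ n, ℝ → σ n → ι n → Prop}
    {J J' : ∀ n, Finset (ι n)} {a : ℕ → ℝ} (h : InShape g mem J a)
    (hsub : ∀ᶠ n in (U : Filter ℕ), J' n ⊆ J n) : InShape g mem J' a := by
  filter_upwards [h, hsub] with n h1 h2 i hi
  obtain ⟨s, hs⟩ := h1 i (h2 hi)
  exact ⟨s, fun i' hi' => hs i' (cls_mono h2 _ _ hi')⟩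

end Persist

/-! ### velocities -/

/-- velocity of a grid line -/
noncomputable def vel (N : ℕ) (l : GLine) : ℝ × ℝ := ((l.2.1 : ℝ) / N, (l.2.2 : ℝ) / N)

/-- first velocity coordinate in the frame `sw` -/
noncomputable def cc (sw : Bool) (N : ℕ) (l : GLine) : ℝ :=
  if sw then (vel N l).2 else (vel N l).1

/-- second velocity coordinate in the frame `sw` -/
noncomputable def dd (sw : Bool) (N : ℕ) (l : GLine) : ℝ :=
  if sw then (vel N l).1 else (vel N l).2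

/-- first position coordinate (at height `0`) in the frame `sw` -/
noncomputable def aa (sw : Bool) (N : ℕ) (l : GLine) : ℝ :=
  if sw then (l.1.2 : ℝ) / N else (l.1.1 : ℝ) / N

/-- second position coordinate (at height `0`) in the frame `sw` -/
noncomputable def bb (sw : Bool) (N : ℕ) (l : GLine) : ℝ :=
  if sw then (l.1.1 : ℝ) / N else (l.1.2 : ℝ) / N

open Classical in
/-- **the deep level**: `T_x` (lines of `J` through the cell `key x`) lies in one cap of radius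
`d^{t n}`, `t n → τ0`, and in one strip of half-width `d^{p n}`, `p n → π`, of slope `θ`, and is
not concentrated in smaller caps or thinner strips. -/
structure Deep (B : Base) (N : ℕ → ℕ) (I : ∀ _ : ℕ, Finset (GLine × ℤ)) (μ ν : ℕ → ℝ)
    (J : ∀ _ : ℕ, Finset (GLine × ℤ)) (sw : Bool) (τ₀ π : ℝ) (t p : ℕ → ℝ)
    (θ : ∀ _ : ℕ, (ℤ × ℤ) × ℤ → ℝ) : Prop where
  tau_nonneg : 0 ≤ τ₀
  tau_le : τ₀ ≤ π
  pi_le : π ≤ 1
  t_lim : Tendsto t U (𝓝 τ₀)
  p_lim : Tendsto p U (𝓝 π)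
  t_mem : ∀ n, 0 ≤ t n ∧ t n ≤ τ₀
  p_mem : ∀ n, 0 ≤ p n ∧ p n ≤ π
  dense : Dense B J I
  sub : ∀ n, J n ⊆ I n
  line_lo : ∀ η : ℝ, 0 < η → ∀ᶠ n in (U : Filter ℕ), ∀ x ∈ J n,
    B.d n ^ η * ν n ≤ (((J n).filter fun y => y.1 = x.1).card : ℝ)
  line_hi : ∀ η : ℝ, 0 < η → ∀ᶠ n in (U : Filter ℕ), ∀ x ∈ J n,
    (((J n).filter fun y => y.1 = x.1).card : ℝ) ≤ B.d n ^ (-η) * ν n
  cell_lo : ∀ η : ℝ, 0 < η → ∀ᶠ n in (U : Filter ℕ), ∀ x ∈ J n,
    B.d n ^ η * μ n ≤ (((J n).filter fun y => key (N n) y = key (N n) x).card : ℝ)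
  cell_hi : ∀ η : ℝ, 0 < η → ∀ᶠ n in (U : Filter ℕ), ∀ x ∈ J n,
    (((J n).filter fun y => key (N n) y = key (N n) x).card : ℝ) ≤ B.d n ^ (-η) * μ n
  theta_le : ∀ n q, |θ n q| ≤ 1
  cap : ∀ᶠ n in (U : Filter ℕ), ∀ x ∈ J n, ∀ y ∈ J n, key (N n) y = key (N n) x →
    |cc sw (N n) y.1 - cc sw (N n) x.1| ≤ 2 * B.d n ^ t n ∧
    |dd sw (N n) y.1 - dd sw (N n) x.1| ≤ 2 * B.d n ^ t n
  flat : ∀ᶠ n in (U : Filter ℕ), ∀ x ∈ J n, ∀ y ∈ J n, key (N n) y = key (N n) x →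
    |(dd sw (N n) y.1 - dd sw (N n) x.1) -
      θ n (key (N n) x) * (cc sw (N n) y.1 - cc sw (N n) x.1)| ≤ 3 * B.d n ^ p n
  caps : ∀ a : ℝ, τ₀ < a → a ≤ 1 → ∃ c : ℝ, 0 < c ∧ ∀ᶠ n in (U : Filter ℕ), ∀ x ∈ J n,
    ∀ c₀ d₀ : ℝ, (((J n).filter fun y => key (N n) y = key (N n) x ∧
      |cc sw (N n) y.1 - c₀| ≤ B.d n ^ a ∧ |dd sw (N n) y.1 - d₀| ≤ B.d n ^ a).card : ℝ) ≤
      B.d n ^ c * (((J n).filter fun y => key (N n) y = key (N n) x).card : ℝ)
  strips : ∀ a : ℝ, π < a → a ≤ 1 → ∃ c : ℝ, 0 < c ∧ ∀ᶠ n in (U : Filter ℕ), ∀ x ∈ J n,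
    ∀ u m : ℝ × ℝ, m.1 ^ 2 + m.2 ^ 2 = 1 →
      (((J n).filter fun y => key (N n) y = key (N n) x ∧
        InStrip (B.d n ^ a) u m (cc sw (N n) y.1, dd sw (N n) y.1)).card : ℝ) ≤
      B.d n ^ c * (((J n).filter fun y => key (N n) y = key (N n) x).card : ℝ)

end Crest.Agent.R138.Dp76
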