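import Mathlib
import Crest.Agent.R138.Dp2_76

/-!
# R138, deep level, part 3 (helper76): existence of the deep structure
-/

set_option autoImplicit false
set_option linter.unusedVariables false

open Filter Topology Finset

namespace Crest.Agent.R138.Dp76

open Crest.Agent.R138.Ex926
open Crest.Agent.R138.Gr63
open Crest.Agent.R138.GrW294
open Crest.Agent.R138.MK877 (InStrip)

/-- caps -/
def capMem (B : Base) (N : ℕ → ℕ) (n : ℕ) (a : ℝ) (s : ℝ × ℝ) (x : GLine × ℤ) : Prop :=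
  |(vel (N n) x.1).1 - s.1| ≤ B.d n ^ a ∧ |(vel (N n) x.1).2 - s.2| ≤ B.d n ^ a

/-- strips -/
def stripMem (B : Base) (N : ℕ → ℕ) (n : ℕ) (a : ℝ) (s : (ℝ × ℝ) × (ℝ × ℝ)) (x : GLine × ℤ) :
    Prop :=
  s.2.1 ^ 2 + s.2.2 ^ 2 = 1 ∧ InStrip (B.d n ^ a) s.1 s.2 (vel (N n) x.1)

theorem vel_bd {N : ℕ} (hN : 1 ≤ N) {l : GLine} (h : Bd N l) :
    |(vel N l).1| ≤ 1 ∧ |(vel N l).2| ≤ 1 := by
  have hN0 : (0 : ℝ) < N := by exact_mod_cast hN
  obtain ⟨-, -, h3, h4⟩ := h
  have h3' : |((l.2.1 : ℤ) : ℝ)| ≤ N := by exact_mod_cast h3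
  have h4' : |((l.2.2 : ℤ) : ℝ)| ≤ N := by exact_mod_cast h4
  unfold vel
  simp only
  rw [abs_div, abs_div, abs_of_pos hN0, div_le_one hN0, div_le_one hN0]
  exact ⟨h3', h4'⟩

theorem slope_bound {m1 m2 X Y ρ : ℝ} (hm : m1 ^ 2 + m2 ^ 2 = 1) (h12 : |m1| ≤ |m2|)
    (h : |X * m1 + Y * m2| ≤ 2 * ρ) : |Y - (-m1 / m2) * X| ≤ 3 * ρ := by
  have hρ : 0 ≤ ρ := by have := abs_nonneg (X * m1 + Y * m2); linarith
  have hsq : m1 ^ 2 ≤ m2 ^ 2 := sq_le_sq.2 h12
  have hm2 : 1 / 2 ≤ m2 ^ 2 := by linarith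
  have hne : m2 ≠ 0 := by
    rintro rfl; norm_num at hm2
  have habs : 2 / 3 ≤ |m2| := by
    by_contra hcon
    push Not at hcon
    have h1 : |m2| ^ 2 < (2 / 3) ^ 2 := by
      have := abs_nonneg m2
      nlinarith
    rw [sq_abs] at h1
    norm_num at h1
    linarith
  have e : Y - (-m1 / m2) * X = (X * m1 + Y * m2) / m2 := by field_simp; ring
  rw [e, abs_div, div_le_iff₀ (abs_pos.2 hne)]
  nlinarith

theorem slope_le_one {m1 m2 : ℝ} (h12 : |m1| ≤ |m2|) : |-m1 / m2| ≤ 1 := by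
  rw [abs_div, abs_neg]
  exact div_le_one_of_le₀ h12 (abs_nonneg _)

open Classical in
theorem card_cls_eq {A : Finset (GLine × ℤ)} {N : ℕ} {x : GLine × ℤ} :
    (cls A (key N) x).card = (A.filter fun y => key N y = key N x).card := by
  unfold cls
  congr 1

open Classical in
theorem card_cls_line {A : Finset (GLine × ℤ)} {x : GLine × ℤ} :
    (cls A (fun y : GLine × ℤ => y.1) x).card = (A.filter fun y => y.1 = x.1).card := by
  unfold cls
  congr 1

set_option maxHeartbeats 1000000 in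
open Classical in
/-- **existence of the deep level.** -/
theorem exists_deep (B : Base) (N : ℕ → ℕ) (s : ℕ → Finset GLine) (I : ℕ → Finset (GLine × ℤ))
    (μ ν : ℕ → ℝ) (hN : ∀ n, 2 ≤ N n) (hB : ∀ n, B.d n = 1 / (N n : ℝ))
    (hI : ∀ n, (I n).Nonempty) (hμ : ∀ n, 0 < μ n) (hν : ∀ n, 0 < ν n)
    (hBd : ∀ n, ∀ l ∈ s n, Bd (N n) l)
    (hIs : ∀ n, ∀ x ∈ I n, x.1 ∈ s n ∧ |x.2| ≤ (N n : ℤ))
    (hl1 : ∀ n, ∀ l ∈ s n, ν n ≤ (((I n).filter (fun x => x.1 = l)).card : ℝ))
    (hc1 : ∀ n, ∀ x ∈ I n,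
      μ n ≤ (((I n).filter (fun y => key (N n) y = key (N n) x)).card : ℝ))
    (hl2 : ∀ η : ℝ, 0 < η → ∀ᶠ n in (U : Filter ℕ), ∀ l ∈ s n,
      (((I n).filter (fun x => x.1 = l)).card : ℝ) ≤ (N n : ℝ) ^ η * ν n)
    (hc2 : ∀ η : ℝ, 0 < η → ∀ᶠ n in (U : Filter ℕ), ∀ x ∈ I n,
      (((I n).filter (fun y => key (N n) y = key (N n) x)).card : ℝ) ≤ (N n : ℝ) ^ η * μ n) :
    ∃ (J : ℕ → Finset (GLine × ℤ)) (sw : Bool) (τ₀ π : ℝ) (t p : ℕ → ℝ)
      (θ : ∀ _ : ℕ, (ℤ × ℤ) × ℤ → ℝ), Deep B N I μ ν J sw τ₀ π t p θ := by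
  have hN1 : ∀ n, 1 ≤ N n := fun n => by have := hN n; omega
  have hvel : ∀ n, ∀ x ∈ I n, |(vel (N n) x.1).1| ≤ 1 ∧ |(vel (N n) x.1).2| ≤ 1 :=
    fun n x hx => vel_bd (hN1 n) (hBd n _ (hIs n x hx).1)
  have hNd : ∀ n (η : ℝ), (N n : ℝ) ^ η = B.d n ^ (-η) := by
    intro n η
    rw [hB n, one_div, Real.inv_rpow (Nat.cast_nonneg _), Real.rpow_neg (Nat.cast_nonneg _), inv_inv]
  -- caps
  obtain ⟨τ₀, t, J1, hτ0, hτ1, htl, htm, hD1, hS1, hSp1⟩ :=
    exists_conc (B := B) I (fun n => key (N n)) (capMem B N) (A := 1) zero_le_one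
      (fun n a a' s i haa h => ⟨h.1.trans (dpow_le B n haa), h.2.trans (dpow_le B n haa)⟩)
      (Eventually.of_forall fun n i hi => ⟨(0, 0), fun i' hi' => by
        have h := hvel n i' (mem_cls.1 hi').1
        unfold capMem
        simp only [sub_zero, Real.rpow_zero]
        exact h⟩)
  -- strips
  have h0strip : InShape (fun n => key (N n)) (stripMem B N) J1 (fun _ => 0) := by
    filter_upwards [hD1.1] with n hn i hi
    refine ⟨((0, 0), (1, 0)), fun i' hi' => ?_⟩
    have h := hvel n i' (hn (mem_cls.1 hi').1)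
    refine ⟨by norm_num, ?_⟩
    unfold InStrip
    simp only [sub_zero, mul_one, mul_zero, add_zero, Real.rpow_zero]
    exact h.1
  obtain ⟨π, p, J2, hπ0, hπ1, hpl, hpm, hD2, hS2, hSp2⟩ :=
    exists_conc (B := B) J1 (fun n => key (N n)) (stripMem B N) (A := 1) zero_le_one
      (fun n a a' s i haa h => ⟨h.1, h.2.trans (dpow_le B n haa)⟩) h0strip
  have hD2I : Dense B J2 I := hD2.trans hD1
  -- choose the strips
  have hch : ∀ n (q : (ℤ × ℤ) × ℤ), ∃ st : (ℝ × ℝ) × (ℝ × ℝ),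
      (∃ st' : (ℝ × ℝ) × (ℝ × ℝ), ∀ x ∈ J2 n, key (N n) x = q → stripMem B N n (p n) st' x) →
      ∀ x ∈ J2 n, key (N n) x = q → stripMem B N n (p n) st x := by
    intro n q
    by_cases h : ∃ st' : (ℝ × ℝ) × (ℝ × ℝ), ∀ x ∈ J2 n, key (N n) x = q →
      stripMem B N n (p n) st' x
    · obtain ⟨st', h'⟩ := h
      exact ⟨st', fun _ => h'⟩
    · exact ⟨((0, 0), (0, 0)), fun h' => absurd h' h⟩
  choose st hst using hch
  have hst2 : ∀ᶠ n in (U : Filter ℕ), ∀ x ∈ J2 n, stripMem B N n (p n) (st n (key (N n) x)) x := by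
    filter_upwards [hS2] with n hn x hx
    refine hst n (key (N n) x) ?_ x hx rfl
    obtain ⟨s', hs'⟩ := hn x hx
    exact ⟨s', fun y hy hyx => hs' y (mem_cls.2 ⟨hy, hyx⟩)⟩
  -- frames
  set fr : ℕ → (ℤ × ℤ) × ℤ → Bool := fun n q =>
    decide (¬ |(st n q).2.1| ≤ |(st n q).2.2|) with hfr
  have hframe : ∃ sw : Bool, Dense B (fun n => ((J2 n) ∩ I n).filter
      fun x => fr n (key (N n) x) = sw) I := by
    have hgen : ∀ sw : Bool, (∀ᶠ n in (U : Filter ℕ), ((J2 n).card : ℝ) ≤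
        2 * (((J2 n).filter fun x => fr n (key (N n) x) = sw).card : ℝ)) →
        Dense B (fun n => ((J2 n) ∩ I n).filter fun x => fr n (key (N n) x) = sw) I := by
      intro sw h
      have h1 : Dense B (fun n => ((J2 n) ∩ I n).filter fun x => fr n (key (N n) x) = sw) J2 := by
        refine dense_of_sub (S := fun _ => 2) (Base.Sub.const two_pos) ?_
        filter_upwards [h, hD2I.1] with n h1 h2
        rw [inter_eq_left.2 h2]
        exact ⟨filter_subset _ _, h1⟩
      exact h1.trans hD2I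
    rcases ev_em (fun n => ((J2 n).card : ℝ) ≤
      2 * (((J2 n).filter fun x => fr n (key (N n) x) = false).card : ℝ)) with h | h
    · exact ⟨false, hgen false h⟩
    · refine ⟨true, hgen true ?_⟩
      filter_upwards [h] with n hn
      have h1 := card_filter_add_card_filter_not (s := J2 n) (fun x => fr n (key (N n) x) = false)
      have h2 : ((J2 n).filter fun x => ¬ fr n (key (N n) x) = false) =
          ((J2 n).filter fun x => fr n (key (N n) x) = true) := by
        refine filter_congr fun x _ => ?_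
        simp
      rw [h2] at h1
      have h3 : (((J2 n).filter fun x => fr n (key (N n) x) = false).card : ℝ) +
          (((J2 n).filter fun x => fr n (key (N n) x) = true).card : ℝ) = ((J2 n).card : ℝ) := by
        exact_mod_cast h1
      push Not at hn
      linarith
  obtain ⟨sw, hD3⟩ := hframe
  set J3 : ℕ → Finset (GLine × ℤ) := fun n => ((J2 n) ∩ I n).filter
      fun x => fr n (key (N n) x) = sw with hJ3
  have hJ3I : ∀ n, J3 n ⊆ I n := fun n => (filter_subset _ _).trans inter_subset_right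
  have hJ3J2 : ∀ n, J3 n ⊆ J2 n := fun n => (filter_subset _ _).trans inter_subset_left
  -- prune
  have hpr := fun n => prune_two (I n) (J3 n) (hJ3I n) (hI n) (key (N n))
    (fun y : GLine × ℤ => y.1) (hμ n) (hν n)
    (fun i hi => by rw [card_cls_eq]; exact hc1 n i hi)
    (fun i hi => by rw [card_cls_line]; exact hl1 n i.1 (hIs n i hi).1)
  choose J hJ3s hJhalf hJcell hJline using hpr
  have hJJ2 : ∀ n, J n ⊆ J2 n := fun n => (hJ3s n).trans (hJ3J2 n)
  have hJI : ∀ n, J n ⊆ I n := fun n => (hJ3s n).trans (hJ3I n)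
  have hDJ : Dense B J I := by
    refine Dense.trans (J := J3) ?_ hD3
    refine dense_of_sub (S := fun _ => 2) (Base.Sub.const two_pos) (Eventually.of_forall fun n => ?_)
    exact ⟨hJ3s n, by linarith [hJhalf n]⟩
  -- lower bounds
  have hratio : ∀ η : ℝ, 0 < η → ∀ᶠ n in (U : Filter ℕ),
      B.d n ^ η ≤ ((J3 n).card : ℝ) / (I n).card / 4 := by
    intro η hη
    have h4 : ∀ᶠ n in (U : Filter ℕ), (4 : ℝ) < B.d n ^ (-(η / 2)) :=
      Base.ex_lt_iff_dpow (Base.PB.const (by norm_num)) (by rw [Base.ex_const]; linarith)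
    filter_upwards [hD3.2 (η / 2) (by linarith), h4] with n h1 h2
    have hIc : (0 : ℝ) < (I n).card := by exact_mod_cast card_pos.2 (hI n)
    have h3 : B.d n ^ (η / 2) ≤ ((J3 n).card : ℝ) / (I n).card := by
      rw [le_div_iff₀ hIc]; exact h1
    have h5 : B.d n ^ η = B.d n ^ (η / 2) * B.d n ^ (η / 2) := by
      rw [← dpow_add]; congr 1; ring
    have h6 : B.d n ^ (η / 2) * B.d n ^ (-(η / 2)) = 1 := by rw [← dpow_add]; simp
    have h7 := dpow_pos B n (η / 2)
    have h8 : B.d n ^ (η / 2) ≤ 1 / 4 := by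
      by_contra hcon
      push Not at hcon
      nlinarith
    rw [h5, div_eq_mul_inv _ (4 : ℝ)]
    have : B.d n ^ (η / 2) ≤ (4 : ℝ)⁻¹ := by norm_num at h8 ⊢; exact h8
    exact mul_le_mul h3 this h7.le (h7.le.trans h3)
  have hcell_lo : ∀ η : ℝ, 0 < η → ∀ᶠ n in (U : Filter ℕ), ∀ x ∈ J n,
      B.d n ^ η * μ n ≤ ((cls (J n) (key (N n)) x).card : ℝ) := by
    intro η hη
    filter_upwards [hratio η hη] with n hn x hx
    refine le_trans ?_ (hJcell n x hx)
    have := mul_le_mul_of_nonneg_right hn (hμ n).le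
    refine this.trans (le_of_eq ?_)
    ring
  have hline_lo : ∀ η : ℝ, 0 < η → ∀ᶠ n in (U : Filter ℕ), ∀ x ∈ J n,
      B.d n ^ η * ν n ≤ ((cls (J n) (fun y : GLine × ℤ => y.1) x).card : ℝ) := by
    intro η hη
    filter_upwards [hratio η hη] with n hn x hx
    refine le_trans ?_ (hJline n x hx)
    have := mul_le_mul_of_nonneg_right hn (hν n).le
    refine this.trans (le_of_eq ?_)
    ring
  -- upper bounds
  have hcell_hi : ∀ η : ℝ, 0 < η → ∀ᶠ n in (U : Filter ℕ), ∀ x ∈ I n,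
      ((cls (I n) (key (N n)) x).card : ℝ) ≤ B.d n ^ (-η) * μ n := by
    intro η hη
    filter_upwards [hc2 η hη] with n hn x hx
    rw [card_cls_eq, ← hNd]
    exact hn x hx
  have hline_hi : ∀ η : ℝ, 0 < η → ∀ᶠ n in (U : Filter ℕ), ∀ x ∈ I n,
      ((cls (I n) (fun y : GLine × ℤ => y.1) x).card : ℝ) ≤ B.d n ^ (-η) * ν n := by
    intro η hη
    filter_upwards [hl2 η hη] with n hn x hx
    rw [card_cls_line, ← hNd]
    exact hn x.1 (hIs n x hx).1
  -- cells of `J` are large compared with cells of `I`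
  have hcomp : ∀ η : ℝ, 0 < η → ∀ᶠ n in (U : Filter ℕ), ∀ x ∈ J n,
      B.d n ^ η * ((cls (I n) (key (N n)) x).card : ℝ) ≤ ((cls (J n) (key (N n)) x).card : ℝ) := by
    intro η hη
    filter_upwards [hcell_lo (η / 2) (by linarith), hcell_hi (η / 2) (by linarith)]
      with n h1 h2 x hx
    have h3 := h1 x hx
    have h4 := h2 x (hJI n hx)
    have h5 := dpow_pos B n η
    have e : B.d n ^ η * B.d n ^ (-(η / 2)) = B.d n ^ (η / 2) := by
      rw [← dpow_add]; congr 1; ring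
    calc B.d n ^ η * ((cls (I n) (key (N n)) x).card : ℝ)
        ≤ B.d n ^ η * (B.d n ^ (-(η / 2)) * μ n) := mul_le_mul_of_nonneg_left h4 h5.le
      _ = B.d n ^ (η / 2) * μ n := by rw [← mul_assoc, e]
      _ ≤ _ := h3
  have hcompK : ∀ K : ℕ → Finset (GLine × ℤ), (∀ᶠ n in (U : Filter ℕ), K n ⊆ I n) →
      ∀ η : ℝ, 0 < η → ∀ᶠ n in (U : Filter ℕ), ∀ x ∈ J n,
      B.d n ^ η * ((cls (K n) (key (N n)) x).card : ℝ) ≤ ((cls (J n) (key (N n)) x).card : ℝ) := by
    intro K hK η hη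
    filter_upwards [hcomp η hη, hK] with n h1 h2 x hx
    refine le_trans ?_ (h1 x hx)
    apply mul_le_mul_of_nonneg_left _ (dpow_pos B n η).le
    exact_mod_cast card_le_card (cls_mono h2 _ _)
  have hJJ1 : ∀ᶠ n in (U : Filter ℕ), J n ⊆ J1 n := by
    filter_upwards [hD2.1] with n hn using (hJJ2 n).trans hn
  have hSpJ1 : ∀ a', τ₀ < a' → a' ≤ 1 → Spread B (fun n => key (N n)) (capMem B N) J a' :=
    fun a' h1 h2 => (hSp1 a' h1 h2).mono hJJ1 (hcompK J1 hD1.1)
  have hSpJ2 : ∀ a', π < a' → a' ≤ 1 → Spread B (fun n => key (N n)) (stripMem B N) J a' :=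
    fun a' h1 h2 => (hSp2 a' h1 h2).mono (Eventually.of_forall hJJ2) (hcompK J2 hD2I.1)
  have hcapJ : InShape (fun n => key (N n)) (capMem B N) J t := hS1.mono hJJ1
  have hJne : ∀ᶠ n in (U : Filter ℕ), (J n).Nonempty := hDJ.nonempty (Eventually.of_forall hI)
  -- `τ₀ ≤ π`
  have hτπ : τ₀ ≤ π := by
    by_contra hcon
    push Not at hcon
    obtain ⟨a', h1, h2⟩ := exists_between hcon
    obtain ⟨c, hc, hsp⟩ := hSpJ2 a' h1 (by linarith)
    have hlt : ∀ᶠ n in (U : Filter ℕ), a' < t n := htl.eventually_const_lt h2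
    obtain ⟨n, hn1, hn2, hn3, hn4⟩ := (hsp.and (hlt.and (hcapJ.and hJne))).exists
    obtain ⟨x, hx⟩ := hn4
    obtain ⟨s', hs'⟩ := hn3 x hx
    have h3 := hn1 x hx (s', (1, 0))
    have h4 : ((cls (J n) (key (N n)) x).filter fun i' => stripMem B N n a' (s', (1, 0)) i') =
        cls (J n) (key (N n)) x := by
      refine filter_true_of_mem fun y hy => ?_
      refine ⟨by norm_num, ?_⟩
      unfold InStrip
      simp only [mul_one, mul_zero, add_zero]
      exact (hs' y hy).1.trans (dpow_le B n hn2.le)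
    rw [h4] at h3
    have h5 : (0 : ℝ) < ((cls (J n) (key (N n)) x).card : ℝ) := by
      exact_mod_cast card_pos.2 ⟨x, mem_cls.2 ⟨hx, rfl⟩⟩
    have h6 : B.d n ^ c < 1 := Real.rpow_lt_one (B.pos n).le (B.lt n) hc
    nlinarith
  -- slopes
  set θ₀ : ℕ → (ℤ × ℤ) × ℤ → ℝ := fun n q =>
    if sw then -(st n q).2.2 / (st n q).2.1 else -(st n q).2.1 / (st n q).2.2 with hθ₀
  set θ : ℕ → (ℤ × ℤ) × ℤ → ℝ := fun n q => if |θ₀ n q| ≤ 1 then θ₀ n q else 0 with hθ
  refine ⟨J, sw, τ₀, π, t, p, θ, ?_⟩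
  refine
    { tau_nonneg := hτ0
      tau_le := hτπ
      pi_le := hπ1
      t_lim := htl
      p_lim := hpl
      t_mem := htm
      p_mem := hpm
      dense := hDJ
      sub := hJI
      line_lo := ?_
      line_hi := ?_
      cell_lo := ?_
      cell_hi := ?_
      theta_le := ?_
      cap := ?_
      flat := ?_
      caps := ?_
      strips := ?_ }
  · intro η hη
    filter_upwards [hline_lo η hη] with n hn x hx
    have := hn x hx
    rwa [card_cls_line] at this
  · intro η hη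
    filter_upwards [hline_hi η hη] with n hn x hx
    have h1 := hn x (hJI n hx)
    rw [card_cls_line] at h1
    refine le_trans ?_ h1
    exact_mod_cast card_le_card (filter_subset_filter _ (hJI n))
  · intro η hη
    filter_upwards [hcell_lo η hη] with n hn x hx
    have := hn x hx
    rwa [card_cls_eq] at this
  · intro η hη
    filter_upwards [hcell_hi η hη] with n hn x hx
    have h1 := hn x (hJI n hx)
    rw [card_cls_eq] at h1
    refine le_trans ?_ h1
    exact_mod_cast card_le_card (filter_subset_filter _ (hJI n))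
  · intro n q
    simp only [hθ]
    split_ifs with h
    · exact h
    · simp
  · filter_upwards [hcapJ] with n hn x hx y hy hxy
    obtain ⟨s', hs'⟩ := hn x hx
    obtain ⟨h1, h2⟩ := hs' x (mem_cls.2 ⟨hx, rfl⟩)
    obtain ⟨h3, h4⟩ := hs' y (mem_cls.2 ⟨hy, hxy⟩)
    have e1 : |(vel (N n) y.1).1 - (vel (N n) x.1).1| ≤ 2 * B.d n ^ t n := by
      rw [abs_le] at *; constructor <;> linarith [h1.1, h1.2, h3.1, h3.2]
    have e2 : |(vel (N n) y.1).2 - (vel (N n) x.1).2| ≤ 2 * B.d n ^ t n := by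
      rw [abs_le] at *; constructor <;> linarith [h2.1, h2.2, h4.1, h4.2]
    unfold cc dd
    cases sw
    · exact ⟨e1, e2⟩
    · exact ⟨e2, e1⟩
  · filter_upwards [hst2] with n hn x hx y hy hxy
    obtain ⟨h1, h2⟩ := hn x (hJJ2 n hx)
    obtain ⟨-, h3⟩ := hn y (hJJ2 n hy)
    rw [hxy] at h3
    have hfrx : fr n (key (N n) x) = sw := (mem_filter.1 (hJ3s n hx)).2
    set q := key (N n) x with hq
    unfold InStrip at h2 h3
    have h4 : |((vel (N n) y.1).1 - (vel (N n) x.1).1) * (st n q).2.1 +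
        ((vel (N n) y.1).2 - (vel (N n) x.1).2) * (st n q).2.2| ≤ 2 * B.d n ^ p n := by
      rw [abs_le] at *; constructor <;> nlinarith [h2.1, h2.2, h3.1, h3.2]
    have hsw : sw = decide (¬ |(st n q).2.1| ≤ |(st n q).2.2|) := hfrx.symm
    unfold cc dd
    cases sw with
    | false =>
      have h5 : |(st n q).2.1| ≤ |(st n q).2.2| := by
        have := of_decide_eq_false hsw.symm
        exact not_not.1 this
      have h6 : θ n q = -(st n q).2.1 / (st n q).2.2 := by
        have h7 : θ₀ n q = -(st n q).2.1 / (st n q).2.2 := by simp [hθ₀]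
        simp only [hθ]
        rw [if_pos (by rw [h7]; exact slope_le_one h5), h7]
      simp only [Bool.false_eq_true, if_false]
      rw [h6]
      exact slope_bound h1 h5 h4
    | true =>
      have h5 : |(st n q).2.2| ≤ |(st n q).2.1| := by
        have := of_decide_eq_true hsw.symm
        exact (not_le.1 this).le
      have h6 : θ n q = -(st n q).2.2 / (st n q).2.1 := by
        have h7 : θ₀ n q = -(st n q).2.2 / (st n q).2.1 := by simp [hθ₀]
        simp only [hθ]
        rw [if_pos (by rw [h7]; exact slope_le_one h5), h7]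
      simp only [if_true]
      rw [h6]
      refine slope_bound (by rw [add_comm]; exact h1) h5 ?_
      rw [add_comm]
      exact h4
  · intro a h1 h2
    obtain ⟨c, hc, h⟩ := hSpJ1 a h1 h2
    refine ⟨c, hc, ?_⟩
    filter_upwards [h] with n hn x hx c₀ d₀
    have h3 := hn x hx (if sw then (d₀, c₀) else (c₀, d₀))
    rw [card_cls_eq] at h3
    refine le_trans ?_ h3
    have : ((J n).filter fun y => key (N n) y = key (N n) x ∧
        |cc sw (N n) y.1 - c₀| ≤ B.d n ^ a ∧ |dd sw (N n) y.1 - d₀| ≤ B.d n ^ a).card ≤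
        ((cls (J n) (key (N n)) x).filter fun i' => capMem B N n a
          (if sw then (d₀, c₀) else (c₀, d₀)) i').card := by
      refine card_le_card fun y hy => ?_
      rw [mem_filter] at hy ⊢
      refine ⟨mem_cls.2 ⟨hy.1, hy.2.1⟩, ?_⟩
      have h5 := hy.2.2
      unfold capMem
      unfold cc dd at h5
      cases sw
      · simpa using h5
      · simpa using ⟨h5.2, h5.1⟩
    exact_mod_cast this
  · intro a h1 h2
    obtain ⟨c, hc, h⟩ := hSpJ2 a h1 h2
    refine ⟨c, hc, ?_⟩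
    filter_upwards [h] with n hn x hx u m hm
    have h3 := hn x hx (if sw then ((u.2, u.1), (m.2, m.1)) else (u, m))
    rw [card_cls_eq] at h3
    refine le_trans ?_ h3
    have : ((J n).filter fun y => key (N n) y = key (N n) x ∧
        InStrip (B.d n ^ a) u m (cc sw (N n) y.1, dd sw (N n) y.1)).card ≤
        ((cls (J n) (key (N n)) x).filter fun i' => stripMem B N n a
          (if sw then ((u.2, u.1), (m.2, m.1)) else (u, m)) i').card := by
      refine card_le_card fun y hy => ?_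
      rw [mem_filter] at hy ⊢
      refine ⟨mem_cls.2 ⟨hy.1, hy.2.1⟩, ?_⟩
      have h5 := hy.2.2
      unfold stripMem
      unfold InStrip cc dd at *
      cases sw
      · simpa using ⟨hm, h5⟩
      · simp only [if_true] at h5 ⊢
        exact ⟨by linarith, by rw [add_comm]; exact h5⟩
    exact_mod_cast this

end Crest.Agent.R138.Dp76
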