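import Crest.Agent.R138.Tii_615

/-!
# R138: TEXT II, real-analysis part over the domain `(1 + k) v + t ≤ M` (helper615)

* `no_contact'` : the contact lemma over an arbitrary region;
* `end_lin` : `c ≤ 2 s` from the sweep and the a.e. table, domain of doc 1951 (E0), equalities
  `M = 1 + k`, `M = θ` allowed;
* `gt_seg`, `gt_lin` : growth along straight segments from the a.e. table.
-/

set_option autoImplicit false
set_option linter.unusedVariables false

open Set Filter Topology MeasureTheory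
open scoped NNReal ENNReal

namespace Crest.Agent.R138.End2615

open Crest.Agent.R138.End615 Crest.Agent.R138.Tii615

/-- **contact lemma**, arbitrary region `Ω` -/
theorem no_contact' {g : ℝ × ℝ → ℝ} {K : ℝ≥0} {Ω : Set (ℝ × ℝ)} {μ η v0 t0 : ℝ}
    (hg : LipschitzOnWith K g Ω) (hg0 : ∀ x ∈ Ω, g x ≤ 0)
    (hg1 : g (v0, t0) = 0) (hμ : 0 < μ) (hη : 0 < η) {D : Set (ℝ × ℝ)}
    (hd : ∀ᵐ z : ℝ × ℝ, z ∈ D → η ≤ deriv (fun y => g (z.1 - y, z.2 + μ * y)) 0)
    {W : Set ℝ} (hW : MeasurableSet W)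
    (hdens : ∀ ε : ℝ, 0 < ε → ∀ᶠ h in 𝓝[>] (0 : ℝ),
      volume (W ∩ Icc t0 (t0 + h)) ≤ ENNReal.ofReal (ε * h))
    {δ : ℝ} (hδ : 0 < δ)
    (hΩ : ∀ y ∈ Icc 0 δ, ∀ v ∈ Icc (v0 - δ) (v0 - y), (v, t0 + μ * y) ∈ Ω)
    (hD : ∀ y ∈ Ioo 0 δ, t0 + μ * y ∉ W → ∀ v ∈ Ioo (v0 - δ) (v0 - y), (v, t0 + μ * y) ∈ D) :
    False := by
  set K' : ℝ := η + K * max 1 μ with hK'
  have hK'0 : 0 < K' := by
    have : (0 : ℝ) ≤ K * max 1 μ := mul_nonneg K.2 (le_max_of_le_left zero_le_one)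
    linarith
  have h1 := hdens (η / (2 * K')) (by positivity)
  have hmap : Tendsto (fun h : ℝ => μ * h) (𝓝[>] 0) (𝓝[>] 0) := by
    refine tendsto_nhdsWithin_iff.2 ⟨?_, ?_⟩
    · have : Tendsto (fun h : ℝ => μ * h) (𝓝 0) (𝓝 (μ * 0)) := by
        exact (continuous_const.mul continuous_id).tendsto 0
      rw [mul_zero] at this
      exact this.mono_left nhdsWithin_le_nhds
    · filter_upwards [self_mem_nhdsWithin] with h (hh : 0 < h)
      exact mul_pos hμ hh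
  have h2 := hmap.eventually h1
  have hsmall : ∀ᶠ h in 𝓝[>] (0 : ℝ), h < δ / 2 := by
    apply nhdsWithin_le_nhds
    exact gt_mem_nhds (by linarith)
  obtain ⟨h, ⟨hh2, hh0⟩, hhδ⟩ := ((h2.and self_mem_nhdsWithin).and hsmall).exists
  have hh0' : 0 < h := hh0
  have hmem : ∀ x ∈ Icc (-h) 0, ∀ y ∈ Icc 0 h, (v0 + x - y, t0 + μ * y) ∈ Ω := by
    intro x hx y hy
    exact hΩ y ⟨hy.1, by linarith [hy.2]⟩ _ ⟨by linarith [hx.1, hy.2], by linarith [hx.2]⟩
  have h3 := plane_path hg (v0 := v0) (t0 := t0) hμ hh0' hh0' hmem hW hη.le hd (by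
    intro x hx y hy hyW
    refine hD y ⟨hy.1, by linarith [hy.2]⟩ hyW _ ⟨by linarith [hx.1, hy.2], by linarith [hx.2]⟩)
  have h4 : g (v0 - h, t0 + μ * h) ≤ 0 := by
    apply hg0
    have := hmem 0 ⟨by linarith, le_rfl⟩ h ⟨hh0'.le, le_rfl⟩
    simpa using this
  rw [hg1, sub_zero] at h3
  have h5 : (volume ({y | t0 + μ * y ∈ W} ∩ Icc 0 h)).toReal ≤ η / (2 * K') * h := by
    rw [volume_pre hμ]
    apply ENNReal.toReal_le_of_le_ofReal (by positivity)
    calc ENNReal.ofReal μ⁻¹ * volume (W ∩ Icc t0 (t0 + μ * h))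
        ≤ ENNReal.ofReal μ⁻¹ * ENNReal.ofReal (η / (2 * K') * (μ * h)) := by gcongr
      _ = ENNReal.ofReal (η / (2 * K') * h) := by
          rw [← ENNReal.ofReal_mul (by positivity)]
          congr 1
          field_simp
  have h6 : K' * (volume ({y | t0 + μ * y ∈ W} ∩ Icc 0 h)).toReal ≤ η * h / 2 := by
    calc _ ≤ K' * (η / (2 * K') * h) := mul_le_mul_of_nonneg_left h5 hK'0.le
      _ = η * h / 2 := by field_simp
  have h7 : 0 < η * h := mul_pos hη hh0'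
  linarith

/-- closed domain -/
def Om (M k : ℝ) : Set (ℝ × ℝ) := {x | 0 ≤ x.1 ∧ x.1 ≤ 1 ∧ 0 ≤ x.2 ∧ (1 + k) * x.1 + x.2 ≤ M}

/-- open domain -/
def Dom (M k : ℝ) : Set (ℝ × ℝ) := {x | 0 < x.1 ∧ x.1 < 1 ∧ 0 < x.2 ∧ (1 + k) * x.1 + x.2 < M}

variable {k q s c θ M : ℝ} {P m : ℝ → ℝ → ℝ} {K : ℝ≥0}

theorem Dom_sub : Dom M k ⊆ Om M k := fun x hx => ⟨hx.1.le, hx.2.1.le, hx.2.2.1.le, hx.2.2.2.le⟩

theorem Dom_left (hk : 0 < k) {v v' t : ℝ} (h : (v, t) ∈ Dom M k) (h0 : 0 < v') (hv : v' ≤ v) :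
    (v', t) ∈ Dom M k := by
  refine ⟨h0, lt_of_le_of_lt hv h.2.1, h.2.2.1, ?_⟩
  have h1 := h.2.2.2
  simp only at h1 ⊢
  nlinarith

/-- horizontal exit: where `m > s`, `g` is strictly negative -/
theorem exit' (hk : 0 < k) (hs : 0 ≤ s) (hc : 2 * s < c)
    (hP : LipschitzOnWith K (fun x : ℝ × ℝ => P x.1 x.2) (Om M k))
    (hle : ∀ x ∈ Om M k, P x.1 x.2 - c * x.1 + q * x.2 ≤ 0)
    (hanti : ∀ t v v', (v, t) ∈ Dom M k → (v', t) ∈ Dom M k → v ≤ v' → m v' t ≤ m v t)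
    (h5 : ∀ᵐ x : ℝ × ℝ, x ∈ Dom M k → s < m x.1 x.2 →
      ∃ D : ℝ × ℝ →L[ℝ] ℝ, HasFDerivAt (fun x : ℝ × ℝ => P x.1 x.2) D x ∧ D (1, 0) ≤ 2 * s) :
    ∀ᵐ t : ℝ, ∀ v, (v, t) ∈ Dom M k → s < m v t → gg P c q (v, t) ≤ -(c - 2 * s) * v := by
  have h1 : ∀ᵐ t : ℝ, ∀ᵐ v : ℝ, (v, t) ∈ Dom M k → s < m v t →
      ∃ D : ℝ × ℝ →L[ℝ] ℝ, HasFDerivAt (fun x : ℝ × ℝ => P x.1 x.2) D (v, t) ∧
        D (1, 0) ≤ 2 * s := by
    have h0 := (Measure.measurePreserving_swap (μ := (volume : Measure ℝ))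
      (ν := (volume : Measure ℝ))).quasiMeasurePreserving.ae h5
    exact Measure.ae_ae_of_ae_prod h0
  filter_upwards [h1] with t ht v0 hv0 hmv
  have hlip := gg_lip (c := c) (q := q) hP
  set K' : ℝ≥0 := K + Real.toNNReal (|c| + |q|) with hK'
  have hc' : 0 < c - 2 * s := by linarith
  have hv00 : 0 < v0 := hv0.1
  have hΩ : ∀ y, 0 ≤ y → y ≤ v0 → (y, t) ∈ Om M k := by
    intro y hy hy'
    refine ⟨hy, hy'.trans hv0.2.1.le, hv0.2.2.1.le, ?_⟩
    have h1 := hv0.2.2.2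
    simp only at h1 ⊢
    nlinarith
  have hψ : LipschitzOnWith K' (fun y => - gg P c q (y, t)) (Icc 0 v0) := by
    refine LipschitzOnWith.of_dist_le_mul fun y hy y' hy' => ?_
    have := hlip.dist_le_mul (y, t) (hΩ y hy.1 hy.2) (y', t) (hΩ y' hy'.1 hy'.2)
    rw [dist_neg_neg]
    refine this.trans_eq ?_
    congr 1
    rw [Prod.dist_eq]
    simp
  have h2 := lip_path (η := c - 2 * s) (W := ∅) hv00.le hψ MeasurableSet.empty hc'.le (by
    filter_upwards [ht] with y hy hy0 _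
    have hyD : (y, t) ∈ Dom M k := Dom_left hk hv0 hy0.1 hy0.2.le
    have hm' : s < m y t := hmv.trans_le (hanti t y v0 hyD hv0 hy0.2.le)
    obtain ⟨D, hD, hD2⟩ := hy hyD hm'
    have h3 : HasDerivAt (fun y : ℝ => (y, t)) (1, 0) y :=
      (hasDerivAt_id y).prodMk (hasDerivAt_const y t)
    have h4 := ((gg_fderiv (c := c) (q := q) hD).comp_hasDerivAt y h3).neg
    have h5 : deriv (fun y => - gg P c q (y, t)) y = c - D (1, 0) := by
      refine (HasDerivAt.deriv h4).trans ?_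
      simp
    rw [h5]
    linarith)
  simp only [empty_inter, measure_empty, ENNReal.toReal_zero, mul_zero, sub_zero] at h2
  have h6 : gg P c q (0, t) ≤ 0 := hle (0, t) (hΩ 0 le_rfl hv00.le)
  linarith

/-- **TEXT II, real-analysis end** (domain of doc 1951): the record `t = θ (1 - v)`, good heights
(W), (B) and the a.e. table give `c ≤ 2 s`. -/
theorem end_lin (hk : 0 < k) (hq : 0 < q) (hs : 0 ≤ s) (hθ : 0 < θ) (hM1 : 1 + k ≤ M)
    (hM2 : θ ≤ M)
    (hP : LipschitzOnWith K (fun x : ℝ × ℝ => P x.1 x.2) (Om M k))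
    (hle : ∀ x ∈ Om M k, P x.1 x.2 - c * x.1 + q * x.2 ≤ 0)
    (heq : ∀ v ∈ Icc (0 : ℝ) 1, P v (θ * (1 - v)) - c * v + q * (θ * (1 - v)) = 0)
    (hm : Measurable fun x : ℝ × ℝ => m x.1 x.2)
    (hanti : ∀ t v v', (v, t) ∈ Dom M k → (v', t) ∈ Dom M k → v ≤ v' → m v' t ≤ m v t)
    (hW : ∀ᵐ t : ℝ, ∀ v, (v, t) ∈ Dom M k → t < θ * (1 - v) → 0 < m v t)
    (hB : θ < k → ∀ᵐ t : ℝ, t ∈ Ioo 0 θ → ∃ v, (v, t) ∈ Dom M k ∧ θ * (1 - v) < t ∧ 0 < m v t)
    (h5 : ∀ᵐ x : ℝ × ℝ, x ∈ Dom M k → 0 < m x.1 x.2 →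
      ∃ D : ℝ × ℝ →L[ℝ] ℝ, HasFDerivAt (fun x : ℝ × ℝ => P x.1 x.2) D x ∧
        (k ≠ 1 → D (1, 0) - k / 2 * D (0, 1) ≤ 2 * s) ∧
        (k = 1 → D (1, 0) - D (0, 1) ≤ s + m x.1 x.2 ∧ (s < m x.1 x.2 → D (1, 0) ≤ 2 * s))) :
    c ≤ 2 * s := by
  by_contra hcon
  push Not at hcon
  set g := gg P c q with hg
  set K' : ℝ≥0 := K + Real.toNNReal (|c| + |q|) with hK'
  have hlip : LipschitzOnWith K' g (Om M k) := gg_lip hP
  have hη : 0 < c - 2 * s := by linarith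
  -- record points are in the closed domain
  have hrecΩ : ∀ v ∈ Icc (0 : ℝ) 1, (v, θ * (1 - v)) ∈ Om M k := by
    intro v hv
    refine ⟨hv.1, hv.2, mul_nonneg hθ.le (by linarith [hv.2]), ?_⟩
    simp only
    have h1 : (1 + k) * v ≤ M * v := mul_le_mul_of_nonneg_right hM1 hv.1
    have h2 : θ * (1 - v) ≤ M * (1 - v) := mul_le_mul_of_nonneg_right hM2 (by linarith [hv.2])
    nlinarith
  -- the slope
  obtain ⟨μ, hμ0, hμk, hμ1⟩ : ∃ μ : ℝ, 0 < μ ∧ μ ≤ k ∧ ((k ≠ 1 ∧ μ = k / 2) ∨ (k = 1 ∧ μ = 1)) := by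
    by_cases h : k = 1
    · exact ⟨1, one_pos, h.ge, Or.inr ⟨h, rfl⟩⟩
    · exact ⟨k / 2, by positivity, by linarith, Or.inl ⟨h, rfl⟩⟩
  -- the good points
  set D : Set (ℝ × ℝ) := {x | x ∈ Dom M k ∧ 0 < m x.1 x.2 ∧ (k = 1 → m x.1 x.2 ≤ s)} with hD
  have hd : ∀ᵐ z : ℝ × ℝ, z ∈ D → c - 2 * s ≤ deriv (fun y => g (z.1 - y, z.2 + μ * y)) 0 := by
    filter_upwards [h5] with z hz hzD
    obtain ⟨hz1, hz2, hz3⟩ := hzD
    obtain ⟨L, hL, hL1, hL2⟩ := hz hz1 hz2
    rw [hg, deriv_gg hL]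
    have hμq : 0 < μ * q := mul_pos hμ0 hq
    rcases hμ1 with ⟨h1, h2⟩ | ⟨h1, h2⟩
    · have := hL1 h1
      rw [h2] at hμq ⊢
      linarith
    · have h3 := (hL2 h1).1
      have h4 := hz3 h1
      rw [h2] at hμq ⊢
      linarith
  -- the threshold near the record, `k = 1`
  have hexit : ∀ᵐ t : ℝ, k = 1 → ∀ v, (v, t) ∈ Dom M k → s < m v t →
      g (v, t) ≤ -(c - 2 * s) * v := by
    by_cases h : k = 1
    · have h6 := exit' (m := m) (q := q) hk hs hcon hP hle hanti (by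
        filter_upwards [h5] with x hx hxI hxm
        obtain ⟨L, hL, -, hL2⟩ := hx hxI (hs.trans_lt hxm)
        exact ⟨L, hL, (hL2 h).2 hxm⟩)
      filter_upwards [h6] with t ht _
      exact ht
    · exact Eventually.of_forall fun t h' => absurd h' h
  -- bad heights of measure zero
  obtain ⟨N, hNm, hN0, hNsub⟩ : ∃ N : Set ℝ, MeasurableSet N ∧ volume N = 0 ∧ ∀ t ∉ N,
      (∀ v, (v, t) ∈ Dom M k → t < θ * (1 - v) → 0 < m v t) ∧
      (k = 1 → ∀ v, (v, t) ∈ Dom M k → s < m v t → g (v, t) ≤ -(c - 2 * s) * v) := by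
    set A : Set ℝ := {t | ¬ ((∀ v, (v, t) ∈ Dom M k → t < θ * (1 - v) → 0 < m v t) ∧
      (k = 1 → ∀ v, (v, t) ∈ Dom M k → s < m v t → g (v, t) ≤ -(c - 2 * s) * v))} with hA
    refine ⟨toMeasurable volume A, measurableSet_toMeasurable _ _, ?_, fun t ht => ?_⟩
    · rw [measure_toMeasurable]
      exact hW.and hexit
    · by_contra hcon'
      exact ht (subset_toMeasurable _ _ hcon')
  -- near the record `m ≤ s` if `k = 1`
  have hnear : ∀ v0 ∈ Ioo (0 : ℝ) 1, ∃ ρ > 0, ∀ t ∉ N, ∀ v, (v, t) ∈ Dom M k →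
      |v - v0| < ρ → |t - θ * (1 - v0)| < ρ → k = 1 → m v t ≤ s := by
    intro v0 hv0
    refine ⟨min (v0 / 2) ((c - 2 * s) * v0 / (2 * (K' + 1))), ?_, ?_⟩
    · have h1 := hv0.1
      have h2 : 0 < (c - 2 * s) * v0 := mul_pos (by linarith) h1
      have h3 : (0 : ℝ) < 2 * (K' + 1) := by positivity
      exact lt_min (by linarith) (div_pos h2 h3)
    · intro t htN v hv hvv htt hk1
      by_contra hms
      push Not at hms
      have h1 := (hNsub t htN).2 hk1 v hv hms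
      have h2 := hlip.dist_le_mul (v, t) (Dom_sub hv)
        (v0, θ * (1 - v0)) (hrecΩ v0 (Ioo_subset_Icc_self hv0))
      have h3 : g (v0, θ * (1 - v0)) = 0 := heq v0 (Ioo_subset_Icc_self hv0)
      rw [h3, dist_zero_right, Prod.dist_eq, Real.dist_eq, Real.dist_eq] at h2
      have h4 : max |v - v0| |t - θ * (1 - v0)| < (c - 2 * s) * v0 / (2 * (K' + 1)) :=
        max_lt (hvv.trans_le (min_le_right _ _)) (htt.trans_le (min_le_right _ _))
      have h5 : -g (v, t) ≤ K' * max |v - v0| |t - θ * (1 - v0)| :=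
        (neg_le_abs _).trans h2
      have h6 : (K' : ℝ) * max |v - v0| |t - θ * (1 - v0)| ≤
          (K' + 1) * ((c - 2 * s) * v0 / (2 * (K' + 1))) :=
        mul_le_mul (by linarith) h4.le (le_max_of_le_left (abs_nonneg _)) (by positivity)
      have h7 : ((K' : ℝ) + 1) * ((c - 2 * s) * v0 / (2 * (K' + 1))) = (c - 2 * s) * v0 / 2 := by
        have : (0 : ℝ) < (K' : ℝ) + 1 := by positivity
        field_simp
      have h8 : v0 / 2 < v := by
        have := (abs_lt.1 (hvv.trans_le (min_le_left _ _))).1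
        linarith
      have h10 : (c - 2 * s) * (v0 / 2) < (c - 2 * s) * v := mul_lt_mul_of_pos_left h8 hη
      linarith
  rcases lt_or_ge θ k with hθk | hθk
  · -- near side
    have hBk := hB hθk
    set E : ℕ → Set ℝ := fun n => {t | t ∈ Ioo 0 θ ∧
      (1 + k) * (1 - t / θ + 1 / ((n : ℝ) + 1)) + t < M ∧ 1 - t / θ + 1 / ((n : ℝ) + 1) < 1 ∧
      0 < m (1 - t / θ + 1 / ((n : ℝ) + 1)) t} with hE
    have hEm : ∀ n, MeasurableSet (E n) := by
      intro n
      have m1 : Measurable fun t : ℝ => 1 - t / θ + 1 / ((n : ℝ) + 1) := by fun_prop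
      have m1' : Measurable fun t : ℝ => (1 + k) * (1 - t / θ + 1 / ((n : ℝ) + 1)) + t := by
        fun_prop
      have m2 : Measurable fun t : ℝ => ((1 - t / θ + 1 / ((n : ℝ) + 1), t) : ℝ × ℝ) := by fun_prop
      have m3 : Measurable fun t : ℝ => m (1 - t / θ + 1 / ((n : ℝ) + 1)) t := hm.comp m2
      exact measurableSet_Ioo.inter ((measurableSet_lt m1' measurable_const).inter
        ((measurableSet_lt m1 measurable_const).inter (measurableSet_lt measurable_const m3)))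
    have hcover : ∀ᵐ t : ℝ, t ∈ Ioo 0 θ → ∃ n, t ∈ E n := by
      filter_upwards [hBk] with t ht htI
      obtain ⟨v, hv, hv1, hv2⟩ := ht htI
      have h1 : 1 - t / θ < v := by
        have : θ * (1 - v) / θ < t / θ := by gcongr
        rw [mul_div_cancel_left₀ _ hθ.ne'] at this
        linarith
      obtain ⟨n, hn⟩ := exists_nat_one_div_lt (show 0 < v - (1 - t / θ) by linarith)
      have h2 : 0 < t / θ := div_pos htI.1 hθ
      have h3 : t / θ < 1 := by rw [div_lt_one hθ]; exact htI.2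
      have h4 : (0 : ℝ) < 1 / ((n : ℝ) + 1) := by positivity
      have h6 : (1 - t / θ + 1 / ((n : ℝ) + 1), t) ∈ Dom M k :=
        Dom_left hk hv (by linarith) (by linarith)
      exact ⟨n, htI, h6.2.2.2, h6.2.1, hv2.trans_le (hanti t _ v h6 hv (by linarith))⟩
    obtain ⟨n, hn⟩ : ∃ n, volume (E n) ≠ 0 := by
      by_contra hcon'
      push Not at hcon'
      have h1 : volume (⋃ n, E n) = 0 := measure_iUnion_null hcon'
      have h2 : volume (Ioo 0 θ) = 0 := by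
        have h3 : ∀ᵐ t : ℝ, t ∉ ⋃ n, E n := measure_eq_zero_iff_ae_notMem.1 h1
        refine measure_eq_zero_iff_ae_notMem.2 ?_
        filter_upwards [hcover, h3] with t ht ht3 htI
        exact ht3 (mem_iUnion.2 (ht htI))
      rw [Real.volume_Ioo] at h2
      simp at h2
      linarith
    -- a density point
    obtain ⟨t0, ht0E, ht0d⟩ : ∃ t0 ∈ E n, ∀ ε : ℝ, 0 < ε → ∀ᶠ h in 𝓝[>] (0 : ℝ),
        volume ((E n)ᶜ ∩ Icc t0 (t0 + h)) ≤ ENNReal.ofReal (ε * h) := by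
      by_contra hcon'
      push Not at hcon'
      apply hn
      refine measure_eq_zero_iff_ae_notMem.2 ?_
      filter_upwards [ae_right_density (hEm n)] with t ht htE
      obtain ⟨ε, hε, h1⟩ := hcon' t htE
      refine h1 ?_
      filter_upwards [ht htE ε hε] with h hh
      exact not_lt.2 hh
    have ht0I : t0 ∈ Ioo 0 θ := ht0E.1
    set v0 : ℝ := 1 - t0 / θ with hv0
    have hv0I : v0 ∈ Ioo (0 : ℝ) 1 := by
      have h1 : 0 < t0 / θ := div_pos ht0I.1 hθ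
      have h2 : t0 / θ < 1 := by rw [div_lt_one hθ]; exact ht0I.2
      exact ⟨by rw [hv0]; linarith, by rw [hv0]; linarith⟩
    have hrec : θ * (1 - v0) = t0 := by rw [hv0]; field_simp; ring
    obtain ⟨ρ, hρ, hρs⟩ := hnear v0 hv0I
    -- bad heights
    have hdens : ∀ ε : ℝ, 0 < ε → ∀ᶠ h in 𝓝[>] (0 : ℝ),
        volume (((E n)ᶜ ∪ N) ∩ Icc t0 (t0 + h)) ≤ ENNReal.ofReal (ε * h) := by
      intro ε hε
      filter_upwards [ht0d ε hε] with h hh
      rw [union_inter_distrib_right]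
      refine (measure_union_le _ _).trans ?_
      have : volume (N ∩ Icc t0 (t0 + h)) = 0 := measure_mono_null inter_subset_left hN0
      rw [this, add_zero]
      exact hh
    set N1 : ℝ := 1 / ((n : ℝ) + 1) with hN1
    have hN1p : 0 < N1 := by positivity
    -- the record point is interior
    have hroom : (1 + k) * v0 + t0 < M := by
      have h1 : (1 + k) * v0 + t0 = (1 + k) * v0 + θ * (1 - v0) := by rw [hrec]
      rw [h1]
      have h2 : θ * (1 - v0) < (1 + k) * (1 - v0) :=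
        mul_lt_mul_of_pos_right (by linarith) (by linarith [hv0I.2])
      nlinarith
    set δ : ℝ := min (min ρ (ρ / μ)) (min (v0 / 2) (θ * N1 / μ)) with hδ
    have hδ0 : 0 < δ := by
      refine lt_min (lt_min hρ (div_pos hρ hμ0)) (lt_min (by linarith [hv0I.1]) ?_)
      positivity
    have hδ1 : δ ≤ ρ := (min_le_left _ _).trans (min_le_left _ _)
    have hδ2 : δ ≤ ρ / μ := (min_le_left _ _).trans (min_le_right _ _)
    have hδ3 : δ ≤ v0 / 2 := (min_le_right _ _).trans (min_le_left _ _)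
    have hδ4 : δ ≤ θ * N1 / μ := (min_le_right _ _).trans (min_le_right _ _)
    rw [le_div_iff₀ hμ0] at hδ2 hδ4
    have hmemD : ∀ y ∈ Icc 0 δ, ∀ v ∈ Icc (v0 - δ) (v0 - y), (v, t0 + μ * y) ∈ Dom M k := by
      intro y hy v hv
      have hμy : 0 ≤ μ * y := mul_nonneg hμ0.le hy.1
      refine ⟨?_, ?_, ?_, ?_⟩
      · simp only; linarith [hv.1, hv0I.1]
      · simp only; linarith [hv.2, hy.1, hv0I.2]
      · simp only; linarith [ht0I.1]
      · simp only
        have h1 : (1 + k) * v ≤ (1 + k) * (v0 - y) := mul_le_mul_of_nonneg_left hv.2 (by linarith)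
        have h2 : μ * y ≤ k * y := mul_le_mul_of_nonneg_right hμk hy.1
        nlinarith [hy.1]
    refine no_contact' hlip hle
      (by rw [hg]; have := heq v0 (Ioo_subset_Icc_self hv0I); rw [hrec] at this; exact this)
      hμ0 hη hd ((hEm n).compl.union hNm) hdens hδ0 (fun y hy v hv => Dom_sub (hmemD y hy v hv)) ?_
    intro y hy hyW v hv
    have hvD := hmemD y (Ioo_subset_Icc_self hy) v (Ioo_subset_Icc_self hv)
    have hμy : 0 < μ * y := mul_pos hμ0 hy.1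
    have hμy' : μ * y < δ * μ := by rw [mul_comm δ]; exact mul_lt_mul_of_pos_left hy.2 hμ0
    rw [mem_union, not_or, mem_compl_iff, not_not] at hyW
    obtain ⟨hyE, hyN⟩ := hyW
    refine ⟨hvD, ?_, ?_⟩
    · have h1 : (t0 + μ * y) / θ < 1 := by rw [div_lt_one hθ]; exact hyE.1.2
      have h3 : (1 - (t0 + μ * y) / θ + N1, t0 + μ * y) ∈ Dom M k :=
        ⟨by simp only; linarith, hyE.2.2.1, hvD.2.2.1, hyE.2.1⟩
      refine hyE.2.2.2.trans_le (hanti _ v _ hvD h3 ?_)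
      have h4 : μ * y / θ < N1 := by
        rw [div_lt_iff₀ hθ, mul_comm N1]; linarith
      have h2 : 1 - (t0 + μ * y) / θ = v0 - μ * y / θ := by rw [hv0]; ring
      rw [h2]
      linarith [hv.2, hy.1]
    · refine hρs _ hyN v hvD ?_ ?_
      · rw [abs_lt]
        constructor <;> linarith [hv.1, hv.2, hy.1]
      · rw [hrec, abs_lt]
        constructor <;> linarith
  · -- below the record
    obtain ⟨v0, hv0I⟩ : ∃ v0 : ℝ, v0 ∈ Ioo (0 : ℝ) 1 := ⟨1 / 2, by constructor <;> norm_num⟩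
    obtain ⟨t0, ht0⟩ : ∃ t0 : ℝ, t0 = θ * (1 - v0) := ⟨_, rfl⟩
    have ht0p : 0 < t0 := by
      rw [ht0]; exact mul_pos hθ (by linarith [hv0I.2])
    obtain ⟨ρ, hρ, hρs⟩ := hnear v0 hv0I
    have hrec := hrecΩ v0 (Ioo_subset_Icc_self hv0I)
    rw [← ht0] at hrec
    have hroom : (1 + k) * v0 + t0 ≤ M := hrec.2.2.2
    have hg1 : g (v0, t0) = 0 := by rw [ht0]; exact heq v0 (Ioo_subset_Icc_self hv0I)
    set δ : ℝ := min (min ρ (ρ / μ)) (v0 / 2) with hδ
    have hδ0 : 0 < δ := lt_min (lt_min hρ (div_pos hρ hμ0)) (by linarith [hv0I.1])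
    have hδ1 : δ ≤ ρ := (min_le_left _ _).trans (min_le_left _ _)
    have hδ2 : δ ≤ ρ / μ := (min_le_left _ _).trans (min_le_right _ _)
    have hδ3 : δ ≤ v0 / 2 := min_le_right _ _
    rw [le_div_iff₀ hμ0] at hδ2
    refine no_contact' hlip hle hg1 hμ0 hη hd hNm (fun ε hε => ?_) hδ0 ?_ ?_
    · refine Eventually.of_forall fun h => ?_
      have : volume (N ∩ Icc t0 (t0 + h)) = 0 := measure_mono_null inter_subset_left hN0
      rw [this]
      exact bot_le
    · intro y hy v hv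
      have hμy : 0 ≤ μ * y := mul_nonneg hμ0.le hy.1
      refine ⟨?_, ?_, ?_, ?_⟩
      · simp only; linarith [hv.1, hv0I.1]
      · simp only; linarith [hv.2, hy.1, hv0I.2]
      · simp only; linarith
      · simp only
        have h1 : (1 + k) * v ≤ (1 + k) * (v0 - y) := mul_le_mul_of_nonneg_left hv.2 (by linarith)
        have h2 : μ * y ≤ k * y := mul_le_mul_of_nonneg_right hμk hy.1
        nlinarith [hy.1]
    intro y hy hyN v hv
    have hμy : 0 < μ * y := mul_pos hμ0 hy.1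
    have hμy' : μ * y < δ * μ := by rw [mul_comm δ]; exact mul_lt_mul_of_pos_left hy.2 hμ0
    have hvD : (v, t0 + μ * y) ∈ Dom M k := by
      refine ⟨?_, ?_, ?_, ?_⟩
      · simp only; linarith [hv.1, hv0I.1]
      · simp only; linarith [hv.2, hy.1, hv0I.2]
      · simp only; linarith
      · simp only
        have h1 : (1 + k) * v < (1 + k) * (v0 - y) := mul_lt_mul_of_pos_left hv.2 (by linarith)
        have h2 : μ * y ≤ k * y := mul_le_mul_of_nonneg_right hμk hy.1.le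
        nlinarith [hy.1]
    refine ⟨hvD, ?_, ?_⟩
    · refine (hNsub _ hyN).1 v hvD ?_
      have h1 : θ * (1 - v) > θ * (1 - v0 + y) := by
        refine mul_lt_mul_of_pos_left ?_ hθ
        linarith [hv.2]
      have h2 : μ * y ≤ θ * y := mul_le_mul_of_nonneg_right (hμk.trans hθk) hy.1.le
      rw [ht0]
      linarith
    · refine hρs _ hyN v hvD ?_ ?_
      · rw [abs_lt]
        constructor <;> linarith [hv.1, hv.2, hy.1]
      · rw [← ht0, abs_lt]
        constructor <;> linarith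

end Crest.Agent.R138.End2615
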