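import Mathlib

/-!
# R138: the real-analysis end of LOCAL GROWTH (helper615)

Frame (i): `g (v, t) = P v t - b v + q t ≤ 0`, `g = 0` on the record curve `t = τ v`.
One straight path of slope `μ` from a generic record point.
-/

set_option autoImplicit false
set_option linter.unusedVariables false

open Set Filter Topology MeasureTheory
open scoped NNReal ENNReal

namespace Crest.Agent.R138.End615

/-- lower bound of the increment of a Lipschitz function on `[0, h]` whose derivative is `≥ η`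
off `W`. -/
theorem lip_path {φ : ℝ → ℝ} {K : ℝ≥0} {h η : ℝ} (hh : 0 ≤ h)
    (hφ : LipschitzOnWith K φ (Icc 0 h)) {W : Set ℝ} (hW : MeasurableSet W) (hη : 0 ≤ η)
    (hd : ∀ᵐ y : ℝ, y ∈ Ioo 0 h → y ∉ W → η ≤ deriv φ y) :
    η * h - (η + K) * (volume (W ∩ Icc 0 h)).toReal ≤ φ h - φ 0 := by
  have hac : AbsolutelyContinuousOnInterval φ 0 h := by
    apply LipschitzOnWith.absolutelyContinuousOnInterval (K := K)
    rwa [uIcc_of_le hh]
  rw [← hac.integral_deriv_eq_sub, intervalIntegral.integral_of_le hh]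
  have e1 : η * h - (η + K) * (volume (W ∩ Icc 0 h)).toReal =
      ∫ y in Ioc 0 h, (η - W.indicator (fun _ => η + (K : ℝ)) y) := by
    rw [integral_sub (integrable_const _)]
    · rw [integral_const, integral_indicator hW, integral_const]
      simp only [measureReal_def, Measure.restrict_apply MeasurableSet.univ, univ_inter,
        Real.volume_Ioc, sub_zero, smul_eq_mul, ENNReal.toReal_ofReal hh]
      have e2 : volume (W ∩ Icc 0 h) = ((volume.restrict (Ioc 0 h)) W) := by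
        rw [Measure.restrict_apply hW]
        apply measure_congr
        exact (ae_eq_refl W).inter Ioc_ae_eq_Icc.symm
      rw [e2]
      ring
    · exact (integrable_const _).indicator hW
  rw [e1]
  have hint : IntegrableOn (deriv φ) (Ioc 0 h) := by
    have := hac.intervalIntegrable_deriv
    rwa [intervalIntegrable_iff_integrableOn_Ioc_of_le hh] at this
  refine integral_mono_ae ?_ hint ?_
  · exact (integrable_const _).sub ((integrable_const _).indicator hW)
  · rw [EventuallyLE, ae_restrict_iff' measurableSet_Ioc]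
    have hne : ∀ᵐ y : ℝ, y ≠ h := by
      rw [ae_iff]; simp
    filter_upwards [hd, hne] with y hy hyh hy0
    have hyI : y ∈ Ioo 0 h := ⟨hy0.1, lt_of_le_of_ne hy0.2 hyh⟩
    by_cases hyW : y ∈ W
    · rw [indicator_of_mem hyW]
      have : ‖deriv φ y‖ ≤ K :=
        norm_deriv_le_of_lipschitzOn (Icc_mem_nhds hyI.1 hyI.2) hφ
      have := (abs_le.1 this).1
      linarith
    · rw [indicator_of_notMem hyW]
      have := hy hyI hyW
      linarith

/-- almost all parallel segments of slope `μ` see only good points -/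
theorem ae_parallel {p : ℝ × ℝ → Prop} (hp : ∀ᵐ x : ℝ × ℝ, p x) {μ : ℝ} (hμ : μ ≠ 0)
    (v0 t0 : ℝ) : ∀ᵐ x : ℝ, ∀ᵐ y : ℝ, p (v0 + x - y, t0 + μ * y) := by
  set N : Set (ℝ × ℝ) := toMeasurable volume {x | ¬ p x} with hN
  have hNm : MeasurableSet N := measurableSet_toMeasurable _ _
  have hN0 : volume N = 0 := by rw [hN, measure_toMeasurable]; exact hp
  have hsub : ∀ x, x ∉ N → p x := fun x hx => by
    by_contra hcon
    exact hx (subset_toMeasurable _ _ hcon)
  have h0 : ∀ᵐ z : ℝ × ℝ, z.swap ∉ N := by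
    have h00 : ∀ᵐ z : ℝ × ℝ, z ∉ N := measure_eq_zero_iff_ae_notMem.1 hN0
    exact (Measure.measurePreserving_swap (μ := (volume : Measure ℝ))
      (ν := (volume : Measure ℝ))).quasiMeasurePreserving.ae h00
  have h1 : ∀ᵐ t : ℝ, ∀ᵐ v : ℝ, (v, t) ∉ N := Measure.ae_ae_of_ae_prod h0
  have hq : Measure.QuasiMeasurePreserving (fun y : ℝ => t0 + μ * y) volume volume := by
    have ha : Measure.QuasiMeasurePreserving (fun y : ℝ => μ * y) volume volume := by
      refine ⟨by fun_prop, ?_⟩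
      rw [Real.map_volume_mul_left hμ]
      exact Measure.smul_absolutelyContinuous
    exact (measurePreserving_add_left volume t0).quasiMeasurePreserving.comp ha
  have h2 : ∀ᵐ y : ℝ, ∀ᵐ v : ℝ, (v, t0 + μ * y) ∉ N := hq.ae h1
  have h3 : ∀ᵐ y : ℝ, ∀ᵐ x : ℝ, (v0 + x - y, t0 + μ * y) ∉ N := by
    filter_upwards [h2] with y hy
    have h4 := (measurePreserving_add_right volume (v0 - y)).quasiMeasurePreserving.ae hy
    filter_upwards [h4] with x hx
    have : v0 + x - y = x + (v0 - y) := by ring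
    rwa [this]
  have h5 : ∀ᵐ x : ℝ, ∀ᵐ y : ℝ, (v0 + x - y, t0 + μ * y) ∉ N := by
    refine (Measure.ae_ae_comm ?_).2 h3
    have hm : Measurable fun x : ℝ × ℝ => (v0 + x.1 - x.2, t0 + μ * x.2) := by fun_prop
    exact (hm hNm).compl
  filter_upwards [h5] with x hx
  filter_upwards [hx] with y hy
  exact hsub _ hy

/-- the increment of `g` along a straight path of slope `μ` -/
theorem plane_path {g : ℝ × ℝ → ℝ} {K : ℝ≥0} {Ω : Set (ℝ × ℝ)} (hg : LipschitzOnWith K g Ω)
    {v0 t0 μ h r η : ℝ} (hμ : 0 < μ) (hh : 0 < h) (hr : 0 < r)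
    (hΩ : ∀ x ∈ Icc (-r) 0, ∀ y ∈ Icc 0 h, (v0 + x - y, t0 + μ * y) ∈ Ω)
    {W : Set ℝ} (hW : MeasurableSet W) (hη : 0 ≤ η) {D : Set (ℝ × ℝ)}
    (hd : ∀ᵐ z : ℝ × ℝ, z ∈ D → η ≤ deriv (fun y => g (z.1 - y, z.2 + μ * y)) 0)
    (hD : ∀ x ∈ Ioo (-r) 0, ∀ y ∈ Ioo 0 h, t0 + μ * y ∉ W → (v0 + x - y, t0 + μ * y) ∈ D) :
    η * h - (η + K * max 1 μ) * (volume ({y | t0 + μ * y ∈ W} ∩ Icc 0 h)).toReal ≤
      g (v0 - h, t0 + μ * h) - g (v0, t0) := by
  have hpar := ae_parallel hd hμ.ne' v0 t0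
  set μ' : ℝ≥0 := ⟨μ, hμ.le⟩ with hμ'
  have hK : ((K * max 1 μ' : ℝ≥0) : ℝ) = K * max 1 μ := by push_cast; rfl
  have hlip : ∀ x ∈ Icc (-r) 0,
      LipschitzOnWith (K * max 1 μ') (fun y => g (v0 + x - y, t0 + μ * y)) (Icc 0 h) := by
    intro x hx
    refine LipschitzOnWith.of_dist_le_mul fun y hy y' hy' => ?_
    refine (hg.dist_le_mul _ (hΩ x hx y hy) _ (hΩ x hx y' hy')).trans ?_
    rw [hK, mul_assoc]
    refine mul_le_mul_of_nonneg_left ?_ K.2
    rw [Prod.dist_eq, Real.dist_eq, Real.dist_eq, Real.dist_eq]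
    refine max_le ?_ ?_
    · have e : v0 + x - y - (v0 + x - y') = -(y - y') := by ring
      simp only
      rw [e, abs_neg]
      calc |y - y'| = 1 * |y - y'| := (one_mul _).symm
        _ ≤ max 1 μ * |y - y'| := mul_le_mul_of_nonneg_right (le_max_left _ _) (abs_nonneg _)
    · have e : t0 + μ * y - (t0 + μ * y') = μ * (y - y') := by ring
      simp only
      rw [e, abs_mul, abs_of_pos hμ]
      exact mul_le_mul_of_nonneg_right (le_max_right _ _) (abs_nonneg _)
  have hkey : ∀ᵐ x : ℝ, x ∈ Ioo (-r) 0 →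
      η * h - (η + K * max 1 μ) * (volume ({y | t0 + μ * y ∈ W} ∩ Icc 0 h)).toReal ≤
      g (v0 + x - h, t0 + μ * h) - g (v0 + x, t0) := by
    filter_upwards [hpar] with x hx hxr
    have hWm : MeasurableSet {y : ℝ | t0 + μ * y ∈ W} := by
      have : Measurable fun y : ℝ => t0 + μ * y := by fun_prop
      exact this hW
    have h1 := lip_path hh.le (hlip x (Ioo_subset_Icc_self hxr)) hWm hη (by
      filter_upwards [hx] with y hy hy0 hyW
      have h2 := hy (hD x hxr y hy0 hyW)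
      have h3 : deriv (fun y => g (v0 + x - y, t0 + μ * y)) y =
          deriv (fun y' => g (v0 + x - y - y', t0 + μ * y + μ * y')) 0 := by
        have h4 := deriv_comp_const_add (f := fun y => g (v0 + x - y, t0 + μ * y)) y 0
        simp only [add_zero] at h4
        rw [← h4]
        congr 1
        funext y'
        congr 1
        ext <;> simp <;> ring
      rw [h3]
      exact h2)
    rw [hK] at h1
    simpa using h1
  refine le_of_forall_pos_le_add fun ε hε => ?_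
  -- choose a small shift
  set ρ : ℝ := min r (ε / (2 * (K + 1))) with hρ
  have hρ0 : 0 < ρ := lt_min hr (by positivity)
  obtain ⟨x, hx, hxk⟩ : ∃ x ∈ Ioo (-ρ) 0, x ∈ Ioo (-r) 0 →
      η * h - (η + K * max 1 μ) * (volume ({y | t0 + μ * y ∈ W} ∩ Icc 0 h)).toReal ≤
      g (v0 + x - h, t0 + μ * h) - g (v0 + x, t0) := by
    by_contra hcon
    push Not at hcon
    have h1 : volume (Ioo (-ρ) 0) = 0 := by
      refine measure_mono_null (fun x hx => ?_) hkey
      obtain ⟨h2, h3⟩ := hcon x hx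
      simp only [mem_compl_iff, Set.mem_ofPred_eq, Classical.not_imp, not_le]
      exact ⟨h2, h3⟩
    rw [Real.volume_Ioo] at h1
    simp at h1
    linarith
  have hxr : x ∈ Ioo (-r) 0 := ⟨by linarith [hx.1, min_le_left r (ε / (2 * (K + 1)))], hx.2⟩
  have h1 := hxk hxr
  have hxI : x ∈ Icc (-r) 0 := Ioo_subset_Icc_self hxr
  have h0I : (0 : ℝ) ∈ Icc (-r) 0 := ⟨by linarith, le_rfl⟩
  have hh0 : (0 : ℝ) ∈ Icc 0 h := ⟨le_rfl, hh.le⟩
  have hhh : h ∈ Icc 0 h := ⟨hh.le, le_rfl⟩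
  have h2 := hg.dist_le_mul _ (hΩ x hxI h hhh) _ (hΩ 0 h0I h hhh)
  have h3 := hg.dist_le_mul _ (hΩ x hxI 0 hh0) _ (hΩ 0 h0I 0 hh0)
  rw [Real.dist_eq, Prod.dist_eq, Real.dist_eq, Real.dist_eq] at h2 h3
  simp only [add_zero, sub_zero, mul_zero, sub_self, abs_zero] at h2 h3
  have e2 : |v0 + x - h - (v0 - h)| = -x := by
    rw [show v0 + x - h - (v0 - h) = x by ring, abs_of_neg hx.2]
  have e3 : |v0 + x - v0| = -x := by
    rw [show v0 + x - v0 = x by ring, abs_of_neg hx.2]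
  rw [e2, max_eq_left (by linarith [hx.2])] at h2
  rw [e3, max_eq_left (by linarith [hx.2])] at h3
  have h4 : (K : ℝ) * (-x) ≤ ε / 2 := by
    have h5 : -x ≤ ε / (2 * (K + 1)) := by
      have := hx.1
      have := min_le_right r (ε / (2 * (K + 1)))
      linarith
    have hK0 : (0 : ℝ) ≤ K := K.2
    calc (K : ℝ) * (-x) ≤ (K + 1) * (ε / (2 * (K + 1))) := by
          refine mul_le_mul (by linarith) h5 (by linarith [hx.2]) (by linarith)
      _ = ε / 2 := by field_simp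
  have h6 := (abs_le.1 h2).2
  have h7 := (abs_le.1 h3).1
  linarith

/-- right density points -/
theorem ae_right_density {N : Set ℝ} (hN : MeasurableSet N) : ∀ᵐ t : ℝ, t ∈ N → ∀ ε : ℝ, 0 < ε →
    ∀ᶠ h in 𝓝[>] (0 : ℝ), volume (Nᶜ ∩ Icc t (t + h)) ≤ ENNReal.ofReal (ε * h) := by
  filter_upwards [Besicovitch.ae_tendsto_measure_inter_div_of_measurableSet volume hN.compl]
    with t ht htN ε hε
  rw [indicator_of_notMem (by simpa using htN)] at ht
  have h1 := ht.eventually (gt_mem_nhds (show (0 : ℝ≥0∞) < ENNReal.ofReal (ε / 2) by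
    rw [ENNReal.ofReal_pos]; positivity))
  filter_upwards [h1, self_mem_nhdsWithin] with h hh1 (hh0 : 0 < h)
  rw [Real.volume_closedBall] at hh1
  have h2 := (ENNReal.div_lt_iff (Or.inl (by simpa using hh0)) (Or.inl ENNReal.ofReal_ne_top)).1 hh1
  refine (measure_mono ?_).trans h2.le |>.trans ?_
  · refine inter_subset_inter_right _ fun y hy => ?_
    rw [Metric.mem_closedBall, Real.dist_eq, abs_le]
    constructor <;> linarith [hy.1, hy.2]
  · rw [← ENNReal.ofReal_mul (by positivity)]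
    apply ENNReal.ofReal_le_ofReal
    linarith

theorem volume_pre {μ t0 h : ℝ} (hμ : 0 < μ) (W : Set ℝ) :
    volume ({y | t0 + μ * y ∈ W} ∩ Icc 0 h) =
      ENNReal.ofReal μ⁻¹ * volume (W ∩ Icc t0 (t0 + μ * h)) := by
  have e : {y | t0 + μ * y ∈ W} ∩ Icc 0 h =
      (μ * ·) ⁻¹' ((t0 + ·) ⁻¹' (W ∩ Icc t0 (t0 + μ * h))) := by
    ext y
    simp only [mem_inter_iff, Set.mem_ofPred_eq, mem_Icc, mem_preimage]
    constructor
    · rintro ⟨h1, h2, h3⟩
      exact ⟨h1, by nlinarith, by nlinarith⟩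
    · rintro ⟨h1, h2, h3⟩
      refine ⟨h1, ?_, ?_⟩
      · by_contra hcon
        push Not at hcon
        nlinarith
      · by_contra hcon
        push Not at hcon
        nlinarith
  rw [e, Real.volume_preimage_mul_left hμ.ne', measure_preimage_add, abs_of_pos (inv_pos.2 hμ)]

/-- **contact lemma**: no straight path of slope `μ` with increments `≥ η` starts at a zero of a
nonpositive `g` (bad heights of right density `0` allowed). -/
theorem no_contact {g : ℝ × ℝ → ℝ} {K : ℝ≥0} {v1 v2 t1 t2 μ η v0 t0 : ℝ}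
    (hg : LipschitzOnWith K g (Ioo v1 v2 ×ˢ Ioo t1 t2))
    (hg0 : ∀ x ∈ Ioo v1 v2 ×ˢ Ioo t1 t2, g x ≤ 0) (hv0 : v0 ∈ Ioo v1 v2) (ht0 : t0 ∈ Ioo t1 t2)
    (hg1 : g (v0, t0) = 0) (hμ : 0 < μ) (hη : 0 < η) {D : Set (ℝ × ℝ)}
    (hd : ∀ᵐ z : ℝ × ℝ, z ∈ D → η ≤ deriv (fun y => g (z.1 - y, z.2 + μ * y)) 0)
    {W : Set ℝ} (hW : MeasurableSet W)
    (hdens : ∀ ε : ℝ, 0 < ε → ∀ᶠ h in 𝓝[>] (0 : ℝ),
      volume (W ∩ Icc t0 (t0 + h)) ≤ ENNReal.ofReal (ε * h))
    {δ : ℝ} (hδ : 0 < δ)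
    (hD : ∀ y ∈ Ioo 0 δ, t0 + μ * y ∉ W → ∀ v ∈ Ioo (v0 - δ) (v0 - y), (v, t0 + μ * y) ∈ D) :
    False := by
  set K' : ℝ := η + K * max 1 μ with hK'
  have hK'0 : 0 < K' := by
    have : (0 : ℝ) ≤ K * max 1 μ := mul_nonneg K.2 (le_max_of_le_left zero_le_one)
    linarith
  have h1 := hdens (η / (2 * K')) (by positivity)
  have hmap : Tendsto (fun h : ℝ => μ * h) (𝓝[>] 0) (𝓝[>] 0) := by
    refine tendsto_nhdsWithin_iff.2 ⟨?_, ?_⟩
    · have : Tendsto (fun h : ℝ => μ * h) (𝓝 0) (𝓝 (μ * 0)) := by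
        exact (continuous_const.mul continuous_id).tendsto 0
      rw [mul_zero] at this
      exact this.mono_left nhdsWithin_le_nhds
    · filter_upwards [self_mem_nhdsWithin] with h (hh : 0 < h)
      exact mul_pos hμ hh
  have h2 := hmap.eventually h1
  have hsmall : ∀ᶠ h in 𝓝[>] (0 : ℝ), h < min (δ / 2) (min ((v0 - v1) / 2) ((t2 - t0) / μ)) := by
    apply nhdsWithin_le_nhds
    refine gt_mem_nhds ?_
    refine lt_min (by linarith) (lt_min (by linarith [hv0.1]) ?_)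
    exact div_pos (by linarith [ht0.2]) hμ
  obtain ⟨h, ⟨hh2, hh0⟩, hhs⟩ := ((h2.and self_mem_nhdsWithin).and hsmall).exists
  have hh0' : 0 < h := hh0
  have hhδ : h < δ / 2 := hhs.trans_le (min_le_left _ _)
  have hhv : h < (v0 - v1) / 2 := hhs.trans_le ((min_le_right _ _).trans (min_le_left _ _))
  have hht : h < (t2 - t0) / μ := hhs.trans_le ((min_le_right _ _).trans (min_le_right _ _))
  rw [lt_div_iff₀ hμ] at hht
  have hmem : ∀ x ∈ Icc (-h) 0, ∀ y ∈ Icc 0 h,
      (v0 + x - y, t0 + μ * y) ∈ Ioo v1 v2 ×ˢ Ioo t1 t2 := by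
    intro x hx y hy
    have e1 : 0 ≤ μ * y := mul_nonneg hμ.le hy.1
    have e2 : μ * y ≤ μ * h := mul_le_mul_of_nonneg_left hy.2 hμ.le
    exact ⟨⟨by linarith [hx.1, hy.2], by linarith [hx.2, hy.1, hv0.2]⟩,
      ⟨by linarith [ht0.1], by linarith⟩⟩
  have h3 := plane_path hg (v0 := v0) (t0 := t0) hμ hh0' hh0' hmem hW hη.le hd (by
    intro x hx y hy hyW
    refine hD y ⟨hy.1, by linarith [hy.2]⟩ hyW _ ⟨by linarith [hx.1, hy.2], by linarith [hx.2]⟩)
  have h4 : g (v0 - h, t0 + μ * h) ≤ 0 := by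
    apply hg0
    have := hmem 0 ⟨by linarith, le_rfl⟩ h ⟨hh0'.le, le_rfl⟩
    simpa using this
  rw [hg1, sub_zero] at h3
  have h5 : (volume ({y | t0 + μ * y ∈ W} ∩ Icc 0 h)).toReal ≤ η / (2 * K') * h := by
    rw [volume_pre hμ]
    apply ENNReal.toReal_le_of_le_ofReal (by positivity)
    calc ENNReal.ofReal μ⁻¹ * volume (W ∩ Icc t0 (t0 + μ * h))
        ≤ ENNReal.ofReal μ⁻¹ * ENNReal.ofReal (η / (2 * K') * (μ * h)) := by gcongr
      _ = ENNReal.ofReal (η / (2 * K') * h) := by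
          rw [← ENNReal.ofReal_mul (by positivity)]
          congr 1
          field_simp
  have h6 : K' * (volume ({y | t0 + μ * y ∈ W} ∩ Icc 0 h)).toReal ≤ η * h / 2 := by
    calc _ ≤ K' * (η / (2 * K') * h) := mul_le_mul_of_nonneg_left h5 hK'0.le
      _ = η * h / 2 := by field_simp
  have h7 : 0 < η * h := mul_pos hη hh0'
  linarith

end Crest.Agent.R138.End615
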