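import Mathlib

/-!
# R138, local growth: the END (strip lemma, doc 1929 par. 7)

A Lipschitz function `f ≤ 0` which vanishes on the line `t = -θ v` has, above (`θ ≤ μ`) resp. below
(`μ ≤ θ`) the line, a set of positive measure of points with `f_v - μ f_t ≥ -γ`, inside every set of
full local density near the line.
-/

set_option autoImplicit false

open MeasureTheory Set Filter Topology
open scoped NNReal ENNReal

namespace Crest.Agent.R138.End638

variable {g : ℝ × ℝ → ℝ} {U : Set (ℝ × ℝ)} {K : ℝ≥0}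

theorem norm_fst_one : ‖((1 : ℝ), (0 : ℝ))‖ = 1 := by simp [Prod.norm_def]
theorem norm_snd_one : ‖((0 : ℝ), (1 : ℝ))‖ = 1 := by simp [Prod.norm_def]

theorem fderiv_bound (hU : IsOpen U) (hg : LipschitzOnWith K g U) {p : ℝ × ℝ} (hp : p ∈ U)
    (y : ℝ × ℝ) (hy : ‖y‖ ≤ 1) : |fderiv ℝ g p y| ≤ K := by
  have h1 : ‖fderiv ℝ g p‖ ≤ K := norm_fderiv_le_of_lipschitzOn ℝ (hU.mem_nhds hp) hg
  calc |fderiv ℝ g p y| = ‖fderiv ℝ g p y‖ := rfl
    _ ≤ ‖fderiv ℝ g p‖ * ‖y‖ := ContinuousLinearMap.le_opNorm _ _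
    _ ≤ K * 1 := by
        apply mul_le_mul h1 hy (norm_nonneg _) K.coe_nonneg
    _ = K := mul_one _

theorem ae_diff (hU : IsOpen U) (hg : LipschitzOnWith K g U) :
    ∀ᵐ p : ℝ × ℝ, p ∈ U → DifferentiableAt ℝ g p := by
  filter_upwards [hg.ae_differentiableWithinAt_of_mem (μ := (volume : Measure (ℝ × ℝ)))] with p h hp
  exact (h hp).differentiableAt (hU.mem_nhds hp)

theorem ae_diff1 (hU : IsOpen U) (hg : LipschitzOnWith K g U) :
    ∀ᵐ t : ℝ, ∀ᵐ x : ℝ, (t, x) ∈ U → DifferentiableAt ℝ g (t, x) := by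
  have h := ae_diff hU hg
  rw [Measure.volume_eq_prod] at h
  exact Measure.ae_ae_of_ae_prod h

theorem ae_diff2 (hU : IsOpen U) (hg : LipschitzOnWith K g U) :
    ∀ᵐ x : ℝ, ∀ᵐ t : ℝ, (t, x) ∈ U → DifferentiableAt ℝ g (t, x) := by
  have h := ae_diff hU hg
  rw [Measure.volume_eq_prod] at h
  have h2 : ∀ᵐ p : ℝ × ℝ ∂((volume : Measure ℝ).prod (volume : Measure ℝ)),
      p.swap ∈ U → DifferentiableAt ℝ g p.swap :=
    (Measure.measurePreserving_swap (μ := (volume : Measure ℝ)) (ν := (volume : Measure ℝ))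
      ).quasiMeasurePreserving.ae h
  exact Measure.ae_ae_of_ae_prod h2

theorem int_snd (hg : LipschitzOnWith K g U) {t w : ℝ} (hw : 0 ≤ w)
    (hin : ∀ x ∈ Icc 0 w, (t, x) ∈ U)
    (hd : ∀ᵐ x : ℝ, (t, x) ∈ U → DifferentiableAt ℝ g (t, x)) :
    ∫ x in Ioc 0 w, fderiv ℝ g (t, x) (0, 1) = g (t, w) - g (t, 0) := by
  have hL : LipschitzOnWith K (fun x : ℝ => g (t, x)) (uIcc 0 w) := by
    intro x hx y hy
    rw [uIcc_of_le hw] at hx hy
    refine (hg (hin x hx) (hin y hy)).trans ?_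
    gcongr
    simp [Prod.edist_eq]
  have h1 := (hL.absolutelyContinuousOnInterval).integral_deriv_eq_sub
  rw [← h1, intervalIntegral.integral_of_le hw]
  refine setIntegral_congr_ae measurableSet_Ioc ?_
  filter_upwards [hd] with x hx hx2
  have h2 := hx (hin x ⟨hx2.1.le, hx2.2⟩)
  have h3 : HasDerivAt (fun x : ℝ => (t, x)) ((0 : ℝ), (1 : ℝ)) x :=
    (hasDerivAt_const x t).prodMk (hasDerivAt_id x)
  exact (h2.hasFDerivAt.comp_hasDerivAt x h3).deriv.symm

theorem int_fst (hg : LipschitzOnWith K g U) {x a b : ℝ} (hab : a ≤ b)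
    (hin : ∀ t ∈ Icc a b, (t, x) ∈ U)
    (hd : ∀ᵐ t : ℝ, (t, x) ∈ U → DifferentiableAt ℝ g (t, x)) :
    ∫ t in Ioc a b, fderiv ℝ g (t, x) (1, 0) = g (b, x) - g (a, x) := by
  have hL : LipschitzOnWith K (fun t : ℝ => g (t, x)) (uIcc a b) := by
    intro s hs t ht
    rw [uIcc_of_le hab] at hs ht
    refine (hg (hin s hs) (hin t ht)).trans ?_
    gcongr
    simp [Prod.edist_eq]
  have h1 := (hL.absolutelyContinuousOnInterval).integral_deriv_eq_sub
  rw [← h1, intervalIntegral.integral_of_le hab]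
  refine setIntegral_congr_ae measurableSet_Ioc ?_
  filter_upwards [hd] with t ht ht2
  have h2 := ht (hin t ⟨ht2.1.le, ht2.2⟩)
  have h3 : HasDerivAt (fun t : ℝ => (t, x)) ((1 : ℝ), (0 : ℝ)) t :=
    (hasDerivAt_id t).prodMk (hasDerivAt_const t x)
  exact (h2.hasFDerivAt.comp_hasDerivAt t h3).deriv.symm


theorem bound_line (hg : LipschitzOnWith K g U) (h0 : ∀ t, (t, (0 : ℝ)) ∈ U → g (t, 0) = 0)
    {t x : ℝ} (hx : 0 ≤ x) (ht : (t, (0 : ℝ)) ∈ U) (htx : (t, x) ∈ U) : |g (t, x)| ≤ K * x := by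
  have h1 := hg.dist_le_mul _ htx _ ht
  rw [h0 t ht, Real.dist_eq, sub_zero] at h1
  refine h1.trans ?_
  have : dist (t, x) (t, (0 : ℝ)) = x := by
    simp [Prod.dist_eq, abs_of_nonneg hx, hx]
  rw [this]

/-- the integral identity and lower bound on a rectangle -/
theorem rect (hU : IsOpen U) (hg : LipschitzOnWith K g U)
    (hle : ∀ p ∈ U, g p ≤ 0) (h0 : ∀ t, (t, (0 : ℝ)) ∈ U → g (t, 0) = 0)
    {c : ℝ → ℝ} (hc : Measurable c) {C : ℝ} (hC : ∀ t, |c t| ≤ C) {μ : ℝ}
    {A : Set ℝ} (hA : MeasurableSet A) (hcA : ∀ t ∈ A, c t ≤ 0)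
    {γ : ℝ} {a b w : ℝ} (hab : a < b) (hw : 0 < w)
    (hR : ∀ t ∈ Icc a b, ∀ x ∈ Icc 0 w, (t, x) ∈ U)
    (hF : ∀ᵐ t : ℝ, t ∈ A → t ∈ Icc a b → ∀ᵐ x : ℝ, x ∈ Ioc 0 w →
      c t * fderiv ℝ g (t, x) (0, 1) - μ * fderiv ℝ g (t, x) (1, 0) ≤ -γ) :
    γ * volume.real (A ∩ Ioc a b) ≤
      (2 * C + |μ|) * K * volume.real (Ioc a b \ A) + 2 * |μ| * K * w := by
  have hC0 : 0 ≤ C := (abs_nonneg _).trans (hC 0)
  set ν1 : Measure ℝ := volume.restrict (Ioc a b) with hν1
  set ν2 : Measure ℝ := volume.restrict (Ioc 0 w) with hν2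
  set G1 : ℝ × ℝ → ℝ := fun p => fderiv ℝ g p (0, 1) with hG1
  set G2 : ℝ × ℝ → ℝ := fun p => fderiv ℝ g p (1, 0) with hG2
  have hm1 : Measurable G1 := measurable_fderiv_apply_const ℝ g _
  have hm2 : Measurable G2 := measurable_fderiv_apply_const ℝ g _
  have hmem : ∀ᵐ p ∂(ν1.prod ν2), p ∈ Ioc a b ×ˢ Ioc 0 w := by
    rw [hν1, hν2, Measure.prod_restrict]
    exact ae_restrict_mem (measurableSet_Ioc.prod measurableSet_Ioc)
  have hb1 : ∀ᵐ p ∂(ν1.prod ν2), ‖G1 p‖ ≤ K := by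
    filter_upwards [hmem] with p hp
    exact fderiv_bound hU hg (hR p.1 (Ioc_subset_Icc_self hp.1) p.2 (Ioc_subset_Icc_self hp.2)) _
      norm_snd_one.le
  have hb2 : ∀ᵐ p ∂(ν1.prod ν2), ‖G2 p‖ ≤ K := by
    filter_upwards [hmem] with p hp
    exact fderiv_bound hU hg (hR p.1 (Ioc_subset_Icc_self hp.1) p.2 (Ioc_subset_Icc_self hp.2)) _
      norm_fst_one.le
  have hi1 : Integrable (fun p : ℝ × ℝ => c p.1 * G1 p) (ν1.prod ν2) := by
    refine Integrable.of_bound ((hc.comp measurable_fst).mul hm1).aestronglyMeasurable (C * K) ?_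
    filter_upwards [hb1] with p hp
    rw [norm_mul]
    exact mul_le_mul (hC _) hp (norm_nonneg _) hC0
  have hi2 : Integrable (fun p : ℝ × ℝ => G2 p) (ν1.prod ν2) :=
    Integrable.of_bound hm2.aestronglyMeasurable K hb2
  have hi : Integrable (fun p : ℝ × ℝ => c p.1 * G1 p - μ * G2 p) (ν1.prod ν2) :=
    hi1.sub (hi2.const_mul μ)
  -- the first integral
  have hI1 : ∫ p, c p.1 * G1 p ∂(ν1.prod ν2) = ∫ t in Ioc a b, c t * g (t, w) := by
    rw [integral_prod _ hi1]
    refine setIntegral_congr_ae measurableSet_Ioc ?_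
    filter_upwards [ae_diff1 hU hg] with t ht htI
    have htI' : t ∈ Icc a b := Ioc_subset_Icc_self htI
    simp only [hG1]
    rw [integral_const_mul]
    congr 1
    rw [hν2, int_snd hg hw.le (fun x hx => hR t htI' x hx) ht,
      h0 t (hR t htI' 0 ⟨le_rfl, hw.le⟩), sub_zero]
  -- the second integral
  have hI2 : ∫ p, G2 p ∂(ν1.prod ν2) = ∫ x in Ioc 0 w, (g (b, x) - g (a, x)) := by
    rw [integral_prod_symm _ hi2]
    refine setIntegral_congr_ae measurableSet_Ioc ?_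
    filter_upwards [ae_diff2 hU hg] with x hx hxI
    have hxI' : x ∈ Icc 0 w := Ioc_subset_Icc_self hxI
    simp only [hG2]
    rw [hν1, int_fst hg hab.le (fun t ht => hR t ht x hxI') hx]
  have hU0 : ∀ t ∈ Icc a b, (t, (0 : ℝ)) ∈ U := fun t ht => hR t ht 0 ⟨le_rfl, hw.le⟩
  have hI2b : |∫ p, G2 p ∂(ν1.prod ν2)| ≤ 2 * K * w * w := by
    rw [hI2]
    have h1 := norm_setIntegral_le_of_norm_le_const (μ := (volume : Measure ℝ)) (s := Ioc 0 w)
      (f := fun x => g (b, x) - g (a, x)) (C := 2 * K * w) (by simp) ?_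
    · simpa [Real.norm_eq_abs, hw.le] using h1
    · intro x hx
      have hx' := Ioc_subset_Icc_self hx
      have h2 := bound_line hg h0 hx'.1 (hU0 b ⟨hab.le, le_rfl⟩) (hR b ⟨hab.le, le_rfl⟩ x hx')
      have h3 := bound_line hg h0 hx'.1 (hU0 a ⟨le_rfl, hab.le⟩) (hR a ⟨le_rfl, hab.le⟩ x hx')
      have h4 : (K : ℝ) * x ≤ K * w := mul_le_mul_of_nonneg_left hx'.2 K.coe_nonneg
      calc ‖g (b, x) - g (a, x)‖ ≤ |g (b, x)| + |g (a, x)| := norm_sub_le _ _
        _ ≤ 2 * K * w := by linarith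
  have hci : ∀ (y : ℝ) (S : Set ℝ), MeasurableSet S →
      Integrable (S.indicator (fun _ : ℝ => y)) (volume.restrict (Ioc a b)) := by
    intro y S hS
    have h1 : IntegrableOn (fun _ : ℝ => y) (Ioc a b) volume :=
      integrableOn_const (by simp) (by simp)
    exact Integrable.indicator h1 hS
  -- lower bound of the first integral
  have hcont : ContinuousOn (fun t => g (t, w)) (Icc a b) := by
    refine hg.continuousOn.comp (by fun_prop) ?_
    intro t ht
    exact hR t ht w ⟨hw.le, le_rfl⟩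
  have hgI : IntegrableOn (fun t => c t * g (t, w)) (Ioc a b) := by
    refine Integrable.of_bound (C := C * (K * w)) ?_ ?_
    · refine (hc.aestronglyMeasurable).mul ?_
      exact (hcont.mono Ioc_subset_Icc_self).aestronglyMeasurable measurableSet_Ioc
    · filter_upwards [ae_restrict_mem measurableSet_Ioc] with t ht
      have ht' := Ioc_subset_Icc_self ht
      rw [norm_mul]
      exact mul_le_mul (hC _) (bound_line hg h0 hw.le (hU0 t ht') (hR t ht' w ⟨hw.le, le_rfl⟩))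
        (norm_nonneg _) hC0
  have hL : -(C * (K * w)) * volume.real (Ioc a b \ A) ≤ ∫ t in Ioc a b, c t * g (t, w) := by
    have h1 : ∫ t in Ioc a b, (Aᶜ.indicator (fun _ => -(C * (K * w)))) t =
        -(C * (K * w)) * volume.real (Ioc a b \ A) := by
      rw [setIntegral_indicator hA.compl, setIntegral_const, smul_eq_mul, mul_comm]
      rfl
    rw [← h1]
    refine setIntegral_mono_on ?_ hgI measurableSet_Ioc ?_
    · exact hci _ _ hA.compl
    · intro t ht
      have ht' := Ioc_subset_Icc_self ht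
      by_cases htA : t ∈ A
      · rw [indicator_of_notMem (by simpa using htA)]
        exact mul_nonneg_of_nonpos_of_nonpos (hcA t htA) (hle _ (hR t ht' w ⟨hw.le, le_rfl⟩))
      · rw [indicator_of_mem (by simpa using htA)]
        have h5 : |c t * g (t, w)| ≤ C * (K * w) := by
          rw [abs_mul]
          exact mul_le_mul (hC _)
            (bound_line hg h0 hw.le (hU0 t ht') (hR t ht' w ⟨hw.le, le_rfl⟩)) (abs_nonneg _) hC0
        exact (abs_le.mp h5).1
  -- upper bound of the whole integral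
  have hT : ∫ p, (c p.1 * G1 p - μ * G2 p) ∂(ν1.prod ν2) ≤
      -(γ * w) * volume.real (A ∩ Ioc a b) + ((C + |μ|) * K * w) * volume.real (Ioc a b \ A) := by
    rw [integral_prod _ hi]
    have h1 : ∫ t in Ioc a b, (A.indicator (fun _ => -(γ * w)) t +
        Aᶜ.indicator (fun _ => (C + |μ|) * K * w) t) =
        -(γ * w) * volume.real (A ∩ Ioc a b) + ((C + |μ|) * K * w) * volume.real (Ioc a b \ A) := by
      rw [integral_add (hci _ _ hA) (hci _ _ hA.compl),
        setIntegral_indicator hA, setIntegral_indicator hA.compl, setIntegral_const,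
        setIntegral_const, smul_eq_mul, smul_eq_mul, mul_comm, inter_comm,
        mul_comm (volume.real (Ioc a b ∩ Aᶜ))]
      rfl
    rw [← h1]
    refine integral_mono_ae hi.integral_prod_left ?_ ?_
    · exact (hci _ _ hA).add (hci _ _ hA.compl)
    · filter_upwards [ae_restrict_mem measurableSet_Ioc, ae_restrict_of_ae hF] with t ht hFt
      have ht' := Ioc_subset_Icc_self ht
      by_cases htA : t ∈ A
      · rw [indicator_of_mem htA, indicator_of_notMem (by simpa using htA), add_zero]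
        have h2 := hFt htA ht'
        have h3 : ∫ x in Ioc 0 w, (c t * G1 (t, x) - μ * G2 (t, x)) ≤ ∫ _x in Ioc 0 w, (-γ) := by
          refine setIntegral_mono_on_ae ?_ (integrableOn_const (by simp) (by simp))
            measurableSet_Ioc ?_
          · refine Integrable.of_bound (C := C * K + |μ| * K) ?_ ?_
            · exact (((hm1.comp measurable_prodMk_left).const_mul _).sub
                ((hm2.comp measurable_prodMk_left).const_mul _)).aestronglyMeasurable
            · filter_upwards [ae_restrict_mem measurableSet_Ioc] with x hx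
              have hx' := Ioc_subset_Icc_self hx
              refine (norm_sub_le _ _).trans (add_le_add ?_ ?_)
              · rw [norm_mul]
                exact mul_le_mul (hC _) (fderiv_bound hU hg (hR t ht' x hx') _ norm_snd_one.le)
                  (norm_nonneg _) hC0
              · rw [norm_mul]
                exact mul_le_mul_of_nonneg_left
                  (fderiv_bound hU hg (hR t ht' x hx') _ norm_fst_one.le) (abs_nonneg _)
          · exact h2
        refine h3.trans (le_of_eq ?_)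
        rw [setIntegral_const, smul_eq_mul]
        simp [hw.le]
        ring
      · rw [indicator_of_notMem htA, indicator_of_mem (by simpa using htA), zero_add]
        have h3 := norm_setIntegral_le_of_norm_le_const (μ := (volume : Measure ℝ)) (s := Ioc 0 w)
          (f := fun x => c t * G1 (t, x) - μ * G2 (t, x)) (C := (C + |μ|) * K) (by simp) ?_
        · refine (le_abs_self _).trans ?_
          have h4 : volume.real (Ioc 0 w) = w := by simp [hw.le]
          rw [h4] at h3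
          exact h3
        · intro x hx
          have hx' := Ioc_subset_Icc_self hx
          refine (norm_sub_le _ _).trans ?_
          rw [norm_mul, norm_mul, add_mul]
          refine add_le_add ?_ ?_
          · exact mul_le_mul (hC _) (fderiv_bound hU hg (hR t ht' x hx') _ norm_snd_one.le)
                (norm_nonneg _) hC0
          · exact mul_le_mul_of_nonneg_left
                (fderiv_bound hU hg (hR t ht' x hx') _ norm_fst_one.le) (abs_nonneg _)
  rw [integral_sub hi1 (hi2.const_mul μ), integral_const_mul, hI1] at hT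
  have h6 : μ * ∫ p, G2 p ∂(ν1.prod ν2) ≤ |μ| * (2 * K * w * w) := by
    refine (le_abs_self _).trans ?_
    rw [abs_mul]
    exact mul_le_mul_of_nonneg_left hI2b (abs_nonneg _)
  have h7 : γ * volume.real (A ∩ Ioc a b) * w ≤
      ((2 * C + |μ|) * K * volume.real (Ioc a b \ A) + 2 * |μ| * K * w) * w := by
    nlinarith [hT, hL, h6]
  exact le_of_mul_le_mul_right h7 hw


/-- **Core.**  No set of heights of positive measure over which `c g_x - μ g_t ≤ -γ` near `x = 0+`. -/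
theorem core (hU : IsOpen U) (hg : LipschitzOnWith K g U)
    (hle : ∀ p ∈ U, g p ≤ 0) (h0 : ∀ t, (t, (0 : ℝ)) ∈ U → g (t, 0) = 0)
    {c : ℝ → ℝ} (hc : Measurable c) {C : ℝ} (hC : ∀ t, |c t| ≤ C) {μ : ℝ}
    {A : Set ℝ} (hA : MeasurableSet A) (hA0 : volume A ≠ 0) (hAU : ∀ t ∈ A, (t, (0 : ℝ)) ∈ U)
    (hcA : ∀ t ∈ A, c t ≤ 0) {γ ε : ℝ} (hγ : 0 < γ) (hε : 0 < ε)
    (hF : ∀ᵐ t : ℝ, t ∈ A → ∀ᵐ x : ℝ, x ∈ Ioc 0 ε → (t, x) ∈ U →
      c t * fderiv ℝ g (t, x) (0, 1) - μ * fderiv ℝ g (t, x) (1, 0) ≤ -γ) : False := by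
  have hC0 : 0 ≤ C := (abs_nonneg _).trans (hC 0)
  have hKμ : 0 ≤ |μ| * K := mul_nonneg (abs_nonneg _) K.coe_nonneg
  -- a density point
  have hne : (ae (volume.restrict A)).NeBot := by
    rw [ae_neBot]
    simpa [Measure.restrict_eq_zero] using hA0
  obtain ⟨t0, ht0, ht0A⟩ :=
    ((Besicovitch.ae_tendsto_measure_inter_div (volume : Measure ℝ) A).and
      (ae_restrict_mem hA)).exists
  set M : ℝ := (2 * C + |μ|) * K + γ with hM
  have hMpos : 0 < M := by
    have : 0 ≤ (2 * C + |μ|) * (K : ℝ) := mul_nonneg (by positivity) K.coe_nonneg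
    linarith
  set η : ℝ := γ / (4 * M) with hη
  have hηpos : 0 < η := by positivity
  have hMη : M * η = γ / 4 := by
    rw [hη]; field_simp
  -- the neighbourhood
  obtain ⟨δ, hδ, hball⟩ := Metric.isOpen_iff.mp hU (t0, 0) (hAU t0 ht0A)
  have hev : ∀ᶠ r in 𝓝[>] (0 : ℝ), ENNReal.ofReal (1 - η) <
      volume (A ∩ Metric.closedBall t0 r) / volume (Metric.closedBall t0 r) := by
    refine ht0.eventually (lt_mem_nhds ?_)
    rw [← ENNReal.ofReal_one]
    exact (ENNReal.ofReal_lt_ofReal_iff one_pos).mpr (by linarith)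
  have hev2 : ∀ᶠ r in 𝓝[>] (0 : ℝ), r < δ / 2 := by
    have : Iio (δ / 2) ∈ 𝓝 (0 : ℝ) := Iio_mem_nhds (by positivity)
    exact mem_nhdsWithin_of_mem_nhds this
  obtain ⟨r, ⟨hr1, hr2⟩, hr0⟩ := ((hev.and hev2).and self_mem_nhdsWithin).exists
  have hr0' : 0 < r := hr0
  set a : ℝ := t0 - r with ha
  set b : ℝ := t0 + r with hb
  have hab : a < b := by rw [ha, hb]; linarith
  set w : ℝ := min (min (δ / 2) ε) (γ * r / (4 * (|μ| * K + 1))) with hwdef
  have hw1 : w ≤ δ / 2 := (min_le_left _ _).trans (min_le_left _ _)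
  have hw2 : w ≤ ε := (min_le_left _ _).trans (min_le_right _ _)
  have hw3 : w ≤ γ * r / (4 * (|μ| * K + 1)) := min_le_right _ _
  have hw0 : 0 < w := by
    refine lt_min (lt_min (by positivity) hε) ?_
    positivity
  have hR : ∀ t ∈ Icc a b, ∀ x ∈ Icc 0 w, (t, x) ∈ U := by
    intro t ht x hx
    apply hball
    rw [Metric.mem_ball, Prod.dist_eq, max_lt_iff, Real.dist_eq, Real.dist_eq]
    constructor
    · rw [abs_lt]
      constructor <;> linarith [ht.1, ht.2]
    · rw [abs_lt]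
      constructor <;> linarith [hx.1, hx.2]
  have hmain := rect hU hg hle h0 hc hC (μ := μ) hA hcA (γ := γ) hab hw0 hR (by
    filter_upwards [hF] with t ht htA htI
    filter_upwards [ht htA] with x hx hxI
    exact hx ⟨hxI.1, hxI.2.trans hw2⟩ (hR t htI x (Ioc_subset_Icc_self hxI)))
  -- volumes
  have hvI : volume.real (Ioc a b) = 2 * r := by
    rw [Real.volume_real_Ioc_of_le hab.le, ha, hb]; ring
  have hsplit : volume.real (A ∩ Ioc a b) + volume.real (Ioc a b \ A) = 2 * r := by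
    rw [← hvI, inter_comm]
    exact measureReal_inter_add_sdiff hA (by simp)
  have hdens : (1 - η) * (2 * r) ≤ volume.real (A ∩ Ioc a b) := by
    have h1 : volume (A ∩ Ioc a b) = volume (A ∩ Metric.closedBall t0 r) := by
      rw [Real.closedBall_eq_Icc]
      exact measure_congr ((ae_eq_refl A).inter Ioc_ae_eq_Icc)
    have h2 : volume (Metric.closedBall t0 r) = ENNReal.ofReal (2 * r) := Real.volume_closedBall t0 r
    rw [h2] at hr1
    have h3 : ENNReal.ofReal (1 - η) * ENNReal.ofReal (2 * r) ≤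
        volume (A ∩ Metric.closedBall t0 r) := by
      have h4 := (ENNReal.lt_div_iff_mul_lt (Or.inl (by simpa using hr0'))
        (Or.inl ENNReal.ofReal_ne_top)).mp hr1
      exact h4.le
    rw [← ENNReal.ofReal_mul' (by positivity), ← h1] at h3
    have hfin : volume (A ∩ Ioc a b) ≠ ∞ :=
      ne_top_of_le_ne_top (by simp) (measure_mono inter_subset_right)
    exact (ENNReal.ofReal_le_iff_le_toReal hfin).mp h3
  have h8 : 2 * |μ| * K * w ≤ γ * r / 2 := by
    have h9 : w * (4 * (|μ| * K + 1)) ≤ γ * r := by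
      rwa [le_div_iff₀ (by positivity)] at hw3
    nlinarith [hw0.le, hKμ]
  have h10 : volume.real (Ioc a b \ A) ≤ η * (2 * r) := by linarith
  have h11 : (2 * C + |μ|) * K * volume.real (Ioc a b \ A) ≤
      (2 * C + |μ|) * K * (η * (2 * r)) :=
    mul_le_mul_of_nonneg_left h10 (mul_nonneg (by positivity) K.coe_nonneg)
  have h12 : γ * ((1 - η) * (2 * r)) ≤ γ * volume.real (A ∩ Ioc a b) :=
    mul_le_mul_of_nonneg_left hdens hγ.le
  have h13 : (M * η) * (2 * r) = γ / 4 * (2 * r) := by rw [hMη]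
  have h14 : 0 < γ * r := by positivity
  rw [hM] at h13
  nlinarith


section strip

variable {f : ℝ × ℝ → ℝ} {V : Set (ℝ × ℝ)} {vs : ℝ → ℝ} {L : ℝ≥0}

/-- shear coordinates: height `t`, signed distance `σ x` from the curve `v = vs t` -/
def Psi (vs : ℝ → ℝ) (σ : ℝ) (p : ℝ × ℝ) : ℝ × ℝ := (vs p.1 + σ * p.2, p.1)

theorem Psi_lip (hvs : LipschitzWith L vs) {σ : ℝ} (hσ : |σ| = 1) :
    LipschitzWith (L + 1) (Psi vs σ) := by
  refine LipschitzWith.of_dist_le_mul fun p q => ?_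
  have h1 : dist (vs p.1) (vs q.1) ≤ L * dist p.1 q.1 := hvs.dist_le_mul _ _
  have h2 : dist p.1 q.1 ≤ dist p q := by rw [Prod.dist_eq]; exact le_max_left _ _
  have h3 : dist p.2 q.2 ≤ dist p q := by rw [Prod.dist_eq]; exact le_max_right _ _
  have hd : 0 ≤ dist p q := dist_nonneg
  have hL : (0 : ℝ) ≤ L := L.coe_nonneg
  rw [Psi, Psi, Prod.dist_eq]
  simp only
  refine max_le ?_ ?_
  · calc dist (vs p.1 + σ * p.2) (vs q.1 + σ * q.2)
        ≤ dist (vs p.1) (vs q.1) + dist (σ * p.2) (σ * q.2) := dist_add_add_le _ _ _ _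
      _ ≤ L * dist p.1 q.1 + dist p.2 q.2 := by
          refine add_le_add h1 (le_of_eq ?_)
          rw [Real.dist_eq, Real.dist_eq, ← mul_sub, abs_mul, hσ, one_mul]
      _ ≤ L * dist p q + dist p q := by gcongr
      _ = ((L + 1 : ℝ≥0) : ℝ) * dist p q := by push_cast; ring
  · push_cast
    nlinarith

theorem strip {σ : ℝ} (hσ : σ = 1 ∨ σ = -1) (hvs : LipschitzWith L vs)
    (hV : IsOpen V) (hf : LipschitzOnWith K f V) (hle : ∀ p ∈ V, f p ≤ 0)
    (h0 : ∀ t, (vs t, t) ∈ V → f (vs t, t) = 0) {μ : ℝ} {H : Set ℝ} (hH : volume H ≠ 0)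
    (hHV : ∀ t ∈ H, (vs t, t) ∈ V ∧ σ * (1 + μ * deriv vs t) ≤ 0)
    {N : Set (ℝ × ℝ)} (hN : volume N = 0) {good : ℝ → ℝ → Prop}
    (hgood : ∀ t ∈ H, ∃ ε > 0, ∀ x, 0 < x → x < ε → good (vs t + σ * x) t)
    {γ : ℝ} (hγ : 0 < γ) :
    ∃ t x : ℝ, ∃ D : ℝ × ℝ →L[ℝ] ℝ, t ∈ H ∧ 0 < x ∧ (vs t + σ * x, t) ∈ V ∧
      (vs t + σ * x, t) ∉ N ∧ good (vs t + σ * x) t ∧ HasFDerivAt f D (vs t + σ * x, t) ∧
      -γ < D (1, -μ) := by
  by_contra hcon
  push Not at hcon
  have hσ1 : |σ| = 1 := by rcases hσ with h | h <;> simp [h]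
  have hσσ : σ * σ = 1 := by rcases hσ with h | h <;> simp [h]
  set Ps : ℝ × ℝ → ℝ × ℝ := Psi vs σ with hPs
  have hPsL : LipschitzWith (L + 1) Ps := Psi_lip hvs hσ1
  set U' : Set (ℝ × ℝ) := Ps ⁻¹' V with hU'
  have hU'o : IsOpen U' := hV.preimage hPsL.continuous
  set G : ℝ × ℝ → ℝ := f ∘ Ps with hGdef
  have hG : LipschitzOnWith (K * (L + 1)) G U' :=
    hf.comp hPsL.lipschitzOnWith (fun p hp => hp)
  have hGle : ∀ p ∈ U', G p ≤ 0 := fun p hp => hle _ hp
  have hPs0 : ∀ t, Ps (t, 0) = (vs t, t) := by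
    intro t; simp [hPs, Psi]
  have hG0 : ∀ t, (t, (0 : ℝ)) ∈ U' → G (t, 0) = 0 := by
    intro t ht
    have ht' : Ps (t, 0) ∈ V := ht
    rw [hPs0] at ht'
    rw [hGdef, Function.comp_apply, hPs0]
    exact h0 t ht'
  set c : ℝ → ℝ := fun t => σ * (1 + μ * deriv vs t) with hcdef
  have hc : Measurable c := by
    have := measurable_deriv vs
    fun_prop
  have hC : ∀ t, |c t| ≤ 1 + |μ| * L := by
    intro t
    have h1 : ‖deriv vs t‖ ≤ L := norm_deriv_le_of_lipschitz hvs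
    rw [hcdef]
    simp only
    rw [abs_mul, hσ1, one_mul]
    refine (abs_add_le _ _).trans ?_
    rw [abs_one, abs_mul]
    have h2 : |μ| * |deriv vs t| ≤ |μ| * L :=
      mul_le_mul_of_nonneg_left h1 (abs_nonneg _)
    linarith
  -- the derivative of `f` from the derivative of `G`
  have hder : ∀ t x : ℝ, DifferentiableAt ℝ vs t → DifferentiableAt ℝ G (t, x) →
      ∃ D : ℝ × ℝ →L[ℝ] ℝ, HasFDerivAt f D (vs t + σ * x, t) ∧
        D (1, -μ) = c t * fderiv ℝ G (t, x) (0, 1) - μ * fderiv ℝ G (t, x) (1, 0) := by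
    intro t x hvt hGt
    set Lm : ℝ × ℝ →L[ℝ] ℝ × ℝ := (ContinuousLinearMap.snd ℝ ℝ ℝ).prod
      (σ • (ContinuousLinearMap.fst ℝ ℝ ℝ - (deriv vs t) • ContinuousLinearMap.snd ℝ ℝ ℝ)) with hLm
    have hPhi : HasFDerivAt (fun p : ℝ × ℝ => (p.2, σ * (p.1 - vs p.2))) Lm
        (vs t + σ * x, t) := by
      have h1 : HasFDerivAt (fun p : ℝ × ℝ => p.2) (ContinuousLinearMap.snd ℝ ℝ ℝ)
          (vs t + σ * x, t) := hasFDerivAt_snd
      have h2 : HasFDerivAt (fun p : ℝ × ℝ => p.1) (ContinuousLinearMap.fst ℝ ℝ ℝ)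
          (vs t + σ * x, t) := hasFDerivAt_fst
      have h3 : HasFDerivAt (fun p : ℝ × ℝ => vs p.2)
          ((deriv vs t) • ContinuousLinearMap.snd ℝ ℝ ℝ) (vs t + σ * x, t) := by
        have h4 : HasDerivAt vs (deriv vs t) ((vs t + σ * x, t) : ℝ × ℝ).2 := hvt.hasDerivAt
        exact h4.comp_hasFDerivAt _ h1
      exact h1.prodMk ((h2.sub h3).const_mul σ)
    have hpt : (fun p : ℝ × ℝ => (p.2, σ * (p.1 - vs p.2))) (vs t + σ * x, t) = (t, x) := by
      simp only [Prod.mk.injEq, true_and]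
      rw [add_sub_cancel_left, ← mul_assoc, hσσ, one_mul]
    have hfG : f = G ∘ (fun p : ℝ × ℝ => (p.2, σ * (p.1 - vs p.2))) := by
      funext p
      rw [hGdef, Function.comp_apply, Function.comp_apply, hPs, Psi]
      congr 1
      ext
      · simp only
        rw [← mul_assoc, hσσ, one_mul]; ring
      · rfl
    refine ⟨(fderiv ℝ G (t, x)).comp Lm, ?_, ?_⟩
    · rw [hfG]
      have h5 : HasFDerivAt G (fderiv ℝ G (t, x))
          ((fun p : ℝ × ℝ => (p.2, σ * (p.1 - vs p.2))) (vs t + σ * x, t)) := by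
        rw [hpt]; exact hGt.hasFDerivAt
      exact HasFDerivAt.comp (g := G) (f := fun p : ℝ × ℝ => (p.2, σ * (p.1 - vs p.2)))
        (vs t + σ * x, t) h5 hPhi
    · have h6 : Lm (1, -μ) = (-μ) • ((1 : ℝ), (0 : ℝ)) + c t • ((0 : ℝ), (1 : ℝ)) := by
        rw [hLm, hcdef]
        refine Prod.ext ?_ ?_
        · simp
        · show σ * (1 - deriv vs t * (-μ)) = (-μ) * 0 + σ * (1 + μ * deriv vs t) * 1
          ring
      rw [ContinuousLinearMap.comp_apply, h6, map_add, map_smul, map_smul, smul_eq_mul,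
        smul_eq_mul]
      ring
  -- a fixed width
  set Hn : ℕ → Set ℝ := fun n => {t | t ∈ H ∧ ∀ x, 0 < x → x < 1 / ((n : ℝ) + 1) →
    good (vs t + σ * x) t} with hHn
  have hun : H ⊆ ⋃ n, Hn n := by
    intro t ht
    obtain ⟨ε, hε, h1⟩ := hgood t ht
    obtain ⟨n, hn⟩ := exists_nat_one_div_lt hε
    exact mem_iUnion.mpr ⟨n, ht, fun x hx hx2 => h1 x hx (hx2.trans hn)⟩
  obtain ⟨n, hn⟩ : ∃ n, volume (Hn n) ≠ 0 := by
    by_contra h
    push Not at h
    exact hH (measure_mono_null hun (measure_iUnion_null h))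
  set ε : ℝ := 1 / ((n : ℝ) + 1) / 2 with hεdef
  have hεpos : 0 < ε := by positivity
  have hεlt : ε < 1 / ((n : ℝ) + 1) := half_lt_self (by positivity)
  set G1 : ℝ × ℝ → ℝ := fun p => fderiv ℝ G p (0, 1) with hG1
  set G2 : ℝ × ℝ → ℝ := fun p => fderiv ℝ G p (1, 0) with hG2
  have hm1 : Measurable G1 := measurable_fderiv_apply_const ℝ G _
  have hm2 : Measurable G2 := measurable_fderiv_apply_const ℝ G _
  set B : Set (ℝ × ℝ) := {p | p ∈ U' ∧ p.2 ∈ Ioc 0 ε ∧ ¬ (c p.1 * G1 p - μ * G2 p ≤ -γ)} with hB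
  have hBm : MeasurableSet B := by
    refine hU'o.measurableSet.inter ((measurable_snd measurableSet_Ioc).inter ?_)
    refine MeasurableSet.compl ?_
    exact measurableSet_le (((hc.comp measurable_fst).mul hm1).sub (hm2.const_mul μ))
      measurable_const
  set A : Set ℝ := {t | (t, (0 : ℝ)) ∈ U' ∧ c t ≤ 0 ∧ volume (Prod.mk t ⁻¹' B) = 0} with hAdef
  have hAm : MeasurableSet A := by
    refine MeasurableSet.inter ?_ (MeasurableSet.inter ?_ ?_)
    · have : Measurable (fun t : ℝ => (t, (0 : ℝ))) := by fun_prop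
      exact this hU'o.measurableSet
    · exact measurableSet_le hc measurable_const
    · exact (measurable_measure_prodMk_left hBm) (measurableSet_singleton 0)
  have hNs : ∀ᵐ t : ℝ, ∀ᵐ v : ℝ, (v, t) ∉ N := by
    have h : ∀ᵐ p : ℝ × ℝ, p ∉ N := measure_eq_zero_iff_ae_notMem.mp hN
    rw [Measure.volume_eq_prod] at h
    have h2 : ∀ᵐ p : ℝ × ℝ ∂((volume : Measure ℝ).prod (volume : Measure ℝ)), p.swap ∉ N :=
      (Measure.measurePreserving_swap (μ := (volume : Measure ℝ)) (ν := (volume : Measure ℝ))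
        ).quasiMeasurePreserving.ae h
    exact Measure.ae_ae_of_ae_prod h2
  have hae : ∀ᵐ t : ℝ, t ∈ Hn n → t ∈ A := by
    filter_upwards [hNs, hvs.ae_differentiableAt, ae_diff1 hU'o hG] with t h1 h2 h3 htn
    obtain ⟨h4, h5⟩ := hHV t htn.1
    refine ⟨?_, h5, ?_⟩
    · show Ps (t, 0) ∈ V
      rw [hPs0]; exact h4
    · rw [measure_eq_zero_iff_ae_notMem]
      have h6 : ∀ᵐ x : ℝ, (vs t + σ * x, t) ∉ N := by
        rcases hσ with h | h
        · have := (measurePreserving_add_left (volume : Measure ℝ) (vs t)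
            ).quasiMeasurePreserving.ae h1
          simpa [h] using this
        · have := (Measure.measurePreserving_sub_left (volume : Measure ℝ) (vs t)
            ).quasiMeasurePreserving.ae h1
          simpa [h, sub_eq_add_neg] using this
      filter_upwards [h3, h6] with x h7 h8 hx
      obtain ⟨h9, h10, h11⟩ := hx
      apply h11
      obtain ⟨D, hD1, hD2⟩ := hder t x h2 (h7 h9)
      have h12 := hcon t x D htn.1 h10.1 h9 h8 (htn.2 x h10.1 (h10.2.trans_lt hεlt)) hD1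
      rw [hD2] at h12
      exact h12
  have hA0 : volume A ≠ 0 := by
    intro h
    apply hn
    have h1 : Hn n ⊆ A ∪ {t | ¬ (t ∈ Hn n → t ∈ A)} := by
      intro t ht
      by_cases h2 : t ∈ A
      · exact Or.inl h2
      · exact Or.inr (fun h3 => h2 (h3 ht))
    exact measure_mono_null h1 (measure_union_null h hae)
  refine core hU'o hG hGle hG0 hc hC (μ := μ) hAm hA0 (fun t ht => ht.1) (fun t ht => ht.2.1) hγ
    hεpos ?_
  refine Eventually.of_forall fun t ht => ?_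
  have h1 := ht.2.2
  rw [measure_eq_zero_iff_ae_notMem] at h1
  filter_upwards [h1] with x hx hxI hxU
  by_contra h2
  exact hx ⟨hxU, hxI, h2⟩

/-- **Strip above the record.** `f ≤ 0` is Lipschitz near the record `v = vs t` and vanishes on it;
along the direction `(1, -μ)` which does not leave the side `v > vs t` (`1 + μ vs' ≤ 0`) there is, for
every `γ > 0`, a good point of differentiability above the record with `-γ < D (1, -μ)`. -/
theorem strip_above (hvs : LipschitzWith L vs)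
    (hV : IsOpen V) (hf : LipschitzOnWith K f V) (hle : ∀ p ∈ V, f p ≤ 0)
    (h0 : ∀ t, (vs t, t) ∈ V → f (vs t, t) = 0) {μ : ℝ} {H : Set ℝ} (hH : volume H ≠ 0)
    (hHV : ∀ t ∈ H, (vs t, t) ∈ V ∧ 1 + μ * deriv vs t ≤ 0)
    {N : Set (ℝ × ℝ)} (hN : volume N = 0) {good : ℝ → ℝ → Prop}
    (hgood : ∀ t ∈ H, ∃ ε > 0, ∀ v, vs t < v → v < vs t + ε → good v t)
    {γ : ℝ} (hγ : 0 < γ) :
    ∃ v t : ℝ, ∃ D : ℝ × ℝ →L[ℝ] ℝ, t ∈ H ∧ (v, t) ∈ V ∧ (v, t) ∉ N ∧ vs t < v ∧ good v t ∧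
      HasFDerivAt f D (v, t) ∧ -γ < D (1, -μ) := by
  obtain ⟨t, x, D, h1, h2, h3, h4, h5, h6, h7⟩ := strip (σ := 1) (Or.inl rfl) hvs hV hf hle h0 hH
    (fun t ht => ⟨(hHV t ht).1, by simpa using (hHV t ht).2⟩) hN
    (fun t ht => by
      obtain ⟨ε, hε, h⟩ := hgood t ht
      exact ⟨ε, hε, fun x hx hx2 => h _ (by linarith) (by linarith)⟩) hγ
  exact ⟨_, t, D, h1, h3, h4, by linarith, h5, h6, h7⟩

/-- **Strip below the record.** The same on the side `v < vs t` with `0 ≤ 1 + μ vs'`. -/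
theorem strip_below (hvs : LipschitzWith L vs)
    (hV : IsOpen V) (hf : LipschitzOnWith K f V) (hle : ∀ p ∈ V, f p ≤ 0)
    (h0 : ∀ t, (vs t, t) ∈ V → f (vs t, t) = 0) {μ : ℝ} {H : Set ℝ} (hH : volume H ≠ 0)
    (hHV : ∀ t ∈ H, (vs t, t) ∈ V ∧ 0 ≤ 1 + μ * deriv vs t)
    {N : Set (ℝ × ℝ)} (hN : volume N = 0) {good : ℝ → ℝ → Prop}
    (hgood : ∀ t ∈ H, ∃ ε > 0, ∀ v, v < vs t → vs t - ε < v → good v t)
    {γ : ℝ} (hγ : 0 < γ) :
    ∃ v t : ℝ, ∃ D : ℝ × ℝ →L[ℝ] ℝ, t ∈ H ∧ (v, t) ∈ V ∧ (v, t) ∉ N ∧ v < vs t ∧ good v t ∧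
      HasFDerivAt f D (v, t) ∧ -γ < D (1, -μ) := by
  obtain ⟨t, x, D, h1, h2, h3, h4, h5, h6, h7⟩ := strip (σ := -1) (Or.inr rfl) hvs hV hf hle h0 hH
    (fun t ht => ⟨(hHV t ht).1, by have := (hHV t ht).2; linarith⟩) hN
    (fun t ht => by
      obtain ⟨ε, hε, h⟩ := hgood t ht
      exact ⟨ε, hε, fun x hx hx2 => h _ (by linarith) (by linarith)⟩) hγ
  exact ⟨_, t, D, h1, h3, h4, by linarith, h5, h6, h7⟩

end strip

end Crest.Agent.R138.End638
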