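import Mathlib
import Crest.Agent.R138.KDef_294

/-!
# R138 (helper829): enlarging D-max: widths up to `R0` gives widths up to `n R0`
-/

set_option autoImplicit false
set_option linter.unusedVariables false
set_option linter.unusedSectionVars false

open Finset

namespace Crest.Agent.R138.Cube829

open Crest.Agent.R138.Flag51
open Crest.Agent.R138.Tilt51 (DMax Near)

/-- D-max for planks of widths up to `R0` gives D-max for widths up to `n R0`. -/
theorem enlarge {ι : Type*} {S : Finset ι} {L : ι → Ln} {z0 ρ M q r0 R0 : ℝ}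
    (h : DMax S L (fun _ => 1) z0 ρ M 0 q r0 R0) (hρ : 0 < ρ) (hr0 : 0 < r0) (hM : 0 ≤ M)
    (hq : 0 ≤ q) {n : ℕ} (hn : 1 ≤ n) :
    DMax S L (fun _ => 1) z0 ρ ((2 * n + 1) ^ 4 * M) 0 q (n * r0) (n * R0) := by
  classical
  intro l e a1 a2 he h1 h2 h3
  have hn0 : (0 : ℝ) < n := by exact_mod_cast hn
  have hn1 : (1 : ℝ) ≤ n := by exact_mod_cast hn
  have ha1 : 0 < a1 := lt_of_lt_of_le (by positivity) h1
  have ha2 : 0 < a2 := ha1.trans_le h2
  have hsum : ∀ T : Finset ι, ∑ t ∈ T, (1 : ℝ) = (T.card : ℝ) := fun T => by simp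
  rw [hsum]
  have e1 : (n : ℝ) * (a1 / n) = a1 := by field_simp
  have e2 : (n : ℝ) * (a2 / n) = a2 := by field_simp
  have key := K294.cover (S.filter fun t => InPlank (L t) l e a1 a2 z0 ρ) L (e := e)
    (w1 := a1 / n) (w2 := a2 / n) (z0 := z0) (ρ := ρ) (by positivity) (by positivity) hρ (n := n)
    (l := l) (fun t ht => by rw [e1, e2]; exact (mem_filter.1 ht).2)
    (A := M * (a1 / n) ^ (1 + (0 : ℝ)) * (a2 / n) ^ (1 + q)) (by positivity) (fun t0 ht0 => by
      have h4 := h (L t0) e (a1 / n) (a2 / n) he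
        (by rw [le_div_iff₀ hn0]; linarith [mul_comm (n : ℝ) r0])
        (by gcongr) (by rw [div_le_iff₀ hn0]; linarith [mul_comm (n : ℝ) R0])
      rw [hsum] at h4
      refine le_trans ?_ h4
      exact_mod_cast card_le_card (fun t ht => by
        rw [mem_filter] at ht ⊢
        exact ⟨(mem_filter.1 ht.1).1, ht.2⟩))
  refine key.trans ?_
  have b1 : (a1 / n) ^ (1 + (0 : ℝ)) ≤ a1 ^ (1 + (0 : ℝ)) :=
    Real.rpow_le_rpow (by positivity) (div_le_self ha1.le hn1) (by norm_num)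
  have b2 : (a2 / n) ^ (1 + q) ≤ a2 ^ (1 + q) :=
    Real.rpow_le_rpow (by positivity) (div_le_self ha2.le hn1) (by linarith)
  calc (2 * (n : ℝ) + 1) ^ 4 * (M * (a1 / n) ^ (1 + (0 : ℝ)) * (a2 / n) ^ (1 + q))
      ≤ (2 * (n : ℝ) + 1) ^ 4 * (M * a1 ^ (1 + (0 : ℝ)) * a2 ^ (1 + q)) := by gcongr
    _ = _ := by ring

end Crest.Agent.R138.Cube829
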