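import Mathlib

/-!
# R138/R139 front: literal interfaces for S0190 (helper774)

`PhaseClass c0 J`: smooth phases on `ℝ × ℝ` that are `c0`-close to `|u|²/2` in all derivatives of
order `2..J`, normalised at `0`.
`Ext φ g x`: extension operator of the graph of `φ`.
`RE`: restricted local estimate (the only thing S0190 needs from the deep part).
`StrongE p`: global strong type estimate for the class (output of the epsilon removal).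
-/

set_option autoImplicit false

open MeasureTheory
open scoped ContDiff ENNReal

namespace Crest.Agent.R138.Ex774

/-- `|u|²/2`. -/
noncomputable def quad (u : ℝ × ℝ) : ℝ := (u.1 ^ 2 + u.2 ^ 2) / 2

/-- Phases close to `|u|²/2`; closed under parabolic rescaling about any point. -/
def PhaseClass (c0 : ℝ) (J : ℕ) : Set (ℝ × ℝ → ℝ) :=
  {φ | ContDiff ℝ ∞ φ ∧ φ 0 = 0 ∧ fderiv ℝ φ 0 = 0 ∧
    ∀ j : ℕ, 2 ≤ j → j ≤ J → ∀ u : ℝ × ℝ,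
      ‖iteratedFDeriv ℝ j (fun v => φ v - quad v) u‖ ≤ c0}

/-- The unit square. -/
def Q : Set (ℝ × ℝ) := Metric.closedBall 0 1

/-- The phase `⟨x, (u, φ u)⟩`. -/
def ph (φ : ℝ × ℝ → ℝ) (x : ℝ × ℝ × ℝ) (u : ℝ × ℝ) : ℝ :=
  x.1 * u.1 + x.2.1 * u.2 + x.2.2 * φ u

/-- The character `exp (2πi ⟨x, (u, φ u)⟩)`. -/
noncomputable def chr (φ : ℝ × ℝ → ℝ) (x : ℝ × ℝ × ℝ) (u : ℝ × ℝ) : ℂ :=
  Complex.exp (2 * Real.pi * (ph φ x u : ℝ) * Complex.I)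

/-- Extension operator of the graph of `φ`. -/
noncomputable def Ext (φ : ℝ × ℝ → ℝ) (g : ℝ × ℝ → ℂ) (x : ℝ × ℝ × ℝ) : ℂ :=
  ∫ u : ℝ × ℝ, g u * chr φ x u

/-- RESTRICTED LOCAL ESTIMATE at the exponent `3` with `R ^ ε` loss, uniformly over the class. -/
def RE : Prop :=
  ∃ c0 : ℝ, 0 < c0 ∧ ∃ J : ℕ, ∀ ε : ℝ, 0 < ε → ∃ C : ℝ,
    ∀ φ ∈ PhaseClass c0 J, ∀ R : ℝ, 1 ≤ R →
      ∀ Om : Set (ℝ × ℝ), MeasurableSet Om → Om ⊆ Q →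
        ∀ g : ℝ × ℝ → ℂ, Measurable g → (∀ u ∈ Om, ‖g u‖ ≤ 1) → (∀ u ∉ Om, g u = 0) →
          ∫⁻ x in Metric.closedBall (0 : ℝ × ℝ × ℝ) R, ‖Ext φ g x‖ₑ ^ (3 : ℝ) ≤
            ENNReal.ofReal (C * R ^ ε) * volume Om

/-- GLOBAL STRONG TYPE `(p,p)` for the class. -/
def StrongE (p : ℝ) : Prop :=
  ∃ c0 : ℝ, 0 < c0 ∧ ∃ J : ℕ, ∃ C : ℝ,
    ∀ φ ∈ PhaseClass c0 J,
      ∀ g : ℝ × ℝ → ℂ, Measurable g → (∀ u ∉ Q, g u = 0) →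
        ∫⁻ x : ℝ × ℝ × ℝ, ‖Ext φ g x‖ₑ ^ p ≤ ENNReal.ofReal C * ∫⁻ u : ℝ × ℝ, ‖g u‖ₑ ^ p

end Crest.Agent.R138.Ex774
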