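import Mathlib
import Crest.Agent.R138.RsDef_134

/-!
# Sparse lemma, part 1: bump, scaled kernel, frequency side localisation (helper774)
-/

set_option autoImplicit false

open MeasureTheory Crest.Agent.R138.Rs134
open scoped ContDiff RealInnerProductSpace ENNReal

namespace Crest.Agent.R138.Ex774

/-- Frequency (and physical) space. -/
abbrev W : Type := E2 × ℝ

instance instHaarW : (volume : Measure W).IsAddHaarMeasure :=
  inferInstanceAs (((volume : Measure E2).prod (volume : Measure ℝ)).IsAddHaarMeasure)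

/-- The pairing of physical and frequency space. -/
noncomputable def pr (p ζ : W) : ℝ := ⟪p.1, ζ.1⟫ + p.2 * ζ.2

/-- The graph map. -/
def Gam (h : E2 → ℝ) (v : E2) : W := (v, h v)

lemma pr_Gam (h : E2 → ℝ) (p : W) (v : E2) : pr p (Gam h v) = ph h p.1 p.2 v := rfl

lemma pr_add_right (p ζ η : W) : pr p (ζ + η) = pr p ζ + pr p η := by
  unfold pr
  rw [Prod.fst_add, Prod.snd_add, inner_add_right]; ring

lemma pr_smul_right (p ζ : W) (c : ℝ) : pr p (c • ζ) = c * pr p ζ := by
  unfold pr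
  rw [Prod.smul_fst, Prod.smul_snd, inner_smul_right, smul_eq_mul]; ring

lemma pr_smul_left (p ζ : W) (c : ℝ) : pr (c • p) ζ = c * pr p ζ := by
  unfold pr
  rw [Prod.smul_fst, Prod.smul_snd, real_inner_smul_left, smul_eq_mul]; ring

lemma continuous_pr (p : W) : Continuous (pr p) := by
  unfold pr; fun_prop

lemma abs_pr_le (p ζ : W) : |pr p ζ| ≤ 2 * (‖p‖ * ‖ζ‖) := by
  unfold pr
  have h1 : |⟪p.1, ζ.1⟫| ≤ ‖p‖ * ‖ζ‖ :=
    (abs_real_inner_le_norm _ _).trans (mul_le_mul (norm_fst_le p) (norm_fst_le ζ) (norm_nonneg _)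
      (norm_nonneg _))
  have h2 : |p.2 * ζ.2| ≤ ‖p‖ * ‖ζ‖ := by
    rw [abs_mul]
    exact mul_le_mul (norm_snd_le p) (norm_snd_le ζ) (abs_nonneg _) (norm_nonneg _)
  calc _ ≤ |⟪p.1, ζ.1⟫| + |p.2 * ζ.2| := abs_add_le _ _
    _ ≤ _ := by linarith

lemma norm_ee_sub_one_le (s : ℝ) : ‖ee s - 1‖ ≤ 2 * Real.pi * |s| := by
  unfold ee
  have := Real.norm_exp_I_mul_ofReal_sub_one_le (x := 2 * Real.pi * s)
  rw [mul_comm] at this
  refine this.trans (le_of_eq ?_)
  rw [Real.norm_eq_abs, abs_mul, abs_of_pos (by positivity)]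

/-- A normalised bump. -/
structure Bump (κ : W → ℝ) (B : ℝ) : Prop where
  smooth : ContDiff ℝ 1 κ
  nonneg : ∀ z, 0 ≤ κ z
  supp : ∀ z, 1 / 100 ≤ ‖z‖ → κ z = 0
  int : ∫ z, κ z = 1
  bd : ∀ z, κ z ≤ B
  dbd : ∀ z, ‖fderiv ℝ κ z‖ ≤ B

lemma exists_bump : ∃ (κ : W → ℝ) (B : ℝ), 0 ≤ B ∧ Bump κ B := by
  let f : ContDiffBump (0 : W) := ⟨1 / 200, 1 / 100, by norm_num, by norm_num⟩
  have hs : HasCompactSupport (f.normed (volume : Measure W)) := f.hasCompactSupport_normed
  have hc : ContDiff ℝ 1 (f.normed (volume : Measure W)) := f.contDiff_normed (n := 1)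
  obtain ⟨B1, hB1⟩ := hs.exists_bound_of_continuous hc.continuous
  have hs' : HasCompactSupport (fderiv ℝ (f.normed (volume : Measure W))) := hs.fderiv (𝕜 := ℝ)
  obtain ⟨B2, hB2⟩ := hs'.exists_bound_of_continuous (hc.continuous_fderiv (by norm_num))
  refine ⟨f.normed volume, max (max B1 B2) 0, le_max_right _ _, hc, f.nonneg_normed, ?_,
    f.integral_normed, ?_, ?_⟩
  · intro z hz
    by_contra hne
    have : z ∈ Function.support (f.normed (volume : Measure W)) := hne
    rw [f.support_normed_eq, mem_ball_zero_iff] at this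
    exact absurd this (not_lt.2 hz)
  · intro z
    exact (le_abs_self _).trans ((hB1 z).trans ((le_max_left _ _).trans (le_max_left _ _)))
  · intro z
    exact (hB2 z).trans ((le_max_right _ _).trans (le_max_left _ _))

namespace Bump
variable {κ : W → ℝ} {B : ℝ}

lemma hasCompactSupport (hκ : Bump κ B) : HasCompactSupport κ := by
  refine HasCompactSupport.intro (isCompact_closedBall (0 : W) (1 / 100)) ?_
  intro z hz
  rw [mem_closedBall_zero_iff, not_le] at hz
  exact hκ.supp z hz.le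

lemma integrable (hκ : Bump κ B) : Integrable κ :=
  hκ.smooth.continuous.integrable_of_hasCompactSupport hκ.hasCompactSupport

end Bump

/-- the `L¹` normalised scaled bump. -/
noncomputable def kR (κ : W → ℝ) (R : ℝ) (z : W) : ℝ := R ^ 3 * κ (R • z)

/-- the multiplier on the physical side. -/
noncomputable def mm (κ : W → ℝ) (y : W) : ℂ := ∫ ζ, (κ ζ : ℂ) * ee (pr y ζ)

section basics
variable {κ : W → ℝ} {B R : ℝ}

lemma finrank_W : Module.finrank ℝ W = 3 := by
  simp [W]

lemma kR_nonneg (hκ : Bump κ B) (hR : 0 < R) (z : W) : 0 ≤ kR κ R z :=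
  mul_nonneg (by positivity) (hκ.nonneg _)

lemma kR_le (hκ : Bump κ B) (hR : 0 < R) (z : W) : kR κ R z ≤ R ^ 3 * B :=
  mul_le_mul_of_nonneg_left (hκ.bd _) (by positivity)

lemma kR_supp (hκ : Bump κ B) (hR : 0 < R) {z : W} (hz : 1 / 100 ≤ R * ‖z‖) : kR κ R z = 0 := by
  unfold kR
  rw [hκ.supp, mul_zero]
  rwa [norm_smul, Real.norm_eq_abs, abs_of_pos hR]

lemma continuous_kR (hκ : Bump κ B) : Continuous (kR κ R) := by
  unfold kR
  have := hκ.smooth.continuous
  fun_prop

lemma contDiff_kR (hκ : Bump κ B) : ContDiff ℝ 1 (kR κ R) := by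
  unfold kR
  have := hκ.smooth
  fun_prop

lemma hasCompactSupport_kR (hκ : Bump κ B) (hR : 0 < R) : HasCompactSupport (kR κ R) := by
  refine HasCompactSupport.intro (isCompact_closedBall (0 : W) (1 / R)) ?_
  intro z hz
  rw [mem_closedBall_zero_iff, not_le, div_lt_iff₀ hR] at hz
  exact kR_supp hκ hR (by nlinarith)

lemma integrable_kR (hκ : Bump κ B) (hR : 0 < R) : Integrable (kR κ R) :=
  (continuous_kR hκ).integrable_of_hasCompactSupport (hasCompactSupport_kR hκ hR)

lemma integral_scaled {E : Type*} [NormedAddCommGroup E] [NormedSpace ℝ E] (hR : 0 < R)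
    (G : W → E) : ∫ z, (R ^ 3) • G (R • z) = ∫ z, G z := by
  rw [integral_smul, Measure.integral_comp_smul, finrank_W, smul_smul, abs_of_pos (by positivity),
    mul_inv_cancel₀ (by positivity), one_smul]

lemma integral_kR (hκ : Bump κ B) (hR : 0 < R) : ∫ z, kR κ R z = 1 := by
  rw [← hκ.int, ← integral_scaled hR κ]
  rfl

lemma integral_kR_ee (hR : 0 < R) (p : W) :
    ∫ z, (kR κ R z : ℂ) * ee (pr p z) = mm κ (R⁻¹ • p) := by
  unfold mm
  rw [← integral_scaled hR (fun ζ => (κ ζ : ℂ) * ee (pr (R⁻¹ • p) ζ))]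
  congr 1
  ext z
  unfold kR
  rw [pr_smul_right, pr_smul_left, ← mul_assoc, mul_inv_cancel₀ hR.ne', one_mul]
  push_cast
  rw [Complex.real_smul]
  push_cast
  ring

lemma norm_mm_ge (hκ : Bump κ B) {y : W} (hy : ‖y‖ ≤ 1) : 1 / 2 ≤ ‖mm κ y‖ := by
  have hint : Integrable (fun ζ : W => (κ ζ : ℂ)) := hκ.integrable.ofReal
  have hmeas : Continuous (fun ζ : W => ee (pr y ζ)) := continuous_ee.comp (continuous_pr y)
  have hint2 : Integrable (fun ζ : W => (κ ζ : ℂ) * ee (pr y ζ)) := by
    refine hint.mono ((hint.aestronglyMeasurable).mul hmeas.aestronglyMeasurable) ?_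
    exact Filter.Eventually.of_forall fun ζ => by rw [norm_mul_ee]
  have h1 : mm κ y - 1 = ∫ ζ, (κ ζ : ℂ) * (ee (pr y ζ) - 1) := by
    have : (1 : ℂ) = ∫ ζ, (κ ζ : ℂ) := by
      rw [integral_complex_ofReal, hκ.int]; simp
    unfold mm
    conv_lhs => rw [this]
    rw [← integral_sub hint2 hint]
    congr 1
    ext ζ
    ring
  have h2 : ‖mm κ y - 1‖ ≤ 1 / 2 := by
    rw [h1]
    refine (norm_integral_le_integral_norm _).trans ?_
    have : ∀ ζ, ‖(κ ζ : ℂ) * (ee (pr y ζ) - 1)‖ ≤ κ ζ * (1 / 2) := by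
      intro ζ
      rw [norm_mul, Complex.norm_real, Real.norm_eq_abs, abs_of_nonneg (hκ.nonneg ζ)]
      rcases lt_or_ge ‖ζ‖ (1 / 100) with h | h
      · refine mul_le_mul_of_nonneg_left ?_ (hκ.nonneg ζ)
        refine (norm_ee_sub_one_le _).trans ?_
        have h3 := abs_pr_le y ζ
        have h4 : ‖y‖ * ‖ζ‖ ≤ 1 * (1 / 100) := mul_le_mul hy h.le (norm_nonneg _) zero_le_one
        have hpi : Real.pi ≤ 4 := Real.pi_le_four
        have h5 : |pr y ζ| ≤ 1 / 50 := by linarith
        have h6 := mul_le_mul hpi h5 (abs_nonneg _) (by norm_num)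
        linarith
      · rw [hκ.supp ζ h]; simp
    calc _ ≤ ∫ ζ, κ ζ * (1 / 2) := by
          refine integral_mono_of_nonneg (Filter.Eventually.of_forall fun ζ => norm_nonneg _)
            (hκ.integrable.mul_const _) (Filter.Eventually.of_forall this)
      _ = 1 / 2 := by rw [integral_mul_const, hκ.int, one_mul]
  have h3 : (1 : ℝ) = ‖(1 : ℂ)‖ := by simp
  have h4 := norm_sub_norm_le (1 : ℂ) (mm κ y)
  rw [norm_sub_rev] at h4
  linarith

end basics

/-- The frequency side localisation of the measure `f dΓ`. -/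
noncomputable def FF (κ : W → ℝ) (R : ℝ) (h : E2 → ℝ) (f : E2 → ℂ) (ζ : W) : ℂ :=
  ∫ v, f v * (kR κ R (ζ - Gam h v) : ℂ)

section loc
variable {κ : W → ℝ} {B R : ℝ} {h : E2 → ℝ} {f : E2 → ℂ}

lemma continuous_Gam (hh : Continuous h) : Continuous (Gam h) := by
  unfold Gam; fun_prop

lemma integrable_prod_kernel (hκ : Bump κ B) (hR : 0 < R) (hh : Continuous h)
    (hf : Integrable f) :
    Integrable (fun q : W × E2 => f q.2 * (kR κ R (q.1 - Gam h q.2) : ℂ))
      ((volume : Measure W).prod (volume : Measure E2)) := by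
  have hmeas : AEStronglyMeasurable (fun q : W × E2 => f q.2 * (kR κ R (q.1 - Gam h q.2) : ℂ))
      ((volume : Measure W).prod (volume : Measure E2)) := by
    refine AEStronglyMeasurable.mul (hf.aestronglyMeasurable.comp_snd) ?_
    have hk := continuous_kR (R := R) hκ
    have hG := continuous_Gam hh
    exact Continuous.aestronglyMeasurable (by fun_prop)
  rw [integrable_prod_iff' hmeas]
  have hslice : ∀ v : E2, Integrable (fun ζ : W => f v * (kR κ R (ζ - Gam h v) : ℂ)) := by
    intro v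
    have := ((integrable_kR hκ hR).comp_sub_right (Gam h v)).ofReal (𝕜 := ℂ)
    exact this.const_mul (f v)
  refine ⟨Filter.Eventually.of_forall hslice, ?_⟩
  have : ∀ v : E2, ∫ ζ : W, ‖f v * (kR κ R (ζ - Gam h v) : ℂ)‖ = ‖f v‖ := by
    intro v
    have h1 : ∀ ζ : W, ‖f v * (kR κ R (ζ - Gam h v) : ℂ)‖ = ‖f v‖ * kR κ R (ζ - Gam h v) := by
      intro ζ
      rw [norm_mul, Complex.norm_real, Real.norm_eq_abs, abs_of_nonneg (kR_nonneg hκ hR _)]
    simp_rw [h1]
    rw [integral_const_mul, integral_sub_right_eq_self (kR κ R) (Gam h v), integral_kR hκ hR,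
      mul_one]
  simp_rw [this]
  exact hf.norm

lemma integrable_FF (hκ : Bump κ B) (hR : 0 < R) (hh : Continuous h) (hf : Integrable f) :
    Integrable (FF κ R h f) :=
  (integrable_prod_kernel hκ hR hh hf).integral_prod_left

lemma integral_norm_FF_le (hκ : Bump κ B) (hR : 0 < R) (hh : Continuous h) (hf : Integrable f) :
    ∫ ζ, ‖FF κ R h f ζ‖ ≤ ∫ v, ‖f v‖ := by
  have hI := (integrable_prod_kernel hκ hR hh hf).norm
  calc ∫ ζ, ‖FF κ R h f ζ‖ ≤ ∫ ζ, ∫ v, ‖f v * (kR κ R (ζ - Gam h v) : ℂ)‖ := by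
        refine integral_mono (integrable_FF hκ hR hh hf).norm hI.integral_prod_left ?_
        intro ζ
        exact norm_integral_le_integral_norm _
    _ = ∫ v, ∫ ζ, ‖f v * (kR κ R (ζ - Gam h v) : ℂ)‖ := integral_integral_swap hI
    _ = ∫ v, ‖f v‖ := by
        congr 1
        ext v
        have h1 : ∀ ζ : W, ‖f v * (kR κ R (ζ - Gam h v) : ℂ)‖ = ‖f v‖ * kR κ R (ζ - Gam h v) := by
          intro ζ
          rw [norm_mul, Complex.norm_real, Real.norm_eq_abs, abs_of_nonneg (kR_nonneg hκ hR _)]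
        simp_rw [h1]
        rw [integral_const_mul, integral_sub_right_eq_self (kR κ R) (Gam h v), integral_kR hκ hR,
          mul_one]

/-- The key identity: the inverse transform of `FF f` is `ext f` times the multiplier. -/
lemma integral_FF_ee (hκ : Bump κ B) (hR : 0 < R) (hh : Continuous h) (hf : Integrable f) (p : W) :
    ∫ ζ, FF κ R h f ζ * ee (pr p ζ) = ext h f p.1 p.2 * mm κ (R⁻¹ • p) := by
  have hI := integrable_prod_kernel hκ hR hh hf
  have hee : Continuous (fun q : W × E2 => ee (pr p q.1)) :=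
    continuous_ee.comp ((continuous_pr p).comp continuous_fst)
  have hI2 : Integrable (fun q : W × E2 => f q.2 * (kR κ R (q.1 - Gam h q.2) : ℂ) * ee (pr p q.1))
      ((volume : Measure W).prod (volume : Measure E2)) := by
    refine hI.mono (hI.aestronglyMeasurable.mul hee.aestronglyMeasurable) ?_
    exact Filter.Eventually.of_forall fun q => by rw [norm_mul_ee]
  calc ∫ ζ, FF κ R h f ζ * ee (pr p ζ)
      = ∫ ζ, ∫ v, f v * (kR κ R (ζ - Gam h v) : ℂ) * ee (pr p ζ) := by
        congr 1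
        ext ζ
        unfold FF
        rw [← integral_mul_const]
    _ = ∫ v, ∫ ζ, f v * (kR κ R (ζ - Gam h v) : ℂ) * ee (pr p ζ) := integral_integral_swap hI2
    _ = ∫ v, f v * ee (ph h p.1 p.2 v) * mm κ (R⁻¹ • p) := by
        congr 1
        ext v
        have h1 : ∀ ζ : W, f v * (kR κ R (ζ - Gam h v) : ℂ) * ee (pr p ζ) =
            (f v * ee (ph h p.1 p.2 v)) * ((kR κ R (ζ - Gam h v) : ℂ) * ee (pr p (ζ - Gam h v))) := by
          intro ζ
          have : pr p ζ = ph h p.1 p.2 v + pr p (ζ - Gam h v) := by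
            rw [← pr_Gam, ← pr_add_right]
            congr 1
            abel
          rw [this, ee_add]
          ring
        simp_rw [h1]
        rw [integral_const_mul,
          integral_sub_right_eq_self (fun ζ => (kR κ R ζ : ℂ) * ee (pr p ζ)) (Gam h v),
          integral_kR_ee hR]
    _ = ext h f p.1 p.2 * mm κ (R⁻¹ • p) := by
        unfold ext
        rw [← integral_mul_const]

end loc

end Crest.Agent.R138.Ex774
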