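import Mathlib
import Crest.Agent.R138.ExSp1_774

/-!
# Sparse lemma, part 2: the local estimate through the frequency side localisation (helper774)
-/

set_option autoImplicit false

open MeasureTheory Crest.Agent.R138.Rs134 Set
open scoped ContDiff RealInnerProductSpace ENNReal

namespace Crest.Agent.R138.Ex774

/-- volume of the unit disc. -/
noncomputable def V0 : ℝ := (volume (Metric.closedBall (0 : E2) 1)).toReal

lemma V0_nonneg : 0 ≤ V0 := ENNReal.toReal_nonneg

lemma volume_closedBall_inv {R : ℝ} (hR : 0 < R) (x : E2) :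
    (volume (Metric.closedBall x (1 / R))).toReal = R⁻¹ ^ 2 * V0 := by
  rw [Measure.addHaar_closedBall' _ _ (by positivity), finrank_euclideanSpace_fin,
    ENNReal.toReal_mul, ENNReal.toReal_ofReal (by positivity), one_div]
  rfl

section
variable {κ : W → ℝ} {B R : ℝ} {h : E2 → ℝ} {f : E2 → ℂ}

lemma kR_Gam_zero (hκ : Bump κ B) (hR : 0 < R) {ζ : W} {v : E2}
    (hv : v ∉ Metric.closedBall ζ.1 (1 / R)) : kR κ R (ζ - Gam h v) = 0 := by
  refine kR_supp hκ hR ?_
  rw [Metric.mem_closedBall, not_le, div_lt_iff₀ hR, dist_eq_norm] at hv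
  have h1 : ‖v - ζ.1‖ ≤ ‖ζ - Gam h v‖ := by
    have : ‖(ζ - Gam h v).1‖ ≤ ‖ζ - Gam h v‖ := norm_fst_le _
    rw [norm_sub_rev]
    exact this
  nlinarith

lemma integrable_kR_Gam (hκ : Bump κ B) (hR : 0 < R) (hh : Continuous h) (ζ : W) :
    Integrable (fun v : E2 => kR κ R (ζ - Gam h v)) := by
  have hk := continuous_kR (R := R) hκ
  have hG := continuous_Gam hh
  have hc : Continuous (fun v : E2 => kR κ R (ζ - Gam h v)) := by fun_prop
  refine hc.integrable_of_hasCompactSupport ?_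
  refine HasCompactSupport.intro (isCompact_closedBall ζ.1 (1 / R)) ?_
  intro v hv
  exact kR_Gam_zero hκ hR hv

lemma integral_kR_Gam_le (hκ : Bump κ B) (hR : 0 < R) (hh : Continuous h) (ζ : W) :
    ∫ v, kR κ R (ζ - Gam h v) ≤ B * V0 * R := by
  have hI : Integrable ((Metric.closedBall ζ.1 (1 / R)).indicator fun _ : E2 => R ^ 3 * B) :=
    (integrable_indicator_iff measurableSet_closedBall).2
      (integrableOn_const (measure_closedBall_lt_top.ne))
  calc ∫ v, kR κ R (ζ - Gam h v)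
      ≤ ∫ v, (Metric.closedBall ζ.1 (1 / R)).indicator (fun _ : E2 => R ^ 3 * B) v := by
        refine integral_mono (integrable_kR_Gam hκ hR hh ζ) hI ?_
        intro v
        by_cases hv : v ∈ Metric.closedBall ζ.1 (1 / R)
        · rw [indicator_of_mem hv]; exact kR_le hκ hR _
        · rw [indicator_of_notMem hv]; exact (kR_Gam_zero hκ hR hv).le
    _ = B * V0 * R := by
        rw [integral_indicator measurableSet_closedBall, setIntegral_const, smul_eq_mul,
          Measure.real, volume_closedBall_inv hR]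
        field_simp

lemma norm_FF_le_integral (hκ : Bump κ B) (hR : 0 < R) (ζ : W) :
    ‖FF κ R h f ζ‖ ≤ ∫ v, ‖f v‖ * kR κ R (ζ - Gam h v) := by
  unfold FF
  refine (norm_integral_le_integral_norm _).trans (le_of_eq ?_)
  congr 1
  ext v
  rw [norm_mul, Complex.norm_real, Real.norm_eq_abs, abs_of_nonneg (kR_nonneg hκ hR _)]

/-- sup bound. -/
lemma norm_FF_le (hκ : Bump κ B) (hR : 0 < R) (hh : Continuous h)
    (hf1 : ∀ v, ‖f v‖ ≤ 1) (ζ : W) : ‖FF κ R h f ζ‖ ≤ B * V0 * R := by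
  refine (norm_FF_le_integral hκ hR ζ).trans (le_trans ?_ (integral_kR_Gam_le hκ hR hh ζ))
  refine integral_mono_of_nonneg (Filter.Eventually.of_forall fun v => ?_)
    (integrable_kR_Gam hκ hR hh ζ) (Filter.Eventually.of_forall fun v => ?_)
  · exact mul_nonneg (norm_nonneg _) (kR_nonneg hκ hR _)
  · calc ‖f v‖ * kR κ R (ζ - Gam h v) ≤ 1 * kR κ R (ζ - Gam h v) :=
        mul_le_mul_of_nonneg_right (hf1 v) (kR_nonneg hκ hR _)
      _ = _ := one_mul _

/-- crude bound by the `L¹` norm. -/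
lemma norm_FF_le' (hκ : Bump κ B) (hR : 0 < R) (hf : Integrable f) (ζ : W) :
    ‖FF κ R h f ζ‖ ≤ R ^ 3 * B * ∫ v, ‖f v‖ := by
  refine (norm_FF_le_integral hκ hR ζ).trans ?_
  rw [← integral_const_mul]
  refine integral_mono_of_nonneg (Filter.Eventually.of_forall fun v => ?_)
    (hf.norm.const_mul _) (Filter.Eventually.of_forall fun v => ?_)
  · exact mul_nonneg (norm_nonneg _) (kR_nonneg hκ hR _)
  · calc ‖f v‖ * kR κ R (ζ - Gam h v) ≤ ‖f v‖ * (R ^ 3 * B) :=
        mul_le_mul_of_nonneg_left (kR_le hκ hR _) (norm_nonneg _)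
      _ = _ := mul_comm _ _

/-- Lipschitz bound of the phase on the unit ball. -/
lemma lip_h {L : ℝ} (hh : ContDiff ℝ ∞ h) (hL : ∀ ξ : E2, ‖ξ‖ ≤ 3 → ‖fderiv ℝ h ξ‖ ≤ L)
    {u v : E2} (hu : ‖u‖ ≤ 3) (hv : ‖v‖ ≤ 3) : |h u - h v| ≤ L * ‖u - v‖ := by
  have := Convex.norm_image_sub_le_of_norm_fderiv_le (f := h) (s := Metric.closedBall (0 : E2) 3)
    (C := L) (𝕜 := ℝ) (fun x _ => (hh.differentiable (by simp)).differentiableAt)
    (fun x hx => hL x (by simpa using hx)) (convex_closedBall _ _)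
    (show v ∈ _ by simpa using hv) (show u ∈ _ by simpa using hu)
  simpa [Real.norm_eq_abs] using this

/-- support of the localised function. -/
lemma FF_support {L : ℝ} (hκ : Bump κ B) (hR : 1 ≤ R) (hh : ContDiff ℝ ∞ h)
    (hL : ∀ ξ : E2, ‖ξ‖ ≤ 3 → ‖fderiv ℝ h ξ‖ ≤ L)
    (hfs : ∀ v, 1 / 2 < ‖v‖ → f v = 0) {ζ : W} (hζ : FF κ R h f ζ ≠ 0) :
    ‖ζ.1‖ ≤ 1 ∧ |ζ.2 - h ζ.1| ≤ (1 + L) / R := by
  have hR0 : 0 < R := by linarith
  have hL0 : 0 ≤ L := (norm_nonneg _).trans (hL 0 (by simp))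
  obtain ⟨v, hv⟩ : ∃ v, f v * (kR κ R (ζ - Gam h v) : ℂ) ≠ 0 := by
    by_contra hcon
    push Not at hcon
    exact hζ (by unfold FF; simp [hcon])
  have hfv : f v ≠ 0 := left_ne_zero_of_mul hv
  have hkv : kR κ R (ζ - Gam h v) ≠ 0 := by
    intro h0
    exact hv (by rw [h0]; simp)
  have hv2 : ‖v‖ ≤ 1 / 2 := by
    by_contra hcon
    exact hfv (hfs v (not_le.1 hcon))
  have hsm : R * ‖ζ - Gam h v‖ < 1 / 100 := by
    by_contra hcon
    exact hkv (kR_supp hκ hR0 (not_lt.1 hcon))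
  have h1 : ‖ζ.1 - v‖ ≤ ‖ζ - Gam h v‖ := norm_fst_le (ζ - Gam h v)
  have h2 : |ζ.2 - h v| ≤ ‖ζ - Gam h v‖ := norm_snd_le (ζ - Gam h v)
  have hn : ‖ζ - Gam h v‖ ≤ 1 / R := by
    rw [le_div_iff₀ hR0]; nlinarith
  have hn' : ‖ζ - Gam h v‖ < 1 / 100 := by
    have := norm_nonneg (ζ - Gam h v)
    nlinarith
  have hz1 : ‖ζ.1‖ ≤ 1 := by
    calc ‖ζ.1‖ = ‖(ζ.1 - v) + v‖ := by rw [sub_add_cancel]
      _ ≤ ‖ζ.1 - v‖ + ‖v‖ := norm_add_le _ _
      _ ≤ 1 := by linarith
  refine ⟨hz1, ?_⟩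
  have h3 := lip_h hh hL (u := v) (v := ζ.1) (by linarith) (by linarith)
  rw [norm_sub_rev] at h3
  calc |ζ.2 - h ζ.1| = |(ζ.2 - h v) + (h v - h ζ.1)| := by ring_nf
    _ ≤ |ζ.2 - h v| + |h v - h ζ.1| := abs_add_le _ _
    _ ≤ 1 / R + L * (1 / R) := by
        refine add_le_add (h2.trans hn) (h3.trans (mul_le_mul_of_nonneg_left (h1.trans hn) hL0))
    _ = (1 + L) / R := by ring

/-- the shear. -/
def Sh (h : E2 → ℝ) (q : W) : W := (q.1, h q.1 + q.2)

lemma measurePreserving_Sh (hh : Measurable h) :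
    MeasurePreserving (Sh h) (volume : Measure W) (volume : Measure W) := by
  have := MeasurePreserving.skew_product (μa := (volume : Measure E2)) (μb := (volume : Measure E2))
    (μc := (volume : Measure ℝ)) (μd := (volume : Measure ℝ)) (MeasurePreserving.id _)
    (g := fun (x : E2) (t : ℝ) => h x + t) (by
      show Measurable fun p : E2 × ℝ => h p.1 + p.2
      fun_prop)
    (Filter.Eventually.of_forall fun x => (measurePreserving_add_left volume (h x)).map_eq)
  exact this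

lemma stronglyMeasurable_FF (hκ : Bump κ B) (hh : Continuous h) (hf : Measurable f) :
    StronglyMeasurable (FF κ R h f) := by
  have hk := (continuous_kR (R := R) hκ).measurable
  have hG := (continuous_Gam hh).measurable
  have : StronglyMeasurable (Function.uncurry fun (ζ : W) (v : E2) =>
      f v * (kR κ R (ζ - Gam h v) : ℂ)) := by
    refine Measurable.stronglyMeasurable ?_
    show Measurable fun q : W × E2 => f q.2 * (kR κ R (q.1 - Gam h q.2) : ℂ)
    fun_prop
  exact this.integral_prod_right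

/-- The slice formula. -/
lemma ext_mul_mm (hκ : Bump κ B) (hR : 0 < R) (hh : Continuous h) (hfm : Measurable f)
    (hf : Integrable f) (p : W) :
    ext h f p.1 p.2 * mm κ (R⁻¹ • p) =
      ∫ τ : ℝ, ee (p.2 * τ) * ext h (fun ξ => FF κ R h f (ξ, h ξ + τ)) p.1 p.2 := by
  have hmp := measurePreserving_Sh (h := h) hh.measurable
  have hFm := stronglyMeasurable_FF (R := R) hκ hh hfm
  have hee : Continuous (fun ζ : W => ee (pr p ζ)) := continuous_ee.comp (continuous_pr p)
  have hI : Integrable (fun ζ : W => FF κ R h f ζ * ee (pr p ζ)) := by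
    refine (integrable_FF hκ hR hh hf).mono
      (hFm.aestronglyMeasurable.mul hee.aestronglyMeasurable) ?_
    exact Filter.Eventually.of_forall fun ζ => by rw [norm_mul_ee]
  rw [← integral_FF_ee hκ hR hh hf p]
  have h1 : ∫ ζ, FF κ R h f ζ * ee (pr p ζ) =
      ∫ q : W, FF κ R h f (Sh h q) * ee (pr p (Sh h q)) := by
    conv_lhs => rw [← hmp.map_eq]
    exact integral_map (f := fun ζ : W => FF κ R h f ζ * ee (pr p ζ)) hmp.measurable.aemeasurable
      (hFm.aestronglyMeasurable.mul hee.aestronglyMeasurable)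
  have hI2 : Integrable (fun q : W => FF κ R h f (Sh h q) * ee (pr p (Sh h q))) :=
    hmp.integrable_comp_of_integrable hI
  rw [h1]
  rw [Measure.volume_eq_prod] at hI2 ⊢
  rw [integral_prod_symm _ hI2]
  congr 1
  ext τ
  unfold Rs134.ext
  rw [← integral_const_mul]
  congr 1
  ext ξ
  have : pr p (Sh h (ξ, τ)) = ph h p.1 p.2 ξ + p.2 * τ := by
    unfold pr Sh ph; ring
  rw [this, ee_add]
  show FF κ R h f (Sh h (ξ, τ)) * _ = _
  unfold Sh
  ring

/-- Jensen on an interval. -/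
lemma lintegral_pow_three_le {u : ℝ → ℝ≥0∞} (hu : AEMeasurable u) {I : Set ℝ}
    (hI : MeasurableSet I) :
    (∫⁻ τ in I, u τ) ^ 3 ≤ volume I ^ 2 * ∫⁻ τ in I, u τ ^ 3 := by
  have h32 : (3 : ℝ).HolderConjugate (3 / 2) := by
    rw [Real.holderConjugate_iff]; norm_num
  have := ENNReal.lintegral_mul_le_Lp_mul_Lq (volume.restrict I) h32 (f := u) (g := fun _ => 1)
    hu.restrict aemeasurable_const
  simp only [Pi.mul_apply, mul_one, ENNReal.one_rpow, lintegral_const, Measure.restrict_apply,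
    MeasurableSet.univ, univ_inter, one_mul] at this
  calc (∫⁻ τ in I, u τ) ^ 3 ≤ ((∫⁻ a in I, u a ^ (3 : ℝ)) ^ (1 / (3 : ℝ)) *
        volume I ^ (1 / (3 / 2 : ℝ))) ^ 3 := by gcongr
    _ = volume I ^ 2 * ∫⁻ τ in I, u τ ^ 3 := by
        rw [mul_pow, ← ENNReal.rpow_natCast, ← ENNReal.rpow_natCast, ← ENNReal.rpow_mul,
          ← ENNReal.rpow_mul, mul_comm]
        norm_num

end

end Crest.Agent.R138.Ex774
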