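import Mathlib
import Crest.Agent.R138.ExSp2_774
import Crest.Agent.R138.Rs4_134

/-!
# Sparse lemma, part 3: the local estimate `∫_{cyl} |ext f|^3 ≤ C R^{ε-1} ∫ |FF f|^2` (helper774)
-/

set_option autoImplicit false

open MeasureTheory Crest.Agent.R138.Rs134 Set
open scoped ContDiff RealInnerProductSpace ENNReal

namespace Crest.Agent.R138.Ex774

section
variable {κ : W → ℝ} {B R : ℝ} {h : E2 → ℝ} {f : E2 → ℂ}

/-- EInf for functions bounded by `A`. -/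
lemma EInf_scaled {CE : ℝ} {h : E2 → ℝ} {R : ℝ}
    (hE : ∀ g : E2 → ℂ, Measurable g → (∀ ξ, ‖g ξ‖ ≤ 1) → (∀ ξ, 1 < ‖ξ‖ → g ξ = 0) →
      ∫⁻ p in cyl 0 0 R, ‖ext h g p.1 p.2‖ₑ ^ 3 ≤ ENNReal.ofReal CE * ∫⁻ ξ, ‖g ξ‖ₑ ^ 2)
    {A : ℝ} (hA : 0 < A) {g : E2 → ℂ} (hg : Measurable g) (hgA : ∀ ξ, ‖g ξ‖ ≤ A)
    (hgs : ∀ ξ, 1 < ‖ξ‖ → g ξ = 0) :
    ∫⁻ p in cyl 0 0 R, ‖ext h g p.1 p.2‖ₑ ^ 3 ≤
      ENNReal.ofReal A * ENNReal.ofReal CE * ∫⁻ ξ, ‖g ξ‖ₑ ^ 2 := by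
  set g' : E2 → ℂ := fun ξ => ((A⁻¹ : ℝ) : ℂ) * g ξ with hg'
  have hAe : ‖((A : ℝ) : ℂ)‖ₑ = ENNReal.ofReal A := by
    rw [← ofReal_norm, Complex.norm_real, Real.norm_eq_abs, abs_of_pos hA]
  have hge : ∀ ξ, g ξ = ((A : ℝ) : ℂ) * g' ξ := by
    intro ξ
    rw [hg']
    simp only
    rw [← mul_assoc, ← Complex.ofReal_mul, mul_inv_cancel₀ hA.ne']
    simp
  have hext : ∀ p : E2 × ℝ, ext h g p.1 p.2 = ((A : ℝ) : ℂ) * ext h g' p.1 p.2 := by
    intro p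
    unfold Rs134.ext
    rw [← integral_const_mul]
    congr 1
    ext ξ
    rw [hge ξ]
    ring
  have h1 := hE g' (by rw [hg']; fun_prop) (fun ξ => by
      rw [hg']
      simp only
      rw [norm_mul, Complex.norm_real, Real.norm_eq_abs, abs_of_pos (by positivity)]
      rw [inv_mul_le_iff₀ hA, mul_one]
      exact hgA ξ) (fun ξ hξ => by rw [hg']; simp [hgs ξ hξ])
  have hA0 : ENNReal.ofReal A ≠ 0 := by simpa using hA
  calc ∫⁻ p in cyl 0 0 R, ‖ext h g p.1 p.2‖ₑ ^ 3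
      = ENNReal.ofReal A ^ 3 * ∫⁻ p in cyl 0 0 R, ‖ext h g' p.1 p.2‖ₑ ^ 3 := by
        rw [← lintegral_const_mul' _ _ (by finiteness)]
        congr 1
        ext p
        rw [hext p, enorm_mul, hAe, mul_pow]
    _ ≤ ENNReal.ofReal A ^ 3 * (ENNReal.ofReal CE * ∫⁻ ξ, ‖g' ξ‖ₑ ^ 2) := by gcongr
    _ = ENNReal.ofReal A * ENNReal.ofReal CE * (ENNReal.ofReal A ^ 2 * ∫⁻ ξ, ‖g' ξ‖ₑ ^ 2) := by
        ring
    _ = ENNReal.ofReal A * ENNReal.ofReal CE * ∫⁻ ξ, ‖g ξ‖ₑ ^ 2 := by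
        congr 1
        rw [← lintegral_const_mul' _ _ (by finiteness)]
        congr 1
        ext ξ
        conv_rhs => rw [hge ξ, enorm_mul, hAe, mul_pow]

/-- the slices -/
noncomputable def GG (κ : W → ℝ) (R : ℝ) (h : E2 → ℝ) (f : E2 → ℂ) (τ : ℝ) (ξ : E2) : ℂ :=
  FF κ R h f (ξ, h ξ + τ)

lemma measurable_GG2 (hκ : Bump κ B) (hh : Continuous h) (hf : Measurable f) :
    Measurable (fun q : ℝ × E2 => GG κ R h f q.1 q.2) := by
  have hFm := (stronglyMeasurable_FF (R := R) hκ hh hf).measurable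
  have hhm := hh.measurable
  unfold GG
  exact hFm.comp (by fun_prop)

lemma measurable_GG (hκ : Bump κ B) (hh : Continuous h) (hf : Measurable f) (τ : ℝ) :
    Measurable (GG κ R h f τ) := by
  have hFm := (stronglyMeasurable_FF (R := R) hκ hh hf).measurable
  have hhm := hh.measurable
  have h2 : Measurable (fun ξ : E2 => ((ξ, h ξ + τ) : W)) := by fun_prop
  exact hFm.comp h2

lemma measurable_ext_GG (hκ : Bump κ B) (hh : Continuous h) (hf : Measurable f) :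
    StronglyMeasurable (fun q : W × ℝ => ext h (GG κ R h f q.2) q.1.1 q.1.2) := by
  have hG := measurable_GG2 (R := R) hκ hh hf
  have hhm := hh.measurable
  have hee := continuous_ee.measurable
  have hm1 : Measurable (fun z : (W × ℝ) × E2 => ((z.1.2, z.2) : ℝ × E2)) :=
    (measurable_snd.comp measurable_fst).prodMk measurable_snd
  have hA := hG.comp hm1
  have hm2 : Measurable (fun z : (W × ℝ) × E2 => ph h z.1.1.1 z.1.1.2 z.2) := by
    unfold ph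
    fun_prop
  have hB := hee.comp hm2
  have hC := hA.mul hB
  have hD : StronglyMeasurable (Function.uncurry fun (q : W × ℝ) (ξ : E2) =>
      GG κ R h f q.2 ξ * ee (ph h q.1.1 q.1.2 ξ)) := hC.stronglyMeasurable
  exact hD.integral_prod_right

lemma lintegral_GG_sq (hκ : Bump κ B) (hh : Continuous h) (hf : Measurable f) :
    ∫⁻ τ : ℝ, ∫⁻ ξ : E2, ‖GG κ R h f τ ξ‖ₑ ^ 2 = ∫⁻ ζ, ‖FF κ R h f ζ‖ₑ ^ 2 := by
  have hmp := measurePreserving_Sh (h := h) hh.measurable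
  have hFm := (stronglyMeasurable_FF (R := R) hκ hh hf).measurable
  have h1 : ∫⁻ ζ, ‖FF κ R h f ζ‖ₑ ^ 2 = ∫⁻ q : W, ‖FF κ R h f (Sh h q)‖ₑ ^ 2 := by
    conv_lhs => rw [← hmp.map_eq]
    exact lintegral_map (f := fun ζ : W => ‖FF κ R h f ζ‖ₑ ^ 2) (by fun_prop) hmp.measurable
  have hm : Measurable (fun q : W => ‖FF κ R h f (Sh h q)‖ₑ ^ 2) :=
    (by fun_prop : Measurable fun ζ : W => ‖FF κ R h f ζ‖ₑ ^ 2).comp hmp.measurable
  rw [h1, Measure.volume_eq_prod, lintegral_prod_symm' _ hm]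
  rfl

set_option maxHeartbeats 1000000 in
theorem local_est {c0 : ℝ} {K : ℕ} (hE : LocH h) (hpar : Par c0 K h) (hκ : Bump κ B)
    (hB : 0 ≤ B) :
    ∀ ε : ℝ, 0 < ε → ∃ C : ℝ, 0 ≤ C ∧ ∀ R : ℝ, 1 ≤ R → ∀ f : E2 → ℂ, Measurable f →
      (∀ ξ, ‖f ξ‖ ≤ 1) → (∀ ξ, 1 / 2 < ‖ξ‖ → f ξ = 0) →
      ∫⁻ p in cyl 0 0 R, ‖ext h f p.1 p.2‖ₑ ^ 3 ≤
        ENNReal.ofReal (C * R ^ ε / R) * ∫⁻ ζ, ‖FF κ R h f ζ‖ₑ ^ 2 := by
  intro ε hε
  obtain ⟨CE, hCE⟩ := hE ε hε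
  have hh : Continuous h := hpar.smooth.continuous
  -- Lipschitz constant
  obtain ⟨L, hL⟩ : ∃ L : ℝ, ∀ ξ : E2, ‖ξ‖ ≤ 3 → ‖fderiv ℝ h ξ‖ ≤ L := by
    have hc : Continuous (fderiv ℝ h) := hpar.smooth.continuous_fderiv (by simp)
    obtain ⟨L, hL⟩ := (isCompact_closedBall (0 : E2) 3).exists_bound_of_continuousOn hc.continuousOn
    exact ⟨L, fun ξ hξ => hL ξ (by simpa using hξ)⟩
  have hL0 : 0 ≤ L := (norm_nonneg _).trans (hL 0 (by simp))
  set CE' : ℝ := max CE 0 with hCE'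
  refine ⟨8 * (2 * (1 + L)) ^ 2 * (B * V0 + 1) * CE', by have := V0_nonneg; positivity, ?_⟩
  intro R hR f hfm hf1 hfs
  have hR0 : 0 < R := by linarith
  have hfI : Integrable f := by
    have : IntegrableOn f (Metric.closedBall 0 (1 / 2)) :=
      Measure.integrableOn_of_bounded (M := 1) measure_closedBall_lt_top.ne
        hfm.aestronglyMeasurable (Filter.Eventually.of_forall hf1)
    rw [← integrableOn_univ]
    refine this.of_forall_sdiff_eq_zero MeasurableSet.univ ?_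
    intro x hx
    have : x ∉ Metric.closedBall (0 : E2) (1 / 2) := hx.2
    exact hfs x (by simpa using this)
  set I : Set ℝ := Icc (-((1 + L) / R)) ((1 + L) / R) with hI
  have hIm : MeasurableSet I := measurableSet_Icc
  have hIvol : volume I = ENNReal.ofReal (2 * (1 + L) / R) := by
    rw [hI, Real.volume_Icc]; congr 1; ring
  have hum := measurable_ext_GG (R := R) hκ hh hfm
  have hGG0 : ∀ τ, τ ∉ I → ∀ ξ, GG κ R h f τ ξ = 0 := by
    intro τ hτ ξ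
    by_contra hne
    have := (FF_support hκ hR hpar.smooth hL hfs (ζ := (ξ, h ξ + τ)) hne).2
    simp only [add_sub_cancel_left] at this
    exact hτ (abs_le.1 this)
  have hGGs : ∀ τ ξ, 1 < ‖ξ‖ → GG κ R h f τ ξ = 0 := by
    intro τ ξ hξ
    by_contra hne
    have := (FF_support hκ hR hpar.smooth hL hfs (ζ := (ξ, h ξ + τ)) hne).1
    exact absurd this (not_le.2 hξ)
  -- pointwise bound
  have hpt : ∀ p ∈ cyl (0 : E2) 0 R,
      ‖ext h f p.1 p.2‖ₑ ≤ 2 * ∫⁻ τ in I, ‖ext h (GG κ R h f τ) p.1 p.2‖ₑ := by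
    intro p hp
    have hp1 : ‖p.1‖ ≤ R := by simpa using hp.1
    have hp2 : |p.2| ≤ R := by
      have := hp.2
      rw [mem_Icc] at this
      rw [abs_le]
      constructor <;> linarith [this.1, this.2]
    have hpn : ‖R⁻¹ • p‖ ≤ 1 := by
      rw [norm_smul, Real.norm_eq_abs, abs_of_pos (by positivity), inv_mul_le_iff₀ hR0, mul_one]
      exact max_le hp1 hp2
    have hm := norm_mm_ge hκ hpn
    have hme : (2 : ℝ≥0∞)⁻¹ ≤ ‖mm κ (R⁻¹ • p)‖ₑ := by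
      rw [← ofReal_norm]
      refine le_trans (le_of_eq ?_) (ENNReal.ofReal_le_ofReal hm)
      rw [one_div, ENNReal.ofReal_inv_of_pos (by norm_num)]
      simp
    have heq := ext_mul_mm hκ hR0 hh hfm hfI p
    have h1 : ‖ext h f p.1 p.2‖ₑ * ‖mm κ (R⁻¹ • p)‖ₑ ≤
        ∫⁻ τ in I, ‖ext h (GG κ R h f τ) p.1 p.2‖ₑ := by
      rw [← enorm_mul, heq]
      refine (enorm_integral_le_lintegral_enorm _).trans ?_
      have h2 : ∀ τ : ℝ, ‖ee (p.2 * τ) * ext h (fun ξ => FF κ R h f (ξ, h ξ + τ)) p.1 p.2‖ₑ =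
          I.indicator (fun τ => ‖ext h (GG κ R h f τ) p.1 p.2‖ₑ) τ := by
        intro τ
        rw [enorm_mul, ← ofReal_norm (ee _), norm_ee, ENNReal.ofReal_one, one_mul]
        by_cases hτ : τ ∈ I
        · rw [indicator_of_mem hτ]; rfl
        · rw [indicator_of_notMem hτ]
          have : (fun ξ => FF κ R h f (ξ, h ξ + τ)) = fun _ => 0 := by
            ext ξ; exact hGG0 τ hτ ξ
          rw [this]
          unfold Rs134.ext
          simp
      simp_rw [h2]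
      rw [lintegral_indicator hIm]
    calc ‖ext h f p.1 p.2‖ₑ = 2 * (‖ext h f p.1 p.2‖ₑ * 2⁻¹) := by
          rw [mul_comm, mul_assoc, ENNReal.inv_mul_cancel (by norm_num) (by norm_num), mul_one]
      _ ≤ 2 * (‖ext h f p.1 p.2‖ₑ * ‖mm κ (R⁻¹ • p)‖ₑ) := by gcongr
      _ ≤ _ := by gcongr
  have hcylm : MeasurableSet (cyl (0 : E2) 0 R) :=
    measurableSet_closedBall.prod measurableSet_Icc
  have hum3 : Measurable (Function.uncurry fun (p : W) (τ : ℝ) =>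
      ‖ext h (GG κ R h f τ) p.1 p.2‖ₑ ^ 3) := hum.measurable.enorm.pow_const 3
  have hA : 0 < (B * V0 + 1) * R := by have := V0_nonneg; positivity
  calc ∫⁻ p in cyl 0 0 R, ‖ext h f p.1 p.2‖ₑ ^ 3
      ≤ ∫⁻ p in cyl (0 : E2) 0 R, 8 * volume I ^ 2 *
          ∫⁻ τ in I, ‖ext h (GG κ R h f τ) p.1 p.2‖ₑ ^ 3 := by
        refine setLIntegral_mono' hcylm ?_
        intro p hp
        have hmp : AEMeasurable (fun τ : ℝ => ‖ext h (GG κ R h f τ) p.1 p.2‖ₑ) :=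
          ((hum.measurable.comp (by fun_prop : Measurable fun τ : ℝ => (p, τ))).enorm).aemeasurable
        calc ‖ext h f p.1 p.2‖ₑ ^ 3
            ≤ (2 * ∫⁻ τ in I, ‖ext h (GG κ R h f τ) p.1 p.2‖ₑ) ^ 3 := by
              gcongr; exact hpt p hp
          _ = 8 * (∫⁻ τ in I, ‖ext h (GG κ R h f τ) p.1 p.2‖ₑ) ^ 3 := by
              rw [mul_pow]; norm_num
          _ ≤ 8 * (volume I ^ 2 * ∫⁻ τ in I, ‖ext h (GG κ R h f τ) p.1 p.2‖ₑ ^ 3) := by
              gcongr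
              exact lintegral_pow_three_le hmp hIm
          _ = _ := by ring
    _ = 8 * volume I ^ 2 * ∫⁻ p in cyl (0 : E2) 0 R,
          ∫⁻ τ in I, ‖ext h (GG κ R h f τ) p.1 p.2‖ₑ ^ 3 := by
        rw [lintegral_const_mul']
        rw [hIvol]
        finiteness
    _ = 8 * volume I ^ 2 * ∫⁻ τ in I, ∫⁻ p in cyl (0 : E2) 0 R,
          ‖ext h (GG κ R h f τ) p.1 p.2‖ₑ ^ 3 := by
        rw [lintegral_lintegral_swap]
        exact hum3.aemeasurable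
    _ ≤ 8 * volume I ^ 2 * ∫⁻ τ in I, ENNReal.ofReal ((B * V0 + 1) * R) *
          ENNReal.ofReal (CE' * R ^ ε) * ∫⁻ ξ, ‖GG κ R h f τ ξ‖ₑ ^ 2 := by
        gcongr with τ
        refine EInf_scaled (CE := CE' * R ^ ε) ?_ hA ?_ ?_ (hGGs τ)
        · intro g hg hg1 hgs
          refine (hCE g hg hg1 hgs R hR).trans ?_
          gcongr
          exact le_max_left _ _
        · exact measurable_GG hκ hh hfm τ
        · intro ξ
          refine (norm_FF_le hκ hR0 hh hf1 _).trans ?_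
          have := V0_nonneg
          nlinarith
    _ = 8 * volume I ^ 2 * (ENNReal.ofReal ((B * V0 + 1) * R) * ENNReal.ofReal (CE' * R ^ ε)) *
          ∫⁻ τ in I, ∫⁻ ξ, ‖GG κ R h f τ ξ‖ₑ ^ 2 := by
        rw [lintegral_const_mul' _ _ (by finiteness)]
        ring
    _ ≤ 8 * volume I ^ 2 * (ENNReal.ofReal ((B * V0 + 1) * R) * ENNReal.ofReal (CE' * R ^ ε)) *
          ∫⁻ τ, ∫⁻ ξ, ‖GG κ R h f τ ξ‖ₑ ^ 2 := by
        gcongr
        exact Measure.restrict_le_self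
    _ = ENNReal.ofReal (8 * (2 * (1 + L)) ^ 2 * (B * V0 + 1) * CE' * R ^ ε / R) *
          ∫⁻ ζ, ‖FF κ R h f ζ‖ₑ ^ 2 := by
        rw [lintegral_GG_sq hκ hh hfm]
        congr 1
        rw [hIvol, ← ENNReal.ofReal_pow (by positivity), ← ENNReal.ofReal_mul hA.le]
        have h8 : (8 : ℝ≥0∞) = ENNReal.ofReal 8 := by simp
        rw [h8, ← ENNReal.ofReal_mul (by norm_num), ← ENNReal.ofReal_mul (by positivity)]
        congr 1
        field_simp

end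

end Crest.Agent.R138.Ex774
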