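import Mathlib
import Crest.Agent.R138.ExSp3_774

/-!
# Sparse lemma, part 4: adjoint functions `b_i` (helper774)
-/

set_option autoImplicit false

open MeasureTheory Crest.Agent.R138.Rs134 Set
open scoped ContDiff RealInnerProductSpace ENNReal ComplexConjugate

namespace Crest.Agent.R138.Ex774

/-- Cauchy-Schwarz with a weight, real valued. -/
lemma cs_weight {α : Type*} [MeasurableSpace α] {μ : Measure α} {k w : α → ℝ}
    (hk : ∀ x, 0 ≤ k x) (hki : Integrable k μ) (h1 : Integrable (fun x => k x * w x) μ)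
    (h2 : Integrable (fun x => k x * w x ^ 2) μ) :
    (∫ x, k x * w x ∂μ) ^ 2 ≤ (∫ x, k x ∂μ) * ∫ x, k x * w x ^ 2 ∂μ := by
  have key : ∀ t : ℝ, 0 ≤ (∫ x, k x ∂μ) * (t * t) + (-2 * ∫ x, k x * w x ∂μ) * t +
      ∫ x, k x * w x ^ 2 ∂μ := by
    intro t
    have h3 : ∫ x, k x * (w x - t) ^ 2 ∂μ = (∫ x, k x ∂μ) * (t * t) +
        (-2 * ∫ x, k x * w x ∂μ) * t + ∫ x, k x * w x ^ 2 ∂μ := by
      have : ∀ x, k x * (w x - t) ^ 2 = k x * (t * t) + k x * w x * (-2 * t) + k x * w x ^ 2 := by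
        intro x; ring
      simp_rw [this]
      have e1 : Integrable (fun x => k x * (t * t) + k x * w x * (-2 * t)) μ :=
        (hki.mul_const _).add (h1.mul_const _)
      rw [integral_add e1 h2,
        integral_add (hki.mul_const _) (h1.mul_const _), integral_mul_const, integral_mul_const]
      ring
    rw [← h3]
    exact integral_nonneg fun x => mul_nonneg (hk x) (sq_nonneg _)
  have := discrim_le_zero key
  unfold discrim at this
  nlinarith

section
variable {κ : W → ℝ} {B R : ℝ} {h : E2 → ℝ} {f : E2 → ℂ}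

/-- the smooth adjoint function on frequency space. -/
noncomputable def Psi (κ : W → ℝ) (R : ℝ) (F : W → ℂ) (w : W) : ℂ :=
  ∫ ζ, (kR κ R (ζ - w) : ℂ) * F ζ

lemma Psi_eq_conv (F : W → ℂ) : Psi κ R F =
    convolution (fun z => kR κ R (-z)) F (ContinuousLinearMap.lsmul ℝ ℝ) volume := by
  ext w
  rw [convolution_eq_swap]
  unfold Psi
  congr 1
  ext ζ
  simp

lemma hcs_neg (hκ : Bump κ B) (hR : 0 < R) : HasCompactSupport (fun z => kR κ R (-z)) :=
  (hasCompactSupport_kR hκ hR).comp_homeomorph (Homeomorph.neg W)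

lemma contDiff_neg_kR (hκ : Bump κ B) : ContDiff ℝ 1 (fun z => kR κ R (-z)) :=
  (contDiff_kR hκ).comp contDiff_neg

lemma contDiff_Psi (hκ : Bump κ B) (hR : 0 < R) {F : W → ℂ} (hF : Integrable F) :
    ContDiff ℝ 1 (Psi κ R F) := by
  rw [Psi_eq_conv]
  exact (hcs_neg hκ hR).contDiff_convolution_left _ (contDiff_neg_kR hκ) hF.locallyIntegrable

lemma norm_Psi_le (hκ : Bump κ B) (hR : 0 < R) {F : W → ℂ} (hF : Integrable F) (w : W) :
    ‖Psi κ R F w‖ ≤ R ^ 3 * B * ∫ ζ, ‖F ζ‖ := by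
  unfold Psi
  refine (norm_integral_le_integral_norm _).trans ?_
  rw [← integral_const_mul]
  refine integral_mono_of_nonneg (Filter.Eventually.of_forall fun v => norm_nonneg _)
    (hF.norm.const_mul _) (Filter.Eventually.of_forall fun v => ?_)
  show ‖(kR κ R (v - w) : ℂ) * F v‖ ≤ R ^ 3 * B * ‖F v‖
  rw [norm_mul, Complex.norm_real, Real.norm_eq_abs, abs_of_nonneg (kR_nonneg hκ hR _)]
  exact mul_le_mul_of_nonneg_right (kR_le hκ hR _) (norm_nonneg _)

lemma norm_fderiv_neg_kR_le (hκ : Bump κ B) (hR : 0 < R) (z : W) :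
    ‖fderiv ℝ (fun z => kR κ R (-z)) z‖ ≤ R ^ 4 * B := by
  have h1 : (fun z => kR κ R (-z)) = fun z => R ^ 3 * κ ((-R) • z) := by
    ext z; unfold kR; simp
  have hd : DifferentiableAt ℝ κ ((-R) • z) := hκ.smooth.differentiable (by norm_num) _
  have h2 : HasFDerivAt (fun z => R ^ 3 * κ ((-R) • z))
      (R ^ 3 • ((fderiv ℝ κ ((-R) • z)).comp ((-R) • ContinuousLinearMap.id ℝ W))) z := by
    have h3 : HasFDerivAt (fun z : W => (-R) • z) ((-R) • ContinuousLinearMap.id ℝ W) z :=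
      (hasFDerivAt_id z).const_smul (-R)
    exact (hd.hasFDerivAt.comp z h3).const_mul (R ^ 3)
  rw [h1, h2.fderiv, norm_smul, Real.norm_eq_abs, abs_of_pos (by positivity)]
  have h4 : ‖(fderiv ℝ κ ((-R) • z)).comp ((-R) • ContinuousLinearMap.id ℝ W)‖ ≤ B * R := by
    refine (ContinuousLinearMap.opNorm_comp_le _ _).trans ?_
    refine mul_le_mul (hκ.dbd _) ?_ (norm_nonneg _) ((norm_nonneg _).trans (hκ.dbd 0))
    rw [norm_smul, Real.norm_eq_abs, abs_neg, abs_of_pos hR]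
    calc R * ‖ContinuousLinearMap.id ℝ W‖ ≤ R * 1 := by
          gcongr; exact ContinuousLinearMap.norm_id_le
      _ = R := mul_one _
  calc R ^ 3 * _ ≤ R ^ 3 * (B * R) := by gcongr
    _ = R ^ 4 * B := by ring

lemma norm_fderiv_Psi_le (hκ : Bump κ B) (hB : 0 ≤ B) (hR : 0 < R) {F : W → ℂ} (hF : Integrable F)
    (w : W) : ‖fderiv ℝ (Psi κ R F) w‖ ≤ R ^ 4 * B * ∫ ζ, ‖F ζ‖ := by
  have h1 := (hcs_neg hκ hR).hasFDerivAt_convolution_left (ContinuousLinearMap.lsmul ℝ ℝ)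
    (contDiff_neg_kR hκ) (hF.locallyIntegrable (μ := volume)) w
  rw [← Psi_eq_conv] at h1
  rw [h1.fderiv, convolution_def]
  refine (norm_integral_le_integral_norm _).trans ?_
  have hLn : ‖(ContinuousLinearMap.lsmul ℝ ℝ : ℝ →L[ℝ] ℂ →L[ℝ] ℂ)‖ ≤ 1 :=
    ContinuousLinearMap.opNorm_lsmul_le
  have hb : ∀ t : W, ‖((ContinuousLinearMap.precompL W
      (ContinuousLinearMap.lsmul ℝ ℝ : ℝ →L[ℝ] ℂ →L[ℝ] ℂ))
      (fderiv ℝ (fun z => kR κ R (-z)) t)) (F (w - t))‖ ≤ R ^ 4 * B * ‖F (w - t)‖ := by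
    intro t
    refine (ContinuousLinearMap.le_opNorm₂ _ _ _).trans ?_
    have h2 := (ContinuousLinearMap.norm_precompL_le W
      (ContinuousLinearMap.lsmul ℝ ℝ : ℝ →L[ℝ] ℂ →L[ℝ] ℂ)).trans hLn
    have h3 := norm_fderiv_neg_kR_le hκ hR t
    calc _ ≤ 1 * (R ^ 4 * B) * ‖F (w - t)‖ := by gcongr
      _ = _ := by ring
  have hFs : Integrable (fun t => F (w - t)) := hF.comp_sub_left w
  calc _ ≤ ∫ t, R ^ 4 * B * ‖F (w - t)‖ :=
        integral_mono_of_nonneg (Filter.Eventually.of_forall fun v => norm_nonneg _)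
          (hFs.norm.const_mul _) (Filter.Eventually.of_forall hb)
    _ = R ^ 4 * B * ∫ ζ, ‖F ζ‖ := by
        rw [integral_const_mul, integral_sub_left_eq_self (fun t => ‖F t‖) volume w]

lemma contDiff_Gam (hh : ContDiff ℝ ∞ h) : ContDiff ℝ 1 (Gam h) := by
  unfold Gam
  exact contDiff_id.prodMk (hh.of_le (by simp))

lemma norm_fderiv_Gam_le {L : ℝ} (hh : ContDiff ℝ ∞ h)
    (hL : ∀ ξ : E2, ‖ξ‖ ≤ 3 → ‖fderiv ℝ h ξ‖ ≤ L) {v : E2} (hv : ‖v‖ ≤ 3) :
    ‖fderiv ℝ (Gam h) v‖ ≤ 1 + L := by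
  have hL0 : 0 ≤ L := (norm_nonneg _).trans (hL 0 (by simp))
  have hd : DifferentiableAt ℝ h v := hh.differentiable (by simp) _
  have h1 : HasFDerivAt (Gam h) ((ContinuousLinearMap.id ℝ E2).prod (fderiv ℝ h v)) v :=
    (hasFDerivAt_id v).prodMk hd.hasFDerivAt
  rw [h1.fderiv]
  refine ContinuousLinearMap.opNorm_le_bound _ (by linarith) ?_
  intro x
  rw [ContinuousLinearMap.prod_apply]
  refine max_le ?_ ?_
  · simp only [ContinuousLinearMap.coe_id', id_eq]
    nlinarith [norm_nonneg x]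
  · refine (ContinuousLinearMap.le_opNorm _ _).trans ?_
    have := hL v hv
    nlinarith [norm_nonneg x]

/-- `F` bounded and integrable. -/
lemma integrable_sq_of_bdd {F : W → ℂ} (hF : Integrable F) {A : ℝ} (hA : ∀ z, ‖F z‖ ≤ A) :
    Integrable (fun z => ‖F z‖ ^ 2) := by
  refine (hF.norm.const_mul A).mono (hF.aestronglyMeasurable.norm.pow 2) ?_
  refine Filter.Eventually.of_forall fun z => ?_
  have h0 : 0 ≤ A := (norm_nonneg _).trans (hA z)
  rw [Real.norm_eq_abs, Real.norm_eq_abs, abs_of_nonneg (by positivity),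
    abs_of_nonneg (by positivity), sq]
  exact mul_le_mul_of_nonneg_right (hA z) (norm_nonneg _)

/-- `∫ |Psi F ∘ Gam|^2 ≤ B V0 R ∫ |F|^2`, with integrability. -/
lemma integral_Psi_Gam_sq_le (hκ : Bump κ B) (hR : 0 < R) (hh : Continuous h)
    {F : W → ℂ} (hFm : StronglyMeasurable F) (hF : Integrable F) {A : ℝ} (hA : ∀ z, ‖F z‖ ≤ A) :
    Integrable (fun v => ‖Psi κ R F (Gam h v)‖ ^ 2) ∧
      ∫ v, ‖Psi κ R F (Gam h v)‖ ^ 2 ≤ B * V0 * R * ∫ ζ, ‖F ζ‖ ^ 2 := by
  have hF2 := integrable_sq_of_bdd hF hA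
  have hk := continuous_kR (R := R) hκ
  have hG := continuous_Gam hh
  -- product integrability
  have hprod : Integrable (fun q : W × E2 => kR κ R (q.1 - Gam h q.2) * ‖F q.1‖ ^ 2)
      ((volume : Measure W).prod (volume : Measure E2)) := by
    have hm : AEStronglyMeasurable (fun q : W × E2 => kR κ R (q.1 - Gam h q.2) * ‖F q.1‖ ^ 2)
        ((volume : Measure W).prod (volume : Measure E2)) := by
      refine AEStronglyMeasurable.mul (Continuous.aestronglyMeasurable (by fun_prop)) ?_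
      exact (hFm.aestronglyMeasurable.comp_fst).norm.pow 2
    rw [integrable_prod_iff hm]
    have hsl : ∀ ζ : W, Integrable (fun v : E2 => kR κ R (ζ - Gam h v) * ‖F ζ‖ ^ 2) := fun ζ =>
      (integrable_kR_Gam hκ hR hh ζ).mul_const _
    refine ⟨Filter.Eventually.of_forall hsl, ?_⟩
    refine (hF2.const_mul (B * V0 * R)).mono hm.norm.integral_prod_right' ?_
    refine Filter.Eventually.of_forall fun ζ => ?_
    have h1 : ∫ v : E2, ‖kR κ R (ζ - Gam h v) * ‖F ζ‖ ^ 2‖ =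
        (∫ v : E2, kR κ R (ζ - Gam h v)) * ‖F ζ‖ ^ 2 := by
      rw [← integral_mul_const]
      congr 1
      ext v
      rw [Real.norm_eq_abs, abs_of_nonneg (mul_nonneg (kR_nonneg hκ hR _) (by positivity))]
    rw [h1, Real.norm_eq_abs, Real.norm_eq_abs]
    refine abs_le_abs_of_nonneg ?_ ?_
    · exact mul_nonneg (integral_nonneg fun v => kR_nonneg hκ hR _) (by positivity)
    · exact mul_le_mul_of_nonneg_right (integral_kR_Gam_le hκ hR hh ζ) (by positivity)
  -- pointwise bound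
  have hpt : ∀ v : E2, ‖Psi κ R F (Gam h v)‖ ^ 2 ≤ ∫ ζ, kR κ R (ζ - Gam h v) * ‖F ζ‖ ^ 2 := by
    intro v
    have hki : Integrable (fun ζ : W => kR κ R (ζ - Gam h v)) :=
      (integrable_kR hκ hR).comp_sub_right _
    have hbd : ∀ ζ : W, ‖kR κ R (ζ - Gam h v)‖ ≤ R ^ 3 * B := fun ζ => by
      rw [Real.norm_eq_abs, abs_of_nonneg (kR_nonneg hκ hR _)]; exact kR_le hκ hR _
    have hkc : Continuous (fun ζ : W => kR κ R (ζ - Gam h v)) := by fun_prop
    have hi1 : Integrable (fun ζ : W => kR κ R (ζ - Gam h v) * ‖F ζ‖) :=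
      hF.norm.bdd_mul hkc.aestronglyMeasurable (Filter.Eventually.of_forall hbd)
    have hi2 : Integrable (fun ζ : W => kR κ R (ζ - Gam h v) * ‖F ζ‖ ^ 2) :=
      hF2.bdd_mul hkc.aestronglyMeasurable (Filter.Eventually.of_forall hbd)
    have hcs := cs_weight (fun ζ => kR_nonneg hκ hR (ζ - Gam h v)) hki hi1 hi2
    have h1 : ∫ ζ : W, kR κ R (ζ - Gam h v) = 1 := by
      rw [integral_sub_right_eq_self (kR κ R) (Gam h v), integral_kR hκ hR]
    rw [h1, one_mul] at hcs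
    refine le_trans ?_ hcs
    refine pow_le_pow_left₀ (norm_nonneg _) ?_ 2
    unfold Psi
    refine (norm_integral_le_integral_norm _).trans (le_of_eq ?_)
    congr 1
    ext ζ
    rw [norm_mul, Complex.norm_real, Real.norm_eq_abs, abs_of_nonneg (kR_nonneg hκ hR _)]
  have hcontΨ : Continuous (fun v => Psi κ R F (Gam h v)) :=
    (contDiff_Psi hκ hR hF).continuous.comp hG
  have hI : Integrable (fun v => ‖Psi κ R F (Gam h v)‖ ^ 2) := by
    refine (hprod.integral_prod_right).mono ((hcontΨ.norm.pow 2).aestronglyMeasurable) ?_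
    refine Filter.Eventually.of_forall fun v => ?_
    rw [Real.norm_eq_abs, Real.norm_eq_abs, abs_of_nonneg (by positivity)]
    exact (hpt v).trans (le_abs_self _)
  refine ⟨hI, ?_⟩
  calc ∫ v, ‖Psi κ R F (Gam h v)‖ ^ 2 ≤ ∫ v, ∫ ζ, kR κ R (ζ - Gam h v) * ‖F ζ‖ ^ 2 :=
        integral_mono hI hprod.integral_prod_right hpt
    _ = ∫ ζ, ∫ v, kR κ R (ζ - Gam h v) * ‖F ζ‖ ^ 2 := (integral_integral_swap hprod).symm
    _ ≤ ∫ ζ, B * V0 * R * ‖F ζ‖ ^ 2 := by
        refine integral_mono hprod.integral_prod_left (hF2.const_mul _) ?_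
        intro ζ
        show ∫ v, kR κ R (ζ - Gam h v) * ‖F ζ‖ ^ 2 ≤ B * V0 * R * ‖F ζ‖ ^ 2
        rw [integral_mul_const]
        exact mul_le_mul_of_nonneg_right (integral_kR_Gam_le hκ hR hh ζ) (by positivity)
    _ = _ := integral_const_mul _ _

/-- energy identity: `∫ |FF f|^2 = ∫ f · (Psi (conj FF f) ∘ Gam)`. -/
lemma energy_identity (hκ : Bump κ B) (hR : 0 < R) (hh : Continuous h) (hfm : Measurable f)
    (hf : Integrable f) :
    ((∫ ζ, ‖FF κ R h f ζ‖ ^ 2 : ℝ) : ℂ) =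
      ∫ v, f v * Psi κ R (fun ζ => conj (FF κ R h f ζ)) (Gam h v) := by
  have hFm := stronglyMeasurable_FF (R := R) hκ hh hfm
  have hI := integrable_prod_kernel hκ hR hh hf
  have hbd : ∀ ζ, ‖FF κ R h f ζ‖ ≤ R ^ 3 * B * ∫ v, ‖f v‖ := norm_FF_le' hκ hR hf
  have hI2 : Integrable (fun q : W × E2 => f q.2 * (kR κ R (q.1 - Gam h q.2) : ℂ) *
      conj (FF κ R h f q.1)) ((volume : Measure W).prod (volume : Measure E2)) := by
    refine hI.mul_bdd (c := R ^ 3 * B * ∫ v, ‖f v‖) ?_ ?_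
    · have h1 : AEStronglyMeasurable (fun q : W × E2 => FF κ R h f q.1)
        ((volume : Measure W).prod (volume : Measure E2)) := hFm.aestronglyMeasurable.comp_fst
      exact (Complex.continuous_conj.comp_aestronglyMeasurable h1)
    · refine Filter.Eventually.of_forall fun q => ?_
      rw [RCLike.norm_conj]
      exact hbd q.1
  calc ((∫ ζ, ‖FF κ R h f ζ‖ ^ 2 : ℝ) : ℂ) = ∫ ζ, FF κ R h f ζ * conj (FF κ R h f ζ) := by
        rw [← integral_complex_ofReal]
        congr 1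
        ext ζ
        rw [Complex.mul_conj, Complex.normSq_eq_norm_sq]
    _ = ∫ ζ, ∫ v, f v * (kR κ R (ζ - Gam h v) : ℂ) * conj (FF κ R h f ζ) := by
        congr 1
        ext ζ
        rw [integral_mul_const]
        rfl
    _ = ∫ v, ∫ ζ, f v * (kR κ R (ζ - Gam h v) : ℂ) * conj (FF κ R h f ζ) :=
        integral_integral_swap hI2
    _ = ∫ v, f v * Psi κ R (fun ζ => conj (FF κ R h f ζ)) (Gam h v) := by
        congr 1
        ext v
        unfold Psi
        rw [← integral_const_mul]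
        congr 1
        ext ζ
        ring

end

end Crest.Agent.R138.Ex774
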