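import Crest.Agent.R138.Rs2_134

/-!
Item 2 of doc 1587: the decay theorem `decay`.
-/

set_option autoImplicit false
set_option maxSynthPendingDepth 3

namespace Crest.Agent.R138.Rs134

open MeasureTheory Set Metric
open scoped ContDiff RealInnerProductSpace ENNReal

theorem decay_t {c0 : ℝ} {K : ℕ} {h : E2 → ℝ} (hP : Par c0 K h) (hK : 3 ≤ K) (hc : c0 ≤ 1 / 4)
    {a : E2 → ℂ} {A : ℝ} (ha : ContDiff ℝ 1 a) (hs : ∀ ξ, 3 < ‖ξ‖ → a ξ = 0)
    (hA0 : ∀ ξ, ‖a ξ‖ ≤ A) (hA1 : ∀ ξ, ‖fderiv ℝ a ξ‖ ≤ A) (x : E2) {t : ℝ} (ht : t ≠ 0) :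
    ‖ext h a x t‖ ≤ Real.sqrt (145 * Real.pi * V3) * A * |t| ^ (-(1 / 3) : ℝ) := by
  have hA : 0 ≤ A := (norm_nonneg _).trans (hA0 0)
  have htp : 0 < |t| := abs_pos.2 ht
  have hV := V3_nonneg
  set s : ℝ := |t| ^ (-(1 / 3) : ℝ) with hs_def
  have hsp : 0 < s := Real.rpow_pos_of_pos htp _
  have hs3 : |t| * s ^ 3 = 1 := by
    rw [hs_def, ← Real.rpow_natCast, ← Real.rpow_mul htp.le]
    norm_num
    rw [Real.rpow_neg_one, mul_inv_cancel₀ htp.ne']
  have hbound : ∀ u : E2, ‖corr h a x t u‖ ≤ (ball (0 : E2) s).indicator (fun _ => A ^ 2 * V3) u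
      + (closedBall (0 : E2) 6).indicator (fun _ => 4 * A ^ 2 * s ^ 2 * V3) u := by
    intro u
    by_cases h1 : ‖u‖ < s
    · have : u ∈ ball (0 : E2) s := by simpa [mem_ball, dist_zero_right] using h1
      rw [indicator_of_mem this]
      refine (corr_trivial hs hA0 x t u).trans ?_
      have : 0 ≤ (closedBall (0 : E2) 6).indicator (fun _ => 4 * A ^ 2 * s ^ 2 * V3) u :=
        indicator_nonneg (fun _ _ => by positivity) u
      linarith
    · have hsu : s ≤ ‖u‖ := not_lt.1 h1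
      by_cases h2 : ‖u‖ ≤ 6
      · have m2 : u ∈ closedBall (0 : E2) 6 := by simpa [mem_closedBall, dist_zero_right] using h2
        rw [indicator_of_mem m2]
        have hu : u ≠ 0 := norm_pos_iff.1 (hsp.trans_le hsu)
        refine (corr_bound hP hK hc ha hs hA0 hA1 x ht hu).trans ?_
        have h0 : 0 ≤ (ball (0 : E2) s).indicator (fun _ => A ^ 2 * V3) u :=
          indicator_nonneg (fun _ _ => by positivity) u
        have h3 : 4 * A ^ 2 / (|t| * ‖u‖) * V3 ≤ 4 * A ^ 2 * s ^ 2 * V3 := by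
          apply mul_le_mul_of_nonneg_right _ hV
          rw [div_le_iff₀ (by positivity)]
          have h4 : 1 ≤ s ^ 2 * (|t| * ‖u‖) := by
            calc (1 : ℝ) = s ^ 2 * (|t| * s) := by rw [← hs3]; ring
              _ ≤ s ^ 2 * (|t| * ‖u‖) := by gcongr
          nlinarith [sq_nonneg A]
        linarith
      · rw [corr_eq_zero hs x t (not_le.1 h2), norm_zero]
        exact add_nonneg (indicator_nonneg (fun _ _ => by positivity) u)
          (indicator_nonneg (fun _ _ => by positivity) u)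
  have hint : ∫ u, ‖corr h a x t u‖ ≤ 145 * Real.pi * V3 * (A * s) ^ 2 := by
    have i1 : Integrable ((ball (0 : E2) s).indicator (fun _ => A ^ 2 * V3)) volume :=
      (integrable_indicator_iff measurableSet_ball).2 (integrableOn_const measure_ball_lt_top.ne)
    have i2 : Integrable ((closedBall (0 : E2) 6).indicator (fun _ => 4 * A ^ 2 * s ^ 2 * V3))
        volume :=
      (integrable_indicator_iff measurableSet_closedBall).2
        (integrableOn_const measure_closedBall_lt_top.ne)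
    calc ∫ u, ‖corr h a x t u‖ ≤ ∫ u, ((ball (0 : E2) s).indicator (fun _ => A ^ 2 * V3) u
      + (closedBall (0 : E2) 6).indicator (fun _ => 4 * A ^ 2 * s ^ 2 * V3) u) := by
          apply integral_mono_of_nonneg
          · exact Filter.Eventually.of_forall fun _ => norm_nonneg _
          · exact i1.add i2
          · exact Filter.Eventually.of_forall hbound
      _ = (volume (ball (0 : E2) s)).toReal * (A ^ 2 * V3)
          + (volume (closedBall (0 : E2) 6)).toReal * (4 * A ^ 2 * s ^ 2 * V3) := by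
          rw [integral_add i1 i2, integral_indicator_const _ measurableSet_ball,
            integral_indicator_const _ measurableSet_closedBall]
          simp [Measure.real]
      _ = 145 * Real.pi * V3 * (A * s) ^ 2 := by
          rw [EuclideanSpace.volume_ball_fin_two, EuclideanSpace.volume_closedBall_fin_two]
          rw [ENNReal.toReal_mul, ENNReal.toReal_mul, ENNReal.toReal_pow, ENNReal.toReal_pow,
            ENNReal.toReal_ofReal hsp.le, ENNReal.toReal_ofReal Real.pi_pos.le,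
            ENNReal.toReal_ofReal (by norm_num : (0 : ℝ) ≤ 6)]
          ring
  have hsq : ‖ext h a x t‖ ^ 2 ≤ 145 * Real.pi * V3 * (A * s) ^ 2 := by
    have h1 := ext_mul_conj hP ha.continuous hs x t
    have h2 : ‖ext h a x t‖ ^ 2 = ‖∫ u, corr h a x t u‖ := by
      rw [← h1, norm_mul, RCLike.norm_conj, sq]
    rw [h2]
    exact (norm_integral_le_integral_norm _).trans hint
  have h3 : ‖ext h a x t‖ ≤ Real.sqrt (145 * Real.pi * V3 * (A * s) ^ 2) := by
    rw [← Real.sqrt_sq (norm_nonneg (ext h a x t))]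
    exact Real.sqrt_le_sqrt hsq
  refine h3.trans (le_of_eq ?_)
  rw [Real.sqrt_mul (by positivity), Real.sqrt_sq (by positivity)]
  ring

/-- Decay of oscillatory integrals with phase in the class `Par`; the constant is absolute. -/
theorem decay_abs : ∃ C : ℝ, 0 < C ∧ ∀ (c0 : ℝ) (K : ℕ) (h : E2 → ℝ), Par c0 K h → 3 ≤ K →
    c0 ≤ 1 / 4 → ∀ (A : ℝ) (a : E2 → ℂ), ContDiff ℝ 1 a → (∀ ξ, 3 < ‖ξ‖ → a ξ = 0) →
    (∀ ξ, ‖a ξ‖ ≤ A) → (∀ ξ, ‖fderiv ℝ a ξ‖ ≤ A) → ∀ (x : E2) (t : ℝ),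
    ‖ext h a x t‖ ≤ C * A * (1 + ‖x‖ + |t|) ^ (-(1 / 3) : ℝ) := by
  set C1 : ℝ := Real.sqrt (145 * Real.pi * V3) with hC1
  have hC10 : 0 ≤ C1 := Real.sqrt_nonneg _
  have hV := V3_nonneg
  refine ⟨6 * V3 + 3 * C1 + 1, by positivity, ?_⟩
  intro c0 K h hP hK hc A a ha hs hA0 hA1 x t
  have hA : 0 ≤ A := (norm_nonneg _).trans (hA0 0)
  set S : ℝ := 1 + ‖x‖ + |t| with hS
  have hx0 := norm_nonneg x
  have ht0 := abs_nonneg t
  have hS1 : 1 ≤ S := by linarith
  have hSp : 0 < S ^ (-(1 / 3) : ℝ) := Real.rpow_pos_of_pos (by linarith) _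
  have htriv : ‖ext h a x t‖ ≤ A * V3 := by
    apply integral_support_bound
    · intro w; rw [norm_mul_ee]; exact hA0 w
    · intro ξ hξ; simp [hs ξ hξ]
  have fin : ∀ B : ℝ, 0 ≤ B → B ≤ 6 * V3 + 3 * C1 → ‖ext h a x t‖ ≤ B * A * S ^ (-(1 / 3) : ℝ) →
      ‖ext h a x t‖ ≤ (6 * V3 + 3 * C1 + 1) * A * S ^ (-(1 / 3) : ℝ) := by
    intro B hB0 hB h1
    refine h1.trans ?_
    gcongr
    linarith
  by_cases hS30 : S ≤ 27
  · apply fin (3 * V3) (by positivity) (by linarith)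
    refine htriv.trans ?_
    have h1 : (1 / 3 : ℝ) ≤ S ^ (-(1 / 3) : ℝ) := by
      have h2 : (27 : ℝ) ^ (-(1 / 3) : ℝ) ≤ S ^ (-(1 / 3) : ℝ) :=
        Real.rpow_le_rpow_of_nonpos (by linarith) hS30 (by norm_num)
      have h3 : (27 : ℝ) ^ (-(1 / 3) : ℝ) = 1 / 3 := by
        rw [show (27 : ℝ) = 3 ^ (3 : ℝ) by norm_num, ← Real.rpow_mul (by norm_num)]
        norm_num
      linarith
    calc A * V3 = 3 * V3 * A * (1 / 3) := by ring
      _ ≤ 3 * V3 * A * S ^ (-(1 / 3) : ℝ) := by gcongr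
  · have hS27 : 27 < S := not_le.1 hS30
    by_cases hx : 8 * |t| ≤ ‖x‖
    · have hxp : 0 < ‖x‖ := by
        by_contra hcon
        have : ‖x‖ = 0 := le_antisymm (not_lt.1 hcon) hx0
        have : |t| ≤ 0 := by linarith
        linarith
      apply fin (6 * V3) (by positivity) (by linarith)
      refine (decay_x hP (by omega) hc ha hs hA0 hA1 hxp hx).trans ?_
      have h1 : S ≤ 2 * ‖x‖ := by linarith
      have h2 : 3 * A / ‖x‖ ≤ 6 * A * S⁻¹ := by
        rw [div_le_iff₀ hxp]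
        have : 1 ≤ 2 * (S⁻¹ * ‖x‖) := by
          rw [← div_eq_inv_mul, ← mul_div_assoc, le_div_iff₀ (by linarith)]; linarith
        nlinarith
      have h3 : S⁻¹ ≤ S ^ (-(1 / 3) : ℝ) := by
        rw [← Real.rpow_neg_one]
        exact Real.rpow_le_rpow_of_exponent_le hS1 (by norm_num)
      calc 3 * A / ‖x‖ * V3 ≤ 6 * A * S⁻¹ * V3 := by gcongr
        _ ≤ 6 * A * S ^ (-(1 / 3) : ℝ) * V3 := by gcongr
        _ = _ := by ring
    · have hx' : ‖x‖ < 8 * |t| := not_le.1 hx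
      have htp : 0 < |t| := by linarith
      apply fin (3 * C1) (by positivity) (by linarith)
      refine (decay_t hP hK hc ha hs hA0 hA1 x (abs_pos.1 htp)).trans ?_
      have h1 : S ≤ 27 * |t| := by linarith
      have h2 : |t| ^ (-(1 / 3) : ℝ) ≤ 3 * S ^ (-(1 / 3) : ℝ) := by
        have h3 : (27 * |t|) ^ (-(1 / 3) : ℝ) ≤ S ^ (-(1 / 3) : ℝ) :=
          Real.rpow_le_rpow_of_nonpos (by linarith) h1 (by norm_num)
        have h4 : (27 * |t|) ^ (-(1 / 3) : ℝ) = 1 / 3 * |t| ^ (-(1 / 3) : ℝ) := by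
          rw [Real.mul_rpow (by norm_num) htp.le]
          congr 1
          rw [show (27 : ℝ) = 3 ^ (3 : ℝ) by norm_num, ← Real.rpow_mul (by norm_num)]
          norm_num
        linarith
      calc C1 * A * |t| ^ (-(1 / 3) : ℝ) ≤ C1 * A * (3 * S ^ (-(1 / 3) : ℝ)) := by gcongr
        _ = _ := by ring

/-- The decay statement in the form frozen for item 1. -/
theorem decay {c0 : ℝ} {K : ℕ} {h : E2 → ℝ} (hP : Par c0 K h) (hK : 3 ≤ K) (hc : c0 ≤ 1 / 4) :
    ∃ C : ℝ, 0 < C ∧ ∀ (A : ℝ) (a : E2 → ℂ), ContDiff ℝ 1 a → (∀ ξ, 3 < ‖ξ‖ → a ξ = 0) →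
    (∀ ξ, ‖a ξ‖ ≤ A) → (∀ ξ, ‖fderiv ℝ a ξ‖ ≤ A) → ∀ (x : E2) (t : ℝ),
    ‖ext h a x t‖ ≤ C * A * (1 + ‖x‖ + |t|) ^ (-(1 / 3) : ℝ) := by
  obtain ⟨C, hC, H⟩ := decay_abs
  exact ⟨C, hC, fun A a => H c0 K h hP hK hc A a⟩

end Crest.Agent.R138.Rs134
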