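import Mathlib
import Crest.Agent.R138.ExSp4_774
import Crest.Agent.R138.Rs3_134
import Crest.Agent.R138.Rs4_134

/-!
# Sparse lemma, part 5: `∑ ‖FF f_i‖² ≤ C R ‖g‖²` for sparse centres (helper774)
-/

set_option autoImplicit false

open MeasureTheory Crest.Agent.R138.Rs134 Set
open scoped ContDiff RealInnerProductSpace ENNReal ComplexConjugate

namespace Crest.Agent.R138.Ex774

lemma V0_pos : 0 < V0 :=
  ENNReal.toReal_pos (Metric.measure_closedBall_pos volume _ one_pos).ne'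
    measure_closedBall_lt_top.ne

lemma good_sq_integrable {g : E2 → ℂ} (hg : Good g) : Integrable (fun ξ => ‖g ξ‖ ^ 2) := by
  refine hg.integrable.norm.mono (hg.meas.norm.pow_const 2).aestronglyMeasurable ?_
  refine Filter.Eventually.of_forall fun ξ => ?_
  rw [Real.norm_eq_abs, Real.norm_eq_abs, abs_of_nonneg (by positivity), abs_of_nonneg (norm_nonneg _)]
  have := hg.le_one ξ
  nlinarith [norm_nonneg (g ξ)]

lemma good_L1_sq_le {g : E2 → ℂ} (hg : Good g) :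
    (∫ ξ, ‖g ξ‖) ^ 2 ≤ V0 * ∫ ξ, ‖g ξ‖ ^ 2 := by
  set D : Set E2 := Metric.closedBall 0 1 with hD
  have hDm : MeasurableSet D := measurableSet_closedBall
  have hz : ∀ ξ, ξ ∉ D → g ξ = 0 := by
    intro ξ hξ
    apply hg.supp
    have : 1 < ‖ξ‖ := by simpa [hD] using hξ
    linarith
  have e1 : ∀ ξ, D.indicator (fun _ => (1 : ℝ)) ξ * ‖g ξ‖ = ‖g ξ‖ := by
    intro ξ
    by_cases h : ξ ∈ D
    · rw [indicator_of_mem h, one_mul]
    · rw [hz ξ h]; simp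
  have e2 : ∀ ξ, D.indicator (fun _ => (1 : ℝ)) ξ * ‖g ξ‖ ^ 2 = ‖g ξ‖ ^ 2 := by
    intro ξ
    by_cases h : ξ ∈ D
    · rw [indicator_of_mem h, one_mul]
    · rw [hz ξ h]; simp
  have hk : Integrable (D.indicator (fun _ => (1 : ℝ))) :=
    (integrable_indicator_iff hDm).2 (integrableOn_const measure_closedBall_lt_top.ne)
  have := cs_weight (μ := volume) (k := D.indicator (fun _ => (1 : ℝ))) (w := fun ξ => ‖g ξ‖)
    (fun ξ => indicator_nonneg (fun _ _ => zero_le_one) ξ) hk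
    (by simp_rw [e1]; exact hg.integrable.norm) (by simp_rw [e2]; exact good_sq_integrable hg)
  simp_rw [e1, e2] at this
  refine this.trans (le_of_eq ?_)
  congr 1
  rw [integral_indicator_const _ hDm]
  simp [V0, Measure.real, hD]

section
variable {κ : W → ℝ} {B R : ℝ} {h : E2 → ℝ}

/-- the modulated functions -/
noncomputable def fm (h : E2 → ℝ) (g : E2 → ℂ) (x : W) (ξ : E2) : ℂ := g ξ * ee (ph h x.1 x.2 ξ)

lemma norm_fm (g : E2 → ℂ) (x : W) (ξ : E2) : ‖fm h g x ξ‖ = ‖g ξ‖ := norm_mul_ee _ _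

lemma good_fm (hh : Continuous h) {g : E2 → ℂ} (hg : Good g) (x : W) : Good (fm h g x) := by
  refine ⟨?_, fun ξ => ?_, fun ξ hξ => ?_⟩
  · have h1 := (continuous_ee.comp (continuous_ph hh x.1 x.2)).measurable
    exact hg.meas.mul h1
  · rw [norm_fm]; exact hg.le_one ξ
  · unfold fm; rw [hg.supp ξ hξ, zero_mul]

/-- cut-off function. -/
noncomputable def chiB : ContDiffBump (0 : E2) := ⟨1, 2, by norm_num, by norm_num⟩

/-- the localised adjoint functions. -/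
noncomputable def qq (κ : W → ℝ) (R : ℝ) (h : E2 → ℝ) (g : E2 → ℂ) (x : W) (v : E2) : ℂ :=
  (chiB v : ℂ) * Psi κ R (fun ζ => conj (FF κ R h (fm h g x) ζ)) (Gam h v)

lemma integrable_conj_FF (hκ : Bump κ B) (hR : 0 < R) (hh : Continuous h) {g : E2 → ℂ}
    (hg : Good g) (x : W) :
    Integrable (fun ζ => conj (FF κ R h (fm h g x) ζ)) := by
  have h1 := integrable_FF hκ hR hh (good_fm hh hg x).integrable
  refine h1.mono (Complex.continuous_conj.comp_aestronglyMeasurable h1.aestronglyMeasurable) ?_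
  exact Filter.Eventually.of_forall fun ζ => by simp

lemma integral_norm_conj_FF_le (hκ : Bump κ B) (hR : 0 < R) (hh : Continuous h) {g : E2 → ℂ}
    (hg : Good g) (x : W) :
    ∫ ζ, ‖conj (FF κ R h (fm h g x) ζ)‖ ≤ ∫ v, ‖g v‖ := by
  have h1 := integral_norm_FF_le hκ hR hh (good_fm hh hg x).integrable
  simp only [RCLike.norm_conj]
  simpa only [norm_fm] using h1

lemma contDiff_chiB : ContDiff ℝ 1 (fun v : E2 => ((chiB v : ℝ) : ℂ)) :=
  Complex.ofRealCLM.contDiff.comp (chiB.contDiff (n := 1))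

lemma contDiff_qq (hκ : Bump κ B) (hR : 0 < R) (hh : ContDiff ℝ ∞ h) {g : E2 → ℂ}
    (hg : Good g) (x : W) : ContDiff ℝ 1 (qq κ R h g x) := by
  unfold qq
  exact contDiff_chiB.mul ((contDiff_Psi hκ hR (integrable_conj_FF hκ hR hh.continuous hg x)).comp
    (contDiff_Gam hh))

lemma chiB_le_one (v : E2) : ‖((chiB v : ℝ) : ℂ)‖ ≤ 1 := by
  rw [Complex.norm_real, Real.norm_eq_abs, abs_of_nonneg chiB.nonneg]
  exact chiB.le_one

lemma chiB_zero {v : E2} (hv : 2 ≤ ‖v‖) : (chiB v : ℝ) = 0 := by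
  apply chiB.zero_of_le_dist
  rw [dist_zero_right]; exact hv

lemma qq_zero {g : E2 → ℂ} {x : W} {v : E2} (hv : 2 ≤ ‖v‖) : qq κ R h g x v = 0 := by
  unfold qq
  rw [chiB_zero hv]; simp

lemma norm_qq_le_Psi {g : E2 → ℂ} {x : W} (v : E2) :
    ‖qq κ R h g x v‖ ≤ ‖Psi κ R (fun ζ => conj (FF κ R h (fm h g x) ζ)) (Gam h v)‖ := by
  unfold qq
  rw [norm_mul]
  calc _ ≤ 1 * ‖Psi κ R (fun ζ => conj (FF κ R h (fm h g x) ζ)) (Gam h v)‖ :=
        mul_le_mul_of_nonneg_right (chiB_le_one v) (norm_nonneg _)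
    _ = _ := one_mul _

lemma exists_chi_bound : ∃ Cχ : ℝ, 0 ≤ Cχ ∧ ∀ v : E2, ‖fderiv ℝ (fun v : E2 => ((chiB v : ℝ) : ℂ)) v‖ ≤ Cχ := by
  have hs : HasCompactSupport (fun v : E2 => ((chiB v : ℝ) : ℂ)) :=
    chiB.hasCompactSupport.comp_left (g := fun r : ℝ => (r : ℂ)) (by simp)
  have hs' := hs.fderiv (𝕜 := ℝ)
  obtain ⟨C, hC⟩ := hs'.exists_bound_of_continuous (contDiff_chiB.continuous_fderiv (by norm_num))
  exact ⟨max C 0, le_max_right _ _, fun v => (hC v).trans (le_max_left _ _)⟩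

lemma norm_qq_le {L Cχ : ℝ} (hL0 : 0 ≤ L) (hC0 : 0 ≤ Cχ) (hB : 0 ≤ B)
    (hκ : Bump κ B) (hR : 1 ≤ R) (hh : ContDiff ℝ ∞ h) {g : E2 → ℂ}
    (hg : Good g) (x : W) (v : E2) :
    ‖qq κ R h g x v‖ ≤ R ^ 4 * B * (Cχ + 2 + L) * ∫ ξ, ‖g ξ‖ := by
  have hR0 : 0 < R := by linarith
  have hG : 0 ≤ ∫ ξ, ‖g ξ‖ := integral_nonneg fun _ => norm_nonneg _
  have hF := integrable_conj_FF hκ hR0 hh.continuous hg x
  have h1 := integral_norm_conj_FF_le hκ hR0 hh.continuous hg x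
  have h34 : R ^ 3 ≤ R ^ 4 := pow_le_pow_right₀ hR (by norm_num)
  calc ‖qq κ R h g x v‖ ≤ _ := norm_qq_le_Psi v
    _ ≤ R ^ 3 * B * ∫ ζ, ‖conj (FF κ R h (fm h g x) ζ)‖ := norm_Psi_le hκ hR0 hF _
    _ ≤ R ^ 4 * B * 1 * ∫ ξ, ‖g ξ‖ := by
        rw [mul_one]
        gcongr
    _ ≤ R ^ 4 * B * (Cχ + 2 + L) * ∫ ξ, ‖g ξ‖ := by
        gcongr
        linarith

lemma norm_fderiv_qq_le {L Cχ : ℝ} (hC0 : 0 ≤ Cχ) (hB : 0 ≤ B)
    (hL : ∀ ξ : E2, ‖ξ‖ ≤ 3 → ‖fderiv ℝ h ξ‖ ≤ L)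
    (hχ : ∀ v : E2, ‖fderiv ℝ (fun v : E2 => ((chiB v : ℝ) : ℂ)) v‖ ≤ Cχ)
    (hκ : Bump κ B) (hR : 1 ≤ R) (hh : ContDiff ℝ ∞ h) {g : E2 → ℂ}
    (hg : Good g) (x : W) (v : E2) :
    ‖fderiv ℝ (qq κ R h g x) v‖ ≤ R ^ 4 * B * (Cχ + 2 + L) * ∫ ξ, ‖g ξ‖ := by
  have hL0 : 0 ≤ L := (norm_nonneg _).trans (hL 0 (by simp))
  have hR0 : 0 < R := by linarith
  have hG : 0 ≤ ∫ ξ, ‖g ξ‖ := integral_nonneg fun _ => norm_nonneg _
  have hF := integrable_conj_FF hκ hR0 hh.continuous hg x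
  have h1 := integral_norm_conj_FF_le hκ hR0 hh.continuous hg x
  by_cases hv : ‖v‖ ≤ 3
  · set P := Psi κ R (fun ζ => conj (FF κ R h (fm h g x) ζ)) with hP
    have hPc : ContDiff ℝ 1 P := contDiff_Psi hκ hR0 hF
    have hPd : DifferentiableAt ℝ P (Gam h v) := hPc.differentiable (by norm_num) _
    have hGd : DifferentiableAt ℝ (Gam h) v := (contDiff_Gam hh).differentiable (by norm_num) _
    have hcomp : DifferentiableAt ℝ (fun v => P (Gam h v)) v := hPd.comp v hGd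
    have hcd : DifferentiableAt ℝ (fun v : E2 => ((chiB v : ℝ) : ℂ)) v :=
      contDiff_chiB.differentiable (by norm_num) _
    have e1 : fderiv ℝ (fun v => P (Gam h v)) v = (fderiv ℝ P (Gam h v)).comp (fderiv ℝ (Gam h) v) :=
      fderiv_comp v hPd hGd
    have e2 : fderiv ℝ (qq κ R h g x) v = ((chiB v : ℝ) : ℂ) • fderiv ℝ (fun v => P (Gam h v)) v +
        P (Gam h v) • fderiv ℝ (fun v : E2 => ((chiB v : ℝ) : ℂ)) v :=
      fderiv_fun_mul hcd hcomp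
    rw [e2]
    have b1 : ‖fderiv ℝ (fun v => P (Gam h v)) v‖ ≤ (R ^ 4 * B * ∫ ξ, ‖g ξ‖) * (1 + L) := by
      rw [e1]
      refine (ContinuousLinearMap.opNorm_comp_le _ _).trans ?_
      refine mul_le_mul ?_ (norm_fderiv_Gam_le hh hL hv) (norm_nonneg _) (by positivity)
      refine (norm_fderiv_Psi_le hκ hB hR0 hF _).trans ?_
      gcongr
    have b2 : ‖P (Gam h v)‖ ≤ R ^ 4 * B * ∫ ξ, ‖g ξ‖ := by
      refine (norm_Psi_le hκ hR0 hF _).trans ?_
      have h34 : R ^ 3 ≤ R ^ 4 := pow_le_pow_right₀ hR (by norm_num)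
      gcongr
    calc _ ≤ ‖((chiB v : ℝ) : ℂ) • fderiv ℝ (fun v => P (Gam h v)) v‖ +
          ‖P (Gam h v) • fderiv ℝ (fun v : E2 => ((chiB v : ℝ) : ℂ)) v‖ := norm_add_le _ _
      _ ≤ 1 * ((R ^ 4 * B * ∫ ξ, ‖g ξ‖) * (1 + L)) + (R ^ 4 * B * ∫ ξ, ‖g ξ‖) * Cχ := by
          rw [norm_smul, norm_smul]
          refine add_le_add ?_ ?_
          · exact mul_le_mul (chiB_le_one v) b1 (norm_nonneg _) zero_le_one
          · exact mul_le_mul b2 (hχ v) (norm_nonneg _) (by positivity)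
      _ = R ^ 4 * B * (Cχ + 1 + L) * ∫ ξ, ‖g ξ‖ := by ring
      _ ≤ _ := by
          gcongr
          linarith
  · push Not at hv
    have : qq κ R h g x =ᶠ[nhds v] fun _ => 0 := by
      have ho : IsOpen {w : E2 | 2 < ‖w‖} := isOpen_lt continuous_const continuous_norm
      filter_upwards [ho.mem_nhds (show (2 : ℝ) < ‖v‖ by linarith)] with w hw
      exact qq_zero (le_of_lt hw)
    rw [this.fderiv_eq]
    simp only [fderiv_fun_const, Pi.zero_apply, norm_zero]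
    positivity

end

end Crest.Agent.R138.Ex774
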