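import Mathlib
import Crest.Agent.R138.ExSp5_774

/-!
# Sparse lemma, part 6: energy sum and the sparse lemma (helper774)
-/

set_option autoImplicit false

open MeasureTheory Crest.Agent.R138.Rs134 Set
open scoped ContDiff RealInnerProductSpace ENNReal ComplexConjugate

namespace Crest.Agent.R138.Ex774

section
variable {κ : W → ℝ} {B R : ℝ} {h : E2 → ℝ}

/-- compactly supported continuous -/
lemma hasCompactSupport_qq {g : E2 → ℂ} {x : W} : HasCompactSupport (qq κ R h g x) := by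
  refine HasCompactSupport.intro (isCompact_closedBall (0 : E2) 2) ?_
  intro v hv
  rw [mem_closedBall_zero_iff, not_le] at hv
  exact qq_zero hv.le

/-- the total function `∑ ee(ph_i) q_i`. -/
noncomputable def HH (κ : W → ℝ) (R : ℝ) (h : E2 → ℝ) (g : E2 → ℂ) {M : ℕ} (x : Fin M → W)
    (v : E2) : ℂ :=
  ∑ i, ee (ph h (x i).1 (x i).2 v) * qq κ R h g (x i) v

lemma continuous_HH (hκ : Bump κ B) (hR : 0 < R) (hh : ContDiff ℝ ∞ h) {g : E2 → ℂ}
    (hg : Good g) {M : ℕ} (x : Fin M → W) : Continuous (HH κ R h g x) := by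
  unfold HH
  refine continuous_finsetSum _ fun i _ => ?_
  exact (continuous_ee.comp (continuous_ph hh.continuous _ _)).mul
    (contDiff_qq hκ hR hh hg (x i)).continuous

lemma HH_zero {g : E2 → ℂ} {M : ℕ} {x : Fin M → W} {v : E2} (hv : 2 ≤ ‖v‖) :
    HH κ R h g x v = 0 := by
  unfold HH
  exact Finset.sum_eq_zero fun i _ => by rw [qq_zero hv, mul_zero]

lemma hasCompactSupport_HH {g : E2 → ℂ} {M : ℕ} {x : Fin M → W} :
    HasCompactSupport (HH κ R h g x) := by
  refine HasCompactSupport.intro (isCompact_closedBall (0 : E2) 2) ?_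
  intro v hv
  rw [mem_closedBall_zero_iff, not_le] at hv
  exact HH_zero hv.le

/-- (1) the sum of the energies is the pairing of `g` with `HH`. -/
lemma sum_energy_eq (hκ : Bump κ B) (hR : 0 < R) (hh : ContDiff ℝ ∞ h) {g : E2 → ℂ}
    (hg : Good g) {M : ℕ} (x : Fin M → W) :
    ((∑ i, ∫ ζ, ‖FF κ R h (fm h g (x i)) ζ‖ ^ 2 : ℝ) : ℂ) = ∫ v, g v * HH κ R h g x v := by
  have hi : ∀ i, Integrable (fun v => g v * (ee (ph h (x i).1 (x i).2 v) * qq κ R h g (x i) v)) := by
    intro i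
    have hc : Continuous (fun v => ee (ph h (x i).1 (x i).2 v) * qq κ R h g (x i) v) :=
      (continuous_ee.comp (continuous_ph hh.continuous _ _)).mul
        (contDiff_qq hκ hR hh hg (x i)).continuous
    obtain ⟨C, hC⟩ := (hasCompactSupport_qq (κ := κ) (R := R) (h := h) (g := g)
      (x := x i)).exists_bound_of_continuous (contDiff_qq hκ hR hh hg (x i)).continuous
    refine hg.integrable.mul_bdd (c := C) hc.aestronglyMeasurable ?_
    refine Filter.Eventually.of_forall fun v => ?_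
    rw [norm_mul, norm_ee, one_mul]
    exact hC v
  have h2 : ∫ v, g v * HH κ R h g x v =
      ∑ i, ∫ v, g v * (ee (ph h (x i).1 (x i).2 v) * qq κ R h g (x i) v) := by
    rw [← integral_finsetSum _ fun i _ => hi i]
    congr 1
    ext v
    unfold HH
    rw [Finset.mul_sum]
  rw [h2]
  push_cast
  refine Finset.sum_congr rfl fun i _ => ?_
  have h3 := energy_identity hκ hR hh.continuous (good_fm hh.continuous hg (x i)).meas
    (good_fm hh.continuous hg (x i)).integrable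
  rw [h3]
  congr 1
  ext v
  unfold fm qq
  by_cases hv : g v = 0
  · rw [hv]; simp
  · have hv1 : ‖v‖ ≤ 1 := by
      by_contra hcon
      exact hv (hg.supp v (by linarith [not_le.1 hcon]))
    have : (chiB v : ℝ) = 1 := by
      apply chiB.one_of_mem_closedBall
      rw [mem_closedBall_zero_iff]; exact hv1
    rw [this]
    push_cast
    unfold fm
    ring

/-- (3) expansion of the square. -/
lemma integral_HH_sq (hκ : Bump κ B) (hR : 0 < R) (hh : ContDiff ℝ ∞ h) {g : E2 → ℂ}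
    (hg : Good g) {M : ℕ} (x : Fin M → W) :
    ((∫ v, ‖HH κ R h g x v‖ ^ 2 : ℝ) : ℂ) =
      ∑ i, ∑ j, ext h (fun v => qq κ R h g (x i) v * conj (qq κ R h g (x j) v))
        ((x i).1 - (x j).1) ((x i).2 - (x j).2) := by
  have hint : ∀ i j, Integrable (fun v => (qq κ R h g (x i) v * conj (qq κ R h g (x j) v)) *
      ee (ph h ((x i).1 - (x j).1) ((x i).2 - (x j).2) v)) := by
    intro i j
    have hci := (contDiff_qq hκ hR hh hg (x i)).continuous
    have hcj := (contDiff_qq hκ hR hh hg (x j)).continuous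
    have hc : Continuous (fun v => (qq κ R h g (x i) v * conj (qq κ R h g (x j) v)) *
      ee (ph h ((x i).1 - (x j).1) ((x i).2 - (x j).2) v)) :=
      (hci.mul (Complex.continuous_conj.comp hcj)).mul
        (continuous_ee.comp (continuous_ph hh.continuous _ _))
    refine hc.integrable_of_hasCompactSupport ?_
    refine HasCompactSupport.intro (isCompact_closedBall (0 : E2) 2) ?_
    intro v hv
    rw [mem_closedBall_zero_iff, not_le] at hv
    rw [qq_zero hv.le]; simp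
  have h1 : ∀ v, ((‖HH κ R h g x v‖ ^ 2 : ℝ) : ℂ) = ∑ i, ∑ j,
      (qq κ R h g (x i) v * conj (qq κ R h g (x j) v)) *
      ee (ph h ((x i).1 - (x j).1) ((x i).2 - (x j).2) v) := by
    intro v
    rw [← Complex.normSq_eq_norm_sq, ← Complex.mul_conj]
    unfold HH
    rw [map_sum, Finset.sum_mul_sum]
    refine Finset.sum_congr rfl fun i _ => Finset.sum_congr rfl fun j _ => ?_
    rw [map_mul, ph_sub, ee_sub]
    ring
  rw [← integral_complex_ofReal]
  simp_rw [h1]
  rw [integral_finsetSum _ fun i _ => integrable_finsetSum _ fun j _ => hint i j]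
  refine Finset.sum_congr rfl fun i _ => ?_
  rw [integral_finsetSum _ fun j _ => hint i j]
  rfl

lemma norm_ext_diag (hκ : Bump κ B) (hR : 0 < R) (hh : ContDiff ℝ ∞ h) {g : E2 → ℂ}
    (hg : Good g) (x : W) :
    ‖ext h (fun v => qq κ R h g x v * conj (qq κ R h g x v)) (x.1 - x.1) (x.2 - x.2)‖ ≤
      B * V0 * R * ∫ ζ, ‖FF κ R h (fm h g x) ζ‖ ^ 2 := by
  have hgf := good_fm (h := h) hh.continuous hg x
  have hF := integrable_conj_FF hκ hR hh.continuous hg x
  have hsm : StronglyMeasurable (fun ζ => conj (FF κ R h (fm h g x) ζ)) :=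
    (Complex.continuous_conj.measurable.comp
      (stronglyMeasurable_FF (R := R) hκ hh.continuous hgf.meas).measurable).stronglyMeasurable
  have h1 := integral_Psi_Gam_sq_le hκ hR hh.continuous hsm hF (A := B * V0 * R) (fun ζ => by
    rw [RCLike.norm_conj]; exact norm_FF_le hκ hR hh.continuous hgf.le_one ζ)
  refine (norm_ext_le _ _ _ _).trans ?_
  calc ∫ ξ, ‖qq κ R h g x ξ * conj (qq κ R h g x ξ)‖
      ≤ ∫ v, ‖Psi κ R (fun ζ => conj (FF κ R h (fm h g x) ζ)) (Gam h v)‖ ^ 2 := by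
        refine integral_mono_of_nonneg (Filter.Eventually.of_forall fun _ => norm_nonneg _) h1.1
          (Filter.Eventually.of_forall fun v => ?_)
        show ‖qq κ R h g x v * conj (qq κ R h g x v)‖ ≤ _
        rw [norm_mul, RCLike.norm_conj, ← sq]
        exact pow_le_pow_left₀ (norm_nonneg _) (norm_qq_le_Psi v) 2
    _ ≤ _ := h1.2
    _ = _ := by simp only [RCLike.norm_conj]

set_option maxHeartbeats 1000000 in
theorem energy_sum {c0 : ℝ} {K : ℕ} (hP : Par c0 K h) (hK : 3 ≤ K) (hc : c0 ≤ 1 / 4)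
    (hκ : Bump κ B) (hB : 0 ≤ B) :
    ∃ C : ℝ, 0 ≤ C ∧ ∀ (M : ℕ) (R : ℝ) (x : Fin M → W), 1 ≤ R →
      (∀ i j, i ≠ j → (R * M) ^ (30 : ℝ) ≤ ‖x i - x j‖) → ∀ g : E2 → ℂ, Good g →
        ∑ i, ∫ ζ, ‖FF κ R h (fm h g (x i)) ζ‖ ^ 2 ≤ C * R * ∫ ξ, ‖g ξ‖ ^ 2 := by
  have hh := hP.smooth
  obtain ⟨Cd, hCd, hdec⟩ := decay hP hK hc
  obtain ⟨Cχ, hCχ0, hCχ⟩ := exists_chi_bound
  obtain ⟨L, hL⟩ : ∃ L : ℝ, ∀ ξ : E2, ‖ξ‖ ≤ 3 → ‖fderiv ℝ h ξ‖ ≤ L := by
    have hc : Continuous (fderiv ℝ h) := hP.smooth.continuous_fderiv (by simp)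
    obtain ⟨L, hL⟩ := (isCompact_closedBall (0 : E2) 3).exists_bound_of_continuousOn hc.continuousOn
    exact ⟨L, fun ξ hξ => hL ξ (by simpa using hξ)⟩
  have hL0 : 0 ≤ L := (norm_nonneg _).trans (hL 0 (by simp))
  have hV0 := V0_nonneg
  set Co : ℝ := Cd * (2 * (B * (Cχ + 2 + L)) ^ 2 * V0) with hCo
  have hCo0 : 0 ≤ Co := by positivity
  refine ⟨B * V0 + 1 + Co, by positivity, ?_⟩
  intro M R x hR hsep g hg
  have hR0 : 0 < R := by linarith
  set N2 : ℝ := ∫ ξ, ‖g ξ‖ ^ 2 with hN2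
  have hN20 : 0 ≤ N2 := integral_nonneg fun _ => by positivity
  set G : ℝ := ∫ ξ, ‖g ξ‖ with hG
  have hG0 : 0 ≤ G := integral_nonneg fun _ => norm_nonneg _
  have hGN : G ^ 2 ≤ V0 * N2 := good_L1_sq_le hg
  set S : Fin M → ℝ := fun i => ∫ ζ, ‖FF κ R h (fm h g (x i)) ζ‖ ^ 2 with hS
  have hS0 : ∀ i, 0 ≤ S i := fun i => integral_nonneg fun _ => by positivity
  rcases Nat.eq_zero_or_pos M with hM | hM
  · subst hM
    simp only [Finset.univ_eq_empty, Finset.sum_empty]
    positivity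
  have hM1 : (1 : ℝ) ≤ M := by exact_mod_cast hM
  set T : ℝ := R ^ 4 * B * (Cχ + 2 + L) * G with hT
  have hT0 : 0 ≤ T := by positivity
  have hq0 : ∀ i v, ‖qq κ R h g (x i) v‖ ≤ T := fun i v =>
    norm_qq_le hL0 hCχ0 hB hκ hR hh hg (x i) v
  have hq1 : ∀ i v, ‖fderiv ℝ (qq κ R h g (x i)) v‖ ≤ T := fun i v =>
    norm_fderiv_qq_le hCχ0 hB hL hCχ hκ hR hh hg (x i) v
  -- off diagonal terms
  have hoff : ∀ i j, i ≠ j →
      ‖ext h (fun v => qq κ R h g (x i) v * conj (qq κ R h g (x j) v))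
        ((x i).1 - (x j).1) ((x i).2 - (x j).2)‖ ≤ Cd * (2 * T ^ 2) * (R * M) ^ (-(10 : ℝ)) := by
    intro i j hij
    have hci := contDiff_qq hκ hR0 hh hg (x i)
    have hcj := contDiff_qq hκ hR0 hh hg (x j)
    have hcc : ContDiff ℝ 1 (fun v => conj (qq κ R h g (x j) v)) :=
      (Complex.conjCLE.contDiff).comp hcj
    have hder : ∀ v, fderiv ℝ (fun v => conj (qq κ R h g (x j) v)) v =
        (Complex.conjCLE : ℂ →L[ℝ] ℂ).comp (fderiv ℝ (qq κ R h g (x j)) v) := by
      intro v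
      have hd : DifferentiableAt ℝ (qq κ R h g (x j)) v := hcj.differentiable (by norm_num) v
      exact ((Complex.conjCLE : ℂ →L[ℝ] ℂ).hasFDerivAt.comp v hd.hasFDerivAt).fderiv
    have hA0 : ∀ v, ‖qq κ R h g (x i) v * conj (qq κ R h g (x j) v)‖ ≤ 2 * T ^ 2 := by
      intro v
      rw [norm_mul, RCLike.norm_conj]
      have := mul_le_mul (hq0 i v) (hq0 j v) (norm_nonneg _) hT0
      nlinarith
    have hA1 : ∀ v, ‖fderiv ℝ (fun v => qq κ R h g (x i) v * conj (qq κ R h g (x j) v)) v‖ ≤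
        2 * T ^ 2 := by
      intro v
      have hdi : DifferentiableAt ℝ (qq κ R h g (x i)) v := hci.differentiable (by norm_num) v
      have hdj : DifferentiableAt ℝ (fun v => conj (qq κ R h g (x j) v)) v :=
        hcc.differentiable (by norm_num) v
      rw [fderiv_fun_mul hdi hdj, hder]
      have hcn : ‖(Complex.conjCLE : ℂ →L[ℝ] ℂ).comp (fderiv ℝ (qq κ R h g (x j)) v)‖ ≤ T := by
        refine (ContinuousLinearMap.opNorm_comp_le _ _).trans ?_
        calc ‖(Complex.conjCLE : ℂ →L[ℝ] ℂ)‖ * ‖fderiv ℝ (qq κ R h g (x j)) v‖ ≤ 1 * T := by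
              refine mul_le_mul ?_ (hq1 j v) (norm_nonneg _) zero_le_one
              rw [Complex.conjCLE_norm]
          _ = T := one_mul T
      refine (norm_add_le _ _).trans ?_
      rw [norm_smul, norm_smul, RCLike.norm_conj]
      have e1 := mul_le_mul (hq0 i v) hcn (norm_nonneg _) hT0
      have e2 := mul_le_mul (hq0 j v) (hq1 i v) (norm_nonneg _) hT0
      nlinarith
    have hd := hdec (2 * T ^ 2) (fun v => qq κ R h g (x i) v * conj (qq κ R h g (x j) v))
      (hci.mul hcc) (fun ξ hξ => by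
        show qq κ R h g (x i) ξ * conj (qq κ R h g (x j) ξ) = 0
        rw [qq_zero (by linarith), zero_mul]) hA0 hA1 ((x i).1 - (x j).1) ((x i).2 - (x j).2)
    refine hd.trans ?_
    have hRM : 0 < R * M := by positivity
    have hlow : (R * M) ^ (30 : ℝ) ≤ 1 + ‖(x i).1 - (x j).1‖ + |(x i).2 - (x j).2| := by
      refine (hsep i j hij).trans ?_
      have h1 : ‖x i - x j‖ ≤ ‖(x i).1 - (x j).1‖ + |(x i).2 - (x j).2| := by
        refine max_le ?_ ?_
        · have := abs_nonneg ((x i).2 - (x j).2)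
          show ‖(x i - x j).1‖ ≤ _
          rw [Prod.fst_sub]
          linarith
        · have := norm_nonneg ((x i).1 - (x j).1)
          show ‖(x i - x j).2‖ ≤ _
          rw [Prod.snd_sub, Real.norm_eq_abs]
          linarith
      linarith
    have hpow : (1 + ‖(x i).1 - (x j).1‖ + |(x i).2 - (x j).2|) ^ (-(1 / 3) : ℝ) ≤
        (R * M) ^ (-(10 : ℝ)) := by
      calc _ ≤ ((R * M) ^ (30 : ℝ)) ^ (-(1 / 3) : ℝ) :=
            Real.rpow_le_rpow_of_nonpos (by positivity) hlow (by norm_num)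
        _ = (R * M) ^ (-(10 : ℝ)) := by
            rw [← Real.rpow_mul hRM.le]; norm_num
    exact mul_le_mul_of_nonneg_left hpow (by positivity)
  -- the square of `HH`
  have hHsq : ∫ v, ‖HH κ R h g x v‖ ^ 2 ≤ B * V0 * R * (∑ i, S i) + Co * N2 := by
    have h1 := integral_HH_sq hκ hR0 hh hg x
    have h2 : ∫ v, ‖HH κ R h g x v‖ ^ 2 = ‖((∫ v, ‖HH κ R h g x v‖ ^ 2 : ℝ) : ℂ)‖ := by
      rw [Complex.norm_real, Real.norm_eq_abs, abs_of_nonneg]
      exact integral_nonneg fun _ => by positivity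
    rw [h2, h1]
    have hRM : 0 < R * M := by positivity
    have hpw : (M : ℝ) ^ 2 * R ^ 8 * (R * M) ^ (-(10 : ℝ)) ≤ 1 := by
      have e0 : (R * M) ^ (-(10 : ℝ)) = ((R * M) ^ 10)⁻¹ := by
        rw [Real.rpow_neg hRM.le]; norm_cast
      rw [e0, ← div_eq_mul_inv, div_le_one (by positivity), mul_pow]
      have e1 : (M : ℝ) ^ 2 ≤ M ^ 10 := pow_le_pow_right₀ hM1 (by norm_num)
      have e2 : R ^ 8 ≤ R ^ 10 := pow_le_pow_right₀ hR (by norm_num)
      calc (M : ℝ) ^ 2 * R ^ 8 ≤ M ^ 10 * R ^ 10 := by gcongr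
        _ = R ^ 10 * M ^ 10 := mul_comm _ _
    calc ‖∑ i, ∑ j, ext h (fun v => qq κ R h g (x i) v * conj (qq κ R h g (x j) v))
          ((x i).1 - (x j).1) ((x i).2 - (x j).2)‖
        ≤ ∑ i, ∑ j, ‖ext h (fun v => qq κ R h g (x i) v * conj (qq κ R h g (x j) v))
          ((x i).1 - (x j).1) ((x i).2 - (x j).2)‖ :=
          (norm_sum_le _ _).trans (Finset.sum_le_sum fun i _ => norm_sum_le _ _)
      _ ≤ ∑ i : Fin M, ∑ j : Fin M, ((if i = j then B * V0 * R * S i else 0) +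
            Cd * (2 * T ^ 2) * (R * M) ^ (-(10 : ℝ))) := by
          refine Finset.sum_le_sum fun i _ => Finset.sum_le_sum fun j _ => ?_
          have hnn : 0 ≤ Cd * (2 * T ^ 2) * (R * M) ^ (-(10 : ℝ)) := by positivity
          by_cases hij : i = j
          · subst hij
            rw [if_pos rfl]
            have := norm_ext_diag hκ hR0 hh hg (x i)
            linarith
          · rw [if_neg hij, zero_add]
            exact hoff i j hij
      _ = B * V0 * R * (∑ i, S i) + (M : ℝ) ^ 2 * (Cd * (2 * T ^ 2) * (R * M) ^ (-(10 : ℝ))) := by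
          simp only [Finset.sum_add_distrib, Finset.sum_ite_eq, Finset.mem_univ, if_true,
            Finset.sum_const, Finset.card_univ, Fintype.card_fin, nsmul_eq_mul, ← Finset.mul_sum]
          ring
      _ = B * V0 * R * (∑ i, S i) + (Cd * (2 * (B * (Cχ + 2 + L)) ^ 2 * G ^ 2)) *
            ((M : ℝ) ^ 2 * R ^ 8 * (R * M) ^ (-(10 : ℝ))) := by
          rw [hT]; ring
      _ ≤ B * V0 * R * (∑ i, S i) + (Cd * (2 * (B * (Cχ + 2 + L)) ^ 2 * (V0 * N2))) * 1 := by
          gcongr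
      _ = B * V0 * R * (∑ i, S i) + Co * N2 := by rw [hCo]; ring
  -- AM-GM
  have hsum : ∑ i, S i ≤ ∫ v, ‖g v‖ * ‖HH κ R h g x v‖ := by
    have h1 := sum_energy_eq hκ hR0 hh hg x
    have h2 : ∑ i, S i = ‖((∑ i, S i : ℝ) : ℂ)‖ := by
      rw [Complex.norm_real, Real.norm_eq_abs, abs_of_nonneg]
      exact Finset.sum_nonneg fun i _ => hS0 i
    rw [h2, hS, h1]
    refine (norm_integral_le_integral_norm _).trans (le_of_eq ?_)
    simp_rw [norm_mul]
  have hHc := continuous_HH hκ hR0 hh hg x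
  have hHcs := hasCompactSupport_HH (κ := κ) (R := R) (h := h) (g := g) (x := x)
  have hHi : Integrable (fun v => ‖HH κ R h g x v‖ ^ 2) := by
    have : HasCompactSupport (fun v => ‖HH κ R h g x v‖ ^ 2) :=
      hHcs.norm.comp_left (g := fun r : ℝ => r ^ 2) (by norm_num)
    exact (hHc.norm.pow 2).integrable_of_hasCompactSupport this
  have hgi := good_sq_integrable hg
  set a : ℝ := (B * V0 + 1) * R with ha
  have ha0 : 0 < a := by positivity
  have hamgm : ∫ v, ‖g v‖ * ‖HH κ R h g x v‖ ≤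
      (1 / 2) * (a * N2 + a⁻¹ * ∫ v, ‖HH κ R h g x v‖ ^ 2) := by
    calc ∫ v, ‖g v‖ * ‖HH κ R h g x v‖
        ≤ ∫ v, (1 / 2) * (a * ‖g v‖ ^ 2 + a⁻¹ * ‖HH κ R h g x v‖ ^ 2) := by
          refine integral_mono_of_nonneg (Filter.Eventually.of_forall fun v => ?_)
            (((hgi.const_mul a).add (hHi.const_mul a⁻¹)).const_mul _)
            (Filter.Eventually.of_forall fun v => ?_)
          · exact mul_nonneg (norm_nonneg _) (norm_nonneg _)
          · show ‖g v‖ * ‖HH κ R h g x v‖ ≤ (1 / 2) * (a * ‖g v‖ ^ 2 + a⁻¹ * ‖HH κ R h g x v‖ ^ 2)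
            have h3 : 0 ≤ a⁻¹ * (a * ‖g v‖ - ‖HH κ R h g x v‖) ^ 2 := by positivity
            have h4 : a⁻¹ * (a * ‖g v‖ - ‖HH κ R h g x v‖) ^ 2 =
                a * ‖g v‖ ^ 2 - 2 * (‖g v‖ * ‖HH κ R h g x v‖) + a⁻¹ * ‖HH κ R h g x v‖ ^ 2 := by
              field_simp
              ring
            rw [h4] at h3
            linarith
      _ = _ := by
          rw [integral_const_mul, integral_add (hgi.const_mul a) (hHi.const_mul a⁻¹),
            integral_const_mul, integral_const_mul]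
  have hSS0 : 0 ≤ ∑ i, S i := Finset.sum_nonneg fun i _ => hS0 i
  have key : ∑ i, S i ≤ (1 / 2) * (a * N2 + a⁻¹ * (B * V0 * R * (∑ i, S i) + Co * N2)) := by
    refine (hsum.trans hamgm).trans ?_
    gcongr
  have h5 : a⁻¹ * (B * V0 * R * (∑ i, S i)) ≤ ∑ i, S i := by
    rw [inv_mul_le_iff₀ ha0]
    have : B * V0 * R ≤ a := by rw [ha]; nlinarith
    exact mul_le_mul_of_nonneg_right this hSS0
  have h6 : a⁻¹ * (Co * N2) ≤ Co * N2 := by
    have ha1 : 1 ≤ a := by rw [ha]; nlinarith [mul_nonneg hB hV0]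
    exact mul_le_of_le_one_left (by positivity) (inv_le_one_of_one_le₀ ha1)
  have h7 : ∑ i, S i ≤ a * N2 + Co * N2 := by
    have : a⁻¹ * (B * V0 * R * (∑ i, S i) + Co * N2) =
        a⁻¹ * (B * V0 * R * (∑ i, S i)) + a⁻¹ * (Co * N2) := by ring
    rw [this] at key
    linarith
  refine h7.trans ?_
  rw [ha]
  have h8 : Co * N2 ≤ Co * R * N2 := by
    have : Co * N2 * 1 ≤ Co * N2 * R := mul_le_mul_of_nonneg_left hR (by positivity)
    linarith
  nlinarith

/-- **SPARSE LEMMA** (item 1 of the S0190 front). -/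
theorem sparseOut {c0 : ℝ} {K : ℕ} (hP : Par c0 K h) (hK : 3 ≤ K) (hc : c0 ≤ 1 / 4)
    (hLoc : LocH h) : SparseOut h := by
  obtain ⟨κ, B, hB, hκ⟩ := exists_bump
  obtain ⟨CE, hCE0, hCE⟩ := energy_sum hP hK hc hκ hB
  refine ⟨30, by norm_num, ?_⟩
  intro ε hε
  obtain ⟨CL, hCL0, hCL⟩ := local_est hLoc hP hκ hB ε hε
  refine ⟨max (CL * CE) 1, 1, le_max_right _ _, le_rfl, ?_⟩
  intro M R x hR hsep g hgm hg1 hgs
  have hg : Good g := ⟨hgm, hg1, hgs⟩
  have hR0 : 0 < R := by linarith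
  have hh := hP.smooth
  rcases Nat.eq_zero_or_pos M with hM | hM
  · subst hM
    simp
  have hM1 : (1 : ℝ) ≤ M := by exact_mod_cast hM
  -- translation
  have htr : ∀ i, ∫⁻ p in cyl (x i).1 (x i).2 R, ‖ext h g p.1 p.2‖ₑ ^ 3 =
      ∫⁻ p in cyl (0 : E2) 0 R, ‖ext h (fm h g (x i)) p.1 p.2‖ₑ ^ 3 := by
    intro i
    have hmp := measurePreserving_add_right (volume : Measure W) (x i)
    have hpre : (fun p : W => p + x i) ⁻¹' (cyl (x i).1 (x i).2 R) = cyl (0 : E2) 0 R := by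
      rw [cyl_eq]
      have h0 : cyl (0 : E2) 0 R = Metric.closedBall (0 : W) R := cyl_eq (0 : W) R
      rw [h0]
      ext p
      simp [Metric.mem_closedBall, dist_eq_norm]
    rw [← hmp.setLIntegral_comp_preimage_emb (measurableEmbedding_addRight (x i)), hpre]
    congr 1
    ext p
    rw [Prod.fst_add, Prod.snd_add, add_comm p.1, add_comm p.2, ext_translate]
    rfl
  simp_rw [htr]
  have hsum := hCE M R x hR (fun i j hij => by have := hsep i j hij; rwa [one_mul] at this) g hg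
  have hFi : ∀ i, ∫⁻ ζ, ‖FF κ R h (fm h g (x i)) ζ‖ₑ ^ 2 =
      ENNReal.ofReal (∫ ζ, ‖FF κ R h (fm h g (x i)) ζ‖ ^ 2) := by
    intro i
    have hgf := good_fm (h := h) hh.continuous hg (x i)
    have hI := integrable_sq_of_bdd (integrable_FF hκ hR0 hh.continuous hgf.integrable)
      (norm_FF_le hκ hR0 hh.continuous hgf.le_one)
    rw [ofReal_integral_eq_lintegral_ofReal hI (Filter.Eventually.of_forall fun _ => by positivity)]
    congr 1
    ext ζ
    rw [ENNReal.ofReal_pow (norm_nonneg _), ofReal_norm]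
  have hg2 : ENNReal.ofReal (∫ ξ, ‖g ξ‖ ^ 2) = ∫⁻ ξ, ‖g ξ‖ₑ ^ 2 := by
    rw [ofReal_integral_eq_lintegral_ofReal (good_sq_integrable hg)
      (Filter.Eventually.of_forall fun _ => by positivity)]
    congr 1
    ext ζ
    rw [ENNReal.ofReal_pow (norm_nonneg _), ofReal_norm]
  calc ∑ i, ∫⁻ p in cyl (0 : E2) 0 R, ‖ext h (fm h g (x i)) p.1 p.2‖ₑ ^ 3
      ≤ ∑ i, ENNReal.ofReal (CL * R ^ ε / R) *
          ENNReal.ofReal (∫ ζ, ‖FF κ R h (fm h g (x i)) ζ‖ ^ 2) := by
        refine Finset.sum_le_sum fun i _ => ?_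
        rw [← hFi i]
        have hgf := good_fm (h := h) hh.continuous hg (x i)
        exact hCL R hR _ hgf.meas hgf.le_one hgf.supp
    _ = ENNReal.ofReal (CL * R ^ ε / R) *
          ENNReal.ofReal (∑ i, ∫ ζ, ‖FF κ R h (fm h g (x i)) ζ‖ ^ 2) := by
        rw [← Finset.mul_sum, ENNReal.ofReal_sum_of_nonneg
          fun i _ => integral_nonneg fun _ => by positivity]
    _ ≤ ENNReal.ofReal (CL * R ^ ε / R) * ENNReal.ofReal (CE * R * ∫ ξ, ‖g ξ‖ ^ 2) := by
        gcongr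
    _ = ENNReal.ofReal (CL * CE * R ^ ε) * ∫⁻ ξ, ‖g ξ‖ₑ ^ 2 := by
        rw [← hg2, ← ENNReal.ofReal_mul (by positivity), ← ENNReal.ofReal_mul (by positivity)]
        congr 1
        field_simp
    _ ≤ ENNReal.ofReal (max (CL * CE) 1 * (R * M) ^ ε) * ∫⁻ ξ, ‖g ξ‖ₑ ^ 2 := by
        gcongr
        · exact le_max_left _ _
        · nlinarith

end

end Crest.Agent.R138.Ex774
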