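import Mathlib

/-!
# One dimensional van der Corput estimates (helper774)
-/

set_option autoImplicit false

open MeasureTheory Set Complex
open scoped Real

namespace Crest.Agent.R138.Ex774

/-- `e(t) = exp (2πi t)`. -/
noncomputable def ec (t : ℝ) : ℂ := Complex.exp (2 * Real.pi * (t : ℝ) * Complex.I)

lemma norm_ec (t : ℝ) : ‖ec t‖ = 1 := by
  unfold ec
  rw [Complex.norm_exp]
  simp

lemma ec_add (s t : ℝ) : ec (s + t) = ec s * ec t := by
  unfold ec
  rw [← Complex.exp_add]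
  push_cast
  ring_nf

lemma hasDerivAt_ec (t : ℝ) : HasDerivAt ec (2 * Real.pi * Complex.I * ec t) t := by
  unfold ec
  have h1 : HasDerivAt (fun t : ℝ => (2 * Real.pi * (t : ℝ) * Complex.I : ℂ))
      (2 * Real.pi * Complex.I) t := by
    have h0 : HasDerivAt (fun t : ℝ => ((t : ℝ) : ℂ)) 1 t := Complex.ofRealCLM.hasDerivAt
    have := (h0.const_mul (2 * Real.pi : ℂ)).mul_const Complex.I
    simpa using this
  have h2 := h1.cexp
  convert h2 using 1
  ring

lemma continuous_ec : Continuous ec := by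
  unfold ec
  fun_prop

/-- Integration by parts identity. -/
lemma ibp {a b : ℝ} (hab : a ≤ b) {θ θ1 θ2 : ℝ → ℝ} {ψ ψ1 : ℝ → ℂ}
    (h1 : ∀ x ∈ Icc a b, HasDerivAt θ (θ1 x) x)
    (h2 : ∀ x ∈ Icc a b, HasDerivAt θ1 (θ2 x) x)
    (h2c : ContinuousOn θ2 (Icc a b))
    (h3 : ∀ x ∈ Icc a b, HasDerivAt ψ (ψ1 x) x)
    (h3c : ContinuousOn ψ1 (Icc a b))
    (h0 : ∀ x ∈ Icc a b, θ1 x ≠ 0) :
    ∫ x in a..b, ψ x * ec (θ x) =
      (ψ b * ec (θ b) / (2 * Real.pi * Complex.I * θ1 b) -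
        ψ a * ec (θ a) / (2 * Real.pi * Complex.I * θ1 a)) -
      ∫ x in a..b, (ψ1 x / (2 * Real.pi * Complex.I * θ1 x) -
        ψ x * θ2 x / (2 * Real.pi * Complex.I * θ1 x ^ 2)) * ec (θ x) := by
  have hpi : (2 * Real.pi * Complex.I : ℂ) ≠ 0 := by
    simp [Real.pi_ne_zero]
  have hcθ : ContinuousOn θ (Icc a b) := fun x hx => (h1 x hx).continuousAt.continuousWithinAt
  have hcθ1 : ContinuousOn θ1 (Icc a b) := fun x hx => (h2 x hx).continuousAt.continuousWithinAt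
  have hcψ : ContinuousOn ψ (Icc a b) := fun x hx => (h3 x hx).continuousAt.continuousWithinAt
  have hce : ContinuousOn (fun x => ec (θ x)) (Icc a b) := continuous_ec.comp_continuousOn hcθ
  have hcθ1' : ContinuousOn (fun x => ((θ1 x : ℝ) : ℂ)) (Icc a b) :=
    Complex.continuous_ofReal.comp_continuousOn hcθ1
  have hcθ2' : ContinuousOn (fun x => ((θ2 x : ℝ) : ℂ)) (Icc a b) :=
    Complex.continuous_ofReal.comp_continuousOn h2c
  have hne : ∀ x ∈ Icc a b, (2 * Real.pi * Complex.I * (θ1 x : ℂ)) ≠ 0 := by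
    intro x hx
    exact mul_ne_zero hpi (by exact_mod_cast h0 x hx)
  have hne2 : ∀ x ∈ Icc a b, (2 * Real.pi * Complex.I * (θ1 x : ℂ) ^ 2) ≠ 0 := by
    intro x hx
    refine mul_ne_zero hpi (pow_ne_zero _ (by exact_mod_cast h0 x hx))
  have hcA : ContinuousOn (fun x => (ψ1 x / (2 * Real.pi * Complex.I * θ1 x) -
        ψ x * θ2 x / (2 * Real.pi * Complex.I * θ1 x ^ 2)) * ec (θ x)) (Icc a b) := by
    refine ContinuousOn.mul (ContinuousOn.sub ?_ ?_) hce
    · exact h3c.div (continuousOn_const.mul hcθ1') hne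
    · exact (hcψ.mul hcθ2').div (continuousOn_const.mul (hcθ1'.pow 2)) hne2
  have hcB : ContinuousOn (fun x => ψ x * ec (θ x)) (Icc a b) := hcψ.mul hce
  have huIcc : uIcc a b = Icc a b := uIcc_of_le hab
  have key : ∀ x ∈ Icc a b, HasDerivAt
      (fun x => ψ x * ec (θ x) / (2 * Real.pi * Complex.I * θ1 x))
      (ψ x * ec (θ x) + (ψ1 x / (2 * Real.pi * Complex.I * θ1 x) -
        ψ x * θ2 x / (2 * Real.pi * Complex.I * θ1 x ^ 2)) * ec (θ x)) x := by
    intro x hx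
    have hd1 : HasDerivAt (fun x => ec (θ x)) (θ1 x • (2 * Real.pi * Complex.I * ec (θ x))) x :=
      HasDerivAt.scomp x (hasDerivAt_ec (θ x)) (h1 x hx)
    have hd2 : HasDerivAt (fun x => ((θ1 x : ℝ) : ℂ)) ((θ2 x : ℝ) : ℂ) x := (h2 x hx).ofReal_comp
    have hd3 := ((h3 x hx).mul hd1).div (hd2.const_mul (2 * Real.pi * Complex.I)) (hne x hx)
    refine HasDerivAt.congr_deriv (f := fun x => ψ x * ec (θ x) / (2 * Real.pi * Complex.I * θ1 x))
      hd3 ?_
    have hθ : (θ1 x : ℂ) ≠ 0 := by exact_mod_cast h0 x hx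
    have hI : (Complex.I : ℂ) ≠ 0 := Complex.I_ne_zero
    have hπ : (Real.pi : ℂ) ≠ 0 := by exact_mod_cast Real.pi_ne_zero
    simp only [Complex.real_smul, Pi.mul_apply]
    field_simp
    ring
  have hint := intervalIntegral.integral_eq_sub_of_hasDerivAt
    (f := fun x => ψ x * ec (θ x) / (2 * Real.pi * Complex.I * θ1 x))
    (f' := fun x => ψ x * ec (θ x) + (ψ1 x / (2 * Real.pi * Complex.I * θ1 x) -
        ψ x * θ2 x / (2 * Real.pi * Complex.I * θ1 x ^ 2)) * ec (θ x)) (a := a) (b := b)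
    (fun x hx => key x (huIcc ▸ hx))
    ((hcB.add hcA).intervalIntegrable_of_Icc hab)
  rw [intervalIntegral.integral_add (hcB.intervalIntegrable_of_Icc hab)
    (hcA.intervalIntegrable_of_Icc hab)] at hint
  rw [← hint]
  ring

/-- First derivative test. -/
lemma vdc1 {a b : ℝ} (hab : a ≤ b) {θ θ1 θ2 : ℝ → ℝ} {ψ ψ1 : ℝ → ℂ} {M μ : ℝ} (hμ : 0 < μ)
    (h1 : ∀ x ∈ Icc a b, HasDerivAt θ (θ1 x) x)
    (h2 : ∀ x ∈ Icc a b, HasDerivAt θ1 (θ2 x) x)
    (h2c : ContinuousOn θ2 (Icc a b))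
    (h3 : ∀ x ∈ Icc a b, HasDerivAt ψ (ψ1 x) x)
    (h3c : ContinuousOn ψ1 (Icc a b))
    (hM : ∀ x ∈ Icc a b, ‖ψ x‖ ≤ M) (hM1 : ∀ x ∈ Icc a b, ‖ψ1 x‖ ≤ M)
    (hθ : ∀ x ∈ Icc a b, μ ≤ |θ1 x|)
    (hs : (∀ x ∈ Icc a b, 0 ≤ θ2 x) ∨ (∀ x ∈ Icc a b, θ2 x ≤ 0)) :
    ‖∫ x in a..b, ψ x * ec (θ x)‖ ≤ M * (4 + (b - a)) / μ := by
  have h0 : ∀ x ∈ Icc a b, θ1 x ≠ 0 := by
    intro x hx h
    have := hθ x hx
    rw [h, abs_zero] at this
    linarith
  have hMnn : 0 ≤ M := (norm_nonneg _).trans (hM a (left_mem_Icc.2 hab))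
  have hcθ1 : ContinuousOn θ1 (Icc a b) := fun x hx => (h2 x hx).continuousAt.continuousWithinAt
  rw [ibp hab h1 h2 h2c h3 h3c h0]
  have hpi2 : (1 : ℝ) ≤ 2 * Real.pi := by
    have := Real.pi_gt_three
    linarith
  have hnorm : ∀ z : ℂ, ‖(2 * Real.pi * Complex.I * z : ℂ)‖ = 2 * Real.pi * ‖z‖ := by
    intro z
    rw [norm_mul, norm_mul, norm_mul]
    simp [abs_of_pos Real.pi_pos]
  have hbd : ∀ x ∈ Icc a b, ‖ψ x * ec (θ x) / (2 * Real.pi * Complex.I * θ1 x)‖ ≤ M / μ := by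
    intro x hx
    rw [norm_div, norm_mul, norm_ec, mul_one, hnorm, Complex.norm_real, Real.norm_eq_abs]
    refine div_le_div₀ hMnn (hM x hx) hμ ?_
    calc μ ≤ |θ1 x| := hθ x hx
      _ = 1 * |θ1 x| := (one_mul _).symm
      _ ≤ 2 * Real.pi * |θ1 x| := by gcongr
  -- total variation of `1/θ1`
  have hvar : ∫ x in a..b, |θ2 x| / (θ1 x) ^ 2 ≤ 2 / μ := by
    have hder : ∀ x ∈ Icc a b, HasDerivAt (fun x => -(θ1 x)⁻¹) (θ2 x / (θ1 x) ^ 2) x := by
      intro x hx
      have := ((h2 x hx).inv (h0 x hx)).neg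
      refine HasDerivAt.congr_deriv (f := fun x => -(θ1 x)⁻¹) this ?_
      ring
    have hcont : ContinuousOn (fun x => θ2 x / (θ1 x) ^ 2) (Icc a b) :=
      h2c.div (hcθ1.pow 2) (fun x hx => pow_ne_zero _ (h0 x hx))
    have hF := intervalIntegral.integral_eq_sub_of_hasDerivAt
      (f := fun x => -(θ1 x)⁻¹) (f' := fun x => θ2 x / (θ1 x) ^ 2) (a := a) (b := b)
      (fun x hx => hder x (uIcc_of_le hab ▸ hx)) (hcont.intervalIntegrable_of_Icc hab)
    have hinv : ∀ x ∈ Icc a b, |(θ1 x)⁻¹| ≤ 1 / μ := by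
      intro x hx
      rw [abs_inv, ← one_div]
      exact one_div_le_one_div_of_le hμ (hθ x hx)
    have ha := abs_le.1 (hinv a (left_mem_Icc.2 hab))
    have hb := abs_le.1 (hinv b (right_mem_Icc.2 hab))
    have h2μ : 2 / μ = 1 / μ + 1 / μ := by ring
    rcases hs with hs | hs
    · have : ∫ x in a..b, |θ2 x| / (θ1 x) ^ 2 = ∫ x in a..b, θ2 x / (θ1 x) ^ 2 := by
        refine intervalIntegral.integral_congr (fun x hx => ?_)
        rw [uIcc_of_le hab] at hx
        rw [abs_of_nonneg (hs x hx)]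
      rw [this, hF, h2μ]
      linarith [ha.1, ha.2, hb.1, hb.2]
    · have : ∫ x in a..b, |θ2 x| / (θ1 x) ^ 2 = -∫ x in a..b, θ2 x / (θ1 x) ^ 2 := by
        rw [← intervalIntegral.integral_neg]
        refine intervalIntegral.integral_congr (fun x hx => ?_)
        rw [uIcc_of_le hab] at hx
        rw [abs_of_nonpos (hs x hx)]
        ring
      rw [this, hF, h2μ]
      linarith [ha.1, ha.2, hb.1, hb.2]
  have hint2 : ‖∫ x in a..b, (ψ1 x / (2 * Real.pi * Complex.I * θ1 x) -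
        ψ x * θ2 x / (2 * Real.pi * Complex.I * θ1 x ^ 2)) * ec (θ x)‖ ≤
      M * (b - a) / μ + M * (2 / μ) := by
    have hptw : ∀ x ∈ Ioc a b, ‖(ψ1 x / (2 * Real.pi * Complex.I * θ1 x) -
        ψ x * θ2 x / (2 * Real.pi * Complex.I * θ1 x ^ 2)) * ec (θ x)‖ ≤
        M / μ + M * (|θ2 x| / (θ1 x) ^ 2) := by
      intro x hx'
      have hx : x ∈ Icc a b := Ioc_subset_Icc_self hx'
      rw [norm_mul, norm_ec, mul_one]
      refine (norm_sub_le _ _).trans (add_le_add ?_ ?_)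
      · rw [norm_div, hnorm, Complex.norm_real, Real.norm_eq_abs]
        refine div_le_div₀ hMnn (hM1 x hx) hμ ?_
        calc μ ≤ |θ1 x| := hθ x hx
          _ = 1 * |θ1 x| := (one_mul _).symm
          _ ≤ 2 * Real.pi * |θ1 x| := by gcongr
      · rw [norm_div, hnorm, norm_mul, norm_pow, Complex.norm_real, Complex.norm_real,
          Real.norm_eq_abs, Real.norm_eq_abs, sq_abs, ← mul_div_assoc]
        have hsq : 0 < (θ1 x) ^ 2 := by
          have := h0 x hx
          positivity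
        refine div_le_div₀ (by positivity) ?_ hsq ?_
        · exact mul_le_mul_of_nonneg_right (hM x hx) (abs_nonneg _)
        · calc (θ1 x) ^ 2 = 1 * (θ1 x) ^ 2 := (one_mul _).symm
            _ ≤ 2 * Real.pi * (θ1 x) ^ 2 := by gcongr
    have hcont2 : ContinuousOn (fun x => |θ2 x| / (θ1 x) ^ 2) (Icc a b) :=
      h2c.abs.div (hcθ1.pow 2) (fun x hx => pow_ne_zero _ (h0 x hx))
    have hii : IntervalIntegrable (fun x => |θ2 x| / (θ1 x) ^ 2) volume a b :=
      hcont2.intervalIntegrable_of_Icc hab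
    refine (intervalIntegral.norm_integral_le_of_norm_le hab
      (Filter.Eventually.of_forall (fun x hx => hptw x hx)) ?_).trans ?_
    · exact intervalIntegrable_const.add (hii.const_mul _)
    · rw [intervalIntegral.integral_add intervalIntegrable_const (hii.const_mul _),
        intervalIntegral.integral_const_mul, intervalIntegral.integral_const, smul_eq_mul]
      have := mul_le_mul_of_nonneg_left hvar hMnn
      have h3 : (b - a) * (M / μ) = M * (b - a) / μ := by ring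
      rw [h3]
      linarith
  calc _ ≤ ‖(ψ b * ec (θ b) / (2 * Real.pi * Complex.I * θ1 b) -
        ψ a * ec (θ a) / (2 * Real.pi * Complex.I * θ1 a))‖ +
        ‖∫ x in a..b, (ψ1 x / (2 * Real.pi * Complex.I * θ1 x) -
        ψ x * θ2 x / (2 * Real.pi * Complex.I * θ1 x ^ 2)) * ec (θ x)‖ := norm_sub_le _ _
    _ ≤ (M / μ + M / μ) + (M * (b - a) / μ + M * (2 / μ)) := by
        refine add_le_add ((norm_sub_le _ _).trans (add_le_add ?_ ?_)) hint2
        · exact hbd b (right_mem_Icc.2 hab)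
        · exact hbd a (left_mem_Icc.2 hab)
    _ = M * (4 + (b - a)) / μ := by
        field_simp
        ring

lemma exists_zero_pos {a b lam : ℝ} (hab : a ≤ b) {θ1 θ2 : ℝ → ℝ} (hl : 0 < lam)
    (h2 : ∀ x ∈ Icc a b, HasDerivAt θ1 (θ2 x) x)
    (hs : ∀ x ∈ Icc a b, lam ≤ θ2 x) :
    ∃ s0 ∈ Icc a b, ∀ x ∈ Icc a b, lam * |x - s0| ≤ |θ1 x| := by
  have hc : ContinuousOn θ1 (Icc a b) := fun x hx => (h2 x hx).continuousAt.continuousWithinAt
  have hslope : ∀ x ∈ Icc a b, ∀ y ∈ Icc a b, x ≤ y → lam * (y - x) ≤ θ1 y - θ1 x := by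
    refine Convex.mul_sub_le_image_sub_of_le_deriv (convex_Icc a b) hc ?_ ?_
    · intro x hx
      exact (h2 x (interior_subset hx)).differentiableAt.differentiableWithinAt
    · intro x hx
      rw [(h2 x (interior_subset hx)).deriv]
      exact hs x (interior_subset hx)
  have ha : a ∈ Icc a b := left_mem_Icc.2 hab
  have hb : b ∈ Icc a b := right_mem_Icc.2 hab
  by_cases h0 : 0 ≤ θ1 a
  · refine ⟨a, ha, fun x hx => ?_⟩
    have := hslope a ha x hx hx.1
    rw [abs_of_nonneg (sub_nonneg.2 hx.1)]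
    exact le_trans (by linarith) (le_abs_self _)
  by_cases h1 : θ1 b ≤ 0
  · refine ⟨b, hb, fun x hx => ?_⟩
    have := hslope x hx b hb hx.2
    rw [abs_of_nonpos (sub_nonpos.2 hx.2)]
    exact le_trans (by linarith) (neg_le_abs _)
  push Not at h0 h1
  obtain ⟨s0, hs0, hz⟩ := intermediate_value_Icc hab hc (show (0 : ℝ) ∈ Icc (θ1 a) (θ1 b) from
    ⟨h0.le, h1.le⟩)
  refine ⟨s0, hs0, fun x hx => ?_⟩
  rcases le_total x s0 with h | h
  · have := hslope x hx s0 hs0 h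
    rw [abs_of_nonpos (sub_nonpos.2 h)]
    exact le_trans (by linarith) (neg_le_abs _)
  · have := hslope s0 hs0 x hx h
    rw [abs_of_nonneg (sub_nonneg.2 h)]
    exact le_trans (by linarith) (le_abs_self _)

lemma exists_zero {a b lam : ℝ} (hab : a ≤ b) {θ1 θ2 : ℝ → ℝ} (hl : 0 < lam)
    (h2 : ∀ x ∈ Icc a b, HasDerivAt θ1 (θ2 x) x)
    (hs : (∀ x ∈ Icc a b, lam ≤ θ2 x) ∨ (∀ x ∈ Icc a b, θ2 x ≤ -lam)) :
    ∃ s0 ∈ Icc a b, ∀ x ∈ Icc a b, lam * |x - s0| ≤ |θ1 x| := by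
  rcases hs with hs | hs
  · exact exists_zero_pos hab hl h2 hs
  · obtain ⟨s0, hs0, h⟩ := exists_zero_pos (θ1 := fun x => -θ1 x) (θ2 := fun x => -θ2 x) hab hl
      (fun x hx => (h2 x hx).neg) (fun x hx => by linarith [hs x hx])
    refine ⟨s0, hs0, fun x hx => ?_⟩
    have := h x hx
    rwa [abs_neg] at this

/-- Second derivative test. -/
lemma vdc2 {a b : ℝ} (hab : a ≤ b) {θ θ1 θ2 : ℝ → ℝ} {ψ ψ1 : ℝ → ℂ} {M lam : ℝ} (hl : 0 < lam)
    (h1 : ∀ x ∈ Icc a b, HasDerivAt θ (θ1 x) x)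
    (h2 : ∀ x ∈ Icc a b, HasDerivAt θ1 (θ2 x) x)
    (h2c : ContinuousOn θ2 (Icc a b))
    (h3 : ∀ x ∈ Icc a b, HasDerivAt ψ (ψ1 x) x)
    (h3c : ContinuousOn ψ1 (Icc a b))
    (hM : ∀ x ∈ Icc a b, ‖ψ x‖ ≤ M) (hM1 : ∀ x ∈ Icc a b, ‖ψ1 x‖ ≤ M)
    (hs : (∀ x ∈ Icc a b, lam ≤ θ2 x) ∨ (∀ x ∈ Icc a b, θ2 x ≤ -lam)) :
    ‖∫ x in a..b, ψ x * ec (θ x)‖ ≤ M * (10 + 2 * (b - a)) / √lam := by
  obtain ⟨s0, hs0, hz⟩ := exists_zero hab hl h2 hs
  have hMnn : 0 ≤ M := (norm_nonneg _).trans (hM a (left_mem_Icc.2 hab))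
  have hsq : 0 < √lam := Real.sqrt_pos.2 hl
  set r : ℝ := 1 / √lam with hr
  have hrpos : 0 < r := by positivity
  have hlr : lam * r = √lam := by
    rw [hr, mul_one_div, div_eq_iff hsq.ne', Real.mul_self_sqrt hl.le]
  have hcθ : ContinuousOn θ (Icc a b) := fun x hx => (h1 x hx).continuousAt.continuousWithinAt
  have hcψ : ContinuousOn ψ (Icc a b) := fun x hx => (h3 x hx).continuousAt.continuousWithinAt
  have hcF : ContinuousOn (fun x => ψ x * ec (θ x)) (Icc a b) :=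
    hcψ.mul (continuous_ec.comp_continuousOn hcθ)
  have hs' : (∀ x ∈ Icc a b, 0 ≤ θ2 x) ∨ (∀ x ∈ Icc a b, θ2 x ≤ 0) := by
    rcases hs with hs | hs
    · exact Or.inl fun x hx => hl.le.trans (hs x hx)
    · exact Or.inr fun x hx => (hs x hx).trans (by linarith)
  set p : ℝ := max a (s0 - r) with hp
  set q : ℝ := min b (s0 + r) with hq
  have hap : a ≤ p := le_max_left _ _
  have hqb : q ≤ b := min_le_left _ _
  have hps : p ≤ s0 := max_le hs0.1 (by linarith)
  have hsq' : s0 ≤ q := le_min hs0.2 (by linarith)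
  have hpq : p ≤ q := hps.trans hsq'
  have hpb : p ≤ b := hpq.trans hqb
  have haq : a ≤ q := hap.trans hpq
  have hI1 : IntervalIntegrable (fun x => ψ x * ec (θ x)) volume a p :=
    (hcF.mono (Icc_subset_Icc le_rfl hpb)).intervalIntegrable_of_Icc hap
  have hI2 : IntervalIntegrable (fun x => ψ x * ec (θ x)) volume p q :=
    (hcF.mono (Icc_subset_Icc hap hqb)).intervalIntegrable_of_Icc hpq
  have hI3 : IntervalIntegrable (fun x => ψ x * ec (θ x)) volume q b :=
    (hcF.mono (Icc_subset_Icc haq le_rfl)).intervalIntegrable_of_Icc hqb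
  have hsplit : ∫ x in a..b, ψ x * ec (θ x) = (∫ x in a..p, ψ x * ec (θ x)) +
      (∫ x in p..q, ψ x * ec (θ x)) + ∫ x in q..b, ψ x * ec (θ x) := by
    rw [intervalIntegral.integral_add_adjacent_intervals hI1 hI2,
      intervalIntegral.integral_add_adjacent_intervals (hI1.trans hI2) hI3]
  have hbd1 : ‖∫ x in a..p, ψ x * ec (θ x)‖ ≤ M * (4 + (b - a)) / √lam := by
    rcases le_or_gt (s0 - r) a with h | h
    · have hpa : p = a := by rw [hp]; exact max_eq_left h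
      rw [hpa, intervalIntegral.integral_same, norm_zero]
      have : 0 ≤ b - a := sub_nonneg.2 hab
      positivity
    · have hpe : p = s0 - r := by rw [hp]; exact max_eq_right h.le
      have hsub : Icc a p ⊆ Icc a b := Icc_subset_Icc le_rfl hpb
      have := vdc1 (μ := √lam) (M := M) hap hsq (fun x hx => h1 x (hsub hx))
        (fun x hx => h2 x (hsub hx)) (h2c.mono hsub) (fun x hx => h3 x (hsub hx)) (h3c.mono hsub)
        (fun x hx => hM x (hsub hx)) (fun x hx => hM1 x (hsub hx)) (fun x hx => ?_)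
        (hs'.imp (fun h x hx => h x (hsub hx)) (fun h x hx => h x (hsub hx)))
      · refine this.trans ?_
        gcongr
      · rw [← hlr]
        refine le_trans ?_ (hz x (hsub hx))
        refine mul_le_mul_of_nonneg_left ?_ hl.le
        rw [abs_of_nonpos (by linarith [hx.2])]
        linarith [hx.2]
  have hbd3 : ‖∫ x in q..b, ψ x * ec (θ x)‖ ≤ M * (4 + (b - a)) / √lam := by
    rcases le_or_gt b (s0 + r) with h | h
    · have hqe : q = b := by rw [hq]; exact min_eq_left h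
      rw [hqe, intervalIntegral.integral_same, norm_zero]
      have : 0 ≤ b - a := sub_nonneg.2 hab
      positivity
    · have hqe : q = s0 + r := by rw [hq]; exact min_eq_right h.le
      have hsub : Icc q b ⊆ Icc a b := Icc_subset_Icc haq le_rfl
      have := vdc1 (μ := √lam) (M := M) hqb hsq (fun x hx => h1 x (hsub hx))
        (fun x hx => h2 x (hsub hx)) (h2c.mono hsub) (fun x hx => h3 x (hsub hx)) (h3c.mono hsub)
        (fun x hx => hM x (hsub hx)) (fun x hx => hM1 x (hsub hx)) (fun x hx => ?_)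
        (hs'.imp (fun h x hx => h x (hsub hx)) (fun h x hx => h x (hsub hx)))
      · refine this.trans ?_
        gcongr
      · rw [← hlr]
        refine le_trans ?_ (hz x (hsub hx))
        refine mul_le_mul_of_nonneg_left ?_ hl.le
        rw [abs_of_nonneg (by linarith [hx.1])]
        linarith [hx.1]
  have hbd2 : ‖∫ x in p..q, ψ x * ec (θ x)‖ ≤ M * 2 / √lam := by
    have := intervalIntegral.norm_integral_le_of_norm_le_const (a := p) (b := q) (C := M)
      (f := fun x => ψ x * ec (θ x)) (fun x hx => by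
        rw [uIoc_of_le hpq] at hx
        rw [norm_mul, norm_ec, mul_one]
        exact hM x ⟨hap.trans hx.1.le, hx.2.trans hqb⟩)
    refine this.trans ?_
    rw [abs_of_nonneg (sub_nonneg.2 hpq), mul_div_assoc]
    refine mul_le_mul_of_nonneg_left ?_ hMnn
    have h1 : q ≤ s0 + r := min_le_right _ _
    have h2 : s0 - r ≤ p := le_max_right _ _
    have h3 : 2 / √lam = 2 * r := by rw [hr]; ring
    rw [h3]
    linarith
  rw [hsplit]
  calc _ ≤ ‖∫ x in a..p, ψ x * ec (θ x)‖ + ‖∫ x in p..q, ψ x * ec (θ x)‖ +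
        ‖∫ x in q..b, ψ x * ec (θ x)‖ := norm_add₃_le
    _ ≤ M * (4 + (b - a)) / √lam + M * 2 / √lam + M * (4 + (b - a)) / √lam :=
        add_le_add (add_le_add hbd1 hbd2) hbd3
    _ = M * (10 + 2 * (b - a)) / √lam := by ring

end Crest.Agent.R138.Ex774
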