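import Crest.Agent.R138.Wpk13_685

/-!
# R138 / R139: selectable wave packets, part 14 (helper685): the decomposition DECc holds.
-/

set_option autoImplicit false
set_option linter.unusedSectionVars false
set_option linter.unusedVariables false

open MeasureTheory FourierTransform
open scoped ContDiff ENNReal

namespace Crest.Agent.R138.Wpk685

open Crest.Agent.R138.Defs Crest.Agent.R138.W188

theorem small_caseM {B : ℕ → ℝ} {q : ℝ} {A : ℝ} {Na : ℕ} {M0 : ℝ} {M : ℕ} {C5 : ℝ} (hC5 : 0 ≤ C5)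
    (H5 : ∀ (h : E2 → ℝ) (F : E2 → ℂ), MemLp F 2 → (∀ ξ, 2 < ‖ξ‖ → F ξ = 0) →
      ∀ (x : E2) (t : ℝ), ‖ext h F x t‖ ≤ C5 * Real.sqrt (En F))
    {C ε : ℝ} (hε : 0 < ε) (hC1 : 1 ≤ C) (hC2 : C5 * 1296 ^ M ≤ C) {R r : ℝ} (hR : 1 ≤ R)
    (hRr : R ^ (1/2 : ℝ) ≤ r) (hr36 : r < 36) {nb : ℕ} (hnb : 1 ≤ nb) :
    ∃ (Λ : Finset ℕ) (s : ℕ → ℝ × ℝ) (cl : ℕ → ℕ), (Λ.card : ℝ) ≤ C * R ^ ε * nb ∧
    (∀ k ∈ Λ, Sd r (s k).1 (s k).2) ∧ (∀ k ∈ Λ, cl k < nb) ∧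
    ∀ σ h g D, σ ≤ 3/2 → St B q Na M0 σ h g R D → ∀ z ∈ cyl R,
      ∀ cls : OrthonormalBasis (Fin 2) ℝ E2 → ℤ × ℤ → E2 → ℕ,
        (∀ b m, Measurable (cls b m)) → (∀ b m y, cls b m y < nb) →
        ∃ (G : ℕ → E2 → ℂ) (D' : ℕ → ℝ) (rest : E2 → ℂ) (I : ℕ → Finset ℕ) (P : ℕ → ℕ → Plate),
          DecOut q A σ C B nb M h g R r z cls Λ s cl G D' rest I P := by
  have hR0 : 0 < R := by linarith
  have hRe : 1 ≤ R ^ ε := Real.one_le_rpow hR hε.le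
  have hC0 : 0 ≤ C := by linarith
  have hR1296 : R < 1296 := by
    have h1 : R = (R ^ (1/2 : ℝ)) ^ 2 := by
      rw [← Real.rpow_natCast, ← Real.rpow_mul hR0.le]; norm_num
    rw [h1]
    have h2 : 0 ≤ R ^ (1/2 : ℝ) := by positivity
    nlinarith
  have hnb' : (1:ℝ) ≤ nb := by exact_mod_cast hnb
  refine ⟨∅, fun _ => (1, 1), fun _ => 0, by simp; positivity, by simp, by simp, ?_⟩
  intro σ h g D hσ hSt z hz cls _ _
  have hhc : Continuous h := hSt.par.1.continuous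
  have htm : Measurable (tr h z g) := by
    unfold tr
    exact hSt.meas.mul (phase_cont hhc z.1 z.2).measurable
  obtain ⟨L, hL⟩ := hSt.bdd
  have htb : ∀ ξ, ‖tr h z g ξ‖ ≤ L := fun ξ => by rw [norm_tr']; exact hL ξ
  have hts : ∀ ξ, 2 < ‖ξ‖ → tr h z g ξ = 0 := fun ξ hξ => by
    unfold tr; rw [hSt.supp ξ (by linarith), zero_mul]
  refine ⟨fun _ _ => 0, fun _ => 0, tr h z g, fun _ => ∅, fun _ _ =>
    ⟨0, 0, EuclideanSpace.basisFun (Fin 2) ℝ, 0, fun _ => ∅⟩, ?_⟩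
  refine { sum := by simp, eq := by simp, st := by simp, sub := by simp, dens := by simp,
           bd := by simp, cp := by simp, disj := by simp, pl := by simp, cls := by simp,
           dense := by simp, energy := by simp, ss := by simp, rmeas := htm, rbdd := ⟨L, htb⟩,
           rsupp := hts, ren := ?_, small := ?_ }
  · rw [En_tr']
    have := En_nn g
    nlinarith
  · intro p _ _
    refine (H5 h _ (int_of_bdd htm htb hts).2 hts p.1 p.2).trans ?_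
    rw [En_tr']
    have h1 : C5 ≤ C * R ^ (-(M : ℝ)) := by
      rw [Real.rpow_neg hR0.le, Real.rpow_natCast, ← div_eq_mul_inv, le_div_iff₀ (by positivity)]
      refine le_trans ?_ hC2
      gcongr
    have h2 : C * R ^ (-(M : ℝ)) ≤ C * nb * R ^ (-(M : ℝ)) := by
      have h3 : 0 ≤ R ^ (-(M : ℝ)) := by positivity
      have h4 : C ≤ C * nb := le_mul_of_one_le_right hC0 hnb'
      gcongr
    have h5 := h1.trans h2
    gcongr

set_option maxHeartbeats 2000000 in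
theorem big_caseM {B : ℕ → ℝ} {q : ℝ} (hq : 0 ≤ q) {A : ℝ} {Na : ℕ} {M0 : ℝ} {M : ℕ}
    {C1 C2 C3 C4 C5 C6 : ℝ}
    (hC1 : 0 ≤ C1) (hC2 : 0 ≤ C2) (hC3 : 0 ≤ C3) (hC4 : 0 ≤ C4) (hC5 : 0 ≤ C5) (hC6 : 0 ≤ C6)
    (H1 : ∀ h, ParB B h → ∀ r : ℝ, 1 ≤ r → ∀ g : E2 → ℂ, Integrable g →
      (∀ ξ, 2 < ‖ξ‖ → g ξ = 0) →
      ∀ S : ℤ × ℤ → Set E2, Bs (r ^ (-(1/2) : ℝ)) S → ∀ Δ : ℝ, 0 ≤ Δ → Dens q h r g S Δ →
      W188.PBox q 6 h (sel (r ^ (-(1/2) : ℝ)) g S) r (C1 * Δ))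
    (H2 : ∀ ρ : ℝ, 0 < ρ → ρ ≤ 1 → ∀ g : E2 → ℂ, Integrable g → ∀ S : ℤ × ℤ → Set E2, Bs ρ S →
      ∫⁻ ξ, ‖sel ρ g S ξ‖ₑ ^ 2 ≤ ENNReal.ofReal C2 * en ρ g S)
    (H3 : ∀ ρ : ℝ, 0 < ρ → ρ ≤ 1 → ∀ g : E2 → ℂ,
      Integrable g → MemLp g 2 → ∀ S : ℤ × ℤ → Set E2,
      en ρ g S ≤ ENNReal.ofReal C3 * ∫⁻ ξ, ‖g ξ‖ₑ ^ 2)
    (H4 : ∀ h, ParB B h → fderiv ℝ h 0 = 0 → ∀ r : ℝ, 1 ≤ r → ∀ g : E2 → ℂ, Integrable g →
      MemLp g 2 → (∀ ξ, 2 < ‖ξ‖ → g ξ = 0) → ∀ S : ℤ × ℤ → Set E2, Bs (r ^ (-(1/2) : ℝ)) S →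
      (∀ m ∈ caps (r ^ (-(1/2) : ℝ)),
        Metric.closedBall 0 ((1 + 8 + 4 * 8 * (1 + |B 2|)) * r) ⊆ S m) →
      ∀ (x : E2) (t : ℝ), ‖x‖ ≤ 8 * r → |t| ≤ 8 * r →
      ‖ext h g x t - ext h (sel (r ^ (-(1/2) : ℝ)) g S) x t‖ₑ ^ 2 ≤
        ENNReal.ofReal (C4 * (r ^ (2 * (2 * M)))⁻¹) * ∫⁻ ξ, ‖g ξ‖ₑ ^ 2)
    (H5 : ∀ (h : E2 → ℝ) (F : E2 → ℂ), MemLp F 2 → (∀ ξ, 2 < ‖ξ‖ → F ξ = 0) →
      ∀ (x : E2) (t : ℝ), ‖ext h F x t‖ ≤ C5 * Real.sqrt (En F))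
    {ε : ℝ} (hε : 0 < ε)
    (H6 : ∀ R : ℝ, 1 ≤ R → ((Lam ⌈Real.logb 2 R⌉₊
      ((2 * M + ⌈q / 2⌉₊ + 2) * ⌈Real.logb 2 R⌉₊)).card : ℝ) ≤ C6 * R ^ ε)
    {K N7 Cp : ℝ} (hK : K = 1 + 8 + 4 * 8 * (1 + |B 2|))
    (hN7 : N7 = NB (B 2) K) (hCp : Cp = (C1 + 1) * 2 ^ (q + 2) + C2 * N7)
    (hA : K + 3 ≤ A)
    {C : ℝ} (hCC6 : C6 ≤ C) (hCC1 : 2 * Cp ≤ C) (hCCe : C2 ≤ C)
    (hCC2 : C2 * Real.sqrt Cp * Real.sqrt 2 ≤ C)
    (hCC3 : 2 + 2 * (C2 * C3) ≤ C)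
    (hCC4 : Real.sqrt C4 + C5 * Real.sqrt (C2 * (N7 * C3)) ≤ C)
    {R r : ℝ} (hR : 1 ≤ R) (hRr : R ^ (1/2 : ℝ) ≤ r) (hrR : r ≤ R) (hr36 : 36 ≤ r)
    {nb : ℕ} (hnb : 1 ≤ nb) :
    ∃ (Λ : Finset ℕ) (s : ℕ → ℝ × ℝ) (cl : ℕ → ℕ), (Λ.card : ℝ) ≤ C * R ^ ε * nb ∧
    (∀ k ∈ Λ, Sd r (s k).1 (s k).2) ∧ (∀ k ∈ Λ, cl k < nb) ∧
    ∀ σ h g D, σ ≤ 3/2 → St B q Na M0 σ h g R D → ∀ z ∈ cyl R,
      ∀ cls : OrthonormalBasis (Fin 2) ℝ E2 → ℤ × ℤ → E2 → ℕ,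
        (∀ b m, Measurable (cls b m)) → (∀ b m y, cls b m y < nb) →
        ∃ (G : ℕ → E2 → ℂ) (D' : ℕ → ℝ) (rest : E2 → ℂ) (I : ℕ → Finset ℕ) (P : ℕ → ℕ → Plate),
          DecOut q A σ C B nb M h g R r z cls Λ s cl G D' rest I P := by
  classical
  have hR0 : 0 < R := by linarith
  have hr1 : 1 ≤ r := by linarith
  have hr0 : 0 < r := by linarith
  have hRe : 1 ≤ R ^ ε := Real.one_le_rpow hR hε.le
  have hC0 : 0 ≤ C := hC6.trans hCC6
  have hB2 : 0 ≤ |B 2| := abs_nonneg _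
  have hK1 : 1 ≤ K := by rw [hK]; linarith
  have hK0 : 0 ≤ K := by linarith
  have hN70 : 0 ≤ N7 := by rw [hN7]; positivity
  have hCp0 : 0 ≤ Cp := by rw [hCp]; positivity
  have hnb' : (1:ℝ) ≤ nb := by exact_mod_cast hnb
  have hnb0 : (0:ℝ) < nb := by linarith
  have hsnb : Real.sqrt nb ≤ nb := by
    rw [Real.sqrt_le_left hnb0.le]
    exact le_self_pow₀ hnb' two_ne_zero
  obtain ⟨hρ, hρ1, hρ2⟩ := rp_facts hr1
  have hρ6 : r ^ (-(1/2) : ℝ) ≤ 1 / 6 := by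
    refine le_of_sq_le_sq ?_ (by norm_num)
    rw [hρ2]
    rw [inv_eq_one_div, div_le_iff₀ hr0]
    linarith
  obtain ⟨ρ, hρe⟩ : ∃ ρ : ℝ, ρ = r ^ (-(1/2) : ℝ) := ⟨_, rfl⟩
  rw [← hρe] at hρ hρ1 hρ2 hρ6
  set n : ℕ := ⌈Real.logb 2 R⌉₊ with hn
  have hRn : R ≤ 2 ^ n := two_pow_logb hR
  have hnρ : 1 ≤ 2 ^ n * ρ := by
    have h1 : 1 ≤ r * ρ := by
      refine le_of_sq_le_sq ?_ (by positivity)
      rw [mul_pow, hρ2]
      have : r ^ 2 * r⁻¹ = r := by field_simp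
      rw [this]; linarith
    calc (1:ℝ) ≤ r * ρ := h1
      _ ≤ 2 ^ n * ρ := by
        have := hrR.trans hRn
        gcongr
  set T : ℕ := 2 * M + ⌈q / 2⌉₊ + 2 with hT
  set J : ℕ := T * n with hJ
  have hJR : R ^ T ≤ 2 ^ J := by
    rw [hJ, mul_comm, pow_mul]
    gcongr
  refine ⟨LamC n J nb, fun k => (sg ρ (la0 (k1 k)), sg ρ (la1 (k1 k))), k2, ?_, ?_, ?_, ?_⟩
  · have h1 : ((LamC n J nb).card : ℝ) ≤ ((Lam n J).card : ℝ) * nb := by
      exact_mod_cast card_LamC n J nb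
    refine h1.trans ?_
    have h2 := H6 R hR
    gcongr
    exact h2.trans (by gcongr)
  · intro k hk
    rw [mem_LamC, mem_Lam] at hk
    refine ⟨?_, sg_mono hρ hk.1.1, sg_le_one _ _⟩
    rw [← hρe]
    exact sg_ge hρ hρ1 _
  · intro k hk
    exact (mem_LamC.1 hk).2
  intro σ h g D hσ hSt z hz cls hcm hcb
  have hhc : Continuous h := hSt.par.1.continuous
  obtain ⟨g', hg'⟩ : ∃ g', g' = tr h z g := ⟨_, rfl⟩
  have htm : Measurable g' := by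
    rw [hg']
    unfold tr
    exact hSt.meas.mul (phase_cont hhc z.1 z.2).measurable
  obtain ⟨L, hL⟩ := hSt.bdd
  have htb : ∀ ξ, ‖g' ξ‖ ≤ L := fun ξ => by rw [hg', norm_tr']; exact hL ξ
  have hts' : ∀ ξ, σ < ‖ξ‖ → g' ξ = 0 := fun ξ hξ => by
    rw [hg']; unfold tr; rw [hSt.supp ξ hξ, zero_mul]
  have hts : ∀ ξ, 2 < ‖ξ‖ → g' ξ = 0 := fun ξ hξ => hts' ξ (by linarith)
  have hEn : En g' = En g := by rw [hg', En_tr']
  obtain ⟨hgi, hg2⟩ := int_of_bdd htm htb hts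
  -- phase space
  set X0 : Set Ph := {w | w.1 ∈ caps ρ ∧ ‖w.2‖ ≤ K * r} with hX0
  have hX0m : MeasurableSet X0 := by
    refine meas_of_sli fun m => ?_
    by_cases hm : m ∈ caps ρ
    · have : sli X0 m = Metric.closedBall 0 (K * r) := by
        ext y
        rw [mem_sli, hX0, Metric.mem_closedBall, dist_zero_right]
        exact and_iff_right hm
      rw [this]
      exact Metric.isClosed_closedBall.measurableSet
    · have : sli X0 m = ∅ := by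
        ext y
        rw [mem_sli, hX0]
        simp [hm]
      rw [this]
      exact MeasurableSet.empty
  obtain ⟨E0, hE0⟩ : ∃ E0 : ℝ, E0 = C3 * En g' := ⟨_, rfl⟩
  have hE00 : 0 ≤ E0 := by rw [hE0]; exact mul_nonneg hC3 (En_nn g')
  have hmu0 : mu ρ g' X0 ≤ ENNReal.ofReal E0 := by
    rw [mu_apply _ _ hX0m, hE0, ENNReal.ofReal_mul hC3, ← lintEn hg2]
    exact H3 ρ hρ hρ1 g' hgi hg2 _
  obtain ⟨X, nn, P, κ, Ac, hXz, hXm, hAc, hdis, hXs, hDD⟩ :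
      ∃ (X : ℕ → Set Ph) (nn : ℕ → ℕ) (P : ℕ → ℕ → Tst) (κ : ℕ → ℕ → ℕ) (A : ℕ → ℕ → Set Ph),
      X 0 = X0 ∧ (∀ j, MeasurableSet (X j)) ∧
      (∀ j, ∀ i < nn j, MeasurableSet (A j i) ∧ A j i ⊆ X j ∧ (P j i).a 0 ≤ (P j i).a 1 ∧
        (P j i).a 1 ≤ n ∧ κ j i < nb ∧ A j i ⊆ TT h r cls (P j i, κ j i) ∧
        ENNReal.ofReal (E0 * r ^ (q / 2) / 2 ^ (j + 1) * cst q ρ r (P j i).a) <
          mu ρ g' (A j i)) ∧
      (∀ j, ∀ i < nn j, ∀ i' < nn j, i ≠ i' → Disjoint (A j i) (A j i')) ∧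
      (∀ j, ∀ x, x ∈ X (j + 1) ↔ x ∈ X j ∧ ∀ i < nn j, x ∉ A j i) ∧
      ∀ j, ∀ p : Tst, p.a 0 ≤ p.a 1 → p.a 1 ≤ n → ∀ β < nb,
        mu ρ g' (X j ∩ TT h r cls (p, β)) ≤
          ENNReal.ofReal (E0 * r ^ (q / 2) / 2 ^ j * cst q ρ r p.a) := by
    have h0 := greedyM hq hr1 (h := h) (g := g') n nb hcm hX0m hE00 (by rw [← hρe]; exact hmu0)
    rw [← hρe] at h0
    exact h0
  set Δ0 : ℝ := E0 * r ^ (q / 2) with hΔ0
  have hrq : 0 < r ^ (q / 2) := Real.rpow_pos_of_pos hr0 _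
  have hΔ00 : 0 ≤ Δ0 := mul_nonneg hE00 hrq.le
  have hΔj : ∀ j : ℕ, 0 ≤ Δ0 / 2 ^ j := fun j => by positivity
  have hAX : ∀ j, ∀ i < nn j, Ac j i ⊆ X j := fun j i hi => (hAc j i hi).2.1
  have hAm : ∀ j, ∀ i < nn j, MeasurableSet (Ac j i) := fun j i hi => (hAc j i hi).1
  have hXX0 : ∀ j, X j ⊆ X0 := fun j => by
    rw [← hXz]; exact X_antiM hXs (Nat.zero_le j)
  have hDE : ∀ j, DE q h r g' n (sli (X j)) (nb * (Δ0 / 2 ^ j)) := fun j =>
    de_of hq hr1 hcb (hXm j) (hΔj j) (by rw [← hρe]; exact hDD j)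
  -- bounded selections
  have hBs' : ∀ S : ℤ × ℤ → Set E2, (∀ m ∈ caps ρ, MeasurableSet (S m)) →
      (∀ m ∈ caps ρ, S m ⊆ sli X0 m) → Bs ρ S := fun S h1 h2 =>
    ⟨h1, fun m hm => (Metric.isBounded_closedBall (x := (0:E2)) (r := K * r)).subset fun y hy => by
      rw [Metric.mem_closedBall, dist_zero_right]
      exact (h2 m hm hy).2⟩
  have hBs : ∀ U : Set Ph, MeasurableSet U → U ⊆ X0 → Bs ρ (sli U) := fun U h1 h2 =>
    hBs' _ (fun m _ => sli_meas h1 m) (fun m _ y hy => h2 hy)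
  set Y : Set Ph := X 0 \ X J with hY
  have hYm : MeasurableSet Y := (hXm 0).diff (hXm J)
  have hYX : Y ⊆ X0 := fun w hw => by rw [← hXz]; exact hw.1
  -- energies
  have hselEn : ∀ S : ℤ × ℤ → Set E2, Bs ρ S →
      ENNReal.ofReal (En (sel ρ g' S)) ≤ ENNReal.ofReal C2 * en ρ g' S := by
    intro S hS
    rw [← lintEn (sel_int hρ hgi hS).2]
    exact H2 ρ hρ hρ1 g' hgi _ hS
  have hselEn' : ∀ S : ℤ × ℤ → Set E2, Bs ρ S → En (sel ρ g' S) ≤ C2 * C3 * En g' := by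
    intro S hS
    have h1 := hselEn S hS
    have h2 := H3 ρ hρ hρ1 g' hgi hg2 S
    rw [lintEn hg2] at h2
    have h3 : ENNReal.ofReal (En (sel ρ g' S)) ≤ ENNReal.ofReal (C2 * C3 * En g') := by
      rw [mul_assoc, ENNReal.ofReal_mul hC2, ENNReal.ofReal_mul hC3]
      exact h1.trans (by gcongr)
    rwa [ENNReal.ofReal_le_ofReal_iff (mul_nonneg (mul_nonneg hC2 hC3) (En_nn g'))] at h3
  have hselD : ∀ (S : ℤ × ℤ → Set E2) (j : ℕ), Bs ρ S → (∀ m ∈ caps ρ, S m ⊆ sli (X j) m) →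
      En (sel ρ g' S) ≤ C2 * (N7 * (nb * (Δ0 / 2 ^ j) * r ^ 2)) := by
    intro S j hS hSj
    have h1 := hselEn S hS
    have h2 : en ρ g' S ≤ ENNReal.ofReal (N7 * (nb * (Δ0 / 2 ^ j) * r ^ 2)) := by
      rw [hρe, hN7]
      refine tot_leM B hSt.par hSt.h1 hr1 (n := n) (by rw [← hρe]; exact hnρ) hK1 ?_
        (mul_nonneg hnb0.le (hΔj j)) (q := q) ?_
      · intro m hm y hy
        rw [← hρe] at hm
        exact (hXX0 j (hSj m hm hy)).2
      · exact (hDE j).mono (by rw [← hρe]; exact hSj)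
    have h3 : ENNReal.ofReal (En (sel ρ g' S)) ≤
        ENNReal.ofReal (C2 * (N7 * (nb * (Δ0 / 2 ^ j) * r ^ 2))) := by
      rw [ENNReal.ofReal_mul hC2]
      exact h1.trans (by gcongr)
    have := hΔj j
    rwa [ENNReal.ofReal_le_ofReal_iff (by positivity)] at h3
  have hsupp : ∀ (S : ℤ × ℤ → Set E2) (ξ : E2), σ + 3 * ρ < ‖ξ‖ → sel ρ g' S ξ = 0 := by
    intro S ξ hξ
    exact sel_supp hρ hts' ξ hξ
  -- the selections of a label
  obtain ⟨Pl, hPl⟩ : ∃ Pl : ℕ → ℕ → Plate, Pl = fun k i =>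
    ⟨z, (P (lj (k1 k)) i).c, (P (lj (k1 k)) i).b, (P (lj (k1 k)) i).y, sli (Ac (lj (k1 k)) i)⟩ :=
    ⟨_, rfl⟩
  have hPS : ∀ k i, (Pl k i).S = sli (Ac (lj (k1 k)) i) := fun k i => by rw [hPl]
  set I : ℕ → Finset ℕ := fun k => IIM nn P κ k with hI
  have hU : ∀ k, uS (I k) (Pl k) = sli (XM nn P κ Ac k) := by
    intro k
    funext m
    ext y
    unfold uS
    simp only [Set.mem_iUnion, exists_prop, hPS, mem_sli]
    exact mem_XM.symm
  have hXMm : ∀ k, MeasurableSet (XM nn P κ Ac k) := fun k =>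
    Finset.measurableSet_biUnion _ fun i hi => hAm _ i (mem_IIM.1 hi).1
  have hXMs : ∀ k, XM nn P κ Ac k ⊆ X (lj (k1 k)) := fun k => XM_sub hAX k
  have hXM0 : ∀ k, XM nn P κ Ac k ⊆ X0 := fun k => (hXMs k).trans (hXX0 _)
  have hBsk : ∀ k, Bs ρ (uS (I k) (Pl k)) := fun k => by
    rw [hU]; exact hBs _ (hXMm k) (hXM0 k)
  have hSub : ∀ k, ∀ S' : ℤ × ℤ → Set E2, (∀ m, MeasurableSet (S' m)) →
      (∀ m, S' m ⊆ uS (I k) (Pl k) m) → Bs ρ S' ∧ DE q h r g' n S' (nb * (Δ0 / 2 ^ (lj (k1 k)))) := by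
    intro k S' h1 h2
    have h3 : ∀ m, S' m ⊆ sli (XM nn P κ Ac k) m := fun m => by rw [← hU]; exact h2 m
    exact ⟨hBs' S' (fun m _ => h1 m) (fun m _ y hy => hXM0 k (h3 m hy)),
      (hDE _).mono fun m _ y hy => hXMs k (h3 m hy)⟩
  have hUm : ∀ k m, MeasurableSet (uS (I k) (Pl k) m) := fun k m => by
    rw [hU]; exact sli_meas (hXMm k) m
  -- density bounds
  obtain ⟨Dk, hDk⟩ : ∃ Dk : ℕ → ℝ, Dk = fun k => Cp * (nb * (Δ0 / 2 ^ lj (k1 k))) := ⟨_, rfl⟩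
  have hDk0 : ∀ k, 0 ≤ Dk k := fun k => by
    rw [hDk]; exact mul_nonneg hCp0 (mul_nonneg hnb0.le (hΔj _))
  have hsubDens : ∀ k, ∀ S' : ℤ × ℤ → Set E2, (∀ m, MeasurableSet (S' m)) →
      (∀ m, S' m ⊆ uS (I k) (Pl k) m) →
      Dens q h r g' S' (2 ^ (q + 2) * (nb * (Δ0 / 2 ^ lj (k1 k)))) := by
    intro k S' h1 h2
    exact dens_of_de hq hr1 (n := n) (by rw [← hρe]; exact hnρ) (mul_nonneg hnb0.le (hΔj _))
      (hSub k S' h1 h2).2
  have hsubPB : ∀ k, ∀ S' : ℤ × ℤ → Set E2, (∀ m, MeasurableSet (S' m)) →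
      (∀ m, S' m ⊆ uS (I k) (Pl k) m) → PBox q 6 h (sel ρ g' S') r (Dk k) := by
    intro k S' h1 h2
    have h3 := H1 h hSt.par r hr1 g' hgi hts S' (by rw [← hρe]; exact (hSub k S' h1 h2).1)
      (2 ^ (q + 2) * (nb * (Δ0 / 2 ^ lj (k1 k))))
      (by have := hΔj (lj (k1 k)); positivity) (hsubDens k S' h1 h2)
    rw [← hρe] at h3
    refine PBox_mono hr1 h3 ?_
    have h4 : 0 ≤ nb * (Δ0 / 2 ^ lj (k1 k)) := mul_nonneg hnb0.le (hΔj _)
    have h5 : C1 * 2 ^ (q + 2) ≤ Cp := by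
      rw [hCp]
      have h7 : (0:ℝ) ≤ 2 ^ (q + 2) := by positivity
      have h6 : 0 ≤ C2 * N7 := mul_nonneg hC2 hN70
      have h8 : C1 * 2 ^ (q + 2) ≤ (C1 + 1) * 2 ^ (q + 2) :=
        mul_le_mul_of_nonneg_right (le_add_of_nonneg_right zero_le_one) h7
      exact h8.trans (le_add_of_nonneg_right h6)
    rw [hDk]
    calc C1 * (2 ^ (q + 2) * (nb * (Δ0 / 2 ^ lj (k1 k)))) =
          (C1 * 2 ^ (q + 2)) * (nb * (Δ0 / 2 ^ lj (k1 k))) := by ring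
      _ ≤ Cp * (nb * (Δ0 / 2 ^ lj (k1 k))) := by gcongr
  -- decompositions
  have hsum1 : ∀ ξ, sel ρ g' (sli Y) ξ = ∑ k ∈ LamC n J nb, sel ρ g' (uS (I k) (Pl k)) ξ := by
    intro ξ
    refine sel_sumM hgi (LamC n J nb) (fun k => uS (I k) (Pl k)) (sli Y) (fun k _ => hBsk k)
      ?_ ?_ ξ
    · intro k _ k' _ hne m _
      simp only [hU]
      have := XM_disj (P := P) (κ := κ) hAX hdis hXs hne
      rw [Set.disjoint_left] at this ⊢
      exact fun y hy hy' => this hy hy'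
    · intro m _ y
      simp only [hU, mem_sli]
      exact XM_union hAX hXs (fun j i hi => ⟨(hAc j i hi).2.2.1, (hAc j i hi).2.2.2.1,
        (hAc j i hi).2.2.2.2.1⟩) (m, y)
  have hsubJ : X J ⊆ X 0 := X_antiM hXs (Nat.zero_le J)
  have hsum2 : ∀ ξ, sel ρ g' (sli X0) ξ = sel ρ g' (sli Y) ξ + sel ρ g' (sli (X J)) ξ := by
    intro ξ
    have h1 := sel_sumM (ρ := ρ) hgi (Finset.univ : Finset Bool)
      (fun b => if b then sli Y else sli (X J)) (sli X0) ?_ ?_ ?_ ξ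
    · rw [Fintype.sum_bool] at h1
      simpa using h1
    · intro b _
      cases b
      · simpa using hBs (X J) (hXm J) (hXX0 J)
      · simpa using hBs Y hYm hYX
    · intro b _ b' _ hne m _
      have hd : Disjoint (sli Y m) (sli (X J) m) := Set.disjoint_left.2 fun y hy hy' => hy.2 hy'
      cases b <;> cases b' <;> simp at hne ⊢
      · exact hd.symm
      · exact hd
    · intro m _ y
      constructor
      · intro hx
        by_cases h2 : (m, y) ∈ X J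
        · refine ⟨false, Finset.mem_univ _, ?_⟩
          simp only [Bool.false_eq_true, if_false]
          exact h2
        · refine ⟨true, Finset.mem_univ _, ?_⟩
          simp only [if_true]
          exact ⟨by rw [hXz]; exact hx, h2⟩
      · rintro ⟨b, _, hb⟩
        cases b
        · simp only [Bool.false_eq_true, if_false] at hb
          exact hXX0 J hb
        · simp only [if_true] at hb
          exact hYX hb
  obtain ⟨LY, hLY⟩ := sel_bdd hρ hgi (hBs Y hYm hYX)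
  have hmem : ∀ k, ∀ i ∈ I k, i < nn (lj (k1 k)) ∧ (P (lj (k1 k)) i).a 0 = la0 (k1 k) ∧
      (P (lj (k1 k)) i).a 1 = la1 (k1 k) ∧ κ (lj (k1 k)) i = k2 k := fun k i hi => mem_IIM.1 hi
  have hDkn : ∀ k, ∀ i ∈ I k, ENNReal.ofReal (Δ0 / 2 ^ lj (k1 k) / 2 *
      ((sg ρ (la1 (k1 k))) ^ q * (sg ρ (la0 (k1 k)) * sg ρ (la1 (k1 k)) * r ^ 2))) ≤
      en ρ g' (Pl k i).S := by
    intro k i hi
    obtain ⟨hi1, hi2, hi3, hi4⟩ := hmem k i hi
    have h1 := (hAc _ i hi1).2.2.2.2.2.2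
    rw [hPS, ← mu_apply _ _ (hAm _ i hi1)]
    refine le_trans (le_of_eq ?_) h1.le
    unfold cst
    rw [hi2, hi3, pow_succ]
    congr 2
    ring
  have hs1 : ∀ k, 0 < sg ρ (la0 (k1 k)) := fun k => hρ.trans_le (sg_ge hρ hρ1 _)
  have hs2 : ∀ k, 0 < sg ρ (la1 (k1 k)) := fun k => hρ.trans_le (sg_ge hρ hρ1 _)
  have hensum : ∀ k, en ρ g' (uS (I k) (Pl k)) = ∑ i ∈ I k, en ρ g' (Pl k i).S := by
    intro k
    refine en_biUnion (I k) (fun i => (Pl k i).S) ?_ ?_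
    · intro i hi m _
      rw [hPS]
      exact sli_meas (hAm _ i (hmem k i hi).1) m
    · intro i hi j hj hij m _
      rw [hPS, hPS]
      have := hdis _ i (hmem k i hi).1 j (hmem k j hj).1 hij
      rw [Set.disjoint_left] at this ⊢
      exact fun y hy hy' => this hy hy'
  refine ⟨fun k => sel ρ g' (uS (I k) (Pl k)), Dk, fun ξ => g' ξ - sel ρ g' (sli Y) ξ, I, Pl, ?_⟩
  refine { sum := ?_, eq := ?_, st := ?_, sub := ?_, dens := ?_, bd := ?_, cp := ?_, disj := ?_,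
           pl := ?_, cls := ?_, dense := ?_, energy := ?_, ss := ?_, rmeas := ?_, rbdd := ?_,
           rsupp := ?_, ren := ?_, small := ?_ }
  · intro ξ
    rw [← hg', ← hsum1]
    ring
  · intro k _
    rw [← hρe, ← hg']
  · -- states
    intro k hk
    obtain ⟨Lk, hLk⟩ := sel_bdd hρ hgi (hBsk k)
    refine ⟨hSt.par, hSt.h0, hSt.h1, (sel_cont hgi (hBsk k)).measurable, ⟨Lk, hLk⟩, ?_, hr1,
      hDk0 k, hsubPB k _ (hUm k) (fun m => Set.Subset.refl _), ?_⟩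
    · rw [← hρe]; exact hsupp _
    · refine (hselD _ (lj (k1 k)) (hBsk k) (fun m _ => by
        rw [hU]; exact fun y hy => hXMs k hy)).trans ?_
      have h3 := hΔj (lj (k1 k))
      have h4 : r ^ (4 : ℝ) = r ^ 4 := by
        rw [← Real.rpow_natCast]; norm_num
      rw [h4, hDk]
      have h5 : r ^ 2 ≤ r ^ 4 := pow_le_pow_right₀ hr1 (by norm_num)
      have h6 : C2 * N7 ≤ Cp := by
        rw [hCp]
        have : 0 ≤ (C1 + 1) * 2 ^ (q + 2) := by positivity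
        linarith
      calc C2 * (N7 * (nb * (Δ0 / 2 ^ lj (k1 k)) * r ^ 2)) =
            r ^ 2 * ((C2 * N7) * (nb * (Δ0 / 2 ^ lj (k1 k)))) := by ring
        _ ≤ r ^ 4 * (Cp * (nb * (Δ0 / 2 ^ lj (k1 k)))) := by gcongr
  · intro k hk S' h1 h2
    rw [← hρe, ← hg']
    exact hsubPB k S' h1 h2
  · -- densities
    intro k hk c b s y0 hs
    rw [← hg']
    refine (hsubDens k _ (hUm k) (fun m => Set.Subset.refl _) c b s y0 hs).trans
      (ENNReal.ofReal_le_ofReal ?_)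
    have h3 := hΔj (lj (k1 k))
    have h0 : 0 < s 0 := (by rw [← hρe]; exact hρ : 0 < r ^ (-(1/2) : ℝ)).trans_le (hs 0).1
    have h1 : 0 < s 1 := (by rw [← hρe]; exact hρ : 0 < r ^ (-(1/2) : ℝ)).trans_le (hs 1).1
    have h2 : 0 < max (s 0) (s 1) := lt_max_of_lt_left h0
    have h5 : 2 ^ (q + 2) ≤ Cp := by
      rw [hCp]
      have h7 : (0:ℝ) ≤ 2 ^ (q + 2) := by positivity
      have h6 : 0 ≤ C2 * N7 := mul_nonneg hC2 hN70
      have h8 : (2:ℝ) ^ (q + 2) ≤ (C1 + 1) * 2 ^ (q + 2) :=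
        le_mul_of_one_le_left h7 (le_add_of_nonneg_left hC1)
      exact h8.trans (le_add_of_nonneg_right h6)
    rw [hDk]
    simp only
    gcongr
  · intro k hk m y hy
    rw [hU] at hy
    rw [Metric.mem_closedBall, dist_zero_right]
    refine ((hXM0 k hy).2).trans ?_
    have : K ≤ A := by linarith
    gcongr
  · intro k hk m hm
    rw [← hρe] at hm
    rw [Set.eq_empty_iff_forall_notMem]
    intro y hy
    rw [hU] at hy
    exact hm (hXM0 k hy).1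
  · intro k _ k' _ hne m
    rw [hU, hU]
    have := XM_disj (P := P) (κ := κ) hAX hdis hXs hne
    rw [Set.disjoint_left] at this ⊢
    exact fun y hy hy' => this hy hy'
  · -- plates
    intro k hk
    refine ⟨⟨fun i _ => by rw [hPl]; exact hz, fun i _ j _ => Or.inl (by rw [hPl]), ?_,
      fun i hi m => ?_, ?_, ?_⟩, fun i _ => by rw [hPl]⟩
    · intro i hi
      obtain ⟨hi1, hi2, hi3, hi4⟩ := hmem k i hi
      obtain ⟨h1, h2, h3, h4, h5, h6, h7⟩ := hAc _ i hi1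
      have hne : (Ac (lj (k1 k)) i).Nonempty := by
        by_contra hne
        rw [Set.not_nonempty_iff_eq_empty] at hne
        rw [hne, measure_empty] at h7
        exact not_lt_zero h7
      obtain ⟨w, hw⟩ := hne
      have h8 := (h6 hw).1.2
      have h9 := (hXX0 _ (h2 hw)).2
      have hx : (Pl k i).x = (P (lj (k1 k)) i).y := by rw [hPl]
      rw [hx]
      have h10 : ‖w.2 - (P (lj (k1 k)) i).y‖ ≤ 2 * (1 * r) := by
        refine norm_le_of_inner (P (lj (k1 k)) i).b fun i' => (h8 i').trans ?_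
        simp only
        have := sg_le_one (r ^ (-(1/2) : ℝ)) ((P (lj (k1 k)) i).a i')
        gcongr
      have h11 : ‖(P (lj (k1 k)) i).y‖ ≤ ‖w.2‖ + ‖w.2 - (P (lj (k1 k)) i).y‖ := by
        calc ‖(P (lj (k1 k)) i).y‖ = ‖w.2 - (w.2 - (P (lj (k1 k)) i).y)‖ := by congr 1; abel
          _ ≤ _ := norm_sub_le _ _
      have h12 : (K + 2) * r ≤ A * r := mul_le_mul_of_nonneg_right (by linarith) hr0.le
      linarith
    · rw [hPS]
      exact sli_meas (hAm _ i (hmem k i hi).1) m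
    · intro i hi m y hy
      obtain ⟨hi1, hi2, hi3, hi4⟩ := hmem k i hi
      rw [hPS] at hy
      have h6 := ((hAc _ i hi1).2.2.2.2.2.1 hy).1
      obtain ⟨h7, h8⟩ := h6
      simp only at h7 h8
      rw [← hρe] at h7 h8
      have e0 : ∀ i' : Fin 2, ![sg ρ (la0 (k1 k)), sg ρ (la1 (k1 k))] i' =
          sg ρ ((P (lj (k1 k)) i).a i') := by
        intro i'
        fin_cases i'
        · show sg ρ (la0 (k1 k)) = sg ρ ((P (lj (k1 k)) i).a 0)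
          rw [hi2]
        · show sg ρ (la1 (k1 k)) = sg ρ ((P (lj (k1 k)) i).a 1)
          rw [hi3]
      have e1 : ∀ i' : Fin 2, sg ρ ((P (lj (k1 k)) i).a i') ≤
          A * ![sg ρ (la0 (k1 k)), sg ρ (la1 (k1 k))] i' := by
        intro i'
        rw [e0]
        exact le_mul_of_one_le_left (hρ.trans_le (sg_ge hρ hρ1 _)).le (by linarith)
      have hc' : (Pl k i).c = (P (lj (k1 k)) i).c := by rw [hPl]
      have hb' : (Pl k i).b = (P (lj (k1 k)) i).b := by rw [hPl]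
      have hx' : (Pl k i).x = (P (lj (k1 k)) i).y := by rw [hPl]
      rw [hc', hb', hx']
      refine ⟨fun i' => ?_, fun i' => ?_⟩
      · rw [← hρe]
        exact (h7 i').trans (e1 i')
      · refine (h8 i').trans ?_
        have := e1 i'
        gcongr
    · intro i hi j hj hij _ m
      rw [hPS, hPS]
      have := hdis _ i (hmem k i hi).1 j (hmem k j hj).1 hij
      rw [Set.disjoint_left] at this ⊢
      exact fun y hy hy' => this hy hy'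
  · -- classes
    intro k hk i hi m y hy
    obtain ⟨hi1, hi2, hi3, hi4⟩ := hmem k i hi
    rw [hPS] at hy
    have h6 := ((hAc _ i hi1).2.2.2.2.2.1 hy).2
    have hb' : (Pl k i).b = (P (lj (k1 k)) i).b := by rw [hPl]
    rw [hb', ← hi4]
    exact h6
  · -- dense
    intro k hk i hi
    rw [← hρe, ← hg']
    simp only
    have h1 := hDkn k i hi
    have h3 := hΔj (lj (k1 k))
    have e1 := hs1 k
    have e2 := hs2 k
    rw [hDk]
    simp only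
    calc ENNReal.ofReal (Cp * (nb * (Δ0 / 2 ^ lj (k1 k))) *
          ((sg ρ (la1 (k1 k))) ^ q * (sg ρ (la0 (k1 k)) * sg ρ (la1 (k1 k)) * r ^ 2))) =
        ENNReal.ofReal (2 * Cp * nb) * ENNReal.ofReal (Δ0 / 2 ^ lj (k1 k) / 2 *
          ((sg ρ (la1 (k1 k))) ^ q * (sg ρ (la0 (k1 k)) * sg ρ (la1 (k1 k)) * r ^ 2))) := by
          rw [← ENNReal.ofReal_mul (by positivity)]
          congr 1
          ring
      _ ≤ _ := by
          refine mul_le_mul' (ENNReal.ofReal_le_ofReal ?_) h1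
          gcongr
  · -- energy
    intro k hk
    rw [← hρe, ← hg', ← hensum]
    exact (hselEn _ (hBsk k)).trans (mul_le_mul' (ENNReal.ofReal_le_ofReal hCCe) le_rfl)
  · -- D6
    intro k hk
    have h1 := hselEn _ (hBsk k)
    rw [hensum] at h1
    have hcase : ∀ i ∈ I k, ENNReal.ofReal (Real.sqrt (Δ0 / 2 ^ lj (k1 k)) * r) *
        en ρ g' (Pl k i).S ≤ ENNReal.ofReal (Real.sqrt 2) *
        (ENNReal.ofReal ((sg ρ (la1 (k1 k))) ^ (-q / 2)) *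
          (ENNReal.ofReal ((sg ρ (la0 (k1 k)) * sg ρ (la1 (k1 k)) * r ^ 3) ^ (-(1/2) : ℝ)) *
          (ENNReal.ofReal r * en ρ g' (Pl k i).S) ^ (3 / 2 : ℝ))) := by
      intro i hi
      refine d6_enn (hs1 k) (hs2 k) hr0 (hΔj _) ?_ (hDkn k i hi)
      refine ne_of_lt ((H3 ρ hρ hρ1 g' hgi hg2 _).trans_lt ?_)
      rw [lintEn hg2]
      exact ENNReal.mul_lt_top ENNReal.ofReal_lt_top ENNReal.ofReal_lt_top
    have h7 : SS (sel ρ g' (uS (I k) (Pl k))) r (Dk k) =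
        Real.sqrt Cp * Real.sqrt nb * ((Real.sqrt (Δ0 / 2 ^ lj (k1 k)) * r) *
          En (sel ρ g' (uS (I k) (Pl k)))) := by
      unfold SS
      rw [hDk]
      simp only
      rw [Real.sqrt_mul hCp0, Real.sqrt_mul hnb0.le]
      ring
    have hval : val h g r (sg ρ (la0 (k1 k))) (sg ρ (la1 (k1 k))) (I k) (Pl k) =
        ∑ i ∈ I k, (ENNReal.ofReal ((sg ρ (la0 (k1 k)) * sg ρ (la1 (k1 k)) * r ^ 3) ^
          (-(1/2) : ℝ)) * (ENNReal.ofReal r * en ρ g' (Pl k i).S) ^ (3 / 2 : ℝ)) := by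
      unfold val
      refine Finset.sum_congr rfl fun i hi => ?_
      have hz' : (Pl k i).z = z := by rw [hPl]
      rw [hz', ← hg', ← hρe]
    simp only
    rw [hval, h7, ENNReal.ofReal_mul (by positivity : 0 ≤ Real.sqrt Cp * Real.sqrt nb),
      ENNReal.ofReal_mul (by positivity : 0 ≤ Real.sqrt (Δ0 / 2 ^ lj (k1 k)) * r)]
    calc ENNReal.ofReal (Real.sqrt Cp * Real.sqrt nb) *
          (ENNReal.ofReal (Real.sqrt (Δ0 / 2 ^ lj (k1 k)) * r) *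
          ENNReal.ofReal (En (sel ρ g' (uS (I k) (Pl k))))) ≤
        ENNReal.ofReal (Real.sqrt Cp * Real.sqrt nb) *
          (ENNReal.ofReal (Real.sqrt (Δ0 / 2 ^ lj (k1 k)) * r) *
          (ENNReal.ofReal C2 * ∑ i ∈ I k, en ρ g' (Pl k i).S)) := by gcongr
      _ = ENNReal.ofReal C2 * ENNReal.ofReal (Real.sqrt Cp * Real.sqrt nb) * (∑ i ∈ I k,
          ENNReal.ofReal (Real.sqrt (Δ0 / 2 ^ lj (k1 k)) * r) * en ρ g' (Pl k i).S) := by
          rw [← Finset.mul_sum]; ring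
      _ ≤ ENNReal.ofReal C2 * ENNReal.ofReal (Real.sqrt Cp * Real.sqrt nb) * (∑ i ∈ I k,
          ENNReal.ofReal (Real.sqrt 2) * (ENNReal.ofReal ((sg ρ (la1 (k1 k))) ^ (-q / 2)) *
          (ENNReal.ofReal ((sg ρ (la0 (k1 k)) * sg ρ (la1 (k1 k)) * r ^ 3) ^ (-(1/2) : ℝ)) *
          (ENNReal.ofReal r * en ρ g' (Pl k i).S) ^ (3 / 2 : ℝ)))) := by
          exact mul_le_mul' le_rfl (Finset.sum_le_sum fun i hi => hcase i hi)
      _ = ENNReal.ofReal (C2 * (Real.sqrt Cp * Real.sqrt nb) * Real.sqrt 2) *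
          (ENNReal.ofReal ((sg ρ (la1 (k1 k))) ^ (-q / 2)) * ∑ i ∈ I k,
          (ENNReal.ofReal ((sg ρ (la0 (k1 k)) * sg ρ (la1 (k1 k)) * r ^ 3) ^ (-(1/2) : ℝ)) *
          (ENNReal.ofReal r * en ρ g' (Pl k i).S) ^ (3 / 2 : ℝ))) := by
          have hCs : ENNReal.ofReal (C2 * (Real.sqrt Cp * Real.sqrt nb) * Real.sqrt 2) =
              ENNReal.ofReal C2 * ENNReal.ofReal (Real.sqrt Cp * Real.sqrt nb) *
                ENNReal.ofReal (Real.sqrt 2) := by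
            rw [← ENNReal.ofReal_mul hC2, ← ENNReal.ofReal_mul (mul_nonneg hC2
              (mul_nonneg (Real.sqrt_nonneg _) (Real.sqrt_nonneg _)))]
          rw [← Finset.mul_sum, ← Finset.mul_sum, hCs]
          ring
      _ ≤ _ := by
          refine mul_le_mul' (ENNReal.ofReal_le_ofReal ?_) le_rfl
          calc C2 * (Real.sqrt Cp * Real.sqrt nb) * Real.sqrt 2 =
                C2 * Real.sqrt Cp * Real.sqrt 2 * Real.sqrt nb := by ring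
            _ ≤ C * nb := by gcongr
  · exact htm.sub (sel_cont hgi (hBs Y hYm hYX)).measurable
  · exact ⟨L + LY, fun ξ => (norm_sub_le _ _).trans (add_le_add (htb ξ) (hLY ξ))⟩
  · intro ξ hξ
    rw [hts ξ hξ, hsupp _ ξ (by linarith), sub_zero]
  · refine (En_sub_le hg2 (sel_int hρ hgi (hBs Y hYm hYX)).2).trans ?_
    have h1 := hselEn' _ (hBs Y hYm hYX)
    rw [hEn] at h1 ⊢
    have h2 := En_nn g
    calc 2 * En g + 2 * En (sel ρ g' (sli Y)) ≤ 2 * En g + 2 * (C2 * C3 * En g) := by gcongr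
      _ = (2 + 2 * (C2 * C3)) * En g := by ring
      _ ≤ C * En g := by gcongr
  · -- the rest is small
    intro p hp1 hp2
    have h1 : (fun ξ => g' ξ - sel ρ g' (sli Y) ξ) =
        fun ξ => g' ξ - sel ρ g' (sli X0) ξ + sel ρ g' (sli (X J)) ξ := by
      funext ξ
      rw [hsum2 ξ]
      ring
    have hBJ := hBs (X J) (hXm J) (hXX0 J)
    have hB0 := hBs X0 hX0m (Set.Subset.refl _)
    rw [h1, ext_lin hhc hgi (sel_int hρ hgi hB0).1 (sel_int hρ hgi hBJ).1]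
    have hRM : 0 < R ^ (-(M : ℝ)) := Real.rpow_pos_of_pos hR0 _
    have e0 : R ^ (-(M : ℝ)) = (R ^ M)⁻¹ := by
      rw [Real.rpow_neg hR0.le, Real.rpow_natCast]
    -- first part
    have h2 := H4 h hSt.par hSt.h1 r hr1 g' hgi hg2 hts (sli X0) (by rw [← hρe]; exact hB0) (by
      intro m hm y hy
      rw [← hρe] at hm
      rw [Metric.mem_closedBall, dist_zero_right, ← hK] at hy
      exact ⟨hm, hy⟩) p.1 p.2 hp1 hp2
    rw [← hρe, lintEn hg2, hEn, ← ENNReal.ofReal_mul (by positivity)] at h2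
    have h3 := norm_le_of_enorm_sq (mul_nonneg (by positivity) (En_nn g)) h2
    have hrM : R ^ M ≤ r ^ (2 * M) := by
      have h4 : R ≤ r ^ 2 := by
        calc R = (R ^ (1/2 : ℝ)) ^ 2 := by
              rw [← Real.rpow_natCast, ← Real.rpow_mul hR0.le]; norm_num
          _ ≤ r ^ 2 := by gcongr
      rw [pow_mul]
      gcongr
    have h4 : ‖ext h g' p.1 p.2 - ext h (sel ρ g' (sli X0)) p.1 p.2‖ ≤
        Real.sqrt C4 * R ^ (-(M : ℝ)) * Real.sqrt (En g) := by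
      refine h3.trans ?_
      have e1 : C4 * (r ^ (2 * (2 * M)))⁻¹ * En g = C4 * (((r ^ (2 * M))⁻¹) ^ 2 * En g) := by
        rw [mul_comm 2 (2 * M), pow_mul, inv_pow]; ring
      rw [e1, Real.sqrt_mul hC4, Real.sqrt_mul (by positivity), Real.sqrt_sq (by positivity),
        ← mul_assoc, e0]
      gcongr
    -- second part
    have h5 := H5 h (sel ρ g' (sli (X J))) (sel_int hρ hgi hBJ).2
      (fun ξ hξ => hsupp _ ξ (by linarith)) p.1 p.2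
    have h6 := hselD (sli (X J)) J hBJ (fun m _ => Set.Subset.refl _)
    have h7 : C2 * (N7 * (nb * (Δ0 / 2 ^ J) * r ^ 2)) ≤
        nb ^ 2 * (C2 * (N7 * C3) * (((R ^ M)⁻¹) ^ 2 * En g)) := by
      have e2 : r ^ (q / 2) ≤ R ^ ⌈q / 2⌉₊ := by
        calc r ^ (q / 2) ≤ R ^ (q / 2) := Real.rpow_le_rpow hr0.le hrR (by positivity)
          _ ≤ R ^ ((⌈q / 2⌉₊ : ℕ) : ℝ) := Real.rpow_le_rpow_of_exponent_le hR (Nat.le_ceil _)
          _ = _ := Real.rpow_natCast _ _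
      have e3 : r ^ 2 ≤ R ^ 2 := by gcongr
      have e4 : r ^ (q / 2) * r ^ 2 / 2 ^ J ≤ ((R ^ M)⁻¹) ^ 2 := by
        rw [inv_pow, div_le_iff₀ (by positivity), ← div_eq_inv_mul, le_div_iff₀ (by positivity)]
        calc r ^ (q / 2) * r ^ 2 * (R ^ M) ^ 2 ≤ R ^ ⌈q / 2⌉₊ * R ^ 2 * (R ^ M) ^ 2 := by gcongr
          _ = R ^ T := by rw [hT]; ring
          _ ≤ 2 ^ J := hJR
      have h8 := En_nn g
      have h9 : (nb:ℝ) ≤ nb ^ 2 := le_self_pow₀ hnb' two_ne_zero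
      rw [hΔ0, hE0, hEn]
      calc C2 * (N7 * (nb * (C3 * En g * r ^ (q / 2) / 2 ^ J) * r ^ 2)) =
          nb * (C2 * (N7 * C3) * (r ^ (q / 2) * r ^ 2 / 2 ^ J * En g)) := by ring
        _ ≤ _ := by gcongr
    have h8 : ‖ext h (sel ρ g' (sli (X J))) p.1 p.2‖ ≤
        C5 * Real.sqrt (C2 * (N7 * C3)) * (nb * (R ^ (-(M : ℝ)) * Real.sqrt (En g))) := by
      refine h5.trans ?_
      have h9 : Real.sqrt (En (sel ρ g' (sli (X J)))) ≤
          Real.sqrt (C2 * (N7 * C3)) * (nb * (R ^ (-(M : ℝ)) * Real.sqrt (En g))) := by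
        refine (Real.sqrt_le_sqrt (h6.trans h7)).trans (le_of_eq ?_)
        rw [Real.sqrt_mul (by positivity : (0:ℝ) ≤ nb ^ 2), Real.sqrt_sq hnb0.le,
          Real.sqrt_mul (by positivity : 0 ≤ C2 * (N7 * C3)),
          Real.sqrt_mul (by positivity : 0 ≤ ((R ^ M)⁻¹) ^ 2), Real.sqrt_sq (by positivity), e0]
        ring
      calc C5 * Real.sqrt (En (sel ρ g' (sli (X J)))) ≤
          C5 * (Real.sqrt (C2 * (N7 * C3)) * (nb * (R ^ (-(M : ℝ)) * Real.sqrt (En g)))) := by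
            gcongr
        _ = _ := by ring
    have h10 : Real.sqrt C4 * R ^ (-(M : ℝ)) * Real.sqrt (En g) ≤
        Real.sqrt C4 * (nb * (R ^ (-(M : ℝ)) * Real.sqrt (En g))) := by
      have h11 : 0 ≤ R ^ (-(M : ℝ)) * Real.sqrt (En g) := by positivity
      have h12 : R ^ (-(M : ℝ)) * Real.sqrt (En g) ≤ nb * (R ^ (-(M : ℝ)) * Real.sqrt (En g)) :=
        le_mul_of_one_le_left h11 hnb'
      rw [mul_assoc]
      gcongr
    calc ‖ext h g' p.1 p.2 - ext h (sel ρ g' (sli X0)) p.1 p.2 +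
          ext h (sel ρ g' (sli (X J))) p.1 p.2‖ ≤
        Real.sqrt C4 * (nb * (R ^ (-(M : ℝ)) * Real.sqrt (En g))) +
          C5 * Real.sqrt (C2 * (N7 * C3)) * (nb * (R ^ (-(M : ℝ)) * Real.sqrt (En g))) :=
          (norm_add_le _ _).trans (add_le_add (h4.trans h10) h8)
      _ = (Real.sqrt C4 + C5 * Real.sqrt (C2 * (N7 * C3))) * nb * R ^ (-(M : ℝ)) *
          Real.sqrt (En g) := by ring
      _ ≤ _ := by gcongr

/-- **DECc holds**. -/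
theorem decc_holds (B : ℕ → ℝ) {q : ℝ} (hq : 0 ≤ q) :
    ∃ A0 : ℝ, ∀ A, A0 ≤ A → W188.DECc B q A := by
  obtain ⟨C1, hC1, H1⟩ := pbox_sel B q
  obtain ⟨C2, hC2, H2⟩ := sel_energy
  obtain ⟨C3, hC3, H3⟩ := en_le
  obtain ⟨C5, hC5, H5⟩ := sup_ext
  set K : ℝ := 1 + 8 + 4 * 8 * (1 + |B 2|) with hK
  refine ⟨K + 3, fun A hA ε hε Na M0 M => ?_⟩
  obtain ⟨C4, hC4, H4⟩ := rest_small B 8 (by norm_num) (2 * M)
  set N7 : ℝ := ((NB (B 2) K : ℕ) : ℝ) with hN7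
  have hN70 : 0 ≤ N7 := by rw [hN7]; positivity
  set Cp : ℝ := (C1 + 1) * 2 ^ (q + 2) + C2 * N7 with hCp
  have hCp0 : 0 ≤ Cp := by rw [hCp]; positivity
  obtain ⟨C6, hC6, H6⟩ := card_bound hε (2 * M + ⌈q / 2⌉₊ + 2)
  have t1 : 0 ≤ C2 * Real.sqrt Cp * Real.sqrt 2 := by positivity
  have t2 : 0 ≤ 2 + 2 * (C2 * C3) := by positivity
  have t3 : 0 ≤ Real.sqrt C4 + C5 * Real.sqrt (C2 * (N7 * C3)) := by positivity
  have t4 : 0 ≤ C5 * 1296 ^ M := by positivity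
  refine ⟨C6 + 2 * Cp + C2 + C2 * Real.sqrt Cp * Real.sqrt 2 + (2 + 2 * (C2 * C3)) +
    (Real.sqrt C4 + C5 * Real.sqrt (C2 * (N7 * C3))) + (1 + C5 * 1296 ^ M), by positivity, ?_⟩
  intro R r hR hRr hrR nb hnb
  by_cases hr36 : r < 36
  · exact small_caseM hC5 H5 hε (by linarith) (by linarith) hR hRr hr36 hnb
  · push Not at hr36
    exact big_caseM hq hC1 hC2 hC3 hC4 hC5 hC6 H1 H2 H3 H4 H5 hε H6 hK hN7 hCp hA
      (by linarith) (by linarith) (by linarith) (by linarith) (by linarith) (by linarith)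
      hR hRr hrR hr36 hnb

end Crest.Agent.R138.Wpk685
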