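import Crest.Agent.R138.Gl_210
import Crest.Agent.R138.Wpk14_685

/-!
# R138 / R139: WAVE side, existence of the levels of the class chain (helper685): EX1P, EXP of
Gl_210 from DECc.
-/

set_option autoImplicit false
set_option linter.unusedSectionVars false
set_option linter.unusedVariables false

open MeasureTheory FourierTransform
open scoped ContDiff ENNReal

namespace Crest.Agent.R138.Ex685

open Crest.Agent.R138.Defs Crest.Agent.R138.Bil882 Crest.Agent.R138.W188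
open Crest.Agent.R138.Wpk685 Crest.Agent.R138.Gl210 Crest.Agent.R138.Dom878

/-! ### renumbering of the labels -/

theorem lbl_inj {Λ : Finset ℕ} {i j : ℕ} (hi : i < Λ.card) (hj : j < Λ.card)
    (h : lbl Λ i = lbl Λ j) : i = j := by
  unfold lbl at h
  have h1 : i < (Λ.sort (· ≤ ·)).length := by rwa [Finset.length_sort]
  have h2 : j < (Λ.sort (· ≤ ·)).length := by rwa [Finset.length_sort]
  rw [List.getD_eq_getElem _ _ h1, List.getD_eq_getElem _ _ h2] at h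
  exact (List.Nodup.getElem_inj_iff (Finset.sort_nodup Λ (· ≤ ·))).1 h

theorem sum_lbl {Λ : Finset ℕ} {α : Type*} [AddCommMonoid α] (f : ℕ → α) :
    ∑ i ∈ Finset.range Λ.card, f (lbl Λ i) = ∑ k ∈ Λ, f k := by
  have h1 : Λ = (Finset.range Λ.card).image (lbl Λ) := by
    ext k
    rw [Finset.mem_image]
    constructor
    · intro hk
      obtain ⟨i, hi, h⟩ := lbl_surj hk
      exact ⟨i, Finset.mem_range.2 hi, h⟩
    · rintro ⟨i, hi, rfl⟩
      exact lbl_mem (Finset.mem_range.1 hi)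
  conv_rhs => rw [h1]
  rw [Finset.sum_image]
  intro i hi j hj h
  exact lbl_inj (Finset.mem_range.1 hi) (Finset.mem_range.1 hj) h

/-- extension by a dummy value. -/
noncomputable def ex {α : Type*} (Λ : Finset ℕ) (f : ℕ → α) (d : α) (i : ℕ) : α :=
  open Classical in if i < Λ.card then f (lbl Λ i) else d

theorem ex_lt {α : Type*} {Λ : Finset ℕ} {f : ℕ → α} {d : α} {i : ℕ} (hi : i < Λ.card) :
    ex Λ f d i = f (lbl Λ i) := by
  unfold ex
  rw [if_pos hi]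

theorem ex_ge {α : Type*} {Λ : Finset ℕ} {f : ℕ → α} {d : α} {i : ℕ} (hi : ¬ i < Λ.card) :
    ex Λ f d i = d := by
  unfold ex
  rw [if_neg hi]

/-- the dummy plate. -/
noncomputable def p0 : Plate := ⟨0, 0, EuclideanSpace.basisFun (Fin 2) ℝ, 0, fun _ => ∅⟩

theorem sel_empty {ρ : ℝ} {g : E2 → ℂ} {S : ℤ × ℤ → Set E2} (hS : ∀ m, S m = ∅) :
    sel ρ g S = fun _ => 0 := by
  funext ξ
  unfold sel
  refine Finset.sum_eq_zero fun m _ => ?_
  unfold piece
  rw [hS m, Set.indicator_empty, fourier_eq_int]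
  simp

theorem en_empty {ρ : ℝ} {g : E2 → ℂ} {S : ℤ × ℤ → Set E2} (hS : ∀ m, S m = ∅) :
    en ρ g S = 0 := by
  unfold en
  refine Finset.sum_eq_zero fun m _ => ?_
  rw [hS m]
  simp

theorem PBox_zero {q : ℝ} {Na : ℕ} {h : E2 → ℝ} {R D : ℝ} :
    PBox q Na h (fun _ => 0) R D := by
  intro c b s hs ψ hψ x0 t0 hx ht
  have : ∀ p : E2 × ℝ, ‖ext h (fun ξ => (0:ℂ) * chi h c b s ψ ξ) p.1 p.2‖ₑ ^ 2 = 0 := by
    intro p
    unfold Defs.ext
    simp
  simp only [this, lintegral_zero]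
  exact zero_le

theorem decOut_mono {q A σ C Cn : ℝ} {B : ℕ → ℝ} {nb M : ℕ} {h : E2 → ℝ} {g : E2 → ℂ} {R r : ℝ}
    {z : E2 × ℝ} {cls : OrthonormalBasis (Fin 2) ℝ E2 → ℤ × ℤ → E2 → ℕ}
    {Λ : Finset ℕ} {s : ℕ → ℝ × ℝ} {cl : ℕ → ℕ}
    {G : ℕ → E2 → ℂ} {D' : ℕ → ℝ} {rest : E2 → ℂ} {I : ℕ → Finset ℕ} {P : ℕ → ℕ → Plate}
    (hR : 1 ≤ R) (hC : C ≤ Cn)
    (H : DecOut q A σ C B nb M h g R r z cls Λ s cl G D' rest I P) :
    DecOut q A σ Cn B nb M h g R r z cls Λ s cl G D' rest I P := by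
  have hnb : (0:ℝ) ≤ nb := Nat.cast_nonneg _
  have hRM : 0 ≤ R ^ (-(M : ℝ)) := Real.rpow_nonneg (by linarith) _
  refine { sum := H.sum, eq := H.eq, st := H.st, sub := H.sub, dens := H.dens, bd := H.bd,
           cp := H.cp, disj := H.disj, pl := H.pl, cls := H.cls, dense := ?_, energy := ?_,
           ss := ?_, rmeas := H.rmeas, rbdd := H.rbdd, rsupp := H.rsupp, ren := ?_, small := ?_ }
  · intro k hk i hi
    refine (H.dense k hk i hi).trans (mul_le_mul' (ENNReal.ofReal_le_ofReal ?_) le_rfl)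
    gcongr
  · intro k hk
    exact (H.energy k hk).trans (mul_le_mul' (ENNReal.ofReal_le_ofReal hC) le_rfl)
  · intro k hk
    refine (H.ss k hk).trans (mul_le_mul' (ENNReal.ofReal_le_ofReal ?_) le_rfl)
    gcongr
  · exact H.ren.trans (mul_le_mul_of_nonneg_right hC (En_nn g))
  · intro p h1 h2
    refine (H.small p h1 h2).trans ?_
    gcongr

/-- renumbered output, labels `0, .., #Λ` (the last one is a dummy label). -/
theorem decOut_renum {q A σ C : ℝ} {B : ℕ → ℝ} {nb M : ℕ} {h : E2 → ℝ} {g : E2 → ℂ} {R r : ℝ}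
    {z : E2 × ℝ} {cls : OrthonormalBasis (Fin 2) ℝ E2 → ℤ × ℤ → E2 → ℕ}
    {Λ : Finset ℕ} {s : ℕ → ℝ × ℝ} {cl : ℕ → ℕ}
    {G : ℕ → E2 → ℂ} {D' : ℕ → ℝ} {rest : E2 → ℂ} {I : ℕ → Finset ℕ} {P : ℕ → ℕ → Plate}
    (hr : 1 ≤ r) (hpar : ParB B h) (h0 : h 0 = 0) (h1 : fderiv ℝ h 0 = 0)
    (H : DecOut q A σ C B nb M h g R r z cls Λ s cl G D' rest I P) :
    DecOut q A σ C B nb M h g R r z cls (Finset.range (Λ.card + 1)) (ex Λ s (1, 1)) (ex Λ cl 0)
      (ex Λ G (fun _ => 0)) (ex Λ D' 0) rest (ex Λ I ∅) (ex Λ P (fun _ => p0)) := by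
  have hU0 : ∀ m, uS (∅ : Finset ℕ) (fun _ => p0) m = ∅ := fun m => by simp [uS]
  have key : ∀ k ∈ Finset.range (Λ.card + 1), ¬ k < Λ.card → k = Λ.card := fun k hk h2 => by
    have := Finset.mem_range.1 hk
    omega
  refine { sum := ?_, eq := ?_, st := ?_, sub := ?_, dens := ?_, bd := ?_,
           cp := ?_, disj := ?_, pl := ?_, cls := ?_, dense := ?_, energy := ?_,
           ss := ?_, rmeas := H.rmeas, rbdd := H.rbdd, rsupp := H.rsupp, ren := H.ren,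
           small := H.small }
  · intro ξ
    rw [H.sum ξ, Finset.sum_range_succ, ex_ge (lt_irrefl _), add_zero, ← sum_lbl]
    congr 1
    refine Finset.sum_congr rfl fun i hi => ?_
    rw [ex_lt (Finset.mem_range.1 hi)]
  · intro k hk
    by_cases hc : k < Λ.card
    · simp only [ex_lt hc]
      exact H.eq _ (lbl_mem hc)
    · simp only [ex_ge hc]
      exact (sel_empty hU0).symm
  · intro k hk
    by_cases hc : k < Λ.card
    · simp only [ex_lt hc]
      exact H.st _ (lbl_mem hc)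
    · simp only [ex_ge hc]
      refine ⟨hpar, h0, h1, measurable_const, ⟨0, by simp⟩, fun _ _ => rfl, hr, le_rfl,
        PBox_zero, ?_⟩
      simp [En]
  · intro k hk S' hS' hS
    by_cases hc : k < Λ.card
    · simp only [ex_lt hc] at hS ⊢
      exact H.sub _ (lbl_mem hc) S' hS' hS
    · simp only [ex_ge hc] at hS ⊢
      have h2 : ∀ m, S' m = ∅ := fun m => Set.eq_empty_of_subset_empty ((hS m).trans (hU0 m).le)
      rw [sel_empty h2]
      exact PBox_zero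
  · intro k hk
    by_cases hc : k < Λ.card
    · simp only [ex_lt hc]
      exact H.dens _ (lbl_mem hc)
    · simp only [ex_ge hc]
      intro c b s y0 hs
      rw [en_empty]
      · exact zero_le
      · intro m
        rw [hU0, Set.empty_inter]
  · intro k hk m
    by_cases hc : k < Λ.card
    · simp only [ex_lt hc]
      exact H.bd _ (lbl_mem hc) m
    · simp only [ex_ge hc]
      rw [hU0]
      exact Set.empty_subset _
  · intro k hk m hm
    by_cases hc : k < Λ.card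
    · simp only [ex_lt hc]
      exact H.cp _ (lbl_mem hc) m hm
    · simp only [ex_ge hc]
      exact hU0 m
  · intro k hk k' hk' hne m
    by_cases hc : k < Λ.card
    · by_cases hc' : k' < Λ.card
      · simp only [ex_lt hc, ex_lt hc']
        exact H.disj _ (lbl_mem hc) _ (lbl_mem hc') (fun h2 => hne (lbl_inj hc hc' h2)) m
      · simp only [ex_ge hc']
        rw [hU0]
        exact Set.disjoint_empty _
    · simp only [ex_ge hc]
      rw [hU0]
      exact Set.empty_disjoint _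
  · intro k hk
    by_cases hc : k < Λ.card
    · simp only [ex_lt hc]
      exact H.pl _ (lbl_mem hc)
    · simp only [ex_ge hc]
      exact ⟨⟨by simp, by simp, by simp, by simp, by simp, by simp⟩, by simp⟩
  · intro k hk
    by_cases hc : k < Λ.card
    · simp only [ex_lt hc]
      exact H.cls _ (lbl_mem hc)
    · simp only [ex_ge hc]
      simp
  · intro k hk
    by_cases hc : k < Λ.card
    · simp only [ex_lt hc]
      exact H.dense _ (lbl_mem hc)
    · simp only [ex_ge hc]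
      simp
  · intro k hk
    by_cases hc : k < Λ.card
    · simp only [ex_lt hc]
      exact H.energy _ (lbl_mem hc)
    · simp only [ex_ge hc]
      simp [En]
  · intro k hk
    by_cases hc : k < Λ.card
    · simp only [ex_lt hc]
      exact H.ss _ (lbl_mem hc)
    · simp only [ex_ge hc]
      simp [SS, En]

/-- **DECc with labels `0, .., n-1`.** -/
theorem decr {B : ℕ → ℝ} {q A : ℝ} (hD : DECc B q A) :
    ∀ ε : ℝ, 0 < ε → ∀ (Na : ℕ) (M0 : ℝ) (M : ℕ), ∃ C : ℝ, 1 ≤ C ∧ ∀ R r : ℝ, 1 ≤ R →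
    R ^ (1/2 : ℝ) ≤ r → r ≤ R → ∀ nb : ℕ, 1 ≤ nb →
    ∃ (n : ℕ) (s : ℕ → ℝ × ℝ) (cl : ℕ → ℕ), 1 ≤ n ∧ (n : ℝ) ≤ C * R ^ ε * nb ∧
      (∀ k < n, Sd r (s k).1 (s k).2) ∧ (∀ k, cl k < nb) ∧
      ∀ σ h g D, σ ≤ 3/2 → St B q Na M0 σ h g R D → ∀ z ∈ cyl R,
        ∀ cls : OrthonormalBasis (Fin 2) ℝ E2 → ℤ × ℤ → E2 → ℕ,
          (∀ b m, Measurable (cls b m)) → (∀ b m y, cls b m y < nb) →
          ∃ (G : ℕ → E2 → ℂ) (D' : ℕ → ℝ) (rest : E2 → ℂ) (I : ℕ → Finset ℕ)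
            (P : ℕ → ℕ → Plate),
            DecOut q A σ C B nb M h g R r z cls (Finset.range n) s cl G D' rest I P := by
  intro ε hε Na M0 M
  obtain ⟨C, hC, H⟩ := hD ε hε Na M0 M
  refine ⟨C + 1, by linarith, ?_⟩
  intro R r hR hRr hrR nb hnb
  obtain ⟨Λ, s, cl, hcard, hSd, hcl, H2⟩ := H R r hR hRr hrR nb hnb
  have hR0 : 0 < R := by linarith
  have hr1 : 1 ≤ r := le_trans (Real.one_le_rpow hR (by norm_num)) hRr
  have hRe : 1 ≤ R ^ ε := Real.one_le_rpow hR hε.le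
  have hnb' : (1:ℝ) ≤ nb := by exact_mod_cast hnb
  refine ⟨Λ.card + 1, ex Λ s (1, 1), ex Λ cl 0, by omega, ?_, ?_, ?_, ?_⟩
  · push_cast
    have h1 : 1 ≤ R ^ ε * nb := by nlinarith
    calc (Λ.card : ℝ) + 1 ≤ C * R ^ ε * nb + R ^ ε * nb := by linarith
      _ = _ := by ring
  · intro k hk
    by_cases hc : k < Λ.card
    · rw [ex_lt hc]
      exact hSd _ (lbl_mem hc)
    · rw [ex_ge hc]
      exact ⟨Real.rpow_le_one_of_one_le_of_nonpos hr1 (by norm_num), le_rfl, le_rfl⟩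
  · intro k
    by_cases hc : k < Λ.card
    · rw [ex_lt hc]
      exact hcl _ (lbl_mem hc)
    · rw [ex_ge hc]
      omega
  · intro σ h g D hσ hSt z hz cls hm hb
    obtain ⟨G, D', rest, I, P, H3⟩ := H2 σ h g D hσ hSt z hz cls hm hb
    exact ⟨_, _, _, _, _, decOut_mono hR (by linarith)
      (decOut_renum hr1 hSt.par hSt.h0 hSt.h1 H3)⟩

instance : Nonempty Plate := ⟨p0⟩

/-- **existence of a level** with a given family of class functions. -/
theorem lev_exists {B : ℕ → ℝ} {q A : ℝ} (hD : DECc B q A) :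
    ∀ ε : ℝ, 0 < ε → ∀ (Na : ℕ) (M0 : ℝ) (M : ℕ), ∃ C : ℝ, 1 ≤ C ∧
    ∀ h g R D, St B q Na M0 (1/2) h g R D → ∀ r' : ℝ, R ^ (1/2 : ℝ) ≤ r' → r' ≤ R →
    ∀ nb : ℕ, 1 ≤ nb → ∀ cls : E2 × ℝ → OrthonormalBasis (Fin 2) ℝ E2 → ℤ × ℤ → E2 → ℕ,
      (∀ z ∈ cyl R, ∀ b m, Measurable (cls z b m)) → (∀ z b m y, cls z b m y < nb) →
      ∀ nn : ℕ, ∃ L' : Lev, L'.r = r' ∧ LevOk q A (1/2) C B M h g R L' ∧ L'.nb = nb ∧
        (L'.n : ℝ) ≤ C * R ^ ε * nb ∧ (∀ k, L'.cl k < nb) ∧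
        (∀ k, L'.par k = L'.cl k % nn) ∧ (∀ k, L'.ac k = L'.cl k / nn) ∧
        ∀ z ∈ L'.Z, ∀ k < L'.n, ∀ i ∈ L'.I z k, ∀ m, ∀ y ∈ (L'.P z k i).S m,
          cls z (L'.P z k i).b m y = L'.cl k := by
  classical
  intro ε hε Na M0 M
  obtain ⟨C, hC, H⟩ := decr hD ε hε Na M0 M
  refine ⟨C, hC, ?_⟩
  intro h g R D hSt r' hRr hrR nb hnb cls hm hb nn
  have hR := hSt.R1
  have hr1 : 1 ≤ r' := le_trans (Real.one_le_rpow hR (by norm_num)) hRr
  have hr0 : 0 < r' := by linarith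
  obtain ⟨n, s, cl, hn1, hn, hSd, hcl, H2⟩ := H R r' hR hRr hrR nb hnb
  obtain ⟨Z, hZ1, hZ2, hZ3, -⟩ := W323.exists_net hr0 hrR
  have H3 : ∀ z, z ∈ Z → ∃ (G : ℕ → E2 → ℂ) (D' : ℕ → ℝ) (rest : E2 → ℂ) (I : ℕ → Finset ℕ)
            (P : ℕ → ℕ → Plate),
            DecOut q A (1/2) C B nb M h g R r' z (cls z) (Finset.range n) s cl G D' rest I P :=
    fun z hz => H2 (1/2) h g D (by norm_num) hSt z (hZ1 z hz) (cls z) (hm z (hZ1 z hz)) (hb z)
  choose! G D' rest I P H4 using H3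
  have H5 : ∀ p, p ∈ cyl R → ∃ z, z ∈ Z ∧ p - z ∈ cyl r' := fun p hp => by
    obtain ⟨z, hz, h1⟩ := hZ3 p hp
    exact ⟨z, hz, h1⟩
  choose! ζ hζ using H5
  refine ⟨⟨r', n, nb, s, cl, fun k => cl k % nn, fun k => cl k / nn, Z, ζ, G, D', rest, I, P⟩,
    rfl, ?_, rfl, hn, hcl, fun _ => rfl, fun _ => rfl, ?_⟩
  · exact { lo := hRr, hi := hrR, n1 := hn1, nb1 := hnb, Zmem := hZ1, Zsep := hZ2, near := hζ,
            sd := hSd, dec := fun z hz => ⟨cls z, H4 z hz⟩ }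
  · intro z hz k hk i hi m y hy
    exact (H4 z hz).cls k (Finset.mem_range.2 hk) i hi m y hy

/-- **EX1P holds**. -/
theorem ex1p {B : ℕ → ℝ} {q A : ℝ} (hD : DECc B q A) : EX1P B q A := by
  intro ε hε Na M0 M
  obtain ⟨C, hC, H⟩ := lev_exists hD ε hε Na M0 M
  refine ⟨C, hC, ?_⟩
  intro h g R D hSt r' hRr hrR
  obtain ⟨L', h1, h2, h3, h4, _⟩ := H h g R D hSt r' hRr hrR 1 le_rfl (fun _ _ _ _ => 0)
    (fun _ _ _ _ => measurable_const) (fun _ _ _ _ => by simp) 1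
  refine ⟨L', h1, h2, h3, ?_⟩
  simpa using h4

/-- **EXP holds**. -/
theorem exp_holds {B : ℕ → ℝ} {q A : ℝ} (hD : DECc B q A) : EXP B q A := by
  intro ε hε Na M0 M
  obtain ⟨C, hC, H⟩ := lev_exists hD ε hε Na M0 M
  refine ⟨C, hC, ?_⟩
  intro h g R D hSt L Cn' hL h36 r' hRr hrR na aux hna hax hmx
  have hR := hSt.R1
  have hLn : 0 < L.n := hL.n1
  set ρ' : ℝ := r' ^ (-(1/2) : ℝ) with hρ'
  set ar : E2 × ℝ → ℤ × ℤ → E2 → ℕ := fun z m y =>
    argi ρ' (L.pf h z) (Finset.range L.n) m y with har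
  have harlt : ∀ z m y, ar z m y < L.n := fun z m y =>
    argi_lt _ _ hLn (by rw [Finset.card_range]) m y
  have hpf : ∀ z ∈ cyl R, ∀ κ ∈ Finset.range L.n, Integrable (L.pf h z κ) := by
    intro z hz κ hκ
    obtain ⟨cls, hdec⟩ := hL.dec _ (hL.near z hz).1
    have h1 := hdec.st κ hκ
    have h2 : Gd (L.G (L.ζ z) κ) := by
      refine ⟨h1.meas, h1.bdd, fun ξ hξ => h1.supp ξ ?_⟩
      have h3 : L.r ^ (-(1/2) : ℝ) ≤ 1 :=
        Real.rpow_le_one_of_one_le_of_nonpos (by linarith) (by norm_num)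
      have h4 : L.r ^ (-(1/2) : ℝ) ≤ 1 / 6 := by
        refine le_of_sq_le_sq ?_ (by norm_num)
        rw [(rp_facts (by linarith : (1:ℝ) ≤ L.r)).2.2, inv_eq_one_div, div_le_iff₀ (by linarith)]
        linarith
      linarith
    exact (W323.Gd.tr h1.par.1.continuous h2 _).int
  obtain ⟨L', h1, h2, h3, h4, h5, h6, h7, h8⟩ := H h g R D hSt r' hRr (hrR.trans hL.hi)
    (L.n * na) (Nat.mul_pos hLn hna) (fun z b m y => ar z m y + L.n * aux z b m y)
    (fun z hz b m => by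
      refine Measurable.add ?_ ((hmx z b m).const_mul _)
      exact measurable_argi (hpf z hz) m)
    (fun z b m y => by
      have e1 := harlt z m y
      have e2 := hax z b m y
      have e3 : L.n * (aux z b m y + 1) ≤ L.n * na := Nat.mul_le_mul_left _ e2
      rw [Nat.mul_add, Nat.mul_one] at e3
      omega) L.n
  refine ⟨L', h1, h2, ⟨?_, ?_, ?_⟩, h3, ?_, ?_⟩
  · intro k hk
    rw [h6]
    exact Nat.mod_lt _ hLn
  · intro z hz k hk i hi m y hy
    have e1 := h8 z hz k hk i hi m y hy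
    rw [h6, ← e1, h1]
    rw [Nat.add_mul_mod_self_left, Nat.mod_eq_of_lt (harlt z m y)]
  · intro z hz k hk i hi m y hy
    have e1 := h8 z hz k hk i hi m y hy
    rw [h7, ← e1]
    rw [Nat.add_mul_div_left _ _ hLn, Nat.div_eq_of_lt (harlt z m y), Nat.zero_add]
  · intro k
    rw [h7]
    exact Nat.div_lt_of_lt_mul (h5 k)
  · rw [h3]
    exact h4

end Crest.Agent.R138.Ex685
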