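import Crest.Agent.R138.ExtDef_188

/-!
# R138 / R139: WAVE side (helper628): `EX1P ∧ EXP ∧ STEPP ⟹ EXT`

Recursion along the tower of levels `r_s = R dl^(j0 - 1 + s)`, `s = 0, .., n + 1` (the level `s = 0`
is the grandparent which the slab step needs); the tower is the part `s ≥ 1`.
-/

set_option autoImplicit false

open MeasureTheory FourierTransform
open scoped ContDiff ENNReal

namespace Crest.Agent.R138.ExtB628

open Crest.Agent.R138.Defs Crest.Agent.R138.Bil882 Crest.Agent.R138.Wpk685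
  Crest.Agent.R138.W188 Crest.Agent.R138.Gl210 Crest.Agent.R138.Chn188

/-- `DecOut` is monotone in the constant and antitone in the order of the tail. -/
theorem DecOut.mono {q A σ Cn Cn' : ℝ} {B : ℕ → ℝ} {nb M M' : ℕ} {h : E2 → ℝ} {g : E2 → ℂ}
    {R r : ℝ} {z : E2 × ℝ} {cls : OrthonormalBasis (Fin 2) ℝ E2 → ℤ × ℤ → E2 → ℕ}
    {Λ : Finset ℕ} {s : ℕ → ℝ × ℝ} {cl : ℕ → ℕ} {G : ℕ → E2 → ℂ} {D' : ℕ → ℝ} {rest : E2 → ℂ}
    {I : ℕ → Finset ℕ} {P : ℕ → ℕ → Plate} (hR : 1 ≤ R) (hC : 0 ≤ Cn) (hCC : Cn ≤ Cn') (hM : M' ≤ M)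
    (H : DecOut q A σ Cn B nb M h g R r z cls Λ s cl G D' rest I P) :
    DecOut q A σ Cn' B nb M' h g R r z cls Λ s cl G D' rest I P := by
  have hnb : (0 : ℝ) ≤ nb := Nat.cast_nonneg nb
  have h1 : Cn * nb ≤ Cn' * nb := mul_le_mul_of_nonneg_right hCC hnb
  refine
    { sum := H.sum
      eq := H.eq
      st := H.st
      sub := H.sub
      dens := H.dens
      bd := H.bd
      cp := H.cp
      disj := H.disj
      pl := H.pl
      cls := H.cls
      dense := fun k hk i hi => (H.dense k hk i hi).trans (mul_le_mul_left (ENNReal.ofReal_le_ofReal h1) _)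
      energy := fun k hk => (H.energy k hk).trans
        (mul_le_mul_left (ENNReal.ofReal_le_ofReal hCC) _)
      ss := fun k hk => (H.ss k hk).trans (mul_le_mul_left (ENNReal.ofReal_le_ofReal h1) _)
      rmeas := H.rmeas
      rbdd := H.rbdd
      rsupp := H.rsupp
      ren := H.ren.trans (mul_le_mul_of_nonneg_right hCC (En_nonneg g))
      small := fun p hp1 hp2 => (H.small p hp1 hp2).trans ?_ }
  have h2 : R ^ (-(M : ℝ)) ≤ R ^ (-(M' : ℝ)) := by
    refine Real.rpow_le_rpow_of_exponent_le hR ?_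
    have : (M' : ℝ) ≤ M := by exact_mod_cast hM
    linarith
  have h3 : 0 ≤ R ^ (-(M : ℝ)) := Real.rpow_nonneg (by linarith) _
  have h4 : Cn * nb * R ^ (-(M : ℝ)) ≤ Cn' * nb * R ^ (-(M' : ℝ)) :=
    mul_le_mul h1 h2 h3 ((mul_nonneg hC hnb).trans h1)
  exact mul_le_mul_of_nonneg_right h4 (Real.sqrt_nonneg _)

theorem LevOk.mono {q A σ Cn Cn' : ℝ} {B : ℕ → ℝ} {M M' : ℕ} {h : E2 → ℝ} {g : E2 → ℂ}
    {R : ℝ} {L : Lev} (hR : 1 ≤ R) (hC : 0 ≤ Cn) (hCC : Cn ≤ Cn') (hM : M' ≤ M)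
    (H : LevOk q A σ Cn B M h g R L) : LevOk q A σ Cn' B M' h g R L :=
  { H with
    dec := fun z hz => by
      obtain ⟨cls, hcls⟩ := H.dec z hz
      exact ⟨cls, DecOut.mono hR hC hCC hM hcls⟩ }

/-- **(B)** existence of the tower. -/
theorem ext_of {B : ℕ → ℝ} {q A : ℝ} (H1 : EX1P B q A) (H2 : EXP B q A) (H3 : STEPP B q A) :
    EXT B q A := by
  obtain ⟨Cw, hCw, H3⟩ := H3
  refine ⟨Cw, Cw, by linarith, by linarith, fun γm hγ hγ2 hγ3 j0 n hj0 => ?_⟩
  have hA36 : (0 : ℝ) < max 36 A := lt_of_lt_of_le (by norm_num) (le_max_left _ _)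
  refine ⟨1 / max 36 A, 2 * (j0 + n) + Cw, by positivity, ?_, ?_, ?_⟩
  · rw [div_le_one hA36]
    exact le_trans (by norm_num) (le_max_left _ _)
  · have : (0 : ℝ) ≤ j0 := Nat.cast_nonneg _
    have : (0 : ℝ) ≤ n := Nat.cast_nonneg _
    linarith
  intro ε hε Na M0 K M hK
  set ε' : ℝ := min ε 1 with hε'
  have hε'0 : 0 < ε' := lt_min hε one_pos
  have hε'1 : ε' ≤ ε := min_le_left _ _
  have hε'2 : ε' ≤ 1 := min_le_right _ _
  obtain ⟨K0, na, 𝒜, pv, tn, Cp, hCp, hna1, hna2, hpv, h𝒜, M1, H3⟩ :=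
    H3 (ε' / 2) (by positivity) Na M0 (K + 1)
  set η : ℝ := ε' / (4 * (n + 2) * (K0 + 1)) with hη
  have hη0 : 0 < η := by positivity
  obtain ⟨Ca, hCa⟩ := hna2 η hη0
  obtain ⟨Cn1, hCn1, H1⟩ := H1 η hη0 Na M0 (max M M1)
  obtain ⟨Cn2, hCn2, H2⟩ := H2 η hη0 Na M0 (max M M1)
  set Cn : ℝ := max Cn1 Cn2 with hCn
  have hCn' : 1 ≤ Cn := hCn1.trans (le_max_left _ _)
  obtain ⟨Cs, hCs, H3⟩ := H3 (max M M1) (le_max_right _ _) Cn hCn'
  set Ca' : ℝ := max Ca 1 with hCa'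
  have hCa'1 : 1 ≤ Ca' := le_max_right _ _
  set Cν : ℝ := (Cn * Ca') ^ (n + 2) with hCν
  have hCCa : 1 ≤ Cn * Ca' := one_le_mul_of_one_le_of_one_le hCn' hCa'1
  have hCν1 : 1 ≤ Cν := one_le_pow₀ hCCa
  have hCνK : 1 ≤ Cν ^ K0 := one_le_pow₀ hCν1
  set C : ℝ := max (max (max Cn (Cν ^ 2)) (max Cp (Cs * Cν ^ K0))) (Cs ^ (1 / ε)) with hC
  have hC1 : Cn ≤ C := ((le_max_left _ _).trans (le_max_left _ _)).trans (le_max_left _ _)
  have hC2' : Cν ^ 2 ≤ C := ((le_max_right _ _).trans (le_max_left _ _)).trans (le_max_left _ _)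
  have hC2 : Cν ≤ C := le_trans (by nlinarith) hC2'
  have hC3 : Cp ≤ C := ((le_max_left _ _).trans (le_max_right _ _)).trans (le_max_left _ _)
  have hC4 : Cs * Cν ^ K0 ≤ C :=
    ((le_max_right _ _).trans (le_max_right _ _)).trans (le_max_left _ _)
  have hC5 : Cs ^ (1 / ε) ≤ C := le_max_right _ _
  have hC0 : 1 ≤ C := hCn'.trans hC1
  refine ⟨C, hC0, ?_⟩
  intro h g R D hSt dl hdl hdlc hdlR hRε hCR
  have hR1 : 1 ≤ R := hSt.R1
  have hR0 : 0 < R := by linarith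
  have hdl1 : dl ≤ 1 := hdlc.trans (by
    rw [div_le_one hA36]
    exact le_trans (by norm_num) (le_max_left _ _))
  have hdl36 : dl ≤ 1 / 36 := hdlc.trans (one_div_le_one_div_of_le (by norm_num) (le_max_left _ _))
  have hdlA : A * dl ≤ 1 := by
    rcases le_or_gt A 0 with hA | hA
    · have := mul_nonpos_of_nonpos_of_nonneg hA hdl.le
      linarith
    · calc A * dl ≤ A * (1 / max 36 A) := mul_le_mul_of_nonneg_left hdlc hA.le
        _ ≤ A * (1 / A) := mul_le_mul_of_nonneg_left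
            (one_div_le_one_div_of_le hA (le_max_right _ _)) hA.le
        _ = 1 := by field_simp
  -- the radii
  have hn0 : (0 : ℝ) ≤ n := Nat.cast_nonneg _
  have hj00 : (0 : ℝ) ≤ j0 := Nat.cast_nonneg _
  set N : ℕ := j0 + n with hN
  have hNr : (N : ℝ) = j0 + n := by rw [hN]; push_cast; ring
  have hN0 : (0 : ℝ) ≤ N := Nat.cast_nonneg _
  have hdlN : dl ^ (-(Cw + 2 * N)) ≤ R := by
    rw [hNr]
    have : (2 * ((j0 : ℝ) + n) + Cw) = Cw + 2 * (j0 + n) := by ring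
    rwa [this] at hdlR
  have hrad : ∀ s : ℕ, s ≤ N → dl ^ (-Cw) ≤ R * dl ^ s ∧ R ^ (1/2 : ℝ) ≤ R * dl ^ s := by
    intro s hs
    have hsN : (s : ℝ) ≤ N := by exact_mod_cast hs
    have e1 : dl ^ s = dl ^ (s : ℝ) := (Real.rpow_natCast dl s).symm
    constructor
    · calc dl ^ (-Cw) = dl ^ (-(Cw + s)) * dl ^ (s : ℝ) := by
            rw [← Real.rpow_add hdl]; congr 1; ring
        _ ≤ R * dl ^ (s : ℝ) := by
            refine mul_le_mul_of_nonneg_right ?_ (Real.rpow_nonneg hdl.le _)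
            refine le_trans ?_ hdlN
            exact Real.rpow_le_rpow_of_exponent_ge hdl hdl1 (by linarith)
        _ = R * dl ^ s := by rw [e1]
    · have h1 : dl ^ (-(s : ℝ)) ≤ R ^ (1/2 : ℝ) := by
        have h2 : dl ^ (-(2 * s : ℝ)) ≤ R := by
          refine le_trans ?_ hdlN
          exact Real.rpow_le_rpow_of_exponent_ge hdl hdl1 (by linarith)
        have h3 : dl ^ (-(s : ℝ)) = (dl ^ (-(2 * s : ℝ))) ^ (1/2 : ℝ) := by
          rw [← Real.rpow_mul hdl.le]; congr 1; ring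
        rw [h3]
        exact Real.rpow_le_rpow (Real.rpow_nonneg hdl.le _) h2 (by norm_num)
      calc R ^ (1/2 : ℝ) = R ^ (1/2 : ℝ) * (dl ^ (-(s : ℝ)) * dl ^ (s : ℝ)) := by
            rw [← Real.rpow_add hdl]; simp
        _ ≤ R ^ (1/2 : ℝ) * (R ^ (1/2 : ℝ) * dl ^ (s : ℝ)) := by
            refine mul_le_mul_of_nonneg_left ?_ (Real.rpow_nonneg hR0.le _)
            exact mul_le_mul_of_nonneg_right h1 (Real.rpow_nonneg hdl.le _)
        _ = R * dl ^ s := by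
            rw [← mul_assoc, ← Real.rpow_add hR0, e1]; norm_num
  have hrad36 : ∀ s : ℕ, s ≤ N → 36 ≤ R * dl ^ s := by
    intro s hs
    refine le_trans ?_ (hrad s hs).1
    calc (36 : ℝ) ≤ dl⁻¹ := by
          rw [le_inv_comm₀ (by norm_num) hdl]
          simpa using hdl36
      _ = dl ^ (-1 : ℝ) := (Real.rpow_neg_one dl).symm
      _ ≤ dl ^ (-Cw) := Real.rpow_le_rpow_of_exponent_ge hdl hdl1 (by linarith)
  -- the recursion
  set X : ℝ := Cn * R ^ η * (Ca' * R ^ η) with hX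
  have hRη : 1 ≤ R ^ η := Real.one_le_rpow hR1 hη0.le
  have hX2 : 1 ≤ Ca' * R ^ η := one_le_mul_of_one_le_of_one_le hCa'1 hRη
  have hX3 : 1 ≤ Cn * R ^ η := one_le_mul_of_one_le_of_one_le hCn' hRη
  have hX1 : 1 ≤ X := one_le_mul_of_one_le_of_one_le hX3 hX2
  set rr : ℕ → ℝ := fun s => R * dl ^ (j0 - 1 + s) with hrr
  set P : ℕ → Lev → Prop := fun s L => s ≤ n + 1 → L.r = rr s ∧
    LevOk q A (1/2) Cn B (max M M1) h g R L ∧ (L.n : ℝ) ≤ X ^ (s + 1) ∧ (L.nb : ℝ) ≤ X ^ (s + 1)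
    with hP
  set Q : ℕ → Lev → Lev → Prop := fun s L L' => s + 1 ≤ n + 1 →
    Next h L L' (𝒜 h g R dl L L'.r) with hQ
  have hrr1 : ∀ s, s ≤ n + 1 → R ^ (1/2 : ℝ) ≤ rr s ∧ 36 ≤ rr s ∧ dl ^ (-Cw) ≤ rr s := by
    intro s hs
    have : j0 - 1 + s ≤ N := by omega
    exact ⟨(hrad _ this).2, hrad36 _ this, (hrad _ this).1⟩
  have hrr2 : ∀ s, rr (s + 1) = dl * rr s := by
    intro s
    simp only [hrr]
    rw [show j0 - 1 + (s + 1) = (j0 - 1 + s) + 1 by omega, pow_succ]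
    ring
  have hrr3 : ∀ s, rr s ≤ R := fun s => by
    simp only [hrr]
    exact mul_le_of_le_one_right hR0.le (pow_le_one₀ hdl.le hdl1)
  have hrr0 : ∀ s, 0 < rr s := fun s => by simp only [hrr]; positivity
  have hbase : ∃ L0, P 0 L0 := by
    obtain ⟨L0, h1, h2, h3, h4⟩ := H1 h g R D hSt (rr 0) (hrr1 0 (by omega)).1 (hrr3 0)
    refine ⟨L0, fun _ => ⟨h1, LevOk.mono hR1 (by linarith) (le_max_left _ _) le_rfl h2, ?_, ?_⟩⟩
    · rw [zero_add, pow_one]
      calc (L0.n : ℝ) ≤ Cn1 * R ^ η := h4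
        _ ≤ Cn * R ^ η := mul_le_mul_of_nonneg_right (le_max_left _ _) (by linarith)
        _ = Cn * R ^ η * 1 := (mul_one _).symm
        _ ≤ X := mul_le_mul_of_nonneg_left hX2 (by linarith)
    · rw [h3, zero_add, pow_one]
      exact_mod_cast hX1
  obtain ⟨L0, hL0⟩ := hbase
  have : Nonempty Lev := ⟨L0⟩
  have hstep : ∀ s L, P s L → ∃ L', P (s + 1) L' ∧ Q s L L' := by
    intro s L hL
    by_cases hs : s + 1 ≤ n + 1
    · obtain ⟨hr, hok, hln, hlnb⟩ := hL (by omega)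
      have hr' : rr (s + 1) ≤ L.r := by
        rw [hr, hrr2]
        exact mul_le_of_le_one_left (hrr0 s).le hdl1
      have ha := h𝒜 h g R D Cn (max M M1) hSt L dl (rr (s + 1)) hok hdl hdl1
        (hrr1 (s + 1) hs).1 hr'
      obtain ⟨L', h1, h2, h3, h4, h5, h6⟩ := H2 h g R D hSt L Cn hok
        (by rw [hr]; exact (hrr1 s (by omega)).2.1) (rr (s + 1)) (hrr1 (s + 1) hs).1 hr' (na R)
        (𝒜 h g R dl L (rr (s + 1))) (hna1 R) ha.1 ha.2
      have hnb : (L'.nb : ℝ) ≤ X ^ (s + 1) * (Ca' * R ^ η) := by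
        rw [h4]
        push_cast
        refine mul_le_mul hln ?_ (Nat.cast_nonneg _) (by positivity)
        exact (hCa R hR1).trans (mul_le_mul_of_nonneg_right (le_max_left _ _) (by linarith))
      have hXs : 0 ≤ X ^ (s + 1) := by positivity
      refine ⟨L', fun _ => ⟨h1, LevOk.mono hR1 (by linarith) (le_max_right _ _) le_rfl h2, ?_, ?_⟩,
        fun _ => ?_⟩
      · calc (L'.n : ℝ) ≤ Cn2 * R ^ η * L'.nb := h6
          _ ≤ Cn * R ^ η * (X ^ (s + 1) * (Ca' * R ^ η)) := by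
              refine mul_le_mul ?_ hnb (Nat.cast_nonneg _) (by linarith)
              exact mul_le_mul_of_nonneg_right (le_max_right _ _) (by linarith)
          _ = X ^ (s + 1 + 1) := by rw [pow_succ X (s + 1), hX]; ring
      · calc (L'.nb : ℝ) ≤ X ^ (s + 1) * (Ca' * R ^ η) := hnb
          _ = X ^ (s + 1) * (1 * (Ca' * R ^ η)) := by ring
          _ ≤ X ^ (s + 1) * X := by
              refine mul_le_mul_of_nonneg_left ?_ hXs
              exact mul_le_mul_of_nonneg_right hX3 (by linarith)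
          _ = X ^ (s + 1 + 1) := (pow_succ X (s + 1)).symm
      · rw [h1]; exact h3
    · exact ⟨L, fun h => absurd h hs, fun h => absurd h hs⟩
  choose! nx hnx using hstep
  set Lv : ℕ → Lev := fun s => Nat.rec L0 (fun s L => nx s L) s with hLv
  have hPv : ∀ s, P s (Lv s) := by
    intro s
    induction s with
    | zero => exact hL0
    | succ s ih => exact (hnx s _ ih).1
  have hQv : ∀ s, Q s (Lv s) (Lv (s + 1)) := fun s => (hnx s _ (hPv s)).2
  -- bounds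
  set ν : ℝ := X ^ (n + 2) with hν
  have hν1 : 1 ≤ ν := one_le_pow₀ hX1
  have hle : ∀ s, s ≤ n + 1 → (Lv s).Le ν := by
    intro s hs
    obtain ⟨-, -, h1, h2⟩ := hPv s hs
    have h3 : X ^ (s + 1) ≤ ν := pow_le_pow_right₀ hX1 (by omega)
    exact ⟨h1.trans h3, h2.trans h3⟩
  have hνe : ν = Cν * R ^ (2 * (n + 2) * η) := by
    rw [hν, hX, hCν]
    have e1 : Cn * R ^ η * (Ca' * R ^ η) = (Cn * Ca') * R ^ (2 * η) := by
      rw [two_mul, Real.rpow_add hR0]; ring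
    rw [e1, mul_pow, ← Real.rpow_natCast (R ^ (2 * η)) (n + 2), ← Real.rpow_mul hR0.le]
    congr 2
    push_cast
    ring
  have hηe : 2 * (n + 2) * η = ε' / (2 * (K0 + 1)) := by
    rw [hη]
    have : (n : ℝ) + 2 ≠ 0 := by positivity
    have : (K0 : ℝ) + 1 ≠ 0 := by positivity
    field_simp
    ring
  have hK00 : (0 : ℝ) ≤ K0 := Nat.cast_nonneg _
  have hη2 : 2 * (n + 2) * η ≤ ε' / 2 := by
    rw [hηe]
    exact div_le_div_of_nonneg_left hε'0.le (by norm_num) (by linarith)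
  have hη3 : 2 * (n + 2) * η * K0 ≤ ε' / 2 := by
    rw [hηe, div_mul_eq_mul_div, div_le_div_iff₀ (by positivity) (by norm_num)]
    nlinarith
  have hνle : ν ≤ C * R ^ ε := by
    rw [hνe]
    refine mul_le_mul hC2 ?_ (Real.rpow_nonneg hR0.le _) (by linarith)
    exact Real.rpow_le_rpow_of_exponent_le hR1 (by linarith)
  have hνR : ν ≤ R := by
    have h1 : Cν ≤ R ^ (1/2 : ℝ) := by
      have h2 : Cν = (Cν ^ 2) ^ (1/2 : ℝ) := by
        rw [← Real.rpow_natCast Cν 2, ← Real.rpow_mul (by linarith)]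
        norm_num
      rw [h2]
      exact Real.rpow_le_rpow (by positivity) (hC2'.trans hCR) (by norm_num)
    have h3 : R ^ (2 * (n + 2) * η) ≤ R ^ (1/2 : ℝ) :=
      Real.rpow_le_rpow_of_exponent_le hR1 (by linarith)
    calc ν = Cν * R ^ (2 * (n + 2) * η) := hνe
      _ ≤ R ^ (1/2 : ℝ) * R ^ (1/2 : ℝ) :=
          mul_le_mul h1 h3 (Real.rpow_nonneg hR0.le _) (Real.rpow_nonneg hR0.le _)
      _ = R := by rw [← Real.rpow_add hR0]; norm_num
  have hνK : ν ^ K0 = Cν ^ K0 * R ^ (2 * (n + 2) * η * K0) := by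
    rw [hνe, mul_pow, ← Real.rpow_natCast (R ^ (2 * (n + 2) * η)) K0, ← Real.rpow_mul hR0.le]
  -- the loss of the step
  have hloss : Cs * ν ^ K0 * R ^ (ε' / 2) ≤ C * R ^ ε := by
    rw [hνK]
    calc Cs * (Cν ^ K0 * R ^ (2 * (n + 2) * η * K0)) * R ^ (ε' / 2)
        = (Cs * Cν ^ K0) * R ^ (2 * (n + 2) * η * K0 + ε' / 2) := by
          rw [Real.rpow_add hR0]; ring
      _ ≤ C * R ^ ε := by
          refine mul_le_mul hC4 ?_ (Real.rpow_nonneg hR0.le _) (by linarith)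
          exact Real.rpow_le_rpow_of_exponent_le hR1 (by linarith)
  have hSS : 0 ≤ SS g R D := by
    unfold SS
    have := En_nonneg g
    positivity
  have htiny : Cs * ν ^ K0 * R ^ (-(K + 1)) * SS g R D ≤ C * R ^ (-K) * SS g R D := by
    refine mul_le_mul_of_nonneg_right ?_ hSS
    rw [hνK]
    calc Cs * (Cν ^ K0 * R ^ (2 * (n + 2) * η * K0)) * R ^ (-(K + 1))
        = (Cs * Cν ^ K0) * R ^ (2 * (n + 2) * η * K0 + -(K + 1)) := by
          rw [Real.rpow_add hR0]; ring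
      _ ≤ C * R ^ (-K) := by
          refine mul_le_mul hC4 ?_ (Real.rpow_nonneg hR0.le _) (by linarith)
          exact Real.rpow_le_rpow_of_exponent_le hR1 (by linarith)
  -- `Cs * dl ≤ 1`
  have hRdl : R ^ ε * dl ≤ 1 := by
    calc R ^ ε * dl ≤ dl⁻¹ * dl := mul_le_mul_of_nonneg_right hRε hdl.le
      _ = 1 := inv_mul_cancel₀ hdl.ne'
  have hCsdl : Cs * dl ≤ 1 := by
    refine le_trans (mul_le_mul_of_nonneg_right ?_ hdl.le) hRdl
    calc Cs = (Cs ^ (1 / ε)) ^ ε := by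
          rw [← Real.rpow_mul (by linarith)]
          rw [one_div_mul_cancel hε.ne', Real.rpow_one]
      _ ≤ R ^ ε := Real.rpow_le_rpow (Real.rpow_nonneg (by linarith) _) (hC5.trans hCR) hε.le
  have hdlR' : dl ≤ R ^ (-(ε' / 2)) := by
    have h1 : dl ≤ R ^ (-ε) := by
      rw [Real.rpow_neg hR0.le, le_inv_comm₀ hdl (Real.rpow_pos_of_pos hR0 _)]
      exact hRε
    exact h1.trans (Real.rpow_le_rpow_of_exponent_le hR1 (by linarith))
  obtain ⟨Ht, Hs⟩ := H3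
  refine ⟨fun t => Lv (t + 1), fun t k => pv R dl ((Lv (t + 1)).ac k),
    fun t k => ¬ tn R ((Lv (t + 1)).ac k) ∧
      Good dl γm Cw (Lv (t + 1)).r ((Lv (t + 1)).s k).1 ((Lv (t + 1)).s k).2, ?_⟩
  refine
    { rad := ?_
      ok := ?_
      le := ?_
      next := ?_
      pc := ?_
      bad := ?_
      step := ?_ }
  · intro t ht
    rw [(hPv (t + 1) (by omega)).1]
    simp only [hrr]
    rw [show j0 - 1 + (t + 1) = j0 + t by omega]
  · intro t ht
    exact LevOk.mono hR1 (by linarith) hC1 (le_max_left _ _) (hPv (t + 1) (by omega)).2.1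
  · intro t ht
    have := hle (t + 1) (by omega)
    exact ⟨this.1.trans hνle, this.2.trans hνle⟩
  · intro t ht
    exact ⟨_, hQv (t + 1) (by omega)⟩
  · intro t ht k hk
    obtain ⟨h1, h2⟩ := hpv R dl ((Lv (t + 1)).ac k) hdl hdl1
    exact ⟨h1, h2.trans (mul_le_mul_of_nonneg_right hC3 (Real.rpow_nonneg hdl.le _))⟩
  · intro t ht k hk
    by_cases hg : Good dl γm Cw (Lv (t + 1)).r ((Lv (t + 1)).s k).1 ((Lv (t + 1)).s k).2
    · by_cases htn : tn R ((Lv (t + 1)).ac k)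
      · right; right
        obtain ⟨hr, hok, -⟩ := hPv (t + 1) (by omega)
        obtain ⟨hr', hok', -⟩ := hPv t (by omega)
        refine (Ht h g R D hSt dl hdl hdl1 (Lv t) (Lv (t + 1)) hok' hok (hQv t (by omega)) ?_ ?_ ν
          hν1 hνR (hle t (by omega)) (hle (t + 1) (by omega)) k hk htn).trans
          (ENNReal.ofReal_le_ofReal htiny)
        · rw [hr']; exact (hrr1 t (by omega)).2.1
        · rw [hr, hr', hrr2, ← mul_assoc]
          exact mul_le_of_le_one_left (hrr0 t).le hdlA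
      · exact Or.inl ⟨htn, hg⟩
    · exact Or.inr (Or.inl hg)
  · intro t ht k hk hg hg'
    obtain ⟨hr2, hok2, -⟩ := hPv (t + 2) (by omega)
    obtain ⟨hr1, hok1, -⟩ := hPv (t + 1) (by omega)
    obtain ⟨hr0, hok0, -⟩ := hPv t (by omega)
    have key := Hs h g R D hSt dl hdl hCsdl hdlR' (Lv t) (Lv (t + 1)) (Lv (t + 2)) hok0 hok1 hok2
      (hQv t (by omega)) (hQv (t + 1) (by omega)) (by rw [hr1, hr0, hrr2]) (by rw [hr2, hr1, hrr2])
      (by rw [hr2]; exact (hrr1 (t + 2) (by omega)).2.2) ν hν1 hνR (hle t (by omega))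
      (hle (t + 1) (by omega)) (hle (t + 2) (by omega)) k hk hg.1 hg'.1 γm hγ.le hg.2 hg'.2
    refine key.trans (add_le_add (mul_le_mul_left (ENNReal.ofReal_le_ofReal ?_) _)
      (ENNReal.ofReal_le_ofReal htiny))
    set p0 : ℝ := pv R dl ((Lv (t + 1)).ac ((Lv (t + 2)).par k)) with hp0
    set p1 : ℝ := pv R dl ((Lv (t + 2)).ac k) with hp1
    have hq0 : 0 < p0 := lt_of_lt_of_le one_pos (hpv R dl _ hdl hdl1).1
    have hq1 : 0 < p1 := lt_of_lt_of_le one_pos (hpv R dl _ hdl hdl1).1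
    have hd1 : dl ^ (-(Cw * γm)) * dl ^ (1/2 : ℝ) ≤ 1 := by
      rw [← Real.rpow_add hdl]
      exact Real.rpow_le_one hdl.le hdl1 (by linarith)
    have hd2 : 0 ≤ dl ^ (-(Cw * γm)) := Real.rpow_nonneg hdl.le _
    have hpp : 0 ≤ (p0 / p1) ^ (1/2 : ℝ) := Real.rpow_nonneg (by positivity) _
    calc Cs * ν ^ K0 * R ^ (ε' / 2) * dl ^ (-(Cw * γm)) * ((p0 / p1) ^ (1/2 : ℝ) + dl ^ (1/2 : ℝ))
        = (Cs * ν ^ K0 * R ^ (ε' / 2)) * (dl ^ (-(Cw * γm)) * (p0 / p1) ^ (1/2 : ℝ) +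
            dl ^ (-(Cw * γm)) * dl ^ (1/2 : ℝ)) := by ring
      _ ≤ (C * R ^ ε) * (dl ^ (-(Cw * γm)) * (p0 / p1) ^ (1/2 : ℝ) + 1) := by
          refine mul_le_mul hloss (by linarith) ?_ (by positivity)
          exact add_nonneg (mul_nonneg hd2 hpp) (mul_nonneg hd2 (Real.rpow_nonneg hdl.le _))

end Crest.Agent.R138.ExtB628
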