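import Crest.Agent.R138.Gl_210

/-!
# R138 / R139: WAVE side, the tower of levels (helper188), over 210's `Lev` / `LevOk` / `Next`

`EXT B q A`: existence of the direct (non-nested) tower of levels `r_t = R dl^(j0+t)`, `t ≤ n`, with
dominating parent classes, coherence numbers `p` and the STEP inequality for good labels.
It is the only input (besides `LB (c1+)`, `END β` and the landed leaves) of `WChE` (Chn_188).
-/

set_option autoImplicit false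

open MeasureTheory FourierTransform
open scoped ContDiff ENNReal

namespace Crest.Agent.R138.Chn188

open Crest.Agent.R138.Defs Crest.Agent.R138.Bil882 Crest.Agent.R138.Wpk685
  Crest.Agent.R138.W188 Crest.Agent.R138.Gl210

/-- the tower: levels `r_t = R dl^(j0+t)`, `t ≤ n`, losses `C R^ε`, tiny terms `C R^(-K) SS`,
labels are good, or not (thin and wide), or tiny. -/
structure Tower (B : ℕ → ℝ) (q A C0 g0 γm ε C K : ℝ) (M j0 n : ℕ) (h : E2 → ℝ) (g : E2 → ℂ)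
    (R D dl : ℝ) (L : ℕ → Lev) (p : ℕ → ℕ → ℝ) (gd : ℕ → ℕ → Prop) : Prop where
  rad : ∀ t ≤ n, (L t).r = R * dl ^ (j0 + t)
  /-- every level is a decomposition of the ROOT function. -/
  ok : ∀ t ≤ n, LevOk q A (1/2) C B M h g R (L t)
  le : ∀ t ≤ n, (L t).Le (C * R ^ ε)
  /-- parent labels dominate. -/
  next : ∀ t < n, ∃ aux, Next h (L t) (L (t + 1)) aux
  /-- coherence numbers. -/
  pc : ∀ t ≤ n, ∀ k < (L t).n, 1 ≤ p t k ∧ p t k ≤ C * dl ^ (-(1/2) : ℝ)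
  /-- a label is good, or thick, or narrow, or tiny. -/
  bad : ∀ t ≤ n, ∀ k < (L t).n, gd t k ∨
    ¬ Good dl γm g0 (L t).r ((L t).s k).1 ((L t).s k).2 ∨
    (L t).S h g k ≤ ENNReal.ofReal (C * R ^ (-K) * SS g R D)
  /-- **STEP** (aligned part: `(p_i/p_j)^(1/2)`, misaligned part: no growth). -/
  step : ∀ t < n, ∀ k < (L (t + 1)).n, gd (t + 1) k → gd t ((L (t + 1)).par k) →
      (L (t + 1)).S h g k ≤
        ENNReal.ofReal (C * R ^ ε * (dl ^ (-(C0 * γm)) *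
          (p t ((L (t + 1)).par k) / p (t + 1) k) ^ (1/2 : ℝ) + 1)) *
          (L t).S h g ((L (t + 1)).par k) +
        ENNReal.ofReal (C * R ^ (-K) * SS g R D)

/-- **EXT**: existence of the tower. `C0, g0` depend on `B, q, A` only; `c3, Aw` may depend on
`γm, j0, n`; the constant `C` on everything except the state and `dl`. -/
def EXT (B : ℕ → ℝ) (q A : ℝ) : Prop :=
  ∃ C0 g0 : ℝ, 0 ≤ C0 ∧ 0 ≤ g0 ∧ ∀ γm : ℝ, 0 < γm → γm ≤ 1/2 → C0 * γm ≤ 1/2 → ∀ j0 n : ℕ, 1 ≤ j0 →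
  ∃ c3 Aw : ℝ, 0 < c3 ∧ c3 ≤ 1 ∧ 1 ≤ Aw ∧
  ∀ ε : ℝ, 0 < ε → ∀ (Na : ℕ) (M0 K : ℝ) (M : ℕ), 0 ≤ K → ∃ C : ℝ, 1 ≤ C ∧
  ∀ h g R D, St B q Na M0 (1/2) h g R D → ∀ dl : ℝ, 0 < dl → dl ≤ c3 → dl ^ (-Aw) ≤ R →
    R ^ ε ≤ dl⁻¹ → C ≤ R → ∃ (L : ℕ → Lev) (p : ℕ → ℕ → ℝ) (gd : ℕ → ℕ → Prop),
      Tower B q A C0 g0 γm ε C K M j0 n h g R D dl L p gd

end Crest.Agent.R138.Chn188
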