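import Mathlib

/-!
# Greedy factoring of a weighted finite family through boxes (helper535)

Abstract combinatorial lemmas (no geometry).  `ι` = tubes, `κ` = boxes, `mem t K` = "the tube `t`
lies in the box `K`", `w t > 0` = weight of a tube, `c K > 0` = cost of a box (volume, or volume
times a penalty factor).  The density of `K` in a subfamily is `(mass of its members) / c K`.
-/

set_option autoImplicit false

namespace Crest.Agent.R138.Fac535

open Finset Classical

variable {ι κ : Type*}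

/-- Greedy factoring.  The family `S` is partitioned into pieces `T_i = {t ∈ S : f t = i}`,
`i < n`, with `T_i ⊆ K i`, density `d i` (mass of `T_i` = `d i * c (K i)`), such that every box
`L` has density at most `d i` in the tail `⋃_{j ≥ i} T_j`. -/
theorem factoring [Nonempty κ] (w : ι → ℝ) (mem : ι → κ → Prop) (B : Finset κ) (c : κ → ℝ)
    (hc : ∀ K ∈ B, 0 < c K) (S : Finset ι) (hw : ∀ t ∈ S, 0 < w t)
    (hcov : ∀ t ∈ S, ∃ K ∈ B, mem t K) :
    ∃ (n : ℕ) (K : ℕ → κ) (f : ι → ℕ) (d : ℕ → ℝ),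
      (∀ t ∈ S, f t < n ∧ mem t (K (f t))) ∧
      (∀ i < n, K i ∈ B ∧ 0 < d i ∧ (S.filter (fun t => f t = i)).Nonempty ∧
        ∑ t ∈ S.filter (fun t => f t = i), w t = d i * c (K i)) ∧
      (∀ i < n, ∀ L ∈ B, ∑ t ∈ S.filter (fun t => i ≤ f t ∧ mem t L), w t ≤ d i * c L) := by
  induction S using Finset.strongInduction with
  | H S ih =>
    rcases S.eq_empty_or_nonempty with rfl | hS
    · exact ⟨0, fun _ => Classical.arbitrary κ, fun _ => 0, fun _ => 1, by simp, by simp, by simp⟩
    · obtain ⟨t0, ht0⟩ := hS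
      obtain ⟨K1, hK1, ht1⟩ := hcov t0 ht0
      obtain ⟨K0, hK0, hmax⟩ := B.exists_max_image
        (fun K => (∑ t ∈ S.filter (fun t => mem t K), w t) / c K) ⟨K1, hK1⟩
      have hpos1 : 0 < (∑ t ∈ S.filter (fun t => mem t K1), w t) / c K1 := by
        apply div_pos _ (hc K1 hK1)
        apply Finset.sum_pos
        · intro t ht; exact hw t (Finset.mem_filter.1 ht).1
        · exact ⟨t0, Finset.mem_filter.2 ⟨ht0, ht1⟩⟩
      have hpos0 : 0 < (∑ t ∈ S.filter (fun t => mem t K0), w t) / c K0 :=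
        lt_of_lt_of_le hpos1 (hmax K1 hK1)
      have hne0 : (S.filter (fun t => mem t K0)).Nonempty := by
        by_contra h
        rw [Finset.not_nonempty_iff_eq_empty] at h
        rw [h] at hpos0
        simp at hpos0
      obtain ⟨t2, ht2⟩ := hne0
      have hss : S.filter (fun t => ¬ mem t K0) ⊂ S := by
        refine Finset.filter_ssubset.2 ⟨t2, (Finset.mem_filter.1 ht2).1, ?_⟩
        simpa using (Finset.mem_filter.1 ht2).2
      obtain ⟨n', K', f', d', h1, h2, h3⟩ := ih _ hss
        (fun t ht => hw t (Finset.mem_filter.1 ht).1)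
        (fun t ht => hcov t (Finset.mem_filter.1 ht).1)
      set D0 : ℝ := (∑ t ∈ S.filter (fun t => mem t K0), w t) / c K0 with hD0
      let K : ℕ → κ := fun i => Nat.casesOn i K0 K'
      let d : ℕ → ℝ := fun i => Nat.casesOn i D0 d'
      let f : ι → ℕ := fun t => if mem t K0 then 0 else f' t + 1
      have hf0 : ∀ t, f t = 0 ↔ mem t K0 := by
        intro t
        by_cases h : mem t K0 <;> simp [f, h]
      have hfs : ∀ t i, f t = i + 1 ↔ (¬ mem t K0 ∧ f' t = i) := by
        intro t i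
        by_cases h : mem t K0 <;> simp [f, h]
      have hfle : ∀ t i, i + 1 ≤ f t ↔ (¬ mem t K0 ∧ i ≤ f' t) := by
        intro t i
        by_cases h : mem t K0 <;> simp [f, h]
      refine ⟨n' + 1, K, f, d, ?_, ?_, ?_⟩
      · intro t ht
        by_cases h : mem t K0
        · have : f t = 0 := (hf0 t).2 h
          rw [this]
          exact ⟨Nat.succ_pos _, h⟩
        · have hft : f t = f' t + 1 := (hfs t _).2 ⟨h, rfl⟩
          have := h1 t (Finset.mem_filter.2 ⟨ht, h⟩)
          rw [hft]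
          exact ⟨Nat.succ_lt_succ this.1, this.2⟩
      · intro i hi
        cases i with
        | zero =>
          have e : S.filter (fun t => f t = 0) = S.filter (fun t => mem t K0) := by
            apply Finset.filter_congr
            intro t _
            exact hf0 t
          refine ⟨hK0, hpos0, ?_, ?_⟩
          · rw [e]; exact ⟨t2, ht2⟩
          · rw [e]
            show _ = D0 * c K0
            rw [hD0, div_mul_cancel₀ _ (hc K0 hK0).ne']
        | succ i =>
          have hi' : i < n' := Nat.lt_of_succ_lt_succ hi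
          obtain ⟨a1, a2, a3, a4⟩ := h2 i hi'
          have e : S.filter (fun t => f t = i + 1)
              = (S.filter (fun t => ¬ mem t K0)).filter (fun t => f' t = i) := by
            ext t
            simp only [Finset.mem_filter, hfs, and_assoc]
          refine ⟨a1, a2, ?_, ?_⟩
          · rw [e]; exact a3
          · rw [e]; exact a4
      · intro i hi L hL
        cases i with
        | zero =>
          have e : S.filter (fun t => 0 ≤ f t ∧ mem t L) = S.filter (fun t => mem t L) := by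
            apply Finset.filter_congr
            intro t _
            simp
          rw [e]
          show _ ≤ D0 * c L
          have := hmax L hL
          rw [div_le_iff₀ (hc L hL)] at this
          exact this
        | succ i =>
          have hi' : i < n' := Nat.lt_of_succ_lt_succ hi
          have e : S.filter (fun t => i + 1 ≤ f t ∧ mem t L)
              = (S.filter (fun t => ¬ mem t K0)).filter (fun t => i ≤ f' t ∧ mem t L) := by
            ext t
            simp only [Finset.mem_filter, hfle, and_assoc]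
          rw [e]
          exact h3 i hi' L hL

/-- The densities in the output of `factoring` are antitone. -/
theorem density_antitone {w : ι → ℝ} {mem : ι → κ → Prop} {B : Finset κ} {c : κ → ℝ}
    (hc : ∀ K ∈ B, 0 < c K) {S : Finset ι} (hw : ∀ t ∈ S, 0 ≤ w t)
    {n : ℕ} {K : ℕ → κ} {f : ι → ℕ} {d : ℕ → ℝ}
    (h1 : ∀ t ∈ S, f t < n ∧ mem t (K (f t)))
    (h2 : ∀ i < n, K i ∈ B ∧ 0 < d i ∧ (S.filter (fun t => f t = i)).Nonempty ∧
        ∑ t ∈ S.filter (fun t => f t = i), w t = d i * c (K i))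
    (h3 : ∀ i < n, ∀ L ∈ B, ∑ t ∈ S.filter (fun t => i ≤ f t ∧ mem t L), w t ≤ d i * c L)
    {i j : ℕ} (hij : i ≤ j) (hj : j < n) : d j ≤ d i := by
  obtain ⟨hB, _, _, hm⟩ := h2 j hj
  have h := h3 i (lt_of_le_of_lt hij hj) (K j) hB
  have h' : ∑ t ∈ S.filter (fun t => f t = j), w t
      ≤ ∑ t ∈ S.filter (fun t => i ≤ f t ∧ mem t (K j)), w t := by
    apply Finset.sum_le_sum_of_subset_of_nonneg
    · intro t ht
      rw [Finset.mem_filter] at ht ⊢
      obtain ⟨ht1, ht2⟩ := ht
      refine ⟨ht1, by omega, ?_⟩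
      have := (h1 t ht1).2
      rwa [ht2] at this
    · intro t ht _
      exact hw t (Finset.mem_filter.1 ht).1
  rw [hm] at h'
  exact le_of_mul_le_mul_right (h'.trans h) (hc _ hB)

/-- Greedy factoring, one dyadic class of densities.  `S'` carries a `1/(N+1)` part of the mass,
is split into pieces `T_i = S'.filter (f · = i)`, `i ∈ I`, `T_i` in the box `K i` with density in
`[a, 2a]`; every box `L` has density `≤ 2a` in `S'` (so `T_i` is Frostman in `K i` and `S'` is
Katz-Tao), and the boxes `K i` are Katz-Tao themselves. -/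
theorem factoring_class [Nonempty κ] (w : ι → ℝ) (mem : ι → κ → Prop) (B : Finset κ) (c : κ → ℝ)
    (S : Finset ι) {wmin cmin cmax : ℝ} (hwm : 0 < wmin) (hcm : 0 < cmin)
    (hw : ∀ t ∈ S, wmin ≤ w t) (hcB : ∀ K ∈ B, cmin ≤ c K ∧ c K ≤ cmax)
    (hcov : ∀ t ∈ S, ∃ K ∈ B, mem t K) (N : ℕ)
    (hN : (∑ t ∈ S, w t) * cmax ≤ 2 ^ N * (wmin * cmin)) :
    ∃ (S' : Finset ι) (I : Finset ℕ) (K : ℕ → κ) (f : ι → ℕ) (a : ℝ),
      0 < a ∧ S' ⊆ S ∧ ∑ t ∈ S, w t ≤ (N + 1) * ∑ t ∈ S', w t ∧
      (∀ t ∈ S', f t ∈ I ∧ mem t (K (f t))) ∧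
      (∀ i ∈ I, K i ∈ B ∧ (S'.filter (fun t => f t = i)).Nonempty ∧
        a * c (K i) ≤ ∑ t ∈ S'.filter (fun t => f t = i), w t ∧
        ∑ t ∈ S'.filter (fun t => f t = i), w t ≤ 2 * a * c (K i)) ∧
      (∀ L ∈ B, ∑ t ∈ S'.filter (fun t => mem t L), w t ≤ 2 * a * c L) ∧
      (∀ J ⊆ I, ∀ L ∈ B, (∀ i ∈ J, ∀ t ∈ S', f t = i → mem t L) →
        ∑ i ∈ J, c (K i) ≤ 2 * c L) := by
  have hcpos : ∀ K ∈ B, 0 < c K := fun K hK => lt_of_lt_of_le hcm (hcB K hK).1
  have hwpos : ∀ t ∈ S, 0 < w t := fun t ht => lt_of_lt_of_le hwm (hw t ht)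
  obtain ⟨n, K, f, d, h1, h2, h3⟩ := factoring w mem B c hcpos S hwpos hcov
  set W : ℝ := ∑ t ∈ S, w t with hW
  -- range of the densities
  have hlow : ∀ i < n, wmin ≤ d i * cmax := by
    intro i hi
    obtain ⟨hB, hd, ⟨t, ht⟩, hm⟩ := h2 i hi
    have h4 : w t ≤ ∑ t ∈ S.filter (fun t => f t = i), w t :=
      Finset.single_le_sum (f := w)
        (fun t ht => (hwpos t (Finset.mem_filter.1 ht).1).le) ht
    have h5 := hw t (Finset.mem_filter.1 ht).1
    have h6 : d i * c (K i) ≤ d i * cmax := mul_le_mul_of_nonneg_left (hcB _ hB).2 hd.le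
    linarith
  have hupp : ∀ i < n, d i * cmin ≤ W := by
    intro i hi
    obtain ⟨hB, hd, _, hm⟩ := h2 i hi
    have h4 : ∑ t ∈ S.filter (fun t => f t = i), w t ≤ W :=
      Finset.sum_le_sum_of_subset_of_nonneg (Finset.filter_subset _ _)
        (fun t ht _ => (hwpos t ht).le)
    have h6 : d i * cmin ≤ d i * c (K i) := mul_le_mul_of_nonneg_left (hcB _ hB).1 hd.le
    linarith
  -- dyadic class of each index
  have hclass : ∀ i : ℕ, ∃ k : ℕ, i < n →
      k ≤ N ∧ 2 ^ k * (wmin / cmax) ≤ d i ∧ d i ≤ 2 * (2 ^ k * (wmin / cmax)) := by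
    intro i
    by_cases hi : i < n
    · have hcmax : 0 < cmax := by
        have := (hcB _ (h2 i hi).1)
        linarith
      have hlo : 0 < wmin / cmax := div_pos hwm hcmax
      have h7 : 1 ≤ d i / (wmin / cmax) := by
        rw [le_div_iff₀ hlo, one_mul, div_le_iff₀ hcmax]
        exact hlow i hi
      obtain ⟨k, hk1, hk2⟩ := exists_nat_pow_near h7 (by norm_num : (1 : ℝ) < 2)
      rw [le_div_iff₀ hlo] at hk1
      rw [div_lt_iff₀ hlo] at hk2
      refine ⟨k, fun _ => ⟨?_, hk1, ?_⟩⟩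
      · have h8 : (2 : ℝ) ^ k * (wmin * cmin) ≤ 2 ^ N * (wmin * cmin) := by
          refine le_trans ?_ hN
          have h9 := hupp i hi
          have h10 : 2 ^ k * (wmin / cmax) * cmin ≤ W :=
            le_trans (mul_le_mul_of_nonneg_right hk1 hcm.le) h9
          calc (2 : ℝ) ^ k * (wmin * cmin) = (2 ^ k * (wmin / cmax) * cmin) * cmax := by
                field_simp
            _ ≤ W * cmax := mul_le_mul_of_nonneg_right h10 hcmax.le
        have h11 : (2 : ℝ) ^ k ≤ 2 ^ N := le_of_mul_le_mul_right h8 (mul_pos hwm hcm)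
        exact (pow_le_pow_iff_right₀ (by norm_num : (1 : ℝ) < 2)).1 h11
      · rw [pow_succ] at hk2
        linarith
    · exact ⟨0, fun h => absurd h hi⟩
  choose g hg using hclass
  -- pigeonhole
  have hsum : ∑ k ∈ Finset.range (N + 1), ∑ t ∈ S.filter (fun t => g (f t) = k), w t = W := by
    rw [hW]
    apply Finset.sum_fiberwise_of_maps_to
    intro t ht
    rw [Finset.mem_range]
    have := (hg (f t) (h1 t ht).1).1
    omega
  obtain ⟨k, hk, hkW⟩ : ∃ k ∈ Finset.range (N + 1),
      W / (N + 1) ≤ ∑ t ∈ S.filter (fun t => g (f t) = k), w t := by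
    apply Finset.exists_le_of_sum_le (Finset.nonempty_range_iff.2 (Nat.succ_ne_zero N))
    rw [hsum, Finset.sum_const, Finset.card_range, nsmul_eq_mul]
    have : ((N : ℝ) + 1) ≠ 0 := by positivity
    push_cast
    rw [mul_div_cancel₀ _ this]
  have hkN : (0 : ℝ) < (N : ℝ) + 1 := by positivity
  rw [div_le_iff₀ hkN] at hkW
  set S' : Finset ι := S.filter (fun t => g (f t) = k) with hS'
  set I : Finset ℕ := (Finset.range n).filter (fun i => g i = k) with hI
  -- the degenerate case `S' = ∅`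
  rcases (Finset.range n).eq_empty_or_nonempty with hn | hn
  · have hS0 : S = ∅ := by
      rw [Finset.eq_empty_iff_forall_notMem]
      intro t ht
      have h12 := Finset.mem_range.2 (h1 t ht).1
      rw [hn] at h12
      exact absurd h12 (Finset.notMem_empty _)
    subst hS0
    refine ⟨∅, ∅, K, f, 1, one_pos, subset_rfl, by simp [hW], by simp, by simp, ?_, ?_⟩
    · intro L hL
      simpa using (mul_pos two_pos (hcpos L hL)).le
    · intro J hJ L hL _
      rw [Finset.subset_empty.1 hJ, Finset.sum_empty]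
      exact (mul_pos two_pos (hcpos L hL)).le
  obtain ⟨i00, hi00⟩ := hn
  have hcmax : 0 < cmax := by
    have := (hcB _ (h2 i00 (Finset.mem_range.1 hi00)).1)
    linarith
  have ha : 0 < (2 : ℝ) ^ k * (wmin / cmax) := by positivity
  set a : ℝ := 2 ^ k * (wmin / cmax) with ha'
  have hfil : ∀ i ∈ I, S'.filter (fun t => f t = i) = S.filter (fun t => f t = i) := by
    intro i hi
    ext t
    rw [hS', Finset.mem_filter, Finset.mem_filter, Finset.mem_filter]
    constructor
    · rintro ⟨⟨p1, _⟩, p3⟩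
      exact ⟨p1, p3⟩
    · rintro ⟨p1, p3⟩
      refine ⟨⟨p1, ?_⟩, p3⟩
      rw [p3]
      exact (Finset.mem_filter.1 hi).2
  have hIn : ∀ i ∈ I, i < n ∧ g i = k := by
    intro i hi
    rw [hI, Finset.mem_filter, Finset.mem_range] at hi
    exact hi
  have hdI : ∀ i ∈ I, a ≤ d i ∧ d i ≤ 2 * a := by
    intro i hi
    obtain ⟨p1, p2⟩ := hIn i hi
    have := hg i p1
    rw [p2] at this
    exact this.2
  have hfI : ∀ t ∈ S', f t ∈ I := by
    intro t ht
    rw [hS', Finset.mem_filter] at ht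
    rw [hI, Finset.mem_filter, Finset.mem_range]
    exact ⟨(h1 t ht.1).1, ht.2⟩
  have hpiece : ∀ i ∈ I, K i ∈ B ∧ (S'.filter (fun t => f t = i)).Nonempty ∧
      a * c (K i) ≤ ∑ t ∈ S'.filter (fun t => f t = i), w t ∧
      ∑ t ∈ S'.filter (fun t => f t = i), w t ≤ 2 * a * c (K i) := by
    intro i hi
    obtain ⟨q1, _, q3, q4⟩ := h2 i (hIn i hi).1
    rw [hfil i hi, q4]
    refine ⟨q1, q3, ?_, ?_⟩
    · exact mul_le_mul_of_nonneg_right (hdI i hi).1 (hcpos _ q1).le
    · exact mul_le_mul_of_nonneg_right (hdI i hi).2 (hcpos _ q1).le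
  have hKT : ∀ L ∈ B, ∑ t ∈ S'.filter (fun t => mem t L), w t ≤ 2 * a * c L := by
    intro L hL
    rcases I.eq_empty_or_nonempty with hI0 | hIne
    · have : S' = ∅ := by
        rw [Finset.eq_empty_iff_forall_notMem]
        intro t ht
        have := hfI t ht
        rw [hI0] at this
        exact absurd this (Finset.notMem_empty _)
      rw [this]
      simp only [Finset.filter_empty, Finset.sum_empty]
      exact (mul_pos (mul_pos two_pos ha) (hcpos L hL)).le
    · have hi0 : I.min' hIne ∈ I := I.min'_mem hIne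
      set i0 := I.min' hIne with hi0'
      have h13 := h3 i0 (hIn i0 hi0).1 L hL
      have h14 : ∑ t ∈ S'.filter (fun t => mem t L), w t
          ≤ ∑ t ∈ S.filter (fun t => i0 ≤ f t ∧ mem t L), w t := by
        apply Finset.sum_le_sum_of_subset_of_nonneg
        · intro t ht
          rw [Finset.mem_filter] at ht ⊢
          refine ⟨(Finset.mem_filter.1 ht.1).1, ?_, ht.2⟩
          exact I.min'_le _ (hfI t ht.1)
        · intro t ht _
          exact (hwpos t (Finset.mem_filter.1 ht).1).le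
      have h15 : d i0 * c L ≤ 2 * a * c L :=
        mul_le_mul_of_nonneg_right (hdI i0 hi0).2 (hcpos L hL).le
      linarith
  refine ⟨S', I, K, f, a, ha, Finset.filter_subset _ _, ?_, ?_, hpiece, hKT, ?_⟩
  · rw [mul_comm]; exact hkW
  · intro t ht
    exact ⟨hfI t ht, (h1 t (Finset.mem_filter.1 ht).1).2⟩
  · intro J hJ L hL hsub
    have h16 : ∑ i ∈ J, a * c (K i) ≤ ∑ i ∈ J, ∑ t ∈ S'.filter (fun t => f t = i), w t :=
      Finset.sum_le_sum fun i hi => (hpiece i (hJ hi)).2.2.1
    have h17 : ∑ i ∈ J, ∑ t ∈ S'.filter (fun t => f t = i), w t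
        ≤ ∑ t ∈ S'.filter (fun t => mem t L), w t := by
      have h18 : ∑ i ∈ J, ∑ t ∈ S'.filter (fun t => f t = i), w t
          = ∑ t ∈ S'.filter (fun t => f t ∈ J), w t := by
        rw [← Finset.sum_fiberwise_of_maps_to (s := S'.filter (fun t => f t ∈ J)) (t := J)
          (g := f) (fun t ht => (Finset.mem_filter.1 ht).2) w]
        apply Finset.sum_congr rfl
        intro i hi
        apply Finset.sum_congr _ (fun _ _ => rfl)
        ext t
        simp only [Finset.mem_filter]
        constructor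
        · rintro ⟨r1, r2⟩
          exact ⟨⟨r1, by rw [r2]; exact hi⟩, r2⟩
        · rintro ⟨⟨r1, _⟩, r2⟩
          exact ⟨r1, r2⟩
      rw [h18]
      apply Finset.sum_le_sum_of_subset_of_nonneg
      · intro t ht
        rw [Finset.mem_filter] at ht ⊢
        exact ⟨ht.1, hsub (f t) ht.2 t ht.1 rfl⟩
      · intro t ht _
        exact (hwpos t (Finset.mem_filter.1 (Finset.mem_filter.1 ht).1).1).le
    have h19 := hKT L hL
    rw [← Finset.mul_sum] at h16
    have h20 : a * ∑ i ∈ J, c (K i) ≤ a * (2 * c L) := by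
      calc a * ∑ i ∈ J, c (K i) ≤ 2 * a * c L := (h16.trans h17).trans h19
        _ = a * (2 * c L) := by ring
    exact le_of_mul_le_mul_left h20 ha

/-! ### From an L² bound of overlaps to a bound of multiplicities -/

open MeasureTheory
open scoped ENNReal

/-- Weighted overlap bound: if `∑ j, b j * μ (E i ∩ E j) ≤ A * μ (E i)` for every `i`, then
`∫ (∑ b_i 1_{E_i})² ≤ A * ∑ b_i μ (E_i)`. -/
theorem lintegral_sq_le {X : Type*} [MeasurableSpace X] (μ : Measure X) {ι : Type*}
    (s : Finset ι) (b : ι → ℝ≥0∞) (E : ι → Set X) (hE : ∀ i ∈ s, MeasurableSet (E i)) (A : ℝ≥0∞)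
    (h : ∀ i ∈ s, ∑ j ∈ s, b j * μ (E i ∩ E j) ≤ A * μ (E i)) :
    ∫⁻ x, (∑ i ∈ s, b i * (E i).indicator 1 x) ^ 2 ∂μ ≤ A * ∑ i ∈ s, b i * μ (E i) := by
  have hmeas : ∀ i ∈ s, Measurable (fun x => b i * (E i).indicator (1 : X → ℝ≥0∞) x) :=
    fun i hi => (measurable_one.indicator (hE i hi)).const_mul _
  have e : ∀ x, (∑ i ∈ s, b i * (E i).indicator 1 x) ^ 2
      = ∑ i ∈ s, ∑ j ∈ s, b i * (b j * (E i ∩ E j).indicator (1 : X → ℝ≥0∞) x) := by
    intro x
    rw [sq, Finset.sum_mul_sum]
    refine Finset.sum_congr rfl fun i _ => Finset.sum_congr rfl fun j _ => ?_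
    rw [Set.inter_indicator_one, Pi.mul_apply]
    ring
  simp_rw [e]
  have hmij : ∀ i ∈ s, ∀ j ∈ s,
      Measurable (fun x => b i * (b j * (E i ∩ E j).indicator (1 : X → ℝ≥0∞) x)) :=
    fun i hi j hj => ((measurable_one.indicator ((hE i hi).inter (hE j hj))).const_mul _).const_mul _
  rw [lintegral_finsetSum s (fun i hi => Finset.measurable_fun_sum s (hmij i hi)), Finset.mul_sum]
  refine Finset.sum_le_sum fun i hi => ?_
  rw [lintegral_finsetSum s (hmij i hi)]
  have e2 : ∀ j ∈ s, ∫⁻ x, b i * (b j * (E i ∩ E j).indicator (1 : X → ℝ≥0∞) x) ∂μ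
      = b i * (b j * μ (E i ∩ E j)) := by
    intro j hj
    have hm := (hE i hi).inter (hE j hj)
    rw [lintegral_const_mul _ ((measurable_one.indicator hm).const_mul _),
      lintegral_const_mul _ (measurable_one.indicator hm), lintegral_indicator_one hm]
  rw [Finset.sum_congr rfl e2, ← Finset.mul_sum]
  calc b i * ∑ j ∈ s, b j * μ (E i ∩ E j) ≤ b i * (A * μ (E i)) := by gcongr; exact h i hi
    _ = A * (b i * μ (E i)) := by ring

/-- The incidence mass at multiplicity `≥ lam` is at most `(A * total) / lam`. -/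
theorem lintegral_mult_le {X : Type*} [MeasurableSpace X] (μ : Measure X) {ι : Type*}
    (s : Finset ι) (b : ι → ℝ≥0∞) (E : ι → Set X) (hE : ∀ i ∈ s, MeasurableSet (E i)) (A : ℝ≥0∞)
    (h : ∀ i ∈ s, ∑ j ∈ s, b j * μ (E i ∩ E j) ≤ A * μ (E i)) (lam : ℝ≥0∞) :
    lam * ∫⁻ x in {x | lam ≤ ∑ i ∈ s, b i * (E i).indicator 1 x},
      ∑ i ∈ s, b i * (E i).indicator 1 x ∂μ ≤ A * ∑ i ∈ s, b i * μ (E i) := by
  have hmeas : Measurable (fun x => ∑ i ∈ s, b i * (E i).indicator (1 : X → ℝ≥0∞) x) :=
    Finset.measurable_fun_sum s fun i hi => (measurable_one.indicator (hE i hi)).const_mul _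
  refine le_trans ?_ (lintegral_sq_le μ s b E hE A h)
  rw [← lintegral_const_mul _ hmeas]
  have hms : MeasurableSet {x | lam ≤ ∑ i ∈ s, b i * (E i).indicator (1 : X → ℝ≥0∞) x} :=
    measurableSet_le measurable_const hmeas
  calc ∫⁻ x in {x | lam ≤ ∑ i ∈ s, b i * (E i).indicator 1 x},
        lam * ∑ i ∈ s, b i * (E i).indicator 1 x ∂μ
      ≤ ∫⁻ x in {x | lam ≤ ∑ i ∈ s, b i * (E i).indicator 1 x},
        (∑ i ∈ s, b i * (E i).indicator 1 x) ^ 2 ∂μ := by
        refine setLIntegral_mono' hms fun x hx => ?_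
        rw [sq]
        gcongr
        exact hx
    _ ≤ _ := setLIntegral_le_lintegral _ _

end Crest.Agent.R138.Fac535
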