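import Mathlib

/-!
# R138, greedy factoring into (nearly) maximal-density boxes (helper953)

Geometry free.  `ι` = objects (tubes), `κ` = boxes (any type, no finiteness), `M i K` = "object `i`
lies in the box `K`", `v K > 0` = volume of the box or volume divided by a penalty, `a i` = weight.
-/

set_option autoImplicit false

open Finset

namespace Crest.Agent.R138.Fac953

variable {ι κ : Type*}

open Classical in
/-- weight of the objects of `A` contained in the box `K` -/
noncomputable def wIn (M : ι → κ → Prop) (a : ι → ℝ) (A : Finset ι) (K : κ) : ℝ :=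
  ∑ i ∈ A with M i K, a i

theorem wIn_mono {M : ι → κ → Prop} {a : ι → ℝ} {A B : Finset ι} (hAB : A ⊆ B)
    (ha : ∀ i ∈ B, 0 ≤ a i) (K : κ) : wIn M a A K ≤ wIn M a B K := by
  classical
  unfold wIn
  refine Finset.sum_le_sum_of_subset_of_nonneg (Finset.filter_subset_filter _ hAB) ?_
  intro i hi _
  exact ha i (Finset.mem_filter.1 hi).1

theorem wIn_nonneg {M : ι → κ → Prop} {a : ι → ℝ} {A : Finset ι}
    (ha : ∀ i ∈ A, 0 ≤ a i) (K : κ) : 0 ≤ wIn M a A K := by
  classical
  unfold wIn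
  exact Finset.sum_nonneg fun i hi => ha i (Finset.mem_filter.1 hi).1

theorem wIn_le_sum {M : ι → κ → Prop} {a : ι → ℝ} {A : Finset ι}
    (ha : ∀ i ∈ A, 0 ≤ a i) (K : κ) : wIn M a A K ≤ ∑ i ∈ A, a i := by
  classical
  unfold wIn
  exact Finset.sum_le_sum_of_subset_of_nonneg (Finset.filter_subset _ _) fun i hi _ => ha i hi

theorem le_wIn {M : ι → κ → Prop} {a : ι → ℝ} {A : Finset ι}
    (ha : ∀ i ∈ A, 0 ≤ a i) {K : κ} {i : ι} (hi : i ∈ A) (hM : M i K) : a i ≤ wIn M a A K := by
  classical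
  unfold wIn
  exact Finset.single_le_sum (f := a) (fun j hj => ha j (Finset.mem_filter.1 hj).1)
    (Finset.mem_filter.2 ⟨hi, hM⟩)

/-- one greedy step: a box whose density is at least half of every density; the density is also
at least `dmin / 2` if every object has a box of density `≥ dmin`. -/
theorem exists_step (M : ι → κ → Prop) (v : κ → ℝ) (v0 : ℝ) (hv0 : 0 < v0) (hv : ∀ K, v0 ≤ v K)
    (a : ι → ℝ) (A : Finset ι) (hne : A.Nonempty) (ha : ∀ i ∈ A, 0 < a i)
    (hcov : ∀ i ∈ A, ∃ K, M i K) :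
    ∃ K, 0 < wIn M a A K ∧ (∃ i ∈ A, M i K) ∧
      ∀ K', wIn M a A K' ≤ 2 * (wIn M a A K / v K) * v K' := by
  classical
  have ha' : ∀ i ∈ A, 0 ≤ a i := fun i hi => (ha i hi).le
  have hvpos : ∀ K, 0 < v K := fun K => hv0.trans_le (hv K)
  set F : κ → ℝ := fun K => wIn M a A K / v K with hF
  have hbdd : BddAbove (Set.range F) := by
    refine ⟨(∑ i ∈ A, a i) / v0, ?_⟩
    rintro _ ⟨K, rfl⟩
    have h1 : wIn M a A K ≤ ∑ i ∈ A, a i := wIn_le_sum ha' K
    have h2 : 0 ≤ ∑ i ∈ A, a i := Finset.sum_nonneg ha'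
    exact div_le_div₀ h2 h1 hv0 (hv K)
  obtain ⟨i0, hi0⟩ := hne
  obtain ⟨K0, hK0⟩ := hcov i0 hi0
  have hpos0 : 0 < F K0 := by
    have h1 : a i0 ≤ wIn M a A K0 := le_wIn ha' hi0 hK0
    exact div_pos (lt_of_lt_of_le (ha i0 hi0) h1) (hvpos K0)
  have hS : 0 < sSup (Set.range F) := lt_of_lt_of_le hpos0 (le_csSup hbdd ⟨K0, rfl⟩)
  have hlt : sSup (Set.range F) / 2 < sSup (Set.range F) := by linarith
  have hne' : (Set.range F).Nonempty := ⟨F K0, Set.mem_range_self K0⟩
  obtain ⟨_, ⟨K, rfl⟩, hK⟩ := exists_lt_of_lt_csSup hne' hlt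
  have hFK : 0 < F K := by linarith
  have hw : 0 < wIn M a A K := by
    have : wIn M a A K = F K * v K := by
      simp only [hF]; field_simp [(hvpos K).ne']
    rw [this]; exact mul_pos hFK (hvpos K)
  refine ⟨K, hw, ?_, fun K' => ?_⟩
  · by_contra hno
    push Not at hno
    have : wIn M a A K = 0 := by
      unfold wIn
      rw [Finset.filter_false_of_mem hno, Finset.sum_empty]
    exact hw.ne' this
  · have h1 : F K' ≤ sSup (Set.range F) := le_csSup hbdd ⟨K', rfl⟩
    have h2 : F K' ≤ 2 * F K := by linarith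
    have h3 : wIn M a A K' = F K' * v K' := by
      simp only [hF]; field_simp [(hvpos K').ne']
    rw [h3]
    exact mul_le_mul_of_nonneg_right h2 (hvpos K').le

open Classical in
/-- weight of stage `j` -/
noncomputable def wAt (f : ι → ℕ) (a : ι → ℝ) (A : Finset ι) (j : ℕ) : ℝ :=
  ∑ i ∈ A with f i = j, a i

open Classical in
/-- weight of the objects of stage `≥ j` contained in `K` -/
noncomputable def wGe (M : ι → κ → Prop) (f : ι → ℕ) (a : ι → ℝ) (A : Finset ι) (j : ℕ) (K : κ) : ℝ :=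
  ∑ i ∈ A with (j ≤ f i ∧ M i K), a i

/-- the output of the greedy algorithm: a stage function `f` and the box `K j` of every stage -/
structure Greedy (M : ι → κ → Prop) (v : κ → ℝ) (a : ι → ℝ) (A : Finset ι)
    (n : ℕ) (f : ι → ℕ) (K : ℕ → κ) : Prop where
  lt : ∀ i ∈ A, f i < n
  mem : ∀ i ∈ A, M i (K (f i))
  take : ∀ i ∈ A, ∀ j, j ≤ f i → M i (K j) → f i = j
  pos : ∀ j, j < n → 0 < wAt f a A j
  max : ∀ j, j < n → ∀ K', wGe M f a A j K' ≤ 2 * (wAt f a A j / v (K j)) * v K'

/-- **greedy factoring**, master form -/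
theorem exists_greedy [Nonempty κ] (M : ι → κ → Prop) (v : κ → ℝ) (v0 : ℝ) (hv0 : 0 < v0)
    (hv : ∀ K, v0 ≤ v K) (a : ι → ℝ) (A : Finset ι) (ha : ∀ i ∈ A, 0 < a i)
    (hcov : ∀ i ∈ A, ∃ K, M i K) :
    ∃ (n : ℕ) (f : ι → ℕ) (K : ℕ → κ), Greedy M v a A n f K := by
  classical
  induction A using Finset.strongInduction with
  | H A ih =>
    rcases A.eq_empty_or_nonempty with hA | hA
    · subst hA
      exact ⟨0, fun _ => 0, fun _ => Classical.arbitrary κ,
        ⟨by simp, by simp, by simp, by simp, by simp⟩⟩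
    · obtain ⟨K0, hw0, ⟨i0, hi0, hM0⟩, hmax⟩ := exists_step M v v0 hv0 hv a A hA ha hcov
      set A' : Finset ι := A.filter (fun i => ¬ M i K0) with hA'
      have hsub : A' ⊆ A := Finset.filter_subset _ _
      have hss : A' ⊂ A := by
        refine (Finset.ssubset_iff_of_subset hsub).2 ⟨i0, hi0, ?_⟩
        simp [hA', hM0]
      obtain ⟨n, f, K, hG⟩ := ih A' hss (fun i hi => ha i (hsub hi)) (fun i hi => hcov i (hsub hi))
      set f' : ι → ℕ := fun i => if M i K0 then 0 else f i + 1 with hf'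
      set K' : ℕ → κ := fun j => Nat.casesOn j K0 K with hK'
      have hwAt0 : wAt f' a A 0 = wIn M a A K0 := by
        unfold wAt wIn
        congr 1
        apply Finset.filter_congr
        intro i _
        simp only [hf']
        by_cases h : M i K0 <;> simp [h]
      have hwAt : ∀ j, wAt f' a A (j + 1) = wAt f a A' j := by
        intro j
        unfold wAt
        congr 1
        ext i
        simp only [Finset.mem_filter, hA', hf']
        by_cases h : M i K0 <;> simp [h]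
      have hwGe0 : ∀ L, wGe M f' a A 0 L = wIn M a A L := by
        intro L
        unfold wGe wIn
        congr 1
        apply Finset.filter_congr
        intro i _
        simp
      have hwGe : ∀ j L, wGe M f' a A (j + 1) L = wGe M f a A' j L := by
        intro j L
        unfold wGe
        congr 1
        ext i
        simp only [Finset.mem_filter, hA', hf']
        by_cases h : M i K0 <;> simp [h]
      refine ⟨n + 1, f', K', ?_, ?_, ?_, ?_, ?_⟩
      · intro i hi
        simp only [hf']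
        by_cases h : M i K0
        · simp [h]
        · simp only [h, if_false]
          have := hG.lt i (by simp [hA', hi, h])
          omega
      · intro i hi
        by_cases h : M i K0
        · have : f' i = 0 := by simp [hf', h]
          rw [this]; exact h
        · have : f' i = f i + 1 := by simp [hf', h]
          rw [this]
          exact hG.mem i (by simp [hA', hi, h])
      · intro i hi j hj hMj
        by_cases h : M i K0
        · have h0 : f' i = 0 := by simp [hf', h]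
          omega
        · have h1 : f' i = f i + 1 := by simp [hf', h]
          cases j with
          | zero => exact absurd hMj h
          | succ j =>
            have := hG.take i (by simp [hA', hi, h]) j (by omega) hMj
            omega
      · intro j hj
        cases j with
        | zero => rw [hwAt0]; exact hw0
        | succ j => rw [hwAt]; exact hG.pos j (by omega)
      · intro j hj L
        cases j with
        | zero =>
          rw [hwAt0, hwGe0]
          exact hmax L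
        | succ j =>
          rw [hwAt, hwGe]
          exact hG.max j (by omega) L

section
variable {M : ι → κ → Prop} {v : κ → ℝ} {a : ι → ℝ} {A : Finset ι} {n : ℕ} {f : ι → ℕ} {K : ℕ → κ}

/-- density of stage `j` -/
noncomputable def dens (v : κ → ℝ) (f : ι → ℕ) (K : ℕ → κ) (a : ι → ℝ) (A : Finset ι) (j : ℕ) : ℝ :=
  wAt f a A j / v (K j)

theorem Greedy.nonempty_stage (hG : Greedy M v a A n f K) {j : ℕ} (hj : j < n) :
    ∃ i ∈ A, f i = j := by
  classical
  by_contra hno
  push Not at hno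
  have : wAt f a A j = 0 := by
    unfold wAt
    rw [Finset.filter_false_of_mem hno, Finset.sum_empty]
  exact (hG.pos j hj).ne' this

/-- the densities are at least `dmin / 2` -/
theorem Greedy.le_dens (hG : Greedy M v a A n f K) (hvpos : ∀ K, 0 < v K)
    (ha : ∀ i ∈ A, 0 < a i) {dmin : ℝ} (hd : ∀ i ∈ A, ∃ L, M i L ∧ dmin * v L ≤ a i)
    {j : ℕ} (hj : j < n) : dmin / 2 ≤ dens v f K a A j := by
  classical
  obtain ⟨i, hi, hfi⟩ := hG.nonempty_stage hj
  obtain ⟨L, hML, hL⟩ := hd i hi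
  have h1 := hG.max j hj L
  have h2 : a i ≤ wGe M f a A j L := by
    unfold wGe
    exact Finset.single_le_sum (f := a) (fun k hk => (ha k (Finset.mem_filter.1 hk).1).le)
      (Finset.mem_filter.2 ⟨hi, hfi.ge, hML⟩)
  have h3 : dmin * v L ≤ 2 * dens v f K a A j * v L := hL.trans (h2.trans h1)
  have h4 : dmin ≤ 2 * dens v f K a A j := le_of_mul_le_mul_right h3 (hvpos L)
  linarith

theorem wAt_le_wIn (hG : Greedy M v a A n f K) (ha : ∀ i ∈ A, 0 < a i) (j : ℕ) :
    wAt f a A j ≤ wIn M a A (K j) := by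
  classical
  unfold wAt wIn
  refine Finset.sum_le_sum_of_subset_of_nonneg ?_ ?_
  · intro i hi
    rw [Finset.mem_filter] at hi ⊢
    exact ⟨hi.1, hi.2 ▸ hG.mem i hi.1⟩
  · intro i hi _
    exact (ha i (Finset.mem_filter.1 hi).1).le

/-- the densities are at most the maximal density -/
theorem Greedy.dens_le (hG : Greedy M v a A n f K) (hvpos : ∀ K, 0 < v K)
    (ha : ∀ i ∈ A, 0 < a i) {dmax : ℝ} (hd : ∀ L, wIn M a A L ≤ dmax * v L)
    (j : ℕ) : dens v f K a A j ≤ dmax := by
  unfold dens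
  rw [div_le_iff₀ (hvpos _)]
  exact (wAt_le_wIn hG ha j).trans (hd _)

end

/-- the factored subfamily: `S` splits into the classes `f = j`, `j ∈ J`, the class `j` lies in the
box `K j`, has density in `[D, 2D)` there; every box has density `≤ 4D`. -/
structure Fac (M : ι → κ → Prop) (v : κ → ℝ) (a : ι → ℝ) (S : Finset ι) (D : ℝ)
    (f : ι → ℕ) (K : ℕ → κ) (J : Finset ℕ) : Prop where
  maps : ∀ i ∈ S, f i ∈ J
  mem : ∀ i ∈ S, M i (K (f i))
  take : ∀ i ∈ S, ∀ j, j ≤ f i → M i (K j) → f i = j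
  nonempty : ∀ j ∈ J, ∃ i ∈ S, f i = j
  lo : ∀ j ∈ J, D * v (K j) ≤ wAt f a S j
  hi : ∀ j ∈ J, wAt f a S j < 2 * D * v (K j)
  glob : ∀ L, wIn M a S L ≤ 4 * D * v L

/-- **factoring theorem**: greedy algorithm + pigeonholing of the density and of a finite label. -/
theorem exists_fac [Nonempty κ] {Λ : Type*} [Fintype Λ] (M : ι → κ → Prop) (v : κ → ℝ)
    (v0 : ℝ) (hv0 : 0 < v0) (hv : ∀ K, v0 ≤ v K) (a : ι → ℝ) (A : Finset ι) (hA : A.Nonempty)
    (ha : ∀ i ∈ A, 0 < a i) (dmin dmax : ℝ) (hdmin : 0 < dmin)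
    (hd0 : ∀ i ∈ A, ∃ L, M i L ∧ dmin * v L ≤ a i) (hd1 : ∀ L, wIn M a A L ≤ dmax * v L)
    (ℓ : κ → Λ) :
    ∃ (S : Finset ι) (D : ℝ) (f : ι → ℕ) (K : ℕ → κ) (J : Finset ℕ) (l : Λ),
      S ⊆ A ∧ S.Nonempty ∧ 0 < D ∧ dmin / 4 ≤ D ∧ D ≤ dmax ∧ Fac M v a S D f K J ∧
      (∀ j ∈ J, ℓ (K j) = l) ∧
      (∑ i ∈ A, a i) ≤ (Fintype.card Λ * (Real.logb 2 (dmax / dmin) + 3)) * ∑ i ∈ S, a i := by
  classical
  have hvpos : ∀ K, 0 < v K := fun K => hv0.trans_le (hv K)
  obtain ⟨n, f, K, hG⟩ := exists_greedy M v v0 hv0 hv a A ha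
    (fun i hi => (hd0 i hi).imp fun L hL => hL.1)
  set d : ℕ → ℝ := dens v f K a A with hd
  have hdlo : ∀ j, j < n → dmin / 2 ≤ d j := fun j hj => hG.le_dens hvpos ha hd0 hj
  have hdhi : ∀ j, d j ≤ dmax := fun j => hG.dens_le hvpos ha hd1 j
  have hdpos : ∀ j, j < n → 0 < d j := fun j hj => lt_of_lt_of_le (by linarith) (hdlo j hj)
  -- pigeonholing
  set m0 : ℤ := Int.log 2 (dmin / 2) with hm0
  set m1 : ℤ := Int.log 2 dmax with hm1
  set t : Finset (Λ × ℤ) := Finset.univ ×ˢ Finset.Icc m0 m1 with ht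
  set g : ι → Λ × ℤ := fun i => (ℓ (K (f i)), Int.log 2 (d (f i))) with hg
  have hmaps : ∀ i ∈ A, g i ∈ t := by
    intro i hi
    have hj := hG.lt i hi
    simp only [ht, hg, Finset.mem_product, Finset.mem_univ, true_and, Finset.mem_Icc]
    exact ⟨Int.log_mono_right (by linarith) (hdlo _ hj),
      Int.log_mono_right (hdpos _ hj) (hdhi _)⟩
  obtain ⟨i0, hi0⟩ := hA
  have htne : t.Nonempty := ⟨g i0, hmaps i0 hi0⟩
  have hcard : (0 : ℝ) < t.card := by exact_mod_cast htne.card_pos
  have hsum0 : 0 < ∑ i ∈ A, a i := Finset.sum_pos ha ⟨i0, hi0⟩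
  obtain ⟨y, hy, hyw⟩ := Finset.exists_le_sum_fiber_of_maps_to_of_nsmul_le_sum (s := A) (t := t)
    (f := g) (w := a) (b := (∑ i ∈ A, a i) / t.card) hmaps htne (by
      rw [nsmul_eq_mul, mul_div_cancel₀ _ hcard.ne'])
  set S : Finset ι := A.filter (fun i => g i = y) with hS
  have hSA : S ⊆ A := Finset.filter_subset _ _
  have hSpos : 0 < ∑ i ∈ S, a i := lt_of_lt_of_le (div_pos hsum0 hcard) hyw
  have hSne : S.Nonempty := by
    by_contra hne
    rw [Finset.not_nonempty_iff_eq_empty] at hne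
    rw [hne, Finset.sum_empty] at hSpos
    exact lt_irrefl _ hSpos
  set D : ℝ := (2 : ℝ) ^ y.2 with hD
  have hDpos : 0 < D := zpow_pos (by norm_num) _
  set J : Finset ℕ := S.image f with hJ
  have hJn : ∀ j ∈ J, j < n ∧ ℓ (K j) = y.1 ∧ Int.log 2 (d j) = y.2 ∧ ∃ i ∈ S, f i = j := by
    intro j hj
    obtain ⟨i, hi, rfl⟩ := Finset.mem_image.1 hj
    have hiA := hSA hi
    have hgi : g i = y := (Finset.mem_filter.1 hi).2
    refine ⟨hG.lt i hiA, ?_, ?_, i, hi, rfl⟩
    · rw [← hgi]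
    · rw [← hgi]
  have hstage : ∀ j ∈ J, wAt f a S j = wAt f a A j := by
    intro j hj
    obtain ⟨hjn, h1, h2, -⟩ := hJn j hj
    unfold wAt
    congr 1
    ext i
    simp only [Finset.mem_filter, hS, hg]
    constructor
    · rintro ⟨⟨h3, _⟩, h4⟩; exact ⟨h3, h4⟩
    · rintro ⟨h3, h4⟩
      refine ⟨⟨h3, ?_⟩, h4⟩
      rw [h4]
      exact Prod.ext h1 h2
  have hDlo : ∀ j ∈ J, D ≤ d j := by
    intro j hj
    obtain ⟨hjn, _, h2, _⟩ := hJn j hj
    rw [hD, ← h2]
    exact_mod_cast Int.zpow_log_le_self (b := 2) (by norm_num) (hdpos j hjn)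
  have hDhi : ∀ j ∈ J, d j < 2 * D := by
    intro j hj
    obtain ⟨hjn, _, h2, _⟩ := hJn j hj
    have := Int.lt_zpow_succ_log_self (b := 2) (by norm_num) (d j)
    rw [h2] at this
    rw [hD]
    have h3 : ((2 : ℕ) : ℝ) ^ (y.2 + 1) = 2 * (2 : ℝ) ^ y.2 := by
      rw [zpow_add₀ (by norm_num)]
      push_cast
      ring
    rw [h3] at this
    exact this
  have hlo : ∀ j ∈ J, D * v (K j) ≤ wAt f a S j := by
    intro j hj
    rw [hstage j hj]
    have := hDlo j hj
    rw [hd] at this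
    unfold dens at this
    rwa [le_div_iff₀ (hvpos _)] at this
  have hhi : ∀ j ∈ J, wAt f a S j < 2 * D * v (K j) := by
    intro j hj
    rw [hstage j hj]
    have := hDhi j hj
    rw [hd] at this
    unfold dens at this
    rwa [div_lt_iff₀ (hvpos _)] at this
  have hglob : ∀ L, wIn M a S L ≤ 4 * D * v L := by
    intro L
    -- first stage of S
    have hJne : J.Nonempty := hSne.image f
    set j0 := J.min' hJne with hj0
    have hj0J : j0 ∈ J := Finset.min'_mem _ _
    obtain ⟨hj0n, _, _, _⟩ := hJn j0 hj0J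
    have h1 : wIn M a S L ≤ wGe M f a A j0 L := by
      unfold wIn wGe
      refine Finset.sum_le_sum_of_subset_of_nonneg ?_ ?_
      · intro i hi
        rw [Finset.mem_filter] at hi ⊢
        exact ⟨hSA hi.1, Finset.min'_le _ _ (Finset.mem_image_of_mem f hi.1), hi.2⟩
      · intro i hi _
        exact (ha i (Finset.mem_filter.1 hi).1).le
    have h2 := hG.max j0 hj0n L
    have h3 : 2 * (wAt f a A j0 / v (K j0)) * v L ≤ 4 * D * v L := by
      apply mul_le_mul_of_nonneg_right _ (hvpos L).le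
      have := hDhi j0 hj0J
      rw [hd] at this
      unfold dens at this
      linarith
    exact h1.trans (h2.trans h3)
  refine ⟨S, D, f, K, J, y.1, hSA, hSne, hDpos, ?_, ?_, ⟨?_, ?_, ?_, ?_, hlo, hhi, hglob⟩, ?_, ?_⟩
  · obtain ⟨i, hi⟩ := hSne
    have hj : f i ∈ J := Finset.mem_image_of_mem f hi
    have h1 := hDhi _ hj
    have h2 := hdlo _ (hJn _ hj).1
    linarith
  · obtain ⟨i, hi⟩ := hSne
    have hj : f i ∈ J := Finset.mem_image_of_mem f hi
    exact (hDlo _ hj).trans (hdhi _)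
  · intro i hi; exact Finset.mem_image_of_mem f hi
  · intro i hi; exact hG.mem i (hSA hi)
  · intro i hi; exact hG.take i (hSA hi)
  · intro j hj; exact (hJn j hj).2.2.2
  · intro j hj; exact (hJn j hj).2.1
  · -- the cardinality of the label set
    have hdmax : 0 < dmax := lt_of_lt_of_le (hdpos _ (hG.lt i0 hi0)) (hdhi _)
    have hm01 : m0 ≤ m1 := by
      have := hmaps i0 hi0
      simp only [ht, Finset.mem_product, Finset.mem_Icc] at this
      exact this.2.1.trans this.2.2
    have hc1 : (t.card : ℝ) = Fintype.card Λ * ((m1 : ℝ) - m0 + 1) := by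
      rw [ht, Finset.card_product, Int.card_Icc, Finset.card_univ]
      push_cast
      congr 1
      have : ((m1 + 1 - m0).toNat : ℤ) = m1 + 1 - m0 := Int.toNat_of_nonneg (by omega)
      have h2 : (((m1 + 1 - m0).toNat : ℤ) : ℝ) = ((m1 + 1 - m0 : ℤ) : ℝ) := by rw [this]
      push_cast at h2
      rw [h2]; ring
    have hm1le : (m1 : ℝ) ≤ Real.logb 2 dmax := by
      have h := Int.zpow_log_le_self (b := 2) (by norm_num) hdmax
      rw [← hm1] at h
      rw [Real.le_logb_iff_rpow_le (by norm_num) hdmax, Real.rpow_intCast]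
      exact_mod_cast h
    have hm0ge : Real.logb 2 dmin - 2 ≤ (m0 : ℝ) := by
      have h := Int.lt_zpow_succ_log_self (b := 2) (by norm_num) (dmin / 2)
      rw [← hm0] at h
      have h2 : Real.logb 2 (dmin / 2) < (m0 : ℝ) + 1 := by
        rw [Real.logb_lt_iff_lt_rpow (by norm_num) (by linarith)]
        have : ((2 : ℝ) ^ ((m0 : ℝ) + 1)) = ((2 : ℕ) : ℝ) ^ (m0 + 1) := by
          rw [show ((m0 : ℝ) + 1) = (((m0 + 1 : ℤ)) : ℝ) by push_cast; ring, Real.rpow_intCast]
          norm_num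
        rw [this]
        exact h
      rw [Real.logb_div hdmin.ne' (by norm_num), Real.logb_self_eq_one (by norm_num)] at h2
      linarith
    have hlog : Real.logb 2 (dmax / dmin) = Real.logb 2 dmax - Real.logb 2 dmin :=
      Real.logb_div hdmax.ne' hdmin.ne'
    have hc2 : (t.card : ℝ) ≤ Fintype.card Λ * (Real.logb 2 (dmax / dmin) + 3) := by
      rw [hc1, hlog]
      apply mul_le_mul_of_nonneg_left _ (Nat.cast_nonneg _)
      linarith
    have h5 : (∑ i ∈ A, a i) ≤ t.card * ∑ i ∈ S, a i := by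
      rw [div_le_iff₀ hcard] at hyw
      linarith [mul_comm (∑ i ∈ S, a i) (t.card : ℝ)]
    exact h5.trans (mul_le_mul_of_nonneg_right hc2 hSpos.le)

section
variable {M : ι → κ → Prop} {v : κ → ℝ} {a : ι → ℝ} {S : Finset ι} {D : ℝ} {f : ι → ℕ}
  {K : ℕ → κ} {J : Finset ℕ}

/-- total weight = sum over the stages -/
theorem Fac.sum_wAt (h : Fac M v a S D f K J) : ∑ j ∈ J, wAt f a S j = ∑ i ∈ S, a i := by
  classical
  unfold wAt
  exact Finset.sum_fiberwise_of_maps_to h.maps a

theorem Fac.wIn_stage_le [DecidableEq ℕ] (h : Fac M v a S D f K J) (ha : ∀ i ∈ S, 0 ≤ a i) (j : ℕ) (L : κ) :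
    wIn M a (S.filter (fun i => f i = j)) L ≤ 4 * D * v L :=
  (wIn_mono (Finset.filter_subset _ _) ha L).trans (h.glob L)

/-- **Katz-Tao property of the boxes**: `Sub K K'` = "K is contained in K'". -/
theorem Fac.katzTao (h : Fac M v a S D f K J) (hD : 0 < D) (ha : ∀ i ∈ S, 0 ≤ a i)
    (Sub : κ → κ → Prop) (hSub : ∀ i K K', M i K → Sub K K' → M i K') (L : κ)
    (J' : Finset ℕ) (hJ' : J' ⊆ J) (hJL : ∀ j ∈ J', Sub (K j) L) :
    ∑ j ∈ J', v (K j) ≤ 4 * v L := by
  classical
  have h1 : D * ∑ j ∈ J', v (K j) ≤ ∑ j ∈ J', wAt f a S j := by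
    rw [Finset.mul_sum]
    exact Finset.sum_le_sum fun j hj => h.lo j (hJ' hj)
  have h2 : ∑ j ∈ J', wAt f a S j ≤ wIn M a S L := by
    have h3 : ∑ j ∈ J', wAt f a S j = ∑ i ∈ S with f i ∈ J', a i := by
      have : ∀ i ∈ S.filter (fun i => f i ∈ J'), f i ∈ J' := fun i hi => (Finset.mem_filter.1 hi).2
      rw [← Finset.sum_fiberwise_of_maps_to this a]
      refine Finset.sum_congr rfl fun j hj => ?_
      unfold wAt
      congr 1
      ext i
      simp only [Finset.mem_filter]
      constructor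
      · rintro ⟨h4, h5⟩; exact ⟨⟨h4, h5 ▸ hj⟩, h5⟩
      · rintro ⟨⟨h4, _⟩, h5⟩; exact ⟨h4, h5⟩
    rw [h3]
    unfold wIn
    refine Finset.sum_le_sum_of_subset_of_nonneg ?_ ?_
    · intro i hi
      rw [Finset.mem_filter] at hi ⊢
      exact ⟨hi.1, hSub i _ L (h.mem i hi.1) (hJL _ hi.2)⟩
    · intro i hi _
      exact ha i (Finset.mem_filter.1 hi).1
  have h4 : D * ∑ j ∈ J', v (K j) ≤ D * (4 * v L) := by
    calc D * ∑ j ∈ J', v (K j) ≤ wIn M a S L := h1.trans h2
      _ ≤ 4 * D * v L := h.glob L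
      _ = D * (4 * v L) := by ring
  exact le_of_mul_le_mul_left h4 hD

/-- the boxes have bounded total volume -/
theorem Fac.sum_vol_le (h : Fac M v a S D f K J) : D * ∑ j ∈ J, v (K j) ≤ ∑ i ∈ S, a i := by
  rw [← h.sum_wAt, Finset.mul_sum]
  exact Finset.sum_le_sum fun j hj => h.lo j hj

theorem Fac.sum_le_vol (h : Fac M v a S D f K J) : ∑ i ∈ S, a i ≤ 2 * D * ∑ j ∈ J, v (K j) := by
  rw [← h.sum_wAt, Finset.mul_sum]
  exact Finset.sum_le_sum fun j hj => (h.hi j hj).le

end

end Crest.Agent.R138.Fac953
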