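import Mathlib

/-!
R138 (helper658): planar Falconer / Peres-Schlag L2 projection inequality, finite form.
Part 1: Gaussian Fourier identities on `ℝ × ℝ`.
-/

set_option autoImplicit false

namespace Crest.Agent.R138.Fal658

open Real MeasureTheory Finset Complex

noncomputable section

/-- one dimensional Gaussian Fourier transform, real parameters. -/
theorem ft1 {p : ℝ} (hp : 0 < p) (u : ℝ) :
    ∫ x : ℝ, cexp (-(π * p ^ 2 * x ^ 2 : ℝ)) * cexp (2 * π * u * x * I)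
      = ((p⁻¹ * rexp (-(π * u ^ 2 / p ^ 2)) : ℝ) : ℂ) := by
  have hb : 0 < ((π * p ^ 2 : ℝ) : ℂ).re := by
    rw [Complex.ofReal_re]; positivity
  have h := fourierIntegral_gaussian hb ((2 * π * u : ℝ) : ℂ)
  have e1 : (fun x : ℝ => cexp (-(π * p ^ 2 * x ^ 2 : ℝ)) * cexp (2 * π * u * x * I))
      = fun x : ℝ => cexp (I * ((2 * π * u : ℝ) : ℂ) * x) * cexp (-((π * p ^ 2 : ℝ) : ℂ) * (x : ℂ) ^ 2) := by
    funext x
    rw [mul_comm]
    congr 1
    · congr 1; push_cast; ring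
    · congr 1; push_cast; ring
  rw [e1, h]
  have e2 : ((π : ℂ) / ((π * p ^ 2 : ℝ) : ℂ)) ^ (1 / 2 : ℂ) = ((p⁻¹ : ℝ) : ℂ) := by
    have : ((π : ℂ) / ((π * p ^ 2 : ℝ) : ℂ)) = (((p⁻¹) ^ 2 : ℝ) : ℂ) := by
      have hπ : (π : ℂ) ≠ 0 := by exact_mod_cast Real.pi_ne_zero
      have hp' : (p : ℂ) ≠ 0 := by exact_mod_cast hp.ne'
      push_cast
      field_simp
    rw [this]
    have h3 : (((p⁻¹) ^ 2 : ℝ) : ℂ) ^ (1 / 2 : ℂ) = (((((p⁻¹) ^ 2 : ℝ)) ^ (1 / 2 : ℝ) : ℝ) : ℂ) := by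
      rw [Complex.ofReal_cpow (by positivity)]
      norm_num
    rw [h3]
    congr 1
    rw [← Real.sqrt_eq_rpow, Real.sqrt_sq (by positivity)]
  rw [e2]
  push_cast
  congr 1
  have hπ : (π : ℂ) ≠ 0 := by exact_mod_cast Real.pi_ne_zero
  have hp' : (p : ℂ) ≠ 0 := by exact_mod_cast hp.ne'
  congr 1
  field_simp
  ring

theorem int1 {p : ℝ} (hp : 0 < p) : Integrable (fun x : ℝ => rexp (-(π * p ^ 2 * x ^ 2))) := by
  have h := integrable_exp_neg_mul_sq (b := π * p ^ 2) (by positivity)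
  refine h.congr (Filter.Eventually.of_forall fun x => ?_)
  simp only
  congr 1
  ring

/-- the character `x ↦ e^{2πi (n ξ₁ + c ξ₂)}` -/
def ch (n c : ℝ) (ξ : ℝ × ℝ) : ℂ := cexp (2 * π * (n * ξ.1 + c * ξ.2) * I)

theorem norm_ch (n c : ℝ) (ξ : ℝ × ℝ) : ‖ch n c ξ‖ = 1 := by
  unfold ch
  have : (2 * (π : ℂ) * ((n : ℂ) * ξ.1 + c * ξ.2) * I) = ((2 * π * (n * ξ.1 + c * ξ.2) : ℝ) : ℂ) * I := by
    push_cast; ring
  rw [this, Complex.norm_exp_ofReal_mul_I]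

theorem continuous_ch (n c : ℝ) : Continuous (ch n c) := by
  unfold ch; fun_prop

/-- the sheared Gaussian -/
def gs (p q t : ℝ) (ξ : ℝ × ℝ) : ℝ := rexp (-(π * (p ^ 2 * ξ.1 ^ 2 + q ^ 2 * (ξ.2 - t * ξ.1) ^ 2)))

theorem continuous_gs (p q t : ℝ) : Continuous (gs p q t) := by
  unfold gs; fun_prop

theorem gs_pos (p q t : ℝ) (ξ : ℝ × ℝ) : 0 < gs p q t ξ := Real.exp_pos _

theorem integrable_gs {p q : ℝ} (hp : 0 < p) (hq : 0 < q) (t : ℝ) :
    Integrable (gs p q t) (volume.prod volume) := by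
  rw [integrable_prod_iff (continuous_gs p q t).aestronglyMeasurable]
  constructor
  · refine Filter.Eventually.of_forall fun x => ?_
    have h := ((int1 hq).comp_sub_right (t * x)).const_mul (rexp (-(π * p ^ 2 * x ^ 2)))
    refine h.congr (Filter.Eventually.of_forall fun y => ?_)
    simp only [gs]
    rw [← Real.exp_add]; congr 1; ring
  · have e : (fun x : ℝ => ∫ y : ℝ, ‖gs p q t (x, y)‖)
        = fun x : ℝ => rexp (-(π * p ^ 2 * x ^ 2)) * ∫ y : ℝ, rexp (-(π * q ^ 2 * y ^ 2)) := by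
      funext x
      rw [← integral_const_mul]
      rw [← integral_sub_right_eq_self (fun y : ℝ => rexp (-(π * p ^ 2 * x ^ 2)) * rexp (-(π * q ^ 2 * y ^ 2))) (t * x)]
      refine integral_congr_ae (Filter.Eventually.of_forall fun y => ?_)
      simp only [gs, Real.norm_eq_abs, abs_of_pos (Real.exp_pos _)]
      rw [← Real.exp_add]; congr 1; ring
    rw [e]
    exact (int1 hp).mul_const _

theorem integrable_gs_ch {p q : ℝ} (hp : 0 < p) (hq : 0 < q) (t n c : ℝ) :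
    Integrable (fun ξ : ℝ × ℝ => (gs p q t ξ : ℂ) * ch n c ξ) (volume.prod volume) := by
  refine (integrable_gs hp hq t).mono' ?_ ?_
  · exact ((Complex.continuous_ofReal.comp (continuous_gs p q t)).mul (continuous_ch n c)).aestronglyMeasurable
  · refine Filter.Eventually.of_forall fun ξ => ?_
    rw [norm_mul, norm_ch, mul_one, Complex.norm_real, Real.norm_eq_abs, abs_of_pos (gs_pos p q t ξ)]

/-- Fourier transform of the sheared Gaussian -/
theorem ft2 {p q : ℝ} (hp : 0 < p) (hq : 0 < q) (t n c : ℝ) :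
    ∫ ξ : ℝ × ℝ, (gs p q t ξ : ℂ) * ch n c ξ ∂(volume.prod volume)
      = ((p⁻¹ * q⁻¹ * rexp (-(π * ((n + t * c) ^ 2 / p ^ 2 + c ^ 2 / q ^ 2))) : ℝ) : ℂ) := by
  rw [integral_prod _ (integrable_gs_ch hp hq t n c)]
  have e : ∀ x : ℝ, ∫ y : ℝ, (gs p q t (x, y) : ℂ) * ch n c (x, y)
      = (cexp (-(π * p ^ 2 * x ^ 2 : ℝ)) * cexp (2 * π * ((n + t * c : ℝ) : ℂ) * x * I)) *
        ((q⁻¹ * rexp (-(π * c ^ 2 / q ^ 2)) : ℝ) : ℂ) := by
    intro x
    rw [← ft1 hq c]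
    rw [← integral_const_mul]
    rw [← integral_sub_right_eq_self (fun y : ℝ => (cexp (-(π * p ^ 2 * x ^ 2 : ℝ)) * cexp (2 * π * ((n + t * c : ℝ) : ℂ) * x * I)) *
      (cexp (-(π * q ^ 2 * y ^ 2 : ℝ)) * cexp (2 * π * c * y * I))) (t * x)]
    refine integral_congr_ae (Filter.Eventually.of_forall fun y => ?_)
    simp only [gs, ch]
    rw [Complex.ofReal_exp, ← Complex.exp_add, ← Complex.exp_add, ← Complex.exp_add, ← Complex.exp_add]
    congr 1
    push_cast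
    ring
  simp only [e]
  rw [integral_mul_const]
  have h1 := ft1 hp (n + t * c)
  rw [h1]
  rw [← Complex.ofReal_mul]
  congr 1
  rw [show -(π * ((n + t * c) ^ 2 / p ^ 2 + c ^ 2 / q ^ 2)) = -(π * (n + t * c) ^ 2 / p ^ 2) + -(π * c ^ 2 / q ^ 2) by ring,
    Real.exp_add]
  ring

/-- exponential sum of a finite weighted point set -/
def es {ι : Type*} (I' : Finset ι) (w n c : ι → ℝ) (ξ : ℝ × ℝ) : ℂ := ∑ i ∈ I', (w i : ℂ) * ch (n i) (c i) ξ

theorem continuous_es {ι : Type*} (I' : Finset ι) (w n c : ι → ℝ) : Continuous (es I' w n c) := by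
  unfold es
  exact continuous_finsetSum _ fun i _ => continuous_const.mul (continuous_ch _ _)

theorem norm_sq_es {ι : Type*} (I' : Finset ι) (w n c : ι → ℝ) (ξ : ℝ × ℝ) :
    ((‖es I' w n c ξ‖ ^ 2 : ℝ) : ℂ) = ∑ i ∈ I', ∑ j ∈ I', ((w i * w j : ℝ) : ℂ) * ch (n i - n j) (c i - c j) ξ := by
  have h0 : ((‖es I' w n c ξ‖ ^ 2 : ℝ) : ℂ) = es I' w n c ξ * (starRingEnd ℂ) (es I' w n c ξ) := by
    rw [Complex.mul_conj, Complex.normSq_eq_norm_sq]
  rw [h0]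
  unfold es
  rw [map_sum, Finset.sum_mul_sum]
  refine Finset.sum_congr rfl fun i _ => Finset.sum_congr rfl fun j _ => ?_
  have hc : (starRingEnd ℂ) ((w j : ℂ) * ch (n j) (c j) ξ) = (w j : ℂ) * ch (-(n j)) (-(c j)) ξ := by
    rw [map_mul, Complex.conj_ofReal]
    congr 1
    unfold ch
    rw [← Complex.exp_conj]
    congr 1
    simp only [map_mul, map_add, Complex.conj_ofReal, Complex.conj_I, map_ofNat]
    push_cast
    ring
  rw [hc]
  unfold ch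
  rw [show (w i : ℂ) * cexp (2 * π * ((n i : ℂ) * ξ.1 + (c i : ℂ) * ξ.2) * I) *
      ((w j : ℂ) * cexp (2 * π * (((-(n j) : ℝ) : ℂ) * ξ.1 + ((-(c j) : ℝ) : ℂ) * ξ.2) * I))
      = ((w i * w j : ℝ) : ℂ) * (cexp (2 * π * ((n i : ℂ) * ξ.1 + (c i : ℂ) * ξ.2) * I) *
        cexp (2 * π * (((-(n j) : ℝ) : ℂ) * ξ.1 + ((-(c j) : ℝ) : ℂ) * ξ.2) * I)) by push_cast; ring]
  rw [← Complex.exp_add]
  congr 2
  push_cast
  ring

theorem norm_es_le {ι : Type*} (I' : Finset ι) (w n c : ι → ℝ) (ξ : ℝ × ℝ) :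
    ‖es I' w n c ξ‖ ≤ ∑ i ∈ I', |w i| := by
  unfold es
  refine (norm_sum_le _ _).trans (Finset.sum_le_sum fun i _ => ?_)
  rw [norm_mul, norm_ch, mul_one, Complex.norm_real, Real.norm_eq_abs]

theorem integrable_gs_es {ι : Type*} (I' : Finset ι) (w n c : ι → ℝ) {p q : ℝ} (hp : 0 < p) (hq : 0 < q) (t : ℝ) :
    Integrable (fun ξ : ℝ × ℝ => gs p q t ξ * ‖es I' w n c ξ‖ ^ 2) (volume.prod volume) := by
  refine ((integrable_gs hp hq t).mul_const ((∑ i ∈ I', |w i|) ^ 2)).mono' ?_ ?_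
  · exact ((continuous_gs p q t).mul ((continuous_es I' w n c).norm.pow 2)).aestronglyMeasurable
  · refine Filter.Eventually.of_forall fun ξ => ?_
    rw [norm_mul, Real.norm_eq_abs, abs_of_pos (gs_pos p q t ξ), Real.norm_eq_abs, abs_of_nonneg (by positivity)]
    have := norm_es_le I' w n c ξ
    have h2 := gs_pos p q t ξ
    gcongr

/-- quadratic form identity -/
theorem quad {ι : Type*} (I' : Finset ι) (w n c : ι → ℝ) {p q : ℝ} (hp : 0 < p) (hq : 0 < q) (t : ℝ) :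
    ∑ i ∈ I', ∑ j ∈ I', w i * w j *
        rexp (-(π * (((n i - n j) + t * (c i - c j)) ^ 2 / p ^ 2 + (c i - c j) ^ 2 / q ^ 2)))
      = p * q * ∫ ξ : ℝ × ℝ, gs p q t ξ * ‖es I' w n c ξ‖ ^ 2 ∂(volume.prod volume) := by
  have h1 : ((∫ ξ : ℝ × ℝ, gs p q t ξ * ‖es I' w n c ξ‖ ^ 2 ∂(volume.prod volume) : ℝ) : ℂ)
      = ∑ i ∈ I', ∑ j ∈ I', ((w i * w j : ℝ) : ℂ) *
        ((p⁻¹ * q⁻¹ * rexp (-(π * (((n i - n j) + t * (c i - c j)) ^ 2 / p ^ 2 + (c i - c j) ^ 2 / q ^ 2))) : ℝ) : ℂ) := by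
    rw [← integral_complex_ofReal]
    have e : (fun ξ : ℝ × ℝ => ((gs p q t ξ * ‖es I' w n c ξ‖ ^ 2 : ℝ) : ℂ))
        = fun ξ => ∑ i ∈ I', ∑ j ∈ I', ((w i * w j : ℝ) : ℂ) * ((gs p q t ξ : ℂ) * ch (n i - n j) (c i - c j) ξ) := by
      funext ξ
      rw [Complex.ofReal_mul, norm_sq_es, Finset.mul_sum]
      refine Finset.sum_congr rfl fun i _ => ?_
      rw [Finset.mul_sum]
      refine Finset.sum_congr rfl fun j _ => ?_
      ring
    rw [e]
    rw [integral_finsetSum _ fun i _ => integrable_finsetSum _ fun j _ => (integrable_gs_ch hp hq t _ _).const_mul _]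
    refine Finset.sum_congr rfl fun i _ => ?_
    rw [integral_finsetSum _ fun j _ => (integrable_gs_ch hp hq t _ _).const_mul _]
    refine Finset.sum_congr rfl fun j _ => ?_
    rw [integral_const_mul, ft2 hp hq]
  have h2 : (∫ ξ : ℝ × ℝ, gs p q t ξ * ‖es I' w n c ξ‖ ^ 2 ∂(volume.prod volume))
      = ∑ i ∈ I', ∑ j ∈ I', (w i * w j) *
        (p⁻¹ * q⁻¹ * rexp (-(π * (((n i - n j) + t * (c i - c j)) ^ 2 / p ^ 2 + (c i - c j) ^ 2 / q ^ 2)))) := by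
    exact_mod_cast h1
  rw [h2, Finset.mul_sum]
  refine Finset.sum_congr rfl fun i _ => ?_
  rw [Finset.mul_sum]
  refine Finset.sum_congr rfl fun j _ => ?_
  field_simp

end

end Crest.Agent.R138.Fal658
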