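import Crest.Agent.R138.Fal1_658

/-!
R138 (helper658): planar Falconer / Peres-Schlag L2 projection inequality, finite form.
Part 2: grid sums, multiplier bound, the inequality.
-/

set_option autoImplicit false

namespace Crest.Agent.R138.Fal658

open Real MeasureTheory Finset

noncomputable section

theorem geo_le (N : ℕ) : ∑ x ∈ Finset.range N, ((1 : ℝ) / 2) ^ x ≤ 2 := by
  rw [geom_sum_eq (by norm_num)]
  have : (0 : ℝ) ≤ (1 / 2) ^ N := by positivity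
  rw [div_le_iff_of_neg (by norm_num)]
  linarith

/-- geometric decay over the integers -/
theorem sum_int_half (A : Finset ℤ) (a0 : ℤ) : ∑ a ∈ A, ((1 : ℝ) / 2) ^ (a - a0).natAbs ≤ 3 := by
  obtain ⟨N, hN⟩ : ∃ N : ℕ, ∀ b ∈ A, (b - a0).natAbs < N := by
    refine ⟨A.sup (fun b => (b - a0).natAbs) + 1, fun b hb => ?_⟩
    have := Finset.le_sup (f := fun b : ℤ => (b - a0).natAbs) hb
    exact Nat.lt_succ_of_le this
  rw [← Finset.sum_filter_add_sum_filter_not A (fun b => a0 ≤ b)]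
  have h1 : ∑ a ∈ A with a0 ≤ a, ((1 : ℝ) / 2) ^ (a - a0).natAbs ≤ 2 := by
    have hinj : Set.InjOn (fun a : ℤ => (a - a0).natAbs) ((A.filter (fun b => a0 ≤ b) : Finset ℤ) : Set ℤ) := by
      intro x hx y hy h
      simp only [Finset.coe_filter, Set.mem_ofPred_eq] at hx hy
      simp only at h
      omega
    have e : ∑ a ∈ A with a0 ≤ a, ((1 : ℝ) / 2) ^ (a - a0).natAbs
        = ∑ x ∈ (A.filter (fun b => a0 ≤ b)).image (fun a : ℤ => (a - a0).natAbs), ((1 : ℝ) / 2) ^ x := by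
      rw [Finset.sum_image hinj]
    rw [e]
    refine (Finset.sum_le_sum_of_subset_of_nonneg (t := Finset.range N) ?_ fun _ _ _ => by positivity).trans (geo_le N)
    intro x hx
    rw [Finset.mem_image] at hx
    obtain ⟨b, hb, rfl⟩ := hx
    exact Finset.mem_range.2 (hN b (Finset.mem_filter.1 hb).1)
  have h2 : ∑ a ∈ A with ¬ a0 ≤ a, ((1 : ℝ) / 2) ^ (a - a0).natAbs ≤ 1 := by
    have hinj : Set.InjOn (fun a : ℤ => (a - a0).natAbs - 1) ((A.filter (fun b => ¬ a0 ≤ b) : Finset ℤ) : Set ℤ) := by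
      intro x hx y hy h
      simp only [Finset.coe_filter, Set.mem_ofPred_eq] at hx hy
      simp only at h
      omega
    have e : ∑ a ∈ A with ¬ a0 ≤ a, ((1 : ℝ) / 2) ^ (a - a0).natAbs
        = ∑ x ∈ (A.filter (fun b => ¬ a0 ≤ b)).image (fun a : ℤ => (a - a0).natAbs - 1), ((1 : ℝ) / 2) ^ (x + 1) := by
      rw [Finset.sum_image hinj]
      refine Finset.sum_congr rfl fun x hx => ?_
      have := (Finset.mem_filter.1 hx).2
      congr 1
      omega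
    rw [e]
    refine (Finset.sum_le_sum_of_subset_of_nonneg (t := Finset.range N) ?_ fun _ _ _ => by positivity).trans ?_
    · intro x hx
      rw [Finset.mem_image] at hx
      obtain ⟨b, hb, rfl⟩ := hx
      have := hN b (Finset.mem_filter.1 hb).1
      exact Finset.mem_range.2 (by omega)
    · have : ∑ x ∈ Finset.range N, ((1 : ℝ) / 2) ^ (x + 1) = (1 / 2) * ∑ x ∈ Finset.range N, ((1 : ℝ) / 2) ^ x := by
        rw [Finset.mul_sum]; refine Finset.sum_congr rfl fun x _ => by ring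
      rw [this]
      have := geo_le N
      linarith
  linarith

/-- `exp (-(π s²)) ≤ 2 · 2^{-m}` when `m - 1 ≤ s` -/
theorem exp_le_half {m : ℕ} {s : ℝ} (h : (m : ℝ) - 1 ≤ s) (hs : 0 ≤ s) :
    rexp (-(π * s ^ 2)) ≤ 2 * ((1 : ℝ) / 2) ^ m := by
  rcases Nat.lt_or_ge m 2 with hm | hm
  · have h1 : rexp (-(π * s ^ 2)) ≤ 1 := by
      rw [Real.exp_le_one_iff]
      have := Real.pi_pos
      have : 0 ≤ π * s ^ 2 := by positivity
      linarith
    refine h1.trans ?_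
    interval_cases m <;> norm_num
  · obtain ⟨k, rfl⟩ : ∃ k, m = k + 2 := ⟨m - 2, by omega⟩
    push_cast at h
    have h1 : (k : ℝ) + 1 ≤ s := by linarith
    have h2 : ((k : ℝ) + 1) ≤ π * s ^ 2 := by
      have : (3 : ℝ) < π := Real.pi_gt_three
      nlinarith [h1, sq_nonneg (s - 1), (Nat.cast_nonneg k : (0 : ℝ) ≤ k)]
    have h3 : rexp (-(π * s ^ 2)) ≤ rexp (-((k : ℝ) + 1)) := Real.exp_le_exp.2 (by linarith)
    have h4 : rexp (-((k : ℝ) + 1)) ≤ ((1 : ℝ) / 2) ^ (k + 1) := by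
      have e : rexp (-((k : ℝ) + 1)) = (rexp (-1)) ^ (k + 1) := by
        rw [← Real.exp_nat_mul]; congr 1; push_cast; ring
      rw [e]
      refine pow_le_pow_left₀ (Real.exp_pos _).le ?_ _
      rw [Real.exp_neg]
      have : (2 : ℝ) ≤ rexp 1 := by
        have := Real.add_one_le_exp (1 : ℝ); linarith
      rw [inv_le_comm₀ (Real.exp_pos _) (by norm_num)]
      linarith
    calc rexp (-(π * s ^ 2)) ≤ ((1 : ℝ) / 2) ^ (k + 1) := h3.trans h4
      _ = 2 * ((1 : ℝ) / 2) ^ (k + 2) := by ring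

/-- distance of cells -/
theorem floor_dist (x y : ℝ) : (((⌊x⌋ - ⌊y⌋).natAbs : ℕ) : ℝ) - 1 ≤ |x - y| := by
  have h1 := Int.floor_le x
  have h2 := Int.lt_floor_add_one x
  have h3 := Int.floor_le y
  have h4 := Int.lt_floor_add_one y
  rw [Nat.cast_natAbs, Int.cast_abs, Int.cast_sub]
  have : |((⌊x⌋ : ℝ) - ⌊y⌋)| ≤ |x - y| + 1 := by
    have : ((⌊x⌋ : ℝ) - ⌊y⌋) = (x - y) - ((x - ⌊x⌋) - (y - ⌊y⌋)) := by ring
    rw [this]
    refine (abs_sub _ _).trans ?_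
    have : |(x - ⌊x⌋) - (y - ⌊y⌋)| ≤ 1 := by
      rw [abs_le]; constructor <;> linarith
    linarith
  linarith

/-- one dimensional grid sum of a Gaussian -/
theorem grid1 {κ : Type*} (J : Finset κ) (v t : κ → ℝ) (hv : ∀ z ∈ J, 0 ≤ v z) {M g : ℝ} (hM : 0 ≤ M)
    (hg : ∀ a : ℤ, ∑ z ∈ J with ⌊M * t z⌋ = a, v z ≤ g) {x : ℝ} (hx : M ≤ |x|) (s : ℝ) :
    ∑ z ∈ J, v z * rexp (-(π * (x * (t z - s)) ^ 2)) ≤ 6 * g := by
  classical
  have hb : ∀ z ∈ J, v z * rexp (-(π * (x * (t z - s)) ^ 2))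
      ≤ v z * (2 * ((1 : ℝ) / 2) ^ (⌊M * t z⌋ - ⌊M * s⌋).natAbs) := by
    intro z hz
    refine mul_le_mul_of_nonneg_left ?_ (hv z hz)
    have h1 := floor_dist (M * t z) (M * s)
    have h2 : |M * t z - M * s| = M * |t z - s| := by rw [← mul_sub, abs_mul, abs_of_nonneg hM]
    have h3 := exp_le_half (h1.trans_eq h2) (by positivity)
    refine le_trans (Real.exp_le_exp.2 ?_) h3
    have h4 : (M * |t z - s|) ^ 2 ≤ (x * (t z - s)) ^ 2 := by
      rw [← sq_abs (x * (t z - s)), abs_mul]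
      exact pow_le_pow_left₀ (by positivity) (mul_le_mul_of_nonneg_right hx (abs_nonneg _)) 2
    have := Real.pi_pos
    nlinarith
  refine (Finset.sum_le_sum hb).trans ?_
  have e : ∑ z ∈ J, v z * (2 * ((1 : ℝ) / 2) ^ (⌊M * t z⌋ - ⌊M * s⌋).natAbs)
      = ∑ a ∈ J.image (fun z => ⌊M * t z⌋), ∑ z ∈ J with ⌊M * t z⌋ = a, v z * (2 * ((1 : ℝ) / 2) ^ (⌊M * t z⌋ - ⌊M * s⌋).natAbs) := by
    rw [Finset.sum_fiberwise_of_maps_to (g := fun z => ⌊M * t z⌋) (t := J.image (fun z => ⌊M * t z⌋))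
      (fun z hz => Finset.mem_image_of_mem _ hz)]
  rw [e]
  have hb2 : ∀ a ∈ J.image (fun z => ⌊M * t z⌋), ∑ z ∈ J with ⌊M * t z⌋ = a, v z * (2 * ((1 : ℝ) / 2) ^ (⌊M * t z⌋ - ⌊M * s⌋).natAbs)
      ≤ 2 * g * ((1 : ℝ) / 2) ^ (a - ⌊M * s⌋).natAbs := by
    intro a _
    have : ∑ z ∈ J with ⌊M * t z⌋ = a, v z * (2 * ((1 : ℝ) / 2) ^ (⌊M * t z⌋ - ⌊M * s⌋).natAbs)
        = (∑ z ∈ J with ⌊M * t z⌋ = a, v z) * (2 * ((1 : ℝ) / 2) ^ (a - ⌊M * s⌋).natAbs) := by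
      rw [Finset.sum_mul]
      refine Finset.sum_congr rfl fun z hz => ?_
      rw [(Finset.mem_filter.1 hz).2]
    rw [this]
    have h1 := mul_le_mul_of_nonneg_right (hg a) (show (0 : ℝ) ≤ 2 * ((1 : ℝ) / 2) ^ (a - ⌊M * s⌋).natAbs by positivity)
    refine h1.trans_eq (by ring)
  refine (Finset.sum_le_sum hb2).trans ?_
  rw [← Finset.mul_sum]
  have hg0 : 0 ≤ g := by
    refine le_trans ?_ (hg 0)
    exact Finset.sum_nonneg fun z hz => hv z (Finset.mem_filter.1 hz).1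
  have := sum_int_half (J.image (fun z => ⌊M * t z⌋)) ⌊M * s⌋
  nlinarith

/-- two dimensional grid sum of a Gaussian -/
theorem grid2 {ι : Type*} (I' : Finset ι) (w n c : ι → ℝ) (hw : ∀ i ∈ I', 0 ≤ w i) {M f : ℝ} (hM : 0 ≤ M)
    (hf : ∀ a b : ℤ, ∑ i ∈ I' with ⌊M * n i⌋ = a ∧ ⌊M * c i⌋ = b, w i ≤ f) {x : ℝ} (hx : M ≤ |x|) (n0 c0 : ℝ) :
    ∑ i ∈ I', w i * rexp (-(π * ((x * (n i - n0)) ^ 2 + (x * (c i - c0)) ^ 2))) ≤ 36 * f := by
  classical
  have hb : ∀ i ∈ I', w i * rexp (-(π * ((x * (n i - n0)) ^ 2 + (x * (c i - c0)) ^ 2)))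
      ≤ (2 * ((1 : ℝ) / 2) ^ (⌊M * n i⌋ - ⌊M * n0⌋).natAbs) * (w i * rexp (-(π * (x * (c i - c0)) ^ 2))) := by
    intro i hi
    have h1 := floor_dist (M * n i) (M * n0)
    have h2 : |M * n i - M * n0| = M * |n i - n0| := by rw [← mul_sub, abs_mul, abs_of_nonneg hM]
    have h3 := exp_le_half (h1.trans_eq h2) (by positivity)
    have h4 : (M * |n i - n0|) ^ 2 ≤ (x * (n i - n0)) ^ 2 := by
      rw [← sq_abs (x * (n i - n0)), abs_mul]
      exact pow_le_pow_left₀ (by positivity) (mul_le_mul_of_nonneg_right hx (abs_nonneg _)) 2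
    have h5 : rexp (-(π * (x * (n i - n0)) ^ 2)) ≤ 2 * ((1 : ℝ) / 2) ^ (⌊M * n i⌋ - ⌊M * n0⌋).natAbs := by
      refine le_trans (Real.exp_le_exp.2 ?_) h3
      have := Real.pi_pos
      nlinarith
    have h6 : rexp (-(π * ((x * (n i - n0)) ^ 2 + (x * (c i - c0)) ^ 2)))
        = rexp (-(π * (x * (n i - n0)) ^ 2)) * rexp (-(π * (x * (c i - c0)) ^ 2)) := by
      rw [← Real.exp_add]; congr 1; ring
    rw [h6]
    have h7 : 0 ≤ w i * rexp (-(π * (x * (c i - c0)) ^ 2)) := mul_nonneg (hw i hi) (Real.exp_pos _).le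
    calc w i * (rexp (-(π * (x * (n i - n0)) ^ 2)) * rexp (-(π * (x * (c i - c0)) ^ 2)))
        = rexp (-(π * (x * (n i - n0)) ^ 2)) * (w i * rexp (-(π * (x * (c i - c0)) ^ 2))) := by ring
      _ ≤ _ := mul_le_mul_of_nonneg_right h5 h7
  refine (Finset.sum_le_sum hb).trans ?_
  rw [← Finset.sum_fiberwise_of_maps_to (g := fun i => ⌊M * n i⌋) (t := I'.image (fun i => ⌊M * n i⌋))
    (fun i hi => Finset.mem_image_of_mem _ hi)]
  have hb2 : ∀ a ∈ I'.image (fun i => ⌊M * n i⌋), ∑ i ∈ I' with ⌊M * n i⌋ = a,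
      (2 * ((1 : ℝ) / 2) ^ (⌊M * n i⌋ - ⌊M * n0⌋).natAbs) * (w i * rexp (-(π * (x * (c i - c0)) ^ 2)))
      ≤ 12 * f * ((1 : ℝ) / 2) ^ (a - ⌊M * n0⌋).natAbs := by
    intro a _
    have : ∑ i ∈ I' with ⌊M * n i⌋ = a,
        (2 * ((1 : ℝ) / 2) ^ (⌊M * n i⌋ - ⌊M * n0⌋).natAbs) * (w i * rexp (-(π * (x * (c i - c0)) ^ 2)))
        = (2 * ((1 : ℝ) / 2) ^ (a - ⌊M * n0⌋).natAbs) * ∑ i ∈ I' with ⌊M * n i⌋ = a, w i * rexp (-(π * (x * (c i - c0)) ^ 2)) := by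
      rw [Finset.mul_sum]
      refine Finset.sum_congr rfl fun i hi => ?_
      rw [(Finset.mem_filter.1 hi).2]
    rw [this]
    have h1 := grid1 (I'.filter (fun i => ⌊M * n i⌋ = a)) w c (fun i hi => hw i (Finset.mem_filter.1 hi).1) hM
      (g := f) (fun b => by
        rw [Finset.filter_filter]
        exact hf a b) hx c0
    have h2 := mul_le_mul_of_nonneg_left h1 (show (0 : ℝ) ≤ 2 * ((1 : ℝ) / 2) ^ (a - ⌊M * n0⌋).natAbs by positivity)
    refine h2.trans_eq (by ring)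
  refine (Finset.sum_le_sum hb2).trans ?_
  rw [← Finset.mul_sum]
  have hf0 : 0 ≤ f := by
    refine le_trans ?_ (hf 0 0)
    exact Finset.sum_nonneg fun i hi => hw i (Finset.mem_filter.1 hi).1
  have := sum_int_half (I'.image (fun i => ⌊M * n i⌋)) ⌊M * n0⌋
  nlinarith

end

end Crest.Agent.R138.Fal658
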