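import Crest.Agent.R138.Fal2_658

/-!
R138 (helper658): planar Falconer / Peres-Schlag L2 projection inequality, finite form.
Part 3: the inequality
`∑_z v_z ∑_{i,j : |π_z(x_i - x_j)| ≤ 2^-L} w_i w_j ≤ C 2^-L W ∑_{k ≤ L} 4^k f_k g_k`,
`f_k` = maximal mass of a grid square of side `2^-k`, `g_k` = maximal mass of a grid interval of
directions of length `2^-k`.
-/

set_option autoImplicit false
set_option linter.unusedVariables false

namespace Crest.Agent.R138.Fal658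

open Real MeasureTheory Finset

noncomputable section

variable {ι κ : Type*}

theorem total_le (J : Finset κ) (v t : κ → ℝ) (hv : ∀ z ∈ J, 0 ≤ v z) (ht : ∀ z ∈ J, |t z| ≤ 1) {g0 : ℝ}
    (hg : ∀ a : ℤ, ∑ z ∈ J with ⌊t z⌋ = a, v z ≤ g0) : ∑ z ∈ J, v z ≤ 3 * g0 := by
  classical
  rw [← Finset.sum_fiberwise_of_maps_to (g := fun z => ⌊t z⌋) (t := ({-1, 0, 1} : Finset ℤ))]
  · rw [Finset.sum_insert (by decide), Finset.sum_insert (by decide), Finset.sum_singleton]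
    have h1 := hg (-1)
    have h2 := hg 0
    have h3 := hg 1
    linarith
  · intro z hz
    have h := ht z hz
    rw [abs_le] at h
    have h1 : -1 ≤ ⌊t z⌋ := Int.le_floor.2 (by push_cast; linarith)
    have h2 : ⌊t z⌋ < 2 := Int.floor_lt.2 (by push_cast; linarith)
    simp only [Finset.mem_insert, Finset.mem_singleton]
    omega

/-- the dominating multiplier -/
def Dm (L : ℕ) (g : ℕ → ℝ) (ξ : ℝ × ℝ) : ℝ :=
  ∑ k ∈ Finset.range (L + 1), g k * gs (((1 : ℝ) / 2) ^ (k + 3)) (((1 : ℝ) / 2) ^ (k + 3)) 0 ξ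

theorem gs_iso (k : ℕ) (ξ : ℝ × ℝ) : gs (((1 : ℝ) / 2) ^ k) (((1 : ℝ) / 2) ^ k) 0 ξ
    = rexp (-(π * ((1 / 4) ^ k * (ξ.1 ^ 2 + ξ.2 ^ 2)))) := by
  unfold gs
  congr 2
  rw [zero_mul, sub_zero, ← pow_mul, mul_comm k 2, pow_mul]
  norm_num
  ring

theorem one_third_le : (1 : ℝ) / 3 ≤ rexp (-1) := by
  rw [Real.exp_neg, one_div]
  have := Real.exp_one_lt_d9
  exact inv_anti₀ (Real.exp_pos _) (by linarith)

theorem le_Dm (L : ℕ) (g : ℕ → ℝ) (hg0 : ∀ k ≤ L, 0 ≤ g k) (ξ : ℝ × ℝ) {k : ℕ} (hk : k ≤ L) :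
    g k * rexp (-(π * ((1 / 4) ^ (k + 3) * (ξ.1 ^ 2 + ξ.2 ^ 2)))) ≤ Dm L g ξ := by
  unfold Dm
  rw [← gs_iso]
  exact Finset.single_le_sum (f := fun k => g k * gs (((1 : ℝ) / 2) ^ (k + 3)) (((1 : ℝ) / 2) ^ (k + 3)) 0 ξ)
    (fun i hi => mul_nonneg (hg0 i (by have := Finset.mem_range.1 hi; omega)) (gs_pos _ _ _ _).le)
    (Finset.mem_range.2 (by omega))

/-- the multiplier bound -/
theorem mult_le (J : Finset κ) (v t : κ → ℝ) (hv : ∀ z ∈ J, 0 ≤ v z) (ht : ∀ z ∈ J, |t z| ≤ 1) (L : ℕ) (g : ℕ → ℝ)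
    (hg : ∀ k ≤ L, ∀ a : ℤ, ∑ z ∈ J with ⌊(2 : ℝ) ^ k * t z⌋ = a, v z ≤ g k) (ξ : ℝ × ℝ) :
    ∑ z ∈ J, v z * gs (((1 : ℝ) / 2) ^ L) 1 (t z) ξ ≤ 18 * Dm L g ξ := by
  classical
  have hg0 : ∀ k ≤ L, 0 ≤ g k := fun k hk =>
    le_trans (Finset.sum_nonneg fun z hz => hv z (Finset.mem_filter.1 hz).1) (hg k hk 0)
  have hV : ∑ z ∈ J, v z ≤ 3 * g 0 := total_le J v t hv ht (fun a => by simpa using hg 0 (Nat.zero_le _) a)
  have hπ := Real.pi_pos
  have hπ4 := Real.pi_lt_four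
  have hπ32 : π < 3.2 := by have := Real.pi_lt_d2; linarith
  have hπ3 := Real.pi_gt_three
  have hg00 := hg0 0 (Nat.zero_le _)
  have hq : (((1 : ℝ) / 2) ^ L) ^ 2 = (1 / 4) ^ L := by
    rw [← pow_mul, mul_comm, pow_mul]; norm_num
  by_cases hA : 2 * |ξ.1| < |ξ.2|
  · -- steep frequencies
    have h1 : ∀ z ∈ J, v z * gs (((1 : ℝ) / 2) ^ L) 1 (t z) ξ ≤ v z * rexp (-(π * ((1 / 4) ^ (0 + 3) * (ξ.1 ^ 2 + ξ.2 ^ 2)))) := by
      intro z hz
      refine mul_le_mul_of_nonneg_left (Real.exp_le_exp.2 ?_) (hv z hz)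
      have h2 : |ξ.2| / 2 ≤ |ξ.2 - t z * ξ.1| := by
        have h3 : |ξ.2| - |t z * ξ.1| ≤ |ξ.2 - t z * ξ.1| := abs_sub_abs_le_abs_sub _ _
        have h4 : |t z * ξ.1| ≤ |ξ.1| := by
          rw [abs_mul]
          have := mul_le_mul_of_nonneg_right (ht z hz) (abs_nonneg ξ.1)
          linarith
        linarith
      have h5 : ξ.2 ^ 2 / 4 ≤ (ξ.2 - t z * ξ.1) ^ 2 := by
        have := pow_le_pow_left₀ (by positivity) h2 2
        rw [sq_abs, div_pow, sq_abs] at this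
        linarith
      have h6 : ξ.1 ^ 2 ≤ ξ.2 ^ 2 / 4 := by
        have := pow_le_pow_left₀ (by positivity) hA.le 2
        rw [mul_pow, sq_abs, sq_abs] at this
        linarith
      have h7 : (0 : ℝ) ≤ (((1 : ℝ) / 2) ^ L) ^ 2 * ξ.1 ^ 2 := by positivity
      have h8 : (1 / 4 : ℝ) ^ (0 + 3) * (ξ.1 ^ 2 + ξ.2 ^ 2) ≤ (((1 : ℝ) / 2) ^ L) ^ 2 * ξ.1 ^ 2 + 1 ^ 2 * (ξ.2 - t z * ξ.1) ^ 2 := by
        norm_num at *
        nlinarith [sq_nonneg ξ.2, sq_nonneg ξ.1]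
      have := mul_le_mul_of_nonneg_left h8 hπ.le
      linarith
    refine (Finset.sum_le_sum h1).trans ?_
    rw [← Finset.sum_mul]
    have h9 := le_Dm L g hg0 ξ (Nat.zero_le L)
    have h10 := Real.exp_pos (-(π * ((1 / 4) ^ (0 + 3) * (ξ.1 ^ 2 + ξ.2 ^ 2))))
    have h11 := mul_le_mul_of_nonneg_right hV h10.le
    nlinarith [mul_nonneg hg00 h10.le]
  · push Not at hA
    have hB : ξ.2 ^ 2 ≤ 4 * ξ.1 ^ 2 := by
      have := pow_le_pow_left₀ (by positivity) hA 2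
      rw [mul_pow, sq_abs, sq_abs] at this
      linarith
    rcases lt_or_ge |ξ.1| 1 with h1 | h1
    · -- small frequencies
      have h2 : ∀ z ∈ J, v z * gs (((1 : ℝ) / 2) ^ L) 1 (t z) ξ ≤ v z := by
        intro z hz
        have : gs (((1 : ℝ) / 2) ^ L) 1 (t z) ξ ≤ 1 := by
          unfold gs
          rw [Real.exp_le_one_iff]
          have : 0 ≤ π * ((((1 : ℝ) / 2) ^ L) ^ 2 * ξ.1 ^ 2 + 1 ^ 2 * (ξ.2 - t z * ξ.1) ^ 2) := by positivity
          linarith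
        have := mul_le_mul_of_nonneg_left this (hv z hz)
        linarith
      refine (Finset.sum_le_sum h2).trans ?_
      have h9 := le_Dm L g hg0 ξ (Nat.zero_le L)
      have h3 : ξ.1 ^ 2 ≤ 1 := by
        rw [← sq_abs]
        exact pow_le_one₀ (abs_nonneg _) h1.le
      have h4 : rexp (-1) ≤ rexp (-(π * ((1 / 4) ^ (0 + 3) * (ξ.1 ^ 2 + ξ.2 ^ 2)))) := by
        refine Real.exp_le_exp.2 ?_
        norm_num
        nlinarith [sq_nonneg ξ.1, sq_nonneg ξ.2]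
      have h5 := one_third_le
      have h6 := mul_le_mul_of_nonneg_left (h5.trans h4) hg00
      nlinarith
    · have hne : ξ.1 ≠ 0 := by
        intro h; rw [h] at h1; norm_num at h1
      -- rewrite every Gaussian
      have key : ∀ (M : ℝ) (gk : ℝ), 0 ≤ M → M ≤ |ξ.1| → (∀ a : ℤ, ∑ z ∈ J with ⌊M * t z⌋ = a, v z ≤ gk) →
          ∑ z ∈ J, v z * gs (((1 : ℝ) / 2) ^ L) 1 (t z) ξ ≤ rexp (-(π * ((1 / 4) ^ L * ξ.1 ^ 2))) * (6 * gk) := by
        intro M gk hM0 hM hMg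
        have h2 := grid1 J v t hv hM0 hMg hM (ξ.2 / ξ.1)
        have h3 : ∑ z ∈ J, v z * gs (((1 : ℝ) / 2) ^ L) 1 (t z) ξ
            = rexp (-(π * ((1 / 4) ^ L * ξ.1 ^ 2))) * ∑ z ∈ J, v z * rexp (-(π * (ξ.1 * (t z - ξ.2 / ξ.1)) ^ 2)) := by
          rw [Finset.mul_sum]
          refine Finset.sum_congr rfl fun z _ => ?_
          have : gs (((1 : ℝ) / 2) ^ L) 1 (t z) ξ
              = rexp (-(π * ((1 / 4) ^ L * ξ.1 ^ 2))) * rexp (-(π * (ξ.1 * (t z - ξ.2 / ξ.1)) ^ 2)) := by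
            unfold gs
            rw [← Real.exp_add, hq]
            congr 1
            field_simp
            ring
          rw [this]; ring
        rw [h3]
        exact mul_le_mul_of_nonneg_left h2 (Real.exp_pos _).le
      rcases lt_or_ge |ξ.1| ((2 : ℝ) ^ L) with h2 | h2
      · -- middle frequencies
        obtain ⟨k, hk1, hk2⟩ : ∃ k : ℕ, (2 : ℝ) ^ k ≤ |ξ.1| ∧ |ξ.1| < (2 : ℝ) ^ (k + 1) :=
          exists_nat_pow_near h1 (by norm_num)
        have hkL : k < L := by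
          by_contra hcon
          push Not at hcon
          have : (2 : ℝ) ^ L ≤ 2 ^ k := pow_le_pow_right₀ (by norm_num) hcon
          linarith
        have h3 := key (2 ^ k) (g k) (by positivity) hk1 (hg k hkL.le)
        have h4 : rexp (-(π * ((1 / 4) ^ L * ξ.1 ^ 2))) ≤ 1 := by
          rw [Real.exp_le_one_iff]
          have : 0 ≤ π * ((1 / 4) ^ L * ξ.1 ^ 2) := by positivity
          linarith
        have hgk := hg0 k hkL.le
        have h5 := le_Dm L g hg0 ξ hkL.le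
        have h6 : rexp (-1) ≤ rexp (-(π * ((1 / 4) ^ (k + 3) * (ξ.1 ^ 2 + ξ.2 ^ 2)))) := by
          refine Real.exp_le_exp.2 ?_
          have h7 : ξ.1 ^ 2 ≤ 4 ^ (k + 1) := by
            rw [← sq_abs]
            have := pow_le_pow_left₀ (abs_nonneg _) hk2.le 2
            refine this.trans_eq ?_
            rw [← pow_mul, mul_comm, pow_mul]; norm_num
          have h8 : (1 / 4 : ℝ) ^ (k + 3) * (ξ.1 ^ 2 + ξ.2 ^ 2) ≤ 5 / 16 := by
            have h9 : ξ.1 ^ 2 + ξ.2 ^ 2 ≤ 5 * 4 ^ (k + 1) := by linarith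
            have h10 := mul_le_mul_of_nonneg_left h9 (show (0 : ℝ) ≤ (1 / 4) ^ (k + 3) by positivity)
            refine h10.trans_eq ?_
            rw [show (1 / 4 : ℝ) ^ (k + 3) = (1 / 4) ^ (k + 1) * (1 / 16) by ring]
            have : (1 / 4 : ℝ) ^ (k + 1) * 4 ^ (k + 1) = 1 := by rw [← mul_pow]; norm_num
            linear_combination (5 / 16) * this
          have h9 : π * ((1 / 4 : ℝ) ^ (k + 3) * (ξ.1 ^ 2 + ξ.2 ^ 2)) ≤ 3.2 * (5 / 16) :=
            mul_le_mul hπ32.le h8 (by positivity) (by norm_num)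
          norm_num at h9 ⊢
          linarith
        have h7 := one_third_le
        have h8 := mul_le_mul_of_nonneg_left (h7.trans h6) hgk
        have h9 := mul_le_mul_of_nonneg_right h4 (show (0 : ℝ) ≤ 6 * g k by positivity)
        nlinarith
      · -- high frequencies
        have h3 := key (2 ^ L) (g L) (by positivity) h2 (hg L le_rfl)
        have hgk := hg0 L le_rfl
        have h5 := le_Dm L g hg0 ξ (le_refl L)
        have h6 : rexp (-(π * ((1 / 4) ^ L * ξ.1 ^ 2))) ≤ rexp (-(π * ((1 / 4) ^ (L + 3) * (ξ.1 ^ 2 + ξ.2 ^ 2)))) := by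
          refine Real.exp_le_exp.2 ?_
          have h7 : (1 / 4 : ℝ) ^ (L + 3) * (ξ.1 ^ 2 + ξ.2 ^ 2) ≤ (1 / 4) ^ L * ξ.1 ^ 2 := by
            rw [show (1 / 4 : ℝ) ^ (L + 3) = (1 / 4) ^ L * (1 / 64) by ring, mul_assoc]
            refine mul_le_mul_of_nonneg_left ?_ (by positivity)
            nlinarith [sq_nonneg ξ.1]
          have := mul_le_mul_of_nonneg_left h7 hπ.le
          linarith
        have h8 := mul_le_mul_of_nonneg_left h6 hgk
        have h9 : 0 ≤ g L * rexp (-(π * ((1 / 4) ^ (L + 3) * (ξ.1 ^ 2 + ξ.2 ^ 2)))) := mul_nonneg hgk (Real.exp_pos _).le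
        nlinarith

theorem integrable_Dm_es (I' : Finset ι) (w n c : ι → ℝ) (L : ℕ) (g : ℕ → ℝ) :
    Integrable (fun ξ : ℝ × ℝ => Dm L g ξ * ‖es I' w n c ξ‖ ^ 2) (volume.prod volume) := by
  have : (fun ξ : ℝ × ℝ => Dm L g ξ * ‖es I' w n c ξ‖ ^ 2)
      = fun ξ => ∑ k ∈ Finset.range (L + 1), g k * (gs (((1 : ℝ) / 2) ^ (k + 3)) (((1 : ℝ) / 2) ^ (k + 3)) 0 ξ * ‖es I' w n c ξ‖ ^ 2) := by
    funext ξ
    unfold Dm
    rw [Finset.sum_mul]
    exact Finset.sum_congr rfl fun k _ => by ring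
  rw [this]
  exact integrable_finsetSum _ fun k _ => (integrable_gs_es I' w n c (by positivity) (by positivity) 0).const_mul _

/-- **planar Falconer inequality**, finite weighted form, no exponents. -/
theorem falconer (I' : Finset ι) (w n c : ι → ℝ) (J : Finset κ) (v t : κ → ℝ) (L : ℕ) (f g : ℕ → ℝ)
    (hw : ∀ i ∈ I', 0 ≤ w i) (hv : ∀ z ∈ J, 0 ≤ v z) (hc : ∀ i ∈ I', |c i| ≤ 1) (ht : ∀ z ∈ J, |t z| ≤ 1)
    (hf : ∀ k ≤ L, ∀ a b : ℤ, ∑ i ∈ I' with ⌊(2 : ℝ) ^ k * n i⌋ = a ∧ ⌊(2 : ℝ) ^ k * c i⌋ = b, w i ≤ f k)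
    (hg : ∀ k ≤ L, ∀ a : ℤ, ∑ z ∈ J with ⌊(2 : ℝ) ^ k * t z⌋ = a, v z ≤ g k) :
    ∑ z ∈ J, v z * ∑ i ∈ I', ∑ j ∈ I' with |(n i - n j) + t z * (c i - c j)| ≤ (1 / 2) ^ L, w i * w j
      ≤ rexp 16 * 41472 * (1 / 2) ^ L * (∑ i ∈ I', w i) * ∑ k ∈ Finset.range (L + 1), 4 ^ k * f k * g k := by
  classical
  have hπ := Real.pi_pos
  have hπ4 : π < 3.2 := by have := Real.pi_lt_d2; linarith
  set δ : ℝ := (1 / 2) ^ L with hδ
  have hδ0 : 0 < δ := by positivity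
  have hW : 0 ≤ ∑ i ∈ I', w i := Finset.sum_nonneg hw
  have hg0 : ∀ k ≤ L, 0 ≤ g k := fun k hk =>
    le_trans (Finset.sum_nonneg fun z hz => hv z (Finset.mem_filter.1 hz).1) (hg k hk 0)
  -- step 1: indicator by Gaussian
  have s1 : ∀ z ∈ J, v z * ∑ i ∈ I', ∑ j ∈ I' with |(n i - n j) + t z * (c i - c j)| ≤ δ, w i * w j
      ≤ rexp 16 * (v z * ∑ i ∈ I', ∑ j ∈ I', w i * w j *
        rexp (-(π * (((n i - n j) + t z * (c i - c j)) ^ 2 / δ ^ 2 + (c i - c j) ^ 2 / 1 ^ 2)))) := by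
    intro z hz
    have h1 : ∑ i ∈ I', ∑ j ∈ I' with |(n i - n j) + t z * (c i - c j)| ≤ δ, w i * w j
        ≤ rexp 16 * ∑ i ∈ I', ∑ j ∈ I', w i * w j *
        rexp (-(π * (((n i - n j) + t z * (c i - c j)) ^ 2 / δ ^ 2 + (c i - c j) ^ 2 / 1 ^ 2))) := by
      rw [Finset.mul_sum]
      refine Finset.sum_le_sum fun i hi => ?_
      rw [Finset.mul_sum, Finset.sum_filter]
      refine Finset.sum_le_sum fun j hj => ?_
      have hww : 0 ≤ w i * w j := mul_nonneg (hw i hi) (hw j hj)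
      split_ifs with hcond
      · have h2 : ((n i - n j) + t z * (c i - c j)) ^ 2 / δ ^ 2 ≤ 1 := by
          rw [div_le_one (by positivity), ← sq_abs]
          exact pow_le_pow_left₀ (abs_nonneg _) hcond 2
        have h3 : (c i - c j) ^ 2 / 1 ^ 2 ≤ 4 := by
          have h4 := abs_le.1 (hc i hi)
          have h5 := abs_le.1 (hc j hj)
          have : (c i - c j) ^ 2 ≤ 4 := by nlinarith
          linarith [show (c i - c j) ^ 2 / 1 ^ 2 = (c i - c j) ^ 2 by ring]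
        have h6 : rexp (-16) ≤ rexp (-(π * (((n i - n j) + t z * (c i - c j)) ^ 2 / δ ^ 2 + (c i - c j) ^ 2 / 1 ^ 2))) := by
          refine Real.exp_le_exp.2 ?_
          have : π * (((n i - n j) + t z * (c i - c j)) ^ 2 / δ ^ 2 + (c i - c j) ^ 2 / 1 ^ 2) ≤ π * 5 :=
            mul_le_mul_of_nonneg_left (by linarith) hπ.le
          linarith
        have h7 := mul_le_mul_of_nonneg_left h6 hww
        have h8 := mul_le_mul_of_nonneg_left h7 (Real.exp_pos 16).le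
        refine le_trans (le_of_eq ?_) h8
        have : rexp 16 * rexp (-16) = 1 := by rw [← Real.exp_add]; norm_num
        linear_combination (-(w i * w j)) * this
      · have := Real.exp_pos (-(π * (((n i - n j) + t z * (c i - c j)) ^ 2 / δ ^ 2 + (c i - c j) ^ 2 / 1 ^ 2)))
        have := Real.exp_pos 16
        positivity
    have h2 := mul_le_mul_of_nonneg_left h1 (hv z hz)
    refine h2.trans_eq (by ring)
  refine (Finset.sum_le_sum s1).trans ?_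
  rw [← Finset.mul_sum]
  -- step 2: Fourier
  have s2 : ∑ z ∈ J, v z * ∑ i ∈ I', ∑ j ∈ I', w i * w j *
        rexp (-(π * (((n i - n j) + t z * (c i - c j)) ^ 2 / δ ^ 2 + (c i - c j) ^ 2 / 1 ^ 2)))
      = δ * ∫ ξ : ℝ × ℝ, (∑ z ∈ J, v z * gs δ 1 (t z) ξ) * ‖es I' w n c ξ‖ ^ 2 ∂(volume.prod volume) := by
    have e : (fun ξ : ℝ × ℝ => (∑ z ∈ J, v z * gs δ 1 (t z) ξ) * ‖es I' w n c ξ‖ ^ 2)
        = fun ξ => ∑ z ∈ J, v z * (gs δ 1 (t z) ξ * ‖es I' w n c ξ‖ ^ 2) := by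
      funext ξ
      rw [Finset.sum_mul]
      exact Finset.sum_congr rfl fun z _ => by ring
    rw [e, integral_finsetSum _ fun z _ => (integrable_gs_es I' w n c hδ0 one_pos (t z)).const_mul _, Finset.mul_sum]
    refine Finset.sum_congr rfl fun z _ => ?_
    rw [integral_const_mul, quad I' w n c hδ0 one_pos (t z)]
    ring
  rw [s2]
  -- step 3: multiplier bound
  have s3 : ∫ ξ : ℝ × ℝ, (∑ z ∈ J, v z * gs δ 1 (t z) ξ) * ‖es I' w n c ξ‖ ^ 2 ∂(volume.prod volume)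
      ≤ 18 * ∫ ξ : ℝ × ℝ, Dm L g ξ * ‖es I' w n c ξ‖ ^ 2 ∂(volume.prod volume) := by
    rw [← integral_const_mul]
    refine integral_mono_of_nonneg ?_ ((integrable_Dm_es I' w n c L g).const_mul _) ?_
    · refine Filter.Eventually.of_forall fun ξ => ?_
      exact mul_nonneg (Finset.sum_nonneg fun z hz => mul_nonneg (hv z hz) (gs_pos _ _ _ _).le) (by positivity)
    · refine Filter.Eventually.of_forall fun ξ => ?_
      have h1 := mult_le J v t hv ht L g hg ξ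
      have h2 := mul_le_mul_of_nonneg_right h1 (show (0 : ℝ) ≤ ‖es I' w n c ξ‖ ^ 2 by positivity)
      simp only
      refine h2.trans_eq (by ring)
  -- step 4: back to physical space
  have s4 : ∫ ξ : ℝ × ℝ, Dm L g ξ * ‖es I' w n c ξ‖ ^ 2 ∂(volume.prod volume)
      ≤ ∑ k ∈ Finset.range (L + 1), g k * (4 ^ (k + 3) * ((∑ i ∈ I', w i) * (36 * f k))) := by
    have e : (fun ξ : ℝ × ℝ => Dm L g ξ * ‖es I' w n c ξ‖ ^ 2)
        = fun ξ => ∑ k ∈ Finset.range (L + 1), g k * (gs (((1 : ℝ) / 2) ^ (k + 3)) (((1 : ℝ) / 2) ^ (k + 3)) 0 ξ * ‖es I' w n c ξ‖ ^ 2) := by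
      funext ξ
      unfold Dm
      rw [Finset.sum_mul]
      exact Finset.sum_congr rfl fun k _ => by ring
    rw [e, integral_finsetSum _ fun k _ => (integrable_gs_es I' w n c (by positivity) (by positivity) 0).const_mul _]
    refine Finset.sum_le_sum fun k hk => ?_
    have hkL : k ≤ L := by have := Finset.mem_range.1 hk; omega
    rw [integral_const_mul]
    refine mul_le_mul_of_nonneg_left ?_ (hg0 k hkL)
    have hp : (0 : ℝ) < (1 / 2) ^ (k + 3) := by positivity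
    have hq := quad I' w n c hp hp 0
    have h1 : ∫ ξ : ℝ × ℝ, gs (((1 : ℝ) / 2) ^ (k + 3)) (((1 : ℝ) / 2) ^ (k + 3)) 0 ξ * ‖es I' w n c ξ‖ ^ 2 ∂(volume.prod volume)
        = 4 ^ (k + 3) * ∑ i ∈ I', ∑ j ∈ I', w i * w j *
        rexp (-(π * (((n i - n j) + 0 * (c i - c j)) ^ 2 / ((1 / 2) ^ (k + 3)) ^ 2 + (c i - c j) ^ 2 / ((1 / 2) ^ (k + 3)) ^ 2))) := by
      rw [hq]
      have : (4 : ℝ) ^ (k + 3) * ((1 / 2) ^ (k + 3) * (1 / 2) ^ (k + 3)) = 1 := by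
        rw [← mul_pow, ← mul_pow]; norm_num
      linear_combination (-(∫ ξ : ℝ × ℝ, gs (((1 : ℝ) / 2) ^ (k + 3)) (((1 : ℝ) / 2) ^ (k + 3)) 0 ξ * ‖es I' w n c ξ‖ ^ 2 ∂(volume.prod volume))) * this
    rw [h1]
    refine mul_le_mul_of_nonneg_left ?_ (by positivity)
    rw [Finset.sum_mul]
    refine Finset.sum_le_sum fun i hi => ?_
    have h2 : ∑ j ∈ I', w i * w j *
        rexp (-(π * (((n i - n j) + 0 * (c i - c j)) ^ 2 / ((1 / 2) ^ (k + 3)) ^ 2 + (c i - c j) ^ 2 / ((1 / 2) ^ (k + 3)) ^ 2)))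
        = w i * ∑ j ∈ I', w j * rexp (-(π * ((2 ^ (k + 3) * (n j - n i)) ^ 2 + (2 ^ (k + 3) * (c j - c i)) ^ 2))) := by
      rw [Finset.mul_sum]
      refine Finset.sum_congr rfl fun j _ => ?_
      rw [mul_assoc]
      congr 3
      have : ((1 : ℝ) / 2) ^ (k + 3) * 2 ^ (k + 3) = 1 := by rw [← mul_pow]; norm_num
      have h3 : ((1 : ℝ) / 2) ^ (k + 3) = (2 ^ (k + 3))⁻¹ := by rw [one_div, inv_pow]
      rw [h3]
      have h4 : (2 : ℝ) ^ (k + 3) ≠ 0 := by positivity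
      field_simp
      ring
    rw [h2]
    refine mul_le_mul_of_nonneg_left ?_ (hw i hi)
    refine grid2 I' w n c hw (M := 2 ^ k) (by positivity) (hf k hkL) (x := 2 ^ (k + 3)) ?_ (n i) (c i)
    rw [abs_of_pos (by positivity)]
    exact pow_le_pow_right₀ (by norm_num) (by omega)
  have s5 : δ * ∫ ξ : ℝ × ℝ, (∑ z ∈ J, v z * gs δ 1 (t z) ξ) * ‖es I' w n c ξ‖ ^ 2 ∂(volume.prod volume)
      ≤ δ * (18 * ∑ k ∈ Finset.range (L + 1), g k * (4 ^ (k + 3) * ((∑ i ∈ I', w i) * (36 * f k)))) :=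
    mul_le_mul_of_nonneg_left (s3.trans (mul_le_mul_of_nonneg_left s4 (by norm_num))) hδ0.le
  refine (mul_le_mul_of_nonneg_left s5 (Real.exp_pos 16).le).trans_eq ?_
  rw [Finset.mul_sum, Finset.mul_sum, Finset.mul_sum, Finset.mul_sum]
  refine Finset.sum_congr rfl fun k _ => ?_
  ring

end

end Crest.Agent.R138.Fal658
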