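import Crest.Agent.R138.Fal3_658

/-!
R138 (helper658): planar Falconer, corollaries.
* `sq_le_card_mul_energy` : one direction, Cauchy-Schwarz over the classes;
* `falconer_classes` : number of classes of big subsets, no exponents;
* `falconer_dim` : dyadic Frostman exponents;
* `falconer_delta` : real scale `δ`, Frostman condition on centred balls.
-/

set_option autoImplicit false
set_option linter.unusedVariables false

namespace Crest.Agent.R138.Fal658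

open Real MeasureTheory Finset

noncomputable section

variable {ι κ β : Type*}

theorem sq_le_card_mul_energy [DecidableEq β] (I' Θ : Finset ι) (hΘ : Θ ⊆ I') (w : ι → ℝ) (hw : ∀ i ∈ I', 0 ≤ w i)
    (y : ι → ℝ) (δ : ℝ) (q : ι → β) (hq : ∀ i ∈ Θ, ∀ j ∈ Θ, q i = q j → |y i - y j| ≤ δ) :
    (∑ i ∈ Θ, w i) ^ 2 ≤ (Θ.image q).card * ∑ i ∈ I', ∑ j ∈ I' with |y i - y j| ≤ δ, w i * w j := by
  classical
  have h1 : ∑ i ∈ Θ, w i = ∑ a ∈ Θ.image q, ∑ i ∈ Θ with q i = a, w i :=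
    (Finset.sum_fiberwise_of_maps_to (fun i hi => Finset.mem_image_of_mem q hi) _).symm
  have h2 : (∑ a ∈ Θ.image q, ∑ i ∈ Θ with q i = a, w i) ^ 2
      ≤ (Θ.image q).card * ∑ a ∈ Θ.image q, (∑ i ∈ Θ with q i = a, w i) ^ 2 := sq_sum_le_card_mul_sum_sq
  rw [h1]
  refine h2.trans (mul_le_mul_of_nonneg_left ?_ (Nat.cast_nonneg _))
  have h3 : ∀ a ∈ Θ.image q, (∑ i ∈ Θ with q i = a, w i) ^ 2
      ≤ ∑ i ∈ Θ with q i = a, ∑ j ∈ I' with |y i - y j| ≤ δ, w i * w j := by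
    intro a _
    rw [sq, Finset.sum_mul_sum]
    refine Finset.sum_le_sum fun i hi => ?_
    have hi' := Finset.mem_filter.1 hi
    refine Finset.sum_le_sum_of_subset_of_nonneg ?_ ?_
    · intro j hj
      have hj' := Finset.mem_filter.1 hj
      exact Finset.mem_filter.2 ⟨hΘ hj'.1, hq i hi'.1 j hj'.1 (hi'.2.trans hj'.2.symm)⟩
    · intro j hj _
      exact mul_nonneg (hw i (hΘ hi'.1)) (hw j (Finset.mem_filter.1 hj).1)
  refine (Finset.sum_le_sum h3).trans ?_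
  rw [Finset.sum_fiberwise_of_maps_to (fun i hi => Finset.mem_image_of_mem q hi)]
  refine Finset.sum_le_sum_of_subset_of_nonneg hΘ ?_
  intro i hi _
  exact Finset.sum_nonneg fun j hj => mul_nonneg (hw i hi) (hw j (Finset.mem_filter.1 hj).1)

/-- the constant -/
def CF : ℝ := rexp 16 * 41472

theorem CF_pos : 0 < CF := by unfold CF; positivity

/-- **Falconer, class form**: if for every `z ∈ J` a part `Θ z` of mass `≥ lam * W` of the points has at most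
`M` classes, each of width `≤ 2^-L` in the direction `z`, then `lam² W V ≤ C M 2^-L ∑_k 4^k f_k g_k`. -/
theorem falconer_classes (I' : Finset ι) (w n c : ι → ℝ) (J : Finset κ) (v t : κ → ℝ) (L : ℕ) (f g : ℕ → ℝ)
    (hw : ∀ i ∈ I', 0 ≤ w i) (hv : ∀ z ∈ J, 0 ≤ v z) (hc : ∀ i ∈ I', |c i| ≤ 1) (ht : ∀ z ∈ J, |t z| ≤ 1)
    (hf : ∀ k ≤ L, ∀ a b : ℤ, ∑ i ∈ I' with ⌊(2 : ℝ) ^ k * n i⌋ = a ∧ ⌊(2 : ℝ) ^ k * c i⌋ = b, w i ≤ f k)
    (hg : ∀ k ≤ L, ∀ a : ℤ, ∑ z ∈ J with ⌊(2 : ℝ) ^ k * t z⌋ = a, v z ≤ g k)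
    [DecidableEq β] (Θ : κ → Finset ι) (hΘ : ∀ z ∈ J, Θ z ⊆ I') (q : κ → ι → β)
    (hq : ∀ z ∈ J, ∀ i ∈ Θ z, ∀ j ∈ Θ z, q z i = q z j → |(n i - n j) + t z * (c i - c j)| ≤ (1 / 2) ^ L)
    (M lam : ℝ) (hM : 0 ≤ M) (hlam : 0 ≤ lam) (hΘM : ∀ z ∈ J, (((Θ z).image (q z)).card : ℝ) ≤ M)
    (hΘw : ∀ z ∈ J, lam * ∑ i ∈ I', w i ≤ ∑ i ∈ Θ z, w i) (hW : 0 < ∑ i ∈ I', w i) :
    lam ^ 2 * (∑ i ∈ I', w i) * ∑ z ∈ J, v z
      ≤ CF * M * (1 / 2) ^ L * ∑ k ∈ Finset.range (L + 1), 4 ^ k * f k * g k := by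
  classical
  have h0 := falconer I' w n c J v t L f g hw hv hc ht hf hg
  set W := ∑ i ∈ I', w i with hWdef
  have h1 : ∀ z ∈ J, v z * (lam * W) ^ 2 ≤ M * (v z * ∑ i ∈ I', ∑ j ∈ I' with |(n i - n j) + t z * (c i - c j)| ≤ (1 / 2) ^ L, w i * w j) := by
    intro z hz
    have h2 := sq_le_card_mul_energy I' (Θ z) (hΘ z hz) w hw (fun i => n i + t z * c i) ((1 / 2) ^ L) (q z)
      (fun i hi j hj hij => by
        have := hq z hz i hi j hj hij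
        convert this using 2
        ring)
    have h3 : (lam * W) ^ 2 ≤ (∑ i ∈ Θ z, w i) ^ 2 :=
      pow_le_pow_left₀ (mul_nonneg hlam hW.le) (hΘw z hz) 2
    have h4 : ∑ i ∈ I', ∑ j ∈ I' with |(n i + t z * c i) - (n j + t z * c j)| ≤ (1 / 2) ^ L, w i * w j
        = ∑ i ∈ I', ∑ j ∈ I' with |(n i - n j) + t z * (c i - c j)| ≤ (1 / 2) ^ L, w i * w j := by
      refine Finset.sum_congr rfl fun i _ => ?_
      refine Finset.sum_congr ?_ fun _ _ => rfl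
      refine Finset.filter_congr fun j _ => ?_
      rw [show (n i + t z * c i) - (n j + t z * c j) = (n i - n j) + t z * (c i - c j) by ring]
    have h5 : 0 ≤ ∑ i ∈ I', ∑ j ∈ I' with |(n i - n j) + t z * (c i - c j)| ≤ (1 / 2) ^ L, w i * w j :=
      Finset.sum_nonneg fun i hi => Finset.sum_nonneg fun j hj =>
        mul_nonneg (hw i hi) (hw j (Finset.mem_filter.1 hj).1)
    rw [h4] at h2
    have h6 := h3.trans (h2.trans (mul_le_mul_of_nonneg_right (hΘM z hz) h5))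
    have h7 := mul_le_mul_of_nonneg_left h6 (hv z hz)
    refine h7.trans_eq (by ring)
  have h2 := Finset.sum_le_sum h1
  rw [← Finset.sum_mul, ← Finset.mul_sum] at h2
  have h3 := h2.trans (mul_le_mul_of_nonneg_left h0 hM)
  have h4 : W * (lam ^ 2 * W * ∑ z ∈ J, v z)
      ≤ W * (CF * M * (1 / 2) ^ L * ∑ k ∈ Finset.range (L + 1), 4 ^ k * f k * g k) := by
    unfold CF
    refine le_trans (le_of_eq (by ring)) (h3.trans (le_of_eq (by ring)))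
  exact le_of_mul_le_mul_left h4 hW

/-- `2^{-L} ∑_{k ≤ L} 2^{k(2-α-σ)} ≤ (L+1) 2^{-L min(1, α+σ-1)}` -/
theorem geom_min (L : ℕ) (α σ : ℝ) :
    (1 / 2 : ℝ) ^ L * ∑ k ∈ Finset.range (L + 1), (4 : ℝ) ^ k * (2 : ℝ) ^ (-(α * k)) * (2 : ℝ) ^ (-(σ * k))
      ≤ (L + 1) * (2 : ℝ) ^ (-(L * min 1 (α + σ - 1))) := by
  have h1 : ∀ k ∈ Finset.range (L + 1), (1 / 2 : ℝ) ^ L * ((4 : ℝ) ^ k * (2 : ℝ) ^ (-(α * k)) * (2 : ℝ) ^ (-(σ * k)))
      ≤ (2 : ℝ) ^ (-(L * min 1 (α + σ - 1))) := by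
    intro k hk
    have hk' : (k : ℝ) ≤ L := by
      have := Finset.mem_range.1 hk
      exact_mod_cast (by omega : k ≤ L)
    have hk0 : (0 : ℝ) ≤ k := Nat.cast_nonneg _
    have e1 : (1 / 2 : ℝ) ^ L = (2 : ℝ) ^ (-(L : ℝ)) := by
      rw [Real.rpow_neg (by norm_num), Real.rpow_natCast, one_div, inv_pow]
    have e2 : (4 : ℝ) ^ k = (2 : ℝ) ^ (2 * (k : ℝ)) := by
      rw [Real.rpow_mul (by norm_num), Real.rpow_natCast]; norm_num
    rw [e1, e2, ← Real.rpow_add (by norm_num), ← Real.rpow_add (by norm_num), ← Real.rpow_add (by norm_num)]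
    refine Real.rpow_le_rpow_of_exponent_le (by norm_num) ?_
    have hm1 := min_le_left 1 (α + σ - 1)
    have hm2 := min_le_right 1 (α + σ - 1)
    nlinarith [mul_nonneg hk0 (sub_nonneg.2 hm2), mul_nonneg (sub_nonneg.2 hk') (sub_nonneg.2 hm1)]
  rw [Finset.mul_sum]
  refine (Finset.sum_le_sum h1).trans ?_
  rw [Finset.sum_const, Finset.card_range, nsmul_eq_mul]
  push_cast
  exact le_rfl

/-- **Falconer, dyadic Frostman form**. -/
theorem falconer_dim (I' : Finset ι) (w n c : ι → ℝ) (J : Finset κ) (v t : κ → ℝ) (L : ℕ) (A B α σ : ℝ)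
    (hA : 0 ≤ A) (hB : 0 ≤ B)
    (hw : ∀ i ∈ I', 0 ≤ w i) (hv : ∀ z ∈ J, 0 ≤ v z) (hc : ∀ i ∈ I', |c i| ≤ 1) (ht : ∀ z ∈ J, |t z| ≤ 1)
    (hf : ∀ k ≤ L, ∀ a b : ℤ, ∑ i ∈ I' with ⌊(2 : ℝ) ^ k * n i⌋ = a ∧ ⌊(2 : ℝ) ^ k * c i⌋ = b, w i
      ≤ A * (2 : ℝ) ^ (-(α * k)) * ∑ i ∈ I', w i)
    (hg : ∀ k ≤ L, ∀ a : ℤ, ∑ z ∈ J with ⌊(2 : ℝ) ^ k * t z⌋ = a, v z ≤ B * (2 : ℝ) ^ (-(σ * k)) * ∑ z ∈ J, v z)
    [DecidableEq β] (Θ : κ → Finset ι) (hΘ : ∀ z ∈ J, Θ z ⊆ I') (q : κ → ι → β)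
    (hq : ∀ z ∈ J, ∀ i ∈ Θ z, ∀ j ∈ Θ z, q z i = q z j → |(n i - n j) + t z * (c i - c j)| ≤ (1 / 2) ^ L)
    (M lam : ℝ) (hM : 0 ≤ M) (hlam : 0 ≤ lam) (hΘM : ∀ z ∈ J, (((Θ z).image (q z)).card : ℝ) ≤ M)
    (hΘw : ∀ z ∈ J, lam * ∑ i ∈ I', w i ≤ ∑ i ∈ Θ z, w i) (hW : 0 < ∑ i ∈ I', w i) (hV : 0 < ∑ z ∈ J, v z) :
    lam ^ 2 * (2 : ℝ) ^ (L * min 1 (α + σ - 1)) ≤ CF * (L + 1) * A * B * M := by
  have h0 := falconer_classes I' w n c J v t L _ _ hw hv hc ht hf hg Θ hΘ q hq M lam hM hlam hΘM hΘw hW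
  set W := ∑ i ∈ I', w i with hWdef
  set V := ∑ z ∈ J, v z with hVdef
  have e : ∑ k ∈ Finset.range (L + 1), (4 : ℝ) ^ k * (A * (2 : ℝ) ^ (-(α * k)) * W) * (B * (2 : ℝ) ^ (-(σ * k)) * V)
      = A * B * W * V * ∑ k ∈ Finset.range (L + 1), (4 : ℝ) ^ k * (2 : ℝ) ^ (-(α * k)) * (2 : ℝ) ^ (-(σ * k)) := by
    rw [Finset.mul_sum]
    exact Finset.sum_congr rfl fun k _ => by ring
  rw [e] at h0
  have h1 := geom_min L α σ
  have hC := CF_pos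
  have h2 : (W * V) * lam ^ 2 ≤ (W * V) * (CF * (L + 1) * A * B * M * (2 : ℝ) ^ (-(L * min 1 (α + σ - 1)))) := by
    have h3 := mul_le_mul_of_nonneg_left h1 (show 0 ≤ CF * M * A * B * (W * V) by positivity)
    refine le_trans (le_of_eq (by ring)) (h0.trans (le_trans (le_of_eq (by ring)) (h3.trans (le_of_eq (by ring)))))
  have h3 := le_of_mul_le_mul_left h2 (mul_pos hW hV)
  have h4 := mul_le_mul_of_nonneg_right h3 (show (0 : ℝ) ≤ (2 : ℝ) ^ (L * min 1 (α + σ - 1)) by positivity)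
  refine h4.trans_eq ?_
  rw [mul_assoc, ← Real.rpow_add (by norm_num)]
  simp

/-- **Falconer, real scale**: Frostman conditions on centred boxes for radii in `[δ, 1]`. -/
theorem falconer_delta (I' : Finset ι) (w n c : ι → ℝ) (J : Finset κ) (v t : κ → ℝ) (δ A B α σ : ℝ)
    (hδ : 0 < δ) (hδ1 : δ ≤ 1) (hA : 0 ≤ A) (hB : 0 ≤ B)
    (hw : ∀ i ∈ I', 0 ≤ w i) (hv : ∀ z ∈ J, 0 ≤ v z) (hc : ∀ i ∈ I', |c i| ≤ 1) (ht : ∀ z ∈ J, |t z| ≤ 1)
    (hf : ∀ r, δ ≤ r → r ≤ 1 → ∀ i ∈ I', ∑ j ∈ I' with |n j - n i| ≤ r ∧ |c j - c i| ≤ r, w j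
      ≤ A * r ^ α * ∑ i ∈ I', w i)
    (hg : ∀ r, δ ≤ r → r ≤ 1 → ∀ z ∈ J, ∑ z' ∈ J with |t z' - t z| ≤ r, v z' ≤ B * r ^ σ * ∑ z ∈ J, v z)
    [DecidableEq β] (Θ : κ → Finset ι) (hΘ : ∀ z ∈ J, Θ z ⊆ I') (q : κ → ι → β)
    (hq : ∀ z ∈ J, ∀ i ∈ Θ z, ∀ j ∈ Θ z, q z i = q z j → |(n i - n j) + t z * (c i - c j)| ≤ δ)
    (M lam : ℝ) (hM : 0 ≤ M) (hlam : 0 ≤ lam) (hΘM : ∀ z ∈ J, (((Θ z).image (q z)).card : ℝ) ≤ M)
    (hΘw : ∀ z ∈ J, lam * ∑ i ∈ I', w i ≤ ∑ i ∈ Θ z, w i) (hW : 0 < ∑ i ∈ I', w i) (hV : 0 < ∑ z ∈ J, v z) :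
    lam ^ 2 * δ ^ (-min 1 (α + σ - 1)) ≤ 4 * CF * (1 + Real.log (1 / δ)) * A * B * M := by
  classical
  obtain ⟨L, hL1, hL2⟩ : ∃ L : ℕ, (2 : ℝ) ^ L ≤ 1 / δ ∧ 1 / δ < (2 : ℝ) ^ (L + 1) :=
    exists_nat_pow_near (by rw [le_div_iff₀ hδ]; linarith) (by norm_num)
  have hk : ∀ k ≤ L, δ ≤ (1 / 2 : ℝ) ^ k := by
    intro k hk
    have h1 : (2 : ℝ) ^ k ≤ 1 / δ := (pow_le_pow_right₀ (by norm_num) hk).trans hL1
    rw [one_div, inv_pow, ← one_div, le_div_iff₀ (by positivity)]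
    rw [le_div_iff₀ hδ] at h1
    linarith
  have hk1 : ∀ k : ℕ, (1 / 2 : ℝ) ^ k ≤ 1 := fun k => pow_le_one₀ (by norm_num) (by norm_num)
  have hpow : ∀ (x : ℝ) (k : ℕ), ((1 / 2 : ℝ) ^ k) ^ x = (2 : ℝ) ^ (-(x * k)) := by
    intro x k
    rw [one_div, inv_pow, Real.inv_rpow (by positivity), ← Real.rpow_natCast, ← Real.rpow_mul (by norm_num),
      ← Real.rpow_neg (by norm_num)]
    congr 1
    ring
  have hcell : ∀ (k : ℕ) (x y : ℝ), ⌊(2 : ℝ) ^ k * x⌋ = ⌊(2 : ℝ) ^ k * y⌋ → |x - y| ≤ (1 / 2) ^ k := by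
    intro k x y h
    have h1 := Int.abs_sub_lt_one_of_floor_eq_floor h
    rw [← mul_sub, abs_mul, abs_of_pos (show (0 : ℝ) < 2 ^ k by positivity)] at h1
    rw [one_div, inv_pow, ← one_div, le_div_iff₀ (by positivity)]
    linarith
  have h0 := falconer_dim I' w n c J v t L A B α σ hA hB hw hv hc ht (fun k hkL a b => by
      rcases (I'.filter fun i => ⌊(2 : ℝ) ^ k * n i⌋ = a ∧ ⌊(2 : ℝ) ^ k * c i⌋ = b).eq_empty_or_nonempty with h | ⟨i0, hi0⟩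
      · rw [h, Finset.sum_empty]
        positivity
      · have hi0' := Finset.mem_filter.1 hi0
        have h1 := hf _ (hk k hkL) (hk1 k) i0 hi0'.1
        rw [hpow] at h1
        refine le_trans (Finset.sum_le_sum_of_subset_of_nonneg ?_ ?_) h1
        · intro j hj
          have hj' := Finset.mem_filter.1 hj
          exact Finset.mem_filter.2 ⟨hj'.1, hcell k _ _ (hj'.2.1.trans hi0'.2.1.symm), hcell k _ _ (hj'.2.2.trans hi0'.2.2.symm)⟩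
        · intro j hj _
          exact hw j (Finset.mem_filter.1 hj).1)
    (fun k hkL a => by
      rcases (J.filter fun z => ⌊(2 : ℝ) ^ k * t z⌋ = a).eq_empty_or_nonempty with h | ⟨i0, hi0⟩
      · rw [h, Finset.sum_empty]
        positivity
      · have hi0' := Finset.mem_filter.1 hi0
        have h1 := hg _ (hk k hkL) (hk1 k) i0 hi0'.1
        rw [hpow] at h1
        refine le_trans (Finset.sum_le_sum_of_subset_of_nonneg ?_ ?_) h1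
        · intro j hj
          have hj' := Finset.mem_filter.1 hj
          exact Finset.mem_filter.2 ⟨hj'.1, hcell k _ _ (hj'.2.trans hi0'.2.symm)⟩
        · intro j hj _
          exact hv j (Finset.mem_filter.1 hj).1)
    Θ hΘ q (fun z hz i hi j hj hij => (hq z hz i hi j hj hij).trans (hk L le_rfl)) M lam hM hlam hΘM hΘw hW hV
  -- compare the scales
  set m := min 1 (α + σ - 1) with hm
  have hm1 : m ≤ 1 := min_le_left _ _
  have h1 : δ ^ (-m) ≤ 2 * (2 : ℝ) ^ (L * m) := by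
    have e1 : δ ^ (-m) = (1 / δ) ^ m := by
      rw [one_div, Real.inv_rpow hδ.le, Real.rpow_neg hδ.le]
    have e2 : (2 : ℝ) ^ (L * m) = ((2 : ℝ) ^ L) ^ m := by
      rw [Real.rpow_mul (by norm_num), Real.rpow_natCast]
    rw [e1, e2]
    rcases le_or_gt 0 m with hm0 | hm0
    · have h2 : (1 / δ) ^ m ≤ ((2 : ℝ) ^ (L + 1)) ^ m := Real.rpow_le_rpow (by positivity) hL2.le hm0
      refine h2.trans ?_
      rw [pow_succ, Real.mul_rpow (by positivity) (by norm_num), mul_comm]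
      refine mul_le_mul_of_nonneg_right ?_ (by positivity)
      calc (2 : ℝ) ^ m ≤ (2 : ℝ) ^ (1 : ℝ) := Real.rpow_le_rpow_of_exponent_le (by norm_num) hm1
        _ = 2 := by norm_num
    · have h2 : (1 / δ) ^ m ≤ ((2 : ℝ) ^ L) ^ m := Real.rpow_le_rpow_of_nonpos (by positivity) hL1 hm0.le
      have h3 : (0 : ℝ) ≤ ((2 : ℝ) ^ L) ^ m := by positivity
      linarith
  have h2 : (L : ℝ) + 1 ≤ 2 * (1 + Real.log (1 / δ)) := by
    have h3 : (L : ℝ) * Real.log 2 ≤ Real.log (1 / δ) := by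
      rw [← Real.log_pow]
      exact Real.log_le_log (by positivity) hL1
    have h4 : (1 / 2 : ℝ) < Real.log 2 := by have := Real.log_two_gt_d9; linarith
    have h5 : (0 : ℝ) ≤ L := Nat.cast_nonneg _
    nlinarith
  have hC := CF_pos
  calc lam ^ 2 * δ ^ (-m) ≤ lam ^ 2 * (2 * (2 : ℝ) ^ (L * m)) := mul_le_mul_of_nonneg_left h1 (by positivity)
    _ = 2 * (lam ^ 2 * (2 : ℝ) ^ (L * m)) := by ring
    _ ≤ 2 * (CF * (L + 1) * A * B * M) := by linarith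
    _ = 2 * (CF * A * B * M) * (L + 1) := by ring
    _ ≤ 2 * (CF * A * B * M) * (2 * (1 + Real.log (1 / δ))) := mul_le_mul_of_nonneg_left h2 (by positivity)
    _ = 4 * CF * (1 + Real.log (1 / δ)) * A * B * M := by ring

end

end Crest.Agent.R138.Fal658
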