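import Crest.Agent.R138.Fal4_658
import Crest.Agent.R138.Ex_926

/-!
R138 (helper658): planar Falconer in exponent form over `Ex926.Base`.
-/

set_option autoImplicit false
set_option linter.unusedVariables false

namespace Crest.Agent.R138.Fal658

open Real MeasureTheory Finset Filter Crest.Agent.R138.Ex926

/-- **Falconer, exponent form**. `δ n` is the scale (`B.ex δ = -x`), all hypotheses `U`-almost everywhere. -/
theorem falconer_ex {B : Base} {ι κ β : ℕ → Type*} [∀ n, DecidableEq (β n)]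
    (I' : ∀ n, Finset (ι n)) (w y c : ∀ n, ι n → ℝ) (J : ∀ n, Finset (κ n)) (v t : ∀ n, κ n → ℝ)
    (Θ : ∀ n, κ n → Finset (ι n)) (q : ∀ n, κ n → ι n → β n)
    (δ A D M lam : ℕ → ℝ) (α σ : ℝ)
    (hδ : B.PB δ) (hδ1 : ∀ᶠ n in (U : Filter ℕ), δ n ≤ 1) (hA : B.PB A) (hD : B.PB D) (hM : B.PB M) (hlam : B.PB lam)
    (hw : ∀ᶠ n in (U : Filter ℕ), ∀ i ∈ I' n, 0 ≤ w n i) (hv : ∀ᶠ n in (U : Filter ℕ), ∀ z ∈ J n, 0 ≤ v n z)
    (hc : ∀ᶠ n in (U : Filter ℕ), ∀ i ∈ I' n, |c n i| ≤ 1) (ht : ∀ᶠ n in (U : Filter ℕ), ∀ z ∈ J n, |t n z| ≤ 1)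
    (hW : ∀ᶠ n in (U : Filter ℕ), 0 < ∑ i ∈ I' n, w n i) (hV : ∀ᶠ n in (U : Filter ℕ), 0 < ∑ z ∈ J n, v n z)
    (hf : ∀ᶠ n in (U : Filter ℕ), ∀ r, δ n ≤ r → r ≤ 1 → ∀ i ∈ I' n,
      ∑ j ∈ I' n with |y n j - y n i| ≤ r ∧ |c n j - c n i| ≤ r, w n j ≤ A n * r ^ α * ∑ i ∈ I' n, w n i)
    (hg : ∀ᶠ n in (U : Filter ℕ), ∀ r, δ n ≤ r → r ≤ 1 → ∀ z ∈ J n,
      ∑ z' ∈ J n with |t n z' - t n z| ≤ r, v n z' ≤ D n * r ^ σ * ∑ z ∈ J n, v n z)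
    (hΘ : ∀ᶠ n in (U : Filter ℕ), ∀ z ∈ J n, Θ n z ⊆ I' n)
    (hq : ∀ᶠ n in (U : Filter ℕ), ∀ z ∈ J n, ∀ i ∈ Θ n z, ∀ j ∈ Θ n z, q n z i = q n z j →
      |(y n i - y n j) + t n z * (c n i - c n j)| ≤ δ n)
    (hΘM : ∀ᶠ n in (U : Filter ℕ), ∀ z ∈ J n, (((Θ n z).image (q n z)).card : ℝ) ≤ M n)
    (hΘw : ∀ᶠ n in (U : Filter ℕ), ∀ z ∈ J n, lam n * ∑ i ∈ I' n, w n i ≤ ∑ i ∈ Θ n z, w n i) :
    2 * B.ex lam + (-B.ex δ) * min 1 (α + σ - 1) ≤ B.ex A + B.ex D + B.ex M := by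
  set m := min 1 (α + σ - 1) with hm
  have hL : B.PB (fun n => (lam n) ^ 2 * (δ n) ^ (-m)) := (hlam.pow 2).mul (hδ.rpow (-m))
  have eL : B.ex (fun n => (lam n) ^ 2 * (δ n) ^ (-m)) = 2 * B.ex lam + (-B.ex δ) * m := by
    rw [Base.ex_mul (hlam.pow 2) (hδ.rpow (-m)), Base.ex_pow hlam, Base.ex_rpow hδ]
    push_cast
    ring
  have hR : B.PB (fun n => A n * D n * M n) := (hA.mul hD).mul hM
  have eR : B.ex (fun n => A n * D n * M n) = B.ex A + B.ex D + B.ex M := by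
    rw [Base.ex_mul (hA.mul hD) hM, Base.ex_mul hA hD]
  obtain ⟨C, hC0, hC1, -⟩ := hδ.bounds
  have hCF := CF_pos
  have hS : B.Sub (fun n => (4 * CF * (1 + C)) * (1 + B.L n)) :=
    (Base.Sub.const (c := 4 * CF * (1 + C)) (by positivity)).mul Base.Sub.one_add_L
  rw [← eL, ← eR]
  refine Base.ex_le_of_sub hL hR hS ?_
  filter_upwards [hδ.pos, hδ1, hA.pos, hD.pos, hM.pos, hlam.pos, hw, hv, hc, ht, hW, hV, hf, hg, hΘ, hq, hΘM, hΘw, hC1]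
    with n hδ hδ1 hA hD hM hlam hw hv hc ht hW hV hf hg hΘ hq hΘM hΘw hC1
  have h0 := falconer_delta (I' n) (w n) (y n) (c n) (J n) (v n) (t n) (δ n) (A n) (D n) α σ hδ hδ1 hA.le hD.le hw hv hc ht
    hf hg (Θ n) hΘ (q n) hq (M n) (lam n) hM.le hlam.le hΘM hΘw hW hV
  refine h0.trans ?_
  have hLp := B.L_pos n
  have h1 : Real.log (1 / δ n) ≤ C * B.L n := by
    rw [one_div, Real.log_inv]
    have h2 := Real.log_le_log (Real.rpow_pos_of_pos (B.pos n) _) hC1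
    rw [Real.log_rpow (B.pos n)] at h2
    unfold Base.L
    linarith
  have h2 : 1 + Real.log (1 / δ n) ≤ (1 + C) * (1 + B.L n) := by nlinarith
  have h3 := mul_le_mul_of_nonneg_left h2 (show 0 ≤ 4 * CF * (A n * D n * M n) by positivity)
  refine le_trans (le_of_eq (by ring)) (h3.trans (le_of_eq (by ring)))

end Crest.Agent.R138.Fal658
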