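import Crest.Agent.R138.FalFM_658

/-!
R138 (helper658): consequences of Falconer in the F-model: `m > 1 - σ` forces full lateral positions.
-/

set_option autoImplicit false
set_option linter.unusedVariables false

namespace Crest.Agent.R138.Fal658

open Real Finset Filter Topology Crest.Agent.R138.Ex926 Crest.Agent.R138.FM501

theorem vec_zero : (![0, 0, 0, 0] : Fin 4 → ℝ) = 0 := by
  ext i; fin_cases i <;> rfl

/-- `d^s ≤ C d^t` along `U` (eventually) for a constant `C` forces `t ≤ s` up to `η`. -/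
theorem exp_le_of_ev (B : Base) {C s t η : ℝ} (hC : 0 < C) (hη : 0 < η)
    (h : ∀ᶠ n in (U : Filter ℕ), B.d n ^ s ≤ C * B.d n ^ t) : t ≤ s + η := by
  by_contra hcon
  push Not at hcon
  have h1 := ev_small B (C := C) (a := t - s) hC (by linarith)
  obtain ⟨n, h2, h3⟩ := (h.and h1).exists
  have hd := B.pos n
  have h4 : 0 < B.d n ^ s := Real.rpow_pos_of_pos hd _
  have h5 : B.d n ^ t = B.d n ^ s * B.d n ^ (t - s) := by rw [← Real.rpow_add hd]; congr 1; ring
  rw [h5] at h2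
  have h6 : 1 ≤ C * B.d n ^ (t - s) := by
    have : B.d n ^ s * 1 ≤ B.d n ^ s * (C * B.d n ^ (t - s)) := by linarith
    exact le_of_mul_le_mul_left this h4
  have h7 : 0 < C * B.d n ^ (t - s) := by positivity
  have h8 := B.L_pos n
  nlinarith

/-- monotonicity: a smaller box has a smaller exponent -/
theorem nu_mono {B : Base} {G : ℕ → Cfg} {σ R : ℝ} {ν : (Fin 4 → ℝ) → ℝ} (hF : FModel B G σ R ν)
    {p p' : Fin 4 → ℝ} (hp : ∀ j, 0 ≤ p j ∧ p j ≤ R) (hp' : ∀ j, 0 ≤ p' j ∧ p' j ≤ R) (h : ∀ j, p j ≤ p' j) :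
    ν p' ≤ ν p := by
  classical
  refine le_of_forall_pos_le_add fun η hη => ?_
  have h1 := hF.unif p hp (η / 4) (by positivity)
  have h2 := hF.unif p' hp' (η / 4) (by positivity)
  have h3 : ∀ᶠ n in (U : Filter ℕ), B.d n ^ (-ν p' + η / 4) ≤ 1 * B.d n ^ (-ν p - η / 4) := by
    filter_upwards [h1, h2] with n h1 h2
    obtain ⟨⟨i, k⟩, hik⟩ := hF.nonempty n
    have a1 := (h1 i k hik).2
    have a2 := (h2 i k hik).1
    rw [one_mul]
    refine a2.trans (le_trans ?_ a1)
    exact_mod_cast Finset.card_le_card (by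
      intro j hj
      have hj' := Finset.mem_filter.1 hj
      refine Finset.mem_filter.2 ⟨hj'.1, fun l => (hj'.2 l).trans ?_⟩
      rw [hF.base n]
      exact Real.rpow_le_rpow_of_exponent_ge (B.pos n) (B.lt n).le (h l))
  have h4 := exp_le_of_ev B one_pos (show 0 < η / 4 by positivity) h3
  linarith

/-- number of cells of length `r` meeting `[-1, 1]` -/
theorem card_cells (s : Finset ℕ) (X : ℕ → ℝ) {r : ℝ} (hr : 0 < r) (hr1 : r ≤ 1) (hX : ∀ i ∈ s, |X i| ≤ 1) :
    ((s.image fun i => ⌊X i / r⌋).card : ℝ) ≤ 4 / r := by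
  have h1 : (s.image fun i => ⌊X i / r⌋) ⊆ Finset.Icc (-⌈1 / r⌉) (⌊1 / r⌋) := by
    intro a ha
    obtain ⟨i, hi, rfl⟩ := Finset.mem_image.1 ha
    have hi' := abs_le.1 (hX i hi)
    rw [Finset.mem_Icc]
    constructor
    · rw [Int.le_floor]
      push_cast
      have h2 : -(1 / r) ≤ X i / r := by
        rw [← neg_div]; exact div_le_div_of_nonneg_right hi'.1 hr.le
      have h3 := Int.le_ceil (1 / r)
      linarith
    · exact Int.floor_le_floor (div_le_div_of_nonneg_right hi'.2 hr.le)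
  have h2 := Finset.card_le_card h1
  rw [Int.card_Icc] at h2
  have h3 : (0 : ℤ) ≤ ⌊1 / r⌋ + 1 - -⌈1 / r⌉ := by
    have a1 : 0 ≤ ⌊1 / r⌋ := Int.floor_nonneg.2 (by positivity)
    have a2 : 0 ≤ ⌈1 / r⌉ := Int.ceil_nonneg (by positivity)
    omega
  have h4 : ((s.image fun i => ⌊X i / r⌋).card : ℝ) ≤ ((⌊1 / r⌋ + 1 - -⌈1 / r⌉ : ℤ) : ℝ) := by
    have : ((s.image fun i => ⌊X i / r⌋).card : ℤ) ≤ ⌊1 / r⌋ + 1 - -⌈1 / r⌉ := by
      have := Int.toNat_of_nonneg h3
      omega
    exact_mod_cast this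
  refine h4.trans ?_
  push_cast
  have a1 := Int.floor_le (1 / r)
  have a2 := Int.ceil_lt_add_one (1 / r)
  have a3 : 1 ≤ 1 / r := by rw [le_div_iff₀ hr]; linarith
  have a4 : 4 / r = 4 * (1 / r) := by ring
  rw [a4]
  linarith

/-- pigeonhole: lateral positions are at most full -/
theorem nu_lateral_le {B : Base} {G : ℕ → Cfg} {σ R : ℝ} {ν : (Fin 4 → ℝ) → ℝ} (hF : FModel B G σ R ν)
    {x : ℝ} (hx0 : 0 ≤ x) (hxR : x ≤ R) : ν 0 - ν ![0, 0, 0, x] ≤ x := by
  classical
  refine le_of_forall_pos_le_add fun η hη => ?_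
  have h1 := hF.unif 0 (fun _ => ⟨le_rfl, hF.R_pos.le⟩) (η / 4) (by positivity)
  have h2 := hF.unif ![0, 0, 0, x] (by
      intro l
      fin_cases l
      · exact ⟨le_rfl, hF.R_pos.le⟩
      · exact ⟨le_rfl, hF.R_pos.le⟩
      · exact ⟨le_rfl, hF.R_pos.le⟩
      · exact ⟨hx0, hxR⟩) (η / 4) (by positivity)
  have h3 : ∀ᶠ n in (U : Filter ℕ), B.d n ^ (-ν 0 + η / 4) ≤ 4 * B.d n ^ (-ν ![0, 0, 0, x] - x - η / 4) := by
    filter_upwards [h1, h2] with n h1 h2
    have hρ : (G n).ρ = B.d n := hF.base n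
    have hd := B.pos n
    have hd1 := (B.lt n).le
    obtain ⟨⟨i, k⟩, hik⟩ := hF.nonempty n
    have hik' := Finset.mem_product.1 (hF.sub n hik)
    have hsl : ((G n).box 0 i k) ⊆ (G n).slice k := Finset.filter_subset _ _
    have hpos : 0 < (((G n).slice k).card : ℝ) := by
      have a1 := (h1 i k hik).1
      have a2 : 0 < B.d n ^ (-ν 0 + η / 4) := Real.rpow_pos_of_pos hd _
      have a3 : (((G n).box 0 i k).card : ℝ) ≤ (((G n).slice k).card : ℝ) := by exact_mod_cast Finset.card_le_card hsl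
      linarith
    have hr : 0 < B.d n ^ x := Real.rpow_pos_of_pos hd _
    have hr1 : B.d n ^ x ≤ 1 := Real.rpow_le_one hd.le hd1 hx0
    have hX : ∀ j ∈ (G n).slice k, |(G n).X j k| ≤ 1 := by
      intro j hj
      have hj' := (Finset.mem_filter.1 hj).1
      have a1 := (hF.bd n).a j hj'
      have a2 := (hF.bd n).c j hj'
      have a3 := (hF.bd n).z k hik'.2
      unfold Cfg.X
      refine (abs_add_le _ _).trans ?_
      rw [abs_mul]
      have := mul_le_mul a2 a3 (abs_nonneg _) (by norm_num)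
      linarith
    have hcell := card_cells ((G n).slice k) (fun j => (G n).X j k) hr hr1 hX
    have hcs := sq_le_card_mul_energy ((G n).slice k) ((G n).slice k) (Finset.Subset.refl _) (fun _ => (1 : ℝ))
      (fun _ _ => zero_le_one) (fun j => (G n).X j k) (B.d n ^ x) (fun j => ⌊(G n).X j k / B.d n ^ x⌋) (by
        intro j hj j' hj' h
        have a1 := Int.abs_sub_lt_one_of_floor_eq_floor h
        rw [← sub_div, abs_div, abs_of_pos hr, div_lt_one hr] at a1
        exact a1.le)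
    have hen : ∑ i' ∈ (G n).slice k, ∑ j ∈ (G n).slice k with |(G n).X i' k - (G n).X j k| ≤ B.d n ^ x, (1 : ℝ) * 1
        ≤ (((G n).slice k).card : ℝ) * B.d n ^ (-ν ![0, 0, 0, x] - η / 4) := by
      rw [← nsmul_eq_mul, ← Finset.sum_const]
      refine Finset.sum_le_sum fun i' hi' => ?_
      have hI : (i', k) ∈ (G n).I := (Finset.mem_filter.1 hi').2
      refine le_trans ?_ (h2 i' k hI).2
      rw [Finset.sum_const, nsmul_eq_mul, mul_one, mul_one]
      exact_mod_cast Finset.card_le_card (by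
        intro j hj
        have hj' := Finset.mem_filter.1 hj
        refine Finset.mem_filter.2 ⟨hj'.1, ?_⟩
        have hi'' := (Finset.mem_filter.1 hi').1
        have hj'' := (Finset.mem_filter.1 hj'.1).1
        have hz := near_zero (G n) (hF.bd n) (by rw [hρ]; exact hd) hi'' hj'' hik'.2
        intro l
        fin_cases l
        · exact hz 0
        · exact hz 1
        · exact hz 2
        · simp only [Cfg.co, hρ]
          have := hj'.2
          rw [abs_sub_comm] at this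
          simpa using this)
    rw [Finset.sum_const, nsmul_eq_mul, mul_one] at hcs
    have a1 := (h1 i k hik).1
    have a3 : (((G n).box 0 i k).card : ℝ) ≤ (((G n).slice k).card : ℝ) := by exact_mod_cast Finset.card_le_card hsl
    set S := (((G n).slice k).card : ℝ) with hS
    have a4 : S ^ 2 ≤ (4 / B.d n ^ x) * (S * B.d n ^ (-ν ![0, 0, 0, x] - η / 4)) :=
      hcs.trans (mul_le_mul hcell hen (Finset.sum_nonneg fun _ _ => Finset.sum_nonneg fun _ _ => by norm_num) (by positivity))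
    have a5 : S ≤ 4 * B.d n ^ (-ν ![0, 0, 0, x] - x - η / 4) := by
      have e : B.d n ^ (-ν ![0, 0, 0, x] - x - η / 4) = B.d n ^ (-ν ![0, 0, 0, x] - η / 4) / B.d n ^ x := by
        rw [← Real.rpow_sub hd]; congr 1; ring
      rw [e]
      have : S * S ≤ S * (4 * (B.d n ^ (-ν ![0, 0, 0, x] - η / 4) / B.d n ^ x)) := by
        refine le_trans (le_of_eq (by ring)) (a4.trans (le_of_eq (by field_simp)))
      exact le_of_mul_le_mul_left this hpos
    linarith
  have h4 := exp_le_of_ev B (by norm_num : (0 : ℝ) < 4) (show 0 < η / 4 by positivity) h3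
  linarith

/-- **full lateral positions**: if the in-plane directions have dimension `m > 1 - σ`, then the lateral positions
are full (`b x = x`). -/
theorem full_of_gt {B : Base} {G : ℕ → Cfg} {σ R m : ℝ} {ν : (Fin 4 → ℝ) → ℝ} {b : ℝ → ℝ} (hF : FModel B G σ R ν)
    (hm : 1 - σ < m)
    (hb : ∀ x₁ x₂, 0 ≤ x₁ → x₁ ≤ R → 0 ≤ x₂ → x₂ ≤ R → ν ![0, 0, x₁, x₂] = ν 0 - (m * x₁ + b x₂)) :
    ∀ x, 0 ≤ x → x ≤ R → b x = x := by
  have hR := hF.R_pos
  have hbx : ∀ x, 0 ≤ x → x ≤ R → ν 0 - ν ![0, 0, 0, x] = b x := by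
    intro x h0 h1
    rw [hb 0 x le_rfl hR.le h0 h1]; ring
  have hle : ∀ x, 0 ≤ x → x ≤ R → b x ≤ x := by
    intro x h0 h1
    rw [← hbx x h0 h1]; exact nu_lateral_le hF h0 h1
  have h0le : ∀ x, 0 ≤ x → x ≤ R → 0 ≤ b x := by
    intro x h0 h1
    rw [← hbx x h0 h1]
    have := nu_mono hF (p := 0) (p' := ![0, 0, 0, x]) (fun _ => ⟨le_rfl, hR.le⟩) (by
      intro l
      fin_cases l
      · exact ⟨le_rfl, hR.le⟩
      · exact ⟨le_rfl, hR.le⟩
      · exact ⟨le_rfl, hR.le⟩
      · exact ⟨h0, h1⟩) (by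
      intro l
      fin_cases l
      · exact le_rfl
      · exact le_rfl
      · exact le_rfl
      · exact h0)
    linarith
  set S := sSup ((fun x => x - b x) '' Set.Icc 0 R) with hS
  have hbdd : BddAbove ((fun x => x - b x) '' Set.Icc 0 R) := by
    refine ⟨R, ?_⟩
    rintro _ ⟨x, hx, rfl⟩
    have := h0le x hx.1 hx.2
    simp only
    linarith [hx.2]
  have hne : ((fun x => x - b x) '' Set.Icc 0 R).Nonempty := ⟨_, ⟨0, ⟨le_rfl, hR.le⟩, rfl⟩⟩
  have hS0 : S ≤ 0 := by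
    set κ := m - (1 - σ) with hκ
    have hκ0 : 0 < κ := by rw [hκ]; linarith
    refine le_of_forall_pos_le_add fun η hη => ?_
    rw [zero_add]
    set η' := η / (2 + 2 / κ) with hη'
    have hη'0 : 0 < η' := by positivity
    obtain ⟨_, ⟨x, hx, rfl⟩, hx2⟩ := exists_lt_of_lt_csSup hne (show S - η' < S by linarith)
    simp only at hx2
    obtain ⟨x', h1, h2, h3⟩ := falconer_FM hF hx.1 hx.2 hη'0
    rw [hbx x hx.1 hx.2, hb x' x' h1 (h2.trans hx.2) h1 (h2.trans hx.2)] at h3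
    have h4 : x' - b x' ≤ S := le_csSup hbdd ⟨x', ⟨h1, h2.trans hx.2⟩, rfl⟩
    have h5 := h0le x' h1 (h2.trans hx.2)
    have h6 : κ * x' ≤ 2 * η' := by rw [hκ]; nlinarith
    have h7 : x' ≤ 2 * η' / κ := by rw [le_div_iff₀ hκ0]; linarith
    have h8 : S ≤ 2 * η' / κ + 2 * η' := by
      have : (0 : ℝ) ≤ κ * x' := by positivity
      nlinarith
    have h9 : 2 * η' / κ + 2 * η' = η := by
      rw [hη']; field_simp; ring
    linarith
  intro x h0 h1
  have h2 : x - b x ≤ S := le_csSup hbdd ⟨x, ⟨h0, h1⟩, rfl⟩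
  have h3 := hle x h0 h1
  linarith

/-- decoupled form: `1 - σ < m` implies `y = 1` -/
theorem y_eq_one {B : Base} {G : ℕ → Cfg} {σ R a q m y : ℝ} {ν : (Fin 4 → ℝ) → ℝ} (hF : FModel B G σ R ν)
    (hD : Decoupled ν R a q m y) (hm : 1 - σ < m) : y = 1 := by
  have hR := hF.R_pos
  have h := full_of_gt (b := fun x => y * x) hF hm (by
    intro x₁ x₂ h1 h2 h3 h4
    have := hD ![0, 0, x₁, x₂] (by
      intro l
      fin_cases l
      · exact ⟨le_rfl, hR.le⟩
      · exact ⟨le_rfl, hR.le⟩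
      · exact ⟨h1, h2⟩
      · exact ⟨h3, h4⟩)
    rw [this]
    simp
    ) R hR.le le_rfl
  have h2 : y * R = 1 * R := by rw [one_mul]; exact h
  exact mul_right_cancel₀ hR.ne' h2

/-- half coupled form: `1 - σ < m` implies `β 0 x = x` -/
theorem beta_zero_eq {B : Base} {G : ℕ → Cfg} {σ R a m : ℝ} {β : ℝ → ℝ → ℝ} {ν : (Fin 4 → ℝ) → ℝ}
    (hF : FModel B G σ R ν) (hD : HalfCoupled ν R a m β) (hm : 1 - σ < m) :
    ∀ x, 0 ≤ x → x ≤ R → β 0 x = x := by
  have hR := hF.R_pos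
  refine full_of_gt (b := fun x => β 0 x) hF hm ?_
  intro x₁ x₂ h1 h2 h3 h4
  have := hD ![0, 0, x₁, x₂] (by
      intro l
      fin_cases l
      · exact ⟨le_rfl, hR.le⟩
      · exact ⟨le_rfl, hR.le⟩
      · exact ⟨h1, h2⟩
      · exact ⟨h3, h4⟩)
  rw [this]
  simp

end Crest.Agent.R138.Fal658
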