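import Crest.Agent.R138.Fal6_658
import Crest.Agent.R138.FM_501

/-!
R138 (helper658): planar Falconer inequality in the literal F-model (helper501's `FM_501`).
-/

set_option autoImplicit false
set_option linter.unusedVariables false

namespace Crest.Agent.R138.Fal658

open Real Finset Filter Topology Crest.Agent.R138.Ex926 Crest.Agent.R138.FM501

/-! ### one configuration -/

section one

variable (G : Cfg)

/-- the lines of `L` in the `(a, c)`-square of radius `r` around `i` -/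
noncomputable def sqL (r : ℝ) (i : ℕ) : Finset ℕ := by
  classical exact G.L.filter fun j => |G.a j - G.a i| ≤ r ∧ |G.c j - G.c i| ≤ r

theorem mB_eq (r : ℝ) (i : ℕ) : mB G.L (fun _ => (1 : ℝ)) G.a G.c r i = ((sqL G r i).card : ℝ) := by
  classical
  unfold mB sqL
  rw [Finset.sum_const, nsmul_eq_mul, mul_one]

theorem mI_eq (r x : ℝ) (hr : r = G.ρ ^ x) (k : ℕ) :
    mI G.Z (fun _ => (1 : ℝ)) G.z r k = ((G.hbox x k).card : ℝ) := by
  classical
  unfold mI Cfg.hbox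
  rw [Finset.sum_const, nsmul_eq_mul, mul_one, hr]

theorem sum_slice_inter (hsub : G.I ⊆ G.L ×ˢ G.Z) (Q : Finset ℕ) (hQ : Q ⊆ G.L) :
    ∑ k ∈ G.Z, ((G.slice k ∩ Q).card) = ∑ i ∈ Q, (G.hts i).card := by
  classical
  have h1 : ∀ k ∈ G.Z, (G.slice k ∩ Q).card = ∑ i ∈ Q, if (i, k) ∈ G.I then 1 else 0 := by
    intro k _
    rw [Finset.sum_ite, Finset.sum_const_zero, add_zero, Finset.sum_const, smul_eq_mul, mul_one]
    congr 1
    ext i
    simp only [Cfg.slice, Finset.mem_inter, Finset.mem_filter]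
    constructor
    · rintro ⟨⟨_, h⟩, h2⟩; exact ⟨h2, h⟩
    · rintro ⟨h2, h⟩; exact ⟨⟨hQ h2, h⟩, h2⟩
  have h2 : ∀ i ∈ Q, (G.hts i).card = ∑ k ∈ G.Z, if (i, k) ∈ G.I then 1 else 0 := by
    intro i _
    rw [Finset.sum_ite, Finset.sum_const_zero, add_zero, Finset.sum_const, smul_eq_mul, mul_one]
    congr 1
  rw [Finset.sum_congr rfl h1, Finset.sum_congr rfl h2, Finset.sum_comm]

/-- bounds in one configuration -/
theorem near_of_sq (hb : G.Bd) (hρ : 0 < G.ρ) {y r : ℝ} {k i j : ℕ} (hk : k ∈ G.Z) (hi : i ∈ G.L) (hj : j ∈ G.L)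
    (hr : 2 * r ≤ G.ρ ^ y)
    (h1 : |G.a j - G.a i| ≤ r) (h2 : |G.c j - G.c i| ≤ r) : G.near ![0, 0, y, y] k i j := by
  have ai := abs_le.1 (hb.a i hi)
  have aj := abs_le.1 (hb.a j hj)
  have bi := abs_le.1 (hb.b i hi)
  have bj := abs_le.1 (hb.b j hj)
  have ci := abs_le.1 (hb.c i hi)
  have cj := abs_le.1 (hb.c j hj)
  have di := abs_le.1 (hb.d i hi)
  have dj := abs_le.1 (hb.d j hj)
  have zk := hb.z k hk
  have fk := hb.f k hk
  have hX : |G.X j k - G.X i k| ≤ |G.a j - G.a i| + |G.c j - G.c i| := by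
    have e : G.X j k - G.X i k = (G.a j - G.a i) + (G.c j - G.c i) * G.z k := by unfold Cfg.X; ring
    rw [e]
    refine (abs_add_le _ _).trans ?_
    rw [abs_mul]
    have := mul_le_mul_of_nonneg_left zk (abs_nonneg (G.c j - G.c i))
    linarith
  have hr0 : 0 ≤ r := (abs_nonneg _).trans h1
  have hX1 : |G.X j k - G.X i k| ≤ 1 / 2 := by
    have h3 : |G.a j - G.a i| ≤ 1 / 4 := abs_le.2 ⟨by linarith, by linarith⟩
    have h4 : |G.c j - G.c i| ≤ 1 / 4 := abs_le.2 ⟨by linarith, by linarith⟩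
    linarith
  intro l
  fin_cases l
  · simp only [Cfg.co, Matrix.cons_val_zero, Fin.zero_eta, Fin.isValue, Matrix.cons_val_zero, Real.rpow_zero]
    have e : G.N j k - G.N i k = (G.b j - G.b i) + (G.d j - G.d i) * G.z k - G.f k * (G.X j k - G.X i k) := by
      unfold Cfg.N; ring
    rw [e]
    have h3 : |G.b j - G.b i| ≤ 1 / 4 := abs_le.2 ⟨by linarith, by linarith⟩
    have h4 : |(G.d j - G.d i) * G.z k| ≤ 1 / 4 := by
      rw [abs_mul]
      have h5 : |G.d j - G.d i| ≤ 1 / 4 := abs_le.2 ⟨by linarith, by linarith⟩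
      have := mul_le_mul h5 zk (abs_nonneg _) (by norm_num)
      linarith
    have h5 : |G.f k * (G.X j k - G.X i k)| ≤ 1 / 2 := by
      rw [abs_mul]
      have := mul_le_mul fk hX1 (abs_nonneg _) (by norm_num)
      linarith
    have h6 := abs_sub (G.b j - G.b i + (G.d j - G.d i) * G.z k) (G.f k * (G.X j k - G.X i k))
    have h7 := abs_add_le (G.b j - G.b i) ((G.d j - G.d i) * G.z k)
    linarith
  · simp only [Cfg.co, Fin.mk_one, Fin.isValue, Matrix.cons_val_one, Matrix.cons_val_zero, Real.rpow_zero]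
    have e : G.P j k - G.P i k = (G.d j - G.d i) - G.f k * (G.c j - G.c i) := by
      unfold Cfg.P; ring
    rw [e]
    have h3 : |G.d j - G.d i| ≤ 1 / 4 := abs_le.2 ⟨by linarith, by linarith⟩
    have h4 : |G.f k * (G.c j - G.c i)| ≤ 1 / 4 := by
      rw [abs_mul]
      have h5 : |G.c j - G.c i| ≤ 1 / 4 := abs_le.2 ⟨by linarith, by linarith⟩
      have := mul_le_mul fk h5 (abs_nonneg _) (by norm_num)
      linarith
    have h6 := abs_sub (G.d j - G.d i) (G.f k * (G.c j - G.c i))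
    linarith
  · simp [Cfg.co]
    linarith
  · simp [Cfg.co]
    linarith

theorem card_sqL_le (hsub : G.I ⊆ G.L ×ˢ G.Z) (hb : G.Bd) (hρ : 0 < G.ρ) {τ M y r : ℝ}
    (hτ : ∀ i ∈ G.L, τ * (G.Z.card : ℝ) ≤ ((G.hts i).card : ℝ)) (hZ : 0 < (G.Z.card : ℝ)) (hM : 0 ≤ M)
    (hbox : ∀ i k, (i, k) ∈ G.I → ((G.box ![0, 0, y, y] i k).card : ℝ) ≤ M)
    {i : ℕ} (hr : ∀ j ∈ sqL G r i, ∀ j' ∈ sqL G r i, ∀ k ∈ G.Z, G.near ![0, 0, y, y] k j j') :
    τ * ((sqL G r i).card : ℝ) ≤ M := by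
  classical
  set Q := sqL G r i with hQ
  have hQL : Q ⊆ G.L := by
    rw [hQ]; unfold sqL; exact Finset.filter_subset _ _
  have h1 := sum_slice_inter G hsub Q hQL
  have h2 : ∀ k ∈ G.Z, (((G.slice k ∩ Q).card : ℕ) : ℝ) ≤ M := by
    intro k hk
    rcases (G.slice k ∩ Q).eq_empty_or_nonempty with h | ⟨i1, hi1⟩
    · rw [h]; simpa using hM
    · have hi1' := Finset.mem_inter.1 hi1
      have hI : (i1, k) ∈ G.I := (Finset.mem_filter.1 hi1'.1).2
      refine le_trans ?_ (hbox i1 k hI)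
      exact_mod_cast Finset.card_le_card (by
        intro j hj
        have hj' := Finset.mem_inter.1 hj
        exact Finset.mem_filter.2 ⟨hj'.1, hr i1 hi1'.2 j hj'.2 k hk⟩)
  have h3 : ∑ i ∈ Q, τ * (G.Z.card : ℝ) ≤ ∑ i ∈ Q, ((G.hts i).card : ℝ) :=
    Finset.sum_le_sum fun j hj => hτ j (hQL hj)
  have h4 : ∑ k ∈ G.Z, (((G.slice k ∩ Q).card : ℕ) : ℝ) ≤ ∑ k ∈ G.Z, M := Finset.sum_le_sum h2
  have h5 : ∑ k ∈ G.Z, (((G.slice k ∩ Q).card : ℕ) : ℝ) = ∑ i ∈ Q, ((G.hts i).card : ℝ) := by exact_mod_cast h1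
  rw [Finset.sum_const, nsmul_eq_mul] at h3 h4
  rw [h5] at h4
  have h6 := h3.trans h4
  have h7 : (G.Z.card : ℝ) * (τ * (Q.card : ℝ)) ≤ (G.Z.card : ℝ) * M := by linarith
  exact le_of_mul_le_mul_left h7 hZ

/-- all lines are near each other at the trivial scale -/
theorem near_zero (hb : G.Bd) (hρ : 0 < G.ρ) {i j k : ℕ} (hi : i ∈ G.L) (hj : j ∈ G.L) (hk : k ∈ G.Z) :
    G.near ![0, 0, 0, 0] k i j := by
  have ai := abs_le.1 (hb.a i hi)
  have aj := abs_le.1 (hb.a j hj)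
  have ci := abs_le.1 (hb.c i hi)
  have cj := abs_le.1 (hb.c j hj)
  refine near_of_sq G hb hρ (y := 0) (r := 1 / 4) hk hi hj (by norm_num) ?_ ?_
  · exact abs_le.2 ⟨by linarith, by linarith⟩
  · exact abs_le.2 ⟨by linarith, by linarith⟩

theorem mem_sqL {r : ℝ} {i j : ℕ} : j ∈ sqL G r i ↔ j ∈ G.L ∧ |G.a j - G.a i| ≤ r ∧ |G.c j - G.c i| ≤ r := by
  classical
  unfold sqL; simp

theorem near_in_sq (hb : G.Bd) (hρ : 0 < G.ρ) {y r : ℝ} {i : ℕ} (hr : 4 * r ≤ G.ρ ^ y) :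
    ∀ j ∈ sqL G r i, ∀ j' ∈ sqL G r i, ∀ k ∈ G.Z, G.near ![0, 0, y, y] k j j' := by
  intro j hj j' hj' k hk
  rw [mem_sqL] at hj hj'
  refine near_of_sq G hb hρ (r := 2 * r) hk hj.1 hj'.1 (by linarith) ?_ ?_
  · have := abs_sub_le (G.a j') (G.a i) (G.a j)
    rw [abs_sub_comm (G.a i)] at this
    linarith [hj.2.1, hj'.2.1]
  · have := abs_sub_le (G.c j') (G.c i) (G.c j)
    rw [abs_sub_comm (G.c i)] at this
    linarith [hj.2.2, hj'.2.2]

/-- lower bound of the energy -/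
theorem energy_ge (hsub : G.I ⊆ G.L ×ˢ G.Z) {τ M x : ℝ} (hM : 0 ≤ M)
    (hsl : ∀ k ∈ G.Z, τ * (G.L.card : ℝ) ≤ ((G.slice k).card : ℝ))
    (hbox : ∀ i k, (i, k) ∈ G.I → M ≤ ((G.box ![0, 0, 0, x] i k).card : ℝ)) :
    (G.Z.card : ℝ) * (τ * (G.L.card : ℝ) * M) ≤
      ∑ k ∈ G.Z, (1 : ℝ) * ∑ i ∈ G.L, ∑ j ∈ G.L with |(G.a i - G.a j) + G.z k * (G.c i - G.c j)| ≤ G.ρ ^ x, (1 : ℝ) * 1 := by
  classical
  rw [← nsmul_eq_mul, ← Finset.sum_const]
  refine Finset.sum_le_sum fun k hk => ?_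
  have h1 : ∑ i ∈ G.slice k, M ≤ ∑ i ∈ G.slice k, ((G.box ![0, 0, 0, x] i k).card : ℝ) :=
    Finset.sum_le_sum fun i hi => hbox i k (Finset.mem_filter.1 hi).2
  rw [Finset.sum_const, nsmul_eq_mul] at h1
  have h2 : τ * (G.L.card : ℝ) * M ≤ ((G.slice k).card : ℝ) * M := mul_le_mul_of_nonneg_right (hsl k hk) hM
  refine h2.trans (h1.trans ?_)
  rw [one_mul]
  have h3 : ∑ i ∈ G.slice k, ((G.box ![0, 0, 0, x] i k).card : ℝ)
      ≤ ∑ i ∈ G.slice k, ∑ j ∈ G.L with |(G.a i - G.a j) + G.z k * (G.c i - G.c j)| ≤ G.ρ ^ x, (1 : ℝ) * 1 := by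
    refine Finset.sum_le_sum fun i _ => ?_
    rw [Finset.sum_const, nsmul_eq_mul, mul_one, mul_one]
    exact_mod_cast Finset.card_le_card (by
      intro j hj
      have hj' := Finset.mem_filter.1 hj
      refine Finset.mem_filter.2 ⟨(Finset.mem_filter.1 hj'.1).1, ?_⟩
      have h4 := hj'.2 3
      simp only [Cfg.co] at h4
      have e : (G.a i - G.a j) + G.z k * (G.c i - G.c j) = -(G.X j k - G.X i k) := by unfold Cfg.X; ring
      rw [e, abs_neg]
      simpa using h4)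
  refine h3.trans ?_
  refine Finset.sum_le_sum_of_subset_of_nonneg (Finset.filter_subset _ _) ?_
  intro i _ _
  exact Finset.sum_nonneg fun _ _ => by norm_num

end one

/-! ### the F-model -/

/-- `C (1 + L) d^a < 1` eventually (`a > 0`) -/
theorem ev_small (B : Base) {C a : ℝ} (hC : 0 < C) (ha : 0 < a) :
    ∀ᶠ n in (U : Filter ℕ), C * (1 + B.L n) * B.d n ^ a < 1 := by
  have h1 : B.PB (fun n => C * (1 + B.L n) * B.d n ^ a) :=
    ((Base.PB.const hC).mul Base.Sub.one_add_L.1).mul (Base.PB.dpow a)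
  have h2 : B.ex (fun n => C * (1 + B.L n) * B.d n ^ a) = -a := by
    rw [Base.ex_mul ((Base.PB.const hC).mul Base.Sub.one_add_L.1) (Base.PB.dpow a),
      Base.ex_mul (Base.PB.const hC) Base.Sub.one_add_L.1, Base.ex_const, Base.Sub.one_add_L.2, Base.ex_dpow]
    ring
  have h3 := Base.ex_lt_iff_dpow h1 (a := 0) (by rw [h2]; linarith)
  filter_upwards [h3] with n hn
  simpa using hn

set_option maxHeartbeats 1000000 in
/-- **Falconer in the F-model**, general counting function. -/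
theorem falconer_FM {B : Base} {G : ℕ → Cfg} {σ R : ℝ} {ν : (Fin 4 → ℝ) → ℝ} (hF : FModel B G σ R ν)
    {x : ℝ} (hx0 : 0 ≤ x) (hxR : x ≤ R) {η : ℝ} (hη : 0 < η) :
    ∃ x', 0 ≤ x' ∧ x' ≤ x ∧
      (ν 0 - ν ![0, 0, x', x']) - (1 - σ) * x' + (x - x') ≤ ν 0 - ν ![0, 0, 0, x] + η := by
  classical
  rcases hx0.eq_or_lt with rfl | hx
  · exact ⟨0, le_rfl, le_rfl, by linarith⟩
  by_contra hcon
  push Not at hcon
  -- net
  obtain ⟨J, hJ⟩ := exists_nat_gt (32 * x / η)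
  have hJ0 : (0 : ℝ) < J := lt_of_le_of_lt (by positivity) hJ
  set h : ℝ := x / J with hh
  have hh0 : 0 < h := div_pos hx hJ0
  have hhη : 4 * h ≤ η / 8 := by
    rw [div_lt_iff₀ hη] at hJ
    rw [hh, ← sub_nonneg]
    have : η / 8 - 4 * (x / J) = (J * η - 32 * x) / (8 * J) := by field_simp; ring
    rw [this]
    exact div_nonneg (by linarith) (by positivity)
  have hJh : (J : ℝ) * h = x := by rw [hh]; field_simp
  set ε : ℝ := η / 40 with hε
  have hε0 : 0 < ε := by positivity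
  set y : ℕ → ℝ := fun j => ((j - 1 : ℕ) : ℝ) * h with hy
  have hy0 : ∀ j, 0 ≤ y j := fun j => by positivity
  have hyx : ∀ j ≤ J, y j ≤ x := by
    intro j hj
    rw [← hJh]
    refine mul_le_mul_of_nonneg_right ?_ hh0.le
    exact_mod_cast (by omega : j - 1 ≤ J)
  have hyR : ∀ j ≤ J, y j ≤ R := fun j hj => (hyx j hj).trans hxR
  have hjh : ∀ j ≤ J, (j : ℝ) * h ≤ x := by
    intro j hj
    rw [← hJh]
    exact mul_le_mul_of_nonneg_right (by exact_mod_cast hj) hh0.le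
  have E1 : ∀ᶠ n in (U : Filter ℕ), ∀ j ∈ Finset.range (J + 1), ∀ i k, (i, k) ∈ (G n).I →
      (((G n).box ![0, 0, y j, y j] i k).card : ℝ) ≤ B.d n ^ (-ν ![0, 0, y j, y j] - ε) := by
    rw [Filter.eventually_all_finset]
    intro j hj
    have hj' : j ≤ J := by have := Finset.mem_range.1 hj; omega
    have := hF.unif ![0, 0, y j, y j] (by
      intro l
      fin_cases l
      · exact ⟨le_rfl, hF.R_pos.le⟩
      · exact ⟨le_rfl, hF.R_pos.le⟩
      · exact ⟨hy0 j, hyR j hj'⟩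
      · exact ⟨hy0 j, hyR j hj'⟩) ε hε0
    exact this.mono fun n hn i k hik => (hn i k hik).2
  have E2 : ∀ᶠ n in (U : Filter ℕ), ∀ j ∈ Finset.range (J + 1), ∀ k ∈ (G n).Z,
      (((G n).hbox ((j : ℝ) * h) k).card : ℝ) ≤ B.d n ^ (σ * ((j : ℝ) * h) - ε) * ((G n).Z.card : ℝ) := by
    rw [Filter.eventually_all_finset]
    intro j hj
    have hj' : j ≤ J := by have := Finset.mem_range.1 hj; omega
    exact hF.frost _ (by positivity) ((hjh j hj').trans hxR) ε hε0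
  have E3 := hF.line ε hε0
  have E4 := hF.slice ε hε0
  have E5 := hF.unif ![0, 0, 0, x] (by
      intro l
      fin_cases l
      · exact ⟨le_rfl, hF.R_pos.le⟩
      · exact ⟨le_rfl, hF.R_pos.le⟩
      · exact ⟨le_rfl, hF.R_pos.le⟩
      · exact ⟨hx.le, hxR⟩) ε hε0
  have E6 : ∀ᶠ n in (U : Filter ℕ), B.d n ^ h ≤ 1 / 4 := by
    have := ev_small B (C := 4) (a := h) (by norm_num) hh0
    filter_upwards [this] with n hn
    have h1 := B.L_pos n
    have h2 : 0 < B.d n ^ h := Real.rpow_pos_of_pos (B.pos n) _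
    nlinarith
  have hCF := CF_pos
  have E7 := ev_small B (C := 4 * CF * (1 + x)) (a := η / 2) (by positivity) (by positivity)
  obtain ⟨n, e1, e2, e3, e4, e5, e6, e7⟩ := (E1.and (E2.and (E3.and (E4.and (E5.and (E6.and E7)))))).exists
  -- the finite argument
  have hρ : (G n).ρ = B.d n := hF.base n
  have hρ0 : 0 < (G n).ρ := by rw [hρ]; exact B.pos n
  have hρ1 : (G n).ρ ≤ 1 := by rw [hρ]; exact (B.lt n).le
  rw [← hρ] at e1 e2 e3 e4 e5 e6 e7
  set ρ := (G n).ρ with hρdef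
  obtain ⟨⟨i0, k0⟩, hik0⟩ := hF.nonempty n
  have hik0' := Finset.mem_product.1 (hF.sub n hik0)
  have hZ : 0 < ((G n).Z.card : ℝ) := by exact_mod_cast Finset.card_pos.2 ⟨k0, hik0'.2⟩
  have hL : 0 < ((G n).L.card : ℝ) := by exact_mod_cast Finset.card_pos.2 ⟨i0, hik0'.1⟩
  set E : ℝ := ρ ^ (-ν ![0, 0, 0, x] + η - x - 3 * ε - 4 * h) * ((G n).Z.card : ℝ) with hE
  have hE0 : 0 ≤ E := by positivity
  have hρx1 : ρ ^ x ≤ 1 := Real.rpow_le_one hρ0.le hρ1 hx.le
  have hmain := falconer_sup (G n).L (fun _ => (1 : ℝ)) (G n).a (G n).c (G n).Z (fun _ => (1 : ℝ)) (G n).z (ρ ^ x) E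
    (Real.rpow_pos_of_pos hρ0 _) hρx1 hE0 (fun _ _ => zero_le_one) (fun _ _ => zero_le_one)
    (fun i hi => ((hF.bd n).c i hi).trans (by norm_num)) (fun k hk => (hF.bd n).z k hk)
    (by
      intro r hr1 hr2 i hi k hk
      have hr0 : 0 < r := lt_of_lt_of_le (Real.rpow_pos_of_pos hρ0 _) hr1
      -- exponent of r
      have hlρ : Real.log ρ < 0 := Real.log_neg hρ0 (by rw [hρ]; exact B.lt n)
      set u : ℝ := Real.log r / Real.log ρ with hu
      have hru : r = ρ ^ u := by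
        rw [Real.rpow_def_of_pos hρ0, hu, mul_div_cancel₀ _ hlρ.ne, Real.exp_log hr0]
      have hu0 : 0 ≤ u := div_nonneg_of_nonpos (Real.log_nonpos hr0.le hr2) hlρ.le
      have hux : u ≤ x := by
        have h1 := Real.log_le_log (Real.rpow_pos_of_pos hρ0 _) hr1
        rw [Real.log_rpow hρ0] at h1
        rw [hu, div_le_iff_of_neg hlρ]
        exact h1
      set j := ⌊u / h⌋₊ with hj
      have hj1 : (j : ℝ) * h ≤ u := by
        have := Nat.floor_le (show 0 ≤ u / h by positivity)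
        rwa [← hj, le_div_iff₀ hh0] at this
      have hj2 : u < ((j : ℝ) + 1) * h := by
        have := Nat.lt_floor_add_one (u / h)
        rwa [← hj, div_lt_iff₀ hh0] at this
      have hjJ : j ≤ J := by
        have h1 : u / h ≤ J := by rw [div_le_iff₀ hh0, hJh]; exact hux
        have h2 := Nat.floor_le_floor h1
        simpa [← hj] using h2
      have hjr : j ∈ Finset.range (J + 1) := Finset.mem_range.2 (by omega)
      have hyj : (y j) + 2 * h ≥ u ∧ y j ≤ (j : ℝ) * h := by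
        rcases Nat.eq_zero_or_pos j with h0 | h0
        · rw [h0] at hj2 ⊢
          simp only [hy]
          norm_num at hj2 ⊢
          linarith
        · have e : y j = ((j : ℝ) - 1) * h := by
            simp only [hy]
            rw [Nat.cast_sub (by omega)]
            norm_num
          rw [e]
          constructor
          · nlinarith
          · nlinarith
      have hnear : ∀ j1 ∈ sqL (G n) r i, ∀ j2 ∈ sqL (G n) r i, ∀ k' ∈ (G n).Z,
          (G n).near ![0, 0, y j, y j] k' j1 j2 := by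
        rcases Nat.eq_zero_or_pos j with h0 | h0
        · intro j1 h1 j2 h2 k' hk'
          have : y j = 0 := by rw [h0]; simp [hy]
          rw [this]
          rw [mem_sqL] at h1 h2
          exact near_zero (G n) (hF.bd n) hρ0 h1.1 h2.1 hk'
        · refine near_in_sq (G n) (hF.bd n) hρ0 ?_
          have e : (j : ℝ) * h = y j + h := by
            simp only [hy]
            rw [Nat.cast_sub (by omega)]
            push_cast
            ring
          have h1 : r ≤ ρ ^ (y j) * ρ ^ h := by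
            rw [hru, ← Real.rpow_add hρ0]
            exact Real.rpow_le_rpow_of_exponent_ge hρ0 hρ1 (by linarith)
          have h2 : 0 < ρ ^ (y j) := Real.rpow_pos_of_pos hρ0 _
          have h3 := mul_le_mul_of_nonneg_left e6 h2.le
          linarith
      have hB := card_sqL_le (G n) (hF.sub n) (hF.bd n) hρ0 (τ := ρ ^ ε)
        (M := ρ ^ (-ν ![0, 0, y j, y j] - ε)) (y := y j) (r := r) (i := i) e3 hZ (by positivity) (e1 j hjr) hnear
      have hB2 : mB (G n).L (fun _ => (1 : ℝ)) (G n).a (G n).c r i ≤ ρ ^ (-ν ![0, 0, y j, y j] - 2 * ε) := by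
        rw [mB_eq]
        have h1 : 0 < ρ ^ ε := Real.rpow_pos_of_pos hρ0 _
        have h2 : ρ ^ ε * ρ ^ (-ν ![0, 0, y j, y j] - 2 * ε) = ρ ^ (-ν ![0, 0, y j, y j] - ε) := by
          rw [← Real.rpow_add hρ0]; congr 1; ring
        rw [← h2] at hB
        exact le_of_mul_le_mul_left hB h1
      have hI2 : mI (G n).Z (fun _ => (1 : ℝ)) (G n).z r k ≤ ρ ^ (σ * ((j : ℝ) * h) - ε) * ((G n).Z.card : ℝ) := by
        refine le_trans ?_ (e2 j hjr k hk)
        rw [← mI_eq (G n) (ρ ^ ((j : ℝ) * h)) ((j : ℝ) * h) rfl k]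
        unfold mI
        refine Finset.sum_le_sum_of_subset_of_nonneg ?_ (fun _ _ _ => zero_le_one)
        intro z' hz'
        have hz'' := Finset.mem_filter.1 hz'
        refine Finset.mem_filter.2 ⟨hz''.1, hz''.2.trans ?_⟩
        rw [hru]
        exact Real.rpow_le_rpow_of_exponent_ge hρ0 hρ1 hj1
      have hI0 : 0 ≤ mI (G n).Z (fun _ => (1 : ℝ)) (G n).z r k := by
        unfold mI
        exact Finset.sum_nonneg fun _ _ => zero_le_one
      have h1 := mul_le_mul hB2 hI2 hI0 (by positivity)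
      refine h1.trans ?_
      have h2 : ρ ^ (-ν ![0, 0, y j, y j] - 2 * ε) * (ρ ^ (σ * ((j : ℝ) * h) - ε) * ((G n).Z.card : ℝ))
          = ρ ^ (-ν ![0, 0, y j, y j] - 2 * ε + (σ * ((j : ℝ) * h) - ε)) * ((G n).Z.card : ℝ) := by
        rw [Real.rpow_add hρ0]; ring
      have h3 : E * r ^ 2 = ρ ^ (-ν ![0, 0, 0, x] + η - x - 3 * ε - 4 * h + 2 * u) * ((G n).Z.card : ℝ) := by
        rw [hE, hru, ← Real.rpow_natCast (ρ ^ u) 2, ← Real.rpow_mul hρ0.le, Real.rpow_add hρ0 _ (2 * u)]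
        push_cast
        ring_nf
      rw [h2, h3]
      refine mul_le_mul_of_nonneg_right ?_ hZ.le
      refine Real.rpow_le_rpow_of_exponent_ge hρ0 hρ1 ?_
      have h4 := hcon (y j) (hy0 j) (hyx j hjJ)
      have h5 : σ * y j ≤ σ * ((j : ℝ) * h) := mul_le_mul_of_nonneg_left hyj.2 hF.σ_nonneg
      nlinarith [hyj.1, hyj.2])
  have hlow := energy_ge (G n) (hF.sub n) (τ := ρ ^ ε) (M := ρ ^ (-ν ![0, 0, 0, x] + ε)) (x := x) (by positivity)
    e4 (fun i k hik => (e5 i k hik).1)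
  have h1 := hlow.trans hmain
  have h2 : Real.log (1 / ρ ^ x) = x * B.L n := by
    rw [one_div, Real.log_inv, Real.log_rpow hρ0, hρ]
    unfold Base.L
    ring
  have h3 : (1 : ℝ) + x * B.L n ≤ (1 + x) * (1 + B.L n) := by
    have := B.L_pos n
    nlinarith
  rw [h2, Finset.sum_const, nsmul_eq_mul, mul_one] at h1
  have h4 : ((G n).Z.card : ℝ) * (ρ ^ ε * ((G n).L.card : ℝ) * ρ ^ (-ν ![0, 0, 0, x] + ε))
      = ((G n).Z.card : ℝ) * ((G n).L.card : ℝ) * ρ ^ (-ν ![0, 0, 0, x] + 2 * ε) := by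
    have : ρ ^ (-ν ![0, 0, 0, x] + 2 * ε) = ρ ^ ε * ρ ^ (-ν ![0, 0, 0, x] + ε) := by
      rw [← Real.rpow_add hρ0]; congr 1; ring
    rw [this]; ring
  have h5 : 4 * CF * ρ ^ x * (1 + x * B.L n) * ((G n).L.card : ℝ) * E
      ≤ ((G n).Z.card : ℝ) * ((G n).L.card : ℝ) * ρ ^ (-ν ![0, 0, 0, x] + 2 * ε) *
        (4 * CF * (1 + x) * (1 + B.L n) * ρ ^ (η - 5 * ε - 4 * h)) := by
    have e : ρ ^ (-ν ![0, 0, 0, x] + 2 * ε) * ρ ^ (η - 5 * ε - 4 * h)
        = ρ ^ x * ρ ^ (-ν ![0, 0, 0, x] + η - x - 3 * ε - 4 * h) := by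
      rw [← Real.rpow_add hρ0, ← Real.rpow_add hρ0]; congr 1; ring
    have h6 : 0 ≤ 4 * CF * ((G n).L.card : ℝ) * ((G n).Z.card : ℝ) * (ρ ^ x * ρ ^ (-ν ![0, 0, 0, x] + η - x - 3 * ε - 4 * h)) := by
      positivity
    have h7 := mul_le_mul_of_nonneg_left h3 h6
    rw [hE]
    refine le_trans (le_of_eq (by ring)) (h7.trans (le_of_eq ?_))
    rw [← e]; ring
  have h6 : (4 * CF * (1 + x) * (1 + B.L n) * ρ ^ (η - 5 * ε - 4 * h)) < 1 := by
    refine lt_of_le_of_lt ?_ e7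
    refine mul_le_mul_of_nonneg_left ?_ ?_
    · exact Real.rpow_le_rpow_of_exponent_ge hρ0 hρ1 (by rw [hε]; linarith)
    · have := B.L_pos n
      positivity
  rw [h4] at h1
  have h7 : 0 < ((G n).Z.card : ℝ) * ((G n).L.card : ℝ) * ρ ^ (-ν ![0, 0, 0, x] + 2 * ε) := by positivity
  have h8 := h1.trans h5
  nlinarith

end Crest.Agent.R138.Fal658
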