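import Crest.Agent.R138.WAsm3_188

/-!
# R138 / R139: WAVE side, the far region `R ≥ (R / w²)^A` and the variation of `q` (helper992)

* `LBfar B q c A`: the bound `LB` only for `(R / w²)^A ≤ R`;
* `FAR B`: `LB` at `q' < q` gives an improved far bound at `q`, the gain does not depend on `q - q'`;
* `W3gC_of_far`: the boundary slab statement follows from the far bound (by `A2`);
* `LB_all_of_FAR`: `FAR` implies `LB` for all `c > 0` and all `q ∈ (0, 1]`.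
-/

set_option autoImplicit false

open MeasureTheory FourierTransform
open scoped ContDiff ENNReal

namespace Crest.Agent.R138.Far992

open Crest.Agent.R138.Defs Crest.Agent.R138.Bil882 Crest.Agent.R138.Wpk685
open Crest.Agent.R138.W188

/-- **LB in the far region.** -/
def LBfar (B : ℕ → ℝ) (q c A : ℝ) : Prop :=
  ∀ ε : ℝ, 0 < ε → ∀ (Na : ℕ) (M0 : ℝ), ∃ N : ℕ, ∃ C : ℝ, 0 ≤ C ∧
    ∀ h g R D w, St B q Na M0 1 h g R D → 1 ≤ w → w ≤ R ^ (1/2 : ℝ) → (R / w ^ 2) ^ A ≤ R →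
      NN N h g w R ≤ ENNReal.ofReal (C * R ^ ε * (R / w ^ 2) ^ (c / 2) * SS g R D)

/-- **FAR**: improvement in the far region from `LB` at a smaller penalty exponent. -/
def FAR (B : ℕ → ℝ) : Prop :=
  ∀ a cs : ℝ, 0 < a → 0 < cs → ∃ κ : ℝ, 0 < κ ∧ ∀ q' q : ℝ, a ≤ q' → q' < q → q ≤ 1 →
    ∀ c : ℝ, cs ≤ c → c ≤ 9 → LB B q' 1 c → ∃ A : ℝ, 0 ≤ A ∧ LBfar B q (c - κ) A

theorem PBox.mono_q {q q' : ℝ} (hq : q' ≤ q) {Na : ℕ} {h : E2 → ℝ} {g : E2 → ℂ} {R D : ℝ}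
    (hR : 1 ≤ R) (hD : 0 ≤ D) (H : PBox q Na h g R D) : PBox q' Na h g R D := by
  intro c b s hs ψ hψ x0 t0 hx ht
  refine (H c b s hs ψ hψ x0 t0 hx ht).trans (ENNReal.ofReal_le_ofReal ?_)
  have hR0 : 0 < R := by linarith
  have hs0 : ∀ i, 0 < s i := fun i => lt_of_lt_of_le (by positivity) (hs i).1
  have hm : 0 < max (s 0) (s 1) := lt_max_of_lt_left (hs0 0)
  have hm1 : max (s 0) (s 1) ≤ 1 := max_le (hs 0).2 (hs 1).2
  have h1 : (max (s 0) (s 1)) ^ q ≤ (max (s 0) (s 1)) ^ q' :=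
    Real.rpow_le_rpow_of_exponent_ge hm hm1 hq
  have h2 := hs0 0
  have h3 := hs0 1
  gcongr

theorem St.mono_q {B : ℕ → ℝ} {q q' : ℝ} (hq : q' ≤ q) {Na : ℕ} {M0 σ : ℝ} {h : E2 → ℝ}
    {g : E2 → ℂ} {R D : ℝ} (H : St B q Na M0 σ h g R D) : St B q' Na M0 σ h g R D :=
  ⟨H.par, H.h0, H.h1, H.meas, H.bdd, H.supp, H.R1, H.D0, PBox.mono_q hq H.R1 H.D0 H.box, H.nd⟩

theorem LB.mono_q {B : ℕ → ℝ} {q q' σ c : ℝ} (hq : q' ≤ q) (H : LB B q' σ c) : LB B q σ c := by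
  intro ε hε Na M0
  obtain ⟨N, C, hC, H⟩ := H ε hε Na M0
  exact ⟨N, C, hC, fun h g R D w hSt => H h g R D w (St.mono_q hq hSt)⟩

theorem LBfar.mono_c {B : ℕ → ℝ} {q c c' A : ℝ} (hc : c ≤ c') (H : LBfar B q c A) :
    LBfar B q c' A := by
  intro ε hε Na M0
  obtain ⟨N, C, hC, H'⟩ := H ε hε Na M0
  refine ⟨N, C, hC, fun h g R D w hSt hw hwR hA => (H' h g R D w hSt hw hwR hA).trans ?_⟩
  apply ENNReal.ofReal_le_ofReal
  have h1 := one_le_R_div hSt.R1 hw hwR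
  have h2 := hSt.ss
  have h3 := hSt.Rpos
  gcongr

set_option maxHeartbeats 1000000 in
/-- **the boundary slab statement from the far bound.** -/
theorem W3gC_of_far {B : ℕ → ℝ} {q : ℝ} {F : ℝ → ℝ → ℝ → (E2 → ℝ) → (E2 → ℂ) → ℝ → ℝ≥0∞}
    {c1 κ A : ℝ} (hc1 : 0 < c1) (hκ : 0 < κ) (hκ1 : κ ≤ 1) (hA : 0 ≤ A) (H2 : A2 B q F)
    (HT : TRIV2 B q F) (HF : LBfar B q (c1 * (1 - κ)) A) : W3gC B q F c1 := by
  obtain ⟨c0, hc0, hc01, H2⟩ := H2
  obtain ⟨K0, hK0, HT⟩ := HT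
  have hK00 : 0 < K0 := by linarith
  set A' : ℝ := max A 2 with hA'
  have hAA' : A ≤ A' := le_max_left _ _
  have hA'2 : 2 ≤ A' := le_max_right _ _
  have hκ' : 0 ≤ 1 - κ := by linarith
  set c : ℝ := c1 * (1 - κ) with hc
  have hc0' : 0 ≤ c := by positivity
  refine ⟨κ, min (c0 ^ 6) (K0⁻¹), A', 1/4, hκ, hκ1, by positivity, ?_, by linarith, by norm_num, ?_⟩
  · exact (min_le_left _ _).trans (pow_le_one₀ hc0.le hc01)
  intro ε hε Na
  set e : ℝ := ε / 4 with he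
  have hep : 0 < e := by positivity
  obtain ⟨C1, hC1, HT⟩ := HT e hep Na 4
  obtain ⟨Na', M0', H2⟩ := H2 e hep Na 4
  obtain ⟨N, CF, hCF, HF⟩ := HF e hep Na' M0'
  obtain ⟨C2, hC2, H2⟩ := H2 N
  refine ⟨C1 + C2 * (CF + 1), by positivity, ?_⟩
  intro h g R D hSt d s1 s2 hd hd3 hdR hsd hs1d hs2d
  have hR := hSt.R1
  have hR0 := hSt.Rpos
  have hss := hSt.ss
  have hd6 : d ≤ c0 ^ 6 := hd3.trans (min_le_left _ _)
  have hdK : d ≤ K0⁻¹ := hd3.trans (min_le_right _ _)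
  have hd1 : d ≤ 1 := hd6.trans (pow_le_one₀ hc0.le hc01)
  have hdc0 : d ≤ c0 := hd6.trans (by
    calc c0 ^ 6 ≤ c0 ^ 1 := pow_le_pow_of_le_one hc0.le hc01 (by norm_num)
      _ = c0 := pow_one _)
  obtain ⟨r, hr⟩ : ∃ r, r = d * R := ⟨_, rfl⟩
  rw [← hr] at hsd hs1d ⊢
  have hr0 : 0 < r := by rw [hr]; positivity
  obtain ⟨hs1, hs2⟩ := hsd.s2pos hr0
  obtain ⟨hf1, hf2⟩ := hsd.facts hr0
  have hdneg : ∀ x y : ℝ, x ≤ y → d ^ (-x) ≤ d ^ (-y) := fun x y hxy =>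
    Real.rpow_le_rpow_of_exponent_ge hd hd1 (by linarith)
  have hd2R : d ^ (-(2:ℝ)) ≤ R := (hdneg 2 A' hA'2).trans hdR
  have hRr : R ^ (1/2 : ℝ) ≤ r := by
    have h1 : (d ^ (-(2:ℝ))) ^ (-(1/2) : ℝ) = d := by
      rw [← Real.rpow_mul hd.le]; norm_num
    have h2 : R ^ (-(1/2) : ℝ) ≤ d := by
      calc R ^ (-(1/2) : ℝ) ≤ (d ^ (-(2:ℝ))) ^ (-(1/2) : ℝ) :=
            Real.rpow_le_rpow_of_nonpos (by positivity) hd2R (by norm_num)
        _ = d := h1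
    calc R ^ (1/2 : ℝ) = R ^ (-(1/2) : ℝ) * R := by
          nth_rewrite 3 [← Real.rpow_one R]
          rw [← Real.rpow_add hR0]; norm_num
      _ ≤ d * R := by gcongr
      _ = r := hr.symm
  have hdc : 1 ≤ d ^ (-(c1 / 2 * (1 - κ))) :=
    Real.one_le_rpow_of_pos_of_le_one_of_nonpos hd hd1 (by
      have : 0 ≤ c1 / 2 * (1 - κ) := by positivity
      linarith)
  rcases le_or_gt (R ^ (-e)) d with hbig | hsmall
  · -- bounded ratio: trivial bound
    have h1 := HT h g R D r s1 s2 hSt hRr (by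
      rw [hr]
      calc K0 * (d * R) ≤ K0 * (K0⁻¹ * R) := by gcongr
        _ = R := by field_simp) hsd
    refine h1.trans (ENNReal.ofReal_le_ofReal ?_)
    have h2 : (R / r) ^ (2:ℝ) ≤ R ^ (2 * e) := by
      have h3 : R / r ≤ R ^ e := by
        rw [div_le_iff₀ hr0, hr]
        calc R = R ^ e * (R ^ (-e) * R) := by
              rw [← mul_assoc, ← Real.rpow_add hR0]; simp
          _ ≤ R ^ e * (d * R) := by gcongr
      calc (R / r) ^ (2:ℝ) ≤ (R ^ e) ^ (2:ℝ) := by gcongr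
        _ = R ^ (2 * e) := by rw [← Real.rpow_mul hR0.le]; ring_nf
    have h4 : R ^ e * R ^ (2 * e) ≤ R ^ ε := by
      rw [← Real.rpow_add hR0]; exact rpow_le_rpow_of_one_le hR (by linarith)
    calc C1 * R ^ e * (R / r) ^ (2:ℝ) * SS g R D ≤ C1 * R ^ e * R ^ (2 * e) * SS g R D := by
          gcongr
      _ = C1 * (R ^ e * R ^ (2 * e)) * 1 * SS g R D := by ring
      _ ≤ (C1 + C2 * (CF + 1)) * R ^ ε * d ^ (-(c1 / 2 * (1 - κ))) * SS g R D := by
          gcongr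
          have : 0 ≤ C2 * (CF + 1) := by positivity
          linarith
  · -- main case
    have hr1 : r ≤ R ^ (1 - e) := by
      rw [hr, Real.rpow_sub hR0, Real.rpow_one, div_eq_mul_inv, ← Real.rpow_neg hR0.le, mul_comm]
      gcongr
    -- thickness
    have hth : (s1 * r) ^ 2 ≤ d ^ (1/2 : ℝ) * R := by
      have h1 : s1 * r ≤ d ^ (-(1/4) : ℝ) * r ^ (1/2 : ℝ) := by
        have h2 : r ^ (-(1/2) : ℝ) * r = r ^ (1/2 : ℝ) := by
          nth_rewrite 2 [← Real.rpow_one r]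
          rw [← Real.rpow_add hr0]; norm_num
        calc s1 * r ≤ d ^ (-(1/4) : ℝ) * r ^ (-(1/2) : ℝ) * r := by gcongr
          _ = _ := by rw [mul_assoc, h2]
      calc (s1 * r) ^ 2 ≤ (d ^ (-(1/4) : ℝ) * r ^ (1/2 : ℝ)) ^ 2 := by gcongr
        _ = d ^ (-(1/2) : ℝ) * r := by
            rw [mul_pow, ← Real.rpow_natCast, ← Real.rpow_natCast, ← Real.rpow_mul hd.le,
              ← Real.rpow_mul hr0.le]
            norm_num
        _ = (d ^ (-(1/2) : ℝ) * d) * R := by rw [hr]; ring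
        _ = d ^ (1/2 : ℝ) * R := by
            congr 1
            nth_rewrite 2 [← Real.rpow_one d]
            rw [← Real.rpow_add hd]; norm_num
    have hth3 : (s1 * r) ^ 2 ≤ c0 ^ 3 * R := by
      refine hth.trans ?_
      have : d ^ (1/2 : ℝ) ≤ c0 ^ 3 := by
        calc d ^ (1/2 : ℝ) ≤ (c0 ^ 6) ^ (1/2 : ℝ) := by gcongr
          _ = c0 ^ 3 := by
              rw [← Real.rpow_natCast, ← Real.rpow_natCast, ← Real.rpow_mul hc0.le]; norm_num
      gcongr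
    have hk : s1 * r ≤ R ^ (1/2 : ℝ) := by
      have h1 : (s1 * r) ^ 2 ≤ R := hth3.trans (by
        have : c0 ^ 3 ≤ 1 := pow_le_one₀ hc0.le hc01
        nlinarith)
      calc s1 * r = ((s1 * r) ^ 2) ^ (1/2 : ℝ) := by
            rw [← Real.rpow_natCast, ← Real.rpow_mul (by positivity)]; norm_num
        _ ≤ R ^ (1/2 : ℝ) := by gcongr
    obtain ⟨Q, hQ⟩ : ∃ Q : ℝ, Q = (CF + 1) * R ^ e * d ^ (-(c1 / 2 * (1 - κ))) := ⟨_, rfl⟩
    have hQ1 : 1 ≤ Q := by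
      rw [hQ]
      have h2 : 1 ≤ R ^ e := Real.one_le_rpow hR hep.le
      have h3 : 1 ≤ CF + 1 := by linarith
      exact one_le_mul_of_one_le_of_one_le (one_le_mul_of_one_le_of_one_le h3 h2) hdc
    have h1 := H2 h g R D hSt r s1 s2 hRr hr1 hsd hk Q hQ1
      (by
        intro h' g' R' D' w' hSt' hR1 hR2 hw1 hw2
        have hR'0 := hSt'.Rpos
        have hss' := hSt'.ss
        have hw'1 : 1 ≤ w' := hf2.trans hw1
        have hw'0 : 0 < w' := by linarith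
        have hw'R : w' ^ 2 ≤ R' := by
          calc w' ^ 2 ≤ (c0⁻¹ * (s2 * s1 * r)) ^ 2 := by gcongr
            _ = (c0⁻¹ ^ 2 * s2 ^ 2) * (s1 * r) ^ 2 := by ring
            _ ≤ (c0⁻¹ ^ 2 * s2 ^ 2) * (c0 ^ 3 * R) := by gcongr
            _ = c0 * (s2 ^ 2 * R) := by field_simp
            _ ≤ R' := hR1
        have hw'half : w' ≤ R' ^ (1/2 : ℝ) := by
          calc w' = (w' ^ 2) ^ (1/2 : ℝ) := by
                rw [← Real.rpow_natCast, ← Real.rpow_mul hw'0.le]; norm_num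
            _ ≤ R' ^ (1/2 : ℝ) := by gcongr
        have hX1 := one_le_R_div hSt'.R1 hw'1 hw'half
        have hX : R' / w' ^ 2 ≤ d⁻¹ := by
          calc R' / w' ^ 2 ≤ (s2 ^ 2 * R) / (s2 * s1 * r) ^ 2 := by gcongr
            _ = R / (s1 * r) ^ 2 := by field_simp
            _ = R / ((s1 ^ 2 * r) * r) := by congr 1; ring
            _ ≤ R / (1 * r) := by gcongr
            _ = d⁻¹ := by rw [hr]; field_simp
        have hXA : (R' / w' ^ 2) ^ A ≤ R' := by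
          have h2 : (R' / w' ^ 2) ^ A ≤ d ^ (-A) := by
            calc (R' / w' ^ 2) ^ A ≤ (d⁻¹) ^ A := by gcongr
              _ = d ^ (-A) := by rw [Real.inv_rpow hd.le, Real.rpow_neg hd.le]
          have h3 : d ^ (-A) ≤ d ^ (-(2 * A')) := hdneg _ _ (by linarith)
          have h4 : (d ^ (-A') * s1) ^ 2 ≤ s2 ^ 2 := by gcongr
          have h5 : d ^ (-(2 * A')) * (s1 ^ 2 * r) ≤ s2 ^ 2 * r := by
            have h6 : (d ^ (-A')) ^ 2 = d ^ (-(2 * A')) := by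
              rw [← Real.rpow_natCast, ← Real.rpow_mul hd.le]; ring_nf
            calc d ^ (-(2 * A')) * (s1 ^ 2 * r) = (d ^ (-A') * s1) ^ 2 * r := by rw [← h6]; ring
              _ ≤ s2 ^ 2 * r := by gcongr
          calc (R' / w' ^ 2) ^ A ≤ d ^ (-(2 * A')) := h2.trans h3
            _ = d ^ (-(2 * A')) * 1 := by ring
            _ ≤ d ^ (-(2 * A')) * (s1 ^ 2 * r) := by gcongr
            _ ≤ s2 ^ 2 * r := h5
            _ = d * (s2 ^ 2 * R) := by rw [hr]; ring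
            _ ≤ c0 * (s2 ^ 2 * R) := by gcongr
            _ ≤ R' := hR1
        refine (HF h' g' R' D' w' hSt' hw'1 hw'half hXA).trans (ENNReal.ofReal_le_ofReal ?_)
        have h7 : R' ≤ R := hR2.trans (by
          have : s2 ^ 2 ≤ 1 := pow_le_one₀ hs2.le hsd.hi
          nlinarith)
        have h8 : (R' / w' ^ 2) ^ (c / 2) ≤ d ^ (-(c1 / 2 * (1 - κ))) := by
          calc (R' / w' ^ 2) ^ (c / 2) ≤ (d⁻¹) ^ (c / 2) := by gcongr
            _ = d ^ (-(c1 / 2 * (1 - κ))) := by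
                rw [Real.inv_rpow hd.le, ← Real.rpow_neg hd.le, hc]; congr 1; ring
        have h9 : CF * R' ^ e ≤ (CF + 1) * R ^ e := by
          have : R' ^ e ≤ R ^ e := by gcongr
          exact mul_le_mul (by linarith) this (by positivity) (by positivity)
        rw [hQ]
        exact mul_le_mul_of_nonneg_right (mul_le_mul h9 h8 (by positivity) (by positivity)) hss')
    refine h1.trans (ENNReal.ofReal_le_ofReal ?_)
    have h4 : R ^ e * R ^ e ≤ R ^ ε := by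
      rw [← Real.rpow_add hR0]; exact rpow_le_rpow_of_one_le hR (by linarith)
    rw [hQ]
    calc C2 * R ^ e * ((CF + 1) * R ^ e * d ^ (-(c1 / 2 * (1 - κ)))) * SS g R D
        = (C2 * (CF + 1)) * (R ^ e * R ^ e) * d ^ (-(c1 / 2 * (1 - κ))) * SS g R D := by ring
      _ ≤ (C1 + C2 * (CF + 1)) * R ^ ε * d ^ (-(c1 / 2 * (1 - κ))) * SS g R D := by
          gcongr
          linarith

/-- the list of landed leaves at one `q`. -/
def Lv (B : ℕ → ℝ) (q : ℝ) : Prop :=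
  ∃ F : ℝ → ℝ → ℝ → (E2 → ℝ) → (E2 → ℂ) → ℝ → ℝ≥0∞, HALF B q ∧ KMw B q ∧ TRIV1 B q ∧
    TRIV2 B q F ∧ A1 B q F ∧ A2 B q F ∧ A2K B q F ∧ A3k B q F ∧ A4 B q ∧ A5a B q ∧ A5b B q

/-- pigeonhole: an antitone function with values in `[0, 8]` has a small drop on some interval. -/
theorem small_drop {f : ℝ → ℝ} {a b κ : ℝ} (hab : a < b) (hκ : 0 < κ)
    (hf : f a - f b ≤ 8) : ∃ x y : ℝ, a ≤ x ∧ x < y ∧ y ≤ b ∧ f x - f y ≤ κ := by
  obtain ⟨N, hN⟩ := exists_nat_gt (8 / κ)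
  have hN0 : (0:ℝ) < N := lt_trans (by positivity) hN
  have hNk : 8 < N * κ := by rwa [div_lt_iff₀ hκ] at hN
  by_contra hcon
  push Not at hcon
  set p : ℕ → ℝ := fun i => a + i * ((b - a) / N) with hp
  have hstep : ∀ i : ℕ, p (i + 1) = p i + (b - a) / N := by
    intro i; simp only [hp]; push_cast; ring
  have hd : 0 < (b - a) / N := div_pos (by linarith) hN0
  have hpN : p N = b := by simp only [hp]; field_simp; ring
  have hp0 : p 0 = a := by simp [hp]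
  have hmono : Monotone p := monotone_nat_of_le_succ fun i => by rw [hstep]; linarith
  have hsum : ∀ n : ℕ, n ≤ N → (n : ℝ) * κ ≤ f (p 0) - f (p n) := by
    intro n
    induction n with
    | zero => intro _; simp
    | succ n ih =>
      intro hn
      have h1 := ih (by omega)
      have h2 := hcon (p n) (p (n + 1)) (by rw [← hp0]; exact hmono (Nat.zero_le _))
        (by rw [hstep]; linarith) (by rw [← hpN]; exact hmono hn)
      push_cast
      linarith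
  have h3 := hsum N le_rfl
  rw [hp0, hpN] at h3
  linarith

/-- **the wave theorem from FAR.** -/
theorem LB_all_of_FAR {B : ℕ → ℝ} (HL : ∀ q : ℝ, 0 < q → q ≤ 1 → Lv B q) (HF : FAR B) :
    ∀ q : ℝ, 0 < q → q ≤ 1 → ∀ c : ℝ, 0 < c → LB B q 1 c := by
  set T : ℝ → Set ℝ := fun q => {c | 0 ≤ c ∧ LB B q 1 c} with hT
  have h8 : ∀ q, 0 < q → q ≤ 1 → (8:ℝ) ∈ T q := by
    intro q hq hq1
    obtain ⟨F, HH, HK, HT1, HT2, H1, -⟩ := HL q hq hq1
    exact ⟨by norm_num, LB_start HH HK HT1 HT2 H1⟩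
  have hbdd : ∀ q, BddBelow (T q) := fun q => ⟨0, fun c hc => hc.1⟩
  set c1 : ℝ → ℝ := fun q => sInf (T q) with hc1
  have hc10 : ∀ q, 0 < q → q ≤ 1 → 0 ≤ c1 q := fun q h1 h2 =>
    le_csInf ⟨8, h8 q h1 h2⟩ fun c hc => hc.1
  have hc18 : ∀ q, 0 < q → q ≤ 1 → c1 q ≤ 8 := fun q h1 h2 => csInf_le (hbdd q) (h8 q h1 h2)
  have hH : ∀ q, 0 < q → q ≤ 1 → ∀ c, c1 q < c → LB B q 1 c := by
    intro q h1 h2 c hc
    obtain ⟨c', hc', hcc⟩ := exists_lt_of_csInf_lt ⟨8, h8 q h1 h2⟩ hc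
    exact hc'.2.mono hcc.le
  have hanti : ∀ q q', 0 < q' → q' ≤ q → q ≤ 1 → c1 q ≤ c1 q' := by
    intro q q' h1 h2 h3
    refine csInf_le_csInf (hbdd q) ⟨8, h8 q' h1 (h2.trans h3)⟩ ?_
    intro c hc
    exact ⟨hc.1, LB.mono_q h2 hc.2⟩
  intro q0 hq0 hq01
  rcases (hc10 q0 hq0 hq01).eq_or_lt with h0 | hpos
  · intro c hc
    exact hH q0 hq0 hq01 c (by rw [← h0]; exact hc)
  exfalso
  obtain ⟨κ0, hκ0, HF⟩ := HF (q0 / 2) (c1 q0) (by positivity) hpos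
  set κ : ℝ := min κ0 (min 1 (c1 q0)) with hκ
  have hκp : 0 < κ := lt_min hκ0 (lt_min one_pos hpos)
  have hκκ0 : κ ≤ κ0 := min_le_left _ _
  have hκ1 : κ ≤ 1 := (min_le_right _ _).trans (min_le_left _ _)
  have hκc : κ ≤ c1 q0 := (min_le_right _ _).trans (min_le_right _ _)
  obtain ⟨q', q, hq'a, hq'q, hqb, hdrop⟩ := small_drop (f := c1) (a := q0 / 2) (b := q0)
    (κ := κ / 4) (by linarith) (by positivity) (by
      have h1 := hc18 (q0 / 2) (by positivity) (by linarith)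
      have h2 := hc10 q0 hq0 hq01
      linarith)
  have hq'0 : 0 < q' := by linarith
  have hq00 : 0 < q := by linarith
  have hq1 : q ≤ 1 := by linarith
  have hq'1 : q' ≤ 1 := by linarith
  have hcq : c1 q0 ≤ c1 q := hanti q0 q hq00 hqb hq01
  have hcq' : c1 q ≤ c1 q' := hanti q q' hq'0 hq'q.le hq1
  have hpos' : 0 < c1 q := by linarith
  obtain ⟨A, hA, hfar⟩ := HF q' q hq'a hq'q hq1 (c1 q' + κ / 4) (by linarith)
    (by have := hc18 q' hq'0 hq'1; linarith) (hH q' hq'0 hq'1 _ (by linarith))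
  obtain ⟨F, HH, HK, HT1, HT2, H1, H2, H2K, H3, H4, H5a, H5b⟩ := HL q hq00 hq1
  have hκ2 : κ / (2 * c1 q) ≤ 1 := by
    rw [div_le_one (by positivity)]; linarith
  have hW : W3gC B q F (c1 q) := by
    refine W3gC_of_far (κ := κ / (2 * c1 q)) (A := A) hpos' (by positivity) hκ2 hA H2 HT2
      (hfar.mono_c ?_)
    have : c1 q * (1 - κ / (2 * c1 q)) = c1 q - κ / 2 := by field_simp
    rw [this]
    linarith
  obtain ⟨β, hβ, hβc, HE⟩ := END_gain hpos' (hH q hq00 hq1) HK HT1 H5a H4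
  obtain ⟨η, hη, hηc, hLB⟩ := LB_improve hpos' hβ hβc (hH q hq00 hq1) HE HK HT1 H1 H2 H2K H3 H5b hW
  have hmem : c1 q - η ∈ T q := ⟨by linarith, HH _ (by linarith) hLB⟩
  have := csInf_le (hbdd q) hmem
  have h9 : c1 q = sInf (T q) := rfl
  linarith

end Crest.Agent.R138.Far992
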