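import Crest.Agent.R138.WDef_188
import Crest.Agent.R138.Wpk4_685

/-!
# R138 wave side: re-rooting (helper323), part 1: translations, linearity of the packet energy
-/

set_option autoImplicit false

open MeasureTheory FourierTransform
open scoped ContDiff ENNReal

namespace Crest.Agent.R138.W323

open Crest.Agent.R138.Defs Crest.Agent.R138.Bil882 Crest.Agent.R138.W188
open Crest.Agent.R138.Wpk685

/-! ### translations -/

theorem tr_add (h : E2 → ℝ) (z z' : E2 × ℝ) (g : E2 → ℂ) :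
    tr h z (tr h z' g) = tr h (z + z') g := by
  funext ξ
  unfold tr
  rw [mul_assoc, ← ee_add]
  congr 2
  rw [Prod.fst_add, Prod.snd_add, inner_add_left]
  ring

theorem norm_tr (h : E2 → ℝ) (z : E2 × ℝ) (g : E2 → ℂ) (ξ : E2) : ‖tr h z g ξ‖ = ‖g ξ‖ := by
  unfold tr
  rw [norm_mul, norm_ee, mul_one]

theorem En_tr (h : E2 → ℝ) (z : E2 × ℝ) (g : E2 → ℂ) : En (tr h z g) = En g := by
  unfold En
  simp only [norm_tr]

theorem tr_sum (h : E2 → ℝ) (z : E2 × ℝ) {κ : Type*} (s : Finset κ) (G : κ → E2 → ℂ)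
    (e : E2 → ℂ) : tr h z (fun ξ => ∑ k ∈ s, G k ξ + e ξ) =
      fun ξ => ∑ k ∈ s, tr h z (G k) ξ + tr h z e ξ := by
  funext ξ
  unfold tr
  rw [add_mul, Finset.sum_mul]

theorem fourierInv_tr (h : E2 → ℝ) (z : E2 × ℝ) (g : E2 → ℂ) (x : E2) :
    𝓕⁻ (tr h z g) x = ext h g (x + z.1) z.2 := by
  rw [fourierInv_eq_int]
  unfold tr Defs.ext
  congr 1
  funext ξ
  rw [mul_assoc, ← ee_add]
  congr 2
  rw [inner_add_left]
  ring

theorem contDiff_phase {h : E2 → ℝ} (hh : Continuous h) (z : E2 × ℝ) :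
    Continuous fun ξ => ee (inner ℝ z.1 ξ + z.2 * h ξ) :=
  contDiff_ee.continuous.comp
    ((continuous_const.inner continuous_id).add (continuous_const.mul hh))

theorem Gd.tr {h : E2 → ℝ} (hh : Continuous h) {g : E2 → ℂ} (hg : Gd g) (z : E2 × ℝ) :
    Gd (tr h z g) := by
  obtain ⟨M, hM⟩ := hg.bdd
  refine ⟨hg.meas.mul (contDiff_phase hh z).measurable, ⟨M, fun ξ => ?_⟩, fun ξ hξ => ?_⟩
  · rw [norm_tr]; exact hM ξ
  · unfold W188.tr
    rw [hg.supp ξ hξ, zero_mul]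

theorem St.gd {B : ℕ → ℝ} {q : ℝ} {Na : ℕ} {M0 σ : ℝ} {h : E2 → ℝ} {g : E2 → ℂ} {R D : ℝ}
    (hst : St B q Na M0 σ h g R D) (hσ : σ ≤ 2) : Gd g :=
  ⟨hst.meas, hst.bdd, fun ξ hξ => hst.supp ξ (lt_of_le_of_lt hσ hξ)⟩

/-! ### linearity -/

theorem enorm_sum_sq' {κ : Type*} (s : Finset κ) (a : κ → ℂ) (b : ℂ) :
    ‖∑ k ∈ s, a k + b‖ₑ ^ 2 ≤ ((s.card : ℝ≥0∞) + 1) * (∑ k ∈ s, ‖a k‖ₑ ^ 2 + ‖b‖ₑ ^ 2) := by
  classical
  have h1 : ‖∑ k ∈ s, a k + b‖ₑ ≤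
      ∑ k ∈ insert none (s.map Function.Embedding.some), (Option.elim k ‖b‖ₑ fun k => ‖a k‖ₑ) := by
    rw [Finset.sum_insert (by simp), Finset.sum_map]
    refine (enorm_add_le _ _).trans ?_
    rw [add_comm]
    simp only [Option.elim_none, Function.Embedding.some_apply, Option.elim_some]
    gcongr
    exact enorm_sum_le _ _
  have h2 := ENNReal.rpow_sum_le_const_mul_sum_rpow (insert none (s.map Function.Embedding.some))
    (fun k => Option.elim k ‖b‖ₑ fun k => ‖a k‖ₑ) (p := 2) (by norm_num)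
  rw [Finset.sum_insert (by simp), Finset.sum_map, Finset.sum_insert (by simp), Finset.sum_map,
    Finset.card_insert_of_notMem (by simp), Finset.card_map] at h2
  rw [Finset.sum_insert (by simp), Finset.sum_map] at h1
  simp only [Option.elim_none, Function.Embedding.some_apply, Option.elim_some] at h1 h2
  have h3 : ∀ x : ℝ≥0∞, x ^ (2 : ℝ) = x ^ 2 := fun x => by
    rw [show (2 : ℝ) = ((2 : ℕ) : ℝ) by norm_num, ENNReal.rpow_natCast]
  simp only [h3] at h2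
  refine (pow_le_pow_left' h1 2).trans (h2.trans (le_of_eq ?_))
  rw [show (2 : ℝ) - 1 = 1 by norm_num, ENNReal.rpow_one]
  push_cast
  ring

theorem norm_cap_win_le (ρ : ℝ) (m : ℤ × ℤ) (ξ : E2) : ‖cap win (cen ρ m) ρ ξ‖ ≤ 1 :=
  norm_win_le _

theorem integrable_capwin {g : E2 → ℂ} (hg : Integrable g) (ρ : ℝ) (m : ℤ × ℤ) :
    Integrable fun ξ => cap win (cen ρ m) ρ ξ * g ξ := by
  have hc : Continuous (cap win (cen ρ m) ρ) := (contDiff_cap win_contDiff _ _).continuous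
  refine hg.bdd_mul (c := 1) hc.aestronglyMeasurable
    (Filter.Eventually.of_forall fun ξ => norm_cap_win_le ρ m ξ)

theorem um_sum {ρ : ℝ} {κ : Type*} (s : Finset κ) {G : κ → E2 → ℂ} {e : E2 → ℂ}
    (hG : ∀ k ∈ s, Integrable (G k)) (he : Integrable e) (m : ℤ × ℤ) (x : E2) :
    um ρ (fun ξ => ∑ k ∈ s, G k ξ + e ξ) m x = ∑ k ∈ s, um ρ (G k) m x + um ρ e m x := by
  unfold um
  simp only [fourierInv_eq_int]
  have hmod : ∀ f : E2 → ℂ, Integrable f →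
      Integrable fun ζ => cap win (cen ρ m) ρ ζ * f ζ * ee (inner ℝ x ζ) :=
    fun f hf => mod_integrable (integrable_capwin hf ρ m) x
  rw [← integral_finsetSum _ fun k hk => hmod _ (hG k hk),
    ← integral_add (integrable_finsetSum _ fun k hk => hmod _ (hG k hk)) (hmod _ he)]
  congr 1
  funext ζ
  rw [mul_add, add_mul, Finset.mul_sum, Finset.sum_mul]

theorem continuous_um {ρ : ℝ} {g : E2 → ℂ} (hg : Integrable g) (m : ℤ × ℤ) :
    Continuous (um ρ g m) :=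
  Crest.Agent.R138.Wf448.fourierInv_continuous (integrable_capwin hg ρ m)

theorem measurable_umsq {ρ : ℝ} {g : E2 → ℂ} (hg : Integrable g) (m : ℤ × ℤ) :
    Measurable fun x => ‖um ρ g m x‖ₑ ^ 2 :=
  (continuous_um hg m).measurable.enorm.pow_const 2

/-- **LIN**: the packet energy of a sum. -/
theorem en_sum {ρ : ℝ} {κ : Type*} (s : Finset κ) {G : κ → E2 → ℂ} {e : E2 → ℂ}
    (hG : ∀ k ∈ s, Integrable (G k)) (he : Integrable e) (S : ℤ × ℤ → Set E2) :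
    en ρ (fun ξ => ∑ k ∈ s, G k ξ + e ξ) S ≤
      ((s.card : ℝ≥0∞) + 1) * (∑ k ∈ s, en ρ (G k) S + en ρ e S) := by
  unfold en
  rw [Finset.sum_comm, ← Finset.sum_add_distrib, Finset.mul_sum]
  refine Finset.sum_le_sum fun m _ => ?_
  calc ∫⁻ x in S m, ‖um ρ (fun ξ => ∑ k ∈ s, G k ξ + e ξ) m x‖ₑ ^ 2
      ≤ ∫⁻ x in S m, ((s.card : ℝ≥0∞) + 1) *
          (∑ k ∈ s, ‖um ρ (G k) m x‖ₑ ^ 2 + ‖um ρ e m x‖ₑ ^ 2) := by
        refine lintegral_mono fun x => ?_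
        dsimp only
        rw [um_sum s hG he m x]
        exact enorm_sum_sq' s _ _
    _ = _ := by
        have m1 : Measurable fun x => ∑ k ∈ s, ‖um ρ (G k) m x‖ₑ ^ 2 :=
          Finset.measurable_fun_sum s fun k hk => measurable_umsq (hG k hk) m
        have m2 : Measurable fun x => ∑ k ∈ s, ‖um ρ (G k) m x‖ₑ ^ 2 + ‖um ρ e m x‖ₑ ^ 2 :=
          m1.add (measurable_umsq he m)
        rw [lintegral_const_mul _ m2, lintegral_add_right _ (measurable_umsq he m),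
          lintegral_finsetSum s fun k hk => measurable_umsq (hG k hk) m]

/-- the energies of disjoint selections add up. -/
theorem en_union {ρ : ℝ} {g : E2 → ℂ} {ι : Type*} (s : Finset ι) (S : ι → ℤ × ℤ → Set E2)
    (T : ℤ × ℤ → Set E2) (hm : ∀ i ∈ s, ∀ m, MeasurableSet (S i m))
    (hd : ∀ i ∈ s, ∀ j ∈ s, i ≠ j → ∀ m, Disjoint (S i m) (S j m))
    (hT : ∀ i ∈ s, ∀ m, S i m ⊆ T m) :
    ∑ i ∈ s, en ρ g (S i) ≤ en ρ g T := by
  unfold en
  rw [Finset.sum_comm]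
  refine Finset.sum_le_sum fun m _ => ?_
  rw [← lintegral_biUnion_finset (fun i hi j hj hij => hd i hi j hj hij m) (fun i hi => hm i hi m)]
  exact lintegral_mono_set (Set.iUnion₂_subset fun i hi => hT i hi m)

/-- the power `3/2` of a sum. -/
theorem pow32_sum {κ : Type*} (s : Finset κ) (a : κ → ℝ≥0∞) (b : ℝ≥0∞) (r : ℝ≥0∞) :
    (r * (((s.card : ℝ≥0∞) + 1) * (∑ k ∈ s, a k + b))) ^ (3 / 2 : ℝ) ≤
      2 * ((s.card : ℝ≥0∞) + 1) ^ 2 * (∑ k ∈ s, (r * a k) ^ (3 / 2 : ℝ) + (r * b) ^ (3 / 2 : ℝ)) := by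
  set L : ℝ≥0∞ := (s.card : ℝ≥0∞) + 1 with hL
  have hL1 : 1 ≤ L := le_add_self
  have e1 : r * (L * (∑ k ∈ s, a k + b)) = L * (∑ k ∈ s, r * a k + r * b) := by
    rw [← Finset.mul_sum]; ring
  rw [e1, ENNReal.mul_rpow_of_nonneg _ _ (by norm_num)]
  have h1 := ENNReal.rpow_add_le_mul_rpow_add_rpow (∑ k ∈ s, r * a k) (r * b)
    (p := 3 / 2) (by norm_num)
  have h2 := ENNReal.rpow_sum_le_const_mul_sum_rpow s (fun k => r * a k) (p := 3 / 2) (by norm_num)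
  have h3 : (s.card : ℝ≥0∞) ^ ((3 / 2 : ℝ) - 1) ≤ L ^ (1 / 2 : ℝ) := by
    rw [show (3 / 2 : ℝ) - 1 = 1 / 2 by norm_num]
    exact ENNReal.rpow_le_rpow le_self_add (by norm_num)
  have h4 : (2 : ℝ≥0∞) ^ ((3 / 2 : ℝ) - 1) ≤ 2 := by
    calc (2 : ℝ≥0∞) ^ ((3 / 2 : ℝ) - 1) ≤ 2 ^ (1 : ℝ) :=
          ENNReal.rpow_le_rpow_of_exponent_le (by norm_num) (by norm_num)
      _ = 2 := ENNReal.rpow_one _
  have h5 : (1 : ℝ≥0∞) ≤ L ^ (1 / 2 : ℝ) := ENNReal.one_le_rpow hL1 (by norm_num)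
  calc L ^ (3 / 2 : ℝ) * (∑ k ∈ s, r * a k + r * b) ^ (3 / 2 : ℝ)
      ≤ L ^ (3 / 2 : ℝ) * (2 * (L ^ (1 / 2 : ℝ) * ∑ k ∈ s, (r * a k) ^ (3 / 2 : ℝ) +
          L ^ (1 / 2 : ℝ) * (r * b) ^ (3 / 2 : ℝ))) := by
        gcongr
        refine h1.trans ?_
        gcongr
        · refine h2.trans ?_
          gcongr
        · exact le_mul_of_one_le_left' h5
    _ = 2 * (L ^ (3 / 2 : ℝ) * L ^ (1 / 2 : ℝ)) *
          (∑ k ∈ s, (r * a k) ^ (3 / 2 : ℝ) + (r * b) ^ (3 / 2 : ℝ)) := by ring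
    _ = _ := by
        rw [← ENNReal.rpow_add_of_nonneg _ _ (by norm_num) (by norm_num)]
        norm_num

end Crest.Agent.R138.W323
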