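import Crest.Agent.R138.Wpk6_685

/-!
# R138 / R139: selectable wave packets, part 7 (helper685): phase space cells, additivity, discrete
densities, the greedy algorithm.
-/

set_option autoImplicit false
set_option linter.unusedSectionVars false

open MeasureTheory FourierTransform
open scoped ContDiff ENNReal

namespace Crest.Agent.R138.Wpk685

open Crest.Agent.R138.Defs

/-! ### cells -/

/-- index of the physical cell of side `l` which contains `y`. -/
noncomputable def kk (l : ℝ) (y : E2) : ℤ × ℤ := (⌊y 0 / l⌋, ⌊y 1 / l⌋)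

theorem kk_meas (l : ℝ) : Measurable (kk l) := by
  have h0 : Measurable (fun y : E2 => y 0) := (EuclideanSpace.proj (𝕜 := ℝ) (0 : Fin 2)).measurable
  have h1 : Measurable (fun y : E2 => y 1) := (EuclideanSpace.proj (𝕜 := ℝ) (1 : Fin 2)).measurable
  exact (Int.measurable_floor.comp (h0.div_const l)).prodMk
    (Int.measurable_floor.comp (h1.div_const l))

/-- phase space cells. -/
abbrev Cel := (ℤ × ℤ) × (ℤ × ℤ)

/-- the selection given by a set of cells. -/
def cs (l : ℝ) (X : Finset Cel) (m : ℤ × ℤ) : Set E2 := {y | (m, kk l y) ∈ X}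

theorem cs_meas (l : ℝ) (X : Finset Cel) (m : ℤ × ℤ) : MeasurableSet (cs l X m) := by
  have : cs l X m = kk l ⁻¹' {k | (m, k) ∈ X} := rfl
  rw [this]
  exact kk_meas l (Set.to_countable _).measurableSet

theorem kk_dist {l : ℝ} (hl : 0 < l) (y : E2) : ‖y - cen l (kk l y)‖ ≤ 3 / 2 * l := by
  have h : ∀ i : Fin 2, |(y - cen l (kk l y)) i| ≤ l := by
    intro i
    have key : ∀ (u : ℝ), |u - l * ⌊u / l⌋| ≤ l := by
      intro u
      have h1 := Int.floor_le (u / l)
      have h2 := Int.lt_floor_add_one (u / l)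
      have h3 : u = (u / l) * l := by field_simp
      rw [abs_le]
      constructor <;> nlinarith
    rw [PiLp.sub_apply]
    fin_cases i
    · exact key (y 0)
    · exact key (y 1)
  refine le_of_sq_le_sq ?_ (by positivity)
  rw [EuclideanSpace.norm_sq_eq, Fin.sum_univ_two]
  have h0 := h 0
  have h1 := h 1
  simp only [Real.norm_eq_abs]
  have a0 := abs_nonneg ((y - cen l (kk l y)) 0)
  have a1 := abs_nonneg ((y - cen l (kk l y)) 1)
  nlinarith

theorem cs_bdd {l : ℝ} (hl : 0 < l) (X : Finset Cel) (m : ℤ × ℤ) :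
    Bornology.IsBounded (cs l X m) := by
  have h1 : cs l X m ⊆ ⋃ x ∈ X, Metric.closedBall (cen l x.2) (3 / 2 * l) := by
    intro y hy
    refine Set.mem_biUnion hy ?_
    rw [Metric.mem_closedBall, dist_eq_norm]
    exact kk_dist hl y
  refine Bornology.IsBounded.subset ?_ h1
  exact (Bornology.isBounded_biUnion X.finite_toSet).2 fun x _ => Metric.isBounded_closedBall

theorem cs_Bs {l : ℝ} (hl : 0 < l) (ρ : ℝ) (X : Finset Cel) : Bs ρ (cs l X) :=
  ⟨fun m _ => cs_meas l X m, fun m _ => cs_bdd hl X m⟩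

/-- energy of a cell. -/
noncomputable def ec (ρ l : ℝ) (g : E2 → ℂ) (x : Cel) : ℝ≥0∞ :=
  ∫⁻ y in {y | kk l y = x.2}, ‖um ρ g x.1 y‖ₑ ^ 2

theorem cell_meas (l : ℝ) (k : ℤ × ℤ) : MeasurableSet {y : E2 | kk l y = k} :=
  kk_meas l (measurableSet_singleton k)

theorem lint_cs (ρ l : ℝ) (g : E2 → ℂ) (X : Finset Cel) (m : ℤ × ℤ) :
    ∫⁻ y in cs l X m, ‖um ρ g m y‖ₑ ^ 2 = ∑ x ∈ X with x.1 = m, ec ρ l g x := by
  classical
  have h1 : cs l X m = ⋃ x ∈ X.filter (fun x => x.1 = m), {y | kk l y = x.2} := by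
    ext y
    simp only [cs, Set.mem_ofPred_eq, Finset.mem_filter, Set.mem_iUnion, exists_prop]
    constructor
    · intro h
      exact ⟨(m, kk l y), ⟨h, rfl⟩, rfl⟩
    · rintro ⟨x, ⟨hx, hxm⟩, hk⟩
      rw [hk, ← hxm]
      exact hx
  rw [h1, lintegral_biUnion_finset]
  · refine Finset.sum_congr rfl fun x hx => ?_
    rw [ec, (Finset.mem_filter.1 hx).2]
  · intro x hx x' hx' hne
    rw [Function.onFun, Set.disjoint_left]
    intro y hy hy'
    apply hne
    have e1 := (Finset.mem_filter.1 hx).2
    have e2 := (Finset.mem_filter.1 hx').2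
    exact Prod.ext (e1.trans e2.symm) (hy.symm.trans hy')
  · exact fun x _ => cell_meas l _

theorem en_cs (ρ l : ℝ) (g : E2 → ℂ) (X : Finset Cel) (hX : ∀ x ∈ X, x.1 ∈ caps ρ) :
    en ρ g (cs l X) = ∑ x ∈ X, ec ρ l g x := by
  classical
  unfold en
  simp only [lint_cs]
  exact Finset.sum_fiberwise_of_maps_to (fun x hx => hX x hx) _

/-! ### additivity -/

theorem fourier_sum {κ : Type*} (s : Finset κ) (v : κ → E2 → ℂ) (hv : ∀ i ∈ s, Integrable (v i))
    (ξ : E2) : 𝓕 (fun y => ∑ i ∈ s, v i y) ξ = ∑ i ∈ s, 𝓕 (v i) ξ := by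
  have hm : Continuous (fun y : E2 => ee (-inner ℝ ξ y)) :=
    contDiff_ee.continuous.comp (continuous_const.inner continuous_id).neg
  simp only [fourier_eq_int]
  rw [← integral_finsetSum]
  · congr 1
    ext y
    rw [Finset.sum_mul]
  · intro i hi
    exact (hv i hi).mul_bdd (c := 1) hm.aestronglyMeasurable
      (Filter.Eventually.of_forall fun y => (norm_ee _).le)

theorem sel_sum {ρ l : ℝ} (hl : 0 < l) {g : E2 → ℂ} (hg : Integrable g) {κ : Type*}
    (s : Finset κ) (X : κ → Finset Cel) (Y : Finset Cel)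
    (hdis : ∀ i ∈ s, ∀ j ∈ s, i ≠ j → Disjoint (X i) (X j)) (hY : ∀ x, x ∈ Y ↔ ∃ i ∈ s, x ∈ X i)
    (ξ : E2) : sel ρ g (cs l Y) ξ = ∑ i ∈ s, sel ρ g (cs l (X i)) ξ := by
  classical
  unfold sel
  rw [Finset.sum_comm]
  refine Finset.sum_congr rfl fun m _ => ?_
  unfold piece
  rw [← Finset.mul_sum]
  congr 1
  obtain ⟨M, _, hM⟩ := um_bdd (ρ := ρ) (g := g) m
  have hi : ∀ i ∈ s, Integrable ((cs l (X i) m).indicator (um ρ g m)) := fun i _ =>
    (ind_int (um_cont hg m) hM (cs_meas l _ m) (cs_bdd hl _ m)).1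
  rw [← fourier_sum s _ hi]
  have hfun : (cs l Y m).indicator (um ρ g m) =
      fun y => ∑ i ∈ s, (cs l (X i) m).indicator (um ρ g m) y := by
    funext y
    by_cases hy : y ∈ cs l Y m
    · obtain ⟨i, hi1, hi2⟩ := (hY _).1 hy
      rw [Set.indicator_of_mem hy, Finset.sum_eq_single_of_mem i hi1]
      · rw [Set.indicator_of_mem]
        exact hi2
      · intro j hj hne
        rw [Set.indicator_of_notMem]
        intro hj2
        exact Finset.disjoint_left.1 (hdis j hj i hi1 hne) hj2 hi2
    · rw [Set.indicator_of_notMem hy]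
      symm
      refine Finset.sum_eq_zero fun i hi1 => ?_
      rw [Set.indicator_of_notMem]
      intro h2
      exact hy ((hY _).2 ⟨i, hi1, h2⟩)
  rw [hfun]

/-! ### the greedy algorithm (abstract) -/

/-- extraction of all the dense pieces at one level. -/
theorem extract {α π : Type*} [DecidableEq α] (e : α → ℝ≥0∞) (T : π → α → Prop)
    [∀ p, DecidablePred (T p)] (cost : π → ℝ≥0∞) (X : Finset α) :
    ∃ (n : ℕ) (P : ℕ → Option π) (A : ℕ → Finset α),
      (∀ i < n, A i ⊆ X ∧ ∃ p, P i = some p ∧ (∀ x ∈ A i, T p x) ∧ cost p < ∑ x ∈ A i, e x) ∧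
      (∀ i < n, ∀ j < n, i ≠ j → Disjoint (A i) (A j)) ∧
      ∀ p, ∑ x ∈ X with (T p x ∧ ∀ i < n, x ∉ A i), e x ≤ cost p := by
  classical
  induction hc : X.card using Nat.strong_induction_on generalizing X with
  | _ N ih =>
    by_cases h : ∀ p, ∑ x ∈ X with T p x, e x ≤ cost p
    · refine ⟨0, fun _ => none, fun _ => ∅, by simp, by simp, ?_⟩
      intro p
      refine (Finset.sum_le_sum_of_subset ?_).trans (h p)
      intro x hx
      rw [Finset.mem_filter] at hx ⊢
      exact ⟨hx.1, hx.2.1⟩
    · push Not at h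
      obtain ⟨p, hp⟩ := h
      set A0 : Finset α := X.filter (T p) with hA0
      have hne : A0.Nonempty := by
        by_contra hne
        rw [Finset.not_nonempty_iff_eq_empty] at hne
        rw [hne, Finset.sum_empty] at hp
        exact not_lt_zero hp
      have hlt : (X \ A0).card < N := by
        rw [← hc]
        refine Finset.card_lt_card ?_
        refine Finset.sdiff_ssubset (Finset.filter_subset _ _) hne
      obtain ⟨n, P, A, h1, h2, h3⟩ := ih _ hlt (X \ A0) rfl
      refine ⟨n + 1, fun i => if i = 0 then some p else P (i - 1),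
        fun i => if i = 0 then A0 else A (i - 1), ?_, ?_, ?_⟩
      · intro i hi
        rcases Nat.eq_zero_or_pos i with rfl | hpos
        · refine ⟨?_, p, by simp, ?_, by simpa using hp⟩
          · simp only [if_true]
            exact Finset.filter_subset (T p) X
          · intro x hx
            simp only [if_true] at hx
            rw [hA0, Finset.mem_filter] at hx
            exact hx.2
        · have hi0 : i ≠ 0 := by omega
          obtain ⟨h4, p', h5, h6, h7⟩ := h1 (i - 1) (by omega)
          simp only [if_neg hi0]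
          exact ⟨h4.trans Finset.sdiff_subset, p', h5, h6, h7⟩
      · intro i hi j hj hij
        rcases Nat.eq_zero_or_pos i with rfl | hpos
        · have hj0 : j ≠ 0 := fun h => hij h.symm
          simp only [if_true, if_neg hj0]
          have h4 := (h1 (j - 1) (by omega)).1
          exact Finset.disjoint_left.2 fun x hx hx' => (Finset.mem_sdiff.1 (h4 hx')).2 hx
        · have hi0 : i ≠ 0 := by omega
          rcases Nat.eq_zero_or_pos j with rfl | hpos'
          · simp only [if_true, if_neg hi0]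
            have h4 := (h1 (i - 1) (by omega)).1
            exact Finset.disjoint_left.2 fun x hx hx' => (Finset.mem_sdiff.1 (h4 hx)).2 hx'
          · have hj0 : j ≠ 0 := by omega
            simp only [if_neg hi0, if_neg hj0]
            exact h2 (i - 1) (by omega) (j - 1) (by omega) (by omega)
      · intro p'
        refine le_trans (Finset.sum_le_sum_of_subset ?_) (h3 p')
        intro x hx
        rw [Finset.mem_filter] at hx ⊢
        obtain ⟨hxX, hxT, hxn⟩ := hx
        refine ⟨Finset.mem_sdiff.2 ⟨hxX, ?_⟩, hxT, ?_⟩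
        · have := hxn 0 (by omega)
          simpa using this
        · intro i hi
          have := hxn (i + 1) (by omega)
          simpa using this

end Crest.Agent.R138.Wpk685
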