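import Crest.Agent.R138.PDef_654
import Crest.Agent.R138.Wpk7_685
import Crest.Agent.R138.RR1_323

/-!
# R138 / R139: WAVE side (helper654): `AL → MIS → STEP` (splitting of the selections of the child
plates into aligned and misaligned points).
-/

set_option autoImplicit false

open MeasureTheory FourierTransform
open scoped ENNReal

namespace Crest.Agent.R138.P654

open Crest.Agent.R138.Defs Crest.Agent.R138.W188 Crest.Agent.R138.Wpk685 Crest.Agent.R138.Loc878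
  Crest.Agent.R138.Ad480 Crest.Agent.R138.Rect779

/-- `sel` is additive in the selection. -/
theorem sel_add {ρ : ℝ} {g : E2 → ℂ} (hg : Integrable g) {S T U : ℤ × ℤ → Set E2} (hS : Bs ρ S)
    (hT : Bs ρ T) (hd : ∀ m ∈ caps ρ, Disjoint (S m) (T m)) (hU : ∀ m ∈ caps ρ, U m = S m ∪ T m)
    (ξ : E2) : sel ρ g U ξ = sel ρ g S ξ + sel ρ g T ξ := by
  unfold sel
  rw [← Finset.sum_add_distrib]
  refine Finset.sum_congr rfl fun m hm => ?_
  unfold piece
  rw [← mul_add]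
  congr 1
  obtain ⟨M, _, hM⟩ := um_bdd (ρ := ρ) (g := g) m
  have hi : ∀ i ∈ (Finset.univ : Finset Bool),
      Integrable ((if i = true then S m else T m).indicator (um ρ g m)) := by
    intro i _
    cases i
    · simpa using (ind_int (um_cont hg m) hM (hT.meas m hm) (hT.bdd m hm)).1
    · simpa using (ind_int (um_cont hg m) hM (hS.meas m hm) (hS.bdd m hm)).1
  have h1 := fourier_sum (Finset.univ : Finset Bool)
    (fun i => (if i = true then S m else T m).indicator (um ρ g m)) hi ξ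
  rw [Fintype.sum_bool] at h1
  simp only [if_true, Bool.false_eq_true, if_false] at h1
  rw [← h1, hU m hm]
  have hfun : (S m ∪ T m).indicator (um ρ g m) =
      fun y => ∑ i : Bool, (if i = true then S m else T m).indicator (um ρ g m) y := by
    funext y
    rw [Fintype.sum_bool, Set.indicator_union_of_disjoint (hd m hm)]
    simp
  rw [hfun]

theorem um_tr_add {h : E2 → ℝ} (hh : Continuous h) {ρ : ℝ} {f f1 f2 : E2 → ℂ}
    (h1 : Integrable f1) (h2 : Integrable f2) (e : ∀ ξ, f ξ = f1 ξ + f2 ξ) (z : E2 × ℝ)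
    (m : ℤ × ℤ) (y : E2) :
    um ρ (tr h z f) m y = um ρ (tr h z f1) m y + um ρ (tr h z f2) m y := by
  have e1 : tr h z f = fun ξ => ∑ k ∈ (Finset.univ : Finset Unit), (fun _ => tr h z f1) k ξ +
      tr h z f2 ξ := by
    funext ξ
    simp only [Finset.univ_unique, Finset.sum_const, Finset.card_singleton, one_smul]
    unfold tr
    rw [e ξ, add_mul]
  rw [e1, W323.um_sum (Finset.univ : Finset Unit) (fun _ _ => tr_int hh h1 z) (tr_int hh h2 z) m y]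
  simp

/-- sub-selections of a plate system. -/
theorem plates_sub {A : ℝ} {h : E2 → ℝ} {r s1 s2 R : ℝ} {I : Finset ℕ} {P : ℕ → Plate}
    (hP : Plates A h r s1 s2 R I P) (S' : ℕ → ℤ × ℤ → Set E2)
    (hm : ∀ i ∈ I, ∀ m, MeasurableSet (S' i m)) (hs : ∀ i ∈ I, ∀ m, S' i m ⊆ (P i).S m) :
    Plates A h r s1 s2 R I (fun i => { P i with S := S' i }) where
  mem := hP.mem
  sep := hP.sep
  x := hP.x
  meas := hm
  box := fun i hi m => (hs i hi m).trans (hP.box i hi m)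
  disj := fun i hi j hj hij hz m => (hP.disj i hi j hj hij hz m).mono (hs i hi m) (hs j hj m)

theorem val_split {h : E2 → ℝ} {F : E2 → ℂ} {r s1 s2 : ℝ} {I : Finset ℕ} {P : ℕ → Plate}
    (Sa Sb : ℕ → ℤ × ℤ → Set E2) (hu : ∀ i ∈ I, ∀ m, (P i).S m ⊆ Sa i m ∪ Sb i m) :
    val h F r s1 s2 I P ≤ 2 * (val h F r s1 s2 I (fun i => { P i with S := Sa i }) +
      val h F r s1 s2 I (fun i => { P i with S := Sb i })) := by
  unfold val
  rw [← Finset.sum_add_distrib, Finset.mul_sum]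
  refine Finset.sum_le_sum fun i hi => ?_
  have h1 : en (r ^ (-(1/2) : ℝ)) (tr h (P i).z F) (P i).S ≤
      en (r ^ (-(1/2) : ℝ)) (tr h (P i).z F) (Sa i) +
        en (r ^ (-(1/2) : ℝ)) (tr h (P i).z F) (Sb i) := by
    unfold en
    rw [← Finset.sum_add_distrib]
    refine Finset.sum_le_sum fun m _ => ?_
    exact (lintegral_mono_set (hu i hi m)).trans (lintegral_union_le _ _ _)
  have h2 : (ENNReal.ofReal r * en (r ^ (-(1/2) : ℝ)) (tr h (P i).z F) (P i).S) ^ (3 / 2 : ℝ) ≤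
      2 * ((ENNReal.ofReal r * en (r ^ (-(1/2) : ℝ)) (tr h (P i).z F) (Sa i)) ^ (3 / 2 : ℝ) +
        (ENNReal.ofReal r * en (r ^ (-(1/2) : ℝ)) (tr h (P i).z F) (Sb i)) ^ (3 / 2 : ℝ)) := by
    refine (ENNReal.rpow_le_rpow (mul_le_mul' le_rfl h1) (by norm_num)).trans ?_
    rw [mul_add]
    refine (ENNReal.rpow_add_le_mul_rpow_add_rpow _ _ (by norm_num)).trans ?_
    refine mul_le_mul' ?_ le_rfl
    calc (2 : ℝ≥0∞) ^ ((3 / 2 : ℝ) - 1) ≤ 2 ^ (1 : ℝ) :=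
          ENNReal.rpow_le_rpow_of_exponent_le (by norm_num) (by norm_num)
      _ = 2 := ENNReal.rpow_one _
  refine (mul_le_mul' le_rfl h2).trans (le_of_eq ?_)
  simp only
  ring

theorem selQ_union {I1 : Finset ℕ} {P1 : ℕ → Plate} (Q : OrthonormalBasis (Fin 2) ℝ E2 → Prop)
    (m : ℤ × ℤ) : uS I1 P1 m = selQ Q I1 P1 m ∪ selQ (fun b => ¬ Q b) I1 P1 m := by
  ext y
  simp only [uS, selQ, Set.mem_iUnion, exists_prop, Set.mem_union, Set.mem_ofPred_eq]
  constructor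
  · rintro ⟨i, hi, hy⟩
    by_cases hQ : Q (P1 i).b
    · exact Or.inl ⟨i, hi, hQ, hy⟩
    · exact Or.inr ⟨i, hi, hQ, hy⟩
  · rintro (⟨i, hi, _, hy⟩ | ⟨i, hi, _, hy⟩) <;> exact ⟨i, hi, hy⟩

theorem selQ_sub {I1 : Finset ℕ} {P1 : ℕ → Plate} (Q : OrthonormalBasis (Fin 2) ℝ E2 → Prop)
    (m : ℤ × ℤ) : selQ Q I1 P1 m ⊆ uS I1 P1 m := by
  rintro y ⟨i, hi, _, hy⟩
  simp only [uS, Set.mem_iUnion, exists_prop]
  exact ⟨i, hi, hy⟩

theorem selQ_meas {I1 : Finset ℕ} {P1 : ℕ → Plate}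
    (hm : ∀ i ∈ I1, ∀ m, MeasurableSet ((P1 i).S m))
    (Q : OrthonormalBasis (Fin 2) ℝ E2 → Prop) (m : ℤ × ℤ) : MeasurableSet (selQ Q I1 P1 m) := by
  classical
  have : selQ Q I1 P1 m = ⋃ i ∈ I1.filter (fun i => Q (P1 i).b), (P1 i).S m := by
    ext y
    simp only [selQ, Set.mem_ofPred_eq, Set.mem_iUnion, Finset.mem_filter, exists_prop]
    constructor
    · rintro ⟨i, hi, hQ, hy⟩; exact ⟨i, ⟨hi, hQ⟩, hy⟩
    · rintro ⟨i, ⟨hi, hQ⟩, hy⟩; exact ⟨i, hi, hQ, hy⟩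
  rw [this]
  exact Finset.measurableSet_biUnion _ fun i hi => hm i (Finset.mem_filter.1 hi).1 m

theorem selQ_disj {I1 : Finset ℕ} {P1 : ℕ → Plate}
    (hd : ∀ i ∈ I1, ∀ j ∈ I1, i ≠ j → ∀ m, Disjoint ((P1 i).S m) ((P1 j).S m))
    (Q : OrthonormalBasis (Fin 2) ℝ E2 → Prop) (m : ℤ × ℤ) :
    Disjoint (selQ Q I1 P1 m) (selQ (fun b => ¬ Q b) I1 P1 m) := by
  rw [Set.disjoint_left]
  rintro y ⟨i, hi, hQ, hy⟩ ⟨j, hj, hQ', hy'⟩
  have hij : i ≠ j := by
    rintro rfl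
    exact hQ' hQ
  exact Set.disjoint_left.1 (hd i hi j hj hij m) hy hy'

/-- the parent wave is the sum of the aligned and the misaligned part. -/
theorem sel_split {q A c0 : ℝ} {h : E2 → ℝ} {g : E2 → ℂ} {r1 s1 s2 D : ℝ} {I1 : Finset ℕ}
    {P1 : ℕ → Plate} (hP : Par q A c0 h g r1 s1 s2 D I1 P1) (δ : ℝ)
    (b : OrthonormalBasis (Fin 2) ℝ E2) (ξ : E2) :
    sel (an r1) g (uS I1 P1) ξ =
      sel (an r1) g (Sal δ b I1 P1) ξ + sel (an r1) g (Smis δ b I1 P1) ξ := by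
  have e : Smis δ b I1 P1 = selQ (fun b' => ¬ (sn b b' ≤ δ)) I1 P1 := by
    unfold Smis
    congr 1
    funext b'
    simp only [not_le]
  have hb : ∀ Q : OrthonormalBasis (Fin 2) ℝ E2 → Prop, Bs (an r1) (selQ Q I1 P1) := fun Q =>
    ⟨fun m _ => selQ_meas hP.meas Q m, fun m _ =>
      Metric.isBounded_closedBall.subset ((selQ_sub Q m).trans (hP.bd m))⟩
  rw [e]
  exact sel_add hP.gi (hb _) (hb _) (fun m _ => selQ_disj hP.disj _ m)
    (fun m _ => selQ_union _ m) ξ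

/-- real exponents: `x ^ a ≤ x ^ b`. -/
theorem rp_mono {x a b : ℝ} (hx : 1 ≤ x) (h : a ≤ b) : x ^ a ≤ x ^ b :=
  Real.rpow_le_rpow_of_exponent_le hx h

theorem an_mul {a r : ℝ} (ha : 0 < a) (hr : 0 < r) :
    an (a * r) = a ^ (-(1/2) : ℝ) * an r := Real.mul_rpow ha.le hr.le

theorem an_pos {r : ℝ} (hr : 0 < r) : 0 < an r := Real.rpow_pos_of_pos hr _

/-- **STEP from AL and MIS**. -/
theorem step_of {B : ℕ → ℝ} {q : ℝ} (HA : AL B q) (HM : MIS B q) : STEP B q := by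
  intro A hA
  obtain ⟨dA, GA, hdA, hdA1, hGA, HA⟩ := HA A hA
  obtain ⟨dM, GM, hdM, hdM1, hGM, HM⟩ := HM A hA
  refine ⟨min dA dM, max GA GM, lt_min hdA hdM, (min_le_left _ _).trans hdA1,
    hGA.trans (le_max_left _ _), fun ε hε => ?_⟩
  obtain ⟨n0, HA⟩ := HA ε hε
  obtain ⟨GM', hGM', HM⟩ := HM ε hε
  refine ⟨n0, fun n hn K0 hK0 => ?_⟩
  obtain ⟨GA', hGA', HA⟩ := HA n hn K0 hK0
  refine ⟨max GA' GM', hGA'.trans (le_max_left _ _), fun M => ?_⟩
  obtain ⟨CA, hCA, HA⟩ := HA M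
  obtain ⟨CM, hCM, HM⟩ := HM M
  refine ⟨2 * (CA + CM), by positivity, ?_⟩
  intro c0 h g r1 dl Y Gm s1' s2' s1 s2 D a p pp I1 P1 I P hc hw' hw hcoh hpp ha hp hchi
  set G : ℝ := max GA GM with hG
  set G' : ℝ := max GA' GM' with hG'
  have hGA2 : GA ≤ G := le_max_left _ _
  have hGM2 : GM ≤ G := le_max_right _ _
  have hdl1 : dl ≤ 1 := hc.dlle.trans ((min_le_left _ _).trans hdA1)
  have hdl := hc.dlpos
  have hrp : ∀ x : ℝ, x ≤ G → dl ^ (-x) ≤ dl ^ (-G) := fun x hx =>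
    Real.rpow_le_rpow_of_exponent_ge hdl hdl1 (by linarith)
  have hr1 : 1 ≤ r1 := by
    have : (1:ℝ) ≤ dl ^ (-G) := Real.one_le_rpow_of_pos_of_le_one_of_nonpos hdl hdl1 (by
      have := hGA.trans hGA2; linarith)
    exact this.trans hc.r1ge
  have hr1' : 0 < r1 := by linarith
  have hrj : 0 < dl * r1 := by positivity
  -- splitting
  set F : E2 → ℂ := sel (an r1) g (uS I1 P1) with hF
  set δ : ℝ := dl ^ (1/2 : ℝ) with hδ
  have hhc : Continuous h := hc.parB.1.continuous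
  have hBs : ∀ Q : OrthonormalBasis (Fin 2) ℝ E2 → Prop, Bs (an r1) (selQ Q I1 P1) := fun Q =>
    ⟨fun m _ => selQ_meas hc.par.meas Q m, fun m _ =>
      Metric.isBounded_closedBall.subset ((selQ_sub Q m).trans (hc.par.bd m))⟩
  have hBu : Bs (an r1) (uS I1 P1) :=
    ⟨fun m _ => by
      rw [selQ_union (fun _ => True) m]
      exact (selQ_meas hc.par.meas _ m).union (selQ_meas hc.par.meas _ m), fun m _ =>
      Metric.isBounded_closedBall.subset (hc.par.bd m)⟩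
  have hFi : Integrable F := (sel_int (an_pos hr1') hc.par.gi hBu).1
  have hai : ∀ b, Integrable (sel (an r1) g (Sal δ b I1 P1)) := fun b =>
    (sel_int (an_pos hr1') hc.par.gi (hBs _)).1
  have hmi : ∀ b, Integrable (sel (an r1) g (Smis δ b I1 P1)) := fun b =>
    (sel_int (an_pos hr1') hc.par.gi (hBs _)).1
  set T : ℕ → ℤ × ℤ → Set E2 := fun i m => {y |
    ‖um (an (dl * r1)) (tr h (P i).z F) m y‖ ≤
      2 * ‖um (an (dl * r1)) (tr h (P i).z (sel (an r1) g (Sal δ (P i).b I1 P1))) m y‖} with hT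
  have hTm : ∀ i m, MeasurableSet (T i m) := fun i m =>
    measurableSet_le (W323.continuous_um (tr_int hhc hFi _) m).norm.measurable
      ((W323.continuous_um (tr_int hhc (hai _) _) m).norm.measurable.const_mul 2)
  set Sa : ℕ → ℤ × ℤ → Set E2 := fun i m => (P i).S m ∩ T i m with hSa
  set Sb : ℕ → ℤ × ℤ → Set E2 := fun i m => (P i).S m ∩ (T i m)ᶜ with hSb
  have hsplit := val_split (h := h) (F := F) (r := dl * r1) (s1 := s1) (s2 := s2) (I := I) (P := P)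
    Sa Sb (fun i _ m y hy => by
      by_cases hyT : y ∈ T i m
      · exact Or.inl ⟨hy, hyT⟩
      · exact Or.inr ⟨hy, hyT⟩)
  -- contexts
  have hctx : ∀ (d' G1 : ℝ), dl ≤ d' → G1 ≤ G → ∀ S' : ℕ → ℤ × ℤ → Set E2,
      (∀ i ∈ I, ∀ m, MeasurableSet (S' i m)) → (∀ i ∈ I, ∀ m, S' i m ⊆ (P i).S m) →
      Ctx B q A d' G1 c0 h g r1 dl Y Gm s1' s2' s1 s2 D I1 P1 I
        (fun i => { P i with S := S' i }) := by
    intro d' G1 hd' hG1 S' hm hs
    exact ⟨hc.parB, hc.h1, hc.par, hc.c0pos, hc.c0le, hc.dlpos, hd', (hrp _ hG1).trans hc.r1ge,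
      hc.Gm1, hc.Y1, hc.Y2, hc.sd, plates_sub hc.pl S' hm hs,
      fun i hi m hm' => Set.subset_empty_iff.1 ((hs i hi m).trans (hc.cp i hi m hm').subset),
      hc.thin', hc.thin⟩
  have hSam : ∀ i ∈ I, ∀ m, MeasurableSet (Sa i m) := fun i hi m =>
    (hc.pl.meas i hi m).inter (hTm i m)
  have hSbm : ∀ i ∈ I, ∀ m, MeasurableSet (Sb i m) := fun i hi m =>
    (hc.pl.meas i hi m).inter (hTm i m).compl
  have hSas : ∀ i ∈ I, ∀ m, Sa i m ⊆ (P i).S m := fun i _ m => Set.inter_subset_left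
  have hSbs : ∀ i ∈ I, ∀ m, Sb i m ⊆ (P i).S m := fun i _ m => Set.inter_subset_left
  have hcA := hctx dA GA (hc.dlle.trans (min_le_left _ _)) hGA2 Sa hSam hSas
  have hcM := hctx dM GM (hc.dlle.trans (min_le_right _ _)) hGM2 Sb hSbm hSbs
  -- aligned
  have hs2 : an (dl * (dl * r1)) ≤ s2 := by
    rw [an_mul hdl hrj]
    refine le_trans ?_ hw
    refine mul_le_mul_of_nonneg_right ?_ (an_pos hrj).le
    have := hrp (1/2) (by have := hGA.trans hGA2; linarith)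
    simpa using this
  have hA1 := HA c0 h g r1 dl Y Gm s1' s2' s1 s2 D a p pp I1 P1 I _ hcA hs2 hcoh hpp ha hp
    ⟨fun i hi m y hy => hchi.lo i hi m y (hSas i hi m hy),
      fun i hi m y hy => hchi.hi i hi m y (hSas i hi m hy),
      fun i hi m y hy => hchi.pot i hi m y (hSas i hi m hy)⟩
    (fun i hi m y hy => hy.2)
  -- misaligned
  have hM1 := HM c0 h g r1 dl Y Gm s1' s2' s1 s2 D I1 P1 I _ hcM
    ((mul_le_mul_of_nonneg_right (hrp _ hGM2) (an_pos hr1').le).trans hw')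
    ((mul_le_mul_of_nonneg_right (hrp _ hGM2) (an_pos hrj).le).trans hw)
    (fun i hi m y hy => by
      have h1 : ¬ ‖um (an (dl * r1)) (tr h (P i).z F) m y‖ ≤
        2 * ‖um (an (dl * r1)) (tr h (P i).z (sel (an r1) g (Sal δ (P i).b I1 P1))) m y‖ := hy.2
      have h2 := um_tr_add (ρ := an (dl * r1)) hhc (hai (P i).b) (hmi (P i).b)
        (sel_split hc.par δ (P i).b) (P i).z m y
      have h3 : ‖um (an (dl * r1)) (tr h (P i).z F) m y‖ ≤
          ‖um (an (dl * r1)) (tr h (P i).z (sel (an r1) g (Sal δ (P i).b I1 P1))) m y‖ +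
          ‖um (an (dl * r1)) (tr h (P i).z (sel (an r1) g (Smis δ (P i).b I1 P1))) m y‖ := by
        rw [hF, h2]
        exact norm_add_le _ _
      show ‖um (an (dl * r1)) (tr h (P i).z F) m y‖ ≤
        2 * ‖um (an (dl * r1)) (tr h (P i).z (sel (an r1) g (Smis δ (P i).b I1 P1))) m y‖
      push Not at h1
      linarith)
  -- sum
  have hY1 := hc.Y1
  have hGm1 := hc.Gm1
  have hc0 := hc.c0pos
  have hYc : Y ≤ Y / c0 := by
    rw [le_div_iff₀ hc0]
    have := hc.c0le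
    nlinarith
  have hYc1 : 1 ≤ Y / c0 := hY1.trans hYc
  have e1 : Y ^ GA' ≤ (Y / c0) ^ G' :=
    (Real.rpow_le_rpow (by linarith) hYc hGA').trans (rp_mono hYc1 (le_max_left _ _))
  have e2 : (Y / c0) ^ GM' ≤ (Y / c0) ^ G' := rp_mono hYc1 (le_max_right _ _)
  have e3 : Gm ^ GA ≤ Gm ^ G := rp_mono hGm1 hGA2
  have e4 : Gm ^ GM ≤ Gm ^ G := rp_mono hGm1 hGM2
  set X1 : ℝ := (pp / p) ^ (1/2 : ℝ) with hX1
  have hX10 : 0 ≤ X1 := Real.rpow_nonneg (by positivity) _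
  have hre : 0 ≤ r1 ^ ε := Real.rpow_nonneg hr1'.le _
  have p1 : 0 ≤ (Y / c0) ^ G' := Real.rpow_nonneg (by positivity) _
  have p2 : 0 ≤ Gm ^ G := Real.rpow_nonneg (by linarith) _
  have p3 : 0 ≤ Y ^ GA' := Real.rpow_nonneg (by linarith) _
  have p4 : 0 ≤ Gm ^ GA := Real.rpow_nonneg (by linarith) _
  have p5 : 0 ≤ (Y / c0) ^ GM' := Real.rpow_nonneg (by positivity) _
  have p6 : 0 ≤ Gm ^ GM := Real.rpow_nonneg (by linarith) _
  have p7 : 0 ≤ δ := Real.rpow_nonneg hdl.le _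
  have i1 : CA * r1 ^ ε * Y ^ GA' * Gm ^ GA * X1 ≤
      CA * r1 ^ ε * (Y / c0) ^ G' * Gm ^ G * (X1 + δ) := by
    have : X1 ≤ X1 + δ := by linarith
    gcongr
  have i2 : CM * r1 ^ ε * (Y / c0) ^ GM' * Gm ^ GM * δ ≤
      CM * r1 ^ ε * (Y / c0) ^ G' * Gm ^ G * (X1 + δ) := by
    have : δ ≤ X1 + δ := by linarith
    gcongr
  have j1 := (ENNReal.ofReal_le_ofReal i1)
  have j2 := (ENNReal.ofReal_le_ofReal i2)
  set Z : ℝ := r1 ^ ε * (Y / c0) ^ G' * Gm ^ G * (X1 + δ) with hZ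
  have hZ0 : 0 ≤ Z := by positivity
  have k1 : CA * r1 ^ ε * (Y / c0) ^ G' * Gm ^ G * (X1 + δ) = CA * Z := by rw [hZ]; ring
  have k2 : CM * r1 ^ ε * (Y / c0) ^ G' * Gm ^ G * (X1 + δ) = CM * Z := by rw [hZ]; ring
  rw [k1] at j1
  rw [k2] at j2
  have k3 : 2 * (CA + CM) * r1 ^ ε * (Y / c0) ^ G' * Gm ^ G * (X1 + δ) =
      2 * (CA * Z + CM * Z) := by rw [hZ]; ring
  rw [k3]
  have t1 : Tl (2 * (CA + CM)) Y M g r1 = 2 * (Tl CA Y M g r1 + Tl CM Y M g r1) := by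
    unfold Tl
    have hw1 : 0 ≤ r1 ^ 20 * (Y ^ M)⁻¹ := by positivity
    rw [← add_mul, ← mul_assoc, ← ENNReal.ofReal_add (by positivity) (by positivity),
      show (2 : ℝ≥0∞) = ENNReal.ofReal 2 by simp, ← ENNReal.ofReal_mul (by norm_num)]
    congr 2
    ring
  rw [t1, ENNReal.ofReal_mul (by norm_num : (0:ℝ) ≤ 2), ENNReal.ofReal_add (by positivity)
    (by positivity), ENNReal.ofReal_ofNat]
  calc ENNReal.ofReal (s2 ^ (-q / 2)) * val h F (dl * r1) s1 s2 I P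
      ≤ ENNReal.ofReal (s2 ^ (-q / 2)) * (2 * (val h F (dl * r1) s1 s2 I
          (fun i => { P i with S := Sa i }) + val h F (dl * r1) s1 s2 I
          (fun i => { P i with S := Sb i }))) := mul_le_mul' le_rfl hsplit
    _ = 2 * (ENNReal.ofReal (s2 ^ (-q / 2)) * val h F (dl * r1) s1 s2 I
          (fun i => { P i with S := Sa i }) + ENNReal.ofReal (s2 ^ (-q / 2)) *
          val h F (dl * r1) s1 s2 I (fun i => { P i with S := Sb i })) := by ring
    _ ≤ 2 * ((ENNReal.ofReal (CA * Z) * SCo g r1 D (uS I1 P1) + Tl CA Y M g r1) +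
          (ENNReal.ofReal (CM * Z) * SCo g r1 D (uS I1 P1) + Tl CM Y M g r1)) := by
        refine mul_le_mul' le_rfl (add_le_add ?_ ?_)
        · exact hA1.trans (add_le_add (mul_le_mul' j1 le_rfl) le_rfl)
        · exact hM1.trans (add_le_add (mul_le_mul' j2 le_rfl) le_rfl)
    _ = _ := by ring

end Crest.Agent.R138.P654
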