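import Crest.Agent.R138.StepSk1_639

/-!
# R138 wave side: the slab step for coefficient sums (helper639), part 2
-/

set_option autoImplicit false

open MeasureTheory FourierTransform
open scoped ContDiff ENNReal

namespace Crest.Agent.R138.GR639

open Crest.Agent.R138.Defs Crest.Agent.R138.Bil882 Crest.Agent.R138.W188
open Crest.Agent.R138.Wpk685 Crest.Agent.R138.W323 Crest.Agent.R138.P654 Crest.Agent.R138.Ad480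

set_option maxHeartbeats 1000000 in
/-- **the slab step for coefficient sums.** -/
theorem step_sk {B : ℕ → ℝ} {q : ℝ} (hST : STEP B q) {A : ℝ} (hA : 1 ≤ A) :
    ∃ d0 G : ℝ, 0 < d0 ∧ d0 ≤ 1 ∧ 1 ≤ G ∧ ∀ ε : ℝ, 0 < ε → ∃ n0 : ℕ, ∀ n : ℕ, n0 ≤ n →
    ∀ K0 : ℝ, 1 ≤ K0 → ∃ G' : ℝ, 0 ≤ G' ∧
    ∀ (M0 K b e1 : ℝ), 0 ≤ b → 0 < e1 → ∃ CQ : ℝ, 0 ≤ CQ ∧ ∀ C1 : ℝ, 0 ≤ C1 → ∃ C' : ℝ, 0 ≤ C' ∧
    ∀ (Na M : ℕ), 13 + |q| + |M0| + |K| + 4 * b ≤ M →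
    ∀ (h : E2 → ℝ) (g : E2 → ℂ) (R D σ : ℝ), St B q Na M0 σ h g R D → σ ≤ 1 →
    ∀ r1 dl Y Gm : ℝ, R ^ (1/2 : ℝ) ≤ dl * r1 → A * (dl * r1) ≤ r1 → r1 ≤ R → 1 ≤ r1 →
      σ + 3 * r1 ^ (-(1/2) : ℝ) ≤ 2 → 0 < dl → dl ≤ d0 → dl ^ (-G) ≤ r1 → 1 ≤ Gm →
      R ^ e1 ≤ Y → Y ≤ dl ^ (-(1/4) : ℝ) →
    ∀ (nb1 M1 : ℕ) (Z1 : Finset (E2 × ℝ))
      (cls1 : E2 × ℝ → OrthonormalBasis (Fin 2) ℝ E2 → ℤ × ℤ → E2 → ℕ)
      (Λ1 : Finset ℕ) (s1 : ℕ → ℝ × ℝ) (cl1 : ℕ → ℕ) (G1 : E2 × ℝ → ℕ → E2 → ℂ)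
      (D1 : E2 × ℝ → ℕ → ℝ) (rest1 : E2 × ℝ → E2 → ℂ) (I1 : E2 × ℝ → ℕ → Finset ℕ)
      (P1 : E2 × ℝ → ℕ → ℕ → Plate), M ≤ M1 →
      LvD q A σ C1 B nb1 M1 h g R r1 Z1 cls1 Λ1 s1 cl1 G1 D1 rest1 I1 P1 →
      (Λ1.card : ℝ) ≤ C1 * R ^ b → (nb1 : ℝ) ≤ R ^ b →
    ∀ (C2 : ℝ) (nb2 M2 : ℕ) (Z2 : Finset (E2 × ℝ))
      (cls2 : E2 × ℝ → OrthonormalBasis (Fin 2) ℝ E2 → ℤ × ℤ → E2 → ℕ)
      (Λ2 : Finset ℕ) (s2 : ℕ → ℝ × ℝ) (cl2 : ℕ → ℕ) (G2 : E2 × ℝ → ℕ → E2 → ℂ)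
      (D2 : E2 × ℝ → ℕ → ℝ) (rest2 : E2 × ℝ → E2 → ℂ) (I2 : E2 × ℝ → ℕ → Finset ℕ)
      (P2 : E2 × ℝ → ℕ → ℕ → Plate), 0 ≤ C2 →
      LvD q A σ C2 B nb2 M2 h g R (dl * r1) Z2 cls2 Λ2 s2 cl2 G2 D2 rest2 I2 P2 →
    ∀ (ζ : E2 × ℝ → E2 × ℝ), (∀ z ∈ Z2, ζ z ∈ Z1 ∧ z - ζ z ∈ cyl r1) →
    ∀ k ∈ Λ2, ∀ π ∈ Λ1,
      (∀ z ∈ Z2, ∀ i ∈ I2 z k, ∀ κ ∈ Λ1,
        en ((dl * r1) ^ (-(1/2) : ℝ)) (tr h (z - ζ z) (G1 (ζ z) κ)) (P2 z k i).S ≤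
          en ((dl * r1) ^ (-(1/2) : ℝ)) (tr h (z - ζ z) (G1 (ζ z) π)) (P2 z k i).S) →
    ∀ (p pp Kx ppx : ℝ), 1 ≤ p → 1 ≤ pp →
      (∀ w ∈ Z1, Coh h (an r1) (an (dl * r1)) (dl ^ (1/2 : ℝ)) Y (2 * r1) (I1 w π) (P1 w π) pp) →
      ClsOk n K0 Kx p ppx h g dl r1 ζ (fun w => I1 w π) (fun w => P1 w π) Z2 (fun z => I2 z k)
        (fun z => P2 z k) →
      (s1 π).1 ≤ Gm * an r1 → (s2 k).1 ≤ Gm * an (dl * r1) →
      dl ^ (-G) * an r1 ≤ (s1 π).2 → dl ^ (-G) * an (dl * r1) ≤ (s2 k).2 →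
      Sk h g (dl * r1) Z2 I2 P2 D2 k ≤
        ENNReal.ofReal (2 * Real.sqrt (C2 * nb2) * (Λ1.card + 1) ^ 3) *
          (ENNReal.ofReal (CQ * r1 ^ ε * (Y * max 1 (C1 * nb1)) ^ G' * Gm ^ G *
            ((pp / p) ^ (1/2 : ℝ) + dl ^ (1/2 : ℝ))) * Sk h g r1 Z1 I1 P1 D1 π) +
        ENNReal.ofReal (C' * Real.sqrt (C2 * nb2) * (R ^ (-K) * SS g R D)) := by
  obtain ⟨d0, G, hd0, hd01, hG, H⟩ := hST A hA
  refine ⟨d0, G, hd0, hd01, hG, ?_⟩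
  intro ε hε
  obtain ⟨n0, H⟩ := H ε hε
  refine ⟨n0, ?_⟩
  intro n hn K0 hK0
  obtain ⟨G', hG', H⟩ := H n hn K0 hK0
  refine ⟨G', hG', ?_⟩
  intro M0 K b e1 hb he1
  set MM : ℕ := ⌈(24 + |M0| + |K| + 3 * b) / e1⌉₊ with hMMdef
  have hMM : 24 + |M0| + |K| + 3 * b ≤ e1 * MM := by
    have h1 : (24 + |M0| + |K| + 3 * b) / e1 ≤ MM := Nat.le_ceil _
    rw [div_le_iff₀ he1] at h1
    rw [mul_comm e1]
    exact h1
  obtain ⟨CQ, hCQ, H⟩ := H MM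
  refine ⟨CQ, hCQ, ?_⟩
  intro C1 hC1
  obtain ⟨CS, hCS, hstep⟩ := step_en B q hA M0 K b C1 hb hC1
  refine ⟨CS + 432 * (C1 + 1) ^ 3 * CQ, by positivity, ?_⟩
  intro Na M hM h g R D σ hSt hσ r1 dl Y Gm hr2 h21 hr1R hr11 hσ2 hdl hdl0 hdlG hGm hRY hYdl nb1 M1
    Z1 cls1 Λ1 s1 cl1 G1 D1 rest1 I1 P1 hMM1 H1 hΛ1 hnb1 C2 nb2 M2 Z2 cls2 Λ2 s2 cl2 G2 D2 rest2 I2
    P2 hC2 H2 ζ hζ k hk π hπ hmax p pp Kx ppx hp hpp hCoh hCls hth1 hth2 hw1 hw2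
  have hR : 1 ≤ R := hSt.R1
  have hR0 : 0 < R := by linarith
  have hr10 : 0 < r1 := by linarith
  have hY1 : 1 ≤ Y := (Real.one_le_rpow hR he1.le).trans hRY
  have hY0 : 0 < Y := by linarith
  have hEn : 0 ≤ En g := integral_nonneg fun ξ => by positivity
  obtain ⟨a, ha, hcl⟩ := hCls.cls
  set mx : ℝ := max 1 (C1 * nb1) with hmx
  have hmx1 : 1 ≤ mx := le_max_left _ _
  have hmx0 : 0 < mx := by linarith
  set Q : ℝ≥0∞ := ENNReal.ofReal (CQ * r1 ^ ε * (Y * mx) ^ G' * Gm ^ G *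
            ((pp / p) ^ (1/2 : ℝ) + dl ^ (1/2 : ℝ))) with hQ
  set T : ℝ≥0∞ := ENNReal.ofReal (CQ * r1 ^ (20 : ℕ) * (Y ^ MM)⁻¹) *
    (ENNReal.ofReal (En g)) ^ (3/2 : ℝ) with hT
  have hmain := hstep Na M hM h g R D σ hSt r1 (dl * r1) hr2 h21 hr1R hσ2 nb1 M1 Z1 cls1 Λ1 s1 cl1
    G1 D1 rest1 I1 P1 hMM1 H1 hΛ1 hnb1 C2 nb2 M2 Z2 cls2 Λ2 s2 cl2 G2 D2 rest2 I2 P2 hC2 H2 ζ hζ k
    hk π hπ hmax Q T (by
      intro w hw I' P' hPl hP'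
      have hpar := par_of hSt hσ (H1.out w hw) hπ (H1.sd π hπ)
      have hctx : Ctx B q A d0 G (1 / mx) h (tr h w g) r1 dl Y Gm (s1 π).1 (s1 π).2 (s2 k).1
          (s2 k).2 (D1 w π) (I1 w π) (P1 w π) I' P' := by
        refine ⟨hSt.par, hSt.h1, hpar, by positivity, ?_, hdl, hdl0, hdlG, hGm, hY1, hYdl,
          H2.sd k hk, hPl, ?_, hth1, hth2⟩
        · rw [div_le_one hmx0]; exact hmx1
        · intro j hj m hm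
          obtain ⟨z, hz, hzw, i, hi, hPe⟩ := hP' j hj
          rw [hPe]
          have h1 := (H2.out z hz).cp k hk m hm
          unfold uS at h1
          simp only [Set.iUnion_eq_empty] at h1
          exact h1 i hi
      have hchi : Chi n K0 h (tr h w g) dl r1 a p (uS (I1 w π) (P1 w π)) I' P' := by
        have key : ∀ j ∈ I', ∀ m, ∀ y ∈ (P' j).S m,
            ENNReal.ofReal a ≤ Ad n h (an r1) (an (dl * r1)) (tr h w g) (uS (I1 w π) (P1 w π)) m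
              (P' j).z y ∧
            Ad n h (an r1) (an (dl * r1)) (tr h w g) (uS (I1 w π) (P1 w π)) m (P' j).z y ≤
              ENNReal.ofReal (8 * a) ∧
            p ≤ (pot n h (an r1) (an (dl * r1)) (an (dl * (dl * r1))) K0 (tr h w g)
              (uS (I1 w π) (P1 w π)) (P' j).b (P' j).z m y : ℝ) := by
          intro j hj m y hy
          obtain ⟨z, hz, hzw, i, hi, hPe⟩ := hP' j hj
          rw [hPe] at hy ⊢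
          have h1 := hcl z hz i hi m y hy
          simp only [hzw] at h1
          have hzz : (shift w (P2 z k i)).z = z - w := by
            show (P2 z k i).z - w = z - w
            rw [((H2.out z hz).pl k hk).2 i hi]
          rw [hzz]
          exact ⟨h1.1, h1.2.1, h1.2.2.1⟩
        exact ⟨fun j hj m y hy => (key j hj m y hy).1, fun j hj m y hy => (key j hj m y hy).2.1,
          fun j hj m y hy => (key j hj m y hy).2.2⟩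
      have h1 := H (1 / mx) h (tr h w g) r1 dl Y Gm (s1 π).1 (s1 π).2 (s2 k).1 (s2 k).2 (D1 w π) a p
        pp (I1 w π) (P1 w π) I' P' hctx hw1 hw2 (hCoh w hw) hpp ha hp hchi
      have e1 : G1 w π = sel (an r1) (tr h w g) (uS (I1 w π) (P1 w π)) := (H1.out w hw).eq π hπ
      rw [← e1] at h1
      refine h1.trans ?_
      have e2 : Y / (1 / mx) = Y * mx := by rw [div_div_eq_mul_div, div_one]
      have e3 : En (tr h w g) = En g := En_tr h w g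
      unfold Tl SCo
      rw [e2, e3]
      refine add_le_add (mul_le_mul' le_rfl (mul_le_mul' le_rfl ?_)) le_rfl
      exact en_uS_le _ _ _ _)
  refine hmain.trans ?_
  have hcard := card_net hr10 hr1R Z1 H1.mem H1.sep
  have htail := tail_total (C1 := C1) (CM := CQ) (R := R) (D := D) (r1 := r1) (e := En g)
    (n := Λ1.card) (b := b) (K := K) (M0 := M0) (Y := Y) (e1 := e1) (x := Real.sqrt (C2 * nb2))
    (F := Z1.card) (MM := MM) hC1 hCQ hR hr11 hr1R hEn hb (Nat.cast_nonneg _) hΛ1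
    (Real.sqrt_nonneg _) hRY hcard hSt.nd hMM
  rw [mul_add, add_assoc]
  refine add_le_add le_rfl ?_
  have hSS : 0 ≤ SS g R D := by
    unfold SS; positivity
  have e4 : ENNReal.ofReal (432 * (C1 + 1) ^ 3 * CQ * Real.sqrt (C2 * nb2) *
      (R ^ (-K) * (R * En g * Real.sqrt D))) = ENNReal.ofReal (432 * (C1 + 1) ^ 3 * CQ *
        Real.sqrt (C2 * nb2) * (R ^ (-K) * SS g R D)) := rfl
  rw [e4] at htail
  refine (add_le_add htail le_rfl).trans ?_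
  rw [← ENNReal.ofReal_add (by positivity) (by positivity)]
  refine ENNReal.ofReal_le_ofReal (le_of_eq ?_)
  ring

end Crest.Agent.R138.GR639
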