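import Crest.Agent.R138.GenRoot5_639
import Crest.Agent.R138.Ad2_480
import Crest.Agent.R138.Acl2_101

/-!
# R138 wave side: labels with tiny parent density (helper480)

`val_tiny` : a plate system of level `r2` on whose points the density `Ad` of the parent selection is
at most `a` has `val ≤ C r1^6 a^{3/2}`.
`tiny_lv` : a label `k` of level `r2` on whose points the density of the dominating parent class `π`
is at most `C R^(-K0) En g` has tiny `Sk`.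
-/

set_option autoImplicit false

open MeasureTheory FourierTransform
open scoped ContDiff ENNReal

namespace Crest.Agent.R138.Tiny480

open Crest.Agent.R138.Defs Crest.Agent.R138.Bil882 Crest.Agent.R138.W188
open Crest.Agent.R138.Wpk685 Crest.Agent.R138.W323 Crest.Agent.R138.GR639
open Crest.Agent.R138.Ad480

theorem val_tiny (B : ℕ → ℝ) (n : ℕ) {A : ℝ} (hA : 1 ≤ A) : ∃ C : ℝ, 0 ≤ C ∧
    ∀ (h : E2 → ℝ), ParB B h → ∀ r1 r2 s1 s2 : ℝ, 1 ≤ r2 → r2 ≤ r1 → r1 ≤ r2 ^ 2 → Sd r2 s1 s2 →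
    ∀ f : E2 → ℂ, Integrable f → ∀ S : ℤ × ℤ → Set E2, Bs (r1 ^ (-(1/2) : ℝ)) S →
    ∀ (I : Finset ℕ) (P : ℕ → Plate), Plates A h r2 s1 s2 r1 I P → ∀ a : ℝ≥0∞,
    (∀ j ∈ I, ∀ m ∈ caps (r2 ^ (-(1/2) : ℝ)), ∀ y ∈ (P j).S m,
      Ad n h (r1 ^ (-(1/2) : ℝ)) (r2 ^ (-(1/2) : ℝ)) f S m (P j).z y ≤ a) →
    val h (sel (r1 ^ (-(1/2) : ℝ)) f S) r2 s1 s2 I P ≤
      ENNReal.ofReal (C * r1 ^ 6) * a ^ (3 / 2 : ℝ) := by
  classical
  obtain ⟨C1, hC1, h1⟩ := tiny B n 1 le_rfl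
  set C2 : ℝ := 216 * (C1 * (3 * A) ^ 2 * 81) with hC2
  have hC20 : 0 ≤ C2 := by positivity
  refine ⟨C2 ^ (3 / 2 : ℝ), by positivity, ?_⟩
  intro h hh r1 r2 s1 s2 hr2 h21 h12 hSd f hf S hS I P hP a ha
  have hr20 : 0 < r2 := by linarith
  have hr10 : 0 < r1 := by linarith
  have hr1 : 1 ≤ r1 := hr2.trans h21
  set ρ1 : ℝ := r1 ^ (-(1/2) : ℝ) with hρ1
  set ρ2 : ℝ := r2 ^ (-(1/2) : ℝ) with hρ2
  have hρ10 : 0 < ρ1 := Real.rpow_pos_of_pos hr10 _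
  have hρ20 : 0 < ρ2 := Real.rpow_pos_of_pos hr20 _
  have hρ11 : ρ1 ≤ 1 := Real.rpow_le_one_of_one_le_of_nonpos hr1 (by norm_num)
  have hρ21 : ρ2 ≤ 1 := Real.rpow_le_one_of_one_le_of_nonpos hr2 (by norm_num)
  have hρ12 : ρ1 ≤ ρ2 := Real.rpow_le_rpow_of_nonpos hr20 h21 (by norm_num)
  have hρ1sq : ρ1 ^ 2 = r1⁻¹ := by
    rw [hρ1, ← Real.rpow_natCast, ← Real.rpow_mul hr10.le]; norm_num
    rw [Real.rpow_neg_one]
  have hρ2sq : (ρ2⁻¹) ^ 2 = r2 := by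
    rw [hρ2, ← Real.rpow_neg hr20.le, ← Real.rpow_natCast, ← Real.rpow_mul hr20.le]; norm_num
  have hinv1 : 1 / ρ1 ≤ 3 * A * r2 := by
    rw [one_div, hρ1, ← Real.rpow_neg hr10.le, neg_neg, ← Real.sqrt_eq_rpow]
    have : Real.sqrt r1 ≤ r2 := by
      rw [Real.sqrt_le_left hr20.le]; exact h12
    nlinarith
  have hs1 : s1 ≤ 1 := hSd.le.trans hSd.hi
  have hs2 : s2 ≤ 1 := hSd.hi
  -- the prefactor
  have hpre : (s1 * s2 * r2 ^ 3) ^ (-(1/2) : ℝ) ≤ 1 := by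
    apply Real.rpow_le_one_of_one_le_of_nonpos _ (by norm_num)
    have h3 : ρ2 * ρ2 ≤ s1 * s2 :=
      mul_le_mul hSd.lo (hSd.lo.trans hSd.le) hρ20.le (hρ20.le.trans hSd.lo)
    have h4 : ρ2 * ρ2 = r2⁻¹ := by
      rw [hρ2, ← Real.rpow_add hr20]; norm_num
      rw [Real.rpow_neg_one]
    calc (1:ℝ) ≤ r2 ^ 2 := one_le_pow₀ hr2
      _ = r2⁻¹ * r2 ^ 3 := by field_simp
      _ ≤ s1 * s2 * r2 ^ 3 := by rw [← h4]; gcongr
  -- the energies
  set Z : Finset (E2 × ℝ) := I.image (fun j => (P j).z) with hZ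
  have hZmem : ∀ z ∈ Z, z ∈ cyl r1 := by
    intro z hz
    obtain ⟨j, hj, rfl⟩ := Finset.mem_image.1 hz
    exact hP.mem j hj
  have hZsep : ∀ z ∈ Z, ∀ z' ∈ Z, Sep r2 z z' := by
    intro z hz z' hz'
    obtain ⟨j, hj, rfl⟩ := Finset.mem_image.1 hz
    obtain ⟨j', hj', rfl⟩ := Finset.mem_image.1 hz'
    exact hP.sep j hj j' hj'
  have hcard := card_net hr20 h21 Z hZmem hZsep
  have hcaps := Crest.Agent.R138.Acl101.card_caps hρ20 hρ21
  rw [hρ2sq] at hcaps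
  set E0 : ℝ≥0∞ := ENNReal.ofReal (C1 * (3 * A * r2) ^ 2 * (caps ρ2).card) * a with hE0
  have hz1 : ∀ z ∈ Z, ∑ j ∈ I with (P j).z = z,
      en ρ2 (tr h (P j).z (sel ρ1 f S)) (P j).S ≤ E0 := by
    intro z hz
    have e1 : ∑ j ∈ I with (P j).z = z, en ρ2 (tr h (P j).z (sel ρ1 f S)) (P j).S =
        ∑ j ∈ I with (P j).z = z, en ρ2 (tr h z (sel ρ1 f S)) (P j).S := by
      refine Finset.sum_congr rfl fun j hj => ?_
      rw [(Finset.mem_filter.1 hj).2]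
    rw [e1]
    set T : ℤ × ℤ → Set E2 := fun m => ⋃ j ∈ I.filter (fun j => (P j).z = z), (P j).S m with hT
    refine (en_union (I.filter (fun j => (P j).z = z)) (fun j => (P j).S) T
      (fun j hj m => hP.meas j (Finset.mem_filter.1 hj).1 m)
      (fun i hi j hj hne m => hP.disj i (Finset.mem_filter.1 hi).1 j (Finset.mem_filter.1 hj).1 hne
        ((Finset.mem_filter.1 hi).2.trans (Finset.mem_filter.1 hj).2.symm) m)
      (fun j hj m => Set.subset_biUnion_of_mem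
        (u := fun j => (P j).S m) (show j ∈ I.filter (fun j => (P j).z = z) from hj))).trans ?_
    have hzc := hZmem z hz
    refine h1 h hh ρ1 ρ2 hρ10 hρ12 hρ11 f hf S hS z ?_ T (fun m _ => ?_) 0 (3 * A * r2) hinv1
      (fun m _ => ?_) a (fun m hm y hy => ?_)
    · rw [hρ1sq]
      have h5 : |z.2| ≤ r1 := hzc.2
      calc |z.2| * r1⁻¹ ≤ r1 * r1⁻¹ := by gcongr
        _ = 1 := mul_inv_cancel₀ hr10.ne'
    · exact Finset.measurableSet_biUnion _ fun j hj => hP.meas j (Finset.mem_filter.1 hj).1 m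
    · refine Set.iUnion₂_subset fun j hj y hy => ?_
      rw [mem_closedBall_zero_iff]
      exact pos_le (by linarith) hr20.le hs1 hs2 (hP.x j (Finset.mem_filter.1 hj).1)
        (hP.box j (Finset.mem_filter.1 hj).1 m hy)
    · obtain ⟨j, hj, hyj⟩ := Set.mem_iUnion₂.1 hy
      have h6 := ha j (Finset.mem_filter.1 hj).1 m hm y hyj
      rwa [(Finset.mem_filter.1 hj).2] at h6
  have hz2 : ∑ j ∈ I, en ρ2 (tr h (P j).z (sel ρ1 f S)) (P j).S ≤ (Z.card : ℝ≥0∞) * E0 := by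
    rw [← Finset.sum_fiberwise_of_maps_to (g := fun j => (P j).z)
      (fun j hj => Finset.mem_image_of_mem (fun j => (P j).z) hj)]
    refine (Finset.sum_le_sum hz1).trans_eq ?_
    rw [Finset.sum_const, nsmul_eq_mul]
  have hin : ENNReal.ofReal r2 * ((Z.card : ℝ≥0∞) * E0) ≤ ENNReal.ofReal (C2 * r1 ^ 4) * a := by
    rw [hE0, ← ENNReal.ofReal_natCast, ← mul_assoc (ENNReal.ofReal (Z.card : ℝ)),
      ← ENNReal.ofReal_mul (by positivity), ← mul_assoc, ← ENNReal.ofReal_mul (by positivity)]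
    refine mul_le_mul' (ENNReal.ofReal_le_ofReal ?_) le_rfl
    calc r2 * ((Z.card : ℝ) * (C1 * (3 * A * r2) ^ 2 * (caps ρ2).card))
        ≤ r2 * ((216 * (r1 / r2) ^ 3) * (C1 * (3 * A * r2) ^ 2 * (81 * r2))) := by gcongr
      _ = C2 * (r1 ^ 3 * r2) := by rw [hC2]; field_simp
      _ ≤ C2 * (r1 ^ 3 * r1) := by gcongr
      _ = _ := by ring
  calc val h (sel ρ1 f S) r2 s1 s2 I P
      = ∑ j ∈ I, ENNReal.ofReal ((s1 * s2 * r2 ^ 3) ^ (-(1/2) : ℝ)) *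
        (ENNReal.ofReal r2 * en ρ2 (tr h (P j).z (sel ρ1 f S)) (P j).S) ^ (3 / 2 : ℝ) := rfl
    _ ≤ ∑ j ∈ I, (ENNReal.ofReal r2 * en ρ2 (tr h (P j).z (sel ρ1 f S)) (P j).S) ^ (3 / 2 : ℝ) := by
        refine Finset.sum_le_sum fun j _ => ?_
        refine (mul_le_mul' (ENNReal.ofReal_le_ofReal hpre) le_rfl).trans_eq ?_
        rw [ENNReal.ofReal_one, one_mul]
    _ ≤ (∑ j ∈ I, ENNReal.ofReal r2 * en ρ2 (tr h (P j).z (sel ρ1 f S)) (P j).S) ^ (3 / 2 : ℝ) :=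
        sum_rpow_le I _ (by norm_num)
    _ ≤ (ENNReal.ofReal (C2 * r1 ^ 4) * a) ^ (3 / 2 : ℝ) := by
        rw [← Finset.mul_sum]
        refine ENNReal.rpow_le_rpow ?_ (by norm_num)
        exact (mul_le_mul' le_rfl hz2).trans hin
    _ = _ := by
        rw [ENNReal.mul_rpow_of_nonneg _ _ (by norm_num),
          ENNReal.ofReal_rpow_of_nonneg (by positivity) (by norm_num),
          Real.mul_rpow hC20 (by positivity), ← Real.rpow_natCast, ← Real.rpow_mul hr10.le]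
        norm_num

/-- **TINY**: a label on whose points the parent density is tiny. -/
theorem tiny_lv (B : ℕ → ℝ) (q : ℝ) {A : ℝ} (hA : 1 ≤ A) (n : ℕ) :
    ∀ (M0 K b C1 CT : ℝ), 0 ≤ b → 0 ≤ C1 → 0 ≤ CT → ∃ C' : ℝ, 0 ≤ C' ∧
    ∀ (Na M : ℕ), 13 + |q| + |M0| + |K| + 4 * b ≤ M →
    ∀ (h : E2 → ℝ) (g : E2 → ℂ) (R D σ : ℝ), St B q Na M0 σ h g R D →
    ∀ r1 r2 : ℝ, R ^ (1/2 : ℝ) ≤ r2 → A * r2 ≤ r1 → r1 ≤ R → σ + 3 * r1 ^ (-(1/2) : ℝ) ≤ 2 →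
    ∀ (nb1 M1 : ℕ) (Z1 : Finset (E2 × ℝ))
      (cls1 : E2 × ℝ → OrthonormalBasis (Fin 2) ℝ E2 → ℤ × ℤ → E2 → ℕ)
      (Λ1 : Finset ℕ) (s1 : ℕ → ℝ × ℝ) (cl1 : ℕ → ℕ) (G1 : E2 × ℝ → ℕ → E2 → ℂ)
      (D1 : E2 × ℝ → ℕ → ℝ) (rest1 : E2 × ℝ → E2 → ℂ) (I1 : E2 × ℝ → ℕ → Finset ℕ)
      (P1 : E2 × ℝ → ℕ → ℕ → Plate), M ≤ M1 →
      LvD q A σ C1 B nb1 M1 h g R r1 Z1 cls1 Λ1 s1 cl1 G1 D1 rest1 I1 P1 →
      (Λ1.card : ℝ) ≤ C1 * R ^ b → (nb1 : ℝ) ≤ R ^ b →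
    ∀ (C2 : ℝ) (nb2 M2 : ℕ) (Z2 : Finset (E2 × ℝ))
      (cls2 : E2 × ℝ → OrthonormalBasis (Fin 2) ℝ E2 → ℤ × ℤ → E2 → ℕ)
      (Λ2 : Finset ℕ) (s2 : ℕ → ℝ × ℝ) (cl2 : ℕ → ℕ) (G2 : E2 × ℝ → ℕ → E2 → ℂ)
      (D2 : E2 × ℝ → ℕ → ℝ) (rest2 : E2 × ℝ → E2 → ℂ) (I2 : E2 × ℝ → ℕ → Finset ℕ)
      (P2 : E2 × ℝ → ℕ → ℕ → Plate), 0 ≤ C2 →
      LvD q A σ C2 B nb2 M2 h g R r2 Z2 cls2 Λ2 s2 cl2 G2 D2 rest2 I2 P2 →
    ∀ (ζ : E2 × ℝ → E2 × ℝ), (∀ z ∈ Z2, ζ z ∈ Z1 ∧ z - ζ z ∈ cyl r1) →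
    ∀ k ∈ Λ2, ∀ π ∈ Λ1,
      (∀ z ∈ Z2, ∀ i ∈ I2 z k, ∀ κ ∈ Λ1,
        en (r2 ^ (-(1/2) : ℝ)) (tr h (z - ζ z) (G1 (ζ z) κ)) (P2 z k i).S ≤
          en (r2 ^ (-(1/2) : ℝ)) (tr h (z - ζ z) (G1 (ζ z) π)) (P2 z k i).S) →
      (∀ z ∈ Z2, ∀ i ∈ I2 z k, ∀ m ∈ caps (r2 ^ (-(1/2) : ℝ)), ∀ y ∈ (P2 z k i).S m,
        Ad n h (r1 ^ (-(1/2) : ℝ)) (r2 ^ (-(1/2) : ℝ)) (tr h (ζ z) g) (uS (I1 (ζ z) π) (P1 (ζ z) π))
          m (z - ζ z) y ≤ ENNReal.ofReal (CT * R ^ (-(6 + |q| + |M0| + |K|)) * En g)) →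
      Sk h g r2 Z2 I2 P2 D2 k ≤
        ENNReal.ofReal (C' * Real.sqrt (C2 * nb2) * (Λ1.card + 1) ^ 3 * (R ^ (-K) * SS g R D)) := by
  intro M0 K b C1 CT hb hC1 hCT
  obtain ⟨C3, hC3, H3⟩ := step_en B q hA M0 K b C1 hb hC1
  obtain ⟨C4, hC4, H4⟩ := val_tiny B n hA
  refine ⟨432 * (C4 * CT ^ (3 / 2 : ℝ)) + C3, by positivity, ?_⟩
  intro Na M hM h g R D σ hSt r1 r2 hr2 h21 hr1R hσ1 nb1 M1 Z1 cls1 Λ1 s1 cl1 G1 D1 rest1
    I1 P1 hMM1 H1 hΛ1 hnb1 C2 nb2 M2 Z2 cls2 Λ2 s2 cl2 G2 D2 rest2 I2 P2 hC2 H2 ζ hζ k hk π hπ hmax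
    htiny
  have hR : 1 ≤ R := hSt.R1
  have hR0 : 0 < R := by linarith
  have hr2' : 1 ≤ r2 := (Real.one_le_rpow hR (by norm_num)).trans hr2
  have hr20 : 0 < r2 := by linarith
  have h21' : r2 ≤ r1 := by nlinarith
  have hr10 : 0 < r1 := by linarith
  have hhc : Continuous h := hSt.par.1.continuous
  have hSd := H2.sd k hk
  have hEn : 0 ≤ En g := integral_nonneg fun ξ => by positivity
  have hD := hSt.D0
  have hR12 : r1 ≤ r2 ^ 2 := by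
    refine hr1R.trans ?_
    calc R = (R ^ (1/2 : ℝ)) ^ 2 := by
          rw [← Real.rpow_natCast, ← Real.rpow_mul hR0.le]; norm_num
      _ ≤ r2 ^ 2 := by gcongr
  have hs2p : 0 < (s2 k).2 := (hSd.s2pos hr20).2
  set K0 : ℝ := 6 + |q| + |M0| + |K| with hK0
  set a : ℝ≥0∞ := ENNReal.ofReal (CT * R ^ (-K0) * En g) with ha
  -- power of `s2`
  have hu : (s2 k).2 ^ (-q / 2) ≤ R ^ |q| := by
    have h1 : r2 ^ (-(1/2) : ℝ) ≤ (s2 k).2 := hSd.lo.trans hSd.le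
    rcases le_total 0 q with hq | hq
    · calc (s2 k).2 ^ (-q / 2) ≤ (r2 ^ (-(1/2) : ℝ)) ^ (-q / 2) :=
            Real.rpow_le_rpow_of_nonpos (Real.rpow_pos_of_pos hr20 _) h1 (by linarith)
        _ = r2 ^ (q / 4) := by rw [← Real.rpow_mul hr20.le]; congr 1; ring
        _ ≤ R ^ (q / 4) := Real.rpow_le_rpow hr20.le (h21'.trans hr1R) (by linarith)
        _ ≤ R ^ |q| := Real.rpow_le_rpow_of_exponent_le hR (by rw [abs_of_nonneg hq]; linarith)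
    · calc (s2 k).2 ^ (-q / 2) ≤ 1 := Real.rpow_le_one hs2p.le hSd.hi (by linarith)
        _ ≤ R ^ |q| := Real.one_le_rpow hR (abs_nonneg q)
  -- the local bound
  set T : ℝ := C4 * CT ^ (3 / 2 : ℝ) * (R ^ (-(K + 3)) * SS g R D) with hT
  have hSS : 0 ≤ SS g R D := by
    unfold SS; positivity
  have hEn32 : En g ^ (3 / 2 : ℝ) ≤ R ^ (|M0| / 2) * (En g * Real.sqrt D) := by
    have h1 : En g ^ (3 / 2 : ℝ) = En g * Real.sqrt (En g) := by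
      rw [show (3 / 2 : ℝ) = 1 + 1 / 2 by norm_num, Real.rpow_add_of_nonneg hEn (by norm_num)
        (by norm_num), Real.rpow_one, Real.sqrt_eq_rpow]
    have h2 : Real.sqrt (En g) ≤ R ^ (|M0| / 2) * Real.sqrt D := by
      calc Real.sqrt (En g) ≤ Real.sqrt (R ^ |M0| * D) := by
            apply Real.sqrt_le_sqrt
            refine hSt.nd.trans ?_
            gcongr
            exact le_abs_self M0
        _ = R ^ (|M0| / 2) * Real.sqrt D := by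
            rw [Real.sqrt_mul (by positivity), Real.sqrt_eq_rpow (R ^ |M0|), ← Real.rpow_mul hR0.le]
            congr 2
            ring
    rw [h1]
    calc En g * Real.sqrt (En g) ≤ En g * (R ^ (|M0| / 2) * Real.sqrt D) := by gcongr
      _ = _ := by ring
  have hloc : ∀ w ∈ Z1, ∀ (I' : Finset ℕ) (P' : ℕ → Plate),
        Plates A h r2 (s2 k).1 (s2 k).2 r1 I' P' →
        (∀ j ∈ I', ∃ z ∈ Z2, ζ z = w ∧ ∃ i ∈ I2 z k, P' j = shift w (P2 z k i)) →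
        ENNReal.ofReal ((s2 k).2 ^ (-q / 2)) * val h (G1 w π) r2 (s2 k).1 (s2 k).2 I' P' ≤
          0 * (ENNReal.ofReal (r1 * Real.sqrt (D1 w π)) *
            ∑ i ∈ I1 w π, en (r1 ^ (-(1/2) : ℝ)) (tr h w g) (P1 w π i).S) +
          ENNReal.ofReal T := by
    intro w hw I' P' hP' hsh
    have Hw := H1.out w hw
    have hBs : Bs (r1 ^ (-(1/2) : ℝ)) (uS (I1 w π) (P1 w π)) := by
      refine ⟨fun m _ => ?_, fun m _ => ?_⟩
      · unfold uS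
        exact Finset.measurableSet_biUnion _ fun i hi => (Hw.pl π hπ).1.meas i hi m
      · exact Metric.isBounded_closedBall.subset (Hw.bd π hπ m)
    have hf : Integrable (tr h w g) := (W323.Gd.tr hhc (W323.St.gd hSt (by
      have : 0 ≤ 3 * r1 ^ (-(1/2) : ℝ) := by positivity
      linarith)) w).int
    have h1 := H4 h hSt.par r1 r2 (s2 k).1 (s2 k).2 hr2' h21' hR12 hSd (tr h w g) hf
      (uS (I1 w π) (P1 w π)) hBs I' P' hP' a (fun j hj m hm y hy => by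
        obtain ⟨z, hz, hzw, i, hi, hj'⟩ := hsh j hj
        have h2 := htiny z hz i hi m hm y (by rw [hj'] at hy; exact hy)
        rw [hzw] at h2
        have h3 : (P' j).z = z - w := by
          rw [hj']
          unfold shift
          rw [((H2.out z hz).pl k hk).2 i hi]
        rw [h3]
        exact h2)
    rw [Hw.eq π hπ, zero_mul, zero_add]
    refine (mul_le_mul' (ENNReal.ofReal_le_ofReal hu) h1).trans ?_
    rw [ha, ENNReal.ofReal_rpow_of_nonneg (by positivity) (by norm_num),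
      ← ENNReal.ofReal_mul (by positivity), ← ENNReal.ofReal_mul (by positivity)]
    apply ENNReal.ofReal_le_ofReal
    rw [Real.mul_rpow (by positivity) hEn, Real.mul_rpow hCT (by positivity), ← Real.rpow_mul hR0.le]
    have h5 : r1 ^ 6 ≤ R ^ (6:ℝ) := by
      calc r1 ^ 6 ≤ R ^ 6 := by gcongr
        _ = R ^ (6:ℝ) := by rw [← Real.rpow_natCast]; norm_num
    calc R ^ |q| * (C4 * r1 ^ 6 * (CT ^ (3/2 : ℝ) * R ^ (-K0 * (3/2)) * En g ^ (3/2 : ℝ)))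
        ≤ R ^ |q| * (C4 * R ^ (6:ℝ) * (CT ^ (3/2 : ℝ) * R ^ (-K0 * (3/2)) *
          (R ^ (|M0| / 2) * (En g * Real.sqrt D)))) := by gcongr
      _ = C4 * CT ^ (3/2 : ℝ) * ((R ^ |q| * R ^ (6:ℝ) * R ^ (-K0 * (3/2)) * R ^ (|M0| / 2)) *
          (En g * Real.sqrt D)) := by ring
      _ = C4 * CT ^ (3/2 : ℝ) * (R ^ (|q| + 6 + -K0 * (3/2) + |M0| / 2) *
          (En g * Real.sqrt D)) := by
          rw [← Real.rpow_add hR0, ← Real.rpow_add hR0, ← Real.rpow_add hR0]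
      _ ≤ C4 * CT ^ (3/2 : ℝ) * (R ^ (-(K + 3)) * (En g * Real.sqrt D)) := by
          gcongr
          rw [hK0]
          have := abs_nonneg q
          have := abs_nonneg M0
          have := le_abs_self K
          have := abs_nonneg K
          linarith
      _ ≤ T := by
          rw [hT]
          unfold SS
          have : En g * Real.sqrt D ≤ R * En g * Real.sqrt D := by
            rw [mul_assoc]
            exact le_mul_of_one_le_left (by positivity) hR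
          gcongr
  have h6 := H3 Na M hM h g R D σ hSt r1 r2 hr2 h21 hr1R hσ1 nb1 M1 Z1 cls1 Λ1 s1 cl1 G1 D1 rest1
    I1 P1 hMM1 H1 hΛ1 hnb1 C2 nb2 M2 Z2 cls2 Λ2 s2 cl2 G2 D2 rest2 I2 P2 hC2 H2 ζ hζ k hk π hπ hmax
    0 (ENNReal.ofReal T) hloc
  refine h6.trans ?_
  have hZ1 := card_net hr10 hr1R Z1 H1.mem H1.sep
  rw [zero_mul, zero_add, ← ENNReal.ofReal_natCast Z1.card, ← ENNReal.ofReal_mul (by positivity),
    ← ENNReal.ofReal_mul (by positivity), ← ENNReal.ofReal_add (by positivity) (by positivity)]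
  apply ENNReal.ofReal_le_ofReal
  have h7 : (Z1.card : ℝ) * T ≤ 216 * (C4 * CT ^ (3 / 2 : ℝ) * (R ^ (-K) * SS g R D)) := by
    calc (Z1.card : ℝ) * T ≤ (216 * (R / r1) ^ 3) * T := by
          have : 0 ≤ T := by positivity
          gcongr
      _ ≤ (216 * R ^ (3:ℝ)) * T := by
          have : 0 ≤ T := by positivity
          have h8 : R / r1 ≤ R := div_le_self hR0.le (hr2'.trans h21')
          have h9 : (R / r1) ^ 3 ≤ R ^ (3:ℝ) := by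
            calc (R / r1) ^ 3 ≤ R ^ 3 := by gcongr
              _ = R ^ (3:ℝ) := by rw [← Real.rpow_natCast]; norm_num
          gcongr
      _ = 216 * (C4 * CT ^ (3 / 2 : ℝ) * ((R ^ (3:ℝ) * R ^ (-(K + 3))) * SS g R D)) := by
          rw [hT]; ring
      _ = _ := by
          rw [← Real.rpow_add hR0]
          congr 4
          ring
  have h10 : (1:ℝ) ≤ ((Λ1.card : ℝ) + 1) ^ 3 := one_le_pow₀ (by
    have : (0:ℝ) ≤ Λ1.card := Nat.cast_nonneg _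
    linarith)
  have h11 : 0 ≤ R ^ (-K) * SS g R D := by positivity
  calc 2 * Real.sqrt (C2 * nb2) * ((Λ1.card : ℝ) + 1) ^ 3 * ((Z1.card : ℝ) * T) +
        C3 * Real.sqrt (C2 * nb2) * (R ^ (-K) * SS g R D)
      ≤ 2 * Real.sqrt (C2 * nb2) * ((Λ1.card : ℝ) + 1) ^ 3 *
          (216 * (C4 * CT ^ (3 / 2 : ℝ) * (R ^ (-K) * SS g R D))) +
        C3 * Real.sqrt (C2 * nb2) * (((Λ1.card : ℝ) + 1) ^ 3 * (R ^ (-K) * SS g R D)) := by
        refine add_le_add (mul_le_mul_of_nonneg_left h7 (by positivity))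
          (mul_le_mul_of_nonneg_left ?_ (by positivity))
        exact le_mul_of_one_le_left h11 h10
    _ = _ := by ring

/-- the clipped dyadic class gives the hypothesis of `tiny_lv`. -/
theorem div_pow_le {CT E R K0 : ℝ} {nA : ℕ} (hR : 1 ≤ R) (hCE : 0 ≤ CT * E)
    (hnA : K0 * Real.logb 2 R ≤ nA) :
    ENNReal.ofReal (CT * E) / 2 ^ nA ≤ ENNReal.ofReal (CT * R ^ (-K0) * E) := by
  have hR0 : 0 < R := by linarith
  have h1 : (2 : ℝ≥0∞) ^ nA = ENNReal.ofReal (2 ^ nA) := by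
    rw [ENNReal.ofReal_pow (by norm_num)]; norm_num
  rw [h1, ← ENNReal.ofReal_div_of_pos (by positivity)]
  apply ENNReal.ofReal_le_ofReal
  have h2 : R ^ K0 ≤ 2 ^ nA := by
    calc R ^ K0 = (2 ^ (Real.logb 2 R)) ^ K0 := by
          rw [Real.rpow_logb (by norm_num) (by norm_num) hR0]
      _ = 2 ^ (Real.logb 2 R * K0) := by rw [← Real.rpow_mul (by norm_num)]
      _ ≤ 2 ^ (nA : ℝ) := Real.rpow_le_rpow_of_exponent_le (by norm_num) (by linarith)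
      _ = 2 ^ nA := by rw [Real.rpow_natCast]
  have h3 : 0 < R ^ K0 := Real.rpow_pos_of_pos hR0 _
  calc CT * E / 2 ^ nA ≤ CT * E / R ^ K0 := by gcongr
    _ = CT * R ^ (-K0) * E := by rw [Real.rpow_neg hR0.le]; field_simp

end Crest.Agent.R138.Tiny480
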