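import Crest.Agent.R138.Stp1_210
import Crest.Agent.R138.StepSk2_639
import Crest.Agent.R138.Tiny_480

/-!
# R138 / R139: WAVE side (helper210): STEPP from P654.STEP
-/

set_option autoImplicit false

open MeasureTheory FourierTransform
open scoped ENNReal

namespace Crest.Agent.R138.Stp210

open Crest.Agent.R138.Defs Crest.Agent.R138.Bil882 Crest.Agent.R138.Wpk685 Crest.Agent.R138.W188
open Crest.Agent.R138.Gl210 Crest.Agent.R138.P654 Crest.Agent.R138.Ad480 Crest.Agent.R138.Chi101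

/-- the level as 639's `LvD`. -/
theorem lvd {q A σ Cn : ℝ} {B : ℕ → ℝ} {M : ℕ} {h : E2 → ℝ} {g : E2 → ℂ} {R : ℝ} {L : Lev}
    (H : LevOk q A σ Cn B M h g R L) : ∃ cls, GR639.LvD q A σ Cn B L.nb M h g R L.r L.Z cls
      (Finset.range L.n) L.s L.cl L.G L.D L.rest L.I L.P := by
  classical
  choose! cls hcls using H.dec
  exact ⟨cls, fun k hk => H.sd k (Finset.mem_range.1 hk), H.Zmem, H.Zsep, hcls⟩

theorem lbl_range {n i : ℕ} (hi : i < n) : Dom878.lbl (Finset.range n) i = i := by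
  unfold Dom878.lbl
  rw [Finset.sort_range, List.getD_eq_getElem _ _ (by simpa using hi), List.getElem_range]

/-- the parent label dominates, in energy form. -/
theorem hmax_of {h : E2 → ℝ} {L L' : Lev} {aux : Aux} (HN : Next h L L' aux) {z : E2 × ℝ}
    (hz : z ∈ L'.Z) {k : ℕ} (hk : k < L'.n) {i : ℕ} (hi : i ∈ L'.I z k)
    (hmeas : ∀ m, MeasurableSet ((L'.P z k i).S m)) {κ : ℕ} (hκ : κ ∈ Finset.range L.n) :
    en (L'.r ^ (-(1/2) : ℝ)) (tr h (z - L.ζ z) (L.G (L.ζ z) κ)) (L'.P z k i).S ≤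
      en (L'.r ^ (-(1/2) : ℝ)) (tr h (z - L.ζ z) (L.G (L.ζ z) (L'.par k))) (L'.P z k i).S := by
  refine GR639.en_mono_pt hmeas fun m _ y hy => ?_
  have e := HN.arg z hz k hk i hi m y hy
  have hd := Dom878.argi_dom (L'.r ^ (-(1/2) : ℝ)) (L.pf h z) (Λ := Finset.range L.n)
    ⟨κ, hκ⟩ m y
  rw [e, lbl_range (HN.par_lt k hk)] at hd
  have h1 := hd κ hκ
  rw [← ofReal_norm, ← ofReal_norm]
  exact ENNReal.ofReal_le_ofReal h1

/-- the class of a point of the plates of the next level. -/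
theorem pts {Ma n : ℕ} {K0 CE : ℝ} (hCE : ∀ (n : ℕ) (h : E2 → ℝ) (ρ ρ' : ℝ) (g : E2 → ℂ)
      (S : ℤ × ℤ → Set E2), 0 < ρ → ρ ≤ 1 → Integrable g → MemLp g 2 →
      ∀ (m' : ℤ × ℤ) (z : E2 × ℝ) (y : E2), Ad n h ρ ρ' g S m' z y ≤ ENNReal.ofReal (CE * En g))
    {B : ℕ → ℝ} {q A Cn : ℝ} {Na M : ℕ} {M0 : ℝ} {h : E2 → ℝ} {g : E2 → ℂ} {R D dl : ℝ}
    (hSt : St B q Na M0 (1/2) h g R D) {L L' : Lev}
    (hL : LevOk q A (1/2) Cn B M h g R L) (hL' : LevOk q A (1/2) Cn B M h g R L')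
    (HN : Next h L L' (AF Ma n K0 CE h g R dl L L'.r)) {z : E2 × ℝ}
    (hz : z ∈ L'.Z) {k : ℕ} (hk : k < L'.n) {i : ℕ} (hi : i ∈ L'.I z k) {m : ℤ × ℤ} {y : E2}
    (hy : y ∈ (L'.P z k i).S m) :
    clsR (nAR Ma R) (CE * En g) K0 n h (an L.r) (an L'.r) (an (dl * L'.r)) (tr h (L.ζ z) g)
        (uS (L.I (L.ζ z) (L'.par k)) (L.P (L.ζ z) (L'.par k))) (z - L.ζ z) (L'.P z k i).b m y =
      L'.ac k ∧
    Ad n h (an L.r) (an L'.r) (tr h (L.ζ z) g)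
        (uS (L.I (L.ζ z) (L'.par k)) (L.P (L.ζ z) (L'.par k))) m (z - L.ζ z) y ≤
      ENNReal.ofReal (CE * En g) ∧
    m ∈ caps (an L'.r) := by
  classical
  have hR := hSt.R1
  have hhc : Continuous h := hSt.par.1.continuous
  have hgd := W323.Gd.tr hhc (W323.St.gd hSt (by norm_num)) (L.ζ z)
  have hLr1 : 1 ≤ L.r := (Real.one_le_rpow hR (by norm_num)).trans hL.lo
  have hLr : 0 < L.r := by linarith
  refine ⟨?_, ?_, ?_⟩
  · have h1 := HN.aux z hz k hk i hi m y hy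
    have h2 := HN.arg z hz k hk i hi m y hy
    unfold AF at h1
    rw [if_pos (hL'.Zmem z hz)] at h1
    unfold kap uL at h1
    rwa [h2] at h1
  · have h1 := hCE n h (an L.r) (an L'.r) (tr h (L.ζ z) g)
      (uS (L.I (L.ζ z) (L'.par k)) (L.P (L.ζ z) (L'.par k))) (Real.rpow_pos_of_pos hLr _)
      (Real.rpow_le_one_of_one_le_of_nonpos hLr1 (by norm_num)) hgd.int hgd.l2 m (z - L.ζ z) y
    rwa [W323.En_tr] at h1
  · obtain ⟨cls, hd⟩ := hL'.dec z hz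
    by_contra hcon
    have h1 := hd.cp k (Finset.mem_range.2 hk) m hcon
    unfold uS at h1
    simp only [Set.iUnion_eq_empty] at h1
    rw [h1 i hi] at hy
    exact hy

theorem sig_le {r : ℝ} (hr : 4 ≤ r) : (1/2 : ℝ) + 3 * r ^ (-(1/2) : ℝ) ≤ 2 := by
  have h1 : r ^ (-(1/2) : ℝ) ≤ 1 / 2 := by
    calc r ^ (-(1/2) : ℝ) ≤ (4:ℝ) ^ (-(1/2) : ℝ) :=
          Real.rpow_le_rpow_of_nonpos (by norm_num) hr (by norm_num)
      _ = 1 / 2 := by
          rw [show (4:ℝ) = 2 ^ (2:ℝ) by norm_num, ← Real.rpow_mul (by norm_num)]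
          norm_num
  linarith

theorem emp_of_uS {I : Finset ℕ} {P : ℕ → Plate} {m : ℤ × ℤ} (h : uS I P m = ∅) {i : ℕ}
    (hi : i ∈ I) : (P i).S m = ∅ := by
  unfold uS at h
  simp only [Set.iUnion_eq_empty] at h
  exact h i hi

theorem coh_empty {h : E2 → ℝ} {θ θ' δ Y T : ℝ} {I1 : Finset ℕ} {P1 : ℕ → Plate} {pp : ℝ}
    (hpp : 0 ≤ pp) (he : ∀ i ∈ I1, ∀ m, (P1 i).S m = ∅) : Coh h θ θ' δ Y T I1 P1 pp := by
  intro b c z x hz Mf hMf
  rcases Mf.eq_empty_or_nonempty with rfl | ⟨m, hm⟩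
  · simpa using hpp
  · obtain ⟨-, -, y, hy, -⟩ := hMf m hm
    obtain ⟨i, hi, -, hyS⟩ := hy
    rw [he i hi m] at hyS
    exact absurd hyS (Set.notMem_empty y)

theorem four_le {dl r : ℝ} (h4 : 4 * dl ≤ 1) (hr : 0 < r) (h1 : 1 ≤ dl * r) : 4 ≤ r := by
  calc (4:ℝ) ≤ 4 * (dl * r) := by linarith
    _ = (4 * dl) * r := by ring
    _ ≤ 1 * r := mul_le_mul_of_nonneg_right h4 hr.le
    _ = r := one_mul _

theorem A_le {A dl r : ℝ} (h4 : A * dl ≤ 1) (hr : 0 < r) : A * (dl * r) ≤ r := by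
  calc A * (dl * r) = (A * dl) * r := by ring
    _ ≤ 1 * r := mul_le_mul_of_nonneg_right h4 hr.le
    _ = r := one_mul _

theorem Y_le {R dl ε e1 : ℝ} (hR : 1 ≤ R) (hdl : 0 < dl) (hdlR : dl ≤ R ^ (-ε)) (he : e1 ≤ ε / 4) :
    R ^ e1 ≤ dl ^ (-(1/4) : ℝ) := by
  have hR0 : 0 < R := by linarith
  calc R ^ e1 ≤ R ^ (ε / 4) := Real.rpow_le_rpow_of_exponent_le hR he
    _ = (R ^ (-ε)) ^ (-(1/4) : ℝ) := by rw [← Real.rpow_mul hR0.le]; congr 1; ring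
    _ ≤ dl ^ (-(1/4) : ℝ) := Real.rpow_le_rpow_of_nonpos hdl hdlR (by norm_num)

theorem two_eight {a : ℝ} (ha : 0 ≤ a) : 2 * a ≤ 8 * a := by linarith

/-- the constants of the tiny term. -/
theorem tiny_real {Cn ν nb C' C X G' : ℝ} (hCn : 1 ≤ Cn) (hν : 1 ≤ ν) (_hnb : nb ≤ ν) (hC' : 0 ≤ C')
    (hX : 0 ≤ X) (hC : C' * Cn ≤ C) (hsq : Real.sqrt (Cn * nb) ≤ Cn * ν) :
    C' * Real.sqrt (Cn * nb) * X ≤ C * ν ^ (⌈G'⌉₊ + 4) * X := by
  have hνp : 0 < ν := by linarith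
  have c3 : ν ^ 1 ≤ ν ^ (⌈G'⌉₊ + 4) := pow_le_pow_right₀ hν (by omega)
  rw [pow_one] at c3
  have hC0 : 0 ≤ C := le_trans (by positivity) hC
  calc C' * Real.sqrt (Cn * nb) * X
      ≤ C' * (Cn * ν) * X := by gcongr
    _ = (C' * Cn) * ν * X := by ring
    _ ≤ C * ν ^ (⌈G'⌉₊ + 4) * X := by gcongr

theorem tiny_real2 {Cn ν nb C' C X G' n1 : ℝ} (hCn : 1 ≤ Cn) (hν : 1 ≤ ν) (hn0 : 0 ≤ n1)
    (hn1 : n1 ≤ ν) (hC' : 0 ≤ C') (hX : 0 ≤ X) (hC : 8 * C' * Cn ≤ C)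
    (hsq : Real.sqrt (Cn * nb) ≤ Cn * ν) :
    C' * Real.sqrt (Cn * nb) * (n1 + 1) ^ 3 * X ≤ C * ν ^ (⌈G'⌉₊ + 4) * X := by
  have hνp : 0 < ν := by linarith
  have c2 : (n1 + 1) ^ 3 ≤ 8 * ν ^ 3 := by
    calc (n1 + 1) ^ 3 ≤ (2 * ν) ^ 3 := by gcongr; linarith
      _ = _ := by ring
  have c3 : ν ^ 4 ≤ ν ^ (⌈G'⌉₊ + 4) := pow_le_pow_right₀ hν (by omega)
  have hC0 : 0 ≤ C := le_trans (by positivity) hC
  calc C' * Real.sqrt (Cn * nb) * (n1 + 1) ^ 3 * X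
      ≤ C' * (Cn * ν) * (8 * ν ^ 3) * X := by gcongr
    _ = (8 * C' * Cn) * ν ^ 4 * X := by ring
    _ ≤ C * ν ^ (⌈G'⌉₊ + 4) * X := by gcongr

/-- the constants of the step. -/
theorem step_real {Cn ν nb1 nb2 n1 R r1 CQ G G' e1 ε dl δ p pv1 pv2 : ℝ} (hCn : 1 ≤ Cn)
    (hν : 1 ≤ ν) (hnb1 : nb1 ≤ ν) (hnb2 : nb2 ≤ ν) (hn10 : 0 ≤ n1)
    (hn1 : n1 ≤ ν) (hR : 1 ≤ R) (hr10 : 0 < r1) (hr1 : r1 ≤ R) (hCQ : 0 ≤ CQ) (hG' : 0 ≤ G')
    (he1 : e1 * G' ≤ ε / 2) (hε : 0 < ε) (hdl : 0 < dl) (hpv1 : 0 < pv1) (hpv2 : 0 < pv2)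
    (hp : pv2 ≤ p) :
    2 * Real.sqrt (Cn * nb2) * (n1 + 1) ^ 3 * (CQ * r1 ^ (ε / 2) *
      (R ^ e1 * max 1 (Cn * nb1)) ^ G' * (dl ^ (-δ)) ^ G *
        ((2 * pv1 / p) ^ (1/2 : ℝ) + dl ^ (1/2 : ℝ))) ≤
      32 * Cn * CQ * Cn ^ G' * ν ^ (⌈G'⌉₊ + 4) * R ^ ε * dl ^ (-(G * δ)) *
        ((pv1 / pv2) ^ (1/2 : ℝ) + dl ^ (1/2 : ℝ)) := by
  have hR0 : 0 < R := by linarith
  have hCn0 : 0 < Cn := by linarith
  have hν0 : 0 < ν := by linarith
  have hp0 : 0 < p := by linarith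
  have a1 : Real.sqrt (Cn * nb2) ≤ Cn * ν := by
    have h1 : 1 ≤ Cn * ν := one_le_mul_of_one_le_of_one_le hCn hν
    calc Real.sqrt (Cn * nb2) ≤ Real.sqrt (Cn * ν) := by gcongr
      _ ≤ Cn * ν := by
          rw [Real.sqrt_le_left (by linarith)]
          nlinarith
  have a2 : (n1 + 1) ^ 3 ≤ 8 * ν ^ 3 := by
    calc (n1 + 1) ^ 3 ≤ (2 * ν) ^ 3 := by gcongr; linarith
      _ = _ := by ring
  have a3 : r1 ^ (ε / 2) ≤ R ^ (ε / 2) := by gcongr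
  have a4 : (R ^ e1 * max 1 (Cn * nb1)) ^ G' ≤ R ^ (ε / 2) * (Cn ^ G' * ν ^ ⌈G'⌉₊) := by
    have h1 : max 1 (Cn * nb1) ≤ Cn * ν := by
      refine max_le (one_le_mul_of_one_le_of_one_le hCn hν) ?_
      gcongr
    have h2 : (0:ℝ) < max 1 (Cn * nb1) := lt_max_of_lt_left one_pos
    rw [Real.mul_rpow (by positivity) h2.le, ← Real.rpow_mul hR0.le]
    have h3 : R ^ (e1 * G') ≤ R ^ (ε / 2) := Real.rpow_le_rpow_of_exponent_le hR he1
    have h4 : max 1 (Cn * nb1) ^ G' ≤ Cn ^ G' * ν ^ ⌈G'⌉₊ := by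
      calc max 1 (Cn * nb1) ^ G' ≤ (Cn * ν) ^ G' := by gcongr
        _ = Cn ^ G' * ν ^ G' := Real.mul_rpow hCn0.le hν0.le
        _ ≤ _ := by
            rw [← Real.rpow_natCast ν]
            gcongr
            exact Nat.le_ceil _
    gcongr
  have a5 : (dl ^ (-δ)) ^ G = dl ^ (-(G * δ)) := by
    rw [← Real.rpow_mul hdl.le]; congr 1; ring
  have a6 : (2 * pv1 / p) ^ (1/2 : ℝ) + dl ^ (1/2 : ℝ) ≤
      2 * ((pv1 / pv2) ^ (1/2 : ℝ) + dl ^ (1/2 : ℝ)) := by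
    have h1 : (2 * pv1 / p) ^ (1/2 : ℝ) ≤ 2 * (pv1 / pv2) ^ (1/2 : ℝ) := by
      have h2 : 2 * pv1 / p ≤ 4 * (pv1 / pv2) := by
        have h3 : pv1 / p ≤ pv1 / pv2 := by gcongr
        have h4 : 0 < pv1 / pv2 := by positivity
        rw [mul_div_assoc]; linarith
      calc (2 * pv1 / p) ^ (1/2 : ℝ) ≤ (4 * (pv1 / pv2)) ^ (1/2 : ℝ) := by gcongr
        _ = 2 * (pv1 / pv2) ^ (1/2 : ℝ) := by
            rw [Real.mul_rpow (by norm_num) (by positivity)]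
            congr 1
            rw [show (4:ℝ) = 2 ^ (2:ℝ) by norm_num, ← Real.rpow_mul (by norm_num)]
            norm_num
    have h5 : 0 ≤ dl ^ (1/2 : ℝ) := by positivity
    linarith
  have a7 : R ^ ε = R ^ (ε / 2) * R ^ (ε / 2) := by
    rw [← Real.rpow_add hR0]; congr 1; ring
  rw [a5]
  have hX : 0 ≤ (2 * pv1 / p) ^ (1/2 : ℝ) + dl ^ (1/2 : ℝ) := by positivity
  calc 2 * Real.sqrt (Cn * nb2) * (n1 + 1) ^ 3 * (CQ * r1 ^ (ε / 2) *
      (R ^ e1 * max 1 (Cn * nb1)) ^ G' * dl ^ (-(G * δ)) *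
        ((2 * pv1 / p) ^ (1/2 : ℝ) + dl ^ (1/2 : ℝ)))
      ≤ 2 * (Cn * ν) * (8 * ν ^ 3) * (CQ * R ^ (ε / 2) *
      (R ^ (ε / 2) * (Cn ^ G' * ν ^ ⌈G'⌉₊)) * dl ^ (-(G * δ)) *
        (2 * ((pv1 / pv2) ^ (1/2 : ℝ) + dl ^ (1/2 : ℝ)))) := by gcongr
    _ = _ := by
        rw [a7, pow_add]; ring

theorem sqrt_le' {Cn ν nb : ℝ} (hCn : 1 ≤ Cn) (hν : 1 ≤ ν) (hnb : nb ≤ ν) :
    Real.sqrt (Cn * nb) ≤ Cn * ν := by
  have hCn0 : 0 < Cn := by linarith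
  have h1 : 1 ≤ Cn * ν := one_le_mul_of_one_le_of_one_le hCn hν
  calc Real.sqrt (Cn * nb) ≤ Real.sqrt (Cn * ν) := by gcongr
    _ ≤ Cn * ν := by
        rw [Real.sqrt_le_left (by linarith)]
        nlinarith

set_option maxHeartbeats 2000000 in
/-- **the slab step** STEPP, from the local step P654.STEP. -/
theorem stepp {B : ℕ → ℝ} {q A : ℝ} (hA : 1 ≤ A) (HS : STEP B q) : STEPP B q A := by
  classical
  obtain ⟨d0, G, hd0, hd01, hG, HS⟩ := GR639.step_sk HS hA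
  obtain ⟨CE, hCE, HE⟩ := Acl101.Ad_le_En
  refine ⟨G, hG, ?_⟩
  intro ε hε Na M0 T
  obtain ⟨n, HS⟩ := HS (ε / 2) (half_pos hε)
  obtain ⟨Kc, hKc, HC⟩ := Chi101.coh_of B n
  obtain ⟨G', hG', HS⟩ := HS n le_rfl Kc hKc
  obtain ⟨e1, he1⟩ : ∃ e1 : ℝ, e1 = min (ε / 4) (ε / (2 * (G' + 1))) := ⟨_, rfl⟩
  have he10 : 0 < e1 := by rw [he1]; positivity
  have he14 : e1 ≤ ε / 4 := by rw [he1]; exact min_le_left _ _
  have he1G : e1 * G' ≤ ε / 2 := by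
    have h1 : e1 ≤ ε / (2 * (G' + 1)) := by rw [he1]; exact min_le_right _ _
    rw [le_div_iff₀ (by positivity)] at h1
    linarith
  obtain ⟨CQ, hCQ, HS⟩ := HS M0 T 1 e1 zero_le_one he10
  obtain ⟨Ma, hMa⟩ : ∃ Ma : ℕ, Ma = ⌈6 + |q| + |M0| + |T|⌉₊ := ⟨_, rfl⟩
  have hMa' : 6 + |q| + |M0| + |T| ≤ Ma := by rw [hMa]; exact Nat.le_ceil _
  have hMa1 : 1 ≤ Ma := by
    have h1 : (1:ℝ) ≤ Ma := by
      have := abs_nonneg q
      have := abs_nonneg M0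
      have := abs_nonneg T
      linarith
    exact_mod_cast h1
  refine ⟨⌈G'⌉₊ + 4, naR Ma, AF Ma n Kc CE, fun R dl a => pv (nAR Ma R) dl a,
    fun R a => ¬ a % (nAR Ma R + 1) < nAR Ma R, CP, by unfold CP; norm_num, naR_pos Ma,
    fun η hη => naR_le Ma hMa1 hη, fun R dl a hdl hdl1 => ⟨pv_ge hdl hdl1 a, pv_le dl a⟩, ?_, ?_⟩
  · intro h g R D Cn M hSt L dl r' hL hdl hdl1 hr hrL
    have hr1 : 1 ≤ r' := (Real.one_le_rpow hSt.R1 (by norm_num)).trans hr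
    exact ⟨fun z b m y => AF_lt Ma n Kc CE h g R dl L hr1 (hrL.trans hL.hi) z b m y,
      fun z b m => AF_meas Ma n Kc CE hSt hL r' z b m⟩
  refine ⟨⌈13 + |q| + |M0| + |T| + 4 * 1⌉₊, fun M hM Cn hCn => ?_⟩
  have hM' : 13 + |q| + |M0| + |T| + 4 * 1 ≤ (M : ℝ) := by
    refine (Nat.le_ceil _).trans ?_
    exact_mod_cast hM
  have hCn0 : 0 ≤ Cn := by linarith
  obtain ⟨C', hC', HS⟩ := HS Cn hCn0
  obtain ⟨CT, hCT, HT⟩ := Tiny480.tiny_lv B q hA n M0 T 1 Cn CE zero_le_one hCn0 hCE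
  set C : ℝ := 1 + d0⁻¹ + A + 4 + 32 * Cn * CQ * Cn ^ G' + C' * Cn + 8 * CT * Cn with hC
  have b1 : 0 < d0⁻¹ := by positivity
  have b2 : 0 ≤ 32 * Cn * CQ * Cn ^ G' := by positivity
  have b3 : 0 ≤ C' * Cn := by positivity
  have b4 : 0 ≤ 8 * CT * Cn := by positivity
  have hC1 : 1 ≤ C := by rw [hC]; linarith
  have hCd : d0⁻¹ ≤ C := by rw [hC]; linarith
  have hCA : A ≤ C := by rw [hC]; linarith
  have hC4 : 4 ≤ C := by rw [hC]; linarith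
  have hCm : 32 * Cn * CQ * Cn ^ G' ≤ C := by rw [hC]; linarith
  have hCr : C' * Cn ≤ C := by rw [hC]; linarith
  have hCt : 8 * CT * Cn ≤ C := by rw [hC]; linarith
  clear_value C
  refine ⟨C, hC1, ?_, ?_⟩
  · -- tiny labels
    intro h g R D hSt dl hdl hdl1 L L' hL hL' HN h36 hAr ν hν hνR hLe hLe' k hk htn
    obtain ⟨cls1, H1⟩ := lvd hL
    obtain ⟨cls2, H2⟩ := lvd hL'
    have hR : 1 ≤ R := hSt.R1
    have hR0 : 0 < R := by linarith
    have hEn : 0 ≤ En g := integral_nonneg fun ξ => by positivity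
    have hSS : 0 ≤ SS g R D := hSt.ss
    have hσ : (1/2 : ℝ) + 3 * L.r ^ (-(1/2) : ℝ) ≤ 2 := sig_le (le_trans (by norm_num) h36)
    have key := HT Na M hM' h g R D (1/2) hSt L.r L'.r hL'.lo hAr hL.hi hσ L.nb M L.Z cls1
      (Finset.range L.n) L.s L.cl L.G L.D L.rest L.I L.P le_rfl H1
      (by rw [Finset.card_range, Real.rpow_one]; exact (hLe.1.trans hνR).trans (le_mul_of_one_le_left hR0.le hCn))
      (by rw [Real.rpow_one]; exact hLe.2.trans hνR) Cn L'.nb M L'.Z cls2 (Finset.range L'.n) L'.s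
      L'.cl L'.G L'.D L'.rest L'.I L'.P hCn0 H2 L.ζ
      (fun z hz => hL.near z (hL'.Zmem z hz)) k (Finset.mem_range.2 hk) (L'.par k)
      (Finset.mem_range.2 (HN.par_lt k hk))
      (fun z hz i hi κ hκ => hmax_of HN hz hk hi
        (fun m => ((H2.out z hz).pl k (Finset.mem_range.2 hk)).1.meas i hi m) hκ)
      (fun z hz i hi m hm y hy => by
        obtain ⟨p1, p2, p3⟩ := pts HE hSt hL hL' HN hz hk hi hy
        refine (cls_tiny (mul_nonneg hCE hEn) p1 htn p2).trans ?_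
        have h1 := Tiny480.div_pow_le (CT := CE) (E := En g) (R := R)
          (K0 := 6 + |q| + |M0| + |T|) (nA := nAR Ma R) hR (mul_nonneg hCE hEn) (by
            unfold nAR
            push_cast
            have h2 : Real.logb 2 R ≤ ⌈Real.logb 2 R⌉₊ := Nat.le_ceil _
            have h3 : 0 ≤ Real.logb 2 R := Real.logb_nonneg (by norm_num) hR
            gcongr)
        refine le_trans ?_ h1
        rw [ENNReal.ofReal_div_of_pos (by positivity), ENNReal.ofReal_pow (by norm_num),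
          ENNReal.ofReal_ofNat])
    refine key.trans (ENNReal.ofReal_le_ofReal ?_)
    have c0 := tiny_real2 (G' := G') hCn hν (Nat.cast_nonneg L.n) hLe.1 hCT
      (mul_nonneg (Real.rpow_nonneg hR0.le (-T)) hSS) hCt (sqrt_le' hCn hν hLe'.2)
    rw [Finset.card_range]
    refine c0.trans (le_of_eq ?_)
    ring
  · -- the step
    intro h g R D hSt dl hdl hCdl hdlR L0 L1 L2 hL0 hL1 hL2 HN1 HN2 hr1 hr2 hdG ν hν hνR hLe0 hLe1
      hLe2 k hk hnt2 hnt1 δ hδ hg2 hg1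
    rw [not_not] at hnt1 hnt2
    obtain ⟨cls1, H1⟩ := lvd hL1
    obtain ⟨cls2, H2⟩ := lvd hL2
    have hR : 1 ≤ R := hSt.R1
    have hR0 : 0 < R := by linarith
    have hEn : 0 ≤ En g := integral_nonneg fun ξ => by positivity
    have hSS : 0 ≤ SS g R D := hSt.ss
    have hπ := HN2.par_lt k hk
    have hdli : C ≤ dl⁻¹ := by
      rw [← one_div, le_div_iff₀ hdl]; exact hCdl
    have hdl1 : dl ≤ 1 := (le_mul_of_one_le_left hdl.le hC1).trans hCdl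
    have hdld0 : dl ≤ d0 := by
      have := hCd.trans hdli
      rwa [inv_le_inv₀ hd0 hdl] at this
    have hdlA : A * dl ≤ 1 := (mul_le_mul_of_nonneg_right hCA hdl.le).trans hCdl
    have hdl4 : 4 * dl ≤ 1 := (mul_le_mul_of_nonneg_right hC4 hdl.le).trans hCdl
    have hr0p : 0 < L0.r := lt_of_lt_of_le (by positivity) hL0.lo
    have hr1p : 0 < L1.r := lt_of_lt_of_le (by positivity) hL1.lo
    have hr2p : 0 < L2.r := lt_of_lt_of_le (by positivity) hL2.lo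
    have hr11 : 1 ≤ L1.r := (Real.one_le_rpow hR (by norm_num)).trans hL1.lo
    have hr21 : 1 ≤ L2.r := (Real.one_le_rpow hR (by norm_num)).trans hL2.lo
    have hr14 : 4 ≤ L1.r := four_le hdl4 hr1p (by rw [← hr2]; exact hr21)
    have hAdr : A * (dl * L1.r) ≤ L1.r := A_le hdlA hr1p
    have hσ : (1/2 : ℝ) + 3 * L1.r ^ (-(1/2) : ℝ) ≤ 2 := sig_le hr14
    have hdG1 : dl ^ (-G) ≤ L1.r := by
      refine hdG.trans ?_
      rw [hr2]
      exact mul_le_of_le_one_left hr1p.le hdl1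
    have hGm : 1 ≤ dl ^ (-δ) := Real.one_le_rpow_of_pos_of_le_one_of_nonpos hdl hdl1 (by linarith)
    have hY : R ^ e1 ≤ dl ^ (-(1/4) : ℝ) := Y_le hR hdl hdlR he14
    have hY1 : 1 ≤ R ^ e1 := Real.one_le_rpow hR he10.le
    set nA := nAR Ma R with hnA
    set c1 := L1.ac (L2.par k) with hc1
    set c2 := L2.ac k with hc2
    have hpv1 : 1 ≤ pv nA dl c1 := pv_ge hdl hdl1 c1
    have hpv2 : 1 ≤ pv nA dl c2 := pv_ge hdl hdl1 c2
    have hpv2p : pv nA dl c2 ≤ p0 nA c2 := min_le_left _ _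
    have hpp0 : 0 ≤ 2 * pv nA dl c1 := mul_nonneg zero_le_two (zero_le_one.trans hpv1)
    have hpp1 : 1 ≤ 2 * pv nA dl c1 := hpv1.trans (le_mul_of_one_le_left
      (zero_le_one.trans hpv1) one_le_two)
    -- coherence of the parent class
    have hCoh : ∀ w ∈ L1.Z, Coh h (an L1.r) (an (dl * L1.r)) (dl ^ (1/2 : ℝ)) (R ^ e1) (2 * L1.r)
        (L1.I w (L2.par k)) (L1.P w (L2.par k)) (2 * pv nA dl c1) := by
      intro w hw
      have hpt : ∀ i ∈ L1.I w (L2.par k), ∀ m, ∀ y ∈ (L1.P w (L2.par k) i).S m, _ :=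
        fun i hi m y hy => pts HE hSt hL0 hL1 HN1 hw hπ hi hy
      by_cases hbig : p0 nA c1 ≤ CP * dl ^ (-(1/2) : ℝ)
      · rw [pv_eq hbig]
        have hζ := hL0.near w (hL1.Zmem w hw)
        have h1 := HC Kc le_rfl h hSt.par hSt.h1 L0.r dl (R ^ e1) (CE * En g) nA c1
          (tr h (L0.ζ w) g) (uS (L0.I (L0.ζ w) (L1.par (L2.par k)))
            (L0.P (L0.ζ w) (L1.par (L2.par k)))) (w - L0.ζ w) (L1.I w (L2.par k))
          (L1.P w (L2.par k)) (by rw [← hr1]; exact hr11) hdl hdl1 hY1 hY hζ.2.2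
          (mul_nonneg hCE hEn) hnt1 (fun m => by
            obtain ⟨cls0, hd0'⟩ := hL0.dec (L0.ζ w) hζ.1
            unfold uS
            exact Finset.measurableSet_biUnion _ fun i hi =>
              (hd0'.pl _ (Finset.mem_range.2 (HN1.par_lt _ hπ))).1.meas i hi m)
          (fun i hi m hm => by
            rw [← hr1] at hm
            exact emp_of_uS ((H1.out w hw).cp _ (Finset.mem_range.2 hπ) m hm) hi)
          (fun i hi m y hy => by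
            rw [← hr1]; exact (hpt i hi m y hy).2.1)
          (fun i hi m y hy => by
            rw [← hr1]; exact (hpt i hi m y hy).1)
        rwa [← hr1] at h1
      · -- the class is empty
        have hemp : ∀ i ∈ L1.I w (L2.par k), ∀ m, (L1.P w (L2.par k) i).S m = ∅ := by
          intro i hi m
          by_contra hne
          obtain ⟨y, hy⟩ := Set.nonempty_iff_ne_empty.2 hne
          obtain ⟨p1, p2, p3⟩ := hpt i hi m y hy
          exact hbig (p0_le hr1p hdl hdl1 (mul_nonneg hCE hEn) hKc p1 hnt1 p2 p3)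
        exact coh_empty hpp0 hemp
    -- the class of the children
    have hCls : GR639.ClsOk n Kc Kc (p0 nA c2) (2 * p0 nA c2) h g dl L1.r L1.ζ
        (fun w => L1.I w (L2.par k)) (fun w => L1.P w (L2.par k)) L2.Z (fun z => L2.I z k)
        (fun z => L2.P z k) := by
      refine ⟨A0 nA (CE * En g) c2, A0_nonneg (mul_nonneg hCE hEn) c2, ?_⟩
      intro z hz i hi m y hy
      obtain ⟨p1, p2, p3⟩ := pts HE hSt hL1 hL2 HN2 hz hk hi hy
      obtain ⟨a1, a2, a3, a4⟩ := cls_point (Real.rpow_pos_of_pos hr2p _).le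
        (Real.rpow_pos_of_pos (mul_pos hdl hr2p) _).le (mul_nonneg hCE hEn) hKc p1 hnt2 p2 p3
      rw [hr2] at a1 a2 a3 a4
      exact ⟨a1, a2.trans (ENNReal.ofReal_le_ofReal
        (two_eight (A0_nonneg (nA := nA) (mul_nonneg hCE hEn) c2))), a3, a4.le⟩
    have key := HS Na M hM' h g R D (1/2) hSt (by norm_num) L1.r dl (R ^ e1) (dl ^ (-δ))
      (by rw [← hr2]; exact hL2.lo) hAdr hL1.hi hr11 hσ hdl hdld0 hdG1 hGm le_rfl hY
      L1.nb M L1.Z cls1 (Finset.range L1.n) L1.s L1.cl L1.G L1.D L1.rest L1.I L1.P le_rfl H1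
      (by rw [Finset.card_range, Real.rpow_one]; exact (hLe1.1.trans hνR).trans (le_mul_of_one_le_left hR0.le hCn))
      (by rw [Real.rpow_one]; exact hLe1.2.trans hνR) Cn L2.nb M L2.Z cls2 (Finset.range L2.n)
      L2.s L2.cl L2.G L2.D L2.rest L2.I L2.P hCn0 (by rw [← hr2]; exact H2) L1.ζ
      (fun z hz => hL1.near z (hL2.Zmem z hz)) k (Finset.mem_range.2 hk) (L2.par k)
      (Finset.mem_range.2 hπ)
      (fun z hz i hi κ hκ => by
        rw [← hr2]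
        exact hmax_of HN2 hz hk hi
          (fun m => ((H2.out z hz).pl k (Finset.mem_range.2 hk)).1.meas i hi m) hκ)
      (p0 nA c2) (2 * pv nA dl c1) Kc (2 * p0 nA c2) (p0_ge c2) hpp1 hCoh hCls
      hg1.1 (by rw [← hr2]; exact hg2.1) hg1.2 (by rw [← hr2]; exact hg2.2)
    rw [← hr2] at key
    refine key.trans ?_
    rw [← mul_assoc, ← ENNReal.ofReal_mul (by positivity)]
    have hreal := step_real (Cn := Cn) (ν := ν) (nb1 := L1.nb) (nb2 := L2.nb)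
      (n1 := (Finset.range L1.n).card) (R := R) (r1 := L1.r) (CQ := CQ) (G := G) (G' := G')
      (e1 := e1) (ε := ε) (dl := dl) (δ := δ) (p := p0 nA c2) (pv1 := pv nA dl c1)
      (pv2 := pv nA dl c2) hCn hν hLe1.2 hLe2.2 (Nat.cast_nonneg _)
      (by rw [Finset.card_range]; exact hLe1.1) hR hr1p hL1.hi hCQ hG' he1G hε hdl
      (zero_lt_one.trans_le hpv1) (zero_lt_one.trans_le hpv2) hpv2p
    refine add_le_add (mul_le_mul' (ENNReal.ofReal_le_ofReal (hreal.trans ?_)) le_rfl)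
      (ENNReal.ofReal_le_ofReal ?_)
    · have hνp : 0 < ν := by linarith
      have : 0 ≤ (pv nA dl c1 / pv nA dl c2) ^ (1/2 : ℝ) + dl ^ (1/2 : ℝ) := by positivity
      gcongr
    · have c0 := tiny_real (G' := G') hCn hν hLe2.2 hC'
        (mul_nonneg (Real.rpow_nonneg hR0.le (-T)) hSS) hCr (sqrt_le' hCn hν hLe2.2)
      refine c0.trans (le_of_eq ?_)
      ring

end Crest.Agent.R138.Stp210
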