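import Crest.Agent.R138.Al2_878
import Crest.Agent.R138.Step1_654
import Crest.Agent.R138.Stp2_210
import Crest.Agent.R138.ExtB_628
import Crest.Agent.R138.Ex_685

/-!
# R138 / R139: the tower `EXT` from `MIS` (helper630)
-/

set_option autoImplicit false
set_option linter.unusedVariables false

namespace Crest.Agent.R138.FinE630

open Crest.Agent.R138

/-- the tower exists for all large `A`, modulo `MIS`. -/
theorem ext_of_mis (hKM : ∀ V : ℝ, Tub70.KM32 V) {B : ℕ → ℝ} (hB : B 2 ≤ 1 / 10) {q : ℝ}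
    (hq : 0 ≤ q) (hq4 : q ≤ 4) (HM : P654.MIS B q) :
    ∃ A0 : ℝ, ∀ A : ℝ, A0 ≤ A → Chn188.EXT B q A := by
  obtain ⟨A0, hD⟩ := Wpk685.decc_holds B hq
  refine ⟨max A0 1, fun A hA => ?_⟩
  have hD' := hD A ((le_max_left _ _).trans hA)
  have hS : P654.STEP B q := P654.step_of (Al878.al_of B hB hKM q hq hq4) HM
  exact ExtB628.ext_of (Ex685.ex1p hD') (Ex685.exp_holds hD')
    (Stp210.stepp ((le_max_right _ _).trans hA) hS)

end Crest.Agent.R138.FinE630
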