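import Crest.Agent.R138.Sh3_200

/-!
R138, outer shell (4): interpolation for a family `T R`, `R ≥ 1`, with `L²` norm `O(1)`,
`L^∞` norm `O(R)` and restricted `L³` norm `O(R^ε)`.
-/

set_option autoImplicit false

namespace Crest.Agent.R138.Sh200

open MeasureTheory Set
open scoped ENNReal NNReal

variable {α : Type*} [MeasurableSpace α]

theorem Op.linOp {μ : Measure α} {T : (α → ℂ) → (α → ℂ)} {A B : ℝ} (hT : Op μ T A B) :
    LinOp T := ⟨hT.add, hT.meas⟩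

theorem interp_family {μ : Measure α} [SFinite μ] (T : ℝ → (α → ℂ) → (α → ℂ)) {M A : ℝ}
    (hM : 0 ≤ M) (hA : 0 < A) (h2 : ∀ R : ℝ, 1 ≤ R → Strong μ (T R) 2 M)
    (h3 : ∀ ε : ℝ, 0 < ε → ∃ B : ℝ, 0 < B ∧ ∀ R : ℝ, 1 ≤ R → Op μ (T R) (A * R) (B * R ^ ε))
    {p : ℝ} (hp : 2 ≤ p) {ε : ℝ} (hε : 0 < ε) :
    ∃ C : ℝ, 0 < C ∧ ∀ R : ℝ, 1 ≤ R → Strong μ (T R) p (C * R ^ (max (p - 3) 0 + ε)) := by
  -- first `p > 3`
  have big : ∀ p : ℝ, 3 < p → ∀ ε : ℝ, 0 < ε → ∃ C : ℝ, 0 < C ∧ ∀ R : ℝ, 1 ≤ R →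
      Strong μ (T R) p (C * R ^ (p - 3 + ε)) := by
    intro p hp ε hε
    obtain ⟨B, hB, hBR⟩ := h3 ε hε
    have hcη : 0 < cη ((p - 3) / 4) := by
      unfold cη
      have hr1 : (2:ℝ) ^ (-((p - 3) / 4)) < 1 :=
        Real.rpow_lt_one_of_one_lt_of_neg (by norm_num) (by linarith)
      have : 0 < (1 - (2:ℝ) ^ (-((p - 3) / 4)))⁻¹ := inv_pos.mpr (by linarith)
      positivity
    have h1 : 0 < (p - 3) / 2 := by linarith
    have h2' : 0 < p := by linarith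
    refine ⟨(8 * p * cη ((p - 3) / 4) * 2 ^ (p - 3) / ((p - 3) / 2)) * B * A ^ (p - 3),
      by positivity, fun R hR => ?_⟩
    have hR0 : 0 < R := by linarith
    have := (hBR R hR).strong_gt (mul_pos hA hR0) (by positivity) hp
    refine this.mono (le_of_eq ?_)
    rw [Real.mul_rpow hA.le hR0.le, Real.rpow_add hR0]
    ring
  rcases eq_or_lt_of_le hp with h0 | h0
  · subst h0
    refine ⟨M + 1, by linarith, fun R hR => (h2 R hR).mono ?_⟩
    have : 1 ≤ R ^ (max ((2:ℝ) - 3) 0 + ε) := Real.one_le_rpow hR (by positivity)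
    nlinarith
  by_cases h3p : 3 < p
  · obtain ⟨C, hC, h⟩ := big p h3p ε hε
    refine ⟨C, hC, fun R hR => ?_⟩
    rw [max_eq_left (by linarith)]
    exact h R hR
  · push Not at h3p
    obtain ⟨C, hC, h⟩ := big (3 + ε / 2) (by linarith) (ε / 2) (by linarith)
    have hpa : 0 < p - 2 := by linarith
    have hbp : 0 < 3 + ε / 2 - p := by linarith
    refine ⟨p * (2 ^ (2:ℝ) * M / (p - 2) + 2 ^ (3 + ε / 2) * C / (3 + ε / 2 - p)), by positivity,
      fun R hR => ?_⟩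
    have hR0 : 0 < R := by linarith
    obtain ⟨B, hB, hBR⟩ := h3 1 one_pos
    have := marc_mid (hBR R hR).linOp two_pos h0 (by linarith : p < 3 + ε / 2) hM (by positivity)
      (h2 R hR) (h R hR)
    refine this.mono ?_
    rw [max_eq_right (by linarith), zero_add]
    have e1 : 3 + ε / 2 - 3 + ε / 2 = ε := by ring
    rw [e1]
    have hRε : 1 ≤ R ^ ε := Real.one_le_rpow hR hε.le
    have hp0 : 0 < p := by linarith
    rw [mul_assoc]
    refine mul_le_mul_of_nonneg_left ?_ hp0.le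
    rw [add_mul]
    refine add_le_add ?_ (le_of_eq ?_)
    · have : 0 ≤ 2 ^ (2:ℝ) * M / (p - 2) := by positivity
      nlinarith
    · ring

end Crest.Agent.R138.Sh200
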