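import Crest.Agent.R138.Sh6_200
import Crest.Agent.R138.Sh4_200

/-!
R138, outer shell (7): `cv (KR φ R)` as an operator: Schwartz functions, `L²` bound, `Op`.
-/

set_option autoImplicit false

open MeasureTheory FourierTransform LineDeriv Set
open scoped ContDiff Real SchwartzMap ENNReal Convolution

namespace Crest.Agent.R138.Sh200

open Fr665 (cv)

theorem conv_eq {φ : ℝ → ℝ} (hφ : ContDiff ℝ ∞ φ) (hφ' : HasCompactSupport φ) {R : ℝ}
    (hR : 1 ≤ R) (g : 𝓢(V, ℂ)) (x : V) :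
    SchwartzMap.convolution (ContinuousLinearMap.mul ℂ ℂ) (kS hφ hφ' hR) g x
      = cv (KR φ R) g x := by
  rw [SchwartzMap.convolution_apply, convolution_eq_swap]
  unfold Fr665.cv
  rw [← kS_coe hφ hφ' hR]
  rfl

theorem cv_schwartz {φ : ℝ → ℝ} (hφ : ContDiff ℝ ∞ φ) (hφ' : HasCompactSupport φ) {R : ℝ}
    (hR : 1 ≤ R) (g : 𝓢(V, ℂ)) (x : V) :
    cv (KR φ R) g x = 𝓕⁻ (fun ξ => mR φ R ξ * 𝓕 (g : V → ℂ) ξ) x := by
  rw [← conv_eq hφ hφ' hR]
  have h1 : SchwartzMap.convolution (ContinuousLinearMap.mul ℂ ℂ) (kS hφ hφ' hR) g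
      = 𝓕⁻ (SchwartzMap.pairing (ContinuousLinearMap.mul ℂ ℂ) (mS hφ hφ' hR) (𝓕 g)) := by
    have h0 : 𝓕 (kS hφ hφ' hR) = mS hφ hφ' hR := by
      unfold kS
      exact FourierTransform.fourier_fourierInv_eq _
    rw [← h0]
    rfl
  rw [h1, SchwartzMap.fourierInv_coe]
  rfl

theorem l2_schwartz {φ : ℝ → ℝ} (hφ : ContDiff ℝ ∞ φ) (hφ' : HasCompactSupport φ) {C : ℝ}
    (hC : ∀ t, |φ t| ≤ C) {R : ℝ} (hR : 1 ≤ R) (g : 𝓢(V, ℂ)) :
    ∫⁻ x, ENNReal.ofReal (‖cv (KR φ R) g x‖ ^ 2)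
      ≤ ENNReal.ofReal (C ^ 2) * ∫⁻ x, ENNReal.ofReal (‖g x‖ ^ 2) := by
  have hC0 : 0 ≤ C := (abs_nonneg _).trans (hC 0)
  set P := SchwartzMap.pairing (ContinuousLinearMap.mul ℂ ℂ) (mS hφ hφ' hR) (𝓕 g) with hP
  have h1 : ∀ x, cv (KR φ R) g x = (𝓕⁻ P) x := by
    intro x
    rw [cv_schwartz hφ hφ' hR, SchwartzMap.fourierInv_coe]
    rfl
  simp_rw [h1]
  rw [lint_sq_fourierInv]
  have h2 : ∫⁻ x, ENNReal.ofReal (‖(𝓕 g) x‖ ^ 2) = ∫⁻ x, ENNReal.ofReal (‖g x‖ ^ 2) := by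
    rw [← lint_sq_fourierInv, FourierTransform.fourierInv_fourier_eq]
  rw [← h2, ← lintegral_const_mul' _ _ ENNReal.ofReal_ne_top]
  refine lintegral_mono fun x => ?_
  rw [← ENNReal.ofReal_mul (by positivity)]
  apply ENNReal.ofReal_le_ofReal
  have h3 : P x = mR φ R x * (𝓕 g) x := rfl
  rw [h3, norm_mul, mul_pow]
  gcongr
  unfold mR
  rw [Complex.norm_real]
  exact hC _

theorem integrable_KR {φ : ℝ → ℝ} (hφ : ContDiff ℝ ∞ φ) (hφ' : HasCompactSupport φ) {R : ℝ}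
    (hR : 1 ≤ R) : Integrable (KR φ R) := by
  rw [← kS_coe hφ hφ' hR]
  exact (kS hφ hφ' hR).integrable

theorem continuous_KR {φ : ℝ → ℝ} (hφ : ContDiff ℝ ∞ φ) (hφ' : HasCompactSupport φ) {R : ℝ}
    (hR : 1 ≤ R) : Continuous (KR φ R) := by
  rw [← kS_coe hφ hφ' hR]
  exact (kS hφ hφ' hR).continuous

theorem integrable_cv {K : V → ℂ} (hK : Integrable K) {f : V → ℂ} (hf : BM f) (x : V) :
    Integrable (fun y => K (x - y) * f y) := by
  obtain ⟨C, hC⟩ := hf.bdd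
  have h1 : Integrable (fun y => K (x - y)) := hK.comp_sub_left x
  exact h1.mul_bdd (c := C) hf.meas.aestronglyMeasurable (Filter.Eventually.of_forall hC)

theorem cv_add {K : V → ℂ} (hK : Integrable K) {f g : V → ℂ} (hf : BM f) (hg : BM g) (x : V) :
    cv K (f + g) x = cv K f x + cv K g x := by
  unfold Fr665.cv
  rw [← integral_add (integrable_cv hK hf x) (integrable_cv hK hg x)]
  congr 1
  funext y
  simp [mul_add]

theorem cv_smul (K : V → ℂ) (c : ℂ) (f : V → ℂ) (x : V) :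
    cv K (c • f) x = c * cv K f x := by
  unfold Fr665.cv
  rw [← integral_const_mul]
  congr 1
  funext y
  simp only [Pi.smul_apply, smul_eq_mul]
  ring

theorem measurable_cv {K : V → ℂ} (hK : Measurable K) {f : V → ℂ} (hf : Measurable f) :
    Measurable (cv K f) := by
  unfold Fr665.cv
  have h1 : StronglyMeasurable (fun p : V × V => K (p.1 - p.2) * f p.2) := by
    apply Measurable.stronglyMeasurable
    fun_prop
  exact (StronglyMeasurable.integral_prod_right' h1).measurable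

theorem norm_cv_le {K : V → ℂ} (hK : Measurable K) {A : ℝ} (hA : ∫⁻ x, ‖K x‖ₑ ≤ ENNReal.ofReal A)
    (hA0 : 0 ≤ A) {f : V → ℂ} {C : ℝ} (hC : ∀ x, ‖f x‖ ≤ C) (x : V) : ‖cv K f x‖ ≤ A * C := by
  have hC0 : 0 ≤ C := (norm_nonneg _).trans (hC x)
  have h1 := (Fr665.enorm_cv_le K f x).trans (Fr665.acv_le_sup hK (M := ENNReal.ofReal C)
    (fun y => by rw [← ofReal_norm]; exact ENNReal.ofReal_le_ofReal (hC y)) x)
  have h2 : ‖cv K f x‖ₑ ≤ ENNReal.ofReal (A * C) := by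
    refine h1.trans ?_
    rw [ENNReal.ofReal_mul hA0]
    gcongr
  rw [← ofReal_norm] at h2
  exact (ENNReal.ofReal_le_ofReal_iff (by positivity)).mp h2

end Crest.Agent.R138.Sh200
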