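import Crest.Agent.R138.Loc_665
import Crest.Agent.R138.Sh7_200

/-!
R138: `(C3)` from the global sector estimate `(GlobSec)`: partition of unity near the sphere,
finitely many kernels, Young's inequality for bounded `R`.
-/

set_option autoImplicit false

open MeasureTheory FourierTransform Set
open scoped ContDiff ENNReal SchwartzMap

namespace Crest.Agent.R138.Gs789

open Crest.Agent.R138.Sh200 (V mR KR BM C3 contDiff_mR exists_supp mR_eq_zero hasCompactSupport_mR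
  mS mS_apply kS kS_coe kernel_L1 integrable_cv integrable_KR continuous_KR)
open Crest.Agent.R138.Fr665 (cv)
open Crest.Agent.R138.Fq665 (PR up exists_up_eq)

/-- A smooth partition of unity near the unit sphere, subordinate to small balls. -/
theorem exists_pou (ρ : ℝ) (hρ : 0 < ρ) (hρ1 : ρ ≤ 1 / 8) :
    ∃ (n : ℕ) (J : Fin n → PR ≃ₗᵢ[ℝ] V) (a : Fin n → V → ℂ),
      (∀ i, ContDiff ℝ ∞ (a i)) ∧ (∀ i v, a i v ≠ 0 → ‖v - up (J i) 0 1‖ ≤ ρ / 2) ∧
      ∀ v : V, |1 - ‖v‖| ≤ ρ / 8 → ∑ i, a i v = 1 := by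
  obtain ⟨t, hts, htf, htc⟩ := (isCompact_sphere (0 : V) 1).finite_cover_balls
    (show (0 : ℝ) < ρ / 8 by positivity)
  obtain ⟨n, w, hw⟩ := htf.fin_embedding
  have hw1 : ∀ i, ‖w i‖ = 1 := by
    intro i
    have h1 : w i ∈ t := by rw [← hw]; exact mem_range_self i
    simpa using hts h1
  choose J hJ using fun i => exists_up_eq (w i) (hw1 i)
  let β : ∀ i : Fin n, ContDiffBump (w i : V) := fun i =>
    ⟨ρ / 4, ρ / 2, by positivity, by linarith⟩
  refine ⟨n, J, fun i v => ((β i v * ∏ j ∈ Finset.univ.filter (· < i), (1 - β j v) : ℝ) : ℂ),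
    ?_, ?_, ?_⟩
  · intro i
    refine Complex.ofRealCLM.contDiff.comp ((β i).contDiff.mul ?_)
    exact contDiff_prod fun j _ => contDiff_const.sub (β j).contDiff
  · intro i v hv
    rw [hJ]
    by_contra hcon
    push Not at hcon
    apply hv
    have h2 : β i v = 0 := (β i).zero_of_le_dist (by
      rw [dist_eq_norm]; exact hcon.le)
    simp [h2]
  · intro v hv
    have hv0 : 0 < ‖v‖ := by
      have := (abs_le.1 hv).2
      linarith
    have h3 : ‖v‖⁻¹ • v ∈ Metric.sphere (0 : V) 1 := by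
      rw [mem_sphere_zero_iff_norm, norm_smul, norm_inv, norm_norm, inv_mul_cancel₀ hv0.ne']
    obtain ⟨x, hx, hxb⟩ := mem_iUnion₂.1 (htc h3)
    rw [← hw] at hx
    obtain ⟨i, rfl⟩ := hx
    rw [Metric.mem_ball, dist_eq_norm] at hxb
    have h4 : ‖v - ‖v‖⁻¹ • v‖ ≤ ρ / 8 := by
      have h5 : v - ‖v‖⁻¹ • v = (1 - ‖v‖⁻¹) • v := by rw [sub_smul, one_smul]
      rw [h5, norm_smul, Real.norm_eq_abs]
      calc |1 - ‖v‖⁻¹| * ‖v‖ = |(1 - ‖v‖⁻¹) * ‖v‖| := by rw [abs_mul, abs_of_pos hv0]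
        _ = |1 - ‖v‖| := by
          rw [sub_mul, inv_mul_cancel₀ hv0.ne', one_mul, abs_sub_comm]
        _ ≤ ρ / 8 := hv
    have h6 : ‖v - w i‖ ≤ ρ / 4 := by
      calc ‖v - w i‖ = ‖(v - ‖v‖⁻¹ • v) + (‖v‖⁻¹ • v - w i)‖ := by congr 1; abel
        _ ≤ ‖v - ‖v‖⁻¹ • v‖ + ‖‖v‖⁻¹ • v - w i‖ := norm_add_le _ _
        _ ≤ ρ / 4 := by linarith
    have h7 : β i v = 1 := (β i).one_of_mem_closedBall (by
      rw [Metric.mem_closedBall, dist_eq_norm]; exact h6)
    have h8 := Finset.prod_one_sub_ordered (Finset.univ : Finset (Fin n)) (fun i => β i v)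
    have h9 : ∏ i ∈ (Finset.univ : Finset (Fin n)), (1 - β i v) = 0 :=
      Finset.prod_eq_zero (Finset.mem_univ i) (by rw [h7, sub_self])
    rw [h9] at h8
    have h10 : ∑ i : Fin n, (β i v * ∏ j ∈ Finset.univ.filter (· < i), (1 - β j v)) = 1 := by
      linarith
    rw [← Complex.ofReal_sum, h10, Complex.ofReal_one]

/-- The sector multiplier as a Schwartz function. -/
theorem exists_schwartz {φ : ℝ → ℝ} (hφ : ContDiff ℝ ∞ φ) (hφ' : HasCompactSupport φ) {R : ℝ}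
    (hR : 1 ≤ R) {a : V → ℂ} (ha : ContDiff ℝ ∞ a) :
    ∃ S : 𝓢(V, ℂ), ∀ v, S v = a v * mR φ R v :=
  ⟨((hasCompactSupport_mR hφ' hR).mul_left (f := a)).toSchwartzMap
    (ha.mul (contDiff_mR hφ R)), fun _ => rfl⟩

theorem kernel_sum {φ : ℝ → ℝ} (hφ : ContDiff ℝ ∞ φ) (hφ' : HasCompactSupport φ) {R : ℝ}
    (hR : 1 ≤ R) {n : ℕ} (a : Fin n → V → ℂ) (ha : ∀ i, ContDiff ℝ ∞ (a i))
    (hsum : ∀ v, mR φ R v ≠ 0 → ∑ i, a i v = 1) :
    (∀ i, Integrable (𝓕⁻ (fun v => a i v * mR φ R v))) ∧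
    (∀ i, Continuous (𝓕⁻ (fun v => a i v * mR φ R v))) ∧
    ∀ x, KR φ R x = ∑ i, 𝓕⁻ (fun v => a i v * mR φ R v) x := by
  choose S hS using fun i => exists_schwartz hφ hφ' hR (ha i)
  have hS' : ∀ i, (fun v => a i v * mR φ R v) = (S i : V → ℂ) := fun i =>
    funext fun v => (hS i v).symm
  have h1 : ∀ i, 𝓕⁻ (fun v => a i v * mR φ R v) = (𝓕⁻ (S i) : 𝓢(V, ℂ)) := by
    intro i
    rw [hS', SchwartzMap.fourierInv_coe]
  have h2 : mS hφ hφ' hR = ∑ i, S i := by
    ext v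
    rw [mS_apply, sum_apply]
    simp only [hS]
    rw [← Finset.sum_mul]
    by_cases hv : mR φ R v = 0
    · rw [hv, mul_zero]
    · rw [hsum v hv, one_mul]
  refine ⟨fun i => ?_, fun i => ?_, fun x => ?_⟩
  · rw [h1]; exact (𝓕⁻ (S i)).integrable
  · rw [h1]; exact (𝓕⁻ (S i)).continuous
  · simp only [h1]
    rw [← kS_coe hφ hφ' hR]
    unfold Sh200.kS
    rw [h2]
    have h3 : 𝓕⁻ (∑ i, S i) = ∑ i, 𝓕⁻ (S i) :=
      map_sum (FourierTransform.fourierInvCLM ℂ 𝓢(V, ℂ)) S Finset.univ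
    rw [h3, sum_apply]

theorem cv_sum {n : ℕ} {K : Fin n → V → ℂ} (hK : ∀ i, Integrable (K i)) {f : V → ℂ} (hf : BM f)
    (x : V) : cv (fun y => ∑ i, K i y) f x = ∑ i, cv (K i) f x := by
  unfold Fr665.cv
  rw [← integral_finsetSum _ fun i _ => integrable_cv (hK i) hf x]
  congr 1
  funext y
  rw [Finset.sum_mul]

/-- **`(C3)` from `(GlobSec)`.** -/
theorem C3_of_GlobSec (H : Defs.GlobSec) : Sh200.C3 := by
  obtain ⟨ρ, hρ, hρ8, H⟩ := H
  intro φ hφ hφ' ε hε
  obtain ⟨n, J, a, ha, has, hasum⟩ := exists_pou ρ hρ hρ8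
  obtain ⟨M, hM0, hM⟩ := exists_supp hφ'
  obtain ⟨A, hA0, hA⟩ := kernel_L1 hφ hφ'
  choose C hC0 hC using fun i => H (J i) (a i) (ha i) (has i) φ hφ hφ' ε hε
  set R1 : ℝ := 8 * M / ρ with hR1
  have hR10 : 0 < R1 := by positivity
  refine ⟨(n : ℝ) ^ 2 * ∑ i, C i + (A * R1) ^ 3, fun R hR Ω hΩ hΩf f hf hfΩ => ?_⟩
  have hRpos : 0 < R := by linarith
  have hRe : 1 ≤ R ^ ε := Real.one_le_rpow hR hε.le
  have hf1 : ∀ x, ‖f x‖ ≤ 1 := fun x => (hfΩ x).trans (by
    by_cases hx : x ∈ Ω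
    · rw [indicator_of_mem hx]
    · rw [indicator_of_notMem hx]; norm_num)
  have hBM : BM f := ⟨hf, 1, hf1⟩
  have hsC : 0 ≤ ∑ i, C i := Finset.sum_nonneg fun i _ => hC0 i
  have hlhs : ∫⁻ x, ENNReal.ofReal (‖cv (KR φ R) f x‖ ^ (3:ℝ)) =
      ∫⁻ x, ‖cv (KR φ R) f x‖ₑ ^ (3:ℝ) := by
    refine lintegral_congr fun x => ?_
    rw [← ENNReal.ofReal_rpow_of_nonneg (norm_nonneg _) (by norm_num), ofReal_norm]
  rw [hlhs]
  rcases le_or_gt R1 R with hRR | hRR
  · -- large `R`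
    have hsum : ∀ v, mR φ R v ≠ 0 → ∑ i, a i v = 1 := by
      intro v hv
      apply hasum
      by_contra hcon
      push Not at hcon
      apply hv
      apply mR_eq_zero hM
      rw [abs_mul, abs_of_pos hRpos]
      have h1 : |1 - ‖v‖| ≤ |1 - ‖v‖ ^ 2| := by
        have h2 : 1 - ‖v‖ ^ 2 = (1 - ‖v‖) * (1 + ‖v‖) := by ring
        rw [h2, abs_mul]
        have h3 : 1 ≤ |1 + ‖v‖| := by
          rw [abs_of_nonneg (by positivity)]; linarith [norm_nonneg v]
        nlinarith [abs_nonneg (1 - ‖v‖)]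
      calc M = R1 * (ρ / 8) := by rw [hR1]; field_simp
        _ ≤ R * (ρ / 8) := by gcongr
        _ < R * |1 - ‖v‖ ^ 2| := by
          apply mul_lt_mul_of_pos_left _ hRpos
          exact lt_of_lt_of_le hcon h1
    obtain ⟨hKi, hKc, hKs⟩ := kernel_sum hφ hφ' hR a ha hsum
    have hcvs : ∀ x, cv (KR φ R) f x = ∑ i, cv (𝓕⁻ (fun v => a i v * mR φ R v)) f x := by
      intro x
      rw [← cv_sum hKi hBM]
      congr 1
      exact funext hKs
    calc ∫⁻ x, ‖cv (KR φ R) f x‖ₑ ^ (3:ℝ)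
        ≤ ∫⁻ x, (n : ℝ≥0∞) ^ (2:ℝ) *
            ∑ i, ‖cv (𝓕⁻ (fun v => a i v * mR φ R v)) f x‖ₑ ^ (3:ℝ) := by
          refine lintegral_mono fun x => ?_
          rw [hcvs]
          have h4 := ENNReal.rpow_sum_le_const_mul_sum_rpow (Finset.univ : Finset (Fin n))
            (fun i => ‖cv (𝓕⁻ (fun v => a i v * mR φ R v)) f x‖ₑ) (p := 3) (by norm_num)
          rw [Finset.card_univ, Fintype.card_fin] at h4
          norm_num at h4 ⊢
          refine le_trans ?_ h4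
          gcongr
          exact enorm_sum_le _ _
      _ = (n : ℝ≥0∞) ^ (2:ℝ) *
            ∑ i, ∫⁻ x, ‖cv (𝓕⁻ (fun v => a i v * mR φ R v)) f x‖ₑ ^ (3:ℝ) := by
          rw [lintegral_const_mul', lintegral_finsetSum]
          · intro i _
            have := Sh200.measurable_cv (hKc i).measurable hf
            exact this.enorm.pow_const _
          · exact ENNReal.rpow_ne_top_of_nonneg (by norm_num) (ENNReal.natCast_ne_top n)
      _ ≤ (n : ℝ≥0∞) ^ (2:ℝ) * ∑ i, ENNReal.ofReal (C i * R ^ ε) * volume Ω := by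
          gcongr with i
          have h5 := hC i R hR Ω hΩ hΩf f hf hfΩ
          refine le_trans (le_of_eq ?_) h5
          refine lintegral_congr fun x => ?_
          rw [← ENNReal.rpow_natCast]
          norm_num
      _ = ENNReal.ofReal ((n : ℝ) ^ 2 * ∑ i, C i * R ^ ε) * volume Ω := by
          rw [← Finset.sum_mul, ← ENNReal.ofReal_sum_of_nonneg
            (fun i _ => mul_nonneg (hC0 i) (by positivity)), ← mul_assoc,
            ENNReal.ofReal_mul (by positivity)]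
          congr 2
          rw [ENNReal.ofReal_pow (by positivity), ENNReal.ofReal_natCast,
            show (2:ℝ) = ((2:ℕ) : ℝ) by norm_num, ENNReal.rpow_natCast]
      _ ≤ _ := by
          have h8 : (n : ℝ) ^ 2 * ∑ i, C i * R ^ ε ≤
              ((n : ℝ) ^ 2 * ∑ i, C i + (A * R1) ^ 3) * R ^ ε := by
            rw [← Finset.sum_mul, add_mul, ← mul_assoc]
            have : 0 ≤ (A * R1) ^ 3 * R ^ ε := by positivity
            linarith
          exact mul_le_mul_left (ENNReal.ofReal_le_ofReal h8) _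
  · -- small `R`
    calc ∫⁻ x, ‖cv (KR φ R) f x‖ₑ ^ (3:ℝ)
        ≤ (∫⁻ y, ‖KR φ R y‖ₑ) ^ (3:ℝ) * ∫⁻ y, ‖f y‖ₑ ^ (3:ℝ) :=
          Fr665.lint_cv_rpow (continuous_KR hφ hφ' hR).measurable hf (by norm_num)
      _ ≤ (ENNReal.ofReal (A * R1)) ^ (3:ℝ) * volume Ω := by
          gcongr
          · exact (hA R hR).trans (ENNReal.ofReal_le_ofReal (by gcongr))
          · calc ∫⁻ y, ‖f y‖ₑ ^ (3:ℝ) ≤ ∫⁻ y, Ω.indicator (fun _ => (1:ℝ≥0∞)) y := by
                  refine lintegral_mono fun y => ?_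
                  have h6 := hfΩ y
                  by_cases hy : y ∈ Ω
                  · rw [indicator_of_mem hy] at h6 ⊢
                    have h7 : ‖f y‖ₑ ≤ 1 := by
                      rw [← ofReal_norm, ← ENNReal.ofReal_one]
                      exact ENNReal.ofReal_le_ofReal h6
                    exact (ENNReal.rpow_le_rpow h7 (by norm_num)).trans (by simp)
                  · rw [indicator_of_notMem hy] at h6 ⊢
                    have h7 : f y = 0 := norm_le_zero_iff.1 h6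
                    rw [h7]; simp
              _ = volume Ω := by rw [lintegral_indicator hΩ]; simp
      _ = ENNReal.ofReal ((A * R1) ^ 3) * volume Ω := by
          rw [ENNReal.ofReal_rpow_of_nonneg (by positivity) (by norm_num)]
          norm_num
      _ ≤ _ := by
          gcongr
          calc (A * R1) ^ 3 = (A * R1) ^ 3 * 1 := by ring
            _ ≤ (A * R1) ^ 3 * R ^ ε := by gcongr
            _ ≤ _ := by
              gcongr
              have : 0 ≤ (n : ℝ) ^ 2 * ∑ i, C i := by positivity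
              linarith

end Crest.Agent.R138.Gs789
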