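import Crest.Agent.R138.Sh10_200

/-!
R138, outer shell (11): dyadic decomposition of `(1 - |ξ|²)_+^δ` and the outer shell theorem.
-/

set_option autoImplicit false

open MeasureTheory FourierTransform LineDeriv Set Filter
open scoped ContDiff Real SchwartzMap ENNReal Convolution Topology ComplexConjugate

namespace Crest.Agent.R138.Sh200

open Fr665 (cv)

/-- cut-off: `1` for `t ≤ 1`, `0` for `t ≥ 2`. -/
noncomputable def bet (t : ℝ) : ℝ := Real.smoothTransition (2 - t)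

theorem bet_one {t : ℝ} (h : t ≤ 1) : bet t = 1 :=
  Real.smoothTransition.one_of_one_le (by linarith)

theorem bet_zero {t : ℝ} (h : 2 ≤ t) : bet t = 0 :=
  Real.smoothTransition.zero_of_nonpos (by linarith)

theorem bet_nonneg (t : ℝ) : 0 ≤ bet t := Real.smoothTransition.nonneg _

theorem bet_le_one (t : ℝ) : bet t ≤ 1 := Real.smoothTransition.le_one _

theorem contDiff_bet : ContDiff ℝ ∞ bet :=
  (Real.smoothTransition.contDiff (n := ⊤)).comp (contDiff_const.sub contDiff_id)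

/-- the fixed bump. -/
noncomputable def phd (δ t : ℝ) : ℝ := (max t 0) ^ δ * (bet t - bet (2 * t))

theorem phd_zero_of_lt {δ t : ℝ} (h : t < 1 / 2) : phd δ t = 0 := by
  unfold phd
  rw [bet_one (by linarith), bet_one (by linarith), sub_self, mul_zero]

theorem phd_zero_of_gt {δ t : ℝ} (h : 2 ≤ t) : phd δ t = 0 := by
  unfold phd
  rw [bet_zero h, bet_zero (by linarith), sub_self, mul_zero]

theorem contDiff_phd (δ : ℝ) : ContDiff ℝ ∞ (phd δ) := by
  rw [contDiff_iff_contDiffAt]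
  intro t
  by_cases ht : t < 1 / 2
  · have h1 : phd δ =ᶠ[𝓝 t] fun _ => 0 := by
      filter_upwards [isOpen_Iio.mem_nhds (show t ∈ Iio (1 / 2 : ℝ) from ht)] with s hs
      exact phd_zero_of_lt hs
    exact contDiffAt_const.congr_of_eventuallyEq h1
  · have ht0 : 0 < t := by push Not at ht; linarith
    have h1 : phd δ =ᶠ[𝓝 t] fun s => s ^ δ * (bet s - bet (2 * s)) := by
      filter_upwards [isOpen_Ioi.mem_nhds (show t ∈ Ioi (0 : ℝ) from ht0)] with s hs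
      unfold phd
      rw [max_eq_left (le_of_lt hs)]
    refine ContDiffAt.congr_of_eventuallyEq ?_ h1
    have h2 : ContDiff ℝ ∞ fun s : ℝ => bet (2 * s) :=
      contDiff_bet.comp (contDiff_const.mul contDiff_id)
    exact (Real.contDiffAt_rpow_const_of_ne ht0.ne').mul
      (contDiff_bet.contDiffAt.sub h2.contDiffAt)

theorem hasCompactSupport_phd (δ : ℝ) : HasCompactSupport (phd δ) := by
  apply HasCompactSupport.of_support_subset_isCompact (isCompact_Icc (a := (1/2 : ℝ)) (b := 2))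
  intro t ht
  rw [mem_Icc]
  constructor
  · by_contra h
    exact ht (phd_zero_of_lt (not_le.mp h))
  · by_contra h
    exact ht (phd_zero_of_gt (not_le.mp h).le)

/-- telescoping. -/
theorem sum_phd {δ : ℝ} (N : ℕ) (t : ℝ) :
    ∑ k ∈ Finset.range N, (2:ℝ) ^ (-(k * δ)) * phd δ (2 ^ k * t)
      = (max t 0) ^ δ * (bet t - bet (2 ^ N * t)) := by
  induction N with
  | zero => simp
  | succ n ih =>
    rw [Finset.sum_range_succ, ih]
    have h1 : (2:ℝ) ^ (-(n * δ)) * phd δ (2 ^ n * t)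
        = (max t 0) ^ δ * (bet (2 ^ n * t) - bet (2 ^ (n + 1) * t)) := by
      unfold phd
      have e1 : max (2 ^ n * t) 0 = 2 ^ n * max t 0 := by
        rw [mul_max_of_nonneg _ _ (by positivity : (0:ℝ) ≤ 2 ^ n), mul_zero]
      have e2 : ((2:ℝ) ^ n * max t 0) ^ δ = (2:ℝ) ^ (n * δ) * (max t 0) ^ δ := by
        rw [Real.mul_rpow (by positivity) (le_max_right _ _), ← Real.rpow_natCast,
          ← Real.rpow_mul (by norm_num)]
      have e3 : (2:ℝ) ^ (-(n * δ)) * (2:ℝ) ^ (n * δ) = 1 := by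
        rw [← Real.rpow_add (by norm_num)]; simp
      have e4 : 2 * (2 ^ n * t) = 2 ^ (n + 1) * t := by ring
      rw [e1, e2, e4]
      calc (2:ℝ) ^ (-(n * δ)) * ((2:ℝ) ^ (n * δ) * (max t 0) ^ δ *
            (bet (2 ^ n * t) - bet (2 ^ (n + 1) * t)))
          = ((2:ℝ) ^ (-(n * δ)) * (2:ℝ) ^ (n * δ)) * ((max t 0) ^ δ *
            (bet (2 ^ n * t) - bet (2 ^ (n + 1) * t))) := by ring
        _ = _ := by rw [e3, one_mul]
    rw [h1]
    ring

theorem tendsto_sum_phd {δ : ℝ} (hδ : 0 < δ) {t : ℝ} (ht : t ≤ 1) :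
    Tendsto (fun N : ℕ => ∑ k ∈ Finset.range N, (2:ℝ) ^ (-(k * δ)) * phd δ (2 ^ k * t)) atTop
      (𝓝 ((max t 0) ^ δ)) := by
  simp_rw [sum_phd]
  rcases le_or_gt t 0 with h0 | h0
  · rw [max_eq_right h0, Real.zero_rpow hδ.ne']
    simp
  · have h1 : ∀ᶠ N : ℕ in atTop, (max t 0) ^ δ * (bet t - bet (2 ^ N * t)) = (max t 0) ^ δ := by
      have h2 : Tendsto (fun N : ℕ => (2:ℝ) ^ N * t) atTop atTop :=
        (tendsto_pow_atTop_atTop_of_one_lt (by norm_num)).atTop_mul_const h0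
      filter_upwards [h2.eventually_ge_atTop 2] with N hN
      rw [bet_zero hN, bet_one ht]
      ring
    exact tendsto_const_nhds.congr' (h1.mono fun N hN => hN.symm)

theorem sum_phd_bound {δ : ℝ} (hδ : 0 < δ) {t : ℝ} (ht : t ≤ 1) (N : ℕ) :
    |∑ k ∈ Finset.range N, (2:ℝ) ^ (-(k * δ)) * phd δ (2 ^ k * t)| ≤ 1 := by
  rw [sum_phd, bet_one ht]
  have h1 : 0 ≤ max t 0 := le_max_right _ _
  have h2 : max t 0 ≤ 1 := max_le ht zero_le_one
  have h3 : 0 ≤ (max t 0) ^ δ := Real.rpow_nonneg h1 _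
  have h4 : (max t 0) ^ δ ≤ 1 := Real.rpow_le_one h1 h2 hδ.le
  have h5 := bet_nonneg (2 ^ N * t)
  have h6 := bet_le_one (2 ^ N * t)
  rw [abs_of_nonneg (mul_nonneg h3 (by linarith))]
  nlinarith

/-- the partial sums of the Bochner–Riesz operator. -/
noncomputable def SN (δ : ℝ) (f : 𝓢(V, ℂ)) (N : ℕ) : V → ℂ :=
  ∑ k ∈ Finset.range N, (((2:ℝ) ^ (-(k * δ)) : ℝ) : ℂ) • cv (KR (phd δ) (2 ^ k)) f

theorem one_le_two_pow (k : ℕ) : (1:ℝ) ≤ 2 ^ k := one_le_pow₀ (by norm_num)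

theorem SN_apply (δ : ℝ) (f : 𝓢(V, ℂ)) (N : ℕ) (x : V) :
    SN δ f N x = 𝓕⁻ (fun ξ : V => ((∑ k ∈ Finset.range N, (2:ℝ) ^ (-(k * δ)) *
      phd δ (2 ^ k * (1 - ‖ξ‖ ^ 2)) : ℝ) : ℂ) * 𝓕 (f : V → ℂ) ξ) x := by
  unfold SN
  rw [Finset.sum_apply]
  set P : ℕ → 𝓢(V, ℂ) := fun k => (((2:ℝ) ^ (-(k * δ)) : ℝ) : ℂ) •
    SchwartzMap.pairing (ContinuousLinearMap.mul ℂ ℂ)
      (mS (contDiff_phd δ) (hasCompactSupport_phd δ) (one_le_two_pow k)) (𝓕 f) with hP
  have h1 : ∀ k ∈ Finset.range N,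
      ((((2:ℝ) ^ (-(k * δ)) : ℝ) : ℂ) • cv (KR (phd δ) (2 ^ k)) f) x = (𝓕⁻ (P k)) x := by
    intro k _
    rw [hP, FourierTransform.fourierInv_smul, smul_apply, Pi.smul_apply,
      cv_schwartz (contDiff_phd δ) (hasCompactSupport_phd δ) (one_le_two_pow k),
      SchwartzMap.fourierInv_coe]
    rfl
  rw [Finset.sum_congr rfl h1, ← sum_apply, ← FourierTransform.fourierInv_sum,
    SchwartzMap.fourierInv_coe]
  refine congrArg (fun g : V → ℂ => 𝓕⁻ g x) ?_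
  funext ξ
  rw [sum_apply]
  push_cast
  rw [Finset.sum_mul]
  refine Finset.sum_congr rfl fun k _ => ?_
  rw [hP, smul_apply]
  show ((((2:ℝ) ^ (-(k * δ)) : ℝ) : ℂ)) • (mR (phd δ) (2 ^ k) ξ * 𝓕 (f : V → ℂ) ξ) = _
  unfold mR
  rw [smul_eq_mul]
  ring

/-- pointwise convergence of the partial sums. -/
theorem tendsto_SN {δ : ℝ} (hδ : 0 < δ) (f : 𝓢(V, ℂ)) (x : V) :
    Tendsto (fun N => SN δ f N x) atTop
      (𝓝 (𝓕⁻ (fun ξ : V => ((max (1 - ‖ξ‖ ^ 2) 0) ^ δ : ℝ) • 𝓕 (f : V → ℂ) ξ) x)) := by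
  simp_rw [SN_apply]
  simp_rw [Real.fourierInv_eq]
  refine tendsto_integral_of_dominated_convergence (fun ξ => ‖𝓕 (f : V → ℂ) ξ‖) ?_ ?_ ?_ ?_
  · intro N
    apply Continuous.aestronglyMeasurable
    have h1 : Continuous fun ξ : V => 𝓕 (f : V → ℂ) ξ := by
      have := (𝓕 f).continuous
      exact this
    have h2 : Continuous fun ξ : V => (𝐞 (inner ℝ ξ x) : ℂ) := by
      have := Real.continuous_fourierChar
      fun_prop
    have h3 : Continuous fun ξ : V => ((∑ k ∈ Finset.range N, (2:ℝ) ^ (-(k * δ)) *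
        phd δ (2 ^ k * (1 - ‖ξ‖ ^ 2)) : ℝ) : ℂ) := by
      have := (contDiff_phd δ).continuous
      fun_prop
    exact h2.mul (h3.mul h1)
  · exact (𝓕 f).integrable.norm
  · intro N
    refine Filter.Eventually.of_forall fun ξ => ?_
    rw [Circle.norm_smul, norm_mul, Complex.norm_real, Real.norm_eq_abs]
    have := sum_phd_bound hδ (t := 1 - ‖ξ‖ ^ 2) (by nlinarith [sq_nonneg ‖ξ‖]) N
    calc _ ≤ 1 * ‖𝓕 (f : V → ℂ) ξ‖ := by gcongr
      _ = _ := one_mul _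
  · refine Filter.Eventually.of_forall fun ξ => ?_
    have h1 := tendsto_sum_phd hδ (t := 1 - ‖ξ‖ ^ 2) (by nlinarith [sq_nonneg ‖ξ‖])
    have h2 : Tendsto (fun N : ℕ => ((∑ k ∈ Finset.range N, (2:ℝ) ^ (-(k * δ)) *
        phd δ (2 ^ k * (1 - ‖ξ‖ ^ 2)) : ℝ) : ℂ)) atTop
        (𝓝 ((((max (1 - ‖ξ‖ ^ 2) 0) ^ δ : ℝ)) : ℂ)) :=
      (Complex.continuous_ofReal.tendsto _).comp h1
    have h3 := (h2.mul_const (𝓕 (f : V → ℂ) ξ)).const_smul (𝐞 (inner ℝ ξ x))
    rw [Complex.real_smul]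
    exact h3

/-- norm bound of the partial sums. -/
theorem SN_bound {δ : ℝ} {p : ℝ≥0∞} (hp : 1 ≤ p) (hδ : αp p < δ) (hS : Single (phd δ) p) :
    ∃ C : ℝ, 0 ≤ C ∧ ∀ (f : 𝓢(V, ℂ)) (N : ℕ),
      eLpNorm (SN δ f N) p volume ≤ ENNReal.ofReal C * eLpNorm f p volume := by
  set θ := (δ - αp p) / 2 with hθ
  have hθ0 : 0 < θ := by rw [hθ]; linarith
  obtain ⟨C, hC, hSC⟩ := hS θ hθ0
  have hr1 : (2:ℝ) ^ (-θ) < 1 := Real.rpow_lt_one_of_one_lt_of_neg (by norm_num) (by linarith)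
  have hr0 : 0 < (2:ℝ) ^ (-θ) := by positivity
  refine ⟨C * (1 - 2 ^ (-θ))⁻¹, mul_nonneg hC.le (inv_nonneg.mpr (by linarith)), fun f N => ?_⟩
  have hm : ∀ k : ℕ, AEStronglyMeasurable
      ((((2:ℝ) ^ (-(k * δ)) : ℝ) : ℂ) • cv (KR (phd δ) (2 ^ k)) f) volume := by
    intro k
    have hKm : Measurable (KR (phd δ) (2 ^ k)) :=
      (continuous_KR (contDiff_phd δ) (hasCompactSupport_phd δ) (one_le_two_pow k)).measurable
    exact ((measurable_cv hKm f.continuous.measurable).const_smul _).aestronglyMeasurable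
  have h1 : ∀ k : ℕ, eLpNorm ((((2:ℝ) ^ (-(k * δ)) : ℝ) : ℂ) • cv (KR (phd δ) (2 ^ k)) f) p volume
      ≤ ENNReal.ofReal (C * ((2:ℝ) ^ (-θ)) ^ k) * eLpNorm f p volume := by
    intro k
    rw [eLpNorm_const_smul]
    have h2 := hSC (2 ^ k) (one_le_two_pow k) f
    have h3 : ‖(((2:ℝ) ^ (-(k * δ)) : ℝ) : ℂ)‖ₑ = ENNReal.ofReal ((2:ℝ) ^ (-(k * δ))) := by
      rw [← ofReal_norm, Complex.norm_real, Real.norm_of_nonneg (by positivity)]
    rw [h3]
    calc ENNReal.ofReal ((2:ℝ) ^ (-(k * δ))) * eLpNorm (cv (KR (phd δ) (2 ^ k)) f) p volume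
        ≤ ENNReal.ofReal ((2:ℝ) ^ (-(k * δ))) *
          (ENNReal.ofReal (C * ((2:ℝ) ^ k) ^ (αp p + θ)) * eLpNorm f p volume) := by gcongr
      _ = _ := by
          rw [← mul_assoc, ← ENNReal.ofReal_mul (by positivity)]
          congr 2
          have e1 : ((2:ℝ) ^ k) ^ (αp p + θ) = (2:ℝ) ^ (k * (αp p + θ)) := by
            rw [← Real.rpow_natCast, ← Real.rpow_mul (by norm_num)]
          have e2 : ((2:ℝ) ^ (-θ)) ^ k = (2:ℝ) ^ (-θ * k) := by
            rw [← Real.rpow_natCast, ← Real.rpow_mul (by norm_num)]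
          have e3 : (2:ℝ) ^ (-(k * δ)) * (2:ℝ) ^ (k * (αp p + θ)) = (2:ℝ) ^ (-θ * k) := by
            rw [← Real.rpow_add (by norm_num)]
            congr 1
            rw [hθ]; ring
          rw [e1, e2, ← e3]; ring
  calc eLpNorm (SN δ f N) p volume
      ≤ ∑ k ∈ Finset.range N,
          eLpNorm ((((2:ℝ) ^ (-(k * δ)) : ℝ) : ℂ) • cv (KR (phd δ) (2 ^ k)) f) p volume :=
        eLpNorm_sum_le (fun k _ => hm k) hp
    _ ≤ ∑ k ∈ Finset.range N, ENNReal.ofReal (C * ((2:ℝ) ^ (-θ)) ^ k) * eLpNorm f p volume :=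
        Finset.sum_le_sum fun k _ => h1 k
    _ = ENNReal.ofReal (C * ∑ k ∈ Finset.range N, ((2:ℝ) ^ (-θ)) ^ k) * eLpNorm f p volume := by
        rw [← Finset.sum_mul, ← ENNReal.ofReal_sum_of_nonneg (fun i _ => by positivity),
          Finset.mul_sum]
    _ ≤ _ := by
        gcongr
        rw [geom_sum_eq hr1.ne, ← neg_sub, ← neg_sub (1:ℝ), neg_div_neg_eq, div_eq_mul_inv]
        have h4 : (1 - ((2:ℝ) ^ (-θ)) ^ N) ≤ 1 := by
          have := pow_pos hr0 N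
          linarith
        have h5 : 0 < (1 - (2:ℝ) ^ (-θ))⁻¹ := inv_pos.mpr (by linarith)
        nlinarith

/-- the outer shell: `(C3)` implies the Bochner–Riesz bound `S0189`. -/
theorem S0189_of_C3 (h3 : C3) (p : ℝ≥0∞) (hp : 1 ≤ p)
    (δ : ℝ) (hδ : max (3 * abs ((p⁻¹).toReal - 1 / 2) - 1 / 2) 0 < δ) :
    ∃ C : ℝ, ∀ f : SchwartzMap (EuclideanSpace ℝ (Fin 3)) ℂ,
      MeasureTheory.eLpNorm
          (𝓕⁻ (fun ξ : EuclideanSpace ℝ (Fin 3) => ((max (1 - ‖ξ‖ ^ 2) 0) ^ δ : ℝ) • 𝓕 (⇑f) ξ)) p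
          MeasureTheory.volume ≤
        ENNReal.ofReal C * MeasureTheory.eLpNorm (⇑f) p MeasureTheory.volume := by
  have hδ0 : 0 < δ := lt_of_le_of_lt (le_max_right _ _) hδ
  have hS := single_all h3 (contDiff_phd δ) (hasCompactSupport_phd δ) hp
  obtain ⟨C, hC0, hC⟩ := SN_bound hp hδ hS
  refine ⟨C, fun f => ?_⟩
  have hm : ∀ N, AEStronglyMeasurable (SN δ f N) volume := by
    intro N
    unfold SN
    apply Finset.aestronglyMeasurable_sum
    intro k _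
    have hKm : Measurable (KR (phd δ) (2 ^ k)) :=
      (continuous_KR (contDiff_phd δ) (hasCompactSupport_phd δ) (one_le_two_pow k)).measurable
    exact ((measurable_cv hKm f.continuous.measurable).const_smul _).aestronglyMeasurable
  have h1 := Lp.eLpNorm_lim_le_liminf_eLpNorm (μ := (volume : Measure V)) (p := p)
    (f := fun N => SN δ f N) hm _ (Filter.Eventually.of_forall (tendsto_SN hδ0 f))
  refine h1.trans ?_
  calc liminf (fun N => eLpNorm (SN δ f N) p volume) atTop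
      ≤ liminf (fun _ : ℕ => ENNReal.ofReal C * eLpNorm f p volume) atTop :=
        liminf_le_liminf (Filter.Eventually.of_forall fun N => hC f N)
    _ = _ := by rw [liminf_const]

end Crest.Agent.R138.Sh200
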