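import Crest.Agent.R138.Fs2_665
import Crest.Agent.R138.Gs1_789
import Crest.Agent.R138.Sh11_200

/-! S0189 from (EBn). -/

set_option autoImplicit false

open MeasureTheory FourierTransform
open scoped ENNReal ContDiff

namespace Crest.Agent.R138.Fq665

theorem C3_of_EBn (h : Defs.EBn) : Sh200.C3 :=
  Gs789.C3_of_GlobSec (GlobSec_of_LocSec (LocSec_of_EBn h))

theorem S0189_of_EBn (h : Defs.EBn) (p : ℝ≥0∞) (hp : 1 ≤ p)
    (δ : ℝ) (hδ : max (3 * abs ((p⁻¹).toReal - 1 / 2) - 1 / 2) 0 < δ) :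
    ∃ C : ℝ, ∀ f : SchwartzMap (EuclideanSpace ℝ (Fin 3)) ℂ,
      MeasureTheory.eLpNorm
          (𝓕⁻ (fun ξ : EuclideanSpace ℝ (Fin 3) => ((max (1 - ‖ξ‖ ^ 2) 0) ^ δ : ℝ) • 𝓕 (⇑f) ξ)) p
          MeasureTheory.volume ≤
        ENNReal.ofReal C * MeasureTheory.eLpNorm (⇑f) p MeasureTheory.volume :=
  Sh200.S0189_of_C3 (C3_of_EBn h) p hp δ hδ

end Crest.Agent.R138.Fq665
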