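import Crest.Agent.R138.Flg2_101
import Crest.Agent.R138.FM_501

/-!
# R138 (helper101): the literal configuration (`FM501.Cfg`) of one class

All incidences of `I` lie in one class of the natural box `nat4 i₀ j₀ t` over one flagged cell of
level `(i₀, j₀)`.  Fat lines = classes of `lab i₀ j₀ pr`, heights = flagged cells of level
`(i₁, j₁)`, incidences = the pairs met by `I`.  The affine rescaling is exact.
-/

set_option autoImplicit false
set_option linter.unusedVariables false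
set_option linter.unusedSectionVars false

open Finset

namespace Crest.Agent.R138.Flg101

open Inc Crest.Agent.R138.Ex926 Crest.Agent.R138.FM501

/-- natural box over a flagged cell of level `(i, j)`, lateral velocity level `t` -/
def nat4 (i j t : ℕ) : Fin 4 → ℕ := ![t + i + j, t + j, t, t + i]

theorem wall_nat4 (i j t r : ℕ) : Wall i j (fun k => nat4 i j t k + r) := by
  constructor <;> simp only [nat4, Matrix.cons_val_zero, Matrix.cons_val_one, Matrix.cons_val] <;>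
    omega

theorem card_image_le_mul {α β γ : Type*} [DecidableEq β] [DecidableEq γ] {A : Finset α}
    {f : α → β} {g : α → γ} {K : ℕ}
    (h : ∀ a ∈ A, ((A.filter fun b => f b = f a).image g).card ≤ K) :
    (A.image g).card ≤ K * (A.image f).card := by
  classical
  have hsub : A.image g ⊆ (A.image f).biUnion fun c => (A.filter fun b => f b = c).image g := by
    intro c hc
    obtain ⟨a, ha, rfl⟩ := mem_image.1 hc
    exact mem_biUnion.2 ⟨f a, mem_image_of_mem _ ha,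
      mem_image_of_mem _ (mem_filter.2 ⟨ha, rfl⟩)⟩
  refine (card_le_card hsub).trans (card_biUnion_le.trans ?_)
  rw [mul_comm]
  refine (sum_le_card_nsmul _ _ K fun c hc => ?_).trans (le_of_eq (by simp))
  obtain ⟨a, ha, rfl⟩ := mem_image.1 hc
  exact h a ha

/-- zoom data: incidences inside one natural class -/
structure ZD (ι : Type*) where
  I : Finset ι
  x : ι → Inc
  s₀ : ι
  i₀ : ℕ
  j₀ : ℕ
  t : ℕ
  i₁ : ℕ
  j₁ : ℕ
  pr : Fin 4 → ℕ
  ρ : ℝ

namespace ZD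

variable {ι : Type*} [DecidableEq ι] (D : ZD ι)

/-- code of the fat line of an incidence -/
noncomputable def lcode (w : Inc) : ℕ := Encodable.encode (w.lab D.i₀ D.j₀ D.pr)
/-- code of the flagged cell of an incidence -/
noncomputable def zcode (w : Inc) : ℕ := Encodable.encode (w.cell D.i₁ D.j₁)

open Classical in
/-- representative of a fat line -/
noncomputable def lrep (l : ℕ) : Inc :=
  if h : ∃ s ∈ D.I, D.lcode (D.x s) = l then D.x h.choose else D.x D.s₀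

open Classical in
/-- representative of a flagged cell -/
noncomputable def zrep (k : ℕ) : Inc :=
  if h : ∃ s ∈ D.I, D.zcode (D.x s) = k then D.x h.choose else D.x D.s₀

/-- corner height of the flagged cell `k` -/
noncomputable def zc (k : ℕ) : ℝ := (D.zrep k).zQ D.i₁
/-- corner slope of the flagged cell `k` -/
noncomputable def fc (k : ℕ) : ℝ := (D.zrep k).fQ D.j₁
/-- corner of the big cell -/
noncomputable def z0 : ℝ := (D.x D.s₀).zQ D.i₀
/-- corner slope of the big cell -/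
noncomputable def f0 : ℝ := (D.x D.s₀).fQ D.j₀

/-- the literal configuration -/
noncomputable def cfg : Cfg where
  ρ := D.ρ
  L := D.I.image fun s => D.lcode (D.x s)
  Z := D.I.image fun s => D.zcode (D.x s)
  I := D.I.image fun s => (D.lcode (D.x s), D.zcode (D.x s))
  a l := ((D.lrep l).X D.z0 - (D.x D.s₀).X D.z0) * 2 ^ (D.t + D.i₀) / 8
  b l := ((D.lrep l).N D.z0 D.f0 - (D.x D.s₀).N D.z0 D.f0) * 2 ^ (D.t + D.i₀ + D.j₀) / 8
  c l := ((D.lrep l).c - (D.x D.s₀).c) * 2 ^ D.t / 8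
  d l := ((D.lrep l).P D.f0 - (D.x D.s₀).P D.f0) * 2 ^ (D.t + D.j₀) / 8
  z k := (D.zc k - D.z0) * 2 ^ D.i₀
  f k := (D.fc k - D.f0) * 2 ^ D.j₀

/-- the standing hypotheses -/
structure Ok : Prop where
  mem : D.s₀ ∈ D.I
  cls : ∀ s ∈ D.I, (D.x s).lab D.i₀ D.j₀ (nat4 D.i₀ D.j₀ D.t) =
    (D.x D.s₀).lab D.i₀ D.j₀ (nat4 D.i₀ D.j₀ D.t)
  hi : D.i₀ ≤ D.i₁
  hj : D.j₀ ≤ D.j₁
  wall : Wall D.i₀ D.j₀ D.pr
  ρ0 : 0 < D.ρ

variable {D}

theorem lrep_spec {l : ℕ} (h : l ∈ D.cfg.L) : ∃ s ∈ D.I, D.lrep l = D.x s ∧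
    D.lcode (D.x s) = l := by
  classical
  have hex : ∃ s ∈ D.I, D.lcode (D.x s) = l := by
    simpa [cfg] using h
  refine ⟨hex.choose, hex.choose_spec.1, ?_, hex.choose_spec.2⟩
  unfold lrep; rw [dif_pos hex]

theorem zrep_spec {k : ℕ} (h : k ∈ D.cfg.Z) : ∃ s ∈ D.I, D.zrep k = D.x s ∧
    D.zcode (D.x s) = k := by
  classical
  have hex : ∃ s ∈ D.I, D.zcode (D.x s) = k := by
    simpa [cfg] using h
  refine ⟨hex.choose, hex.choose_spec.1, ?_, hex.choose_spec.2⟩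
  unfold zrep; rw [dif_pos hex]

theorem lcode_eq {w w' : Inc} (h : D.lcode w = D.lcode w') :
    w.lab D.i₀ D.j₀ D.pr = w'.lab D.i₀ D.j₀ D.pr := Encodable.encode_injective h

theorem zcode_eq {w w' : Inc} (h : D.zcode w = D.zcode w') :
    w.cell D.i₁ D.j₁ = w'.cell D.i₁ D.j₁ := Encodable.encode_injective h

theorem mem_I {l k : ℕ} : (l, k) ∈ D.cfg.I ↔ ∃ s ∈ D.I, D.lcode (D.x s) = l ∧
    D.zcode (D.x s) = k := by
  simp [cfg]

theorem sub : D.cfg.I ⊆ D.cfg.L ×ˢ D.cfg.Z := by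
  intro ⟨l, k⟩ h
  obtain ⟨s, hs, h1, h2⟩ := mem_I.1 h
  rw [mem_product]
  exact ⟨by rw [← h1]; exact mem_image_of_mem _ hs, by rw [← h2]; exact mem_image_of_mem _ hs⟩

theorem Ok.nonempty (h : D.Ok) : D.cfg.I.Nonempty := ⟨_, mem_image_of_mem _ h.mem⟩

/-- corners of the cell of an incidence -/
theorem zc_eq {s : ι} (hs : s ∈ D.I) : D.zc (D.zcode (D.x s)) = (D.x s).zQ D.i₁ := by
  obtain ⟨s', hs', e1, e2⟩ := zrep_spec (D := D) (k := D.zcode (D.x s)) (mem_image_of_mem _ hs)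
  unfold zc; rw [e1]
  exact zQ_eq (j := D.j₁) (zcode_eq e2)

theorem fc_eq {s : ι} (hs : s ∈ D.I) : D.fc (D.zcode (D.x s)) = (D.x s).fQ D.j₁ := by
  obtain ⟨s', hs', e1, e2⟩ := zrep_spec (D := D) (k := D.zcode (D.x s)) (mem_image_of_mem _ hs)
  unfold fc; rw [e1]
  exact fQ_eq (i := D.i₁) (zcode_eq e2)

/-- **exactness of the rescaling** -/
theorem co_cfg (k l : ℕ) (j : Fin 4) :
    8 * (1 / 2) ^ (nat4 D.i₀ D.j₀ D.t j) * D.cfg.co k l j =
      (D.lrep l).cr (D.zc k) (D.fc k) j - (D.x D.s₀).cr (D.zc k) (D.fc k) j := by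
  have h1 : ((1:ℝ) / 2) ^ D.t * 2 ^ D.t = 1 := by rw [← mul_pow]; norm_num
  have h2 : ((1:ℝ) / 2) ^ D.i₀ * 2 ^ D.i₀ = 1 := by rw [← mul_pow]; norm_num
  have h3 : ((1:ℝ) / 2) ^ D.j₀ * 2 ^ D.j₀ = 1 := by rw [← mul_pow]; norm_num
  set A := ((1:ℝ) / 2) ^ D.t with hA
  set A' := (2:ℝ) ^ D.t with hA'
  set B := ((1:ℝ) / 2) ^ D.i₀ with hB
  set B' := (2:ℝ) ^ D.i₀ with hB'
  set C := ((1:ℝ) / 2) ^ D.j₀ with hC
  set C' := (2:ℝ) ^ D.j₀ with hC'
  set w := D.lrep l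
  set w0 := D.x D.s₀
  fin_cases j
  · simp only [nat4, Cfg.co, Inc.cr, Matrix.cons_val_zero, Fin.zero_eta, Cfg.N, Cfg.X, cfg,
      Inc.N, Inc.P, Inc.X, Inc.Y, pow_add, ← hA, ← hA', ← hB, ← hB', ← hC, ← hC']
    have e1 : ∀ a b c d : ℝ, 8 * (A * B * C) * (a * (A' * B' * C') / 8 +
        b * (A' * C') / 8 * (c * B') - d * C' * 0) = (A * A') * (B * B') * (C * C') * a +
        (A * A') * (B * B') * (C * C') * (b * c) := by intro a b c d; ring
    have : ∀ a b u g x v : ℝ, 8 * (A * B * C) * (a * (A' * B' * C') / 8 + b * (A' * C') / 8 * (u * B')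
        - g * C' * (x * (A' * B') / 8 + v * A' / 8 * (u * B'))) =
        (A * A') * (B * B') * (C * C') * (a + b * u - g * (x + v * u)) := by
      intro a b u g x v; ring
    rw [this, h1, h2, h3]
    ring
  · simp only [nat4, Cfg.co, Inc.cr, Matrix.cons_val_one, Matrix.cons_val_zero, Fin.mk_one,
      Cfg.P, cfg, Inc.P, pow_add, ← hA, ← hA', ← hC, ← hC']
    have : ∀ b g v : ℝ, 8 * (A * C) * (b * (A' * C') / 8 - g * C' * (v * A' / 8)) =
        (A * A') * (C * C') * (b - g * v) := by intro b g v; ring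
    rw [this, h1, h3]
    ring
  · have : ∀ v : ℝ, 8 * A * (v * A' / 8) = (A * A') * v := by intro v; ring
    have key : 8 * A * ((w.c - w0.c) * A' / 8) = w.c - w0.c := by rw [this, h1]; ring
    exact key
  · have : ∀ x u v : ℝ, 8 * (A * B) * (x * (A' * B') / 8 + v * A' / 8 * (u * B')) =
        (A * A') * (B * B') * (x + v * u) := by intro x u v; ring
    have key : 8 * (A * B) * (((w.a + w.c * D.z0) - (w0.a + w0.c * D.z0)) * (A' * B') / 8 +
        (w.c - w0.c) * A' / 8 * ((D.zc k - D.z0) * B')) =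
        (w.a + w.c * D.zc k) - (w0.a + w0.c * D.zc k) := by
      rw [this, h1, h2]; ring
    have e2 : ((1:ℝ) / 2) ^ (D.t + D.i₀) = A * B := by rw [pow_add]
    have e3 : (2:ℝ) ^ (D.t + D.i₀) = A' * B' := by rw [pow_add]
    change 8 * (1 / 2) ^ (D.t + D.i₀) * (((w.a + w.c * D.z0) - (w0.a + w0.c * D.z0)) *
        2 ^ (D.t + D.i₀) / 8 + (w.c - w0.c) * A' / 8 * ((D.zc k - D.z0) * B')) =
        (w.a + w.c * D.zc k) - (w0.a + w0.c * D.zc k)
    rw [e2, e3]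
    exact key

theorem cell0 (h : D.Ok) {s : ι} (hs : s ∈ D.I) : (D.x s).cell D.i₀ D.j₀ =
    (D.x D.s₀).cell D.i₀ D.j₀ := (lab_eq_iff.1 (h.cls s hs)).1

theorem cr0 (h : D.Ok) {s : ι} (hs : s ∈ D.I) (j : Fin 4) :
    |(D.x s).cr D.z0 D.f0 j - (D.x D.s₀).cr D.z0 D.f0 j| ≤ (1 / 2) ^ nat4 D.i₀ D.j₀ D.t j := by
  have h1 := dist_of_floor ((lab_eq_iff.1 (h.cls s hs)).2 j)
  rw [co_eq_cr, co_eq_cr, zQ_eq (cell0 h hs), fQ_eq (cell0 h hs)] at h1
  exact h1

theorem zQ_mem {i i' : ℕ} (hi : i ≤ i') (w : Inc) : 0 ≤ w.zQ i' - w.zQ i := by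
  have h1 : Inc.fl i w.z ≤ Inc.fl i' w.z := by
    obtain ⟨k, rfl⟩ := Nat.exists_eq_add_of_le hi
    unfold Inc.fl
    rw [div_le_div_iff₀ (by positivity) (by positivity)]
    have h : ⌊(2:ℝ) ^ i * w.z⌋ * 2 ^ k ≤ ⌊(2:ℝ) ^ (i + k) * w.z⌋ :=
      (Finset.mem_Ico.1 (floor_child (i := i) (k := k) (x := w.z))).1
    have h' : ((⌊(2:ℝ) ^ i * w.z⌋ : ℤ) : ℝ) * 2 ^ k ≤ ((⌊(2:ℝ) ^ (i + k) * w.z⌋ : ℤ) : ℝ) := by
      exact_mod_cast h
    calc ((⌊(2:ℝ) ^ i * w.z⌋ : ℤ) : ℝ) * 2 ^ (i + k)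
        = (((⌊(2:ℝ) ^ i * w.z⌋ : ℤ) : ℝ) * 2 ^ k) * 2 ^ i := by rw [pow_add]; ring
      _ ≤ ((⌊(2:ℝ) ^ (i + k) * w.z⌋ : ℤ) : ℝ) * 2 ^ i := by gcongr
  unfold Inc.zQ; linarith

/-- corners of the small cells lie in the big cell -/
theorem zc_close (h : D.Ok) {k : ℕ} (hk : k ∈ D.cfg.Z) : |D.zc k - D.z0| ≤ (1 / 2) ^ D.i₀ := by
  obtain ⟨s, hs, e1, e2⟩ := zrep_spec hk
  unfold zc z0; rw [e1, ← zQ_eq (cell0 h hs), abs_sub_comm]
  exact zQ_dist h.hi _

theorem fc_close (h : D.Ok) {k : ℕ} (hk : k ∈ D.cfg.Z) : |D.fc k - D.f0| ≤ (1 / 2) ^ D.j₀ := by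
  obtain ⟨s, hs, e1, e2⟩ := zrep_spec hk
  unfold fc f0; rw [e1, ← fQ_eq (cell0 h hs), abs_sub_comm]
  exact fQ_dist h.hj _

theorem half_mul_two_pow (n : ℕ) : ((1:ℝ) / 2) ^ n * 2 ^ n = 1 := by rw [← mul_pow]; norm_num

/-- bounds -/
theorem Ok.bd (h : D.Ok) : D.cfg.Bd := by
  have key : ∀ (n : ℕ) (y : ℝ), |y| ≤ (1 / 2) ^ n → |y * 2 ^ n / 8| ≤ 1 / 8 := by
    intro n y hy
    rw [abs_div, abs_mul, abs_of_pos (by positivity : (0:ℝ) < 2 ^ n),
      abs_of_pos (by norm_num : (0:ℝ) < 8)]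
    have : |y| * 2 ^ n ≤ 1 := by
      calc |y| * 2 ^ n ≤ (1 / 2) ^ n * 2 ^ n := by gcongr
        _ = 1 := half_mul_two_pow n
    linarith
  have key2 : ∀ (n : ℕ) (y : ℝ), |y| ≤ (1 / 2) ^ n → |y * 2 ^ n| ≤ 1 := by
    intro n y hy
    rw [abs_mul, abs_of_pos (by positivity : (0:ℝ) < 2 ^ n)]
    calc |y| * 2 ^ n ≤ (1 / 2) ^ n * 2 ^ n := by gcongr
      _ = 1 := half_mul_two_pow n
  refine ⟨fun l hl => ?_, fun l hl => ?_, fun l hl => ?_, fun l hl => ?_, fun k hk => ?_,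
    fun k hk => ?_⟩
  · obtain ⟨s, hs, e1, _⟩ := lrep_spec hl
    have := cr0 h hs 3
    simp only [Inc.cr, nat4, Matrix.cons_val] at this
    simp only [cfg]; rw [e1]
    exact key _ _ this
  · obtain ⟨s, hs, e1, _⟩ := lrep_spec hl
    have := cr0 h hs 0
    simp only [Inc.cr, nat4, Matrix.cons_val_zero] at this
    simp only [cfg]; rw [e1]
    exact key _ _ this
  · obtain ⟨s, hs, e1, _⟩ := lrep_spec hl
    have := cr0 h hs 2
    simp only [Inc.cr, nat4, Matrix.cons_val] at this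
    simp only [cfg]; rw [e1]
    exact key _ _ this
  · obtain ⟨s, hs, e1, _⟩ := lrep_spec hl
    have := cr0 h hs 1
    simp only [Inc.cr, nat4, Matrix.cons_val_one, Matrix.cons_val_zero] at this
    simp only [cfg]; rw [e1]
    exact key _ _ this
  · exact key2 _ _ (zc_close h hk)
  · exact key2 _ _ (fc_close h hk)

/-- nearness in the configuration, in the original coordinates -/
theorem near_iff {p : Fin 4 → ℝ} {k l l' : ℕ} : D.cfg.near p k l l' ↔ ∀ j,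
    |(D.lrep l').cr (D.zc k) (D.fc k) j - (D.lrep l).cr (D.zc k) (D.fc k) j| ≤
      8 * (1 / 2) ^ (nat4 D.i₀ D.j₀ D.t j) * D.ρ ^ p j := by
  unfold Cfg.near
  refine forall_congr' fun j => ?_
  have hpos : (0:ℝ) < 8 * (1 / 2) ^ (nat4 D.i₀ D.j₀ D.t j) := by positivity
  have e : (D.lrep l').cr (D.zc k) (D.fc k) j - (D.lrep l).cr (D.zc k) (D.fc k) j =
      8 * (1 / 2) ^ (nat4 D.i₀ D.j₀ D.t j) * (D.cfg.co k l' j - D.cfg.co k l j) := by
    rw [mul_sub, co_cfg, co_cfg]; ring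
  rw [e, abs_mul, abs_of_pos hpos, mul_le_mul_iff_right₀ hpos]
  rfl

/-- the representative of the fat line and the incidence are close at the corner of the cell -/
theorem rep_close (h : D.Ok) {s : ι} (hs : s ∈ D.I) (j : Fin 4) :
    |(D.lrep (D.lcode (D.x s))).cr (D.zc (D.zcode (D.x s))) (D.fc (D.zcode (D.x s))) j -
      (D.x s).co D.i₁ D.j₁ j| ≤ K4 j * (1 / 2) ^ D.pr j := by
  obtain ⟨s', hs', e1, e2⟩ := lrep_spec (D := D) (l := D.lcode (D.x s)) (mem_image_of_mem _ hs)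
  have e3 := lab_eq_iff.1 (lcode_eq e2)
  rw [e1, zc_eq hs, fc_eq hs, co_eq_cr]
  have hk : D.zcode (D.x s) ∈ D.cfg.Z := mem_image_of_mem _ hs
  have d1 := zc_close h hk
  have d2 := fc_close h hk
  rw [zc_eq hs] at d1
  rw [fc_eq hs] at d2
  have := cr_close (h := D.z0) (h' := (D.x s).zQ D.i₁) (f := D.f0) (f' := (D.x s).fQ D.j₁)
    (w := D.x s') (w' := D.x s) (M := 1) h.wall d1 d2 (fun j => by
      have h1 := dist_of_floor (e3.2 j)
      rw [co_eq_cr, co_eq_cr, zQ_eq (cell0 h hs), fQ_eq (cell0 h hs), zQ_eq (cell0 h hs'),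
        fQ_eq (cell0 h hs')] at h1
      simpa [z0, f0] using h1) j
  simpa using this

/-! ### counts -/

theorem card_L : D.cfg.L.card = (D.I.image fun s => (D.x s).lab D.i₀ D.j₀ D.pr).card := by
  have : D.cfg.L = (D.I.image fun s => (D.x s).lab D.i₀ D.j₀ D.pr).image Encodable.encode := by
    rw [image_image]; rfl
  rw [this, card_image_of_injective _ Encodable.encode_injective]

theorem card_Z : D.cfg.Z.card = (D.I.image fun s => (D.x s).cell D.i₁ D.j₁).card := by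
  have : D.cfg.Z = (D.I.image fun s => (D.x s).cell D.i₁ D.j₁).image Encodable.encode := by
    rw [image_image]; rfl
  rw [this, card_image_of_injective _ Encodable.encode_injective]

/-- fine classes versus fat incidences -/
theorem card_I_le (h : D.Ok) :
    D.cfg.I.card ≤ 675 * (D.I.image fun s => (D.x s).lab D.i₁ D.j₁ D.pr).card := by
  refine card_image_le_mul fun s hs => ?_
  have h1 := card_coarse_le D.I D.x h.hi h.hj (p := D.pr) (p' := D.pr) (fun _ => le_rfl) h.wall s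
  set A := D.I.filter fun b => (D.x b).lab D.i₁ D.j₁ D.pr = (D.x s).lab D.i₁ D.j₁ D.pr with hA
  have h2 : (A.image fun s => (D.lcode (D.x s), D.zcode (D.x s))) ⊆
      (A.image fun s => (D.x s).lab D.i₀ D.j₀ D.pr).image fun c =>
        (Encodable.encode c, D.zcode (D.x s)) := by
    intro c hc
    obtain ⟨s', hs', rfl⟩ := mem_image.1 hc
    refine mem_image.2 ⟨_, mem_image_of_mem _ hs', ?_⟩
    have : (D.x s').cell D.i₁ D.j₁ = (D.x s).cell D.i₁ D.j₁ :=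
      (lab_eq_iff.1 (mem_filter.1 hs').2).1
    simp only [lcode, zcode, this]
  exact (card_le_card h2).trans (card_image_le.trans h1)

theorem le_card_I (h : D.Ok) :
    (D.I.image fun s => (D.x s).lab D.i₁ D.j₁ D.pr).card ≤ 675 * D.cfg.I.card := by
  refine card_image_le_mul fun s hs => ?_
  rw [← prod_K4]
  refine card_lab_le _ D.x (D.x s) (fun s' hs' => ?_) (fun s' hs' j => ?_)
  · have := (mem_filter.1 hs').2
    rw [Prod.mk.injEq] at this
    exact zcode_eq this.2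
  · have := (mem_filter.1 hs').2
    rw [Prod.mk.injEq] at this
    exact co_fine_close h.hi h.hj h.wall (zcode_eq this.2) (lcode_eq this.1) j

/-- heights versus classes of `lab i₁ j₁ q` (`q` with walls, coarser than the class of `I`) -/
theorem card_Z_le {q : Fin 4 → ℕ} :
    D.cfg.Z.card ≤ (D.I.image fun s => (D.x s).lab D.i₁ D.j₁ q).card := by
  rw [card_Z]
  have : (D.I.image fun s => (D.x s).cell D.i₁ D.j₁) =
      (D.I.image fun s => (D.x s).lab D.i₁ D.j₁ q).image Prod.fst := by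
    rw [image_image]; rfl
  rw [this]
  exact card_image_le

theorem le_card_Z (h : D.Ok) {q : Fin 4 → ℕ} (hw : Wall D.i₀ D.j₀ q)
    (hq : ∀ s ∈ D.I, (D.x s).lab D.i₀ D.j₀ q = (D.x D.s₀).lab D.i₀ D.j₀ q) :
    (D.I.image fun s => (D.x s).lab D.i₁ D.j₁ q).card ≤ 675 * D.cfg.Z.card := by
  refine card_image_le_mul fun s hs => ?_
  rw [← prod_K4]
  refine card_lab_le _ D.x (D.x s) (fun s' hs' => ?_) (fun s' hs' j => ?_)
  · exact zcode_eq (mem_filter.1 hs').2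
  · obtain ⟨h1, h2⟩ := mem_filter.1 hs'
    exact co_fine_close h.hi h.hj hw (zcode_eq h2) ((hq s' h1).trans (hq s hs).symm) j

/-- **upper bound for box counts** by class counts -/
theorem box_le (h : D.Ok) {p : Fin 4 → ℝ} {q : Fin 4 → ℕ} (hq : ∀ j, q j ≤ D.pr j)
    (hp : ∀ j, (1 / 2) ^ (nat4 D.i₀ D.j₀ D.t j) * D.ρ ^ p j ≤ (1 / 2) ^ q j) {M : ℕ}
    (hM : ∀ s ∈ D.I, ((cls D.I (fun s => (D.x s).lab D.i₁ D.j₁ q) s).image
      fun s => (D.x s).lab D.i₁ D.j₁ D.pr).card ≤ M) {l k : ℕ} (hlk : (l, k) ∈ D.cfg.I) :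
    (D.cfg.box p l k).card ≤ 675 * (M * 433125) := by
  classical
  obtain ⟨s, hs, rfl, rfl⟩ := mem_I.1 hlk
  set K : Fin 4 → ℕ := fun j => 8 + 2 * K4 j with hK
  set A := D.I.filter fun s' => D.zcode (D.x s') = D.zcode (D.x s) ∧
    ∀ j, |(D.x s').co D.i₁ D.j₁ j - (D.x s).co D.i₁ D.j₁ j| ≤ K j * (1 / 2) ^ q j with hA
  have hsub : D.cfg.box p (D.lcode (D.x s)) (D.zcode (D.x s)) ⊆ A.image fun s => D.lcode (D.x s) := by
    intro l' hl'
    rw [Cfg.box, mem_filter, Cfg.slice, mem_filter] at hl'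
    obtain ⟨⟨_, hl2⟩, hl3⟩ := hl'
    obtain ⟨s', hs', e1, e2⟩ := mem_I.1 hl2
    refine mem_image.2 ⟨s', ?_, e1⟩
    rw [hA, mem_filter]
    refine ⟨hs', e2, fun j => ?_⟩
    rw [near_iff] at hl3
    have h1 := hl3 j
    have h2 := rep_close h hs j
    have h3 := rep_close h hs' j
    rw [e1, e2] at h3
    have h4 : ((1:ℝ) / 2) ^ D.pr j ≤ (1 / 2) ^ q j :=
      pow_le_pow_of_le_one (by norm_num) (by norm_num) (hq j)
    have h5 := hp j
    have h6 : (0:ℝ) ≤ K4 j := Nat.cast_nonneg _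
    have h7 : (K4 j : ℝ) * (1 / 2) ^ D.pr j ≤ K4 j * (1 / 2) ^ q j := by gcongr
    simp only [hK]; push_cast
    rw [abs_le] at *
    constructor <;> linarith [h1.1, h1.2, h2.1, h2.2, h3.1, h3.2]
  refine (card_le_card hsub).trans ?_
  have hprod : ∏ j, (2 * K j + 1) = 433125 := by
    simp [Fin.prod_univ_four, K4, hK]
  have s1 : (A.image fun s => (D.x s).lab D.i₁ D.j₁ q).card ≤ 433125 := by
    rw [← hprod]
    refine card_lab_le A D.x (D.x s) (fun s' hs' => ?_) (fun s' hs' j => ?_)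
    · exact zcode_eq (mem_filter.1 hs').2.1
    · exact (mem_filter.1 hs').2.2 j
  have s2 : (A.image fun s => (D.x s).lab D.i₁ D.j₁ D.pr).card ≤
      M * (A.image fun s => (D.x s).lab D.i₁ D.j₁ q).card := by
    refine card_image_le_mul fun s' hs' => ?_
    refine le_trans (card_le_card (image_subset_image ?_)) (hM s' (mem_filter.1 hs').1)
    intro s'' h''
    obtain ⟨h1, h2⟩ := mem_filter.1 h''
    exact mem_cls.2 ⟨(mem_filter.1 h1).1, h2⟩
  have s3 : (A.image fun s => D.lcode (D.x s)).card ≤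
      675 * (A.image fun s => (D.x s).lab D.i₁ D.j₁ D.pr).card := by
    refine card_image_le_mul fun s' hs' => ?_
    have h1 := card_coarse_le A D.x h.hi h.hj (p := D.pr) (p' := D.pr) (fun _ => le_rfl) h.wall s'
    set A' := A.filter fun b => (D.x b).lab D.i₁ D.j₁ D.pr = (D.x s').lab D.i₁ D.j₁ D.pr
    have h2 : (A'.image fun s => D.lcode (D.x s)) ⊆
        (A'.image fun s => (D.x s).lab D.i₀ D.j₀ D.pr).image Encodable.encode := by
      intro c hc
      obtain ⟨s', hs', rfl⟩ := mem_image.1 hc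
      exact mem_image.2 ⟨_, mem_image_of_mem _ hs', rfl⟩
    exact (card_le_card h2).trans (card_image_le.trans h1)
  calc (A.image fun s => D.lcode (D.x s)).card
      ≤ 675 * (A.image fun s => (D.x s).lab D.i₁ D.j₁ D.pr).card := s3
    _ ≤ 675 * (M * (A.image fun s => (D.x s).lab D.i₁ D.j₁ q).card) := Nat.mul_le_mul_left _ s2
    _ ≤ 675 * (M * 433125) := Nat.mul_le_mul_left _ (Nat.mul_le_mul_left _ s1)

/-- **lower bound for box counts** by class counts -/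
theorem le_box (h : D.Ok) {p : Fin 4 → ℝ} {q : Fin 4 → ℕ} (hq : ∀ j, q j ≤ D.pr j)
    (hp : ∀ j, 9 * (1 / 2) ^ q j ≤ 8 * (1 / 2) ^ (nat4 D.i₀ D.j₀ D.t j) * D.ρ ^ p j)
    {s : ι} (hs : s ∈ D.I) :
    ((cls D.I (fun s => (D.x s).lab D.i₁ D.j₁ q) s).image
      fun s => (D.x s).lab D.i₁ D.j₁ D.pr).card ≤
      675 * (D.cfg.box p (D.lcode (D.x s)) (D.zcode (D.x s))).card := by
  classical
  set A := cls D.I (fun s => (D.x s).lab D.i₁ D.j₁ q) s with hA
  have s1 : (A.image fun s => (D.x s).lab D.i₁ D.j₁ D.pr).card ≤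
      675 * (A.image fun s => D.lcode (D.x s)).card := by
    refine card_image_le_mul fun s' hs' => ?_
    rw [← prod_K4]
    refine card_lab_le _ D.x (D.x s') (fun s'' hs'' => ?_) (fun s'' hs'' j => ?_)
    · have h1 := (mem_cls.1 (mem_filter.1 hs'').1).2
      have h2 := (mem_cls.1 hs').2
      exact (lab_eq_iff.1 (h1.trans h2.symm)).1
    · have h1 := (mem_cls.1 (mem_filter.1 hs'').1).2
      have h2 := (mem_cls.1 hs').2
      exact co_fine_close h.hi h.hj h.wall (lab_eq_iff.1 (h1.trans h2.symm)).1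
        (lcode_eq (mem_filter.1 hs'').2) j
  refine s1.trans (Nat.mul_le_mul_left _ (card_le_card ?_))
  intro c hc
  obtain ⟨s', hs', rfl⟩ := mem_image.1 hc
  obtain ⟨h1, h2⟩ := mem_cls.1 hs'
  have h3 := lab_eq_iff.1 h2
  have hz : D.zcode (D.x s') = D.zcode (D.x s) := by unfold zcode; rw [h3.1]
  rw [Cfg.box, mem_filter, Cfg.slice, mem_filter]
  refine ⟨⟨mem_image_of_mem _ h1, mem_I.2 ⟨s', h1, rfl, hz⟩⟩, ?_⟩
  rw [near_iff]
  intro j
  have h4 := rep_close h hs j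
  have h5 := rep_close h h1 j
  rw [hz] at h5
  have h6 := dist_of_floor (h3.2 j)
  have h7 : ((1:ℝ) / 2) ^ D.pr j ≤ (1 / 2) ^ q j :=
    pow_le_pow_of_le_one (by norm_num) (by norm_num) (hq j)
  have h8 : (K4 j : ℝ) ≤ 4 := by fin_cases j <;> simp [K4] <;> norm_num
  have h9 : (K4 j : ℝ) * (1 / 2) ^ D.pr j ≤ 4 * (1 / 2) ^ q j := by gcongr
  have h10 := hp j
  refine le_trans ?_ h10
  rw [abs_le] at *
  constructor <;> linarith [h4.1, h4.2, h5.1, h5.2, h6.1, h6.2]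

theorem floor_fl {i i' : ℕ} (hi : i ≤ i') (x : ℝ) : ⌊(2:ℝ) ^ i * Inc.fl i' x⌋ = ⌊(2:ℝ) ^ i * x⌋ := by
  obtain ⟨k, rfl⟩ := Nat.exists_eq_add_of_le hi
  refine le_antisymm (Int.floor_le_floor (by gcongr; exact fl_le _ _)) ?_
  rw [Int.le_floor]
  unfold Inc.fl
  have h1 := (Finset.mem_Ico.1 (floor_child (i := i) (k := k) (x := x))).1
  have h' : ((⌊(2:ℝ) ^ i * x⌋ : ℤ) : ℝ) * 2 ^ k ≤ ((⌊(2:ℝ) ^ (i + k) * x⌋ : ℤ) : ℝ) := by
    exact_mod_cast h1
  rw [mul_div_assoc', le_div_iff₀ (by positivity)]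
  calc ((⌊(2:ℝ) ^ i * x⌋ : ℤ) : ℝ) * 2 ^ (i + k)
      = 2 ^ i * (((⌊(2:ℝ) ^ i * x⌋ : ℤ) : ℝ) * 2 ^ k) := by rw [pow_add]; ring
    _ ≤ 2 ^ i * ((⌊(2:ℝ) ^ (i + k) * x⌋ : ℤ) : ℝ) := by gcongr

/-- **height intervals** versus `z`-cells -/
theorem hbox_le (h : D.Ok) {y : ℝ} {i : ℕ} (hi : i ≤ D.i₁)
    (hy : (1 / 2) ^ D.i₀ * D.ρ ^ y ≤ (1 / 2) ^ i) {M : ℕ}
    (hM : ∀ s ∈ D.I, ((cls D.I (fun s => (D.x s).cell i D.j₀) s).image
      fun s => (D.x s).cell D.i₁ D.j₁).card ≤ M) {k : ℕ} (hk : k ∈ D.cfg.Z) :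
    (D.cfg.hbox y k).card ≤ M * 3 := by
  classical
  obtain ⟨s, hs, rfl⟩ := mem_image.1 hk
  set A := D.I.filter fun s' => |⌊(2:ℝ) ^ i * (D.x s').z⌋ - ⌊(2:ℝ) ^ i * (D.x s).z⌋| ≤ 1 with hA
  have hsub : D.cfg.hbox y (D.zcode (D.x s)) ⊆ A.image fun s => D.zcode (D.x s) := by
    intro k' hk'
    rw [Cfg.hbox, mem_filter] at hk'
    obtain ⟨hk1, hk2⟩ := hk'
    obtain ⟨s', hs', rfl⟩ := mem_image.1 hk1
    refine mem_image.2 ⟨s', ?_, rfl⟩
    rw [hA, mem_filter]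
    refine ⟨hs', ?_⟩
    have e1 : D.cfg.z (D.zcode (D.x s')) - D.cfg.z (D.zcode (D.x s)) =
        ((D.x s').zQ D.i₁ - (D.x s).zQ D.i₁) * 2 ^ D.i₀ := by
      simp only [cfg]; rw [zc_eq hs, zc_eq hs']; ring
    rw [e1, abs_mul, abs_of_pos (by positivity : (0:ℝ) < 2 ^ D.i₀)] at hk2
    have h1 : |(D.x s').zQ D.i₁ - (D.x s).zQ D.i₁| ≤ ((1:ℕ):ℝ) * (1 / 2) ^ i := by
      have h2 : |(D.x s').zQ D.i₁ - (D.x s).zQ D.i₁| =
          (1 / 2) ^ D.i₀ * (|(D.x s').zQ D.i₁ - (D.x s).zQ D.i₁| * 2 ^ D.i₀) := by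
        have := half_mul_two_pow D.i₀
        calc |(D.x s').zQ D.i₁ - (D.x s).zQ D.i₁|
            = |(D.x s').zQ D.i₁ - (D.x s).zQ D.i₁| * ((1 / 2) ^ D.i₀ * 2 ^ D.i₀) := by
              rw [this, mul_one]
          _ = _ := by ring
      rw [h2]
      refine le_trans (mul_le_mul_of_nonneg_left hk2 (by positivity)) ?_
      simpa [cfg] using hy
    have h3 := floor_of_dist h1
    have e2 : ∀ w : Inc, ⌊(2:ℝ) ^ i * w.zQ D.i₁⌋ = ⌊(2:ℝ) ^ i * w.z⌋ := fun w => floor_fl hi w.z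
    rw [e2, e2] at h3
    exact_mod_cast h3
  have s1 : (A.image fun s => (D.x s).cell i D.j₀).card ≤ 3 := by
    have hsub2 : (A.image fun s => (D.x s).cell i D.j₀) ⊆
        (Finset.Icc (⌊(2:ℝ) ^ i * (D.x s).z⌋ - 1) (⌊(2:ℝ) ^ i * (D.x s).z⌋ + 1)).image fun m =>
          (m, ⌊(2:ℝ) ^ D.j₀ * (D.x s).θ⌋) := by
      intro c hc
      obtain ⟨s', hs', rfl⟩ := mem_image.1 hc
      obtain ⟨h1, h2⟩ := mem_filter.1 hs'
      rw [abs_le] at h2
      refine mem_image.2 ⟨⌊(2:ℝ) ^ i * (D.x s').z⌋, ?_, ?_⟩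
      · rw [Finset.mem_Icc]; constructor <;> linarith [h2.1, h2.2]
      · have e1 := cell0 h h1
        have e2 := cell0 h hs
        unfold Inc.cell at e1 e2 ⊢
        rw [Prod.mk.injEq] at e1 e2
        rw [e1.2, e2.2]
    refine (card_le_card hsub2).trans (card_image_le.trans ?_)
    rw [Int.card_Icc]
    have : ⌊(2:ℝ) ^ i * (D.x s).z⌋ + 1 + 1 - (⌊(2:ℝ) ^ i * (D.x s).z⌋ - 1) = 3 := by ring
    rw [this]; rfl
  have s2 : (A.image fun s => (D.x s).cell D.i₁ D.j₁).card ≤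
      M * (A.image fun s => (D.x s).cell i D.j₀).card := by
    refine card_image_le_mul fun s' hs' => ?_
    refine le_trans (card_le_card (image_subset_image ?_)) (hM s' (mem_filter.1 hs').1)
    intro s'' h''
    obtain ⟨h1, h2⟩ := mem_filter.1 h''
    exact mem_cls.2 ⟨(mem_filter.1 h1).1, h2⟩
  have s3 : (A.image fun s => D.zcode (D.x s)).card ≤
      (A.image fun s => (D.x s).cell D.i₁ D.j₁).card := by
    have : (A.image fun s => D.zcode (D.x s)) =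
        (A.image fun s => (D.x s).cell D.i₁ D.j₁).image Encodable.encode := by
      rw [image_image]; rfl
    rw [this]; exact card_image_le
  calc (D.cfg.hbox y (D.zcode (D.x s))).card ≤ (A.image fun s => D.zcode (D.x s)).card :=
        card_le_card hsub
    _ ≤ (A.image fun s => (D.x s).cell D.i₁ D.j₁).card := s3
    _ ≤ M * (A.image fun s => (D.x s).cell i D.j₀).card := s2
    _ ≤ M * 3 := Nat.mul_le_mul_left _ s1

end ZD

end Crest.Agent.R138.Flg101
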