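import Crest.Agent.R138.Flg2_101
import Crest.Agent.R138.Qf1_926

/-!
# R138 (helper101): the literal partitions form a quasi-nested family

* `card_two_le` (Z2a'), `card_join_le'` (general join, incomparable cell levels).
* `flab B n p`, `p : Fin 6 → ℝ` = (p0, p1, p2, p3; z-level, slope level), rounding
  `⌈·⌉` for `i, j, p1, p2` and `⌊·⌋` for `p0, p3`.
* `flag_QFam`, `flag_QJoin` on any set of legal parameters.
-/

set_option autoImplicit false
set_option linter.unusedVariables false
set_option linter.unusedSectionVars false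

open Finset Filter Topology

namespace Crest.Agent.R138.Flg101

open Inc Crest.Agent.R138.Ex926

section Two

variable {ι : Type*} [DecidableEq ι]

/-- **(Z2a')** two-step nestedness. -/
theorem card_two_le (I : Finset ι) (x : ι → Inc) {i j i' j' : ℕ} {p p' : Fin 4 → ℕ}
    (hi : i ≤ i') (hj : j ≤ j') (hp : ∀ k, p k ≤ p' k) (hw : Wall i j p) (s : ι) :
    ((two I (fun t => (x t).lab i j p) (fun t => (x t).lab i' j' p') s).image
      fun t => (x t).lab i j p).card ≤ 2695 := by
  have hprod : ∏ k, (2 * (K4 k + 1) + 1) = 2695 := by simp [Fin.prod_univ_four, K4]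
  rw [← hprod]
  refine card_lab_le (K := fun k => K4 k + 1) _ x (x s) (fun t ht => ?_) (fun t ht k => ?_)
  · obtain ⟨h1, y, h2, h3, h4⟩ := mem_two.1 ht
    have e1 := (lab_eq_iff.1 h3).1
    have e2 := (lab_eq_iff.1 h4).1
    exact (cell_nested hi hj e2).trans e1
  · obtain ⟨h1, y, h2, h3, h4⟩ := mem_two.1 ht
    have e1 := dist_of_floor ((lab_eq_iff.1 h3).2 k)
    have e2 := co_coarse_close hi hj hp hw h4 k
    push_cast
    rw [abs_le] at *
    constructor <;> linarith [e1.1, e1.2, e2.1, e2.2]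

/-- **(Z2c')** joins of arbitrary legal levels. -/
theorem card_join_le' (I : Finset ι) (x : ι → Inc) {i j i' j' : ℕ} {p q : Fin 4 → ℕ}
    (hw : Wall i j p) (hw' : Wall i' j' q) (s : ι) :
    (((cls I (fun t => (x t).lab i j p) s) ∩ (cls I (fun t => (x t).lab i' j' q) s)).image
      fun t => (x t).lab (max i i') (max j j') (fun k => max (p k) (q k))).card ≤ 675 := by
  rw [← prod_K4]
  have hcell : ∀ t, (x t).lab i j p = (x s).lab i j p → (x t).lab i' j' q = (x s).lab i' j' q →
      (x t).cell (max i i') (max j j') = (x s).cell (max i i') (max j j') := by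
    intro t h3 h4
    have e3 := (lab_eq_iff.1 h3).1
    have e4 := (lab_eq_iff.1 h4).1
    unfold Inc.cell at e3 e4 ⊢
    rw [Prod.mk.injEq] at e3 e4 ⊢
    constructor
    · rcases le_total i i' with h | h
      · rw [max_eq_right h]; exact e4.1
      · rw [max_eq_left h]; exact e3.1
    · rcases le_total j j' with h | h
      · rw [max_eq_right h]; exact e4.2
      · rw [max_eq_left h]; exact e3.2
  -- coordinates at a finer corner
  have fine : ∀ {a b : ℕ} {u : Fin 4 → ℕ}, Wall a b u → ∀ {a' b' : ℕ}, a ≤ a' → b ≤ b' →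
      ∀ t, (x t).cell a' b' = (x s).cell a' b' → (x t).lab a b u = (x s).lab a b u → ∀ k,
      |(x t).co a' b' k - (x s).co a' b' k| ≤ K4 k * (1 / 2) ^ u k := by
    intro a b u hu a' b' ha hb t hc hl k
    exact co_fine_close ha hb hu hc hl k
  refine card_lab_le _ x (x s) (fun t ht => ?_) (fun t ht k => ?_)
  · obtain ⟨h1, h2⟩ := mem_inter.1 ht
    exact hcell t (mem_cls.1 h1).2 (mem_cls.1 h2).2
  · obtain ⟨h1, h2⟩ := mem_inter.1 ht
    have h3 := (mem_cls.1 h1).2
    have h4 := (mem_cls.1 h2).2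
    have hc := hcell t h3 h4
    rcases le_total (p k) (q k) with h | h
    · rw [max_eq_right h]
      exact fine hw' (le_max_right _ _) (le_max_right _ _) t hc h4 k
    · rw [max_eq_left h]
      exact fine hw (le_max_left _ _) (le_max_left _ _) t hc h3 k

end Two

/-- upper dyadic level of the scale `d ^ t` -/
noncomputable def clev (B : Base) (n : ℕ) (t : ℝ) : ℕ := ⌈t * B.L n / Real.log 2⌉₊

theorem clev_mono (B : Base) (n : ℕ) : Monotone (clev B n) := by
  intro a b h
  have := B.L_pos n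
  exact Nat.ceil_mono (by gcongr)

theorem log2_pos : 0 < Real.log 2 := Real.log_pos one_lt_two

/-- four box levels of a real parameter -/
noncomputable def plev (B : Base) (n : ℕ) (p : Fin 6 → ℝ) : Fin 4 → ℕ :=
  ![B.lev n (p 0), clev B n (p 1), clev B n (p 2), B.lev n (p 3)]

/-- the label of real parameters `(p0, p1, p2, p3; z-level, slope level)` -/
noncomputable def flab (B : Base) (n : ℕ) (p : Fin 6 → ℝ) (w : Inc) :
    (ℤ × ℤ) × (Fin 4 → ℤ) := w.lab (clev B n (p 4)) (clev B n (p 5)) (plev B n p)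

/-- legal real parameters -/
structure RWall (p : Fin 6 → ℝ) : Prop where
  nonneg : ∀ k, 0 ≤ p k
  w01 : p 0 ≤ p 1 + p 4
  w32 : p 3 ≤ p 2 + p 4
  w03 : p 0 ≤ p 5 + p 3
  w12 : p 1 ≤ p 5 + p 2

theorem RWall.wall (B : Base) (n : ℕ) {p : Fin 6 → ℝ} (h : RWall p) :
    Wall (clev B n (p 4)) (clev B n (p 5)) (plev B n p) := by
  have hL := B.L_pos n
  have h2 := log2_pos
  have hdiv : ∀ {a b c : ℝ}, a ≤ b + c → a * B.L n / Real.log 2 ≤
      b * B.L n / Real.log 2 + c * B.L n / Real.log 2 := by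
    intro a b c habc
    rw [← add_div, ← add_mul]; gcongr
  have nn : ∀ k, 0 ≤ p k * B.L n / Real.log 2 := fun k => by
    have := h.nonneg k; positivity
  refine ⟨?_, ?_, ?_, ?_⟩
  · simp only [plev, Matrix.cons_val_zero, Matrix.cons_val_one, Base.lev, clev]
    have e1 := hdiv h.w01
    have e2 := Nat.le_ceil (p 1 * B.L n / Real.log 2)
    have e3 := Nat.le_ceil (p 4 * B.L n / Real.log 2)
    have e4 := Nat.floor_le (nn 0)
    have : ((⌊p 0 * B.L n / Real.log 2⌋₊ : ℕ) : ℝ) ≤ ((⌈p 1 * B.L n / Real.log 2⌉₊ +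
        ⌈p 4 * B.L n / Real.log 2⌉₊ : ℕ) : ℝ) := by push_cast; linarith
    exact_mod_cast this
  · simp only [plev, Matrix.cons_val, Base.lev, clev]
    have e1 := hdiv h.w32
    have e2 := Nat.le_ceil (p 2 * B.L n / Real.log 2)
    have e3 := Nat.le_ceil (p 4 * B.L n / Real.log 2)
    have e4 := Nat.floor_le (nn 3)
    have : ((⌊p 3 * B.L n / Real.log 2⌋₊ : ℕ) : ℝ) ≤ ((⌈p 2 * B.L n / Real.log 2⌉₊ +
        ⌈p 4 * B.L n / Real.log 2⌉₊ : ℕ) : ℝ) := by push_cast; linarith
    exact_mod_cast this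
  · simp only [plev, Matrix.cons_val_zero, Matrix.cons_val, Base.lev, clev]
    have e1 := hdiv h.w03
    have e3 := Nat.le_ceil (p 5 * B.L n / Real.log 2)
    have e4 : ⌊p 0 * B.L n / Real.log 2⌋₊ ≤
        ⌊p 3 * B.L n / Real.log 2 + (⌈p 5 * B.L n / Real.log 2⌉₊ : ℕ)⌋₊ :=
      Nat.floor_le_floor (by linarith)
    rw [Nat.floor_add_natCast (nn 3)] at e4
    omega
  · simp only [plev, Matrix.cons_val_one, Matrix.cons_val_zero, Matrix.cons_val, clev]
    have e1 := hdiv h.w12
    have e2 := Nat.le_ceil (p 2 * B.L n / Real.log 2)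
    have e3 := Nat.le_ceil (p 5 * B.L n / Real.log 2)
    rw [Nat.ceil_le]
    push_cast; linarith

theorem plev_mono (B : Base) (n : ℕ) {p p' : Fin 6 → ℝ} (h : p ≤ p') (k : Fin 4) :
    plev B n p k ≤ plev B n p' k := by
  fin_cases k
  · exact B.lev_mono n (h 0)
  · exact clev_mono B n (h 1)
  · exact clev_mono B n (h 2)
  · exact B.lev_mono n (h 3)

theorem plev_sup (B : Base) (n : ℕ) (p q : Fin 6 → ℝ) (k : Fin 4) :
    plev B n (p ⊔ q) k = max (plev B n p k) (plev B n q k) := by
  fin_cases k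
  · exact (B.lev_mono n).map_max
  · exact (clev_mono B n).map_max
  · exact (clev_mono B n).map_max
  · exact (B.lev_mono n).map_max

theorem flab_sup (B : Base) (n : ℕ) (p q : Fin 6 → ℝ) (w : Inc) : flab B n (p ⊔ q) w =
    w.lab (max (clev B n (p 4)) (clev B n (q 4))) (max (clev B n (p 5)) (clev B n (q 5)))
      (fun k => max (plev B n p k) (plev B n q k)) := by
  have e4 : clev B n ((p ⊔ q) 4) = max (clev B n (p 4)) (clev B n (q 4)) :=
    (clev_mono B n).map_max
  have e5 : clev B n ((p ⊔ q) 5) = max (clev B n (p 5)) (clev B n (q 5)) :=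
    (clev_mono B n).map_max
  have e : plev B n (p ⊔ q) = fun k => max (plev B n p k) (plev B n q k) :=
    funext fun k => plev_sup B n p q k
  unfold flab; rw [e4, e5, e]

theorem clev_sub_le (B : Base) (n : ℕ) {a b : ℝ} (ha : 0 ≤ a) (hb : a ≤ b) :
    ((clev B n b - clev B n a : ℕ) : ℝ) ≤ (b - a) * B.L n / Real.log 2 + 1 := by
  have hL := B.L_pos n
  have h2 := log2_pos
  rw [Nat.cast_sub (clev_mono B n hb)]
  have hb0 : 0 ≤ b * B.L n / Real.log 2 := by have := ha.trans hb; positivity
  have e1 := Nat.ceil_lt_add_one hb0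
  have e2 := Nat.le_ceil (a * B.L n / Real.log 2)
  unfold clev
  have : (b - a) * B.L n / Real.log 2 = b * B.L n / Real.log 2 - a * B.L n / Real.log 2 := by
    rw [sub_mul, sub_div]
  rw [this]; linarith

theorem lev_sub_le (B : Base) (n : ℕ) {a b : ℝ} (ha : 0 ≤ a) (hb : a ≤ b) :
    ((B.lev n b - B.lev n a : ℕ) : ℝ) ≤ (b - a) * B.L n / Real.log 2 + 1 := by
  have hL := B.L_pos n
  have h2 := log2_pos
  rw [Nat.cast_sub (B.lev_mono n hb)]
  have hb0 : 0 ≤ b * B.L n / Real.log 2 := by have := ha.trans hb; positivity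
  have e1 := Nat.floor_le hb0
  have e2 := Nat.lt_floor_add_one (a * B.L n / Real.log 2)
  unfold Base.lev
  have : (b - a) * B.L n / Real.log 2 = b * B.L n / Real.log 2 - a * B.L n / Real.log 2 := by
    rw [sub_mul, sub_div]
  rw [this]; linarith

theorem const_sub (B : Base) {c : ℝ} (hc : 0 < c) : B.Sub (fun _ => c) :=
  Base.Sub.iff.2 ⟨Eventually.of_forall fun _ => hc, B.tendsto_const⟩

variable {B : Base} {ι : ℕ → Type*} [∀ n, DecidableEq (ι n)]

/-- **the flagged classes form a quasi-nested family** on every set of legal parameters -/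
theorem flag_QFam (I : ∀ n, Finset (ι n)) (x : ∀ n, ι n → Inc) {P : Set (Fin 6 → ℝ)}
    (hP : ∀ p ∈ P, RWall p) : QFam B I (fun n p s => flab B n p (x n s)) 6 P where
  nest := by
    refine ⟨fun _ => 2695, const_sub B (by norm_num), Eventually.of_forall fun n p hp p' hp' hpp i hi => ?_⟩
    have := card_two_le (I n) (x n) (clev_mono B n (hpp 4)) (clev_mono B n (hpp 5))
      (plev_mono B n hpp) ((hP p hp).wall B n) i
    have h2 : (((two (I n) (fun s => flab B n p (x n s)) (fun s => flab B n p' (x n s)) i).image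
      fun s => flab B n p (x n s)).card : ℝ) ≤ ((2695 : ℕ) : ℝ) := Nat.cast_le.2 this
    norm_num at h2 ⊢
    exact h2
  child := by
    intro ε hε
    filter_upwards [B.ev_const_log (Real.log 675 + 6 * Real.log 2) hε] with n hn p hp p' hp' hpp i hi
    have hL := B.L_pos n
    have h2 := log2_pos
    have h1 := card_fine_le (I n) (x n) (clev_mono B n (hpp 4)) (clev_mono B n (hpp 5))
      (plev_mono B n hpp) ((hP p hp).wall B n) i
    set E := (clev B n (p' 4) - clev B n (p 4)) + (clev B n (p' 5) - clev B n (p 5)) +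
      ∑ k, (plev B n p' k - plev B n p k) with hE
    have h3 : (((cls (I n) (fun s => flab B n p (x n s)) i).image
        (fun s => flab B n p' (x n s))).card : ℝ) ≤ 675 * 2 ^ E := by exact_mod_cast h1
    refine h3.trans ?_
    have hd : ∀ k : Fin 6, p' k - p k ≤ ‖p' - p‖ := fun k => by
      have := norm_le_pi_norm (p' - p) k
      rw [Pi.sub_apply, Real.norm_eq_abs] at this
      exact (le_abs_self _).trans this
    have hE2 : (E : ℝ) ≤ 6 * ‖p' - p‖ * B.L n / Real.log 2 + 6 := by
      have hsum : (∑ k, (plev B n p' k - plev B n p k) : ℕ) =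
          (B.lev n (p' 0) - B.lev n (p 0)) + (clev B n (p' 1) - clev B n (p 1)) +
          (clev B n (p' 2) - clev B n (p 2)) + (B.lev n (p' 3) - B.lev n (p 3)) := by
        simp [Fin.sum_univ_four, plev]
      rw [hE, hsum]
      have n0 := (hP p hp).nonneg
      have a4 := clev_sub_le B n (n0 4) (hpp 4)
      have a5 := clev_sub_le B n (n0 5) (hpp 5)
      have a0 := lev_sub_le B n (n0 0) (hpp 0)
      have a1 := clev_sub_le B n (n0 1) (hpp 1)
      have a2 := clev_sub_le B n (n0 2) (hpp 2)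
      have a3 := lev_sub_le B n (n0 3) (hpp 3)
      have bd : ∀ k : Fin 6, (p' k - p k) * B.L n / Real.log 2 ≤
          ‖p' - p‖ * B.L n / Real.log 2 := fun k => by
        have := hd k; gcongr
      have b0 := bd 0
      have b1 := bd 1
      have b2 := bd 2
      have b3 := bd 3
      have b4 := bd 4
      have b5 := bd 5
      have e : 6 * ‖p' - p‖ * B.L n / Real.log 2 = 6 * (‖p' - p‖ * B.L n / Real.log 2) := by ring
      rw [e]
      push_cast
      linarith
    have e1 : (675 : ℝ) * 2 ^ E = Real.exp (Real.log 675 + E * Real.log 2) := by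
      rw [Real.exp_add, Real.exp_log (by norm_num), mul_comm (E : ℝ), Real.exp_mul,
        Real.exp_log (by norm_num), Real.rpow_natCast]
    rw [e1, ← B.exp_eq, Real.exp_le_exp]
    have e2 : (E : ℝ) * Real.log 2 ≤ 6 * ‖p' - p‖ * B.L n + 6 * Real.log 2 := by
      calc (E : ℝ) * Real.log 2 ≤ (6 * ‖p' - p‖ * B.L n / Real.log 2 + 6) * Real.log 2 := by gcongr
        _ = _ := by rw [add_mul, div_mul_cancel₀ _ h2.ne']
    linarith

/-- **approximate joins of the flagged classes** -/
theorem flag_QJoin (I : ∀ n, Finset (ι n)) (x : ∀ n, ι n → Inc) {P : Set (Fin 6 → ℝ)}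
    (hP : ∀ p ∈ P, RWall p) : QJoin B I (fun n p s => flab B n p (x n s)) P := by
  refine ⟨fun _ => 675, const_sub B (by norm_num), Eventually.of_forall fun n p hp q hq i hi => ?_⟩
  have := card_join_le' (I n) (x n) ((hP p hp).wall B n) ((hP q hq).wall B n) i
  have e : (fun s => flab B n (p ⊔ q) (x n s)) = fun s => (x n s).lab
      (max (clev B n (p 4)) (clev B n (q 4))) (max (clev B n (p 5)) (clev B n (q 5)))
      (fun k => max (plev B n p k) (plev B n q k)) := funext fun s => flab_sup B n p q _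
  have h2 : (((cls (I n) (fun s => flab B n p (x n s)) i ∩
      cls (I n) (fun s => flab B n q (x n s)) i).image
      fun s => flab B n (p ⊔ q) (x n s)).card : ℝ) ≤ ((675 : ℕ) : ℝ) := by
    rw [e]; exact Nat.cast_le.2 this
  norm_num at h2 ⊢
  exact h2

end Crest.Agent.R138.Flg101
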