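import Crest.Agent.R138.TwR_480

/-!
# R138: from a tangent of the profile to an F-model with the majority twist (helper480)

`fm_of_tan` : along a blow-up sequence at which the profile `ν` has the tangent `lam`, the classes
contain F-models with `TwistMaj` whose exponents are given by `lam`.
-/

set_option autoImplicit false
set_option linter.unusedSectionVars false
set_option linter.unusedVariables false

open Filter Topology MeasureTheory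
open scoped NNReal

namespace Crest.Agent.R138.TwR480

open Crest.Agent.R138.Ex926 Crest.Agent.R138.FM501 Crest.Agent.R138.Tw628
open Crest.Agent.R138.TwMaj480 Crest.Agent.R138.Flg101
open Finset

variable {ι : ℕ → Type*} [∀ n, DecidableEq (ι n)] {B : Base} {I : ∀ n, Finset (ι n)}
  {x : ∀ n, ι n → Inc} {ν : (Fin 6 → ℝ) → ℝ} {M : ℝ}

/-- **F-models with the majority twist from tangents of the profile.** -/
theorem fm_of_tan (i₀ : ∀ n, ι n) (hne : ∀ᶠ n in (U : Filter ℕ), (I n).Nonempty)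
    (hν : QProf B I (flab B x) (LEG M) ν) {K : ℝ} (hK : 0 ≤ K)
    (hlip : ∀ p ∈ LEG M, ∀ q ∈ LEG M, |ν p - ν q| ≤ K * ‖p - q‖) {V W T h : ℕ → ℝ}
    (hV : ∀ l, 0 ≤ V l) (hW : ∀ l, 0 ≤ W l) (hT : ∀ l, 0 ≤ T l) (hh : ∀ l, 0 < h l)
    {lam : (Fin 6 → ℝ) → ℝ} (htan : IsTan (LEG M) D6 ν (fun l => X6 (V l) (W l) (T l)) h lam)
    {R Rp R4 R5 σ : ℝ} (hR : 0 < R) (hRp : R < Rp) (hR4 : Rp ≤ R4) (hR5 : Rp ≤ R5)
    (hσ0 : 0 ≤ σ) (hσ1 : σ ≤ 1)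
    (hsep : lam (dir (fun _ => Rp) R4 R5) ≤ lam (dir (fun _ => Rp) 0 0) + lam (dir 0 R4 R5))
    (hfrost : ∀ y, 0 ≤ y → y ≤ R → lam (dir 0 y 0) ≤ -(σ * y))
    (hdrop : ∀ᶠ l in (atTop : Filter ℕ), ∀ e, 0 < e → e ≤ R5 →
      ν (X6 (V l) (W l) (T l) + h l • dir (fun _ => Rp) 0 e) <
        ν (X6 (V l) (W l) (T l) + h l • dir (fun _ => Rp) 0 0)) :
    ∃ (B' : Base) (G' : ℕ → Cfg) (ν' : (Fin 4 → ℝ) → ℝ), FModel B' G' σ R ν' ∧ TwistMaj B' G' ∧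
      (∀ p : Fin 4 → ℝ, (∀ j, 0 ≤ p j ∧ p j ≤ R) →
        ν' p = lam (dir p R4 R5) - lam (dir (fun _ => Rp) R4 R5)) ∧
      (∀ p ∈ Set.Icc (0 : Fin 4 → ℝ) (fun _ => R), ∀ q ∈ Set.Icc (0 : Fin 4 → ℝ) (fun _ => R),
        |ν' p - ν' q| ≤ 4 * ‖p - q‖) ∧
      (∀ p ∈ Set.Icc (0 : Fin 4 → ℝ) (fun _ => R), ∀ q ∈ Set.Icc (0 : Fin 4 → ℝ) (fun _ => R),
        p ≤ q → ν' q ≤ ν' p) ∧
      (∀ p ∈ Set.Icc (0 : Fin 4 → ℝ) (fun _ => R), ∀ q ∈ Set.Icc (0 : Fin 4 → ℝ) (fun _ => R),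
        ν' p + ν' q ≤ ν' (p ⊔ q) + ν' (p ⊓ q)) := by
  classical
  have hRp0 : 0 < Rp := hR.trans hRp
  have hR40 : 0 < R4 := hRp0.trans_le hR4
  have hR50 : 0 < R5 := hRp0.trans_le hR5
  have hlam0 : lam 0 = 0 := htan.zero hh zero_mem_D6
  have hlamlip := htan.lip hh hlip
  obtain ⟨k₁, hk₁, hz⟩ := exists_qzoom B (J := Unit) (I := I)
    (κ := fun _ _ => (ℤ × ℤ) × (Fin 4 → ℤ)) (f := fun _ => flab B x) (P := fun _ => LEG M)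
    (D := fun _ => D6) (ν := fun _ => ν) (lam := fun _ => lam) (fun _ => hν)
    (x := fun l => X6 (V l) (W l) (T l)) (h := h) hh (fun _ => zero_mem_D6) (fun _ => htan)
    (fun _ _ => (1 : ℝ)) (fun _ => Base.Sub.const one_pos)
  obtain ⟨k₂, hk₂, hg⟩ := exists_twGd hν hV hW hT hh hRp0 hR40.le hR50
    (leg_of_tan htan hRp0.le hR40.le hR50.le) hdrop (H := I) (c := 1) one_pos
    (hne.mono fun n hn => ⟨Subset.refl _, hn, by rw [one_mul]⟩)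
  set k' : ℕ → ℕ := fun n => min (k₁ n) (k₂ n) with hk'
  have hk't : Tendsto k' U atTop := exists_min_speed hk₁ hk₂
  obtain ⟨B', hd, hL, -, hprof⟩ := hz k' hk't (Eventually.of_forall fun n => min_le_left _ _)
  obtain ⟨Gd, hGd, htw⟩ := hg k' hk't (Eventually.of_forall fun n => min_le_right _ _)
  obtain ⟨s₀, hs₀, hcls⟩ := exists_clsSeq (B := B) (B' := B') (I := I) (x := x)
    (v := fun n => V (k' n)) (r := fun n => W (k' n)) (t := fun n => T (k' n))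
    (w := fun n => h (k' n)) (T := fun n => B.d n ^ (-(ν (X6 (V (k' n)) (W (k' n)) (T (k' n))))))
    (lam := lam) (fun n => hV _) (fun n => hW _) (fun n => hT _) (fun n => hh _) hd
    (hprof ()) hlam0 (fun n => Real.rpow_pos_of_pos (B.pos n) _) (Gd := Gd) i₀
    (c := 1 / 2) (by norm_num) hGd
  have hraw := rawM_of_class (Rp := Rp) (R4 := R4) (R5 := R5) hcls hR hRp0.le (hRp.le.trans hR4)
    hR50.le hσ0 hσ1 hsep hfrost
  have htwr := htw B' hd s₀ _ lam hcls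
  obtain ⟨G', ν', S, c1, c2, c3, c4, c5, c6, c7, c8, c9⟩ := exists_fmodel_tw B' _ hraw htwr
  exact ⟨B', G', ν', c1, c9, fun p hp => fmodel_ident hcls hR hRp hR4 hR5 hK hlamlip c1 c2 c3 c4 hp,
    c6, c7, c8⟩

/-- `fm_of_tan` at one fixed natural point `(v, r, t)`: rotation of the single lines exactly `d ^ r`
at distance `d ^ v`. -/
theorem fm_of_tan_own {B : Base} {ι : ℕ → Type} [∀ n, DecidableEq (ι n)] {I : ∀ n, Finset (ι n)}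
    {x : ∀ n, ι n → Inc} {line : ∀ n, ι n → ℕ} {ν : (Fin 6 → ℝ) → ℝ} {own : (Fin 2 → ℝ) → ℝ}
    {M : ℝ} (i₀ : ∀ n, ι n) (hne : ∀ᶠ n in (U : Filter ℕ), (I n).Nonempty)
    (hline : ∀ n, ∀ i ∈ I n, ∀ j ∈ I n, line n i = line n j →
      (x n i).a = (x n j).a ∧ (x n i).b = (x n j).b ∧ (x n i).c = (x n j).c ∧
        (x n i).d = (x n j).d)
    (hν : QProf B I (flab B x) (LEG M) ν)
    (ho : QProf B I (olab B x line) (Set.Icc 0 (fun _ => M)) own)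
    {K : ℝ} (hK : 0 ≤ K) (hlip : ∀ p ∈ LEG M, ∀ q ∈ LEG M, |ν p - ν q| ≤ K * ‖p - q‖)
    {v r t : ℝ} (hv0 : 0 ≤ v) (hr0 : 0 ≤ r) (ht0 : 0 ≤ t) (hrot : own ![v, r] = own ![v, 0])
    (htw : ∀ r', r < r' → r' ≤ M → own ![v, r'] < own ![v, 0])
    {h : ℕ → ℝ} (hh : ∀ l, 0 < h l) {lam : (Fin 6 → ℝ) → ℝ}
    (ht : IsTan (LEG M) D6 ν (fun _ => X6 v r t) h lam)
    {R Rp R4 R5 σ : ℝ} (hR : 0 < R) (hRp : R < Rp) (hR4 : Rp ≤ R4) (hR5 : Rp ≤ R5)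
    (hσ0 : 0 ≤ σ) (hσ1 : σ ≤ 1)
    (hsep : lam (dir (fun _ => Rp) R4 R5) ≤ lam (dir (fun _ => Rp) 0 0) + lam (dir 0 R4 R5))
    (hfrost : ∀ y, 0 ≤ y → y ≤ R → lam (dir 0 y 0) ≤ -(σ * y)) :
    ∃ (B' : Base) (G' : ℕ → Cfg) (ν' : (Fin 4 → ℝ) → ℝ), FModel B' G' σ R ν' ∧ TwistMaj B' G' ∧
      (∀ p : Fin 4 → ℝ, (∀ j, 0 ≤ p j ∧ p j ≤ R) →
        ν' p = lam (dir p R4 R5) - lam (dir (fun _ => Rp) R4 R5)) ∧
      (∀ p ∈ Set.Icc (0 : Fin 4 → ℝ) (fun _ => R), ∀ q ∈ Set.Icc (0 : Fin 4 → ℝ) (fun _ => R),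
        |ν' p - ν' q| ≤ 4 * ‖p - q‖) ∧
      (∀ p ∈ Set.Icc (0 : Fin 4 → ℝ) (fun _ => R), ∀ q ∈ Set.Icc (0 : Fin 4 → ℝ) (fun _ => R),
        p ≤ q → ν' q ≤ ν' p) ∧
      (∀ p ∈ Set.Icc (0 : Fin 4 → ℝ) (fun _ => R), ∀ q ∈ Set.Icc (0 : Fin 4 → ℝ) (fun _ => R),
        ν' p + ν' q ≤ ν' (p ⊔ q) + ν' (p ⊓ q)) := by
  have hRp0 : 0 < Rp := hR.trans hRp
  have hR50 : 0 < R5 := hRp0.trans_le hR5
  have hleg := leg_of_tan ht hRp0.le (hRp0.le.trans hR4) hR50.le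
  refine fm_of_tan i₀ hne hν hK hlip (V := fun _ => v) (W := fun _ => r) (T := fun _ => t)
    (fun _ => hv0) (fun _ => hr0) (fun _ => ht0) hh ht hR hRp hR4 hR5 hσ0 hσ1 hsep hfrost ?_
  filter_upwards [hleg] with l hl e he0 he
  exact drop_of_own hne hline hν ho hrot htw (hh l) he0 (hl.2 0 le_rfl hR50.le) (hl.2 e he0.le he)

end Crest.Agent.R138.TwR480
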