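import Crest.Agent.R138.RR6_323
import Crest.Agent.R138.DecC_685

/-!
# R138 wave side: domination and one step (helper639), part 1: domination

Domination is used in energy form: `en ρ (H κ) S ≤ en ρ (H π) S` for all labels `κ`.
-/

set_option autoImplicit false

open MeasureTheory FourierTransform
open scoped ContDiff ENNReal

namespace Crest.Agent.R138.GR639

open Crest.Agent.R138.Defs Crest.Agent.R138.Bil882 Crest.Agent.R138.W188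
open Crest.Agent.R138.Wpk685 Crest.Agent.R138.W323

/-- pointwise domination implies domination in energy form. -/
theorem en_mono_pt {ρ : ℝ} {f f' : E2 → ℂ} {S : ℤ × ℤ → Set E2} (hS : ∀ m, MeasurableSet (S m))
    (H : ∀ m ∈ caps ρ, ∀ y ∈ S m, ‖um ρ f m y‖ₑ ≤ ‖um ρ f' m y‖ₑ) : en ρ f S ≤ en ρ f' S := by
  unfold en
  refine Finset.sum_le_sum fun m hm => ?_
  exact setLIntegral_mono' (hS m) fun y hy => pow_le_pow_left' (H m hm y hy) 2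

/-- a decomposition in the frame `ζ` seen in the frame `z`. -/
theorem tr_dec {h : E2 → ℝ} {g : E2 → ℂ} (z : E2 × ℝ) {ζ : E2 × ℝ}
    {Λ : Finset ℕ} {G : ℕ → E2 → ℂ} {e : E2 → ℂ}
    (hdec : ∀ ξ, tr h ζ g ξ = ∑ k ∈ Λ, G k ξ + e ξ) :
    tr h z g = fun ξ => ∑ k ∈ Λ, tr h (z - ζ) (G k) ξ + tr h (z - ζ) e ξ := by
  rw [← tr_sum, ← show z - ζ + ζ = z from sub_add_cancel z ζ, ← tr_add, sub_add_cancel]
  congr 1
  funext ξ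
  exact hdec ξ

/-- pointwise domination: at a phase point where the label `π` dominates. -/
theorem um_dom {h : E2 → ℝ} (hh : Continuous h) {ρ : ℝ} {g : E2 → ℂ} {z ζ : E2 × ℝ}
    {Λ : Finset ℕ} {G : ℕ → E2 → ℂ} {e : E2 → ℂ} (hG : ∀ k ∈ Λ, Gd (G k)) (he : Gd e)
    (hdec : ∀ ξ, tr h ζ g ξ = ∑ k ∈ Λ, G k ξ + e ξ) (m : ℤ × ℤ) (y : E2) (π : ℕ)
    (hmax : ∀ κ ∈ Λ, ‖um ρ (tr h (z - ζ) (G κ)) m y‖ₑ ≤ ‖um ρ (tr h (z - ζ) (G π)) m y‖ₑ) :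
    ‖um ρ (tr h z g) m y‖ₑ ≤ (Λ.card : ℝ≥0∞) * ‖um ρ (tr h (z - ζ) (G π)) m y‖ₑ +
      ‖um ρ (tr h (z - ζ) e) m y‖ₑ := by
  rw [tr_dec z hdec, um_sum Λ (fun k hk => (W323.Gd.tr hh (hG k hk) _).int)
    (W323.Gd.tr hh he _).int m y]
  refine (enorm_add_le _ _).trans ?_
  gcongr
  refine (enorm_sum_le _ _).trans ?_
  refine (Finset.sum_le_sum hmax).trans ?_
  rw [Finset.sum_const, nsmul_eq_mul]

/-- **energy of a selection under domination.** -/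
theorem en_dom {h : E2 → ℝ} (hh : Continuous h) {ρ : ℝ} {g : E2 → ℂ} {z ζ : E2 × ℝ}
    {Λ : Finset ℕ} {G : ℕ → E2 → ℂ} {e : E2 → ℂ} (hG : ∀ k ∈ Λ, Gd (G k)) (he : Gd e)
    (hdec : ∀ ξ, tr h ζ g ξ = ∑ k ∈ Λ, G k ξ + e ξ) {π : ℕ} {S : ℤ × ℤ → Set E2}
    (hmax : ∀ κ ∈ Λ, en ρ (tr h (z - ζ) (G κ)) S ≤ en ρ (tr h (z - ζ) (G π)) S) :
    en ρ (tr h z g) S ≤ ((Λ.card : ℝ≥0∞) + 1) ^ 2 * (en ρ (tr h (z - ζ) (G π)) S +
      en ρ (tr h (z - ζ) e) S) := by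
  rw [tr_dec z hdec]
  refine (en_sum Λ (G := fun k => tr h (z - ζ) (G k)) (e := tr h (z - ζ) e)
    (fun k hk => (W323.Gd.tr hh (hG k hk) _).int) (W323.Gd.tr hh he _).int S).trans ?_
  have h1 : ∑ k ∈ Λ, en ρ (tr h (z - ζ) (G k)) S ≤
      ((Λ.card : ℝ≥0∞) + 1) * en ρ (tr h (z - ζ) (G π)) S := by
    refine (Finset.sum_le_sum hmax).trans ?_
    rw [Finset.sum_const, nsmul_eq_mul]
    gcongr
    exact le_self_add
  calc ((Λ.card : ℝ≥0∞) + 1) * (∑ k ∈ Λ, en ρ (tr h (z - ζ) (G k)) S +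
        en ρ (tr h (z - ζ) e) S)
      ≤ ((Λ.card : ℝ≥0∞) + 1) * (((Λ.card : ℝ≥0∞) + 1) * en ρ (tr h (z - ζ) (G π)) S +
        ((Λ.card : ℝ≥0∞) + 1) * en ρ (tr h (z - ζ) e) S) := by
        gcongr
        exact le_mul_of_one_le_left' le_add_self
    _ = _ := by ring

theorem pow32_two (a b r n : ℝ≥0∞) :
    (r * (n ^ 2 * (a + b))) ^ (3 / 2 : ℝ) ≤
      2 * n ^ 3 * ((r * a) ^ (3 / 2 : ℝ) + (r * b) ^ (3 / 2 : ℝ)) := by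
  have e1 : r * (n ^ 2 * (a + b)) = n ^ 2 * (r * a + r * b) := by ring
  rw [e1, ENNReal.mul_rpow_of_nonneg (n ^ 2) (r * a + r * b) (by norm_num : (0:ℝ) ≤ 3 / 2)]
  have h3 : (n ^ 2) ^ (3 / 2 : ℝ) = n ^ 3 := by
    rw [← ENNReal.rpow_natCast, ← ENNReal.rpow_mul, ← ENNReal.rpow_natCast]
    norm_num
  have h4 : (2 : ℝ≥0∞) ^ ((3 / 2 : ℝ) - 1) ≤ 2 := by
    calc (2 : ℝ≥0∞) ^ ((3 / 2 : ℝ) - 1) ≤ 2 ^ (1 : ℝ) :=
          ENNReal.rpow_le_rpow_of_exponent_le (by norm_num) (by norm_num)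
      _ = 2 := ENNReal.rpow_one _
  rw [h3]
  calc n ^ 3 * (r * a + r * b) ^ (3 / 2 : ℝ)
      ≤ n ^ 3 * (2 ^ ((3 / 2 : ℝ) - 1) * ((r * a) ^ (3 / 2 : ℝ) + (r * b) ^ (3 / 2 : ℝ))) := by
        gcongr
        have := ENNReal.rpow_add_le_mul_rpow_add_rpow (r * a) (r * b) (p := 3 / 2) (by norm_num)
        exact this
    _ ≤ n ^ 3 * (2 * ((r * a) ^ (3 / 2 : ℝ) + (r * b) ^ (3 / 2 : ℝ))) := by gcongr
    _ = _ := by ring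

/-- contribution of one plate under domination. -/
theorem tm_dom {h : E2 → ℝ} (hh : Continuous h) {r s1 s2 : ℝ} {g : E2 → ℂ} {ζ : E2 × ℝ}
    {Λ : Finset ℕ} {G : ℕ → E2 → ℂ} {e : E2 → ℂ} (hG : ∀ k ∈ Λ, Gd (G k)) (he : Gd e)
    (hdec : ∀ ξ, tr h ζ g ξ = ∑ k ∈ Λ, G k ξ + e ξ) {π : ℕ}
    (p : Plate)
    (hmax : ∀ κ ∈ Λ, en (r ^ (-(1/2) : ℝ)) (tr h (p.z - ζ) (G κ)) p.S ≤
      en (r ^ (-(1/2) : ℝ)) (tr h (p.z - ζ) (G π)) p.S) :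
    tm h g r s1 s2 p ≤ 2 * ((Λ.card : ℝ≥0∞) + 1) ^ 3 * (tm h (G π) r s1 s2 (shift ζ p) +
      tm h e r s1 s2 (shift ζ p)) := by
  unfold tm
  have h1 := en_dom hh hG he hdec hmax
  calc ENNReal.ofReal ((s1 * s2 * r ^ 3) ^ (-(1/2) : ℝ)) *
        (ENNReal.ofReal r * en (r ^ (-(1/2) : ℝ)) (tr h p.z g) p.S) ^ (3 / 2 : ℝ)
      ≤ ENNReal.ofReal ((s1 * s2 * r ^ 3) ^ (-(1/2) : ℝ)) *
        (ENNReal.ofReal r * (((Λ.card : ℝ≥0∞) + 1) ^ 2 * (en (r ^ (-(1/2) : ℝ))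
          (tr h (p.z - ζ) (G π)) p.S + en (r ^ (-(1/2) : ℝ)) (tr h (p.z - ζ) e) p.S))) ^
            (3 / 2 : ℝ) := by
        gcongr
    _ ≤ ENNReal.ofReal ((s1 * s2 * r ^ 3) ^ (-(1/2) : ℝ)) *
        (2 * ((Λ.card : ℝ≥0∞) + 1) ^ 3 * ((ENNReal.ofReal r * en (r ^ (-(1/2) : ℝ))
          (tr h (p.z - ζ) (G π)) p.S) ^ (3 / 2 : ℝ) +
          (ENNReal.ofReal r * en (r ^ (-(1/2) : ℝ)) (tr h (p.z - ζ) e) p.S) ^
            (3 / 2 : ℝ))) := by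
        gcongr
        exact pow32_two _ _ _ _
    _ = _ := by
        simp only [shift]
        ring

end Crest.Agent.R138.GR639
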