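import Crest.Agent.R138.WAsm1_188

/-!
# R138 / R139: WAVE assembly, part 2 (helper188): the start `LB 8`, the bound of the plate functional,
the improvement step.
-/

set_option autoImplicit false

open MeasureTheory FourierTransform
open scoped ContDiff ENNReal

namespace Crest.Agent.R138.W188

open Crest.Agent.R138.Defs Crest.Agent.R138.Bil882 Crest.Agent.R138.Wpk685

theorem comb {a b c x : ℝ} (ha : 0 ≤ a) (hx : 0 ≤ x) (hb : 0 ≤ b) {X Y : ℝ≥0∞}
    (hY : Y ≤ ENNReal.ofReal a * X + ENNReal.ofReal b) (hX : X ≤ ENNReal.ofReal x)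
    (h : a * x + b ≤ c) : Y ≤ ENNReal.ofReal c := by
  calc Y ≤ ENNReal.ofReal a * X + ENNReal.ofReal b := hY
    _ ≤ ENNReal.ofReal a * ENNReal.ofReal x + ENNReal.ofReal b := by gcongr
    _ = ENNReal.ofReal (a * x + b) := by
        rw [ENNReal.ofReal_add (by positivity) hb, ENNReal.ofReal_mul ha]
    _ ≤ ENNReal.ofReal c := ENNReal.ofReal_le_ofReal h

variable {B : ℕ → ℝ} {q : ℝ} {F : ℝ → ℝ → ℝ → (E2 → ℝ) → (E2 → ℂ) → ℝ → ℝ≥0∞}

theorem NN_comp (N : ℕ) (h : E2 → ℝ) (g : E2 → ℂ) {w w' a : ℝ} (hw : 0 < w) (hww : w ≤ w')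
    (ha : 0 ≤ a) (haw : w' ≤ a * w) (R : ℝ) :
    NN N h g w R ≤ ENNReal.ofReal ((a ^ 3) ^ (3/2 : ℝ)) * NN N h g w' R := by
  have hw' : 0 < w' := lt_of_lt_of_le hw hww
  unfold NN
  rw [← lintegral_const_mul' _ _ ENNReal.ofReal_ne_top]
  apply lintegral_mono
  intro z
  dsimp only
  rw [← ENNReal.ofReal_rpow_of_nonneg (by positivity) (by norm_num),
    ← ENNReal.mul_rpow_of_nonneg _ _ (by norm_num : (0:ℝ) ≤ 3/2)]
  apply ENNReal.rpow_le_rpow _ (by norm_num)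
  rw [← mul_assoc, ← ENNReal.ofReal_mul (by positivity)]
  gcongr with p
  · rw [← div_eq_mul_inv, le_div_iff₀ (by positivity), inv_mul_le_iff₀ (by positivity)]
    calc w' ^ 3 ≤ (a * w) ^ 3 := by gcongr
      _ = w ^ 3 * a ^ 3 := by ring
  · unfold wt
    gcongr

/-- the start. -/
theorem LB_start (HH : HALF B q) (HK : KMw B q) (HT1 : TRIV1 B q) (HT2 : TRIV2 B q F)
    (H1 : A1 B q F) : LB B q 1 8 := by
  apply HH 8 (by norm_num)
  intro ε hε Na M0
  obtain ⟨K0, hK0, HT2⟩ := HT2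
  set e : ℝ := min (ε / 4) (1/4) with he
  have hep : 0 < e := lt_min (by positivity) (by norm_num)
  have he4 : e ≤ 1/4 := min_le_right _ _
  have heε : 4 * e ≤ ε := by
    have : e ≤ ε / 4 := min_le_left _ _
    linarith
  obtain ⟨Na', H1⟩ := H1 e hep
  obtain ⟨N0, H1⟩ := H1 Na M0
  obtain ⟨N3, C3, hC3, HT3⟩ := HT1 Na' 4
  obtain ⟨N4, C5, hC5, HT4⟩ := HT1 Na M0
  obtain ⟨N2, C2, hC2, HK2⟩ := HK e hep Na' 4
  obtain ⟨N5, C6, hC6, HK6⟩ := HK e hep Na M0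
  obtain ⟨C4, hC4, HT2⟩ := HT2 e hep Na M0
  set N : ℕ := max N0 (max (max N2 N3) (max N4 N5)) with hN
  obtain ⟨C, hC, H1⟩ := H1 N (le_max_left _ _)
  have hN2 : N2 ≤ N := (le_max_left _ _).trans ((le_max_left _ _).trans (le_max_right _ _))
  have hN3 : N3 ≤ N := (le_max_right _ _).trans ((le_max_left _ _).trans (le_max_right _ _))
  have hN4 : N4 ≤ N := (le_max_left _ _).trans ((le_max_right _ _).trans (le_max_right _ _))
  have hN5 : N5 ≤ N := (le_max_right _ _).trans ((le_max_right _ _).trans (le_max_right _ _))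
  have hK00 : 0 < K0 := by linarith
  set CA : ℝ := C * (C3 + 1) * (C4 * K0 ^ (2:ℝ)) with hCA
  set CB : ℝ := C * (C2 + 1) * C4 with hCB
  set CD : ℝ := C5 * (K0 ^ (2:ℝ)) ^ |M0 / 2| with hCD
  set CE : ℝ := (K0 ^ 3) ^ (3/2 : ℝ) * C6 with hCE
  have hCA0 : 0 ≤ CA := by positivity
  have hCB0 : 0 ≤ CB := by positivity
  have hCD0 : 0 ≤ CD := by positivity
  have hCE0 : 0 ≤ CE := by positivity
  refine ⟨N, CA + CB + C + CD + CE, by positivity, ?_⟩
  intro h g R D w hSt hw hwR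
  have hR := hSt.R1
  have hR0 := hSt.Rpos
  have hss := hSt.ss
  have hw0 : 0 < w := by linarith
  have hX1 := one_le_R_div hR hw hwR
  set X : ℝ := R / w ^ 2 with hX
  have hX0 : 0 < X := by linarith
  have hSt1 : St B q Na M0 1 h g R D := hSt.mono (by norm_num)
  have hRe : 1 ≤ R ^ e := Real.one_le_rpow hR hep.le
  have hRε : 1 ≤ R ^ ε := Real.one_le_rpow hR hε.le
  have hRee : R ^ e ≤ R ^ ε := rpow_le_rpow_of_one_le hR (by linarith)
  have hX4 : 1 ≤ X ^ (8 / 2 : ℝ) := Real.one_le_rpow hX1 (by norm_num)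
  rcases le_or_gt R (K0 ^ (2:ℝ)) with hsm | hbig
  · -- bounded scale
    refine (NN_anti hN4 h g hw0 R).trans ((HT4 h g R D w hSt1 hw).trans ?_)
    apply ENNReal.ofReal_le_ofReal
    have h5 : R ^ (M0 / 2) ≤ (K0 ^ (2:ℝ)) ^ |M0 / 2| := by
      calc R ^ (M0 / 2) ≤ R ^ |M0 / 2| := rpow_le_rpow_of_one_le hR (le_abs_self _)
        _ ≤ (K0 ^ (2:ℝ)) ^ |M0 / 2| := by gcongr
    calc C5 * R ^ (M0 / 2) * SS g R D ≤ CD * 1 * 1 * SS g R D := by
          rw [mul_one, mul_one, hCD]; gcongr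
      _ ≤ (CA + CB + C + CD + CE) * R ^ ε * X ^ (8/2 : ℝ) * SS g R D := by gcongr; linarith
  have hRK : K0 * R ^ (1/2 : ℝ) ≤ R := by
    have h6 : K0 ≤ R ^ (1/2 : ℝ) := by
      calc K0 = (K0 ^ (2:ℝ)) ^ (1/2 : ℝ) := by rw [← Real.rpow_mul hK00.le]; norm_num
        _ ≤ R ^ (1/2 : ℝ) := by gcongr
    calc K0 * R ^ (1/2 : ℝ) ≤ R ^ (1/2 : ℝ) * R ^ (1/2 : ℝ) := by gcongr
      _ = R := by rw [← Real.rpow_add hR0]; norm_num
  have hRR : R ^ (1/2 : ℝ) ≤ R / K0 := by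
    rw [le_div_iff₀ hK00, mul_comm]; exact hRK
  have hRK1 : 1 ≤ R / K0 := (Real.one_le_rpow hR (by norm_num)).trans hRR
  rcases le_or_gt (w ^ 2) (R ^ (1/2 : ℝ)) with hc | hc
  · have hwr : w ≤ (R / K0) ^ (1/2 : ℝ) := by
      calc w = (w ^ 2) ^ (1/2 : ℝ) := by
            rw [← Real.rpow_natCast, ← Real.rpow_mul hw0.le]; norm_num
        _ ≤ (R / K0) ^ (1/2 : ℝ) := by
            apply Real.rpow_le_rpow (by positivity) (hc.trans hRR) (by norm_num)
    obtain ⟨s1, s2, hsd, h2⟩ := H1 h g R D hSt (R / K0) w hRR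
      (div_le_self hR0.le hK0) hw hwr ((C3 + 1) * R ^ (2:ℝ))
      (by
        have : 1 ≤ R ^ (2:ℝ) := Real.one_le_rpow hR (by norm_num)
        exact one_le_mul_of_one_le_of_one_le (by linarith) this)
      (by
        intro g' D' hSt'
        refine (NN_anti hN3 h g' hw0 _).trans ((HT3 h g' _ D' w hSt' hw).trans ?_)
        apply ENNReal.ofReal_le_ofReal
        have := hSt'.ss
        have e2 : (4:ℝ) / 2 = 2 := by norm_num
        have e3 : R / K0 ≤ R := div_le_self hR0.le hK0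
        rw [e2]
        gcongr
        linarith)
    have h3 := HT2 h g R D (R / K0) s1 s2 hSt1 hRR (by field_simp; exact le_rfl) hsd
    have hX2 : R ^ (2:ℝ) ≤ X ^ (8/2 : ℝ) := by
      have h5 : R ^ (1/2 : ℝ) ≤ X := by
        rw [hX, le_div_iff₀ (by positivity)]
        calc R ^ (1/2 : ℝ) * w ^ 2 ≤ R ^ (1/2 : ℝ) * R ^ (1/2 : ℝ) := by gcongr
          _ = R := by rw [← Real.rpow_add hR0]; norm_num
      calc R ^ (2:ℝ) = (R ^ (1/2 : ℝ)) ^ (8/2 : ℝ) := by rw [← Real.rpow_mul hR0.le]; norm_num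
        _ ≤ X ^ (8/2 : ℝ) := by gcongr
    have hR2 : R ^ e * R ^ e ≤ R ^ ε := by
      rw [← Real.rpow_add hR0]; exact rpow_le_rpow_of_one_le hR (by linarith)
    refine comb (by positivity) (by positivity) (by positivity) h2 h3 ?_
    have e1 : (R / (R / K0)) ^ (2:ℝ) = K0 ^ (2:ℝ) := by
      congr 1; field_simp
    rw [e1]
    calc C * R ^ e * ((C3 + 1) * R ^ (2:ℝ)) * (C4 * R ^ e * K0 ^ (2:ℝ) * SS g R D) + C * SS g R D
        = CA * (R ^ e * R ^ e) * R ^ (2:ℝ) * SS g R D + C * 1 * 1 * SS g R D := by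
          rw [hCA]; ring
      _ ≤ CA * R ^ ε * X ^ (8/2 : ℝ) * SS g R D +
          C * R ^ ε * X ^ (8/2 : ℝ) * SS g R D := by gcongr
      _ = (CA + C) * R ^ ε * X ^ (8/2 : ℝ) * SS g R D := by ring
      _ ≤ (CA + CB + C + CD + CE) * R ^ ε * X ^ (8/2 : ℝ) * SS g R D := by
          have : CA + C ≤ CA + CB + C + CD + CE := by linarith
          gcongr
  rcases le_or_gt X K0 with hXs | hXb
  · -- `w` comparable to `R^{1/2}`
    have hww : R ^ (1/2 : ℝ) ≤ K0 * w := by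
      have h7 : R ≤ (K0 * w) ^ 2 := by
        have : R = X * w ^ 2 := by rw [hX]; field_simp
        rw [this, mul_pow]
        have : X ≤ K0 ^ 2 := hXs.trans (by nlinarith)
        gcongr
      calc R ^ (1/2 : ℝ) ≤ ((K0 * w) ^ 2) ^ (1/2 : ℝ) := by gcongr
        _ = K0 * w := by rw [← Real.rpow_natCast, ← Real.rpow_mul (by positivity)]; norm_num
    refine (NN_anti hN5 h g hw0 R).trans ((NN_comp N5 h g hw0 hwR hK00.le hww R).trans ?_)
    have h8 := HK6 h g R D (R ^ (1/2 : ℝ)) hSt1 le_rfl (rpow_le_rpow_of_one_le hR (by linarith))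
    refine (mul_le_mul_right h8 _).trans ?_
    rw [← ENNReal.ofReal_mul (by positivity)]
    apply ENNReal.ofReal_le_ofReal
    calc (K0 ^ 3) ^ (3/2 : ℝ) * (C6 * R ^ e * SS g R D) = CE * R ^ e * 1 * SS g R D := by
          rw [hCE]; ring
      _ ≤ _ := by gcongr; linarith
  · have hw2R : w ^ 2 ≤ R := by
      rw [hX, le_div_iff₀ (by positivity), one_mul] at hX1; exact hX1
    have hw2K : K0 * w ^ 2 ≤ R := by
      rw [hX, lt_div_iff₀ (by positivity)] at hXb; exact hXb.le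
    have hw2 : (w ^ 2) ^ (1/2 : ℝ) = w := by
      rw [← Real.rpow_natCast, ← Real.rpow_mul hw0.le]; norm_num
    obtain ⟨s1, s2, hsd, h2⟩ := H1 h g R D hSt (w ^ 2) w hc.le hw2R hw (by rw [hw2])
      ((C2 + 1) * R ^ e) (by nlinarith)
      (by
        intro g' D' hSt'
        refine (NN_anti hN2 h g' hw0 (w ^ 2)).trans ((HK2 h g' (w ^ 2) D' w hSt' (by rw [hw2])
          ?_).trans ?_)
        · calc w = w ^ (1:ℝ) := (Real.rpow_one w).symm
            _ ≤ w ^ (2 * (1 - e)) := rpow_le_rpow_of_one_le hw (by linarith)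
            _ = (w ^ 2) ^ (1 - e) := by
                rw [← Real.rpow_natCast w 2, ← Real.rpow_mul hw0.le]; norm_num
        apply ENNReal.ofReal_le_ofReal
        have := hSt'.ss
        gcongr
        linarith)
    have h3 := HT2 h g R D (w ^ 2) s1 s2 hSt1 hc.le hw2K hsd
    have hR2 : R ^ e * R ^ e * R ^ e ≤ R ^ ε := by
      rw [← Real.rpow_add hR0, ← Real.rpow_add hR0]
      exact rpow_le_rpow_of_one_le hR (by linarith)
    refine comb (by positivity) (by positivity) (by positivity) h2 h3 ?_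
    calc C * R ^ e * ((C2 + 1) * R ^ e) * (C4 * R ^ e * (R / w ^ 2) ^ (2:ℝ) * SS g R D) +
          C * SS g R D
        = CB * (R ^ e * R ^ e * R ^ e) * X ^ (2:ℝ) * SS g R D +
          C * 1 * 1 * SS g R D := by rw [hCB]; ring
      _ ≤ CB * R ^ ε * X ^ (8/2 : ℝ) * SS g R D +
          C * R ^ ε * X ^ (8/2 : ℝ) * SS g R D := by
          gcongr
          norm_num
      _ = (CB + C) * R ^ ε * X ^ (8/2 : ℝ) * SS g R D := by ring
      _ ≤ (CA + CB + C + CD + CE) * R ^ ε * X ^ (8/2 : ℝ) * SS g R D := by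
          have : CB + C ≤ CA + CB + C + CD + CE := by linarith
          gcongr

/-- the improved bound near the end, extended to `1 ≤ w ≤ a R^{1/2}`. -/
theorem GNX {c β : ℝ} (hc : 0 ≤ c) (hβ : 0 ≤ β) (H : LB B q 1 c) (HK : KMw B q) (HT : TRIV1 B q)
    (HE : END B q β) (H5 : A5b B q) :
    ∀ ε : ℝ, 0 < ε → ∀ (a : ℝ), 1 ≤ a → ∀ (Na : ℕ) (M0 : ℝ), ∃ N : ℕ, ∃ C : ℝ, 0 ≤ C ∧
      ∀ h g R D w, St B q Na M0 1 h g R D → 1 ≤ w → w ≤ a * R ^ (1/2 : ℝ) →
        NN N h g w R ≤ ENNReal.ofReal (C * R ^ (β / 2 + ε) * SS g R D) := by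
  intro ε hε a ha Na M0
  obtain ⟨c0, hc0, hc01, H5⟩ := H5
  obtain ⟨N1, Na', M0', C1, hC1, H5⟩ := H5 (ε / 2) (by positivity) Na M0
  obtain ⟨C2, hC2, HE⟩ := HE (ε / 2) (by positivity) Na' M0'
  obtain ⟨N3, C3, hC3, HX⟩ := LBX hc H HK HT ε hε a ha Na M0
  refine ⟨max N1 N3, C1 * (C2 + 1) + C3, by positivity, ?_⟩
  intro h g R D w hSt hw hwa
  have hR := hSt.R1
  have hR0 := hSt.Rpos
  have hss := hSt.ss
  have hw0 : 0 < w := by linarith
  rcases le_or_gt w (R ^ (1/2 : ℝ)) with h1 | h1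
  · refine (NN_anti (le_max_left _ _) h g hw0 R).trans ?_
    have h2 := H5 h g R D hSt w hw h1 ((C2 + 1) * R ^ (β / 2 + ε / 2))
      (by
        have : 1 ≤ R ^ (β / 2 + ε / 2) := Real.one_le_rpow hR (by positivity)
        nlinarith)
      (by
        intro h' g' R' D' hSt' hR1 hR2
        refine (HE h' g' R' D' hSt').trans (ENNReal.ofReal_le_ofReal ?_)
        have := hSt'.ss
        have := hSt'.Rpos
        gcongr
        linarith)
    refine h2.trans (ENNReal.ofReal_le_ofReal ?_)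
    have e1 : R ^ (β / 2 + ε) = R ^ (ε / 2) * R ^ (β / 2 + ε / 2) := by
      rw [← Real.rpow_add hR0]; ring_nf
    rw [e1]
    have : 0 ≤ C3 * (R ^ (ε / 2) * R ^ (β / 2 + ε / 2)) * SS g R D := by positivity
    nlinarith
  · refine (NN_anti (le_max_right _ _) h g hw0 R).trans ((HX h g R D w hSt hw hwa).trans ?_)
    apply ENNReal.ofReal_le_ofReal
    have e1 : max 1 (R / w ^ 2) = 1 := by
      apply max_eq_left
      rw [div_le_one (by positivity)]
      calc R = (R ^ (1/2 : ℝ)) ^ 2 := by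
            rw [← Real.rpow_natCast, ← Real.rpow_mul hR0.le]; norm_num
        _ ≤ w ^ 2 := by gcongr
    rw [e1, Real.one_rpow, mul_one]
    have h3 : R ^ ε ≤ R ^ (β / 2 + ε) := rpow_le_rpow_of_one_le hR (by linarith)
    have : 0 ≤ C1 * (C2 + 1) := by positivity
    gcongr
    linarith

/-- abbreviation: the penalised plate functional. -/
noncomputable def Ph (q : ℝ) (F : ℝ → ℝ → ℝ → (E2 → ℝ) → (E2 → ℂ) → ℝ → ℝ≥0∞) (r s1 s2 : ℝ)
    (h : E2 → ℝ) (g : E2 → ℂ) (R : ℝ) : ℝ≥0∞ := ENNReal.ofReal (s2 ^ (-q / 2)) * F r s1 s2 h g R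

theorem Sd.s2pos {r s1 s2 : ℝ} (hr : 0 < r) (H : Sd r s1 s2) : 0 < s1 ∧ 0 < s2 := by
  have h1 : 0 < s1 := lt_of_lt_of_le (by positivity) H.lo
  exact ⟨h1, lt_of_lt_of_le h1 H.le⟩

theorem Sd.facts {r s1 s2 : ℝ} (hr : 0 < r) (H : Sd r s1 s2) :
    1 ≤ s1 ^ 2 * r ∧ 1 ≤ s2 * s1 * r := by
  have h1 : 1 ≤ s1 ^ 2 * r := by
    have h2 : (r ^ (-(1/2) : ℝ)) ^ 2 * r = 1 := by
      rw [← Real.rpow_natCast, ← Real.rpow_mul hr.le]
      nth_rewrite 2 [← Real.rpow_one r]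
      rw [← Real.rpow_add hr]
      norm_num
    have h3 : 0 < r ^ (-(1/2) : ℝ) := by positivity
    calc 1 = (r ^ (-(1/2) : ℝ)) ^ 2 * r := h2.symm
      _ ≤ s1 ^ 2 * r := by gcongr; exact H.lo
  refine ⟨h1, h1.trans ?_⟩
  have := (H.s2pos hr).1
  have h4 := H.le
  calc s1 ^ 2 * r = s1 * s1 * r := by ring
    _ ≤ s2 * s1 * r := by gcongr

/-- **two bounds of the plate functional.** -/
theorem Ph_bound {c β : ℝ} (hc : 0 ≤ c) (hβ : 0 ≤ β) (H : LB B q 1 c) (HK : KMw B q)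
    (HT : TRIV1 B q) (HE : END B q β) (H5 : A5b B q) (H2 : A2 B q F) (H2K : A2K B q F) :
    ∀ e : ℝ, 0 < e → ∀ (Na : ℕ) (M0 : ℝ), ∃ C : ℝ, 0 ≤ C ∧
      ∀ h g R D, St B q Na M0 1 h g R D → ∀ r s1 s2, R ^ (1/2 : ℝ) ≤ r → r ≤ R ^ (1 - e) →
        Sd r s1 s2 →
        Ph q F r s1 s2 h g R ≤
          ENNReal.ofReal (C * R ^ (2 * e) * (max 1 (R / (s1 * r) ^ 2)) ^ (c / 2) * SS g R D) ∧
        Ph q F r s1 s2 h g R ≤
          ENNReal.ofReal (C * R ^ (2 * e) * (s2 ^ 2 * R) ^ (β / 2) * SS g R D) := by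
  intro e he Na M0
  obtain ⟨c0, hc0, hc01, H2⟩ := H2
  obtain ⟨Na', M0', H2⟩ := H2 e he Na M0
  obtain ⟨C1, hC1, H2K⟩ := H2K e he Na M0
  have ha : 1 ≤ c0⁻¹ * c0 ^ (-(1/2) : ℝ) := by
    have h1 : 1 ≤ c0⁻¹ := (one_le_inv₀ hc0).2 hc01
    have h2 : 1 ≤ c0 ^ (-(1/2) : ℝ) := Real.one_le_rpow_of_pos_of_le_one_of_nonpos hc0 hc01 (by norm_num)
    nlinarith
  obtain ⟨N2, C2, hC2, HX⟩ := LBX hc H HK HT e he _ ha Na' M0'
  obtain ⟨N3, C3, hC3, HG⟩ := GNX hc hβ H HK HT HE H5 e he _ ha Na' M0'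
  set N : ℕ := max N2 N3 with hN
  obtain ⟨C4, hC4, H2⟩ := H2 N
  refine ⟨C1 + C4 * (C2 + 1) + C4 * (C3 + 1), by positivity, ?_⟩
  intro h g R D hSt r s1 s2 hr1 hr2 hsd
  have hR := hSt.R1
  have hR0 := hSt.Rpos
  have hss := hSt.ss
  have hr0 : 0 < r := lt_of_lt_of_le (by positivity) hr1
  obtain ⟨hs1, hs2⟩ := hsd.s2pos hr0
  obtain ⟨hf1, hf2⟩ := hsd.facts hr0
  have hrR : r ≤ R := hr2.trans (by
    calc R ^ (1 - e) ≤ R ^ (1:ℝ) := rpow_le_rpow_of_one_le hR (by linarith)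
      _ = R := Real.rpow_one R)
  have hs12 : s1 ^ 2 ≤ s2 ^ 2 := by have := hsd.le; gcongr
  have hY : 1 ≤ s2 ^ 2 * R := by
    calc 1 ≤ s1 ^ 2 * r := hf1
      _ ≤ s2 ^ 2 * R := by gcongr
  have hYR : s2 ^ 2 * R ≤ R := by
    have : s2 ^ 2 ≤ 1 := pow_le_one₀ hs2.le hsd.hi
    nlinarith
  have hYβ : 1 ≤ (s2 ^ 2 * R) ^ (β / 2) := Real.one_le_rpow hY (by positivity)
  have hm : 1 ≤ (max 1 (R / (s1 * r) ^ 2)) ^ (c / 2) :=
    Real.one_le_rpow (le_max_left _ _) (by positivity)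
  have hRe : 1 ≤ R ^ e := Real.one_le_rpow hR he.le
  have hRe2 : R ^ e ≤ R ^ (2 * e) := rpow_le_rpow_of_one_le hR (by linarith)
  have hRe2' : R ^ (2 * e) = R ^ e * R ^ e := by rw [← Real.rpow_add hR0]; ring_nf
  rcases le_or_gt (R ^ (1/2 : ℝ)) (s1 * r) with hk | hk
  · have h1 := H2K h g R D hSt r s1 s2 hr1 hr2 hsd hk
    have h2 : 0 ≤ C4 * (C2 + 1) := by positivity
    have h3 : 0 ≤ C4 * (C3 + 1) := by positivity
    constructor
    · refine h1.trans (ENNReal.ofReal_le_ofReal ?_)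
      calc C1 * R ^ e * SS g R D = C1 * R ^ e * 1 * SS g R D := by ring
        _ ≤ _ := by gcongr; linarith
    · refine h1.trans (ENNReal.ofReal_le_ofReal ?_)
      calc C1 * R ^ e * SS g R D = C1 * R ^ e * 1 * SS g R D := by ring
        _ ≤ _ := by gcongr; linarith
  · have hpw : ∀ (R' w' : ℝ), 0 < R' → c0 * (s2 ^ 2 * R) ≤ R' → w' ≤ c0⁻¹ * (s2 * s1 * r) →
        w' ≤ c0⁻¹ * c0 ^ (-(1/2) : ℝ) * R' ^ (1/2 : ℝ) := by
      intro R' w' hR' h1 h2
      have h3 : s2 * R ^ (1/2 : ℝ) ≤ c0 ^ (-(1/2) : ℝ) * R' ^ (1/2 : ℝ) := by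
        have h4 : (c0 * (s2 ^ 2 * R)) ^ (1/2 : ℝ) ≤ R' ^ (1/2 : ℝ) := by gcongr
        have h5 : (c0 * (s2 ^ 2 * R)) ^ (1/2 : ℝ) = c0 ^ (1/2 : ℝ) * (s2 * R ^ (1/2 : ℝ)) := by
          rw [Real.mul_rpow hc0.le (by positivity), Real.mul_rpow (by positivity) hR0.le,
            ← Real.rpow_natCast s2, ← Real.rpow_mul hs2.le]
          norm_num
        have h6 : c0 ^ (-(1/2) : ℝ) * c0 ^ (1/2 : ℝ) = 1 := by
          rw [← Real.rpow_add hc0]; norm_num
        calc s2 * R ^ (1/2 : ℝ) = c0 ^ (-(1/2) : ℝ) * (c0 ^ (1/2 : ℝ) * (s2 * R ^ (1/2 : ℝ))) := by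
              rw [← mul_assoc, h6, one_mul]
          _ ≤ c0 ^ (-(1/2) : ℝ) * R' ^ (1/2 : ℝ) := by
              rw [← h5]; gcongr
      calc w' ≤ c0⁻¹ * (s2 * s1 * r) := h2
        _ = c0⁻¹ * (s2 * (s1 * r)) := by ring
        _ ≤ c0⁻¹ * (s2 * R ^ (1/2 : ℝ)) := by gcongr
        _ ≤ c0⁻¹ * (c0 ^ (-(1/2) : ℝ) * R' ^ (1/2 : ℝ)) := by gcongr
        _ = _ := by ring
    constructor
    · have h1 := H2 h g R D hSt r s1 s2 hr1 hr2 hsd hk.le
        ((C2 + 1) * R ^ e * (max 1 (R / (s1 * r) ^ 2)) ^ (c / 2))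
        (by
          have : 1 ≤ C2 + 1 := by linarith
          calc (1:ℝ) = 1 * 1 * 1 := by ring
            _ ≤ _ := by gcongr)
        (by
          intro h' g' R' D' w' hSt' hR1 hR2 hw1 hw2
          have hR'0 := hSt'.Rpos
          have hw'1 : 1 ≤ w' := hf2.trans hw1
          have hss' := hSt'.ss
          refine (NN_anti (le_max_left _ _) h' g' (by linarith) R').trans
            ((HX h' g' R' D' w' hSt' hw'1 (hpw R' w' hR'0 hR1 hw2)).trans ?_)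
          apply ENNReal.ofReal_le_ofReal
          have h7 : R' / w' ^ 2 ≤ R / (s1 * r) ^ 2 := by
            calc R' / w' ^ 2 ≤ (s2 ^ 2 * R) / (s2 * s1 * r) ^ 2 := by gcongr
              _ = R / (s1 * r) ^ 2 := by field_simp
          have h8 : R' ≤ R := hR2.trans hYR
          have h9 : max 1 (R' / w' ^ 2) ≤ max 1 (R / (s1 * r) ^ 2) := max_le_max le_rfl h7
          gcongr
          linarith)
      refine h1.trans (ENNReal.ofReal_le_ofReal ?_)
      rw [hRe2']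
      have h10 : 0 ≤ C4 * (C3 + 1) := by positivity
      calc C4 * R ^ e * ((C2 + 1) * R ^ e * (max 1 (R / (s1 * r) ^ 2)) ^ (c / 2)) * SS g R D
          = C4 * (C2 + 1) * (R ^ e * R ^ e) * (max 1 (R / (s1 * r) ^ 2)) ^ (c / 2) * SS g R D := by
            ring
        _ ≤ _ := by gcongr; linarith
    · have h1 := H2 h g R D hSt r s1 s2 hr1 hr2 hsd hk.le
        ((C3 + 1) * R ^ e * (s2 ^ 2 * R) ^ (β / 2))
        (by
          have : 1 ≤ C3 + 1 := by linarith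
          calc (1:ℝ) = 1 * 1 * 1 := by ring
            _ ≤ _ := by gcongr)
        (by
          intro h' g' R' D' w' hSt' hR1 hR2 hw1 hw2
          have hR'0 := hSt'.Rpos
          have hw'1 : 1 ≤ w' := hf2.trans hw1
          have hss' := hSt'.ss
          refine (NN_anti (le_max_right _ _) h' g' (by linarith) R').trans
            ((HG h' g' R' D' w' hSt' hw'1 (hpw R' w' hR'0 hR1 hw2)).trans ?_)
          apply ENNReal.ofReal_le_ofReal
          have h8 : R' ≤ R := hR2.trans hYR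
          rw [Real.rpow_add hR'0]
          calc C3 * (R' ^ (β / 2) * R' ^ e) * SS g' R' D'
              ≤ (C3 + 1) * ((s2 ^ 2 * R) ^ (β / 2) * R ^ e) * SS g' R' D' := by
                gcongr; linarith
            _ = _ := by ring)
      refine h1.trans (ENNReal.ofReal_le_ofReal ?_)
      rw [hRe2']
      have h10 : 0 ≤ C4 * (C2 + 1) := by positivity
      calc C4 * R ^ e * ((C3 + 1) * R ^ e * (s2 ^ 2 * R) ^ (β / 2)) * SS g R D
          = C4 * (C3 + 1) * (R ^ e * R ^ e) * (s2 ^ 2 * R) ^ (β / 2) * SS g R D := by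
            ring
        _ ≤ _ := by gcongr; linarith

end Crest.Agent.R138.W188
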