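import Crest.Agent.R138.GenRoot1_639
import Crest.Agent.R138.WAsm2_188

/-!
# R138 wave side: domination and one step (helper639), part 2: ROOT and GEN
-/

set_option autoImplicit false

open MeasureTheory FourierTransform
open scoped ContDiff ENNReal

namespace Crest.Agent.R138.GR639

open Crest.Agent.R138.Defs Crest.Agent.R138.Bil882 Crest.Agent.R138.W188
open Crest.Agent.R138.Wpk685 Crest.Agent.R138.W323

/-- the union of plate systems with separated frames. -/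
theorem plG_sigma {A : ℝ} {h : E2 → ℝ} {r s1 s2 R : ℝ} (Z : Finset (E2 × ℝ))
    (hsep : ∀ z ∈ Z, ∀ z' ∈ Z, Sep r z z')
    (I : E2 × ℝ → Finset ℕ) (P : E2 × ℝ → ℕ → Plate)
    (hP : ∀ z ∈ Z, Plates A h r s1 s2 R (I z) (P z)) (hz : ∀ z ∈ Z, ∀ i ∈ I z, (P z i).z = z) :
    PlG A h r s1 s2 R (Z.sigma I) (fun j => P j.1 j.2) := by
  refine ⟨fun j hj => ?_, fun j hj j' hj' => ?_, fun j hj => ?_, fun j hj m => ?_,
    fun j hj m => ?_, fun j hj j' hj' hne hzz m => ?_⟩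
  · obtain ⟨h1, h2⟩ := Finset.mem_sigma.1 hj
    exact (hP _ h1).mem _ h2
  · obtain ⟨h1, h2⟩ := Finset.mem_sigma.1 hj
    obtain ⟨h1', h2'⟩ := Finset.mem_sigma.1 hj'
    simp only [hz _ h1 _ h2, hz _ h1' _ h2']
    exact hsep _ h1 _ h1'
  · obtain ⟨h1, h2⟩ := Finset.mem_sigma.1 hj
    exact (hP _ h1).x _ h2
  · obtain ⟨h1, h2⟩ := Finset.mem_sigma.1 hj
    exact (hP _ h1).meas _ h2 m
  · obtain ⟨h1, h2⟩ := Finset.mem_sigma.1 hj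
    exact (hP _ h1).box _ h2 m
  · obtain ⟨h1, h2⟩ := Finset.mem_sigma.1 hj
    obtain ⟨h1', h2'⟩ := Finset.mem_sigma.1 hj'
    simp only [hz _ h1 _ h2, hz _ h1' _ h2'] at hzz
    obtain ⟨z, i⟩ := j
    obtain ⟨z', i'⟩ := j'
    simp only at hzz h1 h2 h1' h2' ⊢
    subst hzz
    refine (hP _ h1).disj i h2 i' h2' (fun hii => hne (by rw [hii])) ?_ m
    rw [hz _ h1 _ h2, hz _ h1 _ h2']

/-- **ROOT**: the normalising quantity of one label at one level is bounded by the plate functional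
of the root. -/
theorem root_le {q A σ Cn : ℝ} {B : ℕ → ℝ} {nb M : ℕ} {h : E2 → ℝ} {g : E2 → ℂ} {R r : ℝ}
    {cls : E2 × ℝ → OrthonormalBasis (Fin 2) ℝ E2 → ℤ × ℤ → E2 → ℕ}
    {Λ : Finset ℕ} {s : ℕ → ℝ × ℝ} {cl : ℕ → ℕ} {G : E2 × ℝ → ℕ → E2 → ℂ}
    {D' : E2 × ℝ → ℕ → ℝ} {rest : E2 × ℝ → E2 → ℂ} {I : E2 × ℝ → ℕ → Finset ℕ}
    {P : E2 × ℝ → ℕ → ℕ → Plate} (Z : Finset (E2 × ℝ))
    (hsep : ∀ z ∈ Z, ∀ z' ∈ Z, Sep r z z')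
    (H : ∀ z ∈ Z, DecOut q A σ Cn B nb M h g R r z (cls z) Λ s cl (G z) (D' z) (rest z) (I z)
      (P z)) {k : ℕ} (hk : k ∈ Λ) :
    ∑ z ∈ Z, ENNReal.ofReal (SS (G z k) r (D' z k)) ≤
      ENNReal.ofReal (Cn * nb) * Ph q (SIG A) r (s k).1 (s k).2 h g R := by
  refine (Finset.sum_le_sum fun z hz => (H z hz).ss k hk).trans ?_
  rw [← Finset.mul_sum, ← Finset.mul_sum]
  unfold Ph
  gcongr
  exact sum_val_le_SIG Z hsep (fun z => I z k) (fun z => P z k)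
    (fun z hz => ((H z hz).pl k hk).1) (fun z hz => ((H z hz).pl k hk).2) g

/-- the contribution of the rests. -/
theorem rest_sum {A : ℝ} {h : E2 → ℝ} (hA : 0 ≤ A) {R r2 s1 s2 : ℝ}
    (hr2 : 0 ≤ r2) (hs1 : s1 ≤ 1) (hs2 : s2 ≤ 1) (Z : Finset (E2 × ℝ))
    (I : E2 × ℝ → Finset ℕ) (P : E2 × ℝ → ℕ → Plate)
    (hP : ∀ z ∈ Z, Plates A h r2 s1 s2 R (I z) (P z)) (hz : ∀ z ∈ Z, ∀ i ∈ I z, (P z i).z = z)
    (ζ : E2 × ℝ → E2 × ℝ) (e : E2 × ℝ → E2 → ℂ)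
    (W : ℝ≥0∞) (hW : ∀ z ∈ Z, en (r2 ^ (-(1/2) : ℝ)) (tr h (z - ζ z) (e (ζ z)))
      (fun _ => Metric.closedBall 0 (3 * A * r2)) ≤ W) :
    ∑ z ∈ Z, ∑ i ∈ I z, tm h (e (ζ z)) r2 s1 s2 (shift (ζ z) (P z i)) ≤
      ENNReal.ofReal ((s1 * s2 * r2 ^ 3) ^ (-(1/2) : ℝ)) *
          (ENNReal.ofReal r2 * ((Z.card : ℝ≥0∞) * W)) ^ (3 / 2 : ℝ) := by
  classical
  unfold tm
  rw [Finset.sum_sigma' Z I, ← Finset.mul_sum]
  gcongr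
  refine (sum_rpow_le (Z.sigma I) _ (by norm_num)).trans ?_
  rw [← Finset.mul_sum]
  gcongr
  rw [← Finset.sum_sigma' Z I (fun z i => en (r2 ^ (-(1/2) : ℝ))
    (tr h (shift (ζ z) (P z i)).z (e (ζ z))) (shift (ζ z) (P z i)).S)]
  have h2 : ∀ z ∈ Z, ∑ i ∈ I z, en (r2 ^ (-(1/2) : ℝ))
      (tr h (shift (ζ z) (P z i)).z (e (ζ z))) (shift (ζ z) (P z i)).S ≤ W := by
    intro z hzz
    have h3 : ∑ i ∈ I z, en (r2 ^ (-(1/2) : ℝ))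
        (tr h (shift (ζ z) (P z i)).z (e (ζ z))) (shift (ζ z) (P z i)).S =
        ∑ i ∈ I z, en (r2 ^ (-(1/2) : ℝ)) (tr h (z - ζ z) (e (ζ z))) (P z i).S := by
      refine Finset.sum_congr rfl fun i hi => ?_
      unfold shift
      simp only [hz z hzz i hi]
    rw [h3]
    refine (en_union _ (fun i => (P z i).S) (fun _ => Metric.closedBall 0 (3 * A * r2))
      (fun i hi m => ?_) (fun i hi j hj hne m => ?_) (fun i hi m y hy => ?_)).trans (hW z hzz)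
    · exact (hP z hzz).meas i hi m
    · exact (hP z hzz).disj i hi j hj hne ((hz z hzz i hi).trans (hz z hzz j hj).symm) m
    · rw [mem_closedBall_zero_iff]
      exact pos_le hA hr2 hs1 hs2 ((hP z hzz).x i hi) ((hP z hzz).box i hi m hy)
  refine (Finset.sum_le_sum h2).trans ?_
  rw [Finset.sum_const, nsmul_eq_mul]

/-- **GEN, core**: one step under domination. -/
theorem gen_core {A : ℝ} {h : E2 → ℝ} (hh : Continuous h) (hA : 0 ≤ A) {R r1 r2 s1 s2 : ℝ}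
    (hr2 : 0 ≤ r2) (hs1 : s1 ≤ 1) (hs2 : s2 ≤ 1) {g : E2 → ℂ} (Z1 Z2 : Finset (E2 × ℝ))
    (hsep : ∀ z ∈ Z2, ∀ z' ∈ Z2, Sep r2 z z')
    (ζ : E2 × ℝ → E2 × ℝ) (hζ : ∀ z ∈ Z2, ζ z ∈ Z1 ∧ z - ζ z ∈ cyl r1) (Λ : Finset ℕ)
    (G : E2 × ℝ → ℕ → E2 → ℂ) (e : E2 × ℝ → E2 → ℂ) (hG : ∀ z ∈ Z1, ∀ k ∈ Λ, Gd (G z k))
    (he : ∀ z ∈ Z1, Gd (e z)) (hdec : ∀ z ∈ Z1, ∀ ξ, tr h z g ξ = ∑ k ∈ Λ, G z k ξ + e z ξ)
    (W : ℝ≥0∞) (hW : ∀ z ∈ Z1, ∀ z' ∈ cyl r1, en (r2 ^ (-(1/2) : ℝ)) (tr h z' (e z))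
      (fun _ => Metric.closedBall 0 (3 * A * r2)) ≤ W)
    (I : E2 × ℝ → Finset ℕ) (P : E2 × ℝ → ℕ → Plate)
    (hP : ∀ z ∈ Z2, Plates A h r2 s1 s2 R (I z) (P z)) (hz : ∀ z ∈ Z2, ∀ i ∈ I z, (P z i).z = z)
    {π : ℕ}
    (hmax : ∀ z ∈ Z2, ∀ i ∈ I z, ∀ κ ∈ Λ,
      en (r2 ^ (-(1/2) : ℝ)) (tr h (z - ζ z) (G (ζ z) κ)) (P z i).S ≤
        en (r2 ^ (-(1/2) : ℝ)) (tr h (z - ζ z) (G (ζ z) π)) (P z i).S) :
    ∑ z ∈ Z2, val h g r2 s1 s2 (I z) (P z) ≤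
      2 * ((Λ.card : ℝ≥0∞) + 1) ^ 3 * (∑ z ∈ Z1, SIG A r2 s1 s2 h (G z π) r1 +
        ENNReal.ofReal ((s1 * s2 * r2 ^ 3) ^ (-(1/2) : ℝ)) *
          (ENNReal.ofReal r2 * ((Z2.card : ℝ≥0∞) * W)) ^ (3 / 2 : ℝ)) := by
  classical
  have step : ∑ z ∈ Z2, val h g r2 s1 s2 (I z) (P z) ≤
      2 * ((Λ.card : ℝ≥0∞) + 1) ^ 3 * (∑ z ∈ Z2, ∑ i ∈ I z,
        tm h (G (ζ z) π) r2 s1 s2 (shift (ζ z) (P z i)) +
      ∑ z ∈ Z2, ∑ i ∈ I z, tm h (e (ζ z)) r2 s1 s2 (shift (ζ z) (P z i))) := by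
    rw [← Finset.sum_add_distrib, Finset.mul_sum]
    refine Finset.sum_le_sum fun z hzz => ?_
    rw [val_eq, ← Finset.sum_add_distrib, Finset.mul_sum]
    refine Finset.sum_le_sum fun i hi => ?_
    have hz1 := (hζ z hzz).1
    refine tm_dom hh (fun k hk => hG _ hz1 k hk) (he _ hz1) (hdec _ hz1) (P z i) ?_
    intro κ hκ
    rw [hz z hzz i hi]
    exact hmax z hzz i hi κ hκ
  refine step.trans ?_
  gcongr
  · rw [← Finset.sum_fiberwise_of_maps_to (g := ζ) (fun z hzz => (hζ z hzz).1)]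
    refine Finset.sum_le_sum fun w hw => ?_
    have h1 : ∑ z ∈ Z2 with ζ z = w, ∑ i ∈ I z,
        tm h (G (ζ z) π) r2 s1 s2 (shift (ζ z) (P z i)) =
        ∑ j ∈ (Z2.filter fun z => ζ z = w).sigma I,
          tm h (G w π) r2 s1 s2 (shift w (P j.1 j.2)) := by
      rw [Finset.sum_sigma]
      refine Finset.sum_congr rfl fun z hzz => ?_
      rw [(Finset.mem_filter.1 hzz).2]
    rw [h1]
    refine ((plG_sigma Z2 hsep I P hP hz).shift (t := (Z2.filter fun z => ζ z = w).sigma I)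
      ?_ w (R' := r1) ?_).le_SIG _
    · intro j hj
      obtain ⟨h2, h3⟩ := Finset.mem_sigma.1 hj
      exact Finset.mem_sigma.2 ⟨(Finset.mem_filter.1 h2).1, h3⟩
    · intro j hj
      obtain ⟨h2, h3⟩ := Finset.mem_sigma.1 hj
      obtain ⟨h4, h5⟩ := Finset.mem_filter.1 h2
      have := (hζ _ h4).2
      rw [h5] at this
      rw [hz _ h4 _ h3]
      exact this
  · exact rest_sum hA hr2 hs1 hs2 Z2 I P hP hz ζ e W
      (fun z hzz => hW _ (hζ z hzz).1 _ (hζ z hzz).2)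

end Crest.Agent.R138.GR639
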