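import Crest.Agent.R138.GenRoot2_639

/-!
# R138 wave side: domination and one step (helper639), part 3: rests, coefficient sums
-/

set_option autoImplicit false

open MeasureTheory FourierTransform
open scoped ContDiff ENNReal

namespace Crest.Agent.R138.GR639

open Crest.Agent.R138.Defs Crest.Agent.R138.Bil882 Crest.Agent.R138.W188
open Crest.Agent.R138.Wpk685 Crest.Agent.R138.W323
open Crest.Agent.R138.T774 (haar3 cyl_eq finrank3)

/-- the packet energy of a rest which is tiny on the cylinder of size `8 r1`. -/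
theorem exists_restW (B : ℕ → ℝ) {A : ℝ} (hA : 1 ≤ A) (k0 : ℕ) : ∃ C1 : ℝ, 0 ≤ C1 ∧
    ∀ C2 : ℝ, 0 ≤ C2 → ∀ h, ParB B h → ∀ R r1 r2 : ℝ, 1 ≤ R → R ^ (1/2 : ℝ) ≤ r2 → A * r2 ≤ r1 →
    r1 ≤ R → ∀ e0 : ℝ, 0 ≤ e0 → ∀ rest : E2 → ℂ, Gd rest → En rest ≤ C2 * e0 →
    (∀ p : E2 × ℝ, ‖p.1‖ ≤ 8 * r1 → |p.2| ≤ 8 * r1 →
      ‖ext h rest p.1 p.2‖ ≤ C2 * R ^ (-((k0 + 1 : ℕ) : ℝ)) * Real.sqrt e0) →
    ∀ z' ∈ cyl r1, en (r2 ^ (-(1/2) : ℝ)) (tr h z' rest)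
      (fun _ => Metric.closedBall 0 (3 * A * r2)) ≤
        ENNReal.ofReal (C1 * (64 * C2 ^ 2 + C2) * (R ^ (-(k0 : ℝ)) * e0)) := by
  obtain ⟨C1, hC1, Hen⟩ := exists_en_le B (4 * (k0 + 1))
  refine ⟨C1, hC1, ?_⟩
  intro C2 hC2 h hh R r1 r2 hR hr2 h21 hr1R e0 he0 rest hrest hEn hsm z' hz'
  have hR0 : 0 < R := by linarith
  have hr2' : 1 ≤ r2 := (Real.one_le_rpow hR (by norm_num)).trans hr2
  have hr20 : 0 < r2 := by linarith
  have h21' : r2 ≤ r1 := by nlinarith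
  have hr10 : 0 < r1 := by linarith
  have hhc : Continuous h := hh.1.continuous
  set ρ : ℝ := r2 ^ (-(1/2) : ℝ) with hρ
  have hρ0 : 0 < ρ := by rw [hρ]; positivity
  have hρ1 : ρ ≤ 1 := Real.rpow_le_one_of_one_le_of_nonpos hr2' (by norm_num)
  have h1 := Hen h hh ρ (3 * A * r2) hρ0 hρ1 (tr h z' rest)
    (W323.Gd.tr hhc hrest z') (fun _ => Metric.closedBall 0 (3 * A * r2))
    (fun _ _ => Metric.isClosed_closedBall.measurableSet) (fun _ _ y hy => by simpa using hy)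
  refine h1.trans ?_
  have h2 := WE_bw_le (4 * (k0 + 1)) (ρ := ρ) (a := 3 * A * r2) (d := r1)
    (β := C2 * R ^ (-((k0 + 1 : ℕ) : ℝ)) * Real.sqrt e0) hρ0.le (by positivity) hr10.le
    (by positivity) (W323.Gd.tr hhc hrest z') (fun x hx => by
      rw [fourierInv_tr]
      refine hsm (x + z'.1, z'.2) ?_ ?_
      · have h3 : ‖x + z'.1‖ ≤ ‖x‖ + ‖z'.1‖ := norm_add_le _ _
        have h4 : ‖z'.1‖ ≤ r1 := hz'.1
        simp only
        nlinarith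
      · have h4 : |z'.2| ≤ r1 := hz'.2
        simp only
        linarith)
  refine (mul_le_mul' le_rfl h2).trans ?_
  rw [← ENNReal.ofReal_mul hC1]
  refine ENNReal.ofReal_le_ofReal ?_
  rw [En_tr]
  exact rest_W (C1 := C1) (C2 := C2) (R := R) (r1 := r1) (r2 := r2) (ρ := ρ) (A := A)
    (e := e0) (e' := En rest)
    (β := C2 * R ^ (-((k0 + 1 : ℕ) : ℝ)) * Real.sqrt e0) (ε' := 0) (k0 := k0)
    hC1 hC2 hR hA hr2 h21 hr1R hρ he0 zero_le_one rfl (by rw [Real.rpow_zero, mul_one]; exact hEn)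

/-- the total contribution of the rests in one step. -/
theorem rest_total' {C2 C3 R D r2 s1 s2 q M0 e n b K : ℝ} {F k0 : ℕ} (hC2 : 0 ≤ C2) (hC3 : 0 ≤ C3)
    (hR : 1 ≤ R) (hr2 : R ^ (1/2 : ℝ) ≤ r2) (h2R : r2 ≤ R) (hSd : Sd r2 s1 s2) (he : 0 ≤ e)
    (hb : 0 ≤ b) (hn0 : 0 ≤ n) (hn : n ≤ C2 * R ^ b)
    (hF : (F : ℝ) ≤ 216 * (R / r2) ^ 3)
    (hnd : e ≤ R ^ M0 * D) (hk0 : 10 + |q| + |M0| + |K| + 3 * b ≤ k0) :
    ENNReal.ofReal (s2 ^ (-q / 2)) * (ENNReal.ofReal (2 * (n + 1) ^ 3) *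
      (ENNReal.ofReal ((s1 * s2 * r2 ^ 3) ^ (-(1/2) : ℝ)) *
        (ENNReal.ofReal r2 * ((F : ℝ≥0∞) * ENNReal.ofReal (C3 * (R ^ (-(k0 : ℝ)) * e)))) ^
          (3 / 2 : ℝ))) ≤
      ENNReal.ofReal (2 * (C2 + 1) ^ 3 * (216 * C3) ^ (3/2 : ℝ) *
        (R ^ (-K) * (R * e * Real.sqrt D))) := by
  have hR0 : 0 < R := by linarith
  have hr2' : 1 ≤ r2 := (Real.one_le_rpow hR (by norm_num)).trans hr2
  have hr20 : 0 < r2 := by linarith
  have hs1 : 0 < s1 := (by positivity : (0:ℝ) < r2 ^ (-(1/2) : ℝ)).trans_le hSd.lo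
  have hs2 : 0 < s2 := hs1.trans_le hSd.le
  have hk : (0:ℝ) ≤ k0 := Nat.cast_nonneg _
  -- everything is real
  rw [← ENNReal.ofReal_natCast, ← ENNReal.ofReal_mul (Nat.cast_nonneg _),
    ← ENNReal.ofReal_mul hr20.le, ENNReal.ofReal_rpow_of_nonneg (by positivity) (by norm_num),
    ← ENNReal.ofReal_mul (by positivity), ← ENNReal.ofReal_mul (by positivity),
    ← ENNReal.ofReal_mul (by positivity)]
  refine ENNReal.ofReal_le_ofReal ?_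
  have a1 : s2 ^ (-q / 2) ≤ R ^ (|q| / 4) := by
    rcases le_or_gt 0 q with hq | hq
    · have h1 : r2 ^ (-(1/2) : ℝ) ≤ s2 := hSd.lo.trans hSd.le
      calc s2 ^ (-q / 2) ≤ (r2 ^ (-(1/2) : ℝ)) ^ (-q / 2) :=
            Real.rpow_le_rpow_of_nonpos (by positivity) h1 (by linarith)
        _ = r2 ^ (|q| / 4) := by
            rw [← Real.rpow_mul hr20.le, abs_of_nonneg hq]; congr 1; ring
        _ ≤ R ^ (|q| / 4) := by gcongr
    · calc s2 ^ (-q / 2) ≤ 1 := Real.rpow_le_one hs2.le hSd.hi (by linarith)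
        _ ≤ R ^ (|q| / 4) := Real.one_le_rpow hR (by positivity)
  have a2 : 2 * (n + 1) ^ 3 ≤ 2 * ((C2 + 1) ^ 3 * R ^ (3 * b)) := by
    have hRb : 1 ≤ R ^ b := Real.one_le_rpow hR hb
    have h1 : n + 1 ≤ (C2 + 1) * R ^ b := by nlinarith
    have h2 : R ^ (3 * b) = (R ^ b) ^ 3 := by
      rw [← Real.rpow_natCast (R ^ b) 3, ← Real.rpow_mul hR0.le]
      congr 1
      push_cast; ring
    rw [h2, ← mul_pow]
    gcongr
  have a3 : (s1 * s2 * r2 ^ 3) ^ (-(1/2) : ℝ) ≤ 1 := by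
    refine Real.rpow_le_one_of_one_le_of_nonpos ?_ (by norm_num)
    have h1 : r2 ^ (-(1/2) : ℝ) * r2 ^ (-(1/2) : ℝ) ≤ s1 * s2 := by
      have := hSd.lo
      have := hSd.le
      gcongr
      linarith
    have h2 : r2 ^ (-(1/2) : ℝ) * r2 ^ (-(1/2) : ℝ) = r2⁻¹ := by
      rw [← Real.rpow_add hr20, ← Real.rpow_neg_one]; norm_num
    rw [h2] at h1
    calc (1:ℝ) ≤ r2 ^ 2 := by nlinarith
      _ = r2⁻¹ * r2 ^ 3 := by field_simp
      _ ≤ s1 * s2 * r2 ^ 3 := by gcongr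
  have a4 : (r2 * (F * (C3 * (R ^ (-(k0 : ℝ)) * e)))) ^ (3/2 : ℝ) ≤
      (216 * C3) ^ (3/2 : ℝ) * (R ^ ((4 - (k0:ℝ)) * (3/2)) * (e * (R ^ (M0 / 2) * Real.sqrt D))) := by
    have h1 : r2 * (F * (C3 * (R ^ (-(k0 : ℝ)) * e))) ≤
        216 * C3 * (R ^ (4 - (k0:ℝ)) * e) := by
      have h2 : r2 * F ≤ 216 * R ^ (4:ℝ) := by
        have h3 : (F : ℝ) ≤ 216 * R ^ 3 := by
          refine hF.trans ?_
          gcongr
          exact div_le_self hR0.le hr2'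
        calc r2 * F ≤ R * (216 * R ^ 3) := by gcongr
          _ = 216 * R ^ (4:ℝ) := by
              rw [show (4:ℝ) = ((4:ℕ):ℝ) by norm_num, Real.rpow_natCast]; ring
      calc r2 * (F * (C3 * (R ^ (-(k0 : ℝ)) * e)))
          = (r2 * F) * (C3 * (R ^ (-(k0 : ℝ)) * e)) := by ring
        _ ≤ (216 * R ^ (4:ℝ)) * (C3 * (R ^ (-(k0 : ℝ)) * e)) := by gcongr
        _ = 216 * C3 * ((R ^ (4:ℝ) * R ^ (-(k0 : ℝ))) * e) := by ring
        _ = _ := by rw [← Real.rpow_add hR0]; ring_nf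
    have h4 : e ^ (3/2 : ℝ) ≤ e * (R ^ (M0 / 2) * Real.sqrt D) := by
      have h5 : e ^ (3 / 2 : ℝ) = e * Real.sqrt e := by
        rw [show (3 / 2 : ℝ) = 1 + 1 / 2 by norm_num, Real.rpow_add_of_nonneg he (by norm_num)
          (by norm_num), Real.rpow_one, Real.sqrt_eq_rpow]
      rw [h5]
      gcongr
      refine (Real.sqrt_le_sqrt hnd).trans ?_
      rw [Real.sqrt_mul (by positivity)]
      gcongr
      rw [Real.sqrt_eq_rpow, ← Real.rpow_mul hR0.le]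
      apply le_of_eq; congr 1; ring
    calc (r2 * (F * (C3 * (R ^ (-(k0 : ℝ)) * e)))) ^ (3/2 : ℝ)
        ≤ (216 * C3 * (R ^ (4 - (k0:ℝ)) * e)) ^ (3/2 : ℝ) := by gcongr
      _ = (216 * C3) ^ (3/2 : ℝ) * (R ^ ((4 - (k0:ℝ)) * (3/2)) * e ^ (3/2 : ℝ)) := by
          rw [Real.mul_rpow (by positivity) (by positivity), Real.mul_rpow (by positivity) he,
            ← Real.rpow_mul hR0.le]
      _ ≤ _ := by gcongr
  calc s2 ^ (-q / 2) * (2 * (n + 1) ^ 3 * ((s1 * s2 * r2 ^ 3) ^ (-(1/2) : ℝ) *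
        (r2 * (F * (C3 * (R ^ (-(k0 : ℝ)) * e)))) ^ (3/2 : ℝ)))
      ≤ R ^ (|q| / 4) * (2 * ((C2 + 1) ^ 3 * R ^ (3 * b)) * (1 * ((216 * C3) ^ (3/2 : ℝ) *
          (R ^ ((4 - (k0:ℝ)) * (3/2)) * (e * (R ^ (M0 / 2) * Real.sqrt D)))))) := by
        gcongr
    _ = 2 * (C2 + 1) ^ 3 * (216 * C3) ^ (3/2 : ℝ) *
          ((R ^ (|q| / 4) * R ^ (3 * b) * R ^ ((4 - (k0:ℝ)) * (3/2)) * R ^ (M0 / 2)) *
            (e * Real.sqrt D)) := by ring
    _ ≤ 2 * (C2 + 1) ^ 3 * (216 * C3) ^ (3/2 : ℝ) * (R ^ (1 - K) * (e * Real.sqrt D)) := by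
        rw [← Real.rpow_add hR0, ← Real.rpow_add hR0, ← Real.rpow_add hR0]
        gcongr
        have h1 := le_abs_self M0
        have h2 := abs_nonneg M0
        have h3 := abs_nonneg q
        have h4 := le_abs_self K
        linarith
    _ = _ := by
        rw [show 1 - K = -K + 1 by ring, Real.rpow_add hR0, Real.rpow_one]; ring

/-- **coefficient sum of the label `k`**: `∑_z r √D_z · (selected energy)`. -/
noncomputable def Sk (h : E2 → ℝ) (g : E2 → ℂ) (r : ℝ) (Z : Finset (E2 × ℝ))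
    (I : E2 × ℝ → ℕ → Finset ℕ) (P : E2 × ℝ → ℕ → ℕ → Plate) (D' : E2 × ℝ → ℕ → ℝ) (k : ℕ) :
    ℝ≥0∞ :=
  ∑ z ∈ Z, ENNReal.ofReal (r * Real.sqrt (D' z k)) *
    ∑ i ∈ I z k, en (r ^ (-(1/2) : ℝ)) (tr h z g) (P z k i).S

/-- one dense plate. -/
theorem plate_dense {q r s1 s2 D' c : ℝ} (hr : 0 < r) (hs1 : 0 < s1) (hs2 : 0 < s2)
    (hc : 0 ≤ c) {X : ℝ≥0∞}
    (hd : ENNReal.ofReal (D' * (s2 ^ q * (s1 * s2 * r ^ 2))) ≤ ENNReal.ofReal c * X) :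
    ENNReal.ofReal (r * Real.sqrt D') * X ≤
      ENNReal.ofReal (Real.sqrt c) * (ENNReal.ofReal (s2 ^ (-q / 2)) *
        (ENNReal.ofReal ((s1 * s2 * r ^ 3) ^ (-(1/2) : ℝ)) *
          (ENNReal.ofReal r * X) ^ (3 / 2 : ℝ))) := by
  set m : ℝ := s2 ^ q * (s1 * s2 * r ^ 2) with hm
  have hm0 : 0 < m := by positivity
  rcases le_or_gt D' 0 with hD | hD
  · rw [Real.sqrt_eq_zero_of_nonpos hD]; simp
  have h1 : ENNReal.ofReal D' ≤ ENNReal.ofReal (m⁻¹) * (ENNReal.ofReal c * X) := by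
    calc ENNReal.ofReal D' = ENNReal.ofReal (m⁻¹) * ENNReal.ofReal (D' * m) := by
          rw [← ENNReal.ofReal_mul (by positivity)]
          congr 1
          field_simp
      _ ≤ _ := by gcongr
  have h2 : ENNReal.ofReal (Real.sqrt D') ≤
      ENNReal.ofReal (m ^ (-(1/2) : ℝ)) * (ENNReal.ofReal (Real.sqrt c) * X ^ (1/2 : ℝ)) := by
    have h3 : ENNReal.ofReal (Real.sqrt D') = (ENNReal.ofReal D') ^ (1/2 : ℝ) := by
      rw [Real.sqrt_eq_rpow, ENNReal.ofReal_rpow_of_nonneg hD.le (by norm_num)]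
    rw [h3]
    refine (ENNReal.rpow_le_rpow h1 (by norm_num)).trans ?_
    rw [ENNReal.mul_rpow_of_nonneg _ _ (by norm_num : (0:ℝ) ≤ 1/2),
      ENNReal.mul_rpow_of_nonneg _ _ (by norm_num : (0:ℝ) ≤ 1/2),
      ENNReal.ofReal_rpow_of_nonneg (by positivity) (by norm_num),
      ENNReal.ofReal_rpow_of_nonneg hc (by norm_num), ← Real.sqrt_eq_rpow c,
      ← Real.rpow_neg_one, ← Real.rpow_mul hm0.le]
    norm_num
  have h4 : X ^ (3/2 : ℝ) = X ^ (1/2 : ℝ) * X := by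
    rw [show (3/2 : ℝ) = 1/2 + 1 by norm_num,
      ENNReal.rpow_add_of_nonneg _ _ (by norm_num) (by norm_num), ENNReal.rpow_one]
  have h5 : r * m ^ (-(1/2) : ℝ) =
      s2 ^ (-q / 2) * ((s1 * s2 * r ^ 3) ^ (-(1/2) : ℝ) * r ^ (3/2 : ℝ)) := by
    rw [hm, Real.mul_rpow (by positivity) (by positivity),
      Real.mul_rpow (by positivity) (by positivity), Real.mul_rpow (x := s1 * s2) (y := r ^ 3)
        (by positivity) (by positivity), ← Real.rpow_mul hs2.le, ← Real.rpow_natCast r 2,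
      ← Real.rpow_natCast r 3, ← Real.rpow_mul hr.le, ← Real.rpow_mul hr.le]
    have e1 : r ^ (((3:ℕ):ℝ) * -(1/2)) * r ^ (3/2 : ℝ) = 1 := by
      rw [← Real.rpow_add hr]; norm_num
    have e2 : r * r ^ (((2:ℕ):ℝ) * -(1/2)) = 1 := by
      nth_rewrite 1 [← Real.rpow_one r]
      rw [← Real.rpow_add hr]; norm_num
    have e3 : q * -(1/2) = -q / 2 := by ring
    rw [e3]
    calc r * (s2 ^ (-q / 2) * ((s1 * s2) ^ (-(1/2) : ℝ) * r ^ (((2:ℕ):ℝ) * -(1/2))))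
        = s2 ^ (-q / 2) * (s1 * s2) ^ (-(1/2) : ℝ) * (r * r ^ (((2:ℕ):ℝ) * -(1/2))) := by ring
      _ = s2 ^ (-q / 2) * (s1 * s2) ^ (-(1/2) : ℝ) *
          (r ^ (((3:ℕ):ℝ) * -(1/2)) * r ^ (3/2 : ℝ)) := by rw [e1, e2]
      _ = _ := by ring
  calc ENNReal.ofReal (r * Real.sqrt D') * X
      = ENNReal.ofReal r * ENNReal.ofReal (Real.sqrt D') * X := by
        rw [ENNReal.ofReal_mul hr.le]
    _ ≤ ENNReal.ofReal r * (ENNReal.ofReal (m ^ (-(1/2) : ℝ)) *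
          (ENNReal.ofReal (Real.sqrt c) * X ^ (1/2 : ℝ))) * X := by gcongr
    _ = ENNReal.ofReal (Real.sqrt c) * ((ENNReal.ofReal r * ENNReal.ofReal (m ^ (-(1/2) : ℝ))) *
          (X ^ (1/2 : ℝ) * X)) := by ring
    _ = ENNReal.ofReal (Real.sqrt c) * ((ENNReal.ofReal (s2 ^ (-q / 2)) *
          (ENNReal.ofReal ((s1 * s2 * r ^ 3) ^ (-(1/2) : ℝ)) * ENNReal.ofReal (r ^ (3/2 : ℝ)))) *
          X ^ (3/2 : ℝ)) := by
        rw [← h4, ← ENNReal.ofReal_mul hr.le, h5, ENNReal.ofReal_mul (by positivity),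
          ENNReal.ofReal_mul (by positivity)]
    _ = _ := by
        rw [ENNReal.mul_rpow_of_nonneg _ _ (by norm_num : (0:ℝ) ≤ 3/2),
          ENNReal.ofReal_rpow_of_nonneg hr.le (by norm_num)]
        ring

end Crest.Agent.R138.GR639
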