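import Crest.Agent.R138.GenRoot4_639

/-!
# R138 wave side: domination and one step (helper639), part 5: the link for any local estimate
-/

set_option autoImplicit false

open MeasureTheory FourierTransform
open scoped ContDiff ENNReal

namespace Crest.Agent.R138.GR639

open Crest.Agent.R138.Defs Crest.Agent.R138.Bil882 Crest.Agent.R138.W188
open Crest.Agent.R138.Wpk685 Crest.Agent.R138.W323
open Crest.Agent.R138.T774 (haar3 cyl_eq finrank3)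

/-- a plate system with arbitrary index set, indexed by the natural numbers. -/
theorem PlG_exists_nat {κ : Type*} {A : ℝ} {h : E2 → ℝ} {r s1 s2 R : ℝ} {s : Finset κ}
    {Q : κ → Plate} (hQ : PlG A h r s1 s2 R s Q) :
    ∃ (I : Finset ℕ) (P : ℕ → Plate), Plates A h r s1 s2 R I P ∧
      (∀ j ∈ I, ∃ i ∈ s, P j = Q i) ∧
      ∀ f : E2 → ℂ, ∑ i ∈ s, tm h f r s1 s2 (Q i) = val h f r s1 s2 I P := by
  classical
  rcases s.eq_empty_or_nonempty with hs | ⟨i0, hi0⟩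
  · refine ⟨∅, fun _ => ⟨0, 0, EuclideanSpace.basisFun (Fin 2) ℝ, 0, fun _ => ∅⟩,
      ⟨by simp, by simp, by simp, by simp, by simp, by simp⟩, by simp, fun f => ?_⟩
    rw [hs, val_eq]; simp
  set n := s.card with hn
  set e := s.equivFin with he
  set P : ℕ → Plate := fun j => if hj : j < n then Q (e.symm ⟨j, hj⟩) else Q i0 with hPdef
  have hPe : ∀ j (hj : j < n), P j = Q (e.symm ⟨j, hj⟩) := fun j hj => by
    simp only [hPdef, dif_pos hj]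
  have key : ∀ j ∈ Finset.range n, ∃ i : s, P j = Q i ∧ (e i : ℕ) = j := by
    intro j hj
    have hj' := Finset.mem_range.1 hj
    exact ⟨e.symm ⟨j, hj'⟩, hPe j hj', by simp⟩
  have hPl : Plates A h r s1 s2 R (Finset.range n) P := by
    refine ⟨fun j hj => ?_, fun j hj j' hj' => ?_, fun j hj => ?_, fun j hj m => ?_,
      fun j hj m => ?_, fun j hj j' hj' hne hz m => ?_⟩
    · obtain ⟨i, h1, -⟩ := key j hj; rw [h1]; exact hQ.mem i i.2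
    · obtain ⟨i, h1, -⟩ := key j hj
      obtain ⟨i', h1', -⟩ := key j' hj'
      rw [h1, h1']; exact hQ.sep i i.2 i' i'.2
    · obtain ⟨i, h1, -⟩ := key j hj; rw [h1]; exact hQ.x i i.2
    · obtain ⟨i, h1, -⟩ := key j hj; rw [h1]; exact hQ.meas i i.2 m
    · obtain ⟨i, h1, -⟩ := key j hj; rw [h1]; exact hQ.box i i.2 m
    · obtain ⟨i, h1, h2⟩ := key j hj
      obtain ⟨i', h1', h2'⟩ := key j' hj'
      rw [h1, h1'] at hz ⊢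
      refine hQ.disj i i.2 i' i'.2 (fun hii => hne ?_) hz m
      have : i = i' := Subtype.ext hii
      rw [← h2, ← h2', this]
  refine ⟨Finset.range n, P, hPl, fun j hj => ?_, fun f => ?_⟩
  · obtain ⟨i, h1, -⟩ := key j hj
    exact ⟨i, i.2, h1⟩
  · rw [val_eq, Finset.sum_range, ← Finset.sum_coe_sort s]
    refine Fintype.sum_equiv e _ _ fun i => ?_
    rw [hPe _ (e i).2]
    simp

/-- the plates of all frames `z` with `ζ z = w`, as one system in the frame `w`. -/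
theorem exists_sys {A : ℝ} {h : E2 → ℝ} {R r1 r2 s1 s2 : ℝ} (Z2 : Finset (E2 × ℝ))
    (hsep : ∀ z ∈ Z2, ∀ z' ∈ Z2, Sep r2 z z') (ζ : E2 × ℝ → E2 × ℝ)
    (hζ : ∀ z ∈ Z2, z - ζ z ∈ cyl r1)
    (I : E2 × ℝ → Finset ℕ) (P : E2 × ℝ → ℕ → Plate)
    (hP : ∀ z ∈ Z2, Plates A h r2 s1 s2 R (I z) (P z)) (hz : ∀ z ∈ Z2, ∀ i ∈ I z, (P z i).z = z)
    (w : E2 × ℝ) :
    ∃ (I' : Finset ℕ) (P' : ℕ → Plate), Plates A h r2 s1 s2 r1 I' P' ∧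
      (∀ j ∈ I', ∃ z ∈ Z2, ζ z = w ∧ ∃ i ∈ I z, P' j = shift w (P z i)) ∧
      ∀ f : E2 → ℂ, ∑ z ∈ Z2 with ζ z = w, ∑ i ∈ I z, tm h f r2 s1 s2 (shift w (P z i)) =
        val h f r2 s1 s2 I' P' := by
  classical
  have h1 : PlG A h r2 s1 s2 r1 ((Z2.filter fun z => ζ z = w).sigma I)
      (fun j => shift w (P j.1 j.2)) := by
    refine (plG_sigma Z2 hsep I P hP hz).shift (t := (Z2.filter fun z => ζ z = w).sigma I)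
      ?_ w (R' := r1) ?_
    · intro j hj
      obtain ⟨h2, h3⟩ := Finset.mem_sigma.1 hj
      exact Finset.mem_sigma.2 ⟨(Finset.mem_filter.1 h2).1, h3⟩
    · intro j hj
      obtain ⟨h2, h3⟩ := Finset.mem_sigma.1 hj
      obtain ⟨h4, h5⟩ := Finset.mem_filter.1 h2
      have := hζ _ h4
      rw [h5] at this
      rw [hz _ h4 _ h3]
      exact this
  obtain ⟨I', P', h2, h3, h4⟩ := PlG_exists_nat h1
  refine ⟨I', P', h2, fun j hj => ?_, fun f => ?_⟩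
  · obtain ⟨⟨z, i⟩, h5, h6⟩ := h3 j hj
    obtain ⟨h7, h8⟩ := Finset.mem_sigma.1 h5
    obtain ⟨h9, h10⟩ := Finset.mem_filter.1 h7
    exact ⟨z, h9, h10, i, h8, h6⟩
  · rw [← h4 f, Finset.sum_sigma]

/-- **core of the link**: one step for any local estimate. -/
theorem link_core {A : ℝ} {h : E2 → ℝ} (hh : Continuous h) (hA : 0 ≤ A) {R r1 r2 s1 s2 : ℝ}
    (hr2 : 0 ≤ r2) (hs1 : s1 ≤ 1) (hs2 : s2 ≤ 1) {g : E2 → ℂ} (Z1 Z2 : Finset (E2 × ℝ))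
    (hsep : ∀ z ∈ Z2, ∀ z' ∈ Z2, Sep r2 z z')
    (ζ : E2 × ℝ → E2 × ℝ) (hζ : ∀ z ∈ Z2, ζ z ∈ Z1 ∧ z - ζ z ∈ cyl r1) (Λ : Finset ℕ)
    (G : E2 × ℝ → ℕ → E2 → ℂ) (e : E2 × ℝ → E2 → ℂ) (hG : ∀ z ∈ Z1, ∀ k ∈ Λ, Gd (G z k))
    (he : ∀ z ∈ Z1, Gd (e z)) (hdec : ∀ z ∈ Z1, ∀ ξ, tr h z g ξ = ∑ k ∈ Λ, G z k ξ + e z ξ)
    (W : ℝ≥0∞) (hW : ∀ z ∈ Z1, ∀ z' ∈ cyl r1, en (r2 ^ (-(1/2) : ℝ)) (tr h z' (e z))
      (fun _ => Metric.closedBall 0 (3 * A * r2)) ≤ W)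
    (I : E2 × ℝ → Finset ℕ) (P : E2 × ℝ → ℕ → Plate)
    (hP : ∀ z ∈ Z2, Plates A h r2 s1 s2 R (I z) (P z)) (hz : ∀ z ∈ Z2, ∀ i ∈ I z, (P z i).z = z)
    {π : ℕ}
    (hmax : ∀ z ∈ Z2, ∀ i ∈ I z, ∀ κ ∈ Λ,
      en (r2 ^ (-(1/2) : ℝ)) (tr h (z - ζ z) (G (ζ z) κ)) (P z i).S ≤
        en (r2 ^ (-(1/2) : ℝ)) (tr h (z - ζ z) (G (ζ z) π)) (P z i).S)
    (V : E2 × ℝ → ℝ≥0∞)
    (hV : ∀ w ∈ Z1, ∀ (I' : Finset ℕ) (P' : ℕ → Plate), Plates A h r2 s1 s2 r1 I' P' →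
      (∀ j ∈ I', ∃ z ∈ Z2, ζ z = w ∧ ∃ i ∈ I z, P' j = shift w (P z i)) →
      val h (G w π) r2 s1 s2 I' P' ≤ V w) :
    ∑ z ∈ Z2, val h g r2 s1 s2 (I z) (P z) ≤
      2 * ((Λ.card : ℝ≥0∞) + 1) ^ 3 * (∑ z ∈ Z1, V z +
        ENNReal.ofReal ((s1 * s2 * r2 ^ 3) ^ (-(1/2) : ℝ)) *
          (ENNReal.ofReal r2 * ((Z2.card : ℝ≥0∞) * W)) ^ (3 / 2 : ℝ)) := by
  classical
  have step : ∑ z ∈ Z2, val h g r2 s1 s2 (I z) (P z) ≤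
      2 * ((Λ.card : ℝ≥0∞) + 1) ^ 3 * (∑ z ∈ Z2, ∑ i ∈ I z,
        tm h (G (ζ z) π) r2 s1 s2 (shift (ζ z) (P z i)) +
      ∑ z ∈ Z2, ∑ i ∈ I z, tm h (e (ζ z)) r2 s1 s2 (shift (ζ z) (P z i))) := by
    rw [← Finset.sum_add_distrib, Finset.mul_sum]
    refine Finset.sum_le_sum fun z hzz => ?_
    rw [val_eq, ← Finset.sum_add_distrib, Finset.mul_sum]
    refine Finset.sum_le_sum fun i hi => ?_
    have hz1 := (hζ z hzz).1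
    refine tm_dom hh (fun k hk => hG _ hz1 k hk) (he _ hz1) (hdec _ hz1) (P z i) ?_
    intro κ hκ
    rw [hz z hzz i hi]
    exact hmax z hzz i hi κ hκ
  refine step.trans ?_
  gcongr
  · rw [← Finset.sum_fiberwise_of_maps_to (g := ζ) (fun z hzz => (hζ z hzz).1)]
    refine Finset.sum_le_sum fun w hw => ?_
    obtain ⟨I', P', h1, h2, h3⟩ := exists_sys Z2 hsep ζ (fun z hzz => (hζ z hzz).2) I P hP hz w
    refine le_trans (le_of_eq ?_) (hV w hw I' P' h1 h2)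
    rw [← h3]
    refine Finset.sum_congr rfl fun z hzz => ?_
    rw [(Finset.mem_filter.1 hzz).2]
  · exact rest_sum hA hr2 hs1 hs2 Z2 I P hP hz ζ e W
      (fun z hzz => hW _ (hζ z hzz).1 _ (hζ z hzz).2)

/-- **LINK**: a local estimate (one frame, one parent label, any plate system made of the plates of
the class) gives the step for the coefficient sums. -/
theorem step_en (B : ℕ → ℝ) (q : ℝ) {A : ℝ} (hA : 1 ≤ A) :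
    ∀ (M0 K b C1 : ℝ), 0 ≤ b → 0 ≤ C1 → ∃ C' : ℝ, 0 ≤ C' ∧
    ∀ (Na M : ℕ), 13 + |q| + |M0| + |K| + 4 * b ≤ M →
    ∀ (h : E2 → ℝ) (g : E2 → ℂ) (R D σ : ℝ), St B q Na M0 σ h g R D →
    ∀ r1 r2 : ℝ, R ^ (1/2 : ℝ) ≤ r2 → A * r2 ≤ r1 → r1 ≤ R → σ + 3 * r1 ^ (-(1/2) : ℝ) ≤ 2 →
    ∀ (nb1 M1 : ℕ) (Z1 : Finset (E2 × ℝ))
      (cls1 : E2 × ℝ → OrthonormalBasis (Fin 2) ℝ E2 → ℤ × ℤ → E2 → ℕ)
      (Λ1 : Finset ℕ) (s1 : ℕ → ℝ × ℝ) (cl1 : ℕ → ℕ) (G1 : E2 × ℝ → ℕ → E2 → ℂ)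
      (D1 : E2 × ℝ → ℕ → ℝ) (rest1 : E2 × ℝ → E2 → ℂ) (I1 : E2 × ℝ → ℕ → Finset ℕ)
      (P1 : E2 × ℝ → ℕ → ℕ → Plate), M ≤ M1 →
      LvD q A σ C1 B nb1 M1 h g R r1 Z1 cls1 Λ1 s1 cl1 G1 D1 rest1 I1 P1 →
      (Λ1.card : ℝ) ≤ C1 * R ^ b → (nb1 : ℝ) ≤ R ^ b →
    ∀ (C2 : ℝ) (nb2 M2 : ℕ) (Z2 : Finset (E2 × ℝ))
      (cls2 : E2 × ℝ → OrthonormalBasis (Fin 2) ℝ E2 → ℤ × ℤ → E2 → ℕ)
      (Λ2 : Finset ℕ) (s2 : ℕ → ℝ × ℝ) (cl2 : ℕ → ℕ) (G2 : E2 × ℝ → ℕ → E2 → ℂ)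
      (D2 : E2 × ℝ → ℕ → ℝ) (rest2 : E2 × ℝ → E2 → ℂ) (I2 : E2 × ℝ → ℕ → Finset ℕ)
      (P2 : E2 × ℝ → ℕ → ℕ → Plate), 0 ≤ C2 →
      LvD q A σ C2 B nb2 M2 h g R r2 Z2 cls2 Λ2 s2 cl2 G2 D2 rest2 I2 P2 →
    ∀ (ζ : E2 × ℝ → E2 × ℝ), (∀ z ∈ Z2, ζ z ∈ Z1 ∧ z - ζ z ∈ cyl r1) →
    ∀ k ∈ Λ2, ∀ π ∈ Λ1,
      (∀ z ∈ Z2, ∀ i ∈ I2 z k, ∀ κ ∈ Λ1,
        en (r2 ^ (-(1/2) : ℝ)) (tr h (z - ζ z) (G1 (ζ z) κ)) (P2 z k i).S ≤
          en (r2 ^ (-(1/2) : ℝ)) (tr h (z - ζ z) (G1 (ζ z) π)) (P2 z k i).S) →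
    ∀ Q T : ℝ≥0∞,
      (∀ w ∈ Z1, ∀ (I' : Finset ℕ) (P' : ℕ → Plate),
        Plates A h r2 (s2 k).1 (s2 k).2 r1 I' P' →
        (∀ j ∈ I', ∃ z ∈ Z2, ζ z = w ∧ ∃ i ∈ I2 z k, P' j = shift w (P2 z k i)) →
        ENNReal.ofReal ((s2 k).2 ^ (-q / 2)) * val h (G1 w π) r2 (s2 k).1 (s2 k).2 I' P' ≤
          Q * (ENNReal.ofReal (r1 * Real.sqrt (D1 w π)) *
            ∑ i ∈ I1 w π, en (r1 ^ (-(1/2) : ℝ)) (tr h w g) (P1 w π i).S) + T) →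
      Sk h g r2 Z2 I2 P2 D2 k ≤
        ENNReal.ofReal (2 * Real.sqrt (C2 * nb2) * (Λ1.card + 1) ^ 3) *
          (Q * Sk h g r1 Z1 I1 P1 D1 π + (Z1.card : ℝ≥0∞) * T) +
        ENNReal.ofReal (C' * Real.sqrt (C2 * nb2) * (R ^ (-K) * SS g R D)) := by
  intro M0 K b C1 hb hC1
  set k0 : ℕ := ⌈10 + |q| + |M0| + |K| + 3 * b⌉₊ with hk0
  have hk0' : 10 + |q| + |M0| + |K| + 3 * b ≤ k0 := Nat.le_ceil _
  have hk0'' : (k0 : ℝ) < 10 + |q| + |M0| + |K| + 3 * b + 1 := Nat.ceil_lt_add_one (by positivity)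
  obtain ⟨CW, hCW, HW⟩ := exists_restW B hA k0
  set C3 : ℝ := CW * (64 * C1 ^ 2 + C1) with hC3
  have hC30 : 0 ≤ C3 := by positivity
  refine ⟨2 * (C1 + 1) ^ 3 * (216 * C3) ^ (3/2 : ℝ), by positivity, ?_⟩
  intro Na M hM h g R D σ hSt r1 r2 hr2 h21 hr1R hσ1 nb1 M1 Z1 cls1 Λ1 s1 cl1 G1 D1 rest1
    I1 P1 hMM1 H1 hΛ1 hnb1 C2 nb2 M2 Z2 cls2 Λ2 s2 cl2 G2 D2 rest2 I2 P2 hC2 H2 ζ hζ k hk π hπ hmax
    Q T hloc
  have hR : 1 ≤ R := hSt.R1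
  have hR0 : 0 < R := by linarith
  have hr2' : 1 ≤ r2 := (Real.one_le_rpow hR (by norm_num)).trans hr2
  have hr20 : 0 < r2 := by linarith
  have h21' : r2 ≤ r1 := by nlinarith
  have hr10 : 0 < r1 := by linarith
  have hhc : Continuous h := hSt.par.1.continuous
  have hSd := H2.sd k hk
  have hs2 : (s2 k).2 ≤ 1 := hSd.hi
  have hs1 : (s2 k).1 ≤ 1 := hSd.le.trans hs2
  have hs2p : 0 < (s2 k).2 := (hSd.s2pos hr20).2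
  have hEn : 0 ≤ En g := integral_nonneg fun ξ => by positivity
  have hRb : 1 ≤ R ^ b := Real.one_le_rpow hR hb
  -- the rest
  have hGd : ∀ z ∈ Z1, ∀ κ ∈ Λ1, Gd (G1 z κ) := fun z hz κ hκ =>
    W323.St.gd ((H1.out z hz).st κ hκ) hσ1
  have hGe : ∀ z ∈ Z1, Gd (rest1 z) := fun z hz =>
    ⟨(H1.out z hz).rmeas, (H1.out z hz).rbdd, (H1.out z hz).rsupp⟩
  set W : ℝ≥0∞ := ENNReal.ofReal (C3 * (R ^ (-(k0 : ℝ)) * En g)) with hWdef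
  have hW : ∀ z ∈ Z1, ∀ z' ∈ cyl r1, en (r2 ^ (-(1/2) : ℝ)) (tr h z' (rest1 z))
      (fun _ => Metric.closedBall 0 (3 * A * r2)) ≤ W := by
    intro z hz z' hz'
    refine HW C1 hC1 h hSt.par R r1 r2 hR hr2 h21 hr1R (En g) hEn (rest1 z) (hGe z hz)
      (H1.out z hz).ren (fun p hp1 hp2 => ((H1.out z hz).small p hp1 hp2).trans ?_) z' hz'
    have h3 : (nb1 : ℝ) * R ^ (-(M1 : ℝ)) ≤ R ^ (-((k0 + 1 : ℕ) : ℝ)) := by
      calc (nb1 : ℝ) * R ^ (-(M1 : ℝ)) ≤ R ^ b * R ^ (-(M1 : ℝ)) := by gcongr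
        _ = R ^ (b + -(M1 : ℝ)) := by rw [← Real.rpow_add hR0]
        _ ≤ _ := by
            apply Real.rpow_le_rpow_of_exponent_le hR
            have : (M : ℝ) ≤ M1 := by exact_mod_cast hMM1
            push_cast
            linarith
    calc C1 * nb1 * R ^ (-(M1 : ℝ)) * Real.sqrt (En g)
        = C1 * (nb1 * R ^ (-(M1 : ℝ))) * Real.sqrt (En g) := by ring
      _ ≤ C1 * R ^ (-((k0 + 1 : ℕ) : ℝ)) * Real.sqrt (En g) := by gcongr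
  set u : ℝ≥0∞ := ENNReal.ofReal ((s2 k).2 ^ (-q / 2)) with hu
  have hu0 : u ≠ 0 := by
    rw [hu, ne_eq, ENNReal.ofReal_eq_zero, not_le]; positivity
  have hut : u ≠ ⊤ := ENNReal.ofReal_ne_top
  set V : E2 × ℝ → ℝ≥0∞ := fun w => u⁻¹ * (Q * (ENNReal.ofReal (r1 * Real.sqrt (D1 w π)) *
            ∑ i ∈ I1 w π, en (r1 ^ (-(1/2) : ℝ)) (tr h w g) (P1 w π i).S) + T) with hV
  have hcore := link_core hhc (by linarith : 0 ≤ A) hr20.le hs1 hs2 (g := g) Z1 Z2 H2.sep ζ hζ Λ1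
    G1 rest1 hGd hGe (fun z hz => (H1.out z hz).sum) W hW (fun z => I2 z k) (fun z => P2 z k)
    (fun z hz => ((H2.out z hz).pl k hk).1) (fun z hz => ((H2.out z hz).pl k hk).2) hmax V
    (fun w hw I' P' h1 h2 => by
      have h3 := hloc w hw I' P' h1 h2
      calc val h (G1 w π) r2 (s2 k).1 (s2 k).2 I' P'
          = u⁻¹ * (u * val h (G1 w π) r2 (s2 k).1 (s2 k).2 I' P') := by
            rw [← mul_assoc, ENNReal.inv_mul_cancel hu0 hut, one_mul]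
        _ ≤ V w := by rw [hV]; dsimp only; gcongr)
  have hval := Sk_le_val hr20 hC2 H2.sd H2.out hk
  have hcard := card_net hr20 (h21'.trans hr1R) Z2 H2.mem H2.sep
  have hrest := rest_total' (C2 := C1) (C3 := C3) (R := R) (D := D) (r2 := r2) (s1 := (s2 k).1)
    (s2 := (s2 k).2) (q := q) (M0 := M0) (e := En g) (n := Λ1.card) (b := b) (K := K)
    (F := Z2.card) (k0 := k0) hC1 hC30 hR hr2 (h21'.trans hr1R) hSd hEn hb (Nat.cast_nonneg _)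
    hΛ1 hcard hSt.nd hk0'
  have hn : ENNReal.ofReal (2 * ((Λ1.card : ℝ) + 1) ^ 3) = 2 * ((Λ1.card : ℝ≥0∞) + 1) ^ 3 := by
    rw [ENNReal.ofReal_mul (by norm_num), ENNReal.ofReal_pow (by positivity),
      ENNReal.ofReal_add (by positivity) (by norm_num), ENNReal.ofReal_natCast,
      ENNReal.ofReal_ofNat, ENNReal.ofReal_one]
  rw [hn] at hrest
  have hmain : u * (2 * ((Λ1.card : ℝ≥0∞) + 1) ^ 3 * ∑ z ∈ Z1, V z) =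
      2 * ((Λ1.card : ℝ≥0∞) + 1) ^ 3 *
        (Q * Sk h g r1 Z1 I1 P1 D1 π + (Z1.card : ℝ≥0∞) * T) := by
    have h1 : ∑ z ∈ Z1, V z = u⁻¹ * (Q * Sk h g r1 Z1 I1 P1 D1 π + (Z1.card : ℝ≥0∞) * T) := by
      rw [hV, ← Finset.mul_sum, Finset.sum_add_distrib, ← Finset.mul_sum, Finset.sum_const,
        nsmul_eq_mul]
      rfl
    rw [h1]
    calc u * (2 * ((Λ1.card : ℝ≥0∞) + 1) ^ 3 * (u⁻¹ * (Q * Sk h g r1 Z1 I1 P1 D1 π +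
          (Z1.card : ℝ≥0∞) * T)))
        = (u * u⁻¹) * (2 * ((Λ1.card : ℝ≥0∞) + 1) ^ 3 * (Q * Sk h g r1 Z1 I1 P1 D1 π +
          (Z1.card : ℝ≥0∞) * T)) := by ring
      _ = _ := by rw [ENNReal.mul_inv_cancel hu0 hut, one_mul]
  calc Sk h g r2 Z2 I2 P2 D2 k
      ≤ ENNReal.ofReal (Real.sqrt (C2 * nb2)) * (u *
        ∑ z ∈ Z2, val h g r2 (s2 k).1 (s2 k).2 (I2 z k) (P2 z k)) := hval
    _ ≤ ENNReal.ofReal (Real.sqrt (C2 * nb2)) * (u *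
        (2 * ((Λ1.card : ℝ≥0∞) + 1) ^ 3 * (∑ z ∈ Z1, V z +
        ENNReal.ofReal (((s2 k).1 * (s2 k).2 * r2 ^ 3) ^ (-(1/2) : ℝ)) *
          (ENNReal.ofReal r2 * ((Z2.card : ℝ≥0∞) * W)) ^ (3 / 2 : ℝ)))) := by gcongr
    _ = ENNReal.ofReal (Real.sqrt (C2 * nb2)) * (u *
        (2 * ((Λ1.card : ℝ≥0∞) + 1) ^ 3 * ∑ z ∈ Z1, V z) +
        u * (2 * ((Λ1.card : ℝ≥0∞) + 1) ^ 3 *
          (ENNReal.ofReal (((s2 k).1 * (s2 k).2 * r2 ^ 3) ^ (-(1/2) : ℝ)) *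
          (ENNReal.ofReal r2 * ((Z2.card : ℝ≥0∞) * W)) ^ (3 / 2 : ℝ)))) := by ring
    _ ≤ ENNReal.ofReal (Real.sqrt (C2 * nb2)) *
        (2 * ((Λ1.card : ℝ≥0∞) + 1) ^ 3 *
        (Q * Sk h g r1 Z1 I1 P1 D1 π + (Z1.card : ℝ≥0∞) * T) +
        ENNReal.ofReal (2 * (C1 + 1) ^ 3 * (216 * C3) ^ (3/2 : ℝ) *
        (R ^ (-K) * (R * En g * Real.sqrt D)))) := by
        rw [hmain]
        gcongr
    _ = _ := by
        rw [mul_add, ← hn, ← mul_assoc, ← ENNReal.ofReal_mul (by positivity),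
          ← ENNReal.ofReal_mul (by positivity)]
        unfold SS
        congr 2
        · congr 1; ring
        · ring

end Crest.Agent.R138.GR639
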