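import Crest.Agent.R138.Rs6_134
import Crest.Agent.R138.Br1_134
import Crest.Agent.R138.ExSp6_774
import Crest.Agent.R138.Bk4_57

/-!
Glue: `EB` gives the strong type `(p, p)` estimates, `p > 3`, for every phase of the class.
-/

set_option autoImplicit false
set_option maxSynthPendingDepth 3

namespace Crest.Agent.R138.Rs134

open MeasureTheory Set Metric
open scoped ContDiff RealInnerProductSpace ENNReal

/-- Local estimates for one phase give strong type estimates. -/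
theorem strong_of_locH {c0 : ℝ} {K : ℕ} {h : E2 → ℝ} (hP : Par c0 K h) (hK : 3 ≤ K)
    (hc : c0 ≤ 1 / 4) (hL : LocH h) (p : ℝ) (hp : 3 < p) :
    ∃ C : ℝ, ∀ g : E2 → ℂ, Measurable g → (∀ ξ, 1 / 2 < ‖ξ‖ → g ξ = 0) →
      eLpNorm (fun z : E2 × ℝ => ext h g z.1 z.2) (ENNReal.ofReal p) volume ≤
        ENNReal.ofReal C * eLpNorm g (ENNReal.ofReal p) volume :=
  strong_of_sparse hP (by omega) (by linarith) (Ex774.sparseOut hP hK hc hL) p hp

/-- **`EB` gives the extension estimates for all phases of the class.** -/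
theorem strong_of_EB (H : Defs.EB) : ∃ c0 : ℝ, 0 < c0 ∧ c0 ≤ 1 / 4 ∧ ∃ K : ℕ, 3 ≤ K ∧
    ∀ h : E2 → ℝ, Par c0 K h →
      (∀ k : ℕ, ∃ B : ℝ, ∀ ξ, ‖iteratedFDeriv ℝ k (fun η : E2 => h η - ‖η‖ ^ 2 / 2) ξ‖ ≤ B) →
      ∀ p : ℝ, 3 < p → ∃ C : ℝ, ∀ g : E2 → ℂ, Measurable g → (∀ ξ, 1 / 2 < ‖ξ‖ → g ξ = 0) →
        eLpNorm (fun z : E2 × ℝ => ext h g z.1 z.2) (ENNReal.ofReal p) volume ≤
          ENNReal.ofReal C * eLpNorm g (ENNReal.ofReal p) volume := by
  obtain ⟨c0, hc0, K, hK, H⟩ := locH_of_EB H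
  refine ⟨min c0 (1 / 4), by positivity, min_le_right _ _, max K 3, le_max_right _ _, ?_⟩
  intro h hP hB p hp
  have hP1 : Par c0 K h := ⟨hP.smooth, hP.zero, hP.grad, fun k hk hk2 ξ =>
    (hP.close k hk (hk2.trans (le_max_left _ _)) ξ).trans (min_le_left _ _)⟩
  exact strong_of_locH hP (le_max_right _ _) (min_le_right _ _) (H h hP1 hB) p hp

end Crest.Agent.R138.Rs134
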