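import Crest.Agent.R138.Geo7_789
import Crest.Agent.R138.Rs7_134

/-!
R138 / S0190: the statement S0190 from (EB).
-/

set_option autoImplicit false
open MeasureTheory Set
open scoped ENNReal NNReal ContDiff MeasureTheory

namespace Crest.Agent.R138.Geo789

/-- **S0190 from (EB)** (134 + 57 + 774 + 789). -/
theorem S0190_of_EB (hEB : Crest.Agent.R138.Defs.EB)
    (S : Set (EuclideanSpace ℝ (Fin 3))) (hS : Crest.AnalysisR.Surface3.IsCompactCurvedSurface S)
    (p : ℝ) (hp : 3 < p) :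
    ∃ C : ℝ, ∀ f : EuclideanSpace ℝ (Fin 3) → ℂ,
      MeasureTheory.eLpNorm (Crest.AnalysisR.Surface3.extension S f) (ENNReal.ofReal p)
          MeasureTheory.volume ≤
        ENNReal.ofReal C * MeasureTheory.eLpNorm f (ENNReal.ofReal p) (μHE[2].restrict S) := by
  obtain ⟨c0, hc0, -, K, -, H⟩ := Crest.Agent.R138.Rs134.strong_of_EB hEB
  exact S0190_of_ext_bdd c0 hc0 K
    (fun p hp h hpar ⟨B, hB⟩ => H h hpar (fun k => ⟨B k, hB k⟩) p hp) S hS p hp

end Crest.Agent.R138.Geo789
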