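import Crest.Agent.R138.Flg2_101

/-!
# R138, L15 GEO-R (helper298), part 1: counting the classes of 101's partition met by a set
-/

set_option autoImplicit false
set_option linter.unusedVariables false

open Finset

namespace Crest.Agent.R138.GeoR298

open Flg101

/-- values of a dyadic floor on a set of diameter `≤ δ` -/
theorem card_floor_le {ι : Type*} (F : Finset ι) (φ : ι → ℝ) (p : ℕ) {δ : ℝ}
    (hδ : 0 ≤ δ) (h : ∀ x ∈ F, ∀ y ∈ F, |φ x - φ y| ≤ δ) :
    ((F.image fun x => ⌊(2 : ℝ) ^ p * φ x⌋).card : ℝ) ≤ 2 * (2 ^ p * δ) + 3 := by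
  have h2 : (0 : ℝ) < 2 ^ p := by positivity
  rcases F.eq_empty_or_nonempty with rfl | ⟨x0, hx0⟩
  · simp; positivity
  set m : ℤ := ⌊(2 : ℝ) ^ p * φ x0⌋ with hm
  set D : ℕ := ⌊(2 : ℝ) ^ p * δ + 1⌋₊ with hD
  have hsub : (F.image fun x => ⌊(2 : ℝ) ^ p * φ x⌋) ⊆ Finset.Icc (m - D) (m + D) := by
    intro t ht
    rw [mem_image] at ht
    obtain ⟨x, hx, rfl⟩ := ht
    have h1 := h x hx x0 hx0
    have h3 : |(2 : ℝ) ^ p * φ x - 2 ^ p * φ x0| ≤ 2 ^ p * δ := by
      rw [← mul_sub, abs_mul, abs_of_pos h2]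
      exact mul_le_mul_of_nonneg_left h1 h2.le
    rw [abs_le] at h3
    have e1 := Int.floor_le ((2 : ℝ) ^ p * φ x)
    have e2 := Int.lt_floor_add_one ((2 : ℝ) ^ p * φ x)
    have e3 := Int.floor_le ((2 : ℝ) ^ p * φ x0)
    have e4 := Int.lt_floor_add_one ((2 : ℝ) ^ p * φ x0)
    rw [mem_Icc]
    have h5 : ((⌊(2 : ℝ) ^ p * φ x⌋ - m : ℤ) : ℝ) ≤ 2 ^ p * δ + 1 := by
      push_cast; linarith
    have h6 : ((m - ⌊(2 : ℝ) ^ p * φ x⌋ : ℤ) : ℝ) ≤ 2 ^ p * δ + 1 := by
      push_cast; linarith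
    have h7 : ∀ t : ℤ, (t : ℝ) ≤ 2 ^ p * δ + 1 → t ≤ D := by
      intro t ht
      rcases le_or_gt t 0 with h | h
      · exact h.trans (by positivity)
      · lift t to ℕ using h.le
        rw [hD]
        exact_mod_cast Nat.le_floor (by exact_mod_cast ht)
    have h8 := h7 _ h5
    have h9 := h7 _ h6
    constructor <;> linarith
  have h1 : (F.image fun x => ⌊(2 : ℝ) ^ p * φ x⌋).card ≤ 2 * D + 1 := by
    refine (card_le_card hsub).trans ?_
    rw [Int.card_Icc]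
    omega
  have h2' : (D : ℝ) ≤ 2 ^ p * δ + 1 := Nat.floor_le (by positivity)
  have h3 : ((F.image fun x => ⌊(2 : ℝ) ^ p * φ x⌋).card : ℝ) ≤ 2 * D + 1 := by exact_mod_cast h1
  linarith

/-- number of boxes inside one flagged cell -/
theorem card_vec_le {ι : Type*} (F : Finset ι) (φ : ι → Fin 4 → ℝ) (p : Fin 4 → ℕ)
    {δ : Fin 4 → ℝ} (hδ : ∀ k, 0 ≤ δ k) (h : ∀ x ∈ F, ∀ y ∈ F, ∀ k, |φ x k - φ y k| ≤ δ k) :
    ((F.image fun x => fun k => ⌊(2 : ℝ) ^ p k * φ x k⌋).card : ℝ) ≤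
      ∏ k, (2 * (2 ^ p k * δ k) + 3) := by
  classical
  have hsub : (F.image fun x => fun k => ⌊(2 : ℝ) ^ p k * φ x k⌋) ⊆
      Fintype.piFinset (fun k => F.image fun x => ⌊(2 : ℝ) ^ p k * φ x k⌋) := by
    intro t ht
    rw [mem_image] at ht
    obtain ⟨x, hx, rfl⟩ := ht
    rw [Fintype.mem_piFinset]
    intro k
    exact mem_image_of_mem _ hx
  have h1 := card_le_card hsub
  rw [Fintype.card_piFinset] at h1
  have h2 : ((F.image fun x => fun k => ⌊(2 : ℝ) ^ p k * φ x k⌋).card : ℝ) ≤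
      ∏ k, ((F.image fun x => ⌊(2 : ℝ) ^ p k * φ x k⌋).card : ℝ) := by exact_mod_cast h1
  refine h2.trans (prod_le_prod (fun k _ => by positivity) (fun k _ => ?_))
  exact card_floor_le F (fun x => φ x k) (p k) (hδ k) (fun x hx y hy => h x hx y hy k)

/-- **number of classes (flagged cell, grid box) met by a set** -/
theorem card_lab_le {ι : Type*} (F : Finset ι) (x : ι → Inc) (i j : ℕ) (p : Fin 4 → ℕ)
    {dz dθ : ℝ} {δ : Fin 4 → ℝ} (hdz : 0 ≤ dz) (hdθ : 0 ≤ dθ) (hδ : ∀ k, 0 ≤ δ k)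
    (hz : ∀ a ∈ F, ∀ b ∈ F, |(x a).z - (x b).z| ≤ dz)
    (hθ : ∀ a ∈ F, ∀ b ∈ F, |(x a).θ - (x b).θ| ≤ dθ)
    (hc : ∀ a ∈ F, ∀ b ∈ F, (x a).cell i j = (x b).cell i j →
      ∀ k, |(x a).co i j k - (x b).co i j k| ≤ δ k) :
    ((F.image fun a => (x a).lab i j p).card : ℝ) ≤
      (2 * (2 ^ i * dz) + 3) * (2 * (2 ^ j * dθ) + 3) * ∏ k, (2 * (2 ^ p k * δ k) + 3) := by
  classical
  -- the flagged cells
  set Cs := F.image fun a => (x a).cell i j with hCs
  have hCs_card : (Cs.card : ℝ) ≤ (2 * (2 ^ i * dz) + 3) * (2 * (2 ^ j * dθ) + 3) := by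
    have hsub : Cs ⊆ (F.image fun a => ⌊(2 : ℝ) ^ i * (x a).z⌋) ×ˢ
        (F.image fun a => ⌊(2 : ℝ) ^ j * (x a).θ⌋) := by
      intro t ht
      rw [hCs, mem_image] at ht
      obtain ⟨a, ha, rfl⟩ := ht
      rw [mem_product]
      exact ⟨mem_image_of_mem (fun a => ⌊(2 : ℝ) ^ i * (x a).z⌋) ha,
        mem_image_of_mem (fun a => ⌊(2 : ℝ) ^ j * (x a).θ⌋) ha⟩
    have h1 := card_le_card hsub
    rw [card_product] at h1
    have h2 : (Cs.card : ℝ) ≤ ((F.image fun a => ⌊(2 : ℝ) ^ i * (x a).z⌋).card : ℝ) *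
        ((F.image fun a => ⌊(2 : ℝ) ^ j * (x a).θ⌋).card : ℝ) := by exact_mod_cast h1
    refine h2.trans (mul_le_mul (card_floor_le F (fun a => (x a).z) i hdz hz)
      (card_floor_le F (fun a => (x a).θ) j hdθ hθ) (by positivity) (by positivity))
  have hprod : 0 ≤ ∏ k, (2 * ((2 : ℝ) ^ p k * δ k) + 3) :=
    prod_nonneg fun k _ => by have := hδ k; positivity
  -- labels = union over the cells
  have hsub : (F.image fun a => (x a).lab i j p) ⊆ Cs.biUnion fun c =>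
      ((F.filter fun a => (x a).cell i j = c).image fun a => (x a).lab i j p) := by
    intro t ht
    rw [mem_image] at ht
    obtain ⟨a, ha, rfl⟩ := ht
    rw [mem_biUnion]
    refine ⟨(x a).cell i j, mem_image_of_mem (fun a => (x a).cell i j) ha, ?_⟩
    exact mem_image_of_mem (fun a => (x a).lab i j p) (mem_filter.2 ⟨ha, rfl⟩)
  have h1 : ((F.image fun a => (x a).lab i j p).card : ℝ) ≤ ∑ c ∈ Cs,
      (((F.filter fun a => (x a).cell i j = c).image fun a => (x a).lab i j p).card : ℝ) := by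
    have := (card_le_card hsub).trans card_biUnion_le
    exact_mod_cast this
  have h2 : ∀ c ∈ Cs,
      (((F.filter fun a => (x a).cell i j = c).image fun a => (x a).lab i j p).card : ℝ) ≤
        ∏ k, (2 * (2 ^ p k * δ k) + 3) := by
    intro c _
    set G := F.filter fun a => (x a).cell i j = c with hG
    have h3 : (G.image fun a => (x a).lab i j p).card ≤
        (G.image fun a => fun k => ⌊(2 : ℝ) ^ p k * (x a).co i j k⌋).card := by
      have e1 : (G.image fun a => (x a).lab i j p) =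
          (G.image fun a => fun k => ⌊(2 : ℝ) ^ p k * (x a).co i j k⌋).image
            (fun v => ((c, v) : (ℤ × ℤ) × (Fin 4 → ℤ))) := by
        rw [image_image]
        refine image_congr (fun a ha => ?_)
        have ha' : (x a).cell i j = c := (mem_filter.1 (mem_coe.1 ha)).2
        simp only [Function.comp, Inc.lab, ha']
      rw [e1]
      exact card_image_le
    have h4 : ((G.image fun a => (x a).lab i j p).card : ℝ) ≤
        ((G.image fun a => fun k => ⌊(2 : ℝ) ^ p k * (x a).co i j k⌋).card : ℝ) := by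
      exact_mod_cast h3
    refine h4.trans (card_vec_le G (fun a => (x a).co i j) p hδ (fun a ha b hb k => ?_))
    have ha' := mem_filter.1 ha
    have hb' := mem_filter.1 hb
    exact hc a ha'.1 b hb'.1 (ha'.2.trans hb'.2.symm) k
  calc ((F.image fun a => (x a).lab i j p).card : ℝ) ≤ ∑ c ∈ Cs,
      (((F.filter fun a => (x a).cell i j = c).image fun a => (x a).lab i j p).card : ℝ) := h1
    _ ≤ ∑ c ∈ Cs, ∏ k, (2 * (2 ^ p k * δ k) + 3) := sum_le_sum h2
    _ = Cs.card * ∏ k, (2 * (2 ^ p k * δ k) + 3) := by rw [sum_const, nsmul_eq_mul]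
    _ ≤ _ := mul_le_mul_of_nonneg_right hCs_card hprod

end Crest.Agent.R138.GeoR298
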