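import Mathlib
import Crest.Agent.R138.Tilt_51
import Crest.Agent.R138.Flg1_101
import Crest.Agent.R138.Flg2_101

/-!
# R138, TEXT I, L15 (helper638): global normalised coordinates

`toInc c H al sc l ph z` : the incidence (line `l`, flag slope `ph`, height `z`) in the chart `c`,
height scaled by `H`, wide coordinate in units `al / H`, thin coordinate in units `al sc / H`,
slope in units `sc`.

* `G1` : incidences with the same label lie in one real plank;
* `G2` : coordinates of the incidences of one real plank whose frames agree.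
-/

set_option autoImplicit false
set_option linter.unusedVariables false

namespace Crest.Agent.R138.Nx638

open Crest.Agent.R138.Flag51 Crest.Agent.R138.Flg101

noncomputable section

/-- thin coordinate of the chart `c` -/
def Yc (c : Bool) (x : E2) : ℝ := if c then x 1 else x 0
/-- wide coordinate of the chart `c` -/
def Xc (c : Bool) (x : E2) : ℝ := if c then x 0 else x 1

variable {c : Bool}

theorem Yc_sub (c : Bool) (x y : E2) : Yc c (x - y) = Yc c x - Yc c y := by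
  cases c <;> simp [Yc]
theorem Xc_sub (c : Bool) (x y : E2) : Xc c (x - y) = Xc c x - Xc c y := by
  cases c <;> simp [Xc]
theorem Yc_pos (c : Bool) (l : Ln) (z : ℝ) : Yc c (pos l z) = Yc c l.1 + z * Yc c l.2 := by
  cases c <;> simp [Yc, pos]
theorem Xc_pos (c : Bool) (l : Ln) (z : ℝ) : Xc c (pos l z) = Xc c l.1 + z * Xc c l.2 := by
  cases c <;> simp [Xc, pos]

theorem dt_eq (c : Bool) (x e : E2) : dt x e = Yc c x * Yc c e + Xc c x * Xc c e := by
  cases c <;> simp [Xc, Yc, dt]; ring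

theorem cr_eq (c : Bool) (e x : E2) : |cr e x| = |Yc c e * Xc c x - Xc c e * Yc c x| := by
  cases c
  · simp [Xc, Yc, cr]
  · simp only [Xc, Yc, cr, if_true]
    rw [← abs_neg]; congr 1; ring

/-- slope of the plane with normal `e` -/
def sl (c : Bool) (e : E2) : ℝ := - Xc c e / Yc c e

/-- the chart condition -/
def Ch (c : Bool) (e : E2) : Prop := |Xc c e| ≤ |Yc c e|

theorem Ch.or (e : E2) : Ch false e ∨ Ch true e := by
  simp only [Ch, Xc, Yc]
  rcases le_total |e 1| |e 0| with h | h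
  · left; simpa using h
  · right; simpa using h

theorem Ch.half {e : E2} (h : Ch c e) (he : dt e e = 1) : 1 / 2 ≤ Yc c e ^ 2 := by
  rw [dt_eq c] at he
  have := sq_le_sq.2 h
  nlinarith

theorem Ch.ne {e : E2} (h : Ch c e) (he : dt e e = 1) : Yc c e ≠ 0 := by
  intro h0
  have := h.half he
  rw [h0] at this
  norm_num at this

theorem Ch.le {e : E2} (he : dt e e = 1) : |Yc c e| ≤ 1 := by
  rw [dt_eq c] at he
  rw [abs_le_one_iff_mul_self_le_one]
  nlinarith [mul_self_nonneg (Xc c e)]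

theorem Ch.sl_le {e : E2} (h : Ch c e) (he : dt e e = 1) : |sl c e| ≤ 1 := by
  rw [sl, abs_div, abs_neg]
  exact div_le_one_of_le₀ h (abs_nonneg _)

theorem cr_sl {e e' : E2} (h : Yc c e ≠ 0) (h' : Yc c e' ≠ 0) :
    |cr e e'| = |Yc c e| * |Yc c e'| * |sl c e - sl c e'| := by
  rw [cr_eq c, ← abs_mul, ← abs_mul]
  congr 1
  rw [sl, sl]
  field_simp
  ring

theorem Ch.sl_dist {e e' : E2} (h : Ch c e) (h' : Ch c e') (he : dt e e = 1)
    (he' : dt e' e' = 1) : |sl c e - sl c e'| ≤ 2 * |cr e e'| := by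
  rw [cr_sl (h.ne he) (h'.ne he')]
  have h1 := h.half he
  have h2 := h'.half he'
  have h3 : 1 / 2 ≤ |Yc c e| * |Yc c e'| := by
    rw [← pow_le_pow_iff_left₀ (by norm_num) (by positivity) (two_ne_zero), mul_pow, sq_abs, sq_abs]
    nlinarith
  nlinarith [abs_nonneg (sl c e - sl c e')]

theorem cr_le_sl {e e' : E2} (h : Yc c e ≠ 0) (h' : Yc c e' ≠ 0) (he : dt e e = 1)
    (he' : dt e' e' = 1) : |cr e e'| ≤ |sl c e - sl c e'| := by
  rw [cr_sl h h']
  have h1 := Ch.le (c := c) he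
  have h2 := Ch.le (c := c) he'
  have h3 : |Yc c e| * |Yc c e'| ≤ 1 := mul_le_one₀ h1 (abs_nonneg _) h2
  nlinarith [abs_nonneg (sl c e - sl c e')]

/-- unit normal of the plane of slope `f` -/
def nrm (c : Bool) (f : ℝ) : E2 :=
  if c then !₂[-f / √(1 + f ^ 2), 1 / √(1 + f ^ 2)] else !₂[1 / √(1 + f ^ 2), -f / √(1 + f ^ 2)]

theorem Yc_nrm (c : Bool) (f : ℝ) : Yc c (nrm c f) = 1 / √(1 + f ^ 2) := by
  cases c <;> simp [Yc, nrm]
theorem Xc_nrm (c : Bool) (f : ℝ) : Xc c (nrm c f) = -f / √(1 + f ^ 2) := by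
  cases c <;> simp [Xc, nrm]

theorem sqrt_pos' (f : ℝ) : 0 < √(1 + f ^ 2) := Real.sqrt_pos.2 (by positivity)
theorem one_le_sqrt (f : ℝ) : 1 ≤ √(1 + f ^ 2) := by
  rw [Real.one_le_sqrt]; nlinarith [sq_nonneg f]

theorem nrm_unit (c : Bool) (f : ℝ) : dt (nrm c f) (nrm c f) = 1 := by
  rw [dt_eq c, Yc_nrm, Xc_nrm]
  have h := sqrt_pos' f
  have h2 : √(1 + f ^ 2) ^ 2 = 1 + f ^ 2 := Real.sq_sqrt (by positivity)
  field_simp
  rw [h2]

theorem sl_nrm (c : Bool) (f : ℝ) : sl c (nrm c f) = f := by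
  rw [sl, Yc_nrm, Xc_nrm]
  have h := sqrt_pos' f
  field_simp

theorem Yc_nrm_ne (c : Bool) (f : ℝ) : Yc c (nrm c f) ≠ 0 := by
  rw [Yc_nrm]; have := sqrt_pos' f; positivity

/-- the incidence in normalised coordinates -/
def toInc (c : Bool) (H al sc : ℝ) (l : Ln) (ph z : ℝ) : Inc where
  a := H / al * Xc c l.1
  b := H / (al * sc) * Yc c l.1
  c := 1 / al * Xc c l.2
  d := 1 / (al * sc) * Yc c l.2
  z := H * z
  θ := ph / sc

section

variable {H al sc : ℝ} {l l' : Ln} {ph ph' z z' : ℝ}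

theorem X_toInc (hH : 0 < H) (hal : 0 < al) (h : ℝ) :
    (toInc c H al sc l ph z).X (H * h) = H / al * Xc c (pos l h) := by
  simp only [toInc, Inc.X, Xc_pos]
  field_simp

theorem Y_toInc (hH : 0 < H) (hal : 0 < al) (hsc : 0 < sc) (h : ℝ) :
    (toInc c H al sc l ph z).Y (H * h) = H / (al * sc) * Yc c (pos l h) := by
  simp only [toInc, Inc.Y, Yc_pos]
  field_simp

theorem N_toInc (hH : 0 < H) (hal : 0 < al) (hsc : 0 < sc) (h f : ℝ) :
    (toInc c H al sc l ph z).N (H * h) f = H / (al * sc) * (Yc c (pos l h) - f * sc * Xc c (pos l h)) := by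
  rw [Inc.N, X_toInc hH hal, Y_toInc hH hal hsc]
  field_simp

theorem dt_nrm (c : Bool) (f : ℝ) (x : E2) : dt x (nrm c f) = (Yc c x - f * Xc c x) / √(1 + f ^ 2) := by
  rw [dt_eq c, Yc_nrm, Xc_nrm]; ring

theorem cr_nrm (c : Bool) (f : ℝ) (x : E2) :
    |cr (nrm c f) x| = |Xc c x + f * Yc c x| / √(1 + f ^ 2) := by
  rw [cr_eq c, Yc_nrm, Xc_nrm, ← abs_of_pos (sqrt_pos' f), ← abs_div]
  rw [abs_of_pos (sqrt_pos' f)]
  congr 1
  ring

theorem abs_dt_nrm_le (c : Bool) (f : ℝ) (x : E2) : |dt x (nrm c f)| ≤ |Yc c x - f * Xc c x| := by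
  rw [dt_nrm, abs_div, abs_of_pos (sqrt_pos' f)]
  exact div_le_self (abs_nonneg _) (one_le_sqrt f)

theorem abs_cr_nrm_le (c : Bool) (f : ℝ) (x : E2) :
    |cr (nrm c f) x| ≤ (1 + |f|) * |Xc c x| + |Yc c x - f * Xc c x| := by
  rw [cr_nrm, div_le_iff₀ (sqrt_pos' f)]
  have h1 : Xc c x + f * Yc c x = (1 + f ^ 2) * Xc c x + f * (Yc c x - f * Xc c x) := by ring
  have h2 : √(1 + f ^ 2) ^ 2 = 1 + f ^ 2 := Real.sq_sqrt (by positivity)
  have h3 : √(1 + f ^ 2) ≤ 1 + |f| := by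
    rw [Real.sqrt_le_iff]
    constructor
    · positivity
    · nlinarith [sq_abs f, abs_nonneg f]
  have h4 : |f| ≤ √(1 + f ^ 2) := by
    apply Real.le_sqrt_of_sq_le
    rw [sq_abs]; linarith
  have h5 := sqrt_pos' f
  rw [h1]
  refine (abs_add_le ((1 + f ^ 2) * Xc c x) (f * (Yc c x - f * Xc c x))).trans ?_
  rw [abs_mul, abs_mul, abs_of_pos (by positivity : (0:ℝ) < 1 + f ^ 2)]
  have k1 : (1 + f ^ 2) * |Xc c x| ≤ (1 + |f|) * |Xc c x| * √(1 + f ^ 2) := by
    have := mul_le_mul_of_nonneg_right h3 (mul_nonneg h5.le (abs_nonneg (Xc c x)))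
    calc (1 + f ^ 2) * |Xc c x| = √(1 + f ^ 2) * (√(1 + f ^ 2) * |Xc c x|) := by
          rw [← mul_assoc, ← sq, h2]
      _ ≤ (1 + |f|) * (√(1 + f ^ 2) * |Xc c x|) := this
      _ = _ := by ring
  have k2 : |f| * |Yc c x - f * Xc c x| ≤ |Yc c x - f * Xc c x| * √(1 + f ^ 2) := by
    rw [mul_comm]
    exact mul_le_mul_of_nonneg_left h4 (abs_nonneg _)
  linarith

/-- **(G1)** incidences with the same flagged cell and close coordinates lie in one real plank -/
theorem G1 (hH : 0 < H) (hal : 0 < al) (hsc : 0 < sc) {i j : ℕ} {r : Fin 4 → ℝ}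
    (hc : (toInc c H al sc l ph z).cell i j = (toInc c H al sc l' ph' z').cell i j)
    (hd : ∀ k, |(toInc c H al sc l ph z).co i j k - (toInc c H al sc l' ph' z').co i j k| ≤ r k)
    {D ζ : ℝ} (hD : |H * ζ - (toInc c H al sc l' ph' z').zQ i| ≤ D) :
    |dt (pos l ζ - pos l' ζ) (nrm c ((toInc c H al sc l' ph' z').fQ j * sc))| ≤
        al * sc / H * (r 0 + D * r 1) ∧
    |cr (nrm c ((toInc c H al sc l' ph' z').fQ j * sc)) (pos l ζ - pos l' ζ)| ≤
        (1 + |(toInc c H al sc l' ph' z').fQ j * sc|) * (al / H * (r 3 + D * r 2)) +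
        al * sc / H * (r 0 + D * r 1) := by
  set w := toInc c H al sc l ph z with hw
  set w' := toInc c H al sc l' ph' z' with hw'
  have ez := zQ_eq hc
  have ef := fQ_eq hc
  have h0 := hd 0
  have h1 := hd 1
  have h2 := hd 2
  have h3 := hd 3
  simp only [Inc.co, Matrix.cons_val_zero, Matrix.cons_val_one, Matrix.cons_val] at h0 h1 h2 h3
  rw [ez, ef] at h0
  rw [ef] at h1
  rw [ez] at h3
  set q := w'.zQ i
  set f := w'.fQ j
  -- the wide coordinate
  have kX : |Xc c (pos l ζ) - Xc c (pos l' ζ)| ≤ al / H * (r 3 + D * r 2) := by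
    have e1 : Xc c (pos l ζ) = al / H * w.X (H * ζ) := by
      rw [hw, X_toInc hH hal]; field_simp
    have e2 : Xc c (pos l' ζ) = al / H * w'.X (H * ζ) := by
      rw [hw', X_toInc hH hal]; field_simp
    rw [e1, e2, ← mul_sub, abs_mul, abs_of_pos (by positivity : 0 < al / H)]
    refine mul_le_mul_of_nonneg_left ?_ (by positivity)
    rw [X_change w q, X_change w' q]
    have e3 : w.X q + (H * ζ - q) * w.c - (w'.X q + (H * ζ - q) * w'.c) =
        (w.X q - w'.X q) + (H * ζ - q) * (w.c - w'.c) := by ring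
    rw [e3]
    refine (abs_add_le _ _).trans (add_le_add h3 ?_)
    rw [abs_mul]
    exact mul_le_mul hD h2 (abs_nonneg _) ((abs_nonneg _).trans hD)
  have kN : |(Yc c (pos l ζ) - f * sc * Xc c (pos l ζ)) -
      (Yc c (pos l' ζ) - f * sc * Xc c (pos l' ζ))| ≤ al * sc / H * (r 0 + D * r 1) := by
    have e1 : Yc c (pos l ζ) - f * sc * Xc c (pos l ζ) = al * sc / H * w.N (H * ζ) f := by
      rw [hw, N_toInc hH hal hsc]; field_simp
    have e2 : Yc c (pos l' ζ) - f * sc * Xc c (pos l' ζ) = al * sc / H * w'.N (H * ζ) f := by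
      rw [hw', N_toInc hH hal hsc]; field_simp
    rw [e1, e2, ← mul_sub, abs_mul, abs_of_pos (by positivity : 0 < al * sc / H)]
    refine mul_le_mul_of_nonneg_left ?_ (by positivity)
    rw [N_change w q (H * ζ) f f, N_change w' q (H * ζ) f f]
    have e3 : w.N q f + (H * ζ - q) * w.P f - (f - f) * w.X q - (H * ζ - q) * (f - f) * w.c -
        (w'.N q f + (H * ζ - q) * w'.P f - (f - f) * w'.X q - (H * ζ - q) * (f - f) * w'.c) =
        (w.N q f - w'.N q f) + (H * ζ - q) * (w.P f - w'.P f) := by ring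
    rw [e3]
    refine (abs_add_le _ _).trans (add_le_add h0 ?_)
    rw [abs_mul]
    exact mul_le_mul hD h1 (abs_nonneg _) ((abs_nonneg _).trans hD)
  have kN' : |Yc c (pos l ζ - pos l' ζ) - f * sc * Xc c (pos l ζ - pos l' ζ)| ≤
      al * sc / H * (r 0 + D * r 1) := by
    rw [Yc_sub, Xc_sub]
    refine le_trans (le_of_eq ?_) kN
    congr 1; ring
  refine ⟨(abs_dt_nrm_le _ _ _).trans kN', (abs_cr_nrm_le _ _ _).trans (add_le_add ?_ kN')⟩
  rw [Xc_sub]
  exact mul_le_mul_of_nonneg_left kX (by positivity)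

/-- `|X|` is at most the length -/
theorem abs_Xc_le {e : E2} (he : dt e e = 1) (x : E2) : |Xc c x| ≤ |dt x e| + |cr e x| := by
  have h1 : Xc c x ^ 2 ≤ dt x e ^ 2 + cr e x ^ 2 := by
    have h2 := unit_id x e
    rw [he, mul_one] at h2
    have h3 : cr x e ^ 2 = cr e x ^ 2 := by simp only [cr]; ring
    rw [h3, dt_eq c x x] at h2
    nlinarith [mul_self_nonneg (Yc c x)]
  have h4 : |Xc c x| ^ 2 ≤ (|dt x e| + |cr e x|) ^ 2 := by
    rw [sq_abs]
    have := mul_nonneg (abs_nonneg (dt x e)) (abs_nonneg (cr e x))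
    nlinarith [sq_abs (dt x e), sq_abs (cr e x)]
  exact (pow_le_pow_iff_left₀ (abs_nonneg _) (by positivity) two_ne_zero).1 h4

theorem abs_dt_le {e n : E2} (he : dt e e = 1) (hn : dt n n = 1) (x : E2) :
    |dt x n| ≤ |dt x e| + |cr n e| * |cr e x| := by
  rw [dt_of (e := n) (e' := e) he x]
  refine (abs_sub _ _).trans ?_
  rw [abs_mul, abs_mul]
  have := mul_le_mul_of_nonneg_right (abs_dt_le_one hn he) (abs_nonneg (dt x e))
  linarith

theorem thin_le (c : Bool) (f : ℝ) (x : E2) :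
    |Yc c x - f * Xc c x| ≤ (1 + |f|) * |dt x (nrm c f)| := by
  rw [dt_nrm, abs_div, abs_of_pos (sqrt_pos' f)]
  have h3 : √(1 + f ^ 2) ≤ 1 + |f| := by
    rw [Real.sqrt_le_iff]
    constructor
    · positivity
    · nlinarith [sq_abs f, abs_nonneg f]
  have h5 := sqrt_pos' f
  calc |Yc c x - f * Xc c x| = √(1 + f ^ 2) * (|Yc c x - f * Xc c x| / √(1 + f ^ 2)) := by
        field_simp
    _ ≤ _ := mul_le_mul_of_nonneg_right h3 (by positivity)

/-- velocity of the difference -/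
theorem vel_le {l l' bl : Ln} {e : E2} {w1 w2 z0 ρ : ℝ} (hρ : 0 < ρ)
    (h : InPlank l bl e w1 w2 z0 ρ) (h' : InPlank l' bl e w1 w2 z0 ρ) :
    |dt (l.2 - l'.2) e| ≤ 2 * w1 / ρ ∧ |cr e (l.2 - l'.2)| ≤ 2 * w2 / ρ := by
  have k1 := h (z0 + ρ) (by rw [add_sub_cancel_left, abs_of_pos hρ])
  have k2 := h (z0 - ρ) (by rw [sub_sub_cancel_left, abs_neg, abs_of_pos hρ])
  have k3 := h' (z0 + ρ) (by rw [add_sub_cancel_left, abs_of_pos hρ])
  have k4 := h' (z0 - ρ) (by rw [sub_sub_cancel_left, abs_neg, abs_of_pos hρ])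
  constructor
  · rw [le_div_iff₀ hρ]
    have e1 : 2 * ρ * dt (l.2 - l'.2) e =
        (dt (pos l (z0 + ρ) - pos bl (z0 + ρ)) e - dt (pos l' (z0 + ρ) - pos bl (z0 + ρ)) e) -
        (dt (pos l (z0 - ρ) - pos bl (z0 - ρ)) e - dt (pos l' (z0 - ρ) - pos bl (z0 - ρ)) e) := by
      simp only [dt, pos, PiLp.sub_apply, PiLp.add_apply, PiLp.smul_apply, smul_eq_mul]; ring
    have e2 : |2 * ρ * dt (l.2 - l'.2) e| ≤ 4 * w1 := by
      rw [e1]
      have a1 := abs_le.1 k1.1
      have a2 := abs_le.1 k2.1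
      have a3 := abs_le.1 k3.1
      have a4 := abs_le.1 k4.1
      rw [abs_le]; constructor <;> linarith [a1.1, a1.2, a2.1, a2.2, a3.1, a3.2, a4.1, a4.2]
    rw [abs_mul, abs_mul, abs_two, abs_of_pos hρ] at e2
    linarith
  · rw [le_div_iff₀ hρ]
    have e1 : 2 * ρ * cr e (l.2 - l'.2) =
        (cr e (pos l (z0 + ρ) - pos bl (z0 + ρ)) - cr e (pos l' (z0 + ρ) - pos bl (z0 + ρ))) -
        (cr e (pos l (z0 - ρ) - pos bl (z0 - ρ)) - cr e (pos l' (z0 - ρ) - pos bl (z0 - ρ))) := by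
      simp only [cr, pos, PiLp.sub_apply, PiLp.add_apply, PiLp.smul_apply, smul_eq_mul]; ring
    have e2 : |2 * ρ * cr e (l.2 - l'.2)| ≤ 4 * w2 := by
      rw [e1]
      have a1 := abs_le.1 k1.2
      have a2 := abs_le.1 k2.2
      have a3 := abs_le.1 k3.2
      have a4 := abs_le.1 k4.2
      rw [abs_le]; constructor <;> linarith [a1.1, a1.2, a2.1, a2.2, a3.1, a3.2, a4.1, a4.2]
    rw [abs_mul, abs_mul, abs_two, abs_of_pos hρ] at e2
    linarith

/-- position of the difference at distance `R` -/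
theorem pos_le {l l' bl : Ln} {e : E2} {w1 w2 z0 ρ R ζ : ℝ} (hρ : 0 < ρ) (hR : ρ ≤ R)
    (h : InPlank l bl e w1 w2 z0 ρ) (h' : InPlank l' bl e w1 w2 z0 ρ) (hζ : |ζ - z0| ≤ R) :
    |dt (pos l ζ - pos l' ζ) e| ≤ 6 * (R / ρ) * w1 ∧
      |cr e (pos l ζ - pos l' ζ)| ≤ 6 * (R / ρ) * w2 := by
  have k1 := Tilt51.inPlank_extend h hρ hR (z0 := z0) (by rw [sub_self, abs_zero]; linarith) ζ hζ
  have k2 := Tilt51.inPlank_extend h' hρ hR (z0 := z0) (by rw [sub_self, abs_zero]; linarith) ζ hζ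
  constructor
  · have e1 : dt (pos l ζ - pos l' ζ) e = dt (pos l ζ - pos bl ζ) e - dt (pos l' ζ - pos bl ζ) e := by
      rw [← dt_sub]; congr 1; abel
    rw [e1]
    refine (abs_sub _ _).trans ?_
    linarith [k1.1, k2.1]
  · have e1 : cr e (pos l ζ - pos l' ζ) = cr e (pos l ζ - pos bl ζ) - cr e (pos l' ζ - pos bl ζ) := by
      rw [← cr_sub]; congr 1; abel
    rw [e1]
    refine (abs_sub _ _).trans ?_
    linarith [k1.2, k2.2]

/-- **(G2)** coordinates of two incidences of one real plank with the same flagged cell -/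
theorem G2 (hH : 0 < H) (hal : 0 < al) (hsc : 0 < sc) {bl : Ln} {e fl fl' : E2}
    {w1 w2 z0 ρ R δ : ℝ} (hw1 : 0 ≤ w1) (hw2 : 0 ≤ w2) (hρ : 0 < ρ) (hR : ρ ≤ R)
    (he : dt e e = 1) (hf' : dt fl' fl' = 1) (hc' : Ch c fl')
    (h : InPlank l bl e w1 w2 z0 ρ) (h' : InPlank l' bl e w1 w2 z0 ρ) {i j : ℕ}
    (hcell : (toInc c H al sc l (sl c fl) z).cell i j = (toInc c H al sc l' (sl c fl') z').cell i j)
    (hδ : |cr fl' e| ≤ δ)
    (hζ : |(toInc c H al sc l' (sl c fl') z').zQ i / H - z0| ≤ R) {F η : ℝ}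
    (hF : 1 + |(toInc c H al sc l' (sl c fl') z').fQ j * sc| ≤ F)
    (hη : sc * (1 / 2) ^ j + δ ≤ η) :
    |(toInc c H al sc l (sl c fl) z).co i j 0 - (toInc c H al sc l' (sl c fl') z').co i j 0| ≤
        H / (al * sc) * (F * (6 * (R / ρ) * w1 + η * (6 * (R / ρ) * w2))) ∧
    |(toInc c H al sc l (sl c fl) z).co i j 1 - (toInc c H al sc l' (sl c fl') z').co i j 1| ≤
        1 / (al * sc) * (F * (2 * w1 / ρ + η * (2 * w2 / ρ))) ∧
    |(toInc c H al sc l (sl c fl) z).co i j 2 - (toInc c H al sc l' (sl c fl') z').co i j 2| ≤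
        1 / al * (2 * w1 / ρ + 2 * w2 / ρ) ∧
    |(toInc c H al sc l (sl c fl) z).co i j 3 - (toInc c H al sc l' (sl c fl') z').co i j 3| ≤
        H / al * (6 * (R / ρ) * w1 + 6 * (R / ρ) * w2) := by
  set w := toInc c H al sc l (sl c fl) z with hw
  set w' := toInc c H al sc l' (sl c fl') z' with hw'
  have ez := zQ_eq hcell
  have ef := fQ_eq hcell
  simp only [Inc.co, Matrix.cons_val_zero, Matrix.cons_val_one, Matrix.cons_val]
  rw [ez, ef]
  set q := w'.zQ i with hq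
  set f := w'.fQ j with hfdef
  set ζ := q / H with hζdef
  have hqζ : q = H * ζ := by rw [hζdef]; field_simp
  have hnu := nrm_unit c (f * sc)
  -- tilt of the corner plane
  have htilt : |cr (nrm c (f * sc)) e| ≤ η := by
    refine (Tilt51.abs_cr_triangle hnu hf' he).trans ?_
    have h1 : |cr (nrm c (f * sc)) fl'| ≤ sc * (1 / 2) ^ j := by
      refine (cr_le_sl (Yc_nrm_ne c _) (hc'.ne hf') hnu hf').trans ?_
      rw [sl_nrm]
      have h2 := abs_sub_fl j (sl c fl' / sc)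
      have h3 : f = Inc.fl j (sl c fl' / sc) := rfl
      rw [h3, abs_sub_comm]
      have h4 : sl c fl' - Inc.fl j (sl c fl' / sc) * sc =
          sc * (sl c fl' / sc - Inc.fl j (sl c fl' / sc)) := by field_simp
      rw [h4, abs_mul, abs_of_pos hsc]
      exact mul_le_mul_of_nonneg_left h2 hsc.le
    linarith
  have hη0 : 0 ≤ η := (abs_nonneg _).trans htilt
  have hF0 : 0 ≤ F := (by positivity : (0:ℝ) ≤ 1 + |f * sc|).trans hF
  obtain ⟨p1, p2⟩ := pos_le hρ hR h h' hζ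
  obtain ⟨v1, v2⟩ := vel_le hρ h h'
  have hR0 : 0 ≤ R / ρ := div_nonneg (hρ.le.trans hR) hρ.le
  have gen : ∀ (x : E2) (m1 m2 : ℝ), |dt x e| ≤ m1 → |cr e x| ≤ m2 →
      |Yc c x - f * sc * Xc c x| ≤ F * (m1 + η * m2) := by
    intro x m1 m2 h1 h2
    refine (thin_le c (f * sc) x).trans ?_
    have h3 := abs_dt_le he hnu x
    have h4 : |cr (nrm c (f * sc)) e| * |cr e x| ≤ η * m2 :=
      mul_le_mul htilt h2 (abs_nonneg _) hη0
    exact mul_le_mul hF (by linarith) (abs_nonneg _) hF0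
  refine ⟨?_, ?_, ?_, ?_⟩
  · rw [hqζ, hw, hw', N_toInc hH hal hsc, N_toInc hH hal hsc, ← mul_sub, abs_mul,
      abs_of_pos (by positivity : 0 < H / (al * sc))]
    refine mul_le_mul_of_nonneg_left ?_ (by positivity)
    have := gen _ _ _ p1 p2
    rw [Yc_sub, Xc_sub] at this
    refine le_trans (le_of_eq ?_) this
    congr 1; ring
  · have e1 : w.P f - w'.P f = 1 / (al * sc) * (Yc c (l.2 - l'.2) - f * sc * Xc c (l.2 - l'.2)) := by
      rw [Yc_sub, Xc_sub]
      simp only [hw, hw', toInc, Inc.P]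
      field_simp
      ring
    rw [e1, abs_mul, abs_of_pos (by positivity : 0 < 1 / (al * sc))]
    exact mul_le_mul_of_nonneg_left (gen _ _ _ v1 v2) (by positivity)
  · have e1 : w.c - w'.c = 1 / al * Xc c (l.2 - l'.2) := by
      rw [Xc_sub]
      simp only [hw, hw', toInc]
      ring
    rw [e1, abs_mul, abs_of_pos (by positivity : 0 < 1 / al)]
    refine mul_le_mul_of_nonneg_left ?_ (by positivity)
    exact (abs_Xc_le he _).trans (add_le_add v1 v2)
  · rw [hqζ, hw, hw', X_toInc hH hal, X_toInc hH hal, ← mul_sub, abs_mul,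
      abs_of_pos (by positivity : 0 < H / al), ← Xc_sub]
    refine mul_le_mul_of_nonneg_left ?_ (by positivity)
    exact (abs_Xc_le he _).trans (add_le_add p1 p2)

end

end

end Crest.Agent.R138.Nx638
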