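import Crest.Agent.R138.GeoR1_298
import Crest.Agent.R138.Nx1_638

/-!
# R138, L15 GEO-R (helper298), part 2: one real plank with aligned flags meets few classes
-/

set_option autoImplicit false
set_option linter.unusedVariables false

open Finset

namespace Crest.Agent.R138.GeoR298

open Flg101 Flag51 Nx638

/-- bound of the four coordinate differences -/
noncomputable def Dk (H al sc w1 w2 ρ R η : ℝ) : Fin 4 → ℝ :=
  ![H / (al * sc) * (3 * (6 * (R / ρ) * w1 + η * (6 * (R / ρ) * w2))),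
    1 / (al * sc) * (3 * (2 * w1 / ρ + η * (2 * w2 / ρ))),
    1 / al * (2 * w1 / ρ + 2 * w2 / ρ),
    H / al * (6 * (R / ρ) * w1 + 6 * (R / ρ) * w2)]

/-- **a family in one real plank with aligned flags meets few classes.** -/
theorem plank_count {F : Finset (ℕ × ℝ)} {L : ℕ → Ln} {fl : ℕ × ℝ → E2} {c : Bool}
    {H al sc : ℝ} (hH : 0 < H) (hal : 0 < al) (hsc : 0 < sc) (hsc1 : sc ≤ 1)
    {bl : Ln} {e : E2} {w1 w2 z0 ρ δ : ℝ} (hw1 : 0 ≤ w1) (hw2 : 0 ≤ w2) (hρ : 0 < ρ)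
    (hδ : 0 ≤ δ) (he : dt e e = 1)
    (hpl : ∀ x ∈ F, InPlank (L x.1) bl e w1 w2 z0 ρ) (hz : ∀ x ∈ F, |x.2 - z0| ≤ ρ)
    (hfl : ∀ x ∈ F, dt (fl x) (fl x) = 1) (hch : ∀ x ∈ F, Ch c (fl x))
    (hcr : ∀ x ∈ F, |cr (fl x) e| ≤ δ) (i j : ℕ) (p : Fin 4 → ℕ) :
    ((F.image fun x => (toInc c H al sc (L x.1) (sl c (fl x)) x.2).lab i j p).card : ℝ) ≤
      (2 * (2 ^ i * (H * (2 * ρ))) + 3) * (2 * (2 ^ j * (4 * δ / sc)) + 3) *
        ∏ k, (2 * (2 ^ p k * Dk H al sc w1 w2 ρ (ρ + (1 / 2) ^ i / H)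
          (sc * (1 / 2) ^ j + δ) k) + 3) := by
  set R : ℝ := ρ + (1 / 2) ^ i / H with hR
  set η : ℝ := sc * (1 / 2) ^ j + δ with hη
  have hR0 : ρ ≤ R := by rw [hR]; have : 0 ≤ (1 / 2 : ℝ) ^ i / H := by positivity
                         linarith
  have hRρ : 0 ≤ R / ρ := div_nonneg (hρ.le.trans hR0) hρ.le
  have hη0 : 0 ≤ η := by rw [hη]; positivity
  refine card_lab_le F (fun x => toInc c H al sc (L x.1) (sl c (fl x)) x.2) i j p
    (by positivity) (by positivity) ?_ ?_ ?_ ?_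
  · intro k
    fin_cases k
    · show 0 ≤ H / (al * sc) * (3 * (6 * (R / ρ) * w1 + η * (6 * (R / ρ) * w2)))
      positivity
    · show 0 ≤ 1 / (al * sc) * (3 * (2 * w1 / ρ + η * (2 * w2 / ρ)))
      positivity
    · show 0 ≤ 1 / al * (2 * w1 / ρ + 2 * w2 / ρ)
      positivity
    · show 0 ≤ H / al * (6 * (R / ρ) * w1 + 6 * (R / ρ) * w2)
      positivity
  · intro x hx y hy
    show |H * x.2 - H * y.2| ≤ H * (2 * ρ)
    rw [← mul_sub, abs_mul, abs_of_pos hH]
    refine mul_le_mul_of_nonneg_left ?_ hH.le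
    have h1 := abs_le.1 (hz x hx)
    have h2 := abs_le.1 (hz y hy)
    rw [abs_le]; constructor <;> linarith [h1.1, h1.2, h2.1, h2.2]
  · intro x hx y hy
    show |sl c (fl x) / sc - sl c (fl y) / sc| ≤ 4 * δ / sc
    rw [← sub_div, abs_div, abs_of_pos hsc]
    refine div_le_div_of_nonneg_right ?_ hsc.le
    refine (Ch.sl_dist (hch x hx) (hch y hy) (hfl x hx) (hfl y hy)).trans ?_
    have h1 := Tilt51.abs_cr_triangle (hfl x hx) he (hfl y hy)
    have h2 := hcr x hx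
    have h3 := hcr y hy
    rw [Tilt51.abs_cr_swap (fl y) e] at h1
    linarith
  · intro x hx y hy hcell k
    have hζ : |(toInc c H al sc (L y.1) (sl c (fl y)) y.2).zQ i / H - z0| ≤ R := by
      have h1 : |H * y.2 - Inc.fl i (H * y.2)| ≤ (1 / 2) ^ i := abs_sub_fl i (H * y.2)
      have h2 : (toInc c H al sc (L y.1) (sl c (fl y)) y.2).zQ i = Inc.fl i (H * y.2) := rfl
      rw [h2]
      have h3 : Inc.fl i (H * y.2) / H - z0 = (y.2 - z0) - (H * y.2 - Inc.fl i (H * y.2)) / H := by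
        field_simp
        ring
      rw [h3, hR]
      refine (abs_sub _ _).trans (add_le_add (hz y hy) ?_)
      rw [abs_div, abs_of_pos hH]
      exact div_le_div_of_nonneg_right h1 hH.le
    have hF : 1 + |(toInc c H al sc (L y.1) (sl c (fl y)) y.2).fQ j * sc| ≤ 3 := by
      have h1 : |sl c (fl y) / sc - Inc.fl j (sl c (fl y) / sc)| ≤ (1 / 2) ^ j :=
        abs_sub_fl j (sl c (fl y) / sc)
      have h2 : (toInc c H al sc (L y.1) (sl c (fl y)) y.2).fQ j =
        Inc.fl j (sl c (fl y) / sc) := rfl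
      rw [h2]
      have h3 := (hch y hy).sl_le (hfl y hy)
      have h4 : Inc.fl j (sl c (fl y) / sc) * sc =
          sl c (fl y) - (sl c (fl y) / sc - Inc.fl j (sl c (fl y) / sc)) * sc := by
        field_simp
        ring
      rw [h4]
      have h5 := abs_sub (sl c (fl y)) ((sl c (fl y) / sc - Inc.fl j (sl c (fl y) / sc)) * sc)
      rw [abs_mul, abs_of_pos hsc] at h5
      have h6 : (1 / 2 : ℝ) ^ j ≤ 1 := pow_le_one₀ (by norm_num) (by norm_num)
      have h7 : |sl c (fl y) / sc - Inc.fl j (sl c (fl y) / sc)| * sc ≤ 1 * 1 :=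
        mul_le_mul (h1.trans h6) hsc1 hsc.le (by norm_num)
      linarith
    obtain ⟨g0, g1, g2, g3⟩ := G2 (l := L x.1) (l' := L y.1) (z := x.2) (z' := y.2)
      (fl := fl x) (fl' := fl y) hH hal hsc hw1 hw2 hρ hR0 he (hfl y hy) (hch y hy)
      (hpl x hx) (hpl y hy) hcell (hcr y hy) hζ hF (le_refl η)
    fin_cases k
    · exact g0
    · exact g1
    · exact g2
    · exact g3

end Crest.Agent.R138.GeoR298
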