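import Crest.Agent.R138.MkDef_163
import Crest.Agent.R138.ExtP_926
import Crest.Agent.R138.Ps2s_627
import Crest.Agent.R138.Nx1_638

/-!
# R138, TEXT I, leaf L15 (`Nat5 → ExtP`): definitions and literal targets of the pieces (helper196)

Version 2: coordinates of 638 (`Nx1_638.toInc`, chart `c`), `W = w2(1)/ρ(1)`, `σ = prec(0)`,
`H = 2 ^ (lev 0)`.  `xx n x` = 101's incidence of `x = (line, height)`.

* `Raw`  : what `exists_qprof_many` needs.                      [A]    `Raw → ExtP`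
* `Comb` : abstract pruning + sampling + container.             [COMB]
* `GeoD` : D-max count of one box.                              [GEO-D]
* `GeoR` : labels of one marked class.                          [GEO-R]
* `OwnP` : own counts, rotation, twist in normalised form.      [OWN]
-/

set_option autoImplicit false
set_option linter.unusedVariables false

open Finset Filter Topology

namespace Crest.Agent.R138.L15

open Crest.Agent.R138.Ex926 (Base U flab olab Bx6 LEG QProf)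
open Crest.Agent.R138.Flg101
open Crest.Agent.R138.Mk163 (zc zl rho alive amp Mk prec fr Negl RotF Nat5)
open Crest.Agent.R138.Flag51 (Ln E2 cr dt InPlank)
open Crest.Agent.R138.Nx638 (toInc sl Ch)

/-- (line, dyadic cell of level `i` of the height) -/
noncomputable def lz {ι : ℕ → Type} (x : ∀ n, ι n → Inc) (line : ∀ n, ι n → ℕ) (n i : ℕ)
    (a : ι n) : ℕ × ℤ := (line n a, ⌊(2 : ℝ) ^ i * (x n a).z⌋)

/-- exponent of the number of incidences of a box: `b v - q l - 2 v - nn - l + (1-s)(1-v)` -/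
def bex (s b q v l nn : ℝ) : ℝ := b * v - q * l - 2 * v - nn - l + (1 - s) * (1 - v)

open Classical in
/-- **Raw data** from which `ExtP` is extracted by `exists_qprof_many`. -/
structure Raw (B : Base) {ι : ℕ → Type} (I : ∀ n, Finset (ι n))
    (x : ∀ n, ι n → Inc) (line : ∀ n, ι n → ℕ) (M s b q k θ c₀ : ℝ) : Prop where
  ne : ∀ᶠ n in (U : Filter ℕ), (I n).Nonempty
  card : ∃ C : ℝ, ∀ᶠ n in (U : Filter ℕ), ((I n).card : ℝ) ≤ B.d n ^ (-C)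
  s0 : 0 ≤ s
  s1 : s ≤ 1
  bs : 2 * s < b
  q0 : 0 < q
  k0 : 0 < k
  θ0 : 0 < θ
  M0 : 1 + k ≤ M ∧ θ ≤ M
  line_eq : ∀ n, ∀ i j, line n i = line n j →
    (x n i).a = (x n j).a ∧ (x n i).b = (x n j).b ∧ (x n i).c = (x n j).c ∧ (x n i).d = (x n j).d
  ownU : ∀ v : ℝ, 0 ≤ v → v ≤ 1 → ∀ ε : ℝ, 0 < ε → ∀ᶠ n in (U : Filter ℕ), ∀ i ∈ I n,
    (((I n).filter fun j => lz x line n (B.levc n v) j = lz x line n (B.levc n v) i).card : ℝ) ≤
      B.d n ^ (-((1 - s) * (1 - v) + ε))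
  ownL : ∀ v : ℝ, 0 < v → v < 1 → ∀ ε : ℝ, 0 < ε → ∀ᶠ n in (U : Filter ℕ),
    (((I n).image (lz x line n (B.levc n v))).card : ℝ) ≤
      (I n).card * B.d n ^ ((1 - s) * (1 - v) - ε)
  rot : ∀ v : ℝ, 0 < v → v < 1 → ∀ ε : ℝ, 0 < ε → ∀ᶠ n in (U : Filter ℕ), ∀ i ∈ I n, ∀ j ∈ I n,
    lz x line n (B.levc n v) i = lz x line n (B.levc n v) j →
      |(x n i).θ - (x n j).θ| ≤ B.d n ^ (k * v - ε)
  tw : ∀ v r : ℝ, 0 ≤ v → v < 1 → k * v < r → ∃ γ : ℝ, 0 < γ ∧ ∀ᶠ n in (U : Filter ℕ), ∀ i ∈ I n,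
    (((I n).filter fun j => lz x line n (B.levc n v) j = lz x line n (B.levc n v) i ∧
      |(x n i).θ - (x n j).θ| ≤ B.d n ^ r).card : ℝ) ≤ B.d n ^ (γ - (1 - s) * (1 - v))
  dmax : ∀ v l nn r : ℝ, 0 ≤ v → v ≤ 1 → 0 ≤ l → l ≤ nn → Bx6 v l nn r ∈ LEG M →
    ∀ ε : ℝ, 0 < ε → ∀ᶠ n in (U : Filter ℕ), ∀ i ∈ I n,
    (((I n).filter fun j => flab B x n (Bx6 v l nn r) j = flab B x n (Bx6 v l nn r) i).card : ℝ) ≤
      B.d n ^ (-(c₀ + bex s b q v l nn + ε))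
  record : ∀ v : ℝ, 0 < v → v < 1 → ∀ ε : ℝ, 0 < ε → ∀ᶠ n in (U : Filter ℕ),
    (((I n).image (flab B x n (Bx6 v (θ * (1 - v)) (θ * (1 - v) + k * v) (k * v)))).card : ℝ) ≤
      (I n).card * B.d n ^ (c₀ + bex s b q v (θ * (1 - v)) (θ * (1 - v) + k * v) - ε)

open Classical in
/-- **[COMB]** pruning, sampling of lines and choice of a container, abstract. `c` = finest class,
`Q` = container, `a j` = partitions finer than the lines, `g j` = arbitrary partitions. -/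
def Comb : Prop :=
  ∀ (B : Base) (I : ℕ → Finset (ℕ × ℝ)) (κ κ' : Type) (c : ℕ → ℕ × ℝ → κ) (Q : ℕ → ℕ × ℝ → κ')
    (η η' : ℕ → Type) (a : ∀ j : ℕ, ℕ → ℕ × ℝ → η j) (α : ℕ → ℝ)
    (g : ∀ j : ℕ, ℕ → ℕ × ℝ → η' j) (H : ℕ → ℕ → ℝ) (C : ℝ),
    (∀ᶠ n in (U : Filter ℕ), (I n).Nonempty) →
    (∀ ε : ℝ, 0 < ε → ∀ᶠ n in (U : Filter ℕ), Real.log ((I n).card : ℝ) ≤ B.d n ^ (-ε)) →
    (∀ᶠ n in (U : Filter ℕ), ∀ x ∈ I n, ∀ y ∈ I n, x.1 = y.1 → c n x = c n y → x = y) →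
    (∀ j, ∀ᶠ n in (U : Filter ℕ), ∀ x ∈ I n, ∀ y ∈ I n, a j n x = a j n y → x.1 = y.1) →
    (∀ j, ∀ ε : ℝ, 0 < ε → ∀ᶠ n in (U : Filter ℕ), ∀ x ∈ I n,
      B.d n ^ (-(α j) + ε) ≤ (((I n).filter fun y => a j n y = a j n x).card : ℝ)) →
    (∀ j n, 0 < H j n) →
    (∀ j, ∀ ε : ℝ, 0 < ε → ∀ᶠ n in (U : Filter ℕ), ∀ x ∈ I n,
      B.d n ^ ε * H j n ≤ (((I n).filter fun y => g j n y = g j n x).card : ℝ)) →
    (∀ j, ∀ ε : ℝ, 0 < ε → ∀ᶠ n in (U : Filter ℕ), ∀ x ∈ I n,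
      ((((I n).filter fun y => a j n y = a j n x).image (Q n)).card : ℝ) ≤ B.d n ^ (-ε)) →
    (∀ j, ∀ ε : ℝ, 0 < ε → ∀ᶠ n in (U : Filter ℕ), ∀ x ∈ I n,
      ((((I n).filter fun y => g j n y = g j n x).image (Q n)).card : ℝ) ≤ B.d n ^ (-ε)) →
    (∀ᶠ n in (U : Filter ℕ), ∀ x ∈ I n,
      ((((I n).filter fun y => Q n y = Q n x).image (c n)).card : ℝ) ≤ B.d n ^ (-C)) →
    ∃ (K : ℕ → ℝ) (J : ℕ → Finset (ℕ × ℝ)) (C' : ℝ), (∀ n, 1 ≤ K n) ∧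
      (∀ᶠ n in (U : Filter ℕ), J n ⊆ I n ∧ (J n).Nonempty ∧ ((J n).card : ℝ) ≤ B.d n ^ (-C')) ∧
      (∀ j, ∀ ε : ℝ, 0 < ε → ∀ᶠ n in (U : Filter ℕ),
        (((J n).image (a j n)).card : ℝ) ≤ (J n).card * B.d n ^ (α j - ε)) ∧
      (∀ j, ∀ ε : ℝ, 0 < ε → ∀ᶠ n in (U : Filter ℕ),
        (((J n).image (g j n)).card : ℝ) ≤ (J n).card * (K n / H j n) * B.d n ^ (-ε)) ∧
      (∀ ε : ℝ, 0 < ε → ∀ᶠ n in (U : Filter ℕ), ∀ F ⊆ J n,
        (F.card : ℝ) * K n ≤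
          B.d n ^ (-ε) * (((I n).filter fun y => ∃ z ∈ F, c n y = c n z).card : ℝ))

/-! ### the geometric pieces -/

section geo

variable (B : Base) (I : ℕ → Finset (ℕ × ℝ)) (L : ℕ → ℕ → Ln) (lev : ℕ → ℚ → ℕ)
    (r0 A : ℕ → ℝ) (q g : ℝ) (f : ℕ → ℚ → ℕ → ℤ → ℕ) (b : ℕ → ℚ → ℕ → Ln)
    (e : ℕ → ℚ → ℕ → E2) (w1 w2 : ℕ → ℚ → ℝ) (fl : ℕ → ℕ × ℝ → E2) (sc : ℕ → ℝ) (k s θ : ℝ)
    (c : Bool)

/-- wide angular unit -/
noncomputable def WW (n : ℕ) : ℝ := w2 n 1 / rho (lev n 1)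

/-- slope unit -/
noncomputable def sg (n : ℕ) : ℝ := prec w1 w2 n 0

/-- number of lines of the unit box -/
noncomputable def N0 (n : ℕ) : ℝ := A n * WW lev w2 n ^ (2 + q) * sg w1 w2 n * rho (lev n 0) ^ 2

/-- the incidences in 101's coordinates -/
noncomputable def xx (n : ℕ) (x : ℕ × ℝ) : Inc :=
  toInc c (2 ^ lev n 0) (WW lev w2 n) (sg w1 w2 n) (L n x.1) (sl c (fl n x)) x.2

/-- the common input of the geometric pieces: `Nat5` with bounded slopes. -/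
structure NatJ : Prop where
  nat : Nat5 B I L lev r0 A q g f b e w1 w2 fl sc k s θ
  slope : ∀ n, ∀ x ∈ I n, Ch c (fl n x)

/-- the resolution -/
noncomputable def MM (k θ : ℝ) : ℝ := max (1 + k) θ

open Classical in
/-- **[GEO-D]** number of incidences in ten times a box: D-max, real level, any slope level. -/
def GeoD : Prop :=
  NatJ B I L lev r0 A q g f b e w1 w2 fl sc k s θ c →
  ∀ v l nn r : ℝ, 0 ≤ v → v ≤ 1 → 0 ≤ l → l ≤ nn → Bx6 v l nn r ∈ LEG (MM k θ) →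
    ∀ ε : ℝ, 0 < ε → ∀ᶠ n in (U : Filter ℕ), ∀ x ∈ I n,
    (((I n).filter fun y =>
      (xx L lev w1 w2 fl c n y).cell (B.levc n v) (B.levc n r) =
        (xx L lev w1 w2 fl c n x).cell (B.levc n v) (B.levc n r) ∧
      ∀ i : Fin 4, |(xx L lev w1 w2 fl c n y).co (B.levc n v) (B.levc n r) i -
        (xx L lev w1 w2 fl c n x).co (B.levc n v) (B.levc n r) i| ≤
          10 * B.d n ^ (![v + nn, nn, l, v + l] i)).card : ℝ) ≤
      N0 lev A q w1 w2 n * B.d n ^ (-(bex s (2 * s + g) q v l nn + ε))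

/-- label of the marked class of level `u` -/
noncomputable def nl (n : ℕ) (u : ℚ) (x : ℕ × ℝ) : ℤ × ℕ :=
  (zc (lev n u) x.2, f n u x.1 (zc (lev n u) x.2))

open Classical in
/-- **[GEO-R]** a marked class meets few boxes of the (slightly larger) record size, and few
containers. -/
def GeoR : Prop :=
  NatJ B I L lev r0 A q g f b e w1 w2 fl sc k s θ c →
  (∀ (v : ℝ) (u : ℚ), 0 ≤ v → v < u → u ≤ 1 → ∀ ε : ℝ, 0 < ε →
    ∀ᶠ n in (U : Filter ℕ), ∀ x ∈ I n,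
    ((((I n).filter fun y => nl lev f n u y = nl lev f n u x).image
      (flab B (xx L lev w1 w2 fl c) n
        (Bx6 v (θ * (1 - v)) (θ * (1 - v) + k * v) (k * v)))).card : ℝ) ≤
        B.d n ^ (-(10 * (1 + k + θ) * (u - v) + ε))) ∧
  ∀ u : ℚ, 0 ≤ u → u ≤ 1 → ∀ ε : ℝ, 0 < ε → ∀ᶠ n in (U : Filter ℕ), ∀ x ∈ I n,
    ((((I n).filter fun y => nl lev f n u y = nl lev f n u x).image
      (flab B (xx L lev w1 w2 fl c) n 0)).card : ℝ) ≤ B.d n ^ (-ε)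

open Classical in
/-- **[OWN]** -/
structure OwnP : Prop where
  /-- upper count, real level -/
  up : ∀ v : ℝ, 0 ≤ v → v ≤ 1 → ∀ ε : ℝ, 0 < ε → ∀ᶠ n in (U : Filter ℕ), ∀ x ∈ I n,
    (((I n).filter fun y => lz (xx L lev w1 w2 fl c) (fun _ y => y.1) n (B.levc n v) y =
      lz (xx L lev w1 w2 fl c) (fun _ y => y.1) n (B.levc n v) x).card : ℝ) ≤
      B.d n ^ (-((1 - s) * (1 - v) + ε))
  /-- lower count, rational level -/
  low : ∀ u : ℚ, 0 ≤ u → u ≤ 1 → ∀ ε : ℝ, 0 < ε → ∀ᶠ n in (U : Filter ℕ), ∀ x ∈ I n,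
    B.d n ^ (-((1 - s) * (1 - u)) + ε) ≤
      (((I n).filter fun y => (y.1, zc (lev n u) y.2) = (x.1, zc (lev n u) x.2)).card : ℝ)
  rot : ∀ v : ℝ, 0 ≤ v → v ≤ 1 → ∀ ε : ℝ, 0 < ε → ∀ᶠ n in (U : Filter ℕ), ∀ x ∈ I n, ∀ y ∈ I n,
    lz (xx L lev w1 w2 fl c) (fun _ y => y.1) n (B.levc n v) y =
      lz (xx L lev w1 w2 fl c) (fun _ y => y.1) n (B.levc n v) x →
      |(xx L lev w1 w2 fl c n x).θ - (xx L lev w1 w2 fl c n y).θ| ≤ B.d n ^ (k * v - ε)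
  tw : ∀ v r : ℝ, 0 ≤ v → v < 1 → k * v < r → ∃ γ : ℝ, 0 < γ ∧ ∀ᶠ n in (U : Filter ℕ), ∀ x ∈ I n,
    (((I n).filter fun y => lz (xx L lev w1 w2 fl c) (fun _ y => y.1) n (B.levc n v) y =
      lz (xx L lev w1 w2 fl c) (fun _ y => y.1) n (B.levc n v) x ∧
      |(xx L lev w1 w2 fl c n x).θ - (xx L lev w1 w2 fl c n y).θ| ≤ B.d n ^ r).card : ℝ) ≤
      B.d n ^ (γ - (1 - s) * (1 - v))
  /-- one line meets few containers -/
  mult : ∀ ε : ℝ, 0 < ε → ∀ᶠ n in (U : Filter ℕ), ∀ x ∈ I n,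
    ((((I n).filter fun y => y.1 = x.1).image (flab B (xx L lev w1 w2 fl c) n 0)).card : ℝ) ≤
      B.d n ^ (-ε)

/-- **[OWN]** target -/
def OwnT : Prop :=
  NatJ B I L lev r0 A q g f b e w1 w2 fl sc k s θ c →
    OwnP B I L lev w1 w2 fl k s c

end geo

end Crest.Agent.R138.L15
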