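import Mathlib
import Crest.Agent.R138.TiltU1_51

/-!
# R138, leaf L10, part 2 (helper51): facts for the marked extremal sequence
-/

set_option autoImplicit false
set_option linter.unusedVariables false

open Finset Filter Topology

namespace Crest.Agent.R138.TiltU51

open Crest.Agent.R138.Ex926 (Base U)
open Crest.Agent.R138.Flag51 (Ln E2 cr dt InPlank)
open Crest.Agent.R138.Tilt51 (DMax Near)
open Crest.Agent.R138.Mk163

noncomputable section

theorem Near.scale {ι α : Type*} {S : Finset ι} {L : ι → Ln} {m : ι → ℝ} {f : ι → α} {b : α → Ln}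
    {e : α → E2} {w1 w2 z0 ρ M E p q c : ℝ} (hc : 0 ≤ c)
    (h : Near S L m f b e w1 w2 z0 ρ M E p q) : Near S L m f b e w1 w2 z0 ρ (c * M) (c * E) p q := by
  refine ⟨h.unit, h.mem, fun t ht => ?_⟩
  have := mul_le_mul_of_nonneg_left (h.low t ht) hc
  calc c * M * w1 ^ (1 + p) * w2 ^ (1 + q) = c * (M * w1 ^ (1 + p) * w2 ^ (1 + q)) := by ring
    _ ≤ _ := this
    _ = _ := by ring

variable {B : Base} {I : ℕ → Finset (ℕ × ℝ)} {L : ℕ → ℕ → Ln} {lev : ℕ → ℚ → ℕ}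
    {r0 A : ℕ → ℝ} {q g : ℝ} {Λ τ : ℝ → ℝ} {f : ℕ → ℚ → ℕ → ℤ → ℕ} {b : ℕ → ℚ → ℕ → Ln}
    {e : ℕ → ℚ → ℕ → E2} {w1 w2 : ℕ → ℚ → ℝ}

theorem dpos (B : Base) (n : ℕ) (t : ℝ) : 0 < B.d n ^ t := Real.rpow_pos_of_pos (B.pos n) t

theorem danti (B : Base) (n : ℕ) {s t : ℝ} (h : s ≤ t) : B.d n ^ t ≤ B.d n ^ s :=
  Real.rpow_le_rpow_of_exponent_ge (B.pos n) (B.lt n).le h

theorem dadd (B : Base) (n : ℕ) (s t : ℝ) : B.d n ^ (s + t) = B.d n ^ s * B.d n ^ t :=
  Real.rpow_add (B.pos n) s t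

theorem amp_pos (h : Mk B I L lev r0 A q g Λ τ f b e w1 w2) (n : ℕ) (v : ℚ) :
    0 < amp B lev A q g Λ n v := by
  unfold amp
  have h1 := h.Apos n
  have h2 := dpos B n (-(2 * Λ v + g * v))
  have h3 := Real.rpow_pos_of_pos (rho_pos (lev n v)) (-q)
  positivity

theorem ev_amp_le (h : Mk B I L lev r0 A q g Λ τ f b e w1 w2) {u v : ℚ} (hu : 0 ≤ u)
    (huv : u ≤ v) (hv : v ≤ 1) : ∀ᶠ n in (U : Filter ℕ),
      amp B lev A q g Λ n u ≤ amp B lev A q g Λ n v := by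
  filter_upwards [h.lev_mono u v hu huv hv] with n hn
  unfold amp
  have h1 := h.Apos n
  have huv' : (u : ℝ) ≤ v := by exact_mod_cast huv
  have h2 : B.d n ^ (-(2 * Λ u + g * u)) ≤ B.d n ^ (-(2 * Λ v + g * v)) := by
    apply danti
    have := (h.lam u v (by exact_mod_cast hu) huv' (by exact_mod_cast hv)).1
    have := h.g0
    nlinarith
  have h3 : (rho (lev n u)) ^ (-q) ≤ (rho (lev n v)) ^ (-q) := by
    apply Real.rpow_le_rpow_of_nonpos (rho_pos _) (rho_le hn)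
    linarith [h.q0]
  have h4 := dpos B n (-(2 * Λ u + g * u))
  have h5 := Real.rpow_pos_of_pos (rho_pos (lev n u)) (-q)
  have h6 := dpos B n (-(2 * Λ v + g * v))
  exact mul_le_mul (mul_le_mul_of_nonneg_left h2 h1.le) h3 h5.le (by positivity)

/-- the number of cells -/
theorem ev_R (h : Mk B I L lev r0 A q g Λ τ f b e w1 w2) {u v : ℚ} (hu : 0 ≤ u) (huv : u ≤ v)
    (hv : v ≤ 1) {η : ℝ} (hη : 0 < η) :
    ∀ᶠ n in (U : Filter ℕ), lev n u ≤ lev n v ∧
      (2 : ℝ) ^ (lev n v - lev n u) ≤ B.d n ^ (-((v : ℝ) - u) - η) := by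
  have h1 := (h.lev_lim u v hu huv hv).eventually
    (gt_mem_nhds (show (v : ℝ) - u < v - u + η by linarith))
  filter_upwards [h1, h.lev_mono u v hu huv hv] with n hn h2
  refine ⟨h2, ?_⟩
  have h3 : B.d n ^ (-((v : ℝ) - u) - η) = B.d n ^ (-((v : ℝ) - u + η)) := by congr 1; ring
  rw [h3]
  refine le_dpow (by positivity) ?_
  rw [Real.log_pow]
  have h4 : ((lev n v - lev n u : ℕ) : ℝ) = (lev n v : ℝ) - lev n u := Nat.cast_sub h2
  rw [h4]
  exact hn.le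

/-- dims at one level -/
theorem ev_dims (h : Mk B I L lev r0 A q g Λ τ f b e w1 w2) {v : ℚ} (h0 : 0 ≤ v)
    (h1 : v ≤ 1) : ∀ᶠ n in (U : Filter ℕ),
      0 < w1 n v ∧ r0 n ≤ w1 n v ∧ w1 n v ≤ w2 n v ∧ w2 n v ≤ rho (lev n v) := by
  filter_upwards [h.dims v h0 h1] with n hn
  exact ⟨(h.rpos n).trans_le hn.1, hn.1, hn.2.1, hn.2.2⟩

/-- ratio of the wide widths -/
theorem ev_tau (h : Mk B I L lev r0 A q g Λ τ f b e w1 w2) {u v : ℚ} (hu : 0 ≤ u)
    (huv : u ≤ v) (hv : v ≤ 1) {η : ℝ} (hη : 0 < η) :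
    ∀ᶠ n in (U : Filter ℕ),
      w2 n u ≤ B.d n ^ (-(|τ u - τ v| + η)) * (rho (lev n u) / rho (lev n v) * w2 n v) ∧
      rho (lev n u) / rho (lev n v) * w2 n v ≤ B.d n ^ (-(|τ u - τ v| + η)) * w2 n u := by
  have t1 := h.tau u hu (huv.trans hv)
  have t2 := h.tau v (hu.trans huv) hv
  have t3 := (t1.sub t2).eventually (Metric.ball_mem_nhds _ hη)
  filter_upwards [t3, ev_dims h hu (huv.trans hv), ev_dims h (hu.trans huv) hv,
    ev_dims h (v := 1) (by norm_num) le_rfl] with n hn hdu hdv hd1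
  have h2 : 0 < w2 n 1 := hd1.1.trans_le hd1.2.2.1
  have wu : 0 < w2 n u := hdu.1.trans_le hdu.2.2.1
  have wv : 0 < w2 n v := hdv.1.trans_le hdv.2.2.1
  have ru := rho_pos (lev n u)
  have rv := rho_pos (lev n v)
  have r1 := rho_pos (lev n 1)
  set X := rho (lev n u) / w2 n u with hX
  set Y := rho (lev n v) / w2 n v with hY
  set Z := rho (lev n 1) / w2 n 1 with hZ
  have X0 : 0 < X := by positivity
  have Y0 : 0 < Y := by positivity
  have Z0 : 0 < Z := by positivity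
  have e1 : Real.log (X / Z) / B.L n - Real.log (Y / Z) / B.L n = Real.log (X / Y) / B.L n := by
    rw [Real.log_div X0.ne' Z0.ne', Real.log_div Y0.ne' Z0.ne', Real.log_div X0.ne' Y0.ne']
    ring
  rw [e1, Real.dist_eq, abs_lt] at hn
  have a1 := le_abs_self (τ u - τ v)
  have a2 := neg_abs_le (τ u - τ v)
  have b1 : X / Y ≤ B.d n ^ (-(|τ u - τ v| + η)) := le_dpow (by positivity) (by linarith [hn.2])
  have b2 : Y / X ≤ B.d n ^ (-(|τ u - τ v| + η)) := by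
    refine le_dpow (by positivity) ?_
    have : Real.log (Y / X) = - Real.log (X / Y) := by
      rw [← Real.log_inv, inv_div]
    rw [this, neg_div]
    linarith [hn.1]
  have c1 : X / Y * w2 n u = rho (lev n u) / rho (lev n v) * w2 n v := by
    rw [hX, hY]; field_simp
  have c2 : Y / X * (rho (lev n u) / rho (lev n v) * w2 n v) = w2 n u := by
    rw [hX, hY]; field_simp
  constructor
  · calc w2 n u = Y / X * (rho (lev n u) / rho (lev n v) * w2 n v) := c2.symm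
      _ ≤ _ := mul_le_mul_of_nonneg_right b2 (by positivity)
  · calc rho (lev n u) / rho (lev n v) * w2 n v = X / Y * w2 n u := c1.symm
      _ ≤ _ := mul_le_mul_of_nonneg_right b1 wu.le

open Classical in
/-- number of incidences of a line in a cell of level `v` -/
theorem ev_nu (h : Mk B I L lev r0 A q g Λ τ f b e w1 w2) {v : ℚ} (h0 : 0 ≤ v)
    (h1 : v ≤ 1) {η : ℝ} (hη : 0 < η) :
    ∀ᶠ n in (U : Filter ℕ), ∀ x ∈ I n,
      B.d n ^ (-(1 - (v : ℝ)) + (Λ 1 - Λ v) + η) ≤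
        (((I n).filter fun y => y.1 = x.1 ∧ zc (lev n v) y.2 = zc (lev n v) x.2).card : ℝ) ∧
      (((I n).filter fun y => y.1 = x.1 ∧ zc (lev n v) y.2 = zc (lev n v) x.2).card : ℝ) ≤
        B.d n ^ (-(1 - (v : ℝ)) + (Λ 1 - Λ v) - η) := by
  have h2 := h.own v 1 h0 h1 le_rfl η hη
  simp only [Rat.cast_one] at h2
  filter_upwards [h2, h.one] with n hn hone x hx
  have h3 := hn x hx
  have h4 : (Mk163.own (I n) (lev n v) (lev n 1) x).card =
      ((I n).filter fun y => y.1 = x.1 ∧ zc (lev n v) y.2 = zc (lev n v) x.2).card := by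
    unfold Mk163.own
    rw [card_image_of_injOn]
    intro y hy y' hy' hyy
    rw [mem_coe, mem_filter] at hy hy'
    exact hone y hy.1 y' hy'.1 (hy.2.1.trans hy'.2.1.symm) hyy
  rw [h4] at h3
  exact h3

/-! ### the final bookkeeping of exponents (one stage) -/

/-- (T): all factors together -/
theorem fin_two {B : Base} {n : ℕ} {q C D ε η R K X cq Mr : ℝ} (hq : 0 < q) (hq2 : q ≤ 2)
    (hC : 3 + q ≤ C * q) (hD : 0 ≤ D) (hη : 0 < η) (hR1 : 1 ≤ R)
    (hR : R ≤ B.d n ^ (-D - η)) (hX0 : 0 ≤ X) (hX : X ≤ 3 * B.d n ^ (C * D + ε - η))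
    (hcq : 0 ≤ cq) (hcq2 : cq * 729 ≤ B.d n ^ (-η)) (hMr0 : 0 ≤ Mr) (hMr : Mr ≤ B.d n ^ (-η))
    (hK : K = cq * (B.d n ^ (-η) * B.d n ^ (-η)) * (B.d n ^ (-η) * Mr * (3 * R) ^ (2 + q)) * X ^ q) :
    B.d n ^ (-(2 * η)) * R * K ≤ B.d n ^ (q * ε - 14 * η) := by
  have P := dpos B n
  have hd1 := (B.lt n).le
  have e1 : (3 * R) ^ (2 + q) ≤ 81 * B.d n ^ (-((2 + q) * D) - 4 * η) := by
    rw [Real.mul_rpow (by norm_num) (by linarith)]
    have h3 : (3 : ℝ) ^ (2 + q) ≤ 81 := by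
      calc (3 : ℝ) ^ (2 + q) ≤ 3 ^ (4 : ℝ) :=
            Real.rpow_le_rpow_of_exponent_le (by norm_num) (by linarith)
        _ = 81 := by norm_num
    have h4 : R ^ (2 + q) ≤ B.d n ^ (-((2 + q) * D) - 4 * η) := by
      calc R ^ (2 + q) ≤ (B.d n ^ (-D - η)) ^ (2 + q) :=
            Real.rpow_le_rpow (by linarith) hR (by linarith)
        _ = B.d n ^ ((-D - η) * (2 + q)) := by rw [← Real.rpow_mul (B.pos n).le]
        _ ≤ _ := danti B n (by nlinarith)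
    have h5 : 0 ≤ R ^ (2 + q) := Real.rpow_nonneg (by linarith) _
    exact mul_le_mul h3 h4 h5 (by norm_num)
  have e2 : X ^ q ≤ 9 * B.d n ^ (q * (C * D) + q * ε - 2 * η) := by
    calc X ^ q ≤ (3 * B.d n ^ (C * D + ε - η)) ^ q := Real.rpow_le_rpow hX0 hX hq.le
      _ = 3 ^ q * B.d n ^ ((C * D + ε - η) * q) := by
          rw [Real.mul_rpow (by norm_num) (P _).le, ← Real.rpow_mul (B.pos n).le]
      _ ≤ 9 * B.d n ^ (q * (C * D) + q * ε - 2 * η) := by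
          have h3 : (3 : ℝ) ^ q ≤ 9 := by
            calc (3 : ℝ) ^ q ≤ 3 ^ (2 : ℝ) :=
                  Real.rpow_le_rpow_of_exponent_le (by norm_num) (by linarith)
              _ = 9 := by norm_num
          exact mul_le_mul h3 (danti B n (by nlinarith)) (P _).le (by norm_num)
  have hX1 : 0 ≤ X ^ q := Real.rpow_nonneg hX0 _
  have hR2 : 0 ≤ (3 * R) ^ (2 + q) := Real.rpow_nonneg (by linarith) _
  generalize X ^ q = Y at e2 hX1 hK
  generalize (3 * R) ^ (2 + q) = T at e1 hR2 hK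
  have f1 : B.d n ^ (-η) * Mr * T ≤
      B.d n ^ (-η) * B.d n ^ (-η) * (81 * B.d n ^ (-((2 + q) * D) - 4 * η)) :=
    mul_le_mul (mul_le_mul_of_nonneg_left hMr (P _).le) e1 hR2 (by have := P (-η); positivity)
  have f2 : (B.d n ^ (-η) * Mr * T) * Y ≤
      (B.d n ^ (-η) * B.d n ^ (-η) * (81 * B.d n ^ (-((2 + q) * D) - 4 * η))) *
        (9 * B.d n ^ (q * (C * D) + q * ε - 2 * η)) :=
    mul_le_mul f1 e2 hX1 (by
      have := P (-η); have := P (-((2 + q) * D) - 4 * η); positivity)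
  have f3 : B.d n ^ (-(2 * η)) * R ≤ B.d n ^ (-(2 * η)) * B.d n ^ (-D - η) :=
    mul_le_mul_of_nonneg_left hR (P _).le
  have f4 : 0 ≤ cq * (B.d n ^ (-η) * B.d n ^ (-η)) := by have := P (-η); positivity
  have hK0 : 0 ≤ (B.d n ^ (-η) * Mr * T) * Y := by have := P (-η); positivity
  calc B.d n ^ (-(2 * η)) * R * K
      = (B.d n ^ (-(2 * η)) * R) * ((cq * (B.d n ^ (-η) * B.d n ^ (-η))) *
          ((B.d n ^ (-η) * Mr * T) * Y)) := by rw [hK]; ring
    _ ≤ (B.d n ^ (-(2 * η)) * B.d n ^ (-D - η)) * ((cq * (B.d n ^ (-η) * B.d n ^ (-η))) *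
          ((B.d n ^ (-η) * B.d n ^ (-η) * (81 * B.d n ^ (-((2 + q) * D) - 4 * η))) *
        (9 * B.d n ^ (q * (C * D) + q * ε - 2 * η)))) := by
        refine mul_le_mul f3 (mul_le_mul_of_nonneg_left f2 f4) (mul_nonneg f4 hK0) ?_
        have := P (-(2 * η)); have := P (-D - η); positivity
    _ = (cq * 729) * B.d n ^ (-(2 * η) + (-D - η) + -η + -η + -η + -η +
          (-((2 + q) * D) - 4 * η) + (q * (C * D) + q * ε - 2 * η)) := by
        simp only [dadd]; ring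
    _ ≤ B.d n ^ (-η) * B.d n ^ (-(2 * η) + (-D - η) + -η + -η + -η + -η +
          (-((2 + q) * D) - 4 * η) + (q * (C * D) + q * ε - 2 * η)) :=
        mul_le_mul_of_nonneg_right hcq2 (P _).le
    _ = B.d n ^ (-η + (-(2 * η) + (-D - η) + -η + -η + -η + -η +
          (-((2 + q) * D) - 4 * η) + (q * (C * D) + q * ε - 2 * η))) := by rw [dadd B n (-η)]
    _ ≤ B.d n ^ (q * ε - 14 * η) := by
        apply danti
        nlinarith [mul_nonneg hD (sub_nonneg.2 hC)]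

/-- (T0): all factors together -/
theorem fin_crude {B : Base} {n : ℕ} {q C D ε η R K X cq Mr : ℝ} (hq : 0 < q) (hq2 : q ≤ 2)
    (hC : 5 + 2 * q ≤ C * q) (hD : 0 ≤ D) (hη : 0 < η) (hR1 : 1 ≤ R)
    (hR : R ≤ B.d n ^ (-D - η)) (hX : X = B.d n ^ (C * D + ε))
    (hcq : 0 ≤ cq) (hcq2 : cq * 6561 ≤ B.d n ^ (-η)) (hMr0 : 0 ≤ Mr) (hMr : Mr ≤ B.d n ^ (-η))
    (hK : K = cq * (B.d n ^ (-η) * Mr * (3 * R) ^ (2 + q)) *
      (B.d n ^ (-η) * Mr * (3 * R) ^ (2 + q)) * X ^ q) :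
    B.d n ^ (-(2 * η)) * (R * K) ≤ B.d n ^ (q * ε - 16 * η) := by
  have P := dpos B n
  have e1 : (3 * R) ^ (2 + q) ≤ 81 * B.d n ^ (-((2 + q) * D) - 4 * η) := by
    rw [Real.mul_rpow (by norm_num) (by linarith)]
    have h3 : (3 : ℝ) ^ (2 + q) ≤ 81 := by
      calc (3 : ℝ) ^ (2 + q) ≤ 3 ^ (4 : ℝ) :=
            Real.rpow_le_rpow_of_exponent_le (by norm_num) (by linarith)
        _ = 81 := by norm_num
    have h4 : R ^ (2 + q) ≤ B.d n ^ (-((2 + q) * D) - 4 * η) := by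
      calc R ^ (2 + q) ≤ (B.d n ^ (-D - η)) ^ (2 + q) :=
            Real.rpow_le_rpow (by linarith) hR (by linarith)
        _ = B.d n ^ ((-D - η) * (2 + q)) := by rw [← Real.rpow_mul (B.pos n).le]
        _ ≤ _ := danti B n (by nlinarith)
    have h5 : 0 ≤ R ^ (2 + q) := Real.rpow_nonneg (by linarith) _
    exact mul_le_mul h3 h4 h5 (by norm_num)
  have e2 : X ^ q = B.d n ^ (q * (C * D) + q * ε) := by
    rw [hX, ← Real.rpow_mul (B.pos n).le]; congr 1; ring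
  have hR2 : 0 ≤ (3 * R) ^ (2 + q) := Real.rpow_nonneg (by linarith) _
  rw [e2] at hK
  generalize (3 * R) ^ (2 + q) = T at e1 hR2 hK
  have f1 : B.d n ^ (-η) * Mr * T ≤
      B.d n ^ (-η) * B.d n ^ (-η) * (81 * B.d n ^ (-((2 + q) * D) - 4 * η)) :=
    mul_le_mul (mul_le_mul_of_nonneg_left hMr (P _).le) e1 hR2 (by have := P (-η); positivity)
  have f0 : 0 ≤ B.d n ^ (-η) * Mr * T := by have := P (-η); positivity
  have f2 : (B.d n ^ (-η) * Mr * T) * (B.d n ^ (-η) * Mr * T) ≤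
      (B.d n ^ (-η) * B.d n ^ (-η) * (81 * B.d n ^ (-((2 + q) * D) - 4 * η))) *
      (B.d n ^ (-η) * B.d n ^ (-η) * (81 * B.d n ^ (-((2 + q) * D) - 4 * η))) :=
    mul_le_mul f1 f1 f0 (f0.trans f1)
  have g1 := P (q * (C * D) + q * ε)
  have g2 := P (-(2 * η))
  have g3 := P (-D - η)
  calc B.d n ^ (-(2 * η)) * (R * K)
      = (B.d n ^ (-(2 * η)) * R) * (cq * ((B.d n ^ (-η) * Mr * T) * (B.d n ^ (-η) * Mr * T)) *
          B.d n ^ (q * (C * D) + q * ε)) := by rw [hK]; ring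
    _ ≤ (B.d n ^ (-(2 * η)) * B.d n ^ (-D - η)) * (cq *
        ((B.d n ^ (-η) * B.d n ^ (-η) * (81 * B.d n ^ (-((2 + q) * D) - 4 * η))) *
      (B.d n ^ (-η) * B.d n ^ (-η) * (81 * B.d n ^ (-((2 + q) * D) - 4 * η)))) *
          B.d n ^ (q * (C * D) + q * ε)) := by
        refine mul_le_mul (mul_le_mul_of_nonneg_left hR g2.le) ?_ ?_ (by positivity)
        · exact mul_le_mul_of_nonneg_right (mul_le_mul_of_nonneg_left f2 hcq) g1.le
        · exact mul_nonneg (mul_nonneg hcq (mul_nonneg f0 f0)) g1.le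
    _ = (cq * 6561) * B.d n ^ (-(2 * η) + (-D - η) + -η + -η + (-((2 + q) * D) - 4 * η) +
          -η + -η + (-((2 + q) * D) - 4 * η) + (q * (C * D) + q * ε)) := by
        simp only [dadd]; ring
    _ ≤ B.d n ^ (-η) * B.d n ^ (-(2 * η) + (-D - η) + -η + -η + (-((2 + q) * D) - 4 * η) +
          -η + -η + (-((2 + q) * D) - 4 * η) + (q * (C * D) + q * ε)) :=
        mul_le_mul_of_nonneg_right hcq2 (P _).le
    _ = B.d n ^ (-η + (-(2 * η) + (-D - η) + -η + -η + (-((2 + q) * D) - 4 * η) +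
          -η + -η + (-((2 + q) * D) - 4 * η) + (q * (C * D) + q * ε))) := by rw [dadd B n (-η)]
    _ ≤ B.d n ^ (q * ε - 16 * η) := by
        apply danti
        nlinarith [mul_nonneg hD (sub_nonneg.2 hC)]

end

end Crest.Agent.R138.TiltU51
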