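import Crest.Agent.R138.GeoR2_298
import Crest.Agent.R138.L15Def_196
import Crest.Agent.R138.TiltU2_51

/-!
# R138, L15 GEO-R (helper298), part 3: the literal target
-/

set_option autoImplicit false
set_option linter.unusedVariables false

open Finset Filter Topology

namespace Crest.Agent.R138.GeoR298

open Crest.Agent.R138.Ex926 (Base U flab vlev Bx6 LEG)
open Flg101 Flag51 Nx638
open Crest.Agent.R138.Mk163 (zc zl rho alive Mk prec fr Nat5)
open Crest.Agent.R138.L15
open Crest.Agent.R138.TiltU51 (dpos danti dadd le_dpow dpow_le ev_const ev_dims rho_pos mem_alive)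

noncomputable section

/-- the arithmetic of one stage -/
theorem stage {B : Base} {n : ℕ} {H al sg w1 w2 ρ pu : ℝ} {u v k θ T E t : ℝ}
    (hH : 0 < H) (hal : 0 < al) (hsg : 0 < sg) (hρ : 0 < ρ) (hw2 : 0 < w2) (hpu : 0 < pu)
    (hw1 : w1 = pu * w2) (hpu1 : pu ≤ 1) (hv : 0 ≤ v) (hvu : v ≤ u) (hk : 0 ≤ k) (ht : 0 < t)
    (hT0 : 0 ≤ T) (hT : T ≤ θ * (1 - u) + E) (hE : 0 ≤ E)
    (e1 : w2 ≤ al * ρ * B.d n ^ (θ * (1 - u) - t))
    (e2 : H * ρ ≤ B.d n ^ (u - t)) (e3 : B.d n ^ (u + t) ≤ H * ρ)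
    (e4 : pu ≤ sg * B.d n ^ (k * u - t)) (hC : 11 * 19 * 435 ^ 4 ≤ B.d n ^ (-t)) :
    (2 * (2 ^ (B.levc n v) * (H * (2 * ρ))) + 3) *
      (2 * (2 ^ (B.levc n (k * v)) * (4 * (pu * B.d n ^ (-t)) / sg)) + 3) *
        ∏ i, (2 * (2 ^ (vlev B n ![v + (T + k * v), T + k * v, T, v + T, v, k * v] i) *
          Dk H al sg w1 w2 ρ (ρ + (1 / 2) ^ (B.levc n v) / H)
          (sg * (1 / 2) ^ (B.levc n (k * v)) + pu * B.d n ^ (-t)) i) + 3) ≤
      B.d n ^ (-(4 * E + 24 * t)) := by
  set i := B.levc n v with hi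
  set j := B.levc n (k * v) with hj
  set R : ℝ := ρ + (1 / 2) ^ i / H with hR
  set δ : ℝ := pu * B.d n ^ (-t) with hδ
  set η : ℝ := sg * (1 / 2) ^ j + δ with hη
  have hkv : 0 ≤ k * v := mul_nonneg hk hv
  have hku : k * v ≤ k * u := mul_le_mul_of_nonneg_left hvu hk
  have half : ∀ m : ℕ, (1 / 2 : ℝ) ^ m = (2 ^ m)⁻¹ := fun m => by
    rw [one_div, inv_pow]
  have hhalf : ∀ s : ℝ, (1 / 2 : ℝ) ^ (B.levc n s) ≤ B.d n ^ s := by
    intro s
    have h1 := B.le_pow_levc n s
    rw [half, inv_le_comm₀ (by positivity) (dpos B n s), ← Real.rpow_neg (B.pos n).le]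
    exact h1
  have add : ∀ a b : ℝ, B.d n ^ a * B.d n ^ b = B.d n ^ (a + b) := fun a b => (dadd B n a b).symm
  have one_le : ∀ a : ℝ, a ≤ 0 → 1 ≤ B.d n ^ a := fun a ha => by
    have := danti B n ha
    rwa [Real.rpow_zero] at this
  -- R / ρ
  have hRρ : R / ρ ≤ 2 * B.d n ^ (v - u - t) := by
    have h1 : R / ρ = 1 + (1 / 2) ^ i / (H * ρ) := by rw [hR]; field_simp
    have h2 : (1 / 2 : ℝ) ^ i / (H * ρ) ≤ B.d n ^ v / B.d n ^ (u + t) :=
      div_le_div₀ (dpos B n v).le (hhalf v) (dpos B n _) e3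
    have h3 : B.d n ^ v / B.d n ^ (u + t) = B.d n ^ (v - u - t) := by
      rw [← Real.rpow_sub (B.pos n)]; congr 1; ring
    rw [h1]
    have h4 := one_le (v - u - t) (by linarith)
    rw [h3] at h2
    linarith
  have hRρ0 : 0 ≤ R / ρ := by rw [hR]; positivity
  -- δ and η
  have hδ1 : δ ≤ sg * B.d n ^ (k * u - 2 * t) := by
    rw [hδ]
    calc pu * B.d n ^ (-t) ≤ (sg * B.d n ^ (k * u - t)) * B.d n ^ (-t) :=
          mul_le_mul_of_nonneg_right e4 (dpos B n _).le
      _ = sg * B.d n ^ (k * u - 2 * t) := by rw [mul_assoc, add]; congr 2; ring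
  have hη1 : η ≤ 2 * (sg * B.d n ^ (k * v - 2 * t)) := by
    have h1 : sg * (1 / 2) ^ j ≤ sg * B.d n ^ (k * v - 2 * t) :=
      mul_le_mul_of_nonneg_left ((hhalf (k * v)).trans (danti B n (by linarith))) hsg.le
    have h2 : sg * B.d n ^ (k * u - 2 * t) ≤ sg * B.d n ^ (k * v - 2 * t) :=
      mul_le_mul_of_nonneg_left (danti B n (by linarith)) hsg.le
    rw [hη]; linarith
  have hδ0 : 0 ≤ δ := by rw [hδ]; have := dpos B n (-t); positivity
  have hη0 : 0 ≤ η := by rw [hη]; positivity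
  have hw1' : w1 ≤ sg * B.d n ^ (k * v - 2 * t) * w2 := by
    rw [hw1]
    refine mul_le_mul_of_nonneg_right (e4.trans ?_) hw2.le
    exact mul_le_mul_of_nonneg_left (danti B n (by linarith)) hsg.le
  have hw10 : 0 ≤ w1 := by rw [hw1]; positivity
  have hw12 : w1 ≤ w2 := by rw [hw1]; nlinarith
  have hwη : w1 + η * w2 ≤ 3 * (sg * B.d n ^ (k * v - 2 * t)) * w2 := by
    have := mul_le_mul_of_nonneg_right hη1 hw2.le
    linarith
  have hTE : B.d n ^ (θ * (1 - u) - t) ≤ B.d n ^ (T - E - t) := danti B n (by linarith)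
  have e1' : w2 ≤ al * ρ * B.d n ^ (T - E - t) :=
    e1.trans (mul_le_mul_of_nonneg_left hTE (by positivity))
  -- the four bounds
  have D0 : H / (al * sg) * (3 * (6 * (R / ρ) * w1 + η * (6 * (R / ρ) * w2))) ≤
      108 * B.d n ^ (v + (T + k * v) - E - 5 * t) := by
    have h1 : H / (al * sg) * (3 * (6 * (R / ρ) * w1 + η * (6 * (R / ρ) * w2))) =
        18 * (H / (al * sg)) * ((R / ρ) * (w1 + η * w2)) := by ring
    rw [h1]
    have h2 : (R / ρ) * (w1 + η * w2) ≤ (2 * B.d n ^ (v - u - t)) *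
        (3 * (sg * B.d n ^ (k * v - 2 * t)) * (al * ρ * B.d n ^ (T - E - t))) := by
      have h3 : 3 * (sg * B.d n ^ (k * v - 2 * t)) * w2 ≤
          3 * (sg * B.d n ^ (k * v - 2 * t)) * (al * ρ * B.d n ^ (T - E - t)) :=
        mul_le_mul_of_nonneg_left e1' (by have := dpos B n (k * v - 2 * t); positivity)
      exact mul_le_mul hRρ (hwη.trans h3) (by positivity)
        (by have := dpos B n (v - u - t); positivity)
    calc 18 * (H / (al * sg)) * ((R / ρ) * (w1 + η * w2)) ≤ 18 * (H / (al * sg)) *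
          ((2 * B.d n ^ (v - u - t)) *
        (3 * (sg * B.d n ^ (k * v - 2 * t)) * (al * ρ * B.d n ^ (T - E - t)))) :=
          mul_le_mul_of_nonneg_left h2 (by positivity)
      _ = 108 * (H * ρ) * (B.d n ^ (v - u - t) * B.d n ^ (k * v - 2 * t) *
          B.d n ^ (T - E - t)) := by field_simp; ring
      _ ≤ 108 * B.d n ^ (u - t) * (B.d n ^ (v - u - t) * B.d n ^ (k * v - 2 * t) *
          B.d n ^ (T - E - t)) := by
          refine mul_le_mul_of_nonneg_right (mul_le_mul_of_nonneg_left e2 (by norm_num)) ?_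
          have h3 := dpos B n (v - u - t)
          have h4 := dpos B n (k * v - 2 * t)
          have h5 := dpos B n (T - E - t)
          positivity
      _ = 108 * B.d n ^ (v + (T + k * v) - E - 5 * t) := by
          rw [mul_assoc, add, add, add]; congr 2; ring
  have D1 : 1 / (al * sg) * (3 * (2 * w1 / ρ + η * (2 * w2 / ρ))) ≤
      18 * B.d n ^ ((T + k * v) - E - 3 * t) := by
    have h1 : 1 / (al * sg) * (3 * (2 * w1 / ρ + η * (2 * w2 / ρ))) =
        6 * (1 / (al * sg * ρ)) * (w1 + η * w2) := by field_simp; ring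
    rw [h1]
    have h2 : w1 + η * w2 ≤ 3 * (sg * B.d n ^ (k * v - 2 * t)) *
        (al * ρ * B.d n ^ (T - E - t)) :=
      hwη.trans (mul_le_mul_of_nonneg_left e1'
        (by have := dpos B n (k * v - 2 * t); positivity))
    calc 6 * (1 / (al * sg * ρ)) * (w1 + η * w2) ≤ 6 * (1 / (al * sg * ρ)) *
          (3 * (sg * B.d n ^ (k * v - 2 * t)) * (al * ρ * B.d n ^ (T - E - t))) :=
          mul_le_mul_of_nonneg_left h2 (by positivity)
      _ = 18 * (B.d n ^ (k * v - 2 * t) * B.d n ^ (T - E - t)) := by field_simp; ring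
      _ = _ := by rw [add]; congr 2; ring
  have D2 : 1 / al * (2 * w1 / ρ + 2 * w2 / ρ) ≤ 4 * B.d n ^ (T - E - t) := by
    have h1 : 1 / al * (2 * w1 / ρ + 2 * w2 / ρ) = 2 * (1 / (al * ρ)) * (w1 + w2) := by
      field_simp
    rw [h1]
    calc 2 * (1 / (al * ρ)) * (w1 + w2) ≤ 2 * (1 / (al * ρ)) *
          (2 * (al * ρ * B.d n ^ (T - E - t))) :=
          mul_le_mul_of_nonneg_left (by linarith) (by positivity)
      _ = 4 * B.d n ^ (T - E - t) := by field_simp; ring
  have D3 : H / al * (6 * (R / ρ) * w1 + 6 * (R / ρ) * w2) ≤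
      24 * B.d n ^ (v + T - E - 3 * t) := by
    have h1 : H / al * (6 * (R / ρ) * w1 + 6 * (R / ρ) * w2) =
        6 * (H / al) * ((R / ρ) * (w1 + w2)) := by ring
    rw [h1]
    have h2 : (R / ρ) * (w1 + w2) ≤ (2 * B.d n ^ (v - u - t)) *
        (2 * (al * ρ * B.d n ^ (T - E - t))) :=
      mul_le_mul hRρ (by linarith) (by positivity)
        (by have := dpos B n (v - u - t); positivity)
    calc 6 * (H / al) * ((R / ρ) * (w1 + w2)) ≤ 6 * (H / al) * ((2 * B.d n ^ (v - u - t)) *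
        (2 * (al * ρ * B.d n ^ (T - E - t)))) := mul_le_mul_of_nonneg_left h2 (by positivity)
      _ = 24 * (H * ρ) * (B.d n ^ (v - u - t) * B.d n ^ (T - E - t)) := by field_simp; ring
      _ ≤ 24 * B.d n ^ (u - t) * (B.d n ^ (v - u - t) * B.d n ^ (T - E - t)) := by
          refine mul_le_mul_of_nonneg_right (mul_le_mul_of_nonneg_left e2 (by norm_num)) ?_
          have h3 := dpos B n (v - u - t)
          have h5 := dpos B n (T - E - t)
          positivity
      _ = _ := by rw [mul_assoc, add, add]; congr 2; ring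
  -- every factor
  have key : ∀ i : Fin 4, 2 * (2 ^ (vlev B n ![v + (T + k * v), T + k * v, T, v + T, v, k * v] i) *
      Dk H al sg w1 w2 ρ R η i) + 3 ≤ 435 * B.d n ^ (-(E + 5 * t)) := by
    have h3 : (3 : ℝ) ≤ 3 * B.d n ^ (-(E + 5 * t)) := by
      have := one_le (-(E + 5 * t)) (by linarith)
      linarith
    have fin : ∀ (X Y Z a b : ℝ), 0 ≤ Y → X ≤ 2 * B.d n ^ (-a) → 0 < X →
        Y ≤ 108 * B.d n ^ b → -(E + 5 * t) ≤ b - a →
        2 * (X * Y) + 3 ≤ 435 * B.d n ^ (-(E + 5 * t)) := by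
      intro X Y Z a b hY0 hX hX0 hY hab
      have h4 : X * Y ≤ (2 * B.d n ^ (-a)) * (108 * B.d n ^ b) :=
        mul_le_mul hX hY hY0 (by have := dpos B n (-a); positivity)
      have h5 : (2 * B.d n ^ (-a)) * (108 * B.d n ^ b) = 216 * B.d n ^ (b - a) := by
        have : B.d n ^ (b - a) = B.d n ^ (-a) * B.d n ^ b := by rw [add]; congr 1; ring
        rw [this]; ring
      have h6 := danti B n hab
      linarith
    intro m
    fin_cases m
    · refine fin _ _ 0 (v + (T + k * v)) (v + (T + k * v) - E - 5 * t) ?_ ?_ (by positivity) D0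
        (by linarith)
      · show 0 ≤ H / (al * sg) * (3 * (6 * (R / ρ) * w1 + η * (6 * (R / ρ) * w2)))
        positivity
      · have := B.pow_lev_le n (t := v + (T + k * v)) (by positivity)
        have h4 := dpos B n (-(v + (T + k * v)))
        show (2 : ℝ) ^ (B.lev n (v + (T + k * v))) ≤ _
        linarith
    · refine fin _ _ 0 (T + k * v) ((T + k * v) - E - 3 * t) ?_ ?_ (by positivity) ?_
        (by linarith)
      · show 0 ≤ 1 / (al * sg) * (3 * (2 * w1 / ρ + η * (2 * w2 / ρ)))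
        positivity
      · exact B.pow_levc_le n (t := T + k * v) (by positivity)
      · refine le_trans D1 ?_
        have h4 := dpos B n ((T + k * v) - E - 3 * t)
        linarith
    · refine fin _ _ 0 T (T - E - t) ?_ ?_ (by positivity) ?_
        (by linarith)
      · show 0 ≤ 1 / al * (2 * w1 / ρ + 2 * w2 / ρ)
        positivity
      · exact B.pow_levc_le n (t := T) hT0
      · refine le_trans D2 ?_
        have h4 := dpos B n (T - E - t)
        linarith
    · refine fin _ _ 0 (v + T) (v + T - E - 3 * t) ?_ ?_ (by positivity) ?_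
        (by linarith)
      · show 0 ≤ H / al * (6 * (R / ρ) * w1 + 6 * (R / ρ) * w2)
        positivity
      · have := B.pow_lev_le n (t := v + T) (by positivity)
        have h4 := dpos B n (-(v + T))
        show (2 : ℝ) ^ (B.lev n (v + T)) ≤ _
        linarith
      · refine le_trans D3 ?_
        have h4 := dpos B n (v + T - E - 3 * t)
        linarith
  have hDk0 : ∀ i : Fin 4, 0 ≤ Dk H al sg w1 w2 ρ R η i := by
    intro m
    fin_cases m
    · show 0 ≤ H / (al * sg) * (3 * (6 * (R / ρ) * w1 + η * (6 * (R / ρ) * w2)))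
      positivity
    · show 0 ≤ 1 / (al * sg) * (3 * (2 * w1 / ρ + η * (2 * w2 / ρ)))
      positivity
    · show 0 ≤ 1 / al * (2 * w1 / ρ + 2 * w2 / ρ)
      positivity
    · show 0 ≤ H / al * (6 * (R / ρ) * w1 + 6 * (R / ρ) * w2)
      positivity
  have hprod : ∏ i, (2 * (2 ^ (vlev B n ![v + (T + k * v), T + k * v, T, v + T, v, k * v] i) *
      Dk H al sg w1 w2 ρ R η i) + 3) ≤ ∏ _i : Fin 4, (435 * B.d n ^ (-(E + 5 * t))) :=
    prod_le_prod (fun m _ => by have := hDk0 m; positivity) (fun m _ => key m)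
  rw [prod_const, card_univ, Fintype.card_fin] at hprod
  have hz : 2 * (2 ^ i * (H * (2 * ρ))) + 3 ≤ 11 * B.d n ^ (-t) := by
    have h1 := B.pow_levc_le n hv
    have h2 : (2 : ℝ) ^ i * (H * ρ) ≤ (2 * B.d n ^ (-v)) * B.d n ^ (u - t) :=
      mul_le_mul h1 e2 (by positivity) (by have := dpos B n (-v); positivity)
    have h3 : (2 * B.d n ^ (-v)) * B.d n ^ (u - t) = 2 * B.d n ^ (u - v - t) := by
      rw [mul_assoc, add]; congr 2; ring
    have h4 : B.d n ^ (u - v - t) ≤ B.d n ^ (-t) := danti B n (by linarith)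
    have h5 := one_le (-t) (by linarith)
    calc 2 * (2 ^ i * (H * (2 * ρ))) + 3 = 4 * (2 ^ i * (H * ρ)) + 3 := by ring
      _ ≤ 4 * (2 * B.d n ^ (-t)) + 3 * B.d n ^ (-t) := by linarith
      _ = _ := by ring
  have hθ' : 2 * (2 ^ j * (4 * δ / sg)) + 3 ≤ 19 * B.d n ^ (-(2 * t)) := by
    have h1 := B.pow_levc_le n hkv
    have h2 : 4 * δ / sg ≤ 4 * B.d n ^ (k * u - 2 * t) := by
      rw [div_le_iff₀ hsg]
      calc 4 * δ ≤ 4 * (sg * B.d n ^ (k * u - 2 * t)) := by linarith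
        _ = _ := by ring
    have h3 : (2 : ℝ) ^ j * (4 * δ / sg) ≤ (2 * B.d n ^ (-(k * v))) *
        (4 * B.d n ^ (k * u - 2 * t)) :=
      mul_le_mul h1 h2 (by positivity) (by have := dpos B n (-(k * v)); positivity)
    have h4 : (2 * B.d n ^ (-(k * v))) * (4 * B.d n ^ (k * u - 2 * t)) =
        8 * B.d n ^ (k * u - k * v - 2 * t) := by
      have : B.d n ^ (k * u - k * v - 2 * t) = B.d n ^ (-(k * v)) * B.d n ^ (k * u - 2 * t) := by
        rw [add]; congr 1; ring
      rw [this]; ring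
    have h5 : B.d n ^ (k * u - k * v - 2 * t) ≤ B.d n ^ (-(2 * t)) := danti B n (by linarith)
    have h6 := one_le (-(2 * t)) (by linarith)
    linarith
  have p1 := dpos B n (-t)
  have p2 := dpos B n (-(2 * t))
  have p3 := dpos B n (-(E + 5 * t))
  have hprod0 : 0 ≤ ∏ i, (2 * (2 ^ (vlev B n ![v + (T + k * v), T + k * v, T, v + T, v, k * v] i) *
      Dk H al sg w1 w2 ρ R η i) + 3) := prod_nonneg fun m _ => by have := hDk0 m; positivity
  calc (2 * (2 ^ i * (H * (2 * ρ))) + 3) * (2 * (2 ^ j * (4 * δ / sg)) + 3) *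
        ∏ i, (2 * (2 ^ (vlev B n ![v + (T + k * v), T + k * v, T, v + T, v, k * v] i) *
      Dk H al sg w1 w2 ρ R η i) + 3)
      ≤ (11 * B.d n ^ (-t)) * (19 * B.d n ^ (-(2 * t))) * (435 * B.d n ^ (-(E + 5 * t))) ^ 4 := by
        refine mul_le_mul (mul_le_mul hz hθ' (by positivity) (by positivity)) hprod hprod0
          (by positivity)
    _ = (11 * 19 * 435 ^ 4) * (B.d n ^ (-t) * B.d n ^ (-(2 * t)) *
          (B.d n ^ (-(E + 5 * t))) ^ 4) := by ring
    _ ≤ B.d n ^ (-t) * (B.d n ^ (-t) * B.d n ^ (-(2 * t)) *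
          (B.d n ^ (-(E + 5 * t))) ^ 4) := mul_le_mul_of_nonneg_right hC (by positivity)
    _ = B.d n ^ (-(4 * E + 24 * t)) := by
        have h1 : (B.d n ^ (-(E + 5 * t))) ^ 4 = B.d n ^ (-(E + 5 * t) * 4) := by
          rw [Real.rpow_mul (B.pos n).le]
          norm_num
        rw [h1, add, add, add]
        congr 1; ring

end

end Crest.Agent.R138.GeoR298
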