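import Crest.Agent.R138.GeoR_298

/-!
# R138, L15 GEO-R (helper298), part 4: `GeoR`
-/

set_option autoImplicit false
set_option linter.unusedVariables false

open Finset Filter Topology

namespace Crest.Agent.R138.GeoR298

open Crest.Agent.R138.Ex926 (Base U flab vlev Bx6 LEG)
open Flg101 Flag51 Nx638
open Crest.Agent.R138.Mk163 (zc zl rho alive Mk prec fr Nat5)
open Crest.Agent.R138.L15
open Crest.Agent.R138.TiltU51 (dpos danti dadd le_dpow dpow_le ev_const ev_dims rho_pos mem_alive)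

noncomputable section

variable {B : Base} {I : ℕ → Finset (ℕ × ℝ)} {L : ℕ → ℕ → Ln} {lev : ℕ → ℚ → ℕ}
    {r0 A : ℕ → ℝ} {q g : ℝ} {f : ℕ → ℚ → ℕ → ℤ → ℕ} {b : ℕ → ℚ → ℕ → Ln}
    {e : ℕ → ℚ → ℕ → E2} {w1 w2 : ℕ → ℚ → ℝ} {fl : ℕ → ℕ × ℝ → E2} {sc : ℕ → ℝ} {k s θ : ℝ}
    {c : Bool}

theorem ev_w2 (h : Nat5 B I L lev r0 A q g f b e w1 w2 fl sc k s θ) {u : ℚ} (hu : 0 ≤ u)
    (hu1 : u ≤ 1) {t : ℝ} (ht : 0 < t) : ∀ᶠ n in (U : Filter ℕ),
      w2 n u ≤ WW lev w2 n * rho (lev n u) * B.d n ^ (θ * (1 - (u : ℝ)) - t) := by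
  have h1 := (h.base.tau u hu hu1).eventually
    (lt_mem_nhds (show θ * (1 - (u : ℝ)) - t < θ * (1 - (u : ℝ)) by linarith))
  filter_upwards [h1, ev_dims h.base hu hu1, ev_dims h.base (v := 1) (by norm_num) le_rfl]
    with n hn hdu hd1
  have h2 : 0 < w2 n 1 := hd1.1.trans_le hd1.2.2.1
  have wu : 0 < w2 n u := hdu.1.trans_le hdu.2.2.1
  have ru := rho_pos (lev n u)
  have r1 := rho_pos (lev n 1)
  have h3 := dpow_le (B := B) (n := n) (y := (rho (lev n u) / w2 n u) / (rho (lev n 1) / w2 n 1))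
    (by positivity) hn.le
  have h4 := dpos B n (θ * (1 - (u : ℝ)) - t)
  rw [Real.rpow_neg (B.pos n).le, inv_le_comm₀ h4 (by positivity)] at h3
  have e1 : ((rho (lev n u) / w2 n u) / (rho (lev n 1) / w2 n 1))⁻¹ =
      w2 n u / (WW lev w2 n * rho (lev n u)) := by
    unfold WW; field_simp
  rw [e1, div_le_iff₀ (by unfold WW; positivity)] at h3
  linarith [h3]

theorem ev_H (h : Nat5 B I L lev r0 A q g f b e w1 w2 fl sc k s θ) {u : ℚ} (hu : 0 ≤ u)
    (hu1 : u ≤ 1) {t : ℝ} (ht : 0 < t) : ∀ᶠ n in (U : Filter ℕ),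
      (2 : ℝ) ^ lev n 0 * rho (lev n u) ≤ B.d n ^ ((u : ℝ) - t) ∧
      B.d n ^ ((u : ℝ) + t) ≤ (2 : ℝ) ^ lev n 0 * rho (lev n u) := by
  have h0 := h.base.lev_lim 0 u le_rfl hu hu1
  simp only [Rat.cast_zero, sub_zero] at h0
  have h1 := h0.eventually (lt_mem_nhds (show (u : ℝ) - t < u by linarith))
  have h2 := h0.eventually (gt_mem_nhds (show (u : ℝ) < u + t by linarith))
  filter_upwards [h1, h2] with n hn1 hn2
  have hL := B.L_pos n
  have hy : 0 < (2 : ℝ) ^ lev n 0 * rho (lev n u) := by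
    have := rho_pos (lev n u); positivity
  have hlog : Real.log ((2 : ℝ) ^ lev n 0 * rho (lev n u)) / B.L n =
      -(((lev n u : ℝ) - lev n 0) * Real.log 2 / B.L n) := by
    unfold rho
    rw [Real.log_mul (by positivity) (by positivity), Real.log_div (by norm_num) (by positivity),
      Real.log_one, Real.log_pow, Real.log_pow]
    ring
  constructor
  · have h3 := le_dpow (B := B) (n := n) (t := -((u : ℝ) - t)) hy (by rw [hlog]; linarith)
    rwa [neg_neg] at h3
  · have h3 := dpow_le (B := B) (n := n) (t := -((u : ℝ) + t)) hy (by rw [hlog]; linarith)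
    rwa [neg_neg] at h3

theorem ev_prec (h : Nat5 B I L lev r0 A q g f b e w1 w2 fl sc k s θ) {u : ℚ} (hu : 0 ≤ u)
    (hu1 : u ≤ 1) {t : ℝ} (ht : 0 < t) : ∀ᶠ n in (U : Filter ℕ),
      prec w1 w2 n u ≤ sg w1 w2 n * B.d n ^ (k * (u : ℝ) - t) := by
  have h1 := h.pr u hu hu1
  have h2 := h.pr 0 le_rfl zero_le_one
  simp only [Rat.cast_zero, mul_zero] at h2
  have h3 := (h1.sub h2)
  rw [sub_zero] at h3
  have h4 := h3.eventually (lt_mem_nhds (show k * (u : ℝ) - t < k * u by linarith))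
  filter_upwards [h4, ev_dims h.base hu hu1, ev_dims h.base (v := 0) le_rfl zero_le_one]
    with n hn hdu hd0
  have hsc := h.rot.scpos n
  have pu : 0 < prec w1 w2 n u := by
    unfold prec; have := hdu.1; have := hdu.1.trans_le hdu.2.2.1; positivity
  have p0 : 0 < prec w1 w2 n 0 := by
    unfold prec; have := hd0.1; have := hd0.1.trans_le hd0.2.2.1; positivity
  have e1 : Real.log (prec w1 w2 n u / prec w1 w2 n 0) / B.L n =
      -(Real.log (sc n / prec w1 w2 n u) / B.L n - Real.log (sc n / prec w1 w2 n 0) / B.L n) := by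
    rw [Real.log_div hsc.ne' pu.ne', Real.log_div hsc.ne' p0.ne', Real.log_div pu.ne' p0.ne']
    ring
  have h5 := le_dpow (B := B) (n := n) (t := -(k * (u : ℝ) - t))
    (y := prec w1 w2 n u / prec w1 w2 n 0) (by positivity) (by rw [e1]; linarith)
  rw [neg_neg, div_le_iff₀ p0] at h5
  unfold sg
  linarith

open Classical in
/-- **a marked class of level `u` meets few boxes.** -/
theorem class_count (h : NatJ B I L lev r0 A q g f b e w1 w2 fl sc k s θ c) {v T E : ℝ} {u : ℚ}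
    (hv : 0 ≤ v) (hvu : v ≤ u) (hu1 : u ≤ 1) (hT0 : 0 ≤ T) (hT : T ≤ θ * (1 - u) + E)
    (hE : 0 ≤ E) {ε : ℝ} (hε : 0 < ε) : ∀ᶠ n in (U : Filter ℕ), ∀ x ∈ I n,
    ((((I n).filter fun y => nl lev f n u y = nl lev f n u x).image
      (flab B (xx L lev w1 w2 fl c) n
        ![v + (T + k * v), T + k * v, T, v + T, v, k * v])).card : ℝ) ≤
        B.d n ^ (-(4 * E + ε)) := by
  have hu : (0 : ℚ) ≤ u := by
    have : (0 : ℝ) ≤ u := hv.trans hvu
    exact_mod_cast this
  set t := ε / 24 with ht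
  have ht0 : 0 < t := by rw [ht]; positivity
  have hN := h.nat
  have hM := hN.base
  filter_upwards [ev_w2 hN hu hu1 ht0, ev_H hN hu hu1 ht0, ev_prec hN hu hu1 ht0,
    hN.close u hu hu1 t ht0, hM.near u hu hu1 1 one_pos, ev_dims hM hu hu1,
    ev_dims hM (v := 0) le_rfl zero_le_one, ev_dims hM (v := 1) zero_le_one le_rfl,
    ev_const B (11 * 19 * 435 ^ 4) ht0] with n e1 e2 e4 hcl hnear du d0 d1 hC x hx
  set J := zc (lev n u) x.2 with hJ
  set a := f n u x.1 J with ha
  set F := (I n).filter fun y => nl lev f n u y = nl lev f n u x with hF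
  have hFm : ∀ y ∈ F, y ∈ I n ∧ zc (lev n u) y.2 = J ∧ f n u y.1 J = a := by
    intro y hy
    rw [hF, mem_filter] at hy
    have h1 := hy.2
    simp only [nl, Prod.mk.injEq] at h1
    refine ⟨hy.1, h1.1, ?_⟩
    have h3 := h1.2
    rw [h1.1] at h3
    exact h3
  have wu : 0 < w2 n u := du.1.trans_le du.2.2.1
  have w0 : 0 < w2 n 0 := d0.1.trans_le d0.2.2.1
  have w1' : 0 < w2 n 1 := d1.1.trans_le d1.2.2.1
  have hρ := rho_pos (lev n u)
  have hal : 0 < WW lev w2 n := by unfold WW; have := rho_pos (lev n 1); positivity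
  have hsg : 0 < sg w1 w2 n := by unfold sg prec; have := d0.1; positivity
  have hsg1 : sg w1 w2 n ≤ 1 := by
    unfold sg prec; exact div_le_one_of_le₀ d0.2.2.1 w0.le
  have hpu : 0 < prec w1 w2 n u := by unfold prec; have := du.1; positivity
  have hpu1 : prec w1 w2 n u ≤ 1 := by
    unfold prec; exact div_le_one_of_le₀ du.2.2.1 wu.le
  have hw1e : w1 n u = prec w1 w2 n u * w2 n u := by
    unfold prec; field_simp
  have hδ : 0 ≤ prec w1 w2 n u * B.d n ^ (-t) := by have := dpos B n (-t); positivity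
  -- membership in the plank
  have hxa : x.1 ∈ alive (I n) (lev n u) J := mem_alive.2 ⟨x, hx, rfl, rfl⟩
  have hmemF : ∀ y ∈ F, y.1 ∈ alive (I n) (lev n u) J := fun y hy =>
    mem_alive.2 ⟨y, (hFm y hy).1, (hFm y hy).2.1, rfl⟩
  have hcount := plank_count (F := F) (L := L n) (fl := fl n) (c := c) (H := 2 ^ lev n 0)
    (al := WW lev w2 n) (sc := sg w1 w2 n) (by positivity) hal hsg hsg1
    (bl := b n u a) (e := e n u a) (w1 := w1 n u) (w2 := w2 n u) (z0 := zl (lev n u) J)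
    (ρ := rho (lev n u)) (δ := prec w1 w2 n u * B.d n ^ (-t)) du.1.le wu.le hρ hδ
    (by have := (hnear J).unit x.1 hxa; exact this)
    (fun y hy => by
      have h1 := (hnear J).mem y.1 (hmemF y hy)
      have h2 := (hFm y hy).2.2
      simp only [h2] at h1
      exact h1)
    (fun y hy => by
      have h1 := (hFm y hy).2.1
      have h2 : (0 : ℝ) < 2 ^ lev n u := by positivity
      have h3 := Int.floor_le ((2 : ℝ) ^ lev n u * y.2)
      have h4 := Int.lt_floor_add_one ((2 : ℝ) ^ lev n u * y.2)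
      have h5 : ⌊(2 : ℝ) ^ lev n u * y.2⌋ = J := h1
      rw [h5] at h3 h4
      unfold zl rho
      have h6 : y.2 - (J : ℝ) / 2 ^ lev n u = (2 ^ lev n u * y.2 - J) / 2 ^ lev n u := by
        field_simp
      rw [h6, abs_div, abs_of_pos h2]
      refine div_le_div_of_nonneg_right ?_ h2.le
      rw [abs_le]; constructor <;> linarith)
    (fun y hy => hN.unit n y (hFm y hy).1)
    (fun y hy => h.slope n y (hFm y hy).1)
    (fun y hy => by
      have h1 := hcl y (hFm y hy).1
      have h2 : fr lev f e n u y = e n u a := by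
        unfold fr
        rw [(hFm y hy).2.1, (hFm y hy).2.2]
      rw [h2] at h1
      exact h1)
    (B.levc n v) (B.levc n (k * v))
    (vlev B n ![v + (T + k * v), T + k * v, T, v + T, v, k * v])
  have hst := stage (B := B) (n := n) (H := 2 ^ lev n 0) (al := WW lev w2 n)
    (sg := sg w1 w2 n) (w1 := w1 n u) (w2 := w2 n u) (ρ := rho (lev n u))
    (pu := prec w1 w2 n u) (u := (u : ℝ)) (v := v) (k := k) (θ := θ) (T := T) (E := E) (t := t)
    (by positivity) hal hsg hρ wu hpu hw1e hpu1 hv hvu hN.k0.le ht0 hT0 hT hE e1 e2.1 e2.2 e4 hC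
  have e24 : (24 : ℝ) * t = ε := by rw [ht]; ring
  rw [e24] at hst
  refine le_trans (le_of_eq ?_) (hcount.trans hst)
  rfl

/-- **GEO-R** -/
theorem geoR : GeoR B I L lev r0 A q g f b e w1 w2 fl sc k s θ c := by
  intro h
  have hk := h.nat.k0
  have hθ := h.nat.θ0
  refine ⟨fun v u hv hvu hu1 ε hε => ?_, fun u hu hu1 ε hε => ?_⟩
  · have hv1 : v ≤ 1 := hvu.le.trans (by exact_mod_cast hu1)
    have h1 := class_count h (v := v) (T := θ * (1 - v)) (E := θ * (u - v)) (u := u) hv hvu.le hu1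
      (mul_nonneg hθ.le (by linarith)) (le_of_eq (by ring))
      (mul_nonneg hθ.le (by linarith)) hε
    filter_upwards [h1] with n hn x hx
    refine (hn x hx).trans (danti B n ?_)
    have h2 : 0 ≤ (u : ℝ) - v := by linarith
    have h3 : 0 ≤ (1 + k + θ) * ((u : ℝ) - v) := by positivity
    have h4 : 4 * (θ * ((u : ℝ) - v)) ≤ 10 * (1 + k + θ) * (u - v) := by
      have : 0 ≤ (10 * (1 + k) + 6 * θ) * ((u : ℝ) - v) := by positivity
      linarith
    linarith
  · have hu0 : (0 : ℝ) ≤ u := by exact_mod_cast hu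
    have hu1' : (u : ℝ) ≤ 1 := by exact_mod_cast hu1
    have h1 := class_count h (v := 0) (T := 0) (E := 0) (u := u) le_rfl hu0 hu1
      le_rfl (by have := mul_nonneg hθ.le (by linarith : 0 ≤ 1 - (u : ℝ)); linarith) le_rfl hε
    have e0 : (![0 + (0 + k * 0), 0 + k * 0, 0, 0 + 0, 0, k * 0] : Fin 6 → ℝ) = 0 := by
      funext i
      fin_cases i <;> simp
    rw [e0] at h1
    filter_upwards [h1] with n hn x hx
    refine (hn x hx).trans (le_of_eq ?_)
    congr 1
    ring

end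

end Crest.Agent.R138.GeoR298
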