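import Crest.Agent.R138.WAsm3_188

/-!
# R138 / R139: WAVE side, target of the slab chain (helper188)

`WCh B q F c1`: for EVERY plate system of level `d R` the plate functional grows strictly slower than
`c1`. The chain (proof of 654, direct form of 878 / 639) proves `WChE`. Assembly: `A1` at the level
`r = X^(-τ) R`, `LB (c1+)` below, `WCh` above.
-/

set_option autoImplicit false

open MeasureTheory FourierTransform
open scoped ContDiff ENNReal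

namespace Crest.Agent.R138.W188

open Crest.Agent.R138.Defs Crest.Agent.R138.Bil882 Crest.Agent.R138.Wpk685

/-- **target of the slab chain** at `c1`: the plate functional at level `d R` grows strictly slower
than `c1`, all labels. -/
def WCh (B : ℕ → ℝ) (q : ℝ) (F : ℝ → ℝ → ℝ → (E2 → ℝ) → (E2 → ℂ) → ℝ → ℝ≥0∞) (c1 : ℝ) : Prop :=
  ∃ κ c3 A : ℝ, 0 < κ ∧ κ ≤ 1 ∧ 0 < c3 ∧ c3 ≤ 1 ∧ 1 ≤ A ∧
  ∀ ε : ℝ, 0 < ε → ∀ (Na : ℕ) (M0 : ℝ), ∃ C : ℝ, 0 ≤ C ∧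
  ∀ h g R D, St B q Na M0 (1/2) h g R D → ∀ d s1 s2 : ℝ, 0 < d → d ≤ c3 → d ^ (-A) ≤ R →
    R ^ ε ≤ d⁻¹ → Sd (d * R) s1 s2 →
      ENNReal.ofReal (s2 ^ (-q / 2)) * F (d * R) s1 s2 h g R ≤
        ENNReal.ofReal (C * R ^ ε * d ^ (-(c1 / 2 * (1 - κ))) * SS g R D)

/-- `WCh` from `LB (c1+)` and `END β`, `β < c1`. -/
def WChE (B : ℕ → ℝ) (q : ℝ) (F : ℝ → ℝ → ℝ → (E2 → ℝ) → (E2 → ℂ) → ℝ → ℝ≥0∞) : Prop :=
  ∀ c1 : ℝ, 0 < c1 → (∀ c, c1 < c → LB B q 1 c) → ∀ β : ℝ, 0 ≤ β → β < c1 → END B q β →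
    WCh B q F c1

variable {B : ℕ → ℝ} {q : ℝ} {F : ℝ → ℝ → ℝ → (E2 → ℝ) → (E2 → ℂ) → ℝ → ℝ≥0∞}

/-- the level `r = R X^(-τ)`. -/
theorem lvl_ch {R w X d r τ : ℝ} (hR : 1 ≤ R) (hw : 1 ≤ w) (hX1 : 1 ≤ X) (hX : X = R / w ^ 2)
    (hd : d = X ^ (-τ)) (hr : r = d * R) (hτp : 0 < τ) (hτ2 : τ ≤ 1/2) :
    X ≤ R ∧ R ^ (1/2 : ℝ) ≤ r ∧ r ≤ R ∧ r / w ^ 2 = X ^ (1 - τ) ∧ w ≤ r ^ (1/2 : ℝ) := by
  have hR0 : 0 < R := by linarith
  have hw0 : 0 < w := by linarith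
  have hXp : 0 < X := by linarith
  have hXR : X ≤ R := by
    rw [hX]; exact div_le_self hR0.le (one_le_pow₀ hw)
  have hd0 : 0 < d := by rw [hd]; positivity
  have hd1 : d ≤ 1 := by
    rw [hd]; exact Real.rpow_le_one_of_one_le_of_nonpos hX1 (by linarith)
  have hRhalf : R ^ (1/2 : ℝ) = R ^ (-(1/2) : ℝ) * R := by
    nth_rewrite 3 [← Real.rpow_one R]
    rw [← Real.rpow_add hR0]; norm_num
  have hlo : R ^ (1/2 : ℝ) ≤ r := by
    rw [hRhalf, hr, hd]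
    have h1 : R ^ (-(1/2) : ℝ) ≤ R ^ (-τ) := rpow_le_rpow_of_one_le hR (by linarith)
    have h2 : R ^ (-τ) ≤ X ^ (-τ) := Real.rpow_le_rpow_of_nonpos hXp hXR (by linarith)
    have := h1.trans h2
    gcongr
  have hw2 : w ^ 2 = R * X⁻¹ := by rw [hX]; field_simp
  have hrw : r / w ^ 2 = X ^ (1 - τ) := by
    rw [hw2, hr, hd, ← Real.rpow_neg_one X, div_eq_iff (by positivity)]
    have : X ^ (1 - τ) * (R * X ^ (-1:ℝ)) = (X ^ (1 - τ) * X ^ (-1:ℝ)) * R := by ring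
    rw [this, ← Real.rpow_add hXp]; ring_nf
  refine ⟨hXR, hlo, ?_, hrw, ?_⟩
  · rw [hr]; nlinarith
  · have h1 : w ^ 2 ≤ r := by
      have h2 : 1 ≤ r / w ^ 2 := by rw [hrw]; exact Real.one_le_rpow hX1 (by linarith)
      rwa [le_div_iff₀ (by positivity), one_mul] at h2
    calc w = (w ^ 2) ^ (1/2 : ℝ) := by
          rw [← Real.rpow_natCast, ← Real.rpow_mul hw0.le]; norm_num
      _ ≤ r ^ (1/2 : ℝ) := by gcongr

/-- **the improvement step** from `WCh`. -/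
theorem LB_improve_ch {c1 : ℝ} (hc1 : 0 < c1) (H : ∀ c, c1 < c → LB B q 1 c) (H1 : A1 B q F)
    (HW : WCh B q F c1) : ∃ η : ℝ, 0 < η ∧ η ≤ c1 ∧ LB B q (1/2) (c1 - η) := by
  obtain ⟨κ, c3, A, hκ, hκ1, hc3, hc31, hA, HW⟩ := HW
  have hA0 : 0 < A := by linarith
  set τ : ℝ := 1 / (2 * A) with hτ
  have hτp : 0 < τ := by positivity
  have hτA : τ * A = 1/2 := by rw [hτ]; field_simp
  have hτ2 : τ ≤ 1/2 := by nlinarith
  set η : ℝ := min (τ * κ * c1 / 2) 1 with hη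
  have hηp : 0 < η := lt_min (by positivity) one_pos
  have hη2 : η ≤ τ * κ * c1 / 2 := min_le_left _ _
  have hη1 : η ≤ 1 := min_le_right _ _
  have hτκ : τ * κ ≤ 1/2 := by nlinarith
  have hηc : η ≤ c1 := by nlinarith
  refine ⟨η, hηp, hηc, ?_⟩
  intro ε hε Na M0
  set e : ℝ := min (ε / 8) (1/4) with he
  have hep : 0 < e := lt_min (by positivity) (by norm_num)
  have heε : 8 * e ≤ ε := by
    have : e ≤ ε / 8 := min_le_left _ _
    linarith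
  set e' : ℝ := min e (4 * e * τ) with he'
  have hep' : 0 < e' := lt_min hep (by positivity)
  have he'e : e' ≤ e := min_le_left _ _
  have he'τ : e' ≤ 4 * e * τ := min_le_right _ _
  have hLB := H (c1 + η) (by linarith)
  obtain ⟨Na1, H1⟩ := H1 e hep
  obtain ⟨N0, H1⟩ := H1 Na M0
  obtain ⟨NL, CL, hCL, HL⟩ := hLB e hep Na1 4
  obtain ⟨NR, CR, hCR, HR⟩ := hLB e hep Na M0
  obtain ⟨CW, hCW, HW⟩ := HW e' hep' Na M0
  set N : ℕ := max N0 (max NL NR) with hN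
  obtain ⟨C1, hC1, H1⟩ := H1 N (le_max_left _ _)
  have hNL : NL ≤ N := (le_max_left _ _).trans (le_max_right _ _)
  have hNR : NR ≤ N := (le_max_right _ _).trans (le_max_right _ _)
  clear_value τ η e e' N
  set X0 : ℝ := (c3⁻¹) ^ (τ⁻¹) with hX0
  have hc3i : 1 ≤ c3⁻¹ := (one_le_inv₀ hc3).2 hc31
  have hc3i0 : 0 < c3⁻¹ := by positivity
  have hX01 : 1 ≤ X0 := Real.one_le_rpow hc3i (by positivity)
  refine ⟨N, CR * X0 + CR + (C1 * (CL + 1) * CW + C1), by positivity, ?_⟩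
  intro h g R D w hSt hw hwR
  have hR := hSt.R1
  have hR0 := hSt.Rpos
  have hss := hSt.ss
  have hw0 : 0 < w := by linarith
  obtain ⟨X, hX⟩ : ∃ X, X = R / w ^ 2 := ⟨_, rfl⟩
  have hX1 : 1 ≤ X := by rw [hX]; exact one_le_R_div hR hw hwR
  have hXp : 0 < X := by linarith
  have hSt1 : St B q Na M0 1 h g R D := hSt.mono (by norm_num)
  rw [← hX]
  have hRε : 1 ≤ R ^ ε := Real.one_le_rpow hR hε.le
  have hRe : 1 ≤ R ^ e := Real.one_le_rpow hR hep.le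
  have hReε : R ^ e ≤ R ^ ε := rpow_le_rpow_of_one_le hR (by linarith)
  have hHR := (NN_anti hNR h g hw0 R).trans (HR h g R D w hSt1 hw hwR)
  rw [← hX] at hHR
  -- trivial cases
  rcases le_or_gt X X0 with hs | hb
  · refine hHR.trans (ENNReal.ofReal_le_ofReal (small_case hR hX1 hη1 hCR hss hs ?_))
    calc CR * R ^ e * X0 = (CR * X0) * R ^ e := by ring
      _ ≤ (CR * X0) * R ^ ε := by gcongr
      _ ≤ _ := by
          have : 0 ≤ C1 * (CL + 1) * CW + C1 := by positivity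
          gcongr; linarith
  rcases le_or_gt X (R ^ (4 * e)) with hs2 | hb2
  · refine hHR.trans (ENNReal.ofReal_le_ofReal (small_case hR hX1 hη1 hCR hss hs2 ?_))
    have h2 : R ^ e * R ^ (4 * e) ≤ R ^ ε := by
      rw [← Real.rpow_add hR0]; exact rpow_le_rpow_of_one_le hR (by linarith)
    calc CR * R ^ e * R ^ (4 * e) = CR * (R ^ e * R ^ (4 * e)) := by ring
      _ ≤ CR * R ^ ε := by gcongr
      _ ≤ _ := by
          have : 0 ≤ CR * X0 := by positivity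
          have : 0 ≤ C1 * (CL + 1) * CW + C1 := by positivity
          gcongr; linarith
  clear hHR
  -- main case
  obtain ⟨d, hd⟩ : ∃ d, d = X ^ (-τ) := ⟨_, rfl⟩
  obtain ⟨r, hr⟩ : ∃ r, r = d * R := ⟨_, rfl⟩
  obtain ⟨hXR, hrlo, hrR, hrw, hwr⟩ := lvl_ch hR hw hX1 hX hd hr hτp hτ2
  have hd0 : 0 < d := by rw [hd]; positivity
  have hdi : d⁻¹ = X ^ τ := by rw [hd, Real.rpow_neg hXp.le, inv_inv]
  have hr0 : 0 < r := by rw [hr]; positivity
  have hdc3 : d ≤ c3 := by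
    rw [← inv_le_inv₀ hc3 hd0, hdi]
    calc c3⁻¹ = ((c3⁻¹) ^ (τ⁻¹)) ^ τ := by
          rw [← Real.rpow_mul hc3i0.le, inv_mul_cancel₀ hτp.ne', Real.rpow_one]
      _ ≤ X ^ τ := Real.rpow_le_rpow (by positivity) hb.le hτp.le
  have hdA : d ^ (-A) ≤ R := by
    rw [hd, ← Real.rpow_mul hXp.le]
    calc X ^ (-τ * -A) ≤ X ^ (1:ℝ) := rpow_le_rpow_of_one_le hX1 (by nlinarith)
      _ = X := Real.rpow_one X
      _ ≤ R := hXR
  have hdR : R ^ e' ≤ d⁻¹ := by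
    rw [hdi]
    calc R ^ e' ≤ R ^ (4 * e * τ) := rpow_le_rpow_of_one_le hR he'τ
      _ = (R ^ (4 * e)) ^ τ := by rw [← Real.rpow_mul hR0.le]
      _ ≤ X ^ τ := Real.rpow_le_rpow (by positivity) hb2.le hτp.le
  have hQ1 : 1 ≤ X ^ ((1 - τ) * ((c1 + η) / 2)) :=
    Real.one_le_rpow hX1 (mul_nonneg (by linarith) (by positivity))
  obtain ⟨s1, s2, hsd, hN1⟩ := H1 h g R D hSt r w hrlo hrR hw hwr
    ((CL + 1) * R ^ e * X ^ ((1 - τ) * ((c1 + η) / 2)))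
    (by
      have hCL1 : 1 ≤ CL + 1 := by linarith
      calc (1:ℝ) = 1 * 1 * 1 := by ring
        _ ≤ _ := by gcongr)
    (by
      intro g' D' hSt'
      refine (NN_anti hNL h g' hw0 r).trans ((HL h g' r D' w hSt' hw hwr).trans ?_)
      apply ENNReal.ofReal_le_ofReal
      have hs' := hSt'.ss
      have e1 : (r / w ^ 2) ^ ((c1 + η) / 2) = X ^ ((1 - τ) * ((c1 + η) / 2)) := by
        rw [hrw, ← Real.rpow_mul hXp.le]
      rw [e1]
      have h3 : r ^ e ≤ R ^ e := Real.rpow_le_rpow hr0.le hrR hep.le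
      have h4 : CL * r ^ e ≤ (CL + 1) * R ^ e :=
        mul_le_mul (by linarith) h3 (by positivity) (by positivity)
      exact mul_le_mul_of_nonneg_right (mul_le_mul_of_nonneg_right h4 (by positivity)) hs')
  have hPhi := HW h g R D hSt d s1 s2 hd0 hdc3 hdA hdR (by rw [← hr]; exact hsd)
  rw [← hr] at hPhi
  have hdp : d ^ (-(c1 / 2 * (1 - κ))) = X ^ (τ * (c1 / 2 * (1 - κ))) := by
    rw [hd, ← Real.rpow_mul hXp.le]; congr 1; ring
  rw [hdp] at hPhi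
  refine comb (by positivity) (by positivity) (by positivity) hN1 hPhi ?_
  have hexp : X ^ ((1 - τ) * ((c1 + η) / 2)) * X ^ (τ * (c1 / 2 * (1 - κ))) ≤
      X ^ ((c1 - η) / 2) := by
    rw [← Real.rpow_add hXp]
    apply rpow_le_rpow_of_one_le hX1
    nlinarith
  have hRexp : R ^ e * R ^ e * R ^ e' ≤ R ^ ε := by
    rw [← Real.rpow_add hR0, ← Real.rpow_add hR0]
    exact rpow_le_rpow_of_one_le hR (by linarith)
  have hXc : 1 ≤ X ^ ((c1 - η) / 2) := Real.one_le_rpow hX1 (by linarith)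
  set y : ℝ := X ^ ((c1 - η) / 2) with hy
  have hy0 : 0 ≤ y := by positivity
  have t1 : C1 * R ^ e * ((CL + 1) * R ^ e * X ^ ((1 - τ) * ((c1 + η) / 2))) *
        (CW * R ^ e' * X ^ (τ * (c1 / 2 * (1 - κ))) * SS g R D) ≤
      (C1 * (CL + 1) * CW) * R ^ ε * y * SS g R D := by
    calc C1 * R ^ e * ((CL + 1) * R ^ e * X ^ ((1 - τ) * ((c1 + η) / 2))) *
          (CW * R ^ e' * X ^ (τ * (c1 / 2 * (1 - κ))) * SS g R D)
        = (C1 * (CL + 1) * CW) * (R ^ e * R ^ e * R ^ e') *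
          (X ^ ((1 - τ) * ((c1 + η) / 2)) * X ^ (τ * (c1 / 2 * (1 - κ)))) * SS g R D := by ring
      _ ≤ (C1 * (CL + 1) * CW) * R ^ ε * y * SS g R D := by gcongr
  have t2 : C1 * SS g R D ≤ C1 * R ^ ε * y * SS g R D := by
    have : 1 ≤ R ^ ε * y := by
      calc (1:ℝ) = 1 * 1 := by ring
        _ ≤ _ := by gcongr
    calc C1 * SS g R D = C1 * 1 * SS g R D := by ring
      _ ≤ C1 * (R ^ ε * y) * SS g R D := by gcongr
      _ = _ := by ring
  have t3 : 0 ≤ (CR * X0 + CR) * R ^ ε * y * SS g R D := by positivity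
  calc _ ≤ (C1 * (CL + 1) * CW) * R ^ ε * y * SS g R D + C1 * R ^ ε * y * SS g R D :=
        add_le_add t1 t2
    _ ≤ (C1 * (CL + 1) * CW) * R ^ ε * y * SS g R D + C1 * R ^ ε * y * SS g R D +
        (CR * X0 + CR) * R ^ ε * y * SS g R D := le_add_of_nonneg_right t3
    _ = _ := by ring

/-- **the wave theorem**: `LB(q,c)` for every `c > 0`. -/
theorem LB_all_ch (HH : HALF B q) (HK : KMw B q) (HT1 : TRIV1 B q) (HT2 : TRIV2 B q F)
    (H1 : A1 B q F) (H4 : A4 B q) (H5a : A5a B q) (HW : WChE B q F) :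
    ∀ c : ℝ, 0 < c → LB B q 1 c := by
  set T : Set ℝ := {c | 0 ≤ c ∧ LB B q 1 c} with hT
  have h8 : (8:ℝ) ∈ T := ⟨by norm_num, LB_start HH HK HT1 HT2 H1⟩
  have hbdd : BddBelow T := ⟨0, fun c hc => hc.1⟩
  set c1 : ℝ := sInf T with hc1
  have hc10 : 0 ≤ c1 := le_csInf ⟨8, h8⟩ fun c hc => hc.1
  have hH : ∀ c, c1 < c → LB B q 1 c := by
    intro c hc
    obtain ⟨c', hc', hcc⟩ := exists_lt_of_csInf_lt ⟨8, h8⟩ hc
    exact hc'.2.mono hcc.le
  rcases hc10.eq_or_lt with h0 | hpos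
  · intro c hc
    exact hH c (by rw [← h0]; exact hc)
  · exfalso
    obtain ⟨β, hβ, hβc, HE⟩ := END_gain hpos hH HK HT1 H5a H4
    obtain ⟨η, hη, hηc, hLB⟩ := LB_improve_ch hpos hH H1 (HW c1 hpos hH β hβ hβc HE)
    have hmem : c1 - η ∈ T := ⟨by linarith, HH _ (by linarith) hLB⟩
    have := csInf_le hbdd hmem
    linarith

end Crest.Agent.R138.W188
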