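import Crest.Agent.R138.Dom_878
import Crest.Agent.R138.WCh_188

/-!
# R138 / R139: WAVE side, the (non-nested) class chain (helper210): objects and interface Props, v1

Doc 1979 (slab chain) in the direct form of 878 (11160) / 639 (11245) / 654 (11438): every function of
every level is a selection of packets of the ROOT `g`; the class of a phase point of level `r'`
contains the label `κ` of the parent level which dominates there.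

* `Lev` = one level: radius, net of frames, labels `κ < n`, functions `G z κ`, densities, plates.
* `LevOk` = at every frame of the net the level is an output of DECc (685's `DecOut`).
* `Next L L' aux`: the plates of `L'` with label `k` are dominated by the parent label `L'.par k`
  (pointwise, 878's `Dom`) and have auxiliary class `L'.ac k` with respect to their own frame.
* `Lev.S h g k = ∑_z r √(D z k) ∑_i en (tr h z g) (P z k i).S` (coefficient form, 630's decision (b)).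
* interface Props: `EX1P` (first level), `EXP` (next level), `ROOTP`, `GENP`, `FINP`, `STEPP`.
* target: `(EX1P ∧ EXP ∧ ROOTP ∧ GENP ∧ FINP ∧ STEPP) → WChE B q (SIG A)`.
-/

set_option autoImplicit false

open MeasureTheory FourierTransform
open scoped ENNReal

namespace Crest.Agent.R138.Gl210

open Crest.Agent.R138.Defs Crest.Agent.R138.Bil882 Crest.Agent.R138.Wpk685 Crest.Agent.R138.W188

/-- one level of the class chain. -/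
structure Lev where
  /-- radius. -/
  r : ℝ
  /-- number of labels. -/
  n : ℕ
  /-- number of classes used in the decomposition. -/
  nb : ℕ
  /-- sides of the plates of the label `k`. -/
  s : ℕ → ℝ × ℝ
  /-- class of the label `k`. -/
  cl : ℕ → ℕ
  /-- parent label. -/
  par : ℕ → ℕ
  /-- auxiliary class. -/
  ac : ℕ → ℕ
  /-- net of frames. -/
  Z : Finset (E2 × ℝ)
  /-- nearest frame. -/
  ζ : E2 × ℝ → E2 × ℝ
  /-- the functions. -/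
  G : E2 × ℝ → ℕ → E2 → ℂ
  /-- the densities. -/
  D : E2 × ℝ → ℕ → ℝ
  /-- the remainder. -/
  rest : E2 × ℝ → E2 → ℂ
  /-- indices of the plates. -/
  I : E2 × ℝ → ℕ → Finset ℕ
  /-- the plates. -/
  P : E2 × ℝ → ℕ → ℕ → Plate

/-- the normalising quantity of the label `k` (coefficient form). -/
noncomputable def Lev.S (L : Lev) (h : E2 → ℝ) (g : E2 → ℂ) (k : ℕ) : ℝ≥0∞ :=
  ∑ z ∈ L.Z, ENNReal.ofReal (L.r * Real.sqrt (L.D z k)) *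
    ∑ i ∈ L.I z k, en (L.r ^ (-(1/2) : ℝ)) (tr h z g) (L.P z k i).S

/-- the parent function with label `κ` in the frame `z` of a finer level. -/
noncomputable def Lev.pf (L : Lev) (h : E2 → ℝ) (z : E2 × ℝ) (κ : ℕ) : E2 → ℂ :=
  tr h (z - L.ζ z) (L.G (L.ζ z) κ)

/-- the level is a decomposition of the root at every frame of a net. -/
structure LevOk (q A σ Cn : ℝ) (B : ℕ → ℝ) (M : ℕ) (h : E2 → ℝ) (g : E2 → ℂ) (R : ℝ) (L : Lev) :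
    Prop where
  lo : R ^ (1/2 : ℝ) ≤ L.r
  hi : L.r ≤ R
  n1 : 1 ≤ L.n
  nb1 : 1 ≤ L.nb
  Zmem : ∀ z ∈ L.Z, z ∈ cyl R
  Zsep : ∀ z ∈ L.Z, ∀ z' ∈ L.Z, W323.Sep L.r z z'
  near : ∀ p ∈ cyl R, L.ζ p ∈ L.Z ∧ p - L.ζ p ∈ cyl L.r
  sd : ∀ k < L.n, Sd L.r (L.s k).1 (L.s k).2
  dec : ∀ z ∈ L.Z, ∃ cls, DecOut q A σ Cn B L.nb M h g R L.r z cls (Finset.range L.n) L.s L.cl
    (L.G z) (L.D z) (L.rest z) (L.I z) (L.P z)

/-- an auxiliary class function at a given level. -/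
abbrev Aux := E2 × ℝ → OrthonormalBasis (Fin 2) ℝ E2 → ℤ × ℤ → E2 → ℕ

/-- `L'` is a next level after `L`, with auxiliary class function `aux`. -/
structure Next (h : E2 → ℝ) (L L' : Lev) (aux : Aux) : Prop where
  par_lt : ∀ k < L'.n, L'.par k < L.n
  /-- the parent label is the first dominating label. -/
  arg : ∀ z ∈ L'.Z, ∀ k < L'.n, ∀ i ∈ L'.I z k, ∀ m, ∀ y ∈ (L'.P z k i).S m,
    Dom878.argi (L'.r ^ (-(1/2) : ℝ)) (L.pf h z) (Finset.range L.n) m y = L'.par k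
  /-- the auxiliary class, with respect to the own frame of the plate. -/
  aux : ∀ z ∈ L'.Z, ∀ k < L'.n, ∀ i ∈ L'.I z k, ∀ m, ∀ y ∈ (L'.P z k i).S m,
    aux z (L'.P z k i).b m y = L'.ac k

/-! ### existence -/

/-- **EX1P**: the first level (no parent, no classes). -/
def EX1P (B : ℕ → ℝ) (q A : ℝ) : Prop :=
  ∀ ε : ℝ, 0 < ε → ∀ (Na : ℕ) (M0 : ℝ) (M : ℕ), ∃ Cn : ℝ, 1 ≤ Cn ∧
  ∀ h g R D, St B q Na M0 (1/2) h g R D → ∀ r' : ℝ, R ^ (1/2 : ℝ) ≤ r' → r' ≤ R →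
    ∃ L' : Lev, L'.r = r' ∧ LevOk q A (1/2) Cn B M h g R L' ∧ L'.nb = 1 ∧
      (L'.n : ℝ) ≤ Cn * R ^ ε

/-- **EXP**: the next level exists, for every measurable auxiliary class function `< na`. -/
def EXP (B : ℕ → ℝ) (q A : ℝ) : Prop :=
  ∀ ε : ℝ, 0 < ε → ∀ (Na : ℕ) (M0 : ℝ) (M : ℕ), ∃ Cn : ℝ, 1 ≤ Cn ∧
  ∀ h g R D, St B q Na M0 (1/2) h g R D → ∀ (L : Lev) (Cn' : ℝ), LevOk q A (1/2) Cn' B M h g R L →
    36 ≤ L.r → ∀ r' : ℝ, R ^ (1/2 : ℝ) ≤ r' → r' ≤ L.r → ∀ (na : ℕ) (aux : Aux), 1 ≤ na →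
      (∀ z b m y, aux z b m y < na) → (∀ z b m, Measurable (aux z b m)) →
      ∃ L' : Lev, L'.r = r' ∧ LevOk q A (1/2) Cn B M h g R L' ∧ Next h L L' aux ∧
        L'.nb = L.n * na ∧ (∀ k, L'.ac k < na) ∧ (L'.n : ℝ) ≤ Cn * R ^ ε * L'.nb

/-! ### inequalities -/

/-- the common bound of the numbers of labels and classes of a level. -/
def Lev.Le (L : Lev) (ν : ℝ) : Prop := (L.n : ℝ) ≤ ν ∧ (L.nb : ℝ) ≤ ν

/-- **ROOTP** (639): bounds by the root, first form (`LB c`, all labels), second form (`END β`,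
narrow labels). -/
def ROOTP (B : ℕ → ℝ) (q A : ℝ) : Prop := ∃ K : ℕ, ∀ c : ℝ, 0 ≤ c → LB B q 1 c →
  ∀ β : ℝ, 0 ≤ β → END B q β → ∀ ε : ℝ, 0 < ε → ∀ (Na : ℕ) (M0 : ℝ) (M : ℕ) (Cn : ℝ), 1 ≤ Cn →
  ∃ C : ℝ, 0 ≤ C ∧
  ∀ h g R D, St B q Na M0 (1/2) h g R D → ∀ L : Lev, LevOk q A (1/2) Cn B M h g R L →
    L.r ≤ R ^ (1 - ε) → ∀ ν : ℝ, L.Le ν → ∀ k < L.n,
      L.S h g k ≤ ENNReal.ofReal (C * ν ^ K * R ^ (2 * ε) *
        (max 1 (R / ((L.s k).1 * L.r) ^ 2)) ^ (c / 2) * SS g R D) ∧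
      L.S h g k ≤ ENNReal.ofReal (C * ν ^ K * R ^ (2 * ε) *
        ((L.s k).2 ^ 2 * R) ^ (β / 2) * SS g R D)

/-- **GENP** (639): one step of the chain. -/
def GENP (B : ℕ → ℝ) (q A : ℝ) : Prop := ∃ K : ℕ, ∀ c : ℝ, 0 ≤ c → LB B q 1 c →
  ∀ ε : ℝ, 0 < ε → ∀ (Na : ℕ) (M0 T : ℝ), ∃ M1 : ℕ, ∀ M : ℕ, M1 ≤ M → ∀ Cn : ℝ, 1 ≤ Cn →
  ∃ C : ℝ, 0 ≤ C ∧
  ∀ h g R D, St B q Na M0 (1/2) h g R D → ∀ (L L' : Lev) (aux : Aux),
    LevOk q A (1/2) Cn B M h g R L → LevOk q A (1/2) Cn B M h g R L' → Next h L L' aux →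
    36 ≤ L.r → A * L'.r ≤ L.r → L'.r ≤ L.r ^ (1 - ε) → ∀ ν : ℝ, 1 ≤ ν → L.Le ν → L'.Le ν →
    ∀ k < L'.n,
      L'.S h g k ≤ ENNReal.ofReal (C * ν ^ K * R ^ (2 * ε) *
          (max 1 (L.r / ((L'.s k).1 * L'.r) ^ 2)) ^ (c / 2)) * L.S h g (L'.par k) +
        ENNReal.ofReal (C * ν ^ K * R ^ (-T) * SS g R D)

/-- **FINP** (323): the last step, arbitrary plates of radius `r`. -/
def FINP (B : ℕ → ℝ) (q A : ℝ) : Prop := ∃ K : ℕ, ∀ c : ℝ, 0 ≤ c → LB B q 1 c →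
  ∀ ε : ℝ, 0 < ε → ∀ (Na : ℕ) (M0 : ℝ), ∃ M1 : ℕ, ∀ M : ℕ, M1 ≤ M → ∀ Cn : ℝ, 1 ≤ Cn →
  ∃ C : ℝ, 0 ≤ C ∧
  ∀ h g R D, St B q Na M0 (1/2) h g R D → ∀ L : Lev, LevOk q A (1/2) Cn B M h g R L →
    36 ≤ L.r → ∀ ν : ℝ, 1 ≤ ν → L.Le ν → ∀ r s1 s2 : ℝ, R ^ (1/2 : ℝ) ≤ r → A * r ≤ L.r →
      r ≤ L.r ^ (1 - ε) → Sd r s1 s2 →
      ENNReal.ofReal (s2 ^ (-q / 2)) * SIG A r s1 s2 h g R ≤
        ENNReal.ofReal (C * ν ^ K * R ^ (2 * ε) * (L.r / r) ^ (c / 2)) *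
          ∑ k ∈ Finset.range L.n, L.S h g k + ENNReal.ofReal (C * ν ^ K * SS g R D)

/-! ### the slab step -/

/-- a class functional: auxiliary classes of the next level, computed from `h, g, R`, the ratio `dl`,
the parent level and the new radius. -/
abbrev AuxF := (E2 → ℝ) → (E2 → ℂ) → ℝ → ℝ → Lev → ℝ → Aux

/-- a label with sides `s1 ≤ s2` is good at level `r`: thin (margin `X ^ δ`) and wide (margin
`X ^ Cw`), `X = dl⁻¹`. -/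
def Good (dl δ Cw r s1 s2 : ℝ) : Prop :=
  s1 ≤ dl ^ (-δ) * r ^ (-(1/2) : ℝ) ∧ dl ^ (-Cw) * r ^ (-(1/2) : ℝ) ≤ s2

/-- **STEPP** (slab step, doc 1979 sec. 4, 5): there is a width margin `Cw` such that for every `δ`,
`ε` there are a class functional `𝒜 < na R`, a potential `pv` and a set `tn` of tiny auxiliary
classes, such that (tiny) tiny labels carry nothing and (step) for three consecutive levels
`L0, L1, L2` of ratio `dl` built with `𝒜` the step inequality holds for all labels `k` of `L2` such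
that `k` and its parent are good and not tiny.

Order: `𝒜`, `na`, `pv`, `tn`, `K` do not depend on `Cn`, `M`; `na R ≤ C R^η` for every `η > 0`. -/
def STEPP (B : ℕ → ℝ) (q A : ℝ) : Prop := ∃ Cw : ℝ, 1 ≤ Cw ∧
  ∀ ε : ℝ, 0 < ε → ∀ (Na : ℕ) (M0 T : ℝ),
  ∃ (K : ℕ) (na : ℝ → ℕ) (𝒜 : AuxF) (pv : ℝ → ℝ → ℕ → ℝ) (tn : ℝ → ℕ → Prop) (Cp : ℝ),
    1 ≤ Cp ∧ (∀ R, 1 ≤ na R) ∧ (∀ η : ℝ, 0 < η → ∃ C : ℝ, ∀ R, 1 ≤ R → (na R : ℝ) ≤ C * R ^ η) ∧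
    (∀ R dl a, 0 < dl → dl ≤ 1 → 1 ≤ pv R dl a ∧ pv R dl a ≤ Cp * dl ^ (-(1/2) : ℝ)) ∧
    (∀ (h : E2 → ℝ) (g : E2 → ℂ) (R D Cn : ℝ) (M : ℕ), St B q Na M0 (1/2) h g R D →
      ∀ (L : Lev) (dl r' : ℝ), LevOk q A (1/2) Cn B M h g R L → 0 < dl → dl ≤ 1 →
        R ^ (1/2 : ℝ) ≤ r' → r' ≤ L.r →
        (∀ z b m y, 𝒜 h g R dl L r' z b m y < na R) ∧
        (∀ z b m, Measurable (𝒜 h g R dl L r' z b m))) ∧
    ∃ M1 : ℕ, ∀ M : ℕ, M1 ≤ M → ∀ Cn : ℝ, 1 ≤ Cn → ∃ C : ℝ, 1 ≤ C ∧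
    -- (tiny)
    (∀ h g R D, St B q Na M0 (1/2) h g R D → ∀ dl, 0 < dl → dl ≤ 1 → ∀ L L' : Lev,
      LevOk q A (1/2) Cn B M h g R L → LevOk q A (1/2) Cn B M h g R L' →
      Next h L L' (𝒜 h g R dl L L'.r) → 36 ≤ L.r → A * L'.r ≤ L.r →
      ∀ ν : ℝ, 1 ≤ ν → ν ≤ R → L.Le ν → L'.Le ν → ∀ k < L'.n, tn R (L'.ac k) →
        L'.S h g k ≤ ENNReal.ofReal (C * ν ^ K * R ^ (-T) * SS g R D)) ∧
    -- (step)
    ∀ h g R D, St B q Na M0 (1/2) h g R D → ∀ dl, 0 < dl → C * dl ≤ 1 → dl ≤ R ^ (-ε) →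
      ∀ L0 L1 L2 : Lev, LevOk q A (1/2) Cn B M h g R L0 → LevOk q A (1/2) Cn B M h g R L1 →
        LevOk q A (1/2) Cn B M h g R L2 → Next h L0 L1 (𝒜 h g R dl L0 L1.r) →
        Next h L1 L2 (𝒜 h g R dl L1 L2.r) → L1.r = dl * L0.r → L2.r = dl * L1.r →
        dl ^ (-Cw) ≤ L2.r →
        ∀ ν : ℝ, 1 ≤ ν → ν ≤ R → L0.Le ν → L1.Le ν → L2.Le ν →
        ∀ k < L2.n, ¬ tn R (L2.ac k) → ¬ tn R (L1.ac (L2.par k)) →
          ∀ δ : ℝ, 0 ≤ δ →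
          Good dl δ Cw L2.r (L2.s k).1 (L2.s k).2 →
          Good dl δ Cw L1.r (L1.s (L2.par k)).1 (L1.s (L2.par k)).2 →
          L2.S h g k ≤ ENNReal.ofReal (C * ν ^ K * R ^ ε * dl ^ (-(Cw * δ)) *
              ((pv R dl (L1.ac (L2.par k)) / pv R dl (L2.ac k)) ^ (1/2 : ℝ) +
                dl ^ (1/2 : ℝ))) * L1.S h g (L2.par k) +
            ENNReal.ofReal (C * ν ^ K * R ^ (-T) * SS g R D)

end Crest.Agent.R138.Gl210
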