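import Mathlib
import Crest.Agent.R138.GrDef_63
import Crest.Agent.R138.Tub3_70

/-!
# Continuous half of the shell: cells, floors, pointwise bound
-/

set_option autoImplicit false

open MeasureTheory
open scoped ENNReal

namespace Crest.Agent.R138.Gr63

open Crest.Agent.R138.Defs (E2)

theorem vol_line {N : ℕ} (hN : 1 ≤ N) (j : ℤ) :
    volume {z : ℝ | ⌊(N : ℝ) * z⌋ = j} ≤ ENNReal.ofReal (1 / (N : ℝ)) := by
  have hN' : (0 : ℝ) < N := by exact_mod_cast hN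
  have hsub : {z : ℝ | ⌊(N : ℝ) * z⌋ = j} ⊆ Set.Icc ((j : ℝ) / N) ((j + 1) / N) := by
    intro z hz
    simp only [Set.mem_ofPred_eq] at hz
    have h1 := Int.floor_le ((N : ℝ) * z)
    have h2 := Int.lt_floor_add_one ((N : ℝ) * z)
    rw [hz] at h1 h2
    constructor
    · rw [div_le_iff₀ hN']; linarith
    · rw [le_div_iff₀ hN']; linarith
  refine (measure_mono hsub).trans ?_
  rw [Real.volume_Icc]
  apply ENNReal.ofReal_le_ofReal
  rw [← sub_div]; ring_nf; rfl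

theorem vol_cell {N : ℕ} (hN : 1 ≤ N) (m : ℤ × ℤ) :
    volume {x : E2 | ⌊(N : ℝ) * x 0⌋ = m.1 ∧ ⌊(N : ℝ) * x 1⌋ = m.2} ≤
      ENNReal.ofReal ((1 / (N : ℝ)) ^ 2) := by
  have hN' : (0 : ℝ) < N := by exact_mod_cast hN
  set S : Set (Fin 2 → ℝ) := Set.Icc ![(m.1 : ℝ) / N, (m.2 : ℝ) / N]
    ![((m.1 : ℝ) + 1) / N, ((m.2 : ℝ) + 1) / N] with hS
  have hsub : {x : E2 | ⌊(N : ℝ) * x 0⌋ = m.1 ∧ ⌊(N : ℝ) * x 1⌋ = m.2} ⊆
      (MeasurableEquiv.toLp 2 (Fin 2 → ℝ)).symm ⁻¹' S := by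
    intro x hx
    obtain ⟨h0, h1⟩ := hx
    have a1 := Int.floor_le ((N : ℝ) * x 0)
    have a2 := Int.lt_floor_add_one ((N : ℝ) * x 0)
    have b1 := Int.floor_le ((N : ℝ) * x 1)
    have b2 := Int.lt_floor_add_one ((N : ℝ) * x 1)
    rw [h0] at a1 a2
    rw [h1] at b1 b2
    simp only [Set.mem_preimage, hS, Set.mem_Icc, Pi.le_def, Fin.forall_fin_two]
    refine ⟨⟨?_, ?_⟩, ⟨?_, ?_⟩⟩
    · show (m.1 : ℝ) / N ≤ x 0
      rw [div_le_iff₀ hN']; linarith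
    · show (m.2 : ℝ) / N ≤ x 1
      rw [div_le_iff₀ hN']; linarith
    · show x 0 ≤ ((m.1 : ℝ) + 1) / N
      rw [le_div_iff₀ hN']; linarith
    · show x 1 ≤ ((m.2 : ℝ) + 1) / N
      rw [le_div_iff₀ hN']; linarith
  refine (measure_mono hsub).trans ?_
  rw [(EuclideanSpace.volume_preserving_symm_measurableEquiv_toLp (Fin 2)).measure_preimage
    (measurableSet_Icc.nullMeasurableSet)]
  rw [Real.volume_Icc_pi, Fin.prod_univ_two]
  simp only [Matrix.cons_val_zero, Matrix.cons_val_one]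
  rw [← ENNReal.ofReal_mul (by
    rw [← sub_div]; apply div_nonneg _ hN'.le; linarith)]
  apply ENNReal.ofReal_le_ofReal
  apply le_of_eq
  rw [← sub_div, ← sub_div]
  ring

theorem cw_nonneg {N : ℕ} {s : Finset GLine} {A : GLine → ℝ} (hA : ∀ l ∈ s, 0 ≤ A l)
    (q : (ℤ × ℤ) × ℤ) : 0 ≤ cw N s A q := by
  unfold cw
  exact Finset.sum_nonneg fun l hl => hA l (Finset.mem_filter.mp hl).1

theorem cw_eq_zero {N : ℕ} {s : Finset GLine} {A : GLine → ℝ} {q : (ℤ × ℤ) × ℤ}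
    (hj : q.2 ∈ Finset.Icc (-(N : ℤ)) N) (hq : q ∉ cells N s) : cw N s A q = 0 := by
  classical
  unfold cw
  apply Finset.sum_eq_zero
  intro l hl
  exfalso
  obtain ⟨h1, h2⟩ := Finset.mem_filter.mp hl
  apply hq
  unfold cells
  rw [Finset.mem_image]
  refine ⟨(l, q.2), Finset.mem_product.mpr ⟨h1, hj⟩, ?_⟩
  simp [h2]

/-- the grid line of a real line. -/
noncomputable def rl (N : ℕ) (p v : E2) : GLine :=
  ((⌊(N : ℝ) * p 0⌋, ⌊(N : ℝ) * p 1⌋), (⌊(N : ℝ) * v 0⌋, ⌊(N : ℝ) * v 1⌋))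

theorem floor_close {a b : ℝ} {m : ℤ} (h : |a - b| ≤ m) : |⌊a⌋ - ⌊b⌋| ≤ m := by
  rw [abs_le] at *
  have h1 := Int.floor_le a
  have h2 := Int.lt_floor_add_one a
  have h3 := Int.floor_le b
  have h4 := Int.lt_floor_add_one b
  constructor
  · have : (⌊b⌋ : ℝ) < ⌊a⌋ + 1 + m := by linarith [h.1]
    have : ⌊b⌋ < ⌊a⌋ + 1 + m := by exact_mod_cast this
    omega
  · have : (⌊a⌋ : ℝ) < ⌊b⌋ + 1 + m := by linarith [h.2]
    have : ⌊a⌋ < ⌊b⌋ + 1 + m := by exact_mod_cast this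
    omega

/-- one coordinate of the rounding. -/
theorem round1 {N : ℕ} (hN : 1 ≤ N) {x p v z δ : ℝ} (hδ : δ ≤ 2 / N) (hz : |z| ≤ 1)
    (hp : 0 ≤ p ∧ p < 1) (hv : 0 ≤ v ∧ v < 1) (h : |x - p - z * v| ≤ δ) :
    |⌊(N : ℝ) * x⌋ - ⌊(⌊(N : ℝ) * p⌋ : ℝ) + ⌊(N : ℝ) * v⌋ * (⌊(N : ℝ) * z⌋ : ℝ) / N⌋| ≤ 5 := by
  have hN' : (0 : ℝ) < N := by exact_mod_cast hN
  apply floor_close
  push_cast
  set a : ℝ := ((⌊(N : ℝ) * p⌋ : ℤ) : ℝ)
  set c : ℝ := ((⌊(N : ℝ) * v⌋ : ℤ) : ℝ)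
  set j : ℝ := ((⌊(N : ℝ) * z⌋ : ℤ) : ℝ)
  have ha1 : a ≤ N * p := Int.floor_le _
  have ha2 : N * p < a + 1 := Int.lt_floor_add_one _
  have hc1 : c ≤ N * v := Int.floor_le _
  have hc2 : N * v < c + 1 := Int.lt_floor_add_one _
  have hj1 : j ≤ N * z := Int.floor_le _
  have hj2 : N * z < j + 1 := Int.lt_floor_add_one _
  have hc0 : 0 ≤ c := by
    have h1 : (0 : ℤ) ≤ ⌊(N : ℝ) * v⌋ := Int.floor_nonneg.mpr (mul_nonneg hN'.le hv.1)
    have h2 : (0 : ℝ) ≤ ((⌊(N : ℝ) * v⌋ : ℤ) : ℝ) := by exact_mod_cast h1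
    exact h2
  have hcN : c ≤ N := by nlinarith [hv.2]
  have e1 : |(N : ℝ) * x - N * p - N * z * v| ≤ 2 := by
    have : (N : ℝ) * x - N * p - N * z * v = N * (x - p - z * v) := by ring
    rw [this, abs_mul, abs_of_pos hN']
    calc (N : ℝ) * |x - p - z * v| ≤ N * (2 / N) :=
          mul_le_mul_of_nonneg_left (h.trans hδ) hN'.le
      _ = 2 := by field_simp
  have e2 : |(N : ℝ) * p - a| ≤ 1 := by rw [abs_le]; constructor <;> linarith
  have e3 : |(N : ℝ) * z * v - c * j / N| ≤ 2 := by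
    have : (N : ℝ) * z * v - c * j / N = z * (N * v - c) + (c / N) * (N * z - j) := by
      field_simp; ring
    rw [this]
    have t1 : |z * (N * v - c)| ≤ 1 := by
      rw [abs_mul]
      have : |(N : ℝ) * v - c| ≤ 1 := by rw [abs_le]; constructor <;> linarith
      calc |z| * |(N : ℝ) * v - c| ≤ 1 * 1 := by
            apply mul_le_mul hz this (abs_nonneg _) (by norm_num)
        _ = 1 := by norm_num
    have t2 : |(c / N) * (N * z - j)| ≤ 1 := by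
      rw [abs_mul]
      have u1 : |(N : ℝ) * z - j| ≤ 1 := by rw [abs_le]; constructor <;> linarith
      have u2 : |c / (N : ℝ)| ≤ 1 := by
        rw [abs_of_nonneg (div_nonneg hc0 hN'.le), div_le_one hN']; exact hcN
      calc |c / (N : ℝ)| * |(N : ℝ) * z - j| ≤ 1 * 1 := by
            apply mul_le_mul u2 u1 (abs_nonneg _) (by norm_num)
        _ = 1 := by norm_num
    exact (abs_add_le _ _).trans (by linarith)
  have : (N : ℝ) * x - (a + c * j / N) =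
      (N * x - N * p - N * z * v) + (N * p - a) + (N * z * v - c * j / N) := by ring
  rw [this]
  calc _ ≤ |(N : ℝ) * x - N * p - N * z * v + (N * p - a)| + |(N : ℝ) * z * v - c * j / N| :=
        abs_add_le _ _
    _ ≤ (|(N : ℝ) * x - N * p - N * z * v| + |(N : ℝ) * p - a|) + |(N : ℝ) * z * v - c * j / N| := by
        gcongr; exact abs_add_le _ _
    _ ≤ 5 := by linarith

/-- the cell of the rounded line is near the cell of the point. -/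
theorem cell_near {N : ℕ} (hN : 1 ≤ N) {x p v : E2} {z δ : ℝ} (hδ : δ ≤ 2 / N) (hz : |z| ≤ 1)
    (hp : ∀ k, 0 ≤ p k ∧ p k < 1) (hv : ∀ k, 0 ≤ v k ∧ v k < 1) (h : ‖x - p - z • v‖ ≤ δ) :
    ∃ e ∈ (Finset.Icc (-5 : ℤ) 5) ×ˢ (Finset.Icc (-5 : ℤ) 5),
      cell N (rl N p v) ⌊(N : ℝ) * z⌋ = (⌊(N : ℝ) * x 0⌋ + e.1, ⌊(N : ℝ) * x 1⌋ + e.2) := by
  have hk : ∀ k : Fin 2, |x k - p k - z * v k| ≤ δ := by
    intro k
    have := PiLp.norm_apply_le (x - p - z • v) k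
    simp only [PiLp.sub_apply, PiLp.smul_apply, smul_eq_mul, Real.norm_eq_abs] at this
    exact this.trans h
  have h0 := round1 hN hδ hz (hp 0) (hv 0) (hk 0)
  have h1 := round1 hN hδ hz (hp 1) (hv 1) (hk 1)
  refine ⟨((cell N (rl N p v) ⌊(N : ℝ) * z⌋).1 - ⌊(N : ℝ) * x 0⌋,
    (cell N (rl N p v) ⌊(N : ℝ) * z⌋).2 - ⌊(N : ℝ) * x 1⌋), ?_, ?_⟩
  · rw [abs_le] at h0 h1
    simp only [Finset.mem_product, Finset.mem_Icc, cell, rl]
    refine ⟨⟨?_, ?_⟩, ⟨?_, ?_⟩⟩ <;> omega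
  · ext <;> simp

end Crest.Agent.R138.Gr63
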