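import Mathlib
import Crest.Agent.R138.Gr1_63

/-!
# Continuous half of the shell: integral of the cell sums, plank covering
-/

set_option autoImplicit false

open MeasureTheory
open scoped ENNReal

namespace Crest.Agent.R138.Gr63

open Crest.Agent.R138.Defs (E2)

theorem rl_bd {N : ℕ} (hN : 1 ≤ N) {p v : E2} (hp : ∀ k, 0 ≤ p k ∧ p k < 1)
    (hv : ∀ k, 0 ≤ v k ∧ v k < 1) : Bd N (rl N p v) := by
  have hN' : (0 : ℝ) < N := by exact_mod_cast hN
  have key : ∀ x : ℝ, 0 ≤ x ∧ x < 1 → |⌊(N : ℝ) * x⌋| ≤ (N : ℤ) := by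
    intro x hx
    rw [abs_of_nonneg (Int.floor_nonneg.mpr (mul_nonneg hN'.le hx.1))]
    have : (⌊(N : ℝ) * x⌋ : ℝ) ≤ N := (Int.floor_le _).trans (by nlinarith [hx.2])
    exact_mod_cast this
  exact ⟨key _ (hp 0), key _ (hp 1), key _ (hv 0), key _ (hv 1)⟩

open Classical in
/-- pointwise bound of the tube sum by the cell weights. -/
theorem point_bound {ι : Type} {N : ℕ} (hN : 1 ≤ N) (s : Finset ι) (p v : ι → E2) (a : ι → ℝ)
    (ha : ∀ i ∈ s, 0 ≤ a i) {δ : ℝ} (hδ : δ ≤ 2 / N)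
    (hp : ∀ i ∈ s, ∀ k, 0 ≤ p i k ∧ p i k < 1) (hv : ∀ i ∈ s, ∀ k, 0 ≤ v i k ∧ v i k < 1)
    {z : ℝ} (hz : |z| ≤ 1) (x : E2) :
    (∑ i ∈ s, if ‖x - p i - z • v i‖ ≤ δ then ENNReal.ofReal (a i) else 0) ≤
      ∑ e ∈ (Finset.Icc (-5 : ℤ) 5) ×ˢ (Finset.Icc (-5 : ℤ) 5),
        ENNReal.ofReal (cw N (s.image fun i => rl N (p i) (v i))
          (fun l => ∑ i ∈ s.filter (fun i => rl N (p i) (v i) = l), a i)
          ((⌊(N : ℝ) * x 0⌋ + e.1, ⌊(N : ℝ) * x 1⌋ + e.2), ⌊(N : ℝ) * z⌋)) := by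
  set E := (Finset.Icc (-5 : ℤ) 5) ×ˢ (Finset.Icc (-5 : ℤ) 5) with hE
  -- value of the cell weight
  have hcw : ∀ q : (ℤ × ℤ) × ℤ, cw N (s.image fun i => rl N (p i) (v i))
      (fun l => ∑ i ∈ s.filter (fun i => rl N (p i) (v i) = l), a i) q =
      ∑ i ∈ s.filter (fun i => cell N (rl N (p i) (v i)) q.2 = q.1), a i := by
    intro q
    unfold cw
    have h := Finset.sum_fiberwise_of_maps_to (s := s.filter
      (fun i => cell N (rl N (p i) (v i)) q.2 = q.1))
      (t := (s.image fun i => rl N (p i) (v i)).filter (fun l => cell N l q.2 = q.1))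
      (g := fun i => rl N (p i) (v i)) (f := a) ?_
    · rw [← h]
      apply Finset.sum_congr rfl
      intro l hl
      apply Finset.sum_congr _ (fun _ _ => rfl)
      ext i
      simp only [Finset.mem_filter]
      constructor
      · rintro ⟨h1, h2⟩
        refine ⟨⟨h1, ?_⟩, h2⟩
        rw [h2]; exact (Finset.mem_filter.mp hl).2
      · rintro ⟨⟨h1, _⟩, h2⟩
        exact ⟨h1, h2⟩
    · intro i hi
      obtain ⟨h1, h2⟩ := Finset.mem_filter.mp hi
      exact Finset.mem_filter.mpr ⟨Finset.mem_image.mpr ⟨i, h1, rfl⟩, h2⟩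
  have step : ∀ i ∈ s, (if ‖x - p i - z • v i‖ ≤ δ then ENNReal.ofReal (a i) else 0) ≤
      ∑ e ∈ E, if cell N (rl N (p i) (v i)) ⌊(N : ℝ) * z⌋ =
        (⌊(N : ℝ) * x 0⌋ + e.1, ⌊(N : ℝ) * x 1⌋ + e.2) then ENNReal.ofReal (a i) else 0 := by
    intro i hi
    split_ifs with h
    · obtain ⟨e, he, h2⟩ := cell_near hN hδ hz (hp i hi) (hv i hi) h
      refine le_trans ?_ (Finset.single_le_sum (f := fun e : ℤ × ℤ =>
        if cell N (rl N (p i) (v i)) ⌊(N : ℝ) * z⌋ =
        (⌊(N : ℝ) * x 0⌋ + e.1, ⌊(N : ℝ) * x 1⌋ + e.2) then ENNReal.ofReal (a i) else 0)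
        (fun _ _ => zero_le) he)
      rw [if_pos h2]
    · exact zero_le
  refine (Finset.sum_le_sum step).trans ?_
  rw [Finset.sum_comm]
  apply Finset.sum_le_sum
  intro e he
  rw [hcw, ENNReal.ofReal_sum_of_nonneg (fun i hi => ha i (Finset.mem_filter.mp hi).1),
    Finset.sum_filter]

open Classical in
/-- the integral of the cell weights. -/
theorem integral_cells {N : ℕ} (hN : 1 ≤ N) (s : Finset GLine) (A : GLine → ℝ)
    (e : ℤ × ℤ) :
    ∫⁻ z in Set.Icc (-1 : ℝ) 1, ∫⁻ x : E2, ENNReal.ofReal (cw N s A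
      ((⌊(N : ℝ) * x 0⌋ + e.1, ⌊(N : ℝ) * x 1⌋ + e.2), ⌊(N : ℝ) * z⌋)) ^ (3 / 2 : ℝ) ≤
    (∑ q ∈ cells N s, ENNReal.ofReal (cw N s A q) ^ (3 / 2 : ℝ)) *
      ENNReal.ofReal ((1 / (N : ℝ)) ^ 3) := by
  have hN' : (0 : ℝ) < N := by exact_mod_cast hN
  -- pointwise domination by a finite sum of indicators
  have dom : ∀ z ∈ Set.Icc (-1 : ℝ) 1, ∀ x : E2,
      ENNReal.ofReal (cw N s A
        ((⌊(N : ℝ) * x 0⌋ + e.1, ⌊(N : ℝ) * x 1⌋ + e.2), ⌊(N : ℝ) * z⌋)) ^ (3 / 2 : ℝ) ≤
      ∑ q ∈ cells N s, ENNReal.ofReal (cw N s A q) ^ (3 / 2 : ℝ) *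
        ({x : E2 | ⌊(N : ℝ) * x 0⌋ = q.1.1 - e.1 ∧ ⌊(N : ℝ) * x 1⌋ = q.1.2 - e.2}.indicator 1 x *
          {z : ℝ | ⌊(N : ℝ) * z⌋ = q.2}.indicator 1 z) := by
    intro z hz x
    set q0 : (ℤ × ℤ) × ℤ := ((⌊(N : ℝ) * x 0⌋ + e.1, ⌊(N : ℝ) * x 1⌋ + e.2), ⌊(N : ℝ) * z⌋)
      with hq0
    by_cases hq : q0 ∈ cells N s
    · refine le_trans ?_ (Finset.single_le_sum (f := fun q : (ℤ × ℤ) × ℤ =>
        ENNReal.ofReal (cw N s A q) ^ (3 / 2 : ℝ) *
        ({x : E2 | ⌊(N : ℝ) * x 0⌋ = q.1.1 - e.1 ∧ ⌊(N : ℝ) * x 1⌋ = q.1.2 - e.2}.indicator 1 x *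
          {z : ℝ | ⌊(N : ℝ) * z⌋ = q.2}.indicator 1 z)) (fun _ _ => zero_le) hq)
      have h1 : x ∈ {x : E2 | ⌊(N : ℝ) * x 0⌋ = q0.1.1 - e.1 ∧ ⌊(N : ℝ) * x 1⌋ = q0.1.2 - e.2} := by
        show _ ∧ _
        constructor <;> simp [hq0]
      have h2 : z ∈ {z : ℝ | ⌊(N : ℝ) * z⌋ = q0.2} := by
        show _ = _
        simp [hq0]
      simp only [Set.indicator_of_mem h1, Set.indicator_of_mem h2, Pi.one_apply, mul_one, le_refl]
    · have hj : q0.2 ∈ Finset.Icc (-(N : ℤ)) N := by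
        simp only [hq0, Finset.mem_Icc]
        constructor
        · rw [Int.le_floor]; push_cast; nlinarith [hz.1]
        · have : (⌊(N : ℝ) * z⌋ : ℝ) ≤ N := (Int.floor_le _).trans (by nlinarith [hz.2])
          exact_mod_cast this
      rw [cw_eq_zero hj hq]
      simp
  calc _ ≤ ∫⁻ z in Set.Icc (-1 : ℝ) 1, ∑ q ∈ cells N s,
        ENNReal.ofReal (cw N s A q) ^ (3 / 2 : ℝ) * (ENNReal.ofReal ((1 / (N : ℝ)) ^ 2) *
          {z : ℝ | ⌊(N : ℝ) * z⌋ = q.2}.indicator 1 z) := by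
        apply setLIntegral_mono' measurableSet_Icc
        intro z hz
        refine (lintegral_mono (dom z hz)).trans ?_
        rw [lintegral_finsetSum']
        · apply Finset.sum_le_sum
          intro q hq
          rw [lintegral_const_mul' _ _ (by
            apply ENNReal.rpow_ne_top_of_nonneg (by norm_num) ENNReal.ofReal_ne_top)]
          apply mul_le_mul_right
          rw [lintegral_mul_const' _ _ (by
            by_cases h : z ∈ {z : ℝ | ⌊(N : ℝ) * z⌋ = q.2}
            · simp [Set.indicator_of_mem h]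
            · simp [Set.indicator_of_notMem h])]
          apply mul_le_mul_left
          refine (lintegral_indicator_one_le _).trans ?_
          exact vol_cell hN (q.1.1 - e.1, q.1.2 - e.2)
        · intro q hq
          apply AEMeasurable.const_mul
          apply AEMeasurable.mul_const
          apply Measurable.aemeasurable
          apply Measurable.indicator measurable_one
          apply MeasurableSet.inter
          · exact (Int.measurable_floor.comp (by fun_prop)) (MeasurableSet.singleton _)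
          · exact (Int.measurable_floor.comp (by fun_prop)) (MeasurableSet.singleton _)
    _ ≤ ∑ q ∈ cells N s, ENNReal.ofReal (cw N s A q) ^ (3 / 2 : ℝ) *
        (ENNReal.ofReal ((1 / (N : ℝ)) ^ 2) * ENNReal.ofReal (1 / (N : ℝ))) := by
        refine (setLIntegral_le_lintegral _ _).trans ?_
        rw [lintegral_finsetSum']
        · apply Finset.sum_le_sum
          intro q hq
          rw [lintegral_const_mul' _ _ (by
            apply ENNReal.rpow_ne_top_of_nonneg (by norm_num) ENNReal.ofReal_ne_top)]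
          apply mul_le_mul_right
          rw [lintegral_const_mul' _ _ ENNReal.ofReal_ne_top]
          apply mul_le_mul_right
          refine (lintegral_indicator_one_le _).trans ?_
          exact vol_line hN q.2
        · intro q hq
          apply AEMeasurable.const_mul
          apply AEMeasurable.const_mul
          apply Measurable.aemeasurable
          apply Measurable.indicator measurable_one
          exact (Int.measurable_floor.comp (by fun_prop)) (MeasurableSet.singleton _)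
    _ = _ := by
        rw [Finset.sum_mul]
        apply Finset.sum_congr rfl
        intro q hq
        rw [← ENNReal.ofReal_mul (by positivity)]
        congr 2

end Crest.Agent.R138.Gr63
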