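import Mathlib
import Crest.Agent.R138.Gr2_63

/-!
# Continuous half of the shell: plank covering, `GridW → KM32`
-/

set_option autoImplicit false

open MeasureTheory
open scoped ENNReal

namespace Crest.Agent.R138.Gr63

open Crest.Agent.R138.Defs (E2)

theorem inner_b (b : OrthonormalBasis (Fin 2) ℝ E2) (i j : Fin 2) :
    inner ℝ (b i) (b j) = if i = j then (1 : ℝ) else 0 :=
  orthonormal_iff_ite.mp b.orthonormal i j

theorem aux_half {t w c d : ℝ} (h1 : c * w ≤ t) (h2 : t < (c + 1) * w) :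
    |t - (c + 1 / 2) * w * 1 - d * 0| ≤ w / 2 := by
  rw [abs_le]; constructor <;> nlinarith

theorem aux_half' {t w c d : ℝ} (h1 : c * w ≤ t) (h2 : t < (c + 1) * w) :
    |t - d * 0 - (c + 1 / 2) * w * 1| ≤ w / 2 := by
  rw [abs_le]; constructor <;> nlinarith

open Classical in
/-- covering of a slightly larger plank by planks of the given dimensions. -/
theorem plank_cover {ι : Type} (s : Finset ι) (p v : ι → E2) (a : ι → ℝ)
    (ha : ∀ i ∈ s, 0 ≤ a i) {D : ℝ} (b : OrthonormalBasis (Fin 2) ℝ E2) (w : Fin 2 → ℝ)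
    (hw : ∀ j, 0 < w j)
    (H : ∀ p0 v0 : E2, ∑ i ∈ s.filter (fun i => InPl b p0 v0 w (p i) (v i)), a i ≤ D)
    (p0 v0 : E2) :
    ∑ i ∈ s.filter (fun i => ∀ j, |inner ℝ (p i - p0) (b j)| ≤ 3 * w j ∧
      |inner ℝ (v i - v0) (b j)| ≤ 3 * w j), a i ≤ 2401 * D := by
  set T : Finset ((ℤ × ℤ) × (ℤ × ℤ)) :=
    ((Finset.Icc (-3) 3) ×ˢ (Finset.Icc (-3) 3)) ×ˢ ((Finset.Icc (-3) 3) ×ˢ (Finset.Icc (-3) 3))
    with hT
  have hTc : T.card = 2401 := by
    rw [hT]; simp [Finset.card_product]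
  set g : ι → (ℤ × ℤ) × (ℤ × ℤ) := fun i =>
    ((⌊inner ℝ (p i - p0) (b 0) / w 0⌋, ⌊inner ℝ (p i - p0) (b 1) / w 1⌋),
      (⌊inner ℝ (v i - v0) (b 0) / w 0⌋, ⌊inner ℝ (v i - v0) (b 1) / w 1⌋)) with hg
  set s' := s.filter (fun i => ∀ j, |inner ℝ (p i - p0) (b j)| ≤ 3 * w j ∧
      |inner ℝ (v i - v0) (b j)| ≤ 3 * w j) with hs'
  have fl : ∀ (x : ℝ) (j : Fin 2), |x| ≤ 3 * w j → ⌊x / w j⌋ ∈ Finset.Icc (-3 : ℤ) 3 := by
    intro x j hx
    rw [abs_le] at hx
    rw [Finset.mem_Icc]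
    constructor
    · rw [Int.le_floor, le_div_iff₀ (hw j)]; push_cast; linarith [hx.1]
    · have : (⌊x / w j⌋ : ℝ) ≤ 3 := by
        refine (Int.floor_le _).trans ?_
        rw [div_le_iff₀ (hw j)]; linarith [hx.2]
      exact_mod_cast this
  have hmaps : ∀ i ∈ s', g i ∈ T := by
    intro i hi
    obtain ⟨_, h2⟩ := Finset.mem_filter.mp hi
    rw [hT]
    exact Finset.mem_product.mpr ⟨Finset.mem_product.mpr ⟨fl _ 0 (h2 0).1, fl _ 1 (h2 1).1⟩,
      Finset.mem_product.mpr ⟨fl _ 0 (h2 0).2, fl _ 1 (h2 1).2⟩⟩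
  rw [← Finset.sum_fiberwise_of_maps_to hmaps]
  calc _ ≤ ∑ m ∈ T, D := by
        apply Finset.sum_le_sum
        intro m hm
        refine le_trans ?_ (H (p0 + ((m.1.1 + 1 / 2 : ℝ) * w 0) • b 0 +
            ((m.1.2 + 1 / 2 : ℝ) * w 1) • b 1)
          (v0 + ((m.2.1 + 1 / 2 : ℝ) * w 0) • b 0 + ((m.2.2 + 1 / 2 : ℝ) * w 1) • b 1))
        apply Finset.sum_le_sum_of_subset_of_nonneg
        · intro i hi
          obtain ⟨h1, h2⟩ := Finset.mem_filter.mp hi
          obtain ⟨h3, h4⟩ := Finset.mem_filter.mp h1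
          refine Finset.mem_filter.mpr ⟨h3, ?_⟩
          have key : ∀ (x y : E2) (c : ℤ × ℤ),
              ⌊inner ℝ (x - y) (b 0) / w 0⌋ = c.1 → ⌊inner ℝ (x - y) (b 1) / w 1⌋ = c.2 →
              ∀ j, |inner ℝ (x - (y + ((c.1 + 1 / 2 : ℝ) * w 0) • b 0 +
                ((c.2 + 1 / 2 : ℝ) * w 1) • b 1)) (b j)| ≤ w j / 2 := by
            intro x y c hc0 hc1 j
            have e0 : inner ℝ (x - (y + ((c.1 + 1 / 2 : ℝ) * w 0) • b 0 +
                ((c.2 + 1 / 2 : ℝ) * w 1) • b 1)) (b j) = inner ℝ (x - y) (b j) -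
                ((c.1 + 1 / 2 : ℝ) * w 0) * (if (0 : Fin 2) = j then (1 : ℝ) else 0) -
                ((c.2 + 1 / 2 : ℝ) * w 1) * (if (1 : Fin 2) = j then (1 : ℝ) else 0) := by
              rw [← inner_b b 0 j, ← inner_b b 1 j]
              simp only [inner_sub_left, inner_add_left, real_inner_smul_left]
              ring
            rw [e0]
            have hj : j = 0 ∨ j = 1 := by
              rcases j with ⟨j, hj⟩
              interval_cases j
              · left; rfl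
              · right; rfl
            rcases hj with rfl | rfl
            · have h5 := Int.floor_le (inner ℝ (x - y) (b 0) / w 0)
              have h6 := Int.lt_floor_add_one (inner ℝ (x - y) (b 0) / w 0)
              rw [hc0, le_div_iff₀ (hw 0)] at h5
              rw [hc0, div_lt_iff₀ (hw 0)] at h6
              rw [if_pos rfl, if_neg (show ¬ ((1 : Fin 2) = 0) from by decide)]
              exact aux_half h5 h6
            · have h5 := Int.floor_le (inner ℝ (x - y) (b 1) / w 1)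
              have h6 := Int.lt_floor_add_one (inner ℝ (x - y) (b 1) / w 1)
              rw [hc1, le_div_iff₀ (hw 1)] at h5
              rw [hc1, div_lt_iff₀ (hw 1)] at h6
              rw [if_pos rfl, if_neg (show ¬ ((0 : Fin 2) = 1) from by decide)]
              exact aux_half' h5 h6
          have hm1 : (g i).1 = m.1 := by rw [h2]
          have hm2 : (g i).2 = m.2 := by rw [h2]
          intro z hz j
          have k1 := key (p i) p0 m.1 (by rw [← hm1]) (by rw [← hm1]) j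
          have k2 := key (v i) v0 m.2 (by rw [← hm2]) (by rw [← hm2]) j
          rw [inner_add_left, real_inner_smul_left]
          refine (abs_add_le _ _).trans ?_
          rw [abs_mul]
          have : |z| * |inner ℝ (v i - (v0 + ((m.2.1 + 1 / 2 : ℝ) * w 0) • b 0 +
              ((m.2.2 + 1 / 2 : ℝ) * w 1) • b 1)) (b j)| ≤ 1 * (w j / 2) :=
            mul_le_mul hz k2 (abs_nonneg _) (by norm_num)
          linarith
        · intro i hi _
          exact ha i (Finset.mem_filter.mp hi).1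
    _ = 2401 * D := by rw [Finset.sum_const, hTc, nsmul_eq_mul]; norm_num

theorem norm_le_abs_add (x : E2) : ‖x‖ ≤ |x 0| + |x 1| := by
  rw [EuclideanSpace.norm_eq, Fin.sum_univ_two]
  apply Real.sqrt_le_iff.mpr
  constructor
  · positivity
  · simp only [Real.norm_eq_abs]
    nlinarith [abs_nonneg (x 0), abs_nonneg (x 1)]

/-- the rounded line in a plank: the line itself is in the enlarged box. -/
theorem box_of_rounded {N : ℕ} (hN : 1 ≤ N) (p v : E2) (b : OrthonormalBasis (Fin 2) ℝ E2)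
    (p0 v0 : E2) (w : Fin 2 → ℝ) (hw : ∀ j, 1 / (N : ℝ) ≤ w j)
    (h : InPl b p0 v0 w (gp N (rl N p v)) (gv N (rl N p v))) (j : Fin 2) :
    |inner ℝ (p - p0) (b j)| ≤ 3 * w j ∧ |inner ℝ (v - v0) (b j)| ≤ 3 * w j := by
  have hN' : (0 : ℝ) < N := by exact_mod_cast hN
  have fr : ∀ x : ℝ, |x - (⌊(N : ℝ) * x⌋ : ℝ) / N| ≤ 1 / N := by
    intro x
    have h1 := Int.floor_le ((N : ℝ) * x)
    have h2 := Int.lt_floor_add_one ((N : ℝ) * x)
    rw [abs_le]
    constructor
    · have : (⌊(N : ℝ) * x⌋ : ℝ) / N ≤ x := by rw [div_le_iff₀ hN']; linarith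
      have : 0 < 1 / (N : ℝ) := by positivity
      linarith
    · have : x ≤ ((⌊(N : ℝ) * x⌋ : ℝ) + 1) / N := by rw [le_div_iff₀ hN']; linarith
      rw [add_div] at this
      linarith
  have hp : ‖p - gp N (rl N p v)‖ ≤ 2 / N := by
    refine (norm_le_abs_add _).trans ?_
    have h0 := fr (p 0)
    have h1 := fr (p 1)
    have e0 : (p - gp N (rl N p v)) 0 = p 0 - (⌊(N : ℝ) * p 0⌋ : ℝ) / N := by
      simp [gp, rl]
    have e1 : (p - gp N (rl N p v)) 1 = p 1 - (⌊(N : ℝ) * p 1⌋ : ℝ) / N := by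
      simp [gp, rl]
    rw [e0, e1]
    calc _ ≤ 1 / (N : ℝ) + 1 / N := add_le_add h0 h1
      _ = 2 / N := by ring
  have hv : ‖v - gv N (rl N p v)‖ ≤ 2 / N := by
    refine (norm_le_abs_add _).trans ?_
    have h0 := fr (v 0)
    have h1 := fr (v 1)
    have e0 : (v - gv N (rl N p v)) 0 = v 0 - (⌊(N : ℝ) * v 0⌋ : ℝ) / N := by
      simp [gv, rl]
    have e1 : (v - gv N (rl N p v)) 1 = v 1 - (⌊(N : ℝ) * v 1⌋ : ℝ) / N := by
      simp [gv, rl]
    rw [e0, e1]
    calc _ ≤ 1 / (N : ℝ) + 1 / N := add_le_add h0 h1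
      _ = 2 / N := by ring
  have hb : ‖b j‖ = 1 := b.orthonormal.1 j
  have cs : ∀ x : E2, |inner ℝ x (b j)| ≤ ‖x‖ := by
    intro x
    have := abs_real_inner_le_norm x (b j)
    rwa [hb, mul_one] at this
  have hwj := hw j
  have h2N : 2 / (N : ℝ) ≤ 2 * w j := by
    calc 2 / (N : ℝ) = 2 * (1 / N) := by ring
      _ ≤ 2 * w j := by linarith
  have q0 : |inner ℝ (gp N (rl N p v) - p0) (b j)| ≤ w j := by
    have := h 0 (by simp) j
    simpa using this
  have q1 : |inner ℝ (gp N (rl N p v) - p0) (b j) + inner ℝ (gv N (rl N p v) - v0) (b j)| ≤ w j := by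
    have := h 1 (by simp) j
    rwa [inner_add_left, one_smul] at this
  have q2 : |inner ℝ (gp N (rl N p v) - p0) (b j) - inner ℝ (gv N (rl N p v) - v0) (b j)| ≤ w j := by
    have := h (-1) (by simp) j
    rw [inner_add_left, real_inner_smul_left] at this
    rwa [neg_one_mul, ← sub_eq_add_neg] at this
  have q3 : |inner ℝ (gv N (rl N p v) - v0) (b j)| ≤ w j := by
    rw [abs_le] at *
    constructor <;> linarith [q1.1, q1.2, q2.1, q2.2]
  constructor
  · have : p - p0 = (p - gp N (rl N p v)) + (gp N (rl N p v) - p0) := by abel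
    rw [this, inner_add_left]
    refine (abs_add_le _ _).trans ?_
    have := cs (p - gp N (rl N p v))
    linarith
  · have : v - v0 = (v - gv N (rl N p v)) + (gv N (rl N p v) - v0) := by abel
    rw [this, inner_add_left]
    refine (abs_add_le _ _).trans ?_
    have := cs (v - gv N (rl N p v))
    linarith

end Crest.Agent.R138.Gr63
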