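import Mathlib
import Crest.Agent.R138.Gr3_63

/-!
# Continuous half of the shell: `GridW → KM32 V`
-/

set_option autoImplicit false

open MeasureTheory
open scoped ENNReal

namespace Crest.Agent.R138.Gr63

open Crest.Agent.R138.Defs (E2)

open Classical in
/-- the grid plank hypothesis of the rounded family. -/
theorem grid_planks {ι : Type} {N : ℕ} (hN : 1 ≤ N) {δ : ℝ} (hδ0 : 0 < δ) (hδ1 : δ ≤ 1)
    (hNδ : 1 / (N : ℝ) ≤ δ) (hδN : δ ≤ 2 / N)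
    (s : Finset ι) (p v : ι → E2) (a : ι → ℝ) (ha : ∀ i ∈ s, 0 ≤ a i) {Δ : ℝ} (hΔ : 0 ≤ Δ)
    (H : ∀ (b : OrthonormalBasis (Fin 2) ℝ E2) (w : Fin 2 → ℝ) (p0 v0 : E2),
      (∀ j, δ ≤ w j ∧ w j ≤ 1) →
        (∑ i ∈ s.filter (fun i => InPl b p0 v0 w (p i) (v i)), a i) * δ ^ 2 ≤ Δ * (w 0 * w 1))
    (b : OrthonormalBasis (Fin 2) ℝ E2) (p0 v0 : E2) (w : Fin 2 → ℝ)
    (hw : ∀ j, 1 / (N : ℝ) ≤ w j ∧ w j ≤ 1) :
    ∑ l ∈ (s.image fun i => rl N (p i) (v i)).filter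
      (fun l => InPl b p0 v0 w (gp N l) (gv N l)),
      (∑ i ∈ s.filter (fun i => rl N (p i) (v i) = l), a i) ≤
      (9604 * Δ) * (w 0 * w 1) * (N : ℝ) ^ 2 := by
  have hN' : (0 : ℝ) < N := by exact_mod_cast hN
  -- the sum over lines = sum over indices
  have h1 : ∑ l ∈ (s.image fun i => rl N (p i) (v i)).filter
      (fun l => InPl b p0 v0 w (gp N l) (gv N l)),
      (∑ i ∈ s.filter (fun i => rl N (p i) (v i) = l), a i) =
      ∑ i ∈ s.filter (fun i => InPl b p0 v0 w (gp N (rl N (p i) (v i)))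
        (gv N (rl N (p i) (v i)))), a i := by
    have h := Finset.sum_fiberwise_of_maps_to (s := s.filter (fun i =>
        InPl b p0 v0 w (gp N (rl N (p i) (v i))) (gv N (rl N (p i) (v i)))))
      (t := (s.image fun i => rl N (p i) (v i)).filter
        (fun l => InPl b p0 v0 w (gp N l) (gv N l)))
      (g := fun i => rl N (p i) (v i)) (f := a) ?_
    · rw [← h]
      apply Finset.sum_congr rfl
      intro l hl
      apply Finset.sum_congr _ (fun _ _ => rfl)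
      ext i
      simp only [Finset.mem_filter]
      constructor
      · rintro ⟨h1, h2⟩
        refine ⟨⟨h1, ?_⟩, h2⟩
        rw [h2]; exact (Finset.mem_filter.mp hl).2
      · rintro ⟨⟨h1, _⟩, h2⟩
        exact ⟨h1, h2⟩
    · intro i hi
      obtain ⟨h1, h2⟩ := Finset.mem_filter.mp hi
      exact Finset.mem_filter.mpr ⟨Finset.mem_image.mpr ⟨i, h1, rfl⟩, h2⟩
  rw [h1]
  set w' : Fin 2 → ℝ := fun j => max (w j) δ with hw'
  have w'1 : ∀ j, δ ≤ w' j ∧ w' j ≤ 1 := fun j => ⟨le_max_right _ _, max_le (hw j).2 hδ1⟩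
  have w'0 : ∀ j, 0 < w' j := fun j => hδ0.trans_le (w'1 j).1
  have ww' : ∀ j, w' j ≤ 2 * w j := by
    intro j
    apply max_le
    · have : 0 < 1 / (N : ℝ) := by positivity
      linarith [(hw j).1]
    · have : 2 / (N : ℝ) = 2 * (1 / N) := by ring
      linarith [(hw j).1]
  have cov := plank_cover s p v a ha (D := Δ * (w' 0 * w' 1) / δ ^ 2) b w' w'0 (by
    intro p0 v0
    rw [le_div_iff₀ (by positivity)]
    exact H b w' p0 v0 w'1) p0 v0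
  refine le_trans ?_ (cov.trans ?_)
  · apply Finset.sum_le_sum_of_subset_of_nonneg
    · intro i hi
      obtain ⟨h1, h2⟩ := Finset.mem_filter.mp hi
      refine Finset.mem_filter.mpr ⟨h1, fun j => ?_⟩
      have := box_of_rounded hN (p i) (v i) b p0 v0 w (fun j => (hw j).1) h2 j
      have h3 : w j ≤ w' j := le_max_left _ _
      exact ⟨this.1.trans (by linarith), this.2.trans (by linarith)⟩
    · intro i hi _
      exact ha i (Finset.mem_filter.mp hi).1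
  · have e1 : 1 / δ ^ 2 ≤ (N : ℝ) ^ 2 := by
      rw [div_le_iff₀ (by positivity), ← mul_pow]
      have : 1 ≤ (N : ℝ) * δ := by
        rw [div_le_iff₀ hN'] at hNδ; linarith
      exact one_le_pow₀ this
    have e2 : w' 0 * w' 1 ≤ 4 * (w 0 * w 1) := by
      calc w' 0 * w' 1 ≤ (2 * w 0) * (2 * w 1) :=
            mul_le_mul (ww' 0) (ww' 1) (w'0 1).le (by
              have := w'0 0; have := ww' 0; linarith)
        _ = 4 * (w 0 * w 1) := by ring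
    have e3 : 0 ≤ w 0 * w 1 := by
      apply mul_nonneg
      · have : 0 < 1 / (N : ℝ) := by positivity
        linarith [(hw 0).1]
      · have : 0 < 1 / (N : ℝ) := by positivity
        linarith [(hw 1).1]
    calc 2401 * (Δ * (w' 0 * w' 1) / δ ^ 2) = (2401 * Δ) * (w' 0 * w' 1) * (1 / δ ^ 2) := by ring
      _ ≤ (2401 * Δ) * (4 * (w 0 * w 1)) * (N : ℝ) ^ 2 := by
          apply mul_le_mul _ e1 (by positivity) (by positivity)
          apply mul_le_mul_of_nonneg_left e2 (by positivity)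
      _ = _ := by ring

theorem meas_floor1 (N : ℕ) (F : ℤ → ℝ≥0∞) : Measurable fun z : ℝ => F ⌊(N : ℝ) * z⌋ := by
  have h0 : Measurable (fun z : ℝ => ⌊(N : ℝ) * z⌋) := Int.measurable_floor.comp (by fun_prop)
  exact (Measurable.of_discrete (f := F)).comp h0

theorem meas_floor2 (N : ℕ) (F : ℤ → ℤ → ℝ≥0∞) :
    Measurable fun x : E2 => F ⌊(N : ℝ) * x 0⌋ ⌊(N : ℝ) * x 1⌋ := by
  have h0 : Measurable (fun x : E2 => ⌊(N : ℝ) * x 0⌋) := Int.measurable_floor.comp (by fun_prop)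
  have h1 : Measurable (fun x : E2 => ⌊(N : ℝ) * x 1⌋) := Int.measurable_floor.comp (by fun_prop)
  exact (Measurable.of_discrete (f := fun y : ℤ × ℤ => F y.1 y.2)).comp (h0.prodMk h1)

set_option maxHeartbeats 1000000 in
open Classical in
/-- the unit case. -/
theorem unit_case (hG : GridW) (ε : ℝ) (hε : 0 < ε) : ∃ C : ℝ, 0 ≤ C ∧ ∀ δ : ℝ, 0 < δ → δ ≤ 1 →
    ∀ (ι : Type) (s : Finset ι) (p v : ι → E2) (a : ι → ℝ), (∀ i ∈ s, 0 ≤ a i) →
      (∀ i ∈ s, ∀ k, 0 ≤ p i k ∧ p i k < 1) → (∀ i ∈ s, ∀ k, 0 ≤ v i k ∧ v i k < 1) →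
      ∀ Δ : ℝ, 0 ≤ Δ →
      (∀ (b : OrthonormalBasis (Fin 2) ℝ E2) (w : Fin 2 → ℝ) (p0 v0 : E2),
        (∀ j, δ ≤ w j ∧ w j ≤ 1) →
          (∑ i ∈ s.filter (fun i => InPl b p0 v0 w (p i) (v i)), a i) * δ ^ 2 ≤
            Δ * (w 0 * w 1)) →
      ∫⁻ z in Set.Icc (-1 : ℝ) 1, ∫⁻ x : E2,
          (∑ i ∈ s, (if ‖x - p i - z • v i‖ ≤ δ then ENNReal.ofReal (a i) else 0)) ^ (3/2 : ℝ) ≤
        ENNReal.ofReal (C * δ ^ (-ε) * Real.sqrt Δ * ((∑ i ∈ s, a i) * δ ^ 2)) := by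
  obtain ⟨CG, hCG, hG'⟩ := hG ε hε
  refine ⟨14641 * 98 * 2 ^ ε * CG, by positivity, ?_⟩
  intro δ hδ0 hδ1 ι s p v a ha hp hv Δ hΔ H
  -- choice of N
  set N : ℕ := ⌈1 / δ⌉₊ with hNdef
  have hN1 : 1 / δ ≤ N := Nat.le_ceil _
  have hN : 1 ≤ N := by
    have : (1 : ℝ) ≤ 1 / δ := by rw [le_div_iff₀ hδ0]; linarith
    have : (1 : ℝ) ≤ N := this.trans hN1
    exact_mod_cast this
  have hN' : (0 : ℝ) < N := by exact_mod_cast hN
  have hNδ : 1 / (N : ℝ) ≤ δ := by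
    rw [div_le_iff₀ hδ0] at hN1
    rw [div_le_iff₀ hN']; linarith
  have hN2 : (N : ℝ) < 1 / δ + 1 := Nat.ceil_lt_add_one (by positivity)
  have hN3 : (N : ℝ) ≤ 2 / δ := by
    have : (1 : ℝ) ≤ 1 / δ := by rw [le_div_iff₀ hδ0]; linarith
    have e : 2 / δ = 1 / δ + 1 / δ := by ring
    linarith
  have hδN : δ ≤ 2 / N := by
    rw [le_div_iff₀ hN']
    rw [le_div_iff₀ hδ0] at hN3
    linarith
  set s' := s.image fun i => rl N (p i) (v i) with hs'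
  set A : GLine → ℝ := fun l => ∑ i ∈ s.filter (fun i => rl N (p i) (v i) = l), a i with hA
  have hA0 : ∀ l ∈ s', 0 ≤ A l := fun l _ =>
    Finset.sum_nonneg fun i hi => ha i (Finset.mem_filter.mp hi).1
  have hBd : ∀ l ∈ s', Bd N l := by
    intro l hl
    obtain ⟨i, hi, rfl⟩ := Finset.mem_image.mp hl
    exact rl_bd hN (hp i hi) (hv i hi)
  have main := hG' N hN s' A (9604 * Δ) (by positivity) hA0 hBd
    (fun b p0 v0 w hw => grid_planks hN hδ0 hδ1 hNδ hδN s p v a ha hΔ H b p0 v0 w hw)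
  have sumA : ∑ l ∈ s', A l = ∑ i ∈ s, a i := by
    rw [hA]
    exact Finset.sum_fiberwise_of_maps_to (fun i hi => Finset.mem_image_of_mem _ hi) _
  rw [sumA] at main
  set E := (Finset.Icc (-5 : ℤ) 5) ×ˢ (Finset.Icc (-5 : ℤ) 5) with hE
  have hEc : E.card = 121 := by rw [hE]; simp [Finset.card_product]
  have pb : ∀ z ∈ Set.Icc (-1 : ℝ) 1, ∀ x : E2,
      (∑ i ∈ s, (if ‖x - p i - z • v i‖ ≤ δ then ENNReal.ofReal (a i) else 0)) ≤
      ∑ e ∈ E, ENNReal.ofReal (cw N s' A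
        ((⌊(N : ℝ) * x 0⌋ + e.1, ⌊(N : ℝ) * x 1⌋ + e.2), ⌊(N : ℝ) * z⌋)) :=
    fun z hz x => point_bound hN s p v a ha hδN hp hv (abs_le.mpr ⟨hz.1, hz.2⟩) x
  clear_value E A s'
  have c121 : (E.card : ℝ≥0∞) ^ (3 / 2 - 1 : ℝ) ≤ 121 := by
    rw [hEc]
    refine (ENNReal.rpow_le_rpow_of_exponent_le (z := 1) (by norm_num) (by norm_num)).trans ?_
    rw [ENNReal.rpow_one]; norm_num
  -- pointwise
  have pw : ∀ z ∈ Set.Icc (-1 : ℝ) 1, ∀ x : E2,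
      (∑ i ∈ s, (if ‖x - p i - z • v i‖ ≤ δ then ENNReal.ofReal (a i) else 0)) ^ (3/2 : ℝ) ≤
      121 * ∑ e ∈ E, ENNReal.ofReal (cw N s' A
        ((⌊(N : ℝ) * x 0⌋ + e.1, ⌊(N : ℝ) * x 1⌋ + e.2), ⌊(N : ℝ) * z⌋)) ^ (3/2 : ℝ) := by
    intro z hz x
    refine (ENNReal.rpow_le_rpow (pb z hz x) (by norm_num)).trans ?_
    refine (ENNReal.rpow_sum_le_const_mul_sum_rpow _ _ (by norm_num)).trans ?_
    exact mul_le_mul_left c121 _
  have meas : ∀ e ∈ E, ∀ z : ℝ, Measurable (fun x : E2 => ENNReal.ofReal (cw N s' A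
        ((⌊(N : ℝ) * x 0⌋ + e.1, ⌊(N : ℝ) * x 1⌋ + e.2), ⌊(N : ℝ) * z⌋)) ^ (3/2 : ℝ)) :=
    fun e _ z => meas_floor2 N (fun m n => ENNReal.ofReal (cw N s' A
        ((m + e.1, n + e.2), ⌊(N : ℝ) * z⌋)) ^ (3/2 : ℝ))
  have meas2 : ∀ e ∈ E, Measurable (fun z : ℝ => ∫⁻ x : E2, ENNReal.ofReal (cw N s' A
        ((⌊(N : ℝ) * x 0⌋ + e.1, ⌊(N : ℝ) * x 1⌋ + e.2), ⌊(N : ℝ) * z⌋)) ^ (3/2 : ℝ)) :=
    fun e _ => meas_floor1 N (fun y => ∫⁻ x : E2, ENNReal.ofReal (cw N s' A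
        ((⌊(N : ℝ) * x 0⌋ + e.1, ⌊(N : ℝ) * x 1⌋ + e.2), y)) ^ (3/2 : ℝ))
  calc _ ≤ ∫⁻ z in Set.Icc (-1 : ℝ) 1, 121 * ∑ e ∈ E, ∫⁻ x : E2, ENNReal.ofReal (cw N s' A
        ((⌊(N : ℝ) * x 0⌋ + e.1, ⌊(N : ℝ) * x 1⌋ + e.2), ⌊(N : ℝ) * z⌋)) ^ (3/2 : ℝ) := by
        apply setLIntegral_mono' measurableSet_Icc
        intro z hz
        refine (lintegral_mono (pw z hz)).trans ?_
        rw [lintegral_const_mul' _ _ (by norm_num), lintegral_finsetSum _ (fun e he => meas e he z)]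
    _ = 121 * ∑ e ∈ E, ∫⁻ z in Set.Icc (-1 : ℝ) 1, ∫⁻ x : E2, ENNReal.ofReal (cw N s' A
        ((⌊(N : ℝ) * x 0⌋ + e.1, ⌊(N : ℝ) * x 1⌋ + e.2), ⌊(N : ℝ) * z⌋)) ^ (3/2 : ℝ) := by
        rw [lintegral_const_mul' _ _ (by norm_num), lintegral_finsetSum _ (fun e he => meas2 e he)]
    _ ≤ 121 * ∑ e ∈ E, (∑ q ∈ cells N s', ENNReal.ofReal (cw N s' A q) ^ (3 / 2 : ℝ)) *
      ENNReal.ofReal ((1 / (N : ℝ)) ^ 3) := by
        apply mul_le_mul_right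
        exact Finset.sum_le_sum fun e _ => integral_cells hN s' A e
    _ = ENNReal.ofReal (14641 * ((∑ q ∈ cells N s', cw N s' A q ^ (3 / 2 : ℝ)) *
          (1 / (N : ℝ)) ^ 3)) := by
        rw [Finset.sum_const, hEc, nsmul_eq_mul]
        have e1 : ∑ q ∈ cells N s', ENNReal.ofReal (cw N s' A q) ^ (3 / 2 : ℝ) =
            ENNReal.ofReal (∑ q ∈ cells N s', cw N s' A q ^ (3 / 2 : ℝ)) := by
          rw [ENNReal.ofReal_sum_of_nonneg (fun q _ => Real.rpow_nonneg (cw_nonneg hA0 q) _)]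
          apply Finset.sum_congr rfl
          intro q _
          rw [ENNReal.ofReal_rpow_of_nonneg (cw_nonneg hA0 q) (by norm_num)]
        rw [e1, ← ENNReal.ofReal_mul (Finset.sum_nonneg fun q _ =>
          Real.rpow_nonneg (cw_nonneg hA0 q) _)]
        rw [ENNReal.ofReal_mul (show (0 : ℝ) ≤ 14641 by norm_num), ← mul_assoc]
        congr 1
        norm_num
    _ ≤ _ := by
        apply ENNReal.ofReal_le_ofReal
        have hsum : 0 ≤ ∑ i ∈ s, a i := Finset.sum_nonneg ha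
        have f1 : Real.sqrt (9604 * Δ) = 98 * Real.sqrt Δ := by
          rw [show (9604 : ℝ) * Δ = 98 ^ 2 * Δ by norm_num, Real.sqrt_mul (by positivity),
            Real.sqrt_sq (by norm_num)]
        rw [f1] at main
        have f2 : (N : ℝ) ^ ε ≤ 2 ^ ε * δ ^ (-ε) := by
          calc (N : ℝ) ^ ε ≤ (2 / δ) ^ ε := Real.rpow_le_rpow hN'.le hN3 hε.le
            _ = 2 ^ ε * δ ^ (-ε) := by
                rw [Real.div_rpow (by norm_num) hδ0.le, Real.rpow_neg hδ0.le]; rfl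
        have f3 : (N : ℝ) * (1 / (N : ℝ)) ^ 3 ≤ δ ^ 2 := by
          have : (N : ℝ) * (1 / (N : ℝ)) ^ 3 = (1 / (N : ℝ)) ^ 2 := by field_simp
          rw [this]
          exact pow_le_pow_left₀ (by positivity) hNδ 2
        calc 14641 * ((∑ q ∈ cells N s', cw N s' A q ^ (3 / 2 : ℝ)) * (1 / (N : ℝ)) ^ 3)
            ≤ 14641 * ((CG * (N : ℝ) ^ ε * (98 * Real.sqrt Δ) * N * ∑ i ∈ s, a i) *
              (1 / (N : ℝ)) ^ 3) := by gcongr
          _ = 14641 * 98 * CG * (N : ℝ) ^ ε * Real.sqrt Δ * (∑ i ∈ s, a i) *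
              (N * (1 / (N : ℝ)) ^ 3) := by ring
          _ ≤ 14641 * 98 * CG * (2 ^ ε * δ ^ (-ε)) * Real.sqrt Δ * (∑ i ∈ s, a i) * δ ^ 2 := by
              gcongr
          _ = _ := by ring

end Crest.Agent.R138.Gr63
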