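import Mathlib
import Crest.Agent.R138.Gr4_63

/-!
# Continuous half of the shell: `GridW → Tub70.KM32 V`
-/

set_option autoImplicit false

open MeasureTheory
open scoped ENNReal

namespace Crest.Agent.R138.Gr63

open Crest.Agent.R138.Defs (E2)

/-- integer vector in the plane. -/
noncomputable def iv (m : ℤ × ℤ) : E2 := WithLp.toLp 2 ![(m.1 : ℝ), (m.2 : ℝ)]

theorem iv_floor (x : E2) (k : Fin 2) :
    0 ≤ (x - iv (⌊x 0⌋, ⌊x 1⌋)) k ∧ (x - iv (⌊x 0⌋, ⌊x 1⌋)) k < 1 := by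
  have hk : k = 0 ∨ k = 1 := by
    rcases k with ⟨j, hj⟩
    interval_cases j
    · left; rfl
    · right; rfl
  rcases hk with rfl | rfl
  · have e : (x - iv (⌊x 0⌋, ⌊x 1⌋)) 0 = x 0 - ⌊x 0⌋ := by simp [iv]
    rw [e]
    have h1 := Int.floor_le (x 0)
    have h2 := Int.lt_floor_add_one (x 0)
    constructor <;> linarith
  · have e : (x - iv (⌊x 0⌋, ⌊x 1⌋)) 1 = x 1 - ⌊x 1⌋ := by simp [iv]
    rw [e]
    have h1 := Int.floor_le (x 1)
    have h2 := Int.lt_floor_add_one (x 1)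
    constructor <;> linarith

theorem floor_mem {V : ℝ} {x : E2} (hx : ‖x‖ ≤ V) (k : Fin 2) :
    ⌊x k⌋ ∈ Finset.Icc (-(⌈V⌉₊ : ℤ)) ⌈V⌉₊ := by
  have h := (PiLp.norm_apply_le x k).trans hx
  rw [Real.norm_eq_abs, abs_le] at h
  have hV : V ≤ (⌈V⌉₊ : ℝ) := Nat.le_ceil _
  rw [Finset.mem_Icc]
  constructor
  · rw [Int.le_floor]; push_cast; linarith [h.1]
  · have : (⌊x k⌋ : ℝ) ≤ (⌈V⌉₊ : ℝ) := (Int.floor_le _).trans (by linarith [h.2])
    exact_mod_cast this

theorem meas_tube {ι : Type} (S : Finset ι) (p v : ι → E2) (a : ι → ℝ) (δ : ℝ) :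
    Measurable (fun q : ℝ × E2 =>
      (∑ i ∈ S, (if ‖q.2 - p i - q.1 • v i‖ ≤ δ then ENNReal.ofReal (a i) else 0)) ^
        (3/2 : ℝ)) := by
  apply Measurable.pow_const
  apply Finset.measurable_sum
  intro i _
  apply Measurable.ite _ measurable_const measurable_const
  apply IsClosed.measurableSet
  exact isClosed_le (by fun_prop) continuous_const

theorem meas_tube_x {ι : Type} (S : Finset ι) (p v : ι → E2) (a : ι → ℝ) (δ : ℝ) (z : ℝ) :
    Measurable (fun x : E2 =>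
      (∑ i ∈ S, (if ‖x - p i - z • v i‖ ≤ δ then ENNReal.ofReal (a i) else 0)) ^
        (3/2 : ℝ)) := by
  apply Measurable.pow_const
  apply Finset.measurable_sum
  intro i _
  apply Measurable.ite _ measurable_const measurable_const
  apply IsClosed.measurableSet
  exact isClosed_le (by fun_prop) continuous_const

/-- the inner integral is translation invariant. -/
theorem shift_int {ι : Type} (S : Finset ι) (p v : ι → E2) (a : ι → ℝ) (δ : ℝ) (P Q : E2)
    (z : ℝ) :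
    ∫⁻ x : E2, (∑ i ∈ S, (if ‖x - p i - z • v i‖ ≤ δ then ENNReal.ofReal (a i) else 0)) ^
        (3/2 : ℝ) =
    ∫⁻ x : E2, (∑ i ∈ S, (if ‖x - (p i - P) - z • (v i - Q)‖ ≤ δ then
        ENNReal.ofReal (a i) else 0)) ^ (3/2 : ℝ) := by
  rw [← lintegral_add_right_eq_self (μ := (volume : Measure E2)) _ (P + z • Q)]
  apply lintegral_congr
  intro x
  have : ∀ i, x + (P + z • Q) - p i - z • v i = x - (p i - P) - z • (v i - Q) := by
    intro i
    rw [smul_sub]; abel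
  simp only [this]

theorem card_rpow (n : ℕ) : (n : ℝ≥0∞) ^ (3 / 2 - 1 : ℝ) ≤ n := by
  rcases Nat.eq_zero_or_pos n with h | h
  · rw [h]
    have : ((0 : ℕ) : ℝ≥0∞) ^ (3 / 2 - 1 : ℝ) = 0 := by
      rw [Nat.cast_zero]
      exact ENNReal.zero_rpow_of_pos (by norm_num)
    rw [this]
    exact zero_le
  · refine (ENNReal.rpow_le_rpow_of_exponent_le (z := 1) (by exact_mod_cast h)
      (by norm_num)).trans ?_
    rw [ENNReal.rpow_one]

/-- splitting in classes. -/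
theorem split_int {ι κ : Type} [DecidableEq κ] (S : Finset ι) (K : Finset κ) (g : ι → κ)
    (hg : ∀ i ∈ S, g i ∈ K) (p v : ι → E2) (a : ι → ℝ) (δ : ℝ) :
    ∫⁻ z in Set.Icc (-1 : ℝ) 1, ∫⁻ x : E2,
      (∑ i ∈ S, (if ‖x - p i - z • v i‖ ≤ δ then ENNReal.ofReal (a i) else 0)) ^ (3/2 : ℝ) ≤
    (K.card : ℝ≥0∞) * ∑ m ∈ K, ∫⁻ z in Set.Icc (-1 : ℝ) 1, ∫⁻ x : E2,
        (∑ i ∈ S.filter (fun i => g i = m),
        (if ‖x - p i - z • v i‖ ≤ δ then ENNReal.ofReal (a i) else 0)) ^ (3/2 : ℝ) := by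
  have pw : ∀ z : ℝ, ∀ x : E2,
      (∑ i ∈ S, (if ‖x - p i - z • v i‖ ≤ δ then ENNReal.ofReal (a i) else 0)) ^ (3/2 : ℝ) ≤
      (K.card : ℝ≥0∞) * ∑ m ∈ K, (∑ i ∈ S.filter (fun i => g i = m),
        (if ‖x - p i - z • v i‖ ≤ δ then ENNReal.ofReal (a i) else 0)) ^ (3/2 : ℝ) := by
    intro z x
    rw [← Finset.sum_fiberwise_of_maps_to hg]
    refine (ENNReal.rpow_sum_le_const_mul_sum_rpow _ _ (by norm_num)).trans ?_
    exact mul_le_mul_left (card_rpow _) _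
  have m1 : ∀ m : κ, Measurable (fun z : ℝ => ∫⁻ x : E2,
      (∑ i ∈ S.filter (fun i => g i = m),
        (if ‖x - p i - z • v i‖ ≤ δ then ENNReal.ofReal (a i) else 0)) ^ (3/2 : ℝ)) :=
    fun m => (meas_tube (S.filter (fun i => g i = m)) p v a δ).lintegral_prod_right'
  have m2 : ∀ (m : κ) (z : ℝ), Measurable (fun x : E2 =>
      (∑ i ∈ S.filter (fun i => g i = m),
        (if ‖x - p i - z • v i‖ ≤ δ then ENNReal.ofReal (a i) else 0)) ^ (3/2 : ℝ)) :=
    fun m z => meas_tube_x (S.filter (fun i => g i = m)) p v a δ z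
  calc _ ≤ ∫⁻ z in Set.Icc (-1 : ℝ) 1, (K.card : ℝ≥0∞) * ∑ m ∈ K, ∫⁻ x : E2,
        (∑ i ∈ S.filter (fun i => g i = m),
        (if ‖x - p i - z • v i‖ ≤ δ then ENNReal.ofReal (a i) else 0)) ^ (3/2 : ℝ) := by
        apply lintegral_mono
        intro z
        refine (lintegral_mono (pw z)).trans ?_
        rw [lintegral_const_mul' _ _ (by simp), lintegral_finsetSum _ (fun m _ => m2 m z)]
    _ = _ := by
        rw [lintegral_const_mul' _ _ (by simp), lintegral_finsetSum _ (fun m _ => m1 m)]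

open Classical in
/-- **the continuous half of the shell.** -/
theorem km32_of_gridW (hG : GridW) (V : ℝ) : Tub70.KM32 V := by
  intro ε hε
  obtain ⟨C, hC, hU⟩ := unit_case hG ε hε
  obtain ⟨M, hM⟩ : ∃ M : ℕ, M = ⌈V⌉₊ := ⟨_, rfl⟩
  obtain ⟨K, hK⟩ : ∃ K : Finset ((ℤ × ℤ) × (ℤ × ℤ)), K =
    ((Finset.Icc (-(M : ℤ)) M) ×ˢ (Finset.Icc (-(M : ℤ)) M)) ×ˢ
      ((Finset.Icc (-(M : ℤ)) M) ×ˢ (Finset.Icc (-(M : ℤ)) M)) := ⟨_, rfl⟩
  refine ⟨K.card * C, by positivity, ?_⟩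
  intro δ hδ0 hδ1 ι _ p v a ha hp hv Δ hΔ H
  obtain ⟨κ, hκ⟩ : ∃ κ : ι → (ℤ × ℤ) × (ℤ × ℤ), ∀ i, κ i =
    ((⌊p i 0⌋, ⌊p i 1⌋), (⌊v i 0⌋, ⌊v i 1⌋)) := ⟨_, fun _ => rfl⟩
  have hmaps : ∀ i ∈ (Finset.univ : Finset ι), κ i ∈ K := by
    intro i _
    rw [hK, hκ, hM]
    exact Finset.mem_product.mpr ⟨Finset.mem_product.mpr ⟨floor_mem (hp i) 0, floor_mem (hp i) 1⟩,
      Finset.mem_product.mpr ⟨floor_mem (hv i) 0, floor_mem (hv i) 1⟩⟩
  -- the classes
  have cls : ∀ m ∈ K, ∫⁻ z in Set.Icc (-1 : ℝ) 1, ∫⁻ x : E2,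
      (∑ i ∈ Finset.univ.filter (fun i => κ i = m),
        (if ‖x - p i - z • v i‖ ≤ δ then ENNReal.ofReal (a i) else 0)) ^ (3/2 : ℝ) ≤
      ENNReal.ofReal (C * δ ^ (-ε) * Real.sqrt Δ *
        ((∑ i ∈ Finset.univ.filter (fun i => κ i = m), a i) * δ ^ 2)) := by
    intro m _
    have hmem : ∀ i ∈ Finset.univ.filter (fun i => κ i = m),
        m.1 = (⌊p i 0⌋, ⌊p i 1⌋) ∧ m.2 = (⌊v i 0⌋, ⌊v i 1⌋) := by
      intro i hi
      have := (Finset.mem_filter.mp hi).2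
      rw [hκ] at this
      exact ⟨by rw [← this], by rw [← this]⟩
    simp only [shift_int (Finset.univ.filter (fun i => κ i = m)) p v a δ (iv m.1) (iv m.2)]
    refine hU δ hδ0 hδ1 ι (Finset.univ.filter (fun i => κ i = m))
      (fun i => p i - iv m.1) (fun i => v i - iv m.2) a
      (fun i _ => ha i)
      (fun i hi k => by
        have := iv_floor (p i) k
        rw [← (hmem i hi).1] at this
        exact this)
      (fun i hi k => by
        have := iv_floor (v i) k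
        rw [← (hmem i hi).2] at this
        exact this) Δ hΔ ?_
    intro b w p0 v0 hw
    refine le_trans ?_ (H b w (p0 + iv m.1) (v0 + iv m.2) hw)
    rw [Finset.sum_mul, ← Finset.sum_filter]
    apply Finset.sum_le_sum_of_subset_of_nonneg
    · intro i hi
      obtain ⟨_, h2⟩ := Finset.mem_filter.mp hi
      refine Finset.mem_filter.mpr ⟨Finset.mem_univ _, ?_⟩
      intro z hz j
      have h3 := h2 z hz j
      have e2 : p i - (p0 + iv m.1) + z • (v i - (v0 + iv m.2)) =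
          p i - iv m.1 - p0 + z • (v i - iv m.2 - v0) := by
        rw [sub_add_eq_sub_sub_swap, sub_add_eq_sub_sub_swap]
      rw [e2]
      exact h3
    · intro i _ _
      exact mul_nonneg (ha i) (by positivity)
  refine (split_int Finset.univ K κ hmaps p v a δ).trans ?_
  calc _ ≤ (K.card : ℝ≥0∞) * ∑ m ∈ K, ENNReal.ofReal (C * δ ^ (-ε) * Real.sqrt Δ *
        ((∑ i ∈ Finset.univ.filter (fun i => κ i = m), a i) * δ ^ 2)) := by
        apply mul_le_mul_right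
        exact Finset.sum_le_sum cls
    _ = _ := by
        rw [← ENNReal.ofReal_sum_of_nonneg (fun m _ => by
          have : 0 ≤ ∑ i ∈ Finset.univ.filter (fun i => κ i = m), a i :=
            Finset.sum_nonneg fun i _ => ha i
          positivity)]
        rw [← Finset.mul_sum, ← Finset.sum_mul, Finset.sum_fiberwise_of_maps_to hmaps,
          ← ENNReal.ofReal_natCast, ← ENNReal.ofReal_mul (by positivity)]
        congr 1
        rw [Finset.sum_mul]
        ring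

end Crest.Agent.R138.Gr63
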