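import Mathlib

/-!
# R138 wave side: greedy selection (helper323)

`X` with a measure, finitely many measurable sets `Q j` with costs `c j`: disjoint selections
`S j ⊆ Q j`, covering the union, such that for every threshold `t` the union of the selections of
density at most `t` has density at most `t` on EVERY `Q i`.
-/

set_option autoImplicit false

open MeasureTheory
open scoped ENNReal

namespace Crest.Agent.R138.W323

variable {X : Type*} [MeasurableSpace X]

/-- **greedy selection**. -/
theorem greedy {ι : Type*} [DecidableEq ι] (Q : ι → Set X) (hQ : ∀ j, MeasurableSet (Q j))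
    (c : ι → ℝ≥0∞) (hc0 : ∀ j, c j ≠ 0) (hct : ∀ j, c j ≠ ⊤) :
    ∀ (n : ℕ) (J : Finset ι), J.card = n → ∀ (μ : Measure X), ∃ S : ι → Set X,
      (∀ j, MeasurableSet (S j)) ∧ (∀ j, S j ⊆ Q j) ∧ (∀ j, j ∉ J → S j = ∅) ∧
      (∀ i j, i ≠ j → Disjoint (S i) (S j)) ∧ (⋃ j ∈ J, S j) = ⋃ j ∈ J, Q j ∧
      ∀ t : ℝ≥0∞, ∀ i ∈ J, μ (Q i ∩ ⋃ j ∈ J, ⋃ (_ : μ (S j) ≤ t * c j), S j) ≤ t * c i := by
  intro n
  induction n with
  | zero =>
    intro J hJ μ
    rw [Finset.card_eq_zero] at hJ
    subst hJ
    exact ⟨fun _ => ∅, fun _ => MeasurableSet.empty, fun _ => Set.empty_subset _, fun _ _ => rfl,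
      fun _ _ _ => by simp, by simp, by simp⟩
  | succ n ih =>
    intro J hJ μ
    have hne : J.Nonempty := Finset.card_pos.1 (by omega)
    obtain ⟨j0, hj0, hmax⟩ := Finset.exists_max_image J (fun j => μ (Q j) / c j) hne
    obtain ⟨S, hS1, hS2, hS3, hS4, hS5, hS6⟩ := ih (J.erase j0)
      (by rw [Finset.card_erase_of_mem hj0]; omega) (μ.restrict (Q j0)ᶜ)
    -- the measure of the new selections
    have hm : ∀ A : Set X, MeasurableSet A → (μ.restrict (Q j0)ᶜ) A = μ (A \ Q j0) := by
      intro A hA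
      rw [Measure.restrict_apply hA, Set.sdiff_eq]
    refine ⟨fun j => if j = j0 then Q j0 else S j \ Q j0, fun j => ?_, fun j => ?_, fun j hj => ?_,
      fun i j hij => ?_, ?_, fun t i hi => ?_⟩
    · dsimp only
      split_ifs
      · exact hQ j0
      · exact (hS1 j).diff (hQ j0)
    · dsimp only
      split_ifs with h
      · rw [h]
      · exact Set.sdiff_subset.trans (hS2 j)
    · dsimp only
      have h : j ≠ j0 := fun h => hj (h ▸ hj0)
      rw [if_neg h, hS3 j (fun h' => hj (Finset.mem_of_mem_erase h')), Set.empty_sdiff]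
    · dsimp only
      by_cases h1 : i = j0
      · have h2 : j ≠ j0 := fun h => hij (h1.trans h.symm)
        rw [if_pos h1, if_neg h2]
        exact Set.disjoint_sdiff_right
      · by_cases h2 : j = j0
        · rw [if_neg h1, if_pos h2]
          exact Set.disjoint_sdiff_left
        · rw [if_neg h1, if_neg h2]
          exact (hS4 i j hij).mono Set.sdiff_subset Set.sdiff_subset
    · ext x
      simp only [Set.mem_iUnion, exists_prop]
      constructor
      · rintro ⟨j, hj, hx⟩
        by_cases h : j = j0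
        · rw [if_pos h] at hx; exact ⟨j0, hj0, hx⟩
        · rw [if_neg h] at hx; exact ⟨j, hj, hS2 j hx.1⟩
      · rintro ⟨j, hj, hx⟩
        by_cases hx0 : x ∈ Q j0
        · exact ⟨j0, hj0, by rwa [if_pos rfl]⟩
        · have hjj : j ≠ j0 := fun h => hx0 (h ▸ hx)
          have : x ∈ ⋃ j ∈ J.erase j0, Q j := by
            simp only [Set.mem_iUnion, exists_prop]
            exact ⟨j, Finset.mem_erase.2 ⟨hjj, hj⟩, hx⟩
          rw [← hS5] at this
          simp only [Set.mem_iUnion, exists_prop] at this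
          obtain ⟨i, hi, hxi⟩ := this
          exact ⟨i, Finset.mem_of_mem_erase hi,
            by rw [if_neg (Finset.ne_of_mem_erase hi)]; exact ⟨hxi, hx0⟩⟩
    · by_cases ht : μ (Q j0) ≤ t * c j0
      · -- everything has density at most `t`
        refine (measure_mono Set.inter_subset_left).trans ?_
        have h1 := hmax i hi
        have h2 : μ (Q j0) / c j0 ≤ t := (ENNReal.div_le_iff (hc0 j0) (hct j0)).2 ht
        exact (ENNReal.div_le_iff (hc0 i) (hct i)).1 (h1.trans h2)
      · have hsub : (⋃ j ∈ J, ⋃ (_ : μ (if j = j0 then Q j0 else S j \ Q j0) ≤ t * c j),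
            (if j = j0 then Q j0 else S j \ Q j0)) ⊆
            (⋃ j ∈ J.erase j0, ⋃ (_ : (μ.restrict (Q j0)ᶜ) (S j) ≤ t * c j), S j) \ Q j0 := by
          intro x hx
          simp only [Set.mem_iUnion, exists_prop] at hx
          obtain ⟨j, hj, hμ, hxj⟩ := hx
          by_cases h : j = j0
          · subst h
            rw [if_pos rfl] at hμ
            exact absurd hμ ht
          · rw [if_neg h] at hμ hxj
            refine ⟨?_, hxj.2⟩
            simp only [Set.mem_iUnion, exists_prop]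
            exact ⟨j, Finset.mem_erase.2 ⟨h, hj⟩, by rwa [hm _ (hS1 j)], hxj.1⟩
        by_cases hij : i = j0
        · have hem : Q i ∩ (⋃ j ∈ J, ⋃ (_ : μ (if j = j0 then Q j0 else S j \ Q j0) ≤ t * c j),
              (if j = j0 then Q j0 else S j \ Q j0)) = ∅ := by
            rw [Set.eq_empty_iff_forall_notMem]
            rintro x ⟨hx1, hx2⟩
            exact (hsub hx2).2 (hij ▸ hx1)
          rw [hem, measure_empty]
          exact zero_le
        · have h6 := hS6 t i (Finset.mem_erase.2 ⟨hij, hi⟩)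
          have hmeas : MeasurableSet (Q i ∩ ⋃ j ∈ J.erase j0,
              ⋃ (_ : (μ.restrict (Q j0)ᶜ) (S j) ≤ t * c j), S j) :=
            (hQ i).inter (Finset.measurableSet_biUnion _ fun j _ =>
              MeasurableSet.iUnion fun _ => hS1 j)
          rw [hm _ hmeas] at h6
          refine (measure_mono ?_).trans h6
          rintro x ⟨hx1, hx2⟩
          exact ⟨⟨hx1, (hsub hx2).1⟩, (hsub hx2).2⟩

/-- greedy selection, index type finite set `J`. -/
theorem exists_greedy {ι : Type*} (Q : ι → Set X) (hQ : ∀ j, MeasurableSet (Q j))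
    (c : ι → ℝ≥0∞) (hc0 : ∀ j, c j ≠ 0) (hct : ∀ j, c j ≠ ⊤) (J : Finset ι) (μ : Measure X) :
    ∃ S : ι → Set X, (∀ j, MeasurableSet (S j)) ∧ (∀ j, S j ⊆ Q j) ∧ (∀ j, j ∉ J → S j = ∅) ∧
      (∀ i j, i ≠ j → Disjoint (S i) (S j)) ∧ (⋃ j ∈ J, S j) = ⋃ j ∈ J, Q j ∧
      ∀ t : ℝ≥0∞, ∀ i ∈ J, μ (Q i ∩ ⋃ j ∈ J, ⋃ (_ : μ (S j) ≤ t * c j), S j) ≤ t * c i := by
  classical
  exact greedy Q hQ c hc0 hct J.card J rfl μ

end Crest.Agent.R138.W323
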