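import Crest.Agent.R138.End2_615

/-!
# R138: growth along straight segments from an a.e. table (helper615)

* `gt_seg` : slope `μ > 0`, `P v t ≤ P (v - h) (t + μ h) + A h`;
* `gt_hor` : horizontal, for every height;
* `gt_one` : `k = 1`, slope `1` where `m ≤ s`, horizontal where `m > s`:
  `∃ h' ∈ [0, h], P v t ≤ P (v - h) (t + h') + 2 s h`.
-/

set_option autoImplicit false
set_option linter.unusedVariables false

open Set Filter Topology MeasureTheory
open scoped NNReal ENNReal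

namespace Crest.Agent.R138.Gt615

open Crest.Agent.R138.End615 Crest.Agent.R138.Tii615 Crest.Agent.R138.End2615

variable {k q s c θ M : ℝ} {P m : ℝ → ℝ → ℝ} {K : ℝ≥0}

/-- growth along a segment of slope `μ > 0`; bad heights `W` allowed -/
theorem gt_seg_bad {Ω D : Set (ℝ × ℝ)} {A μ v0 t0 h r : ℝ} (hμ : 0 < μ) (hh : 0 < h) (hr : 0 < r)
    (hP : LipschitzOnWith K (fun x : ℝ × ℝ => P x.1 x.2) Ω)
    (hΩ : ∀ x ∈ Icc (-r) 0, ∀ y ∈ Icc 0 h, (v0 + x - y, t0 + μ * y) ∈ Ω)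
    {W : Set ℝ} (hW : MeasurableSet W)
    (hD : ∀ x ∈ Ioo (-r) 0, ∀ y ∈ Ioo 0 h, t0 + μ * y ∉ W → (v0 + x - y, t0 + μ * y) ∈ D)
    (hd : ∀ᵐ z : ℝ × ℝ, z ∈ D → ∃ L : ℝ × ℝ →L[ℝ] ℝ,
      HasFDerivAt (fun x : ℝ × ℝ => P x.1 x.2) L z ∧ L (1, 0) - μ * L (0, 1) ≤ A) :
    P v0 t0 ≤ P (v0 - h) (t0 + μ * h) + A * h +
      (K + Real.toNNReal (|A| + |(0 : ℝ)|) : ℝ≥0) * max 1 μ *
        (volume ({y | t0 + μ * y ∈ W} ∩ Icc 0 h)).toReal := by
  have h1 := plane_path (gg_lip (c := A) (q := 0) hP) (η := 0) hμ hh hr hΩ hW le_rfl (D := D) (by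
    filter_upwards [hd] with z hz hzD
    obtain ⟨L, hL, hL2⟩ := hz hzD
    rw [deriv_gg hL]
    linarith) hD
  simp only [gg, zero_mul, add_zero, zero_sub, zero_add] at h1
  linarith

/-- growth along a segment of slope `μ > 0` -/
theorem gt_seg {Ω D : Set (ℝ × ℝ)} {A μ v0 t0 h r : ℝ} (hμ : 0 < μ) (hh : 0 < h) (hr : 0 < r)
    (hP : LipschitzOnWith K (fun x : ℝ × ℝ => P x.1 x.2) Ω)
    (hΩ : ∀ x ∈ Icc (-r) 0, ∀ y ∈ Icc 0 h, (v0 + x - y, t0 + μ * y) ∈ Ω)
    (hD : ∀ x ∈ Ioo (-r) 0, ∀ y ∈ Ioo 0 h, (v0 + x - y, t0 + μ * y) ∈ D)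
    (hd : ∀ᵐ z : ℝ × ℝ, z ∈ D → ∃ L : ℝ × ℝ →L[ℝ] ℝ,
      HasFDerivAt (fun x : ℝ × ℝ => P x.1 x.2) L z ∧ L (1, 0) - μ * L (0, 1) ≤ A) :
    P v0 t0 ≤ P (v0 - h) (t0 + μ * h) + A * h := by
  have h1 := gt_seg_bad hμ hh hr hP hΩ MeasurableSet.empty (fun x hx y hy _ => hD x hx y hy) hd
  simpa using h1

/-- horizontal growth, almost every height -/
theorem gt_hor_ae {Ω D : Set (ℝ × ℝ)} {A : ℝ}
    (hP : LipschitzOnWith K (fun x : ℝ × ℝ => P x.1 x.2) Ω)
    (hd : ∀ᵐ z : ℝ × ℝ, z ∈ D → ∃ L : ℝ × ℝ →L[ℝ] ℝ,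
      HasFDerivAt (fun x : ℝ × ℝ => P x.1 x.2) L z ∧ L (1, 0) ≤ A) :
    ∀ᵐ t : ℝ, ∀ a b : ℝ, a ≤ b → (∀ v ∈ Icc a b, (v, t) ∈ Ω) → (∀ v ∈ Ioo a b, (v, t) ∈ D) →
      P b t ≤ P a t + A * (b - a) := by
  have h1 : ∀ᵐ t : ℝ, ∀ᵐ v : ℝ, (v, t) ∈ D → ∃ L : ℝ × ℝ →L[ℝ] ℝ,
      HasFDerivAt (fun x : ℝ × ℝ => P x.1 x.2) L (v, t) ∧ L (1, 0) ≤ A := by
    have h0 := (Measure.measurePreserving_swap (μ := (volume : Measure ℝ))
      (ν := (volume : Measure ℝ))).quasiMeasurePreserving.ae hd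
    exact Measure.ae_ae_of_ae_prod h0
  filter_upwards [h1] with t ht a b hab hΩ hD
  have hlip := gg_lip (c := A) (q := 0) hP
  set K' : ℝ≥0 := K + Real.toNNReal (|A| + |(0 : ℝ)|) with hK'
  have hψ : LipschitzOnWith K' (fun y => - gg P A 0 (a + y, t)) (Icc 0 (b - a)) := by
    refine LipschitzOnWith.of_dist_le_mul fun y hy y' hy' => ?_
    have := hlip.dist_le_mul (a + y, t) (hΩ _ ⟨by linarith [hy.1], by linarith [hy.2]⟩) (a + y', t)
      (hΩ _ ⟨by linarith [hy'.1], by linarith [hy'.2]⟩)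
    rw [dist_neg_neg]
    refine this.trans_eq ?_
    congr 1
    rw [Prod.dist_eq]
    simp
  have ht' : ∀ᵐ y : ℝ, (a + y, t) ∈ D → ∃ L : ℝ × ℝ →L[ℝ] ℝ,
      HasFDerivAt (fun x : ℝ × ℝ => P x.1 x.2) L (a + y, t) ∧ L (1, 0) ≤ A :=
    (measurePreserving_add_left volume a).quasiMeasurePreserving.ae ht
  have h2 := lip_path (η := 0) (W := ∅) (by linarith : (0 : ℝ) ≤ b - a) hψ MeasurableSet.empty
    le_rfl (by
    filter_upwards [ht'] with y hy hy0 _
    obtain ⟨L, hL, hL2⟩ := hy (hD _ ⟨by linarith [hy0.1], by linarith [hy0.2]⟩)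
    have h3 : HasDerivAt (fun y : ℝ => (a + y, t)) (1, 0) y :=
      ((hasDerivAt_id y).const_add a).prodMk (hasDerivAt_const y t)
    have h4 := ((gg_fderiv (c := A) (q := 0) hL).comp_hasDerivAt y h3).neg
    have h5 : deriv (fun y => - gg P A 0 (a + y, t)) y = A - L (1, 0) := by
      refine (HasDerivAt.deriv h4).trans ?_
      simp
    rw [h5]
    linarith)
  simp only [empty_inter, measure_empty, ENNReal.toReal_zero, mul_zero, sub_zero, gg, zero_mul,
    add_zero, add_sub_cancel] at h2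
  linarith

/-- horizontal growth, every height with room below it -/
theorem gt_hor {Ω D : Set (ℝ × ℝ)} {A a b t0 r : ℝ} (hab : a ≤ b) (hr : 0 < r)
    (hP : LipschitzOnWith K (fun x : ℝ × ℝ => P x.1 x.2) Ω)
    (hΩ : ∀ x ∈ Icc (-r) 0, ∀ v ∈ Icc a b, (v, t0 + x) ∈ Ω)
    (hD : ∀ x ∈ Ioo (-r) 0, ∀ v ∈ Ioo a b, (v, t0 + x) ∈ D)
    (hd : ∀ᵐ z : ℝ × ℝ, z ∈ D → ∃ L : ℝ × ℝ →L[ℝ] ℝ,
      HasFDerivAt (fun x : ℝ × ℝ => P x.1 x.2) L z ∧ L (1, 0) ≤ A) :
    P b t0 ≤ P a t0 + A * (b - a) := by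
  have h1 : ∀ᵐ x : ℝ, x ∈ Ioo (-r) 0 → P b (t0 + x) ≤ P a (t0 + x) + A * (b - a) := by
    have h0 := (measurePreserving_add_left volume t0).quasiMeasurePreserving.ae (gt_hor_ae hP hd)
    filter_upwards [h0] with x hx hxr
    exact hx a b hab (fun v hv => hΩ x (Ioo_subset_Icc_self hxr) v hv) (fun v hv => hD x hxr v hv)
  refine le_of_forall_pos_le_add fun ε hε => ?_
  set ρ : ℝ := min r (ε / (2 * (K + 1))) with hρ
  have hρ0 : 0 < ρ := lt_min hr (by positivity)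
  obtain ⟨x, hx, hxk⟩ : ∃ x ∈ Ioo (-ρ) 0, x ∈ Ioo (-r) 0 →
      P b (t0 + x) ≤ P a (t0 + x) + A * (b - a) := by
    by_contra hcon
    push Not at hcon
    have h1 : volume (Ioo (-ρ) 0) = 0 := by
      refine measure_mono_null (fun x hx => ?_) h1
      obtain ⟨h2, h3⟩ := hcon x hx
      simp only [mem_compl_iff, Set.mem_ofPred_eq, Classical.not_imp, not_le]
      exact ⟨h2, h3⟩
    rw [Real.volume_Ioo] at h1
    simp at h1
    linarith
  have hxr : x ∈ Ioo (-r) 0 := ⟨by linarith [hx.1, min_le_left r (ε / (2 * (K + 1)))], hx.2⟩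
  have h2 := hxk hxr
  have hxI : x ∈ Icc (-r) 0 := Ioo_subset_Icc_self hxr
  have h0I : (0 : ℝ) ∈ Icc (-r) 0 := ⟨by linarith, le_rfl⟩
  have h3 := hP.dist_le_mul _ (hΩ x hxI b ⟨hab, le_rfl⟩) _ (hΩ 0 h0I b ⟨hab, le_rfl⟩)
  have h4 := hP.dist_le_mul _ (hΩ x hxI a ⟨le_rfl, hab⟩) _ (hΩ 0 h0I a ⟨le_rfl, hab⟩)
  rw [Real.dist_eq, Prod.dist_eq, Real.dist_eq, Real.dist_eq] at h3 h4
  simp only [add_zero, sub_self, abs_zero, add_sub_cancel_left] at h3 h4
  rw [max_eq_right (abs_nonneg _), abs_of_neg hx.2] at h3 h4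
  have h5 : (K : ℝ) * (-x) ≤ ε / 2 := by
    have h5 : -x ≤ ε / (2 * (K + 1)) := by
      have := hx.1
      have := min_le_right r (ε / (2 * (K + 1)))
      linarith
    have hK0 : (0 : ℝ) ≤ K := K.2
    calc (K : ℝ) * (-x) ≤ (K + 1) * (ε / (2 * (K + 1))) := by
          refine mul_le_mul (by linarith) h5 (by linarith [hx.2]) (by linarith)
      _ = ε / 2 := by field_simp
  have h6 := (abs_le.1 h3).1
  have h7 := (abs_le.1 h4).2
  linarith

/-- **`k = 1`**: slope `1` where `m ≤ s`, horizontal (to the left) where `m > s`. -/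
theorem gt_one {Ω D : Set (ℝ × ℝ)} {v0 t0 h r0 : ℝ} (hs : 0 ≤ s) (hh : 0 < h) (hr0 : 0 < r0)
    (hP : LipschitzOnWith K (fun x : ℝ × ℝ => P x.1 x.2) Ω)
    (hm : Measurable fun x : ℝ × ℝ => m x.1 x.2)
    (hΩ : ∀ y ∈ Icc 0 h, ∀ v ∈ Icc (v0 - h - r0) (v0 - y), (v, t0 + y) ∈ Ω)
    (hD : ∀ y ∈ Ioo 0 h, ∀ v ∈ Ioo (v0 - h - r0) (v0 - y), (v, t0 + y) ∈ D)
    (hanti : ∀ y ∈ Ioo 0 h, ∀ v ∈ Ioo (v0 - h - r0) (v0 - y), ∀ v' ∈ Ioo (v0 - h - r0) (v0 - y),
      v ≤ v' → m v' (t0 + y) ≤ m v (t0 + y))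
    (hd : ∀ᵐ z : ℝ × ℝ, z ∈ D → ∃ L : ℝ × ℝ →L[ℝ] ℝ,
      HasFDerivAt (fun x : ℝ × ℝ => P x.1 x.2) L z ∧
      (m z.1 z.2 ≤ s → L (1, 0) - L (0, 1) ≤ 2 * s) ∧ (s < m z.1 z.2 → L (1, 0) ≤ 2 * s)) :
    ∃ h' ∈ Icc 0 h, P v0 t0 ≤ P (v0 - h) (t0 + h') + 2 * s * h := by
  -- approximate version
  have key : ∀ ε : ℝ, 0 < ε → ∃ h' ∈ Icc 0 h, P v0 t0 ≤ P (v0 - h) (t0 + h') + 2 * s * h + ε := by
    intro ε hε
    set K' : ℝ≥0 := K + Real.toNNReal (|2 * s| + |(0 : ℝ)|) with hK'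
    set e : ℝ := ε / (4 * (K' + K + 1)) with he
    have he0 : 0 < e := by positivity
    set r : ℝ := min (r0 / 2) e with hr
    have hr0' : 0 < r := lt_min (by linarith) he0
    have hrr : r < r0 := (min_le_left _ _).trans_lt (by linarith)
    have hre : r ≤ e := min_le_right _ _
    -- good heights
    obtain ⟨N, hNm, hN0, hNsub⟩ : ∃ N : Set ℝ, MeasurableSet N ∧ volume N = 0 ∧ ∀ t ∉ N,
        ∀ a b : ℝ, a ≤ b → (∀ v ∈ Icc a b, (v, t) ∈ Ω) →
        (∀ v ∈ Ioo a b, (v, t) ∈ D ∩ {z | s < m z.1 z.2}) → P b t ≤ P a t + 2 * s * (b - a) := by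
      have h1 := gt_hor_ae (D := D ∩ {z | s < m z.1 z.2}) (A := 2 * s) hP (by
        filter_upwards [hd] with z hz hzD
        obtain ⟨L, hL, -, hL2⟩ := hz hzD.1
        exact ⟨L, hL, hL2 hzD.2⟩)
      set A : Set ℝ := {t | ¬ ∀ a b : ℝ, a ≤ b → (∀ v ∈ Icc a b, (v, t) ∈ Ω) →
          (∀ v ∈ Ioo a b, (v, t) ∈ D ∩ {z | s < m z.1 z.2}) → P b t ≤ P a t + 2 * s * (b - a)}
        with hA
      refine ⟨toMeasurable volume A, measurableSet_toMeasurable _ _, ?_, fun t ht => ?_⟩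
      · rw [measure_toMeasurable]
        exact h1
      · by_contra hcon
        exact ht (subset_toMeasurable _ _ hcon)
    -- the bad heights for the slope `1` path
    set W : Set ℝ := {t | t ∈ Ioo t0 (t0 + h) ∧ s < m (v0 - r - (t - t0)) t} with hW
    have hWm : MeasurableSet W := by
      have m2 : Measurable fun t : ℝ => ((v0 - r - (t - t0), t) : ℝ × ℝ) := by fun_prop
      have m3 : Measurable fun t : ℝ => m (v0 - r - (t - t0)) t := hm.comp m2
      exact measurableSet_Ioo.inter (measurableSet_lt measurable_const m3)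
    have hseg : ∀ y, 0 < y → y ≤ h → P v0 t0 ≤ P (v0 - y) (t0 + y) + 2 * s * y +
        K' * (volume ({y' | t0 + 1 * y' ∈ W} ∩ Icc 0 y)).toReal := by
      intro y hy hyh
      have h1 := gt_seg_bad (D := D ∩ {z | m z.1 z.2 ≤ s}) (A := 2 * s) (μ := 1) (v0 := v0)
        (t0 := t0) (W := W) one_pos hy hr0' hP (by
          intro x hx y' hy'
          rw [one_mul]
          exact hΩ y' ⟨hy'.1, hy'.2.trans hyh⟩ _ ⟨by linarith [hx.1, hy'.2], by linarith [hx.2]⟩)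
        hWm (by
          intro x hx y' hy' hyW
          rw [one_mul] at hyW ⊢
          have hyI : y' ∈ Ioo 0 h := ⟨hy'.1, hy'.2.trans_le hyh⟩
          have hv1 : v0 + x - y' ∈ Ioo (v0 - h - r0) (v0 - y') :=
            ⟨by linarith [hx.1, hyI.2], by linarith [hx.2]⟩
          have hv2 : v0 - r - y' ∈ Ioo (v0 - h - r0) (v0 - y') :=
            ⟨by linarith [hyI.2], by linarith⟩
          refine ⟨hD y' hyI _ hv1, ?_⟩
          have h2 : ¬ s < m (v0 - r - y') (t0 + y') := by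
            intro h3
            refine hyW ⟨⟨by linarith [hyI.1], by linarith [hyI.2]⟩, ?_⟩
            rwa [add_sub_cancel_left]
          exact (hanti y' hyI _ hv2 _ hv1 (by linarith [hx.1])).trans (not_lt.1 h2))
        (by
          filter_upwards [hd] with z hz hzD
          obtain ⟨L, hL, hL1, -⟩ := hz hzD.1
          refine ⟨L, hL, ?_⟩
          rw [one_mul]
          exact hL1 hzD.2)
      rw [max_self, mul_one, one_mul] at h1
      exact h1
    set Y : Set ℝ := {y | y ∈ Ioo 0 h ∧ t0 + y ∈ W ∧ t0 + y ∉ N} with hY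
    rcases Y.eq_empty_or_nonempty with hYe | hYn
    · -- the slope `1` path is good
      refine ⟨h, ⟨hh.le, le_rfl⟩, ?_⟩
      have h1 := hseg h hh le_rfl
      have h2 : volume ({y' | t0 + 1 * y' ∈ W} ∩ Icc 0 h) = 0 := by
        have h3 : {y' | t0 + 1 * y' ∈ W} ∩ Icc 0 h ⊆ (t0 + ·) ⁻¹' N := by
          intro y hy
          obtain ⟨hy1, hy2⟩ := hy
          simp only [one_mul, Set.mem_ofPred_eq] at hy1
          by_contra hcon
          have : y ∈ Y := ⟨⟨by linarith [hy1.1.1], by linarith [hy1.1.2]⟩, hy1, hcon⟩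
          rw [hYe] at this
          exact this
        refine measure_mono_null h3 ?_
        rw [measure_preimage_add]
        exact hN0
      rw [h2] at h1
      simp only [ENNReal.toReal_zero, mul_zero, add_zero] at h1
      linarith
    · -- first horizontal height
      have hYb : BddBelow Y := ⟨0, fun y hy => hy.1.1.le⟩
      obtain ⟨y, hyY, hy1⟩ := Real.lt_sInf_add_pos hYn he0
      obtain ⟨hyI, hyW, hyN⟩ := hyY
      refine ⟨y, ⟨hyI.1.le, hyI.2.le⟩, ?_⟩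
      have h1 := hseg y hyI.1 hyI.2.le
      have h2 : (volume ({y' | t0 + 1 * y' ∈ W} ∩ Icc 0 y)).toReal ≤ e := by
        have h3 : {y' | t0 + 1 * y' ∈ W} ∩ Icc 0 y ⊆ (t0 + ·) ⁻¹' N ∪ Icc (sInf Y) y := by
          intro y' hy'
          obtain ⟨hy1, hy2⟩ := hy'
          simp only [one_mul, Set.mem_ofPred_eq] at hy1
          by_cases hcon : t0 + y' ∈ N
          · exact Or.inl hcon
          · have : y' ∈ Y := ⟨⟨by linarith [hy1.1.1], by linarith [hy1.1.2]⟩, hy1, hcon⟩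
            exact Or.inr ⟨csInf_le hYb this, hy2.2⟩
        have h4 : volume ({y' | t0 + 1 * y' ∈ W} ∩ Icc 0 y) ≤ ENNReal.ofReal e := by
          refine (measure_mono h3).trans ((measure_union_le _ _).trans ?_)
          rw [measure_preimage_add, hN0, zero_add, Real.volume_Icc]
          exact ENNReal.ofReal_le_ofReal (by linarith)
        exact ENNReal.toReal_le_of_le_ofReal he0.le h4
      have h3 : (K' : ℝ) * (volume ({y' | t0 + 1 * y' ∈ W} ∩ Icc 0 y)).toReal ≤ K' * e :=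
        mul_le_mul_of_nonneg_left h2 K'.2
      -- from `(v0 - y, t0 + y)` to `(v0 - h, t0 + y)`
      have hIcc : y ∈ Icc 0 h := Ioo_subset_Icc_self hyI
      have hmem1 : (v0 - y, t0 + y) ∈ Ω := hΩ y hIcc _ ⟨by linarith [hyI.2], le_rfl⟩
      have hmem3 : (v0 - h, t0 + y) ∈ Ω := hΩ y hIcc _ ⟨by linarith, by linarith [hyI.2]⟩
      have h4 : P (v0 - y) (t0 + y) ≤ P (v0 - h) (t0 + y) + 2 * s * (h - y) + K * (2 * r) := by
        rcases le_or_gt (h - y) r with hc | hc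
        · have h5 := hP.dist_le_mul _ hmem1 _ hmem3
          rw [Real.dist_eq, Prod.dist_eq, Real.dist_eq, Real.dist_eq] at h5
          simp only [sub_self, abs_zero] at h5
          rw [max_eq_left (abs_nonneg _), show v0 - y - (v0 - h) = h - y by ring,
            abs_of_pos (show (0 : ℝ) < h - y by linarith [hyI.2])] at h5
          have h6 := (abs_le.1 h5).2
          have h7 : (K : ℝ) * (h - y) ≤ K * (2 * r) :=
            mul_le_mul_of_nonneg_left (by linarith) K.2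
          have h8 : 0 ≤ 2 * s * (h - y) := mul_nonneg (by linarith) (by linarith [hyI.2])
          linarith
        · have hmem2 : (v0 - r - y, t0 + y) ∈ Ω := hΩ y hIcc _ ⟨by linarith, by linarith⟩
          have h5 := hP.dist_le_mul _ hmem1 _ hmem2
          rw [Real.dist_eq, Prod.dist_eq, Real.dist_eq, Real.dist_eq] at h5
          simp only [sub_self, abs_zero] at h5
          rw [max_eq_left (abs_nonneg _), show v0 - y - (v0 - r - y) = r by ring,
            abs_of_pos hr0'] at h5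
          have h6 := (abs_le.1 h5).2
          have hv2 : v0 - r - y ∈ Ioo (v0 - h - r0) (v0 - y) := ⟨by linarith, by linarith⟩
          have h7 := hNsub _ hyN (v0 - h) (v0 - r - y) (by linarith)
            (fun v hv => hΩ y hIcc v ⟨by linarith [hv.1], by linarith [hv.2]⟩)
            (fun v hv => by
              have hv1 : v ∈ Ioo (v0 - h - r0) (v0 - y) :=
                ⟨by linarith [hv.1], by linarith [hv.2]⟩
              refine ⟨hD y hyI v hv1, ?_⟩
              have h8 : s < m (v0 - r - (t0 + y - t0)) (t0 + y) := hyW.2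
              rw [add_sub_cancel_left] at h8
              exact h8.trans_le (hanti y hyI v hv1 _ hv2 hv.2.le))
          have h8 : (K : ℝ) * r ≤ K * (2 * r) := mul_le_mul_of_nonneg_left (by linarith) K.2
          have h9 : 2 * s * (v0 - r - y - (v0 - h)) ≤ 2 * s * (h - y) :=
            mul_le_mul_of_nonneg_left (by linarith) (by linarith)
          linarith
      have h5 : (K' : ℝ) * e + K * (2 * r) ≤ ε := by
        have h6 : (K : ℝ) * (2 * r) ≤ 2 * K * e := by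
          have h7 : (K : ℝ) * r ≤ K * e := mul_le_mul_of_nonneg_left hre (NNReal.coe_nonneg K)
          nlinarith
        have h7 : (K' : ℝ) * e + 2 * K * e ≤ (4 * (K' + K + 1)) * e := by
          have hK0 : (0 : ℝ) ≤ K := K.2
          have hK0' : (0 : ℝ) ≤ K' := K'.2
          nlinarith
        have h8 : (4 * ((K' : ℝ) + K + 1)) * e = ε := by
          rw [he]
          have : (0 : ℝ) < (K' : ℝ) + K + 1 := by positivity
          field_simp
        linarith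
      have h6 : 2 * s * y + 2 * s * (h - y) = 2 * s * h := by ring
      linarith
  -- compactness
  have hcont : ContinuousOn (fun y => P (v0 - h) (t0 + y)) (Icc 0 h) := by
    have h1 : ContinuousOn (fun x : ℝ × ℝ => P x.1 x.2) Ω := hP.continuousOn
    have h2 : ContinuousOn (fun y : ℝ => ((v0 - h, t0 + y) : ℝ × ℝ)) (Icc 0 h) := by fun_prop
    exact h1.comp h2 fun y hy => hΩ y hy _ ⟨by linarith, by linarith [hy.2]⟩
  obtain ⟨h', hh', hmax⟩ := isCompact_Icc.exists_isMaxOn ⟨0, le_rfl, hh.le⟩ hcont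
  refine ⟨h', hh', le_of_forall_pos_le_add fun ε hε => ?_⟩
  obtain ⟨h'', hh'', h1⟩ := key ε hε
  have h2 := hmax hh''
  simp only [Set.mem_ofPred_eq] at h2
  linarith

/-- the open region below the record -/
def Bel (θ : ℝ) : Set (ℝ × ℝ) := {x | 0 < x.1 ∧ x.1 < 1 ∧ 0 < x.2 ∧ x.2 < θ * (1 - x.1)}

/-- **Below the record only** (`μ ≤ θ`): nothing is used above the record, `g = 0` on the record is
replaced by `g ≥ - C (θ (1 - v) - t)`. -/
theorem below_end {C : ℝ} (hk : 0 < k) (hq : 0 ≤ q) (hs : 0 ≤ s) (hθ : 0 < θ)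
    (hμ : k ≠ 1 → k / 2 ≤ θ) (hμ1 : k = 1 → 1 ≤ θ)
    (hP : LipschitzOnWith K (fun x : ℝ × ℝ => P x.1 x.2) (Bel θ))
    (hle : ∀ x ∈ Bel θ, P x.1 x.2 - c * x.1 + q * x.2 ≤ 0)
    (hge : ∀ x ∈ Bel θ, -(C * (θ * (1 - x.1) - x.2)) ≤ P x.1 x.2 - c * x.1 + q * x.2)
    (hm : Measurable fun x : ℝ × ℝ => m x.1 x.2)
    (hanti : ∀ t v v', (v, t) ∈ Bel θ → (v', t) ∈ Bel θ → v ≤ v' → m v' t ≤ m v t)
    (h5 : ∀ᵐ x : ℝ × ℝ, x ∈ Bel θ →
      ∃ D : ℝ × ℝ →L[ℝ] ℝ, HasFDerivAt (fun x : ℝ × ℝ => P x.1 x.2) D x ∧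
        (k ≠ 1 → D (1, 0) - k / 2 * D (0, 1) ≤ 2 * s) ∧
        (k = 1 → D (1, 0) - D (0, 1) ≤ s + m x.1 x.2 ∧ (s < m x.1 x.2 → D (1, 0) ≤ 2 * s))) :
    c ≤ 2 * s := by
  by_contra hcon
  push Not at hcon
  -- the start point: `v0 = 1/2`, distance `X` below the record
  obtain ⟨X, hX0, hX1, hX2⟩ : ∃ X : ℝ, 0 < X ∧ X < θ / 4 ∧ C * X < (c - 2 * s) / 8 := by
    refine ⟨min (θ / 8) ((c - 2 * s) / (16 * (|C| + 1))), ?_, ?_, ?_⟩
    · have : (0 : ℝ) < 16 * (|C| + 1) := by positivity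
      exact lt_min (by linarith) (div_pos (by linarith) this)
    · exact (min_le_left _ _).trans_lt (by linarith)
    · have h1 : (0 : ℝ) < 16 * (|C| + 1) := by positivity
      have h2 : 0 ≤ min (θ / 8) ((c - 2 * s) / (16 * (|C| + 1))) :=
        le_min (by linarith) (div_nonneg (by linarith) h1.le)
      calc C * min (θ / 8) ((c - 2 * s) / (16 * (|C| + 1)))
          ≤ (|C| + 1) * ((c - 2 * s) / (16 * (|C| + 1))) :=
            mul_le_mul (by linarith [le_abs_self C]) (min_le_right _ _) h2 (by positivity)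
        _ = (c - 2 * s) / 16 := by field_simp
        _ < (c - 2 * s) / 8 := by linarith
  obtain ⟨v0, hv0⟩ : ∃ v0 : ℝ, v0 = 1 / 2 := ⟨_, rfl⟩
  obtain ⟨t0, ht0⟩ : ∃ t0 : ℝ, t0 = θ * (1 - v0) - X := ⟨_, rfl⟩
  have ht0p : 0 < t0 := by rw [ht0, hv0]; linarith
  have hstart : (v0, t0) ∈ Bel θ := by
    refine ⟨by simp only; linarith, by simp only; linarith, ht0p, ?_⟩
    simp only; linarith
  have hg0 := hge _ hstart
  simp only at hg0
  have e1 : θ * (1 - v0) - t0 = X := by rw [ht0]; ring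
  rw [e1] at hg0
  -- growth over `h = 1/8`
  have hgrow : ∃ h' : ℝ, 0 ≤ h' ∧ (v0 - 1 / 8, t0 + h') ∈ Bel θ ∧
      P v0 t0 ≤ P (v0 - 1 / 8) (t0 + h') + 2 * s * (1 / 8) := by
    by_cases hk1 : k = 1
    · have hθ1 := hμ1 hk1
      have hreg : ∀ y ∈ Icc (0 : ℝ) (1 / 8), ∀ v ∈ Icc (v0 - 1 / 8 - 1 / 8) (v0 - y),
          (v, t0 + y) ∈ Bel θ := by
        intro y hy v hv
        refine ⟨by simp only; linarith [hv.1], by simp only; linarith [hv.2, hy.1],
          by simp only; linarith [hy.1], ?_⟩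
        simp only
        have h1 : θ * (1 - (v0 - y)) ≤ θ * (1 - v) := mul_le_mul_of_nonneg_left
          (by linarith [hv.2]) hθ.le
        have h2 : y ≤ θ * y := by nlinarith [hy.1]
        have h3 : θ * (1 - (v0 - y)) = θ * (1 - v0) + θ * y := by ring
        linarith
      obtain ⟨h', hh', h1⟩ := gt_one (K := K) (P := P) (m := m) (Ω := Bel θ) (D := Bel θ)
        (v0 := v0) (t0 := t0) (h := 1 / 8) (r0 := 1 / 8) hs (by norm_num) (by norm_num) hP hm hreg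
        (fun y hy v hv => hreg y (Ioo_subset_Icc_self hy) v (Ioo_subset_Icc_self hv))
        (fun y hy v hv v' hv' hvv => hanti _ v v'
          (hreg y (Ioo_subset_Icc_self hy) v (Ioo_subset_Icc_self hv))
          (hreg y (Ioo_subset_Icc_self hy) v' (Ioo_subset_Icc_self hv')) hvv)
        (by
          filter_upwards [h5] with z hz hzB
          obtain ⟨L, hL, -, hL2⟩ := hz hzB
          exact ⟨L, hL, fun h => by linarith [(hL2 hk1).1], (hL2 hk1).2⟩)
      exact ⟨h', hh'.1, hreg h' hh' _ ⟨by linarith, by linarith [hh'.2]⟩, h1⟩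
    · have hμθ := hμ hk1
      have hreg : ∀ x ∈ Icc (-(1 / 8) : ℝ) 0, ∀ y ∈ Icc (0 : ℝ) (1 / 8),
          (v0 + x - y, t0 + k / 2 * y) ∈ Bel θ := by
        intro x hx y hy
        have h0 : 0 ≤ k / 2 * y := mul_nonneg (by linarith) hy.1
        refine ⟨by simp only; linarith [hx.1, hy.2], by simp only; linarith [hx.2, hy.1],
          by simp only; linarith, ?_⟩
        simp only
        have h1 : θ * (1 - (v0 - y)) ≤ θ * (1 - (v0 + x - y)) := mul_le_mul_of_nonneg_left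
          (by linarith [hx.2]) hθ.le
        have h2 : k / 2 * y ≤ θ * y := mul_le_mul_of_nonneg_right hμθ hy.1
        have h3 : θ * (1 - (v0 - y)) = θ * (1 - v0) + θ * y := by ring
        linarith
      have h1 := gt_seg (K := K) (P := P) (Ω := Bel θ) (D := Bel θ) (A := 2 * s) (μ := k / 2)
        (v0 := v0) (t0 := t0) (h := 1 / 8) (r := 1 / 8) (by linarith) (by norm_num) (by norm_num)
        hP hreg
        (fun x hx y hy => hreg x (Ioo_subset_Icc_self hx) y (Ioo_subset_Icc_self hy))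
        (by
          filter_upwards [h5] with z hz hzB
          obtain ⟨L, hL, hL1, -⟩ := hz hzB
          exact ⟨L, hL, hL1 hk1⟩)
      have h2 := hreg 0 ⟨by norm_num, le_rfl⟩ (1 / 8) ⟨by norm_num, le_rfl⟩
      rw [add_zero] at h2
      exact ⟨k / 2 * (1 / 8), by positivity, h2, h1⟩
  obtain ⟨h', hh', hB, h1⟩ := hgrow
  have h2 := hle _ hB
  simp only at h2
  have h3 : q * t0 ≤ q * (t0 + h') := mul_le_mul_of_nonneg_left (by linarith) hq
  linarith

end Crest.Agent.R138.Gt615
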