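import Crest.Agent.R138.A5a_774
import Crest.Agent.R138.Sup5_882
import Crest.Agent.R138.ZmDef_858

/-!
# R138 / R139, WAVE side: tools for HALF and A5b (helper774): change of scale of the averages,
finite sums, the decomposition into finitely many pieces of small support.
-/

set_option autoImplicit false

open MeasureTheory FourierTransform
open scoped ENNReal ContDiff

namespace Crest.Agent.R138.T774

open Crest.Agent.R138.Defs Crest.Agent.R138.Bil882 Crest.Agent.R138.W188 Crest.Agent.R138.Zm858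
open Crest.Agent.R138.Sup882 (capf capf_sum capf_supp_ball contDiff_capf norm_capf_le pboxLe_piece
  En_mul_le grad_norm_le)
open Crest.Agent.R138.Wpk685 (caps)

theorem AA_scale (N : ℕ) {K w w1 : ℝ} (hK : 1 ≤ K) (hw : 0 < w) (hw1 : 0 < w1) (h1 : w ≤ K * w1)
    (h2 : w1 ≤ K * w) (F : E2 × ℝ → ℂ) (z : E2 × ℝ) :
    AA N w F z ≤ ENNReal.ofReal (K ^ (N + 3)) * AA N w1 F z := by
  have hK0 : 0 < K := by linarith
  unfold AA
  have e1 : ENNReal.ofReal (K ^ (N + 3)) = ENNReal.ofReal (K ^ 3) * ENNReal.ofReal (K ^ N) := by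
    rw [← ENNReal.ofReal_mul (by positivity)]; congr 1; ring
  have e2 : (w ^ 3)⁻¹ ≤ K ^ 3 * (w1 ^ 3)⁻¹ := by
    rw [inv_le_comm₀ (by positivity) (by positivity), mul_inv, inv_inv, ← inv_pow, ← mul_pow]
    refine pow_le_pow_left₀ (by positivity) ?_ 3
    rw [inv_mul_le_iff₀ hK0]; exact h2
  have e3 : ∀ p : E2 × ℝ, wt N w z.1 z.2 p ≤ K ^ N * wt N w1 z.1 z.2 p := by
    intro p
    unfold wt
    rw [← inv_pow, ← inv_pow, ← mul_pow]
    refine pow_le_pow_left₀ (by positivity) ?_ N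
    set a : ℝ := ‖p.1 - z.1‖ + |p.2 - z.2| with ha
    have ha0 : 0 ≤ a := by positivity
    rw [inv_le_comm₀ (by positivity) (by positivity), mul_inv, inv_inv, inv_mul_le_iff₀ hK0]
    have h3 : a / w1 ≤ K * (a / w) := by
      rw [← mul_div_assoc, div_le_div_iff₀ hw1 hw]
      calc a * w ≤ a * (K * w1) := by gcongr
        _ = K * a * w1 := by ring
    nlinarith
  calc ENNReal.ofReal ((w ^ 3)⁻¹) * ∫⁻ p : E2 × ℝ, ‖F p‖ₑ ^ 2 * ENNReal.ofReal (wt N w z.1 z.2 p)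
      ≤ ENNReal.ofReal (K ^ 3 * (w1 ^ 3)⁻¹) * ∫⁻ p : E2 × ℝ, ENNReal.ofReal (K ^ N) *
        (‖F p‖ₑ ^ 2 * ENNReal.ofReal (wt N w1 z.1 z.2 p)) := by
        refine mul_le_mul (ENNReal.ofReal_le_ofReal e2) (lintegral_mono fun p => ?_) (by simp)
          (by simp)
        calc ‖F p‖ₑ ^ 2 * ENNReal.ofReal (wt N w z.1 z.2 p)
            ≤ ‖F p‖ₑ ^ 2 * ENNReal.ofReal (K ^ N * wt N w1 z.1 z.2 p) := by
              gcongr; exact e3 p
          _ = _ := by rw [ENNReal.ofReal_mul (by positivity)]; ring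
    _ = _ := by
        rw [lintegral_const_mul' _ _ ENNReal.ofReal_ne_top, ENNReal.ofReal_mul (by positivity), e1]
        ring

theorem NN_scale (N : ℕ) {K w w1 : ℝ} (hK : 1 ≤ K) (hw : 0 < w) (hw1 : 0 < w1) (h1 : w ≤ K * w1)
    (h2 : w1 ≤ K * w) (h : E2 → ℝ) (g : E2 → ℂ) (R : ℝ) :
    NN N h g w R ≤ ENNReal.ofReal ((K ^ (N + 3)) ^ (3 / 2 : ℝ)) * NN N h g w1 R := by
  have hK0 : 0 < K := by linarith
  unfold NN
  rw [← lintegral_const_mul' _ _ ENNReal.ofReal_ne_top]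
  refine lintegral_mono fun z => ?_
  have h3 := AA_scale N hK hw hw1 h1 h2 (fun p => ext h g p.1 p.2) z
  unfold AA at h3
  refine (ENNReal.rpow_le_rpow h3 (by norm_num)).trans (le_of_eq ?_)
  rw [ENNReal.mul_rpow_of_nonneg _ _ (by norm_num), ENNReal.ofReal_rpow_of_nonneg (by positivity)
    (by norm_num)]

theorem NN_mono {N : ℕ} {h : E2 → ℝ} {g : E2 → ℂ} {w R R' : ℝ} (hR : R ≤ R') :
    NN N h g w R ≤ NN N h g w R' := by
  unfold NN
  refine lintegral_mono_set fun p hp => ?_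
  exact ⟨hp.1.trans hR, hp.2.trans hR⟩

theorem CC_mono {h : E2 → ℝ} {g : E2 → ℂ} {R R' : ℝ} (hR : R ≤ R') : CC h g R ≤ CC h g R' := by
  unfold CC
  refine lintegral_mono_set fun p hp => ?_
  exact ⟨hp.1.trans hR, hp.2.trans hR⟩

section sums

variable {ι : Type*}

theorem enorm_sum_pow (s : Finset ι) (a : ι → ℂ) (n : ℕ) (hn : 1 ≤ n) :
    ‖∑ k ∈ s, a k‖ₑ ^ n ≤ (s.card : ℝ≥0∞) ^ (n - 1) * ∑ k ∈ s, ‖a k‖ₑ ^ n := by
  have h1 := ENNReal.rpow_sum_le_const_mul_sum_rpow s (fun k => ‖a k‖ₑ) (p := n)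
    (by exact_mod_cast hn)
  have h2 : ((n : ℝ) - 1) = ((n - 1 : ℕ) : ℝ) := by push_cast [hn]; ring
  rw [h2] at h1
  simp only [ENNReal.rpow_natCast] at h1
  refine le_trans ?_ h1
  gcongr
  exact enorm_sum_le _ _

theorem AA_sum (N : ℕ) (w : ℝ) (s : Finset ι) (F : ι → E2 × ℝ → ℂ)
    (hF : ∀ k ∈ s, Measurable (F k)) (z : E2 × ℝ) :
    AA N w (fun p => ∑ k ∈ s, F k p) z ≤ (s.card : ℝ≥0∞) * ∑ k ∈ s, AA N w (F k) z := by
  unfold AA
  rw [← Finset.mul_sum, ← lintegral_finsetSum' s fun k hk => ?_, mul_left_comm]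
  · refine mul_le_mul_right ?_ _
    rw [← lintegral_const_mul' _ _ (ENNReal.natCast_ne_top _)]
    refine lintegral_mono fun p => ?_
    rw [← Finset.sum_mul, ← mul_assoc]
    refine mul_le_mul_left ?_ _
    have := enorm_sum_pow s (fun k => F k p) 2 (by norm_num)
    simpa using this
  · exact (((hF k hk).enorm.pow_const 2).mul (measurable_wt N w z.1 z.2).ennreal_ofReal).aemeasurable

theorem ext_sum {h : E2 → ℝ} (hh : Continuous h) (s : Finset ι) {G : ι → E2 → ℂ}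
    (hG : ∀ k ∈ s, Integrable (G k)) (x : E2) (t : ℝ) :
    ext h (fun ξ => ∑ k ∈ s, G k ξ) x t = ∑ k ∈ s, ext h (G k) x t := by
  have hc : Continuous fun ξ : E2 => ee (inner ℝ x ξ + t * h ξ) :=
    F4x858.continuous_ee.comp ((continuous_const.inner continuous_id).add (continuous_const.mul hh))
  have hi : ∀ {f : E2 → ℂ}, Integrable f → Integrable fun ξ => f ξ * ee (inner ℝ x ξ + t * h ξ) := by
    intro f hf
    refine hf.mul_bdd (c := 1) hc.aestronglyMeasurable (Filter.Eventually.of_forall fun ξ => ?_)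
    rw [Ker858.norm_ee]
  unfold ext
  simp_rw [Finset.sum_mul]
  rw [integral_finsetSum _ fun k hk => hi (hG k hk)]

theorem NN_sum (N : ℕ) (w R : ℝ) {h : E2 → ℝ} (hh : Continuous h) (s : Finset ι) {G : ι → E2 → ℂ}
    (hG : ∀ k ∈ s, Integrable (G k)) :
    NN N h (fun ξ => ∑ k ∈ s, G k ξ) w R ≤ (s.card : ℝ≥0∞) ^ 2 * ∑ k ∈ s, NN N h (G k) w R := by
  have hmeas : ∀ k ∈ s, Measurable fun p : E2 × ℝ => ext h (G k) p.1 p.2 := fun k hk =>
    (F4x858.continuous_ext hh (hG k hk)).measurable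
  have e1 : ∀ g : E2 → ℂ, NN N h g w R =
      ∫⁻ z in cyl R, AA N w (fun p => ext h g p.1 p.2) z ^ (3 / 2 : ℝ) := fun g => rfl
  simp only [e1]
  rw [← lintegral_finsetSum' s fun k hk =>
    ((measurable_AA N w (hmeas k hk)).pow_const _).aemeasurable,
    ← lintegral_const_mul' _ _ (by simp)]
  refine lintegral_mono fun z => ?_
  have h1 := AA_sum N w s (fun k p => ext h (G k) p.1 p.2) hmeas z
  simp_rw [ext_sum hh s hG]
  refine (ENNReal.rpow_le_rpow h1 (by norm_num)).trans ?_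
  rw [ENNReal.mul_rpow_of_nonneg _ _ (by norm_num)]
  have h2 := ENNReal.rpow_sum_le_const_mul_sum_rpow s
    (fun k => AA N w (fun p => ext h (G k) p.1 p.2) z) (p := 3 / 2) (by norm_num)
  rcases Nat.eq_zero_or_pos s.card with h0 | h0
  · rw [h0]; simp
  have hc1 : (1 : ℝ≥0∞) ≤ (s.card : ℝ≥0∞) := by exact_mod_cast h0
  calc (s.card : ℝ≥0∞) ^ (3 / 2 : ℝ) * (∑ k ∈ s, AA N w (fun p => ext h (G k) p.1 p.2) z) ^ (3 / 2 : ℝ)
      ≤ (s.card : ℝ≥0∞) ^ (3 / 2 : ℝ) * ((s.card : ℝ≥0∞) ^ (3 / 2 - 1 : ℝ) *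
        ∑ k ∈ s, AA N w (fun p => ext h (G k) p.1 p.2) z ^ (3 / 2 : ℝ)) := by gcongr
    _ = _ := by
        rw [← mul_assoc]
        congr 1
        rw [← ENNReal.rpow_add_of_nonneg _ _ (by norm_num) (by norm_num), ← ENNReal.rpow_natCast]
        norm_num

theorem CC_sum (R : ℝ) {h : E2 → ℝ} (hh : Continuous h) (s : Finset ι) {G : ι → E2 → ℂ}
    (hG : ∀ k ∈ s, Integrable (G k)) :
    CC h (fun ξ => ∑ k ∈ s, G k ξ) R ≤ (s.card : ℝ≥0∞) ^ 2 * ∑ k ∈ s, CC h (G k) R := by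
  have hmeas : ∀ k ∈ s, Measurable fun p : E2 × ℝ => ext h (G k) p.1 p.2 := fun k hk =>
    (F4x858.continuous_ext hh (hG k hk)).measurable
  unfold CC
  rw [← lintegral_finsetSum' s fun k hk => ((hmeas k hk).enorm.pow_const 3).aemeasurable,
    ← lintegral_const_mul' _ _ (by simp)]
  refine lintegral_mono fun p => ?_
  simp_rw [ext_sum hh s hG]
  have := enorm_sum_pow s (fun k => ext h (G k) p.1 p.2) 3 (by norm_num)
  simpa using this

end sums

/-- **pieces**: every state is a sum of `n` zoom inputs with `l = 1`. -/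
theorem pieces {B : ℕ → ℝ} (hB : B 2 ≤ 1 / 10) (Na : ℕ) : ∃ C0 : ℝ, 1 ≤ C0 ∧
    ∀ q M0 h g R D, St B q Na M0 1 h g R D →
    (g = fun ξ => ∑ k ∈ caps (1 / 24), g ξ * capf h (1 / 24) k ξ) ∧
    ∀ k, (∃ ξ0, ZIn B q Na M0 1 ξ0 h (fun ξ => g ξ * capf h (1 / 24) k ξ) R (C0 * D)) ∧
      Integrable (fun ξ => g ξ * capf h (1 / 24) k ξ) ∧
      En (fun ξ => g ξ * capf h (1 / 24) k ξ) ≤ En g := by
  obtain ⟨C0, hC0, h0⟩ := pboxLe_piece Na 24 (by norm_num)
  refine ⟨C0, hC0, ?_⟩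
  intro q M0 h g R D hSt
  have hh := hSt.par.1
  have hn := Bn759.nearId hB hSt.par
  have hg1 : Integrable g := memLp_one_iff_integrable.1 (integ hSt.meas hSt.bdd hSt.supp 1)
  have hg2 : MemLp g 2 := integ hSt.meas hSt.bdd hSt.supp 2
  have hR1 := hSt.R1
  have hR0 : 0 < R := by linarith
  have hD0 := hSt.D0
  have hEn0 : 0 ≤ En g := integral_nonneg fun ξ => by positivity
  constructor
  · funext ξ
    by_cases hξ : g ξ = 0
    · simp [hξ]
    · have h1 : ‖ξ‖ ≤ 1 := by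
        by_contra hc
        exact hξ (hSt.supp ξ (not_le.1 hc))
      have h2 : ‖gradient h ξ‖ ≤ 2 := by
        have := grad_norm_le hn hSt.h1 ξ
        linarith
      rw [← Finset.mul_sum, capf_sum h (by norm_num) h2, mul_one]
  · intro k
    have hEn := En_mul_le hg2 (fun ξ => norm_capf_le h (1 / 24) k ξ)
    refine ⟨?_, ?_, hEn⟩
    · -- the centre
      have hcen : ∃ ξ0 : E2, ∀ ξ, (1 / 4 : ℝ) < ‖ξ - ξ0‖ → g ξ * capf h (1 / 24) k ξ = 0 := by
        by_cases hex : ∃ ξ0, capf h (1 / 24) k ξ0 ≠ 0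
        · obtain ⟨ξ0, hξ0⟩ := hex
          refine ⟨ξ0, fun ξ hξ => ?_⟩
          by_contra hc
          have h1 := capf_supp_ball hn (by norm_num) (right_ne_zero_of_mul hc) hξ0
          linarith
        · push Not at hex
          exact ⟨0, fun ξ _ => by rw [hex ξ, mul_zero]⟩
      obtain ⟨ξ0, hξ0⟩ := hcen
      refine ⟨ξ0, hSt.par, hSt.h0, hSt.h1, ?_, ?_, ?_, ?_, one_pos, le_rfl, hR1, by positivity, ?_, ?_⟩
      · exact hSt.meas.mul (contDiff_capf hh (1 / 24) k).continuous.measurable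
      · obtain ⟨M, hM⟩ := hSt.bdd
        refine ⟨M, fun ξ => ?_⟩
        rw [norm_mul]
        exact (mul_le_of_le_one_right (norm_nonneg _) (norm_capf_le h _ k ξ)).trans (hM ξ)
      · intro ξ hξ
        rw [hSt.supp ξ hξ, zero_mul]
      · intro ξ hξ
        exact hξ0 ξ hξ
      · have h1 := h0 q h g R D (1 / 24) hSt.box hR0 (by norm_num) (by norm_num) (by
          rw [mul_one_div_cancel (by norm_num)]
          exact Real.rpow_le_one_of_one_le_of_nonpos hR1 (by norm_num)) k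
        rwa [mul_one_div_cancel (by norm_num)] at h1
      · have h1 := hSt.nd
        have h2 : 0 ≤ R ^ M0 := (Real.rpow_pos_of_pos hR0 _).le
        calc En (fun ξ => g ξ * capf h (1 / 24) k ξ) ≤ En g := hEn
          _ ≤ R ^ M0 * D := h1
          _ ≤ R ^ M0 * (C0 * D) := by
            gcongr
            exact le_mul_of_one_le_left hD0 hC0
    · refine hg1.mul_bdd (c := 1) (contDiff_capf hh (1 / 24) k).continuous.aestronglyMeasurable
        (Filter.Eventually.of_forall fun ξ => norm_capf_le h _ k ξ)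

theorem SS_piece {g g' : E2 → ℂ} {R D C0 : ℝ} (hR : 0 ≤ R) (hE : En g' ≤ En g) (hD : 0 ≤ D)
    (hC0 : 1 ≤ C0) : SS g' R (C0 * D) ≤ C0 * SS g R D := by
  have hE0 : 0 ≤ En g' := integral_nonneg fun ξ => by positivity
  have hE1 : 0 ≤ En g := hE0.trans hE
  unfold SS
  rw [Real.sqrt_mul (by linarith)]
  have h1 : Real.sqrt C0 ≤ C0 := by
    rw [Real.sqrt_le_left (by linarith)]; nlinarith
  calc R * En g' * (Real.sqrt C0 * Real.sqrt D) ≤ R * En g * (C0 * Real.sqrt D) := by gcongr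
    _ = C0 * (R * En g * Real.sqrt D) := by ring

end Crest.Agent.R138.T774
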