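import Crest.Agent.R138.Hf1_774
import Crest.Agent.R138.A1b_774

/-!
# R138 / R139, WAVE side: HALF from ZoomNN, A5b from ZoomCC, A1 from A1n (helper774)
-/

set_option autoImplicit false

open MeasureTheory FourierTransform
open scoped ENNReal ContDiff

namespace Crest.Agent.R138.T774

open Crest.Agent.R138.Defs Crest.Agent.R138.Bil882 Crest.Agent.R138.W188 Crest.Agent.R138.Zm858
open Crest.Agent.R138.Sup882 (capf)
open Crest.Agent.R138.Wpk685 (caps)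

attribute [local instance] haar3

theorem A1_of_A1n {B : ℕ → ℝ} {q : ℝ}
    {F : ℝ → ℝ → ℝ → (E2 → ℝ) → (E2 → ℂ) → ℝ → ℝ≥0∞} {Na0 : ℕ} (H : A1n B q F Na0) :
    A1 B q F := fun ε hε => ⟨Na0, H ε hε⟩

theorem En_nn (g : E2 → ℂ) : 0 ≤ En g := integral_nonneg fun ξ => by positivity

theorem SS_nn {g : E2 → ℂ} {R D : ℝ} (hR : 0 ≤ R) : 0 ≤ SS g R D := by
  unfold SS
  have := En_nn g
  positivity

/-- **HALF** from the zoom. -/
theorem HALF_of_Zoom {B : ℕ → ℝ} {q : ℝ} (hB : B 2 ≤ 1 / 10) (hZ : ZoomNN B q) : HALF B q := by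
  intro c hc hLB ε hε Na M0
  obtain ⟨θ, hθ, hθ1, hZ⟩ := hZ
  obtain ⟨ε', hε', hε'1, hε'2⟩ : ∃ ε' : ℝ, 0 < ε' ∧ ε' ≤ 1 ∧ 2 * ε' ≤ ε :=
    ⟨min (ε / 2) 1, by positivity, min_le_right _ _, by
      have := min_le_left (ε / 2) 1; linarith⟩
  obtain ⟨Na', M0', hZ⟩ := hZ ε' hε' Na M0
  obtain ⟨N, C1, hC1, h1⟩ := hLB ε' hε' Na' M0'
  obtain ⟨N1, C2, hC2, h2⟩ := hZ N
  obtain ⟨C0, hC0, hp⟩ := pieces hB Na
  set K : ℝ := θ⁻¹ with hK
  have hK1 : 1 ≤ K := (one_le_inv₀ hθ).2 hθ1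
  have hK0 : 0 < K := by linarith
  set Kc : ℝ := (K ^ (N + 3)) ^ (3 / 2 : ℝ) with hKc
  have hKc0 : 0 ≤ Kc := by positivity
  obtain ⟨n, hn⟩ : ∃ n : ℕ, n = (caps (1 / 24)).card := ⟨_, rfl⟩
  set T : ℝ := 1 + Kc * C1 * K ^ (c / 2) with hT
  have hT1 : 1 ≤ T := by
    have : 0 ≤ Kc * C1 * K ^ (c / 2) := by positivity
    linarith
  refine ⟨N1, n ^ 3 * (C2 * T * C0), by positivity, ?_⟩
  intro h g R D w hSt hw1 hwR
  have hR1 := hSt.R1
  have hR0 : 0 < R := by linarith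
  have hw0 : 0 < w := by linarith
  obtain ⟨hg, hpc⟩ := hp q M0 h g R D hSt
  have hRe : 1 ≤ R ^ ε' := Real.one_le_rpow hR1 hε'.le
  have hw2 : w ^ 2 ≤ R := by
    calc w ^ 2 ≤ (R ^ (1 / 2 : ℝ)) ^ 2 := by gcongr
      _ = R := by rw [← Real.rpow_natCast, ← Real.rpow_mul hR0.le]; norm_num
  have hX : 1 ≤ R / w ^ 2 := by rw [le_div_iff₀ (by positivity)]; linarith
  have hXc : 1 ≤ (R / w ^ 2) ^ (c / 2) := Real.one_le_rpow hX (by linarith)
  set Q : ℝ := T * R ^ ε' * (R / w ^ 2) ^ (c / 2) with hQ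
  have hQ1 : 1 ≤ Q := one_le_mul_of_one_le_of_one_le (one_le_mul_of_one_le_of_one_le hT1 hRe) hXc
  -- the hypothesis of the zoom
  have hhyp : ∀ h' g' D', St B q Na' M0' (1 / 2) h' g' (θ * (1 ^ 2 * R)) D' →
      NN N h' g' (1 * w) (θ * (1 ^ 2 * R)) ≤ ENNReal.ofReal (Q * SS g' (θ * (1 ^ 2 * R)) D') := by
    intro h' g' D' hSt'
    rw [one_pow, one_mul] at hSt' ⊢
    rw [one_mul]
    have hR'1 := hSt'.R1
    have hR'0 : 0 < θ * R := by linarith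
    set w1 : ℝ := max 1 (θ * w) with hw1d
    have hw11 : 1 ≤ w1 := le_max_left _ _
    have hw10 : 0 < w1 := by linarith
    have hw1w : w1 ≤ w := max_le hw1 (mul_le_of_le_one_left hw0.le hθ1)
    have hww1 : w ≤ K * w1 := by
      rw [hK, le_inv_mul_iff₀ hθ]
      exact le_max_right _ _
    have hw1R : w1 ≤ (θ * R) ^ (1 / 2 : ℝ) := by
      refine max_le (Real.one_le_rpow hR'1 (by norm_num)) ?_
      rw [Real.mul_rpow hθ.le hR0.le]
      have : θ ≤ θ ^ (1 / 2 : ℝ) := by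
        nth_rw 1 [← Real.rpow_one θ]
        exact Real.rpow_le_rpow_of_exponent_ge hθ hθ1 (by norm_num)
      gcongr
    have e1 := NN_scale N hK1 hw0 hw10 hww1 (by nlinarith) h' g' (θ * R)
    have e2 := h1 h' g' (θ * R) D' w1 hSt' hw11 hw1R
    refine e1.trans ((mul_le_mul_right e2 _).trans ?_)
    rw [← hKc, ← ENNReal.ofReal_mul hKc0]
    apply ENNReal.ofReal_le_ofReal
    have hSS := SS_nn (g := g') (D := D') hR'0.le
    have e3 : (θ * R / w1 ^ 2) ^ (c / 2) ≤ K ^ (c / 2) * (R / w ^ 2) ^ (c / 2) := by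
      rw [← Real.mul_rpow hK0.le (by positivity)]
      refine Real.rpow_le_rpow (by positivity) ?_ (by linarith)
      rw [← mul_div_assoc, div_le_div_iff₀ (by positivity) (by positivity)]
      have h3 : θ * w ≤ w1 := le_max_right _ _
      have h4 : θ ^ 2 * w ^ 2 ≤ w1 ^ 2 := by
        rw [← mul_pow]; gcongr
      calc θ * R * w ^ 2 = K * R * (θ ^ 2 * w ^ 2) := by rw [hK]; field_simp
        _ ≤ K * R * w1 ^ 2 := by gcongr
    have e4 : (θ * R) ^ ε' ≤ R ^ ε' := by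
      refine Real.rpow_le_rpow hR'0.le ?_ hε'.le
      exact mul_le_of_le_one_left hR0.le hθ1
    calc Kc * (C1 * (θ * R) ^ ε' * (θ * R / w1 ^ 2) ^ (c / 2) * SS g' (θ * R) D')
        ≤ Kc * (C1 * R ^ ε' * (K ^ (c / 2) * (R / w ^ 2) ^ (c / 2)) * SS g' (θ * R) D') := by gcongr
      _ = (Kc * C1 * K ^ (c / 2)) * (R ^ ε' * (R / w ^ 2) ^ (c / 2) * SS g' (θ * R) D') := by ring
      _ ≤ T * (R ^ ε' * (R / w ^ 2) ^ (c / 2) * SS g' (θ * R) D') := by
          gcongr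
          rw [hT]; linarith
      _ = Q * SS g' (θ * R) D' := by rw [hQ]; ring
  -- the pieces
  have hpiece : ∀ k ∈ caps (1 / 24), NN N1 h (fun ξ => g ξ * capf h (1 / 24) k ξ) w R ≤
      ENNReal.ofReal (C2 * R ^ ε' * Q * (C0 * SS g R D)) := by
    intro k _
    obtain ⟨⟨ξ0, hin⟩, hi, hEn⟩ := hpc k
    have e1 := h2 h _ R (C0 * D) 1 ξ0 w hin (by
      rw [one_pow, one_mul]
      calc R ^ ε' ≤ R ^ (1 : ℝ) := Real.rpow_le_rpow_of_exponent_le hR1 hε'1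
        _ = R := Real.rpow_one R) (by linarith) hwR Q hQ1 hhyp
    refine (NN_mono (by linarith)).trans (e1.trans (ENNReal.ofReal_le_ofReal ?_))
    rw [Real.one_rpow, mul_one]
    have hQ0 : 0 ≤ Q := by linarith
    gcongr
    exact SS_piece hR0.le hEn hSt.D0 hC0
  have hsum := NN_sum N1 w R hSt.par.1.continuous (caps (1 / 24)) (fun k _ => (hpc k).2.1)
  rw [← hg, ← hn] at hsum
  have hSS := SS_nn (g := g) (D := D) hR0.le
  have hQ0 : 0 ≤ Q := by linarith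
  calc NN N1 h g w R ≤ (n : ℝ≥0∞) ^ 2 * ∑ k ∈ caps (1 / 24),
        NN N1 h (fun ξ => g ξ * capf h (1 / 24) k ξ) w R := hsum
    _ ≤ (n : ℝ≥0∞) ^ 2 * ∑ k ∈ caps (1 / 24), ENNReal.ofReal (C2 * R ^ ε' * Q * (C0 * SS g R D)) := by
        gcongr with k hk
        exact hpiece k hk
    _ = ENNReal.ofReal (n ^ 3 * (C2 * R ^ ε' * Q * (C0 * SS g R D))) := by
        rw [Finset.sum_const, nsmul_eq_mul, ENNReal.ofReal_mul (p := (n : ℝ) ^ 3) (by positivity),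
          ENNReal.ofReal_pow (by positivity), ENNReal.ofReal_natCast, ← hn]
        ring
    _ ≤ _ := by
        apply ENNReal.ofReal_le_ofReal
        have e5 : R ^ ε' * R ^ ε' ≤ R ^ ε := by
          rw [← Real.rpow_add hR0]
          exact Real.rpow_le_rpow_of_exponent_le hR1 (by linarith)
        calc (n : ℝ) ^ 3 * (C2 * R ^ ε' * Q * (C0 * SS g R D))
            = n ^ 3 * (C2 * T * C0) * (R ^ ε' * R ^ ε') * (R / w ^ 2) ^ (c / 2) * SS g R D := by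
              rw [hQ]; ring
          _ ≤ n ^ 3 * (C2 * T * C0) * R ^ ε * (R / w ^ 2) ^ (c / 2) * SS g R D := by gcongr

end Crest.Agent.R138.T774
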