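import Crest.Agent.R138.Hf2_774

/-!
# R138 / R139, WAVE side: A5b from ZoomCC (helper774)
-/

set_option autoImplicit false

open MeasureTheory FourierTransform
open scoped ENNReal ContDiff

namespace Crest.Agent.R138.T774

open Crest.Agent.R138.Defs Crest.Agent.R138.Bil882 Crest.Agent.R138.W188 Crest.Agent.R138.Zm858
open Crest.Agent.R138.Sup882 (capf)
open Crest.Agent.R138.Wpk685 (caps)

attribute [local instance] haar3

theorem wt_symm (N : ℕ) (w : ℝ) (z p : E2 × ℝ) : wt N w z.1 z.2 p = wt N w p.1 p.2 z := by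
  unfold wt
  rw [norm_sub_rev, abs_sub_comm]

theorem lint_wt_N {N : ℕ} (hN : 4 ≤ N) : ∃ C : ℝ, 0 ≤ C ∧ ∀ w : ℝ, 0 < w → ∀ z : E2 × ℝ,
    ∫⁻ p : E2 × ℝ, ENNReal.ofReal (wt N w z.1 z.2 p) ≤ ENNReal.ofReal (C * w ^ 3) := by
  obtain ⟨C, hC, h⟩ := lint_wt
  refine ⟨C, hC, fun w hw z => le_trans ?_ (h w hw z)⟩
  exact lintegral_mono fun p => ENNReal.ofReal_le_ofReal (wt_le_wt4 hN hw z p)

/-- Hölder: the average to the power `3/2` is bounded by the average of the cube. -/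
theorem AA_pow_le {N : ℕ} (hN : 4 ≤ N) : ∃ C : ℝ, 0 ≤ C ∧ ∀ w : ℝ, 0 < w →
    ∀ F : E2 × ℝ → ℂ, Measurable F → ∀ z : E2 × ℝ,
    AA N w F z ^ (3 / 2 : ℝ) ≤ ENNReal.ofReal (C * (w ^ 3)⁻¹) *
      ∫⁻ p : E2 × ℝ, ‖F p‖ₑ ^ 3 * ENNReal.ofReal (wt N w z.1 z.2 p) := by
  obtain ⟨C, hC, hw4⟩ := lint_wt_N hN
  refine ⟨C ^ (1 / 2 : ℝ), by positivity, fun w hw F hF z => ?_⟩
  have hm := (measurable_wt N w z.1 z.2).ennreal_ofReal
  have hFm : Measurable fun p => ‖F p‖ₑ := hF.enorm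
  have hp : (3 / 2 : ℝ).HolderConjugate 3 := by
    rw [Real.holderConjugate_iff]; norm_num
  have h1 := ENNReal.lintegral_mul_le_Lp_mul_Lq (volume : Measure (E2 × ℝ)) hp
    (f := fun p => ‖F p‖ₑ ^ 2 * ENNReal.ofReal (wt N w z.1 z.2 p) ^ (2 / 3 : ℝ))
    (g := fun p => ENNReal.ofReal (wt N w z.1 z.2 p) ^ (1 / 3 : ℝ))
    (show Measurable (fun p => ‖F p‖ₑ ^ 2 * ENNReal.ofReal (wt N w z.1 z.2 p) ^ (2 / 3 : ℝ)) from
      (hFm.pow_const 2).mul (hm.pow_const _)).aemeasurable (hm.pow_const _).aemeasurable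
  have e1 : ∀ p : E2 × ℝ, ((fun p => ‖F p‖ₑ ^ 2 * ENNReal.ofReal (wt N w z.1 z.2 p) ^ (2 / 3 : ℝ)) *
      (fun p => ENNReal.ofReal (wt N w z.1 z.2 p) ^ (1 / 3 : ℝ))) p =
      ‖F p‖ₑ ^ 2 * ENNReal.ofReal (wt N w z.1 z.2 p) := by
    intro p
    simp only [Pi.mul_apply]
    rw [mul_assoc, ← ENNReal.rpow_add_of_nonneg _ _ (by norm_num) (by norm_num)]
    norm_num
  have e2 : ∀ p : E2 × ℝ, (‖F p‖ₑ ^ 2 * ENNReal.ofReal (wt N w z.1 z.2 p) ^ (2 / 3 : ℝ)) ^ (3 / 2 : ℝ) =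
      ‖F p‖ₑ ^ 3 * ENNReal.ofReal (wt N w z.1 z.2 p) := by
    intro p
    rw [ENNReal.mul_rpow_of_nonneg _ _ (by norm_num), ← ENNReal.rpow_natCast, ← ENNReal.rpow_mul,
      ← ENNReal.rpow_mul, ← ENNReal.rpow_natCast]
    norm_num
  have e3 : ∀ p : E2 × ℝ, (ENNReal.ofReal (wt N w z.1 z.2 p) ^ (1 / 3 : ℝ)) ^ (3 : ℝ) =
      ENNReal.ofReal (wt N w z.1 z.2 p) := by
    intro p
    rw [← ENNReal.rpow_mul]; norm_num
  simp only [e1, e2, e3] at h1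
  unfold AA
  set J : ℝ≥0∞ := ∫⁻ p : E2 × ℝ, ‖F p‖ₑ ^ 3 * ENNReal.ofReal (wt N w z.1 z.2 p) with hJ
  calc (ENNReal.ofReal ((w ^ 3)⁻¹) * ∫⁻ p : E2 × ℝ, ‖F p‖ₑ ^ 2 *
        ENNReal.ofReal (wt N w z.1 z.2 p)) ^ (3 / 2 : ℝ)
      ≤ (ENNReal.ofReal ((w ^ 3)⁻¹) * (J ^ (1 / (3 / 2) : ℝ) *
        (ENNReal.ofReal (C * w ^ 3)) ^ (1 / 3 : ℝ))) ^ (3 / 2 : ℝ) := by
        gcongr
        refine h1.trans ?_
        gcongr
        exact hw4 w hw z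
    _ = _ := by
        rw [ENNReal.mul_rpow_of_nonneg _ _ (by norm_num), ENNReal.mul_rpow_of_nonneg _ _ (by norm_num),
          ← ENNReal.rpow_mul, ← ENNReal.rpow_mul, show (1 / (3 / 2) * (3 / 2) : ℝ) = 1 by norm_num,
          ENNReal.rpow_one, show (1 / 3 * (3 / 2) : ℝ) = 1 / 2 by norm_num,
          ENNReal.ofReal_rpow_of_nonneg (by positivity) (by norm_num),
          ENNReal.ofReal_rpow_of_nonneg (by positivity) (by norm_num),
          mul_comm J, ← mul_assoc, ← ENNReal.ofReal_mul (by positivity)]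
        congr 2
        rw [Real.mul_rpow hC (by positivity), ← Real.rpow_natCast, ← Real.rpow_neg hw.le,
          ← Real.rpow_mul hw.le, ← Real.rpow_mul hw.le, mul_left_comm, ← Real.rpow_add hw]
        norm_num

/-- the integral of the averages over a cylinder is bounded by the cubic integral. -/
theorem lint_AA_le {N : ℕ} (hN : 4 ≤ N) : ∃ C : ℝ, 0 ≤ C ∧ ∀ w : ℝ, 0 < w →
    ∀ F : E2 × ℝ → ℂ, Measurable F → ∀ R : ℝ,
    ∫⁻ z in cyl R, AA N w F z ^ (3 / 2 : ℝ) ≤ ENNReal.ofReal C * ∫⁻ p, ‖F p‖ₑ ^ 3 := by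
  obtain ⟨C, hC, h1⟩ := AA_pow_le hN
  obtain ⟨C', hC', h2⟩ := lint_wt_N hN
  refine ⟨C * C', by positivity, fun w hw F hF R => ?_⟩
  have hmeas : Measurable fun q : (E2 × ℝ) × (E2 × ℝ) =>
      ‖F q.2‖ₑ ^ 3 * ENNReal.ofReal (wt N w q.1.1 q.1.2 q.2) := by
    refine Measurable.mul ?_ (Measurable.ennreal_ofReal ?_)
    · exact (hF.comp measurable_snd).enorm.pow_const 3
    · unfold wt
      fun_prop
  have hswap : ∫⁻ z : E2 × ℝ, ∫⁻ p : E2 × ℝ, ‖F p‖ₑ ^ 3 * ENNReal.ofReal (wt N w z.1 z.2 p) =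
      ∫⁻ p : E2 × ℝ, ∫⁻ z : E2 × ℝ, ‖F p‖ₑ ^ 3 * ENNReal.ofReal (wt N w z.1 z.2 p) :=
    lintegral_lintegral_swap (μ := (volume : Measure (E2 × ℝ))) (ν := (volume : Measure (E2 × ℝ)))
      (f := fun z p => ‖F p‖ₑ ^ 3 * ENNReal.ofReal (wt N w z.1 z.2 p)) hmeas.aemeasurable
  have hinner : ∀ p : E2 × ℝ, ∫⁻ z : E2 × ℝ, ‖F p‖ₑ ^ 3 * ENNReal.ofReal (wt N w z.1 z.2 p) ≤
      ENNReal.ofReal (C' * w ^ 3) * ‖F p‖ₑ ^ 3 := by
    intro p
    have e1 : ∀ z : E2 × ℝ, wt N w z.1 z.2 p = wt N w p.1 p.2 z := fun z => wt_symm N w z p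
    simp_rw [e1]
    rw [lintegral_const_mul _ (measurable_wt N w p.1 p.2).ennreal_ofReal, mul_comm]
    exact mul_le_mul_left (h2 w hw p) _
  have hA : ∫⁻ z in cyl R, AA N w F z ^ (3 / 2 : ℝ) ≤ ∫⁻ z : E2 × ℝ,
      ENNReal.ofReal (C * (w ^ 3)⁻¹) *
        ∫⁻ p : E2 × ℝ, ‖F p‖ₑ ^ 3 * ENNReal.ofReal (wt N w z.1 z.2 p) :=
    (setLIntegral_le_lintegral _ _).trans (lintegral_mono fun z => h1 w hw F hF z)
  refine hA.trans ?_
  rw [lintegral_const_mul' _ _ ENNReal.ofReal_ne_top, hswap]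
  refine (mul_le_mul_right (lintegral_mono hinner) _).trans (le_of_eq ?_)
  rw [lintegral_const_mul' _ _ ENNReal.ofReal_ne_top, ← mul_assoc,
    ← ENNReal.ofReal_mul (by positivity)]
  congr 2
  field_simp

theorem wt_far2 {N : ℕ} (hN : 4 ≤ N) {w r : ℝ} (hw : 0 < w) (hr : 0 < r) {z p : E2 × ℝ}
    (hz : z ∈ cyl r) (hp : p ∉ cyl (2 * r)) :
    wt N w z.1 z.2 p ≤ (w / r) ^ (N - 4) * wt 4 w z.1 z.2 p := by
  obtain ⟨hz1, hz2⟩ := hz
  set a : ℝ := 1 + (‖p.1 - z.1‖ + |p.2 - z.2|) / w with ha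
  have h1 : r ≤ ‖p.1 - z.1‖ + |p.2 - z.2| := by
    have hp' : ¬ (‖p.1‖ ≤ 2 * r ∧ |p.2| ≤ 2 * r) := hp
    rw [not_and_or, not_le, not_le] at hp'
    rcases hp' with hp | hp
    · have h2 : ‖p.1‖ ≤ ‖p.1 - z.1‖ + ‖z.1‖ := by
        simpa using norm_add_le (p.1 - z.1) z.1
      have := abs_nonneg (p.2 - z.2)
      linarith
    · have h2 : |p.2| ≤ |p.2 - z.2| + |z.2| := by
        simpa using abs_add_le (p.2 - z.2) z.2
      have := norm_nonneg (p.1 - z.1)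
      linarith
  have h3 : r / w ≤ a := by
    rw [ha]
    have : r / w ≤ (‖p.1 - z.1‖ + |p.2 - z.2|) / w := by gcongr
    linarith
  have ha0 : 0 < a := lt_of_lt_of_le (by positivity) h3
  have h4 : (a ^ (N - 4))⁻¹ ≤ (w / r) ^ (N - 4) := by
    rw [← inv_pow]
    have : a⁻¹ ≤ w / r := by
      rw [inv_le_comm₀ ha0 (by positivity), inv_div]
      exact h3
    gcongr
  have e1 : wt N w z.1 z.2 p = (a ^ (N - 4))⁻¹ * (a ^ 4)⁻¹ := by
    unfold wt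
    rw [← mul_inv, ← pow_add, show N - 4 + 4 = N by omega]
  have e2 : wt 4 w z.1 z.2 p = (a ^ 4)⁻¹ := rfl
  rw [e1, e2]
  gcongr

/-- near and far part of the average. -/
theorem AA_split {N : ℕ} (hN : 4 ≤ N) : ∃ C : ℝ, 0 ≤ C ∧ ∀ (w r S : ℝ), 0 < w → 0 < r →
    0 ≤ S → ∀ F : E2 × ℝ → ℂ, Measurable F → (∀ p, ‖F p‖ ≤ S) →
    ∀ z ∈ cyl r, AA N w F z ≤ AA N w ((cyl (2 * r)).indicator F) z +
      ENNReal.ofReal (C * (S ^ 2 * (w / r) ^ (N - 4))) := by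
  obtain ⟨C, hC, h⟩ := lint_wt
  refine ⟨C, hC, fun w r S hw hr hS F hFm hF z hz => ?_⟩
  have h1 : ∀ p : E2 × ℝ, ‖F p‖ₑ ^ 2 * ENNReal.ofReal (wt N w z.1 z.2 p) ≤
      ‖(cyl (2 * r)).indicator F p‖ₑ ^ 2 * ENNReal.ofReal (wt N w z.1 z.2 p) +
      ENNReal.ofReal (S ^ 2 * (w / r) ^ (N - 4)) * ENNReal.ofReal (wt 4 w z.1 z.2 p) := by
    intro p
    by_cases hp : p ∈ cyl (2 * r)
    · rw [Set.indicator_of_mem hp]
      exact le_self_add
    · refine le_add_left ?_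
      rw [← ofReal_norm, ← ENNReal.ofReal_pow (norm_nonneg _), ← ENNReal.ofReal_mul (by positivity),
        ← ENNReal.ofReal_mul (by positivity)]
      apply ENNReal.ofReal_le_ofReal
      have h2 := hF p
      have h3 : ‖F p‖ ^ 2 ≤ S ^ 2 := by gcongr
      have hw4 := (wt_pos 4 hw z.1 z.2 p).le
      have hwN := (wt_pos N hw z.1 z.2 p).le
      calc ‖F p‖ ^ 2 * wt N w z.1 z.2 p ≤ S ^ 2 * ((w / r) ^ (N - 4) * wt 4 w z.1 z.2 p) := by
            gcongr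
            exact wt_far2 hN hw hr hz hp
        _ = (S ^ 2 * (w / r) ^ (N - 4)) * wt 4 w z.1 z.2 p := by ring
  unfold AA
  calc ENNReal.ofReal ((w ^ 3)⁻¹) * ∫⁻ p : E2 × ℝ, ‖F p‖ₑ ^ 2 * ENNReal.ofReal (wt N w z.1 z.2 p)
      ≤ ENNReal.ofReal ((w ^ 3)⁻¹) * ∫⁻ p : E2 × ℝ,
        (‖(cyl (2 * r)).indicator F p‖ₑ ^ 2 * ENNReal.ofReal (wt N w z.1 z.2 p) +
        ENNReal.ofReal (S ^ 2 * (w / r) ^ (N - 4)) * ENNReal.ofReal (wt 4 w z.1 z.2 p)) := by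
        exact mul_le_mul_right (lintegral_mono h1) _
    _ = ENNReal.ofReal ((w ^ 3)⁻¹) * (∫⁻ p : E2 × ℝ,
        ‖(cyl (2 * r)).indicator F p‖ₑ ^ 2 * ENNReal.ofReal (wt N w z.1 z.2 p)) +
        ENNReal.ofReal ((w ^ 3)⁻¹) * (ENNReal.ofReal (S ^ 2 * (w / r) ^ (N - 4)) *
        ∫⁻ p : E2 × ℝ, ENNReal.ofReal (wt 4 w z.1 z.2 p)) := by
        rw [lintegral_add_right _ ((measurable_wt 4 w z.1 z.2).ennreal_ofReal.const_mul _),
          lintegral_const_mul _ (measurable_wt 4 w z.1 z.2).ennreal_ofReal, mul_add]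
    _ ≤ _ := by
        gcongr
        calc ENNReal.ofReal ((w ^ 3)⁻¹) * (ENNReal.ofReal (S ^ 2 * (w / r) ^ (N - 4)) *
              ∫⁻ p : E2 × ℝ, ENNReal.ofReal (wt 4 w z.1 z.2 p))
            ≤ ENNReal.ofReal ((w ^ 3)⁻¹) * (ENNReal.ofReal (S ^ 2 * (w / r) ^ (N - 4)) *
              ENNReal.ofReal (C * w ^ 3)) := by
              gcongr
              exact h w hw z
          _ = _ := by
              rw [← ENNReal.ofReal_mul (by positivity), ← ENNReal.ofReal_mul (by positivity)]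
              congr 1
              field_simp

/-- **local averages are bounded by the cubic integral over the double cylinder**, up to a tail. -/
theorem lint_AA_split {N : ℕ} (hN : 4 ≤ N) : ∃ C : ℝ, 0 ≤ C ∧ ∀ (w r S : ℝ), 0 < w → 0 < r →
    0 ≤ S → ∀ F : E2 × ℝ → ℂ, Measurable F → (∀ p, ‖F p‖ ≤ S) →
    ∫⁻ z in cyl r, AA N w F z ^ (3 / 2 : ℝ) ≤
      ENNReal.ofReal C * (∫⁻ p in cyl (2 * r), ‖F p‖ₑ ^ 3) +
      ENNReal.ofReal (C * r ^ 3 * (S ^ 2 * (w / r) ^ (N - 4)) ^ (3 / 2 : ℝ)) := by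
  obtain ⟨C1, hC1, h1⟩ := AA_split hN
  obtain ⟨C2, hC2, h2⟩ := lint_AA_le hN
  obtain ⟨C3, hC3, h3⟩ := volume_cyl
  refine ⟨2 * C2 + 2 * C3 * C1 ^ (3 / 2 : ℝ), by positivity, fun w r S hw hr hS F hFm hF => ?_⟩
  set X : ℝ := S ^ 2 * (w / r) ^ (N - 4) with hX
  have hX0 : 0 ≤ X := by positivity
  set F1 : E2 × ℝ → ℂ := (cyl (2 * r)).indicator F with hF1
  have hF1m : Measurable F1 := hFm.indicator (measurableSet_cyl _)
  have hsub : ∀ a b : ℝ≥0∞, (a + b) ^ (3 / 2 : ℝ) ≤ ENNReal.ofReal 2 * (a ^ (3 / 2 : ℝ) + b ^ (3 / 2 : ℝ)) := by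
    intro a b
    refine (ENNReal.rpow_add_le_mul_rpow_add_rpow a b (by norm_num)).trans ?_
    gcongr
    calc (2 : ℝ≥0∞) ^ ((3 / 2 : ℝ) - 1) ≤ 2 ^ (1 : ℝ) :=
          ENNReal.rpow_le_rpow_of_exponent_le (by norm_num) (by norm_num)
      _ = ENNReal.ofReal 2 := by rw [ENNReal.rpow_one]; norm_num
  calc ∫⁻ z in cyl r, AA N w F z ^ (3 / 2 : ℝ)
      ≤ ∫⁻ z in cyl r, (ENNReal.ofReal 2 * AA N w F1 z ^ (3 / 2 : ℝ) +
        ENNReal.ofReal 2 * ENNReal.ofReal (C1 * X) ^ (3 / 2 : ℝ)) := by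
        refine setLIntegral_mono' (measurableSet_cyl r) fun z hz => ?_
        rw [← mul_add]
        exact (ENNReal.rpow_le_rpow (h1 w r S hw hr hS F hFm hF z hz) (by norm_num)).trans (hsub _ _)
    _ = ENNReal.ofReal 2 * (∫⁻ z in cyl r, AA N w F1 z ^ (3 / 2 : ℝ)) +
        ENNReal.ofReal 2 * ENNReal.ofReal (C1 * X) ^ (3 / 2 : ℝ) * volume (cyl r) := by
        rw [lintegral_add_right _ measurable_const,
          lintegral_const_mul' _ _ ENNReal.ofReal_ne_top, setLIntegral_const]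
    _ ≤ ENNReal.ofReal 2 * (ENNReal.ofReal C2 * ∫⁻ p, ‖F1 p‖ₑ ^ 3) +
        ENNReal.ofReal 2 * ENNReal.ofReal (C1 * X) ^ (3 / 2 : ℝ) * ENNReal.ofReal (C3 * r ^ 3) := by
        gcongr
        · exact h2 w hw F1 hF1m r
        · exact h3 r hr.le
    _ ≤ _ := by
        have e1 : ∫⁻ p, ‖F1 p‖ₑ ^ 3 = ∫⁻ p in cyl (2 * r), ‖F p‖ₑ ^ 3 := by
          rw [← lintegral_indicator (measurableSet_cyl _)]
          refine lintegral_congr fun p => ?_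
          rw [hF1]
          by_cases hp : p ∈ cyl (2 * r)
          · rw [Set.indicator_of_mem hp, Set.indicator_of_mem hp]
          · rw [Set.indicator_of_notMem hp, Set.indicator_of_notMem hp]; simp
        rw [e1]
        have hX3 : 0 ≤ X ^ (3 / 2 : ℝ) := by positivity
        have hC13 : 0 ≤ C1 ^ (3 / 2 : ℝ) := by positivity
        gcongr ?_ + ?_
        · rw [← mul_assoc, ← ENNReal.ofReal_mul (by norm_num)]
          refine mul_le_mul_left (ENNReal.ofReal_le_ofReal ?_) _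
          have : 0 ≤ 2 * C3 * C1 ^ (3 / 2 : ℝ) := by positivity
          linarith
        · rw [ENNReal.ofReal_rpow_of_nonneg (by positivity) (by norm_num),
            ← ENNReal.ofReal_mul (by norm_num), ← ENNReal.ofReal_mul (by positivity)]
          apply ENNReal.ofReal_le_ofReal
          rw [Real.mul_rpow hC1 hX0]
          calc 2 * (C1 ^ (3 / 2 : ℝ) * X ^ (3 / 2 : ℝ)) * (C3 * r ^ 3)
              = (2 * C3 * C1 ^ (3 / 2 : ℝ)) * r ^ 3 * X ^ (3 / 2 : ℝ) := by ring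
            _ ≤ _ := by
                gcongr
                linarith

theorem St.one {B : ℕ → ℝ} {q : ℝ} {Na : ℕ} {M0 σ : ℝ} {h : E2 → ℝ} {g : E2 → ℂ} {R D : ℝ}
    (hσ : σ ≤ 1) (H : St B q Na M0 σ h g R D) : St B q Na M0 1 h g R D :=
  ⟨H.par, H.h0, H.h1, H.meas, H.bdd, fun ξ hξ => H.supp ξ (hσ.trans_lt hξ), H.R1, H.D0, H.box, H.nd⟩

/-- the tail is absorbed by the nondegeneracy. -/
theorem tail_le {C4 R w E D M0 : ℝ} {L : ℕ} (hC4 : 0 ≤ C4) (hR : 1 ≤ R) (hw : 0 < w)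
    (hwR : w ≤ R ^ (1 / 2 : ℝ)) (hE : 0 ≤ E) (hD : 0 ≤ D) (hnd : E ≤ R ^ M0 * D)
    (hL : M0 ≤ 2 * (L : ℝ)) :
    R ^ 3 * ((C4 * Real.sqrt E) ^ 2 * (w / R) ^ (2 * L + 12 - 4)) ^ (3 / 2 : ℝ) ≤
      C4 ^ 3 * (R * E * Real.sqrt D) := by
  have hR0 : 0 < R := by linarith
  set ρ : ℝ := (R ^ (L + 4))⁻¹ with hρ
  have hρ0 : 0 < ρ := by positivity
  have hρ1 : ρ ≤ 1 := inv_le_one_of_one_le₀ (one_le_pow₀ hR)
  have h1 : (w / R) ^ (2 * L + 12 - 4) ≤ ρ := by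
    have h2 : (w / R) ^ 2 ≤ R⁻¹ := by
      rw [div_pow, div_le_iff₀ (by positivity)]
      calc w ^ 2 ≤ (R ^ (1 / 2 : ℝ)) ^ 2 := by gcongr
        _ = R := by rw [← Real.rpow_natCast, ← Real.rpow_mul hR0.le]; norm_num
        _ = R⁻¹ * R ^ 2 := by field_simp
    calc (w / R) ^ (2 * L + 12 - 4) = ((w / R) ^ 2) ^ (L + 4) := by
          rw [← pow_mul]; congr 1
      _ ≤ (R⁻¹) ^ (L + 4) := by gcongr
      _ = ρ := by rw [hρ, inv_pow]
  set a : ℝ := (C4 * Real.sqrt E) ^ 2 * (w / R) ^ (2 * L + 12 - 4) with ha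
  have ha0 : 0 ≤ a := by positivity
  have hS2 : (C4 * Real.sqrt E) ^ 2 = C4 ^ 2 * E := by rw [mul_pow, Real.sq_sqrt hE]
  have ha1 : a ≤ C4 ^ 2 * E * ρ := by
    rw [ha, hS2]; gcongr
  have ha2 : Real.sqrt a ≤ C4 * (R ^ L * Real.sqrt D) := by
    have h3 : a ≤ (C4 * Real.sqrt E) ^ 2 := by
      rw [hS2]
      calc a ≤ C4 ^ 2 * E * ρ := ha1
        _ ≤ C4 ^ 2 * E * 1 := by gcongr
        _ = C4 ^ 2 * E := mul_one _
    have h4 : Real.sqrt E ≤ R ^ L * Real.sqrt D := by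
      have h5 : E ≤ (R ^ L) ^ 2 * D := by
        refine hnd.trans ?_
        gcongr
        rw [← pow_mul, ← Real.rpow_natCast]
        exact Real.rpow_le_rpow_of_exponent_le hR (by push_cast; linarith)
      calc Real.sqrt E ≤ Real.sqrt ((R ^ L) ^ 2 * D) := Real.sqrt_le_sqrt h5
        _ = R ^ L * Real.sqrt D := by
          rw [Real.sqrt_mul (by positivity), Real.sqrt_sq (by positivity)]
    calc Real.sqrt a ≤ Real.sqrt ((C4 * Real.sqrt E) ^ 2) := Real.sqrt_le_sqrt h3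
      _ = C4 * Real.sqrt E := Real.sqrt_sq (by positivity)
      _ ≤ _ := by gcongr
  have h32 : a ^ (3 / 2 : ℝ) = a * Real.sqrt a := by
    rcases eq_or_lt_of_le ha0 with h0 | h0
    · rw [← h0]; norm_num
    · rw [show (3 / 2 : ℝ) = 1 + 1 / 2 by norm_num, Real.rpow_add h0, Real.rpow_one,
        Real.sqrt_eq_rpow]
  rw [h32]
  calc R ^ 3 * (a * Real.sqrt a)
      ≤ R ^ 3 * ((C4 ^ 2 * E * ρ) * (C4 * (R ^ L * Real.sqrt D))) := by gcongr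
    _ = C4 ^ 3 * ((R ^ 3 * R ^ L * ρ) * E * Real.sqrt D) := by ring
    _ ≤ C4 ^ 3 * (R * E * Real.sqrt D) := by
        gcongr
        rw [hρ, ← pow_add, ← div_eq_mul_inv, div_le_iff₀ (by positivity)]
        calc R ^ (3 + L) ≤ R ^ (L + 5) := pow_le_pow_right₀ hR (by omega)
          _ = R * R ^ (L + 4) := by ring

/-- **A5b** from the zoom. -/
theorem A5b_of_Zoom {B : ℕ → ℝ} {q : ℝ} (hB : B 2 ≤ 1 / 10) (hZ : ZoomCC B q) : A5b B q := by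
  obtain ⟨θ, hθ, hθ1, hZ⟩ := hZ
  refine ⟨θ, hθ, hθ1, fun ε hε Na M0 => ?_⟩
  obtain ⟨ε', hε', hε'1, hε'2⟩ : ∃ ε' : ℝ, 0 < ε' ∧ ε' ≤ 1 ∧ ε' ≤ ε :=
    ⟨min ε 1, by positivity, min_le_right _ _, min_le_left _ _⟩
  obtain ⟨Na', M0', C2, hC2, h2⟩ := hZ ε' hε' Na M0
  obtain ⟨C0, hC0, hp⟩ := pieces hB Na
  obtain ⟨L, hL⟩ := exists_nat_ge M0
  obtain ⟨C3, hC3, h3⟩ := lint_AA_split (N := 2 * L + 12) (by omega)
  obtain ⟨C4, hC4, h4⟩ := ext_le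
  obtain ⟨n, hn⟩ : ∃ n : ℕ, n = (caps (1 / 24)).card := ⟨_, rfl⟩
  refine ⟨2 * L + 12, Na', M0', C3 * (n ^ 3 * (C2 * C0)) + C3 * C4 ^ 3, by positivity, ?_⟩
  intro h g R D hSt w hw1 hwR Q hQ hhyp
  have hR1 := hSt.R1
  have hR0 : 0 < R := by linarith
  have hw0 : 0 < w := by linarith
  have hEn := En_nn g
  have hD0 := hSt.D0
  have hg1 : Integrable g := memLp_one_iff_integrable.1 (integ hSt.meas hSt.bdd hSt.supp 1)
  obtain ⟨hg, hpc⟩ := hp q M0 h g R D hSt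
  -- cubic integral
  have hpiece : ∀ k ∈ caps (1 / 24), CC h (fun ξ => g ξ * capf h (1 / 24) k ξ) (2 * R) ≤
      ENNReal.ofReal (C2 * R ^ ε' * Q * (C0 * SS g R D)) := by
    intro k _
    obtain ⟨⟨ξ0, hin⟩, hi, hEn⟩ := hpc k
    have e1 := h2 h _ R (C0 * D) 1 ξ0 hin (by
      rw [one_pow, one_mul]
      calc R ^ ε' ≤ R ^ (1 : ℝ) := Real.rpow_le_rpow_of_exponent_le hR1 hε'1
        _ = R := Real.rpow_one R) Q hQ (by
      intro h' g' D' hSt'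
      rw [one_pow, one_mul] at hSt' ⊢
      exact hhyp h' g' (θ * R) D' (St.one (by norm_num) hSt') le_rfl
        (mul_le_of_le_one_left hR0.le hθ1))
    refine e1.trans (ENNReal.ofReal_le_ofReal ?_)
    rw [Real.one_rpow, mul_one]
    have hQ0 : 0 ≤ Q := by linarith
    gcongr
    exact SS_piece hR0.le hEn hSt.D0 hC0
  have hsum := CC_sum (2 * R) hSt.par.1.continuous (caps (1 / 24)) (fun k _ => (hpc k).2.1)
  rw [← hg, ← hn] at hsum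
  have hSS := SS_nn (g := g) (D := D) hR0.le
  have hQ0 : 0 ≤ Q := by linarith
  have hCC : CC h g (2 * R) ≤ ENNReal.ofReal (n ^ 3 * (C2 * R ^ ε' * Q * (C0 * SS g R D))) := by
    calc CC h g (2 * R) ≤ (n : ℝ≥0∞) ^ 2 * ∑ k ∈ caps (1 / 24),
          CC h (fun ξ => g ξ * capf h (1 / 24) k ξ) (2 * R) := hsum
      _ ≤ (n : ℝ≥0∞) ^ 2 * ∑ k ∈ caps (1 / 24), ENNReal.ofReal (C2 * R ^ ε' * Q * (C0 * SS g R D)) := by
          gcongr with k hk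
          exact hpiece k hk
      _ = ENNReal.ofReal (n ^ 3 * (C2 * R ^ ε' * Q * (C0 * SS g R D))) := by
          rw [Finset.sum_const, nsmul_eq_mul, ENNReal.ofReal_mul (p := (n : ℝ) ^ 3) (by positivity),
            ENNReal.ofReal_pow (by positivity), ENNReal.ofReal_natCast, ← hn]
          ring
  -- averages
  have h5 := h3 w R (C4 * Real.sqrt (En g)) hw0 hR0 (by positivity)
    (fun p => ext h g p.1 p.2) (F4x858.continuous_ext hSt.par.1.continuous hg1).measurable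
    (fun p => h4 h g hSt.meas hSt.bdd (fun ξ hξ => hSt.supp ξ (by linarith)) p.1 p.2)
  have h6 := tail_le (L := L) hC4 hR1 hw0 hwR hEn hD0 hSt.nd (by
    have : (0:ℝ) ≤ L := Nat.cast_nonneg _
    linarith)
  have hRe : R ^ ε' ≤ R ^ ε := Real.rpow_le_rpow_of_exponent_le hR1 hε'2
  have hRe1 : 1 ≤ R ^ ε := Real.one_le_rpow hR1 hε.le
  calc NN (2 * L + 12) h g w R
      ≤ ENNReal.ofReal C3 * CC h g (2 * R) + ENNReal.ofReal (C3 * R ^ 3 *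
        ((C4 * Real.sqrt (En g)) ^ 2 * (w / R) ^ (2 * L + 12 - 4)) ^ (3 / 2 : ℝ)) := h5
    _ ≤ ENNReal.ofReal C3 * ENNReal.ofReal (n ^ 3 * (C2 * R ^ ε' * Q * (C0 * SS g R D))) +
        ENNReal.ofReal (C3 * (C4 ^ 3 * SS g R D)) := by
        gcongr ?_ + ?_
        · exact mul_le_mul_right hCC _
        · apply ENNReal.ofReal_le_ofReal
          rw [mul_assoc]
          exact mul_le_mul_of_nonneg_left h6 hC3
    _ = ENNReal.ofReal (C3 * (n ^ 3 * (C2 * R ^ ε' * Q * (C0 * SS g R D))) +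
        C3 * (C4 ^ 3 * SS g R D)) := by
        rw [← ENNReal.ofReal_mul hC3, ← ENNReal.ofReal_add (by positivity) (by positivity)]
    _ ≤ _ := by
        apply ENNReal.ofReal_le_ofReal
        have e1 : C3 * (n ^ 3 * (C2 * R ^ ε' * Q * (C0 * SS g R D))) ≤
            C3 * (n ^ 3 * (C2 * C0)) * R ^ ε * Q * SS g R D := by
          calc C3 * (n ^ 3 * (C2 * R ^ ε' * Q * (C0 * SS g R D)))
              = C3 * (n ^ 3 * (C2 * C0)) * R ^ ε' * Q * SS g R D := by ring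
            _ ≤ _ := by gcongr
        have e2 : C3 * (C4 ^ 3 * SS g R D) ≤ C3 * C4 ^ 3 * R ^ ε * Q * SS g R D := by
          have h7 : 1 ≤ R ^ ε * Q := one_le_mul_of_one_le_of_one_le hRe1 hQ
          calc C3 * (C4 ^ 3 * SS g R D) = C3 * C4 ^ 3 * 1 * SS g R D := by ring
            _ ≤ C3 * C4 ^ 3 * (R ^ ε * Q) * SS g R D := by gcongr
            _ = _ := by ring
        calc _ ≤ C3 * (n ^ 3 * (C2 * C0)) * R ^ ε * Q * SS g R D +
              C3 * C4 ^ 3 * R ^ ε * Q * SS g R D := add_le_add e1 e2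
          _ = _ := by ring

end Crest.Agent.R138.T774
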