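import Crest.Agent.R138.Hp1_759
import Crest.Agent.R138.Up3_448
import Crest.Agent.R138.Bn3_759
import Crest.Agent.R138.RR1_323

/-!
# R138 / R139, WAVE side, slab step, pointwise input `(H)` (helper759), second part

`nu_sel` : the strip count of 448's `upper_sel'` from coherence; `um_slice` : transport of one packet
in a slowly varying weight; `slab_H` : the pointwise input of SUPM.
-/

set_option autoImplicit false

open MeasureTheory FourierTransform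
open scoped ENNReal ContDiff

namespace Crest.Agent.R138.Hp759

open Crest.Agent.R138.Defs Crest.Agent.R138.Wpk685 Crest.Agent.R138.Loc878
open Crest.Agent.R138.Bil882 (NearId)
open Crest.Agent.R138.W188 (tr)
open Crest.Agent.R138.Wf448 (dw gw dw_pos sl)
open Crest.Agent.R138.Up448 (bx norm_bx_sq norm_bx_ge upper_sel' card_caps_le')
open Crest.Agent.R138.Ad480 (wa Ac Ad Ac_mono Ad_mono Ac_shift Ad_transport sum_Ad_le)
open Crest.Agent.R138.Rect779 (orth RectF class_count card_caps_le mult_le)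
open Crest.Agent.R138.Sup882 (grad_lip)
open Crest.Agent.R138.Bn759 (nearId)

/-- coherence of the parent selection `S` around the normal `N` (constants of 654): every selected
point `(m, y)` has a normal `N0` close to `± N` such that at most `p` caps of the thin rectangle of
`m` carry a selected point at distance `≤ Kh` of `y`. -/
def Coh8 (θ θ' δ Kh p : ℝ) (S : ℤ × ℤ → Set E2) (N : E2) : Prop :=
  ∀ m, ∀ y ∈ S m, ∃ N0 : E2, ‖N0‖ = 1 ∧ (‖N0 - N‖ ≤ δ ∨ ‖N0 + N‖ ≤ δ) ∧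
    ∀ W : Finset (ℤ × ℤ), W ⊆ caps θ →
      (∀ m1 ∈ W, cen θ m1 ∈ RectF N0 (cen θ m) (8 * θ') (4 * θ)) →
      (∀ m1 ∈ W, ∃ y1 ∈ S m1, ‖y1 - y‖ ≤ Kh) → (W.card : ℝ) ≤ p

/-- the strip count of `upper_sel`. -/
theorem nu_sel {h : E2 → ℝ} (hn : NearId h (1 / 10)) (b : OrthonormalBasis (Fin 2) ℝ E2)
    {θ θ' δ X Kh p : ℝ} (hθ : 0 < θ) (hθ' : θ ≤ θ') (hδ : 8 * (δ * θ') ≤ θ) (hp : 0 ≤ p)
    {S : ℤ × ℤ → Set E2}
    (hcoh : Coh8 θ θ' δ Kh p S (b 0)) {z : E2 × ℝ} {c : E2} (m' : ℤ × ℤ)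
    (hKh : 2 * X / θ + |z.2| * (11 / 10 * (6 * θ')) ≤ Kh) (κ : ℤ) :
    (Set.ncard {m | m ∈ nearL θ θ' m' ∧
      (∃ y ∈ S m, θ * ‖y - z.1 - z.2 • gradient h (cen θ m) - c‖ ≤ X) ∧
      |(inner ℝ (cen θ m) (b 1) : ℝ) - κ * θ| ≤ θ} : ℝ) ≤ 8 * p := by
  classical
  have hθ'0 : 0 < θ' := lt_of_lt_of_le hθ hθ'
  set W : Finset (ℤ × ℤ) := (nearL θ θ' m').filter fun m =>
    (∃ y ∈ S m, θ * ‖y - z.1 - z.2 • gradient h (cen θ m) - c‖ ≤ X) ∧
      |(inner ℝ (cen θ m) (b 1) : ℝ) - κ * θ| ≤ θ with hW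
  have e0 : {m | m ∈ nearL θ θ' m' ∧
      (∃ y ∈ S m, θ * ‖y - z.1 - z.2 • gradient h (cen θ m) - c‖ ≤ X) ∧
      |(inner ℝ (cen θ m) (b 1) : ℝ) - κ * θ| ≤ θ} = (W : Set (ℤ × ℤ)) := by
    ext m
    simp [hW]
  rw [e0, Set.ncard_coe_finset]
  rcases W.eq_empty_or_nonempty with h0 | hWne
  · rw [h0]; simp; positivity
  have hWp : ∀ w ∈ W, w ∈ caps θ ∧ ‖cen θ w - cen θ' m'‖ < 3 * θ' ∧
      (∃ y ∈ S w, θ * ‖y - z.1 - z.2 • gradient h (cen θ w) - c‖ ≤ X) ∧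
      |(inner ℝ (cen θ w) (b 1) : ℝ) - κ * θ| ≤ θ := by
    intro w hw
    obtain ⟨h1, h2, h3⟩ := Finset.mem_filter.1 hw
    exact ⟨(mem_nearL.1 h1).1, (mem_nearL.1 h1).2, h2, h3⟩
  have hWy : ∀ w : ℤ × ℤ, ∃ y : E2, w ∈ W → y ∈ S w ∧
      θ * ‖y - z.1 - z.2 • gradient h (cen θ w) - c‖ ≤ X := by
    intro w
    by_cases hw : w ∈ W
    · obtain ⟨y, h1, h2⟩ := (hWp w hw).2.2.1
      exact ⟨y, fun _ => ⟨h1, h2⟩⟩
    · exact ⟨0, fun h => absurd h hw⟩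
  choose Y hY using hWy
  have hN : ∀ w : ℤ × ℤ, ∃ N0 : E2, w ∈ W → ‖N0‖ = 1 ∧ (‖N0 - b 0‖ ≤ δ ∨ ‖N0 + b 0‖ ≤ δ) ∧
      ∀ W' : Finset (ℤ × ℤ), W' ⊆ caps θ →
        (∀ m1 ∈ W', cen θ m1 ∈ RectF N0 (cen θ w) (8 * θ') (4 * θ)) →
        (∀ m1 ∈ W', ∃ y1 ∈ S m1, ‖y1 - Y w‖ ≤ Kh) → (W'.card : ℝ) ≤ p := by
    intro w
    by_cases hw : w ∈ W
    · obtain ⟨N0, h1, h2, h3⟩ := hcoh w (Y w) (hY w hw).1
      exact ⟨N0, fun _ => ⟨h1, h2, h3⟩⟩
    · exact ⟨0, fun h => absurd h hw⟩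
  choose N0 hN0 using hN
  have hdist : ∀ m ∈ W, ∀ m1 ∈ W, ‖cen θ m - cen θ m1‖ ≤ 6 * θ' := by
    intro m hm m1 hm1
    have h3 := (hWp m hm).2.1
    have h4 := (hWp m1 hm1).2.1
    have e : cen θ m - cen θ m1 = (cen θ m - cen θ' m') - (cen θ m1 - cen θ' m') := by abel
    rw [e]
    exact (norm_sub_le _ _).trans (by linarith)
  have ho : ∀ m ∈ W, ∀ m1 ∈ W, ‖orth (b 0) (cen θ m - cen θ m1)‖ ≤ 2 * θ := by
    intro m hm m1 hm1
    rw [norm_orth_basis, inner_sub_left]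
    have h3 := (hWp m hm).2.2.2
    have h4 := (hWp m1 hm1).2.2.2
    rw [abs_le] at h3 h4 ⊢
    constructor <;> linarith
  have ha : ∀ m ∈ W, ∀ m1 ∈ W,
      |(inner ℝ (b 0) (gradient h (cen θ m) - gradient h (cen θ m1)) : ℝ)| ≤ 33 / 5 * θ' := by
    intro m hm m1 hm1
    have h5 := grad_lip hn (cen θ m) (cen θ m1)
    have h6 := hdist m hm m1 hm1
    have h7 := Rect779.abs_inner_le (b.norm_eq_one 0) (gradient h (cen θ m) - gradient h (cen θ m1))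
    linarith
  obtain ⟨m0, hm0, h1⟩ := class_count hn (b.norm_eq_one 0) hθ hWne (a := 33 / 5 * θ') (K := 2)
    (L := 4 * θ') (δ := δ) (by positivity) (by norm_num) (by linarith) ho ha
    (fun w hw => (hN0 w hw).1) (fun w hw => (hN0 w hw).2.1)
  have h3 : (20 / 9 * (33 / 5 * θ' / (4 * θ')) + 4 : ℝ) ≤ 8 := by
    have : (33 / 5 * θ' / (4 * θ') : ℝ) = 33 / 20 := by field_simp; norm_num
    rw [this]; norm_num
  refine h1.trans (mul_le_mul h3 ?_ (Nat.cast_nonneg _) (by norm_num))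
  clear h1 h3
  · refine (hN0 m0 hm0).2.2 _ (fun w hw => (hWp w (Finset.mem_filter.1 hw).1).1) ?_ ?_
    · intro w hw
      obtain ⟨h3, h4⟩ := (Finset.mem_filter.1 hw).2
      exact ⟨by linarith, by linarith⟩
    · intro w hw
      obtain ⟨hw1, hw2⟩ := Finset.mem_filter.1 hw
      refine ⟨Y w, (hY w hw1).1, ?_⟩
      have h3 := (hY w hw1).2
      have h4 := (hY m0 hm0).2
      have h5 := grad_lip hn (cen θ w) (cen θ m0)
      have h6 := hdist w hw1 m0 hm0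
      have e : Y w - Y m0 = (Y w - z.1 - z.2 • gradient h (cen θ w) - c) -
          (Y m0 - z.1 - z.2 • gradient h (cen θ m0) - c) +
          z.2 • (gradient h (cen θ w) - gradient h (cen θ m0)) := by
        rw [smul_sub]; abel
      rw [e]
      refine (norm_add_le _ _).trans ?_
      have h7 := norm_sub_le (Y w - z.1 - z.2 • gradient h (cen θ w) - c)
        (Y m0 - z.1 - z.2 • gradient h (cen θ m0) - c)
      have h8 : ‖z.2 • (gradient h (cen θ w) - gradient h (cen θ m0))‖ ≤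
          |z.2| * (11 / 10 * (6 * θ')) := by
        rw [norm_smul, Real.norm_eq_abs]
        refine mul_le_mul_of_nonneg_left ?_ (abs_nonneg _)
        linarith
      have h9 : ‖Y w - z.1 - z.2 • gradient h (cen θ w) - c‖ ≤ X / θ := by
        rw [le_div_iff₀ hθ, mul_comm]; exact h3
      have h10 : ‖Y m0 - z.1 - z.2 • gradient h (cen θ m0) - c‖ ≤ X / θ := by
        rw [le_div_iff₀ hθ, mul_comm]; exact h4
      have e2 : 2 * X / θ = X / θ + X / θ := by ring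
      linarith

/-! ### the anisotropic weight -/

theorem norm_bx_le (b : OrthonormalBasis (Fin 2) ℝ E2) {θ θ' : ℝ} (hθ : 0 ≤ θ) (hθ' : θ ≤ θ')
    (v : E2) : ‖bx b θ' θ v‖ ≤ θ' * ‖v‖ := by
  have hθ'0 : 0 ≤ θ' := hθ.trans hθ'
  have h1 := norm_bx_sq b θ' θ v
  have h2 : ‖v‖ ^ 2 = (inner ℝ v (b 0)) ^ 2 + (inner ℝ v (b 1)) ^ 2 := by
    rw [← b.sum_sq_norm_inner_left v, Fin.sum_univ_two]
    simp
  have h3 : ‖bx b θ' θ v‖ ^ 2 ≤ (θ' * ‖v‖) ^ 2 := by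
    rw [h1, mul_pow θ' ‖v‖, h2, mul_pow, mul_pow, mul_add]
    have : θ ^ 2 ≤ θ' ^ 2 := by gcongr
    nlinarith [sq_nonneg (inner ℝ v (b 1) : ℝ)]
  exact (pow_le_pow_iff_left₀ (norm_nonneg _) (by positivity) two_ne_zero).1 h3

theorem SV_bx (b : OrthonormalBasis (Fin 2) ℝ E2) {θ θ' : ℝ} (hθ : 0 < θ) (hθ' : θ ≤ θ') (n : ℕ)
    (x : E2) : SV θ' (2 ^ n) (2 * n) (fun y => dw n (bx b θ' θ) (y - x)) := by
  have hθ'0 : 0 < θ' := lt_of_lt_of_le hθ hθ'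
  refine ⟨?_, fun y => dw_pos _ _ _, fun y y' => ?_⟩
  · exact ((Wf448.temperate_dw n (bx b θ' θ)).1.continuous.comp
      (continuous_id.sub continuous_const)).measurable
  · unfold dw gw
    have h1 : ‖bx b θ' θ (y' - x)‖ ≤ θ' * ‖y - y'‖ + ‖bx b θ' θ (y - x)‖ := by
      have e : bx b θ' θ (y' - x) = -(bx b θ' θ (y - y')) + bx b θ' θ (y - x) := by
        rw [← map_neg, ← map_add]; congr 1; abel
      rw [e]
      refine (norm_add_le _ _).trans ?_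
      rw [norm_neg]
      have := norm_bx_le b hθ.le hθ' (y - y')
      linarith
    set u := ‖bx b θ' θ (y - x)‖ with hu
    set u' := ‖bx b θ' θ (y' - x)‖ with hu'
    have hu0 : 0 ≤ u := norm_nonneg _
    have hu'0 : 0 ≤ u' := norm_nonneg _
    set d := θ' * ‖y - y'‖ with hd
    have hd0 : 0 ≤ d := by positivity
    rw [← div_eq_mul_inv, inv_eq_one_div, div_le_div_iff₀ (by positivity) (by positivity), one_mul,
      pow_mul, ← mul_pow, ← mul_pow]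
    refine pow_le_pow_left₀ (by positivity) ?_ n
    nlinarith [mul_nonneg hd0 hu0, mul_nonneg hd0 (sq_nonneg u), sq_nonneg (d * u),
      mul_nonneg hd0 hd0, sq_nonneg (d - u)]

theorem dw_add (n k : ℕ) (A : E2 →L[ℝ] E2) (v : E2) : dw (n + k) A v = dw n A v * dw k A v := by
  unfold dw gw
  rw [pow_add, mul_inv]

theorem dw_bx_far (b : OrthonormalBasis (Fin 2) ℝ E2) {θ θ' X : ℝ} (hθ : 0 ≤ θ) (hθ' : θ ≤ θ')
    (hX : 1 ≤ X) (k : ℕ) {v : E2} (hv : X ≤ θ * ‖v‖) :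
    dw k (bx b θ' θ) v ≤ ((1 + X) ^ k)⁻¹ := by
  unfold dw gw
  refine inv_anti₀ (by positivity) (pow_le_pow_left₀ (by positivity) ?_ k)
  have h1 := norm_bx_ge b hθ hθ' v
  rw [iso_apply, norm_smul, Real.norm_eq_abs, abs_of_nonneg hθ] at h1
  have h2 : X ≤ ‖bx b θ' θ v‖ := hv.trans h1
  nlinarith

theorem dw_anti (n k : ℕ) (A : E2 →L[ℝ] E2) (v : E2) : dw (n + k) A v ≤ dw n A v := by
  rw [dw_add]
  exact mul_le_of_le_one_right (dw_pos _ _ _).le (Wf448.dw_le_one _ _ _)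

/-- transport of one packet from time `0` to time `t`, any slowly varying weight. -/
theorem um_slice (B : ℕ → ℝ) (n : ℕ) (L : ℝ) (hL : 1 ≤ L) : ∃ C : ℝ, 0 ≤ C ∧ ∀ h, ParB B h →
    ∀ (ρ A : ℝ) (w : E2 → ℝ), 0 < ρ → ρ ≤ 1 → SV ρ A n w → ∀ (g : E2 → ℂ), Integrable g →
    MemLp g 2 → ∀ (m : ℤ × ℤ) (t : ℝ), |t| * ρ ^ 2 ≤ L →
    ∫⁻ y, ENNReal.ofReal (w (y - t • gradient h (cen ρ m))) * ‖um ρ g m y‖ₑ ^ 2 ≤
      ENNReal.ofReal (C * A ^ 2) * ∫⁻ y, ENNReal.ofReal (w y) *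
        ‖um ρ (tr h ((0 : E2), t) g) m y‖ₑ ^ 2 := by
  obtain ⟨C, hC, h1⟩ := sv_transport B n L hL
  refine ⟨C, hC, ?_⟩
  intro h hh ρ A w hρ hρ1 hw g hg hg2 m t ht
  set G : E2 → ℂ := fun ξ => cap win (cen ρ m) ρ ξ * g ξ with hG
  have hGs : ∀ ξ, G ξ ≠ 0 → ‖ξ - cen ρ m‖ ≤ 2 * ρ := by
    intro ξ hξ
    by_contra hc
    push Not at hc
    exact left_ne_zero_of_mul hξ (cap_supp (fun ζ hζ => win_zero' hζ) (cen ρ m) hρ ξ (by linarith))
  have h2 := h1 h hh ρ A (fun y => w (y - t • gradient h (cen ρ m))) hρ hρ1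
    (hw.comp_sub (t • gradient h (cen ρ m))) (cen ρ m) G (win_int hg m) (win_l2 hg2 m) hGs t (-t)
    (by rwa [abs_neg])
  rw [add_neg_cancel, sl_zero] at h2
  have e1 : (fun x => w (x - (-t) • gradient h (cen ρ m) - t • gradient h (cen ρ m))) = w := by
    funext x
    congr 1
    rw [neg_smul]; abel
  rw [e1] at h2
  have e2 : sl h G t = fun ξ => cap win (cen ρ m) ρ ξ * tr h ((0 : E2), t) g ξ := by
    funext ξ
    rw [hG]
    unfold sl tr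
    simp only [inner_zero_left, zero_add]
    ring
  rw [e2] at h2
  exact h2

end Crest.Agent.R138.Hp759
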