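import Crest.Agent.R138.Hp2_759

/-!
# R138 / R139, WAVE side, slab step, pointwise input `(H)` (helper759), third part

`slab_H` : the pointwise input of SUPM for an aligned plate, no tail.
-/

set_option autoImplicit false

open MeasureTheory FourierTransform
open scoped ENNReal ContDiff

namespace Crest.Agent.R138.Hp759

open Crest.Agent.R138.Defs Crest.Agent.R138.Wpk685 Crest.Agent.R138.Loc878
open Crest.Agent.R138.Bil882 (NearId)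
open Crest.Agent.R138.W188 (tr)
open Crest.Agent.R138.W323 (tr_add)
open Crest.Agent.R138.Wf448 (dw gw dw_pos sl)
open Crest.Agent.R138.Up448 (bx norm_bx_sq norm_bx_ge upper_sel' card_caps_le')
open Crest.Agent.R138.Ad480 (wa Ac Ad Ac_mono Ad_mono Ac_shift Ad_transport sum_Ad_le)
open Crest.Agent.R138.Rect779 (orth RectF class_count card_caps_le mult_le)
open Crest.Agent.R138.Sup882 (grad_lip)
open Crest.Agent.R138.Bn759 (nearId)

/-- the anisotropic density of the selection `S'` of a plate with frame `b` near `(x, t)`: box of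
sides `1/θ'` along `b 0`, `1/θ` along `b 1`. -/
noncomputable def sT (n : ℕ) (h : E2 → ℝ) (b : OrthonormalBasis (Fin 2) ℝ E2) (θ θ' : ℝ)
    (g : E2 → ℂ) (S' : ℤ × ℤ → Set E2) (x : E2) (t : ℝ) : ℝ≥0∞ :=
  ∑ m' ∈ caps θ', ∫⁻ y in S' m', ENNReal.ofReal (dw n (bx b θ' θ)
    (y - t • gradient h (cen θ' m') - x)) * ‖um θ' g m' y‖ₑ ^ 2

/-- one cap. -/
theorem one_cap (B : ℕ → ℝ) (hB2 : B 2 ≤ 1 / 10) (n k : ℕ) (L : ℝ) (hL : 1 ≤ L) : ∃ C : ℝ, 0 ≤ C ∧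
    ∀ h, ParB B h → ∀ (θ θ' : ℝ), 0 < θ → θ ≤ θ' → θ' ≤ 1 →
    ∀ (b : OrthonormalBasis (Fin 2) ℝ E2) (f : E2 → ℂ), Integrable f →
    ∀ S : ℤ × ℤ → Set E2, Bs θ S → ∀ (ζ : E2 × ℝ) (δ Kh p X : ℝ), 8 * (δ * θ') ≤ θ → 1 ≤ p →
    Coh8 θ θ' δ Kh p S (b 0) → 1 ≤ X → (θ ^ 2)⁻¹ ≤ (1 + X) ^ k →
    ∀ (x : E2) (t : ℝ), |t| * θ' ^ 2 ≤ L → |ζ.2 + t| * θ ^ 2 ≤ L →
    2 * X / θ + |ζ.2 + t| * (11 / 10 * (6 * θ')) ≤ Kh → ∀ m' : ℤ × ℤ,
    ∫⁻ y, ENNReal.ofReal (dw (n + k + 2) (bx b θ' θ) (y - t • gradient h (cen θ' m') - x)) *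
      ‖um θ' (tr h ζ (sel θ f S)) m' y‖ₑ ^ 2 ≤
      ENNReal.ofReal (C * (θ * θ')⁻¹ * p) * Ad n h θ θ' f S m' (ζ + (0, t)) x := by
  obtain ⟨C1, hC1, h1⟩ := um_slice B (2 * (n + k + 2)) L hL
  obtain ⟨C2, hC2, h2⟩ := upper_sel' B n k L hL
  refine ⟨C1 * (2 ^ (n + k + 2)) ^ 2 * (C2 * 8), by positivity, ?_⟩
  intro h hh θ θ' hθ hθθ' hθ'1 b f hf S hS ζ δ Kh p X hδ hp hcoh hX hXk x t ht ht2 hKh m'
  have hn := nearId hB2 hh
  have hθ' : 0 < θ' := hθ.trans_le hθθ'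
  have hhc : Continuous h := hh.1.continuous
  obtain ⟨hsi, hs2⟩ := sel_int hθ hf hS
  have a1 := h1 h hh θ' (2 ^ (n + k + 2)) (fun y => dw (n + k + 2) (bx b θ' θ) (y - x)) hθ' hθ'1
    (SV_bx b hθ hθθ' (n + k + 2) x) (tr h ζ (sel θ f S)) (tr_int hhc hsi ζ) (tr_l2 hhc hs2 ζ) m' t ht
  rw [tr_add] at a1
  have e1 : ((0 : E2), t) + ζ = ζ + (0, t) := add_comm _ _
  rw [e1] at a1
  have e2 : (ζ + ((0 : E2), t)).2 = ζ.2 + t := rfl
  have e3 : (ζ + ((0 : E2), t)).1 = ζ.1 := by rw [Prod.fst_add]; simp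
  have a2 := h2 h hh θ θ' hθ hθθ' (hθθ'.trans hθ'1) b x f hf S hS (ζ + (0, t)) (by rwa [e2]) m' X
    (8 * p) (by linarith) hXk (by linarith)
    (fun κ => nu_sel hn b hθ hθθ' hδ (by linarith) hcoh m' (by rwa [e2]) κ)
  calc ∫⁻ y, ENNReal.ofReal (dw (n + k + 2) (bx b θ' θ) (y - t • gradient h (cen θ' m') - x)) *
      ‖um θ' (tr h ζ (sel θ f S)) m' y‖ₑ ^ 2 ≤ _ := a1
    _ ≤ ENNReal.ofReal (C1 * (2 ^ (n + k + 2)) ^ 2) * (ENNReal.ofReal (C2 * (θ * θ')⁻¹ * (8 * p)) *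
        Ad n h θ θ' f S m' (ζ + (0, t)) x) := mul_le_mul' le_rfl a2
    _ = _ := by
        rw [← mul_assoc, ← ENNReal.ofReal_mul (by positivity)]
        congr 2
        ring

set_option maxHeartbeats 800000 in
/-- **(H)**, aligned plate: the anisotropic density of the part of the wave which comes from the
aligned parent selection `Sal ⊆ S` is at most `(p_i / p_j)` times the density of the parent
selection. -/
theorem slab_H (B : ℕ → ℝ) (hB2 : B 2 ≤ 1 / 10) (n k : ℕ) (L : ℝ) (hL : 1 ≤ L) : ∃ C : ℝ, 0 ≤ C ∧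
    ∀ h, ParB B h → ∀ (θ θ' : ℝ), 0 < θ → θ ≤ θ' → θ' ≤ 1 →
    ∀ (b : OrthonormalBasis (Fin 2) ℝ E2) (f : E2 → ℂ), Integrable f →
    ∀ S Sal S' : ℤ × ℤ → Set E2, Bs θ Sal → (∀ m, Sal m ⊆ S m) → (∀ m, MeasurableSet (S' m)) →
    ∀ (ζ : E2 × ℝ) (δ Kh pi X : ℝ), 8 * (δ * θ') ≤ θ → 1 ≤ pi →
    Coh8 θ θ' δ Kh pi Sal (b 0) → 1 ≤ X → (θ ^ 2)⁻¹ ≤ (1 + X) ^ k →
    ∀ (Lr wr : ℝ) (pj : ℕ) (A0 A1 : ℝ≥0∞), 0 ≤ Lr →
    Rich n h θ θ' f S S' (b 0) Lr wr pj A0 A1 ζ → ∀ K0 : ℝ, 1 ≤ K0 → A0 ≠ 0 → A0 ≠ ⊤ →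
    A1 ≤ ENNReal.ofReal K0 * A0 → ∀ a K : ℝ, 0 ≤ K → 10 / 9 * (a + 2 * wr) ≤ K * θ' →
    (∀ m m', (S' m).Nonempty → (S' m').Nonempty →
      |(inner ℝ (b 0) (gradient h (cen θ' m) - gradient h (cen θ' m')) : ℝ)| ≤ a) →
    ∀ (x : E2) (t : ℝ), |t| * θ' ^ 2 ≤ L → |ζ.2 + t| * θ ^ 2 ≤ L →
    2 * X / θ + |ζ.2 + t| * (11 / 10 * (6 * θ')) ≤ Kh → ∀ M : Finset (ℤ × ℤ),
    (∀ m ∈ caps θ, (∃ m' ∈ caps θ', (S' m').Nonempty ∧
      ‖gradient h (cen θ m) - gradient h (cen θ' m')‖ ≤ 11 / 10 * (Lr + 3 * θ')) → m ∈ M) →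
    (pj : ℝ≥0∞) * sT (n + 2 * k + 2) h b θ θ' (tr h ζ (sel θ f Sal)) S' x t ≤
      ENNReal.ofReal (C * (θ * θ')⁻¹ *
        ((1 + (X + 33 / 10 * (θ * θ' * |t|) + 11 / 10 * (θ * Lr * |t|))) ^ (2 * n) *
        K0 * (2 * K + 1) ^ 2 * pi)) * Ac n h θ f S M (ζ + (0, t)) x := by
  classical
  obtain ⟨C, hC, h1⟩ := one_cap B hB2 n k L hL
  refine ⟨C * 3000, by positivity, ?_⟩
  intro h hh θ θ' hθ hθθ' hθ'1 b f hf S Sal S' hSal hsub hS'm ζ δ Kh pi X hδ hpi hcoh hX hXk Lr wr pj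
    A0 A1 hLr hr K0 hK0 hA0 hA0' hA a K hK hKa ha x t ht ht2 hKh M hM
  have hn := nearId hB2 hh
  have hθ' : 0 < θ' := hθ.trans_le hθθ'
  set δ' : ℝ := X + 33 / 10 * (θ * θ' * |t|) + 11 / 10 * (θ * Lr * |t|) with hδ'
  have hδ'0 : 0 ≤ δ' := by positivity
  set G : E2 → ℂ := tr h ζ (sel θ f Sal) with hG
  have hone := h1 h hh θ θ' hθ hθθ' hθ'1 b f hf Sal hSal ζ δ Kh pi X hδ hpi hcoh hX hXk x t ht ht2 hKh
  set I : ℤ × ℤ → ℝ≥0∞ := fun m' => ∫⁻ y in S' m', ENNReal.ofReal (dw (n + 2 * k + 2) (bx b θ' θ)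
    (y - t • gradient h (cen θ' m') - x)) * ‖um θ' G m' y‖ₑ ^ 2 with hI
  set D : ℤ × ℤ → ℝ≥0∞ := fun m' => Ad n h θ θ' f S m' (ζ + (0, t)) x with hD
  set c0 : ℝ≥0∞ := ENNReal.ofReal (C * (θ * θ')⁻¹ * pi) with hc0
  have hpow : n + 2 * k + 2 = (n + k + 2) + k := by ring
  -- all caps
  have hAll : ∀ m', I m' ≤ c0 * D m' := by
    intro m'
    calc I m' ≤ ∫⁻ y in S' m', ENNReal.ofReal (dw (n + k + 2) (bx b θ' θ)
          (y - t • gradient h (cen θ' m') - x)) * ‖um θ' G m' y‖ₑ ^ 2 := by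
          refine lintegral_mono fun y => mul_le_mul' (ENNReal.ofReal_le_ofReal ?_) le_rfl
          rw [hpow]
          exact dw_anti _ _ _ _
      _ ≤ ∫⁻ y, ENNReal.ofReal (dw (n + k + 2) (bx b θ' θ)
          (y - t • gradient h (cen θ' m') - x)) * ‖um θ' G m' y‖ₑ ^ 2 := setLIntegral_le_lintegral _ _
      _ ≤ _ := (hone m').trans (mul_le_mul' le_rfl (Ad_mono hsub _ _))
  -- far caps
  set T : Finset (ℤ × ℤ) := (caps θ').filter fun m' =>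
    ∃ y ∈ S' m', θ * ‖y - t • gradient h (cen θ' m') - x‖ ≤ X with hT
  set F : Finset (ℤ × ℤ) := (caps θ').filter fun m' =>
    (¬ ∃ y ∈ S' m', θ * ‖y - t • gradient h (cen θ' m') - x‖ ≤ X) ∧ (S' m').Nonempty with hF
  have hFar : ∀ m' ∈ F, I m' ≤ ENNReal.ofReal (((1 + X) ^ k)⁻¹) * (c0 * D m') := by
    intro m' hm
    obtain ⟨_, hm2, _⟩ := Finset.mem_filter.1 hm
    push Not at hm2
    calc I m' ≤ ∫⁻ y in S' m', ENNReal.ofReal (((1 + X) ^ k)⁻¹) *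
          (ENNReal.ofReal (dw (n + k + 2) (bx b θ' θ)
          (y - t • gradient h (cen θ' m') - x)) * ‖um θ' G m' y‖ₑ ^ 2) := by
          refine setLIntegral_mono' (hS'm m') fun y hy => ?_
          rw [← mul_assoc, ← ENNReal.ofReal_mul (by positivity)]
          refine mul_le_mul' (ENNReal.ofReal_le_ofReal ?_) le_rfl
          rw [hpow, dw_add, mul_comm]
          exact mul_le_mul_of_nonneg_right (dw_bx_far b hθ.le hθθ' hX k (hm2 y hy).le)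
            (dw_pos _ _ _).le
      _ ≤ ENNReal.ofReal (((1 + X) ^ k)⁻¹) * ∫⁻ y, ENNReal.ofReal (dw (n + k + 2) (bx b θ' θ)
          (y - t • gradient h (cen θ' m') - x)) * ‖um θ' G m' y‖ₑ ^ 2 := by
          rw [lintegral_const_mul' _ _ ENNReal.ofReal_ne_top]
          exact mul_le_mul' le_rfl (setLIntegral_le_lintegral _ _)
      _ ≤ _ := mul_le_mul' le_rfl ((hone m').trans (mul_le_mul' le_rfl (Ad_mono hsub _ _)))
  -- splitting of the sum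
  have hsplit : sT (n + 2 * k + 2) h b θ θ' G S' x t ≤ ∑ m' ∈ T, I m' + ∑ m' ∈ F, I m' := by
    unfold sT
    rw [← Finset.sum_filter_add_sum_filter_not (caps θ') fun m' =>
      ∃ y ∈ S' m', θ * ‖y - t • gradient h (cen θ' m') - x‖ ≤ X]
    refine add_le_add le_rfl ?_
    rw [← Finset.sum_filter_add_sum_filter_not ((caps θ').filter _) fun m' => (S' m').Nonempty]
    have z0 : ∑ m' ∈ ((caps θ').filter fun m' => ¬ ∃ y ∈ S' m',
        θ * ‖y - t • gradient h (cen θ' m') - x‖ ≤ X).filter (fun m' => ¬ (S' m').Nonempty),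
        ∫⁻ y in S' m', ENNReal.ofReal (dw (n + 2 * k + 2) (bx b θ' θ)
        (y - t • gradient h (cen θ' m') - x)) * ‖um θ' G m' y‖ₑ ^ 2 = 0 := by
      refine Finset.sum_eq_zero fun m' hm => ?_
      have h3 := (Finset.mem_filter.1 hm).2
      rw [Set.not_nonempty_iff_eq_empty] at h3
      rw [h3]; simp
    rw [z0, add_zero, Finset.filter_filter]
  -- the row
  have hrow := row_le hn hθ hθ' (f := f) (S := S) (S' := S') (b.norm_eq_one 0) hLr hr hA0 hA0' hA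
    (T := T) (a := a) (K := K) (X := X) (by linarith) hK hKa
    (by
      intro m hm m' hm'
      obtain ⟨_, y, hy, _⟩ := Finset.mem_filter.1 hm
      obtain ⟨_, y', hy', _⟩ := Finset.mem_filter.1 hm'
      exact ha m m' ⟨y, hy⟩ ⟨y', hy'⟩)
    (x := x) (t := t) (fun m' hm => (Finset.mem_filter.1 hm).2) (M := M)
    (by
      rintro m hm ⟨m', hm', hd⟩
      obtain ⟨hm1, y, hy, _⟩ := Finset.mem_filter.1 hm'
      exact hM m hm ⟨m', hm1, ⟨y, hy⟩, hd⟩)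
  -- the far part
  have hMnear : ∀ m' ∈ F, nearL θ θ' m' ⊆ M := by
    intro m' hm' m hm
    obtain ⟨hm1, _, hm2⟩ := Finset.mem_filter.1 hm'
    obtain ⟨h3, h4⟩ := mem_nearL.1 hm
    unfold Near at h4
    have h5 := grad_lip hn (cen θ m) (cen θ' m')
    exact hM m h3 ⟨m', hm1, hm2, by linarith⟩
  have hfarD : ∑ m' ∈ F, D m' ≤ 36 * Ac n h θ f S M (ζ + (0, t)) x :=
    sum_Ad_le hθ' (Finset.filter_subset _ _) hMnear _ _
  have hpj : ∀ m' ∈ F, (pj : ℝ) ≤ 81 * (θ' ^ 2)⁻¹ := by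
    intro m' hm'
    obtain ⟨_, _, y, hy⟩ := Finset.mem_filter.1 hm'
    obtain ⟨_, R, hR, hR2, _⟩ := hr m' y hy
    have h3 : (pj : ℝ) ≤ ((caps θ').card : ℝ) := by
      exact_mod_cast hR2.trans (Finset.card_le_card hR)
    exact h3.trans (card_caps_le' hθ' hθ'1)
  have hfar2 : (pj : ℝ≥0∞) * ∑ m' ∈ F, I m' ≤
      ENNReal.ofReal (81 * 36) * (c0 * Ac n h θ f S M (ζ + (0, t)) x) := by
    rcases F.eq_empty_or_nonempty with h0 | ⟨m1, hm1⟩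
    · rw [h0]; simp
    · have h3 : (pj : ℝ) * ((1 + X) ^ k)⁻¹ ≤ 81 := by
        have h4 := hpj m1 hm1
        have h5 : ((1 + X) ^ k)⁻¹ ≤ θ ^ 2 := by
          rw [inv_le_comm₀ (by positivity) (by positivity)]; exact hXk
        have h6 : θ ^ 2 ≤ θ' ^ 2 := by gcongr
        calc (pj : ℝ) * ((1 + X) ^ k)⁻¹ ≤ 81 * (θ' ^ 2)⁻¹ * θ' ^ 2 := by
              refine mul_le_mul h4 (h5.trans h6) (by positivity) (by positivity)
          _ = 81 := by field_simp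
      calc (pj : ℝ≥0∞) * ∑ m' ∈ F, I m' ≤
            (pj : ℝ≥0∞) * ∑ m' ∈ F, ENNReal.ofReal (((1 + X) ^ k)⁻¹) * (c0 * D m') :=
            mul_le_mul' le_rfl (Finset.sum_le_sum hFar)
        _ = ENNReal.ofReal ((pj : ℝ) * ((1 + X) ^ k)⁻¹) * (c0 * ∑ m' ∈ F, D m') := by
            rw [ENNReal.ofReal_mul (Nat.cast_nonneg _), ENNReal.ofReal_natCast, ← Finset.mul_sum,
              ← Finset.mul_sum]
            ring
        _ ≤ ENNReal.ofReal 81 * (c0 * (36 * Ac n h θ f S M (ζ + (0, t)) x)) :=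
            mul_le_mul' (ENNReal.ofReal_le_ofReal h3) (mul_le_mul' le_rfl hfarD)
        _ = _ := by
            rw [ENNReal.ofReal_mul (by norm_num)]
            have e36 : ENNReal.ofReal 36 = 36 := by norm_num
            rw [e36]
            ring
  -- the near part
  set Q : ℝ := (1 + δ') ^ (2 * n) * K0 * (36 * (2 * K + 1) ^ 2) with hQ
  have hQ1 : 36 ≤ Q := by
    have g1 : (1:ℝ) ≤ (1 + δ') ^ (2 * n) := one_le_pow₀ (by linarith)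
    have g2 : (1:ℝ) ≤ (2 * K + 1) ^ 2 := one_le_pow₀ (by linarith)
    have g3 : (1:ℝ) ≤ (1 + δ') ^ (2 * n) * K0 := by nlinarith
    rw [hQ]; nlinarith
  have hnear2 : (pj : ℝ≥0∞) * ∑ m' ∈ T, I m' ≤
      c0 * (ENNReal.ofReal Q * Ac n h θ f S M (ζ + (0, t)) x) := by
    calc (pj : ℝ≥0∞) * ∑ m' ∈ T, I m' ≤ (pj : ℝ≥0∞) * ∑ m' ∈ T, c0 * D m' :=
          mul_le_mul' le_rfl (Finset.sum_le_sum fun m' _ => hAll m')
      _ = c0 * ((pj : ℝ≥0∞) * ∑ m' ∈ T, D m') := by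
          rw [← Finset.mul_sum]; ring
      _ ≤ _ := mul_le_mul' le_rfl hrow
  calc (pj : ℝ≥0∞) * sT (n + 2 * k + 2) h b θ θ' G S' x t
      ≤ (pj : ℝ≥0∞) * (∑ m' ∈ T, I m' + ∑ m' ∈ F, I m') := mul_le_mul' le_rfl hsplit
    _ = (pj : ℝ≥0∞) * ∑ m' ∈ T, I m' + (pj : ℝ≥0∞) * ∑ m' ∈ F, I m' := mul_add _ _ _
    _ ≤ c0 * (ENNReal.ofReal Q * Ac n h θ f S M (ζ + (0, t)) x) +
        ENNReal.ofReal (81 * 36) * (c0 * Ac n h θ f S M (ζ + (0, t)) x) := add_le_add hnear2 hfar2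
    _ = c0 * (ENNReal.ofReal Q + ENNReal.ofReal (81 * 36)) * Ac n h θ f S M (ζ + (0, t)) x := by ring
    _ = ENNReal.ofReal (C * (θ * θ')⁻¹ * pi * (Q + 81 * 36)) * Ac n h θ f S M (ζ + (0, t)) x := by
        rw [hc0, ← ENNReal.ofReal_add (by linarith) (by norm_num), ← ENNReal.ofReal_mul (by positivity)]
    _ ≤ _ := by
        refine mul_le_mul' (ENNReal.ofReal_le_ofReal ?_) le_rfl
        have g0 : 0 ≤ C * (θ * θ')⁻¹ * pi := by positivity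
        have g1 : Q + 81 * 36 ≤ 82 * Q := by linarith
        calc C * (θ * θ')⁻¹ * pi * (Q + 81 * 36) ≤ C * (θ * θ')⁻¹ * pi * (82 * Q) := by gcongr
          _ = C * 2952 * (θ * θ')⁻¹ * ((1 + δ') ^ (2 * n) * K0 * (2 * K + 1) ^ 2 * pi) := by
              rw [hQ]; ring
          _ ≤ C * 3000 * (θ * θ')⁻¹ * ((1 + δ') ^ (2 * n) * K0 * (2 * K + 1) ^ 2 * pi) := by
              gcongr
              norm_num

end Crest.Agent.R138.Hp759
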