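import Mathlib
import Crest.Agent.R138.Tilt_51

/-!
# R138: maximal planks of a hull class (helper51)  (doc 1965, Claim 3)

`hull_incl`: all lines of `S` lie in one plank `Q = (l', e'; v1, v2)` of the cell, `S` is penalised
maximal and covered by near-maximal planks `K = (w1, w2)`.  Then `w1 ≲ v1`, `w2 ≲ v2` and the tilt
of every `K` against `Q` is `≲ v1 / w2`.  No exceptional set.
`frames_close`: the chain, and the precision to which the end flags are constant.
-/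

set_option autoImplicit false
set_option linter.unusedVariables false

open Finset

namespace Crest.Agent.R138.Hull51

open Crest.Agent.R138.Flag51 Crest.Agent.R138.Tilt51

noncomputable section

theorem root_le {x C r : ℝ} (hC : 1 ≤ C) (hr : 1 ≤ r) (h : x ^ r ≤ C) : x ≤ C := by
  rcases le_total x 1 with h1 | h1
  · exact h1.trans hC
  · exact (Real.self_le_rpow_of_one_le h1 hr).trans h

/-- `a^r ≤ C b^r` implies `a ≤ C b` for `C ≥ 1`, `r ≥ 1` -/
theorem le_of_rpow_le {a b C r : ℝ} (ha : 0 ≤ a) (hb : 0 < b) (hC : 1 ≤ C) (hr : 1 ≤ r)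
    (h : a ^ r ≤ C * b ^ r) : a ≤ C * b := by
  have h1 : (a / b) ^ r ≤ C := by
    rw [Real.div_rpow ha hb.le, div_le_iff₀ (Real.rpow_pos_of_pos hb r)]; exact h
  have h2 := root_le hC hr h1
  rwa [div_le_iff₀ hb] at h2

theorem two_rpow_le {x : ℝ} (hx : x ≤ 1) : (2 : ℝ) ^ (1 + x) ≤ 4 := by
  calc (2 : ℝ) ^ (1 + x) ≤ 2 ^ (2 : ℝ) :=
        Real.rpow_le_rpow_of_exponent_le (by norm_num) (by linarith)
    _ = 4 := by norm_num

theorem four_rpow_le {x : ℝ} (hx : x ≤ 1) : (4 : ℝ) ^ (1 + x) ≤ 16 := by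
  calc (4 : ℝ) ^ (1 + x) ≤ 4 ^ (2 : ℝ) :=
        Real.rpow_le_rpow_of_exponent_le (by norm_num) (by linarith)
    _ = 16 := by norm_num

variable {ι α : Type*} {S : Finset ι} {L : ι → Ln} {m : ι → ℝ} {f : ι → α} {bK : α → Ln}
  {eK : α → E2} {l' : Ln} {e' : E2} {w1 w2 v1 v2 z0 ρ M E p q r0 R0 : ℝ}

/-- differences of two lines of `K ∩ Q` -/
theorem diff_bounds {t s l : Ln} {e : E2} (h1 : InPlank t l e w1 w2 z0 ρ)
    (h2 : InPlank s l e w1 w2 z0 ρ) {z : ℝ} (hz : |z - z0| ≤ ρ) :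
    |dt (pos s z - pos t z) e| ≤ 2 * w1 ∧ |cr e (pos s z - pos t z)| ≤ 2 * w2 := by
  obtain ⟨a1, a2⟩ := h1 z hz
  obtain ⟨b1, b2⟩ := h2 z hz
  constructor
  · have : dt (pos s z - pos t z) e = dt (pos s z - pos l z) e - dt (pos t z - pos l z) e := by
      rw [← dt_sub]; congr 1; abel
    rw [this]; exact (abs_sub _ _).trans (by linarith)
  · have : cr e (pos s z - pos t z) = cr e (pos s z - pos l z) - cr e (pos t z - pos l z) := by
      rw [← cr_sub]; congr 1; abel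
    rw [this]; exact (abs_sub _ _).trans (by linarith)

open Classical in
/-- if the class of `t` lies in the plank `(t, e'; c1, c2)` then the class is not larger than the
plank -/
theorem class_le (h : Near S L m f bK eK w1 w2 z0 ρ M E p q)
    (d : DMax S L m z0 ρ M p q r0 R0) (hm : ∀ t ∈ S, 0 ≤ m t) (hE : 0 ≤ E) (hM : 0 < M)
    {t : ι} (ht : t ∈ S) {e : E2} (he : dt e e = 1) {c1 c2 : ℝ} (h1 : r0 ≤ c1) (h2 : c1 ≤ c2)
    (h3 : c2 ≤ R0) (hin : ∀ s ∈ S, f s = f t → InPlank (L s) (L t) e c1 c2 z0 ρ) :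
    w1 ^ (1 + p) * w2 ^ (1 + q) ≤ E * (c1 ^ (1 + p) * c2 ^ (1 + q)) := by
  have a1 := h.low t ht
  have a2 := d (L t) e c1 c2 he h1 h2 h3
  have a3 : ∑ s ∈ S with f s = f t, m s ≤
      ∑ s ∈ S with InPlank (L s) (L t) e c1 c2 z0 ρ, m s := by
    refine sum_le_sum_of_subset_of_nonneg ?_ ?_
    · intro s hs
      rw [mem_filter] at hs ⊢
      exact ⟨hs.1, hin s hs.1 hs.2⟩
    · intro s hs _
      exact hm s (mem_filter.1 hs).1
  have a4 : M * (w1 ^ (1 + p) * w2 ^ (1 + q)) ≤ M * (E * (c1 ^ (1 + p) * c2 ^ (1 + q))) := by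
    calc M * (w1 ^ (1 + p) * w2 ^ (1 + q)) = M * w1 ^ (1 + p) * w2 ^ (1 + q) := by ring
      _ ≤ E * ∑ s ∈ S with f s = f t, m s := a1
      _ ≤ E * (M * c1 ^ (1 + p) * c2 ^ (1 + q)) :=
          mul_le_mul_of_nonneg_left (a3.trans a2) hE
      _ = _ := by ring
  exact le_of_mul_le_mul_left a4 hM

/-- **HULL INCLUSION** -/
theorem hull_incl (h : Near S L m f bK eK w1 w2 z0 ρ M E p q)
    (d : DMax S L m z0 ρ M p q r0 R0) (hm : ∀ t ∈ S, 0 ≤ m t)
    (hQ : ∀ t ∈ S, InPlank (L t) l' e' v1 v2 z0 ρ) (he' : dt e' e' = 1)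
    (hp : 0 ≤ p) (hp1 : p ≤ 1) (hq : 0 ≤ q) (hq1 : q ≤ 1) (hw1 : 0 < w1) (hw12 : w1 ≤ w2)
    (hv1 : 0 < v1) (hv12 : v1 ≤ v2) (hr0 : r0 ≤ 2 * min w1 v1) (hR0 : 4 * max w2 v2 ≤ R0)
    (hM : 0 < M) (hE : 1 ≤ E) {t : ι} (ht : t ∈ S) :
    w1 ≤ 64 * E * v1 ∧ w2 ≤ 64 * E * v2 ∧ |cr (eK (f t)) e'| * w2 ≤ 520 * E ^ 2 * v1 := by
  have hw2 : 0 < w2 := hw1.trans_le hw12
  have hv2 : 0 < v2 := hv1.trans_le hv12
  have hE0 : 0 ≤ E := zero_le_one.trans hE
  have he : dt (eK (f t)) (eK (f t)) = 1 := h.unit t ht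
  set e := eK (f t) with hedef
  have hrw : r0 ≤ 2 * w1 := hr0.trans (by linarith [min_le_left w1 v1])
  have hrv : r0 ≤ 2 * v1 := hr0.trans (by linarith [min_le_right w1 v1])
  have hRw : 4 * w2 ≤ R0 := le_trans (by linarith [le_max_left w2 v2]) hR0
  have hRv : 4 * v2 ≤ R0 := le_trans (by linarith [le_max_right w2 v2]) hR0
  have hdiff : ∀ s ∈ S, f s = f t → ∀ z, |z - z0| ≤ ρ →
      (|dt (pos (L s) z - pos (L t) z) e| ≤ 2 * w1 ∧
        |cr e (pos (L s) z - pos (L t) z)| ≤ 2 * w2) ∧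
      (|dt (pos (L s) z - pos (L t) z) e'| ≤ 2 * v1 ∧
        |cr e' (pos (L s) z - pos (L t) z)| ≤ 2 * v2) := by
    intro s hs hfs z hz
    have a1 := h.mem t ht
    have a2 := h.mem s hs
    rw [hfs] at a2
    exact ⟨diff_bounds a1 a2 hz, diff_bounds (hQ t ht) (hQ s hs) hz⟩
  have hcc := abs_dt_le_one he he'
  have hss := abs_cr_le_one he he'
  have hcc' := abs_dt_le_one he' he
  have hss' := abs_cr_le_one he' he
  have c2p := two_rpow_le hp1
  have c2q := two_rpow_le hq1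
  have c4q := four_rpow_le hq1
  have p2p : (0:ℝ) < 2 ^ (1 + p) := by positivity
  have p2q : (0:ℝ) < 2 ^ (1 + q) := by positivity
  have p4q : (0:ℝ) < 4 ^ (1 + q) := by positivity
  have hc64 : (2:ℝ) ^ (1 + p) * 4 ^ (1 + q) ≤ 64 := by
    calc (2:ℝ) ^ (1 + p) * 4 ^ (1 + q) ≤ 4 * 16 := mul_le_mul c2p c4q p4q.le (by norm_num)
      _ = 64 := by norm_num
  -- |x| bounds
  have hbig : ∀ s ∈ S, f s = f t → ∀ z, |z - z0| ≤ ρ →
      |cr e' (pos (L s) z - pos (L t) z)| ≤ 4 * w2 ∧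
      |cr e (pos (L s) z - pos (L t) z)| ≤ 4 * v2 := by
    intro s hs hfs z hz
    obtain ⟨⟨b1, b2⟩, b3, b4⟩ := hdiff s hs hfs z hz
    set x := pos (L s) z - pos (L t) z
    constructor
    · rw [cr_of he x]
      refine (abs_add_le _ _).trans ?_
      rw [abs_mul, abs_mul]
      have e1 : |cr e' e| * |dt x e| ≤ 1 * (2 * w1) := mul_le_mul hss' b1 (abs_nonneg _) zero_le_one
      have e2 : |dt e' e| * |cr e x| ≤ 1 * (2 * w2) := mul_le_mul hcc' b2 (abs_nonneg _) zero_le_one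
      linarith
    · rw [cr_of he' x]
      refine (abs_add_le _ _).trans ?_
      rw [abs_mul, abs_mul]
      have e1 : |cr e e'| * |dt x e'| ≤ 1 * (2 * v1) := mul_le_mul hss b3 (abs_nonneg _) zero_le_one
      have e2 : |dt e e'| * |cr e' x| ≤ 1 * (2 * v2) := mul_le_mul hcc b4 (abs_nonneg _) zero_le_one
      linarith
  have E64 : (1:ℝ) ≤ 64 * E := by linarith
  -- (2) thin width
  have hthin : w1 ≤ 64 * E * v1 := by
    by_cases hc : 2 * v1 ≤ 4 * w2
    · have a1 := class_le h d hm hE0 hM ht he' hrv hc (by linarith)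
        (fun s hs hfs z hz => ⟨(hdiff s hs hfs z hz).2.1, (hbig s hs hfs z hz).1⟩)
      rw [Real.mul_rpow (by norm_num) hv1.le, Real.mul_rpow (by norm_num) hw2.le] at a1
      have hW : 0 < w2 ^ (1 + q) := by positivity
      have hV : 0 < v1 ^ (1 + p) := by positivity
      have a2 : w1 ^ (1 + p) * w2 ^ (1 + q) ≤ (64 * E * v1 ^ (1 + p)) * w2 ^ (1 + q) := by
        calc w1 ^ (1 + p) * w2 ^ (1 + q)
            ≤ E * (2 ^ (1 + p) * v1 ^ (1 + p) * (4 ^ (1 + q) * w2 ^ (1 + q))) := a1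
          _ = (2 ^ (1 + p) * 4 ^ (1 + q)) * (E * v1 ^ (1 + p) * w2 ^ (1 + q)) := by ring
          _ ≤ 64 * (E * v1 ^ (1 + p) * w2 ^ (1 + q)) :=
              mul_le_mul_of_nonneg_right hc64 (by positivity)
          _ = _ := by ring
      exact le_of_rpow_le hw1.le hv1 E64 (by linarith) (le_of_mul_le_mul_right a2 hW)
    · push Not at hc
      nlinarith
  -- (3) wide width
  have hwide : w2 ≤ 64 * E * v2 := by
    by_cases hc : 2 * w1 ≤ 4 * v2
    · have a1 := class_le h d hm hE0 hM ht he hrw hc hRv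
        (fun s hs hfs z hz => ⟨(hdiff s hs hfs z hz).1.1, (hbig s hs hfs z hz).2⟩)
      rw [Real.mul_rpow (by norm_num) hw1.le, Real.mul_rpow (by norm_num) hv2.le] at a1
      have hW : 0 < w1 ^ (1 + p) := by positivity
      have hV : 0 < v2 ^ (1 + q) := by positivity
      have a2 : w1 ^ (1 + p) * w2 ^ (1 + q) ≤ w1 ^ (1 + p) * (64 * E * v2 ^ (1 + q)) := by
        calc w1 ^ (1 + p) * w2 ^ (1 + q)
            ≤ E * (2 ^ (1 + p) * w1 ^ (1 + p) * (4 ^ (1 + q) * v2 ^ (1 + q))) := a1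
          _ = (2 ^ (1 + p) * 4 ^ (1 + q)) * (E * w1 ^ (1 + p) * v2 ^ (1 + q)) := by ring
          _ ≤ 64 * (E * w1 ^ (1 + p) * v2 ^ (1 + q)) :=
              mul_le_mul_of_nonneg_right hc64 (by positivity)
          _ = _ := by ring
      exact le_of_rpow_le hw2.le hv2 E64 (by linarith) (le_of_mul_le_mul_left a2 hW)
    · push Not at hc
      -- `v1 ≤ v2 < w1`: use `Q` itself
      have a1 := class_le h d hm hE0 hM ht he' hrv (by linarith : 2 * v1 ≤ 4 * v2) hRv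
        (fun s hs hfs z hz => ⟨(hdiff s hs hfs z hz).2.1,
          (hdiff s hs hfs z hz).2.2.trans (by linarith)⟩)
      rw [Real.mul_rpow (by norm_num) hv1.le, Real.mul_rpow (by norm_num) hv2.le] at a1
      have hW : 0 < w1 ^ (1 + p) := by positivity
      have hV : 0 < v2 ^ (1 + q) := by positivity
      have hvw : v1 ^ (1 + p) ≤ w1 ^ (1 + p) :=
        Real.rpow_le_rpow hv1.le (by linarith) (by linarith)
      have a2 : w1 ^ (1 + p) * w2 ^ (1 + q) ≤ w1 ^ (1 + p) * (64 * E * v2 ^ (1 + q)) := by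
        calc w1 ^ (1 + p) * w2 ^ (1 + q)
            ≤ E * (2 ^ (1 + p) * v1 ^ (1 + p) * (4 ^ (1 + q) * v2 ^ (1 + q))) := a1
          _ = (2 ^ (1 + p) * 4 ^ (1 + q)) * (E * v1 ^ (1 + p) * v2 ^ (1 + q)) := by ring
          _ ≤ 64 * (E * v1 ^ (1 + p) * v2 ^ (1 + q)) :=
              mul_le_mul_of_nonneg_right hc64 (by positivity)
          _ ≤ 64 * (E * w1 ^ (1 + p) * v2 ^ (1 + q)) := by
              gcongr
          _ = _ := by ring
      exact le_of_rpow_le hw2.le hv2 E64 (by linarith) (le_of_mul_le_mul_left a2 hW)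
  refine ⟨hthin, hwide, ?_⟩
  -- (1) tilt
  have htilt : |cr e e'| * w2 ≤ 4 * E * (2 * v1 + 2 * w1) := by
    rcases eq_or_lt_of_le (abs_nonneg (cr e e')) with h0 | h0
    · rw [← h0, zero_mul]; positivity
    set σ := |cr e e'| with hσ
    set β := (2 * v1 + 2 * w1) / σ with hβ
    have hβ0 : 0 < β := by positivity
    have hle : 2 * w1 ≤ β := by
      rw [hβ, le_div_iff₀ h0]; nlinarith
    by_cases hc : β ≤ R0
    · have a1 := class_le h d hm hE0 hM ht he hrw hle hc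
        (fun s hs hfs z hz => by
          obtain ⟨⟨b1, b2⟩, b3, b4⟩ := hdiff s hs hfs z hz
          refine ⟨b1, ?_⟩
          rw [hβ, le_div_iff₀ h0]
          have e1 : |cr e e'| * |cr e (pos (L s) z - pos (L t) z)| ≤ 2 * v1 + 2 * w1 := by
            rw [← abs_mul, cr_mul he]
            refine (abs_sub _ _).trans ?_
            rw [abs_mul]
            have : |dt e e'| * |dt (pos (L s) z - pos (L t) z) e| ≤ 1 * (2 * w1) :=
              mul_le_mul hcc b1 (abs_nonneg _) zero_le_one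
            linarith
          linarith [mul_comm |cr e (pos (L s) z - pos (L t) z)| σ])
      rw [Real.mul_rpow (by norm_num) hw1.le] at a1
      have hW : 0 < w1 ^ (1 + p) := by positivity
      have hB : 0 < β ^ (1 + q) := by positivity
      have a2 : w1 ^ (1 + p) * w2 ^ (1 + q) ≤ w1 ^ (1 + p) * (4 * E * β ^ (1 + q)) := by
        calc w1 ^ (1 + p) * w2 ^ (1 + q)
            ≤ E * (2 ^ (1 + p) * w1 ^ (1 + p) * β ^ (1 + q)) := a1
          _ = 2 ^ (1 + p) * (E * w1 ^ (1 + p) * β ^ (1 + q)) := by ring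
          _ ≤ 4 * (E * w1 ^ (1 + p) * β ^ (1 + q)) :=
              mul_le_mul_of_nonneg_right c2p (by positivity)
          _ = _ := by ring
      have a3 := le_of_rpow_le hw2.le hβ0 (by linarith : (1:ℝ) ≤ 4 * E) (by linarith)
        (le_of_mul_le_mul_left a2 hW)
      calc σ * w2 ≤ σ * (4 * E * β) := mul_le_mul_of_nonneg_left a3 h0.le
        _ = 4 * E * (2 * v1 + 2 * w1) := by rw [hβ]; field_simp
    · push Not at hc
      have a3 : w2 ≤ β := by linarith
      calc σ * w2 ≤ σ * β := mul_le_mul_of_nonneg_left a3 h0.le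
        _ = 2 * v1 + 2 * w1 := by rw [hβ]; field_simp
        _ ≤ 4 * E * (2 * v1 + 2 * w1) := by
          have : 0 < 2 * v1 + 2 * w1 := by positivity
          nlinarith
  calc |cr e e'| * w2 ≤ 4 * E * (2 * v1 + 2 * w1) := htilt
    _ ≤ 4 * E * (2 * v1 + 2 * (64 * E * v1)) := by gcongr
    _ = (8 * E + 512 * E ^ 2) * v1 := by ring
    _ ≤ 520 * E ^ 2 * v1 := by
        refine mul_le_mul_of_nonneg_right ?_ hv1.le
        nlinarith

/-- **CHAIN**: `e j x` = frame of the incidence `x` at the level `j ≤ J`.  If consecutive frames of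
one incidence are `θ j`-close, the frames of all levels are close, and the end frames of two
incidences with the same frame at level `i` are `2 ∑`-close. -/
theorem frames_close {ι : Type*} {I : Finset ι} (J : ℕ) (e : ℕ → ι → E2) (θ : ℕ → ℝ)
    (unit : ∀ j ≤ J, ∀ x ∈ I, dt (e j x) (e j x) = 1)
    (step : ∀ j < J, ∀ x ∈ I, |cr (e j x) (e (j + 1) x)| ≤ θ j) :
    (∀ x ∈ I, ∀ i j, i ≤ j → j ≤ J → |cr (e i x) (e j x)| ≤ ∑ k ∈ Ico i j, θ k) ∧
    (∀ x ∈ I, ∀ y ∈ I, ∀ i j, i ≤ j → j ≤ J → e i x = e i y →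
      |cr (e j x) (e j y)| ≤ 2 * ∑ k ∈ Ico i j, θ k) := by
  have h1 : ∀ x ∈ I, ∀ i j, i ≤ j → j ≤ J → |cr (e i x) (e j x)| ≤ ∑ k ∈ Ico i j, θ k := by
    intro x hx i j hij hjJ
    have h4 := abs_cr_chain (fun t => e (min (i + t) J) x)
      (fun t => unit _ (min_le_right _ _) x hx) (j - i)
    simp only [Nat.add_zero] at h4
    rw [min_eq_left (hij.trans hjJ), Nat.add_sub_cancel' hij, min_eq_left hjJ] at h4
    rw [sum_Ico_eq_sum_range]
    refine h4.trans (sum_le_sum fun k hk => ?_)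
    rw [mem_range] at hk
    have hk2 : i + k < J := by omega
    rw [min_eq_left hk2.le, show i + (k + 1) = i + k + 1 by ring,
      min_eq_left (Nat.succ_le_of_lt hk2)]
    exact step _ hk2 x hx
  refine ⟨h1, fun x hx y hy i j hij hjJ he => ?_⟩
  have h2 := h1 x hx i j hij hjJ
  have h3 := h1 y hy i j hij hjJ
  have h4 := abs_cr_triangle (unit j hjJ x hx) (unit i (hij.trans hjJ) x hx) (unit j hjJ y hy)
  rw [abs_cr_swap (e i x) (e j x)] at h4
  rw [← he] at h3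
  linarith

end

end Crest.Agent.R138.Hull51
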