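import Mathlib
import Crest.Agent.R138.Flag_51

/-!
# R138: the interface between K1 and K2 (helper163)

`Win` = one window: finitely many real lines over `[0,1]`, incidences with the `M = m^n` cells
`[j/M, (j+1)/M]`, own shading profile of slope `s` up to `M^κ` at the `n` sub-levels, deep planks of
dimensions `M^(-C) × M^(-1)` over a cell (partition `lab`, slope `f`), penalised maximality at the
deep level (`max`) and at the top level (`top`).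
`WindowThm` = the window theorem (K2): `A1 ≤ A0 M^(2 s + ε)`.
-/

set_option autoImplicit false
set_option linter.unusedVariables false

open Finset

namespace Crest.Agent.R138.K1

open Crest.Agent.R138.Flag51

open Classical in
/-- one window. -/
structure Win (m n : ℕ) (s q κ C A0 A1 : ℝ) {ι : Type} (L : ι → Ln) (I : Finset (ι × ℕ))
    (lab : ι → ℕ → ℕ) (f : ℕ → ℕ → ℝ) : Prop where
  ne : I.Nonempty
  cell : ∀ x ∈ I, x.2 < m ^ n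
  /-- the lines stay in the unit box -/
  bd : ∀ x ∈ I, ∀ z : ℝ, 0 ≤ z → z ≤ 1 → |pos (L x.1) z 0| ≤ 1 ∧ |pos (L x.1) z 1| ≤ 1
  /-- own shading profile, `κ`-linear of slope `s` -/
  prof_lo : ∀ x ∈ I, ∀ k ≤ n,
    ((m : ℝ) ^ n) ^ (-κ) * (m : ℝ) ^ ((1 - s) * ((n : ℝ) - k)) ≤
      ((I.filter fun y => y.1 = x.1 ∧ y.2 / m ^ (n - k) = x.2 / m ^ (n - k)).card : ℝ)
  prof_hi : ∀ x ∈ I, ∀ k ≤ n,
    ((I.filter fun y => y.1 = x.1 ∧ y.2 / m ^ (n - k) = x.2 / m ^ (n - k)).card : ℝ) ≤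
      ((m : ℝ) ^ n) ^ κ * (m : ℝ) ^ ((1 - s) * ((n : ℝ) - k))
  slope : ∀ j c, |f j c| ≤ 1
  /-- the deep plank classes are large -/
  deep_card : ∀ x ∈ I, A1 * ((m : ℝ) ^ n) ^ (-C - 1) ≤
    ((I.filter fun y => y.2 = x.2 ∧ lab y.1 y.2 = lab x.1 x.2).card : ℝ)
  /-- two lines of one class over the cell: `|ΔY - f ΔX| ≤ M^(-C)`, `|ΔX| ≤ M^(-1)` -/
  deep : ∀ x ∈ I, ∀ y ∈ I, y.2 = x.2 → lab y.1 y.2 = lab x.1 x.2 →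
    ∀ z : ℝ, |z - ((x.2 : ℝ) + 1 / 2) / (m : ℝ) ^ n| ≤ 1 / 2 / (m : ℝ) ^ n →
      |(pos (L y.1) z 1 - pos (L x.1) z 1) -
        f x.2 (lab x.1 x.2) * (pos (L y.1) z 0 - pos (L x.1) z 0)| ≤ ((m : ℝ) ^ n) ^ (-C) ∧
      |pos (L y.1) z 0 - pos (L x.1) z 0| ≤ ((m : ℝ) ^ n)⁻¹
  /-- penalised maximality at the deep level -/
  max : ∀ (j : ℕ) (l : Ln) (e : E2), dt e e = 1 → ∀ w1 w2 : ℝ,
    ((m : ℝ) ^ n) ^ (-C) ≤ w1 → w1 ≤ w2 → w2 ≤ 1 →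
    ((I.filter fun y => y.2 = j ∧ InPlank (L y.1) l e w1 w2 (((j : ℝ) + 1 / 2) / (m : ℝ) ^ n)
        (1 / 2 / (m : ℝ) ^ n)).card : ℝ) ≤
      ((m : ℝ) ^ n) ^ κ * A1 * w1 * w2 * (w2 * (m : ℝ) ^ n) ^ q
  /-- penalised density bound at the top level -/
  top : ∀ (l : Ln) (e : E2), dt e e = 1 → ∀ w1 w2 : ℝ,
    ((m : ℝ) ^ n) ^ (-C) ≤ w1 → w1 ≤ w2 → w2 ≤ 1 →
    (((I.image Prod.fst).filter fun i => InPlank (L i) l e w1 w2 (1 / 2) (1 / 2)).card : ℝ) ≤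
      ((m : ℝ) ^ n) ^ κ * A0 * w1 * w2 * w2 ^ q

/-- **the window theorem** (K2). -/
def WindowThm : Prop :=
  ∀ ε : ℝ, 0 < ε → ∃ q : ℝ, 0 < q ∧ q ≤ ε ∧ q ≤ 1 ∧ ∀ C : ℝ, 1 ≤ C →
    ∃ n : ℕ, 1 ≤ n ∧ ∃ κ : ℝ, 0 < κ ∧ ∃ m0 : ℕ, ∀ m : ℕ, m0 ≤ m → ∀ s A0 A1 : ℝ,
      0 ≤ s → s ≤ 1 → 0 < A0 → 0 < A1 →
      ∀ (ι : Type) (L : ι → Ln) (I : Finset (ι × ℕ)) (lab : ι → ℕ → ℕ) (f : ℕ → ℕ → ℝ),
        Win m n s q κ C A0 A1 L I lab f → A1 ≤ A0 * ((m : ℝ) ^ n) ^ (2 * s + ε)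

end Crest.Agent.R138.K1
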