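import Crest.Agent.R138.MK6_877

/-!
# KB: trilinear Kakeya on a rigid stretch, affine form (helper439)

Lines `X = a + c z`, `Y = b + d z`.  A reference line `l0 = (a0, b0, c0, d0)`, a slope `θ` of the
plane, an affine box: length `len`, velocities `|c - c0| ≤ A`, `|(d - d0) - θ (c - c0)| ≤ B`.
Cells are integer triples `k` in the affine coordinates at scale `len / R`.
`nonnarrow_kakeya` of `MK6_877` in these coordinates, with the non-narrowness tested in the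
*rescaled* velocities, plus the counting (exponent) form.
-/

set_option autoImplicit false

namespace Crest.Agent.R138.Kb439

open Finset Crest.Agent.R138.MK877

/-- a line `X = a + c z`, `Y = b + d z` -/
structure Ln where
  a : ℝ
  b : ℝ
  c : ℝ
  d : ℝ

namespace Ln

/-- lateral position relative to `l0` at height `z` -/
def dX (l0 l : Ln) (z : ℝ) : ℝ := (l.a - l0.a) + (l.c - l0.c) * z

/-- normal position relative to `l0` at height `z`, slope `θ` -/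
def dN (l0 : Ln) (θ : ℝ) (l : Ln) (z : ℝ) : ℝ :=
  (l.b - l0.b) + (l.d - l0.d) * z - θ * dX l0 l z

/-- lateral velocity relative to `l0` -/
def dC (l0 l : Ln) : ℝ := l.c - l0.c

/-- normal velocity relative to `l0` -/
def dP (l0 : Ln) (θ : ℝ) (l : Ln) : ℝ := (l.d - l0.d) - θ * (l.c - l0.c)

theorem dX_shift (l0 l : Ln) (z z' : ℝ) : dX l0 l z' = dX l0 l z + (z' - z) * dC l0 l := by
  unfold dX dC; ring

theorem dN_shift (l0 : Ln) (θ : ℝ) (l : Ln) (z z' : ℝ) :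
    dN l0 θ l z' = dN l0 θ l z + (z' - z) * dP l0 θ l := by
  unfold dN dX dP; ring

/-- rescaled velocity -/
noncomputable def vel (l0 : Ln) (θ A B : ℝ) (l : Ln) : ℝ × ℝ := (dC l0 l / A, dP l0 θ l / B)

end Ln

open Ln

/-- **KB (affine nonnarrow Kakeya).** -/
theorem affine_kakeya (ε : ℝ) (hε : 0 < ε) : ∃ C : ℝ, 0 < C ∧
    ∀ {ι : Type} (s : Finset ι) (L : ι → Ln) (w : ι → ℝ) (_ : ∀ l ∈ s, 0 ≤ w l)
      (l0 : Ln) (θ z0 len A B : ℝ) (_ : 0 < len) (_ : 0 < A) (_ : 0 < B)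
      (ν r R : ℝ) (_ : 0 < ν) (_ : ν ≤ 1) (_ : 1 ≤ r) (_ : 1 ≤ R)
      (_ : ∀ l ∈ s, |dC l0 (L l)| ≤ A ∧ |dP l0 θ (L l)| ≤ B)
      (X : Finset (Fin 3 → ℤ)) (_ : ∀ k ∈ X, ∀ i, |(k i : ℝ)| ≤ R)
      (F : (Fin 3 → ℤ) → Finset ι) (_ : ∀ k ∈ X, F k ⊆ s)
      (_ : ∀ k ∈ X, ∀ l ∈ F k,
        |dX l0 (L l) (z0 + len * k 2 / R) - A * len * k 0 / R| ≤ r * (A * len / R) ∧
        |dN l0 θ (L l) (z0 + len * k 2 / R) - B * len * k 1 / R| ≤ r * (B * len / R))
      (_ : ∀ k ∈ X, ∀ u n : ℝ × ℝ, n.1 ^ 2 + n.2 ^ 2 = 1 →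
        haveI := Classical.decPred fun l => InStrip ν u n (vel l0 θ A B (L l))
        ∑ l ∈ (F k).filter (fun l => InStrip ν u n (vel l0 θ A B (L l))), w l ≤
          (∑ l ∈ F k, w l) / 2),
      ∑ k ∈ X, √(∑ l ∈ F k, w l) ^ 3 ≤
        C * r ^ 3 * (ν⁻¹) ^ 26 * R ^ ε * √(∑ l ∈ s, w l) ^ 3 := by
  obtain ⟨C, hC, key⟩ := nonnarrow_kakeya ε hε
  refine ⟨C, hC, ?_⟩
  intro ι s L w hw l0 θ z0 len A B hlen hA hB ν r R hν hν1 hr hR hv X hX F hF hnear hnn
  have hR0 : (0 : ℝ) < R := lt_of_lt_of_le one_pos hR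
  refine key s (fun l => ![dX l0 (L l) z0 * (R / (A * len)), dN l0 θ (L l) z0 * (R / (B * len)), 0])
    (fun l => vel l0 θ A B (L l)) w hw ν r R hν hν1 hr hR ?_ X hX F hF ?_ hnn
  · intro l hl
    obtain ⟨h1, h2⟩ := hv l hl
    refine ⟨?_, ?_⟩
    · simp only [vel, abs_div, abs_of_pos hA]
      exact (div_le_one hA).2 h1
    · simp only [vel, abs_div, abs_of_pos hB]
      exact (div_le_one hB).2 h2
  · intro k hk l hl
    obtain ⟨h1, h2⟩ := hnear k hk l hl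
    refine ⟨(k 2 : ℝ), fun i => ?_⟩
    fin_cases i
    · have e1 : pt 1 k 0 - dX l0 (L l) z0 * (R / (A * len)) - (k 2 : ℝ) * (dC l0 (L l) / A) =
          -((dX l0 (L l) (z0 + len * k 2 / R) - A * len * k 0 / R) / (A * len / R)) := by
        rw [dX_shift l0 (L l) z0 (z0 + len * k 2 / R)]
        unfold pt
        field_simp
        ring
      have e2 : |(dX l0 (L l) (z0 + len * k 2 / R) - A * len * k 0 / R) / (A * len / R)| ≤ r := by
        rw [abs_div, abs_of_pos (by positivity : (0 : ℝ) < A * len / R)]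
        exact (div_le_iff₀ (by positivity)).2 h1
      simp only [dir, vel, Fin.zero_eta, Matrix.cons_val_zero]
      rw [e1, abs_neg]
      exact e2
    · have e1 : pt 1 k 1 - dN l0 θ (L l) z0 * (R / (B * len)) - (k 2 : ℝ) * (dP l0 θ (L l) / B) =
          -((dN l0 θ (L l) (z0 + len * k 2 / R) - B * len * k 1 / R) / (B * len / R)) := by
        rw [dN_shift l0 θ (L l) z0 (z0 + len * k 2 / R)]
        unfold pt
        field_simp
        ring
      have e2 : |(dN l0 θ (L l) (z0 + len * k 2 / R) - B * len * k 1 / R) / (B * len / R)| ≤ r := by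
        rw [abs_div, abs_of_pos (by positivity : (0 : ℝ) < B * len / R)]
        exact (div_le_iff₀ (by positivity)).2 h2
      simp only [dir, vel, Fin.mk_one, Matrix.cons_val_one, Matrix.cons_val_zero]
      rw [e1, abs_neg]
      exact e2
    · simp [dir, pt]
      linarith

/-- **KB, counting form.**  Every line of `s` meets at least `H` of the cells, every cell carries
between `μ` and `K μ` lines: then `μ ≤ (C K r^3 ν^-26 R^ε)^2 #s / H^2`. -/
theorem affine_growth (ε : ℝ) (hε : 0 < ε) : ∃ C : ℝ, 0 < C ∧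
    ∀ {ι : Type} (s : Finset ι) (L : ι → Ln)
      (l0 : Ln) (θ z0 len A B : ℝ) (_ : 0 < len) (_ : 0 < A) (_ : 0 < B)
      (ν r R : ℝ) (_ : 0 < ν) (_ : ν ≤ 1) (_ : 1 ≤ r) (_ : 1 ≤ R)
      (_ : ∀ l ∈ s, |dC l0 (L l)| ≤ A ∧ |dP l0 θ (L l)| ≤ B)
      (X : Finset (Fin 3 → ℤ)) (_ : ∀ k ∈ X, ∀ i, |(k i : ℝ)| ≤ R)
      (F : (Fin 3 → ℤ) → Finset ι) (_ : ∀ k ∈ X, F k ⊆ s)
      (_ : ∀ k ∈ X, ∀ l ∈ F k,
        |dX l0 (L l) (z0 + len * k 2 / R) - A * len * k 0 / R| ≤ r * (A * len / R) ∧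
        |dN l0 θ (L l) (z0 + len * k 2 / R) - B * len * k 1 / R| ≤ r * (B * len / R))
      (_ : ∀ k ∈ X, ∀ u n : ℝ × ℝ, n.1 ^ 2 + n.2 ^ 2 = 1 →
        haveI := Classical.decPred fun l => InStrip ν u n (vel l0 θ A B (L l))
        (((F k).filter (fun l => InStrip ν u n (vel l0 θ A B (L l)))).card : ℝ) ≤
          ((F k).card : ℝ) / 2)
      (H μ K : ℝ) (_ : 0 < H) (_ : 0 < μ) (_ : 0 < K) (_ : s.Nonempty)
      (_ : ∀ k ∈ X, μ ≤ ((F k).card : ℝ) ∧ ((F k).card : ℝ) ≤ K * μ)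
      (_ : ∀ l ∈ s, haveI := Classical.decPred fun k => l ∈ F k
        H ≤ ((X.filter fun k => l ∈ F k).card : ℝ)),
      μ ≤ (C * K * r ^ 3 * (ν⁻¹) ^ 26 * R ^ ε) ^ 2 * (s.card : ℝ) / H ^ 2 := by
  obtain ⟨C, hC, key⟩ := affine_kakeya ε hε
  refine ⟨C, hC, ?_⟩
  intro ι s L l0 θ z0 len A B hlen hA hB ν r R hν hν1 hr hR hv X hX F hF hnear hnn H μ K hH hμ hK
    hs hcard hlines
  classical
  have hR0 : (0 : ℝ) < R := lt_of_lt_of_le one_pos hR
  have h1 := key s L (fun _ => 1) (fun _ _ => zero_le_one) l0 θ z0 len A B hlen hA hB ν r R hν hν1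
    hr hR hv X hX F hF hnear (fun k hk u n hn => by
      have := hnn k hk u n hn
      simp only [sum_const, nsmul_eq_mul, mul_one]
      exact this)
  simp only [sum_const, nsmul_eq_mul, mul_one] at h1
  set Q : ℝ := C * r ^ 3 * (ν⁻¹) ^ 26 * R ^ ε with hQ
  have hQ0 : 0 < Q := by positivity
  have hS : (0 : ℝ) < s.card := by exact_mod_cast hs.card_pos
  -- double count
  have h2 : (s.card : ℝ) * H ≤ ∑ k ∈ X, ((F k).card : ℝ) := by
    have e1 : ∀ k ∈ X, ((F k).card : ℝ) = ∑ l ∈ s, if l ∈ F k then (1 : ℝ) else 0 := by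
      intro k hk
      rw [← Finset.sum_filter, Finset.sum_const, nsmul_eq_mul, mul_one]
      congr 2
      ext l
      simp only [Finset.mem_filter]
      exact ⟨fun h => ⟨hF k hk h, h⟩, fun h => h.2⟩
    rw [Finset.sum_congr rfl e1, Finset.sum_comm]
    have e2 : ∀ l ∈ s, H ≤ ∑ k ∈ X, if l ∈ F k then (1 : ℝ) else 0 := by
      intro l hl
      rw [← Finset.sum_filter, Finset.sum_const, nsmul_eq_mul, mul_one]
      have h := hlines l hl
      refine h.trans (le_of_eq ?_)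
      congr 2
      ext k
      simp only [Finset.mem_filter]
    calc (s.card : ℝ) * H = ∑ _l ∈ s, H := by rw [Finset.sum_const, nsmul_eq_mul]
      _ ≤ _ := Finset.sum_le_sum e2
  have h3 : ∑ k ∈ X, ((F k).card : ℝ) ≤ X.card * (K * μ) := by
    calc _ ≤ ∑ _k ∈ X, K * μ := Finset.sum_le_sum fun k hk => (hcard k hk).2
      _ = X.card * (K * μ) := by rw [Finset.sum_const, nsmul_eq_mul]
  have h4 : (X.card : ℝ) * √μ ^ 3 ≤ ∑ k ∈ X, √((F k).card : ℝ) ^ 3 := by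
    calc (X.card : ℝ) * √μ ^ 3 = ∑ _k ∈ X, √μ ^ 3 := by rw [Finset.sum_const, nsmul_eq_mul]
      _ ≤ _ := Finset.sum_le_sum fun k hk =>
          pow_le_pow_left₀ (Real.sqrt_nonneg _) (Real.sqrt_le_sqrt (hcard k hk).1) 3
  set a : ℝ := √μ with ha
  set b : ℝ := √(s.card : ℝ) with hb
  have ha0 : 0 < a := Real.sqrt_pos.2 hμ
  have hb0 : 0 < b := Real.sqrt_pos.2 hS
  have ha2 : a ^ 2 = μ := Real.sq_sqrt hμ.le
  have hb2 : b ^ 2 = s.card := Real.sq_sqrt hS.le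
  have h5 : (X.card : ℝ) * a ^ 3 ≤ Q * b ^ 3 := h4.trans h1
  have h6 : b ^ 2 * H ≤ X.card * (K * a ^ 2) := by
    rw [hb2, ha2]; exact h2.trans h3
  have h7 : H * a ≤ K * Q * b := by
    have e1 : b ^ 2 * H * a ≤ K * (Q * b ^ 3) := by
      calc b ^ 2 * H * a ≤ X.card * (K * a ^ 2) * a := by gcongr
        _ = K * (X.card * a ^ 3) := by ring
        _ ≤ K * (Q * b ^ 3) := by gcongr
    have e2 : b ^ 2 * (H * a) ≤ b ^ 2 * (K * Q * b) := by
      calc b ^ 2 * (H * a) = b ^ 2 * H * a := by ring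
        _ ≤ K * (Q * b ^ 3) := e1
        _ = b ^ 2 * (K * Q * b) := by ring
    exact le_of_mul_le_mul_left e2 (by positivity)
  rw [le_div_iff₀ (by positivity), ← ha2, ← hb2]
  calc a ^ 2 * H ^ 2 = (H * a) ^ 2 := by ring
    _ ≤ (K * Q * b) ^ 2 := pow_le_pow_left₀ (by positivity) h7 2
    _ = (C * K * r ^ 3 * ν⁻¹ ^ 26 * R ^ ε) ^ 2 * b ^ 2 := by rw [hQ]; ring

end Crest.Agent.R138.Kb439
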