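import Crest.Agent.R138.RR1_323
import Crest.Agent.R138.F4_858

/-!
# R138 wave side: re-rooting (helper323), part 2: packet energies of localised functions
-/

set_option autoImplicit false

open MeasureTheory FourierTransform
open scoped ContDiff ENNReal

namespace Crest.Agent.R138.W323

open Crest.Agent.R138.Defs Crest.Agent.R138.Bil882 Crest.Agent.R138.W188
open Crest.Agent.R138.Wpk685
open Crest.Agent.R138.Wf448 (sl)

/-- the weight of the ball of radius `a`. -/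
noncomputable def bw (n : ℕ) (ρ a : ℝ) (y : E2) : ℝ := ((1 + ρ * max 0 (‖y‖ - a)) ^ n)⁻¹

theorem bw_sv (n : ℕ) {ρ : ℝ} (hρ : 0 ≤ ρ) (a : ℝ) : SV ρ 1 n (bw n ρ a) := by
  have hp : ∀ y : E2, 0 < 1 + ρ * max 0 (‖y‖ - a) := fun y => by
    have := le_max_left 0 (‖y‖ - a)
    positivity
  refine ⟨by unfold bw; fun_prop, fun y => by unfold bw; have := hp y; positivity,
    fun x y => ?_⟩
  unfold bw
  rw [one_mul, ← div_eq_mul_inv, inv_eq_one_div, div_le_div_iff₀ (pow_pos (hp x) n)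
    (pow_pos (hp y) n), one_mul, ← mul_pow]
  refine pow_le_pow_left₀ (hp y).le ?_ n
  have h1 : max 0 (‖y‖ - a) ≤ max 0 (‖x‖ - a) + ‖x - y‖ := by
    have h2 : ‖y‖ ≤ ‖x‖ + ‖x - y‖ := by
      have := norm_sub_le x (x - y)
      rwa [sub_sub_cancel] at this
    refine max_le (by positivity) ?_
    have := le_max_right 0 (‖x‖ - a)
    linarith
  have h3 : 0 ≤ max 0 (‖x‖ - a) := le_max_left _ _
  have h4 : 0 ≤ ‖x - y‖ := norm_nonneg _
  calc 1 + ρ * max 0 (‖y‖ - a) ≤ 1 + ρ * (max 0 (‖x‖ - a) + ‖x - y‖) := by gcongr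
    _ ≤ (1 + ρ * ‖x - y‖) * (1 + ρ * max 0 (‖x‖ - a)) := by
        nlinarith [mul_nonneg (mul_nonneg hρ h3) (mul_nonneg hρ h4)]

theorem bw_le_one (n : ℕ) {ρ : ℝ} (hρ : 0 ≤ ρ) (a : ℝ) (y : E2) : bw n ρ a y ≤ 1 := by
  unfold bw
  have := le_max_left 0 (‖y‖ - a)
  exact inv_le_one_of_one_le₀ (one_le_pow₀ (by nlinarith [mul_nonneg hρ this]))

theorem bw_one (n : ℕ) (ρ : ℝ) {a : ℝ} {y : E2} (hy : ‖y‖ ≤ a) : bw n ρ a y = 1 := by
  unfold bw
  rw [max_eq_left (by linarith)]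
  simp

theorem bw_far (n : ℕ) {ρ : ℝ} (hρ : 0 ≤ ρ) {a d : ℝ} (hd : 0 ≤ d) {y : E2} (hy : a + d < ‖y‖) :
    bw n ρ a y ≤ ((1 + ρ * d) ^ n)⁻¹ := by
  unfold bw
  have h1 : d ≤ max 0 (‖y‖ - a) := le_max_of_le_right (by linarith)
  gcongr

theorem En_eq_lint {g : E2 → ℂ} (hg : Gd g) : ∫⁻ ξ, ‖g ξ‖ₑ ^ 2 = ENNReal.ofReal (En g) := by
  unfold En
  rw [ofReal_integral_eq_lintegral_ofReal hg.l2.norm.integrable_sq
    (Filter.Eventually.of_forall fun _ => by positivity)]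
  refine lintegral_congr fun ξ => ?_
  rw [ENNReal.ofReal_pow (norm_nonneg _), ofReal_norm]

theorem sl_eq_tr (h : E2 → ℝ) (g : E2 → ℂ) (t : ℝ) :
    sl h g t = tr h (0, t) g := by
  funext ξ
  unfold tr sl
  simp

theorem planch {g : E2 → ℂ} (hg : Gd g) : ∫⁻ x, ‖𝓕⁻ g x‖ₑ ^ 2 = ENNReal.ofReal (En g) := by
  have h1 := F4x858.slice (h := fun _ => 0) continuous_const hg.int hg.l2 0
  rw [En_eq_lint hg] at h1
  rw [← h1]
  refine lintegral_congr fun x => ?_
  have h2 : tr (fun _ => 0) (0, 0) g = g := by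
    funext ξ
    unfold tr
    simp [ee]
  have h3 := fourierInv_tr (fun _ => 0) (0, 0) g x
  rw [h2] at h3
  rw [h3]
  simp

/-- the volume of a ball of the plane. -/
theorem volume_ball_le' {a : ℝ} (ha : 0 ≤ a) :
    volume (Metric.closedBall (0 : E2) a) ≤ ENNReal.ofReal (4 * a ^ 2) := by
  rw [EuclideanSpace.volume_closedBall]
  simp only [Fintype.card_fin]
  have h1 : Real.sqrt Real.pi ^ 2 / Real.Gamma ((2 : ℕ) / 2 + 1) = Real.pi := by
    rw [Real.sq_sqrt Real.pi_pos.le]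
    norm_num
  rw [h1, ← ENNReal.ofReal_pow ha, ← ENNReal.ofReal_mul (by positivity)]
  refine ENNReal.ofReal_le_ofReal ?_
  have := Real.pi_le_four
  nlinarith [sq_nonneg a]

/-- the packet energy of a selection in the ball of radius `a` is controlled by the function in the
ball of radius `a + d` at any time `|t| ≤ ρ⁻²`. -/
theorem exists_en_le (B : ℕ → ℝ) (n : ℕ) : ∃ C : ℝ, 0 ≤ C ∧ ∀ h, ParB B h → ∀ (ρ a : ℝ), 0 < ρ →
    ρ ≤ 1 → ∀ f : E2 → ℂ, Gd f → ∀ S : ℤ × ℤ → Set E2,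
    (∀ m ∈ caps ρ, MeasurableSet (S m)) → (∀ m ∈ caps ρ, ∀ y ∈ S m, ‖y‖ ≤ a) →
    en ρ f S ≤ ENNReal.ofReal C * WE (bw n ρ a) f := by
  obtain ⟨C, hC, H⟩ := thmB B n 1 le_rfl
  refine ⟨C, hC, fun h hh ρ a hρ hρ1 f hf S hSm hS => ?_⟩
  have h1 := H h hh ρ 1 (bw n ρ a) hρ hρ1 (bw_sv n hρ.le a) (caps ρ) f hf.int hf.l2 0 (by simp)
  rw [sl_zero, one_pow, mul_one] at h1
  refine le_trans ?_ h1
  unfold en
  refine Finset.sum_le_sum fun m hm => ?_
  rw [← lintegral_indicator (hSm m hm)]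
  refine lintegral_mono fun y => ?_
  dsimp only
  by_cases hy : y ∈ S m
  · rw [Set.indicator_of_mem hy, zero_smul, sub_zero, bw_one n ρ (hS m hm y hy),
      ENNReal.ofReal_one, one_mul]
  · rw [Set.indicator_of_notMem hy]
    exact zero_le

/-- rough bound for `WE (bw ..)`. -/
theorem WE_bw_le (n : ℕ) {ρ a d β : ℝ} (hρ : 0 ≤ ρ) (ha : 0 ≤ a) (hd : 0 ≤ d) (hβ : 0 ≤ β)
    {f : E2 → ℂ} (hf : Gd f) (hb : ∀ x, ‖x‖ ≤ a + d → ‖𝓕⁻ f x‖ ≤ β) :
    WE (bw n ρ a) f ≤ ENNReal.ofReal (4 * (a + d) ^ 2 * β ^ 2 + ((1 + ρ * d) ^ n)⁻¹ * En f) := by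
  have hEn : 0 ≤ En f := integral_nonneg fun _ => by positivity
  set K : Set E2 := Metric.closedBall (0 : E2) (a + d) with hK
  have hKm : MeasurableSet K := Metric.isClosed_closedBall.measurableSet
  have hm : Measurable fun x => ‖𝓕⁻ f x‖ₑ ^ 2 :=
    (Crest.Agent.R138.Wf448.fourierInv_continuous hf.int).measurable.enorm.pow_const 2
  unfold WE
  calc ∫⁻ x, ENNReal.ofReal (bw n ρ a x) * ‖𝓕⁻ f x‖ₑ ^ 2
      ≤ ∫⁻ x, (K.indicator (fun _ => ENNReal.ofReal (β ^ 2)) x +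
          ENNReal.ofReal (((1 + ρ * d) ^ n)⁻¹) * ‖𝓕⁻ f x‖ₑ ^ 2) := by
        refine lintegral_mono fun x => ?_
        dsimp only
        by_cases hx : x ∈ K
        · rw [Set.indicator_of_mem hx]
          refine le_trans ?_ le_self_add
          have h1 : ‖𝓕⁻ f x‖ₑ ^ 2 ≤ ENNReal.ofReal (β ^ 2) := by
            rw [ENNReal.ofReal_pow hβ, ← ofReal_norm]
            gcongr
            exact hb x (by simpa [hK] using hx)
          calc ENNReal.ofReal (bw n ρ a x) * ‖𝓕⁻ f x‖ₑ ^ 2 ≤ 1 * ENNReal.ofReal (β ^ 2) := by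
                gcongr
                exact ENNReal.ofReal_le_one.2 (bw_le_one n hρ a x)
            _ = _ := one_mul _
        · rw [Set.indicator_of_notMem hx, zero_add]
          gcongr
          refine bw_far n hρ hd ?_
          simpa [hK] using hx
    _ = ENNReal.ofReal (β ^ 2) * volume K +
          ENNReal.ofReal (((1 + ρ * d) ^ n)⁻¹) * ENNReal.ofReal (En f) := by
        rw [lintegral_add_right _ (hm.const_mul _), lintegral_indicator_const hKm,
          lintegral_const_mul _ hm, planch hf]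
    _ ≤ ENNReal.ofReal (β ^ 2) * ENNReal.ofReal (4 * (a + d) ^ 2) +
          ENNReal.ofReal (((1 + ρ * d) ^ n)⁻¹) * ENNReal.ofReal (En f) := by
        gcongr
        exact volume_ball_le' (by linarith)
    _ = _ := by
        rw [← ENNReal.ofReal_mul (by positivity), ← ENNReal.ofReal_mul (by positivity),
          ← ENNReal.ofReal_add (by positivity) (by positivity)]
        congr 1; ring

end Crest.Agent.R138.W323
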