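import Crest.Agent.R138.Sup6_882
import Crest.Agent.R138.RR2_323
import Crest.Agent.R138.Wpk5_685

/-!
# R138 / R139, wave side: the leaves A2 (from ZoomNN) and A2K (from KMw), helper882
-/

set_option autoImplicit false

open MeasureTheory FourierTransform
open scoped ContDiff ENNReal

namespace Crest.Agent.R138.Sup882

open Crest.Agent.R138.Defs Crest.Agent.R138.Wf448
open Crest.Agent.R138.Wpk685 (cap win cen caps)
open Crest.Agent.R138.Bil882 (NearId wt wt_pos measurable_wt)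
open Crest.Agent.R138.Bn759 (nearId)
open Crest.Agent.R138.W188 (PBox En SS St NN Plate Plates val SIG Sd A2 A2K KMw)
open Crest.Agent.R138.Zm858 (PBoxLe ZIn ZoomNN)

/-! ### covering of the cylinder -/

/-- the grid. -/
noncomputable def gpt (R : ℝ) (j : (ℤ × ℤ) × ℤ) : E2 × ℝ :=
  (!₂[j.1.1 * (R / 16), j.1.2 * (R / 16)], j.2 * (R / 16))

theorem shift_cyl (F : E2 × ℝ → ℝ≥0∞) (R : ℝ) (z : E2 × ℝ) :
    ∫⁻ p in cyl R, F (p + z) = ∫⁻ p in {p | p - z ∈ cyl R}, F p := by
  have hm : MeasurableSet (cyl R) := by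
    have : cyl R = {p : E2 × ℝ | ‖p.1‖ ≤ R} ∩ {p | |p.2| ≤ R} := rfl
    rw [this]
    exact (isClosed_le (by fun_prop) continuous_const).measurableSet.inter
      (isClosed_le (by fun_prop) continuous_const).measurableSet
  have hm2 : MeasurableSet {p : E2 × ℝ | p - z ∈ cyl R} := hm.preimage (measurable_id.sub_const z)
  rw [← lintegral_indicator hm, ← lintegral_indicator hm2,
    ← lintegral_add_right_eq_self ({p : E2 × ℝ | p - z ∈ cyl R}.indicator F) z]
  refine lintegral_congr fun p => ?_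
  have h1 : (p + z ∈ {p : E2 × ℝ | p - z ∈ cyl R}) ↔ p ∈ cyl R := by
    show (p + z) - z ∈ cyl R ↔ p ∈ cyl R
    rw [add_sub_cancel_right]
  by_cases hp : p ∈ cyl R
  · rw [Set.indicator_of_mem hp, Set.indicator_of_mem (h1.2 hp)]
  · rw [Set.indicator_of_notMem hp, Set.indicator_of_notMem (fun hc => hp (h1.1 hc))]

/-- `NN` on the large cylinder against translates of small cylinders. -/
theorem NN_cover {R : ℝ} (hR : 0 < R) : ∃ Z : Finset (E2 × ℝ), (Z.card : ℝ) ≤ 300000 ∧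
    (∀ z ∈ Z, z ∈ cyl (2 * R)) ∧ ∀ (N : ℕ) (h : E2 → ℝ) (g : E2 → ℂ) (w : ℝ),
    NN N h g w (2 * R) ≤ ∑ z ∈ Z, NN N h (W188.tr h z g) w (R / 8) := by
  classical
  obtain ⟨n, hn⟩ : ∃ n : ℤ, n = 32 := ⟨_, rfl⟩
  obtain ⟨I0, hI0⟩ : ∃ I0 : Finset ℤ, I0 = Finset.Icc (-n) n := ⟨_, rfl⟩
  set J : Finset ((ℤ × ℤ) × ℤ) := (I0 ×ˢ I0) ×ˢ I0 with hJ
  refine ⟨(J.image (gpt R)).filter (fun z => z ∈ cyl (2 * R)), ?_, ?_, ?_⟩
  · have hc0 : I0.card = 65 := by
      rw [hI0, Int.card_Icc, hn]; norm_num; rfl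
    have h1 : ((J.image (gpt R)).filter (fun z => z ∈ cyl (2 * R))).card ≤ J.card :=
      (Finset.card_filter_le _ _).trans Finset.card_image_le
    have h2 : (J.card : ℝ) ≤ 300000 := by
      rw [hJ, Finset.card_product, Finset.card_product, hc0]
      norm_num
    exact le_trans (by exact_mod_cast h1) h2
  · intro z hz
    exact (Finset.mem_filter.1 hz).2
  · intro N h g w
    have h1 : ∀ z : E2 × ℝ, NN N h (W188.tr h z g) w (R / 8) =
        ∫⁻ p in {p | p - z ∈ cyl (R / 8)}, aw N w h g p ^ (3 / 2 : ℝ) := by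
      intro z
      rw [NN_eq, ← shift_cyl (fun p => aw N w h g p ^ (3 / 2 : ℝ)) (R / 8) z]
      refine lintegral_congr fun p => ?_
      have := aw_tr N w h z g p
      have e : aw N w h (W188.tr h z g) p = aw N w h (tr h z g) p := rfl
      rw [e, this]
    simp_rw [h1]
    rw [NN_eq]
    refine lint_cover volume _ _ _ _ fun p hp => ?_
    have hR16 : 0 < R / 16 := by positivity
    obtain ⟨a, ha, ha'⟩ := exists_trunc (p.1 0 / (R / 16))
    obtain ⟨b, hb, hb'⟩ := exists_trunc (p.1 1 / (R / 16))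
    obtain ⟨c, hc, hc'⟩ := exists_trunc (p.2 / (R / 16))
    have key : ∀ (u : ℝ) (m : ℤ), |u| ≤ 2 * R → |(m : ℝ)| ≤ |u / (R / 16)| →
        |u / (R / 16) - m| ≤ 1 → m ∈ I0 ∧ |m * (R / 16)| ≤ |u| ∧
          |u - m * (R / 16)| ≤ R / 16 := by
      intro u m hu h2 h3
      have h4 : |u / (R / 16)| = |u| / (R / 16) := by rw [abs_div, abs_of_pos hR16]
      have h5 : |(m : ℝ)| ≤ 32 := by
        refine h2.trans ?_
        rw [h4, div_le_iff₀ hR16]
        linarith
      refine ⟨?_, ?_, ?_⟩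
      · rw [hI0, Finset.mem_Icc, hn]
        obtain ⟨h6, h7⟩ := abs_le.1 h5
        constructor
        · have : ((-32 : ℤ) : ℝ) ≤ m := by push_cast; linarith
          exact_mod_cast this
        · have : (m : ℝ) ≤ ((32 : ℤ) : ℝ) := by push_cast; linarith
          exact_mod_cast this
      · rw [abs_mul, abs_of_pos hR16]
        rw [h4, le_div_iff₀ hR16] at h2
        exact h2
      · have e5 : u - m * (R / 16) = (u / (R / 16) - m) * (R / 16) := by
          rw [sub_mul, div_mul_cancel₀ _ hR16.ne']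
        rw [e5, abs_mul, abs_of_pos hR16]
        exact mul_le_of_le_one_left hR16.le h3
    have hp0 : |p.1 0| ≤ 2 * R := (PiLp.norm_apply_le p.1 0).trans hp.1
    have hp1 : |p.1 1| ≤ 2 * R := (PiLp.norm_apply_le p.1 1).trans hp.1
    obtain ⟨ma, ha2, ha3⟩ := key _ a hp0 ha ha'
    obtain ⟨mb, hb2, hb3⟩ := key _ b hp1 hb hb'
    obtain ⟨mc, hc2, hc3⟩ := key _ c hp.2 hc hc'
    refine ⟨gpt R ((a, b), c), Finset.mem_filter.2 ⟨Finset.mem_image_of_mem _ ?_, ?_⟩, ?_⟩
    · exact Finset.mem_product.2 ⟨Finset.mem_product.2 ⟨ma, mb⟩, mc⟩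
    · constructor
      · refine le_trans ?_ hp.1
        refine le_of_sq_le_sq ?_ (norm_nonneg _)
        rw [EuclideanSpace.norm_sq_eq, EuclideanSpace.norm_sq_eq, Fin.sum_univ_two, Fin.sum_univ_two]
        simp only [gpt, Real.norm_eq_abs]
        exact add_le_add (pow_le_pow_left₀ (abs_nonneg _) ha2 2)
          (pow_le_pow_left₀ (abs_nonneg _) hb2 2)
      · exact hc2.trans hp.2
    · constructor
      · refine le_of_sq_le_sq ?_ (by positivity)
        rw [EuclideanSpace.norm_sq_eq, Fin.sum_univ_two]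
        simp only [gpt, Real.norm_eq_abs, Prod.fst_sub, PiLp.sub_apply]
        have h6 := pow_le_pow_left₀ (abs_nonneg _) ha3 2
        have h7 := pow_le_pow_left₀ (abs_nonneg _) hb3 2
        refine (add_le_add h6 h7).trans ?_
        nlinarith [sq_nonneg R]
      · exact hc3.trans (by linarith)

/-! ### small scales -/

theorem gd_of {g : E2 → ℂ} (hm : Measurable g) (hb : ∃ M : ℝ, ∀ ξ, ‖g ξ‖ ≤ M)
    (hs : ∀ ξ, 1 < ‖ξ‖ → g ξ = 0) : Wpk685.Gd g :=
  ⟨hm, hb, fun ξ hξ => hs ξ (by linarith)⟩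

/-- crude bound of `SIG`. -/
theorem triv0 (A q : ℝ) (hq : 0 ≤ q) (M0 : ℝ) : ∃ C a : ℝ, 0 ≤ C ∧ 0 ≤ a ∧
    ∀ (h : E2 → ℝ), Continuous h → ∀ g : E2 → ℂ, Wpk685.Gd g → ∀ r s1 s2 R D : ℝ, 1 ≤ r → r ≤ R →
    Sd r s1 s2 → 0 ≤ D → En g ≤ R ^ M0 * D →
    ENNReal.ofReal (s2 ^ (-q / 2)) * SIG A r s1 s2 h g R ≤
      ENNReal.ofReal (C * R ^ a * SS g R D) := by
  classical
  obtain ⟨C0, hC0, h0⟩ := Wpk685.en_le
  set C1 : ℝ := 64 * C0 with hC1
  refine ⟨C1 ^ (3 / 2 : ℝ), 6 + |M0| + q, by positivity, by positivity, ?_⟩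
  intro h hh g hg r s1 s2 R D hr hrR hs hD hnd
  have hr0 : 0 < r := by linarith
  have hR0 : 0 < R := by linarith
  have hR1 : 1 ≤ R := by linarith
  obtain ⟨hs1, hs2⟩ := sides_pos hr hs
  set ρ : ℝ := r ^ (-(1/2) : ℝ) with hρdef
  have hρ : 0 < ρ := Real.rpow_pos_of_pos hr0 _
  have hρ1 : ρ ≤ 1 := Real.rpow_le_one_of_one_le_of_nonpos hr (by norm_num)
  have hEn0 : 0 ≤ En g := En_nonneg g
  -- the total energy
  have hSIG : SIG A r s1 s2 h g R ≤ ENNReal.ofReal (C1 ^ (3 / 2 : ℝ) * R ^ (6 : ℝ) *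
      En g ^ (3 / 2 : ℝ)) := by
    unfold SIG
    refine iSup_le fun I => iSup_le fun P => iSup_le fun hP => ?_
    set e : ℕ → ℝ≥0∞ := fun i => Wpk685.en ρ (W188.tr h (P i).z g) (P i).S with he
    -- one frame
    have hone : ∀ z ∈ I.image (fun i => (P i).z), ∑ i ∈ I.filter (fun i => (P i).z = z), e i ≤
        ENNReal.ofReal (C0 * En g) := by
      intro z _
      have hgz : Wpk685.Gd (W188.tr h z g) := W323.Gd.tr hh hg z
      have h1 := W323.en_union (ρ := ρ) (g := W188.tr h z g) (I.filter (fun i => (P i).z = z))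
        (fun i => (P i).S) (fun _ => Set.univ)
        (fun i hi m => hP.meas i (Finset.mem_filter.1 hi).1 m)
        (fun i hi j hj hij m => hP.disj i (Finset.mem_filter.1 hi).1 j (Finset.mem_filter.1 hj).1
          hij ((Finset.mem_filter.1 hi).2.trans (Finset.mem_filter.1 hj).2.symm) m)
        (fun i hi m => Set.subset_univ _)
      have h2 := h0 ρ hρ hρ1 (W188.tr h z g) hgz.int hgz.l2 (fun _ => Set.univ)
      rw [W323.En_eq_lint hgz, W323.En_tr, ← ENNReal.ofReal_mul hC0] at h2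
      refine le_trans (le_of_eq ?_) (h1.trans h2)
      refine Finset.sum_congr rfl fun i hi => ?_
      rw [he]
      simp only
      rw [(Finset.mem_filter.1 hi).2]
    set Z := I.image (fun i => (P i).z) with hZ
    have hcard : (Z.card : ℝ) ≤ 64 * R ^ 3 := by
      have h1 := card_sep_le (K := R / r) hr0 (by positivity) Z (by
        intro x hx y hy hxy
        obtain ⟨i, hi, rfl⟩ := Finset.mem_image.1 hx
        obtain ⟨j, hj, rfl⟩ := Finset.mem_image.1 hy
        rcases hP.sep i hi j hj with h2 | h2 | h2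
        · exact absurd h2 hxy
        · rw [Prod.dist_eq, dist_eq_norm]; exact le_max_of_le_left h2
        · rw [Prod.dist_eq, Real.dist_eq]; exact le_max_of_le_right h2) 0 (by
        intro x hx
        obtain ⟨i, hi, rfl⟩ := Finset.mem_image.1 hx
        rw [dist_zero_right, Prod.norm_def, div_mul_cancel₀ _ hr0.ne']
        exact max_le (hP.mem i hi).1 (hP.mem i hi).2)
      refine h1.trans ?_
      have h2 : 2 * (R / r) + 2 ≤ 4 * R := by
        have : R / r ≤ R := div_le_self hR0.le hr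
        linarith
      calc (2 * (R / r) + 2) ^ 3 ≤ (4 * R) ^ 3 := by gcongr
        _ = _ := by ring
    have htot : ∑ i ∈ I, e i ≤ ENNReal.ofReal (C1 * R ^ 3 * En g) := by
      calc ∑ i ∈ I, e i = ∑ z ∈ Z, ∑ i ∈ I.filter (fun i => (P i).z = z), e i := by
            symm
            exact Finset.sum_fiberwise_of_maps_to (fun i hi => Finset.mem_image_of_mem _ hi) e
        _ ≤ ∑ z ∈ Z, ENNReal.ofReal (C0 * En g) := Finset.sum_le_sum hone
        _ = ENNReal.ofReal (Z.card * (C0 * En g)) := by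
            rw [Finset.sum_const, nsmul_eq_mul, ENNReal.ofReal_mul (p := (Z.card : ℝ)) (by positivity),
              ENNReal.ofReal_natCast]
        _ ≤ _ := by
            refine ENNReal.ofReal_le_ofReal ?_
            calc (Z.card : ℝ) * (C0 * En g) ≤ (64 * R ^ 3) * (C0 * En g) := by gcongr
              _ = _ := by rw [hC1]; ring
    have hfac : (s1 * s2 * r ^ 3) ^ (-(1/2) : ℝ) ≤ 1 := by
      refine Real.rpow_le_one_of_one_le_of_nonpos ?_ (by norm_num)
      have h3 : r⁻¹ ≤ s1 * s2 := by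
        have h4 : ρ * ρ = r⁻¹ := by
          rw [hρdef, ← Real.rpow_add hr0]
          norm_num
          exact Real.rpow_neg_one r
        rw [← h4]
        exact mul_le_mul hs.lo (hs.lo.trans hs.le) hρ.le hs1.le
      calc (1:ℝ) ≤ r ^ 2 := one_le_pow₀ hr
        _ = r⁻¹ * r ^ 3 := by field_simp
        _ ≤ _ := by gcongr
    unfold val
    calc ∑ i ∈ I, ENNReal.ofReal ((s1 * s2 * r ^ 3) ^ (-(1/2) : ℝ)) *
          (ENNReal.ofReal r * e i) ^ (3 / 2 : ℝ)
        ≤ ∑ i ∈ I, (ENNReal.ofReal r * e i) ^ (3 / 2 : ℝ) := by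
          refine Finset.sum_le_sum fun i _ => ?_
          refine mul_le_of_le_one_left bot_le ?_
          rw [← ENNReal.ofReal_one]
          exact ENNReal.ofReal_le_ofReal hfac
      _ ≤ (∑ i ∈ I, ENNReal.ofReal r * e i) ^ (3 / 2 : ℝ) := sum_rpow_le I _
      _ ≤ (ENNReal.ofReal (R * (C1 * R ^ 3 * En g))) ^ (3 / 2 : ℝ) := by
          gcongr
          rw [← Finset.mul_sum, ENNReal.ofReal_mul hR0.le]
          exact mul_le_mul' (ENNReal.ofReal_le_ofReal hrR) htot
      _ = _ := by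
          rw [ENNReal.ofReal_rpow_of_nonneg (by positivity) (by norm_num)]
          congr 1
          rw [show R * (C1 * R ^ 3 * En g) = C1 * R ^ 4 * En g by ring,
            Real.mul_rpow (by positivity) hEn0, Real.mul_rpow (by positivity) (by positivity)]
          congr 2
          rw [← Real.rpow_natCast, ← Real.rpow_mul hR0.le]
          norm_num
  have hs2q : s2 ^ (-q / 2) ≤ R ^ q := by
    have h1 : R ^ (-(1/2) : ℝ) ≤ s2 := by
      refine le_trans ?_ (hs.lo.trans hs.le)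
      exact Real.rpow_le_rpow_of_nonpos hr0 hrR (by norm_num)
    calc s2 ^ (-q / 2) ≤ (R ^ (-(1/2) : ℝ)) ^ (-q / 2) :=
          Real.rpow_le_rpow_of_nonpos (Real.rpow_pos_of_pos hR0 _) h1 (by linarith)
      _ = R ^ (q / 4) := by
          rw [← Real.rpow_mul hR0.le]; congr 1; ring
      _ ≤ R ^ q := Real.rpow_le_rpow_of_exponent_le hR1 (by linarith)
  calc ENNReal.ofReal (s2 ^ (-q / 2)) * SIG A r s1 s2 h g R
      ≤ ENNReal.ofReal (R ^ q) * ENNReal.ofReal (C1 ^ (3 / 2 : ℝ) * R ^ (6 : ℝ) *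
        En g ^ (3 / 2 : ℝ)) := mul_le_mul' (ENNReal.ofReal_le_ofReal hs2q) hSIG
    _ = ENNReal.ofReal (R ^ q * (C1 ^ (3 / 2 : ℝ) * R ^ (6 : ℝ) * En g ^ (3 / 2 : ℝ))) := by
        rw [← ENNReal.ofReal_mul (by positivity)]
    _ ≤ _ := by
        refine ENNReal.ofReal_le_ofReal ?_
        have h1 : En g ^ (3 / 2 : ℝ) = En g * Real.sqrt (En g) := by
          rw [show (3 / 2 : ℝ) = 1 + 1 / 2 by norm_num,
            Real.rpow_add_of_nonneg hEn0 (by norm_num) (by norm_num), Real.rpow_one,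
            Real.sqrt_eq_rpow]
        have h2 : Real.sqrt (En g) ≤ R ^ |M0| * Real.sqrt D := by
          have h3 : En g ≤ (R ^ |M0|) ^ 2 * D := by
            refine hnd.trans ?_
            gcongr
            have h4 : 1 ≤ R ^ |M0| := Real.one_le_rpow hR1 (abs_nonneg _)
            calc R ^ M0 ≤ R ^ |M0| := Real.rpow_le_rpow_of_exponent_le hR1 (le_abs_self _)
              _ ≤ (R ^ |M0|) ^ 2 := by nlinarith
          calc Real.sqrt (En g) ≤ Real.sqrt ((R ^ |M0|) ^ 2 * D) := Real.sqrt_le_sqrt h3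
            _ = R ^ |M0| * Real.sqrt D := by
                rw [Real.sqrt_mul (by positivity), Real.sqrt_sq (by positivity)]
        rw [h1]
        unfold SS
        calc R ^ q * (C1 ^ (3 / 2 : ℝ) * R ^ (6 : ℝ) * (En g * Real.sqrt (En g)))
            ≤ R ^ q * (C1 ^ (3 / 2 : ℝ) * R ^ (6 : ℝ) * (En g * (R ^ |M0| * Real.sqrt D))) := by
              gcongr
          _ = C1 ^ (3 / 2 : ℝ) * (R ^ (6 : ℝ) * R ^ |M0| * R ^ q) * (En g * Real.sqrt D) := by ring
          _ = C1 ^ (3 / 2 : ℝ) * R ^ (6 + |M0| + q) * (En g * Real.sqrt D) := by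
              rw [Real.rpow_add hR0, Real.rpow_add hR0]
          _ ≤ C1 ^ (3 / 2 : ℝ) * R ^ (6 + |M0| + q) * (R * (En g * Real.sqrt D)) := by
              have hX : 0 ≤ En g * Real.sqrt D := by positivity
              exact mul_le_mul_of_nonneg_left (le_mul_of_one_le_left hX hR1) (by positivity)
          _ = _ := by ring

/-! ### A2 -/

theorem exists_large (ε K : ℝ) (hε : 0 < ε) : ∃ R0 : ℝ, 1 ≤ R0 ∧ ∀ R, R0 ≤ R → K ≤ R ^ ε := by
  have h := tendsto_rpow_atTop hε
  obtain ⟨R0, h0⟩ := Filter.eventually_atTop.1 (h.eventually_ge_atTop K)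
  exact ⟨max R0 1, le_max_right _ _, fun R hR => h0 R ((le_max_left _ _).trans hR)⟩

/-- small scales. -/
theorem small_R (B : ℕ → ℝ) (A q : ℝ) (hq : 0 ≤ q) (Na : ℕ) (M0 R0 : ℝ) (hR0 : 1 ≤ R0) :
    ∃ C : ℝ, 0 ≤ C ∧
    ∀ h g R D, St B q Na M0 1 h g R D → R ≤ R0 → ∀ r s1 s2, 1 ≤ r → r ≤ R → Sd r s1 s2 →
      ENNReal.ofReal (s2 ^ (-q / 2)) * SIG A r s1 s2 h g R ≤ ENNReal.ofReal (C * SS g R D) := by
  obtain ⟨C, a, hC, ha, h1⟩ := triv0 A q hq M0
  refine ⟨C * R0 ^ a, by positivity, ?_⟩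
  intro h g R D hst hR r s1 s2 hr hrR hs
  refine (h1 h hst.par.1.continuous g (gd_of hst.meas hst.bdd hst.supp) r s1 s2 R D hr hrR hs
    hst.D0 hst.nd).trans (ENNReal.ofReal_le_ofReal ?_)
  have hR1 := hst.R1
  have hSS : 0 ≤ SS g R D := by
    unfold SS
    have := En_nonneg g
    positivity
  have : R ^ a ≤ R0 ^ a := Real.rpow_le_rpow (by linarith) hR ha
  gcongr

theorem SS_nonneg {g : E2 → ℂ} {R D : ℝ} (hR : 0 ≤ R) : 0 ≤ SS g R D := by
  unfold SS
  have := En_nonneg g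
  positivity

/-- **A2** from SUP and ZOOM. -/
theorem A2_of_Zoom (B : ℕ → ℝ) (hB : B 2 ≤ 1 / 10) (q : ℝ) (hq : 0 ≤ q) (A : ℝ) (hA : 1 ≤ A)
    (hZ : ZoomNN B q) : A2 B q (SIG A) := by
  obtain ⟨θ, hθ0, hθ1, hZ⟩ := hZ
  refine ⟨θ, hθ0, hθ1, ?_⟩
  intro ε hε Na M0
  obtain ⟨Na', M0', hZ⟩ := hZ ε hε Na M0
  refine ⟨Na', M0', ?_⟩
  intro N
  obtain ⟨N1, CZ, hCZ, hZ⟩ := hZ N
  obtain ⟨CS, K0, hCS, hK0, hS⟩ := SUP_lit B hB A hA N1
  obtain ⟨CP, hCP, hP⟩ := pboxLe_piece Na 24 (by norm_num)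
  obtain ⟨R0, hR01, hR0⟩ := exists_large ε K0 hε
  obtain ⟨CT, hCT, hT⟩ := small_R B A q hq Na M0 R0 hR01
  refine ⟨CS * CZ * Real.sqrt CP + CT, by positivity, ?_⟩
  intro h g R D hst r s1 s2 hrlo hrhi hs hsr Q hQ hyp
  have hR1 := hst.R1
  have hR00 : 0 < R := by linarith
  have hn := nearId hB hst.par
  have hr1 : 1 ≤ r := (Real.one_le_rpow hR1 (by norm_num)).trans hrlo
  have hr0 : 0 < r := by linarith
  have hrR : r ≤ R := by
    refine hrhi.trans ?_
    calc R ^ (1 - ε) ≤ R ^ (1 : ℝ) := Real.rpow_le_rpow_of_exponent_le hR1 (by linarith)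
      _ = R := Real.rpow_one R
  obtain ⟨hs1, hs2⟩ := sides_pos hr1 hs
  have hSS : 0 ≤ SS g R D := SS_nonneg hR00.le
  have hRε : 1 ≤ R ^ ε := Real.one_le_rpow hR1 hε.le
  rcases le_total R R0 with hRR | hRR
  · refine (hT h g R D hst hRR r s1 s2 hr1 hrR hs).trans (ENNReal.ofReal_le_ofReal ?_)
    have h1 : CT * SS g R D ≤ (CT * R ^ ε * Q) * SS g R D := by
      refine mul_le_mul_of_nonneg_right ?_ hSS
      have : 1 ≤ R ^ ε * Q := by nlinarith
      nlinarith
    refine h1.trans ?_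
    have h2 : 0 ≤ CS * CZ * Real.sqrt CP := by positivity
    have h3 : 0 ≤ R ^ ε * Q * SS g R D := by positivity
    nlinarith
  · -- large scales
    set l : ℝ := s2 / 24 with hl
    have hl0 : 0 < l := by positivity
    have hg := gd_of hst.meas hst.bdd hst.supp
    have hK : K0 * r ≤ R := by
      calc K0 * r ≤ R ^ ε * R ^ (1 - ε) := mul_le_mul (hR0 R hRR) hrhi hr0.le (by positivity)
        _ = R := by rw [← Real.rpow_add hR00]; simp
    have hS1 := hS h hst.par hst.h1 g hg.int hg.l2 hst.supp r s1 s2 R hr1 hK hs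
    have hgrad : ∀ ξ, g ξ ≠ 0 → ‖gradient h ξ‖ ≤ 2 := by
      intro ξ hξ
      have h2 : ‖ξ‖ ≤ 1 := by
        by_contra hc
        push Not at hc
        exact hξ (hst.supp ξ hc)
      have := grad_norm_le hn hst.h1 ξ
      linarith
    -- sides
    have hρR : R ^ (-(1/2) : ℝ) ≤ s2 := by
      refine le_trans ?_ (hs.lo.trans hs.le)
      exact Real.rpow_le_rpow_of_nonpos hr0 hrR (by norm_num)
    have hρρ : r ^ (-(1/2) : ℝ) * r ^ (-(1/2) : ℝ) = r⁻¹ := by
      rw [← Real.rpow_add hr0]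
      norm_num
      exact Real.rpow_neg_one r
    have hs12 : 1 ≤ s2 * (s1 * r) := by
      have h2 : r⁻¹ ≤ s2 * s1 := by
        rw [← hρρ]
        exact mul_le_mul (hs.lo.trans hs.le) hs.lo (by positivity) hs2.le
      calc (1:ℝ) = r⁻¹ * r := by field_simp
        _ ≤ (s2 * s1) * r := by gcongr
        _ = _ := by ring
    have hs22 : R ^ ε ≤ s2 ^ 2 * R := by
      have h2 : r⁻¹ ≤ s2 ^ 2 := by
        rw [← hρρ, sq]
        exact mul_le_mul (hs.lo.trans hs.le) (hs.lo.trans hs.le) (by positivity) hs2.le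
      calc R ^ ε = (R ^ (1 - ε))⁻¹ * R := by
            rw [← Real.rpow_neg hR00.le, ← Real.rpow_add_one hR00.ne']
            congr 1; ring
        _ ≤ r⁻¹ * R := by gcongr
        _ ≤ _ := by gcongr
    -- each piece
    have hpiece : ∀ k ∈ caps l, NN N1 h (fun ξ => g ξ * capf h l k ξ) (s1 * r) (2 * R) ≤
        ENNReal.ofReal (CZ * R ^ ε * Q * s2 ^ (q / 2) *
          SS (fun ξ => g ξ * capf h l k ξ) R (CP * D)) := by
      intro k _
      obtain ⟨ξ0, hξ0⟩ : ∃ ξ0 : E2, ∀ ξ, s2 / 4 < ‖ξ - ξ0‖ → g ξ * capf h l k ξ = 0 := by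
        by_cases hne : ∃ ξ0, capf h l k ξ0 ≠ 0
        · obtain ⟨ξ0, hξ0⟩ := hne
          refine ⟨ξ0, fun ξ hξ => ?_⟩
          by_contra hc
          have h2 := capf_supp_ball hn hl0 (right_ne_zero_of_mul hc) hξ0
          rw [hl] at h2
          linarith
        · push Not at hne
          exact ⟨0, fun ξ _ => by rw [hne ξ, mul_zero]⟩
      obtain ⟨M, hM⟩ := hst.bdd
      have hin : ZIn B q Na M0 s2 ξ0 h (fun ξ => g ξ * capf h l k ξ) R (CP * D) := by
        refine ⟨hst.par, hst.h0, hst.h1, hst.meas.mul (contDiff_capf hst.par.1 l k).continuous.measurable,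
          ⟨M, fun ξ => ?_⟩, fun ξ hξ => by rw [hst.supp ξ hξ, zero_mul], hξ0, hs2, hs.hi, hR1,
          mul_nonneg (by linarith) hst.D0, ?_, ?_⟩
        · rw [norm_mul]
          exact (mul_le_of_le_one_right (norm_nonneg _) (norm_capf_le h l k ξ)).trans (hM ξ)
        · have h2 := hP q h g R D l hst.box hR00 hl0 (by rw [hl]; linarith [hs.hi])
            (by rw [hl]; linarith) k
          rwa [show 24 * l = s2 by rw [hl]; ring] at h2
        · refine (En_mul_le hg.l2 (norm_capf_le h l k)).trans (hst.nd.trans ?_)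
          have := hst.D0
          gcongr
          exact le_mul_of_one_le_left hst.D0 hCP
      refine hZ h _ R (CP * D) s2 ξ0 (s1 * r) hin hs22 hs12 hsr Q hQ ?_
      intro h' g' D' hst'
      have hst1 : St B q Na' M0' 1 h' g' (θ * (s2 ^ 2 * R)) D' :=
        ⟨hst'.par, hst'.h0, hst'.h1, hst'.meas, hst'.bdd, fun ξ hξ => hst'.supp ξ (by linarith),
          hst'.R1, hst'.D0, hst'.box, hst'.nd⟩
      have h3 : 0 ≤ s2 ^ 2 * R := by positivity
      refine hyp h' g' _ D' _ hst1 le_rfl (mul_le_of_le_one_left h3 hθ1) (le_of_eq (by ring)) ?_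
      have h4 : 1 ≤ θ⁻¹ := (one_le_inv₀ hθ0).2 hθ1
      have h5 : 0 ≤ s2 * s1 * r := by positivity
      nlinarith
    -- sum
    have hsum : ∑ k ∈ caps l, NN N1 h (fun ξ => g ξ * capf h l k ξ) (s1 * r) (2 * R) ≤
        ENNReal.ofReal (CZ * R ^ ε * Q * s2 ^ (q / 2) * (Real.sqrt CP * SS g R D)) := by
      refine (Finset.sum_le_sum hpiece).trans ?_
      rw [← ENNReal.ofReal_sum_of_nonneg (fun k _ => by
        have : 0 ≤ SS (fun ξ => g ξ * capf h l k ξ) R (CP * D) := SS_nonneg hR00.le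
        positivity)]
      refine ENNReal.ofReal_le_ofReal ?_
      rw [← Finset.mul_sum]
      refine mul_le_mul_of_nonneg_left ?_ (by positivity)
      have h2 := sum_En_le hst.par.1 hg.l2 hgrad hl0
      unfold SS
      rw [← Finset.sum_mul, ← Finset.mul_sum, Real.sqrt_mul (by linarith)]
      calc R * (∑ k ∈ caps l, En fun ξ => g ξ * capf h l k ξ) * (Real.sqrt CP * Real.sqrt D)
          ≤ R * En g * (Real.sqrt CP * Real.sqrt D) := by gcongr
        _ = _ := by ring
    calc ENNReal.ofReal (s2 ^ (-q / 2)) * SIG A r s1 s2 h g R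
        ≤ ENNReal.ofReal (s2 ^ (-q / 2)) * (ENNReal.ofReal CS *
          ENNReal.ofReal (CZ * R ^ ε * Q * s2 ^ (q / 2) * (Real.sqrt CP * SS g R D))) := by
          refine mul_le_mul' le_rfl (hS1.trans (mul_le_mul' le_rfl hsum))
      _ = ENNReal.ofReal (s2 ^ (-q / 2) * (CS *
          (CZ * R ^ ε * Q * s2 ^ (q / 2) * (Real.sqrt CP * SS g R D)))) := by
          rw [← ENNReal.ofReal_mul hCS, ← ENNReal.ofReal_mul (by positivity)]
      _ ≤ _ := by
          refine ENNReal.ofReal_le_ofReal ?_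
          have h2 : s2 ^ (-q / 2) * s2 ^ (q / 2) = 1 := by
            rw [← Real.rpow_add hs2]
            have : -q / 2 + q / 2 = 0 := by ring
            rw [this, Real.rpow_zero]
          calc s2 ^ (-q / 2) * (CS *
              (CZ * R ^ ε * Q * s2 ^ (q / 2) * (Real.sqrt CP * SS g R D)))
              = (s2 ^ (-q / 2) * s2 ^ (q / 2)) *
                ((CS * CZ * Real.sqrt CP) * R ^ ε * Q * SS g R D) := by ring
            _ = (CS * CZ * Real.sqrt CP) * R ^ ε * Q * SS g R D := by rw [h2, one_mul]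
            _ ≤ _ := by
                have h3 : 0 ≤ R ^ ε * Q * SS g R D := by positivity
                nlinarith

/-! ### A2K -/

theorem En_tr (h : E2 → ℝ) (z : E2 × ℝ) (g : E2 → ℂ) : En (W188.tr h z g) = En g :=
  W323.En_tr h z g

set_option maxHeartbeats 1000000 in
/-- A2K for `ε ≤ 1/2`. -/
theorem A2K_aux (B : ℕ → ℝ) (hB : B 2 ≤ 1 / 10) (q : ℝ) (hq : 0 ≤ q) (A : ℝ) (hA : 1 ≤ A)
    (hKM : KMw B 0) (ε : ℝ) (hε : 0 < ε) (hε2 : ε ≤ 1 / 2) (Na : ℕ) (M0 : ℝ) : ∃ C : ℝ, 0 ≤ C ∧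
    ∀ h g R D, St B q Na M0 1 h g R D → ∀ r s1 s2, R ^ (1/2 : ℝ) ≤ r → r ≤ R ^ (1 - ε) →
    Sd r s1 s2 → R ^ (1/2 : ℝ) ≤ s1 * r →
      ENNReal.ofReal (s2 ^ (-q / 2)) * SIG A r s1 s2 h g R ≤
        ENNReal.ofReal (C * R ^ ε * SS g R D) := by
  set M1 : ℝ := 2 * (|M0| + q / 2) with hM1
  obtain ⟨K3, hK3, hK30⟩ : ∃ K3 : ℝ, K3 = 300000 ∧ 0 ≤ K3 := ⟨_, rfl, by norm_num⟩
  obtain ⟨N, CK, hCK, hK⟩ := hKM (ε / 2) (by linarith) Na M1
  obtain ⟨CS, K0, hCS, hK0, hS⟩ := SUP_lit B hB A hA N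
  obtain ⟨CP, hCP, hP⟩ := pbox_piece Na
  obtain ⟨R1', hR11, hR1'⟩ := exists_large (ε / 2) (max K0 12) (by linarith)
  set R0 : ℝ := max R1' 64 with hR0def
  have hR01 : 1 ≤ R0 := hR11.trans (le_max_left _ _)
  obtain ⟨CT, hCT, hT⟩ := small_R B A q hq Na M0 R0 hR01
  refine ⟨CS * (K3 * CK * Real.sqrt CP) + CT, by positivity, ?_⟩
  intro h g R D hst r s1 s2 hrlo hrhi hs hsr
  have hR1 := hst.R1
  have hR00 : 0 < R := by linarith
  have hn := nearId hB hst.par
  have hr1 : 1 ≤ r := (Real.one_le_rpow hR1 (by norm_num)).trans hrlo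
  have hr0 : 0 < r := by linarith
  have hrR : r ≤ R := by
    refine hrhi.trans ?_
    calc R ^ (1 - ε) ≤ R ^ (1 : ℝ) := Real.rpow_le_rpow_of_exponent_le hR1 (by linarith)
      _ = R := Real.rpow_one R
  obtain ⟨hs1, hs2⟩ := sides_pos hr1 hs
  have hSS : 0 ≤ SS g R D := SS_nonneg hR00.le
  have hRε : 1 ≤ R ^ ε := Real.one_le_rpow hR1 hε.le
  rcases le_total R R0 with hRR | hRR
  · refine (hT h g R D hst hRR r s1 s2 hr1 hrR hs).trans (ENNReal.ofReal_le_ofReal ?_)
    have h1 : CT * SS g R D ≤ (CT * R ^ ε) * SS g R D := by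
      refine mul_le_mul_of_nonneg_right ?_ hSS
      nlinarith
    refine h1.trans ?_
    have h2 : 0 ≤ CS * (K3 * CK * Real.sqrt CP) := by positivity
    have h3 : 0 ≤ R ^ ε * SS g R D := by positivity
    nlinarith
  · have hR64 : 64 ≤ R := (le_max_right _ _).trans hRR
    have hbig := hR1' R ((le_max_left _ _).trans hRR)
    have hbig1 : K0 ≤ R ^ (ε / 2) := (le_max_left _ _).trans hbig
    have hbig2 : 12 ≤ R ^ (ε / 2) := (le_max_right _ _).trans hbig
    set l : ℝ := s2 / 24 with hl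
    have hl0 : 0 < l := by positivity
    have hg := gd_of hst.meas hst.bdd hst.supp
    have hRm : R ^ (ε / 2) * R ^ (1 - ε) = R ^ (1 - ε / 2) := by
      rw [← Real.rpow_add hR00]; congr 1; ring
    have hK0r : K0 * r ≤ R := by
      calc K0 * r ≤ R ^ (ε / 2) * R ^ (1 - ε) := mul_le_mul hbig1 hrhi hr0.le (by positivity)
        _ = R ^ (1 - ε / 2) := hRm
        _ ≤ R ^ (1 : ℝ) := Real.rpow_le_rpow_of_exponent_le hR1 (by linarith)
        _ = R := Real.rpow_one R
    have hS1 := hS h hst.par hst.h1 g hg.int hg.l2 hst.supp r s1 s2 R hr1 hK0r hs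
    have hgrad : ∀ ξ, g ξ ≠ 0 → ‖gradient h ξ‖ ≤ 2 := by
      intro ξ hξ
      have h2 : ‖ξ‖ ≤ 1 := by
        by_contra hc
        push Not at hc
        exact hξ (hst.supp ξ hc)
      have := grad_norm_le hn hst.h1 ξ
      linarith
    -- sides
    have h2l : R ^ (-(1/2) : ℝ) ≤ 2 * l := by
      have h2 : R ^ (-(1 - ε) / 2) ≤ s2 := by
        refine le_trans ?_ (hs.lo.trans hs.le)
        calc R ^ (-(1 - ε) / 2) = (R ^ (1 - ε)) ^ (-(1/2) : ℝ) := by
              rw [← Real.rpow_mul hR00.le]; congr 1; ring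
          _ ≤ r ^ (-(1/2) : ℝ) := Real.rpow_le_rpow_of_nonpos hr0 hrhi (by norm_num)
      have h3 : R ^ (-(1 - ε) / 2) = R ^ (ε / 2) * R ^ (-(1/2) : ℝ) := by
        rw [← Real.rpow_add hR00]; congr 1; ring
      rw [h3] at h2
      have h4 : 0 < R ^ (-(1/2) : ℝ) := Real.rpow_pos_of_pos hR00 _
      rw [hl]
      nlinarith
    obtain ⟨Z, hZc, hZm, hZ⟩ := NN_cover hR00
    rw [← hK3] at hZc
    set D' : ℝ := CP * (D * (2 * l) ^ q) with hD'
    have hD'0 : 0 ≤ D' := by
      have := hst.D0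
      positivity
    have hD'le : D' ≤ CP * (D * s2 ^ q) := by
      have h2 : (2 * l) ^ q ≤ s2 ^ q := Real.rpow_le_rpow (by positivity) (by rw [hl]; linarith) hq
      have := hst.D0
      rw [hD']
      gcongr
    obtain ⟨M, hM⟩ := hst.bdd
    -- each piece in each frame
    have hst' : ∀ k, ∀ z ∈ Z, St B 0 Na M1 1 h
        (W188.tr h z (fun ξ => g ξ * capf h l k ξ)) (R / 8) D' := by
      intro k z hz
      refine ⟨hst.par, hst.h0, hst.h1, ?_, ⟨M, fun ξ => ?_⟩, fun ξ hξ => ?_, by linarith, hD'0,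
        hP q h g R D l hq hst.box hR00 hst.D0 hl0 h2l k z (hZm z hz), ?_⟩
      · exact (hst.meas.mul (contDiff_capf hst.par.1 l k).continuous.measurable).mul
          (W323.contDiff_phase hst.par.1.continuous z).measurable
      · rw [W323.norm_tr, norm_mul]
        exact (mul_le_of_le_one_right (norm_nonneg _) (norm_capf_le h l k ξ)).trans (hM ξ)
      · show g ξ * capf h l k ξ * _ = 0
        rw [hst.supp ξ hξ, zero_mul, zero_mul]
      · rw [En_tr]
        have h2 : En (fun ξ => g ξ * capf h l k ξ) ≤ R ^ M0 * D :=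
          (En_mul_le hg.l2 (norm_capf_le h l k)).trans hst.nd
        refine h2.trans ?_
        have h3 : D ≤ R ^ (q / 2) * D' := by
          have h4 : (R ^ (-(1/2) : ℝ)) ^ q ≤ (2 * l) ^ q :=
            Real.rpow_le_rpow (by positivity) h2l hq
          have h5 : R ^ (q / 2) * (R ^ (-(1/2) : ℝ)) ^ q = 1 := by
            rw [← Real.rpow_mul hR00.le, ← Real.rpow_add hR00]
            have : q / 2 + -(1 / 2) * q = 0 := by ring
            rw [this, Real.rpow_zero]
          have h6 := hst.D0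
          calc D = (R ^ (q / 2) * (R ^ (-(1/2) : ℝ)) ^ q) * D := by rw [h5, one_mul]
            _ ≤ (R ^ (q / 2) * (2 * l) ^ q) * D := by gcongr
            _ = 1 * (R ^ (q / 2) * (D * (2 * l) ^ q)) := by ring
            _ ≤ CP * (R ^ (q / 2) * (D * (2 * l) ^ q)) := by gcongr
            _ = _ := by rw [hD']; ring
        have h4 : R ^ M0 ≤ R ^ |M0| := Real.rpow_le_rpow_of_exponent_le hR1 (le_abs_self _)
        have h5 : R ≤ (R / 8) ^ (2 : ℝ) := by
          rw [show (2 : ℝ) = ((2 : ℕ) : ℝ) by norm_num, Real.rpow_natCast]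
          nlinarith
        have h6 : R ^ (|M0| + q / 2) ≤ (R / 8) ^ M1 := by
          calc R ^ (|M0| + q / 2) ≤ ((R / 8) ^ (2 : ℝ)) ^ (|M0| + q / 2) :=
                Real.rpow_le_rpow hR00.le h5 (by positivity)
            _ = _ := by rw [← Real.rpow_mul (by positivity), hM1]
        calc R ^ M0 * D ≤ R ^ |M0| * (R ^ (q / 2) * D') := by
              have := hst.D0
              gcongr
          _ = R ^ (|M0| + q / 2) * D' := by rw [Real.rpow_add hR00]; ring
          _ ≤ _ := by gcongr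
    -- width
    have hw1 : (R / 8) ^ (1/2 : ℝ) ≤ s1 * r := by
      refine le_trans ?_ hsr
      exact Real.rpow_le_rpow (by positivity) (by linarith) (by norm_num)
    have hw2 : s1 * r ≤ (R / 8) ^ (1 - ε / 2) := by
      have h2 : s1 * r ≤ R ^ (1 - ε) :=
        (mul_le_of_le_one_left hr0.le (hs.le.trans hs.hi)).trans hrhi
      refine h2.trans ?_
      rw [Real.div_rpow hR00.le (by norm_num), le_div_iff₀ (by positivity)]
      have h3 : (8:ℝ) ^ (1 - ε / 2) ≤ 8 := by
        calc (8:ℝ) ^ (1 - ε / 2) ≤ 8 ^ (1:ℝ) :=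
              Real.rpow_le_rpow_of_exponent_le (by norm_num) (by linarith)
          _ = 8 := Real.rpow_one 8
      rw [← hRm, mul_comm (R ^ (ε / 2))]
      gcongr
      linarith
    -- NN of a piece
    have hpiece : ∀ k ∈ caps l, NN N h (fun ξ => g ξ * capf h l k ξ) (s1 * r) (2 * R) ≤
        ENNReal.ofReal (K3 * (CK * R ^ ε * (R * En (fun ξ => g ξ * capf h l k ξ) *
          Real.sqrt D'))) := by
      intro k _
      refine (hZ N h _ (s1 * r)).trans ?_
      have h2 : ∀ z ∈ Z, NN N h (W188.tr h z (fun ξ => g ξ * capf h l k ξ)) (s1 * r) (R / 8) ≤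
          ENNReal.ofReal (CK * R ^ ε * (R * En (fun ξ => g ξ * capf h l k ξ) * Real.sqrt D')) := by
        intro z hz
        refine (hK h _ (R / 8) D' (s1 * r) (hst' k z hz) hw1 hw2).trans
          (ENNReal.ofReal_le_ofReal ?_)
        unfold SS
        rw [En_tr]
        have h3 : (R / 8) ^ (ε / 2) ≤ R ^ ε := by
          calc (R / 8) ^ (ε / 2) ≤ R ^ (ε / 2) :=
                Real.rpow_le_rpow (by positivity) (by linarith) (by linarith)
            _ ≤ R ^ ε := Real.rpow_le_rpow_of_exponent_le hR1 (by linarith)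
        have h4 := En_nonneg (fun ξ => g ξ * capf h l k ξ)
        have h5 : R / 8 ≤ R := by linarith
        gcongr
      refine (Finset.sum_le_sum h2).trans ?_
      rw [Finset.sum_const, nsmul_eq_mul, ← ENNReal.ofReal_natCast,
        ← ENNReal.ofReal_mul (by positivity)]
      refine ENNReal.ofReal_le_ofReal ?_
      have h4 := En_nonneg (fun ξ => g ξ * capf h l k ξ)
      gcongr
    have hsum : ∑ k ∈ caps l, NN N h (fun ξ => g ξ * capf h l k ξ) (s1 * r) (2 * R) ≤
        ENNReal.ofReal (K3 * (CK * R ^ ε * (Real.sqrt CP * s2 ^ (q / 2) * SS g R D))) := by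
      refine (Finset.sum_le_sum hpiece).trans ?_
      rw [← ENNReal.ofReal_sum_of_nonneg (fun k _ => by
        have h4 := En_nonneg (fun ξ => g ξ * capf h l k ξ)
        positivity)]
      refine ENNReal.ofReal_le_ofReal ?_
      rw [← Finset.mul_sum]
      have h2 := sum_En_le hst.par.1 hg.l2 hgrad hl0
      have h3 : Real.sqrt D' ≤ Real.sqrt CP * s2 ^ (q / 2) * Real.sqrt D := by
        have h5 : s2 ^ q = (s2 ^ (q / 2)) ^ 2 := by
          rw [← Real.rpow_natCast, ← Real.rpow_mul hs2.le]; congr 1; push_cast; ring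
        calc Real.sqrt D' ≤ Real.sqrt (CP * (D * s2 ^ q)) := Real.sqrt_le_sqrt hD'le
          _ = Real.sqrt CP * (Real.sqrt D * Real.sqrt (s2 ^ q)) := by
              rw [Real.sqrt_mul (by linarith), Real.sqrt_mul hst.D0]
          _ = Real.sqrt CP * (Real.sqrt D * s2 ^ (q / 2)) := by
              rw [h5, Real.sqrt_sq (by positivity)]
          _ = _ := by ring
      have h6 : ∑ k ∈ caps l, CK * R ^ ε * (R * En (fun ξ => g ξ * capf h l k ξ) *
          Real.sqrt D') ≤ CK * R ^ ε * (Real.sqrt CP * s2 ^ (q / 2) * SS g R D) := by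
        rw [← Finset.mul_sum, ← Finset.sum_mul, ← Finset.mul_sum]
        refine mul_le_mul_of_nonneg_left ?_ (by positivity)
        unfold SS
        have h7 := En_nonneg g
        calc R * (∑ k ∈ caps l, En fun ξ => g ξ * capf h l k ξ) * Real.sqrt D'
            ≤ (R * En g) * (Real.sqrt CP * s2 ^ (q / 2) * Real.sqrt D) :=
              mul_le_mul (mul_le_mul_of_nonneg_left h2 hR00.le) h3 (Real.sqrt_nonneg _)
                (by positivity)
          _ = _ := by ring
      exact mul_le_mul_of_nonneg_left h6 hK30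
    calc ENNReal.ofReal (s2 ^ (-q / 2)) * SIG A r s1 s2 h g R
        ≤ ENNReal.ofReal (s2 ^ (-q / 2)) * (ENNReal.ofReal CS *
          ENNReal.ofReal (K3 * (CK * R ^ ε * (Real.sqrt CP * s2 ^ (q / 2) * SS g R D)))) := by
          refine mul_le_mul' le_rfl (hS1.trans (mul_le_mul' le_rfl hsum))
      _ = ENNReal.ofReal (s2 ^ (-q / 2) * (CS *
          (K3 * (CK * R ^ ε * (Real.sqrt CP * s2 ^ (q / 2) * SS g R D))))) := by
          rw [← ENNReal.ofReal_mul hCS, ← ENNReal.ofReal_mul (by positivity)]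
      _ ≤ _ := by
          refine ENNReal.ofReal_le_ofReal ?_
          have h2 : s2 ^ (-q / 2) * s2 ^ (q / 2) = 1 := by
            rw [← Real.rpow_add hs2]
            have : -q / 2 + q / 2 = 0 := by ring
            rw [this, Real.rpow_zero]
          calc s2 ^ (-q / 2) * (CS *
              (K3 * (CK * R ^ ε * (Real.sqrt CP * s2 ^ (q / 2) * SS g R D))))
              = (s2 ^ (-q / 2) * s2 ^ (q / 2)) *
                ((CS * (K3 * CK * Real.sqrt CP)) * R ^ ε * SS g R D) := by ring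
            _ = (CS * (K3 * CK * Real.sqrt CP)) * R ^ ε * SS g R D := by rw [h2, one_mul]
            _ ≤ _ := by
                have h3 : 0 ≤ R ^ ε * SS g R D := by positivity
                nlinarith

/-- **A2K** from SUP and the Kakeya bound `KMw B 0`. -/
theorem A2K_of_KMw (B : ℕ → ℝ) (hB : B 2 ≤ 1 / 10) (q : ℝ) (hq : 0 ≤ q) (A : ℝ) (hA : 1 ≤ A)
    (hKM : KMw B 0) : A2K B q (SIG A) := by
  intro ε hε Na M0
  obtain ⟨C, hC, h1⟩ := A2K_aux B hB q hq A hA hKM (min ε (1/2)) (lt_min hε (by norm_num))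
    (min_le_right _ _) Na M0
  refine ⟨C, hC, ?_⟩
  intro h g R D hst r s1 s2 hrlo hrhi hs hsr
  have hR1 := hst.R1
  refine (h1 h g R D hst r s1 s2 hrlo (hrhi.trans ?_) hs hsr).trans (ENNReal.ofReal_le_ofReal ?_)
  · exact Real.rpow_le_rpow_of_exponent_le hR1 (by linarith [min_le_left ε (1/2)])
  · have hSS : 0 ≤ SS g R D := SS_nonneg (by linarith)
    have : R ^ min ε (1/2) ≤ R ^ ε :=
      Real.rpow_le_rpow_of_exponent_le hR1 (min_le_left _ _)
    gcongr

end Crest.Agent.R138.Sup882
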