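import Crest.Agent.R138.Tub3_70
import Crest.Agent.R138.Sup7_882

/-!
# R138 / R139, wave side: KMC for coefficient energies, part 1 (helper882)

Abstract phase space energies: `κ` finite family of directions with velocities `v m`, densities
`U m : E2 → ℝ≥0∞`, selection `S m`; packets move as `y ↦ y - t • v m`.
-/

set_option autoImplicit false

open MeasureTheory
open scoped ENNReal

namespace Crest.Agent.R138.Kcc882

open Crest.Agent.R138.Defs (E2 cyl)
open Crest.Agent.R138.Tub70 (KM32 Lat sl tubes_KM)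

/-- lower left lattice point. -/
noncomputable def fl (w : ℝ) (x : E2) : ℤ × ℤ := (⌊x 0 / w⌋, ⌊x 1 / w⌋)

theorem measurable_fl (w : ℝ) : Measurable (fl w) := by
  unfold fl
  refine Measurable.prodMk ?_ ?_
  · exact Int.measurable_floor.comp (by fun_prop)
  · exact Int.measurable_floor.comp (by fun_prop)

theorem norm_sub_fl {w : ℝ} (hw : 0 < w) (x : E2) : ‖x - Lat w (fl w x)‖ ≤ 2 * w := by
  have key : ∀ t : ℝ, |t - w * (⌊t / w⌋ : ℤ)| ≤ w := by
    intro t
    have h1 := Int.floor_le (t / w)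
    have h2 := Int.lt_floor_add_one (t / w)
    rw [le_div_iff₀ hw] at h1
    rw [div_lt_iff₀ hw] at h2
    rw [abs_le]
    constructor <;> nlinarith
  have h0 := key (x 0)
  have h1 := key (x 1)
  rw [EuclideanSpace.norm_eq, Real.sqrt_le_left (by positivity)]
  simp only [Fin.sum_univ_two, Real.norm_eq_abs, PiLp.sub_apply, Tub70.Lat_zero_coord,
    Tub70.Lat_one_coord, fl, sq_abs]
  have h0' := sq_le_sq' (by linarith [abs_le.mp h0]) (abs_le.mp h0).2
  have h1' := sq_le_sq' (by linarith [abs_le.mp h1]) (abs_le.mp h1).2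
  nlinarith

/-- energy over a family of cells. -/
theorem sum_cells {X : Type*} [MeasurableSpace X] {μ : Measure X} {f : X → ℤ × ℤ}
    (hf : Measurable f) (U : X → ℝ≥0∞) {A : Set X} (hA : MeasurableSet A) (Z : Finset (ℤ × ℤ)) :
    ∑ k ∈ Z, ∫⁻ y in A ∩ {y | f y = k}, U y ∂μ = ∫⁻ y in A ∩ {y | f y ∈ Z}, U y ∂μ := by
  have h1 := lintegral_biUnion_finset (μ := μ) (s := Z) (t := fun k => A ∩ {y | f y = k})
    (fun k _ l _ hkl => by
      rw [Function.onFun, Set.disjoint_left]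
      rintro y ⟨-, hy⟩ ⟨-, hy'⟩
      exact hkl (hy.symm.trans hy'))
    (fun k _ => hA.inter (hf (measurableSet_singleton k))) U
  rw [← h1]
  congr 2
  ext y
  simp

section

variable {κ : Type}

open Classical in
/-- **Kakeya for phase space energies**, sharp cut-offs. -/
theorem kcc_sharp {V : ℝ} (hKM : KM32 V) (ε : ℝ) (hε : 0 < ε) : ∃ C : ℝ, 0 ≤ C ∧
    ∀ w R : ℝ, 0 < w → w ≤ R → ∀ (F : Finset κ) (v : κ → E2) (U : κ → E2 → ℝ≥0∞)
      (S : κ → Set E2), (∀ m, MeasurableSet (S m)) →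
      (∀ m ∈ F, ‖v m‖ ≤ V) → (∀ m ∈ F, ∀ y ∈ S m, ‖y‖ + R ≤ V * R) →
      (∀ m ∈ F, ∫⁻ y in S m, U m y ≠ ⊤) → ∀ Δ : ℝ, 0 ≤ Δ →
      (∀ (b : OrthonormalBasis (Fin 2) ℝ E2) (s : Fin 2 → ℝ) (x0 c0 : E2),
        (∀ j, w / R ≤ s j ∧ s j ≤ 1) →
          ∑ m ∈ F.filter (fun m => ∀ j, |inner ℝ (v m - c0) (b j)| ≤ 2 * s j),
            ∫⁻ y in S m ∩ {y | ∀ j, |inner ℝ (y - x0) (b j)| ≤ 2 * (s j * R)}, U m y ≤
            ENNReal.ofReal (Δ * (s 0 * s 1 * R ^ 2))) →
      ∫⁻ t in Set.Icc (-R) R, ∫⁻ x in {x : E2 | ‖x‖ ≤ R},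
        (ENNReal.ofReal ((w ^ 2)⁻¹) *
          ∑ m ∈ F, ∫⁻ y in S m ∩ Metric.closedBall (x + t • v m) (w / 2), U m y) ^ (3/2 : ℝ) ≤
        ENNReal.ofReal (C * (w / R) ^ (-ε) * Real.sqrt Δ * R) * ∑ m ∈ F, ∫⁻ y in S m, U m y := by
  obtain ⟨C, hC, h⟩ := tubes_KM hKM ε hε
  refine ⟨C, hC, ?_⟩
  intro w R hw hwR F v U S hSm hv hS hfin Δ hΔ hbox
  have hR : 0 < R := hw.trans_le hwR
  set w0 : ℝ := w / 4 with hw0
  have hw00 : 0 < w0 := by positivity
  -- the lattice points
  obtain ⟨N, hN⟩ : ∃ N : ℤ, V * R / w0 + 1 ≤ N := ⟨⌈V * R / w0 + 1⌉, Int.le_ceil _⟩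
  set Z : Finset (ℤ × ℤ) := (Finset.Icc (-N) N ×ˢ Finset.Icc (-N) N).filter
    (fun k => ‖Lat w0 k‖ ≤ V * R) with hZ
  have hmem : ∀ m ∈ F, ∀ y ∈ S m, fl w0 y ∈ Z := by
    intro m hm y hy
    have h1 := hS m hm y hy
    have h2 := norm_sub_fl hw00 y
    have h3 : ‖Lat w0 (fl w0 y)‖ ≤ V * R := by
      calc ‖Lat w0 (fl w0 y)‖ = ‖y - (y - Lat w0 (fl w0 y))‖ := by rw [sub_sub_cancel]
        _ ≤ ‖y‖ + ‖y - Lat w0 (fl w0 y)‖ := norm_sub_le _ _
        _ ≤ V * R := by
          have : 2 * w0 ≤ R := by rw [hw0]; linarith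
          linarith
    have h4 : ∀ i : Fin 2, |Lat w0 (fl w0 y) i| ≤ V * R := fun i =>
      (PiLp.norm_apply_le (Lat w0 (fl w0 y)) i).trans h3
    have h5 : ∀ a : ℤ, |w0 * a| ≤ V * R → a ∈ Finset.Icc (-N) N := by
      intro a ha
      rw [abs_mul, abs_of_pos hw00, ← le_div_iff₀' hw00] at ha
      obtain ⟨ha1, ha2⟩ := abs_le.1 ha
      rw [Finset.mem_Icc]
      constructor
      · have : ((-N : ℤ) : ℝ) ≤ a := by push_cast; linarith
        exact_mod_cast this
      · have : (a : ℝ) ≤ N := by linarith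
        exact_mod_cast this
    rw [hZ, Finset.mem_filter, Finset.mem_product]
    refine ⟨⟨h5 _ ?_, h5 _ ?_⟩, h3⟩
    · have := h4 0
      rwa [Tub70.Lat_zero_coord] at this
    · have := h4 1
      rwa [Tub70.Lat_one_coord] at this
  set μ : κ → ℤ × ℤ → ℝ≥0∞ := fun m k => ∫⁻ y in S m ∩ {y | fl w0 y = k}, U m y with hμ
  have hμfin : ∀ m ∈ F, ∀ k, μ m k ≠ ⊤ := by
    intro m hm k
    exact ne_top_of_le_ne_top (hfin m hm) (lintegral_mono_set Set.inter_subset_left)
  let ι := {p : κ × (ℤ × ℤ) // p ∈ F ×ˢ Z}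
  have hιF : ∀ i : ι, i.1.1 ∈ F := fun i => (Finset.mem_product.1 i.2).1
  have hιZ : ∀ i : ι, i.1.2 ∈ Z := fun i => (Finset.mem_product.1 i.2).2
  have hsumι : ∀ f : κ × (ℤ × ℤ) → ℝ≥0∞, ∑ i : ι, f i.1 = ∑ m ∈ F, ∑ k ∈ Z, f (m, k) := by
    intro f
    rw [← Finset.sum_product (s := F) (t := Z) (f := f)]
    exact (Finset.sum_subtype (F ×ˢ Z) (fun x => Iff.rfl) f).symm
  set a : ι → ℝ := fun i => (w ^ 2)⁻¹ * (μ i.1.1 i.1.2).toReal with ha
  have ha0 : ∀ i, 0 ≤ a i := fun i => by rw [ha]; positivity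
  have haμ : ∀ i : ι, ENNReal.ofReal (a i * w ^ 2) = μ i.1.1 i.1.2 := by
    intro i
    have e : a i * w ^ 2 = (μ i.1.1 i.1.2).toReal := by
      simp only [ha]; field_simp
    rw [e, ENNReal.ofReal_toReal (hμfin _ (hιF i) _)]
  have key := h w R hw hwR ι (fun i => Lat w0 i.1.2) (fun i => v i.1.1) a ha0
    (fun i => (Finset.mem_filter.1 (hιZ i)).2) (fun i => hv _ (hιF i)) Δ hΔ ?_
    (fun x t => ENNReal.ofReal ((w ^ 2)⁻¹) *
          ∑ m ∈ F, ∫⁻ y in S m ∩ Metric.closedBall (x + t • v m) (w / 2), U m y) ?_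
  · refine key.trans (le_of_eq ?_)
    have e1 : ENNReal.ofReal (∑ i : ι, a i * w ^ 2) = ∑ m ∈ F, ∫⁻ y in S m, U m y := by
      rw [ENNReal.ofReal_sum_of_nonneg (fun i _ => by have := ha0 i; positivity)]
      simp_rw [haμ]
      rw [hsumι (fun p => μ p.1 p.2)]
      refine Finset.sum_congr rfl fun m hm => ?_
      simp only [hμ]
      rw [sum_cells (measurable_fl w0) (U m) (hSm m) Z]
      congr 2
      ext y
      simp only [Set.mem_inter_iff, Set.mem_ofPred_eq, and_iff_left_iff_imp]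
      exact fun hy => hmem m hm y hy
    rw [← e1, ← ENNReal.ofReal_mul (by positivity)]
    congr 1
    ring
  · -- planks
    intro b s x0 c0 hs
    have hs0 : ∀ j, 0 < s j := fun j => (by positivity : 0 < w / R).trans_le (hs j).1
    have h1 := hbox b s x0 c0 hs
    have h2 : ENNReal.ofReal (∑ i : ι, (if ∀ t : ℝ, |t| ≤ R →
        sl c0 b (fun i => s i * R) x0 t (Lat w0 i.1.2 - t • v i.1.1) then a i * w ^ 2 else 0)) ≤
        ENNReal.ofReal (Δ * (s 0 * s 1 * R ^ 2)) := by
      refine le_trans ?_ h1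
      rw [ENNReal.ofReal_sum_of_nonneg (fun i _ => by
        have := ha0 i
        split_ifs <;> positivity)]
      have e2 : ∀ i : ι, ENNReal.ofReal (if ∀ t : ℝ, |t| ≤ R →
          sl c0 b (fun i => s i * R) x0 t (Lat w0 i.1.2 - t • v i.1.1) then a i * w ^ 2 else 0) =
          (fun p : κ × (ℤ × ℤ) => if ∀ t : ℝ, |t| ≤ R →
          sl c0 b (fun i => s i * R) x0 t (Lat w0 p.2 - t • v p.1) then μ p.1 p.2 else 0) i.1 := by
        intro i
        simp only
        split_ifs
        · exact haμ i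
        · simp
      rw [Finset.sum_congr rfl fun i _ => e2 i]
      rw [hsumι (fun p : κ × (ℤ × ℤ) => if ∀ t : ℝ, |t| ≤ R →
          sl c0 b (fun i => s i * R) x0 t (Lat w0 p.2 - t • v p.1) then μ p.1 p.2 else 0)]
      simp only
      rw [Finset.sum_filter]
      refine Finset.sum_le_sum fun m hm => ?_
      -- fixed direction
      rw [← Finset.sum_filter]
      have hgeo : ∀ k ∈ Z.filter (fun k => ∀ t : ℝ, |t| ≤ R →
          sl c0 b (fun i => s i * R) x0 t (Lat w0 k - t • v m)),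
          (∀ j, |inner ℝ (v m - c0) (b j)| ≤ 2 * s j) ∧
          ∀ y, fl w0 y = k → ∀ j, |inner ℝ (y - x0) (b j)| ≤ 2 * (s j * R) := by
        intro k hk
        have hk2 := (Finset.mem_filter.1 hk).2
        have h0 : ∀ j, |inner ℝ (Lat w0 k - x0) (b j)| ≤ s j * R := by
          intro j
          have := hk2 0 (by rw [abs_zero]; exact hR.le) j
          simpa using this
        refine ⟨fun j => ?_, fun y hy j => ?_⟩
        · have h3 := hk2 R (by rw [abs_of_pos hR]) j
          have e3 : (R : ℝ) * inner ℝ (v m - c0) (b j) = inner ℝ (Lat w0 k - x0) (b j) -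
              inner ℝ (Lat w0 k - R • v m - x0 + R • c0) (b j) := by
            rw [← inner_sub_left, ← real_inner_smul_left]
            congr 1
            rw [smul_sub]; abel
          have h4 : |R * inner ℝ (v m - c0) (b j)| ≤ s j * R + s j * R := by
            rw [e3]
            exact (abs_sub _ _).trans (add_le_add (h0 j) h3)
          rw [abs_mul, abs_of_pos hR] at h4
          have h5 : R * |inner ℝ (v m - c0) (b j)| ≤ R * (2 * s j) := by linarith
          exact le_of_mul_le_mul_left h5 hR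
        · have h3 : ‖y - Lat w0 k‖ ≤ s j * R := by
            have := norm_sub_fl hw00 y
            rw [hy] at this
            have h4 : w ≤ s j * R := by
              have := (hs j).1
              rwa [div_le_iff₀ hR] at this
            rw [hw0] at this
            linarith
          have e3 : inner ℝ (y - x0) (b j) = inner ℝ (y - Lat w0 k) (b j) +
              inner ℝ (Lat w0 k - x0) (b j) := by
            rw [← inner_add_left]; congr 1; abel
          have h4 : |inner ℝ (y - Lat w0 k) (b j)| ≤ s j * R := by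
            refine (abs_real_inner_le_norm _ _).trans ?_
            rw [b.norm_eq_one, mul_one]; exact h3
          rw [e3]
          refine (abs_add_le _ _).trans ?_
          linarith [h0 j]
      by_cases hdir : ∀ j, |inner ℝ (v m - c0) (b j)| ≤ 2 * s j
      · rw [if_pos hdir]
        simp only [hμ]
        rw [sum_cells (measurable_fl w0) (U m) (hSm m)]
        refine lintegral_mono_set fun y hy => ⟨hy.1, fun j => ?_⟩
        exact (hgeo _ hy.2).2 y rfl j
      · rw [if_neg hdir]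
        have : Z.filter (fun k => ∀ t : ℝ, |t| ≤ R →
          sl c0 b (fun i => s i * R) x0 t (Lat w0 k - t • v m)) = ∅ := by
          rw [Finset.eq_empty_iff_forall_notMem]
          intro k hk
          exact hdir (hgeo k hk).1
        rw [this, Finset.sum_empty]
    rwa [ENNReal.ofReal_le_ofReal_iff (by have := hs0 0; have := hs0 1; positivity)] at h2
  · -- domination
    intro x t _ _
    have e2 : ∀ i : ι, (if ‖x - Lat w0 i.1.2 + t • v i.1.1‖ ≤ w then ENNReal.ofReal (a i) else 0) =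
        ENNReal.ofReal ((w ^ 2)⁻¹) * (fun p : κ × (ℤ × ℤ) =>
          if ‖x - Lat w0 p.2 + t • v p.1‖ ≤ w then μ p.1 p.2 else 0) i.1 := by
      intro i
      simp only
      split_ifs
      · rw [← haμ i, ← ENNReal.ofReal_mul (by positivity)]
        congr 1
        field_simp
      · simp
    rw [Finset.sum_congr rfl fun i _ => e2 i]
    rw [← Finset.mul_sum, hsumι (fun p : κ × (ℤ × ℤ) =>
          if ‖x - Lat w0 p.2 + t • v p.1‖ ≤ w then μ p.1 p.2 else 0)]
    refine mul_le_mul' le_rfl (Finset.sum_le_sum fun m hm => ?_)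
    simp only
    rw [← Finset.sum_filter]
    simp only [hμ]
    rw [sum_cells (measurable_fl w0) (U m) (hSm m)]
    refine lintegral_mono_set fun y hy => ⟨hy.1, ?_⟩
    refine Finset.mem_filter.2 ⟨hmem m hm y hy.1, ?_⟩
    have h1 := norm_sub_fl hw00 y
    have h2 : ‖y - (x + t • v m)‖ ≤ w / 2 := by
      have := hy.2
      rwa [Metric.mem_closedBall, dist_eq_norm] at this
    calc ‖x - Lat w0 (fl w0 y) + t • v m‖
        = ‖(y - Lat w0 (fl w0 y)) - (y - (x + t • v m))‖ := by congr 1; abel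
      _ ≤ ‖y - Lat w0 (fl w0 y)‖ + ‖y - (x + t • v m)‖ := norm_sub_le _ _
      _ ≤ 2 * w0 + w / 2 := add_le_add h1 h2
      _ = w := by rw [hw0]; ring

end

end Crest.Agent.R138.Kcc882
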