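import Crest.Agent.R138.Kcc1_882
import Crest.Agent.R138.Ad_480
import Crest.Agent.R138.Wpk6_685

/-!
# R138 / R139, wave side: KMC for coefficient energies, part 2 (helper882)

Covering by honest phase boxes: from `Dens` to the box hypothesis of `kcc_sharp` inside one
direction cap.
-/

set_option autoImplicit false

open MeasureTheory
open scoped ENNReal

namespace Crest.Agent.R138.Kcc882

open Crest.Agent.R138.Defs Crest.Agent.R138.Wpk685 Crest.Agent.R138.Ad480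

/-- index of the cell of sides `u 0`, `u 1` in the frame `b`. -/
noncomputable def ix (b : OrthonormalBasis (Fin 2) ℝ E2) (u : Fin 2 → ℝ) (x : E2) : ℤ × ℤ :=
  (⌊inner ℝ x (b 0) / u 0⌋, ⌊inner ℝ x (b 1) / u 1⌋)

theorem measurable_ix (b : OrthonormalBasis (Fin 2) ℝ E2) (u : Fin 2 → ℝ) : Measurable (ix b u) := by
  unfold ix
  refine Measurable.prodMk ?_ ?_
  · exact Int.measurable_floor.comp (Continuous.measurable (by fun_prop))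
  · exact Int.measurable_floor.comp (Continuous.measurable (by fun_prop))

theorem floor_mem {x u a : ℝ} (hu : 0 < u) (hx : |x| ≤ a * u) :
    ⌊x / u⌋ ∈ Finset.Icc (-⌈a⌉) ⌈a⌉ := by
  have h3 : |x / u| ≤ a := by
    rw [abs_div, abs_of_pos hu, div_le_iff₀ hu]
    exact hx
  obtain ⟨h4, h5⟩ := abs_le.1 h3
  have h6 := Int.le_ceil a
  rw [Finset.mem_Icc]
  constructor
  · rw [Int.le_floor]; push_cast; linarith
  · have : ((⌊x / u⌋ : ℤ) : ℝ) ≤ (⌈a⌉ : ℤ) := (Int.floor_le _).trans (h5.trans h6)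
    exact_mod_cast this

theorem ix_mem (b : OrthonormalBasis (Fin 2) ℝ E2) {u a : Fin 2 → ℝ} (hu : ∀ i, 0 < u i) {x : E2}
    (hx : ∀ i, |inner ℝ x (b i)| ≤ a i * u i) :
    ix b u x ∈ Finset.Icc (-⌈a 0⌉) ⌈a 0⌉ ×ˢ Finset.Icc (-⌈a 1⌉) ⌈a 1⌉ := by
  unfold ix
  rw [Finset.mem_product]
  exact ⟨floor_mem (hu 0) (hx 0), floor_mem (hu 1) (hx 1)⟩

theorem ix_near (b : OrthonormalBasis (Fin 2) ℝ E2) {u : Fin 2 → ℝ} (hu : ∀ i, 0 < u i) {x : E2}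
    {k : ℤ × ℤ} (h : ix b u x = k) (i : Fin 2) :
    |inner ℝ (x - sh b ![k.1 * u 0, k.2 * u 1]) (b i)| ≤ u i := by
  have key : ∀ (z w : ℝ) (n : ℤ), 0 < w → ⌊z / w⌋ = n → |z - n * w| ≤ w := by
    intro z w n hw hn
    have h1 := Int.floor_le (z / w)
    have h2 := Int.lt_floor_add_one (z / w)
    rw [hn] at h1 h2
    rw [le_div_iff₀ hw] at h1
    rw [div_lt_iff₀ hw] at h2
    rw [abs_le]
    constructor <;> nlinarith
  have h0 : ⌊inner ℝ x (b 0) / u 0⌋ = k.1 := by rw [← h]; rfl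
  have h1 : ⌊inner ℝ x (b 1) / u 1⌋ = k.2 := by rw [← h]; rfl
  rw [inner_sub_left, inner_sh]
  fin_cases i
  · simpa using key _ _ _ (hu 0) h0
  · simpa using key _ _ _ (hu 1) h1

theorem card_Icc_ceil {a : ℝ} (ha : 0 ≤ a) : ((Finset.Icc (-⌈a⌉) ⌈a⌉).card : ℝ) ≤ 2 * a + 3 := by
  rw [Int.card_Icc]
  have h1 := Int.ceil_lt_add_one a
  have h0 : (0 : ℤ) ≤ ⌈a⌉ := Int.ceil_nonneg ha
  have h2 : ((⌈a⌉ + 1 - -⌈a⌉).toNat : ℤ) = 2 * ⌈a⌉ + 1 := by omega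
  have h3 : (((⌈a⌉ + 1 - -⌈a⌉).toNat : ℤ) : ℝ) = 2 * ⌈a⌉ + 1 := by rw [h2]; push_cast; ring
  rw [← Int.cast_natCast (R := ℝ), h3]
  linarith

theorem card_box {a : Fin 2 → ℝ} (ha : ∀ i, 0 ≤ a i) :
    ((Finset.Icc (-⌈a 0⌉) ⌈a 0⌉ ×ˢ Finset.Icc (-⌈a 1⌉) ⌈a 1⌉).card : ℝ) ≤
      (2 * a 0 + 3) * (2 * a 1 + 3) := by
  rw [Finset.card_product]
  push_cast
  exact mul_le_mul (card_Icc_ceil (ha 0)) (card_Icc_ceil (ha 1)) (Nat.cast_nonneg _)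
    (by have := ha 0; positivity)

open Classical in
/-- **cover**: energy in a phase box of sides `a i σ i`, `p i σ i R`. -/
theorem box_cover {q : ℝ} {h : E2 → ℝ} {R : ℝ} (hR : 1 ≤ R) {g : E2 → ℂ} {S : ℤ × ℤ → Set E2}
    (hSm : ∀ m, MeasurableSet (S m)) {Δ : ℝ} (_hΔ : 0 ≤ Δ) (hD : Dens q h R g S Δ)
    (b : OrthonormalBasis (Fin 2) ℝ E2) {σ : Fin 2 → ℝ}
    (hσ : ∀ i, R ^ (-(1/2) : ℝ) ≤ σ i ∧ σ i ≤ 1) {a p : Fin 2 → ℝ} (ha : ∀ i, 0 ≤ a i)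
    (hp : ∀ i, 0 ≤ p i) (c x0 : E2) {F : Finset (ℤ × ℤ)} (hF : F ⊆ caps (R ^ (-(1/2) : ℝ)))
    (T : ℤ × ℤ → Set E2) (hT : ∀ m ∈ F, T m ⊆ S m)
    (hv : ∀ m ∈ F, ∀ i, |inner ℝ (gradient h (cen (R ^ (-(1/2) : ℝ)) m) - c) (b i)| ≤ a i * σ i)
    (hx : ∀ m ∈ F, ∀ y ∈ T m, ∀ i, |inner ℝ (y - x0) (b i)| ≤ p i * (σ i * R)) :
    ∑ m ∈ F, ∫⁻ y in T m, ‖um (R ^ (-(1/2) : ℝ)) g m y‖ₑ ^ 2 ≤
      ENNReal.ofReal ((2 * a 0 + 3) * (2 * a 1 + 3) * ((2 * p 0 + 3) * (2 * p 1 + 3)) *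
        (Δ * (max (σ 0) (σ 1)) ^ q * (σ 0 * σ 1 * R ^ 2))) := by
  obtain ⟨hρ, hρ1, hρ2⟩ := rp_facts hR
  set ρ : ℝ := R ^ (-(1/2) : ℝ) with hρdef
  have hR0 : 0 < R := by linarith
  have hσ0 : ∀ i, 0 < σ i := fun i => hρ.trans_le (hσ i).1
  have hσR : ∀ i, 0 < σ i * R := fun i => mul_pos (hσ0 i) hR0
  set KA : Finset (ℤ × ℤ) := Finset.Icc (-⌈a 0⌉) ⌈a 0⌉ ×ˢ Finset.Icc (-⌈a 1⌉) ⌈a 1⌉ with hKA
  set KP : Finset (ℤ × ℤ) := Finset.Icc (-⌈p 0⌉) ⌈p 0⌉ ×ˢ Finset.Icc (-⌈p 1⌉) ⌈p 1⌉ with hKP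
  set φ : E2 → ℤ × ℤ := fun y => ix b (fun i => σ i * R) (y - x0) with hφ
  have hφm : Measurable φ := (measurable_ix b _).comp (measurable_id.sub_const x0)
  set ψ : ℤ × ℤ → ℤ × ℤ := fun m => ix b σ (gradient h (cen ρ m) - c) with hψ
  set U : ℤ × ℤ → E2 → ℝ≥0∞ := fun m y => ‖um ρ g m y‖ₑ ^ 2 with hU
  set E : ℝ≥0∞ := ENNReal.ofReal (Δ * (max (σ 0) (σ 1)) ^ q * (σ 0 * σ 1 * R ^ 2)) with hE
  have h1 : ∑ m ∈ F, ∫⁻ y in T m, U m y ≤ ∑ m ∈ F, ∑ k ∈ KP, ∫⁻ y in S m ∩ {y | φ y = k}, U m y := by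
    refine Finset.sum_le_sum fun m hm => ?_
    rw [sum_cells hφm (U m) (hSm m)]
    refine lintegral_mono_set fun y hy => ⟨hT m hm hy, ?_⟩
    exact ix_mem b hσR (hx m hm y hy)
  have h2 : ∑ m ∈ F, ∑ k ∈ KP, ∫⁻ y in S m ∩ {y | φ y = k}, U m y =
      ∑ j ∈ KA, ∑ k ∈ KP, ∑ m ∈ F with ψ m = j, ∫⁻ y in S m ∩ {y | φ y = k}, U m y := by
    rw [← Finset.sum_fiberwise_of_maps_to (s := F) (t := KA) (g := ψ)
      (fun m hm => ix_mem b hσ0 (hv m hm))]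
    exact Finset.sum_congr rfl fun j _ => Finset.sum_comm
  have h3 : ∀ j ∈ KA, ∀ k ∈ KP, ∑ m ∈ F with ψ m = j, ∫⁻ y in S m ∩ {y | φ y = k}, U m y ≤ E := by
    intro j _ k _
    refine le_trans ?_ (hD (c + sh b ![j.1 * σ 0, j.2 * σ 1]) b σ
      (x0 + sh b ![k.1 * (σ 0 * R), k.2 * (σ 1 * R)]) hσ)
    unfold en
    have hFj : (F.filter (fun m => ψ m = j)) ⊆ caps ρ := (Finset.filter_subset _ _).trans hF
    refine le_trans (Finset.sum_le_sum fun m hm => ?_) (Finset.sum_le_sum_of_subset hFj)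
    refine lintegral_mono_set ?_
    rintro y ⟨hy1, hy2⟩
    refine ⟨hy1, fun i => ?_, fun i => ?_⟩
    · have := ix_near b hσ0 (Finset.mem_filter.1 hm).2 i
      rwa [sub_sub] at this
    · have := ix_near b hσR (show ix b (fun i => σ i * R) (y - x0) = k from hy2) i
      rwa [sub_sub] at this
  have h4 : ∑ j ∈ KA, ∑ k ∈ KP, ∑ m ∈ F with ψ m = j, ∫⁻ y in S m ∩ {y | φ y = k}, U m y ≤
      (KA.card : ℝ≥0∞) * ((KP.card : ℝ≥0∞) * E) := by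
    calc _ ≤ ∑ j ∈ KA, ∑ k ∈ KP, E :=
          Finset.sum_le_sum fun j hj => Finset.sum_le_sum fun k hk => h3 j hj k hk
      _ = _ := by rw [Finset.sum_const, Finset.sum_const, nsmul_eq_mul, nsmul_eq_mul]
  refine h1.trans (h2.le.trans (h4.trans ?_))
  have e1 : (KA.card : ℝ≥0∞) ≤ ENNReal.ofReal ((2 * a 0 + 3) * (2 * a 1 + 3)) := by
    rw [← ENNReal.ofReal_natCast]
    exact ENNReal.ofReal_le_ofReal (card_box ha)
  have e2 : (KP.card : ℝ≥0∞) ≤ ENNReal.ofReal ((2 * p 0 + 3) * (2 * p 1 + 3)) := by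
    rw [← ENNReal.ofReal_natCast]
    exact ENNReal.ofReal_le_ofReal (card_box hp)
  have ha0 := ha 0
  have ha1 := ha 1
  have hp0 := hp 0
  have hp1 := hp 1
  rw [ENNReal.ofReal_mul (by positivity), ENNReal.ofReal_mul (by positivity), mul_assoc]
  exact mul_le_mul' e1 (mul_le_mul' e2 le_rfl)

end Crest.Agent.R138.Kcc882
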