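import Crest.Agent.R138.Kcc2_882
import Crest.Agent.R138.Wpk5_685

/-!
# R138 / R139, wave side: KMC for coefficient energies, part 3 (helper882)

Smooth weights against sharp cut-offs, the tail, the overlap of direction caps.
-/

set_option autoImplicit false

open MeasureTheory
open scoped ENNReal

namespace Crest.Agent.R138.Kcc882

open Crest.Agent.R138.Defs Crest.Agent.R138.Wpk685 Crest.Agent.R138.Ad480

theorem wa_split {ρ Y : ℝ} (hρ : 0 ≤ ρ) (hY : 0 < Y) {n n1 : ℕ} (hn : n1 ≤ n) (v : E2) :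
    wa ρ n v ≤ (if ρ * ‖v‖ ≤ Y then 1 else 0) + (Y ^ (n - n1))⁻¹ * wa ρ n1 v := by
  have h1 := wa_le_one hρ n v
  have h2 := wa_pos hρ n1 v
  split_ifs with h
  · have : 0 ≤ (Y ^ (n - n1))⁻¹ * wa ρ n1 v := by positivity
    linarith
  · rw [zero_add]
    unfold wa
    rw [← mul_inv]
    have hv : 0 ≤ ρ * ‖v‖ := by positivity
    refine inv_anti₀ (by positivity) ?_
    have e : (1 + ρ * ‖v‖) ^ n = (1 + ρ * ‖v‖) ^ (n - n1) * (1 + ρ * ‖v‖) ^ n1 := by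
      rw [← pow_add, Nat.sub_add_cancel hn]
    rw [e]
    refine mul_le_mul_of_nonneg_right (pow_le_pow_left₀ hY.le ?_ _) (by positivity)
    linarith [not_le.1 h]

/-- sharp cut-off. -/
noncomputable def Sh (h : E2 → ℝ) (ρ Y : ℝ) (g : E2 → ℂ) (S : ℤ × ℤ → Set E2) (M : Finset (ℤ × ℤ))
    (t : ℝ) (x : E2) : ℝ≥0∞ :=
  ENNReal.ofReal (ρ ^ 2) * ∑ m ∈ M,
    ∫⁻ y in S m ∩ Metric.closedBall (x + t • gradient h (cen ρ m)) (Y / ρ), ‖um ρ g m y‖ₑ ^ 2

theorem U_meas {ρ : ℝ} {g : E2 → ℂ} (hg : Integrable g) (m : ℤ × ℤ) :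
    Measurable fun y => ‖um ρ g m y‖ₑ ^ 2 := by
  exact ((um_cont hg m).enorm.measurable).pow_const 2

theorem wa_meas {ρ : ℝ} (hρ : 0 ≤ ρ) (n : ℕ) (z : E2 × ℝ) (v : E2) :
    Measurable fun p : E2 × E2 => ENNReal.ofReal (wa ρ n (p.2 - z.1 - z.2 • v - p.1)) := by
  refine ENNReal.measurable_ofReal.comp ?_
  refine ((wa_cont hρ n).comp ?_).measurable
  fun_prop

theorem Ac_meas {n : ℕ} {h : E2 → ℝ} {ρ : ℝ} (hρ : 0 ≤ ρ) {g : E2 → ℂ} (hg : Integrable g)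
    (S : ℤ × ℤ → Set E2) (M : Finset (ℤ × ℤ)) (z : E2 × ℝ) :
    Measurable fun x => Ac n h ρ g S M z x := by
  unfold Ac
  refine Measurable.const_mul (Finset.measurable_fun_sum _ fun m _ => ?_) _
  exact Measurable.lintegral_prod_right' (ν := volume.restrict (S m))
    (f := fun p : E2 × E2 => ENNReal.ofReal (wa ρ n (p.2 - z.1 - z.2 • gradient h (cen ρ m) - p.1)) *
      ‖um ρ g m p.2‖ₑ ^ 2)
    ((wa_meas hρ n z _).mul ((U_meas hg m).comp measurable_snd))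

theorem Ac_split {n n1 : ℕ} (hn : n1 ≤ n) {h : E2 → ℝ} {ρ Y : ℝ} (hρ : 0 < ρ) (hY : 0 < Y)
    {g : E2 → ℂ} (hg : Integrable g) (S : ℤ × ℤ → Set E2) (M : Finset (ℤ × ℤ)) (t : ℝ) (x : E2) :
    Ac n h ρ g S M (0, t) x ≤ Sh h ρ Y g S M t x +
      ENNReal.ofReal ((Y ^ (n - n1))⁻¹) * Ac n1 h ρ g S M (0, t) x := by
  unfold Ac Sh
  rw [mul_left_comm, ← mul_add]
  refine mul_le_mul' le_rfl ?_
  rw [Finset.mul_sum, ← Finset.sum_add_distrib]
  refine Finset.sum_le_sum fun m _ => ?_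
  simp only
  set v := gradient h (cen ρ m) with hv
  have hb : MeasurableSet (Metric.closedBall (x + t • v) (Y / ρ)) := measurableSet_closedBall
  have h1 : ∀ y, ENNReal.ofReal (wa ρ n (y - 0 - t • v - x)) * ‖um ρ g m y‖ₑ ^ 2 ≤
      (Metric.closedBall (x + t • v) (Y / ρ)).indicator (fun y => ‖um ρ g m y‖ₑ ^ 2) y +
      ENNReal.ofReal ((Y ^ (n - n1))⁻¹) *
        (ENNReal.ofReal (wa ρ n1 (y - 0 - t • v - x)) * ‖um ρ g m y‖ₑ ^ 2) := by
    intro y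
    have h2 := wa_split hρ.le hY hn (y - 0 - t • v - x)
    have h3 : (Metric.closedBall (x + t • v) (Y / ρ)).indicator (fun y => ‖um ρ g m y‖ₑ ^ 2) y =
        ENNReal.ofReal (if ρ * ‖y - 0 - t • v - x‖ ≤ Y then 1 else 0) * ‖um ρ g m y‖ₑ ^ 2 := by
      have e : y - 0 - t • v - x = y - (x + t • v) := by rw [sub_zero]; abel
      rw [e]
      by_cases hy : ρ * ‖y - (x + t • v)‖ ≤ Y
      · have hy' : y ∈ Metric.closedBall (x + t • v) (Y / ρ) := by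
          rw [Metric.mem_closedBall, dist_eq_norm, le_div_iff₀ hρ, mul_comm]
          exact hy
        rw [Set.indicator_of_mem hy', if_pos hy, ENNReal.ofReal_one, one_mul]
      · have hy' : y ∉ Metric.closedBall (x + t • v) (Y / ρ) := by
          rw [Metric.mem_closedBall, dist_eq_norm, le_div_iff₀ hρ, mul_comm]
          exact hy
        rw [Set.indicator_of_notMem hy', if_neg hy, ENNReal.ofReal_zero, zero_mul]
    rw [h3, ← mul_assoc, ← ENNReal.ofReal_mul (by positivity), ← add_mul,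
      ← ENNReal.ofReal_add (by split_ifs <;> norm_num) (by have := wa_pos hρ.le n1 (y - 0 - t • v - x); positivity)]
    exact mul_le_mul' (ENNReal.ofReal_le_ofReal h2) le_rfl
  refine (lintegral_mono h1).trans ?_
  have hm : Measurable fun y => (Metric.closedBall (x + t • v) (Y / ρ)).indicator
      (fun y => ‖um ρ g m y‖ₑ ^ 2) y := (U_meas hg m).indicator hb
  rw [lintegral_add_left hm, lintegral_const_mul' _ _ ENNReal.ofReal_ne_top,
    setLIntegral_indicator hb, Set.inter_comm]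

/-- the mass of the weight. -/
noncomputable def W0 : ℝ≥0∞ := ∫⁻ x : E2, ENNReal.ofReal (wa 1 3 x)

theorem W0_lt : W0 < ⊤ := by
  have h := finite_integral_one_add_norm (E := E2) (μ := volume) (r := 3) (by
    rw [finrank_euclideanSpace_fin]; norm_num)
  refine lt_of_le_of_lt (le_of_eq ?_) h
  unfold W0
  congr 1
  funext x
  unfold wa
  rw [Real.rpow_neg (by positivity), one_mul]
  norm_cast

theorem lint_wa {ρ : ℝ} (hρ : 0 < ρ) (a : E2) :
    ∫⁻ x, ENNReal.ofReal (wa ρ 3 (a - x)) = ENNReal.ofReal ((ρ ^ 2)⁻¹) * W0 := by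
  rw [lintegral_sub_left_eq_self (fun x => ENNReal.ofReal (wa ρ 3 x)) a,
    Tub70.lintegral_smul_E2 (inv_pos.2 hρ), inv_pow]
  congr 1
  unfold W0
  congr 1
  funext x
  congr 1
  unfold wa
  rw [norm_smul, Real.norm_of_nonneg (inv_pos.2 hρ).le, mul_inv_cancel_left₀ hρ.ne', one_mul]

theorem lint_Ac {h : E2 → ℝ} {ρ : ℝ} (hρ : 0 < ρ) {g : E2 → ℂ} (hg : Integrable g)
    (S : ℤ × ℤ → Set E2) (M : Finset (ℤ × ℤ)) (z : E2 × ℝ) :
    ∫⁻ x, Ac 3 h ρ g S M z x = W0 * ∑ m ∈ M, ∫⁻ y in S m, ‖um ρ g m y‖ₑ ^ 2 := by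
  unfold Ac
  have hm : ∀ m, Measurable fun p : E2 × E2 =>
      ENNReal.ofReal (wa ρ 3 (p.2 - z.1 - z.2 • gradient h (cen ρ m) - p.1)) *
      ‖um ρ g m p.2‖ₑ ^ 2 := fun m => (wa_meas hρ.le 3 z _).mul ((U_meas hg m).comp measurable_snd)
  rw [lintegral_const_mul' _ _ ENNReal.ofReal_ne_top, lintegral_finset_sum]
  · have e : ∀ m, ∫⁻ x, ∫⁻ y in S m,
        ENNReal.ofReal (wa ρ 3 (y - z.1 - z.2 • gradient h (cen ρ m) - x)) * ‖um ρ g m y‖ₑ ^ 2 =
        ENNReal.ofReal ((ρ ^ 2)⁻¹) * (W0 * ∫⁻ y in S m, ‖um ρ g m y‖ₑ ^ 2) := by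
      intro m
      rw [lintegral_lintegral_swap (hm m).aemeasurable, ← mul_assoc,
        ← lintegral_const_mul _ (U_meas hg m)]
      refine lintegral_congr fun y => ?_
      rw [lintegral_mul_const' _ _ (by
        exact ENNReal.pow_ne_top (by simp)), lint_wa hρ]
    simp_rw [e]
    rw [← Finset.mul_sum, ← mul_assoc, ← ENNReal.ofReal_mul (by positivity),
      mul_inv_cancel₀ (by positivity), ENNReal.ofReal_one, one_mul, ← Finset.mul_sum]
  · intro m _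
    exact Measurable.lintegral_prod_right' (ν := volume.restrict (S m))
      (f := fun p : E2 × E2 => ENNReal.ofReal (wa ρ 3 (p.2 - z.1 - z.2 • gradient h (cen ρ m) - p.1)) *
      ‖um ρ g m p.2‖ₑ ^ 2) (hm m)

/-- Chebyshev, pointwise. -/
theorem cheb_pt (l a : ℝ≥0∞) : l ^ (1/2 : ℝ) * (if l ≤ a then a else 0) ≤ a ^ (3/2 : ℝ) := by
  split_ifs with h
  · have e : (3/2 : ℝ) = 1/2 + 1 := by norm_num
    rw [e, ENNReal.rpow_add_of_nonneg _ _ (by norm_num) (by norm_num), ENNReal.rpow_one]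
    exact mul_le_mul' (ENNReal.rpow_le_rpow h (by norm_num)) le_rfl
  · simp

theorem rpow32_le {l a : ℝ≥0∞} (h : a ≤ l) : a ^ (3/2 : ℝ) ≤ l ^ (1/2 : ℝ) * a := by
  have e : (3/2 : ℝ) = 1/2 + 1 := by norm_num
  rw [e, ENNReal.rpow_add_of_nonneg _ _ (by norm_num) (by norm_num), ENNReal.rpow_one]
  exact mul_le_mul' (ENNReal.rpow_le_rpow h (by norm_num)) le_rfl

open Classical in
/-- overlap of the direction caps. -/
theorem overlap {s Λ : ℝ} (hs : 0 < s) (hΛ : 0 ≤ Λ) (v : E2) (K : Finset (ℤ × ℤ)) :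
    ((K.filter fun k => ‖v - cen s k‖ ≤ Λ * s).card : ℝ) ≤ (2 * Λ + 1) ^ 2 := by
  set F : Finset (ℤ × ℤ) := Finset.Icc ⌈v 0 / s - Λ⌉ ⌊v 0 / s + Λ⌋ ×ˢ
    Finset.Icc ⌈v 1 / s - Λ⌉ ⌊v 1 / s + Λ⌋ with hF
  have h1 : (K.filter fun k => ‖v - cen s k‖ ≤ Λ * s) ⊆ F := by
    intro k hk
    have h2 := (Finset.mem_filter.1 hk).2
    have h3 : ∀ (a : ℝ) (n : ℤ), |a - s * n| ≤ Λ * s → n ∈ Finset.Icc ⌈a / s - Λ⌉ ⌊a / s + Λ⌋ := by
      intro a n h4
      obtain ⟨h5, h6⟩ := abs_le.1 h4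
      rw [Finset.mem_Icc, Int.ceil_le, Int.le_floor]
      constructor
      · rw [sub_le_iff_le_add, div_le_iff₀ hs]; linarith
      · rw [← sub_le_iff_le_add, le_div_iff₀ hs]; linarith
    have h4 := (PiLp.norm_apply_le (v - cen s k) 0).trans h2
    have h5 := (PiLp.norm_apply_le (v - cen s k) 1).trans h2
    rw [PiLp.sub_apply, cen_zero, Real.norm_eq_abs] at h4
    rw [PiLp.sub_apply, cen_one, Real.norm_eq_abs] at h5
    rw [hF, Finset.mem_product]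
    exact ⟨h3 _ _ h4, h3 _ _ h5⟩
  have hcard : ∀ a : ℝ, ((Finset.Icc ⌈a / s - Λ⌉ ⌊a / s + Λ⌋).card : ℝ) ≤ 2 * Λ + 1 := by
    intro a
    rw [Int.card_Icc]
    by_cases h0 : 0 ≤ ⌊a / s + Λ⌋ + 1 - ⌈a / s - Λ⌉
    · have h2 := Int.toNat_of_nonneg h0
      have h3 : (((⌊a / s + Λ⌋ + 1 - ⌈a / s - Λ⌉).toNat : ℤ) : ℝ) =
        ((⌊a / s + Λ⌋ + 1 - ⌈a / s - Λ⌉ : ℤ) : ℝ) := by rw [h2]
      rw [← Int.cast_natCast (R := ℝ), h3]
      push_cast
      have h4 := Int.floor_le (a / s + Λ)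
      have h5 := Int.le_ceil (a / s - Λ)
      linarith
    · rw [Int.toNat_of_nonpos (by omega)]
      push_cast
      linarith
  calc ((K.filter fun k => ‖v - cen s k‖ ≤ Λ * s).card : ℝ) ≤ F.card := by
        exact_mod_cast Finset.card_le_card h1
    _ ≤ (2 * Λ + 1) * (2 * Λ + 1) := by
        rw [hF, Finset.card_product]
        push_cast
        exact mul_le_mul (hcard _) (hcard _) (Nat.cast_nonneg _) (by positivity)
    _ = _ := by ring

open Classical in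
/-- sum of the energies of families of caps. -/
theorem sum_fam {h : E2 → ℝ} {ρ s Λ : ℝ} (hs : 0 < s) (hΛ : 0 ≤ Λ) (K : Finset (ℤ × ℤ))
    (M : ℤ × ℤ → Finset (ℤ × ℤ)) (hM : ∀ k ∈ K, M k ⊆ caps ρ)
    (hM' : ∀ k ∈ K, ∀ m ∈ M k, ‖gradient h (cen ρ m) - cen s k‖ ≤ Λ * s) (a : ℤ × ℤ → ℝ≥0∞) :
    ∑ k ∈ K, ∑ m ∈ M k, a m ≤ ENNReal.ofReal ((2 * Λ + 1) ^ 2) * ∑ m ∈ caps ρ, a m := by
  have h1 : ∑ k ∈ K, ∑ m ∈ M k, a m = ∑ m ∈ caps ρ, ∑ k ∈ K.filter (fun k => m ∈ M k), a m := by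
    refine Finset.sum_comm' fun k m => ?_
    simp only [Finset.mem_filter]
    constructor
    · rintro ⟨hk, hm⟩
      exact ⟨⟨hk, hm⟩, hM k hk hm⟩
    · rintro ⟨⟨hk, hm⟩, _⟩
      exact ⟨hk, hm⟩
  rw [h1, Finset.mul_sum]
  refine Finset.sum_le_sum fun m _ => ?_
  rw [Finset.sum_const, nsmul_eq_mul]
  refine mul_le_mul' ?_ le_rfl
  rw [← ENNReal.ofReal_natCast]
  refine ENNReal.ofReal_le_ofReal (le_trans ?_ (overlap hs hΛ (gradient h (cen ρ m)) K))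
  have : K.filter (fun k => m ∈ M k) ⊆ K.filter (fun k => ‖gradient h (cen ρ m) - cen s k‖ ≤ Λ * s) := by
    intro k hk
    obtain ⟨h2, h3⟩ := Finset.mem_filter.1 hk
    exact Finset.mem_filter.2 ⟨h2, hM' k h2 m h3⟩
  exact_mod_cast Finset.card_le_card this

end Crest.Agent.R138.Kcc882
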