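import Crest.Agent.R138.Kcc3_882

/-!
# R138 / R139, wave side: KMC for coefficient energies, part 4 (helper882)

`kmca`: Kakeya maximal estimate for the coefficient densities `Ac` on direction caps.
-/

set_option autoImplicit false

open MeasureTheory
open scoped ENNReal

namespace Crest.Agent.R138.Kcc882

open Crest.Agent.R138.Defs Crest.Agent.R138.Wpk685 Crest.Agent.R138.Ad480

/-- total energy from the penalised density. -/
theorem whole_le {q : ℝ} {h : E2 → ℝ} {R : ℝ} (hR : 1 ≤ R) {g : E2 → ℂ} {S : ℤ × ℤ → Set E2}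
    (hSm : ∀ m, MeasurableSet (S m)) {Δ : ℝ} (hΔ : 0 ≤ Δ) (hD : Dens q h R g S Δ) {V A : ℝ}
    (hV : 0 ≤ V) (hA : 0 ≤ A)
    (hv : ∀ m ∈ caps (R ^ (-(1/2) : ℝ)), ‖gradient h (cen (R ^ (-(1/2) : ℝ)) m)‖ ≤ V)
    (hS : ∀ m, ∀ y ∈ S m, ‖y‖ ≤ A * R) :
    en (R ^ (-(1/2) : ℝ)) g S ≤ ENNReal.ofReal ((2 * V + 3) ^ 2 * (2 * A + 3) ^ 2 * (Δ * R ^ 2)) := by
  obtain ⟨hρ, hρ1, hρ2⟩ := rp_facts hR
  set b : OrthonormalBasis (Fin 2) ℝ E2 := EuclideanSpace.basisFun (Fin 2) ℝ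
  have hin : ∀ (x : E2) (i : Fin 2), |inner ℝ x (b i)| ≤ ‖x‖ := fun x i =>
    (abs_real_inner_le_norm _ _).trans (by rw [b.norm_eq_one, mul_one])
  have h1 := box_cover (q := q) hR hSm hΔ hD b (σ := fun _ => 1) (fun _ => ⟨hρ1, le_rfl⟩)
    (a := fun _ => V) (p := fun _ => A) (fun _ => hV) (fun _ => hA) 0 0
    (F := caps (R ^ (-(1/2) : ℝ))) (Finset.Subset.refl _) S (fun _ _ => Set.Subset.refl _)
    (fun m hm i => by
      rw [sub_zero, mul_one]
      exact (hin _ i).trans (hv m hm))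
    (fun m _ y hy i => by
      rw [sub_zero, one_mul]
      exact (hin _ i).trans (hS m y hy))
  refine h1.trans (ENNReal.ofReal_le_ofReal (le_of_eq ?_))
  simp only [max_self, Real.one_rpow]
  ring

open Classical in
/-- box hypothesis of `kcc_sharp` inside one direction cap. -/
theorem cap_box {q : ℝ} (hq : 0 ≤ q) {h : E2 → ℝ} {R : ℝ} (hR : 1 ≤ R) {g : E2 → ℂ}
    {S : ℤ × ℤ → Set E2} (hSm : ∀ m, MeasurableSet (S m)) {Δ : ℝ} (hΔ : 0 ≤ Δ)
    (hD : Dens q h R g S Δ) {s Λ L1 : ℝ} (hs : R ^ (-(1/2) : ℝ) ≤ s) (_hs1 : s ≤ 1) (hΛ : 0 ≤ Λ)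
    (hL1 : 1 ≤ L1) (ξ : E2) {M : Finset (ℤ × ℤ)} (hM : M ⊆ caps (R ^ (-(1/2) : ℝ)))
    (hM' : ∀ m ∈ M, ‖gradient h (cen (R ^ (-(1/2) : ℝ)) m) - ξ‖ ≤ Λ * s)
    (b : OrthonormalBasis (Fin 2) ℝ E2) (u : Fin 2 → ℝ) (x0 c0 : E2)
    (hu : ∀ j, R ^ (-(1/2) : ℝ) ≤ u j ∧ u j ≤ 1) :
    ∑ m ∈ M.filter (fun m => ∀ j, |inner ℝ (gradient h (cen (R ^ (-(1/2) : ℝ)) m) - c0) (b j)| ≤
        2 * u j),
      ∫⁻ y in S m ∩ {y | ∀ j, |inner ℝ (y - x0) (b j)| ≤ 2 * (u j * (L1 * R))},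
        ‖um (R ^ (-(1/2) : ℝ)) g m y‖ₑ ^ 2 ≤
      ENNReal.ofReal ((2 * Λ + 7) ^ 2 * (4 * L1 + 3) ^ 2 * (Δ * s ^ q) *
        (u 0 * u 1 * (L1 * R) ^ 2)) := by
  obtain ⟨hρ, hρ1, hρ2⟩ := rp_facts hR
  set ρ : ℝ := R ^ (-(1/2) : ℝ) with hρdef
  have hR0 : 0 < R := by linarith
  have hs0 : 0 < s := hρ.trans_le hs
  set σ : Fin 2 → ℝ := fun j => min (u j) s with hσ
  have hσ1 : ∀ j, ρ ≤ σ j ∧ σ j ≤ 1 := fun j => ⟨le_min (hu j).1 hs, (min_le_left _ _).trans (hu j).2⟩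
  have hσ0 : ∀ j, 0 < σ j := fun j => hρ.trans_le (hσ1 j).1
  have hu0 : ∀ j, 0 < u j := fun j => hρ.trans_le (hu j).1
  have hσu : ∀ j, σ j ≤ u j := fun j => min_le_left _ _
  have hr1 : ∀ j, 1 ≤ u j / σ j := fun j => by
    rw [le_div_iff₀ (hσ0 j), one_mul]; exact hσu j
  set c : E2 := sh b ![if u 0 ≤ s then inner ℝ c0 (b 0) else inner ℝ ξ (b 0),
    if u 1 ≤ s then inner ℝ c0 (b 1) else inner ℝ ξ (b 1)] with hc
  have hcj : ∀ j, inner ℝ c (b j) = if u j ≤ s then inner ℝ c0 (b j) else inner ℝ ξ (b j) := by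
    intro j
    rw [hc, inner_sh]
    fin_cases j <;> simp
  have h1 := box_cover (q := q) hR hSm hΔ hD b (σ := σ) hσ1
    (a := fun _ => Λ + 2) (p := fun j => 2 * L1 * (u j / σ j)) (fun _ => by positivity)
    (fun j => by have := hr1 j; positivity) c x0
    (F := M.filter (fun m => ∀ j, |inner ℝ (gradient h (cen ρ m) - c0) (b j)| ≤ 2 * u j))
    ((Finset.filter_subset _ _).trans hM)
    (fun m => S m ∩ {y | ∀ j, |inner ℝ (y - x0) (b j)| ≤ 2 * (u j * (L1 * R))})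
    (fun _ _ => Set.inter_subset_left)
    (fun m hm j => by
      obtain ⟨hm1, hm2⟩ := Finset.mem_filter.1 hm
      rw [inner_sub_left, hcj]
      split_ifs with hj
      · have e : σ j = u j := min_eq_left hj
        rw [e, ← inner_sub_left]
        refine (hm2 j).trans ?_
        exact mul_le_mul_of_nonneg_right (by linarith) (hu0 j).le
      · have e : σ j = s := min_eq_right (not_le.1 hj).le
        rw [e, ← inner_sub_left]
        refine (abs_real_inner_le_norm _ _).trans ?_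
        rw [b.norm_eq_one, mul_one]
        refine (hM' m hm1).trans ?_
        exact mul_le_mul_of_nonneg_right (by linarith) hs0.le)
    (fun m _ y hy j => by
      refine (hy.2 j).trans (le_of_eq ?_)
      have := (hσ0 j).ne'
      field_simp)
  refine h1.trans (ENNReal.ofReal_le_ofReal ?_)
  have hmx : max (σ 0) (σ 1) ^ q ≤ s ^ q :=
    Real.rpow_le_rpow (le_max_of_le_left (hσ0 0).le) (max_le (min_le_right _ _) (min_le_right _ _)) hq
  have hmx0 : 0 ≤ max (σ 0) (σ 1) ^ q := Real.rpow_nonneg (le_max_of_le_left (hσ0 0).le) _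
  have hσ00 := hσ0 0
  have hσ01 := hσ0 1
  have hu00 := hu0 0
  have hu01 := hu0 1
  have h2 : ∀ j, 2 * (2 * L1 * (u j / σ j)) + 3 ≤ (4 * L1 + 3) * (u j / σ j) := by
    intro j
    nlinarith [hr1 j]
  have h20 : ∀ j, 0 ≤ 2 * (2 * L1 * (u j / σ j)) + 3 := fun j => by have := hr1 j; positivity
  calc (2 * (Λ + 2) + 3) * (2 * (Λ + 2) + 3) *
        ((2 * (2 * L1 * (u 0 / σ 0)) + 3) * (2 * (2 * L1 * (u 1 / σ 1)) + 3)) *
        (Δ * max (σ 0) (σ 1) ^ q * (σ 0 * σ 1 * R ^ 2))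
      ≤ (2 * (Λ + 2) + 3) * (2 * (Λ + 2) + 3) *
        (((4 * L1 + 3) * (u 0 / σ 0)) * ((4 * L1 + 3) * (u 1 / σ 1))) *
        (Δ * s ^ q * (σ 0 * σ 1 * R ^ 2)) := by
        refine mul_le_mul (mul_le_mul_of_nonneg_left (mul_le_mul (h2 0) (h2 1) (h20 1)
          (by positivity)) (by positivity)) ?_ (by positivity) (by positivity)
        exact mul_le_mul_of_nonneg_right (mul_le_mul_of_nonneg_left hmx hΔ) (by positivity)
    _ = (2 * Λ + 7) ^ 2 * (4 * L1 + 3) ^ 2 * (Δ * s ^ q) * (u 0 * u 1 * R ^ 2) := by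
        field_simp
        ring
    _ ≤ _ := by
        refine mul_le_mul_of_nonneg_left ?_ (by positivity)
        refine mul_le_mul_of_nonneg_left ?_ (by positivity)
        rw [mul_pow]
        nlinarith [pow_le_pow_left₀ (by norm_num : (0:ℝ) ≤ 1) hL1 2, sq_nonneg R]

set_option maxHeartbeats 1000000 in
/-- sharp part on one direction cap. -/
theorem sharp_part (hKM : ∀ V : ℝ, Tub70.KM32 V) {q A L Λ V : ℝ} (hq : 0 ≤ q) (hA : 0 ≤ A)
    (hL : 0 ≤ L) (hΛ : 0 ≤ Λ) (hV : 0 ≤ V) {ε e1 : ℝ} (hε : 0 < ε) (he1 : 0 < e1) (he2 : e1 ≤ 1/2) :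
    ∃ C : ℝ, 0 ≤ C ∧ ∀ h : E2 → ℝ, ∀ R : ℝ, 1 ≤ R →
      (∀ m ∈ caps (R ^ (-(1/2) : ℝ)), ‖gradient h (cen (R ^ (-(1/2) : ℝ)) m)‖ ≤ V) →
      ∀ (g : E2 → ℂ) (S : ℤ × ℤ → Set E2), (∀ m, MeasurableSet (S m)) →
      (∀ m, ∀ y ∈ S m, ‖y‖ ≤ A * R) → ∀ Δ : ℝ, 0 ≤ Δ → Dens q h R g S Δ →
      ∀ s : ℝ, R ^ (-(1/2) : ℝ) ≤ s → s ≤ 1 → ∀ (ξ : E2) (M : Finset (ℤ × ℤ)),
      M ⊆ caps (R ^ (-(1/2) : ℝ)) →
      (∀ m ∈ M, ‖gradient h (cen (R ^ (-(1/2) : ℝ)) m) - ξ‖ ≤ Λ * s) →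
      ∫⁻ t in Set.Icc (-(L * R)) (L * R), ∫⁻ x,
        (Sh h (R ^ (-(1/2) : ℝ)) (R ^ e1 / 2) g S M t x) ^ (3/2 : ℝ) ≤
      ENNReal.ofReal (C * R ^ (3 * e1 + ε / 2) * s ^ (q / 2) * Real.sqrt Δ * R) *
        ∑ m ∈ M, ∫⁻ y in S m, ‖um (R ^ (-(1/2) : ℝ)) g m y‖ₑ ^ 2 := by
  classical
  obtain ⟨C1, hC1, hk⟩ := kcc_sharp (κ := ℤ × ℤ) (hKM (V + 2)) ε hε
  set L1 : ℝ := A + L * V + L + 1 with hL1
  have hL11 : 1 ≤ L1 := by rw [hL1]; have : 0 ≤ L * V := by positivity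
                           linarith
  set c2 : ℝ := (2 * Λ + 7) ^ 2 * (4 * L1 + 3) ^ 2 with hc2
  have hc20 : 0 ≤ c2 := by positivity
  refine ⟨L1 ^ 3 * C1 * Real.sqrt c2 * L1, by positivity, ?_⟩
  intro h R hR hv g S hSm hSA Δ hΔ hD s hs hs1 ξ M hM hM'
  obtain ⟨hρ, hρ1, hρ2⟩ := rp_facts hR
  set ρ : ℝ := R ^ (-(1/2) : ℝ) with hρdef
  have hR0 : 0 < R := by linarith
  have hs0 : 0 < s := hρ.trans_le hs
  set w : ℝ := L1 * R ^ (e1 + 1/2) with hw
  have hL10 : 0 < L1 := by linarith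
  have hw0 : 0 < w := by positivity
  have hwR : w ≤ L1 * R := by
    rw [hw]
    refine mul_le_mul_of_nonneg_left ?_ hL10.le
    calc R ^ (e1 + 1/2) ≤ R ^ (1:ℝ) := Real.rpow_le_rpow_of_exponent_le hR (by linarith)
      _ = R := Real.rpow_one R
  have hwd : w / (L1 * R) = R ^ (e1 - 1/2) := by
    rw [hw, mul_div_mul_left _ _ hL10.ne', div_eq_iff hR0.ne', ← Real.rpow_add_one hR0.ne']
    congr 1; ring
  have hYw : R ^ e1 / 2 / ρ ≤ w / 2 := by
    have : R ^ e1 / 2 / ρ = R ^ (e1 + 1/2) / 2 := by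
      rw [hρdef, div_div, mul_comm, ← div_div]
      congr 1
      rw [div_eq_iff (Real.rpow_pos_of_pos hR0 _).ne', ← Real.rpow_add hR0]
      congr 1; ring
    rw [this, hw]
    have : 0 < R ^ (e1 + 1/2) := by positivity
    nlinarith
  have hfin : ∀ m ∈ M, ∫⁻ y in S m, ‖um ρ g m y‖ₑ ^ 2 ≠ ⊤ := by
    intro m hm
    have h1 := whole_le hR hSm hΔ hD hV hA hv hSA
    have h2 : ∫⁻ y in S m, ‖um ρ g m y‖ₑ ^ 2 ≤ en ρ g S :=
      Finset.single_le_sum (f := fun m => ∫⁻ y in S m, ‖um ρ g m y‖ₑ ^ 2)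
        (fun _ _ => zero_le) (hM hm)
    exact ne_top_of_le_ne_top ENNReal.ofReal_ne_top (h2.trans h1)
  have key := hk w (L1 * R) hw0 hwR M (fun m => gradient h (cen ρ m)) (fun m y => ‖um ρ g m y‖ₑ ^ 2)
    S hSm (fun m hm => (hv m (hM hm)).trans (by linarith))
    (fun m _ y hy => by
      have h1 := hSA m y hy
      have h2 : A * R ≤ L1 * R := mul_le_mul_of_nonneg_right
        (by rw [hL1]; have : 0 ≤ L * V := by positivity
            linarith) hR0.le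
      have h3 : 0 ≤ V * (L1 * R) := by positivity
      nlinarith) hfin (c2 * (Δ * s ^ q)) (by positivity)
    (fun b u x0 c0 hu => by
      refine cap_box hq hR hSm hΔ hD hs hs1 hΛ hL11 ξ hM hM' b u x0 c0 fun j => ⟨?_, (hu j).2⟩
      refine le_trans ?_ (hu j).1
      rw [hwd]
      exact Real.rpow_le_rpow_of_exponent_le hR (by linarith))
  set G : ℝ → E2 → ℝ≥0∞ := fun t x => ENNReal.ofReal ((w ^ 2)⁻¹) *
          ∑ m ∈ M, ∫⁻ y in S m ∩ Metric.closedBall (x + t • gradient h (cen ρ m)) (w / 2),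
            ‖um ρ g m y‖ₑ ^ 2 with hG
  have hShG : ∀ t x, Sh h ρ (R ^ e1 / 2) g S M t x ≤ ENNReal.ofReal (ρ ^ 2 * w ^ 2) * G t x := by
    intro t x
    rw [hG]
    simp only
    rw [← mul_assoc, ← ENNReal.ofReal_mul (by positivity)]
    have e : ρ ^ 2 * w ^ 2 * (w ^ 2)⁻¹ = ρ ^ 2 := by field_simp
    rw [e]
    unfold Sh
    refine mul_le_mul' le_rfl (Finset.sum_le_sum fun m _ => ?_)
    exact lintegral_mono_set (Set.inter_subset_inter_right _ (Metric.closedBall_subset_closedBall hYw))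
  have hSh0 : ∀ t, |t| ≤ L * R → ∀ x, x ∉ {x : E2 | ‖x‖ ≤ L1 * R} →
      Sh h ρ (R ^ e1 / 2) g S M t x = 0 := by
    intro t ht x hx
    unfold Sh
    rw [Finset.sum_eq_zero, mul_zero]
    intro m hm
    have : S m ∩ Metric.closedBall (x + t • gradient h (cen ρ m)) (R ^ e1 / 2 / ρ) = ∅ := by
      rw [Set.eq_empty_iff_forall_notMem]
      rintro y ⟨hy1, hy2⟩
      apply hx
      rw [Metric.mem_closedBall, dist_eq_norm] at hy2
      have h1 := hSA m y hy1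
      have h2 := hv m (hM hm)
      have h3 : ‖x‖ ≤ ‖y‖ + ‖t • gradient h (cen ρ m)‖ +
          ‖y - (x + t • gradient h (cen ρ m))‖ := by
        have e : x = y - t • gradient h (cen ρ m) - (y - (x + t • gradient h (cen ρ m))) := by abel
        calc ‖x‖ = ‖y - t • gradient h (cen ρ m) - (y - (x + t • gradient h (cen ρ m)))‖ := by
              rw [← e]
          _ ≤ _ := (norm_sub_le _ _).trans (add_le_add (norm_sub_le _ _) le_rfl)
      rw [norm_smul, Real.norm_eq_abs] at h3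
      have h4 : |t| * ‖gradient h (cen ρ m)‖ ≤ L * R * V :=
        mul_le_mul ht h2 (norm_nonneg _) (by positivity)
      have h5 : R ^ e1 / 2 / ρ ≤ R := by
        have : R ^ e1 / 2 / ρ = R ^ (e1 + 1/2) / 2 := by
          rw [hρdef, div_div, mul_comm, ← div_div]
          congr 1
          rw [div_eq_iff (Real.rpow_pos_of_pos hR0 _).ne', ← Real.rpow_add hR0]
          congr 1; ring
        rw [this]
        have h6 : R ^ (e1 + 1/2) ≤ R := by
          calc R ^ (e1 + 1/2) ≤ R ^ (1:ℝ) := Real.rpow_le_rpow_of_exponent_le hR (by linarith)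
            _ = R := Real.rpow_one R
        linarith
      rw [Set.mem_ofPred_eq, hL1]
      have h6 : 0 ≤ L * R := by positivity
      nlinarith
    rw [this, setLIntegral_empty]
  have hBm : MeasurableSet {x : E2 | ‖x‖ ≤ L1 * R} := by
    exact (isClosed_le continuous_norm continuous_const).measurableSet
  have hLL : Set.Icc (-(L * R)) (L * R) ⊆ Set.Icc (-(L1 * R)) (L1 * R) := by
    have : L * R ≤ L1 * R := mul_le_mul_of_nonneg_right
      (by rw [hL1]; have : 0 ≤ L * V := by positivity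
          linarith) hR0.le
    exact Set.Icc_subset_Icc (by linarith) this
  set cc : ℝ≥0∞ := ENNReal.ofReal (ρ ^ 2 * w ^ 2) ^ (3/2 : ℝ) with hcc
  have hccn : cc ≠ ⊤ := ENNReal.rpow_ne_top_of_nonneg (by norm_num) ENNReal.ofReal_ne_top
  calc ∫⁻ t in Set.Icc (-(L * R)) (L * R), ∫⁻ x, (Sh h ρ (R ^ e1 / 2) g S M t x) ^ (3/2 : ℝ)
      ≤ ∫⁻ t in Set.Icc (-(L * R)) (L * R), cc * ∫⁻ x in {x : E2 | ‖x‖ ≤ L1 * R},
          (G t x) ^ (3/2 : ℝ) := by
        refine setLIntegral_mono' measurableSet_Icc fun t ht => ?_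
        rw [← lintegral_const_mul' _ _ hccn, ← lintegral_indicator hBm]
        refine lintegral_mono fun x => ?_
        by_cases hx : x ∈ {x : E2 | ‖x‖ ≤ L1 * R}
        · rw [Set.indicator_of_mem hx, hcc, ← ENNReal.mul_rpow_of_nonneg _ _ (by norm_num)]
          exact ENNReal.rpow_le_rpow (hShG t x) (by norm_num)
        · rw [Set.indicator_of_notMem hx, hSh0 t (abs_le.2 ht) x hx, ENNReal.zero_rpow_of_pos
            (by norm_num)]
    _ = cc * ∫⁻ t in Set.Icc (-(L * R)) (L * R), ∫⁻ x in {x : E2 | ‖x‖ ≤ L1 * R},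
          (G t x) ^ (3/2 : ℝ) := lintegral_const_mul' _ _ hccn
    _ ≤ cc * ∫⁻ t in Set.Icc (-(L1 * R)) (L1 * R), ∫⁻ x in {x : E2 | ‖x‖ ≤ L1 * R},
          (G t x) ^ (3/2 : ℝ) := mul_le_mul' le_rfl (lintegral_mono_set hLL)
    _ ≤ cc * (ENNReal.ofReal (C1 * (w / (L1 * R)) ^ (-ε) * Real.sqrt (c2 * (Δ * s ^ q)) *
          (L1 * R)) * ∑ m ∈ M, ∫⁻ y in S m, ‖um ρ g m y‖ₑ ^ 2) := mul_le_mul' le_rfl key
    _ ≤ _ := by
        rw [← mul_assoc]
        refine mul_le_mul' ?_ le_rfl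
        have e1' : cc = ENNReal.ofReal (L1 ^ 3 * R ^ (3 * e1)) := by
          rw [hcc, ENNReal.ofReal_rpow_of_nonneg (by positivity) (by norm_num)]
          congr 1
          have e2 : ρ ^ 2 * w ^ 2 = (L1 * R ^ e1) ^ 2 := by
            rw [hρ2, hw, mul_pow, mul_pow, ← Real.rpow_natCast (R ^ (e1 + 1/2)),
              ← Real.rpow_natCast (R ^ e1), ← Real.rpow_mul hR0.le, ← Real.rpow_mul hR0.le]
            have e3 : R ^ ((e1 + 1/2) * ((2 : ℕ) : ℝ)) = R ^ (e1 * ((2 : ℕ) : ℝ)) * R := by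
              rw [← Real.rpow_add_one hR0.ne']
              congr 1; push_cast; ring
            rw [e3]
            field_simp
          rw [e2, ← Real.rpow_natCast (L1 * R ^ e1), ← Real.rpow_mul (by positivity)]
          have e4 : ((2 : ℕ) : ℝ) * (3/2) = ((3 : ℕ) : ℝ) := by norm_num
          rw [e4, Real.rpow_natCast, mul_pow, ← Real.rpow_natCast (R ^ e1), ← Real.rpow_mul hR0.le]
          congr 2
          push_cast; ring
        rw [e1', ← ENNReal.ofReal_mul (by positivity)]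
        refine ENNReal.ofReal_le_ofReal ?_
        rw [hwd, ← Real.rpow_mul hR0.le, Real.sqrt_mul hc20, Real.sqrt_mul hΔ]
        have e5 : Real.sqrt (s ^ q) = s ^ (q / 2) := by
          rw [Real.sqrt_eq_rpow, ← Real.rpow_mul hs0.le]
          congr 1; ring
        rw [e5]
        have e6 : R ^ ((e1 - 1/2) * -ε) ≤ R ^ (ε / 2) :=
          Real.rpow_le_rpow_of_exponent_le hR (by nlinarith)
        have e7 : R ^ (3 * e1 + ε / 2) = R ^ (3 * e1) * R ^ (ε / 2) := Real.rpow_add hR0 _ _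
        rw [e7]
        calc L1 ^ 3 * R ^ (3 * e1) * (C1 * R ^ ((e1 - 1/2) * -ε) *
              (Real.sqrt c2 * (Real.sqrt Δ * s ^ (q / 2))) * (L1 * R))
            ≤ L1 ^ 3 * R ^ (3 * e1) * (C1 * R ^ (ε / 2) *
              (Real.sqrt c2 * (Real.sqrt Δ * s ^ (q / 2))) * (L1 * R)) := by gcongr
          _ = _ := by ring

end Crest.Agent.R138.Kcc882
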