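import Crest.Agent.R138.Kcc5_882
import Crest.Agent.R138.Sm6_858

/-!
# R138 / R139, wave side: `Sm858.KMCA` from `KM32` (helper882)
-/

set_option autoImplicit false

open MeasureTheory
open scoped ENNReal

namespace Crest.Agent.R138.Kcc882

open Crest.Agent.R138.Defs Crest.Agent.R138.Wpk685 Crest.Agent.R138.Ad480

/-- the literal input of `Sm858.SUPM_K`. -/
theorem kmca_prop (hKM : ∀ V : ℝ, Tub70.KM32 V) {B : ℕ → ℝ} (hB : B 2 ≤ 1 / 10) {q A L Λ : ℝ}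
    (hq : 0 ≤ q) (hA : 0 ≤ A) (hL : 0 ≤ L) (hΛ : 0 ≤ Λ) : Sm858.KMCA B q A L Λ := by
  intro ε hε
  obtain ⟨n0, h0⟩ := kmca hKM (q := q) (A := A) (L := L) (Λ := Λ) hq hA hL hΛ ε hε
  refine ⟨n0, fun n hn => ?_⟩
  obtain ⟨C, hC, h1⟩ := h0 n hn
  refine ⟨C, hC, fun h hh h0' R hR g S hg _ hSm hSA Δ hΔ hD s hs hs1 K M hKMk => ?_⟩
  exact h1 h (Bn759.nearId hB hh) h0' R hR g hg S hSm hSA Δ hΔ hD s hs hs1 K M hKMk

end Crest.Agent.R138.Kcc882
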