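import Crest.Agent.R138.Defs_665

/-! Non-stationary phase along a vector field: classes of functions with bounded derivatives along
the field, closed under products and inverses. -/

set_option autoImplicit false

open MeasureTheory
open scoped ContDiff

namespace Crest.Agent.R138.Ker858

open Crest.Agent.R138.Defs

/-- derivation along the vector field `W`. -/
noncomputable def Dv (W : E2 → E2) (f : E2 → ℂ) (x : E2) : ℂ := fderiv ℝ f x (W x)

/-- `f` and its first `k` derivatives along `W` are at most `B` on `U`. -/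
def Bd (W : E2 → E2) (U : Set E2) : ℕ → ℝ → (E2 → ℂ) → Prop
  | 0, B, f => ∀ x ∈ U, ‖f x‖ ≤ B
  | k + 1, B, f => (∀ x ∈ U, ‖f x‖ ≤ B) ∧ Bd W U k B (Dv W f)

variable {W : E2 → E2} {U : Set E2} {f g : E2 → ℂ} {B B' : ℝ} {k : ℕ}

theorem Bd.val (h : Bd W U k B f) {x : E2} (hx : x ∈ U) : ‖f x‖ ≤ B := by
  cases k with
  | zero => exact h x hx
  | succ k => exact h.1 x hx

theorem Bd.mono_B (h : Bd W U k B f) (hB : B ≤ B') : Bd W U k B' f := by
  induction k generalizing f with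
  | zero => exact fun x hx => (h x hx).trans hB
  | succ k ih => exact ⟨fun x hx => (h.1 x hx).trans hB, ih h.2⟩

theorem Bd.pred (h : Bd W U (k + 1) B f) : Bd W U k B f := by
  induction k generalizing f with
  | zero => exact h.1
  | succ k ih => exact ⟨h.1, ih h.2⟩

theorem Bd.mono_k {j : ℕ} (hjk : j ≤ k) (h : Bd W U k B f) : Bd W U j B f := by
  induction hjk with
  | refl => exact h
  | step _ ih => exact ih h.pred

theorem Dv_congr (hU : IsOpen U) (hfg : ∀ x ∈ U, f x = g x) : ∀ x ∈ U, Dv W f x = Dv W g x := by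
  intro x hx
  have : f =ᶠ[nhds x] g := Filter.eventually_of_mem (hU.mem_nhds hx) hfg
  rw [Dv, Dv, this.fderiv_eq]

theorem Bd.congr (hU : IsOpen U) (hfg : ∀ x ∈ U, f x = g x) (h : Bd W U k B f) :
    Bd W U k B g := by
  induction k generalizing f g with
  | zero => exact fun x hx => by rw [← hfg x hx]; exact h x hx
  | succ k ih =>
    exact ⟨fun x hx => by rw [← hfg x hx]; exact h.1 x hx, ih (Dv_congr hU hfg) h.2⟩

theorem contDiffOn_Dv (hU : IsOpen U) (hW : ContDiff ℝ ∞ W) (hf : ContDiffOn ℝ ∞ f U) :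
    ContDiffOn ℝ ∞ (Dv W f) U := by
  have h1 : ContDiffOn ℝ ∞ (fderiv ℝ f) U := hf.fderiv_of_isOpen hU (by simp)
  exact h1.clm_apply hW.contDiffOn

theorem diffAt (hU : IsOpen U) (hf : ContDiffOn ℝ ∞ f U) {x : E2} (hx : x ∈ U) :
    DifferentiableAt ℝ f x :=
  (hf.differentiableOn (by simp)).differentiableAt (hU.mem_nhds hx)

theorem Bd.zero (hB : 0 ≤ B) : Bd W U k B (fun _ => 0) := by
  induction k with
  | zero => exact fun x _ => by simpa using hB
  | succ k ih =>
    refine ⟨fun x _ => by simpa using hB, ?_⟩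
    have : Dv W (fun _ : E2 => (0:ℂ)) = fun _ => 0 := by
      funext x; simp [Dv]
    rw [this]; exact ih

theorem Bd.const (c : ℂ) (hB : ‖c‖ ≤ B) : Bd W U k B (fun _ => c) := by
  cases k with
  | zero => exact fun x _ => hB
  | succ k =>
    refine ⟨fun x _ => hB, ?_⟩
    have : Dv W (fun _ : E2 => c) = fun _ => 0 := by
      funext x; simp [Dv]
    rw [this]; exact Bd.zero ((norm_nonneg c).trans hB)

theorem Bd.add (hU : IsOpen U) (hW : ContDiff ℝ ∞ W) (hf : ContDiffOn ℝ ∞ f U)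
    (hg : ContDiffOn ℝ ∞ g U) (h : Bd W U k B f) (h' : Bd W U k B' g) :
    Bd W U k (B + B') (fun x => f x + g x) := by
  induction k generalizing f g with
  | zero => exact fun x hx => (norm_add_le _ _).trans (add_le_add (h x hx) (h' x hx))
  | succ k ih =>
    refine ⟨fun x hx => (norm_add_le _ _).trans (add_le_add (h.1 x hx) (h'.1 x hx)), ?_⟩
    refine (ih (contDiffOn_Dv hU hW hf) (contDiffOn_Dv hU hW hg) h.2 h'.2).congr hU ?_
    intro x hx
    simp only [Dv]
    rw [fderiv_fun_add (diffAt hU hf hx) (diffAt hU hg hx)]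
    rfl

theorem Dv_mul (hU : IsOpen U) (hf : ContDiffOn ℝ ∞ f U)
    (hg : ContDiffOn ℝ ∞ g U) {x : E2} (hx : x ∈ U) :
    Dv W (fun x => f x * g x) x = f x * Dv W g x + Dv W f x * g x := by
  simp only [Dv]
  rw [fderiv_fun_mul (diffAt hU hf hx) (diffAt hU hg hx)]
  simp [mul_comm]

theorem Bd.mul (hU : IsOpen U) (hW : ContDiff ℝ ∞ W) (hf : ContDiffOn ℝ ∞ f U)
    (hg : ContDiffOn ℝ ∞ g U) (hB : 0 ≤ B) (hB' : 0 ≤ B') (h : Bd W U k B f)
    (h' : Bd W U k B' g) :
    Bd W U k (2 ^ k * (B * B')) (fun x => f x * g x) := by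
  induction k generalizing f g with
  | zero =>
    intro x hx
    rw [norm_mul, pow_zero, one_mul]
    exact mul_le_mul (h x hx) (h' x hx) (norm_nonneg _) hB
  | succ k ih =>
    have h1 : (0:ℝ) ≤ B * B' := mul_nonneg hB hB'
    refine ⟨fun x hx => ?_, ?_⟩
    · rw [norm_mul]
      refine (mul_le_mul (h.1 x hx) (h'.1 x hx) (norm_nonneg _) hB).trans ?_
      exact le_mul_of_one_le_left h1 (one_le_pow₀ (by norm_num))
    · have e1 := ih hf (contDiffOn_Dv hU hW hg) h.pred h'.2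
      have e2 := ih (contDiffOn_Dv hU hW hf) hg h.2 h'.pred
      have e3 := Bd.add hU hW (hf.mul (contDiffOn_Dv hU hW hg))
        ((contDiffOn_Dv hU hW hf).mul hg) e1 e2
      refine (e3.congr hU ?_).mono_B (le_of_eq (by ring))
      intro x hx
      exact (Dv_mul hU hf hg hx).symm

theorem Bd.smul (c : ℂ) (hU : IsOpen U) (hW : ContDiff ℝ ∞ W) (hf : ContDiffOn ℝ ∞ f U)
    (h : Bd W U k B f) : Bd W U k (‖c‖ * B) (fun x => c * f x) := by
  induction k generalizing f with
  | zero =>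
    intro x hx
    rw [norm_mul]
    exact mul_le_mul_of_nonneg_left (h x hx) (norm_nonneg _)
  | succ k ih =>
    refine ⟨fun x hx => ?_, ?_⟩
    · rw [norm_mul]
      exact mul_le_mul_of_nonneg_left (h.1 x hx) (norm_nonneg _)
    · refine (ih (contDiffOn_Dv hU hW hf) h.2).congr hU ?_
      intro x hx
      simp only [Dv]
      rw [fderiv_const_mul (diffAt hU hf hx)]
      rfl

/-- the bound for the inverse. -/
noncomputable def invB (B : ℝ) : ℕ → ℝ
  | 0 => 2
  | k + 1 => 2 + 4 ^ k * (B * invB B k ^ 2)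

theorem two_le_invB (hB : 0 ≤ B) : ∀ k, 2 ≤ invB B k
  | 0 => le_rfl
  | k + 1 => by
    have : (0:ℝ) ≤ 4 ^ k * (B * invB B k ^ 2) := by positivity
    simp only [invB]; linarith

theorem contDiffOn_inv {q : E2 → ℂ} (hq : ContDiffOn ℝ ∞ q U) (h0 : ∀ x ∈ U, q x ≠ 0) :
    ContDiffOn ℝ ∞ (fun x => (q x)⁻¹) U := hq.inv h0

theorem Bd.inv {q : E2 → ℂ} (hU : IsOpen U) (hW : ContDiff ℝ ∞ W) (hq : ContDiffOn ℝ ∞ q U)
    (hB : 0 ≤ B) (h2 : ∀ x ∈ U, 1 / 2 ≤ ‖q x‖) (h : Bd W U k B q) :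
    Bd W U k (invB B k) (fun x => (q x)⁻¹) := by
  have h0 : ∀ x ∈ U, q x ≠ 0 := fun x hx e => by
    have := h2 x hx; rw [e, norm_zero] at this; norm_num at this
  have hval : ∀ x ∈ U, ‖(q x)⁻¹‖ ≤ 2 := fun x hx => by
    rw [norm_inv]
    have h3 := h2 x hx
    calc ‖q x‖⁻¹ ≤ (1 / 2 : ℝ)⁻¹ := inv_anti₀ (by norm_num) h3
      _ = 2 := by norm_num
  have hi := contDiffOn_inv hq h0
  induction k with
  | zero => exact hval
  | succ k ih =>
    have hk := ih h.pred
    have hp : (0:ℝ) ≤ invB B k := by linarith [two_le_invB hB k]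
    refine ⟨fun x hx => (hval x hx).trans (two_le_invB hB _), ?_⟩
    have e1 := Bd.mul hU hW hi hi hp hp hk hk
    have e2 := Bd.mul hU hW (contDiffOn_Dv hU hW hq) (hi.mul hi) hB
      (by positivity) h.2 e1
    have e3 := e2.smul (-1) hU hW ((contDiffOn_Dv hU hW hq).mul (hi.mul hi))
    refine (e3.congr hU ?_).mono_B ?_
    · intro x hx
      have h1 : Dv W (fun x => q x * (q x)⁻¹) x = 0 := by
        have h2 : Dv W (fun x => q x * (q x)⁻¹) x = Dv W (fun _ => 1) x :=
          Dv_congr hU (fun y hy => mul_inv_cancel₀ (h0 y hy)) x hx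
        rw [h2]; simp [Dv]
      rw [Dv_mul hU hq hi hx] at h1
      have h3 := h0 x hx
      have h4 : q x * Dv W (fun x => (q x)⁻¹) x = -(Dv W q x * (q x)⁻¹) := by
        linear_combination h1
      calc -1 * (Dv W q x * ((q x)⁻¹ * (q x)⁻¹)) = (q x)⁻¹ * -(Dv W q x * (q x)⁻¹) := by ring
        _ = (q x)⁻¹ * (q x * Dv W (fun x => (q x)⁻¹) x) := by rw [h4]
        _ = Dv W (fun x => (q x)⁻¹) x := by rw [← mul_assoc, inv_mul_cancel₀ h3, one_mul]
    · simp only [invB, norm_neg, norm_one, one_mul]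
      have : (2:ℝ) ^ k * (B * (2 ^ k * (invB B k * invB B k))) = 4 ^ k * (B * invB B k ^ 2) := by
        rw [show (4:ℝ) = 2 * 2 by norm_num, mul_pow]; ring
      rw [this]; linarith

end Crest.Agent.R138.Ker858
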