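import Crest.Agent.R138.Ker1_858

/-! Non-stationary phase along a vector field: the iteration. -/

set_option autoImplicit false

open MeasureTheory
open scoped ContDiff

namespace Crest.Agent.R138.Ker858

open Crest.Agent.R138.Defs

variable {W : E2 → E2} {U : Set E2}

/-- the divergence of `W` in the frame `b`. -/
noncomputable def dvg (b : OrthonormalBasis (Fin 2) ℝ E2) (W : E2 → E2) (x : E2) : ℂ :=
  ((∑ i, fderiv ℝ (fun x => inner ℝ (b i) (W x)) x (b i) : ℝ) : ℂ)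

theorem contDiff_comp_inner (b : OrthonormalBasis (Fin 2) ℝ E2) (hW : ContDiff ℝ ∞ W) (i : Fin 2) :
    ContDiff ℝ ∞ (fun x => inner ℝ (b i) (W x)) := contDiff_const.inner ℝ hW

theorem contDiff_dvg (b : OrthonormalBasis (Fin 2) ℝ E2) (hW : ContDiff ℝ ∞ W) :
    ContDiff ℝ ∞ (dvg b W) := by
  have h1 : ContDiff ℝ ∞ (fun x => ∑ i, fderiv ℝ (fun x => inner ℝ (b i) (W x)) x (b i)) := by
    refine ContDiff.sum fun i _ => ?_
    exact ((contDiff_comp_inner b hW i).fderiv_right (m := ∞) (by simp)).clm_apply contDiff_const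
  exact Complex.ofRealCLM.contDiff.comp h1

/-- the integral of a divergence is zero. -/
theorem ibp (b : OrthonormalBasis (Fin 2) ℝ E2) (hW : ContDiff ℝ ∞ W) {F : E2 → ℂ}
    (hF : ContDiff ℝ ∞ F) (hc : HasCompactSupport F) :
    ∫ x, (Dv W F x + dvg b W x * F x) = 0 := by
  have hdF : ContDiff ℝ ∞ (fderiv ℝ F) := hF.fderiv_right (by simp)
  have hcd : HasCompactSupport (fderiv ℝ F) := hc.fderiv ℝ
  have hw : ∀ i, ContDiff ℝ ∞ (fun x => inner ℝ (b i) (W x)) := contDiff_comp_inner b hW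
  have hdw : ∀ i, ContDiff ℝ ∞ (fderiv ℝ (fun x => inner ℝ (b i) (W x))) := fun i =>
    (hw i).fderiv_right (by simp)
  have c1 : ∀ i, Continuous fun x => fderiv ℝ (fun x => inner ℝ (b i) (W x)) x (b i) := fun i =>
    ((hdw i).clm_apply contDiff_const).continuous
  have c2 : ∀ i, Continuous fun x => fderiv ℝ F x (b i) := fun i =>
    (hdF.clm_apply contDiff_const).continuous
  have s2 : ∀ i, HasCompactSupport fun x => fderiv ℝ F x (b i) := fun i =>
    hcd.mono' (fun x hx => by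
      by_contra h
      exact hx (by simp [image_eq_zero_of_notMem_tsupport h]))
  have I1 : ∀ i, Integrable (fun x =>
      fderiv ℝ (fun x => inner ℝ (b i) (W x)) x (b i) • F x) := fun i =>
    ((c1 i).smul hF.continuous).integrable_of_hasCompactSupport (hc.smul_left)
  have I2 : ∀ i, Integrable (fun x => (inner ℝ (b i) (W x) : ℝ) • fderiv ℝ F x (b i)) := fun i =>
    ((hw i).continuous.smul (c2 i)).integrable_of_hasCompactSupport ((s2 i).smul_left)
  have I3 : ∀ i, Integrable (fun x => (inner ℝ (b i) (W x) : ℝ) • F x) := fun i =>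
    ((hw i).continuous.smul hF.continuous).integrable_of_hasCompactSupport (hc.smul_left)
  have key : ∀ i, ∫ x, (inner ℝ (b i) (W x) : ℝ) • fderiv ℝ F x (b i) =
      - ∫ x, fderiv ℝ (fun x => inner ℝ (b i) (W x)) x (b i) • F x := fun i =>
    integral_smul_fderiv_eq_neg_fderiv_smul_of_integrable (I1 i) (I2 i) (I3 i)
      (fun x _ => (hw i).differentiable (by simp) x) (fun x _ => hF.differentiable (by simp) x)
  have e : ∀ x, Dv W F x + dvg b W x * F x =
      ∑ i, ((inner ℝ (b i) (W x) : ℝ) • fderiv ℝ F x (b i) +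
        fderiv ℝ (fun x => inner ℝ (b i) (W x)) x (b i) • F x) := by
    intro x
    rw [Finset.sum_add_distrib]
    congr 1
    · conv_lhs => rw [Dv, ← b.sum_repr' (W x)]
      simp only [map_sum, map_smul]
    · rw [dvg, Complex.ofReal_sum, Finset.sum_mul]
      rfl
  simp_rw [e]
  have I4 : ∀ i, Integrable (fun x => (inner ℝ (b i) (W x) : ℝ) • fderiv ℝ F x (b i) +
      fderiv ℝ (fun x => inner ℝ (b i) (W x)) x (b i) • F x) := fun i => (I2 i).add (I1 i)
  rw [integral_finsetSum _ (fun i _ => I4 i)]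
  refine Finset.sum_eq_zero fun i _ => ?_
  rw [integral_add (I2 i) (I1 i), key i]; ring

/-- `ee ∘ Φ`. -/
theorem hasFDerivAt_ee {Φ : E2 → ℝ} {L : E2 →L[ℝ] ℝ} {x : E2} (h : HasFDerivAt Φ L x) :
    HasFDerivAt (fun x => ee (Φ x))
      ((2 * Real.pi * Complex.I * ee (Φ x)) • (Complex.ofRealCLM.comp L)) x := by
  have h1 : HasDerivAt ee (2 * Real.pi * Complex.I * ee (Φ x)) (Φ x) := by
    have h2 : HasDerivAt (fun t : ℝ => ((2 * Real.pi * t : ℝ) : ℂ) * Complex.I)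
        (2 * Real.pi * Complex.I) (Φ x) := by
      have h3 : HasDerivAt (fun t : ℝ => ((2 * Real.pi * t : ℝ) : ℂ)) ((2 * Real.pi : ℝ) : ℂ)
          (Φ x) := by
        have := ((hasDerivAt_id (Φ x)).const_mul (2 * Real.pi)).ofReal_comp
        simpa using this
      simpa using h3.mul_const Complex.I
    exact (h2.cexp).congr_deriv (by simp only [ee]; ring)
  have h5 := h1.hasFDerivAt.comp x h
  refine h5.congr_fderiv ?_
  ext v
  simp [mul_comm, mul_assoc]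

theorem contDiff_ee {Φ : E2 → ℝ} (h : ContDiff ℝ ∞ Φ) : ContDiff ℝ ∞ (fun x => ee (Φ x)) := by
  unfold ee
  have h1 : ContDiff ℝ ∞ (fun x => ((2 * Real.pi * Φ x : ℝ) : ℂ)) :=
    Complex.ofRealCLM.contDiff.comp (contDiff_const.mul h)
  exact (h1.mul contDiff_const).cexp

theorem norm_ee (t : ℝ) : ‖ee t‖ = 1 := by
  rw [ee, Complex.norm_exp_ofReal_mul_I]

theorem contDiff_quot {u q : E2 → ℂ} (hU : IsOpen U) (hu : ContDiff ℝ ∞ u)
    (hq : ContDiffOn ℝ ∞ q U) (h0 : ∀ x ∈ U, q x ≠ 0) (hs : tsupport u ⊆ U) :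
    ContDiff ℝ ∞ (fun x => u x * (q x)⁻¹) := by
  rw [contDiff_iff_contDiffAt]
  intro x
  by_cases hx : x ∈ U
  · exact (hu.contDiffAt).mul ((hq.inv h0).contDiffAt (hU.mem_nhds hx))
  · have hx' : x ∉ tsupport u := fun h => hx (hs h)
    have h1 : (fun x => u x * (q x)⁻¹) =ᶠ[nhds x] fun _ => 0 := by
      filter_upwards [(isClosed_tsupport u).isOpen_compl.mem_nhds hx'] with y hy
      rw [image_eq_zero_of_notMem_tsupport hy, zero_mul]
    exact contDiffAt_const.congr_of_eventuallyEq h1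

/-- the transposed operator of non-stationary phase. -/
noncomputable def Lop (b : OrthonormalBasis (Fin 2) ℝ E2) (W : E2 → E2) (q u : E2 → ℂ)
    (x : E2) : ℂ :=
  -(2 * Real.pi * Complex.I)⁻¹ *
    (Dv W (fun x => u x * (q x)⁻¹) x + dvg b W x * (u x * (q x)⁻¹))

theorem tsupport_Lop (b : OrthonormalBasis (Fin 2) ℝ E2) (W : E2 → E2) (q u : E2 → ℂ) :
    tsupport (Lop b W q u) ⊆ tsupport u := by
  refine closure_minimal ?_ (isClosed_tsupport u)
  intro x hx
  by_contra hx'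
  apply hx
  have h1 : (fun x => u x * (q x)⁻¹) =ᶠ[nhds x] fun _ => 0 := by
    filter_upwards [(isClosed_tsupport u).isOpen_compl.mem_nhds hx'] with y hy
    rw [image_eq_zero_of_notMem_tsupport hy, zero_mul]
  have h2 : Dv W (fun x => u x * (q x)⁻¹) x = 0 := by
    rw [Dv, h1.fderiv_eq]; simp
  rw [Lop, h2, image_eq_zero_of_notMem_tsupport hx']
  simp

theorem contDiff_Lop (b : OrthonormalBasis (Fin 2) ℝ E2) {u q : E2 → ℂ} (hW : ContDiff ℝ ∞ W)
    (hU : IsOpen U) (hu : ContDiff ℝ ∞ u) (hq : ContDiffOn ℝ ∞ q U) (h0 : ∀ x ∈ U, q x ≠ 0)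
    (hs : tsupport u ⊆ U) : ContDiff ℝ ∞ (Lop b W q u) := by
  have h1 := contDiff_quot hU hu hq h0 hs
  have h2 : ContDiff ℝ ∞ (Dv W (fun x => u x * (q x)⁻¹)) :=
    (h1.fderiv_right (m := ∞) (by simp)).clm_apply hW
  exact contDiff_const.mul (h2.add ((contDiff_dvg b hW).mul h1))

/-- one step of non-stationary phase. -/
theorem step (b : OrthonormalBasis (Fin 2) ℝ E2) {u q : E2 → ℂ} {Φ : E2 → ℝ} {Λ : ℝ}
    (hW : ContDiff ℝ ∞ W) (hU : IsOpen U) (hu : ContDiff ℝ ∞ u) (hc : HasCompactSupport u)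
    (hq : ContDiffOn ℝ ∞ q U) (h0 : ∀ x ∈ U, q x ≠ 0) (hs : tsupport u ⊆ U)
    (hΦ : ContDiff ℝ ∞ Φ) (hΛ : Λ ≠ 0) (hD : ∀ x ∈ U, ((fderiv ℝ Φ x (W x) : ℝ) : ℂ) = Λ * q x) :
    ∫ x, u x * ee (Φ x) = (Λ : ℂ)⁻¹ * ∫ x, Lop b W q u x * ee (Φ x) := by
  have h1 := contDiff_quot hU hu hq h0 hs
  have hcq : HasCompactSupport (fun x => u x * (q x)⁻¹) := hc.mul_right
  have hF : ContDiff ℝ ∞ (fun x => (u x * (q x)⁻¹) * ee (Φ x)) := h1.mul (contDiff_ee hΦ)
  have hcF : HasCompactSupport (fun x => (u x * (q x)⁻¹) * ee (Φ x)) := hcq.mul_right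
  have h2 := ibp b hW hF hcF
  have h3 : ∀ x, Dv W (fun x => (u x * (q x)⁻¹) * ee (Φ x)) x +
      dvg b W x * ((u x * (q x)⁻¹) * ee (Φ x)) =
      (2 * Real.pi * Complex.I * Λ) * (u x * ee (Φ x)) -
        (2 * Real.pi * Complex.I) * (Lop b W q u x * ee (Φ x)) := by
    intro x
    have hpi : (2 * Real.pi * Complex.I : ℂ) ≠ 0 := by
      simp [Real.pi_ne_zero, Complex.I_ne_zero]
    have d1 : HasFDerivAt (fun x => u x * (q x)⁻¹) (fderiv ℝ (fun x => u x * (q x)⁻¹) x) x :=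
      (h1.differentiable (by simp) x).hasFDerivAt
    have d2 : HasFDerivAt Φ (fderiv ℝ Φ x) x := (hΦ.differentiable (by simp) x).hasFDerivAt
    have d3 := (d1.mul (hasFDerivAt_ee d2)).fderiv
    have e1 : Dv W (fun x => (u x * (q x)⁻¹) * ee (Φ x)) x =
        (u x * (q x)⁻¹) * (2 * Real.pi * Complex.I * ee (Φ x) * (fderiv ℝ Φ x (W x) : ℝ)) +
          Dv W (fun x => u x * (q x)⁻¹) x * ee (Φ x) := by
      simp only [Dv]
      have : fderiv ℝ (fun x => (u x * (q x)⁻¹) * ee (Φ x)) x =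
        fderiv ℝ ((fun x => u x * (q x)⁻¹) * fun x => ee (Φ x)) x := rfl
      rw [this, d3]
      simp
      ring
    have e2 : (u x * (q x)⁻¹) * ((fderiv ℝ Φ x (W x) : ℝ) : ℂ) = Λ * u x := by
      by_cases hx : x ∈ U
      · rw [hD x hx]
        have := h0 x hx
        field_simp
      · rw [image_eq_zero_of_notMem_tsupport (fun h => hx (hs h))]; ring
    have e3 : (2 * Real.pi * Complex.I) * (Lop b W q u x * ee (Φ x)) =
        -(Dv W (fun x => u x * (q x)⁻¹) x + dvg b W x * (u x * (q x)⁻¹)) * ee (Φ x) := by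
      rw [Lop]
      field_simp
    rw [e1, e3]
    linear_combination (2 * Real.pi * Complex.I * ee (Φ x)) * e2
  simp_rw [h3] at h2
  have hL := contDiff_Lop b hW hU hu hq h0 hs
  have hcL : HasCompactSupport (Lop b W q u) :=
    hc.mono' (subset_closure.trans (tsupport_Lop b W q u))
  have J1 : Integrable (fun x => u x * ee (Φ x)) :=
    (hu.continuous.mul (contDiff_ee hΦ).continuous).integrable_of_hasCompactSupport hc.mul_right
  have J2 : Integrable (fun x => Lop b W q u x * ee (Φ x)) :=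
    (hL.continuous.mul (contDiff_ee hΦ).continuous).integrable_of_hasCompactSupport hcL.mul_right
  rw [integral_sub (J1.const_mul _) (J2.const_mul _), integral_const_mul, integral_const_mul] at h2
  have hpi : (2 * Real.pi * Complex.I : ℂ) ≠ 0 := by
    simp [Real.pi_ne_zero, Complex.I_ne_zero]
  have hΛ' : (Λ : ℂ) ≠ 0 := by exact_mod_cast hΛ
  have h4 : (Λ : ℂ) * ∫ x, u x * ee (Φ x) = ∫ x, Lop b W q u x * ee (Φ x) := by
    have h5 : (2 * Real.pi * Complex.I : ℂ) * ((Λ : ℂ) * ∫ x, u x * ee (Φ x)) =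
        (2 * Real.pi * Complex.I) * ∫ x, Lop b W q u x * ee (Φ x) := by
      linear_combination h2
    exact mul_left_cancel₀ hpi h5
  rw [← h4, inv_mul_cancel_left₀ hΛ']

/-- bounds for the operator. -/
theorem Bd_Lop (b : OrthonormalBasis (Fin 2) ℝ E2) {u q : E2 → ℂ} {k : ℕ} {Bu Bq Bw : ℝ}
    (hW : ContDiff ℝ ∞ W) (hU : IsOpen U) (hu : ContDiff ℝ ∞ u) (hq : ContDiffOn ℝ ∞ q U)
    (h2 : ∀ x ∈ U, 1 / 2 ≤ ‖q x‖) (hs : tsupport u ⊆ U) (hBu : 0 ≤ Bu) (hBq : 0 ≤ Bq)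
    (hBw : 0 ≤ Bw) (bu : Bd W U (k + 1) Bu u) (bq : Bd W U (k + 1) Bq q)
    (bw : Bd W U k Bw (dvg b W)) :
    Bd W U k (2 ^ (k + 1) * (Bu * invB Bq (k + 1)) +
      2 ^ k * (Bw * (2 ^ (k + 1) * (Bu * invB Bq (k + 1))))) (Lop b W q u) := by
  have h0 : ∀ x ∈ U, q x ≠ 0 := fun x hx e => by
    have := h2 x hx; rw [e, norm_zero] at this; norm_num at this
  have hp : (0:ℝ) ≤ invB Bq (k + 1) := by linarith [two_le_invB hBq (k + 1)]
  have h1 := contDiff_quot hU hu hq h0 hs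
  have e1 := Bd.mul hU hW hu.contDiffOn (hq.inv h0) hBu hp bu (Bd.inv hU hW hq hBq h2 bq)
  have e2 := Bd.mul hU hW (contDiff_dvg b hW).contDiffOn h1.contDiffOn hBw (by positivity) bw
    e1.pred
  have c2 : ContDiff ℝ ∞ (Dv W (fun x => u x * (q x)⁻¹)) :=
    (h1.fderiv_right (m := ∞) (by simp)).clm_apply hW
  have e3 := Bd.add hU hW c2.contDiffOn ((contDiff_dvg b hW).mul h1).contDiffOn e1.2 e2
  have e4 := e3.smul (-(2 * Real.pi * Complex.I)⁻¹) hU hW
    (c2.add ((contDiff_dvg b hW).mul h1)).contDiffOn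
  refine e4.mono_B ?_
  have h5 : ‖(-(2 * Real.pi * Complex.I)⁻¹ : ℂ)‖ ≤ 1 := by
    rw [norm_neg, norm_inv, norm_mul, norm_mul, Complex.norm_I, mul_one]
    have : (1:ℝ) ≤ ‖(2:ℂ)‖ * ‖(Real.pi : ℂ)‖ := by
      rw [Complex.norm_real, Real.norm_eq_abs, abs_of_pos Real.pi_pos]
      have := Real.pi_gt_three
      norm_num
      linarith
    exact inv_le_one_of_one_le₀ this
  refine mul_le_of_le_one_left ?_ h5
  positivity

/-- **Non-stationary phase along a vector field**, uniform. -/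
theorem nsp (Bq Bw : ℝ) (hBq : 0 ≤ Bq) (hBw : 0 ≤ Bw) (N : ℕ) : ∀ Bu : ℝ, 0 ≤ Bu →
    ∃ C : ℝ, 0 ≤ C ∧ ∀ (b : OrthonormalBasis (Fin 2) ℝ E2) (W : E2 → E2) (U : Set E2)
      (Φ : E2 → ℝ) (q u : E2 → ℂ) (Λ : ℝ), ContDiff ℝ ∞ W → IsOpen U → volume U ≠ ⊤ →
      ContDiff ℝ ∞ Φ → ContDiffOn ℝ ∞ q U → (∀ x ∈ U, 1 / 2 ≤ ‖q x‖) → Λ ≠ 0 →
      (∀ x ∈ U, ((fderiv ℝ Φ x (W x) : ℝ) : ℂ) = Λ * q x) → ContDiff ℝ ∞ u →
      HasCompactSupport u → tsupport u ⊆ U → Bd W U N Bu u → Bd W U N Bq q →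
      Bd W U N Bw (dvg b W) →
      ‖∫ x, u x * ee (Φ x)‖ ≤ C * (|Λ| ^ N)⁻¹ * (volume U).toReal := by
  induction N with
  | zero =>
    intro Bu hBu
    refine ⟨Bu, hBu, ?_⟩
    intro b W U Φ q u Λ hW hU hvol hΦ hq h2 hΛ hD hu hc hs bu bq bw
    have h1 : ‖∫ x, u x * ee (Φ x)‖ ≤ ∫ x in U, ‖u x * ee (Φ x)‖ := by
      rw [← setIntegral_eq_integral_of_forall_compl_eq_zero (s := U)]
      · exact norm_integral_le_integral_norm _
      · intro x hx
        rw [image_eq_zero_of_notMem_tsupport (fun h => hx (hs h)), zero_mul]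
    have h3 : ∫ x in U, ‖u x * ee (Φ x)‖ ≤ ∫ _ in U, Bu := by
      refine setIntegral_mono_on ?_ (by simp [integrableOn_const_iff, hvol.lt_top]) hU.measurableSet ?_
      · exact (((hu.continuous.mul (contDiff_ee hΦ).continuous).integrable_of_hasCompactSupport
          hc.mul_right).norm).integrableOn
      · intro x hx
        rw [norm_mul, norm_ee, mul_one]
        exact bu x hx
    rw [setIntegral_const, smul_eq_mul, mul_comm] at h3
    refine h1.trans (h3.trans (le_of_eq ?_))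
    simp [Measure.real]
  | succ N ih =>
    intro Bu hBu
    have hp : (0:ℝ) ≤ invB Bq (N + 1) := by linarith [two_le_invB hBq (N + 1)]
    obtain ⟨C, hC, H⟩ := ih (2 ^ (N + 1) * (Bu * invB Bq (N + 1)) +
      2 ^ N * (Bw * (2 ^ (N + 1) * (Bu * invB Bq (N + 1))))) (by positivity)
    refine ⟨C, hC, ?_⟩
    intro b W U Φ q u Λ hW hU hvol hΦ hq h2 hΛ hD hu hc hs bu bq bw
    have h0 : ∀ x ∈ U, q x ≠ 0 := fun x hx e => by
      have := h2 x hx; rw [e, norm_zero] at this; norm_num at this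
    rw [step b hW hU hu hc hq h0 hs hΦ hΛ hD, norm_mul]
    have h3 := H b W U Φ q (Lop b W q u) Λ hW hU hvol hΦ hq h2 hΛ hD
      (contDiff_Lop b hW hU hu hq h0 hs)
      (hc.mono' (subset_closure.trans (tsupport_Lop b W q u)))
      ((tsupport_Lop b W q u).trans hs)
      (Bd_Lop b hW hU hu hq h2 hs hBu hBq hBw bu bq bw.pred) bq.pred bw.pred
    have h4 : ‖((Λ : ℂ))⁻¹‖ = |Λ|⁻¹ := by
      rw [norm_inv, Complex.norm_real, Real.norm_eq_abs]
    rw [h4]
    calc |Λ|⁻¹ * ‖∫ x, Lop b W q u x * ee (Φ x)‖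
        ≤ |Λ|⁻¹ * (C * (|Λ| ^ N)⁻¹ * (volume U).toReal) :=
          mul_le_mul_of_nonneg_left h3 (by positivity)
      _ = C * (|Λ| ^ (N + 1))⁻¹ * (volume U).toReal := by
          rw [pow_succ, mul_inv]; ring

end Crest.Agent.R138.Ker858
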