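import Crest.Agent.R138.Ker2_858

/-! Bounds along the two fields used for the kernel: `s • (b j + κ • b i)`. -/

set_option autoImplicit false

open MeasureTheory
open scoped ContDiff

namespace Crest.Agent.R138.Ker858

open Crest.Agent.R138.Defs

/-- partial derivative in the frame. -/
noncomputable def par {F : Type*} [NormedAddCommGroup F] [NormedSpace ℝ F]
    (b : OrthonormalBasis (Fin 2) ℝ E2) (a : Fin 2) (f : E2 → F) (ξ : E2) : F :=
  fderiv ℝ f ξ (b a)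

section
variable {F : Type*} [NormedAddCommGroup F] [NormedSpace ℝ F]
  {b : OrthonormalBasis (Fin 2) ℝ E2} {f : E2 → F}

theorem contDiff_par (hf : ContDiff ℝ ∞ f) (a : Fin 2) : ContDiff ℝ ∞ (par b a f) :=
  (hf.fderiv_right (m := ∞) (by simp)).clm_apply contDiff_const

theorem norm_iteratedFDeriv_par (hf : ContDiff ℝ ∞ f) (a : Fin 2) (m : ℕ) (ξ : E2) :
    ‖iteratedFDeriv ℝ m (par b a f) ξ‖ ≤ ‖iteratedFDeriv ℝ (m + 1) f ξ‖ := by
  have h1 : ContDiff ℝ ∞ (fderiv ℝ f) := hf.fderiv_right (by simp)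
  have h2 : ‖iteratedFDeriv ℝ m (par b a f) ξ‖ ≤ ‖b a‖ * ‖iteratedFDeriv ℝ m (fderiv ℝ f) ξ‖ :=
    norm_iteratedFDeriv_clm_apply_const (h1.contDiffAt) (by exact_mod_cast le_top)
  rw [norm_iteratedFDeriv_fderiv, b.norm_eq_one, one_mul] at h2
  exact h2

end

/-- iterated bound for general functions. -/
noncomputable def gB (B : ℝ) : ℕ → ℝ
  | 0 => 1
  | k + 1 => (1 + 2 ^ k * B) * gB B k

theorem one_le_gB {B : ℝ} (hB : 0 ≤ B) : ∀ k, 1 ≤ gB B k
  | 0 => le_rfl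
  | k + 1 => by
    have h1 := one_le_gB hB k
    have h2 : (0:ℝ) ≤ 2 ^ k * B := by positivity
    simp only [gB]
    nlinarith

/-- the field `s • (b j + κ • b i)`. -/
noncomputable def fld (b : OrthonormalBasis (Fin 2) ℝ E2) (i j : Fin 2) (s : ℝ) (κ : E2 → ℝ)
    (ξ : E2) : E2 := s • (b j + κ ξ • b i)

theorem contDiff_fld {b : OrthonormalBasis (Fin 2) ℝ E2} {i j : Fin 2} {s : ℝ} {κ : E2 → ℝ}
    (hκ : ContDiff ℝ ∞ κ) : ContDiff ℝ ∞ (fld b i j s κ) := by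
  have h1 : ContDiff ℝ ∞ (fun ξ => κ ξ • b i) := hκ.smul contDiff_const
  have h2 : ContDiff ℝ ∞ (fun ξ => b j + κ ξ • b i) := contDiff_const.add h1
  exact h2.const_smul s

theorem fderiv_fld {F : Type*} [NormedAddCommGroup F] [NormedSpace ℝ F]
    (b : OrthonormalBasis (Fin 2) ℝ E2) (i j : Fin 2) (s : ℝ) (κ : E2 → ℝ) (f : E2 → F) (ξ : E2) :
    fderiv ℝ f ξ (fld b i j s κ ξ) = s • (par b j f ξ + κ ξ • par b i f ξ) := by
  simp [fld, par]

variable {U : Set E2}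

theorem Bd_gen (b : OrthonormalBasis (Fin 2) ℝ E2) (i j : Fin 2) {s : ℝ} (hs0 : 0 ≤ s)
    (hs : s ≤ 1) {κ : E2 → ℝ} (hκ : ContDiff ℝ ∞ κ) (hU : IsOpen U) {Bκ : ℝ} (hB : 0 ≤ Bκ) {k : ℕ}
    (bκ : Bd (fld b i j s κ) U k Bκ (fun ξ => (κ ξ : ℂ))) :
    ∀ l ≤ k + 1, ∀ f : E2 → ℂ, ContDiff ℝ ∞ f → ∀ A : ℝ, 0 ≤ A →
      (∀ m ≤ l, ∀ x ∈ U, ‖iteratedFDeriv ℝ m f x‖ ≤ A) →
      Bd (fld b i j s κ) U l (gB Bκ l * A) f := by
  intro l
  induction l with
  | zero =>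
    intro _ f hf A hA hb x hx
    have := hb 0 le_rfl x hx
    rw [norm_iteratedFDeriv_zero] at this
    simpa [gB] using this
  | succ l ih =>
    intro hl f hf A hA hb
    have hW := contDiff_fld (b := b) (i := i) (j := j) (s := s) hκ
    have h1 : (0:ℝ) ≤ gB Bκ l := zero_le_one.trans (one_le_gB hB l)
    have hκC : ContDiff ℝ ∞ (fun ξ => (κ ξ : ℂ)) := Complex.ofRealCLM.contDiff.comp hκ
    refine ⟨fun x hx => ?_, ?_⟩
    · have := hb 0 (Nat.zero_le _) x hx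
      rw [norm_iteratedFDeriv_zero] at this
      exact this.trans (le_mul_of_one_le_left hA (one_le_gB hB _))
    · have hj := ih (by omega) (par b j f) (contDiff_par hf j) A hA (fun m hm x hx =>
        (norm_iteratedFDeriv_par hf j m x).trans (hb (m + 1) (by omega) x hx))
      have hi := ih (by omega) (par b i f) (contDiff_par hf i) A hA (fun m hm x hx =>
        (norm_iteratedFDeriv_par hf i m x).trans (hb (m + 1) (by omega) x hx))
      have e1 := Bd.mul hU hW hκC.contDiffOn (contDiff_par hf i).contDiffOn hB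
        (mul_nonneg h1 hA) (bκ.mono_k (by omega)) hi
      have e2 := Bd.add hU hW (contDiff_par hf j).contDiffOn
        (hκC.mul (contDiff_par hf i)).contDiffOn hj e1
      have e3 := e2.smul (s : ℂ) hU hW
        ((contDiff_par hf j).add (hκC.mul (contDiff_par hf i))).contDiffOn
      refine (e3.congr hU ?_).mono_B ?_
      · intro x hx
        rw [Dv, fderiv_fld]
        simp only [Complex.real_smul]
      · have h3 : ‖(s : ℂ)‖ ≤ 1 := by
          rw [Complex.norm_real, Real.norm_eq_abs, abs_of_nonneg hs0]; exact hs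
        refine (mul_le_of_le_one_left (by positivity) h3).trans (le_of_eq ?_)
        simp only [gB]; ring

theorem norm_iteratedFDeriv_ofReal {f : E2 → ℝ} (hf : ContDiff ℝ ∞ f) (m : ℕ) (x : E2) :
    ‖iteratedFDeriv ℝ m (fun ξ => (f ξ : ℂ)) x‖ = ‖iteratedFDeriv ℝ m f x‖ :=
  Complex.ofRealLI.norm_iteratedFDeriv_comp_left (hf.contDiffAt) (by exact_mod_cast le_top)

/-- the shear. -/
noncomputable def kap (b : OrthonormalBasis (Fin 2) ℝ E2) (i j : Fin 2) (p : E2 → ℝ) (ξ : E2) : ℝ :=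
  -(par b j (par b i p) ξ * (1 + par b i (par b i p) ξ)⁻¹)

/-- hypotheses on the perturbation `p = h - |.|²/2`. -/
structure Pert (B : ℝ) (K : ℕ) (p : E2 → ℝ) : Prop where
  smooth : ContDiff ℝ ∞ p
  two : ∀ ξ, ‖iteratedFDeriv ℝ 2 p ξ‖ ≤ 1 / 16
  high : ∀ k, 2 ≤ k → k ≤ K → ∀ ξ, ‖iteratedFDeriv ℝ k p ξ‖ ≤ B

section
variable {B : ℝ} {K : ℕ} {p : E2 → ℝ} {b : OrthonormalBasis (Fin 2) ℝ E2}

theorem Pert.norm_le (hp : Pert B K p) (a a' : Fin 2) (m : ℕ) (ξ : E2) :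
    ‖iteratedFDeriv ℝ m (par b a' (par b a p)) ξ‖ ≤ ‖iteratedFDeriv ℝ (m + 2) p ξ‖ :=
  (norm_iteratedFDeriv_par (contDiff_par hp.smooth a) a' m ξ).trans
    (norm_iteratedFDeriv_par hp.smooth a (m + 1) ξ)

theorem Pert.abs_le (hp : Pert B K p) (a a' : Fin 2) (ξ : E2) :
    |par b a' (par b a p) ξ| ≤ 1 / 16 := by
  have h1 := hp.norm_le (b := b) a a' 0 ξ
  rw [norm_iteratedFDeriv_zero, Real.norm_eq_abs] at h1
  exact h1.trans (hp.two ξ)

theorem Pert.contDiff2 (hp : Pert B K p) (a a' : Fin 2) :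
    ContDiff ℝ ∞ (par b a' (par b a p)) := contDiff_par (contDiff_par hp.smooth a) a'

theorem Pert.one_add_ge (hp : Pert B K p) (a a' : Fin 2) (ξ : E2) :
    15 / 16 ≤ 1 + par b a' (par b a p) ξ := by
  have := _root_.abs_le.1 (hp.abs_le (b := b) a a' ξ)
  linarith [this.1]

theorem Pert.contDiff_kap (hp : Pert B K p) (i j : Fin 2) : ContDiff ℝ ∞ (kap b i j p) := by
  unfold kap
  refine ((hp.contDiff2 i j).mul ((contDiff_const.add (hp.contDiff2 i i)).inv ?_)).neg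
  intro ξ
  have := hp.one_add_ge (b := b) i i ξ
  linarith

theorem Pert.kap_le (hp : Pert B K p) (i j : Fin 2) (ξ : E2) : |kap b i j p ξ| ≤ 1 / 8 := by
  have h1 := hp.one_add_ge (b := b) i i ξ
  have h2 := hp.abs_le (b := b) i j ξ
  rw [kap, abs_neg, abs_mul, abs_inv, abs_of_pos (by linarith : (0:ℝ) < 1 + par b i (par b i p) ξ)]
  have h3 : (1 + par b i (par b i p) ξ)⁻¹ ≤ (15 / 16)⁻¹ := inv_anti₀ (by norm_num) h1
  calc |par b j (par b i p) ξ| * (1 + par b i (par b i p) ξ)⁻¹ ≤ 1 / 16 * (15 / 16)⁻¹ :=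
        mul_le_mul h2 h3 (by positivity) (by norm_num)
    _ ≤ 1 / 8 := by norm_num

end

/-- bound of the second derivatives, assuming a bound on `κ` one order below. -/
theorem Bd_second {B : ℝ} (hB : 0 ≤ B) {K : ℕ} {p : E2 → ℝ} (hp : Pert B K p)
    (b : OrthonormalBasis (Fin 2) ℝ E2) (i j : Fin 2) {s : ℝ} (hs0 : 0 ≤ s)
    (hs : s ≤ 1) {κ : E2 → ℝ} (hκ : ContDiff ℝ ∞ κ) (hU : IsOpen U) {Bκ : ℝ} (hBκ : 0 ≤ Bκ) {k : ℕ}
    (hk : k + 3 ≤ K)
    (bκ : Bd (fld b i j s κ) U k Bκ (fun ξ => (κ ξ : ℂ))) (a a' : Fin 2) :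
    Bd (fld b i j s κ) U (k + 1) (gB Bκ (k + 1) * B)
      (fun ξ => ((par b a' (par b a p) ξ : ℝ) : ℂ)) := by
  refine Bd_gen b i j hs0 hs hκ hU hBκ bκ (k + 1) le_rfl _
    (Complex.ofRealCLM.contDiff.comp (hp.contDiff2 a a')) B hB ?_
  intro m hm x hx
  have e := norm_iteratedFDeriv_ofReal (hp.contDiff2 (b := b) a a') m x
  refine (le_of_eq e).trans ?_
  exact (hp.norm_le a a' m x).trans (hp.high (m + 2) (by omega) (by omega) x)

/-- the shear has bounded derivatives along the field. -/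
theorem Bd_kap (B : ℝ) (hB : 0 ≤ B) (k : ℕ) : ∃ C : ℝ, 0 ≤ C ∧
    ∀ (K : ℕ) (_ : k + 2 ≤ K) (p : E2 → ℝ) (_ : Pert B K p)
      (b : OrthonormalBasis (Fin 2) ℝ E2) (i j : Fin 2) (s : ℝ), 0 ≤ s → s ≤ 1 →
      ∀ U : Set E2, IsOpen U →
      Bd (fld b i j s (kap b i j p)) U k C (fun ξ => ((kap b i j p ξ : ℝ) : ℂ)) := by
  induction k with
  | zero =>
    refine ⟨1 / 8, by norm_num, ?_⟩
    intro K hK p hp b i j s hs0 hs U hU x hx
    rw [Complex.norm_real]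
    exact hp.kap_le i j x
  | succ k ih =>
    obtain ⟨C, hC, H⟩ := ih
    have hG : (0:ℝ) ≤ gB C (k + 1) := zero_le_one.trans (one_le_gB hC _)
    have hI := two_le_invB (B := 1 + gB C (k + 1) * B) (by positivity) (k + 1)
    refine ⟨2 ^ (k + 1) * ((gB C (k + 1) * B) * invB (1 + gB C (k + 1) * B) (k + 1)),
      by positivity, ?_⟩
    intro K hK p hp b i j s hs0 hs U hU
    have hκ := hp.contDiff_kap (b := b) i j
    have hW := contDiff_fld (b := b) (i := i) (j := j) (s := s) hκ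
    have b0 := H K (by omega) p hp b i j s hs0 hs U hU
    have b1 := Bd_second hB hp b i j hs0 hs hκ hU hC (by omega) b0 i j
    have b2 := Bd_second hB hp b i j hs0 hs hκ hU hC (by omega) b0 i i
    have c1 : ContDiff ℝ ∞ (fun ξ => ((par b j (par b i p) ξ : ℝ) : ℂ)) :=
      Complex.ofRealCLM.contDiff.comp (hp.contDiff2 i j)
    have c2 : ContDiff ℝ ∞ (fun ξ => ((par b i (par b i p) ξ : ℝ) : ℂ)) :=
      Complex.ofRealCLM.contDiff.comp (hp.contDiff2 i i)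
    have c3 : ContDiff ℝ ∞ (fun ξ => (1:ℂ) + ((par b i (par b i p) ξ : ℝ) : ℂ)) :=
      contDiff_const.add c2
    have b3 : Bd (fld b i j s (kap b i j p)) U (k + 1) (1 + gB C (k + 1) * B)
        (fun ξ => (1:ℂ) + ((par b i (par b i p) ξ : ℝ) : ℂ)) :=
      Bd.add hU hW contDiff_const.contDiffOn c2.contDiffOn (Bd.const 1 (by simp)) b2
    have hn : ∀ ξ : E2, 1 / 2 ≤ ‖(1:ℂ) + ((par b i (par b i p) ξ : ℝ) : ℂ)‖ := by
      intro ξ
      have h1 := hp.one_add_ge (b := b) i i ξ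
      have h2 : (1:ℂ) + ((par b i (par b i p) ξ : ℝ) : ℂ) =
        ((1 + par b i (par b i p) ξ : ℝ) : ℂ) := by push_cast; ring
      rw [h2, Complex.norm_real, Real.norm_eq_abs]
      exact le_trans (by linarith) (le_abs_self _)
    have hn0 : ∀ ξ : E2, (1:ℂ) + ((par b i (par b i p) ξ : ℝ) : ℂ) ≠ 0 := fun ξ e => by
      have := hn ξ; rw [e, norm_zero] at this; norm_num at this
    have b4 := Bd.inv hU hW c3.contDiffOn (by positivity) (fun x _ => hn x) b3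
    have b5 := Bd.mul hU hW c1.contDiffOn (c3.inv hn0).contDiffOn (by positivity)
      (by linarith) b1 b4
    have b6 := b5.smul (-1) hU hW (c1.mul (c3.inv hn0)).contDiffOn
    refine (b6.congr hU ?_).mono_B (le_of_eq (by simp))
    intro x _
    simp only [kap, Pi.inv_apply]
    push_cast
    ring

end Crest.Agent.R138.Ker858
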