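import Crest.Agent.R138.Ker3_858

/-! Geometry of curved rectangles: area, compactness, composition with bumps. -/

set_option autoImplicit false

open MeasureTheory
open scoped ContDiff ENNReal

namespace Crest.Agent.R138.Ker858

open Crest.Agent.R138.Defs

section
variable {B : ℝ} {K : ℕ} {p h : E2 → ℝ} {b : OrthonormalBasis (Fin 2) ℝ E2}

theorem contDiff_h (hp : ContDiff ℝ ∞ p) (hh : ∀ ξ, h ξ = p ξ + ‖ξ‖ ^ 2 / 2) :
    ContDiff ℝ ∞ h := by
  have : h = fun ξ => p ξ + ‖ξ‖ ^ 2 / 2 := funext hh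
  rw [this]
  exact hp.add ((contDiff_norm_sq ℝ).div_const 2)

theorem hasFDerivAt_sq (ξ : E2) :
    HasFDerivAt (fun ξ : E2 => ‖ξ‖ ^ 2 / 2) (innerSL ℝ ξ) ξ := by
  have h1 : HasFDerivAt (fun ξ : E2 => ‖ξ‖ ^ 2) (2 • (innerSL ℝ ξ)) ξ :=
    (hasStrictFDerivAt_norm_sq ξ).hasFDerivAt
  have h2 := h1.const_mul (1 / 2 : ℝ)
  refine (h2.congr_fderiv ?_).congr_of_eventuallyEq (Filter.Eventually.of_forall fun y => ?_)
  · ext v; simp
  · simp; ring

theorem fderiv_h (hp : ContDiff ℝ ∞ p) (hh : ∀ ξ, h ξ = p ξ + ‖ξ‖ ^ 2 / 2) (ξ v : E2) :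
    fderiv ℝ h ξ v = fderiv ℝ p ξ v + inner ℝ ξ v := by
  have h1 : HasFDerivAt h (fderiv ℝ p ξ + innerSL ℝ ξ) ξ := by
    have h2 : HasFDerivAt p (fderiv ℝ p ξ) ξ := (hp.differentiable (by simp) ξ).hasFDerivAt
    refine (h2.add (hasFDerivAt_sq ξ)).congr_of_eventuallyEq
      (Filter.Eventually.of_forall fun y => hh y)
  rw [h1.fderiv]
  simp

theorem par_h (hp : ContDiff ℝ ∞ p) (hh : ∀ ξ, h ξ = p ξ + ‖ξ‖ ^ 2 / 2) (a : Fin 2) (ξ : E2) :
    par b a h ξ = par b a p ξ + inner ℝ ξ (b a) := fderiv_h hp hh ξ (b a)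

theorem gradient_h (hp : ContDiff ℝ ∞ p) (hh : ∀ ξ, h ξ = p ξ + ‖ξ‖ ^ 2 / 2) (ξ : E2) :
    gradient h ξ = gradient p ξ + ξ := by
  refine ext_inner_right ℝ fun v => ?_
  rw [inner_add_left, inner_gradient_left, inner_gradient_left, fderiv_h hp hh]

theorem Pert.lip (hp : Pert B K p) (ξ η : E2) :
    ‖gradient p ξ - gradient p η‖ ≤ 1 / 16 * ‖ξ - η‖ := by
  have h0 : ContDiff ℝ ∞ (fderiv ℝ p) := hp.smooth.fderiv_right (by simp)
  have h1 : ‖fderiv ℝ p ξ - fderiv ℝ p η‖ ≤ 1 / 16 * ‖ξ - η‖ := by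
    refine Convex.norm_image_sub_le_of_norm_fderiv_le (𝕜 := ℝ) (f := fderiv ℝ p) (s := Set.univ)
      (fun x _ => h0.differentiable (by simp) x) (fun x _ => ?_) convex_univ
      (Set.mem_univ _) (Set.mem_univ _)
    have h2 := hp.two x
    rw [← norm_iteratedFDeriv_fderiv, norm_iteratedFDeriv_one] at h2
    exact h2
  have h3 : gradient p ξ - gradient p η =
      (InnerProductSpace.toDual ℝ E2).symm (fderiv ℝ p ξ - fderiv ℝ p η) := by
    simp [gradient]
  rw [h3, LinearIsometryEquiv.norm_map]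
  exact h1

theorem Pert.antilip (hp : Pert B K p) (hh : ∀ ξ, h ξ = p ξ + ‖ξ‖ ^ 2 / 2) :
    AntilipschitzWith 2 (gradient h) := by
  refine AntilipschitzWith.of_le_mul_dist fun ξ η => ?_
  rw [dist_eq_norm, dist_eq_norm, gradient_h hp.smooth hh, gradient_h hp.smooth hh]
  have h1 := hp.lip ξ η
  have h2 : ‖ξ - η‖ ≤ ‖gradient p ξ + ξ - (gradient p η + η)‖ + ‖gradient p ξ - gradient p η‖ := by
    have : ξ - η = (gradient p ξ + ξ - (gradient p η + η)) - (gradient p ξ - gradient p η) := by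
      abel
    calc ‖ξ - η‖ = ‖(gradient p ξ + ξ - (gradient p η + η)) - (gradient p ξ - gradient p η)‖ := by
          rw [← this]
      _ ≤ _ := norm_sub_le _ _
  have h3 := norm_nonneg (ξ - η)
  push_cast
  linarith

end

/-- the rectangle in direction space. -/
def rect (c : E2) (b : OrthonormalBasis (Fin 2) ℝ E2) (s : Fin 2 → ℝ) (l : ℝ) : Set E2 :=
  {η | ∀ a, |inner ℝ (η - c) (b a)| < l * s a}

theorem volume_rect (c : E2) (b : OrthonormalBasis (Fin 2) ℝ E2) (s : Fin 2 → ℝ) (l : ℝ) :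
    volume (rect c b s l) = ∏ a, ENNReal.ofReal (2 * (l * s a)) := by
  have h1 : rect c b s l = b.repr ⁻¹' ((fun y : E2 => (fun a => y a)) ⁻¹'
      (Set.pi Set.univ fun a => Set.Ioo (inner ℝ c (b a) - l * s a) (inner ℝ c (b a) + l * s a))) := by
    ext η
    simp only [rect, Set.mem_ofPred_eq, Set.mem_preimage, Set.mem_pi, Set.mem_univ, true_implies,
      Set.mem_Ioo]
    refine forall_congr' fun a => ?_
    rw [b.repr_apply_apply, inner_sub_left, real_inner_comm (b a) η, abs_lt]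
    constructor
    · rintro ⟨h1, h2⟩; exact ⟨by linarith, by linarith⟩
    · rintro ⟨h1, h2⟩; exact ⟨by linarith, by linarith⟩
  rw [h1]
  have hm : MeasurableSet (Set.pi Set.univ fun a : Fin 2 =>
      Set.Ioo (inner ℝ c (b a) - l * s a) (inner ℝ c (b a) + l * s a)) :=
    MeasurableSet.univ_pi fun a => measurableSet_Ioo
  have h2 : MeasurePreserving (fun y : E2 => (fun a => y a)) volume volume :=
    PiLp.volume_preserving_ofLp (Fin 2)
  rw [b.measurePreserving_repr.measure_preimage ((h2.measurable hm).nullMeasurableSet),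
    h2.measure_preimage hm.nullMeasurableSet, Real.volume_pi_Ioo]
  refine Finset.prod_congr rfl fun a _ => ?_
  congr 1; ring

theorem volume_le_of_antilip {G : E2 → E2} (hG : AntilipschitzWith 2 G) (S : Set E2) :
    volume (G ⁻¹' S) ≤ 4 * volume S := by
  have h2 : (Module.finrank ℝ E2 : ℝ) = 2 := by simp
  have h1 := hG.hausdorffMeasure_preimage_le (d := (Module.finrank ℝ E2 : ℝ)) (by positivity) S
  have h3 := Measure.isAddLeftInvariant_eq_smul (volume : Measure E2) (μH[(Module.finrank ℝ E2 : ℝ)])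
  rw [h3, Measure.smul_apply, Measure.smul_apply]
  simp only [ENNReal.smul_def, smul_eq_mul]
  calc _ ≤ _ := mul_le_mul_right h1 _
    _ = _ := by
      have h5 : ((2 : NNReal) : ℝ≥0∞) ^ (Module.finrank ℝ E2 : ℝ) = 4 := by
        rw [h2]; norm_num
      rw [h5]; ring

section
variable {B : ℝ} {K : ℕ} {p h : E2 → ℝ} {b : OrthonormalBasis (Fin 2) ℝ E2}

/-- the curved rectangle. -/
def crect (h : E2 → ℝ) (c : E2) (b : OrthonormalBasis (Fin 2) ℝ E2) (s : Fin 2 → ℝ) (l : ℝ) :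
    Set E2 := gradient h ⁻¹' rect c b s l

theorem volume_crect (hp : Pert B K p) (hh : ∀ ξ, h ξ = p ξ + ‖ξ‖ ^ 2 / 2) (c : E2)
    (s : Fin 2 → ℝ) (hs : ∀ a, 0 ≤ s a) :
    volume (crect h c b s 3) ≤ ENNReal.ofReal (144 * (s 0 * s 1)) := by
  refine (volume_le_of_antilip (hp.antilip hh) _).trans ?_
  rw [volume_rect, Fin.prod_univ_two, ← ENNReal.ofReal_mul (by have := hs 0; positivity),
    show (4 : ℝ≥0∞) = ENNReal.ofReal 4 by norm_num, ← ENNReal.ofReal_mul (by norm_num)]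
  refine ENNReal.ofReal_le_ofReal (le_of_eq ?_)
  ring

theorem inner_grad (ξ c : E2) (a : Fin 2) :
    inner ℝ (gradient h ξ - c) (b a) = par b a h ξ - inner ℝ c (b a) := by
  rw [inner_sub_left, inner_gradient_left]; rfl

theorem continuous_coord (hh : ContDiff ℝ ∞ h) (c : E2) (a : Fin 2) :
    Continuous fun ξ => inner ℝ (gradient h ξ - c) (b a) := by
  simp_rw [inner_grad]
  exact ((contDiff_par hh a).continuous).sub continuous_const

theorem isOpen_crect (hh : ContDiff ℝ ∞ h) (c : E2) (s : Fin 2 → ℝ) (l : ℝ) :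
    IsOpen (crect h c b s l) := by
  have : crect h c b s l = ⋂ a, {ξ | |inner ℝ (gradient h ξ - c) (b a)| < l * s a} := by
    ext ξ; simp [crect, rect]
  rw [this]
  exact isOpen_iInter_of_finite fun a =>
    isOpen_lt ((continuous_coord hh c a).abs) continuous_const

/-- the closed support set. -/
def crectC (h : E2 → ℝ) (c : E2) (b : OrthonormalBasis (Fin 2) ℝ E2) (s : Fin 2 → ℝ) : Set E2 :=
  {ξ | ∀ a, |inner ℝ (gradient h ξ - c) (b a)| ≤ 2 * s a}

theorem isClosed_crectC (hh : ContDiff ℝ ∞ h) (c : E2) (s : Fin 2 → ℝ) :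
    IsClosed (crectC h c b s) := by
  have : crectC h c b s = ⋂ a, {ξ | |inner ℝ (gradient h ξ - c) (b a)| ≤ 2 * s a} := by
    ext ξ; simp [crectC]
  rw [this]
  exact isClosed_iInter fun a => isClosed_le ((continuous_coord hh c a).abs) continuous_const

theorem crectC_subset (c : E2) (s : Fin 2 → ℝ) (hs : ∀ a, 0 < s a) :
    crectC h c b s ⊆ crect h c b s 3 := by
  intro ξ hξ a
  have := hξ a
  have := hs a
  linarith

theorem isCompact_crectC (hp : Pert B K p) (hh : ∀ ξ, h ξ = p ξ + ‖ξ‖ ^ 2 / 2) (c : E2)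
    (s : Fin 2 → ℝ) (hs : ∀ a, 0 < s a) : IsCompact (crectC h c b s) := by
  refine Metric.isCompact_of_isClosed_isBounded
    (isClosed_crectC (contDiff_h hp.smooth hh) c s) ?_
  have h1 : Bornology.IsBounded (Metric.closedBall c (3 * s 0 + 3 * s 1)) :=
    Metric.isBounded_closedBall
  refine ((hp.antilip hh).isBounded_preimage h1).subset ?_
  intro ξ hξ
  have h2 := crectC_subset c s hs hξ
  rw [Set.mem_preimage, Metric.mem_closedBall, dist_eq_norm, ← b.sum_repr (gradient h ξ - c),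
    Fin.sum_univ_two]
  refine (norm_add_le _ _).trans (add_le_add ?_ ?_)
  · rw [norm_smul, b.norm_eq_one, mul_one, b.repr_apply_apply, real_inner_comm]
    exact (h2 0).le
  · rw [norm_smul, b.norm_eq_one, mul_one, b.repr_apply_apply, real_inner_comm]
    exact (h2 1).le

/-- the scaled coordinates. -/
noncomputable def yc (h : E2 → ℝ) (c : E2) (b : OrthonormalBasis (Fin 2) ℝ E2) (s : Fin 2 → ℝ)
    (a : Fin 2) (ξ : E2) : ℝ := inner ℝ (gradient h ξ - c) (b a) / s a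

theorem contDiff_yc (hh : ContDiff ℝ ∞ h) (c : E2) (s : Fin 2 → ℝ) (a : Fin 2) :
    ContDiff ℝ ∞ (yc h c b s a) := by
  have : yc h c b s a = fun ξ => (par b a h ξ - inner ℝ c (b a)) / s a := by
    funext ξ; rw [yc, inner_grad]
  rw [this]
  exact ((contDiff_par hh a).sub contDiff_const).div_const _

theorem fderiv_yc (hp : ContDiff ℝ ∞ p) (hh : ∀ ξ, h ξ = p ξ + ‖ξ‖ ^ 2 / 2) (c : E2)
    (s : Fin 2 → ℝ) (a : Fin 2) (ξ v : E2) :
    fderiv ℝ (yc h c b s a) ξ v = (fderiv ℝ (par b a p) ξ v + inner ℝ v (b a)) / s a := by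
  have h1 : yc h c b s a =
      fun ξ => (par b a p ξ + inner ℝ ξ (b a) - inner ℝ c (b a)) / s a := by
    funext ξ; rw [yc, inner_grad, par_h hp hh]
  have h2 : HasFDerivAt (par b a p) (fderiv ℝ (par b a p) ξ) ξ :=
    ((contDiff_par hp a).differentiable (by simp) ξ).hasFDerivAt
  have h3 : HasFDerivAt (fun ξ : E2 => inner ℝ ξ (b a)) (innerSL ℝ (b a)) ξ := by
    have := (innerSL ℝ (b a)).hasFDerivAt (x := ξ)
    refine this.congr_of_eventuallyEq (Filter.Eventually.of_forall fun y => ?_)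
    simp [real_inner_comm]
  have h4 := ((h2.add h3).sub_const (inner ℝ c (b a))).mul_const (s a)⁻¹
  have h5 : HasFDerivAt (yc h c b s a)
      ((s a)⁻¹ • (fderiv ℝ (par b a p) ξ + innerSL ℝ (b a))) ξ := by
    rw [h1]
    refine h4.congr_of_eventuallyEq (Filter.Eventually.of_forall fun y => ?_)
    simp [div_eq_mul_inv]
  rw [h5.fderiv]
  simp [div_eq_inv_mul, real_inner_comm]
  ring

end

/-! ### composition with a bump -/

/-- constants. -/
noncomputable def cB (B : ℝ) : ℕ → ℝ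
  | 0 => 1
  | k + 1 => 1 + 2 * (2 ^ k * (B * cB B k))

theorem one_le_cB {B : ℝ} (hB : 0 ≤ B) : ∀ k, 1 ≤ cB B k
  | 0 => le_rfl
  | k + 1 => by
    have h1 := one_le_cB hB k
    have h2 : (0:ℝ) ≤ 2 * (2 ^ k * (B * cB B k)) := by positivity
    simp only [cB]
    linarith

theorem fderiv_comp_eucl {Y : E2 → E2} (hY : ContDiff ℝ ∞ Y) {ψ : E2 → ℂ} (hψ : ContDiff ℝ ∞ ψ)
    (ξ v : E2) : fderiv ℝ (fun ξ => ψ (Y ξ)) ξ v =
      ∑ a, ((fderiv ℝ (fun ξ => Y ξ a) ξ v : ℝ) : ℂ) *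
        par (EuclideanSpace.basisFun (Fin 2) ℝ) a ψ (Y ξ) := by
  have h1 : HasFDerivAt Y (fderiv ℝ Y ξ) ξ := (hY.differentiable (by simp) ξ).hasFDerivAt
  have h2 : HasFDerivAt ψ (fderiv ℝ ψ (Y ξ)) (Y ξ) :=
    (hψ.differentiable (by simp) _).hasFDerivAt
  have h3 := (h2.comp ξ h1).fderiv
  have h4 : fderiv ℝ (fun ξ => ψ (Y ξ)) ξ v = fderiv ℝ ψ (Y ξ) (fderiv ℝ Y ξ v) := by
    have : (fun ξ => ψ (Y ξ)) = ψ ∘ Y := rfl
    rw [this, h3]; rfl
  have h5 : ∀ a, fderiv ℝ (fun ξ => Y ξ a) ξ v = (fderiv ℝ Y ξ v) a := by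
    intro a
    have h6 := ((EuclideanSpace.proj (𝕜 := ℝ) a).hasFDerivAt.comp ξ h1).fderiv
    have : (fun ξ => Y ξ a) = (EuclideanSpace.proj (𝕜 := ℝ) a) ∘ Y := rfl
    rw [this, h6]; rfl
  rw [h4]
  conv_lhs => rw [← (EuclideanSpace.basisFun (Fin 2) ℝ).sum_repr (fderiv ℝ Y ξ v)]
  rw [map_sum]
  refine Finset.sum_congr rfl fun a _ => ?_
  rw [map_smul, h5 a, Complex.real_smul]
  rfl

theorem Bd_comp {W : E2 → E2} {U : Set E2} (hW : ContDiff ℝ ∞ W) (hU : IsOpen U) {Y : E2 → E2}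
    (hY : ContDiff ℝ ∞ Y) {Bδ : ℝ} (hB : 0 ≤ Bδ) {k : ℕ}
    (hδ : ∀ a, Bd W U k Bδ (fun ξ => ((fderiv ℝ (fun ξ => Y ξ a) ξ (W ξ) : ℝ) : ℂ))) :
    ∀ l ≤ k + 1, ∀ ψ : E2 → ℂ, ContDiff ℝ ∞ ψ → ∀ A : ℝ, 0 ≤ A →
      (∀ m ≤ l, ∀ y, ‖iteratedFDeriv ℝ m ψ y‖ ≤ A) →
      Bd W U l (cB Bδ l * A) (fun ξ => ψ (Y ξ)) := by
  intro l
  induction l with
  | zero =>
    intro _ ψ hψ A hA hb x hx
    have := hb 0 le_rfl (Y x)
    rw [norm_iteratedFDeriv_zero] at this
    simpa [cB] using this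
  | succ l ih =>
    intro hl ψ hψ A hA hb
    have h1 : (0:ℝ) ≤ cB Bδ l := zero_le_one.trans (one_le_cB hB l)
    have hYa : ∀ a, ContDiff ℝ ∞ (fun ξ => Y ξ a) := contDiff_euclidean.1 hY
    have hδs : ∀ a, ContDiff ℝ ∞ (fun ξ => ((fderiv ℝ (fun ξ => Y ξ a) ξ (W ξ) : ℝ) : ℂ)) :=
      fun a => Complex.ofRealCLM.contDiff.comp
        ((((hYa a).fderiv_right (m := ∞) (by simp)).clm_apply hW))
    refine ⟨fun x hx => ?_, ?_⟩
    · have := hb 0 (Nat.zero_le _) (Y x)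
      rw [norm_iteratedFDeriv_zero] at this
      exact this.trans (le_mul_of_one_le_left hA (one_le_cB hB _))
    · have e : ∀ a, Bd W U l (2 ^ l * (Bδ * (cB Bδ l * A))) (fun ξ =>
          ((fderiv ℝ (fun ξ => Y ξ a) ξ (W ξ) : ℝ) : ℂ) *
            par (EuclideanSpace.basisFun (Fin 2) ℝ) a ψ (Y ξ)) := by
        intro a
        refine Bd.mul hU hW (hδs a).contDiffOn ((contDiff_par hψ a).comp hY).contDiffOn hB
          (mul_nonneg h1 hA) ((hδ a).mono_k (by omega)) ?_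
        exact ih (by omega) _ (contDiff_par hψ a) A hA (fun m hm y =>
          (norm_iteratedFDeriv_par hψ a m y).trans (hb (m + 1) (by omega) y))
      have e2 := Bd.add hU hW ((hδs 0).mul ((contDiff_par hψ 0).comp hY)).contDiffOn
        ((hδs 1).mul ((contDiff_par hψ 1).comp hY)).contDiffOn (e 0) (e 1)
      refine (e2.congr hU ?_).mono_B ?_
      · intro x hx
        rw [Dv, fderiv_comp_eucl hY hψ, Fin.sum_univ_two]
        rfl
      · simp only [cB]
        nlinarith [mul_nonneg h1 hA]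

end Crest.Agent.R138.Ker858
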