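import Crest.Agent.R138.Ker4_858

/-! Assembly of the kernel bound. -/

set_option autoImplicit false

open MeasureTheory
open scoped ContDiff ENNReal

namespace Crest.Agent.R138.Ker858

open Crest.Agent.R138.Defs

variable {B : ℝ} {K : ℕ} {p h κ : E2 → ℝ} {b : OrthonormalBasis (Fin 2) ℝ E2} {U : Set E2}
  {i j : Fin 2}

/-- Kronecker. -/
noncomputable def dl (a j : Fin 2) : ℝ := if a = j then 1 else 0

theorem inner_b (b : OrthonormalBasis (Fin 2) ℝ E2) (a j : Fin 2) :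
    inner ℝ (b a) (b j) = dl a j := by
  rw [dl, orthonormal_iff_ite.1 b.orthonormal a j]

theorem abs_dl_le (a j : Fin 2) : |dl a j| ≤ 1 := by
  rw [dl]; split <;> simp

theorem dvg_fld (hκ : ContDiff ℝ ∞ κ) (hij : i ≠ j) (s : ℝ) (ξ : E2) :
    dvg b (fld b i j s κ) ξ = (s : ℂ) * ((par b i κ ξ : ℝ) : ℂ) := by
  have h1 : ∀ a, (fun ξ => inner ℝ (b a) (fld b i j s κ ξ)) =
      fun ξ => s * (dl a j + κ ξ * dl a i) := by
    intro a; funext ξ
    rw [fld, inner_smul_right, inner_add_right, inner_smul_right, inner_b, inner_b]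
  have h2 : ∀ a, fderiv ℝ (fun ξ => inner ℝ (b a) (fld b i j s κ ξ)) ξ (b a) =
      s * (dl a i * par b a κ ξ) := by
    intro a
    rw [h1 a]
    have hd : HasFDerivAt κ (fderiv ℝ κ ξ) ξ := (hκ.differentiable (by simp) ξ).hasFDerivAt
    have h3 := ((hd.mul_const (dl a i)).const_add (dl a j)).const_mul s
    rw [h3.fderiv]
    simp [par]
  rw [dvg, Fin.sum_univ_two, h2, h2, ← Complex.ofReal_mul]
  congr 1
  fin_cases i <;> simp [dl]

theorem fderiv_yc_fld (hp : ContDiff ℝ ∞ p) (hh : ∀ ξ, h ξ = p ξ + ‖ξ‖ ^ 2 / 2) (c : E2)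
    (s : Fin 2 → ℝ) (a : Fin 2) (σ : ℝ) (ξ : E2) :
    fderiv ℝ (yc h c b s a) ξ (fld b i j σ κ ξ) =
      σ / s a * ((par b j (par b a p) ξ + dl j a) + κ ξ * (par b i (par b a p) ξ + dl i a)) := by
  rw [fderiv_yc hp hh, fderiv_fld, fld, inner_smul_left, inner_add_left, inner_smul_left,
    inner_b, inner_b]
  simp only [smul_eq_mul, conj_trivial]
  ring

/-- `y_a` moves with bounded speed when the ratio is at most one. -/
theorem Bd_Dy (hB : 0 ≤ B) (hp : Pert B K p) (hh : ∀ ξ, h ξ = p ξ + ‖ξ‖ ^ 2 / 2) (c : E2)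
    (s : Fin 2 → ℝ) {σ : ℝ} (hσ0 : 0 ≤ σ) (hσ : σ ≤ 1) (hκ : ContDiff ℝ ∞ κ) (hU : IsOpen U)
    {Bκ : ℝ} (hBκ : 0 ≤ Bκ) {N : ℕ} (hK : N + 3 ≤ K)
    (bκ : Bd (fld b i j σ κ) U N Bκ (fun ξ => (κ ξ : ℂ))) (a : Fin 2) (hρ : |σ / s a| ≤ 1) :
    Bd (fld b i j σ κ) U N ((gB Bκ (N + 1) * B + 1) + 2 ^ N * (Bκ * (gB Bκ (N + 1) * B + 1)))
      (fun ξ => ((fderiv ℝ (yc h c b s a) ξ (fld b i j σ κ ξ) : ℝ) : ℂ)) := by
  have hW := contDiff_fld (b := b) (i := i) (j := j) (s := σ) hκ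
  have hG : (0:ℝ) ≤ gB Bκ (N + 1) := zero_le_one.trans (one_le_gB hBκ _)
  have hκC : ContDiff ℝ ∞ (fun ξ => (κ ξ : ℂ)) := Complex.ofRealCLM.contDiff.comp hκ
  have c1 : ∀ a' : Fin 2, ContDiff ℝ ∞ (fun ξ => ((par b a' (par b a p) ξ : ℝ) : ℂ)) := fun a' =>
    Complex.ofRealCLM.contDiff.comp (hp.contDiff2 a a')
  have b1 : ∀ a' : Fin 2, Bd (fld b i j σ κ) U N (gB Bκ (N + 1) * B + 1)
      (fun ξ => ((par b a' (par b a p) ξ : ℝ) : ℂ) + ((dl a' a : ℝ) : ℂ)) := fun a' =>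
    Bd.add hU hW (c1 a').contDiffOn contDiff_const.contDiffOn
      ((Bd_second hB hp b i j hσ0 hσ hκ hU hBκ hK bκ a a').pred)
      (Bd.const _ (by rw [Complex.norm_real]; exact abs_dl_le _ _))
  have c2 : ∀ a' : Fin 2, ContDiff ℝ ∞
      (fun ξ => ((par b a' (par b a p) ξ : ℝ) : ℂ) + ((dl a' a : ℝ) : ℂ)) := fun a' =>
    (c1 a').add contDiff_const
  have b2 := Bd.mul hU hW hκC.contDiffOn (c2 i).contDiffOn hBκ (by positivity) bκ (b1 i)
  have b3 := Bd.add hU hW (c2 j).contDiffOn (hκC.mul (c2 i)).contDiffOn (b1 j) b2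
  have b4 := b3.smul ((σ / s a : ℝ) : ℂ) hU hW ((c2 j).add (hκC.mul (c2 i))).contDiffOn
  refine (b4.congr hU ?_).mono_B ?_
  · intro ξ _
    rw [fderiv_yc_fld hp.smooth hh]
    push_cast
    ring
  · refine mul_le_of_le_one_left (by positivity) ?_
    rw [Complex.norm_real]; exact hρ

theorem fderiv_phase (hh : ContDiff ℝ ∞ h) (x : E2) (t : ℝ) (ξ v : E2) :
    fderiv ℝ (fun ξ => inner ℝ x ξ + t * h ξ) ξ v = inner ℝ x v + t * fderiv ℝ h ξ v := by
  have h1 : HasFDerivAt h (fderiv ℝ h ξ) ξ := (hh.differentiable (by simp) ξ).hasFDerivAt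
  have h2 : HasFDerivAt (fun ξ : E2 => inner ℝ x ξ) (innerSL ℝ x) ξ := by
    have := (innerSL ℝ x).hasFDerivAt (x := ξ)
    refine this.congr_of_eventuallyEq (Filter.Eventually.of_forall fun y => ?_)
    simp
  have h3 : HasFDerivAt (fun ξ => inner ℝ x ξ + t * h ξ) (innerSL ℝ x + t • fderiv ℝ h ξ) ξ :=
    h2.add (h1.const_mul t)
  rw [h3.fderiv]
  simp

theorem contDiff_phase (hh : ContDiff ℝ ∞ h) (x : E2) (t : ℝ) :
    ContDiff ℝ ∞ (fun ξ : E2 => inner ℝ x ξ + t * h ξ) :=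
  (contDiff_const.inner ℝ contDiff_id).add (contDiff_const.mul hh)

/-- the coordinates of `x + t c`. -/
noncomputable def Ac (b : OrthonormalBasis (Fin 2) ℝ E2) (c x : E2) (t : ℝ) (a : Fin 2) : ℝ :=
  inner ℝ (x + t • c) (b a)

theorem phase_coord (c x : E2) (t : ℝ) (s : Fin 2 → ℝ) (a : Fin 2)
    (hs : s a ≠ 0) (ξ : E2) :
    inner ℝ x (b a) + t * par b a h ξ = Ac b c x t a + t * s a * yc h c b s a ξ := by
  rw [yc, inner_grad, Ac, inner_add_left, inner_smul_left]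
  simp only [conj_trivial]
  field_simp
  ring

/-- smooth amplitude and all the bounds. -/
theorem assemble (B By Bκ Bκ' : ℝ) (hBy : 0 ≤ By) (hBκ : 0 ≤ Bκ) (hBκ' : 0 ≤ Bκ')
    (N : ℕ) : ∃ C : ℝ, 0 ≤ C ∧ ∀ (p h κ : E2 → ℝ) (b : OrthonormalBasis (Fin 2) ℝ E2)
      (i j : Fin 2) (c x : E2) (t : ℝ) (s : Fin 2 → ℝ) (α β γ : ℝ) (ψ am : E2 → ℂ),
      Pert B (N + 3) p → (∀ ξ, h ξ = p ξ + ‖ξ‖ ^ 2 / 2) → ContDiff ℝ ∞ κ → i ≠ j →
      (∀ a, 0 < s a ∧ s a ≤ 1) →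
      Bd (fld b i j (s j) κ) (crect h c b s 3) N Bκ (fun ξ => (κ ξ : ℂ)) →
      Bd (fld b i j (s j) κ) (crect h c b s 3) N Bκ' (fun ξ => ((par b i κ ξ : ℝ) : ℂ)) →
      (∀ a, Bd (fld b i j (s j) κ) (crect h c b s 3) N By
        (fun ξ => ((fderiv ℝ (yc h c b s a) ξ (fld b i j (s j) κ ξ) : ℝ) : ℂ))) →
      α = t * s j / Ac b c x t j → |α| ≤ 1 → |β| ≤ 1 → |γ| ≤ 1 → Ac b c x t j ≠ 0 →
      (∀ ξ, κ ξ * (Ac b c x t i + t * s i * yc h c b s i ξ) =
        Ac b c x t j * (κ ξ * (β + γ * yc h c b s i ξ))) →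
      (∀ ξ ∈ crect h c b s 3,
        1 / 2 ≤ |1 + α * yc h c b s j ξ + κ ξ * (β + γ * yc h c b s i ξ)|) →
      ContDiff ℝ ∞ ψ → (∀ y, ψ y ≠ 0 → ∀ a, |y a| ≤ 2) →
      (∀ m ≤ N, ∀ y, ‖iteratedFDeriv ℝ m ψ y‖ ≤ 1) →
      ContDiff ℝ ∞ am → (∀ m ≤ N, ∀ ξ ∈ crect h c b s 3, ‖iteratedFDeriv ℝ m am ξ‖ ≤ 1) →
      ‖∫ ξ, chi h c b s ψ ξ * am ξ * ee (inner ℝ x ξ + t * h ξ)‖ ≤
        C * (|s j * Ac b c x t j| ^ N)⁻¹ * (volume (crect h c b s 3)).toReal := by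
  have hG : (0:ℝ) ≤ gB Bκ N := zero_le_one.trans (one_le_gB hBκ _)
  have hC : (0:ℝ) ≤ cB By N := zero_le_one.trans (one_le_cB hBy _)
  obtain ⟨C, hC0, H⟩ := nsp (1 + (3 + By) + 2 ^ N * (Bκ * (1 + (3 + By)))) Bκ' (by positivity) hBκ' N
    (2 ^ N * ((cB By N * 1) * (gB Bκ N * 1))) (by positivity)
  refine ⟨C, hC0, ?_⟩
  intro p h κ b i j c x t s α β γ ψ am hp hh hκ hij hs bκ bκ' by' hα hα1 hβ1 hγ1 hA hrel hq hψ
    hψs hψb ham hamb
  have hhs : ContDiff ℝ ∞ h := contDiff_h hp.smooth hh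
  have hU : IsOpen (crect h c b s 3) := isOpen_crect hhs c s 3
  have hW := contDiff_fld (b := b) (i := i) (j := j) (s := s j) hκ
  have hκC : ContDiff ℝ ∞ (fun ξ => (κ ξ : ℂ)) := Complex.ofRealCLM.contDiff.comp hκ
  have hyC : ∀ a, ContDiff ℝ ∞ (fun ξ => ((yc h c b s a ξ : ℝ) : ℂ)) := fun a =>
    Complex.ofRealCLM.contDiff.comp (contDiff_yc hhs c s a)
  -- bounds of y
  have hy3 : ∀ a, ∀ ξ ∈ crect h c b s 3, |yc h c b s a ξ| ≤ 3 := by
    intro a ξ hξ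
    have h1 := hξ a
    rw [yc, abs_div, abs_of_pos (hs a).1, div_le_iff₀ (hs a).1]
    exact h1.le
  have byN : ∀ a, Bd (fld b i j (s j) κ) (crect h c b s 3) N (3 + By)
      (fun ξ => ((yc h c b s a ξ : ℝ) : ℂ)) := by
    intro a
    have h1 : Bd (fld b i j (s j) κ) (crect h c b s 3) (N + 1) (3 + By)
        (fun ξ => ((yc h c b s a ξ : ℝ) : ℂ)) := by
      refine ⟨fun ξ hξ => ?_, ?_⟩
      · rw [Complex.norm_real]
        exact (hy3 a ξ hξ).trans (by linarith)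
      · refine ((by' a).mono_B (by linarith)).congr hU ?_
        intro ξ _
        have hd : HasFDerivAt (yc h c b s a) (fderiv ℝ (yc h c b s a) ξ) ξ :=
          ((contDiff_yc hhs c s a).differentiable (by simp) ξ).hasFDerivAt
        have h2 := (Complex.ofRealCLM.hasFDerivAt.comp ξ hd).fderiv
        rw [Dv]
        have : (fun ξ => ((yc h c b s a ξ : ℝ) : ℂ)) = Complex.ofRealCLM ∘ yc h c b s a := rfl
        rw [this, h2]; rfl
    exact h1.pred
  -- the phase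
  have e1 : ∀ ξ, 1 + α * yc h c b s j ξ + κ ξ * (β + γ * yc h c b s i ξ) =
      1 + (α * yc h c b s j ξ + κ ξ * (β + γ * yc h c b s i ξ)) := fun ξ => by ring
  have hqC : ContDiff ℝ ∞ (fun ξ => ((1 + α * yc h c b s j ξ +
      κ ξ * (β + γ * yc h c b s i ξ) : ℝ) : ℂ)) := by
    refine Complex.ofRealCLM.contDiff.comp ?_
    exact (contDiff_const.add (contDiff_const.mul (contDiff_yc hhs c s j))).add
      (hκ.mul (contDiff_const.add (contDiff_const.mul (contDiff_yc hhs c s i))))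
  have bq : Bd (fld b i j (s j) κ) (crect h c b s 3) N
      (1 + (3 + By) + 2 ^ N * (Bκ * (1 + (3 + By)))) (fun ξ => ((1 + α * yc h c b s j ξ +
      κ ξ * (β + γ * yc h c b s i ξ) : ℝ) : ℂ)) := by
    have s1 : ∀ (a : Fin 2) (r : ℝ), |r| ≤ 1 → Bd (fld b i j (s j) κ) (crect h c b s 3) N (3 + By)
        (fun ξ => (r : ℂ) * ((yc h c b s a ξ : ℝ) : ℂ)) := by
      intro a r hr
      refine ((byN a).smul (r : ℂ) hU hW (hyC a).contDiffOn).mono_B ?_
      refine mul_le_of_le_one_left (by linarith) ?_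
      rw [Complex.norm_real]; exact hr
    have s2 : Bd (fld b i j (s j) κ) (crect h c b s 3) N (1 + (3 + By))
        (fun ξ => (1 : ℂ) + (α : ℂ) * ((yc h c b s j ξ : ℝ) : ℂ)) :=
      Bd.add hU hW contDiff_const.contDiffOn (contDiff_const.mul (hyC j)).contDiffOn
        (Bd.const 1 (by simp)) (s1 j α hα1)
    have s3 : Bd (fld b i j (s j) κ) (crect h c b s 3) N (1 + (3 + By))
        (fun ξ => (β : ℂ) + (γ : ℂ) * ((yc h c b s i ξ : ℝ) : ℂ)) :=
      Bd.add hU hW contDiff_const.contDiffOn (contDiff_const.mul (hyC i)).contDiffOn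
        (Bd.const _ (by rw [Complex.norm_real]; exact hβ1)) (s1 i γ hγ1)
    have s4 := Bd.mul hU hW hκC.contDiffOn
      (contDiff_const.add (contDiff_const.mul (hyC i))).contDiffOn hBκ (by positivity) bκ s3
    have s5 := Bd.add hU hW (contDiff_const.add (contDiff_const.mul (hyC j))).contDiffOn
      (hκC.mul (contDiff_const.add (contDiff_const.mul (hyC i)))).contDiffOn s2 s4
    refine s5.congr hU ?_
    intro ξ _
    push_cast
    ring
  -- the amplitude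
  set Y : E2 → E2 := fun ξ => WithLp.toLp 2 fun a => inner ℝ (gradient h ξ - c) (b a) / s a with hYdef
  have hYa : ∀ a, (fun ξ => Y ξ a) = yc h c b s a := fun a => rfl
  have hYs : ContDiff ℝ ∞ Y := by
    rw [contDiff_euclidean]
    intro a
    rw [hYa a]
    exact contDiff_yc hhs c s a
  have bψ : Bd (fld b i j (s j) κ) (crect h c b s 3) N (cB By N * 1) (fun ξ => ψ (Y ξ)) :=
    Bd_comp hW hU hYs hBy (fun a => by rw [hYa a]; exact by' a) N (by omega) ψ hψ 1 zero_le_one hψb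
  have bam : Bd (fld b i j (s j) κ) (crect h c b s 3) N (gB Bκ N * 1) am :=
    Bd_gen b i j (hs j).1.le (hs j).2 hκ hU hBκ bκ N (by omega) am ham 1 zero_le_one hamb
  have hψY : ContDiff ℝ ∞ (fun ξ => ψ (Y ξ)) := hψ.comp hYs
  have bu := Bd.mul hU hW hψY.contDiffOn ham.contDiffOn (by positivity) (by positivity) bψ bam
  have hsupp : Function.support (fun ξ => ψ (Y ξ) * am ξ) ⊆ crectC h c b s := by
    intro ξ hξ
    have h1 : ψ (Y ξ) ≠ 0 := fun e => hξ (by simp [e])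
    intro a
    have h2 := hψs _ h1 a
    have h3 : Y ξ a = inner ℝ (gradient h ξ - c) (b a) / s a := rfl
    rw [h3, abs_div, abs_of_pos (hs a).1, div_le_iff₀ (hs a).1] at h2
    exact h2
  have hts : tsupport (fun ξ => ψ (Y ξ) * am ξ) ⊆ crectC h c b s :=
    closure_minimal hsupp (isClosed_crectC hhs c s)
  have hcs : HasCompactSupport (fun ξ => ψ (Y ξ) * am ξ) :=
    HasCompactSupport.of_support_subset_isCompact
      (isCompact_crectC hp hh c s fun a => (hs a).1) hsupp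
  have hvol : volume (crect h c b s 3) ≠ ⊤ :=
    ne_top_of_le_ne_top ENNReal.ofReal_ne_top (volume_crect hp hh c s fun a => (hs a).1.le)
  have bw : Bd (fld b i j (s j) κ) (crect h c b s 3) N Bκ' (dvg b (fld b i j (s j) κ)) := by
    have hk2 : ContDiff ℝ ∞ (fun ξ => ((par b i κ ξ : ℝ) : ℂ)) :=
      Complex.ofRealCLM.contDiff.comp (contDiff_par hκ i)
    refine ((bκ'.smul ((s j : ℝ) : ℂ) hU hW hk2.contDiffOn).congr hU ?_).mono_B ?_
    · intro ξ _
      exact (dvg_fld hκ hij (s j) ξ).symm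
    · refine mul_le_of_le_one_left hBκ' ?_
      rw [Complex.norm_real, Real.norm_eq_abs, abs_of_pos (hs j).1]
      exact (hs j).2
  have key := H b (fld b i j (s j) κ) (crect h c b s 3) (fun ξ => inner ℝ x ξ + t * h ξ)
    (fun ξ => ((1 + α * yc h c b s j ξ + κ ξ * (β + γ * yc h c b s i ξ) : ℝ) : ℂ))
    (fun ξ => ψ (Y ξ) * am ξ) (s j * Ac b c x t j) hW hU hvol (contDiff_phase hhs x t)
    hqC.contDiffOn (fun ξ hξ => by rw [Complex.norm_real]; exact hq ξ hξ)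
    (mul_ne_zero (hs j).1.ne' hA) ?_ (hψY.mul ham) hcs
    (hts.trans (crectC_subset c s fun a => (hs a).1)) bu bq bw
  · exact key
  · intro ξ _
    rw [← Complex.ofReal_mul]
    congr 1
    rw [fderiv_phase hhs]
    have h1 : inner ℝ x (fld b i j (s j) κ ξ) = s j * (inner ℝ x (b j) + κ ξ * inner ℝ x (b i)) := by
      rw [fld, inner_smul_right, inner_add_right, inner_smul_right]
    have h2 : fderiv ℝ h ξ (fld b i j (s j) κ ξ) = s j * (par b j h ξ + κ ξ * par b i h ξ) := by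
      rw [fderiv_fld]; simp
    have h3 := phase_coord (h := h) (b := b) c x t s j (hs j).1.ne' ξ
    have h4 := phase_coord (h := h) (b := b) c x t s i (hs i).1.ne' ξ
    have h5 : α * Ac b c x t j = t * s j := by rw [hα]; field_simp
    rw [h1, h2]
    calc s j * (inner ℝ x (b j) + κ ξ * inner ℝ x (b i)) +
        t * (s j * (par b j h ξ + κ ξ * par b i h ξ))
        = s j * ((inner ℝ x (b j) + t * par b j h ξ) +
            κ ξ * (inner ℝ x (b i) + t * par b i h ξ)) := by ring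
      _ = s j * ((Ac b c x t j + t * s j * yc h c b s j ξ) +
            κ ξ * (Ac b c x t i + t * s i * yc h c b s i ξ)) := by rw [h3, h4]
      _ = s j * Ac b c x t j * (1 + α * yc h c b s j ξ +
            κ ξ * (β + γ * yc h c b s i ξ)) := by
          rw [hrel ξ, ← h5]; ring

end Crest.Agent.R138.Ker858
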