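import Crest.Agent.R138.Ker5_858

/-! **Kernel bound (W2)** for curved rectangles in direction space. -/

set_option autoImplicit false

open MeasureTheory
open scoped ContDiff ENNReal

namespace Crest.Agent.R138.Ker858

open Crest.Agent.R138.Defs

variable {B : ℝ} {K : ℕ} {p h κ : E2 → ℝ} {b : OrthonormalBasis (Fin 2) ℝ E2} {U : Set E2}
  {i j : Fin 2}

theorem Bd_third (hB : 0 ≤ B) (hp : Pert B K p) {σ : ℝ} (hσ0 : 0 ≤ σ) (hσ : σ ≤ 1)
    (hκ : ContDiff ℝ ∞ κ) (hU : IsOpen U) {Bκ : ℝ} (hBκ : 0 ≤ Bκ) {N : ℕ} (hK : N + 3 ≤ K)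
    (bκ : Bd (fld b i j σ κ) U N Bκ (fun ξ => (κ ξ : ℂ))) (a a' a'' : Fin 2) :
    Bd (fld b i j σ κ) U N (gB Bκ N * B)
      (fun ξ => ((par b a'' (par b a' (par b a p)) ξ : ℝ) : ℂ)) := by
  have hs : ContDiff ℝ ∞ (par b a'' (par b a' (par b a p))) := contDiff_par (hp.contDiff2 a a') a''
  refine Bd_gen b i j hσ0 hσ hκ hU hBκ bκ N (by omega) _
    (Complex.ofRealCLM.contDiff.comp hs) B hB ?_
  intro m hm x hx
  refine (le_of_eq (norm_iteratedFDeriv_ofReal hs m x)).trans ?_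
  exact (norm_iteratedFDeriv_par (hp.contDiff2 a a') a'' m x).trans
    ((hp.norm_le a a' (m + 1) x).trans (hp.high (m + 3) (by omega) (by omega) x))

/-- the derivative of the shear across the field. -/
theorem par_kap (hp : Pert B K p) (ξ : E2) : par b i (kap b i j p) ξ =
    -(par b i (par b j (par b i p)) ξ * (1 + par b i (par b i p) ξ)⁻¹ -
      par b j (par b i p) ξ * (par b i (par b i (par b i p)) ξ *
        ((1 + par b i (par b i p) ξ)⁻¹ * (1 + par b i (par b i p) ξ)⁻¹))) := by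
  have h1 : HasFDerivAt (par b j (par b i p)) (fderiv ℝ (par b j (par b i p)) ξ) ξ :=
    ((hp.contDiff2 i j).differentiable (by simp) ξ).hasFDerivAt
  have h2 : HasFDerivAt (par b i (par b i p)) (fderiv ℝ (par b i (par b i p)) ξ) ξ :=
    ((hp.contDiff2 i i).differentiable (by simp) ξ).hasFDerivAt
  have h3 : (1 + par b i (par b i p) ξ) ≠ 0 := by
    have := hp.one_add_ge (b := b) i i ξ
    linarith
  have h4 : HasFDerivAt (fun ξ => (1 + par b i (par b i p) ξ)⁻¹)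
      (-((1 + par b i (par b i p) ξ) ^ 2)⁻¹ • fderiv ℝ (par b i (par b i p)) ξ) ξ := by
    have h5 := (hasDerivAt_inv h3).hasFDerivAt.comp ξ (h2.const_add 1)
    refine h5.congr_fderiv ?_
    ext v
    simp [mul_comm]
  have h6 := (h1.mul h4).neg
  have h7 : HasFDerivAt (kap b i j p) (-(par b j (par b i p) ξ •
      (-((1 + par b i (par b i p) ξ) ^ 2)⁻¹ • fderiv ℝ (par b i (par b i p)) ξ) +
      (1 + par b i (par b i p) ξ)⁻¹ • fderiv ℝ (par b j (par b i p)) ξ)) ξ := h6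
  have h8 : par b i (kap b i j p) ξ = fderiv ℝ (kap b i j p) ξ (b i) := rfl
  rw [h8, h7.fderiv]
  simp only [neg_apply, add_apply,
    smul_apply, smul_eq_mul]
  have h9 : fderiv ℝ (par b i (par b i p)) ξ (b i) = par b i (par b i (par b i p)) ξ := rfl
  have h10 : fderiv ℝ (par b j (par b i p)) ξ (b i) = par b i (par b j (par b i p)) ξ := rfl
  rw [h9, h10]
  field_simp
  ring

theorem Bd_par_kap (B : ℝ) (hB : 0 ≤ B) (N : ℕ) : ∃ C C' : ℝ, 0 ≤ C ∧ 0 ≤ C' ∧
    ∀ (p : E2 → ℝ) (_ : Pert B (N + 3) p) (b : OrthonormalBasis (Fin 2) ℝ E2) (i j : Fin 2) (s : ℝ),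
      0 ≤ s → s ≤ 1 → ∀ U : Set E2, IsOpen U →
      Bd (fld b i j s (kap b i j p)) U N C (fun ξ => ((kap b i j p ξ : ℝ) : ℂ)) ∧
      Bd (fld b i j s (kap b i j p)) U N C' (fun ξ => ((par b i (kap b i j p) ξ : ℝ) : ℂ)) := by
  obtain ⟨C, hC, H⟩ := Bd_kap B hB N
  have hG1 : (0:ℝ) ≤ gB C (N + 1) := zero_le_one.trans (one_le_gB hC _)
  have hG : (0:ℝ) ≤ gB C N := zero_le_one.trans (one_le_gB hC _)
  have hI := two_le_invB (B := 1 + gB C (N + 1) * B) (by positivity) N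
  have hI0 : (0:ℝ) ≤ invB (1 + gB C (N + 1) * B) N := by linarith
  refine ⟨C, 2 ^ N * ((gB C N * B) * invB (1 + gB C (N + 1) * B) N) +
    2 ^ N * ((gB C (N + 1) * B) * (2 ^ N * ((gB C N * B) *
      (2 ^ N * (invB (1 + gB C (N + 1) * B) N * invB (1 + gB C (N + 1) * B) N))))),
    hC, by positivity, ?_⟩
  intro p hp b i j s hs0 hs U hU
  have b0 := H (N + 3) (by omega) p hp b i j s hs0 hs U hU
  refine ⟨b0, ?_⟩
  have hκ := hp.contDiff_kap (b := b) i j
  have hW := contDiff_fld (b := b) (i := i) (j := j) (s := s) hκ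
  have b1 := (Bd_second hB hp b i j hs0 hs hκ hU hC le_rfl b0 i j).pred
  have b2 := (Bd_second hB hp b i j hs0 hs hκ hU hC le_rfl b0 i i).pred
  have b3 := Bd_third hB hp hs0 hs hκ hU hC le_rfl b0 i j i
  have b4 := Bd_third hB hp hs0 hs hκ hU hC le_rfl b0 i i i
  have c1 : ContDiff ℝ ∞ (fun ξ => ((par b j (par b i p) ξ : ℝ) : ℂ)) :=
    Complex.ofRealCLM.contDiff.comp (hp.contDiff2 i j)
  have c2 : ContDiff ℝ ∞ (fun ξ => ((par b i (par b i p) ξ : ℝ) : ℂ)) :=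
    Complex.ofRealCLM.contDiff.comp (hp.contDiff2 i i)
  have c3 : ContDiff ℝ ∞ (fun ξ => (1:ℂ) + ((par b i (par b i p) ξ : ℝ) : ℂ)) :=
    contDiff_const.add c2
  have c4 : ContDiff ℝ ∞ (fun ξ => ((par b i (par b j (par b i p)) ξ : ℝ) : ℂ)) :=
    Complex.ofRealCLM.contDiff.comp (contDiff_par (hp.contDiff2 i j) i)
  have c5 : ContDiff ℝ ∞ (fun ξ => ((par b i (par b i (par b i p)) ξ : ℝ) : ℂ)) :=
    Complex.ofRealCLM.contDiff.comp (contDiff_par (hp.contDiff2 i i) i)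
  have b5 : Bd (fld b i j s (kap b i j p)) U N (1 + gB C (N + 1) * B)
      (fun ξ => (1:ℂ) + ((par b i (par b i p) ξ : ℝ) : ℂ)) :=
    Bd.add hU hW contDiff_const.contDiffOn c2.contDiffOn (Bd.const 1 (by simp)) b2
  have hn : ∀ ξ : E2, 1 / 2 ≤ ‖(1:ℂ) + ((par b i (par b i p) ξ : ℝ) : ℂ)‖ := by
    intro ξ
    have h1 := hp.one_add_ge (b := b) i i ξ
    have h2 : (1:ℂ) + ((par b i (par b i p) ξ : ℝ) : ℂ) =
      ((1 + par b i (par b i p) ξ : ℝ) : ℂ) := by push_cast; ring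
    rw [h2, Complex.norm_real, Real.norm_eq_abs]
    exact le_trans (by linarith) (le_abs_self _)
  have hn0 : ∀ ξ : E2, (1:ℂ) + ((par b i (par b i p) ξ : ℝ) : ℂ) ≠ 0 := fun ξ e => by
    have := hn ξ; rw [e, norm_zero] at this; norm_num at this
  have b6 := Bd.inv hU hW c3.contDiffOn (by positivity) (fun x _ => hn x) b5
  have c6 : ContDiff ℝ ∞ (fun ξ => ((1:ℂ) + ((par b i (par b i p) ξ : ℝ) : ℂ))⁻¹) := c3.inv hn0
  have b7 := Bd.mul hU hW c4.contDiffOn c6.contDiffOn (by positivity) hI0 b3 b6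
  have b8 := Bd.mul hU hW c6.contDiffOn c6.contDiffOn hI0 hI0 b6 b6
  have b9 := Bd.mul hU hW c5.contDiffOn (c6.mul c6).contDiffOn (by positivity) (by positivity) b4 b8
  have b10 := Bd.mul hU hW c1.contDiffOn (c5.mul (c6.mul c6)).contDiffOn (by positivity)
    (by positivity) b1 b9
  have b11 := b7.smul (-1) hU hW (c4.mul c6).contDiffOn
  have b12 := Bd.add hU hW (contDiff_const.mul (c4.mul c6)).contDiffOn
    (c1.mul (c5.mul (c6.mul c6))).contDiffOn b11 b10
  refine (b12.congr hU ?_).mono_B (le_of_eq (by simp))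
  intro ξ _
  rw [par_kap hp]
  push_cast
  ring

/-- the trivial bound. -/
theorem trivial_bound (hp : Pert B K p) (hh : ∀ ξ, h ξ = p ξ + ‖ξ‖ ^ 2 / 2) (c : E2)
    (s : Fin 2 → ℝ) (hs : ∀ a, 0 < s a ∧ s a ≤ 1) {ψ am : E2 → ℂ} (Φ : E2 → ℝ)
    (hψs : ∀ y, ψ y ≠ 0 → ∀ a, |y a| ≤ 2) (hψ1 : ∀ y, ‖ψ y‖ ≤ 1)
    (ham1 : ∀ ξ ∈ crect h c b s 3, ‖am ξ‖ ≤ 1) :
    ‖∫ ξ, chi h c b s ψ ξ * am ξ * ee (Φ ξ)‖ ≤ 144 * (s 0 * s 1) := by
  have hvol := volume_crect (b := b) hp hh c s fun a => (hs a).1.le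
  have h1 : ∫ ξ, chi h c b s ψ ξ * am ξ * ee (Φ ξ) =
      ∫ ξ in crect h c b s 3, chi h c b s ψ ξ * am ξ * ee (Φ ξ) := by
    symm
    apply setIntegral_eq_integral_of_forall_compl_eq_zero
    intro ξ hξ
    have : chi h c b s ψ ξ = 0 := by
      by_contra h2
      apply hξ
      refine crectC_subset c s (fun a => (hs a).1) ?_
      intro a
      have h3 := hψs _ h2 a
      have h4 : (WithLp.toLp 2 fun i => inner ℝ (gradient h ξ - c) (b i) / s i : E2) a =
        inner ℝ (gradient h ξ - c) (b a) / s a := rfl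
      rw [h4, abs_div, abs_of_pos (hs a).1, div_le_iff₀ (hs a).1] at h3
      exact h3
    rw [this]; ring
  rw [h1]
  have hfin : volume (crect h c b s 3) < ⊤ := hvol.trans_lt ENNReal.ofReal_lt_top
  have h2 : ‖∫ ξ in crect h c b s 3, chi h c b s ψ ξ * am ξ * ee (Φ ξ)‖ ≤
      1 * (volume (crect h c b s 3)).toReal := by
    refine norm_setIntegral_le_of_norm_le_const hfin ?_
    intro ξ hξ
    rw [norm_mul, norm_mul, norm_ee, mul_one]
    exact mul_le_one₀ (hψ1 _) (norm_nonneg _) (ham1 ξ hξ)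
  rw [one_mul] at h2
  refine h2.trans (ENNReal.toReal_le_of_le_ofReal ?_ hvol)
  have := (hs 0).1; have := (hs 1).1
  positivity

/-- **(W2)** kernel bound for curved rectangles in direction space, with an amplitude. -/
theorem kernel_bound (N : ℕ) (B : ℝ) (hB : 0 ≤ B) : ∃ C : ℝ, 0 ≤ C ∧ ∀ h : E2 → ℝ,
    ContDiff ℝ ∞ h →
    (∀ ξ : E2, ‖iteratedFDeriv ℝ 2 (fun ξ : E2 => h ξ - ‖ξ‖ ^ 2 / 2) ξ‖ ≤ 1 / 16) →
    (∀ k, 2 ≤ k → k ≤ N + 3 → ∀ ξ : E2,
      ‖iteratedFDeriv ℝ k (fun ξ : E2 => h ξ - ‖ξ‖ ^ 2 / 2) ξ‖ ≤ B) →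
    ∀ (R : ℝ), 1 ≤ R → ∀ (c : E2) (b : OrthonormalBasis (Fin 2) ℝ E2) (s : Fin 2 → ℝ),
    (∀ a, R ^ (-(1/2) : ℝ) ≤ s a ∧ s a ≤ 1) → ∀ ψ, Adm N ψ → ∀ am : E2 → ℂ, ContDiff ℝ ∞ am →
    (∀ m ≤ N, ∀ ξ ∈ crect h c b s 3, ‖iteratedFDeriv ℝ m am ξ‖ ≤ 1) → ∀ (x : E2) (t : ℝ), |t| ≤ R →
    ∀ a : Fin 2, ‖∫ ξ, chi h c b s ψ ξ * am ξ * ee (inner ℝ x ξ + t * h ξ)‖ ≤
      C * (s 0 * s 1) * ((1 + |inner ℝ (x + t • c) (b a)| / (s a * R)) ^ N)⁻¹ := by
  obtain ⟨Bκ, Bκ', hBκ, hBκ', HK⟩ := Bd_par_kap B hB N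
  have hG0 : (0:ℝ) ≤ gB 0 (N + 1) := zero_le_one.trans (one_le_gB le_rfl _)
  have hG1 : (0:ℝ) ≤ gB Bκ (N + 1) := zero_le_one.trans (one_le_gB hBκ _)
  obtain ⟨C1, hC1, H1⟩ := assemble B
    ((gB 0 (N + 1) * B + 1) + 2 ^ N * (0 * (gB 0 (N + 1) * B + 1))) 0 0
    (by positivity) le_rfl le_rfl N
  obtain ⟨C2, hC2, H2⟩ := assemble B
    ((gB Bκ (N + 1) * B + 1) + 2 ^ N * (Bκ * (gB Bκ (N + 1) * B + 1))) Bκ Bκ'
    (by positivity) hBκ hBκ' N
  refine ⟨144 * 25 ^ N + 144 * 2 ^ N * (C1 + C2), by positivity, ?_⟩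
  intro h hhs hp2 hpk R hR c b s hs ψ hψ am ham hamb x t ht a0
  set p : E2 → ℝ := fun ξ => h ξ - ‖ξ‖ ^ 2 / 2 with hpdef
  have hp : Pert B (N + 3) p := by
    refine ⟨?_, hp2, hpk⟩
    exact hhs.sub ((contDiff_norm_sq ℝ).div_const 2)
  have hh : ∀ ξ, h ξ = p ξ + ‖ξ‖ ^ 2 / 2 := fun ξ => by simp [hpdef]
  have hR0 : 0 < R := by linarith
  have hRr : 0 < R ^ (-(1/2) : ℝ) := Real.rpow_pos_of_pos hR0 _
  have hs' : ∀ a, 0 < s a ∧ s a ≤ 1 := fun a => ⟨hRr.trans_le (hs a).1, (hs a).2⟩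
  have hsR : ∀ a, 1 ≤ s a ^ 2 * R := by
    intro a
    have h1 : (R ^ (-(1/2) : ℝ)) ^ 2 = R⁻¹ := by
      rw [← Real.rpow_natCast, ← Real.rpow_mul hR0.le]
      norm_num
      exact Real.rpow_neg_one R
    have h2 : R⁻¹ ≤ s a ^ 2 := by
      rw [← h1]; exact pow_le_pow_left₀ hRr.le (hs a).1 2
    calc (1:ℝ) = R⁻¹ * R := by field_simp
      _ ≤ s a ^ 2 * R := mul_le_mul_of_nonneg_right h2 hR0.le
  have hss : 0 < s 0 * s 1 := mul_pos (hs' 0).1 (hs' 1).1
  set M : Fin 2 → ℝ := fun a => |inner ℝ (x + t • c) (b a)| / (s a * R) with hM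
  have hM0 : ∀ a, 0 ≤ M a := fun a => by
    have := (hs' a).1
    simp only [hM]; positivity
  -- the maximal coordinate
  obtain ⟨j, hj⟩ : ∃ j, ∀ a, M a ≤ M j := by
    rcases le_total (M 0) (M 1) with h1 | h1
    · exact ⟨1, fun a => by fin_cases a <;> simp [h1]⟩
    · exact ⟨0, fun a => by fin_cases a <;> simp [h1]⟩
  suffices hmain : ‖∫ ξ, chi h c b s ψ ξ * am ξ * ee (inner ℝ x ξ + t * h ξ)‖ ≤
      (144 * 25 ^ N + 144 * 2 ^ N * (C1 + C2)) * (s 0 * s 1) * ((1 + M j) ^ N)⁻¹ by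
    refine hmain.trans (mul_le_mul_of_nonneg_left ?_ (by positivity))
    have h1 : 0 < 1 + M a0 := by linarith [hM0 a0]
    exact inv_anti₀ (pow_pos h1 N) (pow_le_pow_left₀ h1.le (by linarith [hj a0]) N)
  have hψ1 : ∀ y, ‖ψ y‖ ≤ 1 := by
    intro y
    have := hψ.2.2 0 (Nat.zero_le _) y
    rwa [norm_iteratedFDeriv_zero] at this
  have ham1 : ∀ ξ ∈ crect h c b s 3, ‖am ξ‖ ≤ 1 := by
    intro ξ hξ
    have := hamb 0 (Nat.zero_le _) ξ hξ
    rwa [norm_iteratedFDeriv_zero] at this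
  have hMj1 : 0 < 1 + M j := by linarith [hM0 j]
  rcases lt_or_ge (M j) 24 with hsmall | hbig
  · have h1 := trivial_bound (b := b) hp hh c s hs' (fun ξ => inner ℝ x ξ + t * h ξ) hψ.2.1 hψ1 ham1
    refine h1.trans ?_
    have h2 : (1:ℝ) ≤ 25 ^ N * ((1 + M j) ^ N)⁻¹ := by
      rw [← div_eq_mul_inv, one_le_div (pow_pos hMj1 N)]
      exact pow_le_pow_left₀ hMj1.le (by linarith) N
    have h3 : 0 ≤ ((1 + M j) ^ N)⁻¹ := by positivity
    calc 144 * (s 0 * s 1) ≤ 144 * (s 0 * s 1) * (25 ^ N * ((1 + M j) ^ N)⁻¹) :=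
          le_mul_of_one_le_right (by positivity) h2
      _ = (144 * 25 ^ N) * (s 0 * s 1) * ((1 + M j) ^ N)⁻¹ := by ring
      _ ≤ _ := by
        refine mul_le_mul_of_nonneg_right (mul_le_mul_of_nonneg_right ?_ hss.le) h3
        have : 0 ≤ 144 * 2 ^ N * (C1 + C2) := by positivity
        linarith
  · -- the non-stationary case
    set A : Fin 2 → ℝ := Ac b c x t with hAdef
    have hAM : ∀ a, |A a| = M a * (s a * R) := by
      intro a
      have := (hs' a).1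
      simp only [hM, hAdef, Ac]; field_simp
    have hAj : A j ≠ 0 := by
      intro h1
      have h2 := hAM j
      rw [h1, abs_zero] at h2
      have := (hs' j).1
      have : 0 < M j * (s j * R) := by positivity
      linarith
    have hAjpos : 0 < |A j| := abs_pos.2 hAj
    have hMj : (24:ℝ) ≤ M j := hbig
    have hMpos : 0 < M j := by linarith
    have hα : |t * s j / A j| ≤ 1 / 24 := by
      rw [abs_div, abs_mul, abs_of_pos (hs' j).1, div_le_iff₀ hAjpos, hAM j]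
      have h1 : |t| * s j ≤ R * s j := mul_le_mul_of_nonneg_right ht (hs' j).1.le
      have h2 : 0 < s j * R := mul_pos (hs' j).1 hR0
      nlinarith
    have hΛ : (|s j * A j| ^ N)⁻¹ ≤ 2 ^ N * ((1 + M j) ^ N)⁻¹ := by
      have h1 : M j ≤ |s j * A j| := by
        rw [abs_mul, abs_of_pos (hs' j).1, hAM j]
        have := hsR j
        nlinarith
      have h2 : (1 + M j) / 2 ≤ |s j * A j| := by linarith
      calc (|s j * A j| ^ N)⁻¹ ≤ (((1 + M j) / 2) ^ N)⁻¹ :=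
            inv_anti₀ (by positivity) (pow_le_pow_left₀ (by positivity) h2 N)
        _ = 2 ^ N * ((1 + M j) ^ N)⁻¹ := by rw [div_pow, inv_div, div_eq_mul_inv]
    have hvolR : (volume (crect h c b s 3)).toReal ≤ 144 * (s 0 * s 1) :=
      ENNReal.toReal_le_of_le_ofReal (by positivity)
        (volume_crect (b := b) hp hh c s fun a => (hs' a).1.le)
    have hfinal : ∀ C : ℝ, 0 ≤ C → C ≤ C1 + C2 →
        C * (|s j * A j| ^ N)⁻¹ * (volume (crect h c b s 3)).toReal ≤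
        (144 * 25 ^ N + 144 * 2 ^ N * (C1 + C2)) * (s 0 * s 1) * ((1 + M j) ^ N)⁻¹ := by
      intro C hC hCC
      have h3 : 0 ≤ ((1 + M j) ^ N)⁻¹ := by positivity
      calc C * (|s j * A j| ^ N)⁻¹ * (volume (crect h c b s 3)).toReal
          ≤ C * (2 ^ N * ((1 + M j) ^ N)⁻¹) * (144 * (s 0 * s 1)) :=
            mul_le_mul (mul_le_mul_of_nonneg_left hΛ hC) hvolR ENNReal.toReal_nonneg (by positivity)
        _ = (144 * 2 ^ N * C) * (s 0 * s 1) * ((1 + M j) ^ N)⁻¹ := by ring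
        _ ≤ _ := by
          refine mul_le_mul_of_nonneg_right (mul_le_mul_of_nonneg_right ?_ hss.le) h3
          have h4 : (0:ℝ) ≤ 144 * 25 ^ N := by positivity
          have h5 : 144 * 2 ^ N * C ≤ 144 * 2 ^ N * (C1 + C2) :=
            mul_le_mul_of_nonneg_left hCC (by positivity)
          linarith
    obtain ⟨i, hij⟩ : ∃ i : Fin 2, i ≠ j := by
      fin_cases j
      · exact ⟨1, by decide⟩
      · exact ⟨0, by decide⟩
    have hall : ∀ P : Fin 2 → Prop, P i → P j → ∀ a, P a := by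
      intro P hi hj' a
      by_cases h1 : a = j
      · rw [h1]; exact hj'
      · have : a = i := by omega
        rw [this]; exact hi
    have hU : IsOpen (crect h c b s 3) := isOpen_crect hhs c s 3
    have hy3 : ∀ a, ∀ ξ ∈ crect h c b s 3, |yc h c b s a ξ| ≤ 3 := by
      intro a ξ hξ
      have h1 := hξ a
      rw [yc, abs_div, abs_of_pos (hs' a).1, div_le_iff₀ (hs' a).1]
      exact h1.le
    rcases le_total (s j) (s i) with hji | hij'
    · -- short side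
      have hκ0 : ContDiff ℝ ∞ (fun _ : E2 => (0:ℝ)) := contDiff_const
      have b0 : Bd (fld b i j (s j) (fun _ => 0)) (crect h c b s 3) N 0
          (fun ξ => (((fun _ : E2 => (0:ℝ)) ξ : ℝ) : ℂ)) := by
        simpa using (Bd.zero (W := fld b i j (s j) (fun _ => 0)) (U := crect h c b s 3)
          (k := N) (B := 0) le_rfl)
      have b1 : Bd (fld b i j (s j) (fun _ => 0)) (crect h c b s 3) N 0
          (fun ξ => ((par b i (fun _ : E2 => (0:ℝ)) ξ : ℝ) : ℂ)) := by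
        have : (fun ξ => ((par b i (fun _ : E2 => (0:ℝ)) ξ : ℝ) : ℂ)) = fun _ => 0 := by
          funext ξ; simp [par]
        rw [this]; exact Bd.zero le_rfl
      have b2 : ∀ a, Bd (fld b i j (s j) (fun _ => 0)) (crect h c b s 3) N
          ((gB 0 (N + 1) * B + 1) + 2 ^ N * (0 * (gB 0 (N + 1) * B + 1)))
          (fun ξ => ((fderiv ℝ (yc h c b s a) ξ (fld b i j (s j) (fun _ => 0) ξ) : ℝ) : ℂ)) := by
        intro a
        refine Bd_Dy hB hp hh c s (hs' j).1.le (hs' j).2 hκ0 hU le_rfl le_rfl b0 a ?_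
        rw [abs_div, abs_of_pos (hs' j).1, abs_of_pos (hs' a).1, div_le_one (hs' a).1]
        exact hall (fun a => s j ≤ s a) hji le_rfl a
      refine (H1 p h (fun _ => 0) b i j c x t s (t * s j / A j) 0 0 ψ am hp hh hκ0 hij hs' b0 b1 b2
        rfl (hα.trans (by norm_num)) (by simp) (by simp) hAj (fun ξ => by simp) ?_ hψ.1 hψ.2.1
        (fun m hm y => hψ.2.2 m hm y) ham hamb).trans (hfinal C1 hC1 (by linarith))
      intro ξ hξ
      have h1 : |t * s j / A j * yc h c b s j ξ| ≤ 1 / 8 := by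
        rw [abs_mul]
        calc |t * s j / A j| * |yc h c b s j ξ| ≤ 1 / 24 * 3 :=
              mul_le_mul hα (hy3 j ξ hξ) (abs_nonneg _) (by norm_num)
          _ = 1 / 8 := by norm_num
      have h2 := abs_le.1 h1
      rw [zero_mul, add_zero, abs_of_pos (by linarith [h2.1])]
      linarith [h2.1]
    · -- long side
      obtain ⟨b0, b1⟩ := HK p hp b i j (s j) (hs' j).1.le (hs' j).2 (crect h c b s 3) hU
      have hκ := hp.contDiff_kap (b := b) i j
      have b2 : ∀ a, Bd (fld b i j (s j) (kap b i j p)) (crect h c b s 3) N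
          ((gB Bκ (N + 1) * B + 1) + 2 ^ N * (Bκ * (gB Bκ (N + 1) * B + 1)))
          (fun ξ => ((fderiv ℝ (yc h c b s a) ξ (fld b i j (s j) (kap b i j p) ξ) : ℝ) : ℂ)) := by
        refine hall _ ?_ ?_
        · refine (Bd.zero (by positivity)).congr hU ?_
          intro ξ _
          rw [fderiv_yc_fld hp.smooth hh]
          have h1 := hp.one_add_ge (b := b) i i ξ
          have h2 : (1 + par b i (par b i p) ξ) ≠ 0 := by linarith
          have h3 : dl j i = 0 := by simp [dl, hij.symm]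
          have h4 : dl i i = 1 := by simp [dl]
          have h5 : par b j (par b i p) ξ + 0 +
              kap b i j p ξ * (par b i (par b i p) ξ + 1) = 0 := by
            rw [kap]; field_simp; ring
          rw [h3, h4, h5]; simp
        · refine Bd_Dy hB hp hh c s (hs' j).1.le (hs' j).2 hκ hU hBκ le_rfl b0 j ?_
          rw [div_self (hs' j).1.ne']; simp
      have hAi : |A i| ≤ |A j| := by
        rw [hAM i, hAM j]
        have h1 := hj i
        have h2 : s i * R ≤ s j * R := mul_le_mul_of_nonneg_right hij' hR0.le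
        exact mul_le_mul h1 h2 (mul_nonneg (hs' i).1.le hR0.le) (hM0 j)
      have hβ : |A i / A j| ≤ 1 := by
        rw [abs_div, div_le_one hAjpos]; exact hAi
      have hγ : |t * s i / A j| ≤ 1 / 24 := by
        rw [abs_div, abs_mul, abs_of_pos (hs' i).1, div_le_iff₀ hAjpos, hAM j]
        have h1 : |t| * s i ≤ R * s j :=
          mul_le_mul ht hij' (hs' i).1.le hR0.le
        have h2 : 0 < s j * R := mul_pos (hs' j).1 hR0
        nlinarith
      refine (H2 p h (kap b i j p) b i j c x t s (t * s j / A j) (A i / A j) (t * s i / A j) ψ am hp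
        hh hκ hij hs' b0 b1 b2 rfl (hα.trans (by norm_num)) hβ (hγ.trans (by norm_num)) hAj
        (fun ξ => ?_) ?_ hψ.1 hψ.2.1 (fun m hm y => hψ.2.2 m hm y) ham hamb).trans
        (hfinal C2 hC2 (by linarith))
      · have h1 : Ac b c x t j * (A i / A j + t * s i / A j * yc h c b s i ξ) =
            Ac b c x t i + t * s i * yc h c b s i ξ := by
          have h2 : Ac b c x t j = A j := rfl
          have h3 : Ac b c x t i = A i := rfl
          rw [h2, h3]; field_simp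
        rw [← h1]; ring
      · intro ξ hξ
        have h1 : |t * s j / A j * yc h c b s j ξ| ≤ 1 / 8 := by
          rw [abs_mul]
          calc |t * s j / A j| * |yc h c b s j ξ| ≤ 1 / 24 * 3 :=
                mul_le_mul hα (hy3 j ξ hξ) (abs_nonneg _) (by norm_num)
            _ = 1 / 8 := by norm_num
        have h2 : |t * s i / A j * yc h c b s i ξ| ≤ 1 / 8 := by
          rw [abs_mul]
          calc |t * s i / A j| * |yc h c b s i ξ| ≤ 1 / 24 * 3 :=
                mul_le_mul hγ (hy3 i ξ hξ) (abs_nonneg _) (by norm_num)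
            _ = 1 / 8 := by norm_num
        have h3 : |kap b i j p ξ * (A i / A j + t * s i / A j * yc h c b s i ξ)| ≤ 1 / 8 * (1 + 1 / 8) := by
          rw [abs_mul]
          refine mul_le_mul (hp.kap_le i j ξ) ?_ (abs_nonneg _) (by norm_num)
          exact (abs_add_le _ _).trans (add_le_add hβ h2)
        have h4 := abs_le.1 h1
        have h5 := abs_le.1 h3
        rw [abs_of_pos (by linarith [h4.1, h5.1])]
        linarith [h4.1, h5.1]

end Crest.Agent.R138.Ker858
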