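import Mathlib
import Crest.Agent.R138.Fac_535

/-!
# L² overlap of Katz-Tao slabs in `E2 × ℝ` (helper535)
-/

set_option autoImplicit false

namespace Crest.Agent.R138.Slab535

open MeasureTheory
open scoped ENNReal

/-- the plane. -/
abbrev E2 := EuclideanSpace ℝ (Fin 2)

/-- coordinates on `E2 × ℝ`. -/
def cd (q : E2 × ℝ) : Fin 3 → ℝ := ![q.1 0, q.1 1, q.2]

theorem measurePreserving_cd : MeasurePreserving cd (volume : Measure (E2 × ℝ)) volume := by
  have h1 : MeasurePreserving (fun x : E2 => (WithLp.ofLp x : Fin 2 → ℝ)) volume volume :=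
    PiLp.volume_preserving_ofLp (Fin 2)
  have h2 := h1.prod (MeasurePreserving.id (volume : Measure ℝ))
  have h3 : MeasurePreserving (Prod.swap : (Fin 2 → ℝ) × ℝ → ℝ × (Fin 2 → ℝ))
      ((volume : Measure (Fin 2 → ℝ)).prod (volume : Measure ℝ))
      ((volume : Measure ℝ).prod (volume : Measure (Fin 2 → ℝ))) := Measure.measurePreserving_swap
  have h4 := (volume_preserving_piFinSuccAbove (fun _ : Fin 3 => ℝ) (Fin.last 2)).symm
  have h5 := h4.comp (h3.comp h2)
  have e : cd = (⇑(MeasurableEquiv.piFinSuccAbove (fun _ : Fin 3 => ℝ) (Fin.last 2)).symm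
      ∘ Prod.swap ∘ Prod.map (fun x : E2 => (WithLp.ofLp x : Fin 2 → ℝ)) id) := by
    funext q
    funext i
    fin_cases i <;> rfl
  rw [e]
  exact h5

/-- cross product. -/
def cr (a b : Fin 3 → ℝ) : Fin 3 → ℝ :=
  ![a 1 * b 2 - a 2 * b 1, a 2 * b 0 - a 0 * b 2, a 0 * b 1 - a 1 * b 0]

/-- dot product. -/
def dt (a b : Fin 3 → ℝ) : ℝ := a 0 * b 0 + a 1 * b 1 + a 2 * b 2

/-- parallelepiped volume: two slabs and the cross direction. -/
theorem volume_two_slabs (n n' : Fin 3 → ℝ) (α α' w w' ρ : ℝ) (hw : 0 ≤ w) (hw' : 0 ≤ w')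
    (hne : dt (cr n n') (cr n n') ≠ 0) :
    volume {X : Fin 3 → ℝ | |dt X n - α| ≤ w ∧ |dt X n' - α'| ≤ w' ∧ |dt X (cr n n')| ≤ ρ}
      ≤ ENNReal.ofReal (8 * w * w' * ρ / dt (cr n n') (cr n n')) := by
  set M : Matrix (Fin 3) (Fin 3) ℝ := ![n, n', cr n n'] with hM
  have hdet : M.det = dt (cr n n') (cr n n') := by
    rw [Matrix.det_fin_three]
    simp [hM, dt, cr]
    ring
  have hset : {X : Fin 3 → ℝ | |dt X n - α| ≤ w ∧ |dt X n' - α'| ≤ w' ∧ |dt X (cr n n')| ≤ ρ}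
      = (Matrix.toLin' M) ⁻¹' (Set.Icc ![α - w, α' - w', -ρ] ![α + w, α' + w', ρ]) := by
    ext X
    simp only [Set.mem_ofPred_eq, Set.mem_preimage, Set.mem_Icc, Pi.le_def, Fin.forall_fin_succ,
      Matrix.toLin'_apply, Matrix.mulVec, dotProduct, Fin.sum_univ_three, abs_le]
    simp [hM, dt]
    constructor
    · rintro ⟨⟨a1, a2⟩, ⟨a3, a4⟩, a5, a6⟩
      refine ⟨⟨?_, ?_, ?_⟩, ?_, ?_, ?_⟩ <;> linarith
    · rintro ⟨⟨a1, a3, a5⟩, a2, a4, a6⟩
      refine ⟨⟨?_, ?_⟩, ⟨?_, ?_⟩, ?_, ?_⟩ <;> linarith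
  rw [hset]
  have hdet' : LinearMap.det (Matrix.toLin' M) ≠ 0 := by
    rw [LinearMap.det_toLin', hdet]; exact hne
  rw [Measure.addHaar_preimage_linearMap _ hdet', LinearMap.det_toLin', hdet, Real.volume_Icc_pi,
    Fin.prod_univ_three]
  have hpos : 0 < dt (cr n n') (cr n n') := by
    have : 0 ≤ dt (cr n n') (cr n n') := by
      unfold dt; nlinarith [sq_nonneg (cr n n' 0), sq_nonneg (cr n n' 1), sq_nonneg (cr n n' 2)]
    exact lt_of_le_of_ne this (Ne.symm hne)
  rw [abs_of_pos (inv_pos.2 hpos)]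
  simp only [Matrix.cons_val_zero, Matrix.cons_val_one, Matrix.cons_val]
  rw [← ENNReal.ofReal_mul (by linarith), ← ENNReal.ofReal_mul (mul_nonneg (by linarith)
    (by linarith)), ← ENNReal.ofReal_mul (inv_pos.2 hpos).le]
  apply ENNReal.ofReal_le_ofReal
  apply le_of_eq
  rw [div_eq_inv_mul]
  ring

theorem dt_self_nonneg (a : Fin 3 → ℝ) : 0 ≤ dt a a := by
  unfold dt; nlinarith [sq_nonneg (a 0), sq_nonneg (a 1), sq_nonneg (a 2)]

/-- Lagrange's identity. -/
theorem lagrange (a b : Fin 3 → ℝ) : dt (cr a b) (cr a b) = dt a a * dt b b - dt a b ^ 2 := by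
  simp [dt, cr]; ring

theorem dt_cr_left (a b : Fin 3 → ℝ) : dt a (cr a b) = 0 := by
  simp [dt, cr]; ring

/-- `b × (a × b) = a |b|² - b (a · b)`, tested against `Y`. -/
theorem triple (Y a b : Fin 3 → ℝ) :
    dt Y (cr b (cr a b)) = dt Y a * dt b b - dt Y b * dt a b := by
  simp [dt, cr]; ring

theorem cauchy (a b : Fin 3 → ℝ) : dt a b ^ 2 ≤ dt a a * dt b b := by
  have := dt_self_nonneg (cr a b)
  rw [lagrange] at this
  linarith

/-- the "angle" between two normals. -/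
noncomputable def ang (n n' : Fin 3 → ℝ) : ℝ := Real.sqrt (dt (cr n n') (cr n n'))

theorem ang_nonneg (n n' : Fin 3 → ℝ) : 0 ≤ ang n n' := Real.sqrt_nonneg _

theorem ang_sq (n n' : Fin 3 → ℝ) : ang n n' ^ 2 = dt (cr n n') (cr n n') :=
  Real.sq_sqrt (dt_self_nonneg _)

/-- deviation of a plane from another one. -/
theorem abs_dt_le (Y n n' : Fin 3 → ℝ) (h1 : 1 ≤ dt n' n') :
    |dt Y n| ≤ Real.sqrt (dt n n) * |dt Y n'| + Real.sqrt (dt Y Y) * ang n n' := by
  have h := triple Y n n'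
  set c := cr n n' with hc
  have hperp : dt n' c = 0 := by
    rw [hc]; simp [dt, cr]; ring
  have hcc : dt (cr n' c) (cr n' c) = dt n' n' * dt c c := by
    rw [lagrange, hperp]; ring
  have hn' : 0 < dt n' n' := by linarith
  have h2 : |dt Y (cr n' c)| ≤ Real.sqrt (dt Y Y) * (Real.sqrt (dt n' n') * ang n n') := by
    have h3 := cauchy Y (cr n' c)
    rw [hcc] at h3
    apply abs_le_of_sq_le_sq
    · rw [mul_pow, mul_pow, ang_sq, Real.sq_sqrt (dt_self_nonneg Y), Real.sq_sqrt hn'.le]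
      linarith
    · exact mul_nonneg (Real.sqrt_nonneg _) (mul_nonneg (Real.sqrt_nonneg _) (ang_nonneg _ _))
  have h4 : |dt n n'| ≤ Real.sqrt (dt n n) * Real.sqrt (dt n' n') := by
    apply abs_le_of_sq_le_sq
    · rw [mul_pow, Real.sq_sqrt (dt_self_nonneg n), Real.sq_sqrt hn'.le]
      exact cauchy n n'
    · exact mul_nonneg (Real.sqrt_nonneg _) (Real.sqrt_nonneg _)
  have hs1 : 1 ≤ Real.sqrt (dt n' n') := by
    rw [show (1 : ℝ) = Real.sqrt 1 by simp]
    exact Real.sqrt_le_sqrt h1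
  have hs2 : Real.sqrt (dt n' n') * Real.sqrt (dt n' n') = dt n' n' := Real.mul_self_sqrt hn'.le
  set S := Real.sqrt (dt n' n') with hS
  have h5 : |dt Y n| * (S * S) ≤ (Real.sqrt (dt n n) * |dt Y n'| + Real.sqrt (dt Y Y) * ang n n')
      * (S * S) := by
    have h6 : |dt Y n| * (S * S) = |dt Y n' * dt n n' + dt Y (cr n' c)| := by
      rw [h, hs2]
      rw [show dt Y n' * dt n n' + (dt Y n * dt n' n' - dt Y n' * dt n n') = dt Y n * dt n' n' by
        ring, abs_mul, abs_of_pos hn']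
    rw [h6]
    calc |dt Y n' * dt n n' + dt Y (cr n' c)| ≤ |dt Y n'| * |dt n n'| + |dt Y (cr n' c)| := by
          rw [← abs_mul]; exact abs_add_le _ _
      _ ≤ |dt Y n'| * (Real.sqrt (dt n n) * S) + Real.sqrt (dt Y Y) * (S * ang n n') := by
          gcongr
      _ ≤ |dt Y n'| * (Real.sqrt (dt n n) * S) * S + Real.sqrt (dt Y Y) * (S * ang n n') * S := by
          apply add_le_add
          · exact le_mul_of_one_le_right (by positivity) hs1
          · exact le_mul_of_one_le_right (mul_nonneg (Real.sqrt_nonneg _)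
              (mul_nonneg (Real.sqrt_nonneg _) (ang_nonneg _ _))) hs1
      _ = _ := by ring
  exact le_of_mul_le_mul_right h5 (by nlinarith)

/-! ### slabs -/

/-- normal vector of the slab `⟪x, e⟫ = α + β z`. -/
def nv (e : E2) (β : ℝ) : Fin 3 → ℝ := ![e 0, e 1, -β]

/-- slab of half-thickness `w` around the plane `⟪x, e⟫ = α + β z` in the unit cylinder. -/
def slab (e : E2) (α β w : ℝ) : Set (E2 × ℝ) :=
  {q | ‖q.1‖ ≤ 1 ∧ |q.2| ≤ 1 ∧ |inner ℝ q.1 e - α - β * q.2| ≤ w}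

theorem inner_eq (x e : E2) : inner ℝ x e = x 0 * e 0 + x 1 * e 1 := by
  rw [PiLp.inner_apply, Fin.sum_univ_two]
  simp [mul_comm]

theorem dt_cd_nv (q : E2 × ℝ) (e : E2) (β : ℝ) :
    dt (cd q) (nv e β) = inner ℝ q.1 e - β * q.2 := by
  rw [inner_eq]
  simp [dt, cd, nv]; ring

theorem dt_cd_self (q : E2 × ℝ) : dt (cd q) (cd q) = ‖q.1‖ ^ 2 + q.2 ^ 2 := by
  rw [EuclideanSpace.norm_sq_eq, Fin.sum_univ_two]
  simp [dt, cd]; ring

theorem dt_nv_self (e : E2) (β : ℝ) : dt (nv e β) (nv e β) = ‖e‖ ^ 2 + β ^ 2 := by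
  rw [EuclideanSpace.norm_sq_eq, Fin.sum_univ_two]
  simp [dt, nv]; ring

theorem measurableSet_slab (e : E2) (α β w : ℝ) : MeasurableSet (slab e α β w) := by
  have h : IsClosed (slab e α β w) := by
    have h1 : IsClosed {q : E2 × ℝ | ‖q.1‖ ≤ 1} :=
      isClosed_le (by fun_prop) continuous_const
    have h2 : IsClosed {q : E2 × ℝ | |q.2| ≤ 1} :=
      isClosed_le (by fun_prop) continuous_const
    have h3 : IsClosed {q : E2 × ℝ | |inner ℝ q.1 e - α - β * q.2| ≤ w} :=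
      isClosed_le (by fun_prop) continuous_const
    exact h1.inter (h2.inter h3)
  exact h.measurableSet

theorem slab_mono {e : E2} {α β w w' : ℝ} (h : w ≤ w') : slab e α β w ⊆ slab e α β w' :=
  fun _ hq => ⟨hq.1, hq.2.1, hq.2.2.trans h⟩

/-- intersection of two slabs. -/
theorem volume_inter_le (e e' : E2) (α β α' β' w : ℝ) (hw : 0 ≤ w)
    (hne : 0 < ang (nv e β) (nv e' β')) :
    volume (slab e α β w ∩ slab e' α' β' w)
      ≤ ENNReal.ofReal (16 * w ^ 2 / ang (nv e β) (nv e' β')) := by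
  set n := nv e β with hn
  set n' := nv e' β' with hn'
  set θ := ang n n' with hθ
  have hsq : dt (cr n n') (cr n n') = θ ^ 2 := (ang_sq n n').symm
  have hsub : slab e α β w ∩ slab e' α' β' w
      ⊆ cd ⁻¹' {X : Fin 3 → ℝ | |dt X n - α| ≤ w ∧ |dt X n' - α'| ≤ w ∧
        |dt X (cr n n')| ≤ 2 * θ} := by
    rintro q ⟨⟨h1, h2, h3⟩, ⟨_, _, h6⟩⟩
    refine ⟨?_, ?_, ?_⟩
    · rw [hn, dt_cd_nv]
      rwa [show inner ℝ q.1 e - β * q.2 - α = inner ℝ q.1 e - α - β * q.2 by ring]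
    · rw [hn', dt_cd_nv]
      rwa [show inner ℝ q.1 e' - β' * q.2 - α' = inner ℝ q.1 e' - α' - β' * q.2 by ring]
    · have h7 := cauchy (cd q) (cr n n')
      rw [hsq, dt_cd_self] at h7
      apply abs_le_of_sq_le_sq _ (by linarith)
      have h8 : ‖q.1‖ ^ 2 ≤ 1 := by nlinarith [norm_nonneg q.1]
      have h9 : q.2 ^ 2 ≤ 1 := by rw [sq_le_one_iff_abs_le_one]; exact h2
      nlinarith [sq_nonneg θ]
  have hmeas : MeasurableSet {X : Fin 3 → ℝ | |dt X n - α| ≤ w ∧ |dt X n' - α'| ≤ w ∧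
        |dt X (cr n n')| ≤ 2 * θ} := by
    have c1 : ∀ m : Fin 3 → ℝ, Continuous (fun X : Fin 3 → ℝ => dt X m) := by
      intro m; unfold dt; fun_prop
    have h1 : IsClosed {X : Fin 3 → ℝ | |dt X n - α| ≤ w} :=
      isClosed_le ((c1 n).sub continuous_const).abs continuous_const
    have h2 : IsClosed {X : Fin 3 → ℝ | |dt X n' - α'| ≤ w} :=
      isClosed_le ((c1 n').sub continuous_const).abs continuous_const
    have h3 : IsClosed {X : Fin 3 → ℝ | |dt X (cr n n')| ≤ 2 * θ} :=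
      isClosed_le (c1 _).abs continuous_const
    exact (h1.inter (h2.inter h3)).measurableSet
  refine (measure_mono hsub).trans ?_
  rw [measurePreserving_cd.measure_preimage hmeas.nullMeasurableSet]
  refine (volume_two_slabs n n' α α' w w (2 * θ) hw hw (by rw [hsq]; positivity)).trans ?_
  apply ENNReal.ofReal_le_ofReal
  rw [hsq]
  apply le_of_eq
  field_simp
  ring

/-- volume of a slab. -/
theorem volume_slab_le (e : E2) (α β w : ℝ) (hw : 0 ≤ w) (he : ‖e‖ = 1) :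
    volume (slab e α β w) ≤ ENNReal.ofReal (16 * w) := by
  set n := nv e β with hn
  set m : Fin 3 → ℝ := ![-e 1, e 0, 0] with hm
  have he2 : e 0 ^ 2 + e 1 ^ 2 = 1 := by
    have := EuclideanSpace.norm_sq_eq e
    rw [Fin.sum_univ_two, he] at this
    simpa using this.symm
  have hmm : dt m m = 1 := by simp [dt, hm]; nlinarith
  have hnm : dt n m = 0 := by simp [dt, hm, hn, nv]; ring
  have hsq : dt (cr n m) (cr n m) = dt n n := by rw [lagrange, hmm, hnm]; ring
  have hnn : 1 ≤ dt n n := by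
    rw [hn, dt_nv_self, he]; nlinarith [sq_nonneg β]
  set θ := Real.sqrt (dt n n) with hθ
  have hθ2 : θ ^ 2 = dt n n := Real.sq_sqrt (by linarith)
  have hθ1 : 1 ≤ θ := by
    rw [show (1 : ℝ) = Real.sqrt 1 by simp]
    exact Real.sqrt_le_sqrt hnn
  have hsub : slab e α β w ⊆ cd ⁻¹' {X : Fin 3 → ℝ | |dt X n - α| ≤ w ∧ |dt X m - 0| ≤ 1 ∧
        |dt X (cr n m)| ≤ 2 * θ} := by
    rintro q ⟨h1, h2, h3⟩
    have h8 : ‖q.1‖ ^ 2 ≤ 1 := by nlinarith [norm_nonneg q.1]
    have h9 : q.2 ^ 2 ≤ 1 := by rw [sq_le_one_iff_abs_le_one]; exact h2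
    refine ⟨?_, ?_, ?_⟩
    · rw [hn, dt_cd_nv]
      rwa [show inner ℝ q.1 e - β * q.2 - α = inner ℝ q.1 e - α - β * q.2 by ring]
    · rw [sub_zero]
      have h10 : dt (cd q) m = q.1 1 * e 0 - q.1 0 * e 1 := by
        simp [dt, cd, hm]; ring
      have h11 : q.1 0 ^ 2 + q.1 1 ^ 2 ≤ 1 := by
        have := EuclideanSpace.norm_sq_eq q.1
        rw [Fin.sum_univ_two] at this
        simp only [Real.norm_eq_abs, sq_abs] at this
        linarith
      rw [h10, ← sq_le_one_iff_abs_le_one]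
      nlinarith [sq_nonneg (q.1 1 * e 1 + q.1 0 * e 0)]
    · have h7 := cauchy (cd q) (cr n m)
      rw [hsq, dt_cd_self, ← hθ2] at h7
      apply abs_le_of_sq_le_sq _ (by linarith)
      nlinarith [sq_nonneg θ]
  have hmeas : MeasurableSet {X : Fin 3 → ℝ | |dt X n - α| ≤ w ∧ |dt X m - 0| ≤ 1 ∧
        |dt X (cr n m)| ≤ 2 * θ} := by
    have c1 : ∀ m : Fin 3 → ℝ, Continuous (fun X : Fin 3 → ℝ => dt X m) := by
      intro m; unfold dt; fun_prop
    have h1 : IsClosed {X : Fin 3 → ℝ | |dt X n - α| ≤ w} :=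
      isClosed_le ((c1 n).sub continuous_const).abs continuous_const
    have h2 : IsClosed {X : Fin 3 → ℝ | |dt X m - 0| ≤ 1} :=
      isClosed_le ((c1 m).sub continuous_const).abs continuous_const
    have h3 : IsClosed {X : Fin 3 → ℝ | |dt X (cr n m)| ≤ 2 * θ} :=
      isClosed_le (c1 _).abs continuous_const
    exact (h1.inter (h2.inter h3)).measurableSet
  refine (measure_mono hsub).trans ?_
  rw [measurePreserving_cd.measure_preimage hmeas.nullMeasurableSet]
  refine (volume_two_slabs n m α 0 w 1 (2 * θ) hw zero_le_one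
    (by rw [hsq, ← hθ2]; positivity)).trans ?_
  apply ENNReal.ofReal_le_ofReal
  rw [hsq, ← hθ2]
  rw [div_le_iff₀ (by positivity)]
  nlinarith [mul_nonneg hw (by linarith : (0 : ℝ) ≤ θ), mul_nonneg hw (sq_nonneg θ),
    mul_nonneg (mul_nonneg hw (by linarith : (0 : ℝ) ≤ θ)) (by linarith : (0 : ℝ) ≤ θ - 1)]

/-- a slab that meets another one is contained in a fattening of it by the angle. -/
theorem slab_subset {e e' : E2} {α β α' β' w B : ℝ} (he : ‖e‖ = 1) (he' : ‖e'‖ = 1)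
    (hB : 0 ≤ B) (hβ : |β| ≤ B) (hmeet : (slab e α β w ∩ slab e' α' β' w).Nonempty) :
    slab e' α' β' w ⊆ slab e α β ((3 + 2 * B) * w + 3 * ang (nv e β) (nv e' β')) := by
  obtain ⟨q0, ⟨a1, a2, a3⟩, ⟨_, _, a6⟩⟩ := hmeet
  rintro q ⟨b1, b2, b3⟩
  refine ⟨b1, b2, ?_⟩
  set n := nv e β with hn
  set n' := nv e' β' with hn'
  set Y : Fin 3 → ℝ := cd q - cd q0 with hY
  have hlin : ∀ m, dt Y m = dt (cd q) m - dt (cd q0) m := by
    intro m; simp [hY, dt]; ring
  have h1 : 1 ≤ dt n' n' := by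
    rw [hn', dt_nv_self, he']; nlinarith [sq_nonneg β']
  have h2 := abs_dt_le Y n n' h1
  have h3 : |dt Y n'| ≤ 2 * w := by
    rw [hlin, hn', dt_cd_nv, dt_cd_nv]
    rw [abs_le] at a6 b3 ⊢
    constructor <;> linarith [a6.1, a6.2, b3.1, b3.2]
  have h4 : Real.sqrt (dt n n) ≤ 1 + B := by
    rw [Real.sqrt_le_left (by linarith), hn, dt_nv_self, he]
    have : β ^ 2 ≤ B ^ 2 := sq_le_sq' (by linarith [neg_abs_le β]) (by linarith [le_abs_self β])
    nlinarith
  have h5 : Real.sqrt (dt Y Y) ≤ 3 := by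
    rw [Real.sqrt_le_left (by norm_num)]
    have e1 : dt Y Y ≤ 2 * dt (cd q) (cd q) + 2 * dt (cd q0) (cd q0) := by
      simp [hY, dt]
      nlinarith [sq_nonneg (cd q 0 + cd q0 0), sq_nonneg (cd q 1 + cd q0 1),
        sq_nonneg (cd q 2 + cd q0 2)]
    rw [dt_cd_self, dt_cd_self] at e1
    have e2 : ‖q.1‖ ^ 2 ≤ 1 := by nlinarith [norm_nonneg q.1]
    have e3 : ‖q0.1‖ ^ 2 ≤ 1 := by nlinarith [norm_nonneg q0.1]
    have e4 : q.2 ^ 2 ≤ 1 := by rw [sq_le_one_iff_abs_le_one]; exact b2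
    have e5 : q0.2 ^ 2 ≤ 1 := by rw [sq_le_one_iff_abs_le_one]; exact a2
    linarith
  have h6 : |dt Y n| ≤ (1 + B) * (2 * w) + 3 * ang n n' := by
    refine h2.trans ?_
    apply add_le_add
    · exact mul_le_mul h4 h3 (abs_nonneg _) (by linarith)
    · exact mul_le_mul_of_nonneg_right h5 (ang_nonneg _ _)
  have h7 : inner ℝ q.1 e - α - β * q.2 = dt Y n + (inner ℝ q0.1 e - α - β * q0.2) := by
    rw [hlin, hn, dt_cd_nv, dt_cd_nv]; ring
  rw [h7]
  calc |dt Y n + (inner ℝ q0.1 e - α - β * q0.2)| ≤ |dt Y n| + |inner ℝ q0.1 e - α - β * q0.2| :=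
        abs_add_le _ _
    _ ≤ (1 + B) * (2 * w) + 3 * ang n n' + w := add_le_add h6 a3
    _ = _ := by ring

/-- dyadic summation. -/
theorem dyadic_sum {ι : Type*} (s : Finset ι) (v θ vol : ι → ℝ) {w Δ V C : ℝ} (hw : 0 < w)
    (hv : ∀ j ∈ s, 0 ≤ v j) (hV : 0 ≤ V) (hC : 0 ≤ C)
    (h0 : ∀ j ∈ s, vol j ≤ V * w) (h1 : ∀ j ∈ s, w < θ j → vol j ≤ C * w ^ 2 / θ j)
    (N : ℕ) (hKT : ∀ k ≤ N, ∑ j ∈ s.filter (fun j => θ j ≤ 2 ^ k * w), v j ≤ Δ * 2 ^ k) :
    ∀ k ≤ N, ∑ j ∈ s.filter (fun j => θ j ≤ 2 ^ k * w), v j * vol j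
      ≤ (V + 2 * C * k) * Δ * w := by
  intro k
  induction k with
  | zero =>
    intro hk
    have h2 : ∑ j ∈ s.filter (fun j => θ j ≤ 2 ^ 0 * w), v j * vol j
        ≤ ∑ j ∈ s.filter (fun j => θ j ≤ 2 ^ 0 * w), v j * (V * w) := by
      apply Finset.sum_le_sum
      intro j hj
      have hj' := (Finset.mem_filter.1 hj).1
      exact mul_le_mul_of_nonneg_left (h0 j hj') (hv j hj')
    rw [← Finset.sum_mul] at h2
    have h3 := mul_le_mul_of_nonneg_right (hKT 0 hk) (mul_nonneg hV hw.le)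
    refine (h2.trans h3).trans (le_of_eq ?_)
    push_cast
    ring
  | succ k ih =>
    intro hk
    have ih' := ih (by omega)
    have hsplit : ∑ j ∈ s.filter (fun j => θ j ≤ 2 ^ (k + 1) * w), v j * vol j
        = ∑ j ∈ s.filter (fun j => θ j ≤ 2 ^ k * w), v j * vol j
          + ∑ j ∈ (s.filter (fun j => θ j ≤ 2 ^ (k + 1) * w)).filter
            (fun j => ¬ θ j ≤ 2 ^ k * w), v j * vol j := by
      rw [← Finset.sum_filter_add_sum_filter_not (s.filter (fun j => θ j ≤ 2 ^ (k + 1) * w))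
        (fun j => θ j ≤ 2 ^ k * w)]
      congr 1
      apply Finset.sum_congr _ (fun _ _ => rfl)
      ext j
      simp only [Finset.mem_filter]
      constructor
      · rintro ⟨⟨p1, _⟩, p3⟩
        exact ⟨p1, p3⟩
      · rintro ⟨p1, p3⟩
        refine ⟨⟨p1, p3.trans ?_⟩, p3⟩
        have : (2 : ℝ) ^ k ≤ 2 ^ (k + 1) := pow_le_pow_right₀ (by norm_num) (Nat.le_succ k)
        exact mul_le_mul_of_nonneg_right this hw.le
    rw [hsplit]
    have h2k : (1 : ℝ) ≤ 2 ^ k := one_le_pow₀ (by norm_num)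
    have h4 : ∑ j ∈ (s.filter (fun j => θ j ≤ 2 ^ (k + 1) * w)).filter
            (fun j => ¬ θ j ≤ 2 ^ k * w), v j * vol j
        ≤ ∑ j ∈ (s.filter (fun j => θ j ≤ 2 ^ (k + 1) * w)).filter
            (fun j => ¬ θ j ≤ 2 ^ k * w), v j * (C * w / 2 ^ k) := by
      apply Finset.sum_le_sum
      intro j hj
      rw [Finset.mem_filter, Finset.mem_filter, not_le] at hj
      obtain ⟨⟨p1, _⟩, p3⟩ := hj
      apply mul_le_mul_of_nonneg_left _ (hv j p1)
      have hθw : w < θ j := lt_of_le_of_lt (by nlinarith) p3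
      refine (h1 j p1 hθw).trans ?_
      rw [div_le_div_iff₀ (by linarith) (by positivity)]
      have : C * w * (2 ^ k * w) ≤ C * w * θ j :=
        mul_le_mul_of_nonneg_left p3.le (mul_nonneg hC hw.le)
      nlinarith
    rw [← Finset.sum_mul] at h4
    have h5 : ∑ j ∈ (s.filter (fun j => θ j ≤ 2 ^ (k + 1) * w)).filter
            (fun j => ¬ θ j ≤ 2 ^ k * w), v j ≤ Δ * 2 ^ (k + 1) := by
      refine le_trans ?_ (hKT (k + 1) hk)
      apply Finset.sum_le_sum_of_subset_of_nonneg (Finset.filter_subset _ _)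
      intro j hj _
      exact hv j (Finset.mem_filter.1 hj).1
    have h6 : (∑ j ∈ (s.filter (fun j => θ j ≤ 2 ^ (k + 1) * w)).filter
            (fun j => ¬ θ j ≤ 2 ^ k * w), v j) * (C * w / 2 ^ k)
        ≤ Δ * 2 ^ (k + 1) * (C * w / 2 ^ k) :=
      mul_le_mul_of_nonneg_right h5 (by positivity)
    have h7 : Δ * 2 ^ (k + 1) * (C * w / 2 ^ k) = 2 * C * Δ * w := by
      rw [pow_succ]; field_simp
    push_cast
    linarith

/-- **Katz-Tao slabs**: L² overlap.  `K_i = slab (e i) (α i) (β i) w`, weights `v ≥ 0`, and for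
every `r ≥ w` the slabs contained in `K_i(r) = slab (e i) (α i) (β i) r` have
`∑ v_j w ≤ Δ r`; then `∑_j v_j |K_i ∩ K_j| ≤ C (N + 1) Δ w`. -/
theorem slab_overlap {ι : Type*} (s : Finset ι) (e : ι → E2) (α β v : ι → ℝ) {w B Δ : ℝ}
    (hw : 0 < w) (hB : 0 ≤ B) (he : ∀ j ∈ s, ‖e j‖ = 1) (hβ : ∀ j ∈ s, |β j| ≤ B)
    (hv : ∀ j ∈ s, 0 ≤ v j) (N : ℕ) (hN : (1 + B) ^ 2 ≤ 2 ^ N * w) (i : ι) (hi : i ∈ s)
    (hKT : ∀ r, w ≤ r → ∀ J ⊆ s, (∀ j ∈ J, slab (e j) (α j) (β j) w ⊆ slab (e i) (α i) (β i) r) →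
      (∑ j ∈ J, v j) * w ≤ Δ * r) :
    ∑ j ∈ s, ENNReal.ofReal (v j) * volume (slab (e i) (α i) (β i) w ∩ slab (e j) (α j) (β j) w)
      ≤ ENNReal.ofReal (32 * (3 + B) * (1 + 2 * N) * Δ * w) := by
  classical
  set θ : ι → ℝ := fun j => ang (nv (e i) (β i)) (nv (e j) (β j)) with hθ
  set vol : ι → ℝ := fun j =>
    (volume (slab (e i) (α i) (β i) w ∩ slab (e j) (α j) (β j) w)).toReal with hvol
  have hfin : ∀ j ∈ s, volume (slab (e i) (α i) (β i) w ∩ slab (e j) (α j) (β j) w)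
      ≤ ENNReal.ofReal (16 * w) := fun j hj =>
    (measure_mono Set.inter_subset_left).trans (volume_slab_le _ _ _ _ hw.le (he i hi))
  have hvolr : ∀ j ∈ s, volume (slab (e i) (α i) (β i) w ∩ slab (e j) (α j) (β j) w)
      = ENNReal.ofReal (vol j) := fun j hj =>
    (ENNReal.ofReal_toReal (ne_top_of_le_ne_top ENNReal.ofReal_ne_top (hfin j hj))).symm
  set s' : Finset ι := s.filter (fun j =>
    (slab (e i) (α i) (β i) w ∩ slab (e j) (α j) (β j) w).Nonempty) with hs'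
  have hs's : s' ⊆ s := Finset.filter_subset _ _
  have e0 : ∑ j ∈ s, ENNReal.ofReal (v j) *
      volume (slab (e i) (α i) (β i) w ∩ slab (e j) (α j) (β j) w)
      = ENNReal.ofReal (∑ j ∈ s', v j * vol j) := by
    rw [ENNReal.ofReal_sum_of_nonneg (fun j hj => mul_nonneg (hv j (hs's hj)) ENNReal.toReal_nonneg)]
    rw [hs', Finset.sum_filter]
    apply Finset.sum_congr rfl
    intro j hj
    split_ifs with hne
    · rw [ENNReal.ofReal_mul (hv j hj), ← hvolr j hj]
    · rw [Set.not_nonempty_iff_eq_empty.1 hne]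
      simp
  rw [e0]
  apply ENNReal.ofReal_le_ofReal
  -- all angles are small
  have hθN : ∀ j ∈ s', θ j ≤ 2 ^ N * w := by
    intro j hj
    refine le_trans ?_ hN
    have hj' := hs's hj
    rw [hθ]
    show Real.sqrt _ ≤ _
    rw [Real.sqrt_le_left (by positivity), lagrange, dt_nv_self, dt_nv_self, he i hi, he j hj']
    have b1 : β i ^ 2 ≤ B ^ 2 :=
      sq_le_sq' (by linarith [neg_abs_le (β i), hβ i hi]) (by linarith [le_abs_self (β i), hβ i hi])
    have b2 : β j ^ 2 ≤ B ^ 2 :=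
      sq_le_sq' (by linarith [neg_abs_le (β j), hβ j hj'])
        (by linarith [le_abs_self (β j), hβ j hj'])
    have b3 : (1 ^ 2 + β i ^ 2) * (1 ^ 2 + β j ^ 2) ≤ (1 + B ^ 2) * (1 + B ^ 2) := by
      apply mul_le_mul <;> nlinarith [sq_nonneg (β i), sq_nonneg (β j), sq_nonneg B]
    have b4 : (1 + B ^ 2) ≤ (1 + B) ^ 2 := by nlinarith
    have b5 : (1 + B ^ 2) * (1 + B ^ 2) ≤ (1 + B) ^ 2 * (1 + B) ^ 2 := by
      apply mul_le_mul b4 b4 (by positivity) (by positivity)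
    nlinarith [sq_nonneg (dt (nv (e i) (β i)) (nv (e j) (β j)))]
  have hmain := dyadic_sum s' v θ vol (V := 16) (C := 16) (Δ := (6 + 2 * B) * Δ) hw
    (fun j hj => hv j (hs's hj)) (by norm_num) (by norm_num) ?_ ?_ N ?_ N le_rfl
  · have e1 : s'.filter (fun j => θ j ≤ 2 ^ N * w) = s' := by
      apply Finset.filter_true_of_mem
      exact hθN
    rw [e1] at hmain
    refine hmain.trans (le_of_eq ?_)
    ring
  · intro j hj
    have := ENNReal.toReal_mono ENNReal.ofReal_ne_top (hfin j (hs's hj))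
    rwa [ENNReal.toReal_ofReal (by linarith)] at this
  · intro j hj hwθ
    have hpos : 0 < θ j := hw.trans hwθ
    have := ENNReal.toReal_mono ENNReal.ofReal_ne_top
      (volume_inter_le (e i) (e j) (α i) (β i) (α j) (β j) w hw.le hpos)
    rwa [ENNReal.toReal_ofReal (by positivity)] at this
  · intro k hk
    have h2k : (1 : ℝ) ≤ 2 ^ k := one_le_pow₀ (by norm_num)
    have hr : w ≤ (6 + 2 * B) * 2 ^ k * w := by nlinarith [mul_nonneg hB hw.le]
    have h9 := hKT ((6 + 2 * B) * 2 ^ k * w) hr (s'.filter (fun j => θ j ≤ 2 ^ k * w))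
      ((Finset.filter_subset _ _).trans hs's) ?_
    · have h10 : (∑ j ∈ s'.filter (fun j => θ j ≤ 2 ^ k * w), v j) * w
          ≤ ((6 + 2 * B) * Δ * 2 ^ k) * w := by
        refine h9.trans (le_of_eq ?_); ring
      exact le_of_mul_le_mul_right h10 hw
    · intro j hj
      rw [Finset.mem_filter] at hj
      obtain ⟨hj1, hj2⟩ := hj
      rw [hs', Finset.mem_filter] at hj1
      refine (slab_subset (he i hi) (he j hj1.1) hB (hβ i hi) hj1.2).trans (slab_mono ?_)
      have : (3 + 2 * B) * w ≤ (3 + 2 * B) * (2 ^ k * w) := by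
        apply mul_le_mul_of_nonneg_left _ (by linarith)
        nlinarith
      have h11 : ang (nv (e i) (β i)) (nv (e j) (β j)) ≤ 2 ^ k * w := hj2
      nlinarith

/-! ### planar strips -/

/-- strip `|y - a - b z| ≤ w`, `|z| ≤ 1` in the plane. -/
def strip (a b w : ℝ) : Set (ℝ × ℝ) := {q | |q.2| ≤ 1 ∧ |q.1 - a - b * q.2| ≤ w}

theorem measurableSet_strip (a b w : ℝ) : MeasurableSet (strip a b w) := by
  have h2 : IsClosed {q : ℝ × ℝ | |q.2| ≤ 1} := isClosed_le (by fun_prop) continuous_const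
  have h3 : IsClosed {q : ℝ × ℝ | |q.1 - a - b * q.2| ≤ w} :=
    isClosed_le (by fun_prop) continuous_const
  exact (h2.inter h3).measurableSet

theorem strip_mono {a b w w' : ℝ} (h : w ≤ w') : strip a b w ⊆ strip a b w' :=
  fun _ hq => ⟨hq.1, hq.2.trans h⟩

/-- fibres of a strip are short. -/
theorem volume_strip_inter_le (a b a' b' w : ℝ) (T : Set ℝ) (hT : MeasurableSet T)
    (hz : ∀ q ∈ strip a b w ∩ strip a' b' w, q.2 ∈ T) :
    volume (strip a b w ∩ strip a' b' w) ≤ ENNReal.ofReal (2 * w) * volume T := by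
  have hm : MeasurableSet (strip a b w ∩ strip a' b' w) :=
    (measurableSet_strip _ _ _).inter (measurableSet_strip _ _ _)
  rw [show (volume : Measure (ℝ × ℝ)) = (volume : Measure ℝ).prod volume from rfl,
    Measure.prod_apply_symm hm]
  calc ∫⁻ z, volume ((fun y => (y, z)) ⁻¹' (strip a b w ∩ strip a' b' w))
      ≤ ∫⁻ z, T.indicator (fun _ => ENNReal.ofReal (2 * w)) z := by
        refine lintegral_mono fun z => ?_
        by_cases hzT : z ∈ T
        · rw [Set.indicator_of_mem hzT]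
          have hsub : (fun y => (y, z)) ⁻¹' (strip a b w ∩ strip a' b' w)
              ⊆ Set.Icc (a + b * z - w) (a + b * z + w) := by
            rintro y ⟨⟨_, h2⟩, _⟩
            simp only at h2
            rw [abs_le] at h2
            constructor <;> linarith [h2.1, h2.2]
          refine (measure_mono hsub).trans ?_
          rw [Real.volume_Icc]
          apply ENNReal.ofReal_le_ofReal
          linarith
        · rw [Set.indicator_of_notMem hzT]
          have : (fun y => (y, z)) ⁻¹' (strip a b w ∩ strip a' b' w) = ∅ := by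
            rw [Set.eq_empty_iff_forall_notMem]
            intro y hy
            exact hzT (hz (y, z) hy)
          rw [this, measure_empty]
    _ = ENNReal.ofReal (2 * w) * volume T := by
        rw [lintegral_indicator hT, setLIntegral_const]

/-- volume of a strip. -/
theorem volume_strip_le (a b w : ℝ) (hw : 0 ≤ w) :
    volume (strip a b w) ≤ ENNReal.ofReal (4 * w) := by
  have h := volume_strip_inter_le a b a b w (Set.Icc (-1) 1) measurableSet_Icc
    (fun q hq => abs_le.1 hq.1.1)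
  rw [Set.inter_self, Real.volume_Icc, ← ENNReal.ofReal_mul (by linarith)] at h
  refine h.trans (ENNReal.ofReal_le_ofReal (by linarith))

/-- intersection of two strips. -/
theorem volume_strip_inter (a b a' b' w : ℝ) (hw : 0 ≤ w) (hb : b ≠ b') :
    volume (strip a b w ∩ strip a' b' w) ≤ ENNReal.ofReal (8 * w ^ 2 / |b - b'|) := by
  have hpos : 0 < |b - b'| := abs_pos.2 (sub_ne_zero.2 hb)
  set z0 : ℝ := -(a - a') / (b - b') with hz0
  set ρ : ℝ := 2 * w / |b - b'| with hρ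
  have h := volume_strip_inter_le a b a' b' w (Set.Icc (z0 - ρ) (z0 + ρ)) measurableSet_Icc ?_
  · refine h.trans ?_
    rw [Real.volume_Icc, ← ENNReal.ofReal_mul (by linarith)]
    apply ENNReal.ofReal_le_ofReal
    rw [hρ]
    apply le_of_eq
    field_simp
    ring
  · rintro q ⟨⟨_, h2⟩, ⟨_, h4⟩⟩
    have h5 : |(b - b') * (q.2 - z0)| ≤ 2 * w := by
      have e : (b - b') * (q.2 - z0) = (a - a') + (b - b') * q.2 := by
        rw [hz0]; field_simp [sub_ne_zero.2 hb]; ring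
      rw [e]
      rw [abs_le] at h2 h4 ⊢
      constructor <;> linarith [h2.1, h2.2, h4.1, h4.2]
    rw [abs_mul] at h5
    have h6 : |q.2 - z0| ≤ ρ := by
      rw [hρ, le_div_iff₀ hpos]
      linarith [mul_comm |b - b'| |q.2 - z0|]
    rw [abs_le] at h6
    constructor <;> linarith [h6.1, h6.2]

/-- a strip that meets another one is contained in a fattening of it by the angle. -/
theorem strip_subset {a b a' b' w : ℝ} (hmeet : (strip a b w ∩ strip a' b' w).Nonempty) :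
    strip a' b' w ⊆ strip a b (3 * w + 2 * |b - b'|) := by
  obtain ⟨q0, ⟨a1, a2⟩, ⟨_, a4⟩⟩ := hmeet
  rintro q ⟨b1, b2⟩
  refine ⟨b1, ?_⟩
  have h1 : |(b - b') * (q0.2 - q.2)| ≤ 2 * |b - b'| := by
    rw [abs_mul, mul_comm]
    apply mul_le_mul_of_nonneg_right _ (abs_nonneg _)
    rw [abs_le] at a1 b1 ⊢
    constructor <;> linarith [a1.1, a1.2, b1.1, b1.2]
  rw [abs_le] at a2 a4 b2 h1 ⊢
  have e : q.1 - a - b * q.2 = (q.1 - a' - b' * q.2) - (q0.1 - a' - b' * q0.2)
      + (q0.1 - a - b * q0.2) + (b - b') * (q0.2 - q.2) := by ring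
  constructor <;> linarith [a2.1, a2.2, a4.1, a4.2, b2.1, b2.2, h1.1, h1.2]

/-- **planar Cordoba, Katz-Tao form**: `∑_j v_j |K_i ∩ K_j| ≤ C (N + 1) Δ w` for strips. -/
theorem strip_overlap {ι : Type*} (s : Finset ι) (a b v : ι → ℝ) {w B Δ : ℝ}
    (hw : 0 < w) (hb : ∀ j ∈ s, |b j| ≤ B)
    (hv : ∀ j ∈ s, 0 ≤ v j) (N : ℕ) (hN : 2 * B ≤ 2 ^ N * w) (i : ι) (hi : i ∈ s)
    (hKT : ∀ r, w ≤ r → ∀ J ⊆ s, (∀ j ∈ J, strip (a j) (b j) w ⊆ strip (a i) (b i) r) →
      (∑ j ∈ J, v j) * w ≤ Δ * r) :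
    ∑ j ∈ s, ENNReal.ofReal (v j) * volume (strip (a i) (b i) w ∩ strip (a j) (b j) w)
      ≤ ENNReal.ofReal (20 * (1 + 4 * N) * Δ * w) := by
  classical
  set θ : ι → ℝ := fun j => |b i - b j| with hθ
  set vol : ι → ℝ := fun j =>
    (volume (strip (a i) (b i) w ∩ strip (a j) (b j) w)).toReal with hvol
  have hfin : ∀ j ∈ s, volume (strip (a i) (b i) w ∩ strip (a j) (b j) w)
      ≤ ENNReal.ofReal (4 * w) := fun j _ =>
    (measure_mono Set.inter_subset_left).trans (volume_strip_le _ _ _ hw.le)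
  have hvolr : ∀ j ∈ s, volume (strip (a i) (b i) w ∩ strip (a j) (b j) w)
      = ENNReal.ofReal (vol j) := fun j hj =>
    (ENNReal.ofReal_toReal (ne_top_of_le_ne_top ENNReal.ofReal_ne_top (hfin j hj))).symm
  set s' : Finset ι := s.filter (fun j =>
    (strip (a i) (b i) w ∩ strip (a j) (b j) w).Nonempty) with hs'
  have hs's : s' ⊆ s := Finset.filter_subset _ _
  have e0 : ∑ j ∈ s, ENNReal.ofReal (v j) *
      volume (strip (a i) (b i) w ∩ strip (a j) (b j) w)
      = ENNReal.ofReal (∑ j ∈ s', v j * vol j) := by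
    rw [ENNReal.ofReal_sum_of_nonneg (fun j hj => mul_nonneg (hv j (hs's hj)) ENNReal.toReal_nonneg)]
    rw [hs', Finset.sum_filter]
    apply Finset.sum_congr rfl
    intro j hj
    split_ifs with hne
    · rw [ENNReal.ofReal_mul (hv j hj), ← hvolr j hj]
    · rw [Set.not_nonempty_iff_eq_empty.1 hne]
      simp
  rw [e0]
  apply ENNReal.ofReal_le_ofReal
  have hθN : ∀ j ∈ s', θ j ≤ 2 ^ N * w := by
    intro j hj
    refine le_trans ?_ hN
    have h1 := abs_sub (b i) (b j)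
    have h2 := hb i hi
    have h3 := hb j (hs's hj)
    show |b i - b j| ≤ _
    linarith
  have hmain := dyadic_sum s' v θ vol (V := 4) (C := 8) (Δ := 5 * Δ) hw
    (fun j hj => hv j (hs's hj)) (by norm_num) (by norm_num) ?_ ?_ N ?_ N le_rfl
  · have e1 : s'.filter (fun j => θ j ≤ 2 ^ N * w) = s' := by
      apply Finset.filter_true_of_mem
      exact hθN
    rw [e1] at hmain
    refine hmain.trans (le_of_eq ?_)
    ring
  · intro j hj
    have := ENNReal.toReal_mono ENNReal.ofReal_ne_top (hfin j (hs's hj))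
    rwa [ENNReal.toReal_ofReal (by linarith)] at this
  · intro j hj hwθ
    have hpos : 0 < θ j := hw.trans hwθ
    have hne : b i ≠ b j := fun h => by
      have : θ j = 0 := by show |b i - b j| = 0; rw [h, sub_self, abs_zero]
      linarith
    have := ENNReal.toReal_mono ENNReal.ofReal_ne_top
      (volume_strip_inter (a i) (b i) (a j) (b j) w hw.le hne)
    rwa [ENNReal.toReal_ofReal (by positivity)] at this
  · intro k hk
    have h2k : (1 : ℝ) ≤ 2 ^ k := one_le_pow₀ (by norm_num)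
    have hr : w ≤ 5 * 2 ^ k * w := by nlinarith
    have h9 := hKT (5 * 2 ^ k * w) hr (s'.filter (fun j => θ j ≤ 2 ^ k * w))
      ((Finset.filter_subset _ _).trans hs's) ?_
    · have h10 : (∑ j ∈ s'.filter (fun j => θ j ≤ 2 ^ k * w), v j) * w
          ≤ (5 * Δ * 2 ^ k) * w := by
        refine h9.trans (le_of_eq ?_); ring
      exact le_of_mul_le_mul_right h10 hw
    · intro j hj
      rw [Finset.mem_filter] at hj
      obtain ⟨hj1, hj2⟩ := hj
      rw [hs', Finset.mem_filter] at hj1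
      refine (strip_subset hj1.2).trans (strip_mono ?_)
      have h11 : |b i - b j| ≤ 2 ^ k * w := hj2
      nlinarith

end Crest.Agent.R138.Slab535
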