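import Mathlib
import Crest.Agent.R138.Slab_535

/-!
# The finitary non-rotation lemma (helper877), part 2: lines, planks, tubes in `E2 × ℝ`
-/

set_option autoImplicit false

namespace Crest.Agent.R138.NR877

open MeasureTheory
open scoped ENNReal

/-- the plane -/
abbrev E2 := EuclideanSpace ℝ (Fin 2)

/-- position at time `z` of the line `l = (p, v)` -/
noncomputable def pos (l : E2 × E2) (z : ℝ) : E2 := l.1 + z • l.2

/-- rotation by a right angle -/
noncomputable def rot (e : E2) : E2 := !₂[-e 1, e 0]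

@[simp] theorem rot_zero (e : E2) : rot e 0 = -e 1 := rfl
@[simp] theorem rot_one (e : E2) : rot e 1 = e 0 := rfl

/-- the plank around the line `l` over the cell `|z - z0| ≤ ρ` with normal `e`, thickness `a1`,
width `a2` -/
def Plank (l : E2 × E2) (e : E2) (a1 a2 z0 ρ : ℝ) : Set (E2 × ℝ) :=
  {q | |q.2 - z0| ≤ ρ ∧ |inner ℝ (q.1 - pos l q.2) e| ≤ a1 ∧
    |inner ℝ (q.1 - pos l q.2) (rot e)| ≤ a2}

/-- the line `t` stays in the plank -/
def In (t l : E2 × E2) (e : E2) (a1 a2 z0 ρ : ℝ) : Prop :=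
  ∀ z, |z - z0| ≤ ρ → |inner ℝ (pos t z - pos l z) e| ≤ a1 ∧
    |inner ℝ (pos t z - pos l z) (rot e)| ≤ a2

/-- round tube around a line -/
def Tube (l : E2 × E2) (w z0 ρ : ℝ) : Set (E2 × ℝ) :=
  {q | |q.2 - z0| ≤ ρ ∧ ‖q.1 - pos l q.2‖ ≤ w}

/-- determinant of two plane vectors -/
def det2 (e f : E2) : ℝ := e 0 * f 1 - e 1 * f 0

theorem inner_eq (x e : E2) : inner ℝ x e = x 0 * e 0 + x 1 * e 1 := by
  rw [PiLp.inner_apply, Fin.sum_univ_two]
  simp [mul_comm]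

theorem normsq (x : E2) : ‖x‖ ^ 2 = x 0 ^ 2 + x 1 ^ 2 := by
  rw [EuclideanSpace.norm_sq_eq, Fin.sum_univ_two]
  simp

theorem unit_eq {e : E2} (he : ‖e‖ = 1) : e 0 ^ 2 + e 1 ^ 2 = 1 := by
  rw [← normsq, he]; norm_num

theorem norm_rot {e : E2} (he : ‖e‖ = 1) : ‖rot e‖ = 1 := by
  have h := normsq (rot e)
  have h2 := unit_eq he
  simp only [rot_zero, rot_one] at h
  have h3 : ‖rot e‖ ^ 2 = 1 := by rw [h]; linarith
  have h4 := norm_nonneg (rot e)
  nlinarith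

theorem abs_inner_le {x e : E2} (he : ‖e‖ = 1) : |inner ℝ x e| ≤ ‖x‖ := by
  have := abs_real_inner_le_norm x e
  rwa [he, mul_one] at this

theorem norm_le_add {x e : E2} (he : ‖e‖ = 1) :
    ‖x‖ ≤ |inner ℝ x e| + |inner ℝ x (rot e)| := by
  apply le_of_sq_le_sq _ (by positivity)
  have h := unit_eq he
  rw [normsq, inner_eq, inner_eq]
  simp only [rot_zero, rot_one]
  have e1 : x 0 ^ 2 + x 1 ^ 2
      = (x 0 * e 0 + x 1 * e 1) ^ 2 + (x 0 * -e 1 + x 1 * e 0) ^ 2 := by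
    have : (x 0 * e 0 + x 1 * e 1) ^ 2 + (x 0 * -e 1 + x 1 * e 0) ^ 2
      = (x 0 ^ 2 + x 1 ^ 2) * (e 0 ^ 2 + e 1 ^ 2) := by ring
    rw [this, h, mul_one]
  rw [e1]
  set a := x 0 * e 0 + x 1 * e 1
  set b := x 0 * -e 1 + x 1 * e 0
  nlinarith [abs_nonneg a, abs_nonneg b, sq_abs a, sq_abs b, mul_nonneg (abs_nonneg a)
    (abs_nonneg b)]

/-- two non parallel strips meet in a small set -/
theorem norm_le_of_det {x e f : E2} (he : ‖e‖ = 1) (hf : ‖f‖ = 1) {a b θ : ℝ}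
    (h1 : |inner ℝ x e| ≤ a) (h2 : |inner ℝ x f| ≤ b) (hθ : 0 < θ) (hd : θ ≤ |det2 e f|) :
    ‖x‖ ≤ (a + b) / θ := by
  rw [le_div_iff₀ hθ]
  have h3 : ‖x‖ * |det2 e f| ≤ a + b := by
    have ha : 0 ≤ a := (abs_nonneg _).trans h1
    have hb : 0 ≤ b := (abs_nonneg _).trans h2
    apply le_of_sq_le_sq _ (by positivity)
    rw [mul_pow, sq_abs, normsq]
    rw [inner_eq] at h1 h2
    set u := x 0 * e 0 + x 1 * e 1 with hu
    set v := x 0 * f 0 + x 1 * f 1 with hv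
    have he' := unit_eq he
    have hf' := unit_eq hf
    -- det * x = u * rot' f - v * rot' e
    have k1 : det2 e f * x 0 = u * f 1 - v * e 1 := by rw [hu, hv, det2]; ring
    have k2 : det2 e f * x 1 = v * e 0 - u * f 0 := by rw [hu, hv, det2]; ring
    have k3 : (x 0 ^ 2 + x 1 ^ 2) * det2 e f ^ 2
        = u ^ 2 + v ^ 2 - 2 * u * v * (e 0 * f 0 + e 1 * f 1) := by
      have : (x 0 ^ 2 + x 1 ^ 2) * det2 e f ^ 2 = (det2 e f * x 0) ^ 2 + (det2 e f * x 1) ^ 2 := by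
        ring
      rw [this, k1, k2]
      have : (u * f 1 - v * e 1) ^ 2 + (v * e 0 - u * f 0) ^ 2
          = u ^ 2 * (f 0 ^ 2 + f 1 ^ 2) + v ^ 2 * (e 0 ^ 2 + e 1 ^ 2)
            - 2 * u * v * (e 0 * f 0 + e 1 * f 1) := by ring
      rw [this, he', hf', mul_one, mul_one]
    rw [k3]
    have k4 : |e 0 * f 0 + e 1 * f 1| ≤ 1 := by
      have : (e 0 * f 0 + e 1 * f 1) ^ 2 ≤ 1 := by
        nlinarith [sq_nonneg (e 0 * f 1 - e 1 * f 0)]
      exact (abs_le_one_iff_mul_self_le_one).2 (by nlinarith)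
    have k5 : -(2 * u * v * (e 0 * f 0 + e 1 * f 1)) ≤ 2 * |u| * |v| := by
      have := neg_abs_le (2 * u * v * (e 0 * f 0 + e 1 * f 1))
      rw [abs_mul, abs_mul, abs_mul, abs_two] at this
      have h6 : 2 * |u| * |v| * |e 0 * f 0 + e 1 * f 1| ≤ 2 * |u| * |v| * 1 := by gcongr
      linarith
    have k6 : |u| * |v| ≤ a * b := by gcongr
    have k7 : u ^ 2 ≤ a ^ 2 := by rw [← sq_abs u]; gcongr
    have k8 : v ^ 2 ≤ b ^ 2 := by rw [← sq_abs v]; gcongr
    nlinarith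
  exact (mul_le_mul_of_nonneg_left hd (norm_nonneg x)).trans h3

theorem abs_det2_le_one {e f : E2} (he : ‖e‖ = 1) (hf : ‖f‖ = 1) : |det2 e f| ≤ 1 := by
  have he' := unit_eq he
  have hf' := unit_eq hf
  rw [abs_le_one_iff_mul_self_le_one, det2]
  nlinarith [sq_nonneg (e 0 * f 0 + e 1 * f 1)]

theorem pos_sub (t l : E2 × E2) (z z' : ℝ) :
    pos t z - pos l z = (pos t z' - pos l z') + (z - z') • (t.2 - l.2) := by
  simp only [pos]
  module

/-- affine functions: extension of a bound from `|z - z0| ≤ ρ` to `|z - z0| ≤ T ρ` -/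
theorem affine_bound {α β w ρ : ℝ} (hρ : 0 < ρ) (h : ∀ z, |z| ≤ ρ → |α + z * β| ≤ w) :
    |α| ≤ w ∧ |β| * ρ ≤ w := by
  have h0 := h 0 (by simp [hρ.le])
  have h1 := h ρ (by rw [abs_of_pos hρ])
  have h2 := h (-ρ) (by rw [abs_neg, abs_of_pos hρ])
  rw [zero_mul, add_zero] at h0
  refine ⟨h0, ?_⟩
  have : |β| * ρ = |ρ * β| := by rw [abs_mul, abs_of_pos hρ, mul_comm]
  rw [this]
  rw [abs_le] at *
  constructor <;> nlinarith

/-- bounds on position and velocity of a line in a plank -/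
theorem In.bounds {t l : E2 × E2} {e : E2} {a1 a2 z0 ρ : ℝ} (hρ : 0 < ρ)
    (h : In t l e a1 a2 z0 ρ) :
    (|inner ℝ (pos t z0 - pos l z0) e| ≤ a1 ∧ |inner ℝ (t.2 - l.2) e| * ρ ≤ a1) ∧
    (|inner ℝ (pos t z0 - pos l z0) (rot e)| ≤ a2 ∧ |inner ℝ (t.2 - l.2) (rot e)| * ρ ≤ a2) := by
  constructor
  · apply affine_bound hρ
    intro z hz
    have := (h (z0 + z) (by simpa using hz)).1
    rw [pos_sub t l (z0 + z) z0, inner_add_left, inner_smul_left] at this
    simpa using this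
  · apply affine_bound hρ
    intro z hz
    have := (h (z0 + z) (by simpa using hz)).2
    rw [pos_sub t l (z0 + z) z0, inner_add_left, inner_smul_left] at this
    simpa using this

/-- extension of a plank to a distant cell -/
theorem In.extend {t l : E2 × E2} {e : E2} {a1 a2 z1 z2 ρ H : ℝ} (hρ : 0 < ρ)
    (ha1 : 0 ≤ a1) (ha2 : 0 ≤ a2) (h : In t l e a1 a2 z1 ρ) (hH : 1 ≤ H) (hz : |z1 - z2| ≤ H * ρ) :
    In t l e (3 * H * a1) (3 * H * a2) z2 ρ := by
  obtain ⟨⟨p1, v1⟩, p2, v2⟩ := h.bounds hρ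
  intro z hz2
  have hzz : |z - z1| ≤ 2 * H * ρ := by
    have : z - z1 = (z - z2) + (z2 - z1) := by ring
    rw [this]
    have h1 := abs_add_le (z - z2) (z2 - z1)
    rw [abs_sub_comm z2 z1] at h1
    nlinarith
  have key : ∀ (n : E2) (a : ℝ), 0 ≤ a → |inner ℝ (pos t z1 - pos l z1) n| ≤ a →
      |inner ℝ (t.2 - l.2) n| * ρ ≤ a → |inner ℝ (pos t z - pos l z) n| ≤ 3 * H * a := by
    intro n a ha hp hv
    rw [pos_sub t l z z1, inner_add_left, inner_smul_left]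
    simp only [conj_trivial]
    have h2 := abs_add_le (inner ℝ (pos t z1 - pos l z1) n) ((z - z1) * inner ℝ (t.2 - l.2) n)
    rw [abs_mul] at h2
    have h3 : |z - z1| * |inner ℝ (t.2 - l.2) n| ≤ 2 * H * ρ * |inner ℝ (t.2 - l.2) n| := by
      gcongr
    have h4 : 2 * H * ρ * |inner ℝ (t.2 - l.2) n| = 2 * H * (|inner ℝ (t.2 - l.2) n| * ρ) := by
      ring
    have h5 : 2 * H * (|inner ℝ (t.2 - l.2) n| * ρ) ≤ 2 * H * a := by gcongr
    have h6 : a ≤ H * a := by nlinarith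
    linarith
  exact ⟨key e a1 ha1 p1 v1, key (rot e) a2 ha2 p2 v2⟩

/-- a round tube around a line of the plank lies in the doubled plank -/
theorem tube_subset_plank {t l : E2 × E2} {e : E2} (he : ‖e‖ = 1) {a1 a2 w z0 ρ : ℝ}
    (h : In t l e a1 a2 z0 ρ) : Tube t w z0 ρ ⊆ Plank l e (a1 + w) (a2 + w) z0 ρ := by
  rintro ⟨x, z⟩ ⟨hz, hx⟩
  simp only at hz hx
  obtain ⟨h1, h2⟩ := h z hz
  have e1 : x - pos l z = (pos t z - pos l z) + (x - pos t z) := by abel
  refine ⟨hz, ?_, ?_⟩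
  · simp only
    rw [e1, inner_add_left]
    have h3 := abs_inner_le (x := x - pos t z) he
    have h4 := abs_add_le (inner ℝ (pos t z - pos l z) e) (inner ℝ (x - pos t z) e)
    linarith
  · simp only
    rw [e1, inner_add_left]
    have h3 := abs_inner_le (x := x - pos t z) (norm_rot he)
    have h4 := abs_add_le (inner ℝ (pos t z - pos l z) (rot e)) (inner ℝ (x - pos t z) (rot e))
    linarith

theorem plank_mono {l : E2 × E2} {e : E2} {a1 a2 b1 b2 z0 ρ : ℝ} (h1 : a1 ≤ b1) (h2 : a2 ≤ b2) :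
    Plank l e a1 a2 z0 ρ ⊆ Plank l e b1 b2 z0 ρ := by
  rintro q ⟨hz, hx, hy⟩
  exact ⟨hz, hx.trans h1, hy.trans h2⟩

theorem In.mono {t l : E2 × E2} {e : E2} {a1 a2 b1 b2 z0 ρ : ℝ} (h : In t l e a1 a2 z0 ρ)
    (h1 : a1 ≤ b1) (h2 : a2 ≤ b2) : In t l e b1 b2 z0 ρ :=
  fun z hz => ⟨(h z hz).1.trans h1, (h z hz).2.trans h2⟩

/-- membership of lines from inclusion of planks -/
theorem In.of_subset {t l l' : E2 × E2} {e e' : E2} {a1 a2 b1 b2 z0 ρ : ℝ}
    (h : In t l e a1 a2 z0 ρ) (hs : Plank l e a1 a2 z0 ρ ⊆ Plank l' e' b1 b2 z0 ρ) :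
    In t l' e' b1 b2 z0 ρ := by
  intro z hz
  have h1 : (pos t z, z) ∈ Plank l e a1 a2 z0 ρ := ⟨hz, h z hz⟩
  exact (hs h1).2

theorem isClosed_plank (l : E2 × E2) (e : E2) (a1 a2 z0 ρ : ℝ) :
    IsClosed (Plank l e a1 a2 z0 ρ) := by
  have hc : Continuous (fun q : E2 × ℝ => q.1 - pos l q.2) := by unfold pos; fun_prop
  have h1 : IsClosed {q : E2 × ℝ | |q.2 - z0| ≤ ρ} := isClosed_le (by fun_prop) continuous_const
  have h2 : IsClosed {q : E2 × ℝ | |inner ℝ (q.1 - pos l q.2) e| ≤ a1} :=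
    isClosed_le (by fun_prop) continuous_const
  have h3 : IsClosed {q : E2 × ℝ | |inner ℝ (q.1 - pos l q.2) (rot e)| ≤ a2} :=
    isClosed_le (by fun_prop) continuous_const
  exact h1.inter (h2.inter h3)

theorem isClosed_tube (l : E2 × E2) (w z0 ρ : ℝ) : IsClosed (Tube l w z0 ρ) := by
  have hc : Continuous (fun q : E2 × ℝ => q.1 - pos l q.2) := by unfold pos; fun_prop
  have h1 : IsClosed {q : E2 × ℝ | |q.2 - z0| ≤ ρ} := isClosed_le (by fun_prop) continuous_const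
  have h2 : IsClosed {q : E2 × ℝ | ‖q.1 - pos l q.2‖ ≤ w} :=
    isClosed_le (by fun_prop) continuous_const
  exact h1.inter h2

/-- area of a rectangle -/
theorem volume_rect (c e : E2) (he : ‖e‖ = 1) (a1 a2 : ℝ) (ha1 : 0 ≤ a1) :
    volume {x : E2 | |inner ℝ (x - c) e| ≤ a1 ∧ |inner ℝ (x - c) (rot e)| ≤ a2}
      = ENNReal.ofReal (4 * a1 * a2) := by
  set M : Matrix (Fin 2) (Fin 2) ℝ := ![![e 0, e 1], ![-e 1, e 0]] with hM
  have hu := unit_eq he
  have hdet : M.det = 1 := by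
    rw [Matrix.det_fin_two]
    simp [hM]
    nlinarith
  set S : Set (Fin 2 → ℝ) := (Matrix.toLin' M) ⁻¹' (Set.Icc
    ![c 0 * e 0 + c 1 * e 1 - a1, c 0 * -e 1 + c 1 * e 0 - a2]
    ![c 0 * e 0 + c 1 * e 1 + a1, c 0 * -e 1 + c 1 * e 0 + a2]) with hS
  have hset : {x : E2 | |inner ℝ (x - c) e| ≤ a1 ∧ |inner ℝ (x - c) (rot e)| ≤ a2}
      = (fun x : E2 => (WithLp.ofLp x : Fin 2 → ℝ)) ⁻¹' S := by
    ext x
    simp only [hS, Set.mem_ofPred_eq, Set.mem_preimage, Set.mem_Icc, Pi.le_def,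
      Fin.forall_fin_two, Matrix.toLin'_apply, Matrix.mulVec, dotProduct, Fin.sum_univ_two,
      inner_eq, abs_le, rot_zero, rot_one, PiLp.sub_apply]
    simp [hM]
    constructor
    · rintro ⟨⟨b1, b2⟩, b3, b4⟩
      refine ⟨⟨?_, ?_⟩, ?_, ?_⟩ <;> linarith
    · rintro ⟨⟨b1, b2⟩, b3, b4⟩
      refine ⟨⟨?_, ?_⟩, ?_, ?_⟩ <;> linarith
  have hmS : MeasurableSet S := by
    rw [hS]
    exact (Matrix.toLin' M).continuous_of_finiteDimensional.measurable measurableSet_Icc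
  rw [hset, (PiLp.volume_preserving_ofLp (Fin 2)).measure_preimage hmS.nullMeasurableSet, hS]
  have hdet' : LinearMap.det (Matrix.toLin' M) ≠ 0 := by
    rw [LinearMap.det_toLin', hdet]; exact one_ne_zero
  rw [Measure.addHaar_preimage_linearMap _ hdet', LinearMap.det_toLin', hdet, Real.volume_Icc_pi,
    Fin.prod_univ_two]
  simp only [inv_one, abs_one, ENNReal.ofReal_one, one_mul, Matrix.cons_val_zero,
    Matrix.cons_val_one]
  rw [← ENNReal.ofReal_mul (by linarith)]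
  congr 1
  ring

/-- Fubini for subsets of a cell -/
theorem volume_cell (S : Set (E2 × ℝ)) (hS : MeasurableSet S) :
    volume S = ∫⁻ z : ℝ, volume {x : E2 | (x, z) ∈ S} := by
  rw [Measure.volume_eq_prod, Measure.prod_apply_symm hS]
  rfl

theorem volume_plank (l : E2 × E2) (e : E2) (he : ‖e‖ = 1) (a1 a2 z0 ρ : ℝ) (ha1 : 0 ≤ a1)
    (ha2 : 0 ≤ a2) :
    volume (Plank l e a1 a2 z0 ρ) = ENNReal.ofReal (8 * a1 * a2 * ρ) := by
  rw [volume_cell _ (isClosed_plank l e a1 a2 z0 ρ).measurableSet]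
  have h1 : ∀ z : ℝ, volume {x : E2 | (x, z) ∈ Plank l e a1 a2 z0 ρ}
      = (Set.Icc (z0 - ρ) (z0 + ρ)).indicator (fun _ => ENNReal.ofReal (4 * a1 * a2)) z := by
    intro z
    by_cases hz : |z - z0| ≤ ρ
    · have hz' : z ∈ Set.Icc (z0 - ρ) (z0 + ρ) := by
        rw [abs_le] at hz; constructor <;> linarith [hz.1, hz.2]
      rw [Set.indicator_of_mem hz', ← volume_rect (pos l z) e he a1 a2 ha1]
      congr 1
      ext x
      simp only [Plank, Set.mem_ofPred_eq]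
      exact ⟨fun h => h.2, fun h => ⟨hz, h⟩⟩
    · have hz' : z ∉ Set.Icc (z0 - ρ) (z0 + ρ) := by
        intro h; apply hz; rw [abs_le]; constructor <;> linarith [h.1, h.2]
      rw [Set.indicator_of_notMem hz']
      have : {x : E2 | (x, z) ∈ Plank l e a1 a2 z0 ρ} = ∅ := by
        ext x
        simp only [Plank, Set.mem_ofPred_eq, Set.mem_empty_iff_false, iff_false]
        exact fun h => hz h.1
      rw [this, measure_empty]
  simp_rw [h1]
  rw [lintegral_indicator measurableSet_Icc, setLIntegral_const, Real.volume_Icc,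
    ← ENNReal.ofReal_mul (by positivity)]
  congr 1
  ring

theorem volume_tube (l : E2 × E2) (w z0 ρ : ℝ) (hw : 0 ≤ w) :
    volume (Tube l w z0 ρ) = ENNReal.ofReal (2 * Real.pi * w ^ 2 * ρ) := by
  rw [volume_cell _ (isClosed_tube l w z0 ρ).measurableSet]
  have h1 : ∀ z : ℝ, volume {x : E2 | (x, z) ∈ Tube l w z0 ρ}
      = (Set.Icc (z0 - ρ) (z0 + ρ)).indicator
        (fun _ => ENNReal.ofReal (Real.pi * w ^ 2)) z := by
    intro z
    by_cases hz : |z - z0| ≤ ρ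
    · have hz' : z ∈ Set.Icc (z0 - ρ) (z0 + ρ) := by
        rw [abs_le] at hz; constructor <;> linarith [hz.1, hz.2]
      rw [Set.indicator_of_mem hz']
      have h2 : {x : E2 | (x, z) ∈ Tube l w z0 ρ} = Metric.closedBall (pos l z) w := by
        ext x
        simp only [Tube, Set.mem_ofPred_eq, Metric.mem_closedBall, dist_eq_norm]
        exact ⟨fun h => h.2, fun h => ⟨hz, h⟩⟩
      rw [h2, EuclideanSpace.volume_closedBall_fin_two, mul_comm (ENNReal.ofReal w ^ 2),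
        ← ENNReal.ofReal_pow hw]
      rw [ENNReal.ofReal_mul Real.pi_pos.le]
    · have hz' : z ∉ Set.Icc (z0 - ρ) (z0 + ρ) := by
        intro h; apply hz; rw [abs_le]; constructor <;> linarith [h.1, h.2]
      rw [Set.indicator_of_notMem hz']
      have : {x : E2 | (x, z) ∈ Tube l w z0 ρ} = ∅ := by
        ext x
        simp only [Tube, Set.mem_ofPred_eq, Set.mem_empty_iff_false, iff_false]
        exact fun h => hz h.1
      rw [this, measure_empty]
  simp_rw [h1]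
  rw [lintegral_indicator measurableSet_Icc, setLIntegral_const, Real.volume_Icc,
    ← ENNReal.ofReal_mul (by positivity)]
  congr 1
  ring

end Crest.Agent.R138.NR877
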