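import Crest.Agent.R138.Tub3_70
import Crest.Agent.R138.NR2_877

/-!
# R138 / R139: Kakeya for finite weighted families of cells, physical units, direction caps (helper535)

Weighted tubes `‖x - y i + t c i‖ ≤ w`, `|t| ≤ r`: `km_fin` = `KM32` in physical units without
cut-off, `cap_dmax` = the penalised plank bound inside one direction cap.
-/

set_option autoImplicit false

namespace Crest.Agent.R138.Mis535

open MeasureTheory Crest.Agent.R138.Tub70
open scoped ENNReal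

/-- phase box: frame `b`, sides `s1` (direction `b 0`), `s2` (direction `b 1`). -/
def PB (r : ℝ) (b : OrthonormalBasis (Fin 2) ℝ E2) (s1 s2 : ℝ) (c0 y0 c y : E2) : Prop :=
  |inner ℝ (c - c0) (b 0)| ≤ s1 ∧ |inner ℝ (c - c0) (b 1)| ≤ s2 ∧
    |inner ℝ (y - y0) (b 0)| ≤ s1 * r ∧ |inner ℝ (y - y0) (b 1)| ≤ s2 * r

/-- the sine of the angle between two unit vectors. -/
noncomputable def sn (e e' : E2) : ℝ := e 0 * e' 1 - e 1 * e' 0

theorem inner_eq (x e : E2) : inner ℝ x e = x 0 * e 0 + x 1 * e 1 := by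
  simp [PiLp.inner_apply, Fin.sum_univ_two, mul_comm]

theorem norm_sq_eq (u : E2) : ‖u‖ ^ 2 = u 0 * u 0 + u 1 * u 1 := by
  rw [EuclideanSpace.norm_sq_eq]
  simp only [Fin.sum_univ_two, Real.norm_eq_abs, sq_abs]
  ring

theorem sn_norm_le {u e e' : E2} (he : ‖e‖ = 1) (he' : ‖e'‖ = 1) :
    |sn e e'| * ‖u‖ ≤ |inner ℝ u e| + |inner ℝ u e'| := by
  refine le_of_sq_le_sq ?_ (by positivity)
  have h1 := norm_sq_eq e
  have h2 := norm_sq_eq e'
  rw [he] at h1
  rw [he'] at h2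
  rw [mul_pow, norm_sq_eq, sq_abs]
  unfold sn
  rw [inner_eq, inner_eq]
  have h3 : ∀ a b : ℝ, a ^ 2 + b ^ 2 - 2 * (e 0 * e' 0 + e 1 * e' 1) * (a * b) ≤ (|a| + |b|) ^ 2 := by
    intro a b
    have h4 : |e 0 * e' 0 + e 1 * e' 1| ≤ 1 := by
      rw [abs_le]
      constructor <;> nlinarith [sq_nonneg (e 0 - e' 0), sq_nonneg (e 1 - e' 1),
        sq_nonneg (e 0 + e' 0), sq_nonneg (e 1 + e' 1)]
    have h5 : |(e 0 * e' 0 + e 1 * e' 1) * (a * b)| ≤ |a| * |b| := by
      rw [abs_mul, abs_mul]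
      nlinarith [mul_nonneg (abs_nonneg a) (abs_nonneg b), abs_nonneg (e 0 * e' 0 + e 1 * e' 1)]
    have h6 := neg_abs_le ((e 0 * e' 0 + e 1 * e' 1) * (a * b))
    nlinarith [sq_abs a, sq_abs b]
  refine le_trans (le_of_eq ?_) (h3 (u 0 * e 0 + u 1 * e 1) (u 0 * e' 0 + u 1 * e' 1))
  have e1 : e 1 * e 1 = 1 - e 0 * e 0 := by linarith
  have e2 : e' 1 * e' 1 = 1 - e' 0 * e' 0 := by linarith
  have key : (e 0 * e' 1 - e 1 * e' 0) ^ 2 * (u 0 * u 0 + u 1 * u 1) -
      ((u 0 * e 0 + u 1 * e 1) ^ 2 + (u 0 * e' 0 + u 1 * e' 1) ^ 2 -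
      2 * (e 0 * e' 0 + e 1 * e' 1) * ((u 0 * e 0 + u 1 * e 1) * (u 0 * e' 0 + u 1 * e' 1))) = 
      (u 0 * e 0 + u 1 * e 1) ^ 2 * ((e' 0 * e' 0 + e' 1 * e' 1) - 1) + 
      (u 0 * e' 0 + u 1 * e' 1) ^ 2 * ((e 0 * e 0 + e 1 * e 1) - 1) := by
    ring
  rw [← h1, ← h2] at key
  linarith

/-- the cylinder `|t| ≤ r`. -/
def cy (r : ℝ) : Set (E2 × ℝ) := {p | |p.2| ≤ r}

theorem cy_eq (r : ℝ) : cy r = Set.univ ×ˢ Set.Icc (-r) r := by
  ext p
  simp [cy, abs_le]

theorem measurableSet_cy (r : ℝ) : MeasurableSet (cy r) := by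
  rw [cy_eq]
  exact MeasurableSet.univ.prod measurableSet_Icc

/-- the point `p` lies in the tube. -/
def InT (w : ℝ) (c y : E2) (p : E2 × ℝ) : Prop := ‖p.1 - y + p.2 • c‖ ≤ w

theorem measurableSet_inT (w : ℝ) (c y : E2) : MeasurableSet {p | InT w c y p} := by
  unfold InT
  exact (isClosed_le (by fun_prop) continuous_const).measurableSet

open Classical in
/-- the mass through a point. -/
noncomputable def ef {ι : Type} (w : ℝ) (c y : ι → E2) (μ : ι → ℝ) (J : Finset ι) (p : E2 × ℝ) : ℝ :=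
  ∑ i ∈ J, if InT w (c i) (y i) p then μ i else 0

section basic

variable {ι : Type} {w r : ℝ} {c y : ι → E2} {μ : ι → ℝ}

open Classical in
theorem ef_eq_indicator (J : Finset ι) (p : E2 × ℝ) :
    ef w c y μ J p = ∑ i ∈ J, {p | InT w (c i) (y i) p}.indicator (fun _ => μ i) p := by
  unfold ef
  refine Finset.sum_congr rfl fun i _ => ?_
  simp only [Set.indicator, Set.mem_ofPred_eq]

theorem measurable_ef (J : Finset ι) : Measurable (ef w c y μ J) := by
  have : ef w c y μ J = fun p => ∑ i ∈ J, {p | InT w (c i) (y i) p}.indicator (fun _ => μ i) p := by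
    funext p; exact ef_eq_indicator J p
  rw [this]
  exact Finset.measurable_fun_sum _ fun i _ =>
    measurable_const.indicator (measurableSet_inT w (c i) (y i))

theorem ef_nonneg (hμ : ∀ i, 0 ≤ μ i) (J : Finset ι) (p : E2 × ℝ) : 0 ≤ ef w c y μ J p := by
  unfold ef
  refine Finset.sum_nonneg fun i _ => ?_
  split_ifs
  · exact hμ i
  · exact le_rfl

theorem ef_mono (hμ : ∀ i, 0 ≤ μ i) {J J' : Finset ι} (h : J ⊆ J') (p : E2 × ℝ) :
    ef w c y μ J p ≤ ef w c y μ J' p := by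
  unfold ef
  refine Finset.sum_le_sum_of_subset_of_nonneg h fun i _ _ => ?_
  split_ifs
  · exact hμ i
  · exact le_rfl

open Classical in
theorem ofReal_ef (hμ : ∀ i, 0 ≤ μ i) (J : Finset ι) (p : E2 × ℝ) :
    ENNReal.ofReal (ef w c y μ J p) =
      ∑ i ∈ J, if InT w (c i) (y i) p then ENNReal.ofReal (μ i) else 0 := by
  unfold ef
  rw [ENNReal.ofReal_sum_of_nonneg]
  · refine Finset.sum_congr rfl fun i _ => ?_
    split_ifs <;> simp
  · intro i _
    split_ifs
    · exact hμ i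
    · exact le_rfl

end basic

open Classical in
/-- Kakeya for finite families, physical units. -/
theorem km_fin {V : ℝ} (hKM : KM32 V) (ε : ℝ) (hε : 0 < ε) : ∃ C : ℝ, 0 ≤ C ∧
    ∀ w r : ℝ, 0 < w → w ≤ r → ∀ (ι : Type) (J : Finset ι) (c y : ι → E2) (μ : ι → ℝ),
      (∀ i, 0 ≤ μ i) → (∀ i ∈ J, ‖y i‖ ≤ V * r) → (∀ i ∈ J, ‖c i‖ ≤ V) → ∀ Δ : ℝ, 0 ≤ Δ →
      (∀ (b : OrthonormalBasis (Fin 2) ℝ E2) (s1 s2 : ℝ) (c0 y0 : E2),
        w / r ≤ s1 → s1 ≤ 1 → w / r ≤ s2 → s2 ≤ 1 →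
          ∑ i ∈ J with PB r b s1 s2 c0 y0 (c i) (y i), μ i ≤ Δ * (s1 * s2 * r ^ 2)) →
      ∫⁻ p in cy r, ENNReal.ofReal (ef w c y μ J p) ^ (3/2 : ℝ) ≤
        ENNReal.ofReal (C * (w / r) ^ (-ε) * Real.sqrt Δ * (w ^ 3 * r * ∑ i ∈ J, μ i)) := by
  obtain ⟨C, hC, h⟩ := hKM ε hε
  refine ⟨C, hC, ?_⟩
  intro w r hw hwr ι J c y μ hμ hy hc Δ hΔ hpl
  have hr : 0 < r := hw.trans_le hwr
  have hδ : 0 < w / r := by positivity
  have hδ1 : w / r ≤ 1 := by rw [div_le_one hr]; exact hwr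
  have key := h (w / r) hδ hδ1 {i // i ∈ J} (fun i => r⁻¹ • y i) (fun i => - c i)
    (fun i => μ i / w ^ 2) (fun i => div_nonneg (hμ i) (by positivity))
    (fun i => by
      rw [norm_smul, norm_inv, Real.norm_eq_abs, abs_of_pos hr, inv_mul_le_iff₀ hr, mul_comm]
      exact hy i i.2)
    (fun i => by rw [norm_neg]; exact hc i i.2) Δ hΔ
    (fun b s p0 v0 hs => by
      have h1 := hpl b (s 0) (s 1) (-v0) (r • p0) (hs 0).1 (hs 0).2 (hs 1).1 (hs 1).2
      have h2 : (∑ i : {i // i ∈ J}, (if InPl b s p0 v0 (r⁻¹ • y i) (-c i) then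
          μ i / w ^ 2 * (w / r) ^ 2 else 0)) ≤
          (r ^ 2)⁻¹ * ∑ i ∈ J with PB r b (s 0) (s 1) (-v0) (r • p0) (c i) (y i), μ i := by
        rw [Finset.sum_coe_sort J (fun i => if InPl b s p0 v0 (r⁻¹ • y i) (-c i) then
          μ i / w ^ 2 * (w / r) ^ 2 else 0), Finset.mul_sum, Finset.sum_filter]
        refine Finset.sum_le_sum fun i _ => ?_
        by_cases hin : InPl b s p0 v0 (r⁻¹ • y i) (-c i)
        · have hpb : PB r b (s 0) (s 1) (-v0) (r • p0) (c i) (y i) := by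
            have hv : ∀ j, |inner ℝ (c i - -v0) (b j)| ≤ s j := by
              intro j
              have e1 := hin 1 (by norm_num) j
              have e2 := hin (-1) (by norm_num) j
              rw [inner_add_left, inner_smul_left] at e1 e2
              simp only [conj_trivial] at e1 e2
              have e3 : inner ℝ (-c i - v0) (b j) = - inner ℝ (c i - -v0) (b j) := by
                rw [← inner_neg_left]; congr 1; abel
              rw [e3] at e1 e2
              rw [abs_le] at e1 e2 ⊢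
              constructor <;> linarith [e1.1, e1.2, e2.1, e2.2]
            have hy' : ∀ j, |inner ℝ (y i - r • p0) (b j)| ≤ s j * r := by
              intro j
              have e1 := hin 0 (by norm_num) j
              rw [zero_smul, add_zero] at e1
              have e2 : y i - r • p0 = r • (r⁻¹ • y i - p0) := by
                rw [smul_sub, smul_smul, mul_inv_cancel₀ hr.ne', one_smul]
              rw [e2, inner_smul_left, abs_mul]
              simp only [conj_trivial]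
              rw [abs_of_pos hr, mul_comm]
              exact mul_le_mul_of_nonneg_right e1 hr.le
            exact ⟨hv 0, hv 1, hy' 0, hy' 1⟩
          rw [if_pos hin, if_pos hpb]
          apply le_of_eq
          field_simp
        · rw [if_neg hin]
          split_ifs
          · exact mul_nonneg (by positivity) (hμ i)
          · simp
      refine h2.trans ?_
      rw [inv_mul_le_iff₀ (by positivity)]
      calc _ ≤ Δ * (s 0 * s 1 * r ^ 2) := h1
        _ = r ^ 2 * (Δ * (s 0 * s 1)) := by ring)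
  have hm : Measurable fun p : E2 × ℝ => ENNReal.ofReal (ef w c y μ J p) ^ (3/2 : ℝ) :=
    (measurable_ef J).ennreal_ofReal.pow_const _
  rw [cy_eq, Measure.volume_eq_prod, ← Measure.prod_restrict, Measure.restrict_univ,
    lintegral_prod_symm _ hm.aemeasurable, lintegral_Icc_mul hr]
  have e1 : ∀ z : ℝ, ∫⁻ x : E2, ENNReal.ofReal (ef w c y μ J (x, r * z)) ^ (3/2 : ℝ) =
      ENNReal.ofReal (r ^ 2) * (ENNReal.ofReal (w ^ 3) * ∫⁻ x : E2,
        (∑ i : {i // i ∈ J}, (if ‖x - r⁻¹ • y i - z • (-c i)‖ ≤ w / r then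
          ENNReal.ofReal (μ i / w ^ 2) else 0)) ^ (3/2 : ℝ)) := by
    intro z
    rw [lintegral_smul_E2 hr]
    congr 1
    rw [← lintegral_const_mul' _ _ ENNReal.ofReal_ne_top]
    apply lintegral_congr
    intro x
    rw [ofReal_ef hμ, Finset.sum_coe_sort J (fun i => if ‖x - r⁻¹ • y i - z • (-c i)‖ ≤ w / r then
          ENNReal.ofReal (μ i / w ^ 2) else 0)]
    have e2 : ∀ i, (if InT w (c i) (y i) (r • x, r * z) then ENNReal.ofReal (μ i) else 0) =
        ENNReal.ofReal (w ^ 2) * (if ‖x - r⁻¹ • y i - z • (-c i)‖ ≤ w / r then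
          ENNReal.ofReal (μ i / w ^ 2) else 0) := by
      intro i
      have e : InT w (c i) (y i) (r • x, r * z) ↔ ‖x - r⁻¹ • y i - z • (-c i)‖ ≤ w / r := by
        unfold InT
        have e1 : r • x - y i + (r * z) • c i = r • (x - r⁻¹ • y i - z • (-c i)) := by
          rw [smul_sub, smul_sub, smul_smul, mul_inv_cancel₀ hr.ne', one_smul, smul_smul,
            smul_neg, sub_neg_eq_add]
        simp only
        rw [e1, norm_smul, Real.norm_eq_abs, abs_of_pos hr, le_div_iff₀ hr, mul_comm]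
      simp only [e]
      split_ifs
      · rw [← ENNReal.ofReal_mul (by positivity)]
        congr 1
        field_simp
      · simp
    simp only [e2]
    rw [← Finset.mul_sum, ENNReal.mul_rpow_of_nonneg _ _ (by norm_num)]
    congr 1
    rw [ENNReal.ofReal_rpow_of_nonneg (by positivity) (by norm_num)]
    congr 1
    rw [← Real.rpow_natCast, ← Real.rpow_natCast, ← Real.rpow_mul hw.le]
    norm_num
  simp only [e1]
  rw [lintegral_const_mul' _ _ ENNReal.ofReal_ne_top, lintegral_const_mul' _ _ ENNReal.ofReal_ne_top]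
  calc _ ≤ ENNReal.ofReal r * (ENNReal.ofReal (r ^ 2) * (ENNReal.ofReal (w ^ 3) *
        ENNReal.ofReal (C * (w / r) ^ (-ε) * Real.sqrt Δ * ∑ i : {i // i ∈ J}, μ i / w ^ 2 * (w / r) ^ 2))) := by
        gcongr
    _ = _ := by
        rw [← ENNReal.ofReal_mul (by positivity), ← ENNReal.ofReal_mul (by positivity),
          ← ENNReal.ofReal_mul hr.le]
        congr 1
        rw [Finset.sum_coe_sort J (fun i => μ i / w ^ 2 * (w / r) ^ 2)]
        have : ∑ i ∈ J, μ i / w ^ 2 * (w / r) ^ 2 = (r ^ 2)⁻¹ * ∑ i ∈ J, μ i := by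
          rw [Finset.mul_sum]
          apply Finset.sum_congr rfl
          intro i _
          field_simp
        rw [this]
        field_simp

open Classical in
/-- pigeonhole on two coordinates. -/
theorem sum_le_card_mul {ι κ : Type*} [DecidableEq κ] (S : Finset ι) (K : Finset κ) (k : ι → κ)
    (f : ι → ℝ) {B : ℝ} (hk : ∀ i ∈ S, k i ∈ K) (hB : ∀ j ∈ K, ∑ i ∈ S with k i = j, f i ≤ B) :
    ∑ i ∈ S, f i ≤ K.card * B := by
  rw [← Finset.sum_fiberwise_of_maps_to hk, ← nsmul_eq_mul]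
  exact Finset.sum_le_card_nsmul _ _ _ hB

/-- the vector of coordinates `f` in the frame `b`. -/
noncomputable def vec (b : OrthonormalBasis (Fin 2) ℝ E2) (f : Fin 2 → ℝ) : E2 :=
  b.repr.symm (WithLp.toLp 2 f)

theorem inner_vec (b : OrthonormalBasis (Fin 2) ℝ E2) (f : Fin 2 → ℝ) (j : Fin 2) :
    inner ℝ (vec b f) (b j) = f j := by
  unfold vec
  rw [real_inner_comm, ← OrthonormalBasis.repr_apply_apply, LinearIsometryEquiv.apply_symm_apply]

open Classical in
/-- D-max inside a direction cap. -/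
theorem cap_dmax {ι : Type} {w r q D : ℝ} (hw : 0 < w) (hr : 0 < r) (hq : 0 ≤ q) (hD : 0 ≤ D)
    (I : Finset ι) (c y : ι → E2) (μ : ι → ℝ) (hμ : ∀ i, 0 ≤ μ i)
    (hdm : ∀ (b : OrthonormalBasis (Fin 2) ℝ E2) (s1 s2 : ℝ) (c0 y0 : E2),
        w / r ≤ s1 → s1 ≤ 1 → w / r ≤ s2 → s2 ≤ 1 →
          ∑ i ∈ I with PB r b s1 s2 c0 y0 (c i) (y i), μ i ≤ D * (max s1 s2) ^ q * (s1 * s2 * r ^ 2))
    (ξ : E2) (s : ℝ) (hs : w / r ≤ s) (b : OrthonormalBasis (Fin 2) ℝ E2) (s1 s2 : ℝ) (c0 y0 : E2)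
    (h1 : w / r ≤ s1) (h1' : s1 ≤ 1) (h2 : w / r ≤ s2) (h2' : s2 ≤ 1) :
    ∑ i ∈ I.filter (fun i => ‖c i - ξ‖ ≤ s) with PB r b s1 s2 c0 y0 (c i) (y i), μ i ≤
      25 * D * s ^ q * (s1 * s2 * r ^ 2) := by
  have hθ : 0 < w / r := by positivity
  set σ1 := min s1 s with hσ1
  set σ2 := min s2 s with hσ2
  have hσ1p : w / r ≤ σ1 := le_min h1 hs
  have hσ2p : w / r ≤ σ2 := le_min h2 hs
  have p1 : 0 < σ1 := hθ.trans_le hσ1p
  have p2 : 0 < σ2 := hθ.trans_le hσ2p
  have q1 : σ1 ≤ s1 := min_le_left _ _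
  have q2 : σ2 ≤ s2 := min_le_left _ _
  set n1 : ℤ := ⌈s1 / σ1⌉ with hn1
  set n2 : ℤ := ⌈s2 / σ2⌉ with hn2
  have hn1p : 1 ≤ s1 / σ1 := by rw [le_div_iff₀ p1]; linarith
  have hn2p : 1 ≤ s2 / σ2 := by rw [le_div_iff₀ p2]; linarith
  set K : Finset (ℤ × ℤ) := Finset.Icc (-n1) n1 ×ˢ Finset.Icc (-n2) n2 with hK
  have hn1' : (n1 : ℝ) < s1 / σ1 + 1 := Int.ceil_lt_add_one _
  have hn2' : (n2 : ℝ) < s2 / σ2 + 1 := Int.ceil_lt_add_one _
  have hn1z : (s1 / σ1 : ℝ) ≤ n1 := Int.le_ceil _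
  have hn2z : (s2 / σ2 : ℝ) ≤ n2 := Int.le_ceil _
  have hcard : (K.card : ℝ) ≤ 25 * (s1 / σ1) * (s2 / σ2) := by
    have c1 : ((Finset.Icc (-n1) n1).card : ℝ) ≤ 5 * (s1 / σ1) := by
      rw [Int.card_Icc]
      have : ((n1 + 1 - -n1).toNat : ℝ) = 2 * n1 + 1 := by
        have h0 : (0 : ℤ) ≤ n1 + 1 - -n1 := by
          have : (0 : ℝ) ≤ n1 := by linarith
          have : (0 : ℤ) ≤ n1 := by exact_mod_cast this
          omega
        have := Int.toNat_of_nonneg h0
        have h3 : (((n1 + 1 - -n1).toNat : ℤ) : ℝ) = ((n1 + 1 - -n1 : ℤ) : ℝ) := by rw [this]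
        push_cast at h3
        rw [← Int.cast_natCast (R := ℝ)]
        push_cast
        linarith
      rw [this]
      linarith
    have c2 : ((Finset.Icc (-n2) n2).card : ℝ) ≤ 5 * (s2 / σ2) := by
      rw [Int.card_Icc]
      have : ((n2 + 1 - -n2).toNat : ℝ) = 2 * n2 + 1 := by
        have h0 : (0 : ℤ) ≤ n2 + 1 - -n2 := by
          have : (0 : ℝ) ≤ n2 := by linarith
          have : (0 : ℤ) ≤ n2 := by exact_mod_cast this
          omega
        have := Int.toNat_of_nonneg h0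
        have h3 : (((n2 + 1 - -n2).toNat : ℤ) : ℝ) = ((n2 + 1 - -n2 : ℤ) : ℝ) := by rw [this]
        push_cast at h3
        rw [← Int.cast_natCast (R := ℝ)]
        push_cast
        linarith
      rw [this]
      linarith
    rw [hK, Finset.card_product]
    push_cast
    calc _ ≤ (5 * (s1 / σ1)) * (5 * (s2 / σ2)) :=
          mul_le_mul c1 c2 (Nat.cast_nonneg _) (by positivity)
      _ = _ := by ring
  set S := (I.filter (fun i => ‖c i - ξ‖ ≤ s)).filter (fun i => PB r b s1 s2 c0 y0 (c i) (y i)) with hS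
  have hmain := sum_le_card_mul S K
    (fun i => (⌊inner ℝ (y i - y0) (b 0) / (σ1 * r)⌋, ⌊inner ℝ (y i - y0) (b 1) / (σ2 * r)⌋)) μ
    (B := D * (max σ1 σ2) ^ q * (σ1 * σ2 * r ^ 2)) ?_ ?_
  · refine hmain.trans ?_
    have hmx : max σ1 σ2 ^ q ≤ s ^ q :=
      Real.rpow_le_rpow (le_max_of_le_left p1.le) (max_le (min_le_right _ _) (min_le_right _ _)) hq
    have hmx0 : 0 ≤ max σ1 σ2 ^ q := Real.rpow_nonneg (le_max_of_le_left p1.le) _
    calc (K.card : ℝ) * (D * (max σ1 σ2) ^ q * (σ1 * σ2 * r ^ 2))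
        ≤ (25 * (s1 / σ1) * (s2 / σ2)) * (D * s ^ q * (σ1 * σ2 * r ^ 2)) := by
          apply mul_le_mul hcard _ (by positivity) (by positivity)
          gcongr
      _ = _ := by field_simp
  · intro i hi
    rw [hS, Finset.mem_filter] at hi
    obtain ⟨_, _, _, hy1, hy2⟩ := hi
    rw [hK, Finset.mem_product, Finset.mem_Icc, Finset.mem_Icc]
    have aux : ∀ (u s' σ : ℝ) (n : ℤ), 0 < σ → |u| ≤ s' * r → s' / σ ≤ n →
        -n ≤ ⌊u / (σ * r)⌋ ∧ ⌊u / (σ * r)⌋ ≤ n := by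
      intro u s' σ n hσ hu hn
      have hσr : 0 < σ * r := by positivity
      have h3 : |u / (σ * r)| ≤ n := by
        rw [abs_div, abs_of_pos hσr, div_le_iff₀ hσr]
        refine hu.trans ?_
        rw [div_le_iff₀ hσ] at hn
        nlinarith
      rw [abs_le] at h3
      constructor
      · rw [Int.le_floor]; push_cast; exact h3.1
      · have : ((⌊u / (σ * r)⌋ : ℤ) : ℝ) ≤ n := (Int.floor_le _).trans h3.2
        exact_mod_cast this
    exact ⟨aux _ _ _ _ p1 hy1 hn1z, aux _ _ _ _ p2 hy2 hn2z⟩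
  · intro k _
    set c1 : E2 := vec b ![if s1 ≤ s then inner ℝ c0 (b 0) else inner ℝ ξ (b 0),
      if s2 ≤ s then inner ℝ c0 (b 1) else inner ℝ ξ (b 1)] with hc1
    set y1 : E2 := y0 + vec b ![k.1 * (σ1 * r), k.2 * (σ2 * r)] with hy1
    refine le_trans ?_ (hdm b σ1 σ2 c1 y1 hσ1p (q1.trans h1') hσ2p (q2.trans h2'))
    apply Finset.sum_le_sum_of_subset_of_nonneg
    · intro i hi
      rw [Finset.mem_filter, hS, Finset.mem_filter, Finset.mem_filter] at hi
      obtain ⟨⟨⟨hI, hcap⟩, hv1, hv2, hyy1, hyy2⟩, hk⟩ := hi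
      rw [Finset.mem_filter]
      refine ⟨hI, ?_⟩
      have hk1 : ⌊inner ℝ (y i - y0) (b 0) / (σ1 * r)⌋ = k.1 := by rw [← hk]
      have hk2 : ⌊inner ℝ (y i - y0) (b 1) / (σ2 * r)⌋ = k.2 := by rw [← hk]
      have hcapj : ∀ j, |inner ℝ (c i - ξ) (b j)| ≤ s := fun j =>
        (abs_real_inner_le_norm _ _).trans (by rw [b.orthonormal.1 j, mul_one]; exact hcap)
      have auxy : ∀ (u σ : ℝ) (n : ℤ), 0 < σ → ⌊u / (σ * r)⌋ = n → |u - n * (σ * r)| ≤ σ * r := by
        intro u σ n hσ hn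
        have hσr : 0 < σ * r := by positivity
        have h3 := Int.floor_le (u / (σ * r))
        have h4 := Int.lt_floor_add_one (u / (σ * r))
        rw [hn] at h3 h4
        rw [le_div_iff₀ hσr] at h3
        rw [div_lt_iff₀ hσr] at h4
        rw [abs_le]
        constructor <;> linarith
      refine ⟨?_, ?_, ?_, ?_⟩
      · rw [inner_sub_left, hc1, inner_vec]
        simp only [Matrix.cons_val_zero]
        split_ifs with hc
        · rw [← inner_sub_left, hσ1, min_eq_left hc]; exact hv1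
        · rw [← inner_sub_left, hσ1, min_eq_right (not_le.1 hc).le]; exact hcapj 0
      · rw [inner_sub_left, hc1, inner_vec]
        simp only [Matrix.cons_val_one, Matrix.cons_val_zero]
        split_ifs with hc
        · rw [← inner_sub_left, hσ2, min_eq_left hc]; exact hv2
        · rw [← inner_sub_left, hσ2, min_eq_right (not_le.1 hc).le]; exact hcapj 1
      · rw [hy1, ← sub_sub, inner_sub_left, inner_vec]
        exact auxy _ _ _ p1 hk1
      · rw [hy1, ← sub_sub, inner_sub_left, inner_vec]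
        exact auxy _ _ _ p2 hk2
    · intro i _ _
      exact hμ i

end Crest.Agent.R138.Mis535
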