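import Crest.Agent.R138.Tri_323
import Crest.Agent.R138.WDef_188

/-!
# R138 wave side: **TRIV1** (helper323), the literal Prop of `WDef_188`
-/

set_option autoImplicit false

open MeasureTheory FourierTransform
open scoped ContDiff ENNReal

namespace Crest.Agent.R138.W323

open Crest.Agent.R138.Defs Crest.Agent.R138.Bil882 Crest.Agent.R138.W188

theorem En_nonneg (g : E2 → ℂ) : 0 ≤ En g := integral_nonneg fun _ => by positivity

theorem SS_nonneg {g : E2 → ℂ} {R D : ℝ} (hR : 0 ≤ R) : 0 ≤ SS g R D := by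
  unfold SS; have := En_nonneg g; positivity

theorem hfin_ball : volume (Metric.closedBall (0 : E2) 1) < ⊤ :=
  lt_of_le_of_lt volume_ball_le (by norm_num)

theorem integrable_sq {g : E2 → ℂ} (hg : Measurable g) (hb : ∃ M : ℝ, ∀ ξ, ‖g ξ‖ ≤ M)
    (hs : ∀ ξ, 1 < ‖ξ‖ → g ξ = 0) : Integrable fun ξ => ‖g ξ‖ ^ 2 := by
  obtain ⟨M, hM⟩ := hb
  have hs' : ∀ ξ, ξ ∉ Metric.closedBall (0 : E2) 1 → g ξ = 0 := fun ξ hξ =>
    hs ξ (by simpa using hξ)
  have := F4x858.memLp_of_bdd hg hM hfin_ball Metric.isClosed_closedBall.measurableSet hs' 2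
  exact this.norm.integrable_sq

theorem lint_sq {g : E2 → ℂ} (hg : Measurable g) (hb : ∃ M : ℝ, ∀ ξ, ‖g ξ‖ ≤ M)
    (hs : ∀ ξ, 1 < ‖ξ‖ → g ξ = 0) : ∫⁻ ξ, ‖g ξ‖ₑ ^ 2 = ENNReal.ofReal (En g) := by
  unfold En
  rw [ofReal_integral_eq_lintegral_ofReal (integrable_sq hg hb hs)
    (Filter.Eventually.of_forall fun _ => by positivity)]
  refine lintegral_congr fun ξ => ?_
  rw [ENNReal.ofReal_pow (norm_nonneg _), ofReal_norm]

theorem NN_eq (N : ℕ) (h : E2 → ℝ) (g : E2 → ℂ) (w R : ℝ) :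
    NN N h g w R = ∫⁻ z in cyl R, av N h g w z ^ (3 / 2 : ℝ) := by
  unfold NN av
  simp only [inv_pow]

/-- general form: any exponent in the non-degeneracy hypothesis. -/
theorem exists_triv1' : ∃ C : ℝ, 0 < C ∧ ∀ (N : ℕ) (_ : 8 ≤ N) (h : E2 → ℝ)
    (_ : Continuous h) (g : E2 → ℂ)
    (_ : Measurable g) (_ : ∃ M : ℝ, ∀ ξ, ‖g ξ‖ ≤ M) (_ : ∀ ξ, 1 < ‖ξ‖ → g ξ = 0) (w R D K : ℝ)
    (_ : 0 < w) (_ : 0 ≤ R) (_ : 0 ≤ K) (_ : 0 ≤ D) (_ : En g ≤ K ^ 2 * D),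
    NN N h g w R ≤ ENNReal.ofReal (C * K * SS g R D) := by
  obtain ⟨C, hC, H⟩ := exists_triv1
  refine ⟨C, hC, fun N hN h hh g hg hb hs w R D K hw hR hK hD hnd => ?_⟩
  rw [NN_eq]
  refine (H N hN h hh g hg hb hs w R hw hR).trans ?_
  rw [lint_sq hg hb hs]
  have hE := En_nonneg g
  rw [ENNReal.ofReal_rpow_of_nonneg hE (by norm_num), ← ENNReal.ofReal_mul (by positivity)]
  refine ENNReal.ofReal_le_ofReal ?_
  have h1 : En g ^ (3 / 2 : ℝ) = En g * Real.sqrt (En g) := by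
    rw [show (3 / 2 : ℝ) = 1 + 1 / 2 by norm_num, Real.rpow_add_of_nonneg hE (by norm_num)
      (by norm_num), Real.rpow_one, Real.sqrt_eq_rpow]
  have h2 : Real.sqrt (En g) ≤ K * Real.sqrt D := by
    refine (Real.sqrt_le_sqrt hnd).trans ?_
    rw [Real.sqrt_mul (by positivity), Real.sqrt_sq hK]
  rw [h1]
  unfold SS
  calc C * R * (En g * Real.sqrt (En g)) ≤ C * R * (En g * (K * Real.sqrt D)) := by gcongr
    _ = C * K * (R * En g * Real.sqrt D) := by ring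

/-- **TRIV1**. -/
theorem TRIV1_holds (B : ℕ → ℝ) (q : ℝ) : TRIV1 B q := by
  obtain ⟨C, hC, H⟩ := exists_triv1'
  intro Na M0
  refine ⟨8, C, hC.le, fun h g R D w hst hw => ?_⟩
  have hR : 0 < R := lt_of_lt_of_le (by norm_num) hst.R1
  refine H 8 le_rfl h hst.par.1.continuous g hst.meas hst.bdd hst.supp w R D (R ^ (M0 / 2))
    (by linarith) hR.le (by positivity) hst.D0 ?_
  rw [← Real.rpow_natCast, ← Real.rpow_mul hR.le]
  refine hst.nd.trans (le_of_eq ?_)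
  congr 2
  push_cast; ring

end Crest.Agent.R138.W323
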