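import Crest.Agent.R138.Zm1_858

/-!
# R138 / R139: ZOOM (helper858), part 2: `AA_resc`, change of scale of the averages
-/

set_option autoImplicit false

open MeasureTheory FourierTransform
open scoped ContDiff ENNReal

namespace Crest.Agent.R138.Zm858

open Crest.Agent.R138.Defs Crest.Agent.R138.Bil882 Crest.Agent.R138.W188
open Crest.Agent.R138.Resc574 (hR Ph PhH lintegral_Ph enorm_ext_resc parB_hR gradient_hR_zero)
open Crest.Agent.R138.Wf448 (dw gw wE LI sl wE_sl transport_far gradient_lip dw_pos)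
open Crest.Agent.R138.T774 (AA)
open Crest.Agent.R138.F4x858 (memLp_of_bdd)

/-- bounded measurable functions supported in a ball are integrable. -/
theorem memLp_ball {g : E2 → ℂ} (hm : Measurable g) (hb : ∃ M : ℝ, ∀ ξ, ‖g ξ‖ ≤ M) {ξ0 : E2}
    {r : ℝ} (hs : ∀ ξ, r < ‖ξ - ξ0‖ → g ξ = 0) (p : ℝ≥0∞) : MemLp g p := by
  obtain ⟨M, hM⟩ := hb
  refine memLp_of_bdd hm hM (S := Metric.closedBall ξ0 r) measure_closedBall_lt_top
    Metric.isClosed_closedBall.measurableSet (fun ξ hξ => hs ξ ?_) p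
  rw [Metric.mem_closedBall, dist_eq_norm, not_le] at hξ
  exact hξ

theorem int_ball {g : E2 → ℂ} (hm : Measurable g) (hb : ∃ M : ℝ, ∀ ξ, ‖g ξ‖ ≤ M) {ξ0 : E2}
    {r : ℝ} (hs : ∀ ξ, r < ‖ξ - ξ0‖ → g ξ = 0) : Integrable g :=
  memLp_one_iff_integrable.1 (memLp_ball hm hb hs 1)

/-- **Lemma A**: local averages under the parabolic rescaling. -/
theorem AA_resc (n : ℕ) (B : ℕ → ℝ) (hB : B 2 ≤ 1) : ∃ C : ℝ, 0 ≤ C ∧ ∀ h, ParB B h →
    ∀ (g : E2 → ℂ) (ξ0 : E2) (l w : ℝ), 0 < l → l ≤ 1 → 0 < w → 1 ≤ l * w →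
    ‖gradient h ξ0‖ ≤ 2 → Measurable g → (∃ M : ℝ, ∀ ξ, ‖g ξ‖ ≤ M) →
    (∀ ξ, l / 2 < ‖ξ - ξ0‖ → g ξ = 0) → ∀ z : E2 × ℝ,
    AA (2 * n + (2 * n + 2)) w (fun p => ext h g p.1 p.2) z ≤
      ENNReal.ofReal (C * l ^ 4) * AA (2 * n) (l * w)
        (fun p => ext (hR h ξ0 l) (fun η => g (ξ0 + l • η)) p.1 p.2)
        (Ph (gradient h ξ0) l z) := by
  obtain ⟨C1, hC1, H1⟩ := slice_avg n B hB
  obtain ⟨C2, hC2, H2⟩ := lint_time
  refine ⟨4 ^ n * C1 * C2 / 2, by positivity, ?_⟩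
  intro h hh g ξ0 l w hl hl1 hw hW hv hm hb hs z
  have hd : Differentiable ℝ h := hh.1.differentiable (by simp)
  set v := gradient h ξ0 with hvd
  set h' := hR h ξ0 l with hh'
  set g' : E2 → ℂ := fun η => g (ξ0 + l • η) with hg'
  set W := l * w with hWd
  set K := l ^ 2 * w with hK
  have hK0 : 0 < K := by positivity
  have hW0 : 0 < W := by positivity
  have hKW : K ≤ W := by rw [hK, hWd, pow_two, mul_assoc]; exact mul_le_of_le_one_left hW0.le hl1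
  have hm' : Measurable g' := hm.comp (by fun_prop)
  have hb' : ∃ M : ℝ, ∀ ξ, ‖g' ξ‖ ≤ M := by obtain ⟨M, hM⟩ := hb; exact ⟨M, fun ξ => hM _⟩
  have hs' : ∀ ξ, 1 / 2 < ‖ξ‖ → g' ξ = 0 := by
    intro ξ hξ
    refine hs _ ?_
    rw [add_sub_cancel_left, norm_smul, Real.norm_of_nonneg hl.le]
    calc l / 2 = l * (1 / 2) := by ring
      _ < l * ‖ξ‖ := by gcongr
  have hs'' : ∀ ξ, 1 / 2 < ‖ξ - 0‖ → g' ξ = 0 := by simpa using hs'
  have hi' : Integrable g' := int_ball hm' hb' hs''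
  have hi2' : MemLp g' 2 := memLp_ball hm' hb' hs'' 2
  have hh2 : ParB B h' := parB_hR hh ξ0 hl hl1
  have hgz : gradient h' 0 = 0 := gradient_hR_zero hd ξ0 hl.ne'
  have hcont := F4x858.continuous_ext hh2.1.continuous hi'
  set z' := Ph v l z with hz'
  set F' : E2 × ℝ → ℂ := fun p => ext h' g' p.1 p.2 with hF'
  set J : ℝ≥0∞ := ENNReal.ofReal (W ^ 3) * AA (2 * n) W F' z' with hJ
  set Θ : E2 × ℝ → ℝ≥0∞ := fun q => ‖F' q‖ₑ ^ 2 * ENNReal.ofReal
    (dw n (sc W) (q.1 - z'.1) * ((1 + |q.2 - z'.2| / K) ^ (2 * n + 2))⁻¹) with hΘ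
  have hdwc : Continuous (dw n (sc W) : E2 → ℝ) := Wf448.continuous_dw n _
  have hΘm : Measurable Θ := by
    refine (hcont.measurable.enorm.pow_const 2).mul (Measurable.ennreal_ofReal ?_)
    refine ((hdwc.comp (continuous_fst.sub continuous_const)).measurable).mul ?_
    refine Measurable.inv (Measurable.pow_const ?_ _)
    fun_prop
  -- (i) change of variables
  have s1 : ∫⁻ p : E2 × ℝ, ‖ext h g p.1 p.2‖ₑ ^ 2 *
      ENNReal.ofReal (wt (2 * n + (2 * n + 2)) w z.1 z.2 p) ≤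
      ENNReal.ofReal (4 ^ n) * ∫⁻ q, Θ q := by
    calc _ ≤ ∫⁻ p : E2 × ℝ, (fun q => ENNReal.ofReal (l ^ 4 * 4 ^ n) * Θ q) (Ph v l p) := by
          refine lintegral_mono fun p => ?_
          rw [enorm_ext_resc h g ξ0 hl p, mul_pow, ← ENNReal.ofReal_pow (by positivity), ← pow_mul]
          simp only [hΘ]
          calc ENNReal.ofReal (l ^ (2 * 2)) * ‖ext (hR h ξ0 l) (fun η => g (ξ0 + l • η))
                (Ph (gradient h ξ0) l p).1 (Ph (gradient h ξ0) l p).2‖ₑ ^ 2 *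
                ENNReal.ofReal (wt (2 * n + (2 * n + 2)) w z.1 z.2 p)
              ≤ ENNReal.ofReal (l ^ (2 * 2)) * ‖ext (hR h ξ0 l) (fun η => g (ξ0 + l • η))
                (Ph (gradient h ξ0) l p).1 (Ph (gradient h ξ0) l p).2‖ₑ ^ 2 *
                ENNReal.ofReal (4 ^ n * (dw n (sc W) ((Ph v l p).1 - z'.1) *
                  ((1 + |(Ph v l p).2 - z'.2| / K) ^ (2 * n + 2))⁻¹)) := by
                gcongr
                exact wt_split n (2 * n + 2) hl hw hv z p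
            _ = _ := by
                rw [ENNReal.ofReal_mul (show (0:ℝ) ≤ 4 ^ n by positivity),
                  ENNReal.ofReal_mul (show (0:ℝ) ≤ l ^ 4 by positivity)]
                simp only [hF', hh', hg', hvd]
                ring
      _ = ENNReal.ofReal ((l ^ 4)⁻¹) * ∫⁻ q, ENNReal.ofReal (l ^ 4 * 4 ^ n) * Θ q :=
          lintegral_Ph v hl (fun q => ENNReal.ofReal (l ^ 4 * 4 ^ n) * Θ q)
      _ = _ := by
          rw [lintegral_const_mul' _ _ ENNReal.ofReal_ne_top, ← mul_assoc,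
            ← ENNReal.ofReal_mul (by positivity)]
          congr 2
          field_simp
  -- (ii) slices
  have s2 : ∫⁻ q, Θ q = ∫⁻ t : ℝ, ENNReal.ofReal (((1 + |t - z'.2| / K) ^ (2 * n + 2))⁻¹) *
      wE n (sc W) z'.1 (sl h' g' t) := by
    rw [Measure.volume_eq_prod, lintegral_prod_symm _ hΘm.aemeasurable]
    refine lintegral_congr fun t => ?_
    rw [wE_sl]
    unfold LI
    rw [← lintegral_const_mul' _ _ ENNReal.ofReal_ne_top]
    refine lintegral_congr fun x => ?_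
    simp only [hΘ, hF']
    rw [ENNReal.ofReal_mul (dw_pos _ _ _).le, ENNReal.ofReal_mul (dw_pos _ _ _).le, ← ofReal_norm,
      ENNReal.ofReal_pow (norm_nonneg _)]
    ring
  -- (iii) one slice
  have s3 : ∀ t : ℝ, ENNReal.ofReal (((1 + |t - z'.2| / K) ^ (2 * n + 2))⁻¹) *
      wE n (sc W) z'.1 (sl h' g' t) ≤
      ENNReal.ofReal ((2 * W)⁻¹ * C1) * J * ENNReal.ofReal (((1 + |t - z'.2| / K) ^ 2)⁻¹) := by
    intro t
    have h1 := H1 h' hh2 hgz g' hi' hi2' hs' W hW z'.1 z'.2 t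
    have h2 : wE n (sc W) z'.1 (sl h' g' t) =
        ENNReal.ofReal ((2 * W)⁻¹) * (ENNReal.ofReal (2 * W) * wE n (sc W) z'.1 (sl h' g' t)) := by
      rw [← mul_assoc, ← ENNReal.ofReal_mul (by positivity), inv_mul_cancel₀ (by positivity),
        ENNReal.ofReal_one, one_mul]
    set a := |t - z'.2| / K with ha
    set b := |t - z'.2| / W with hbd
    have ha0 : 0 ≤ a := by positivity
    have hb0 : 0 ≤ b := by positivity
    have hba : b ≤ a := by rw [ha, hbd]; gcongr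
    have h3 : ((1 + a) ^ (2 * n + 2))⁻¹ * (1 + b) ^ (2 * n) ≤ ((1 + a) ^ 2)⁻¹ := by
      rw [pow_add, mul_inv]
      have h4 : (1 + b) ^ (2 * n) ≤ (1 + a) ^ (2 * n) := by gcongr
      have h5 : ((1 + a) ^ (2 * n))⁻¹ * (1 + b) ^ (2 * n) ≤ 1 := by
        rw [inv_mul_le_iff₀ (by positivity), mul_one]; exact h4
      calc ((1 + a) ^ (2 * n))⁻¹ * ((1 + a) ^ 2)⁻¹ * (1 + b) ^ (2 * n)
          = (((1 + a) ^ (2 * n))⁻¹ * (1 + b) ^ (2 * n)) * ((1 + a) ^ 2)⁻¹ := by ring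
        _ ≤ 1 * ((1 + a) ^ 2)⁻¹ := by gcongr
        _ = _ := one_mul _
    calc ENNReal.ofReal (((1 + a) ^ (2 * n + 2))⁻¹) * wE n (sc W) z'.1 (sl h' g' t)
        ≤ ENNReal.ofReal (((1 + a) ^ (2 * n + 2))⁻¹) * (ENNReal.ofReal ((2 * W)⁻¹) *
          (ENNReal.ofReal (C1 * (1 + b) ^ (2 * n)) * J)) := by
          gcongr ENNReal.ofReal (((1 + a) ^ (2 * n + 2))⁻¹) * ?_
          rw [h2]
          gcongr
      _ = ENNReal.ofReal ((2 * W)⁻¹ * C1) * J *
          ENNReal.ofReal (((1 + a) ^ (2 * n + 2))⁻¹ * (1 + b) ^ (2 * n)) := by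
          rw [ENNReal.ofReal_mul hC1, ENNReal.ofReal_mul (show 0 ≤ (2 * W)⁻¹ by positivity),
            ENNReal.ofReal_mul (show 0 ≤ ((1 + a) ^ (2 * n + 2))⁻¹ by positivity)]
          ring
      _ ≤ _ := by gcongr
  -- conclusion
  have eR : AA (2 * n) W F' z' = ENNReal.ofReal ((W ^ 3)⁻¹) * J := by
    rw [hJ, ← mul_assoc, ← ENNReal.ofReal_mul (by positivity), inv_mul_cancel₀ (by positivity),
      ENNReal.ofReal_one, one_mul]
  rw [eR]
  unfold AA
  calc ENNReal.ofReal ((w ^ 3)⁻¹) * ∫⁻ p : E2 × ℝ, ‖ext h g p.1 p.2‖ₑ ^ 2 *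
        ENNReal.ofReal (wt (2 * n + (2 * n + 2)) w z.1 z.2 p)
      ≤ ENNReal.ofReal ((w ^ 3)⁻¹) * (ENNReal.ofReal (4 ^ n) * ∫⁻ q, Θ q) := by gcongr
    _ ≤ ENNReal.ofReal ((w ^ 3)⁻¹) * (ENNReal.ofReal (4 ^ n) *
        (ENNReal.ofReal ((2 * W)⁻¹ * C1) * J * ENNReal.ofReal (C2 * K))) := by
        gcongr
        rw [s2]
        calc _ ≤ ∫⁻ t : ℝ, ENNReal.ofReal ((2 * W)⁻¹ * C1) * J *
              ENNReal.ofReal (((1 + |t - z'.2| / K) ^ 2)⁻¹) := lintegral_mono s3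
          _ = ENNReal.ofReal ((2 * W)⁻¹ * C1) * J *
              ∫⁻ t : ℝ, ENNReal.ofReal (((1 + |t - z'.2| / K) ^ 2)⁻¹) := by
              rw [lintegral_const_mul]
              fun_prop
          _ ≤ _ := by gcongr; exact H2 K hK0 z'.2
    _ = ENNReal.ofReal (4 ^ n * C1 * C2 / 2 * l ^ 4) * (ENNReal.ofReal ((W ^ 3)⁻¹) * J) := by
        have e : ∀ a b c d e : ℝ, 0 ≤ a → 0 ≤ b → 0 ≤ c → 0 ≤ d → 0 ≤ e →
            ENNReal.ofReal a * (ENNReal.ofReal b * (ENNReal.ofReal c * J * ENNReal.ofReal d)) =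
            ENNReal.ofReal (a * b * c * d) * J := by
          intro a b c d e ha hb hc hd _
          rw [ENNReal.ofReal_mul (by positivity), ENNReal.ofReal_mul (by positivity),
            ENNReal.ofReal_mul (by positivity)]
          ring
        rw [e _ _ _ _ 0 (by positivity) (by positivity) (by positivity) (by positivity) le_rfl,
          ← mul_assoc, ← ENNReal.ofReal_mul (by positivity)]
        congr 2
        rw [hWd, hK]
        field_simp

/-- averages are decreasing in the order of the weight. -/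
theorem wt_anti {N N' : ℕ} (hN : N ≤ N') {w : ℝ} (hw : 0 < w) (x : E2) (t : ℝ) (p : E2 × ℝ) :
    wt N' w x t p ≤ wt N w x t p := by
  unfold wt
  have h1 : 1 ≤ 1 + (‖p.1 - x‖ + |p.2 - t|) / w := by
    have : 0 ≤ (‖p.1 - x‖ + |p.2 - t|) / w := by positivity
    linarith
  gcongr

theorem AA_anti {N N' : ℕ} (hN : N ≤ N') {w : ℝ} (hw : 0 < w) (F : E2 × ℝ → ℂ) (z : E2 × ℝ) :
    AA N' w F z ≤ AA N w F z := by
  unfold AA
  gcongr ENNReal.ofReal ((w ^ 3)⁻¹) * ?_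
  refine lintegral_mono fun p => ?_
  gcongr
  exact wt_anti hN hw _ _ _

/-- change of scale by a bounded factor. -/
theorem wt_scale_le (N : ℕ) {w w1 K : ℝ} (hw : 0 < w) (hw1 : 0 < w1) (hK : 1 ≤ K)
    (h1 : w ≤ K * w1) (x : E2) (t : ℝ) (p : E2 × ℝ) : wt N w x t p ≤ K ^ N * wt N w1 x t p := by
  unfold wt
  set a : ℝ := ‖p.1 - x‖ + |p.2 - t| with ha
  have ha0 : 0 ≤ a := by positivity
  have h2 : 1 + a / w1 ≤ K * (1 + a / w) := by
    have h3 : a / w1 ≤ K * (a / w) := by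
      rw [div_le_iff₀ hw1]
      calc a = a / w * w := by field_simp
        _ ≤ a / w * (K * w1) := by gcongr
        _ = _ := by ring
    linarith
  calc ((1 + a / w) ^ N)⁻¹ = K ^ N * ((K * (1 + a / w)) ^ N)⁻¹ := by
        rw [mul_pow]; field_simp
    _ ≤ _ := by gcongr

/-- **change of scale** of the averages by a bounded factor. -/
theorem AA_scale (N : ℕ) {w w1 K : ℝ} (hw : 0 < w) (hw1 : 0 < w1) (hK : 1 ≤ K)
    (h1 : w ≤ K * w1) (h2 : w1 ≤ K * w) (F : E2 × ℝ → ℂ) (z : E2 × ℝ) :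
    AA N w F z ≤ ENNReal.ofReal (K ^ (N + 3)) * AA N w1 F z := by
  unfold AA
  have h3 : (w ^ 3)⁻¹ ≤ K ^ 3 * (w1 ^ 3)⁻¹ := by
    calc (w ^ 3)⁻¹ = K ^ 3 * ((K * w) ^ 3)⁻¹ := by rw [mul_pow]; field_simp
      _ ≤ _ := by gcongr
  calc ENNReal.ofReal ((w ^ 3)⁻¹) * ∫⁻ p : E2 × ℝ, ‖F p‖ₑ ^ 2 * ENNReal.ofReal (wt N w z.1 z.2 p)
      ≤ ENNReal.ofReal (K ^ 3 * (w1 ^ 3)⁻¹) * ∫⁻ p : E2 × ℝ, ENNReal.ofReal (K ^ N) *
        (‖F p‖ₑ ^ 2 * ENNReal.ofReal (wt N w1 z.1 z.2 p)) := by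
        gcongr ?_ * ?_
        · exact ENNReal.ofReal_le_ofReal h3
        · refine lintegral_mono fun p => ?_
          rw [mul_left_comm, ← ENNReal.ofReal_mul (by positivity)]
          gcongr
          exact wt_scale_le N hw hw1 hK h1 _ _ _
    _ = _ := by
        rw [lintegral_const_mul' _ _ ENNReal.ofReal_ne_top, ENNReal.ofReal_mul (by positivity),
          pow_add, ENNReal.ofReal_mul (by positivity)]
        ring

end Crest.Agent.R138.Zm858
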