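import Crest.Agent.R138.Sup7_882
import Crest.Agent.R138.Tr1_323
import Crest.Agent.R138.Zm2_858

/-!
# R138 / R139, wave side: KMC = the Kakeya bound on caps (leaf W9 of doc 1979), helper882

`KMC_of_KMw` : `∑_k NN N h (g · capf h s k) w (2R) ≤ C R^ε s^(q/2) SS g R D` for `w ≥ R^(1/2)`, and
its Chebyshev corollary `KMC_cheb`.
-/

set_option autoImplicit false

open MeasureTheory FourierTransform
open scoped ContDiff ENNReal

namespace Crest.Agent.R138.Sup882

open Crest.Agent.R138.Defs Crest.Agent.R138.Wf448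
open Crest.Agent.R138.Wpk685 (cap win cen caps)
open Crest.Agent.R138.Bil882 (NearId wt wt_pos measurable_wt)
open Crest.Agent.R138.Bn759 (nearId)
open Crest.Agent.R138.W188 (PBox En SS St NN KMw)

theorem aw_anti {N N' : ℕ} (hN : N ≤ N') {w : ℝ} (hw : 0 < w) (h : E2 → ℝ) (g : E2 → ℂ)
    (z : E2 × ℝ) : aw N' w h g z ≤ aw N w h g z :=
  Zm858.AA_anti hN hw (fun p => ext h g p.1 p.2) z

theorem NN_anti {N N' : ℕ} (hN : N ≤ N') {w : ℝ} (hw : 0 < w) (h : E2 → ℝ) (g : E2 → ℂ) (R : ℝ) :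
    NN N' h g w R ≤ NN N h g w R := by
  rw [NN_eq, NN_eq]
  refine lintegral_mono fun z => ?_
  gcongr
  exact aw_anti hN hw h g z

/-- the cap pieces of a function supported in the unit ball vanish outside `caps`. -/
theorem sum_caps_le {h : E2 → ℝ} (hn : NearId h (1 / 10)) (h1 : fderiv ℝ h 0 = 0) {g : E2 → ℂ}
    (hs : ∀ ξ, 1 < ‖ξ‖ → g ξ = 0) {s : ℝ} (hs0 : 0 < s) (K : Finset (ℤ × ℤ))
    (f : (E2 → ℂ) → ℝ≥0∞) (hf : ∀ g' : E2 → ℂ, (∀ ξ, g' ξ = 0) → f g' = 0) :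
    ∑ k ∈ K, f (fun ξ => g ξ * capf h s k ξ) ≤ ∑ k ∈ caps s, f (fun ξ => g ξ * capf h s k ξ) := by
  classical
  have h2 : ∀ k ∈ K, k ∉ caps s → f (fun ξ => g ξ * capf h s k ξ) = 0 := by
    intro k _ hk
    refine hf _ fun ξ => ?_
    by_contra hne
    have hg0 := left_ne_zero_of_mul hne
    have hc0 := right_ne_zero_of_mul hne
    have hξ : ‖ξ‖ ≤ 1 := by
      by_contra hc
      push Not at hc
      exact hg0 (hs ξ hc)
    have := grad_norm_le hn h1 ξ
    exact hk (mem_caps_of_ne hs0 hc0 (by linarith))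
  calc ∑ k ∈ K, f (fun ξ => g ξ * capf h s k ξ)
      = ∑ k ∈ K.filter (· ∈ caps s), f (fun ξ => g ξ * capf h s k ξ) := by
        rw [Finset.sum_filter]
        refine Finset.sum_congr rfl fun k hk => ?_
        by_cases hc : k ∈ caps s
        · rw [if_pos hc]
        · rw [if_neg hc, h2 k hk hc]
    _ ≤ _ := Finset.sum_le_sum_of_subset_of_nonneg (fun k hk => (Finset.mem_filter.1 hk).2)
        (fun _ _ _ => zero_le)

theorem KMC_aux (B : ℕ → ℝ) (hB : B 2 ≤ 1 / 10) (q : ℝ) (hq : 0 ≤ q)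
    (hKM : KMw B 0) (ε : ℝ) (hε : 0 < ε) (hε2 : ε ≤ 1 / 2) (Na : ℕ) (M0 : ℝ) :
    ∃ (N0 : ℕ) (C : ℝ), 0 ≤ C ∧ ∀ h g R D, St B q Na M0 1 h g R D → ∀ s w : ℝ,
    R ^ (-(1/2) : ℝ) ≤ s → s ≤ 1 → R ^ (1/2 : ℝ) ≤ w → w ≤ R ^ (1 - ε) →
      ∑ k ∈ caps s, NN N0 h (fun ξ => g ξ * capf h s k ξ) w (2 * R) ≤
        ENNReal.ofReal (C * R ^ ε * s ^ (q / 2) * SS g R D) := by
  set M1 : ℝ := 2 * (|M0| + q / 2) with hM1
  obtain ⟨K3, hK3, hK30⟩ : ∃ K3 : ℝ, K3 = 300000 ∧ 0 ≤ K3 := ⟨_, rfl, by norm_num⟩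
  obtain ⟨N, CK, hCK, hK⟩ := hKM (ε / 2) (by linarith) Na M1
  obtain ⟨CP, hCP, hP⟩ := pbox_piece Na
  obtain ⟨R1', hR11, hR1'⟩ := exists_large (ε / 2) 12 (by linarith)
  set R0 : ℝ := max R1' 64 with hR0def
  have hR01 : 1 ≤ R0 := hR11.trans (le_max_left _ _)
  obtain ⟨CT, hCT, hT⟩ := W323.exists_triv1'
  refine ⟨max N 8, K3 * CK * Real.sqrt CP * (2:ℝ) ^ (q / 2) + 2 * CT * R0 ^ (|M0| / 2 + q / 4),
    by positivity, ?_⟩
  intro h g R D hst s w hslo hshi hwlo hwhi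
  have hR1 := hst.R1
  have hR00 : 0 < R := by linarith
  have hn := nearId hB hst.par
  have hs0 : 0 < s := (Real.rpow_pos_of_pos hR00 _).trans_le hslo
  have hw1 : 1 ≤ w := (Real.one_le_rpow hR1 (by norm_num)).trans hwlo
  have hw0 : 0 < w := by linarith
  have hSS : 0 ≤ SS g R D := SS_nonneg hR00.le
  have hRε : 1 ≤ R ^ ε := Real.one_le_rpow hR1 hε.le
  have hg := gd_of hst.meas hst.bdd hst.supp
  have hgrad : ∀ ξ, g ξ ≠ 0 → ‖gradient h ξ‖ ≤ 2 := by
    intro ξ hξ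
    have h2 : ‖ξ‖ ≤ 1 := by
      by_contra hc
      push Not at hc
      exact hξ (hst.supp ξ hc)
    have := grad_norm_le hn hst.h1 ξ
    linarith
  have hsumE := sum_En_le hst.par.1 hg.l2 hgrad hs0
  obtain ⟨M, hM⟩ := hst.bdd
  rcases le_total R R0 with hRR | hRR
  · -- small scales
    have hpiece : ∀ k ∈ caps s, NN (max N 8) h (fun ξ => g ξ * capf h s k ξ) w (2 * R) ≤
        ENNReal.ofReal (CT * R ^ (M0 / 2) * (2 * R * En (fun ξ => g ξ * capf h s k ξ) *
          Real.sqrt D)) := by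
      intro k _
      refine hT (max N 8) (le_max_right _ _) h hst.par.1.continuous _
        (hst.meas.mul (contDiff_capf hst.par.1 s k).continuous.measurable)
        ⟨M, fun ξ => ?_⟩ (fun ξ hξ => by
          show g ξ * capf h s k ξ = 0
          rw [hst.supp ξ hξ, zero_mul]) w (2 * R) D (R ^ (M0 / 2))
        hw0 (by linarith) (by positivity) hst.D0 ?_
      · show ‖g ξ * capf h s k ξ‖ ≤ M
        rw [norm_mul]
        exact (mul_le_of_le_one_right (norm_nonneg _) (norm_capf_le h s k ξ)).trans (hM ξ)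
      · refine (En_mul_le hg.l2 (norm_capf_le h s k)).trans (hst.nd.trans (le_of_eq ?_))
        rw [← Real.rpow_natCast, ← Real.rpow_mul hR00.le]
        congr 2
        push_cast; ring
    refine (Finset.sum_le_sum hpiece).trans ?_
    rw [← ENNReal.ofReal_sum_of_nonneg (fun k _ => by
      have h4 := En_nonneg (fun ξ => g ξ * capf h s k ξ)
      positivity)]
    refine ENNReal.ofReal_le_ofReal ?_
    have h5 : ∑ k ∈ caps s, CT * R ^ (M0 / 2) * (2 * R * En (fun ξ => g ξ * capf h s k ξ) *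
        Real.sqrt D) ≤ 2 * CT * R ^ (M0 / 2) * SS g R D := by
      calc ∑ k ∈ caps s, CT * R ^ (M0 / 2) * (2 * R * En (fun ξ => g ξ * capf h s k ξ) *
          Real.sqrt D) = (2 * CT * R ^ (M0 / 2) * R * Real.sqrt D) *
            ∑ k ∈ caps s, En (fun ξ => g ξ * capf h s k ξ) := by
            rw [Finset.mul_sum]
            exact Finset.sum_congr rfl fun k _ => by ring
        _ ≤ (2 * CT * R ^ (M0 / 2) * R * Real.sqrt D) * En g := by gcongr
        _ = _ := by unfold SS; ring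
    refine h5.trans ?_
    have h6 : R ^ (M0 / 2) ≤ R0 ^ (|M0| / 2) := by
      calc R ^ (M0 / 2) ≤ R ^ (|M0| / 2) :=
            Real.rpow_le_rpow_of_exponent_le hR1 (by linarith [le_abs_self M0])
        _ ≤ _ := Real.rpow_le_rpow hR00.le hRR (by positivity)
    have h7 : 1 ≤ R0 ^ (q / 4) * s ^ (q / 2) := by
      have h8 : R ^ (-(q / 4)) ≤ s ^ (q / 2) := by
        calc R ^ (-(q / 4)) = (R ^ (-(1/2) : ℝ)) ^ (q / 2) := by
              rw [← Real.rpow_mul hR00.le]; congr 1; ring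
          _ ≤ _ := Real.rpow_le_rpow (by positivity) hslo (by linarith)
      calc (1:ℝ) = R ^ (q / 4) * R ^ (-(q / 4)) := by
            rw [← Real.rpow_add hR00, add_neg_cancel, Real.rpow_zero]
        _ ≤ R0 ^ (q / 4) * s ^ (q / 2) := by
            have := Real.rpow_le_rpow hR00.le hRR (show 0 ≤ q / 4 by linarith)
            gcongr
    calc 2 * CT * R ^ (M0 / 2) * SS g R D
        ≤ 2 * CT * R0 ^ (|M0| / 2) * SS g R D := by gcongr
      _ = (2 * CT * R0 ^ (|M0| / 2) * SS g R D) * 1 * 1 := by ring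
      _ ≤ (2 * CT * R0 ^ (|M0| / 2) * SS g R D) * (R0 ^ (q / 4) * s ^ (q / 2)) * R ^ ε := by
          gcongr
      _ = (2 * CT * R0 ^ (|M0| / 2 + q / 4)) * R ^ ε * s ^ (q / 2) * SS g R D := by
          rw [Real.rpow_add (by linarith : (0:ℝ) < R0)]; ring
      _ ≤ _ := by
          have : 0 ≤ K3 * CK * Real.sqrt CP * (2:ℝ) ^ (q / 2) := by positivity
          gcongr
          linarith
  · have hR64 : 64 ≤ R := (le_max_right _ _).trans hRR
    have hbig2 : 12 ≤ R ^ (ε / 2) := hR1' R ((le_max_left _ _).trans hRR)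
    have hRm : R ^ (ε / 2) * R ^ (1 - ε) = R ^ (1 - ε / 2) := by
      rw [← Real.rpow_add hR00]; congr 1; ring
    have h2l : R ^ (-(1/2) : ℝ) ≤ 2 * s := by linarith
    obtain ⟨Z, hZc, hZm, hZ⟩ := NN_cover hR00
    rw [← hK3] at hZc
    set D' : ℝ := CP * (D * (2 * s) ^ q) with hD'
    have hD'0 : 0 ≤ D' := by
      have := hst.D0
      positivity
    -- each piece in each frame
    have hst' : ∀ k, ∀ z ∈ Z, St B 0 Na M1 1 h
        (W188.tr h z (fun ξ => g ξ * capf h s k ξ)) (R / 8) D' := by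
      intro k z hz
      refine ⟨hst.par, hst.h0, hst.h1, ?_, ⟨M, fun ξ => ?_⟩, fun ξ hξ => ?_, by linarith, hD'0,
        hP q h g R D s hq hst.box hR00 hst.D0 hs0 h2l k z (hZm z hz), ?_⟩
      · exact (hst.meas.mul (contDiff_capf hst.par.1 s k).continuous.measurable).mul
          (W323.contDiff_phase hst.par.1.continuous z).measurable
      · rw [W323.norm_tr, norm_mul]
        exact (mul_le_of_le_one_right (norm_nonneg _) (norm_capf_le h s k ξ)).trans (hM ξ)
      · show g ξ * capf h s k ξ * _ = 0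
        rw [hst.supp ξ hξ, zero_mul, zero_mul]
      · rw [En_tr]
        have h2 : En (fun ξ => g ξ * capf h s k ξ) ≤ R ^ M0 * D :=
          (En_mul_le hg.l2 (norm_capf_le h s k)).trans hst.nd
        refine h2.trans ?_
        have h3 : D ≤ R ^ (q / 2) * D' := by
          have h4 : (R ^ (-(1/2) : ℝ)) ^ q ≤ (2 * s) ^ q :=
            Real.rpow_le_rpow (by positivity) h2l hq
          have h5 : R ^ (q / 2) * (R ^ (-(1/2) : ℝ)) ^ q = 1 := by
            rw [← Real.rpow_mul hR00.le, ← Real.rpow_add hR00]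
            have : q / 2 + -(1 / 2) * q = 0 := by ring
            rw [this, Real.rpow_zero]
          have h6 := hst.D0
          calc D = (R ^ (q / 2) * (R ^ (-(1/2) : ℝ)) ^ q) * D := by rw [h5, one_mul]
            _ ≤ (R ^ (q / 2) * (2 * s) ^ q) * D := by gcongr
            _ = 1 * (R ^ (q / 2) * (D * (2 * s) ^ q)) := by ring
            _ ≤ CP * (R ^ (q / 2) * (D * (2 * s) ^ q)) := by gcongr
            _ = _ := by rw [hD']; ring
        have h4 : R ^ M0 ≤ R ^ |M0| := Real.rpow_le_rpow_of_exponent_le hR1 (le_abs_self _)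
        have h5 : R ≤ (R / 8) ^ (2 : ℝ) := by
          rw [show (2 : ℝ) = ((2 : ℕ) : ℝ) by norm_num, Real.rpow_natCast]
          nlinarith
        have h6 : R ^ (|M0| + q / 2) ≤ (R / 8) ^ M1 := by
          calc R ^ (|M0| + q / 2) ≤ ((R / 8) ^ (2 : ℝ)) ^ (|M0| + q / 2) :=
                Real.rpow_le_rpow hR00.le h5 (by positivity)
            _ = _ := by rw [← Real.rpow_mul (by positivity), hM1]
        calc R ^ M0 * D ≤ R ^ |M0| * (R ^ (q / 2) * D') := by
              have := hst.D0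
              gcongr
          _ = R ^ (|M0| + q / 2) * D' := by rw [Real.rpow_add hR00]; ring
          _ ≤ _ := by gcongr
    -- width
    have hw1' : (R / 8) ^ (1/2 : ℝ) ≤ w := by
      refine le_trans ?_ hwlo
      exact Real.rpow_le_rpow (by positivity) (by linarith) (by norm_num)
    have hw2 : w ≤ (R / 8) ^ (1 - ε / 2) := by
      refine hwhi.trans ?_
      rw [Real.div_rpow hR00.le (by norm_num), le_div_iff₀ (by positivity)]
      have h3 : (8:ℝ) ^ (1 - ε / 2) ≤ 8 := by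
        calc (8:ℝ) ^ (1 - ε / 2) ≤ 8 ^ (1:ℝ) :=
              Real.rpow_le_rpow_of_exponent_le (by norm_num) (by linarith)
          _ = 8 := Real.rpow_one 8
      rw [← hRm, mul_comm (R ^ (ε / 2))]
      gcongr
      linarith
    -- NN of a piece
    have hpiece : ∀ k ∈ caps s, NN (max N 8) h (fun ξ => g ξ * capf h s k ξ) w (2 * R) ≤
        ENNReal.ofReal (K3 * (CK * R ^ ε * (R * En (fun ξ => g ξ * capf h s k ξ) *
          Real.sqrt D'))) := by
      intro k _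
      refine (NN_anti (le_max_left _ _) hw0 _ _ _).trans ((hZ N h _ w).trans ?_)
      have h2 : ∀ z ∈ Z, NN N h (W188.tr h z (fun ξ => g ξ * capf h s k ξ)) w (R / 8) ≤
          ENNReal.ofReal (CK * R ^ ε * (R * En (fun ξ => g ξ * capf h s k ξ) * Real.sqrt D')) := by
        intro z hz
        refine (hK h _ (R / 8) D' w (hst' k z hz) hw1' hw2).trans
          (ENNReal.ofReal_le_ofReal ?_)
        unfold SS
        rw [En_tr]
        have h3 : (R / 8) ^ (ε / 2) ≤ R ^ ε := by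
          calc (R / 8) ^ (ε / 2) ≤ R ^ (ε / 2) :=
                Real.rpow_le_rpow (by positivity) (by linarith) (by linarith)
            _ ≤ R ^ ε := Real.rpow_le_rpow_of_exponent_le hR1 (by linarith)
        have h4 := En_nonneg (fun ξ => g ξ * capf h s k ξ)
        have h5 : R / 8 ≤ R := by linarith
        gcongr
      refine (Finset.sum_le_sum h2).trans ?_
      rw [Finset.sum_const, nsmul_eq_mul, ← ENNReal.ofReal_natCast,
        ← ENNReal.ofReal_mul (by positivity)]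
      refine ENNReal.ofReal_le_ofReal ?_
      have h4 := En_nonneg (fun ξ => g ξ * capf h s k ξ)
      gcongr
    refine (Finset.sum_le_sum hpiece).trans ?_
    rw [← ENNReal.ofReal_sum_of_nonneg (fun k _ => by
      have h4 := En_nonneg (fun ξ => g ξ * capf h s k ξ)
      positivity)]
    refine ENNReal.ofReal_le_ofReal ?_
    rw [← Finset.mul_sum]
    have h3 : Real.sqrt D' = Real.sqrt CP * ((2:ℝ) ^ (q / 2) * s ^ (q / 2)) * Real.sqrt D := by
      have h5 : (2 * s) ^ q = ((2:ℝ) ^ (q / 2) * s ^ (q / 2)) ^ 2 := by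
        rw [← Real.mul_rpow (by norm_num) hs0.le, ← Real.rpow_natCast, ← Real.rpow_mul (by positivity)]
        congr 1; push_cast; ring
      rw [hD', Real.sqrt_mul (by linarith), Real.sqrt_mul hst.D0, h5, Real.sqrt_sq (by positivity)]
      ring
    have h6 : ∑ k ∈ caps s, CK * R ^ ε * (R * En (fun ξ => g ξ * capf h s k ξ) *
        Real.sqrt D') ≤ CK * R ^ ε * (Real.sqrt CP * ((2:ℝ) ^ (q / 2) * s ^ (q / 2)) *
          SS g R D) := by
      rw [← Finset.mul_sum, ← Finset.sum_mul, ← Finset.mul_sum]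
      refine mul_le_mul_of_nonneg_left ?_ (by positivity)
      unfold SS
      have h7 := En_nonneg g
      rw [h3]
      calc R * (∑ k ∈ caps s, En fun ξ => g ξ * capf h s k ξ) *
            (Real.sqrt CP * ((2:ℝ) ^ (q / 2) * s ^ (q / 2)) * Real.sqrt D)
          ≤ R * En g * (Real.sqrt CP * ((2:ℝ) ^ (q / 2) * s ^ (q / 2)) * Real.sqrt D) := by gcongr
        _ = _ := by ring
    calc K3 * ∑ k ∈ caps s, CK * R ^ ε * (R * En (fun ξ => g ξ * capf h s k ξ) * Real.sqrt D')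
        ≤ K3 * (CK * R ^ ε * (Real.sqrt CP * ((2:ℝ) ^ (q / 2) * s ^ (q / 2)) * SS g R D)) :=
          mul_le_mul_of_nonneg_left h6 hK30
      _ = (K3 * CK * Real.sqrt CP * (2:ℝ) ^ (q / 2)) * R ^ ε * s ^ (q / 2) * SS g R D := by ring
      _ ≤ _ := by
          have : 0 ≤ 2 * CT * R0 ^ (|M0| / 2 + q / 4) := by positivity
          gcongr
          linarith

/-- **KMC**: Kakeya on the caps of direction space of scale `s`. -/
theorem KMC_of_KMw (B : ℕ → ℝ) (hB : B 2 ≤ 1 / 10) (q : ℝ) (hq : 0 ≤ q) (hKM : KMw B 0) :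
    ∀ ε : ℝ, 0 < ε → ∀ (Na : ℕ) (M0 : ℝ), ∃ (N0 : ℕ) (C : ℝ), 0 ≤ C ∧ ∀ h g R D,
    St B q Na M0 1 h g R D → ∀ s w : ℝ,
    R ^ (-(1/2) : ℝ) ≤ s → s ≤ 1 → R ^ (1/2 : ℝ) ≤ w → w ≤ R ^ (1 - ε) →
    ∀ N : ℕ, N0 ≤ N → ∀ K : Finset (ℤ × ℤ),
      ∑ k ∈ K, NN N h (fun ξ => g ξ * capf h s k ξ) w (2 * R) ≤
        ENNReal.ofReal (C * R ^ ε * s ^ (q / 2) * SS g R D) := by
  intro ε hε Na M0
  obtain ⟨N0, C, hC, h1⟩ := KMC_aux B hB q hq hKM (min ε (1/2)) (lt_min hε (by norm_num))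
    (min_le_right _ _) Na M0
  refine ⟨N0, C, hC, ?_⟩
  intro h g R D hst s w hslo hshi hwlo hwhi N hN K
  have hR1 := hst.R1
  have hR00 : 0 < R := by linarith
  have hs0 : 0 < s := (Real.rpow_pos_of_pos hR00 _).trans_le hslo
  have hw1 : 1 ≤ w := (Real.one_le_rpow hR1 (by norm_num)).trans hwlo
  refine (Finset.sum_le_sum fun k _ => NN_anti hN (by linarith) h _ (2 * R)).trans ?_
  refine (sum_caps_le (nearId hB hst.par) hst.h1 hst.supp hs0 K
    (fun g' => NN N0 h g' w (2 * R)) (fun g' hg' => NN_zero N0 h w (2 * R) hg')).trans ?_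
  refine (h1 h g R D hst s w hslo hshi hwlo (hwhi.trans ?_)).trans (ENNReal.ofReal_le_ofReal ?_)
  · exact Real.rpow_le_rpow_of_exponent_le hR1 (by linarith [min_le_left ε (1/2)])
  · have hSS : 0 ≤ SS g R D := SS_nonneg (by linarith)
    have : R ^ min ε (1/2) ≤ R ^ ε :=
      Real.rpow_le_rpow_of_exponent_le hR1 (min_le_left _ _)
    gcongr

/-- Chebyshev. -/
theorem lint_large_le {X : Type*} [MeasurableSpace X] (μ : Measure X) (S : Set X) {f : X → ℝ≥0∞}
    (hf : Measurable f) {Λ : ℝ} (hΛ : 0 < Λ) :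
    ∫⁻ z in S ∩ {z | ENNReal.ofReal Λ < f z}, f z ∂μ ≤
      ENNReal.ofReal (Λ ^ (-(1/2) : ℝ)) * ∫⁻ z in S, f z ^ (3 / 2 : ℝ) ∂μ := by
  have hm : MeasurableSet {z | ENNReal.ofReal Λ < f z} := measurableSet_lt measurable_const hf
  rw [← lintegral_const_mul' _ _ ENNReal.ofReal_ne_top, Set.inter_comm,
    ← Measure.restrict_restrict hm, ← lintegral_indicator hm]
  refine lintegral_mono fun z => ?_
  by_cases hz : z ∈ {z | ENNReal.ofReal Λ < f z}
  · rw [Set.indicator_of_mem hz]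
    have hz' : ENNReal.ofReal Λ < f z := hz
    have h0 : f z ≠ 0 := (lt_of_le_of_lt (zero_le) hz').ne'
    rcases eq_or_ne (f z) ⊤ with ht | ht
    · rw [ht, ENNReal.top_rpow_of_pos (by norm_num), ENNReal.mul_top]
      simp only [ne_eq, ENNReal.ofReal_eq_zero, not_le]
      positivity
    · have e1 : f z ^ (3 / 2 : ℝ) = f z ^ (1 / 2 : ℝ) * f z := by
        rw [show (3 / 2 : ℝ) = 1 / 2 + 1 by norm_num, ENNReal.rpow_add _ _ h0 ht, ENNReal.rpow_one]
      rw [e1, ← mul_assoc]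
      have h1 : 1 ≤ ENNReal.ofReal (Λ ^ (-(1/2) : ℝ)) * f z ^ (1 / 2 : ℝ) := by
        calc (1 : ℝ≥0∞) = ENNReal.ofReal (Λ ^ (-(1/2) : ℝ)) * ENNReal.ofReal Λ ^ (1 / 2 : ℝ) := by
              rw [ENNReal.ofReal_rpow_of_pos hΛ, ← ENNReal.ofReal_mul (by positivity),
                ← Real.rpow_add hΛ]
              norm_num
          _ ≤ _ := by gcongr
      calc f z = 1 * f z := (one_mul _).symm
        _ ≤ _ := by gcongr
  · rw [Set.indicator_of_notMem hz]
    exact zero_le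

/-- Chebyshev form of **KMC**: the energy at places of local density above `Λ` is small. -/
theorem KMC_cheb (B : ℕ → ℝ) (hB : B 2 ≤ 1 / 10) (q : ℝ) (hq : 0 ≤ q) (hKM : KMw B 0) :
    ∀ ε : ℝ, 0 < ε → ∀ (Na : ℕ) (M0 : ℝ), ∃ (N0 : ℕ) (C : ℝ), 0 ≤ C ∧ ∀ h g R D,
    St B q Na M0 1 h g R D → ∀ s w : ℝ,
    R ^ (-(1/2) : ℝ) ≤ s → s ≤ 1 → R ^ (1/2 : ℝ) ≤ w → w ≤ R ^ (1 - ε) →
    ∀ N : ℕ, N0 ≤ N → ∀ (K : Finset (ℤ × ℤ)) (Λ : ℝ), 0 < Λ →
      ∑ k ∈ K, ∫⁻ z in cyl (2 * R) ∩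
          {z | ENNReal.ofReal Λ < aw N w h (fun ξ => g ξ * capf h s k ξ) z},
          aw N w h (fun ξ => g ξ * capf h s k ξ) z ≤
        ENNReal.ofReal (C * R ^ ε * Λ ^ (-(1/2) : ℝ) * s ^ (q / 2) * SS g R D) := by
  intro ε hε Na M0
  obtain ⟨N0, C, hC, h1⟩ := KMC_of_KMw B hB q hq hKM ε hε Na M0
  refine ⟨N0, C, hC, ?_⟩
  intro h g R D hst s w hslo hshi hwlo hwhi N hN K Λ hΛ
  have hg := gd_of hst.meas hst.bdd hst.supp
  have hi : ∀ k, Integrable (fun ξ => g ξ * capf h s k ξ) := by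
    intro k
    obtain ⟨M, hM⟩ := hst.bdd
    have hgd : Wpk685.Gd (fun ξ => g ξ * capf h s k ξ) := by
      refine gd_of (hst.meas.mul (contDiff_capf hst.par.1 s k).continuous.measurable)
        ⟨M, fun ξ => ?_⟩ (fun ξ hξ => by
          show g ξ * capf h s k ξ = 0
          rw [hst.supp ξ hξ, zero_mul])
      show ‖g ξ * capf h s k ξ‖ ≤ M
      rw [norm_mul]
      exact (mul_le_of_le_one_right (norm_nonneg _) (norm_capf_le h s k ξ)).trans (hM ξ)
    exact hgd.int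
  have h2 : ∀ k ∈ K, ∫⁻ z in cyl (2 * R) ∩
      {z | ENNReal.ofReal Λ < aw N w h (fun ξ => g ξ * capf h s k ξ) z},
      aw N w h (fun ξ => g ξ * capf h s k ξ) z ≤
      ENNReal.ofReal (Λ ^ (-(1/2) : ℝ)) * NN N h (fun ξ => g ξ * capf h s k ξ) w (2 * R) := by
    intro k _
    rw [NN_eq]
    exact lint_large_le volume _ (measurable_aw N w hst.par.1.continuous (hi k)) hΛ
  refine (Finset.sum_le_sum h2).trans ?_
  rw [← Finset.mul_sum]
  refine (mul_le_mul' le_rfl (h1 h g R D hst s w hslo hshi hwlo hwhi N hN K)).trans ?_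
  rw [← ENNReal.ofReal_mul (by positivity)]
  refine ENNReal.ofReal_le_ofReal (le_of_eq ?_)
  ring

end Crest.Agent.R138.Sup882
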