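import Crest.Agent.R138.L15B_196

/-!
# R138, TEXT I, leaf L15, last step (helper196): chart, container, `Nat5 → ExtP`
-/

set_option autoImplicit false
set_option linter.unusedVariables false
set_option linter.unusedSectionVars false

open Finset Filter Topology

namespace Crest.Agent.R138.L15

open Crest.Agent.R138.Ex926
open Crest.Agent.R138.Flg101
open Crest.Agent.R138.Mk163 (zc zl rho alive amp Mk prec fr Negl RotF Nat5)
open Crest.Agent.R138.Flag51 (Ln E2 cr dt InPlank)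
open Crest.Agent.R138.Nx638 (toInc sl Ch)
open Crest.Agent.R138.MkRef627 (lc kc hh hh_even hh_odd exists_num)

variable {B : Base} {I : ℕ → Finset (ℕ × ℝ)} {L : ℕ → ℕ → Ln} {lev : ℕ → ℚ → ℕ}
    {r0 A : ℕ → ℝ} {q g : ℝ} {f : ℕ → ℚ → ℕ → ℤ → ℕ} {b : ℕ → ℚ → ℕ → Ln}
    {e : ℕ → ℚ → ℕ → E2} {w1 w2 : ℕ → ℚ → ℝ} {fl : ℕ → ℕ × ℝ → E2} {sc : ℕ → ℝ} {k s θ : ℝ}
    {c : Bool}

theorem ext_of_natJ (hN : NatJ B I L lev r0 A q g f b e w1 w2 fl sc k s θ c)
    (gD : ∀ I : ℕ → Finset (ℕ × ℝ), GeoD B I L lev r0 A q g f b e w1 w2 fl sc k s θ c)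
    (gR : ∀ I : ℕ → Finset (ℕ × ℝ), GeoR B I L lev r0 A q g f b e w1 w2 fl sc k s θ c) :
    ∃ (I' : ℕ → Finset (ℕ × ℝ)) (ν : (Fin 6 → ℝ) → ℝ) (own : (Fin 2 → ℝ) → ℝ) (c₀ : ℝ),
      ExtP B I' (xx L lev w1 w2 fl c) (fun _ y => y.1) ν own (MM k θ) s (2 * s + g) q k θ c₀ := by
  classical
  have O := Own779.own_of (r0 := r0) (A := A) (q := q) (g := g) (f := f) (b := b) (e := e)
    (sc := sc) (θ := θ) hN
  obtain ⟨I2, h1, h2, h3⟩ := Cont627.Nat5.cont hN.nat
    (γ := fun _ => (ℤ × ℤ) × (Fin 4 → ℤ)) (fun n => flab B (xx L lev w1 w2 fl c) n 0)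
    (fun v h0 h1 ε hε => by
      filter_upwards [O.mult ε hε] with n hn x hx
      refine le_trans ?_ (hn x hx)
      refine Nat.cast_le.2 ?_
      convert card_le_card (image_subset_image (s₁ := (I n).filter fun y =>
        lc (lev n v) y = lc (lev n v) x) (s₂ := (I n).filter fun y => y.1 = x.1)
        (f := flab B (xx L lev w1 w2 fl c) n 0) (fun y hy => ?_))
      rw [mem_filter] at hy ⊢
      exact ⟨hy.1, (Prod.mk.inj hy.2).1⟩)
    (fun v h0 h1 ε hε => by
      filter_upwards [(gR I hN).2 v h0 h1 ε hε] with n hn x hx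
      refine le_trans ?_ (hn x hx)
      refine Nat.cast_le.2 ?_
      convert card_le_card (image_subset_image (s₁ := (I n).filter fun y =>
        kc (lev n v) (f n v) y = kc (lev n v) (f n v) x) (s₂ := (I n).filter fun y =>
          nl lev f n v y = nl lev f n v x)
        (f := flab B (xx L lev w1 w2 fl c) n 0) (fun y hy => ?_))
      rw [mem_filter] at hy ⊢
      refine ⟨hy.1, ?_⟩
      have := hy.2
      simp only [kc, nl, Prod.mk.injEq] at this ⊢
      exact ⟨this.2, this.1⟩)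
  have hN2 : NatJ B I2 L lev r0 A q g f b e w1 w2 fl sc k s θ c :=
    ⟨h3, fun n x hx => hN.slope n x (h1 n hx)⟩
  obtain ⟨I3, c₀, hsub, hraw⟩ := raw_of hN2 h2 (gD I2) (gR I2)
  obtain ⟨I', ν, own, -, hE⟩ := hraw.exists_ext
  exact ⟨I', ν, own, c₀, hE⟩

/-- **L15**: `Nat5 → ExtP`. -/
theorem ext_of_nat5 (h : Nat5 B I L lev r0 A q g f b e w1 w2 fl sc k s θ)
    (gD : ∀ (I : ℕ → Finset (ℕ × ℝ)) (c : Bool),
      GeoD B I L lev r0 A q g f b e w1 w2 fl sc k s θ c)
    (gR : ∀ (I : ℕ → Finset (ℕ × ℝ)) (c : Bool),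
      GeoR B I L lev r0 A q g f b e w1 w2 fl sc k s θ c) :
    ∃ (I' : ℕ → Finset (ℕ × ℝ)) (x : ℕ → ℕ × ℝ → Inc) (line : ℕ → ℕ × ℝ → ℕ)
      (ν : (Fin 6 → ℝ) → ℝ) (own : (Fin 2 → ℝ) → ℝ) (M c₀ : ℝ),
      ExtP B I' x line ν own M s (2 * s + g) q k θ c₀ := by
  classical
  -- a chart carrying half of the incidences
  obtain ⟨c, hc⟩ : ∃ c : Bool, ∀ᶠ n in (U : Filter ℕ),
      ((I n).card : ℝ) ≤ 2 * (((I n).filter fun x => Ch c (fl n x)).card : ℝ) := by
    rcases ev_em (fun n => ((I n).card : ℝ) ≤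
      2 * (((I n).filter fun x => Ch false (fl n x)).card : ℝ)) with h1 | h1
    · exact ⟨false, h1⟩
    · refine ⟨true, h1.mono fun n hn => ?_⟩
      have h2 : (I n).card ≤ ((I n).filter fun x => Ch false (fl n x)).card +
          ((I n).filter fun x => Ch true (fl n x)).card := by
        rw [← card_union_add_card_inter]
        refine le_trans (card_le_card fun x hx => ?_) (Nat.le_add_right _ _)
        rw [mem_union, mem_filter, mem_filter]
        rcases Ch.or (fl n x) with h3 | h3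
        · exact Or.inl ⟨hx, h3⟩
        · exact Or.inr ⟨hx, h3⟩
      push Not at hn
      have h3 : ((I n).card : ℝ) ≤ (((I n).filter fun x => Ch false (fl n x)).card : ℝ) +
          (((I n).filter fun x => Ch true (fl n x)).card : ℝ) := by exact_mod_cast h2
      linarith
  have hJ : Dp76.Dense B (fun n => (I n).filter fun x => Ch c (fl n x)) I :=
    Ps627.dense_of_prop (ε := 1 / 2) (by norm_num) (hc.mono fun n hn =>
      ⟨filter_subset _ _, by linarith⟩)
  obtain ⟨J', hJ1, hJ2, hJ3⟩ := Ps627.prune_seq hJ (η := fun _ _ => ℕ × ℤ) (hh lev f)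
  have hne : ∀ᶠ n in (U : Filter ℕ), (J' n).Nonempty := by
    filter_upwards [hc, hJ2, h.base.ne] with n h1 h2 h3
    have h4 : (0 : ℝ) < (I n).card := by exact_mod_cast card_pos.2 h3
    have h5 : (0 : ℝ) < (J' n).card := by linarith
    exact card_pos.1 (by exact_mod_cast h5)
  have hN : Nat5 B J' L lev r0 A q g f b e w1 w2 fl sc k s θ := by
    refine Cont627.Nat5.of_fib h (fun n => (hJ1 n).2) hne ?_ ?_
    · intro v hv0 hv1 ε hε
      obtain ⟨j, rfl⟩ := exists_num v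
      filter_upwards [hJ3 (2 * j) ε hε] with n hn x hx
      have := hn x hx
      simp only [hh_even] at this
      exact this
    · intro v hv0 hv1 ε hε
      obtain ⟨j, rfl⟩ := exists_num v
      filter_upwards [hJ3 (2 * j + 1) ε hε] with n hn x hx
      have := hn x hx
      simp only [hh_odd] at this
      exact this
  have hNJ : NatJ B J' L lev r0 A q g f b e w1 w2 fl sc k s θ c :=
    ⟨hN, fun n x hx => (mem_filter.1 ((hJ1 n).1 hx)).2⟩
  obtain ⟨I', ν, own, c₀, hE⟩ := ext_of_natJ hNJ (fun I => gD I c) (fun I => gR I c)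
  exact ⟨I', _, _, ν, own, _, c₀, hE⟩

end Crest.Agent.R138.L15
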