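import Mathlib
import Crest.Agent.R138.Tilt_51

/-!
# R138: a class-maximal plank lies in the hull box (helper829, doc 1965 Claim 3)

All lines of `S` lie in one box `Q = (lQ, E; W1, W2)`.  A plank `(l, e; w1, w2)` which is maximal
for the class up to the factor `R` (`R ≥ 1`) satisfies `w1 ≤ 64 R W1`, `w2 ≤ 64 R W2` and
`|cr e E| w2 ≤ 1040 R² W1`.
-/

set_option autoImplicit false
set_option linter.unusedVariables false
set_option linter.unusedSectionVars false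

open Finset

namespace Crest.Agent.R138.LexA829

open Crest.Agent.R138.Flag51
open Crest.Agent.R138.Tilt51 (DMax Near)

noncomputable section

theorem rpow_bound {x r : ℝ} (hx : 1 ≤ x) (hr : r ≤ 1) : x ^ (1 + r) ≤ x ^ 2 := by
  rw [← Real.rpow_natCast x 2]
  exact Real.rpow_le_rpow_of_exponent_le hx (by push_cast; linarith)

/-- `x^(1+r) ≤ R y^(1+r)` with `R ≥ 1`, `r ≥ 0` gives `x ≤ R y`. -/
theorem le_of_rpow {x y R r : ℝ} (hx : 0 < x) (hy : 0 < y) (hR : 1 ≤ R) (hr : 0 ≤ r)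
    (h : x ^ (1 + r) ≤ R * y ^ (1 + r)) : x ≤ R * y := by
  have h1 : R * y ^ (1 + r) ≤ (R * y) ^ (1 + r) := by
    rw [Real.mul_rpow (by linarith) hy.le]
    refine mul_le_mul_of_nonneg_right ?_ (by positivity)
    calc R = R ^ (1 : ℝ) := (Real.rpow_one R).symm
      _ ≤ R ^ (1 + r) := Real.rpow_le_rpow_of_exponent_le hR (by linarith)
  by_contra hlt
  push Not at hlt
  have hRy : 0 < R * y := by positivity
  have h2 : (R * y) ^ (1 + r) < x ^ (1 + r) := Real.rpow_lt_rpow hRy.le hlt (by linarith)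
  linarith

section geo

variable {w1 w2 W1 W2 z0 ρ : ℝ} {l lQ t t0 : Ln} {e E : E2}

theorem diff_bounds (ht : InPlank t l e w1 w2 z0 ρ) (h0 : InPlank t0 l e w1 w2 z0 ρ) {z : ℝ}
    (hz : |z - z0| ≤ ρ) : |dt (pos t z - pos t0 z) e| ≤ 2 * w1 ∧
      |cr e (pos t z - pos t0 z)| ≤ 2 * w2 := by
  obtain ⟨a1, a2⟩ := ht z hz
  obtain ⟨c1, c2⟩ := h0 z hz
  constructor
  · have : dt (pos t z - pos t0 z) e = dt (pos t z - pos l z) e - dt (pos t0 z - pos l z) e := by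
      rw [← dt_sub]; congr 1; abel
    rw [this]; exact (abs_sub _ _).trans (by linarith)
  · have : cr e (pos t z - pos t0 z) = cr e (pos t z - pos l z) - cr e (pos t0 z - pos l z) := by
      rw [← cr_sub]; congr 1; abel
    rw [this]; exact (abs_sub _ _).trans (by linarith)

theorem abs_dt_change {e E : E2} (he : dt e e = 1) (hE : dt E E = 1) (X : E2) :
    |dt X E| ≤ |dt X e| + |cr E e| * |cr e X| := by
  rw [dt_of he X]
  refine (abs_sub _ _).trans ?_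
  rw [abs_mul, abs_mul]
  have h1 : |dt E e| * |dt X e| ≤ 1 * |dt X e| :=
    mul_le_mul_of_nonneg_right (abs_dt_le_one hE he) (abs_nonneg _)
  linarith

theorem abs_cr_change {e E : E2} (he : dt e e = 1) (hE : dt E E = 1) (X : E2) :
    |cr E X| ≤ |dt X e| + |cr e X| := by
  rw [cr_of he X]
  refine (abs_add_le _ _).trans ?_
  rw [abs_mul, abs_mul]
  have h1 : |cr E e| * |dt X e| ≤ 1 * |dt X e| :=
    mul_le_mul_of_nonneg_right (abs_cr_le_one hE he) (abs_nonneg _)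
  have h2 : |dt E e| * |cr e X| ≤ 1 * |cr e X| :=
    mul_le_mul_of_nonneg_right (abs_dt_le_one hE he) (abs_nonneg _)
  linarith

/-- cut by the thickness of the hull -/
theorem cut_thin (hw12 : w1 ≤ w2) (he : dt e e = 1) (hE : dt E E = 1)
    (ht : InPlank t l e w1 w2 z0 ρ) (h0 : InPlank t0 l e w1 w2 z0 ρ)
    (htQ : InPlank t lQ E W1 W2 z0 ρ) (h0Q : InPlank t0 lQ E W1 W2 z0 ρ) :
    InPlank t t0 E (2 * W1) (4 * w2) z0 ρ := by
  intro z hz
  obtain ⟨a1, a2⟩ := diff_bounds ht h0 hz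
  obtain ⟨b1, b2⟩ := diff_bounds htQ h0Q hz
  exact ⟨b1, (abs_cr_change he hE _).trans (by linarith)⟩

/-- cut by the width of the hull -/
theorem cut_wide (hW12 : W1 ≤ W2) (he : dt e e = 1) (hE : dt E E = 1)
    (ht : InPlank t l e w1 w2 z0 ρ) (h0 : InPlank t0 l e w1 w2 z0 ρ)
    (htQ : InPlank t lQ E W1 W2 z0 ρ) (h0Q : InPlank t0 lQ E W1 W2 z0 ρ) :
    InPlank t t0 e (2 * w1) (4 * W2) z0 ρ := by
  intro z hz
  obtain ⟨a1, a2⟩ := diff_bounds ht h0 hz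
  obtain ⟨b1, b2⟩ := diff_bounds htQ h0Q hz
  exact ⟨a1, (abs_cr_change hE he _).trans (by linarith)⟩

/-- cut by the tilt -/
theorem cut_tilt (he : dt e e = 1) (hE : dt E E = 1) {s : ℝ} (hs : 0 < s) (hse : s ≤ |cr e E|)
    (ht : InPlank t l e w1 w2 z0 ρ) (h0 : InPlank t0 l e w1 w2 z0 ρ)
    (htQ : InPlank t lQ E W1 W2 z0 ρ) (h0Q : InPlank t0 lQ E W1 W2 z0 ρ) :
    InPlank t t0 e (2 * w1) (2 * (w1 + W1) / s) z0 ρ := by
  intro z hz
  obtain ⟨a1, a2⟩ := diff_bounds ht h0 hz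
  obtain ⟨b1, b2⟩ := diff_bounds htQ h0Q hz
  refine ⟨a1, ?_⟩
  set X := pos t z - pos t0 z with hX
  have h1 : |cr e E| * |cr e X| ≤ 2 * W1 + 2 * w1 := by
    rw [← abs_mul, cr_mul he X]
    refine (abs_sub _ _).trans ?_
    rw [abs_mul]
    have h2 : |dt e E| * |dt X e| ≤ 1 * (2 * w1) :=
      mul_le_mul (abs_dt_le_one he hE) a1 (abs_nonneg _) zero_le_one
    linarith
  rw [le_div_iff₀ hs]
  calc |cr e X| * s ≤ |cr e X| * |cr e E| := mul_le_mul_of_nonneg_left hse (abs_nonneg _)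
    _ = |cr e E| * |cr e X| := mul_comm _ _
    _ ≤ 2 * (w1 + W1) := by linarith

end geo

section comb

variable {ι : Type*} {S : Finset ι} {L : ι → Ln} {m : ι → ℝ} {l lQ : Ln} {e E : E2}
  {w1 w2 W1 W2 z0 ρ M p q r0 R0 R : ℝ}

open Classical in
/-- the lines of a plank which all lie in another plank -/
theorem mass_le (d : DMax S L m z0 ρ M p q r0 R0) (hm : ∀ t ∈ S, 0 ≤ m t) {T : Finset ι}
    (hT : T ⊆ S) {l' : Ln} {e' : E2} {a1 a2 : ℝ} (he' : dt e' e' = 1) (h1 : r0 ≤ a1)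
    (h2 : a1 ≤ a2) (h3 : a2 ≤ R0) (hin : ∀ t ∈ T, InPlank (L t) l' e' a1 a2 z0 ρ) :
    ∑ t ∈ T, m t ≤ M * a1 ^ (1 + p) * a2 ^ (1 + q) := by
  refine le_trans ?_ (d l' e' a1 a2 he' h1 h2 h3)
  refine sum_le_sum_of_subset_of_nonneg ?_ ?_
  · intro t ht
    rw [mem_filter]
    exact ⟨hT ht, hin t ht⟩
  · intro t ht _
    exact hm t (mem_filter.1 ht).1

/-- **a class-maximal plank lies in the hull box** (`T` = its lines). -/
theorem in_hull (d : DMax S L m z0 ρ M p q r0 R0) (hm : ∀ t ∈ S, 0 ≤ m t)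
    (hM : 0 < M) (hp : 0 ≤ p) (hp1 : p ≤ 1) (hq0 : 0 ≤ q) (hq : q ≤ 1)
    (hw1 : 0 < w1) (hw12 : w1 ≤ w2) (hW1 : 0 < W1) (hW12 : W1 ≤ W2)
    (hr0 : r0 ≤ w1) (hr0' : r0 ≤ W1) (hR0 : 4 * w2 ≤ R0) (hR0' : 4 * W2 ≤ R0)
    (hR : 1 ≤ R) (he : dt e e = 1) (hE : dt E E = 1)
    {T : Finset ι} (hT : T ⊆ S) (hTQ : ∀ t ∈ T, InPlank (L t) lQ E W1 W2 z0 ρ)
    (hTK : ∀ t ∈ T, InPlank (L t) l e w1 w2 z0 ρ)
    (hlow : M * w1 ^ (1 + p) * w2 ^ (1 + q) ≤ R * ∑ t ∈ T, m t) :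
    w1 ≤ 64 * R * W1 ∧ w2 ≤ 64 * R * W2 ∧ |cr e E| * w2 ≤ 1040 * R ^ 2 * W1 := by
  have hw2 : 0 < w2 := hw1.trans_le hw12
  have hW2 : 0 < W2 := hW1.trans_le hW12
  have hA : 0 < M * w1 ^ (1 + p) * w2 ^ (1 + q) := by positivity
  obtain ⟨t0, ht0⟩ : T.Nonempty := by
    rw [nonempty_iff_ne_empty]
    rintro rfl
    rw [sum_empty, mul_zero] at hlow
    linarith
  have c2 : (2 : ℝ) ^ (1 + p) ≤ 4 := (rpow_bound (by norm_num) hp1).trans (by norm_num)
  have c4 : (4 : ℝ) ^ (1 + q) ≤ 16 := (rpow_bound (by norm_num) hq).trans (by norm_num)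
  have hR0r : 0 ≤ R := by linarith
  -- a plank `(x1, x2)` containing `T`
  have key : ∀ {l' : Ln} {e' : E2} {a1 a2 : ℝ}, dt e' e' = 1 → r0 ≤ a1 → a1 ≤ a2 → a2 ≤ R0 →
      (∀ t ∈ T, InPlank (L t) l' e' a1 a2 z0 ρ) →
      w1 ^ (1 + p) * w2 ^ (1 + q) ≤ R * (a1 ^ (1 + p) * a2 ^ (1 + q)) := by
    intro l' e' a1 a2 he' h1 h2 h3 hin
    have h4 := mass_le d hm hT he' h1 h2 h3 hin
    have h5 : M * (w1 ^ (1 + p) * w2 ^ (1 + q)) ≤ M * (R * (a1 ^ (1 + p) * a2 ^ (1 + q))) := by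
      calc M * (w1 ^ (1 + p) * w2 ^ (1 + q)) = M * w1 ^ (1 + p) * w2 ^ (1 + q) := by ring
        _ ≤ R * ∑ t ∈ T, m t := hlow
        _ ≤ R * (M * a1 ^ (1 + p) * a2 ^ (1 + q)) := mul_le_mul_of_nonneg_left h4 hR0r
        _ = _ := by ring
    exact le_of_mul_le_mul_left h5 hM
  -- thickness
  have hthin : w1 ≤ 64 * R * W1 := by
    by_cases hc : 2 * W1 ≤ 4 * w2
    · have h1 := key hE (hr0'.trans (by linarith)) hc hR0
        (fun t ht => cut_thin hw12 he hE (hTK t ht) (hTK t0 ht0) (hTQ t ht) (hTQ t0 ht0))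
      rw [Real.mul_rpow (by norm_num) hW1.le, Real.mul_rpow (by norm_num) hw2.le] at h1
      have h2 : w1 ^ (1 + p) ≤ (64 * R) * W1 ^ (1 + p) := by
        have hpos : 0 < w2 ^ (1 + q) := by positivity
        refine le_of_mul_le_mul_right ?_ hpos
        calc w1 ^ (1 + p) * w2 ^ (1 + q)
            ≤ R * (2 ^ (1 + p) * W1 ^ (1 + p) * (4 ^ (1 + q) * w2 ^ (1 + q))) := h1
          _ = (2 ^ (1 + p) * 4 ^ (1 + q)) * (R * W1 ^ (1 + p) * w2 ^ (1 + q)) := by ring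
          _ ≤ (4 * 16) * (R * W1 ^ (1 + p) * w2 ^ (1 + q)) := by
              refine mul_le_mul_of_nonneg_right ?_ (by positivity)
              exact mul_le_mul c2 c4 (by positivity) (by norm_num)
          _ = _ := by ring
      have h3 := le_of_rpow hw1 hW1 (by linarith) hp h2
      linarith
    · push Not at hc
      nlinarith
  -- width
  have hwide : w2 ≤ 64 * R * W2 := by
    by_cases hc : 2 * w1 ≤ 4 * W2
    · have h1 := key he (hr0.trans (by linarith)) hc hR0'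
        (fun t ht => cut_wide hW12 he hE (hTK t ht) (hTK t0 ht0) (hTQ t ht) (hTQ t0 ht0))
      rw [Real.mul_rpow (by norm_num) hw1.le, Real.mul_rpow (by norm_num) hW2.le] at h1
      have h2 : w2 ^ (1 + q) ≤ (64 * R) * W2 ^ (1 + q) := by
        have hpos : 0 < w1 ^ (1 + p) := by positivity
        refine le_of_mul_le_mul_left ?_ hpos
        calc w1 ^ (1 + p) * w2 ^ (1 + q)
            ≤ R * (2 ^ (1 + p) * w1 ^ (1 + p) * (4 ^ (1 + q) * W2 ^ (1 + q))) := h1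
          _ = (2 ^ (1 + p) * 4 ^ (1 + q)) * (R * w1 ^ (1 + p) * W2 ^ (1 + q)) := by ring
          _ ≤ (4 * 16) * (R * w1 ^ (1 + p) * W2 ^ (1 + q)) := by
              refine mul_le_mul_of_nonneg_right ?_ (by positivity)
              exact mul_le_mul c2 c4 (by positivity) (by norm_num)
          _ = _ := by ring
      have h3 := le_of_rpow hw2 hW2 (by linarith) hq0 h2
      linarith
    · -- the plank is thicker than the hull is wide: use the hull itself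
      push Not at hc
      have hlt : W1 ≤ w1 := by linarith
      have h1 := key hE (hr0'.trans (by linarith : W1 ≤ 2 * W1)) (by linarith : 2 * W1 ≤ 4 * W2)
        hR0' (fun t ht => by
          intro z hz
          obtain ⟨b1, b2⟩ := diff_bounds (hTQ t ht) (hTQ t0 ht0) hz
          exact ⟨b1, b2.trans (by linarith)⟩)
      rw [Real.mul_rpow (by norm_num) hW1.le, Real.mul_rpow (by norm_num) hW2.le] at h1
      have h4 : W1 ^ (1 + p) ≤ w1 ^ (1 + p) := Real.rpow_le_rpow hW1.le hlt (by linarith)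
      have h2 : w2 ^ (1 + q) ≤ (64 * R) * W2 ^ (1 + q) := by
        have hpos : 0 < w1 ^ (1 + p) := by positivity
        refine le_of_mul_le_mul_left ?_ hpos
        calc w1 ^ (1 + p) * w2 ^ (1 + q)
            ≤ R * (2 ^ (1 + p) * W1 ^ (1 + p) * (4 ^ (1 + q) * W2 ^ (1 + q))) := h1
          _ = (2 ^ (1 + p) * 4 ^ (1 + q)) * (R * W2 ^ (1 + q) * W1 ^ (1 + p)) := by ring
          _ ≤ (4 * 16) * (R * W2 ^ (1 + q) * w1 ^ (1 + p)) := by
              refine mul_le_mul ?_ ?_ (by positivity) (by norm_num)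
              · exact mul_le_mul c2 c4 (by positivity) (by norm_num)
              · exact mul_le_mul_of_nonneg_left h4 (by positivity)
          _ = _ := by ring
      have h3 := le_of_rpow hw2 hW2 (by linarith) hq0 h2
      linarith
  refine ⟨hthin, hwide, ?_⟩
  -- tilt
  rcases eq_or_lt_of_le (abs_nonneg (cr e E)) with h0 | h0
  · rw [← h0, zero_mul]; positivity
  have hs1 : |cr e E| ≤ 1 := abs_cr_le_one he hE
  by_cases hc : 2 * (w1 + W1) / |cr e E| ≤ 4 * w2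
  · have h2w : 2 * w1 ≤ 2 * (w1 + W1) / |cr e E| := by
      rw [le_div_iff₀ h0]
      nlinarith
    have h1 := key he (hr0.trans (by linarith)) h2w (hc.trans hR0)
      (fun t ht => cut_tilt he hE h0 le_rfl (hTK t ht) (hTK t0 ht0) (hTQ t ht) (hTQ t0 ht0))
    set y : ℝ := 2 * (w1 + W1) / |cr e E| with hy
    have hy0 : 0 < y := by positivity
    rw [Real.mul_rpow (by norm_num) hw1.le] at h1
    have h2 : w2 ^ (1 + q) ≤ (4 * R) * y ^ (1 + q) := by
      have hpos : 0 < w1 ^ (1 + p) := by positivity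
      refine le_of_mul_le_mul_left ?_ hpos
      calc w1 ^ (1 + p) * w2 ^ (1 + q)
          ≤ R * (2 ^ (1 + p) * w1 ^ (1 + p) * y ^ (1 + q)) := h1
        _ = 2 ^ (1 + p) * (R * w1 ^ (1 + p) * y ^ (1 + q)) := by ring
        _ ≤ 4 * (R * w1 ^ (1 + p) * y ^ (1 + q)) :=
            mul_le_mul_of_nonneg_right c2 (by positivity)
        _ = _ := by ring
    have h3 := le_of_rpow hw2 hy0 (by linarith) hq0 h2
    have h5 : |cr e E| * w2 ≤ 8 * R * (w1 + W1) := by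
      calc |cr e E| * w2 ≤ |cr e E| * (4 * R * y) := mul_le_mul_of_nonneg_left h3 h0.le
        _ = 8 * R * (w1 + W1) := by rw [hy]; field_simp; ring
    have h6 : 8 * R * (w1 + W1) ≤ 8 * R * (64 * R * W1 + W1) := by
      refine mul_le_mul_of_nonneg_left (by linarith) (by positivity)
    nlinarith [mul_nonneg (sub_nonneg.2 hR) (mul_nonneg hR0r hW1.le)]
  · push Not at hc
    rw [lt_div_iff₀ h0] at hc
    have h5 : |cr e E| * w2 ≤ (w1 + W1) / 2 := by nlinarith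
    nlinarith [mul_nonneg (sub_nonneg.2 hR) (mul_nonneg hR0r hW1.le),
      mul_nonneg (sub_nonneg.2 hR) hW1.le]

open Classical in
/-- the system form: hull labels `h`, planks `f` inside the hull classes. -/
theorem near_in_hull {α γ : Type*} {f : ι → α} {b : α → Ln} {eK : α → E2} {h : ι → γ}
    {bQ : γ → Ln} {eQ : γ → E2} (hm : ∀ t ∈ S, 0 ≤ m t) (hM : 0 < M) (hp : 0 ≤ p) (hp1 : p ≤ 1)
    (hq0 : 0 ≤ q) (hq : q ≤ 1)
    (hw1 : 0 < w1) (hw12 : w1 ≤ w2) (hW1 : 0 < W1) (hW12 : W1 ≤ W2)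
    (hr0 : r0 ≤ w1) (hr0' : r0 ≤ W1) (hR0 : 4 * w2 ≤ R0) (hR0' : 4 * W2 ≤ R0) (hR : 1 ≤ R)
    (hfh : ∀ t ∈ S, ∀ s ∈ S, f s = f t → h s = h t)
    (hn : Near S L m f b eK w1 w2 z0 ρ M R p q)
    (hQu : ∀ t ∈ S, dt (eQ (h t)) (eQ (h t)) = 1)
    (hQ : ∀ t ∈ S, InPlank (L t) (bQ (h t)) (eQ (h t)) W1 W2 z0 ρ)
    (d : ∀ t ∈ S, DMax (S.filter fun s => h s = h t) L m z0 ρ M p q r0 R0) {t : ι} (ht : t ∈ S) :
    w1 ≤ 64 * R * W1 ∧ w2 ≤ 64 * R * W2 ∧
      |cr (eK (f t)) (eQ (h t))| * w2 ≤ 1040 * R ^ 2 * W1 := by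
  refine in_hull (T := S.filter fun s => f s = f t) (lQ := bQ (h t)) (l := b (f t)) (d t ht)
    (fun s hs => hm s (mem_filter.1 hs).1) hM hp hp1 hq0 hq hw1 hw12 hW1 hW12 hr0 hr0' hR0 hR0' hR
    (hn.unit t ht) (hQu t ht) ?_ ?_ ?_ (hn.low t ht)
  · intro s hs
    rw [mem_filter] at hs ⊢
    exact ⟨hs.1, hfh t ht s hs.1 hs.2⟩
  · intro s hs
    rw [mem_filter] at hs
    have := hQ s hs.1
    rwa [hfh t ht s hs.1 hs.2] at this
  · intro s hs
    rw [mem_filter] at hs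
    have := hn.mem s hs.1
    rwa [hs.2] at this

end comb

end

end Crest.Agent.R138.LexA829
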