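import Mathlib

/-!
# Lex-extremiser (294, doc 1965): bookkeeping of claims 2-4 (helper439)

`N` = normalised extremisers, `s` = own slope, `τ` = narrowest record exponent, `a` = thickness.
Nothing is attained: `S, T, A` are lexicographic limits.  Chains of length `J` are arbitrary data
`c : Ch X J` with `l, b, Lam : ℕ → ℝ` subject to the window inequalities.
-/

set_option autoImplicit false

namespace Crest.Agent.R138.Lex439

/-- lexicographic infimum along a decreasing family of conditions -/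
theorem lex_inf {N : Type*} (P : ℝ → N → Prop)
    (hne : ∀ e, 0 < e → ∃ X, P e X) (f : N → ℝ) (m M : ℝ) (hm : ∀ X, m ≤ f X)
    (hM : ∀ X, f X ≤ M) :
    ∃ T, m ≤ T ∧ T ≤ M ∧ (∀ η, 0 < η → ∃ δ, 0 < δ ∧ ∀ X, P δ X → T - η ≤ f X) ∧
      ∀ e, 0 < e → ∃ X, P e X ∧ f X ≤ T + e := by
  set g : ℝ → ℝ := fun e => sInf (f '' {X | P e X}) with hg
  have hbdd : ∀ e, BddBelow (f '' {X | P e X}) := fun e =>
    ⟨m, by rintro _ ⟨X, _, rfl⟩; exact hm X⟩
  have hgle : ∀ e X, P e X → g e ≤ f X := fun e X h => csInf_le (hbdd e) ⟨X, h, rfl⟩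
  have hnon : ∀ e, 0 < e → (f '' {X | P e X}).Nonempty := fun e he => by
    obtain ⟨X, hX⟩ := hne e he
    exact ⟨f X, X, hX, rfl⟩
  have hgm : ∀ e, 0 < e → m ≤ g e := fun e he =>
    le_csInf (hnon e he) (by rintro _ ⟨X, _, rfl⟩; exact hm X)
  have hgM : ∀ e, 0 < e → g e ≤ M := fun e he => by
    obtain ⟨X, hX⟩ := hne e he
    exact (hgle e X hX).trans (hM X)
  set G : Set ℝ := g '' Set.Ioi 0 with hG
  have hGbdd : BddAbove G := ⟨M, by rintro _ ⟨e, he, rfl⟩; exact hgM e he⟩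
  have hGne : G.Nonempty := ⟨g 1, 1, by simp, rfl⟩
  refine ⟨sSup G, ?_, ?_, ?_, ?_⟩
  · exact (hgm 1 one_pos).trans (le_csSup hGbdd ⟨1, by simp, rfl⟩)
  · exact csSup_le hGne (by rintro _ ⟨e, he, rfl⟩; exact hgM e he)
  · intro η hη
    obtain ⟨_, ⟨δ, hδ, rfl⟩, h⟩ := exists_lt_of_lt_csSup hGne (sub_lt_self (sSup G) hη)
    exact ⟨δ, hδ, fun X hX => h.le.trans (hgle δ X hX)⟩
  · intro e he
    have h1 : g e < sSup G + e := by
      have := le_csSup hGbdd (⟨e, he, rfl⟩ : g e ∈ G)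
      linarith
    obtain ⟨_, ⟨X, hX, rfl⟩, h⟩ := exists_lt_of_csInf_lt (hnon e he) h1
    exact ⟨X, hX, h.le⟩

set_option maxHeartbeats 1000000 in
/-- **lex-extremiser.** -/
theorem lex_extremiser {N : Type*} [Nonempty N] (s τ a : N → ℝ) (Ch : N → ℕ → Type*)
    (l b Lam : ∀ {X : N} {J : ℕ}, Ch X J → ℕ → ℝ)
    (C k0 κ : ℝ) (hk0 : 0 < k0) (hκ : 0 ≤ κ) (hC : 0 ≤ C)
    (hs : ∀ X, 0 ≤ s X ∧ s X ≤ 1) (hτ : ∀ X, κ ≤ τ X ∧ τ X ≤ C) (ha : ∀ X, k0 ≤ a X ∧ a X ≤ C)
    -- the end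
    (hl1 : ∀ {X J} (c : Ch X J), l c J = 0) (hL0 : ∀ {X J} (c : Ch X J), Lam c 0 = 0)
    (hL1 : ∀ {X J} (c : Ch X J), Lam c J = s X)
    -- lower windows
    (hlow : ∀ {X J} (c : Ch X J) i, 1 ≤ i → i ≤ J → ∃ Y, (i / J : ℝ) * s Y = Lam c i ∧
      l c i + (i / J : ℝ) * τ Y ≤ τ X ∧ (i / J : ℝ) * a Y ≤ b c i)
    (hlow0 : ∀ {X J} (c : Ch X J), 1 ≤ J → l c 0 ≤ τ X)
    -- one-step windows
    (hstep : ∀ {X J} (c : Ch X J) i, i < J → ∃ W, (1 / J : ℝ) * s W = Lam c (i + 1) - Lam c i ∧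
      l c (i + 1) + (1 / J : ℝ) * τ W ≤ l c i)
    -- upper windows at an admissible precision `ρ` of the end flags
    (hup : ∀ {X J} (c : Ch X J) i, i < J → ∀ ρ : ℝ,
      (∀ j, i < j → j ≤ J → ρ ≤ b c j - C * (1 / J) - (l c (j - 1) - l c j)) →
      ∃ Z Y, (1 - i / J : ℝ) * s Z = s X - Lam c i ∧ (i / J : ℝ) * s Y = Lam c i ∧
        (1 - i / J : ℝ) * τ Z + (i / J : ℝ) * τ Y ≤ τ X ∧ (1 - i / J : ℝ) * a Z ≤ a X - ρ) :
    ∃ S T A : ℝ, 0 ≤ S ∧ S ≤ 1 ∧ κ ≤ T ∧ T ≤ C ∧ k0 ≤ A ∧ A ≤ C ∧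
      ∀ ε, 0 < ε → ∃ J0 : ℕ, ∀ J, J0 ≤ J → ∃ X : N, |s X - S| ≤ ε ∧ |τ X - T| ≤ ε ∧
        |a X - A| ≤ ε ∧ ∀ c : Ch X J,
        (∀ i, i ≤ J → |Lam c i - S * (i / J)| ≤ ε) ∧
        (∀ i, i ≤ J → |l c i - T * (1 - i / J)| ≤ ε) ∧
        (∀ i, 1 ≤ i → i ≤ J → A * (i / J) - ε ≤ b c i) ∧
        (∀ i, i < J → ∃ j, i < j ∧ j ≤ J ∧ (j / J : ℝ) ≤ i / J + ε ∧
          |b c j - A * (j / J)| ≤ ε) := by
  -- S
  obtain ⟨S', hS1, hS2, hS3, hS4⟩ := lex_inf (N := N) (fun _ _ => True)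
    (fun _ _ => ⟨Classical.arbitrary N, trivial⟩) (fun X => - s X) (-1) 0
    (fun X => by have := (hs X).2; linarith) (fun X => by have := (hs X).1; linarith)
  obtain ⟨S, hS⟩ : ∃ S, S' = -S := ⟨-S', by ring⟩
  subst hS
  have hSle : ∀ X, s X ≤ S := by
    intro X
    refine le_of_forall_pos_le_add fun η hη => ?_
    obtain ⟨δ, _, h⟩ := hS3 η hη
    have := h X trivial
    linarith
  -- T
  obtain ⟨T, hT1, hT2, hT3, hT4⟩ := lex_inf (N := N) (fun e X => S - e ≤ s X)
    (fun e he => by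
      obtain ⟨X, _, h⟩ := hS4 e he
      exact ⟨X, by linarith⟩) τ κ C (fun X => (hτ X).1) (fun X => (hτ X).2)
  -- A
  obtain ⟨A, hA1, hA2, hA3, hA4⟩ := lex_inf (N := N) (fun e X => S - e ≤ s X ∧ τ X ≤ T + e)
    (fun e he => by
      obtain ⟨X, h1, h⟩ := hT4 e he
      exact ⟨X, h1, h⟩) a k0 C (fun X => (ha X).1) (fun X => (ha X).2)
  refine ⟨S, T, A, by linarith, by linarith, hT1, hT2, hA1, hA2, ?_⟩
  intro ε hε
  have hA0 : 0 < A := lt_of_lt_of_le hk0 hA1
  -- the budget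
  set η : ℝ := min (ε / 8) (A * ε / 8) with hη
  have hη0 : 0 < η := by rw [hη]; positivity
  have hη1 : η ≤ ε / 8 := min_le_left _ _
  have hη2 : η ≤ A * ε / 8 := min_le_right _ _
  obtain ⟨J0, hJ0⟩ := exists_nat_gt ((2 * C + 1) / η)
  refine ⟨J0 + 1, ?_⟩
  intro J hJ
  have hJr : (J0 : ℝ) + 1 ≤ J := by exact_mod_cast hJ
  have hJpos : (0 : ℝ) < J := by
    have : (0 : ℝ) ≤ J0 := Nat.cast_nonneg _
    linarith
  have hJne : (J : ℝ) ≠ 0 := hJpos.ne'
  have hJ1 : 1 ≤ J := by exact_mod_cast (show 0 < J by exact_mod_cast hJpos)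
  set w : ℝ := 1 / J with hw
  have hw0 : 0 < w := by rw [hw]; positivity
  have hw1 : (2 * C + 1) * w ≤ η := by
    have h1 : (2 * C + 1) / η < J := by linarith
    rw [div_lt_iff₀ hη0] at h1
    rw [hw, mul_one_div, div_le_iff₀ hJpos]
    linarith [mul_comm (J : ℝ) η]
  have hwη : w ≤ η := le_trans (le_mul_of_one_le_left hw0.le (by linarith)) hw1
  obtain ⟨δ1, hδ1, hA3'⟩ := hA3 η hη0
  set η1 : ℝ := min (w * δ1 / 2) η with hη1'
  have hη10 : 0 < η1 := by rw [hη1']; positivity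
  have hη11 : η1 ≤ w * δ1 / 2 := min_le_left _ _
  have hη12 : η1 ≤ η := min_le_right _ _
  obtain ⟨δ2, hδ2, hT3'⟩ := hT3 η1 hη10
  set e : ℝ := min (min (w * δ1 / 2) (w * δ2)) η with he
  have he0 : 0 < e := by rw [he]; positivity
  have he1 : e ≤ w * δ1 / 2 := (min_le_left _ _).trans (min_le_left _ _)
  have he2 : e ≤ w * δ2 := (min_le_left _ _).trans (min_le_right _ _)
  have he3 : e ≤ η := min_le_right _ _
  obtain ⟨X, ⟨hX1, hX2⟩, hX3⟩ := hA4 e he0
  have hwle : w ≤ 1 := by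
    rw [hw, div_le_one hJpos]
    exact_mod_cast hJ1
  have heδ2 : e ≤ δ2 := he2.trans (mul_le_of_le_one_left hδ2.le hwle)
  have heδ1 : e ≤ δ1 := he1.trans (by
    have := mul_le_of_le_one_left hδ1.le hwle
    linarith)
  have hXT : T - η1 ≤ τ X := hT3' X (by linarith)
  have hXA : A - η ≤ a X := hA3' X ⟨by linarith, by linarith⟩
  refine ⟨X, ?_, ?_, ?_, ?_⟩
  · rw [abs_le]; constructor <;> linarith [hSle X]
  · rw [abs_le]; constructor <;> linarith
  · rw [abs_le]; constructor <;> linarith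
  intro c
  have hv : ∀ i : ℕ, (i / J : ℝ) = i * w := fun i => by rw [hw]; ring
  have hv1 : ∀ i : ℕ, 1 ≤ i → w ≤ (i / J : ℝ) := fun i hi => by
    rw [hv]
    have : (1 : ℝ) ≤ i := by exact_mod_cast hi
    exact le_mul_of_one_le_left hw0.le this
  have hvJ : ∀ i : ℕ, i ≤ J → (i / J : ℝ) ≤ 1 := fun i hi => by
    rw [div_le_one hJpos]; exact_mod_cast hi
  have hvJ' : ∀ i : ℕ, i < J → w ≤ 1 - (i / J : ℝ) := fun i hi => by
    have h1 : (i : ℝ) + 1 ≤ J := by exact_mod_cast hi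
    have h2 : (J : ℝ) * w = 1 := by rw [hw]; field_simp
    rw [hv]
    have h3 := mul_le_mul_of_nonneg_right h1 hw0.le
    rw [h2, add_mul, one_mul] at h3
    linarith
  have hv0 : ∀ i : ℕ, 0 ≤ (i / J : ℝ) := fun i => by positivity
  have hTn : 0 ≤ T := hκ.trans hT1
  clear_value e η1 η w
  clear hS1 hS2 hS3 hS4 hT4 hA4 hA3 hT3 hJ0
  -- own exponents
  have hLamU : ∀ i, i ≤ J → Lam c i ≤ S * (i / J) := by
    intro i hi
    rcases Nat.eq_zero_or_pos i with rfl | hpos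
    · rw [hL0 c]; simp
    · obtain ⟨Y, hY, _⟩ := hlow c i hpos hi
      rw [← hY, mul_comm S]
      exact mul_le_mul_of_nonneg_left (hSle Y) (hv0 i)
  have hLamL : ∀ i, i ≤ J → S * (i / J) - e ≤ Lam c i := by
    intro i hi
    rcases Nat.lt_or_ge i J with hlt | hge
    · obtain ⟨Z, Y, hZ, _⟩ := hup c i hlt
        (-∑ j ∈ Finset.range (J + 1), (|b c j| + |l c (j - 1)| + |l c j| + C * w)) (by
          intro j _ hj
          rw [← hw]
          have h1 : |b c j| + |l c (j - 1)| + |l c j| + C * w ≤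
              ∑ j ∈ Finset.range (J + 1), (|b c j| + |l c (j - 1)| + |l c j| + C * w) :=
            Finset.single_le_sum (f := fun j => |b c j| + |l c (j - 1)| + |l c j| + C * w)
              (fun j _ => by positivity) (Finset.mem_range.2 (by omega))
          have h2 := neg_abs_le (b c j)
          have h3 := le_abs_self (l c (j - 1))
          have h4 := neg_abs_le (l c j)
          linarith)
      have h1 : (1 - i / J : ℝ) * s Z ≤ (1 - i / J : ℝ) * S :=
        mul_le_mul_of_nonneg_left (hSle Z) (by have := hvJ i hi; linarith)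
      have h2 : (1 - i / J : ℝ) * S = S - S * (i / J) := by ring
      linarith
    · have : i = J := le_antisymm hi hge
      subst this
      rw [hL1 c, div_self hJne, mul_one]
      exact hX1
  -- windows are near maximal in `s`
  have hsY : ∀ i, 1 ≤ i → i ≤ J → ∀ Y : N, (i / J : ℝ) * s Y = Lam c i → S - e / w ≤ s Y := by
    intro i hi hiJ Y hY
    have h1 := hLamL i hiJ
    have h2 := hv1 i hi
    have h3 : 0 < (i / J : ℝ) := lt_of_lt_of_le hw0 h2
    have h4 : S - e / (i / J : ℝ) ≤ s Y := by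
      have h5 : (S - s Y) * (i / J : ℝ) ≤ e := by
        have : (S - s Y) * (i / J : ℝ) = S * (i / J : ℝ) - (i / J : ℝ) * s Y := by ring
        rw [this, hY]; linarith
      have h6 : S - s Y ≤ e / (i / J : ℝ) := by rw [le_div_iff₀ h3]; exact h5
      linarith
    have h7 : e / (i / J : ℝ) ≤ e / w := div_le_div_of_nonneg_left he0.le hw0 h2
    linarith
  have hew1 : e / w ≤ δ1 / 2 := by rw [div_le_iff₀ hw0]; linarith
  have hew2 : e / w ≤ δ2 := by rw [div_le_iff₀ hw0]; linarith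
  have hη1w : η1 / w ≤ δ1 / 2 := by rw [div_le_iff₀ hw0]; linarith
  -- upper bound for `l`
  have hlU : ∀ i, i ≤ J → l c i ≤ T * (1 - i / J) + e + η1 := by
    intro i hi
    rcases Nat.eq_zero_or_pos i with rfl | hpos
    · have h1 := hlow0 c hJ1
      have h2 : T * (1 - ((0 : ℕ) : ℝ) / J) = T := by simp
      rw [h2]; linarith
    · obtain ⟨Y, hY, hY1, _⟩ := hlow c i hpos hi
      have h1 : T - η1 ≤ τ Y := hT3' Y (by have := hsY i hpos hi Y hY; linarith)
      have h2 : (i / J : ℝ) * (T - η1) ≤ (i / J : ℝ) * τ Y := mul_le_mul_of_nonneg_left h1 (hv0 i)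
      have h3 : (i / J : ℝ) * η1 ≤ η1 := mul_le_of_le_one_left hη10.le (hvJ i hi)
      have h4 : (i / J : ℝ) * (T - η1) = T * (i / J) - (i / J : ℝ) * η1 := by ring
      have h5 : T * (1 - i / J) = T - T * (i / J) := by ring
      linarith
  -- lower bound for `l`
  have hlL : ∀ n i, i + n = J → T * (1 - i / J) - η1 * (1 - i / J) ≤ l c i := by
    intro n
    induction n with
    | zero =>
      intro i hi
      have : i = J := by omega
      subst this
      rw [hl1 c, div_self hJne]; simp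
    | succ n ih =>
      intro i hi
      have h1 := ih (i + 1) (by omega)
      obtain ⟨W, hW1, hW2⟩ := hstep c i (by omega)
      have h2 : S * w - e ≤ w * s W := by
        have e1 := hLamL (i + 1) (by omega)
        have e2 := hLamU i (by omega)
        have e3 : S * (((i + 1 : ℕ) : ℝ) / J) = S * (i / J) + S * w := by
          rw [hw]; push_cast; ring
        rw [← hw] at hW1
        rw [hW1]; linarith
      have h3 : S - δ2 ≤ s W := by
        have e1 : (S - s W) * w ≤ e := by linarith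
        have e2 : S - s W ≤ e / w := by rw [le_div_iff₀ hw0]; exact e1
        linarith
      have h4 := hT3' W h3
      have h5 : w * (T - η1) ≤ w * τ W := mul_le_mul_of_nonneg_left h4 hw0.le
      have e3 : (((i + 1 : ℕ) : ℝ) / J) = i / J + w := by rw [hw]; push_cast; ring
      rw [e3] at h1
      rw [← hw] at hW2
      have e4 : T * (1 - (i / J + w)) - η1 * (1 - (i / J + w)) =
        T * (1 - i / J) - η1 * (1 - i / J) - w * (T - η1) := by ring
      linarith
  have hlL' : ∀ i, i ≤ J → T * (1 - i / J) - η1 ≤ l c i := by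
    intro i hi
    have h1 := hlL (J - i) i (by omega)
    have h2 : η1 * (1 - i / J) ≤ η1 := mul_le_of_le_one_right hη10.le (by
      have := hv0 i
      linarith)
    linarith
  -- lower bound for `b`
  have hbL : ∀ i, 1 ≤ i → i ≤ J → A * (i / J) - η ≤ b c i := by
    intro i hi hiJ
    obtain ⟨Y, hY, hY1, hY2⟩ := hlow c i hi hiJ
    have h1 := hsY i hi hiJ Y hY
    have h2 := hlL' i hiJ
    have h3 : (i / J : ℝ) * (τ Y - T) ≤ e + η1 := by
      have : (i / J : ℝ) * (τ Y - T) = (i / J : ℝ) * τ Y - T * (i / J) := by ring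
      have h5 : T * (1 - i / J) = T - T * (i / J) := by ring
      linarith
    have hvi := hv1 i hi
    have hvi0 : 0 < (i / J : ℝ) := lt_of_lt_of_le hw0 hvi
    have h4 : τ Y - T ≤ (e + η1) / w := by
      have h5 : τ Y - T ≤ (e + η1) / (i / J : ℝ) := by
        rw [le_div_iff₀ hvi0]; linarith [mul_comm (τ Y - T) (i / J : ℝ)]
      exact h5.trans (div_le_div_of_nonneg_left (by positivity) hw0 hvi)
    have h5 : (e + η1) / w ≤ δ1 := by rw [add_div]; linarith
    have h6 := hA3' Y ⟨by linarith, by linarith⟩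
    have h7 : (i / J : ℝ) * (A - η) ≤ (i / J : ℝ) * a Y := mul_le_mul_of_nonneg_left h6 (hv0 i)
    have h8 : (i / J : ℝ) * η ≤ η := mul_le_of_le_one_left hη0.le (hvJ i hiJ)
    have h9 : (i / J : ℝ) * (A - η) = A * (i / J) - (i / J : ℝ) * η := by ring
    linarith
  -- upper bound for admissible precisions
  have hρ : ∀ i, i < J → ∀ ρ : ℝ,
      (∀ j, i < j → j ≤ J → ρ ≤ b c j - C * (1 / J) - (l c (j - 1) - l c j)) →
      ρ ≤ A * (i / J) + e + η := by
    intro i hi ρ hρ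
    obtain ⟨Z, Y, hZ1, hY1, hZY, hZa⟩ := hup c i hi ρ hρ
    have hvi := hvJ' i hi
    have hvi0 : 0 < 1 - (i / J : ℝ) := lt_of_lt_of_le hw0 hvi
    have h1 : S - e / w ≤ s Z := by
      have e1 := hLamU i hi.le
      have e2 : (S - s Z) * (1 - i / J : ℝ) ≤ e := by
        have : (S - s Z) * (1 - i / J : ℝ) = S - S * (i / J) - (1 - i / J : ℝ) * s Z := by ring
        rw [this, hZ1]; linarith
      have e3 : S - s Z ≤ e / (1 - i / J : ℝ) := by rw [le_div_iff₀ hvi0]; exact e2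
      have e4 := div_le_div_of_nonneg_left he0.le hw0 hvi
      linarith
    have h2 : T * (i / J) - η1 ≤ (i / J : ℝ) * τ Y := by
      rcases Nat.eq_zero_or_pos i with rfl | hpos
      · simp; exact hη10.le
      · have e1 := hsY i hpos hi.le Y hY1
        have e2 := hT3' Y (by linarith)
        have e3 : (i / J : ℝ) * (T - η1) ≤ (i / J : ℝ) * τ Y :=
          mul_le_mul_of_nonneg_left e2 (hv0 i)
        have e4 : (i / J : ℝ) * η1 ≤ η1 := mul_le_of_le_one_left hη10.le (hvJ i hi.le)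
        have e5 : (i / J : ℝ) * (T - η1) = T * (i / J) - (i / J : ℝ) * η1 := by ring
        linarith
    have h3 : τ Z - T ≤ (e + η1) / w := by
      have e1 : (τ Z - T) * (1 - i / J : ℝ) ≤ e + η1 := by
        have : (τ Z - T) * (1 - i / J : ℝ) = (1 - i / J : ℝ) * τ Z - T + T * (i / J) := by ring
        rw [this]; linarith
      have e2 : τ Z - T ≤ (e + η1) / (1 - i / J : ℝ) := by rw [le_div_iff₀ hvi0]; exact e1
      exact e2.trans (div_le_div_of_nonneg_left (by positivity) hw0 hvi)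
    have h5 : (e + η1) / w ≤ δ1 := by rw [add_div]; linarith
    have h6 := hA3' Z ⟨by linarith, by linarith⟩
    have h7 : (1 - i / J : ℝ) * (A - η) ≤ (1 - i / J : ℝ) * a Z :=
      mul_le_mul_of_nonneg_left h6 hvi0.le
    have h8 : (1 - i / J : ℝ) * η ≤ η := mul_le_of_le_one_left hη0.le (by
      have := hv0 i
      linarith)
    have h9 : (1 - i / J : ℝ) * (A - η) = A - A * (i / J) - (1 - i / J : ℝ) * η := by ring
    linarith
  refine ⟨?_, ?_, ?_, ?_⟩
  · intro i hi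
    rw [abs_le]
    constructor <;> linarith [hLamU i hi, hLamL i hi]
  · intro i hi
    rw [abs_le]
    constructor <;> linarith [hlU i hi, hlL' i hi]
  · intro i hi hiJ
    linarith [hbL i hi hiJ]
  · intro i hi
    -- the minimiser
    obtain ⟨j, hj, hjmin⟩ := Finset.exists_min_image (Finset.Ioc i J)
      (fun j => b c j - C * (1 / J) - (l c (j - 1) - l c j)) ⟨J, Finset.mem_Ioc.2 ⟨hi, le_rfl⟩⟩
    obtain ⟨hj1, hj2⟩ := Finset.mem_Ioc.1 hj
    have h1 := hρ i hi _ (fun j' h1 h2 => hjmin j' (Finset.mem_Ioc.2 ⟨h1, h2⟩))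
    rw [← hw] at h1
    have h2 := hlU (j - 1) (by omega)
    have h3 := hlL' j hj2
    have h4 : (((j - 1 : ℕ) : ℝ) / J) = j / J - w := by
      rw [Nat.cast_sub (by omega), hw]; push_cast; ring
    rw [h4] at h2
    have h5 : T * (1 - (j / J - w)) = T * (1 - j / J) + T * w := by ring
    have h6 : T * w ≤ C * w := mul_le_mul_of_nonneg_right hT2 hw0.le
    have h7 : b c j ≤ A * (i / J) + 6 * η := by
      have h8 : (2 * C + 1) * w = C * w + C * w + w := by ring
      linarith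
    have h8 := hbL j (by omega) hj2
    have h9 : (i / J : ℝ) ≤ j / J := by
      gcongr
    refine ⟨j, hj1, hj2, ?_, ?_⟩
    · have e1 : A * (j / J) ≤ A * (i / J + ε) := by
        have : A * (i / J + ε) = A * (i / J) + A * ε := by ring
        rw [this]; linarith
      exact le_of_mul_le_mul_left e1 hA0
    · rw [abs_le]
      have e1 : A * (i / J) ≤ A * (j / J) := mul_le_mul_of_nonneg_left h9 hA0.le
      constructor <;> linarith

end Crest.Agent.R138.Lex439
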