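import Crest.Agent.R138.Kb1_439

/-!
# Lemma A (861, doc 1921.B), part (i): non-narrow or strips (helper439)

`I` = incidences (line, cell).  Either more than half of `I` sits in cells whose fan is not
concentrated in a strip (then trilinear Kakeya bounds the cell multiplicity), or a quarter of `I`
lies, cell by cell, in one strip per cell, the cells keeping half of their fans.
-/

set_option autoImplicit false

namespace Crest.Agent.R138.LmA439

open Finset Crest.Agent.R138.MK877 Crest.Agent.R138.Kb439 Crest.Agent.R138.Kb439.Ln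

/-- the fan of the cell `k` -/
def fan {ι κ : Type*} [DecidableEq ι] [DecidableEq κ] (I : Finset (ι × κ)) (k : κ) : Finset ι :=
  (I.filter fun x => x.2 = k).image Prod.fst

theorem mem_fan {ι κ : Type*} [DecidableEq ι] [DecidableEq κ] {I : Finset (ι × κ)} {k : κ} {l : ι} :
    l ∈ fan I k ↔ (l, k) ∈ I := by
  unfold fan
  rw [Finset.mem_image]
  constructor
  · rintro ⟨x, hx, rfl⟩
    rw [Finset.mem_filter] at hx
    obtain ⟨h1, rfl⟩ := hx
    exact h1
  · intro h
    exact ⟨(l, k), Finset.mem_filter.2 ⟨h, rfl⟩, rfl⟩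

theorem card_fan {ι κ : Type*} [DecidableEq ι] [DecidableEq κ] (I : Finset (ι × κ)) (k : κ) :
    (fan I k).card = (I.filter fun x => x.2 = k).card := by
  unfold fan
  refine Finset.card_image_of_injOn ?_
  intro x hx y hy h
  rw [Finset.mem_coe, Finset.mem_filter] at hx hy
  exact Prod.ext h (hx.2.trans hy.2.symm)

theorem sum_card_fan {ι κ : Type*} [DecidableEq ι] [DecidableEq κ] (I : Finset (ι × κ))
    (X : Finset κ) (h : ∀ x ∈ I, x.2 ∈ X) : ∑ k ∈ X, (fan I k).card = I.card := by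
  simp only [card_fan]
  exact (Finset.card_eq_sum_card_fiberwise h).symm

/-- **non-narrow or strips.** -/
theorem nonnarrow_or_strips (ε : ℝ) (hε : 0 < ε) : ∃ C : ℝ, 0 < C ∧
    ∀ {ι : Type} [DecidableEq ι] (s : Finset ι) (L : ι → Ln)
      (l0 : Ln) (θ z0 len A B : ℝ) (_ : 0 < len) (_ : 0 < A) (_ : 0 < B)
      (ν r R : ℝ) (_ : 0 < ν) (_ : ν ≤ 1) (_ : 1 ≤ r) (_ : 1 ≤ R)
      (_ : ∀ l ∈ s, |dC l0 (L l)| ≤ A ∧ |dP l0 θ (L l)| ≤ B)
      (I : Finset (ι × (Fin 3 → ℤ)))
      (_ : ∀ x ∈ I, x.1 ∈ s ∧ (∀ i, |(x.2 i : ℝ)| ≤ R) ∧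
        |dX l0 (L x.1) (z0 + len * x.2 2 / R) - A * len * x.2 0 / R| ≤ r * (A * len / R) ∧
        |dN l0 θ (L x.1) (z0 + len * x.2 2 / R) - B * len * x.2 1 / R| ≤ r * (B * len / R))
      (H μ K : ℝ) (_ : 0 < H) (_ : 0 < μ) (_ : 0 < K) (_ : s.Nonempty)
      (_ : ∀ x ∈ I, μ ≤ ((fan I x.2).card : ℝ) ∧ ((fan I x.2).card : ℝ) ≤ K * μ)
      (_ : (s.card : ℝ) * H ≤ I.card),
      μ ≤ (C * K * r ^ 3 * (ν⁻¹) ^ 26 * R ^ ε) ^ 2 * (s.card : ℝ) / H ^ 2 ∨
      ∃ (I' : Finset (ι × (Fin 3 → ℤ))) (u n : (Fin 3 → ℤ) → ℝ × ℝ), I' ⊆ I ∧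
        (I.card : ℝ) ≤ 4 * I'.card ∧ (∀ k, (n k).1 ^ 2 + (n k).2 ^ 2 = 1) ∧
        (∀ x ∈ I', InStrip ν (u x.2) (n x.2) (vel l0 θ A B (L x.1))) ∧
        ∀ x ∈ I', μ / 2 ≤ ((fan I' x.2).card : ℝ) := by
  obtain ⟨C, hC, key⟩ := affine_kakeya ε hε
  refine ⟨2 * C, by positivity, ?_⟩
  intro ι _ s L l0 θ z0 len A B hlen hA hB ν r R hν hν1 hr hR hv I hI H μ K hH hμ hK hs hcard
    hdens
  classical
  have hR0 : (0 : ℝ) < R := lt_of_lt_of_le one_pos hR
  have hS : (0 : ℝ) < s.card := by exact_mod_cast hs.card_pos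
  -- narrow cells
  set Nar : (Fin 3 → ℤ) → Prop := fun k => ∃ u n : ℝ × ℝ, n.1 ^ 2 + n.2 ^ 2 = 1 ∧
    ((fan I k).card : ℝ) / 2 <
      (((fan I k).filter fun l => InStrip ν u n (vel l0 θ A B (L l))).card : ℝ) with hNar
  set X : Finset (Fin 3 → ℤ) := I.image Prod.snd with hX
  set X1 : Finset (Fin 3 → ℤ) := X.filter fun k => ¬ Nar k with hX1
  set I1 : Finset (ι × (Fin 3 → ℤ)) := I.filter fun x => ¬ Nar x.2 with hI1
  set I2 : Finset (ι × (Fin 3 → ℤ)) := I.filter fun x => Nar x.2 with hI2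
  have hsplit : I2.card + I1.card = I.card := by
    rw [hI1, hI2]
    exact Finset.card_filter_add_card_filter_not (s := I) (fun x => Nar x.2)
  by_cases hcase : (I.card : ℝ) ≤ 2 * I1.card
  · -- Kakeya
    left
    have h1 := key s L (fun _ => 1) (fun _ _ => zero_le_one) l0 θ z0 len A B hlen hA hB ν r R hν
      hν1 hr hR hv X1 (by
        intro k hk i
        obtain ⟨x, hx, rfl⟩ := Finset.mem_image.1 (Finset.mem_filter.1 hk).1
        exact (hI x hx).2.1 i) (fan I) (by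
        intro k _ l hl
        exact (hI _ (mem_fan.1 hl)).1) (by
        intro k _ l hl
        exact (hI _ (mem_fan.1 hl)).2.2) (by
        intro k hk u n hn
        have h2 : ¬ Nar k := (Finset.mem_filter.1 hk).2
        simp only [sum_const, nsmul_eq_mul, mul_one]
        by_contra h3
        exact h2 ⟨u, n, hn, by push Not at h3; convert h3⟩)
    simp only [sum_const, nsmul_eq_mul, mul_one] at h1
    set Q : ℝ := C * r ^ 3 * (ν⁻¹) ^ 26 * R ^ ε with hQ
    have hQ0 : 0 < Q := by positivity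
    have h2 : (I1.card : ℝ) ≤ X1.card * (K * μ) := by
      have e1 : I1.card = ∑ k ∈ X1, (fan I1 k).card := by
        rw [sum_card_fan]
        intro x hx
        have hx' := Finset.mem_filter.1 hx
        exact Finset.mem_filter.2 ⟨Finset.mem_image.2 ⟨x, hx'.1, rfl⟩, hx'.2⟩
      have e2 : ∀ k ∈ X1, ((fan I1 k).card : ℝ) ≤ K * μ := by
        intro k hk
        obtain ⟨x, hx, rfl⟩ := Finset.mem_image.1 (Finset.mem_filter.1 hk).1
        refine le_trans ?_ (hcard x hx).2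
        exact_mod_cast Finset.card_le_card fun l hl =>
          mem_fan.2 (Finset.filter_subset _ _ (mem_fan.1 hl))
      calc (I1.card : ℝ) = ∑ k ∈ X1, ((fan I1 k).card : ℝ) := by rw [e1]; push_cast; rfl
        _ ≤ ∑ _k ∈ X1, K * μ := Finset.sum_le_sum e2
        _ = X1.card * (K * μ) := by rw [Finset.sum_const, nsmul_eq_mul]
    have h4 : (X1.card : ℝ) * √μ ^ 3 ≤ ∑ k ∈ X1, √((fan I k).card : ℝ) ^ 3 := by
      calc (X1.card : ℝ) * √μ ^ 3 = ∑ _k ∈ X1, √μ ^ 3 := by rw [Finset.sum_const, nsmul_eq_mul]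
        _ ≤ _ := Finset.sum_le_sum fun k hk => by
            obtain ⟨x, hx, rfl⟩ := Finset.mem_image.1 (Finset.mem_filter.1 hk).1
            exact pow_le_pow_left₀ (Real.sqrt_nonneg _) (Real.sqrt_le_sqrt (hcard x hx).1) 3
    set a : ℝ := √μ with ha
    set b : ℝ := √(s.card : ℝ) with hb
    have ha0 : 0 < a := Real.sqrt_pos.2 hμ
    have hb0 : 0 < b := Real.sqrt_pos.2 hS
    have ha2 : a ^ 2 = μ := Real.sq_sqrt hμ.le
    have hb2 : b ^ 2 = s.card := Real.sq_sqrt hS.le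
    have h5 : (X1.card : ℝ) * a ^ 3 ≤ Q * b ^ 3 := h4.trans h1
    have h6 : b ^ 2 * H ≤ 2 * (X1.card * (K * a ^ 2)) := by
      rw [hb2, ha2]
      calc (s.card : ℝ) * H ≤ I.card := hdens
        _ ≤ 2 * I1.card := hcase
        _ ≤ 2 * (X1.card * (K * μ)) := by linarith
    have h7 : H * a ≤ 2 * K * Q * b := by
      have e1 : b ^ 2 * H * a ≤ 2 * K * (Q * b ^ 3) := by
        calc b ^ 2 * H * a ≤ 2 * (X1.card * (K * a ^ 2)) * a := by gcongr
          _ = 2 * K * (X1.card * a ^ 3) := by ring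
          _ ≤ 2 * K * (Q * b ^ 3) := by gcongr
      have e2 : b ^ 2 * (H * a) ≤ b ^ 2 * (2 * K * Q * b) := by
        calc b ^ 2 * (H * a) = b ^ 2 * H * a := by ring
          _ ≤ 2 * K * (Q * b ^ 3) := e1
          _ = b ^ 2 * (2 * K * Q * b) := by ring
      exact le_of_mul_le_mul_left e2 (by positivity)
    rw [le_div_iff₀ (by positivity), ← ha2, ← hb2]
    calc a ^ 2 * H ^ 2 = (H * a) ^ 2 := by ring
      _ ≤ (2 * K * Q * b) ^ 2 := pow_le_pow_left₀ (by positivity) h7 2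
      _ = (2 * C * K * r ^ 3 * ν⁻¹ ^ 26 * R ^ ε) ^ 2 * b ^ 2 := by rw [hQ]; ring
  · -- strips
    right
    push Not at hcase
    have hch : ∀ k, ∃ un : (ℝ × ℝ) × (ℝ × ℝ), un.2.1 ^ 2 + un.2.2 ^ 2 = 1 ∧ (Nar k →
        ((fan I k).card : ℝ) / 2 <
          (((fan I k).filter fun l => InStrip ν un.1 un.2 (vel l0 θ A B (L l))).card : ℝ)) := by
      intro k
      by_cases h : Nar k
      · obtain ⟨u, n, h1, h2⟩ := h
        exact ⟨(u, n), h1, fun _ => h2⟩
      · exact ⟨((0, 0), (1, 0)), by norm_num, fun h' => absurd h' h⟩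
    choose un hun1 hun2 using hch
    set I' : Finset (ι × (Fin 3 → ℤ)) := I2.filter fun x =>
      InStrip ν (un x.2).1 (un x.2).2 (vel l0 θ A B (L x.1)) with hI'
    have hfan : ∀ k, Nar k → fan I' k =
        (fan I k).filter fun l => InStrip ν (un k).1 (un k).2 (vel l0 θ A B (L l)) := by
      intro k hk
      ext l
      simp only [mem_fan, hI', hI2, Finset.mem_filter]
      constructor
      · rintro ⟨⟨h1, _⟩, h3⟩
        exact ⟨h1, h3⟩
      · rintro ⟨h1, h3⟩
        exact ⟨⟨h1, hk⟩, h3⟩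
    refine ⟨I', fun k => (un k).1, fun k => (un k).2, ?_, ?_, hun1, ?_, ?_⟩
    · exact (Finset.filter_subset _ _).trans (Finset.filter_subset _ _)
    · have hsub : ∀ x ∈ I', x.2 ∈ X.filter Nar := by
        intro x hx
        have h1 := Finset.mem_filter.1 (Finset.mem_filter.1 hx).1
        exact Finset.mem_filter.2 ⟨Finset.mem_image.2 ⟨x, h1.1, rfl⟩, h1.2⟩
      have hsub2 : ∀ x ∈ I2, x.2 ∈ X.filter Nar := by
        intro x hx
        have h1 := Finset.mem_filter.1 hx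
        exact Finset.mem_filter.2 ⟨Finset.mem_image.2 ⟨x, h1.1, rfl⟩, h1.2⟩
      have e1 := sum_card_fan I' (X.filter Nar) hsub
      have e2 := sum_card_fan I2 (X.filter Nar) hsub2
      have e3 : (I2.card : ℝ) ≤ 2 * I'.card := by
        rw [← e1, ← e2]
        push_cast
        rw [Finset.mul_sum]
        refine Finset.sum_le_sum fun k hk => ?_
        have hk' := (Finset.mem_filter.1 hk).2
        have h1 := hun2 k hk'
        rw [← hfan k hk'] at h1
        have h2 : (fan I2 k).card ≤ (fan I k).card := Finset.card_le_card fun l hl =>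
          mem_fan.2 (Finset.filter_subset _ _ (mem_fan.1 hl))
        have h3 : ((fan I2 k).card : ℝ) ≤ (fan I k).card := by exact_mod_cast h2
        linarith
      have e4 : (I.card : ℝ) = I2.card + I1.card := by exact_mod_cast hsplit.symm
      linarith
    · intro x hx
      exact (Finset.mem_filter.1 hx).2
    · intro x hx
      have h1 := Finset.mem_filter.1 (Finset.mem_filter.1 hx).1
      have h2 := hun2 x.2 h1.2
      rw [← hfan x.2 h1.2] at h2
      have h3 := (hcard x h1.1).1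
      linarith

end Crest.Agent.R138.LmA439
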