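import Mathlib

/-!
# R138: zone S, finite part (helper294)

Planar `L²` (Córdoba) step in the saturated zone, as a pure counting lemma: incidences
`(line, height)`, the line `ℓ` has lateral position `a ℓ + c ℓ z`; a cell (`key`) fixes the height
and the lateral position up to `2/N`.
-/

set_option autoImplicit false
set_option linter.unusedVariables false

open Finset

namespace Crest.Agent.R138.ZS294

/-- an affine function of slope at least `r` per unit is small at few integers. -/
theorem card_small_le {J : Finset ℤ} {A B e : ℝ} (hB : 0 < |B|) (he : 0 ≤ e)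
    (h : ∀ j ∈ J, |A + B * j| ≤ e) : (J.card : ℝ) ≤ 2 * e / |B| + 1 := by
  rcases J.eq_empty_or_nonempty with rfl | hne
  · simp only [card_empty, Nat.cast_zero]; positivity
  set j0 := J.min' hne with hj0
  have h0 := J.min'_mem hne
  have hsub : J ⊆ Icc j0 (j0 + ⌊2 * e / |B|⌋) := by
    intro j hj
    have h1 : j0 ≤ j := J.min'_le j hj
    rw [mem_Icc]
    refine ⟨h1, ?_⟩
    have h2 : |B| * ((j : ℝ) - j0) ≤ 2 * e := by
      have h3 : |B * (j - j0)| ≤ 2 * e := by
        have h4 : B * ((j : ℝ) - j0) = (A + B * j) - (A + B * j0) := by ring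
        rw [h4]
        calc |(A + B * j) - (A + B * j0)| ≤ |A + B * j| + |A + B * j0| := abs_sub _ _
          _ ≤ e + e := add_le_add (h j hj) (h j0 h0)
          _ = 2 * e := by ring
      rw [abs_mul] at h3
      have h5 : |(j : ℝ) - j0| = (j : ℝ) - j0 := by
        rw [abs_of_nonneg]
        have : (j0 : ℝ) ≤ j := by exact_mod_cast h1
        linarith
      rwa [h5] at h3
    have h6 : ((j - j0 : ℤ) : ℝ) ≤ 2 * e / |B| := by
      rw [le_div_iff₀ hB]; push_cast; linarith
    have h7 : j - j0 ≤ ⌊2 * e / |B|⌋ := Int.le_floor.2 h6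
    omega
  have h1 := card_le_card hsub
  rw [Int.card_Icc] at h1
  have hf : 0 ≤ ⌊2 * e / |B|⌋ := Int.floor_nonneg.2 (by positivity)
  have h2 : (J.card : ℤ) ≤ ⌊2 * e / |B|⌋ + 1 := by omega
  have h3 : (J.card : ℝ) ≤ (⌊2 * e / |B|⌋ : ℝ) + 1 := by exact_mod_cast h2
  have h4 := Int.floor_le (2 * e / |B|)
  linarith

/-- **zone S, finite form.** `F ⊆ G` incidences; every cell of `F` carries at least `μ` incidences of
`G`, at most half of them in a lateral cap of half-width `r` around a given one; every line of `F`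
has at least `h` incidences in `F`.  Then `h μ ≤ 10 r⁻¹ · #(lines of G)`. -/
theorem zoneS {ι κ : Type*} [DecidableEq ι] [DecidableEq κ] (F G : Finset (ι × ℤ))
    (key : ι × ℤ → κ) (a c : ι → ℝ) {N μ h r : ℝ} (hN : 0 < N) (hr : 0 < r) (hr1 : r ≤ 1)
    (hμ : 0 < μ) (hh : 0 ≤ h) (hF : F.Nonempty) (hFG : F ⊆ G)
    (hkey : ∀ x ∈ G, ∀ y ∈ G, key x = key y → x.2 = y.2 ∧
      |(a x.1 + c x.1 * (x.2 / N)) - (a y.1 + c y.1 * (y.2 / N))| ≤ 2 / N)
    (hmu : ∀ x ∈ F, μ ≤ ((G.filter (fun y => key y = key x)).card : ℝ))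
    (hcap : ∀ x ∈ F, ((G.filter (fun y => key y = key x ∧ |c y.1 - c x.1| < r)).card : ℝ) ≤ μ / 2)
    (hline : ∀ x ∈ F, h ≤ ((F.filter (fun y => y.1 = x.1)).card : ℝ)) :
    h * μ ≤ 10 / r * ((G.image Prod.fst).card : ℝ) := by
  classical
  set LF := F.image Prod.fst with hLF
  set LG := G.image Prod.fst with hLG
  -- the set of transversal pairs
  set T := (F ×ˢ G).filter (fun p => key p.2 = key p.1 ∧ r ≤ |c p.2.1 - c p.1.1|) with hT
  have hlow : (F.card : ℝ) * (μ / 2) ≤ T.card := by
    have h1 : T.card = ∑ x ∈ F, (G.filter (fun y => key y = key x ∧ r ≤ |c y.1 - c x.1|)).card := by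
      rw [hT, card_filter, sum_product]
      refine sum_congr rfl fun x _ => ?_
      rw [card_filter]
    rw [h1]
    push_cast
    rw [← nsmul_eq_mul]
    refine card_nsmul_le_sum _ _ _ ?_
    intro x hx
    have h2 : (G.filter (fun y => key y = key x)).card ≤
        (G.filter (fun y => key y = key x ∧ |c y.1 - c x.1| < r)).card +
          (G.filter (fun y => key y = key x ∧ r ≤ |c y.1 - c x.1|)).card := by
      rw [← card_union_of_disjoint]
      · refine card_le_card ?_
        intro y hy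
        rw [mem_filter] at hy
        rw [mem_union, mem_filter, mem_filter]
        rcases lt_or_ge |c y.1 - c x.1| r with h3 | h3
        · left; exact ⟨hy.1, hy.2, h3⟩
        · right; exact ⟨hy.1, hy.2, h3⟩
      · rw [disjoint_left]
        intro y hy hy'
        rw [mem_filter] at hy hy'
        exact absurd hy.2.2 (not_lt.2 hy'.2.2)
    have h3 : ((G.filter (fun y => key y = key x)).card : ℝ) ≤
        ((G.filter (fun y => key y = key x ∧ |c y.1 - c x.1| < r)).card : ℝ) +
          ((G.filter (fun y => key y = key x ∧ r ≤ |c y.1 - c x.1|)).card : ℝ) := by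
      exact_mod_cast h2
    have h4 := hmu x hx
    have h5 := hcap x hx
    linarith
  have hup : (T.card : ℝ) ≤ (LF.card : ℝ) * (LG.card : ℝ) * (5 / r) := by
    have hmap : ∀ p ∈ T, (p.1.1, p.2.1) ∈ LF ×ˢ LG := by
      intro p hp
      rw [hT, mem_filter, mem_product] at hp
      rw [mem_product]
      exact ⟨mem_image_of_mem _ hp.1.1, mem_image_of_mem _ hp.1.2⟩
    have h1 : T.card = ∑ q ∈ LF ×ˢ LG, (T.filter (fun p => (p.1.1, p.2.1) = q)).card :=
      card_eq_sum_card_fiberwise hmap
    rw [h1]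
    push_cast
    have h2 : ∀ q ∈ LF ×ˢ LG, ((T.filter (fun p => (p.1.1, p.2.1) = q)).card : ℝ) ≤ 5 / r := by
      rintro ⟨l, m⟩ _
      set W := T.filter (fun p => (p.1.1, p.2.1) = (l, m)) with hW
      rcases W.eq_empty_or_nonempty with hWe | hWne
      · rw [hWe]; simp only [card_empty, Nat.cast_zero]; positivity
      have hWm : ∀ p ∈ W, p.1.1 = l ∧ p.2.1 = m ∧ p.1 ∈ F ∧ p.2 ∈ G ∧ key p.2 = key p.1 ∧
          r ≤ |c m - c l| := by
        intro p hp
        rw [hW, mem_filter, hT, mem_filter, mem_product] at hp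
        obtain ⟨⟨⟨h3, h4⟩, h5, h6⟩, h7⟩ := hp
        rw [Prod.mk.injEq] at h7
        refine ⟨h7.1, h7.2, h3, h4, h5, ?_⟩
        rw [← h7.1, ← h7.2]; exact h6
      obtain ⟨p0, hp0⟩ := hWne
      have hrc : r ≤ |c m - c l| := (hWm p0 hp0).2.2.2.2.2
      -- injection to the height
      have hcard : W.card = (W.image (fun p => p.1.2)).card := by
        symm
        apply card_image_of_injOn
        intro p hp q hq hpq
        obtain ⟨p1, p2, p3, p4, p5, -⟩ := hWm p hp
        obtain ⟨q1, q2, q3, q4, q5, -⟩ := hWm q hq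
        have e1 := (hkey _ p4 _ (hFG p3) p5).1
        have e2 := (hkey _ q4 _ (hFG q3) q5).1
        simp only at hpq
        refine Prod.ext (Prod.ext (p1.trans q1.symm) hpq) (Prod.ext (p2.trans q2.symm) ?_)
        rw [e1, e2, hpq]
      rw [hcard]
      have hB : 0 < |(c l - c m) / N| := by
        rw [abs_div, abs_of_pos hN, abs_sub_comm]
        exact div_pos (lt_of_lt_of_le hr hrc) hN
      have h3 := card_small_le (J := W.image (fun p => p.1.2)) (A := a l - a m)
        (B := (c l - c m) / N) (e := 2 / N) hB (by positivity) (by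
          intro j hj
          obtain ⟨p, hp, rfl⟩ := mem_image.1 hj
          obtain ⟨p1, p2, p3, p4, p5, -⟩ := hWm p hp
          obtain ⟨e1, e2⟩ := hkey _ p4 _ (hFG p3) p5
          rw [e1, p1, p2, abs_sub_comm] at e2
          refine le_trans (le_of_eq ?_) e2
          congr 1
          ring)
      refine h3.trans ?_
      rw [abs_div, abs_of_pos hN]
      have h4 : 2 * (2 / N) / (|c l - c m| / N) = 4 / |c l - c m| := by
        have h5 : |c l - c m| ≠ 0 := by
          rw [abs_sub_comm]
          exact (lt_of_lt_of_le hr hrc).ne'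
        field_simp
        ring
      rw [h4, abs_sub_comm]
      have h5 : 4 / |c m - c l| ≤ 4 / r := by gcongr
      have h6 : 1 ≤ 1 / r := by rw [one_le_div hr]; exact hr1
      calc 4 / |c m - c l| + 1 ≤ 4 / r + 1 / r := add_le_add h5 h6
        _ = 5 / r := by ring
    calc ∑ q ∈ LF ×ˢ LG, ((T.filter (fun p => (p.1.1, p.2.1) = q)).card : ℝ) ≤
        ∑ q ∈ LF ×ˢ LG, 5 / r := sum_le_sum h2
      _ = _ := by rw [sum_const, card_product, nsmul_eq_mul]; push_cast; ring
  have hFc : h * (LF.card : ℝ) ≤ F.card := by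
    have h1 : F.card = ∑ l ∈ LF, (F.filter (fun y => y.1 = l)).card :=
      card_eq_sum_card_fiberwise fun x hx => mem_image_of_mem _ hx
    rw [h1]
    push_cast
    rw [mul_comm, ← nsmul_eq_mul]
    refine card_nsmul_le_sum _ _ _ ?_
    intro l hl
    obtain ⟨x, hx, rfl⟩ := mem_image.1 hl
    exact hline x hx
  have hLFpos : 0 < (LF.card : ℝ) := by
    exact_mod_cast card_pos.2 (hF.image _)
  have hLG0 : (0 : ℝ) ≤ LG.card := Nat.cast_nonneg _
  have hfin : (LF.card : ℝ) * (h * μ) ≤ (LF.card : ℝ) * (10 / r * LG.card) := by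
    calc (LF.card : ℝ) * (h * μ) = 2 * ((h * LF.card) * (μ / 2)) := by ring
      _ ≤ 2 * ((F.card : ℝ) * (μ / 2)) := by gcongr
      _ ≤ 2 * ((LF.card : ℝ) * (LG.card : ℝ) * (5 / r)) := by
          have := hlow.trans hup
          linarith
      _ = _ := by ring
  exact le_of_mul_le_mul_left hfin hLFpos

end Crest.Agent.R138.ZS294
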