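import Crest.Agent.R138.MK6_877
import Crest.Agent.R138.Uni_926
import Crest.Agent.R138.ZS1_294

/-!
# R138, LEMMA A, finite normalised form (helper861)

Lines `a + c z`, `b + d z` in the unit cube, heights `z = j / R`, windows of `H` consecutive heights.
If the balls of radius `1/R` at all incidences are rich (`m` lines), then either the trilinear bound
(A), or the planar bound in slabs (B), or the tube bound (C) holds.
-/

set_option autoImplicit false
set_option linter.unusedVariables false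
set_option linter.unusedSectionVars false

namespace Crest.Agent.R138.LmA861

open Finset Crest.Agent.R138.MK877 Crest.Agent.R138.Ex926

section Gen

variable {α β κ κ' : Type*} [DecidableEq α] [DecidableEq β] [DecidableEq κ] [DecidableEq κ']

theorem card_le_mul_image (s : Finset α) (f : α → β) {n : ℝ}
    (h : ∀ x ∈ s, ((s.filter fun y => f y = f x).card : ℝ) ≤ n) :
    (s.card : ℝ) ≤ n * ((s.image f).card : ℝ) := by
  have h1 : s.card = ∑ b ∈ s.image f, (s.filter fun y => f y = b).card :=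
    card_eq_sum_card_image f s
  rw [h1]; push_cast
  calc ∑ b ∈ s.image f, ((s.filter fun y => f y = b).card : ℝ) ≤ ∑ _b ∈ s.image f, n := by
        refine sum_le_sum fun b hb => ?_
        obtain ⟨x, hx, rfl⟩ := mem_image.1 hb
        exact h x hx
    _ = n * ((s.image f).card : ℝ) := by rw [sum_const, nsmul_eq_mul, mul_comm]

theorem mul_image_le_card (s : Finset α) (f : α → β) {n : ℝ}
    (h : ∀ x ∈ s, n ≤ ((s.filter fun y => f y = f x).card : ℝ)) :
    n * ((s.image f).card : ℝ) ≤ (s.card : ℝ) := by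
  have h1 : s.card = ∑ b ∈ s.image f, (s.filter fun y => f y = b).card :=
    card_eq_sum_card_image f s
  rw [h1]; push_cast
  calc n * ((s.image f).card : ℝ) = ∑ _b ∈ s.image f, n := by
        rw [sum_const, nsmul_eq_mul, mul_comm]
    _ ≤ _ := by
        refine sum_le_sum fun b hb => ?_
        obtain ⟨x, hx, rfl⟩ := mem_image.1 hb
        exact h x hx

/-- pruning with respect to two partitions. -/
theorem prune2 (I : Finset α) (f : α → κ) (g : α → κ') {μ ν : ℝ} (hμ : 0 ≤ μ) (hν : 0 ≤ ν)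
    (h : μ * ((I.image f).card : ℝ) + ν * ((I.image g).card : ℝ) ≤ (I.card : ℝ) / 2) :
    ∃ J ⊆ I, (I.card : ℝ) / 2 ≤ J.card ∧
      (∀ x ∈ J, μ ≤ ((J.filter fun y => f y = f x).card : ℝ)) ∧
      (∀ x ∈ J, ν ≤ ((J.filter fun y => g y = g x).card : ℝ)) := by
  classical
  set F : Bool → α → κ ⊕ κ' := fun b i => if b then Sum.inl (f i) else Sum.inr (g i) with hF
  have hi1 : (I.image (F true)).card = (I.image f).card := by
    have : I.image (F true) = (I.image f).image Sum.inl := by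
      rw [image_image]; rfl
    rw [this, card_image_of_injective _ Sum.inl_injective]
  have hi2 : (I.image (F false)).card = (I.image g).card := by
    have : I.image (F false) = (I.image g).image Sum.inr := by
      rw [image_image]; rfl
    rw [this, card_image_of_injective _ Sum.inr_injective]
  obtain ⟨J, hJ, hJc, hgood⟩ := prune (J := Bool) I (fun _ => (1 : ℝ)) (fun _ _ => zero_le_one) F
    (fun b => if b then μ else ν) (fun b => by cases b <;> simpa) (by
      rw [Fintype.sum_bool, hi1, hi2]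
      simpa using h)
  refine ⟨J, hJ, by simpa using hJc, fun x hx => ?_, fun x hx => ?_⟩
  · have h1 := hgood true x hx
    simp only [sum_const, nsmul_eq_mul, mul_one, if_true] at h1
    have h2 : cls J (F true) x = J.filter fun y => f y = f x := by
      ext y; simp [mem_cls, hF]
    rwa [h2] at h1
  · have h1 := hgood false x hx
    simp only [sum_const, nsmul_eq_mul, mul_one] at h1
    have h2 : cls J (F false) x = J.filter fun y => g y = g x := by
      ext y; simp [mem_cls, hF]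
    rw [h2] at h1
    simpa using h1

end Gen

section Main

variable {ι : Type} [DecidableEq ι]

/-- first (or second) coordinate of the line `l` at the height `j / R` -/
noncomputable def pos (a c : ι → ℝ) (R : ℝ) (l : ι) (j : ℤ) : ℝ := a l + c l * (j / R)

theorem pos_shift (a c : ι → ℝ) (R : ℝ) (l : ι) (j k : ℤ) :
    pos a c R l k = pos a c R l j + c l * (((k : ℝ) - j) / R) := by
  unfold pos; ring

/-- the fine cell of an incidence -/
noncomputable def cell (a b c d : ι → ℝ) (R : ℝ) (x : ι × ℤ) : ℤ × ℤ × ℤ :=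
  (x.2, ⌊R * pos a c R x.1 x.2⌋, ⌊R * pos b d R x.1 x.2⌋)

/-- the coarse cell of a fine cell -/
def big (H : ℕ) (k : ℤ × ℤ × ℤ) : Fin 3 → ℤ := ![k.2.1 / H, k.2.2 / H, k.1 / H]

theorem near_of_floor {R p q : ℝ} (hR : 0 < R) (h : ⌊R * p⌋ = ⌊R * q⌋) : |p - q| ≤ 1 / R := by
  have h1 := Int.floor_le (R * p)
  have h2 := Int.lt_floor_add_one (R * p)
  have h3 := Int.floor_le (R * q)
  have h4 := Int.lt_floor_add_one (R * q)
  rw [h] at h1 h2
  have h5 : |R * (p - q)| ≤ 1 := by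
    rw [abs_le]
    constructor <;> nlinarith
  rw [abs_mul, abs_of_pos hR] at h5
  rw [le_div_iff₀ hR]; linarith

theorem floor_near {R p q : ℝ} (hR : 0 < R) (h : |p - q| ≤ 1 / R) : |⌊R * p⌋ - ⌊R * q⌋| ≤ 1 := by
  have h1 := Int.floor_le (R * p)
  have h2 := Int.lt_floor_add_one (R * p)
  have h3 := Int.floor_le (R * q)
  have h4 := Int.lt_floor_add_one (R * q)
  have h5 : |R * p - R * q| ≤ 1 := by
    rw [← mul_sub, abs_mul, abs_of_pos hR]
    rw [le_div_iff₀ hR] at h
    linarith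
  rw [abs_le] at h5
  have h6 : (⌊R * p⌋ : ℝ) - ⌊R * q⌋ < 2 := by linarith
  have h7 : (⌊R * q⌋ : ℝ) - ⌊R * p⌋ < 2 := by linarith
  have h8 : ⌊R * p⌋ - ⌊R * q⌋ < 2 := by exact_mod_cast h6
  have h9 : ⌊R * q⌋ - ⌊R * p⌋ < 2 := by exact_mod_cast h7
  rw [abs_le]; omega

variable (a b c d : ι → ℝ) (R : ℝ)

/-- the number of fine cells. -/
theorem cells_le (hR : 0 < R) (I : Finset (ι × ℤ)) {m : ℝ}
    (hm : ∀ x ∈ I, m ≤ ((I.filter fun y => y.2 = x.2 ∧
      |pos a c R y.1 y.2 - pos a c R x.1 x.2| ≤ 1 / R ∧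
      |pos b d R y.1 y.2 - pos b d R x.1 x.2| ≤ 1 / R).card : ℝ)) :
    m * ((I.image (cell a b c d R)).card : ℝ) ≤ 9 * (I.card : ℝ) := by
  classical
  set Nr : ℤ × ℤ × ℤ → ℤ × ℤ × ℤ → Prop := fun k k' =>
    k'.1 = k.1 ∧ |k'.2.1 - k.2.1| ≤ 1 ∧ |k'.2.2 - k.2.2| ≤ 1 with hNr
  have h1 : m * ((I.image (cell a b c d R)).card : ℝ) ≤
      ∑ k ∈ I.image (cell a b c d R), ((I.filter fun y => Nr k (cell a b c d R y)).card : ℝ) := by
    rw [mul_comm, ← nsmul_eq_mul]
    refine card_nsmul_le_sum _ _ _ fun k hk => ?_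
    obtain ⟨x, hx, rfl⟩ := mem_image.1 hk
    refine (hm x hx).trans ?_
    have : (I.filter fun y => y.2 = x.2 ∧
      |pos a c R y.1 y.2 - pos a c R x.1 x.2| ≤ 1 / R ∧
      |pos b d R y.1 y.2 - pos b d R x.1 x.2| ≤ 1 / R) ⊆
      I.filter fun y => Nr (cell a b c d R x) (cell a b c d R y) := by
      intro y hy
      rw [mem_filter] at hy ⊢
      exact ⟨hy.1, hy.2.1, floor_near hR hy.2.2.1, floor_near hR hy.2.2.2⟩
    exact_mod_cast card_le_card this
  have h2 : ∑ k ∈ I.image (cell a b c d R), ((I.filter fun y => Nr k (cell a b c d R y)).card : ℝ) =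
      ∑ y ∈ I, (((I.image (cell a b c d R)).filter fun k => Nr k (cell a b c d R y)).card : ℝ) := by
    simp only [card_filter]
    push_cast
    rw [sum_comm]
  have h3 : ∑ y ∈ I, (((I.image (cell a b c d R)).filter fun k =>
      Nr k (cell a b c d R y)).card : ℝ) ≤ ∑ _y ∈ I, (9 : ℝ) := by
    refine sum_le_sum fun y hy => ?_
    set k' := cell a b c d R y with hk'
    have h4 : ((I.image (cell a b c d R)).filter fun k => Nr k k') ⊆
        (Icc (-1 : ℤ) 1 ×ˢ Icc (-1 : ℤ) 1).image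
          (fun e : ℤ × ℤ => (k'.1, k'.2.1 + e.1, k'.2.2 + e.2)) := by
      intro k hk
      rw [mem_filter] at hk
      obtain ⟨-, h5, h6, h7⟩ := hk
      rw [abs_le] at h6 h7
      rw [mem_image]
      refine ⟨(k.2.1 - k'.2.1, k.2.2 - k'.2.2), ?_, ?_⟩
      · rw [mem_product, mem_Icc, mem_Icc]
        constructor <;> constructor <;> simp only <;> omega
      · ext
        · exact h5
        · simp
        · simp
    have h5 := (card_le_card h4).trans card_image_le
    have h6 : (Icc (-1 : ℤ) 1 ×ˢ Icc (-1 : ℤ) 1).card = 9 := by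
      rw [card_product]; simp
    rw [h6] at h5
    exact_mod_cast h5
  rw [sum_const, nsmul_eq_mul] at h3
  linarith [h1, h2, h3]

/-- the coarse cells of one line in one window. -/
theorem lineK_le {H : ℕ} (hH : 0 < H) (hR : 0 < R) (I : Finset (ι × ℤ))
    (hv : ∀ x ∈ I, |c x.1| ≤ 1 ∧ |d x.1| ≤ 1) :
    ((I.image fun x => (x.1, big H (cell a b c d R x))).card : ℝ) ≤
      9 * ((I.image fun x => (x.1, x.2 / (H : ℤ))).card : ℝ) := by
  classical
  set G := I.image fun x => (x.1, big H (cell a b c d R x)) with hG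
  have h1 := card_le_mul_image G (fun k : ι × (Fin 3 → ℤ) => (k.1, k.2 2)) (n := 9) (by
    intro k hk
    obtain ⟨x, hx, rfl⟩ := mem_image.1 hk
    have h2 : (G.filter fun y => (y.1, y.2 2) = (x.1, big H (cell a b c d R x) 2)) ⊆
        (Icc (-1 : ℤ) 1 ×ˢ Icc (-1 : ℤ) 1).image
          (fun e : ℤ × ℤ => (x.1, (![big H (cell a b c d R x) 0 + e.1,
            big H (cell a b c d R x) 1 + e.2, big H (cell a b c d R x) 2] : Fin 3 → ℤ))) := by
      intro y hy
      rw [mem_filter] at hy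
      obtain ⟨hy1, hy2⟩ := hy
      obtain ⟨z, hz, rfl⟩ := mem_image.1 hy1
      rw [Prod.mk.injEq] at hy2
      obtain ⟨e1, e2⟩ := hy2
      simp only at e1 e2
      have hw : z.2 / (H : ℤ) = x.2 / (H : ℤ) := by simpa [big, cell] using e2
      have hH' : (0 : ℤ) < H := by exact_mod_cast hH
      have hj : |z.2 - x.2| ≤ H := by
        have a1 := Int.emod_add_mul_ediv z.2 H
        have a2 := Int.emod_add_mul_ediv x.2 H
        have a3 := Int.emod_nonneg z.2 hH'.ne'
        have a4 := Int.emod_nonneg x.2 hH'.ne'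
        have a5 := Int.emod_lt_of_pos z.2 hH'
        have a6 := Int.emod_lt_of_pos x.2 hH'
        rw [hw] at a1
        rw [abs_le]; constructor <;> linarith
      have hjr : |(z.2 : ℝ) - x.2| ≤ H := by exact_mod_cast hj
      have key : ∀ a c : ι → ℝ, |c x.1| ≤ 1 →
          |⌊R * pos a c R x.1 z.2⌋ / (H : ℤ) - ⌊R * pos a c R x.1 x.2⌋ / (H : ℤ)| ≤ 1 := by
        intro a c hc
        set p := R * pos a c R x.1 z.2 with hp
        set q := R * pos a c R x.1 x.2 with hq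
        have h3 : |p - q| ≤ H := by
          have : p - q = c x.1 * ((z.2 : ℝ) - x.2) := by
            rw [hp, hq, pos_shift a c R x.1 x.2 z.2]; field_simp; ring
          rw [this, abs_mul]
          calc |c x.1| * |(z.2 : ℝ) - x.2| ≤ 1 * H := by gcongr
            _ = H := one_mul _
        have h4 := Int.floor_le p
        have h5 := Int.lt_floor_add_one p
        have h6 := Int.floor_le q
        have h7 := Int.lt_floor_add_one q
        rw [abs_le] at h3
        have h8 : (⌊p⌋ : ℝ) - ⌊q⌋ < H + 1 := by linarith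
        have h9 : (⌊q⌋ : ℝ) - ⌊p⌋ < H + 1 := by linarith
        have h8' : ⌊p⌋ - ⌊q⌋ < H + 1 := by exact_mod_cast h8
        have h9' : ⌊q⌋ - ⌊p⌋ < H + 1 := by exact_mod_cast h9
        have b1 : ⌊p⌋ / (H : ℤ) ≤ ⌊q⌋ / (H : ℤ) + 1 := by
          calc ⌊p⌋ / (H : ℤ) ≤ (⌊q⌋ + 1 * H) / (H : ℤ) := Int.ediv_le_ediv hH' (by omega)
            _ = ⌊q⌋ / (H : ℤ) + 1 := Int.add_mul_ediv_right _ _ hH'.ne'
        have b2 : ⌊q⌋ / (H : ℤ) ≤ ⌊p⌋ / (H : ℤ) + 1 := by
          calc ⌊q⌋ / (H : ℤ) ≤ (⌊p⌋ + 1 * H) / (H : ℤ) := Int.ediv_le_ediv hH' (by omega)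
            _ = ⌊p⌋ / (H : ℤ) + 1 := Int.add_mul_ediv_right _ _ hH'.ne'
        rw [abs_le]; omega
      have k1 := key a c (hv x hx).1
      have k2 := key b d (hv x hx).2
      rw [abs_le] at k1 k2
      rw [mem_image]
      refine ⟨(⌊R * pos a c R x.1 z.2⌋ / (H : ℤ) - ⌊R * pos a c R x.1 x.2⌋ / (H : ℤ),
        ⌊R * pos b d R x.1 z.2⌋ / (H : ℤ) - ⌊R * pos b d R x.1 x.2⌋ / (H : ℤ)), ?_, ?_⟩
      · rw [mem_product, mem_Icc, mem_Icc]
        exact ⟨k1, k2⟩
      · refine Prod.ext e1.symm ?_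
        funext i
        fin_cases i
        · simp [big, cell, e1]
        · simp [big, cell, e1]
        · simpa [big, cell] using hw.symm
    have h5 := (card_le_card h2).trans card_image_le
    have h6 : (Icc (-1 : ℤ) 1 ×ˢ Icc (-1 : ℤ) 1).card = 9 := by
      rw [card_product]; simp
    rw [h6] at h5
    exact_mod_cast h5)
  refine h1.trans (le_of_eq ?_)
  congr 2
  rw [hG, image_image]
  congr 1

/-- the lines of `J` in the coarse cell `k` -/
def FK (J : Finset (ι × ℤ)) (K : ι × ℤ → Fin 3 → ℤ) (k : Fin 3 → ℤ) : Finset ι :=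
  (J.filter fun x => K x = k).image Prod.fst

theorem mem_FK {J : Finset (ι × ℤ)} {K : ι × ℤ → Fin 3 → ℤ} {k : Fin 3 → ℤ} {l : ι} :
    l ∈ FK J K k ↔ ∃ x ∈ J, K x = k ∧ x.1 = l := by
  simp only [FK, mem_image, mem_filter, and_assoc]

/-- incidences in a coarse cell versus lines in it. -/
theorem inc_le_FK {H : ℕ} {J : Finset (ι × ℤ)} {h2 : ℝ}
    (hh2 : ∀ x ∈ J, ((J.filter fun y => y.1 = x.1 ∧ y.2 / (H : ℤ) = x.2 / (H : ℤ)).card : ℝ) ≤ h2)
    (k : Fin 3 → ℤ) :
    ((J.filter fun x => big H (cell a b c d R x) = k).card : ℝ) ≤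
      h2 * ((FK J (fun x => big H (cell a b c d R x)) k).card : ℝ) := by
  classical
  refine card_le_mul_image _ _ fun x hx => ?_
  rw [mem_filter] at hx
  refine le_trans ?_ (hh2 x hx.1)
  have : ((J.filter fun x => big H (cell a b c d R x) = k).filter fun y => y.1 = x.1) ⊆
      J.filter fun y => y.1 = x.1 ∧ y.2 / (H : ℤ) = x.2 / (H : ℤ) := by
    intro y hy
    rw [mem_filter, mem_filter] at hy
    rw [mem_filter]
    refine ⟨hy.1.1, hy.2, ?_⟩
    have e1 := congrFun (hy.1.2.trans hx.2.symm) 2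
    simpa [big, cell] using e1
  exact_mod_cast card_le_card this

end Main

/-- **case A**: non-narrow coarse cells. -/
theorem caseA (ε : ℝ) (hε : 0 < ε) : ∃ C : ℝ, 0 < C ∧
    ∀ {ι : Type} [DecidableEq ι] (J A : Finset (ι × ℤ)) (a b c d : ι → ℝ) (H : ℕ) (R' R : ℝ)
      (h2 θ : ℝ), A ⊆ J → 0 < H → 1 ≤ R' → R = H * R' → 0 ≤ h2 → 0 ≤ θ →
      (∀ x ∈ J, |(x.2 : ℝ)| ≤ R ∧ |pos a c R x.1 x.2| ≤ 1 ∧ |pos b d R x.1 x.2| ≤ 1 ∧
        |c x.1| ≤ 1 ∧ |d x.1| ≤ 1) →
      (∀ x ∈ J, ((J.filter fun y => y.1 = x.1 ∧ y.2 / (H : ℤ) = x.2 / (H : ℤ)).card : ℝ) ≤ h2) →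
      (∀ x ∈ A, θ ≤ ((FK J (fun x => big H (cell a b c d R x)) (big H (cell a b c d R x))).card : ℝ)) →
      (∀ x ∈ A, ∀ u n : ℝ × ℝ, n.1 ^ 2 + n.2 ^ 2 = 1 →
        (((FK J (fun x => big H (cell a b c d R x)) (big H (cell a b c d R x))).filter fun l =>
          |(c l - u.1) * n.1 + (d l - u.2) * n.2| ≤ 1 / H).card : ℝ) ≤
        ((FK J (fun x => big H (cell a b c d R x)) (big H (cell a b c d R x))).card : ℝ) / 2) →
      (A.card : ℝ) * √θ ≤ h2 * (C * (H : ℝ) ^ 26 * R' ^ ε * √((J.image Prod.fst).card : ℝ) ^ 3) := by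
  obtain ⟨C, hC, key⟩ := nonnarrow_kakeya ε hε
  refine ⟨C * 2 ^ 3 * 2 ^ ε, by positivity, ?_⟩
  intro ι _ J A a b c d H R' R h2 θ hAJ hH hR' hRH hh2n hθ hJ hh2 hθF hbr
  classical
  have hH0 : (0 : ℝ) < H := by exact_mod_cast hH
  have hH1 : (1 : ℝ) ≤ H := by exact_mod_cast hH
  have hR : 0 < R := by rw [hRH]; positivity
  have hHz : (0 : ℤ) < H := by exact_mod_cast hH
  set K : ι × ℤ → Fin 3 → ℤ := fun x => big H (cell a b c d R x) with hK
  set X := A.image K with hX
  -- floor facts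
  have hfl : ∀ p : ℝ, |R * p / H - ((⌊R * p⌋ / (H : ℤ) : ℤ) : ℝ)| ≤ 1 := by
    intro p
    have a1 := Int.emod_add_mul_ediv ⌊R * p⌋ H
    have a3 := Int.emod_nonneg ⌊R * p⌋ hHz.ne'
    have a5 := Int.emod_lt_of_pos ⌊R * p⌋ hHz
    have b1 : (H : ℝ) * ((⌊R * p⌋ / (H : ℤ) : ℤ) : ℝ) ≤ ⌊R * p⌋ := by
      have : (H : ℤ) * (⌊R * p⌋ / (H : ℤ)) ≤ ⌊R * p⌋ := by linarith
      exact_mod_cast this
    have b2 : (⌊R * p⌋ : ℝ) + 1 ≤ H * ((⌊R * p⌋ / (H : ℤ) : ℤ) : ℝ) + H := by
      have : ⌊R * p⌋ + 1 ≤ (H : ℤ) * (⌊R * p⌋ / (H : ℤ)) + H := by linarith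
      exact_mod_cast this
    have b3 := Int.floor_le (R * p)
    have b4 := Int.lt_floor_add_one (R * p)
    have e1 : R * p / H - ((⌊R * p⌋ / (H : ℤ) : ℤ) : ℝ) =
        (R * p - H * ((⌊R * p⌋ / (H : ℤ) : ℤ) : ℝ)) / H := by field_simp
    rw [e1, abs_div, abs_of_pos hH0, div_le_one hH0, abs_le]
    constructor <;> linarith
  have hflz : ∀ j : ℤ, |(j : ℝ) / H - ((j / (H : ℤ) : ℤ) : ℝ)| ≤ 1 := by
    intro j
    have a1 := Int.emod_add_mul_ediv j H
    have a3 := Int.emod_nonneg j hHz.ne'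
    have a5 := Int.emod_lt_of_pos j hHz
    have b1 : (H : ℝ) * ((j / (H : ℤ) : ℤ) : ℝ) ≤ j := by
      have : (H : ℤ) * (j / (H : ℤ)) ≤ j := by linarith
      exact_mod_cast this
    have b2 : (j : ℝ) + 1 ≤ H * ((j / (H : ℤ) : ℤ) : ℝ) + H := by
      have : j + 1 ≤ (H : ℤ) * (j / (H : ℤ)) + H := by linarith
      exact_mod_cast this
    have e1 : (j : ℝ) / H - ((j / (H : ℤ) : ℤ) : ℝ) = (j - H * ((j / (H : ℤ) : ℤ) : ℝ)) / H := by
      field_simp
    rw [e1, abs_div, abs_of_pos hH0, div_le_one hH0, abs_le]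
    constructor <;> linarith
  have hmain := key (J.image Prod.fst) (fun l => ![R' * a l, R' * b l, 0]) (fun l => (c l, d l))
    (fun _ => 1) (fun _ _ => zero_le_one) (1 / H) 2 (2 * R') (by positivity)
    (by rw [div_le_one hH0]; exact hH1) (by norm_num) (by linarith)
    (by
      intro l hl
      obtain ⟨x, hx, rfl⟩ := mem_image.1 hl
      exact ⟨(hJ x hx).2.2.2.1, (hJ x hx).2.2.2.2⟩) X
    (by
      intro k hk i
      obtain ⟨x, hx, rfl⟩ := mem_image.1 hk
      obtain ⟨g1, g2, g3, g4, g5⟩ := hJ x (hAJ hx)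
      have hb : ∀ p : ℝ, |p| ≤ 1 → |((⌊R * p⌋ / (H : ℤ) : ℤ) : ℝ)| ≤ 2 * R' := by
        intro p hp
        have e1 : |R * p / H| ≤ R' := by
          rw [hRH, show H * R' * p / H = R' * p by field_simp, abs_mul,
            abs_of_pos (by linarith : 0 < R')]
          nlinarith
        have e2 := hfl p
        have e3 : |((⌊R * p⌋ / (H : ℤ) : ℤ) : ℝ)| ≤ |R * p / H| +
            |R * p / H - ((⌊R * p⌋ / (H : ℤ) : ℤ) : ℝ)| := by
          have := abs_sub_abs_le_abs_sub ((⌊R * p⌋ / (H : ℤ) : ℤ) : ℝ) (R * p / H)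
          rw [abs_sub_comm] at this
          linarith
        linarith
      fin_cases i
      · exact hb _ g2
      · exact hb _ g3
      · have e2 := hflz x.2
        have e1 : |(x.2 : ℝ) / H| ≤ R' := by
          rw [abs_div, abs_of_pos hH0, div_le_iff₀ hH0, mul_comm, ← hRH]; exact g1
        have e3 := abs_sub_abs_le_abs_sub ((x.2 / (H : ℤ) : ℤ) : ℝ) ((x.2 : ℝ) / H)
        rw [abs_sub_comm ((x.2 / (H : ℤ) : ℤ) : ℝ)] at e3
        change |((x.2 / (H : ℤ) : ℤ) : ℝ)| ≤ 2 * R'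
        linarith)
    (fun k => FK J K k)
    (by
      intro k _ l hl
      obtain ⟨x, hx, -, rfl⟩ := mem_FK.1 hl
      exact mem_image_of_mem _ hx)
    (by
      intro k _ l hl
      obtain ⟨x, hx, rfl, rfl⟩ := mem_FK.1 hl
      obtain ⟨g1, g2, g3, g4, g5⟩ := hJ x hx
      refine ⟨((x.2 / (H : ℤ) : ℤ) : ℝ), fun i => ?_⟩
      have hz := hflz x.2
      have hgen : ∀ a c : ι → ℝ, |c x.1| ≤ 1 →
          |((⌊R * pos a c R x.1 x.2⌋ / (H : ℤ) : ℤ) : ℝ) - R' * a x.1 -
            ((x.2 / (H : ℤ) : ℤ) : ℝ) * c x.1| ≤ 2 := by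
        intro a c hc
        have e1 := hfl (pos a c R x.1 x.2)
        have e2 : R * pos a c R x.1 x.2 / H = R' * a x.1 + c x.1 * ((x.2 : ℝ) / H) := by
          unfold pos
          rw [mul_add, add_div, hRH]
          have : (H : ℝ) * R' ≠ 0 := by rw [← hRH]; exact hR.ne'
          field_simp
        have e3 : ((⌊R * pos a c R x.1 x.2⌋ / (H : ℤ) : ℤ) : ℝ) - R' * a x.1 -
            ((x.2 / (H : ℤ) : ℤ) : ℝ) * c x.1 =
            -(R * pos a c R x.1 x.2 / H - ((⌊R * pos a c R x.1 x.2⌋ / (H : ℤ) : ℤ) : ℝ)) +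
              c x.1 * ((x.2 : ℝ) / H - ((x.2 / (H : ℤ) : ℤ) : ℝ)) := by
          rw [e2]; ring
        rw [e3]
        refine (abs_add_le _ _).trans ?_
        rw [abs_neg, abs_mul]
        have := mul_le_mul hc hz (abs_nonneg _) zero_le_one
        linarith
      fin_cases i
      · have := hgen a c g4
        simpa [pt, dir, hK, big, cell] using this
      · have := hgen b d g5
        simpa [pt, dir, hK, big, cell] using this
      · simp [pt, dir, hK, big, cell])
    (by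
      intro k hk u n hn
      obtain ⟨x, hx, rfl⟩ := mem_image.1 hk
      have h := hbr x hx u n hn
      simp only [sum_const, nsmul_eq_mul, mul_one]
      refine le_trans (le_of_eq ?_) h
      congr 2)
  simp only [sum_const, nsmul_eq_mul, mul_one] at hmain
  have h1 : (A.card : ℝ) ≤ ∑ k ∈ X, h2 * ((FK J K k).card : ℝ) := by
    have e1 : A.card = ∑ k ∈ X, (A.filter fun y => K y = k).card := card_eq_sum_card_image K A
    rw [e1]; push_cast
    refine sum_le_sum fun k _ => ?_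
    refine le_trans ?_ (inc_le_FK a b c d R hh2 k)
    exact_mod_cast card_le_card (filter_subset_filter _ hAJ)
  have h3 : ∀ k ∈ X, ((FK J K k).card : ℝ) * √θ ≤ √((FK J K k).card : ℝ) ^ 3 := by
    intro k hk
    obtain ⟨x, hx, rfl⟩ := mem_image.1 hk
    have e1 := hθF x hx
    have e2 : √θ ≤ √((FK J K (K x)).card : ℝ) := Real.sqrt_le_sqrt e1
    have e3 : √((FK J K (K x)).card : ℝ) ^ 2 = ((FK J K (K x)).card : ℝ) :=
      Real.sq_sqrt (Nat.cast_nonneg _)
    calc ((FK J K (K x)).card : ℝ) * √θ ≤ ((FK J K (K x)).card : ℝ) *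
          √((FK J K (K x)).card : ℝ) := by gcongr
      _ = √((FK J K (K x)).card : ℝ) ^ 2 * √((FK J K (K x)).card : ℝ) := by rw [e3]
      _ = _ := by ring
  calc (A.card : ℝ) * √θ ≤ (∑ k ∈ X, h2 * ((FK J K k).card : ℝ)) * √θ :=
        mul_le_mul_of_nonneg_right h1 (Real.sqrt_nonneg _)
    _ = h2 * ∑ k ∈ X, ((FK J K k).card : ℝ) * √θ := by
        rw [← mul_sum, mul_assoc, sum_mul]
    _ ≤ h2 * ∑ k ∈ X, √((FK J K k).card : ℝ) ^ 3 :=
        mul_le_mul_of_nonneg_left (sum_le_sum h3) hh2n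
    _ ≤ h2 * (C * 2 ^ 3 * ((1 / (H : ℝ))⁻¹) ^ 26 * (2 * R') ^ ε *
          √((J.image Prod.fst).card : ℝ) ^ 3) := mul_le_mul_of_nonneg_left hmain hh2n
    _ = _ := by
        rw [Real.mul_rpow (by norm_num) (by linarith), one_div, inv_inv]
        ring

end Crest.Agent.R138.LmA861
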