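import Mathlib
import Crest.Agent.R138.Tilt_51

/-!
# R138, Lemma A, affine transfer (helper335)

In the affine box `|dC| ≤ A`, `|dP| ≤ B` (`P = D - θ C`) the normalised slab
`|n1 dC / A + n2 dP / B| ≤ δ` is contained in ONE honest plank (orthonormal frame `e`, widths
`a1 ≤ a2`, `a1 a2 ≤ 12 δ A B`, `a2 ≤ 36 A`, `δ B / 3 ≤ a1`).  Hence D-max bounds the number of
lines of normalised slabs and tubes.
-/

set_option autoImplicit false
set_option linter.unusedVariables false

open Finset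

namespace Crest.Agent.R138.LmA2

open Crest.Agent.R138.Flag51
open Crest.Agent.R138.Tilt51 (DMax)

noncomputable section

/-- auxiliary: `|u|, |w|` against the sum of squares. -/
theorem abs_mul_le (a b : ℝ) : |a| * |b| ≤ (a ^ 2 + b ^ 2) / 2 := by
  have := sq_nonneg (|a| - |b|)
  have h1 := sq_abs a
  have h2 := sq_abs b
  nlinarith

theorem seven_tenths {x : ℝ} (hx : 0 ≤ x) (h : (1:ℝ) / 2 ≤ x ^ 2) : (7:ℝ) / 10 ≤ x := by
  by_contra hcon
  push Not at hcon
  have := pow_le_pow_left₀ hx hcon.le 2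
  norm_num at this
  linarith

/-- **the core inequality** (`u = B n1 - θ A n2`, `w = A n2`): unless `|n2| < δ` and `B ≤ A δ`, the
tangential coordinate of the slab is at most `12 (u² + w²)` (times `λ`), and `B/3 ≤ √(u²+w²)` in the
squared form `B² ≤ 9 (u² + w²)`. -/
theorem core {A B δ θ n1 n2 C P lam : ℝ} (hB : 0 < B) (hAB : B ≤ A) (hδ : 0 < δ) (hδ1 : δ ≤ 1)
    (hθ : |θ| ≤ 1) (hn : n1 ^ 2 + n2 ^ 2 = 1) (hlam : 0 ≤ lam) (hC : |C| ≤ lam * A)
    (hP : |P| ≤ lam * B) (hs : |n1 * B * C + n2 * A * P| ≤ lam * (δ * A * B))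
    (hcase : |n1| ≤ |n2| ∨ δ ≤ |n2| ∨ A * δ < B) :
    |(B * n1 - θ * A * n2) * (P + θ * C) - (A * n2) * C| ≤
      12 * lam * ((B * n1 - θ * A * n2) ^ 2 + (A * n2) ^ 2) := by
  have hA : 0 < A := lt_of_lt_of_le hB hAB
  set u := B * n1 - θ * A * n2 with hu
  set w := A * n2 with hw
  have hn1 : |n1| ≤ 1 := by
    rw [← sq_le_one_iff_abs_le_one]; linarith [sq_nonneg n2]
  have hn2 : |n2| ≤ 1 := by
    rw [← sq_le_one_iff_abs_le_one]; linarith [sq_nonneg n1]
  have hsq1 : |n1| ^ 2 + |n2| ^ 2 = 1 := by rw [sq_abs, sq_abs]; exact hn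
  have hwa : |w| = A * |n2| := by rw [hw, abs_mul, abs_of_pos hA]
  have hθC : |θ * C| ≤ |C| := by
    rw [abs_mul]
    exact mul_le_of_le_one_left (abs_nonneg _) hθ
  have htri : |u * (P + θ * C) - w * C| ≤ |u| * (|P| + |C|) + |w| * |C| := by
    have h1 : |u * (P + θ * C) - w * C| ≤ |u * (P + θ * C)| + |w * C| := abs_sub _ _
    have h2 : |u * (P + θ * C)| ≤ |u| * (|P| + |C|) := by
      rw [abs_mul]
      refine mul_le_mul_of_nonneg_left ?_ (abs_nonneg _)
      exact (abs_add_le _ _).trans (by linarith)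
    have h3 : |w * C| = |w| * |C| := abs_mul _ _
    linarith
  have hua : |u| ≤ B + A := by
    have h1 : |u| ≤ |B * n1| + |θ * A * n2| := abs_sub _ _
    have h2 : |B * n1| ≤ B := by
      rw [abs_mul, abs_of_pos hB]; exact mul_le_of_le_one_right hB.le hn1
    have h3 : |θ * A * n2| ≤ A := by
      rw [abs_mul, abs_mul, abs_of_pos hA]
      calc |θ| * A * |n2| ≤ 1 * A * 1 := by
            apply mul_le_mul _ hn2 (abs_nonneg _) (by linarith)
            exact mul_le_mul_of_nonneg_right hθ hA.le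
        _ = A := by ring
    linarith
  have hPn : 0 ≤ |P| := abs_nonneg _
  have hCn : 0 ≤ |C| := abs_nonneg _
  have hun : 0 ≤ |u| := abs_nonneg _
  have hwn : 0 ≤ |w| := abs_nonneg _
  have hu2 : |u| ^ 2 = u ^ 2 := sq_abs u
  have hw2 : |w| ^ 2 = w ^ 2 := sq_abs w
  have huw := abs_mul_le u w
  by_cases h12 : |n1| ≤ |n2|
  · -- case I: `w² ≥ A² / 2`
    have h1 : (1:ℝ) / 2 ≤ |n2| ^ 2 := by
      have := pow_le_pow_left₀ (abs_nonneg n1) h12 2
      linarith
    have h2 : A ^ 2 / 2 ≤ |w| ^ 2 := by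
      rw [hwa, mul_pow]
      have := mul_le_mul_of_nonneg_left h1 (sq_nonneg A)
      linarith
    have h3 : |w| ≤ A := by rw [hwa]; exact mul_le_of_le_one_right hA.le hn2
    have h4 : |u| ≤ 2 * A := by linarith
    have h5 : |P| + |C| ≤ lam * (2 * A) := by
      have h5' : lam * B ≤ lam * A := mul_le_mul_of_nonneg_left hAB hlam
      have h5'' : lam * (2 * A) = lam * A + lam * A := by ring
      linarith
    have h6 : |u| * (|P| + |C|) ≤ (2 * A) * (lam * (2 * A)) :=
      mul_le_mul h4 h5 (by linarith) (by linarith)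
    have h7 : |w| * |C| ≤ A * (lam * A) := mul_le_mul h3 hC hCn hA.le
    have h8 : lam * (A ^ 2 / 2) ≤ lam * |w| ^ 2 := mul_le_mul_of_nonneg_left h2 hlam
    have h9 : 0 ≤ lam * u ^ 2 := by positivity
    have h9' : 0 ≤ lam * w ^ 2 := by positivity
    rw [hw2] at h8
    have h6' : (2 * A) * (lam * (2 * A)) = 8 * (lam * (A ^ 2 / 2)) := by ring
    have h7' : A * (lam * A) = 2 * (lam * (A ^ 2 / 2)) := by ring
    have h10 : 12 * lam * (u ^ 2 + w ^ 2) = 12 * (lam * u ^ 2) + 12 * (lam * w ^ 2) := by ring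
    rw [h10]
    linarith
  · push Not at h12
    have h1 : (1:ℝ) / 2 ≤ |n1| ^ 2 := by
      have := pow_le_pow_left₀ (abs_nonneg n2) h12.le 2
      linarith
    have h1' : (7:ℝ) / 10 ≤ |n1| := seven_tenths (abs_nonneg n1) h1
    -- `B ≤ 3/2 (|u| + |w|)`
    have hBu : B * |n1| ≤ |u| + |w| := by
      have h2 : B * n1 = u + θ * w := by rw [hu, hw]; ring
      have h3 : |B * n1| ≤ |u| + |θ * w| := by rw [h2]; exact abs_add_le _ _
      have h4 : |θ * w| ≤ |w| := by
        rw [abs_mul]; exact mul_le_of_le_one_left (abs_nonneg _) hθ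
      rw [abs_mul, abs_of_pos hB] at h3
      linarith
    have hB3 : B ≤ 3 / 2 * (|u| + |w|) := by
      have h2 := mul_le_mul_of_nonneg_left h1' hB.le
      linarith
    -- `|n1| |C| ≤ λ A (δ + |n2|)`
    have hCC : |n1| * |C| ≤ lam * (A * (δ + |n2|)) := by
      have h2 : |n1 * B * C| ≤ |n1 * B * C + n2 * A * P| + |n2 * A * P| := by
        have := abs_sub (n1 * B * C + n2 * A * P) (n2 * A * P)
        simpa using this
      have h3 : |n1 * B * C| = B * (|n1| * |C|) := by
        rw [abs_mul, abs_mul, abs_of_pos hB]; ring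
      have h4 : |n2 * A * P| = A * |n2| * |P| := by
        rw [abs_mul, abs_mul, abs_of_pos hA]; ring
      have h5 : A * |n2| * |P| ≤ A * |n2| * (lam * B) :=
        mul_le_mul_of_nonneg_left hP (by positivity)
      have h6 : B * (|n1| * |C|) ≤ B * (lam * (A * (δ + |n2|))) := by
        calc B * (|n1| * |C|) ≤ lam * (δ * A * B) + A * |n2| * (lam * B) := by linarith
          _ = B * (lam * (A * (δ + |n2|))) := by ring
      exact le_of_mul_le_mul_left h6 hB
    by_cases hδ2 : δ ≤ |n2|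
    · -- case IIa
      have h3 : |C| ≤ 3 * lam * |w| := by
        rw [hwa]
        have h4 : |n1| * |C| ≤ 2 * (lam * (A * |n2|)) := by
          refine hCC.trans ?_
          have : lam * (A * (δ + |n2|)) ≤ lam * (A * (|n2| + |n2|)) := by gcongr
          linarith
        have h5 : (7:ℝ) / 10 * |C| ≤ |n1| * |C| := mul_le_mul_of_nonneg_right h1' hCn
        have h6 : 0 ≤ lam * (A * |n2|) := by positivity
        have h7 : 3 * lam * (A * |n2|) = 3 * (lam * (A * |n2|)) := by ring
        rw [h7]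
        linarith
      have h7 : |P| ≤ lam * (3 / 2 * (|u| + |w|)) := hP.trans (mul_le_mul_of_nonneg_left hB3 hlam)
      have h8 : |u| * (|P| + |C|) ≤ |u| * (lam * (3 / 2 * (|u| + |w|)) + 3 * lam * |w|) :=
        mul_le_mul_of_nonneg_left (by linarith) hun
      have h9 : |w| * |C| ≤ |w| * (3 * lam * |w|) := mul_le_mul_of_nonneg_left h3 hwn
      have h10 : |u| * (lam * (3 / 2 * (|u| + |w|)) + 3 * lam * |w|) + |w| * (3 * lam * |w|) =
          lam * (3 / 2 * |u| ^ 2 + 9 / 2 * (|u| * |w|) + 3 * |w| ^ 2) := by ring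
      have h11 : lam * (3 / 2 * |u| ^ 2 + 9 / 2 * (|u| * |w|) + 3 * |w| ^ 2) ≤
          lam * (12 * (u ^ 2 + w ^ 2)) := by
        apply mul_le_mul_of_nonneg_left _ hlam
        rw [hu2, hw2]
        have := sq_nonneg u
        have := sq_nonneg w
        linarith
      linarith
    · -- case IIc
      push Not at hδ2
      have hBδ : A * δ < B := by
        rcases hcase with h | h | h
        · exact absurd h (not_le.2 h12)
        · exact absurd h (not_le.2 hδ2)
        · exact h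
      have h3 : |C| ≤ 3 * lam * B := by
        have h4 : |n1| * |C| ≤ 2 * (lam * B) := by
          refine hCC.trans ?_
          have : lam * (A * (δ + |n2|)) ≤ lam * (A * (δ + δ)) := by gcongr
          have h5 : lam * (A * δ) ≤ lam * B := mul_le_mul_of_nonneg_left hBδ.le hlam
          have h6 : lam * (A * (δ + δ)) = 2 * (lam * (A * δ)) := by ring
          linarith
        have h5 : (7:ℝ) / 10 * |C| ≤ |n1| * |C| := mul_le_mul_of_nonneg_right h1' hCn
        have h6 : 0 ≤ lam * B := by positivity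
        have h7 : 3 * lam * B = 3 * (lam * B) := by ring
        rw [h7]
        linarith
      have h8 : |u| * (|P| + |C|) ≤ |u| * (4 * lam * B) :=
        mul_le_mul_of_nonneg_left (by linarith) hun
      have h9 : |w| * |C| ≤ |w| * (3 * lam * B) := mul_le_mul_of_nonneg_left h3 hwn
      have h10 : |u| * (4 * lam * B) + |w| * (3 * lam * B) ≤ 4 * lam * B * (|u| + |w|) := by
        have h10 : 0 ≤ lam * B * |w| := by positivity
        have h11 : 4 * lam * B * (|u| + |w|) =
          |u| * (4 * lam * B) + |w| * (3 * lam * B) + lam * B * |w| := by ring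
        rw [h11]
        linarith
      have h11 : 4 * lam * B * (|u| + |w|) ≤ 4 * lam * (3 / 2 * (|u| + |w|)) * (|u| + |w|) := by
        gcongr
      have h12' : 4 * lam * (3 / 2 * (|u| + |w|)) * (|u| + |w|) =
          lam * (6 * (|u| ^ 2 + 2 * (|u| * |w|) + |w| ^ 2)) := by ring
      have h13 : lam * (6 * (|u| ^ 2 + 2 * (|u| * |w|) + |w| ^ 2)) ≤
          lam * (12 * (u ^ 2 + w ^ 2)) := by
        apply mul_le_mul_of_nonneg_left _ hlam
        rw [hu2, hw2]
        linarith
      linarith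

/-- lower bound `B² ≤ 9 (u² + w²)`. -/
theorem core_low {A B θ n1 n2 : ℝ} (hB : 0 < B) (hAB : B ≤ A) (hθ : |θ| ≤ 1)
    (hn : n1 ^ 2 + n2 ^ 2 = 1) :
    B ^ 2 ≤ 9 * ((B * n1 - θ * A * n2) ^ 2 + (A * n2) ^ 2) := by
  have hA : 0 < A := lt_of_lt_of_le hB hAB
  set u := B * n1 - θ * A * n2 with hu
  set w := A * n2 with hw
  have h1 : B * n1 = u + θ * w := by rw [hu, hw]; ring
  have h2 : (B * n1) ^ 2 ≤ 2 * u ^ 2 + 2 * w ^ 2 := by
    rw [h1]
    have h3 : (θ * w) ^ 2 ≤ w ^ 2 := by
      rw [mul_pow]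
      have : θ ^ 2 ≤ 1 := by rw [← sq_abs]; nlinarith [abs_nonneg θ]
      nlinarith [sq_nonneg w]
    nlinarith [sq_nonneg (u - θ * w)]
  have h4 : (B * n2) ^ 2 ≤ w ^ 2 := by
    rw [hw, mul_pow, mul_pow]
    have : B ^ 2 ≤ A ^ 2 := by nlinarith
    nlinarith [sq_nonneg n2]
  have h5 : B ^ 2 = (B * n1) ^ 2 + (B * n2) ^ 2 := by
    rw [mul_pow, mul_pow, ← mul_add, hn, mul_one]
  nlinarith [sq_nonneg u, sq_nonneg w]

/-- upper bound `u² + w² ≤ 9 A²`. -/
theorem core_up {A B θ n1 n2 : ℝ} (hB : 0 < B) (hAB : B ≤ A) (hθ : |θ| ≤ 1)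
    (hn : n1 ^ 2 + n2 ^ 2 = 1) :
    (B * n1 - θ * A * n2) ^ 2 + (A * n2) ^ 2 ≤ 9 * A ^ 2 := by
  have hA : 0 < A := lt_of_lt_of_le hB hAB
  have h1 : (B * n1 - θ * A * n2) ^ 2 ≤ 2 * (B * n1) ^ 2 + 2 * (θ * A * n2) ^ 2 := by
    nlinarith [sq_nonneg (B * n1 + θ * A * n2)]
  have hn1 : n1 ^ 2 ≤ 1 := by nlinarith [sq_nonneg n2]
  have hn2 : n2 ^ 2 ≤ 1 := by nlinarith [sq_nonneg n1]
  have hB2 : B ^ 2 ≤ A ^ 2 := by nlinarith
  have h2 : (B * n1) ^ 2 ≤ A ^ 2 := by rw [mul_pow]; nlinarith [sq_nonneg B]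
  have hθ2 : θ ^ 2 ≤ 1 := by rw [← sq_abs]; nlinarith [abs_nonneg θ]
  have h3 : (A * n2) ^ 2 ≤ A ^ 2 := by rw [mul_pow]; nlinarith [sq_nonneg A]
  have h4 : (θ * A * n2) ^ 2 ≤ A ^ 2 := by
    have : (θ * A * n2) ^ 2 = θ ^ 2 * (A * n2) ^ 2 := by ring
    rw [this]
    nlinarith [sq_nonneg (A * n2), sq_nonneg θ]
  nlinarith

/-- **the slab lemma**: the normalised slab of the affine box lies in one honest rectangle. -/
theorem slab_rect {A B δ θ n1 n2 : ℝ} (hB : 0 < B) (hAB : B ≤ A) (hδ : 0 < δ) (hδ1 : δ ≤ 1)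
    (hθ : |θ| ≤ 1) (hn : n1 ^ 2 + n2 ^ 2 = 1) :
    ∃ (e : E2) (a1 a2 : ℝ), dt e e = 1 ∧ δ * B / 3 ≤ a1 ∧ a1 ≤ a2 ∧ a2 ≤ 36 * A ∧
      a1 * a2 ≤ 12 * (δ * A * B) ∧
      ∀ (lam : ℝ) (x : E2), 0 ≤ lam → |x 0| ≤ lam * A → |x 1 - θ * x 0| ≤ lam * B →
        |n1 * (x 0 / A) + n2 * ((x 1 - θ * x 0) / B)| ≤ lam * δ →
        |dt x e| ≤ lam * a1 ∧ |cr e x| ≤ lam * a2 := by
  have hA : 0 < A := lt_of_lt_of_le hB hAB
  have hδB : δ * B ≤ B := mul_le_of_le_one_left hB.le hδ1
  by_cases hcase : |n1| ≤ |n2| ∨ δ ≤ |n2| ∨ A * δ < B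
  · -- normal frame
    set u := B * n1 - θ * A * n2 with hu
    set w := A * n2 with hw
    have hlow := core_low hB hAB hθ hn
    have hup := core_up hB hAB hθ hn
    rw [← hu, ← hw] at hlow hup
    set r := √(u ^ 2 + w ^ 2) with hr
    have hr2 : r ^ 2 = u ^ 2 + w ^ 2 := Real.sq_sqrt (by positivity)
    have hrn : 0 ≤ r := Real.sqrt_nonneg _
    have hrl : B / 3 ≤ r := by
      by_contra hcon
      push Not at hcon
      nlinarith
    have hr0 : 0 < r := by linarith [div_pos hB (by norm_num : (0:ℝ) < 3)]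
    have hru : r ≤ 3 * A := by
      by_contra hcon
      push Not at hcon
      nlinarith
    set e : E2 := !₂[u / r, w / r] with he
    have he0 : e 0 = u / r := by simp [he]
    have he1 : e 1 = w / r := by simp [he]
    have hee : dt e e = 1 := by
      unfold dt
      rw [he0, he1]
      field_simp
      linarith
    -- the two widths
    set b1 := δ * A * B / r with hb1
    set b2 := 12 * r with hb2
    have key : ∀ (lam : ℝ) (x : E2), 0 ≤ lam → |x 0| ≤ lam * A → |x 1 - θ * x 0| ≤ lam * B →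
        |n1 * (x 0 / A) + n2 * ((x 1 - θ * x 0) / B)| ≤ lam * δ →
        |dt x e| ≤ lam * b1 ∧ |cr e x| ≤ lam * b2 := by
      intro lam x hlam hC hP hs
      set P := x 1 - θ * x 0 with hPdef
      have hx1 : x 1 = P + θ * x 0 := by rw [hPdef]; ring
      have hs' : |n1 * B * x 0 + n2 * A * P| ≤ lam * (δ * A * B) := by
        have h1 : n1 * B * x 0 + n2 * A * P = (A * B) * (n1 * (x 0 / A) + n2 * (P / B)) := by
          field_simp
        rw [h1, abs_mul, abs_of_pos (by positivity : 0 < A * B)]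
        calc A * B * |n1 * (x 0 / A) + n2 * (P / B)| ≤ A * B * (lam * δ) :=
              mul_le_mul_of_nonneg_left hs (by positivity)
          _ = lam * (δ * A * B) := by ring
      constructor
      · have h1 : dt x e = (n1 * B * x 0 + n2 * A * P) / r := by
          unfold dt
          rw [he0, he1, hx1, hu, hw]
          field_simp
          ring
        rw [h1, abs_div, abs_of_pos hr0, hb1, ← mul_div_assoc]
        exact div_le_div_of_nonneg_right hs' hr0.le
      · have h1 : cr e x = (u * (P + θ * x 0) - w * x 0) / r := by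
          unfold cr
          rw [he0, he1, hx1]
          field_simp
        have h2 := core hB hAB hδ hδ1 hθ hn hlam hC hP hs' hcase
        rw [← hu, ← hw] at h2
        rw [h1, abs_div, abs_of_pos hr0, hb2, div_le_iff₀ hr0]
        calc |u * (P + θ * x 0) - w * x 0| ≤ 12 * lam * (u ^ 2 + w ^ 2) := h2
          _ = lam * (12 * r) * r := by rw [← hr2]; ring
    have hprod : b1 * b2 = 12 * (δ * A * B) := by
      rw [hb1, hb2]; field_simp
    have hb1lo : δ * B / 3 ≤ b1 := by
      rw [hb1, le_div_iff₀ hr0]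
      calc δ * B / 3 * r ≤ δ * B / 3 * (3 * A) := mul_le_mul_of_nonneg_left hru (by positivity)
        _ = δ * A * B := by ring
    have hb2lo : δ * B / 3 ≤ b2 := by rw [hb2]; linarith
    have hb1up : b1 ≤ 36 * A := by
      rw [hb1, div_le_iff₀ hr0]
      calc δ * A * B ≤ 1 * A * B := by gcongr
        _ = 3 * A * (B / 3) := by ring
        _ ≤ 36 * A * r := by nlinarith
    have hb2up : b2 ≤ 36 * A := by rw [hb2]; linarith
    rcases le_total b1 b2 with h12 | h12
    · exact ⟨e, b1, b2, hee, hb1lo, h12, hb2up, hprod.le, key⟩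
    · refine ⟨rt e, b2, b1, rt_unit hee, hb2lo, h12, hb1up, by rw [mul_comm]; exact hprod.le, ?_⟩
      intro lam x hlam hC hP hs
      obtain ⟨h1, h2⟩ := key lam x hlam hC hP hs
      refine ⟨by rw [dt_rt]; exact h2, ?_⟩
      have h3 : cr (rt e) x = - dt x e := by simp [cr, rt, dt]; ring
      rw [h3, abs_neg]
      exact h1
  · -- axes frame
    push Not at hcase
    obtain ⟨h12, hn2, hBδ⟩ := hcase
    set g := √(1 + θ ^ 2) with hg
    have hg2 : g ^ 2 = 1 + θ ^ 2 := Real.sq_sqrt (by positivity)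
    have hgn : 0 ≤ g := Real.sqrt_nonneg _
    have hg1 : 1 ≤ g := by nlinarith [sq_nonneg θ]
    have hg0 : 0 < g := by linarith
    have hθ2 : θ ^ 2 ≤ 1 := by rw [← sq_abs]; nlinarith [abs_nonneg θ]
    have hg3 : g ≤ 3 / 2 := by nlinarith
    set e : E2 := !₂[-θ / g, 1 / g] with he
    have he0 : e 0 = -θ / g := by simp [he]
    have he1 : e 1 = 1 / g := by simp [he]
    have hee : dt e e = 1 := by
      unfold dt
      rw [he0, he1]
      field_simp
      linarith
    refine ⟨e, B, 6 * (A * δ), hee, by linarith [mul_pos hδ hB], by nlinarith, by nlinarith,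
      by nlinarith [mul_pos (mul_pos hδ hA) hB], ?_⟩
    intro lam x hlam hC hP hs
    set P := x 1 - θ * x 0 with hPdef
    have hx1 : x 1 = P + θ * x 0 := by rw [hPdef]; ring
    have hsq1 : |n1| ^ 2 + |n2| ^ 2 = 1 := by rw [sq_abs, sq_abs]; exact hn
    have h1 : (1:ℝ) / 2 ≤ |n1| ^ 2 := by
      have := pow_le_pow_left₀ (abs_nonneg n2) h12.le 2
      linarith
    have h1' : (7:ℝ) / 10 ≤ |n1| := seven_tenths (abs_nonneg n1) h1
    have hCn : 0 ≤ |x 0| := abs_nonneg _
    have hCC : |n1| * |x 0| ≤ lam * (A * (δ + |n2|)) := by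
      have hs' : |n1 * B * x 0 + n2 * A * P| ≤ lam * (δ * A * B) := by
        have h1 : n1 * B * x 0 + n2 * A * P = (A * B) * (n1 * (x 0 / A) + n2 * (P / B)) := by
          field_simp
        rw [h1, abs_mul, abs_of_pos (by positivity : 0 < A * B)]
        calc A * B * |n1 * (x 0 / A) + n2 * (P / B)| ≤ A * B * (lam * δ) :=
              mul_le_mul_of_nonneg_left hs (by positivity)
          _ = lam * (δ * A * B) := by ring
      have h2 : |n1 * B * x 0| ≤ |n1 * B * x 0 + n2 * A * P| + |n2 * A * P| := by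
        have := abs_sub (n1 * B * x 0 + n2 * A * P) (n2 * A * P)
        simpa using this
      have h3 : |n1 * B * x 0| = B * (|n1| * |x 0|) := by
        rw [abs_mul, abs_mul, abs_of_pos hB]; ring
      have h4 : |n2 * A * P| = A * |n2| * |P| := by
        rw [abs_mul, abs_mul, abs_of_pos hA]; ring
      have h5 : A * |n2| * |P| ≤ A * |n2| * (lam * B) :=
        mul_le_mul_of_nonneg_left hP (by positivity)
      have h6 : B * (|n1| * |x 0|) ≤ B * (lam * (A * (δ + |n2|))) := by
        calc B * (|n1| * |x 0|) ≤ lam * (δ * A * B) + A * |n2| * (lam * B) := by linarith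
          _ = B * (lam * (A * (δ + |n2|))) := by ring
      exact le_of_mul_le_mul_left h6 hB
    have hC3 : |x 0| ≤ 3 * (lam * (A * δ)) := by
      have h4 : |n1| * |x 0| ≤ 2 * (lam * (A * δ)) := by
        refine hCC.trans ?_
        have h7 : lam * (A * (δ + |n2|)) ≤ lam * (A * (δ + δ)) := by gcongr
        have h8 : lam * (A * (δ + δ)) = 2 * (lam * (A * δ)) := by ring
        linarith
      have h5 : (7:ℝ) / 10 * |x 0| ≤ |n1| * |x 0| := mul_le_mul_of_nonneg_right h1' hCn
      have h6 : 0 ≤ lam * (A * δ) := by positivity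
      linarith
    constructor
    · have h2 : dt x e = P / g := by
        unfold dt
        rw [he0, he1, hx1]
        field_simp
        ring
      rw [h2, abs_div, abs_of_pos hg0]
      exact (div_le_self (abs_nonneg _) hg1).trans hP
    · have h2 : cr e x = -(θ * P + g ^ 2 * x 0) / g := by
        unfold cr
        rw [he0, he1, hx1, hg2]
        field_simp
        ring
      rw [h2, abs_div, abs_of_pos hg0, div_le_iff₀ hg0, abs_neg]
      have h3 : |θ * P + g ^ 2 * x 0| ≤ |P| + g ^ 2 * |x 0| := by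
        refine (abs_add_le _ _).trans ?_
        rw [abs_mul, abs_mul, abs_of_nonneg (sq_nonneg g)]
        have : |θ| * |P| ≤ |P| := mul_le_of_le_one_left (abs_nonneg _) hθ
        linarith
      have h4 : |P| ≤ lam * (A * δ) := hP.trans (mul_le_mul_of_nonneg_left hBδ hlam)
      have h5 : 0 ≤ lam * (A * δ) := by positivity
      have h6 : g * |x 0| ≤ 3 / 2 * (3 * (lam * (A * δ))) :=
        mul_le_mul hg3 hC3 hCn (by norm_num)
      have h7 : g ^ 2 * |x 0| = g * (g * |x 0|) := by ring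
      have h8 : g * (g * |x 0|) ≤ g * (3 / 2 * (3 * (lam * (A * δ)))) :=
        mul_le_mul_of_nonneg_left h6 hgn
      have h9 : lam * (A * δ) ≤ g * (lam * (A * δ)) := le_mul_of_one_le_left h5 hg1
      have h10 : 0 ≤ g * (lam * (A * δ)) := by positivity
      have h11 : lam * (6 * (A * δ)) * g = 6 * (g * (lam * (A * δ))) := by ring
      have h12' : g * (3 / 2 * (3 * (lam * (A * δ)))) = 9 / 2 * (g * (lam * (A * δ))) := by ring
      rw [h11]
      linarith

/-- the box itself (no slab condition) lies in the honest rectangle `(B, 3 A)`. -/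
theorem box_rect {A B θ : ℝ} (hB : 0 < B) (hAB : B ≤ A) (hθ : |θ| ≤ 1) :
    ∃ e : E2, dt e e = 1 ∧ ∀ (lam : ℝ) (x : E2), 0 ≤ lam → |x 0| ≤ lam * A →
      |x 1 - θ * x 0| ≤ lam * B → |dt x e| ≤ lam * B ∧ |cr e x| ≤ lam * (3 * A) := by
  have hA : 0 < A := lt_of_lt_of_le hB hAB
  set g := √(1 + θ ^ 2) with hg
  have hg2 : g ^ 2 = 1 + θ ^ 2 := Real.sq_sqrt (by positivity)
  have hgn : 0 ≤ g := Real.sqrt_nonneg _
  have hg1 : 1 ≤ g := by nlinarith [sq_nonneg θ]
  have hg0 : 0 < g := by linarith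
  have hθ2 : θ ^ 2 ≤ 1 := by rw [← sq_abs]; nlinarith [abs_nonneg θ]
  have hg3 : g ≤ 3 / 2 := by nlinarith
  set e : E2 := !₂[-θ / g, 1 / g] with he
  have he0 : e 0 = -θ / g := by simp [he]
  have he1 : e 1 = 1 / g := by simp [he]
  have hee : dt e e = 1 := by
    unfold dt
    rw [he0, he1]
    field_simp
    linarith
  refine ⟨e, hee, ?_⟩
  intro lam x hlam hC hP
  set P := x 1 - θ * x 0 with hPdef
  have hx1 : x 1 = P + θ * x 0 := by rw [hPdef]; ring
  constructor
  · have h2 : dt x e = P / g := by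
      unfold dt
      rw [he0, he1, hx1]
      field_simp
      ring
    rw [h2, abs_div, abs_of_pos hg0]
    exact (div_le_self (abs_nonneg _) hg1).trans hP
  · have h2 : cr e x = -(θ * P + g ^ 2 * x 0) / g := by
      unfold cr
      rw [he0, he1, hx1, hg2]
      field_simp
      ring
    rw [h2, abs_div, abs_of_pos hg0, div_le_iff₀ hg0, abs_neg]
    have h3 : |θ * P + g ^ 2 * x 0| ≤ |P| + g ^ 2 * |x 0| := by
      refine (abs_add_le _ _).trans ?_
      rw [abs_mul, abs_mul, abs_of_nonneg (sq_nonneg g)]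
      have : |θ| * |P| ≤ |P| := mul_le_of_le_one_left (abs_nonneg _) hθ
      linarith
    have h4 : |P| ≤ lam * A := hP.trans (mul_le_mul_of_nonneg_left hAB hlam)
    have h5 : 0 ≤ lam * A := by positivity
    have h6 : g * |x 0| ≤ 3 / 2 * (lam * A) := mul_le_mul hg3 hC (abs_nonneg _) (by norm_num)
    have h7 : g ^ 2 * |x 0| = g * (g * |x 0|) := by ring
    have h8 : g * (g * |x 0|) ≤ g * (3 / 2 * (lam * A)) := mul_le_mul_of_nonneg_left h6 hgn
    have h9 : lam * A ≤ g * (lam * A) := le_mul_of_one_le_left h5 hg1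
    have h10 : 0 ≤ g * (lam * A) := by positivity
    have h11 : lam * (3 * A) * g = 3 * (g * (lam * A)) := by ring
    have h12 : g * (3 / 2 * (lam * A)) = 3 / 2 * (g * (lam * A)) := by ring
    rw [h11]
    linarith

end

end Crest.Agent.R138.LmA2
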