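import Crest.Agent.R138.LmA1_861

/-!
# R138, LEMMA A, case B (slabs) and the final finite statement (helper861)
-/

set_option autoImplicit false
set_option linter.unusedVariables false
set_option linter.unusedSectionVars false

namespace Crest.Agent.R138.LmA861

open Finset Crest.Agent.R138.MK877 Crest.Agent.R138.Ex926

section B

variable {ι : Type} [DecidableEq ι] (a b c d : ι → ℝ) (R : ℝ)

/-- number of common fine cells of two transversal lines -/
theorem card_meet_le {T : ℝ} (hT : 1 ≤ T) (hR : 0 < R) (l m : ι)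
    (hd : ¬ (|c m - c l| ≤ 1 / T ∧ |d m - d l| ≤ 1 / T)) (S : Finset ℤ)
    (hS : ∀ j ∈ S, |pos a c R m j - pos a c R l j| ≤ 1 / R ∧
      |pos b d R m j - pos b d R l j| ≤ 1 / R) : (S.card : ℝ) ≤ 2 * T + 1 := by
  have hT0 : 0 < T := by linarith
  have hgen : ∀ a c : ι → ℝ, 1 / T < |c m - c l| →
      (∀ j ∈ S, |pos a c R m j - pos a c R l j| ≤ 1 / R) → (S.card : ℝ) ≤ 2 * T + 1 := by
    intro a c h1 h2
    have hc : 0 < |c m - c l| := lt_trans (by positivity) h1
    have hB : 0 < |(c m - c l) / R| := by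
      rw [abs_div, abs_of_pos hR]; positivity
    have h3 := ZS294.card_small_le (J := S) (A := a m - a l) (B := (c m - c l) / R) (e := 1 / R) hB
      (by positivity) (by
        intro j hj
        have := h2 j hj
        refine le_trans (le_of_eq ?_) this
        congr 1
        unfold pos; ring)
    refine h3.trans ?_
    rw [abs_div, abs_of_pos hR]
    have h4 : 2 * (1 / R) / (|c m - c l| / R) = 2 / |c m - c l| := by
      field_simp
    rw [h4]
    have h5 : 2 / |c m - c l| ≤ 2 * T := by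
      rw [div_le_iff₀ hc]
      rw [div_lt_iff₀ hT0] at h1
      nlinarith
    linarith
  rw [not_and_or, not_le, not_le] at hd
  rcases hd with h | h
  · exact hgen a c h fun j hj => (hS j hj).1
  · exact hgen b d h fun j hj => (hS j hj).2

/-- **case B, counting of transversal pairs in slabs.** -/
theorem pairs_count {H : ℕ} (hH : 0 < H) (hR : 0 < R) {T : ℝ} (hT : 1 ≤ T)
    (I J : Finset (ι × ℤ)) (hJI : J ⊆ I) (hJ : J.Nonempty) {θ θ' NS NT : ℝ} (hθ : 0 < θ)
    (hθ' : 0 < θ')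
    (hv : ∀ x ∈ I, |c x.1| ≤ 1 ∧ |d x.1| ≤ 1)
    (u n : (Fin 3 → ℤ) → ℝ × ℝ) (hn : ∀ k, (n k).1 ^ 2 + (n k).2 ^ 2 = 1)
    (hstrip : ∀ x ∈ J, |(c x.1 - (u (big H (cell a b c d R x))).1) * (n (big H (cell a b c d R x))).1 +
      (d x.1 - (u (big H (cell a b c d R x))).2) * (n (big H (cell a b c d R x))).2| ≤ 1 / H)
    (hcell : ∀ x ∈ J, θ ≤ ((J.filter fun y => cell a b c d R y = cell a b c d R x).card : ℝ))
    (hlk : ∀ x ∈ J, θ' ≤ ((J.filter fun y => (y.1, big H (cell a b c d R y)) =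
      (x.1, big H (cell a b c d R x))).card : ℝ))
    (hslab : ∀ x ∈ I, ∀ n : ℝ × ℝ, n.1 ^ 2 + n.2 ^ 2 = 1 →
      (((I.filter fun y => |(y.2 : ℝ) - x.2| ≤ H ∧
        |pos a c R y.1 x.2 - pos a c R x.1 x.2| ≤ 3 * H / R ∧
        |pos b d R y.1 x.2 - pos b d R x.1 x.2| ≤ 3 * H / R ∧
        |n.1 * (pos a c R y.1 x.2 - pos a c R x.1 x.2) +
          n.2 * (pos b d R y.1 x.2 - pos b d R x.1 x.2)| ≤ 4 / R ∧
        |n.1 * (c y.1 - c x.1) + n.2 * (d y.1 - d x.1)| ≤ 2 / H).image Prod.fst).card : ℝ) ≤ NS)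
    (htube : ∀ x ∈ I, ((I.filter fun y => y.2 = x.2 ∧
        |pos a c R y.1 y.2 - pos a c R x.1 x.2| ≤ 1 / R ∧
        |pos b d R y.1 y.2 - pos b d R x.1 x.2| ≤ 1 / R ∧
        |c y.1 - c x.1| ≤ 1 / T ∧ |d y.1 - d x.1| ≤ 1 / T).card : ℝ) ≤ NT)
    (hNT : NT ≤ θ / 2) : θ * θ' ≤ 2 * (2 * T + 1) * NS := by
  classical
  have hH0 : (0 : ℝ) < H := by exact_mod_cast hH
  have hH1 : (1 : ℝ) ≤ H := by exact_mod_cast hH
  have hHz : (0 : ℤ) < H := by exact_mod_cast hH
  set cl := cell a b c d R with hcl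
  set K : ι × ℤ → Fin 3 → ℤ := fun x => big H (cl x) with hK
  set tr : ι → ι → Prop := fun l m => ¬ (|c m - c l| ≤ 1 / T ∧ |d m - d l| ≤ 1 / T) with htr
  set P := (J ×ˢ J).filter (fun p => cl p.2 = cl p.1 ∧ tr p.1.1 p.2.1) with hP
  have hsame : ∀ x y : ι × ℤ, cl y = cl x → y.2 = x.2 ∧
      |pos a c R y.1 y.2 - pos a c R x.1 x.2| ≤ 1 / R ∧
      |pos b d R y.1 y.2 - pos b d R x.1 x.2| ≤ 1 / R := by
    intro x y h
    simp only [hcl, cell, Prod.mk.injEq] at h
    exact ⟨h.1, near_of_floor hR h.2.1, near_of_floor hR h.2.2⟩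
  -- lower bound
  have hlow : (J.card : ℝ) * (θ / 2) ≤ P.card := by
    have h1 : P.card = ∑ x ∈ J, (J.filter (fun y => cl y = cl x ∧ tr x.1 y.1)).card := by
      rw [hP, card_filter, sum_product]
      refine sum_congr rfl fun x _ => ?_
      rw [card_filter]
    rw [h1]; push_cast
    rw [← nsmul_eq_mul]
    refine card_nsmul_le_sum _ _ _ fun x hx => ?_
    have h2 : (J.filter fun y => cl y = cl x).card ≤
        (I.filter fun y => y.2 = x.2 ∧
        |pos a c R y.1 y.2 - pos a c R x.1 x.2| ≤ 1 / R ∧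
        |pos b d R y.1 y.2 - pos b d R x.1 x.2| ≤ 1 / R ∧
        |c y.1 - c x.1| ≤ 1 / T ∧ |d y.1 - d x.1| ≤ 1 / T).card +
        (J.filter (fun y => cl y = cl x ∧ tr x.1 y.1)).card := by
      refine (card_le_card ?_).trans (card_union_le _ _)
      intro y hy
      rw [mem_filter] at hy
      rw [mem_union, mem_filter, mem_filter]
      by_cases h3 : |c y.1 - c x.1| ≤ 1 / T ∧ |d y.1 - d x.1| ≤ 1 / T
      · left
        obtain ⟨e1, e2, e3⟩ := hsame x y hy.2
        exact ⟨hJI hy.1, e1, e2, e3, h3⟩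
      · right
        exact ⟨hy.1, hy.2, h3⟩
    have h4 := htube x (hJI hx)
    have h5 := hcell x hx
    have h6 : ((J.filter fun y => cl y = cl x).card : ℝ) ≤
        ((I.filter fun y => y.2 = x.2 ∧
        |pos a c R y.1 y.2 - pos a c R x.1 x.2| ≤ 1 / R ∧
        |pos b d R y.1 y.2 - pos b d R x.1 x.2| ≤ 1 / R ∧
        |c y.1 - c x.1| ≤ 1 / T ∧ |d y.1 - d x.1| ≤ 1 / T).card : ℝ) +
        ((J.filter (fun y => cl y = cl x ∧ tr x.1 y.1)).card : ℝ) := by exact_mod_cast h2
    linarith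
  -- upper bound
  set φ : (ι × ℤ) × (ι × ℤ) → (ι × (Fin 3 → ℤ)) × ι := fun p => ((p.1.1, K p.1), p.2.1) with hφ
  have hup1 : (P.card : ℝ) ≤ (2 * T + 1) * ((P.image φ).card : ℝ) := by
    refine card_le_mul_image P φ fun p hp => ?_
    set W := P.filter fun q => φ q = φ p with hW
    have hWm : ∀ q ∈ W, q.1.1 = p.1.1 ∧ q.2.1 = p.2.1 ∧ cl q.2 = cl q.1 := by
      intro q hq
      rw [hW, mem_filter, hP, mem_filter] at hq
      have h3 := hq.2
      simp only [hφ, Prod.mk.injEq] at h3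
      exact ⟨h3.1.1, h3.2, hq.1.2.1⟩
    have hcard : W.card = (W.image fun q => q.1.2).card := by
      symm
      apply card_image_of_injOn
      intro q hq q' hq' he
      simp only at he
      obtain ⟨e1, e2, e3⟩ := hWm q hq
      obtain ⟨f1, f2, f3⟩ := hWm q' hq'
      have g1 := (hsame _ _ e3).1
      have g2 := (hsame _ _ f3).1
      refine Prod.ext (Prod.ext (e1.trans f1.symm) he) (Prod.ext (e2.trans f2.symm) ?_)
      rw [g1, g2, he]
    rw [hcard]
    have htrp : tr p.1.1 p.2.1 := by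
      rw [hP, mem_filter] at hp; exact hp.2.2
    refine card_meet_le a b c d R hT hR p.1.1 p.2.1 htrp _ fun j hj => ?_
    obtain ⟨q, hq, rfl⟩ := mem_image.1 hj
    obtain ⟨e1, e2, e3⟩ := hWm q hq
    obtain ⟨g1, g2, g3⟩ := hsame _ _ e3
    rw [g1, e1, e2] at g2 g3
    exact ⟨g2, g3⟩
  have hup2 : ((P.image φ).card : ℝ) ≤ NS * (((P.image φ).image Prod.fst).card : ℝ) := by
    refine card_le_mul_image _ _ fun q0 hq0 => ?_
    obtain ⟨p0, hp0, rfl⟩ := mem_image.1 hq0
    have hp0' := hp0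
    rw [hP, mem_filter, mem_product] at hp0
    obtain ⟨⟨hx0, -⟩, -, -⟩ := hp0
    set x0 := p0.1 with hx0d
    refine le_trans ?_ (hslab x0 (hJI hx0) (n (K x0)) (hn _))
    have h1 : ((P.image φ).filter fun y => y.1 = (φ p0).1).card =
        (((P.image φ).filter fun y => y.1 = (φ p0).1).image Prod.snd).card := by
      symm
      apply card_image_of_injOn
      intro q hq q' hq' he
      simp only [coe_filter, Set.mem_ofPred_eq] at hq hq'
      exact Prod.ext (hq.2.trans hq'.2.symm) he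
    rw [h1]
    have h2 : ((P.image φ).filter fun y => y.1 = (φ p0).1).image Prod.snd ⊆
        ((I.filter fun y => |(y.2 : ℝ) - x0.2| ≤ H ∧
        |pos a c R y.1 x0.2 - pos a c R x0.1 x0.2| ≤ 3 * H / R ∧
        |pos b d R y.1 x0.2 - pos b d R x0.1 x0.2| ≤ 3 * H / R ∧
        |(n (K x0)).1 * (pos a c R y.1 x0.2 - pos a c R x0.1 x0.2) +
          (n (K x0)).2 * (pos b d R y.1 x0.2 - pos b d R x0.1 x0.2)| ≤ 4 / R ∧
        |(n (K x0)).1 * (c y.1 - c x0.1) + (n (K x0)).2 * (d y.1 - d x0.1)| ≤ 2 / H).image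
          Prod.fst) := by
      intro m' hm'
      obtain ⟨q, hq, rfl⟩ := mem_image.1 hm'
      rw [mem_filter] at hq
      obtain ⟨hq1, hq2⟩ := hq
      obtain ⟨p, hp, rfl⟩ := mem_image.1 hq1
      simp only [hφ, Prod.mk.injEq] at hq2
      obtain ⟨f1, f2⟩ := hq2
      rw [hP, mem_filter, mem_product] at hp
      obtain ⟨⟨hxJ, hyJ⟩, hcc, -⟩ := hp
      set x := p.1 with hx
      set y := p.2 with hy
      obtain ⟨g1, g2, g3⟩ := hsame x y hcc
      have hKy : K y = K x0 := by rw [← f2]; simp only [hK, hcc]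
      have hsy := hstrip y hyJ
      have hsx := hstrip x0 hx0
      change |(c y.1 - (u (K y)).1) * (n (K y)).1 + (d y.1 - (u (K y)).2) * (n (K y)).2| ≤ 1 / H
        at hsy
      change |(c x0.1 - (u (K x0)).1) * (n (K x0)).1 +
        (d x0.1 - (u (K x0)).2) * (n (K x0)).2| ≤ 1 / H at hsx
      rw [hKy] at hsy
      have hvel : |(n (K x0)).1 * (c y.1 - c x0.1) + (n (K x0)).2 * (d y.1 - d x0.1)| ≤ 2 / H := by
        have e1 : (n (K x0)).1 * (c y.1 - c x0.1) + (n (K x0)).2 * (d y.1 - d x0.1) =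
            ((c y.1 - (u (K x0)).1) * (n (K x0)).1 + (d y.1 - (u (K x0)).2) * (n (K x0)).2) -
            ((c x0.1 - (u (K x0)).1) * (n (K x0)).1 + (d x0.1 - (u (K x0)).2) * (n (K x0)).2) := by
          ring
        rw [e1]
        refine (abs_sub _ _).trans ?_
        calc _ ≤ 1 / (H : ℝ) + 1 / H := add_le_add hsy hsx
          _ = 2 / H := by ring
      -- heights
      have hw : x.2 / (H : ℤ) = x0.2 / (H : ℤ) := by
        have := congrFun f2 2
        simpa [hK, big, hcl, cell] using this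
      have hj : |x.2 - x0.2| ≤ H := by
        have a1 := Int.emod_add_mul_ediv x.2 H
        have a2 := Int.emod_add_mul_ediv x0.2 H
        have a3 := Int.emod_nonneg x.2 hHz.ne'
        have a4 := Int.emod_nonneg x0.2 hHz.ne'
        have a5 := Int.emod_lt_of_pos x.2 hHz
        have a6 := Int.emod_lt_of_pos x0.2 hHz
        rw [hw] at a1
        rw [abs_le]; constructor <;> linarith
      have hjr : |(x.2 : ℝ) - x0.2| ≤ H := by exact_mod_cast hj
      have hjR : |((x0.2 : ℝ) - x.2) / R| ≤ H / R := by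
        rw [abs_div, abs_of_pos hR, abs_sub_comm]
        gcongr
      have hshift : ∀ a c : ι → ℝ, pos a c R y.1 x0.2 - pos a c R x0.1 x0.2 =
          (pos a c R y.1 y.2 - pos a c R x.1 x.2) + (c y.1 - c x0.1) * (((x0.2 : ℝ) - x.2) / R) := by
        intro a c
        rw [pos_shift a c R y.1 y.2 x0.2, pos_shift a c R x0.1 x.2 x0.2, g1, f1]
        ring
      have hbig : ∀ a c : ι → ℝ, |c y.1| ≤ 1 → |c x0.1| ≤ 1 →
          |pos a c R y.1 y.2 - pos a c R x.1 x.2| ≤ 1 / R →
          |pos a c R y.1 x0.2 - pos a c R x0.1 x0.2| ≤ 3 * H / R := by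
        intro a c e1 e2 e3
        rw [hshift a c]
        refine (abs_add_le _ _).trans ?_
        rw [abs_mul]
        have e4 : |c y.1 - c x0.1| ≤ 2 := (abs_sub _ _).trans (by linarith)
        calc _ ≤ 1 / R + 2 * (H / R) := by
              gcongr
          _ ≤ H / R + 2 * (H / R) := by gcongr
          _ = 3 * H / R := by ring
      have hvy := hv y (hJI hyJ)
      have hvx := hv x0 (hJI hx0)
      rw [mem_image]
      refine ⟨y, ?_, rfl⟩
      rw [mem_filter]
      refine ⟨hJI hyJ, ?_, hbig a c hvy.1 hvx.1 g2, hbig b d hvy.2 hvx.2 g3, ?_, hvel⟩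
      · rw [g1]; exact hjr
      · have e1 : (n (K x0)).1 * (pos a c R y.1 x0.2 - pos a c R x0.1 x0.2) +
            (n (K x0)).2 * (pos b d R y.1 x0.2 - pos b d R x0.1 x0.2) =
            ((n (K x0)).1 * (pos a c R y.1 y.2 - pos a c R x.1 x.2) +
              (n (K x0)).2 * (pos b d R y.1 y.2 - pos b d R x.1 x.2)) +
            ((n (K x0)).1 * (c y.1 - c x0.1) + (n (K x0)).2 * (d y.1 - d x0.1)) *
              (((x0.2 : ℝ) - x.2) / R) := by
          rw [hshift a c, hshift b d]; ring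
        rw [e1]
        have hn1 : |(n (K x0)).1| ≤ 1 := by
          rw [← sq_le_one_iff_abs_le_one]; nlinarith [hn (K x0), sq_nonneg (n (K x0)).2]
        have hn2 : |(n (K x0)).2| ≤ 1 := by
          rw [← sq_le_one_iff_abs_le_one]; nlinarith [hn (K x0), sq_nonneg (n (K x0)).1]
        refine (abs_add_le _ _).trans ?_
        have e2 : |(n (K x0)).1 * (pos a c R y.1 y.2 - pos a c R x.1 x.2) +
              (n (K x0)).2 * (pos b d R y.1 y.2 - pos b d R x.1 x.2)| ≤ 1 / R + 1 / R := by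
          refine (abs_add_le _ _).trans ?_
          rw [abs_mul, abs_mul]
          refine add_le_add ?_ ?_
          · calc _ ≤ 1 * (1 / R) := by gcongr
              _ = 1 / R := one_mul _
          · calc _ ≤ 1 * (1 / R) := by gcongr
              _ = 1 / R := one_mul _
        rw [abs_mul]
        calc _ ≤ (1 / R + 1 / R) + 2 / H * (H / R) := by gcongr
          _ = 4 / R := by field_simp; ring
    exact_mod_cast card_le_card h2
  have hup3 : ((P.image φ).image Prod.fst).card ≤ (J.image fun x => (x.1, K x)).card := by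
    refine card_le_card ?_
    intro q hq
    obtain ⟨q', hq', rfl⟩ := mem_image.1 hq
    obtain ⟨p, hp, rfl⟩ := mem_image.1 hq'
    rw [hP, mem_filter, mem_product] at hp
    exact mem_image.2 ⟨p.1, hp.1.1, rfl⟩
  have hup4 : θ' * ((J.image fun x => (x.1, K x)).card : ℝ) ≤ (J.card : ℝ) :=
    mul_image_le_card J _ hlk
  have hJc : (0 : ℝ) < J.card := by exact_mod_cast hJ.card_pos
  have hNS : 0 ≤ NS := by
    obtain ⟨x, hx⟩ := hJ
    exact le_trans (Nat.cast_nonneg _) (hslab x (hJI hx) (1, 0) (by norm_num))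
  have hfin : (J.card : ℝ) * (θ * θ') ≤ (J.card : ℝ) * (2 * (2 * T + 1) * NS) := by
    have hup3' : (((P.image φ).image Prod.fst).card : ℝ) ≤
        ((J.image fun x => (x.1, K x)).card : ℝ) := by exact_mod_cast hup3
    calc (J.card : ℝ) * (θ * θ') = 2 * θ' * ((J.card : ℝ) * (θ / 2)) := by ring
      _ ≤ 2 * θ' * ((2 * T + 1) * (NS * ((J.image fun x => (x.1, K x)).card : ℝ))) := by
          refine mul_le_mul_of_nonneg_left ?_ (by positivity)
          refine hlow.trans (hup1.trans ?_)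
          refine mul_le_mul_of_nonneg_left ?_ (by linarith)
          exact hup2.trans (mul_le_mul_of_nonneg_left hup3' hNS)
      _ = 2 * (2 * T + 1) * NS * (θ' * ((J.image fun x => (x.1, K x)).card : ℝ)) := by ring
      _ ≤ 2 * (2 * T + 1) * NS * (J.card : ℝ) :=
          mul_le_mul_of_nonneg_left hup4 (by positivity)
      _ = _ := by ring
  exact le_of_mul_le_mul_left hfin hJc

end B

end Crest.Agent.R138.LmA861
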