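import Mathlib
import Crest.Agent.R138.LmA2_335
import Crest.Agent.R138.Kb1_439

/-!
# R138, Lemma A, affine transfer, part 2 (helper335): lines and counts

Normalised coordinates of a line in the affine box `(l0, θ, len, A, B)`:
`px = dX / (A len)`, `py = dN / (B len)`, `vc = dC / A`, `vp = dP / B`.
D-max over honest planks bounds the number of lines of normalised slabs, tubes and boxes.
-/

set_option autoImplicit false
set_option linter.unusedVariables false

open Finset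

namespace Crest.Agent.R138.LmA2

open Crest.Agent.R138.Flag51
open Crest.Agent.R138.Tilt51 (DMax)

noncomputable section

/-- conversion to the coordinates of `Kb1_439`. -/
def toK (t : Ln) : Kb439.Ln := ⟨t.1 0, t.1 1, t.2 0, t.2 1⟩

theorem pos_apply (t : Ln) (z : ℝ) (i : Fin 2) : pos t z i = t.1 i + z * t.2 i := by
  simp [pos]

theorem toK_dX (l0 t : Ln) (z : ℝ) :
    Kb439.Ln.dX (toK l0) (toK t) z = (pos t z - pos l0 z) 0 := by
  simp only [Kb439.Ln.dX, toK, PiLp.sub_apply, pos_apply]; ring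

theorem toK_dN (l0 t : Ln) (θ z : ℝ) :
    Kb439.Ln.dN (toK l0) θ (toK t) z = (pos t z - pos l0 z) 1 - θ * (pos t z - pos l0 z) 0 := by
  simp only [Kb439.Ln.dN, Kb439.Ln.dX, toK, PiLp.sub_apply, pos_apply]; ring

theorem toK_dC (l0 t : Ln) : Kb439.Ln.dC (toK l0) (toK t) = (t.2 - l0.2) 0 := by
  simp [Kb439.Ln.dC, toK]

theorem toK_dP (l0 t : Ln) (θ : ℝ) :
    Kb439.Ln.dP (toK l0) θ (toK t) = (t.2 - l0.2) 1 - θ * (t.2 - l0.2) 0 := by
  simp [Kb439.Ln.dP, toK]

/-- the relative position moves with the relative velocity. -/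
theorem rel_pos (t l : Ln) (z0 z : ℝ) :
    pos t z - pos l z = (pos t z0 - pos l z0) + (z - z0) • (t.2 - l.2) := by
  unfold pos
  ext i
  simp only [PiLp.sub_apply, PiLp.add_apply, PiLp.smul_apply, smul_eq_mul]
  ring

/-- from bounds of position and velocity to a plank over the cell. -/
theorem inPlank_of {t l : Ln} {e : E2} {b1 b2 z0 ρ lam0 lam1 : ℝ} (hb1 : 0 ≤ b1) (hb2 : 0 ≤ b2)
    (h1 : 0 ≤ lam1)
    (hx : |dt (pos t z0 - pos l z0) e| ≤ lam0 * b1 ∧ |cr e (pos t z0 - pos l z0)| ≤ lam0 * b2)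
    (hy : |dt (t.2 - l.2) e| ≤ lam1 * b1 ∧ |cr e (t.2 - l.2)| ≤ lam1 * b2) :
    InPlank t l e ((lam0 + ρ * lam1) * b1) ((lam0 + ρ * lam1) * b2) z0 ρ := by
  intro z hz
  rw [rel_pos t l z0 z]
  have d1 : dt (pos t z0 - pos l z0 + (z - z0) • (t.2 - l.2)) e =
      dt (pos t z0 - pos l z0) e + (z - z0) * dt (t.2 - l.2) e := by
    simp only [dt, PiLp.add_apply, PiLp.smul_apply, smul_eq_mul]; ring
  have d2 : cr e (pos t z0 - pos l z0 + (z - z0) • (t.2 - l.2)) =
      cr e (pos t z0 - pos l z0) + (z - z0) * cr e (t.2 - l.2) := by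
    simp only [cr, PiLp.add_apply, PiLp.smul_apply, smul_eq_mul]; ring
  have hρ : 0 ≤ ρ := (abs_nonneg _).trans hz
  rw [d1, d2]
  constructor
  · have h3 : |(z - z0) * dt (t.2 - l.2) e| ≤ ρ * (lam1 * b1) := by
      rw [abs_mul]
      exact mul_le_mul hz hy.1 (abs_nonneg _) hρ
    calc |dt (pos t z0 - pos l z0) e + (z - z0) * dt (t.2 - l.2) e|
        ≤ |dt (pos t z0 - pos l z0) e| + |(z - z0) * dt (t.2 - l.2) e| := abs_add_le _ _
      _ ≤ lam0 * b1 + ρ * (lam1 * b1) := add_le_add hx.1 h3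
      _ = (lam0 + ρ * lam1) * b1 := by ring
  · have h3 : |(z - z0) * cr e (t.2 - l.2)| ≤ ρ * (lam1 * b2) := by
      rw [abs_mul]
      exact mul_le_mul hz hy.2 (abs_nonneg _) hρ
    calc |cr e (pos t z0 - pos l z0) + (z - z0) * cr e (t.2 - l.2)|
        ≤ |cr e (pos t z0 - pos l z0)| + |(z - z0) * cr e (t.2 - l.2)| := abs_add_le _ _
      _ ≤ lam0 * b2 + ρ * (lam1 * b2) := add_le_add hx.2 h3
      _ = (lam0 + ρ * lam1) * b2 := by ring

/-- the three conditions of a normalised slab, position part. -/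
def PosC (θ A B n1 n2 δ lam : ℝ) (x : E2) : Prop :=
  |x 0| ≤ lam * A ∧ |x 1 - θ * x 0| ≤ lam * B ∧
    |n1 * (x 0 / A) + n2 * ((x 1 - θ * x 0) / B)| ≤ lam * δ

/-- the two conditions of a normalised box. -/
def BoxC (θ A B lam : ℝ) (x : E2) : Prop :=
  |x 0| ≤ lam * A ∧ |x 1 - θ * x 0| ≤ lam * B

open Classical in
/-- **count of a normalised slab** from D-max. -/
theorem slab_count {ι : Type*} {S : Finset ι} {L : ι → Ln} {z0 ρ M q r0 R0 A B δ θ n1 n2 lam0 lam1 : ℝ}
    (hD : DMax S L (fun _ => 1) z0 ρ M 0 q r0 R0) (hM : 0 ≤ M) (hq : 0 ≤ q)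
    (hB : 0 < B) (hAB : B ≤ A) (hδ : 0 < δ) (hδ1 : δ ≤ 1) (hθ : |θ| ≤ 1)
    (hn : n1 ^ 2 + n2 ^ 2 = 1) (h0 : 0 ≤ lam0) (h1 : 0 ≤ lam1) (hw : 0 < lam0 + ρ * lam1)
    (hr0 : r0 ≤ (lam0 + ρ * lam1) * (δ * B / 3)) (hR0 : (lam0 + ρ * lam1) * (36 * A) ≤ R0) (l : Ln) :
    ((S.filter fun t => PosC θ A B n1 n2 δ lam0 (pos (L t) z0 - pos l z0) ∧
        PosC θ A B n1 n2 δ lam1 ((L t).2 - l.2)).card : ℝ) ≤
      M * ((lam0 + ρ * lam1) ^ 2 * (12 * (δ * A * B))) * ((lam0 + ρ * lam1) * (36 * A)) ^ q := by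
  have hA : 0 < A := lt_of_lt_of_le hB hAB
  obtain ⟨e, a1, a2, hee, hlo, h12, hup, hprod, key⟩ := slab_rect hB hAB hδ hδ1 hθ hn
  set w := lam0 + ρ * lam1 with hwdef
  have ha1 : 0 < a1 := lt_of_lt_of_le (by positivity) hlo
  have ha2 : 0 < a2 := lt_of_lt_of_le ha1 h12
  have hDm := hD l e (w * a1) (w * a2) hee
    (hr0.trans (mul_le_mul_of_nonneg_left hlo hw.le)) (mul_le_mul_of_nonneg_left h12 hw.le)
    ((mul_le_mul_of_nonneg_left hup hw.le).trans hR0)
  have hsub : (S.filter fun t => PosC θ A B n1 n2 δ lam0 (pos (L t) z0 - pos l z0) ∧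
        PosC θ A B n1 n2 δ lam1 ((L t).2 - l.2)) ⊆
      S.filter fun t => InPlank (L t) l e (w * a1) (w * a2) z0 ρ := by
    intro t ht
    rw [mem_filter] at ht ⊢
    obtain ⟨htS, ⟨p1, p2, p3⟩, v1, v2, v3⟩ := ht
    exact ⟨htS, inPlank_of ha1.le ha2.le h1 (key lam0 _ h0 p1 p2 p3) (key lam1 _ h1 v1 v2 v3)⟩
  have hcard : ((S.filter fun t => PosC θ A B n1 n2 δ lam0 (pos (L t) z0 - pos l z0) ∧
        PosC θ A B n1 n2 δ lam1 ((L t).2 - l.2)).card : ℝ) ≤
      ∑ t ∈ S with InPlank (L t) l e (w * a1) (w * a2) z0 ρ, (1 : ℝ) := by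
    rw [sum_const, nsmul_eq_mul, mul_one]
    exact_mod_cast card_le_card hsub
  refine hcard.trans (hDm.trans ?_)
  rw [add_zero, Real.rpow_one, Real.rpow_add (by positivity), Real.rpow_one]
  calc M * (w * a1) * (w * a2 * (w * a2) ^ q) = M * (w ^ 2 * (a1 * a2)) * (w * a2) ^ q := by ring
    _ ≤ M * (w ^ 2 * (12 * (δ * A * B))) * (w * (36 * A)) ^ q := by
        apply mul_le_mul _ _ (by positivity) (by positivity)
        · exact mul_le_mul_of_nonneg_left (mul_le_mul_of_nonneg_left hprod (by positivity)) hM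
        · exact Real.rpow_le_rpow (by positivity) (mul_le_mul_of_nonneg_left hup hw.le) hq

open Classical in
/-- **count of a normalised box** from D-max. -/
theorem box_count {ι : Type*} {S : Finset ι} {L : ι → Ln} {z0 ρ M q r0 R0 A B θ lam0 lam1 : ℝ}
    (hD : DMax S L (fun _ => 1) z0 ρ M 0 q r0 R0) (hM : 0 ≤ M) (hq : 0 ≤ q)
    (hB : 0 < B) (hAB : B ≤ A) (hθ : |θ| ≤ 1)
    (h0 : 0 ≤ lam0) (h1 : 0 ≤ lam1) (hw : 0 < lam0 + ρ * lam1)
    (hr0 : r0 ≤ (lam0 + ρ * lam1) * B) (hR0 : (lam0 + ρ * lam1) * (3 * A) ≤ R0) (l : Ln) :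
    ((S.filter fun t => BoxC θ A B lam0 (pos (L t) z0 - pos l z0) ∧
        BoxC θ A B lam1 ((L t).2 - l.2)).card : ℝ) ≤
      M * ((lam0 + ρ * lam1) ^ 2 * (3 * (A * B))) * ((lam0 + ρ * lam1) * (3 * A)) ^ q := by
  have hA : 0 < A := lt_of_lt_of_le hB hAB
  obtain ⟨e, hee, key⟩ := box_rect hB hAB hθ
  set w := lam0 + ρ * lam1 with hwdef
  have hDm := hD l e (w * B) (w * (3 * A)) hee hr0
    (mul_le_mul_of_nonneg_left (by linarith) hw.le) hR0
  have hsub : (S.filter fun t => BoxC θ A B lam0 (pos (L t) z0 - pos l z0) ∧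
        BoxC θ A B lam1 ((L t).2 - l.2)) ⊆
      S.filter fun t => InPlank (L t) l e (w * B) (w * (3 * A)) z0 ρ := by
    intro t ht
    rw [mem_filter] at ht ⊢
    obtain ⟨htS, ⟨p1, p2⟩, v1, v2⟩ := ht
    exact ⟨htS, inPlank_of hB.le (by positivity) h1 (key lam0 _ h0 p1 p2) (key lam1 _ h1 v1 v2)⟩
  have hcard : ((S.filter fun t => BoxC θ A B lam0 (pos (L t) z0 - pos l z0) ∧
        BoxC θ A B lam1 ((L t).2 - l.2)).card : ℝ) ≤
      ∑ t ∈ S with InPlank (L t) l e (w * B) (w * (3 * A)) z0 ρ, (1 : ℝ) := by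
    rw [sum_const, nsmul_eq_mul, mul_one]
    exact_mod_cast card_le_card hsub
  refine hcard.trans (hDm.trans ?_)
  rw [add_zero, Real.rpow_one, Real.rpow_add (by positivity), Real.rpow_one]
  apply le_of_eq
  ring

/-! ### normalised coordinates -/

/-- normalised position. -/
def px (l0 : Ln) (A len : ℝ) (t : Ln) (z : ℝ) : ℝ := (pos t z - pos l0 z) 0 / (A * len)
/-- normalised normal position. -/
def py (l0 : Ln) (θ B len : ℝ) (t : Ln) (z : ℝ) : ℝ :=
  ((pos t z - pos l0 z) 1 - θ * (pos t z - pos l0 z) 0) / (B * len)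
/-- normalised velocity. -/
def vc (l0 : Ln) (A : ℝ) (t : Ln) : ℝ := (t.2 - l0.2) 0 / A
/-- normalised normal velocity. -/
def vp (l0 : Ln) (θ B : ℝ) (t : Ln) : ℝ := ((t.2 - l0.2) 1 - θ * (t.2 - l0.2) 0) / B

/-- the normalised line is a line: `px (z0 + len τ) = px z0 + τ vc`. -/
theorem px_shift {A len : ℝ} (hlen : len ≠ 0) (l0 t : Ln) (z τ : ℝ) :
    px l0 A len t (z + len * τ) = px l0 A len t z + τ * vc l0 A t := by
  unfold px vc
  rw [rel_pos t l0 z (z + len * τ)]
  simp only [PiLp.add_apply, PiLp.smul_apply, smul_eq_mul]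
  by_cases hA : A = 0
  · simp [hA]
  field_simp
  ring

theorem py_shift {θ B len : ℝ} (hlen : len ≠ 0) (l0 t : Ln) (z τ : ℝ) :
    py l0 θ B len t (z + len * τ) = py l0 θ B len t z + τ * vp l0 θ B t := by
  unfold py vp
  rw [rel_pos t l0 z (z + len * τ)]
  simp only [PiLp.add_apply, PiLp.smul_apply, smul_eq_mul]
  by_cases hB : B = 0
  · simp [hB]
  field_simp
  ring

open Classical in
/-- **(slab)** of 861's Lemma A: normalised slab around the line `l`, height `z0`, window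
`|z - z0| ≤ len H / R`. -/
theorem slab_norm {ι : Type*} {S : Finset ι} {L : ι → Ln} {z0 M q r0 R0 A B θ n1 n2 len H R : ℝ}
    (hD : DMax S L (fun _ => 1) z0 (len * H / R) M 0 q r0 R0) (hM : 0 ≤ M) (hq : 0 ≤ q)
    (hB : 0 < B) (hAB : B ≤ A) (hθ : |θ| ≤ 1) (hlen : 0 < len) (hH : 2 ≤ H) (hR : 0 < R)
    (hn : n1 ^ 2 + n2 ^ 2 = 1) (hr0 : r0 ≤ B * len / R) (hR0 : 180 * A * len * H / R ≤ R0)
    (l0 l : Ln) :
    ((S.filter fun t =>
        |px l0 A len (L t) z0 - px l0 A len l z0| ≤ 3 * H / R ∧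
        |py l0 θ B len (L t) z0 - py l0 θ B len l z0| ≤ 3 * H / R ∧
        |n1 * (px l0 A len (L t) z0 - px l0 A len l z0) +
          n2 * (py l0 θ B len (L t) z0 - py l0 θ B len l z0)| ≤ 4 / R ∧
        |vc l0 A (L t) - vc l0 A l| ≤ 2 ∧ |vp l0 θ B (L t) - vp l0 θ B l| ≤ 2 ∧
        |n1 * (vc l0 A (L t) - vc l0 A l) + n2 * (vp l0 θ B (L t) - vp l0 θ B l)| ≤ 2 / H).card : ℝ) ≤
      600 * M * (A * len / R) * (B * len / R) * H * (180 * A * len * H / R) ^ q := by
  have hA : 0 < A := lt_of_lt_of_le hB hAB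
  have hH0 : 0 < H := by linarith
  have hw : 3 * (len * H / R) + (len * H / R) * 2 = 5 * (len * H / R) := by ring
  have hwpos : 0 < 3 * (len * H / R) + (len * H / R) * 2 := by positivity
  have hc := slab_count (δ := 2 / H) (lam0 := 3 * (len * H / R)) (lam1 := 2) hD hM hq hB hAB
    (by positivity) ((div_le_one hH0).2 hH) hθ hn (by positivity) (by norm_num) hwpos
    (by
      rw [hw]
      refine hr0.trans ?_
      have : 5 * (len * H / R) * (2 / H * B / 3) = (10 / 3) * (B * len / R) := by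
        field_simp
        norm_num
      rw [this]
      have : 0 ≤ B * len / R := by positivity
      linarith)
    (by
      rw [hw]
      refine le_trans (le_of_eq ?_) hR0
      ring) l
  rw [hw] at hc
  have hsub : (S.filter fun t =>
        |px l0 A len (L t) z0 - px l0 A len l z0| ≤ 3 * H / R ∧
        |py l0 θ B len (L t) z0 - py l0 θ B len l z0| ≤ 3 * H / R ∧
        |n1 * (px l0 A len (L t) z0 - px l0 A len l z0) +
          n2 * (py l0 θ B len (L t) z0 - py l0 θ B len l z0)| ≤ 4 / R ∧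
        |vc l0 A (L t) - vc l0 A l| ≤ 2 ∧ |vp l0 θ B (L t) - vp l0 θ B l| ≤ 2 ∧
        |n1 * (vc l0 A (L t) - vc l0 A l) + n2 * (vp l0 θ B (L t) - vp l0 θ B l)| ≤ 2 / H) ⊆
      (S.filter fun t => PosC θ A B n1 n2 (2 / H) (3 * (len * H / R)) (pos (L t) z0 - pos l z0) ∧
        PosC θ A B n1 n2 (2 / H) 2 ((L t).2 - l.2)) := by
    intro t ht
    rw [mem_filter] at ht ⊢
    obtain ⟨htS, c1, c2, c3, c4, c5, c6⟩ := ht
    -- relative quantities
    have e1 : px l0 A len (L t) z0 - px l0 A len l z0 = (pos (L t) z0 - pos l z0) 0 / (A * len) := by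
      unfold px
      simp only [PiLp.sub_apply]
      ring
    have e2 : py l0 θ B len (L t) z0 - py l0 θ B len l z0 =
        ((pos (L t) z0 - pos l z0) 1 - θ * (pos (L t) z0 - pos l z0) 0) / (B * len) := by
      unfold py
      simp only [PiLp.sub_apply]
      ring
    have e3 : vc l0 A (L t) - vc l0 A l = ((L t).2 - l.2) 0 / A := by
      unfold vc
      simp only [PiLp.sub_apply]
      ring
    have e4 : vp l0 θ B (L t) - vp l0 θ B l =
        (((L t).2 - l.2) 1 - θ * ((L t).2 - l.2) 0) / B := by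
      unfold vp
      simp only [PiLp.sub_apply]
      ring
    rw [e1] at c1 c3
    rw [e2] at c2 c3
    rw [e3] at c4 c6
    rw [e4] at c5 c6
    set x := pos (L t) z0 - pos l z0
    set y := (L t).2 - l.2
    refine ⟨htS, ⟨?_, ?_, ?_⟩, ?_, ?_, ?_⟩
    · rw [abs_div, abs_of_pos (by positivity : 0 < A * len), div_le_iff₀ (by positivity)] at c1
      calc |x 0| ≤ 3 * H / R * (A * len) := c1
        _ = 3 * (len * H / R) * A := by ring
    · rw [abs_div, abs_of_pos (by positivity : 0 < B * len), div_le_iff₀ (by positivity)] at c2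
      calc |x 1 - θ * x 0| ≤ 3 * H / R * (B * len) := c2
        _ = 3 * (len * H / R) * B := by ring
    · have e5 : n1 * (x 0 / A) + n2 * ((x 1 - θ * x 0) / B) =
          len * (n1 * (x 0 / (A * len)) + n2 * ((x 1 - θ * x 0) / (B * len))) := by
        field_simp
      rw [e5, abs_mul, abs_of_pos hlen]
      calc len * |n1 * (x 0 / (A * len)) + n2 * ((x 1 - θ * x 0) / (B * len))| ≤ len * (4 / R) :=
            mul_le_mul_of_nonneg_left c3 hlen.le
        _ ≤ 3 * (len * H / R) * (2 / H) := by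
            have : 3 * (len * H / R) * (2 / H) = len * (6 / R) := by field_simp; ring
            rw [this]
            gcongr
            norm_num
    · rw [abs_div, abs_of_pos hA, div_le_iff₀ hA] at c4
      exact c4
    · rw [abs_div, abs_of_pos hB, div_le_iff₀ hB] at c5
      exact c5
    · refine c6.trans ?_
      have : 0 ≤ 2 / H := by positivity
      linarith
  have hcard : ((S.filter fun t =>
        |px l0 A len (L t) z0 - px l0 A len l z0| ≤ 3 * H / R ∧
        |py l0 θ B len (L t) z0 - py l0 θ B len l z0| ≤ 3 * H / R ∧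
        |n1 * (px l0 A len (L t) z0 - px l0 A len l z0) +
          n2 * (py l0 θ B len (L t) z0 - py l0 θ B len l z0)| ≤ 4 / R ∧
        |vc l0 A (L t) - vc l0 A l| ≤ 2 ∧ |vp l0 θ B (L t) - vp l0 θ B l| ≤ 2 ∧
        |n1 * (vc l0 A (L t) - vc l0 A l) + n2 * (vp l0 θ B (L t) - vp l0 θ B l)| ≤ 2 / H).card : ℝ) ≤
      ((S.filter fun t => PosC θ A B n1 n2 (2 / H) (3 * (len * H / R)) (pos (L t) z0 - pos l z0) ∧
        PosC θ A B n1 n2 (2 / H) 2 ((L t).2 - l.2)).card : ℝ) := by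
    exact_mod_cast card_le_card hsub
  refine hcard.trans (hc.trans (le_of_eq ?_))
  have e6 : 5 * (len * H / R) * (36 * A) = 180 * A * len * H / R := by ring
  rw [e6]
  have e7 : M * ((5 * (len * H / R)) ^ 2 * (12 * (2 / H * A * B))) =
      600 * M * (A * len / R) * (B * len / R) * H := by
    field_simp
    ring
  rw [e7]

open Classical in
/-- **(tube)** of 861's Lemma A: lines in one fine cell, velocities in one `1/T`-cap, window
`|z - z0| ≤ len T / R`. -/
theorem tube_norm {ι : Type*} {S : Finset ι} {L : ι → Ln} {z0 M q r0 R0 A B θ len T R K : ℝ}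
    (hD : DMax S L (fun _ => 1) z0 (len * T / R) M 0 q r0 R0) (hM : 0 ≤ M) (hq : 0 ≤ q)
    (hB : 0 < B) (hAB : B ≤ A) (hθ : |θ| ≤ 1) (hlen : 0 < len) (hT : 0 < T) (hR : 0 < R)
    (hK : 1 ≤ K) (hr0 : r0 ≤ B * len / R) (hR0 : 6 * K * A * len / R ≤ R0) (l0 l : Ln) :
    ((S.filter fun t =>
        |px l0 A len (L t) z0 - px l0 A len l z0| ≤ K / R ∧
        |py l0 θ B len (L t) z0 - py l0 θ B len l z0| ≤ K / R ∧
        |vc l0 A (L t) - vc l0 A l| ≤ K / T ∧ |vp l0 θ B (L t) - vp l0 θ B l| ≤ K / T).card : ℝ) ≤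
      12 * K ^ 2 * M * (A * len / R) * (B * len / R) * (6 * K * A * len / R) ^ q := by
  have hA : 0 < A := lt_of_lt_of_le hB hAB
  have hK0 : 0 < K := by linarith
  have hw : K * (len / R) + (len * T / R) * (K / T) = 2 * K * (len / R) := by
    field_simp; ring
  have hc := box_count (lam0 := K * (len / R)) (lam1 := K / T) hD hM hq hB hAB hθ
    (by positivity) (by positivity) (by positivity)
    (by
      rw [hw]
      refine hr0.trans ?_
      have h1 : 0 ≤ B * len / R := by positivity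
      have h2 : 2 * K * (len / R) * B = 2 * K * (B * len / R) := by ring
      rw [h2]
      nlinarith)
    (by
      rw [hw]
      refine le_trans (le_of_eq ?_) hR0
      ring) l
  rw [hw] at hc
  have hsub : (S.filter fun t =>
        |px l0 A len (L t) z0 - px l0 A len l z0| ≤ K / R ∧
        |py l0 θ B len (L t) z0 - py l0 θ B len l z0| ≤ K / R ∧
        |vc l0 A (L t) - vc l0 A l| ≤ K / T ∧ |vp l0 θ B (L t) - vp l0 θ B l| ≤ K / T) ⊆
      (S.filter fun t => BoxC θ A B (K * (len / R)) (pos (L t) z0 - pos l z0) ∧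
        BoxC θ A B (K / T) ((L t).2 - l.2)) := by
    intro t ht
    rw [mem_filter] at ht ⊢
    obtain ⟨htS, c1, c2, c4, c5⟩ := ht
    have e1 : px l0 A len (L t) z0 - px l0 A len l z0 = (pos (L t) z0 - pos l z0) 0 / (A * len) := by
      unfold px
      simp only [PiLp.sub_apply]
      ring
    have e2 : py l0 θ B len (L t) z0 - py l0 θ B len l z0 =
        ((pos (L t) z0 - pos l z0) 1 - θ * (pos (L t) z0 - pos l z0) 0) / (B * len) := by
      unfold py
      simp only [PiLp.sub_apply]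
      ring
    have e3 : vc l0 A (L t) - vc l0 A l = ((L t).2 - l.2) 0 / A := by
      unfold vc
      simp only [PiLp.sub_apply]
      ring
    have e4 : vp l0 θ B (L t) - vp l0 θ B l =
        (((L t).2 - l.2) 1 - θ * ((L t).2 - l.2) 0) / B := by
      unfold vp
      simp only [PiLp.sub_apply]
      ring
    rw [e1] at c1
    rw [e2] at c2
    rw [e3] at c4
    rw [e4] at c5
    set x := pos (L t) z0 - pos l z0
    set y := (L t).2 - l.2
    refine ⟨htS, ⟨?_, ?_⟩, ?_, ?_⟩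
    · rw [abs_div, abs_of_pos (by positivity : 0 < A * len), div_le_iff₀ (by positivity)] at c1
      calc |x 0| ≤ K / R * (A * len) := c1
        _ = K * (len / R) * A := by ring
    · rw [abs_div, abs_of_pos (by positivity : 0 < B * len), div_le_iff₀ (by positivity)] at c2
      calc |x 1 - θ * x 0| ≤ K / R * (B * len) := c2
        _ = K * (len / R) * B := by ring
    · rw [abs_div, abs_of_pos hA, div_le_iff₀ hA] at c4
      exact c4
    · rw [abs_div, abs_of_pos hB, div_le_iff₀ hB] at c5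
      exact c5
  have hcard : ((S.filter fun t =>
        |px l0 A len (L t) z0 - px l0 A len l z0| ≤ K / R ∧
        |py l0 θ B len (L t) z0 - py l0 θ B len l z0| ≤ K / R ∧
        |vc l0 A (L t) - vc l0 A l| ≤ K / T ∧ |vp l0 θ B (L t) - vp l0 θ B l| ≤ K / T).card : ℝ) ≤
      ((S.filter fun t => BoxC θ A B (K * (len / R)) (pos (L t) z0 - pos l z0) ∧
        BoxC θ A B (K / T) ((L t).2 - l.2)).card : ℝ) := by
    exact_mod_cast card_le_card hsub
  refine hcard.trans (hc.trans (le_of_eq ?_))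
  have e6 : 2 * K * (len / R) * (3 * A) = 6 * K * A * len / R := by ring
  rw [e6]
  ring

/-- lines of the affine box have normalised velocities in `[-1, 1]`. -/
theorem vc_le {l0 t : Ln} {A : ℝ} (hA : 0 < A) (h : |(t.2 - l0.2) 0| ≤ A) : |vc l0 A t| ≤ 1 := by
  unfold vc
  rw [abs_div, abs_of_pos hA]
  exact (div_le_one hA).2 h

theorem vp_le {l0 t : Ln} {θ B : ℝ} (hB : 0 < B) (h : |(t.2 - l0.2) 1 - θ * (t.2 - l0.2) 0| ≤ B) :
    |vp l0 θ B t| ≤ 1 := by
  unfold vp
  rw [abs_div, abs_of_pos hB]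
  exact (div_le_one hB).2 h

/-- a plank of the level `z0, ρ` in the frame of slope `θ`: its lines are close in the normalised
coordinates (`(rich)` of 861's Lemma A): for the frame `e = (-θ, 1)/√(1+θ²)`, widths `a1, a2`. -/
theorem norm_of_inPlank {l0 t l : Ln} {e : E2} {a1 a2 z0 ρ θ A B len g : ℝ} (hρ : 0 ≤ ρ)
    (h : InPlank t l e a1 a2 z0 ρ) (hg : 0 < g) (hg2 : g ^ 2 = 1 + θ ^ 2)
    (he0 : e 0 = -θ / g) (he1 : e 1 = 1 / g) (hA : 0 < A) (hB : 0 < B) (hlen : 0 < len)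
    (hθ : |θ| ≤ 1) (ha1 : 0 ≤ a1) :
    |px l0 A len t z0 - px l0 A len l z0| ≤ (a1 + a2) / (A * len) ∧
      |py l0 θ B len t z0 - py l0 θ B len l z0| ≤ 2 * a1 / (B * len) := by
  have hθ2 : θ ^ 2 ≤ 1 := by rw [← sq_abs]; nlinarith [abs_nonneg θ]
  have hg1 : 1 ≤ g := by nlinarith [sq_nonneg θ]
  have hg3 : g ≤ 2 := by nlinarith
  obtain ⟨h1, h2⟩ := h z0 (by simpa using hρ)
  have e1 : px l0 A len t z0 - px l0 A len l z0 = (pos t z0 - pos l z0) 0 / (A * len) := by
    unfold px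
    simp only [PiLp.sub_apply]
    ring
  have e2 : py l0 θ B len t z0 - py l0 θ B len l z0 =
      ((pos t z0 - pos l z0) 1 - θ * (pos t z0 - pos l z0) 0) / (B * len) := by
    unfold py
    simp only [PiLp.sub_apply]
    ring
  set x := pos t z0 - pos l z0
  have d1 : dt x e = (x 1 - θ * x 0) / g := by
    unfold dt; rw [he0, he1]; field_simp; ring
  have d2 : cr e x = -(θ * x 1 + x 0) / g := by
    unfold cr; rw [he0, he1]; field_simp; ring
  rw [d1, abs_div, abs_of_pos hg, div_le_iff₀ hg] at h1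
  rw [d2, abs_div, abs_neg, abs_of_pos hg, div_le_iff₀ hg] at h2
  rw [e1, e2, abs_div, abs_div, abs_of_pos (by positivity : 0 < A * len),
    abs_of_pos (by positivity : 0 < B * len)]
  constructor
  · apply div_le_div_of_nonneg_right _ (by positivity)
    -- `g² x0 = (θ x1 + x0) - θ (x1 - θ x0)`
    have h3 : g ^ 2 * x 0 = (θ * x 1 + x 0) - θ * (x 1 - θ * x 0) := by rw [hg2]; ring
    have h4 : |g ^ 2 * x 0| ≤ |θ * x 1 + x 0| + |x 1 - θ * x 0| := by
      rw [h3]
      refine (abs_sub _ _).trans ?_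
      rw [abs_mul θ]
      have := mul_le_of_le_one_left (abs_nonneg (x 1 - θ * x 0)) hθ
      linarith
    rw [abs_mul, abs_of_nonneg (sq_nonneg g)] at h4
    have h5 : g ^ 2 * |x 0| ≤ (a1 + a2) * g := by linarith
    have h6 : g * (g * |x 0|) ≤ g * (a1 + a2) := by nlinarith
    have h7 : g * |x 0| ≤ a1 + a2 := le_of_mul_le_mul_left h6 hg
    have h8 : |x 0| ≤ g * |x 0| := le_mul_of_one_le_left (abs_nonneg _) hg1
    linarith
  · apply div_le_div_of_nonneg_right _ (by positivity)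
    nlinarith

end

end Crest.Agent.R138.LmA2
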