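import Crest.Agent.R138.LmA2_861

/-!
# R138, LEMMA A, final finite statement (helper861)

`lemmaA`: rich balls force one of three inequalities.
-/

set_option autoImplicit false
set_option linter.unusedVariables false
set_option linter.unusedSectionVars false

namespace Crest.Agent.R138.LmA861

open Finset Crest.Agent.R138.MK877 Crest.Agent.R138.Ex926

/-- the slab set of an incidence -/
noncomputable def Slab {ι : Type} (I : Finset (ι × ℤ)) (a b c d : ι → ℝ) (H : ℕ) (R : ℝ)
    (n : ℝ × ℝ) (x : ι × ℤ) : Finset (ι × ℤ) :=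
  I.filter fun y => |(y.2 : ℝ) - x.2| ≤ H ∧
        |pos a c R y.1 x.2 - pos a c R x.1 x.2| ≤ 3 * H / R ∧
        |pos b d R y.1 x.2 - pos b d R x.1 x.2| ≤ 3 * H / R ∧
        |n.1 * (pos a c R y.1 x.2 - pos a c R x.1 x.2) +
          n.2 * (pos b d R y.1 x.2 - pos b d R x.1 x.2)| ≤ 4 / R ∧
        |n.1 * (c y.1 - c x.1) + n.2 * (d y.1 - d x.1)| ≤ 2 / H

/-- the ball of an incidence -/
noncomputable def Ball {ι : Type} (I : Finset (ι × ℤ)) (a b c d : ι → ℝ) (R : ℝ)
    (x : ι × ℤ) : Finset (ι × ℤ) :=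
  I.filter fun y => y.2 = x.2 ∧ |pos a c R y.1 y.2 - pos a c R x.1 x.2| ≤ 1 / R ∧
    |pos b d R y.1 y.2 - pos b d R x.1 x.2| ≤ 1 / R

/-- the tube of an incidence -/
noncomputable def Tube {ι : Type} (I : Finset (ι × ℤ)) (a b c d : ι → ℝ) (R T : ℝ)
    (x : ι × ℤ) : Finset (ι × ℤ) :=
  I.filter fun y => y.2 = x.2 ∧ |pos a c R y.1 y.2 - pos a c R x.1 x.2| ≤ 1 / R ∧
    |pos b d R y.1 y.2 - pos b d R x.1 x.2| ≤ 1 / R ∧
    |c y.1 - c x.1| ≤ 1 / T ∧ |d y.1 - d x.1| ≤ 1 / T

/-- **LEMMA A, finite form.** -/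
theorem lemmaA (ε : ℝ) (hε : 0 < ε) : ∃ C : ℝ, 0 < C ∧
    ∀ {ι : Type} [DecidableEq ι] (I : Finset (ι × ℤ)) (a b c d : ι → ℝ) (H : ℕ) (R' R T : ℝ)
      (h0 h1 h2 m NS NT : ℝ), I.Nonempty → 0 < H → 1 ≤ R' → R = H * R' → 1 ≤ T →
      0 < h0 → 0 < h1 → 0 < m →
      (∀ x ∈ I, |(x.2 : ℝ)| ≤ R ∧ |pos a c R x.1 x.2| ≤ 1 ∧ |pos b d R x.1 x.2| ≤ 1 ∧
        |c x.1| ≤ 1 ∧ |d x.1| ≤ 1) →
      (∀ x ∈ I, h0 ≤ ((I.filter fun y => y.1 = x.1).card : ℝ)) →
      (∀ x ∈ I, h1 ≤ ((I.filter fun y => y.1 = x.1 ∧ y.2 / (H : ℤ) = x.2 / (H : ℤ)).card : ℝ)) →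
      (∀ x ∈ I, ((I.filter fun y => y.1 = x.1 ∧ y.2 / (H : ℤ) = x.2 / (H : ℤ)).card : ℝ) ≤ h2) →
      (∀ x ∈ I, m ≤ ((Ball I a b c d R x).card : ℝ)) →
      (∀ x ∈ I, ∀ n : ℝ × ℝ, n.1 ^ 2 + n.2 ^ 2 = 1 →
        (((Slab I a b c d H R n x).image Prod.fst).card : ℝ) ≤ NS) →
      (∀ x ∈ I, ((Tube I a b c d R T x).card : ℝ) ≤ NT) →
      m * h0 ^ 2 ≤ C * h2 ^ 2 * (H : ℝ) ^ 52 * (R' ^ ε) ^ 2 * ((I.image Prod.fst).card : ℝ) ∨
      m * h1 ^ 3 ≤ C * h2 ^ 2 * T * NS ∨ m * h1 ≤ C * h2 * NT := by
  obtain ⟨C, hC, keyA⟩ := caseA ε hε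
  refine ⟨(24 * C) ^ 2 + 10 ^ 9, by positivity, ?_⟩
  intro ι _ I a b c d H R' R T h0 h1 h2 m NS NT hI hH hR' hRH hT hh0 hh1 hm hbd hown hw1 hw2 hrich
    hslab htube
  classical
  have hH0 : (0 : ℝ) < H := by exact_mod_cast hH
  have hH1 : (1 : ℝ) ≤ H := by exact_mod_cast hH
  have hR : 0 < R := by rw [hRH]; positivity
  have hHz : (0 : ℤ) < H := by exact_mod_cast hH
  have hIc : (0 : ℝ) < I.card := by exact_mod_cast hI.card_pos
  set cl := cell a b c d R with hcl
  set K : ι × ℤ → Fin 3 → ℤ := fun x => big H (cl x) with hK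
  have hh12 : h1 ≤ h2 := by
    obtain ⟨x, hx⟩ := hI
    exact (hw1 x hx).trans (hw2 x hx)
  have hh2 : 0 < h2 := lt_of_lt_of_le hh1 hh12
  -- class counts
  have hc1 : m * ((I.image cl).card : ℝ) ≤ 9 * (I.card : ℝ) := cells_le a b c d R hR I hrich
  have hc2 : h1 * ((I.image fun x => (x.1, K x)).card : ℝ) ≤ 9 * (I.card : ℝ) := by
    have e1 := lineK_le a b c d R hH hR I fun x hx => ⟨(hbd x hx).2.2.2.1, (hbd x hx).2.2.2.2⟩
    have e2 : h1 * ((I.image fun x => (x.1, x.2 / (H : ℤ))).card : ℝ) ≤ (I.card : ℝ) := by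
      refine mul_image_le_card I _ fun x hx => ?_
      refine (hw1 x hx).trans (le_of_eq ?_)
      congr 2
      ext y
      simp [Prod.ext_iff]
    calc h1 * ((I.image fun x => (x.1, K x)).card : ℝ) ≤
        h1 * (9 * ((I.image fun x => (x.1, x.2 / (H : ℤ))).card : ℝ)) :=
          mul_le_mul_of_nonneg_left e1 hh1.le
      _ = 9 * (h1 * ((I.image fun x => (x.1, x.2 / (H : ℤ))).card : ℝ)) := by ring
      _ ≤ _ := by linarith
  -- first pruning
  obtain ⟨J, hJI, hJc, hJ1, hJ2⟩ := prune2 I cl (fun x => (x.1, K x)) (μ := m / 36) (ν := h1 / 36)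
    (by positivity) (by positivity) (by linarith)
  have hJpos : (0 : ℝ) < J.card := by linarith
  -- narrow cells
  set Nar : (Fin 3 → ℤ) → Prop := fun k => ∃ un : (ℝ × ℝ) × (ℝ × ℝ),
    un.2.1 ^ 2 + un.2.2 ^ 2 = 1 ∧ ((FK J K k).card : ℝ) / 2 <
      (((FK J K k).filter fun l => |(c l - un.1.1) * un.2.1 + (d l - un.1.2) * un.2.2| ≤ 1 / H).card
        : ℝ) with hNar
  set A := J.filter fun x => ¬ Nar (K x) with hA
  set B := J.filter fun x => Nar (K x) with hB
  have hAB : (B.card : ℝ) + A.card = J.card := by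
    have := card_filter_add_card_filter_not (s := J) (fun x => Nar (K x))
    exact_mod_cast this
  -- lines in a coarse cell
  have hFKlow : ∀ x ∈ J, m / 36 ≤ ((FK J K (K x)).card : ℝ) := by
    intro x hx
    refine (hJ1 x hx).trans ?_
    have e1 : (J.filter fun y => cl y = cl x).card =
        ((J.filter fun y => cl y = cl x).image Prod.fst).card := by
      symm
      apply card_image_of_injOn
      intro y hy y' hy' he
      simp only [coe_filter, Set.mem_ofPred_eq] at hy hy'
      have e2 := congrArg Prod.fst (hy.2.trans hy'.2.symm)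
      exact Prod.ext he e2
    rw [e1]
    have e3 : (J.filter fun y => cl y = cl x).image Prod.fst ⊆ FK J K (K x) := by
      intro l hl
      obtain ⟨y, hy, rfl⟩ := mem_image.1 hl
      rw [mem_filter] at hy
      exact mem_FK.2 ⟨y, hy.1, by simp only [hK, hy.2], rfl⟩
    exact_mod_cast card_le_card e3
  have hw2J : ∀ x ∈ J, ((J.filter fun y => y.1 = x.1 ∧ y.2 / (H : ℤ) = x.2 / (H : ℤ)).card : ℝ) ≤
      h2 := by
    intro x hx
    refine le_trans ?_ (hw2 x (hJI hx))
    exact_mod_cast card_le_card (filter_subset_filter _ hJI)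
  rcases le_or_gt ((J.card : ℝ) / 2) (A.card : ℝ) with hcase | hcase
  · -- CASE A
    left
    have hmain := keyA J A a b c d H R' R h2 (m / 36) (filter_subset _ _) hH hR' hRH hh2.le
      (by positivity) (fun x hx => hbd x (hJI hx)) hw2J
      (fun x hx => hFKlow x (filter_subset _ _ hx))
      (by
        intro x hx u n hn
        rw [hA, mem_filter] at hx
        by_contra hcon
        exact hx.2 ⟨(u, n), hn, not_le.1 hcon⟩)
    set L : ℝ := ((I.image Prod.fst).card : ℝ) with hL
    have hL1 : ((J.image Prod.fst).card : ℝ) ≤ L := by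
      rw [hL]
      exact_mod_cast card_le_card (image_subset_image hJI)
    have hL2 : h0 * L ≤ I.card := by
      refine mul_image_le_card I _ fun x hx => ?_
      exact hown x hx
    have hLpos : 0 < L := by
      have : 0 < (I.image Prod.fst).card := card_pos.2 (hI.image _)
      rw [hL]
      exact_mod_cast this
    set X : ℝ := C * (H : ℝ) ^ 26 * R' ^ ε with hX
    have hR'0 : 0 < R' := by linarith
    have hX0 : 0 < X := by positivity
    have e1 : h0 * L / 4 ≤ A.card := by linarith
    have e2 : h0 * L / 4 * √(m / 36) ≤ h2 * (X * √L ^ 3) := by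
      refine (mul_le_mul_of_nonneg_right e1 (Real.sqrt_nonneg _)).trans (hmain.trans ?_)
      gcongr
    have hsL : √L ^ 2 = L := Real.sq_sqrt hLpos.le
    have hsL0 : 0 < √L := Real.sqrt_pos.2 hLpos
    have e3 : h0 * √(m / 36) ≤ 4 * h2 * X * √L := by
      have : L * (h0 * √(m / 36)) ≤ L * (4 * h2 * X * √L) := by
        calc L * (h0 * √(m / 36)) = 4 * (h0 * L / 4 * √(m / 36)) := by ring
          _ ≤ 4 * (h2 * (X * √L ^ 3)) := by linarith
          _ = 4 * h2 * X * √L * √L ^ 2 := by ring
          _ = _ := by rw [hsL]; ring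
      exact le_of_mul_le_mul_left this hLpos
    have e4 : h0 ^ 2 * (m / 36) ≤ 16 * h2 ^ 2 * X ^ 2 * L := by
      have h5 := pow_le_pow_left₀ (by positivity) e3 2
      have h6 : (h0 * √(m / 36)) ^ 2 = h0 ^ 2 * (m / 36) := by
        rw [mul_pow, Real.sq_sqrt (by positivity)]
      have h7 : (4 * h2 * X * √L) ^ 2 = 16 * h2 ^ 2 * X ^ 2 * L := by
        rw [mul_pow, hsL]; ring
      linarith
    have e5 : m * h0 ^ 2 ≤ (24 * C) ^ 2 * (h2 ^ 2 * (H : ℝ) ^ 52 * (R' ^ ε) ^ 2 * L) := by
      have : 16 * h2 ^ 2 * X ^ 2 * L * 36 =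
          (24 * C) ^ 2 * (h2 ^ 2 * (H : ℝ) ^ 52 * (R' ^ ε) ^ 2 * L) := by
        rw [hX]; ring
      linarith
    have e6 : 0 ≤ h2 ^ 2 * (H : ℝ) ^ 52 * (R' ^ ε) ^ 2 * L := by positivity
    calc m * h0 ^ 2 ≤ (24 * C) ^ 2 * (h2 ^ 2 * (H : ℝ) ^ 52 * (R' ^ ε) ^ 2 * L) := e5
      _ ≤ ((24 * C) ^ 2 + 10 ^ 9) * (h2 ^ 2 * (H : ℝ) ^ 52 * (R' ^ ε) ^ 2 * L) :=
          mul_le_mul_of_nonneg_right (by linarith) e6
      _ = _ := by ring
  · -- CASE B
    right
    have hBc : (J.card : ℝ) / 2 ≤ B.card := by linarith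
    have hBpos : (0 : ℝ) < B.card := by linarith
    -- strips
    set un : (Fin 3 → ℤ) → (ℝ × ℝ) × (ℝ × ℝ) := fun k =>
      if h : Nar k then h.choose else ((0, 0), (1, 0)) with hun
    have hunit : ∀ k, (un k).2.1 ^ 2 + (un k).2.2 ^ 2 = 1 := by
      intro k
      simp only [hun]
      split_ifs with h
      · exact h.choose_spec.1
      · norm_num
    have hmaj : ∀ k, Nar k → ((FK J K k).card : ℝ) / 2 <
      (((FK J K k).filter fun l =>
        |(c l - (un k).1.1) * (un k).2.1 + (d l - (un k).1.2) * (un k).2.2| ≤ 1 / H).card : ℝ) := by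
      intro k h
      have := h.choose_spec.2
      simp only [hun, dif_pos h]
      exact this
    set J1 := B.filter fun x => |(c x.1 - (un (K x)).1.1) * (un (K x)).2.1 +
      (d x.1 - (un (K x)).1.2) * (un (K x)).2.2| ≤ 1 / H with hJ1d
    have hJ1B : J1 ⊆ B := filter_subset _ _
    have hBJ : B ⊆ J := filter_subset _ _
    -- size of J1
    have hJ1c : h1 / 36 * (B.card : ℝ) ≤ 2 * h2 * J1.card := by
      have s1 : B.card = ∑ k ∈ B.image K, (B.filter fun y => K y = k).card :=
        card_eq_sum_card_image K B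
      have s2 : ∑ k ∈ B.image K, (J1.filter fun y => K y = k).card ≤ J1.card := by
        have s3 : J1.card = ∑ k ∈ J1.image K, (J1.filter fun y => K y = k).card :=
          card_eq_sum_card_image K J1
        have s4 : ∑ k ∈ B.image K, (J1.filter fun y => K y = k).card =
            ∑ k ∈ J1.image K, (J1.filter fun y => K y = k).card := by
          symm
          refine sum_subset (image_subset_image hJ1B) ?_
          intro k _ hk
          rw [card_eq_zero, filter_eq_empty_iff]
          intro y hy he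
          exact hk (mem_image.2 ⟨y, hy, he⟩)
        rw [s4, ← s3]
      have s5 : ∀ k ∈ B.image K, h1 / 36 * ((B.filter fun y => K y = k).card : ℝ) ≤
          2 * h2 * ((J1.filter fun y => K y = k).card : ℝ) := by
        intro k hk
        obtain ⟨x, hx, rfl⟩ := mem_image.1 hk
        have hNx : Nar (K x) := by rw [hB, mem_filter] at hx; exact hx.2
        have t1 : ((B.filter fun y => K y = K x).card : ℝ) ≤ h2 * ((FK J K (K x)).card : ℝ) := by
          refine le_trans ?_ (inc_le_FK a b c d R hw2J (K x))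
          exact_mod_cast card_le_card (filter_subset_filter _ hBJ)
        have t2 := hmaj (K x) hNx
        have t3 : h1 / 36 * (((FK J K (K x)).filter fun l =>
            |(c l - (un (K x)).1.1) * (un (K x)).2.1 +
              (d l - (un (K x)).1.2) * (un (K x)).2.2| ≤ 1 / H).card : ℝ) ≤
            ((J1.filter fun y => K y = K x).card : ℝ) := by
          have t4 : ((FK J K (K x)).filter fun l =>
            |(c l - (un (K x)).1.1) * (un (K x)).2.1 +
              (d l - (un (K x)).1.2) * (un (K x)).2.2| ≤ 1 / H) ⊆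
              (J1.filter fun y => K y = K x).image Prod.fst := by
            intro l hl
            rw [mem_filter] at hl
            obtain ⟨y, hy, hyK, rfl⟩ := mem_FK.1 hl.1
            rw [mem_image]
            refine ⟨y, ?_, rfl⟩
            rw [mem_filter, hJ1d, mem_filter, hB, mem_filter]
            refine ⟨⟨⟨hy, ?_⟩, ?_⟩, hyK⟩
            · rw [hyK]; exact hNx
            · rw [hyK]; exact hl.2
          have t5 : h1 / 36 * (((J1.filter fun y => K y = K x).image Prod.fst).card : ℝ) ≤
              ((J1.filter fun y => K y = K x).card : ℝ) := by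
            refine mul_image_le_card _ _ fun y hy => ?_
            rw [mem_filter] at hy
            have hyJ : y ∈ J := hBJ (hJ1B hy.1)
            refine (hJ2 y hyJ).trans ?_
            have : (J.filter fun z => (z.1, K z) = (y.1, K y)) ⊆
                (J1.filter fun z => K z = K x).filter fun z => z.1 = y.1 := by
              intro z hz
              rw [mem_filter, Prod.mk.injEq] at hz
              obtain ⟨hz1, hz2, hz3⟩ := hz
              rw [mem_filter, mem_filter, hJ1d, mem_filter, hB, mem_filter]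
              have hy' := hy.1
              rw [hJ1d, mem_filter, hB, mem_filter] at hy'
              refine ⟨⟨⟨⟨hz1, ?_⟩, ?_⟩, hz3.trans hy.2⟩, hz2⟩
              · rw [hz3]; exact hy'.1.2
              · rw [hz3, hz2]; exact hy'.2
            exact_mod_cast card_le_card this
          have t6 : (((FK J K (K x)).filter fun l =>
            |(c l - (un (K x)).1.1) * (un (K x)).2.1 +
              (d l - (un (K x)).1.2) * (un (K x)).2.2| ≤ 1 / H).card : ℝ) ≤
              (((J1.filter fun y => K y = K x).image Prod.fst).card : ℝ) := by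
            exact_mod_cast card_le_card t4
          exact (mul_le_mul_of_nonneg_left t6 (by positivity)).trans t5
        calc h1 / 36 * ((B.filter fun y => K y = K x).card : ℝ) ≤
            h1 / 36 * (h2 * ((FK J K (K x)).card : ℝ)) :=
              mul_le_mul_of_nonneg_left t1 (by positivity)
          _ = 2 * h2 * (h1 / 36 * (((FK J K (K x)).card : ℝ) / 2)) := by ring
          _ ≤ 2 * h2 * (h1 / 36 * (((FK J K (K x)).filter fun l =>
            |(c l - (un (K x)).1.1) * (un (K x)).2.1 +
              (d l - (un (K x)).1.2) * (un (K x)).2.2| ≤ 1 / H).card : ℝ)) := by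
              gcongr
          _ ≤ _ := mul_le_mul_of_nonneg_left t3 (by positivity)
      calc h1 / 36 * (B.card : ℝ) = ∑ k ∈ B.image K, h1 / 36 * ((B.filter fun y => K y = k).card : ℝ) := by
            rw [s1]; push_cast; rw [mul_sum]
        _ ≤ ∑ k ∈ B.image K, 2 * h2 * ((J1.filter fun y => K y = k).card : ℝ) := sum_le_sum s5
        _ = 2 * h2 * ((∑ k ∈ B.image K, (J1.filter fun y => K y = k).card : ℕ) : ℝ) := by
            push_cast; rw [mul_sum]
        _ ≤ 2 * h2 * J1.card := by
            have : ((∑ k ∈ B.image K, (J1.filter fun y => K y = k).card : ℕ) : ℝ) ≤ J1.card := by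
              exact_mod_cast s2
            exact mul_le_mul_of_nonneg_left this (by positivity)
    -- second pruning
    set lam : ℝ := h1 / (288 * h2) with hlam
    have hlam0 : 0 < lam := by positivity
    have hJ1I : lam * I.card ≤ J1.card := by
      have e1 : (I.card : ℝ) ≤ 4 * B.card := by linarith
      have e2 : h1 / 36 * (I.card : ℝ) ≤ 8 * h2 * J1.card := by
        calc h1 / 36 * (I.card : ℝ) ≤ h1 / 36 * (4 * B.card) := by gcongr
          _ = 4 * (h1 / 36 * B.card) := by ring
          _ ≤ 4 * (2 * h2 * J1.card) := by linarith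
          _ = _ := by ring
      have e3 : lam * (I.card : ℝ) * (8 * h2) = h1 / 36 * I.card := by
        rw [hlam]; field_simp; norm_num
      have e4 : lam * (I.card : ℝ) * (8 * h2) ≤ J1.card * (8 * h2) := by
        rw [e3]; linarith
      exact le_of_mul_le_mul_right e4 (by positivity)
    have hJ1II : J1 ⊆ I := hJ1B.trans (hBJ.trans hJI)
    obtain ⟨J3, hJ31, hJ3c, hJ3a, hJ3b⟩ := prune2 J1 cl (fun x => (x.1, K x))
      (μ := lam * m / 36) (ν := lam * h1 / 36) (by positivity) (by positivity) (by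
        have e1 : ((J1.image cl).card : ℝ) ≤ ((I.image cl).card : ℝ) := by
          exact_mod_cast card_le_card (image_subset_image hJ1II)
        have e2 : ((J1.image fun x => (x.1, K x)).card : ℝ) ≤
            ((I.image fun x => (x.1, K x)).card : ℝ) := by
          exact_mod_cast card_le_card (image_subset_image hJ1II)
        calc lam * m / 36 * ((J1.image cl).card : ℝ) +
              lam * h1 / 36 * ((J1.image fun x => (x.1, K x)).card : ℝ) ≤
            lam * m / 36 * ((I.image cl).card : ℝ) +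
              lam * h1 / 36 * ((I.image fun x => (x.1, K x)).card : ℝ) := by gcongr
          _ = lam / 36 * (m * ((I.image cl).card : ℝ)) +
              lam / 36 * (h1 * ((I.image fun x => (x.1, K x)).card : ℝ)) := by ring
          _ ≤ lam / 36 * (9 * I.card) + lam / 36 * (9 * I.card) := by gcongr
          _ = lam * I.card / 2 := by ring
          _ ≤ J1.card / 2 := by linarith)
    have hJ1pos : (0 : ℝ) < J1.card := lt_of_lt_of_le (by positivity) hJ1I
    have hJ3n : J3.Nonempty := by
      rw [← card_pos]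
      have : (0 : ℝ) < J3.card := by linarith
      exact_mod_cast this
    rcases le_or_gt NT (lam * m / 36 / 2) with hNT | hNT
    · left
      have hmain := pairs_count a b c d R hH hR hT I J3 (hJ31.trans hJ1II) hJ3n
        (θ := lam * m / 36) (θ' := lam * h1 / 36) (NS := NS) (NT := NT) (by positivity)
        (by positivity) (fun x hx => ⟨(hbd x hx).2.2.2.1, (hbd x hx).2.2.2.2⟩)
        (fun k => (un k).1) (fun k => (un k).2) hunit
        (fun x hx => by
          have := hJ31 hx
          rw [hJ1d, mem_filter] at this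
          exact this.2) hJ3a hJ3b hslab htube hNT
      have hNS : 0 ≤ NS := by
        obtain ⟨x, hx⟩ := hI
        exact le_trans (Nat.cast_nonneg _) (hslab x hx (1, 0) (by norm_num))
      have e1 : 2 * (2 * T + 1) * NS ≤ 6 * T * NS := by nlinarith
      have e2 : lam * m / 36 * (lam * h1 / 36) * (107495424 * h2 ^ 2) = m * h1 ^ 3 := by
        rw [hlam]; field_simp; norm_num
      have e3 : m * h1 ^ 3 ≤ 6 * T * NS * (107495424 * h2 ^ 2) := by
        rw [← e2]
        exact mul_le_mul_of_nonneg_right (hmain.trans e1) (by positivity)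
      have e4 : 0 ≤ h2 ^ 2 * T * NS := by positivity
      calc m * h1 ^ 3 ≤ 644972544 * (h2 ^ 2 * T * NS) := by linarith
        _ ≤ ((24 * C) ^ 2 + 10 ^ 9) * (h2 ^ 2 * T * NS) := by
            refine mul_le_mul_of_nonneg_right ?_ e4
            nlinarith [sq_nonneg (24 * C)]
        _ = _ := by ring
    · right
      have hNT0 : 0 < NT := lt_trans (by positivity) hNT
      have e2 : lam * m / 36 / 2 * (20736 * h2) = m * h1 := by
        rw [hlam]; field_simp; norm_num
      have e3 : m * h1 ≤ NT * (20736 * h2) := by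
        rw [← e2]
        exact mul_le_mul_of_nonneg_right hNT.le (by positivity)
      have e4 : 0 ≤ h2 * NT := by positivity
      calc m * h1 ≤ 20736 * (h2 * NT) := by linarith
        _ ≤ ((24 * C) ^ 2 + 10 ^ 9) * (h2 * NT) := by
            refine mul_le_mul_of_nonneg_right ?_ e4
            nlinarith [sq_nonneg (24 * C)]
        _ = _ := by ring

end Crest.Agent.R138.LmA861
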