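import Crest.Agent.R138.LmA3_861

/-!
# R138, LEMMA A, exponent form (helper861)

`lemmaA_exp`: for `2 s < c` there are `η, τ, ε₀ > 0` such that, for large `R = e^ℓ`, no configuration in
the normalised cube has own profile `1 - s`, D-max `c` for slabs and tubes, and rich balls.
-/

set_option autoImplicit false
set_option linter.unusedVariables false
set_option linter.unusedSectionVars false

namespace Crest.Agent.R138.LmA861

open Finset Crest.Agent.R138.MK877 Crest.Agent.R138.Ex926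

theorem lemmaA_exp {s c' : ℝ} (hs : 0 ≤ s) (hs1 : s ≤ 1) (hsc : 2 * s < c') :
    ∃ η τ ε₀ ℓ₀ : ℝ, 0 < η ∧ η < 1 ∧ 0 < τ ∧ τ < 1 ∧ 0 < ε₀ ∧ 0 < ℓ₀ ∧
    ∀ {ι : Type} [DecidableEq ι] (I : Finset (ι × ℤ)) (a b c d : ι → ℝ) (H : ℕ)
      (R ℓ n₀ h t : ℝ), I.Nonempty → 0 < H → ℓ₀ ≤ ℓ → R = Real.exp ℓ → (H : ℝ) = Real.exp h →
      η / 2 * ℓ ≤ h → h ≤ η * ℓ → τ / 2 * ℓ ≤ t → t ≤ τ * ℓ →
      (∀ x ∈ I, |(x.2 : ℝ)| ≤ R ∧ |pos a c R x.1 x.2| ≤ 1 ∧ |pos b d R x.1 x.2| ≤ 1 ∧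
        |c x.1| ≤ 1 ∧ |d x.1| ≤ 1) →
      (∀ x ∈ I, Real.exp ((1 - s) * ℓ - ε₀ * ℓ) ≤ ((I.filter fun y => y.1 = x.1).card : ℝ)) →
      (∀ x ∈ I, Real.exp ((1 - s) * h - ε₀ * ℓ) ≤
        ((I.filter fun y => y.1 = x.1 ∧ y.2 / (H : ℤ) = x.2 / (H : ℤ)).card : ℝ)) →
      (∀ x ∈ I, ((I.filter fun y => y.1 = x.1 ∧ y.2 / (H : ℤ) = x.2 / (H : ℤ)).card : ℝ) ≤
        Real.exp ((1 - s) * h + ε₀ * ℓ)) →
      (∀ x ∈ I, Real.exp (n₀ - (2 - c') * ℓ - ε₀ * ℓ) ≤ ((Ball I a b c d R x).card : ℝ)) →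
      (∀ x ∈ I, ∀ n : ℝ × ℝ, n.1 ^ 2 + n.2 ^ 2 = 1 →
        (((Slab I a b c d H R n x).image Prod.fst).card : ℝ) ≤
          Real.exp (n₀ - (2 - c') * (ℓ - h) - h + ε₀ * ℓ)) →
      (∀ x ∈ I, ((Tube I a b c d R (Real.exp t) x).card : ℝ) ≤
        Real.exp (n₀ - (2 - c') * ℓ - c' * t + ε₀ * ℓ)) →
      ((I.image Prod.fst).card : ℝ) ≤ Real.exp (n₀ + ε₀ * ℓ) → False := by
  set γ : ℝ := min (c' - 2 * s) 1 with hγ
  have hγ0 : 0 < γ := lt_min (by linarith) one_pos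
  have hγ1 : γ ≤ 1 := min_le_right _ _
  have hγg : γ ≤ c' - 2 * s := min_le_left _ _
  obtain ⟨C, hC, key⟩ := lemmaA (γ / 16) (by positivity)
  set η : ℝ := γ / 216 with hη
  set τ : ℝ := η * γ / 8 with hτ
  set ε₀ : ℝ := τ * γ / 16 with hε₀
  have hη0 : 0 < η := by positivity
  have hτ0 : 0 < τ := by positivity
  have hε0 : 0 < ε₀ := by positivity
  have hη1 : η ≤ 1 / 216 := by rw [hη]; linarith
  have hτη : τ ≤ η / 8 := by
    rw [hτ]; nlinarith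
  have hε1 : ε₀ ≤ τ / 16 := by
    rw [hε₀]; nlinarith
  refine ⟨η, τ, ε₀, (Real.log C ⊔ 0) / ε₀ + 1, hη0, by linarith, hτ0, by linarith, hε0,
    by positivity, ?_⟩
  intro ι _ I a b c d H R ℓ n₀ h t hI hH hℓ hR hHh hh1 hh2 ht1 ht2 hbd hown hw1 hw2 hrich hslab
    htube hL
  have hℓ0 : 0 < ℓ := lt_of_lt_of_le (by positivity) hℓ
  have hCℓ : Real.log C < ε₀ * ℓ := by
    have h1 : (Real.log C ⊔ 0) / ε₀ < ℓ := by linarith
    rw [div_lt_iff₀ hε0] at h1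
    have := le_max_left (Real.log C) 0
    linarith
  have hCexp : C < Real.exp (ε₀ * ℓ) := by
    rw [← Real.log_lt_iff_lt_exp hC]; exact hCℓ
  have hhℓ : h ≤ ℓ := by nlinarith
  have hR' : (1 : ℝ) ≤ Real.exp (ℓ - h) := Real.one_le_exp (by linarith)
  have hRR : R = H * Real.exp (ℓ - h) := by
    rw [hR, hHh, ← Real.exp_add]; congr 1; ring
  have ht0 : 0 ≤ t := le_trans (by positivity) ht1
  have hT : (1 : ℝ) ≤ Real.exp t := Real.one_le_exp ht0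
  rcases key I a b c d H (Real.exp (ℓ - h)) R (Real.exp t) _ _ _ _ _ _ hI hH hR' hRR hT
    (Real.exp_pos _) (Real.exp_pos _) (Real.exp_pos _) hbd hown hw1 hw2 hrich hslab htube with
    hA | hB | hC'
  · -- (A)
    have e1 : (H : ℝ) ^ 52 = Real.exp (52 * h) := by
      rw [hHh, ← Real.exp_nat_mul]; norm_num
    have e2 : (Real.exp (ℓ - h) ^ (γ / 16)) ^ 2 = Real.exp (2 * ((ℓ - h) * (γ / 16))) := by
      rw [← Real.exp_mul, ← Real.exp_nat_mul]; norm_num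
    rw [e1, e2] at hA
    have e3 : Real.exp (n₀ - (2 - c') * ℓ - ε₀ * ℓ) * Real.exp ((1 - s) * ℓ - ε₀ * ℓ) ^ 2 ≤
        Real.exp (ε₀ * ℓ) * Real.exp ((1 - s) * h + ε₀ * ℓ) ^ 2 * Real.exp (52 * h) *
          Real.exp (2 * ((ℓ - h) * (γ / 16))) * Real.exp (n₀ + ε₀ * ℓ) := by
      refine hA.trans ?_
      gcongr
    have e4 : Real.exp (n₀ - (2 - c') * ℓ - ε₀ * ℓ) * Real.exp ((1 - s) * ℓ - ε₀ * ℓ) ^ 2 =
        Real.exp (n₀ - (2 - c') * ℓ - ε₀ * ℓ + 2 * ((1 - s) * ℓ - ε₀ * ℓ)) := by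
      rw [← Real.exp_nat_mul, ← Real.exp_add]; norm_num
    have e5 : Real.exp (ε₀ * ℓ) * Real.exp ((1 - s) * h + ε₀ * ℓ) ^ 2 * Real.exp (52 * h) *
          Real.exp (2 * ((ℓ - h) * (γ / 16))) * Real.exp (n₀ + ε₀ * ℓ) =
        Real.exp (ε₀ * ℓ + 2 * ((1 - s) * h + ε₀ * ℓ) + 52 * h + 2 * ((ℓ - h) * (γ / 16)) +
          (n₀ + ε₀ * ℓ)) := by
      rw [← Real.exp_nat_mul, ← Real.exp_add, ← Real.exp_add, ← Real.exp_add, ← Real.exp_add]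
      norm_num
    rw [e4, e5, Real.exp_le_exp] at e3
    have h1 : γ * ℓ ≤ (c' - 2 * s) * ℓ := mul_le_mul_of_nonneg_right hγg hℓ0.le
    have h2 : h ≤ γ / 216 * ℓ := hh2
    have h3 : ε₀ * ℓ ≤ γ / 216 / 8 / 16 * ℓ := by
      refine mul_le_mul_of_nonneg_right ?_ hℓ0.le
      linarith
    have h4 : (ℓ - h) * (γ / 16) ≤ ℓ * (γ / 16) := by
      refine mul_le_mul_of_nonneg_right ?_ (by positivity)
      have : 0 ≤ h := le_trans (by positivity) hh1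
      linarith
    have h5 : (1 - s) * h ≤ h := by
      have : 0 ≤ h := le_trans (by positivity) hh1
      nlinarith
    have h6 : 0 < γ * ℓ := by positivity
    nlinarith
  · -- (B)
    have e3 : Real.exp (n₀ - (2 - c') * ℓ - ε₀ * ℓ) * Real.exp ((1 - s) * h - ε₀ * ℓ) ^ 3 ≤
        Real.exp (ε₀ * ℓ) * Real.exp ((1 - s) * h + ε₀ * ℓ) ^ 2 * Real.exp t *
          Real.exp (n₀ - (2 - c') * (ℓ - h) - h + ε₀ * ℓ) := by
      refine hB.trans ?_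
      gcongr
    have e4 : Real.exp (n₀ - (2 - c') * ℓ - ε₀ * ℓ) * Real.exp ((1 - s) * h - ε₀ * ℓ) ^ 3 =
        Real.exp (n₀ - (2 - c') * ℓ - ε₀ * ℓ + 3 * ((1 - s) * h - ε₀ * ℓ)) := by
      rw [← Real.exp_nat_mul, ← Real.exp_add]; norm_num
    have e5 : Real.exp (ε₀ * ℓ) * Real.exp ((1 - s) * h + ε₀ * ℓ) ^ 2 * Real.exp t *
          Real.exp (n₀ - (2 - c') * (ℓ - h) - h + ε₀ * ℓ) =
        Real.exp (ε₀ * ℓ + 2 * ((1 - s) * h + ε₀ * ℓ) + t +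
          (n₀ - (2 - c') * (ℓ - h) - h + ε₀ * ℓ)) := by
      rw [← Real.exp_nat_mul, ← Real.exp_add, ← Real.exp_add, ← Real.exp_add]
      norm_num
    rw [e4, e5, Real.exp_le_exp] at e3
    -- (c' - s) h ≤ t + 8 ε₀ ℓ
    have h0 : 0 ≤ h := le_trans (by positivity) hh1
    have h1 : (c' - s) * h ≤ t + 8 * (ε₀ * ℓ) := by nlinarith
    have h2 : γ * h ≤ (c' - s) * h := mul_le_mul_of_nonneg_right (by linarith) h0
    have h3 : γ * (η / 2 * ℓ) ≤ γ * h := mul_le_mul_of_nonneg_left hh1 hγ0.le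
    have h4 : γ * (η / 2 * ℓ) = 4 * (τ * ℓ) := by rw [hτ]; ring
    have h5 : ε₀ * ℓ ≤ τ / 16 * ℓ := mul_le_mul_of_nonneg_right hε1 hℓ0.le
    have h6 : 0 < τ * ℓ := by positivity
    linarith
  · -- (C)
    have e3 : Real.exp (n₀ - (2 - c') * ℓ - ε₀ * ℓ) * Real.exp ((1 - s) * h - ε₀ * ℓ) ≤
        Real.exp (ε₀ * ℓ) * Real.exp ((1 - s) * h + ε₀ * ℓ) *
          Real.exp (n₀ - (2 - c') * ℓ - c' * t + ε₀ * ℓ) := by
      refine hC'.trans ?_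
      gcongr
    rw [← Real.exp_add, ← Real.exp_add, ← Real.exp_add, Real.exp_le_exp] at e3
    have h1 : c' * t ≤ 5 * (ε₀ * ℓ) := by linarith
    have h2 : γ * t ≤ c' * t := mul_le_mul_of_nonneg_right (by linarith) ht0
    have h3 : γ * (τ / 2 * ℓ) ≤ γ * t := mul_le_mul_of_nonneg_left ht1 hγ0.le
    have h4 : γ * (τ / 2 * ℓ) = 8 * (ε₀ * ℓ) := by rw [hε₀]; ring
    have h6 : 0 < ε₀ * ℓ := by positivity
    linarith

end Crest.Agent.R138.LmA861
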