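import Crest.Agent.R138.LmA4_861
import Crest.Agent.R138.KDef_294
import Crest.Agent.R138.MkDef_163

/-!
# R138, LEMMA A over one box (helper861), part 1: a normalised slab lies in one honest rectangle
-/

set_option autoImplicit false
set_option linter.unusedVariables false
set_option linter.unusedSectionVars false

namespace Crest.Agent.R138.LmA861

open Finset
open Crest.Agent.R138.Flag51 (Ln E2 cr dt InPlank)

/-- rotated frame `α E + β rot E` -/
noncomputable def mkf (E : E2) (α β : ℝ) : E2 := !₂[α * E 0 - β * E 1, α * E 1 + β * E 0]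

theorem dt_mkf (E D : E2) (α β : ℝ) : dt D (mkf E α β) = α * dt D E + β * cr E D := by
  simp [mkf, dt, cr]; ring

theorem cr_mkf (E D : E2) (α β : ℝ) : cr (mkf E α β) D = α * cr E D - β * dt D E := by
  simp [mkf, dt, cr]; ring

theorem mkf_unit {E : E2} (hE : dt E E = 1) {α β : ℝ} (h : α ^ 2 + β ^ 2 = 1) :
    dt (mkf E α β) (mkf E α β) = 1 := by
  have : dt (mkf E α β) (mkf E α β) = (α ^ 2 + β ^ 2) * dt E E := by
    simp [mkf, dt]; ring
  rw [this, h, hE, one_mul]

/-- a slab in normalised coordinates lies in one honest rectangle. -/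
theorem rect {E : E2} (hE : dt E E = 1) {A B δ : ℝ} (hB : 0 < B) (hBA : B ≤ A) (hδ : 0 < δ)
    (hδ2 : δ ≤ 2) {n1 n2 : ℝ} (hn : n1 ^ 2 + n2 ^ 2 = 1) :
    ∃ (e' : E2) (a1 a2 : ℝ), dt e' e' = 1 ∧ B * δ / 2 ≤ a1 ∧ a1 ≤ a2 ∧ a2 ≤ 8 * A ∧
      a1 * a2 ≤ 8 * δ * A * B ∧
      ∀ D : E2, |cr E D| ≤ A → |dt D E| ≤ B → |n1 * (cr E D / A) + n2 * (dt D E / B)| ≤ δ →
        |dt D e'| ≤ a1 ∧ |cr e' D| ≤ a2 := by
  have hA : 0 < A := lt_of_lt_of_le hB hBA
  have hδA : 0 < δ * A := mul_pos hδ hA
  have hδB : 0 < δ * B := mul_pos hδ hB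
  have hδAB : 0 < δ * A * B := mul_pos hδA hB
  have hδBA : δ * B ≤ δ * A := mul_le_mul_of_nonneg_left hBA hδ.le
  have hδ2B : δ * B ≤ 2 * B := mul_le_mul_of_nonneg_right hδ2 hB.le
  have hδ2A : δ * A ≤ 2 * A := mul_le_mul_of_nonneg_right hδ2 hA.le
  -- the frame along the normal
  set mC : ℝ := n1 / A with hmC
  set mP : ℝ := n2 / B with hmP
  have hm2 : 0 < mC ^ 2 + mP ^ 2 := by
    rcases eq_or_ne n2 0 with h | h
    · have h1 : n1 ≠ 0 := by
        rintro h1; rw [h, h1] at hn; norm_num at hn
      have : mC ≠ 0 := div_ne_zero h1 hA.ne'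
      positivity
    · have : mP ≠ 0 := div_ne_zero h hB.ne'
      positivity
  set r : ℝ := √(mC ^ 2 + mP ^ 2) with hr
  have hr0 : 0 < r := Real.sqrt_pos.2 hm2
  have hr2 : r ^ 2 = mC ^ 2 + mP ^ 2 := Real.sq_sqrt hm2.le
  have hunit : (mP / r) ^ 2 + (mC / r) ^ 2 = 1 := by
    have e1 : (mP / r) ^ 2 + (mC / r) ^ 2 = (mC ^ 2 + mP ^ 2) / r ^ 2 := by
      rw [div_pow mP, div_pow mC, ← add_div, add_comm]
    rw [e1, ← hr2]
    exact div_self (by positivity)
  have hα : |mP / r| ≤ 1 := by
    rw [← sq_le_one_iff_abs_le_one]; nlinarith [sq_nonneg (mC / r)]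
  have hβ : |mC / r| ≤ 1 := by
    rw [← sq_le_one_iff_abs_le_one]; nlinarith [sq_nonneg (mP / r)]
  have hrP : |mP| ≤ r := by
    rw [div_eq_mul_inv, abs_mul, abs_of_pos (inv_pos.2 hr0), ← div_eq_mul_inv, div_le_one hr0] at hα
    exact hα
  have hrC : |mC| ≤ r := by
    rw [div_eq_mul_inv, abs_mul, abs_of_pos (inv_pos.2 hr0), ← div_eq_mul_inv, div_le_one hr0] at hβ
    exact hβ
  have hthin : ∀ D : E2, |n1 * (cr E D / A) + n2 * (dt D E / B)| ≤ δ →
      |dt D (mkf E (mP / r) (mC / r))| ≤ δ / r := by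
    intro D hD
    have e1 : dt D (mkf E (mP / r) (mC / r)) = (n1 * (cr E D / A) + n2 * (dt D E / B)) / r := by
      rw [dt_mkf, hmC, hmP]; field_simp; ring
    rw [e1, abs_div, abs_of_pos hr0]
    gcongr
  by_cases h1 : 1 / 2 ≤ |n2|
  · -- case 1
    have hrl : 1 / (2 * B) ≤ r := by
      refine le_trans ?_ hrP
      rw [hmP, abs_div, abs_of_pos hB, div_le_div_iff₀ (by positivity) hB]
      nlinarith
    refine ⟨mkf E (mP / r) (mC / r), 2 * δ * B, 4 * A, mkf_unit hE hunit, by linarith,
      by linarith, by linarith, by linarith, ?_⟩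
    intro D hC hP hn'
    refine ⟨(hthin D hn').trans ?_, ?_⟩
    · rw [div_le_iff₀ hr0]
      have : 1 ≤ r * (2 * B) := by
        rw [div_le_iff₀ (by positivity)] at hrl; exact hrl
      nlinarith
    · rw [cr_mkf]
      refine (abs_sub _ _).trans ?_
      rw [abs_mul, abs_mul]
      have e1 : |mP / r| * |cr E D| ≤ 1 * A := mul_le_mul hα hC (abs_nonneg _) zero_le_one
      have e2 : |mC / r| * |dt D E| ≤ 1 * B := mul_le_mul hβ hP (abs_nonneg _) zero_le_one
      linarith
  · rw [not_le] at h1
    have hn1 : 1 / 2 ≤ |n1| := by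
      by_contra hcon
      rw [not_le] at hcon
      have a1 : n1 ^ 2 < 1 / 4 := by rw [← sq_abs]; nlinarith [abs_nonneg n1]
      have a2 : n2 ^ 2 < 1 / 4 := by rw [← sq_abs]; nlinarith [abs_nonneg n2]
      linarith
    have hn10 : 0 < |n1| := by linarith
    -- bound for the lateral coordinate
    have hlat : ∀ D : E2, |dt D E| ≤ B → |n1 * (cr E D / A) + n2 * (dt D E / B)| ≤ δ →
        |n1| * |cr E D| ≤ (|n2| + δ) * A := by
      intro D hP hn'
      have e1 : n1 * cr E D = A * ((n1 * (cr E D / A) + n2 * (dt D E / B)) -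
          n2 * (dt D E / B)) := by field_simp; ring
      have e2 : |dt D E / B| ≤ 1 := by rw [abs_div, abs_of_pos hB, div_le_one hB]; exact hP
      rw [← abs_mul, e1, abs_mul, abs_of_pos hA]
      have e3 : |(n1 * (cr E D / A) + n2 * (dt D E / B)) - n2 * (dt D E / B)| ≤ δ + |n2| * 1 := by
        refine (abs_sub _ _).trans (add_le_add hn' ?_)
        rw [abs_mul]
        exact mul_le_mul_of_nonneg_left e2 (abs_nonneg _)
      nlinarith
    by_cases h2 : |n2| ≤ δ
    · -- case 2a
      have hC4 : ∀ D : E2, |dt D E| ≤ B → |n1 * (cr E D / A) + n2 * (dt D E / B)| ≤ δ →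
          |cr E D| ≤ 4 * δ * A := by
        intro D hP hn'
        have e1 := hlat D hP hn'
        have e2 : (1 / 2) * |cr E D| ≤ |n1| * |cr E D| :=
          mul_le_mul_of_nonneg_right hn1 (abs_nonneg _)
        nlinarith
      rcases le_total B (4 * δ * A) with h3 | h3
      · refine ⟨E, B, 4 * δ * A, hE, by linarith, h3, by linarith, by linarith, ?_⟩
        intro D hC hP hn'
        exact ⟨hP, hC4 D hP hn'⟩
      · refine ⟨mkf E 0 1, 4 * δ * A, B, mkf_unit hE (by norm_num), by linarith, h3,
          by linarith, by linarith, ?_⟩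
        intro D hC hP hn'
        rw [dt_mkf, cr_mkf]
        simp only [zero_mul, one_mul, zero_add, zero_sub, abs_neg]
        exact ⟨hC4 D hP hn', hP⟩
    · rw [not_le] at h2
      have hn20 : 0 < |n2| := lt_trans hδ h2
      by_cases h3 : |n1| * B ≤ |n2| * A
      · -- case 2b
        have hB2 : B ≤ 2 * |n2| * A := by nlinarith
        have hrl : |n2| / B ≤ r := by
          refine le_trans (le_of_eq ?_) hrP
          rw [hmP, abs_div, abs_of_pos hB]
        refine ⟨mkf E (mP / r) (mC / r), δ * B / |n2|, 6 * |n2| * A, mkf_unit hE hunit, ?_, ?_,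
          by nlinarith, ?_, ?_⟩
        · rw [le_div_iff₀ hn20]; nlinarith [mul_pos hB hδ]
        · rw [div_le_iff₀ hn20]
          have e1 : δ * B ≤ |n2| * (2 * |n2| * A) := by
            exact mul_le_mul h2.le hB2 hB.le hn20.le
          nlinarith [mul_pos hn20 (mul_pos hn20 hA)]
        · rw [div_mul_eq_mul_div, div_le_iff₀ hn20]
          nlinarith [mul_pos (mul_pos hδ hB) (mul_pos hn20 hA)]
        · intro D hC hP hn'
          refine ⟨(hthin D hn').trans ?_, ?_⟩
          · rw [div_le_div_iff₀ hr0 hn20]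
            have : |n2| ≤ r * B := by rw [div_le_iff₀ hB] at hrl; exact hrl
            nlinarith
          · rw [cr_mkf]
            refine (abs_sub _ _).trans ?_
            rw [abs_mul, abs_mul]
            have e0 : |cr E D| ≤ 4 * |n2| * A := by
              have e1 := hlat D hP hn'
              have e2 : (1 / 2) * |cr E D| ≤ |n1| * |cr E D| :=
                mul_le_mul_of_nonneg_right hn1 (abs_nonneg _)
              nlinarith
            have e1 : |mP / r| * |cr E D| ≤ 1 * (4 * |n2| * A) :=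
              mul_le_mul hα e0 (abs_nonneg _) zero_le_one
            have e2 : |mC / r| * |dt D E| ≤ 1 * B := mul_le_mul hβ hP (abs_nonneg _) zero_le_one
            linarith
      · rw [not_le] at h3
        have hC' : ∀ D : E2, |dt D E| ≤ B → |n1 * (cr E D / A) + n2 * (dt D E / B)| ≤ δ →
            |cr E D| ≤ B + 2 * δ * A := by
          intro D hP hn'
          have e1 := hlat D hP hn'
          have e3 : (1 / 2) * (2 * (δ * A)) ≤ |n1| * (2 * (δ * A)) :=
            mul_le_mul_of_nonneg_right hn1 (by positivity)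
          have e2 : |n1| * |cr E D| ≤ |n1| * (B + 2 * δ * A) := by
            have e4 : |n1| * (B + 2 * δ * A) = |n1| * B + |n1| * (2 * (δ * A)) := by ring
            have e5 : (|n2| + δ) * A = |n2| * A + δ * A := by ring
            rw [e4]; rw [e5] at e1; linarith
          exact le_of_mul_le_mul_left e2 hn10
        rcases le_total (δ * A) B with h4 | h4
        · -- case 2c1
          have hrl : 1 / (2 * A) ≤ r := by
            refine le_trans ?_ hrC
            rw [hmC, abs_div, abs_of_pos hA, div_le_div_iff₀ (by positivity) hA]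
            nlinarith
          refine ⟨mkf E (mP / r) (mC / r), 2 * δ * A, 4 * B, mkf_unit hE hunit, by linarith,
            by linarith, by linarith, by linarith, ?_⟩
          intro D hC hP hn'
          refine ⟨(hthin D hn').trans ?_, ?_⟩
          · rw [div_le_iff₀ hr0]
            have : 1 ≤ r * (2 * A) := by
              rw [div_le_iff₀ (by positivity)] at hrl; exact hrl
            nlinarith
          · rw [cr_mkf]
            refine (abs_sub _ _).trans ?_
            rw [abs_mul, abs_mul]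
            have e0 := hC' D hP hn'
            have e1 : |mP / r| * |cr E D| ≤ 1 * (B + 2 * δ * A) :=
              mul_le_mul hα e0 (abs_nonneg _) zero_le_one
            have e2 : |mC / r| * |dt D E| ≤ 1 * B := mul_le_mul hβ hP (abs_nonneg _) zero_le_one
            linarith
        · -- case 2c2
          refine ⟨E, B, 3 * (δ * A), hE, by linarith, by linarith, by linarith, by linarith, ?_⟩
          intro D hC hP hn'
          refine ⟨hP, (hC' D hP hn').trans (by linarith)⟩

end Crest.Agent.R138.LmA861
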