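import Crest.Agent.R138.LmA5_861

/-!
# R138, LEMMA A over one box (helper861), part 2: `boxA`
-/

set_option autoImplicit false
set_option linter.unusedVariables false
set_option linter.unusedSectionVars false

namespace Crest.Agent.R138.LmA861

open Finset
open Crest.Agent.R138.Flag51 (Ln E2 cr dt InPlank)
open Crest.Agent.R138.Tilt51 (DMax)
open Crest.Agent.R138.Mk163 (zc zl rho alive own)

/-! ### cells -/

theorem zc_div (m k : ℕ) (z : ℝ) : zc m z = zc (m + k) z / 2 ^ k := by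
  unfold zc
  have h : (2:ℝ) ^ m * z = ((2:ℝ) ^ (m + k) * z) / ((2 ^ k : ℕ) : ℝ) := by
    push_cast; rw [pow_add]; field_simp
  rw [h, Int.floor_div_natCast]; push_cast; rfl

theorem rho_pos (m : ℕ) : 0 < rho m := by unfold rho; positivity

theorem rho_add (m k : ℕ) : rho (m + k) = rho m / 2 ^ k := by
  unfold rho; rw [pow_add]; field_simp

theorem zl_near (m k : ℕ) (K : ℤ) : 0 ≤ zl (m + k) K - zl m (K / 2 ^ k) ∧
    zl (m + k) K - zl m (K / 2 ^ k) ≤ rho m := by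
  have h2 : (0:ℤ) < 2 ^ k := by positivity
  have e1 := Int.emod_add_mul_ediv K (2 ^ k)
  have e2 := Int.emod_nonneg K h2.ne'
  have e3 := Int.emod_lt_of_pos K h2
  have e4 : zl (m + k) K - zl m (K / 2 ^ k) = ((K % 2 ^ k : ℤ) : ℝ) / 2 ^ (m + k) := by
    unfold zl
    have e5 : (K : ℝ) = ((K % 2 ^ k : ℤ) : ℝ) + 2 ^ k * ((K / 2 ^ k : ℤ) : ℝ) := by
      exact_mod_cast e1.symm
    rw [e5, pow_add]
    have : (0:ℝ) < 2 ^ k := by positivity
    field_simp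
    ring
  rw [e4]
  have f2 : (0:ℝ) ≤ ((K % 2 ^ k : ℤ) : ℝ) := by exact_mod_cast e2
  have f3 : ((K % 2 ^ k : ℤ) : ℝ) ≤ 2 ^ k := by exact_mod_cast e3.le
  refine ⟨by positivity, ?_⟩
  unfold rho
  rw [pow_add, div_le_div_iff₀ (by positivity) (by positivity)]
  have : (0:ℝ) < 2 ^ m := by positivity
  nlinarith

/-- neighbouring cells -/
theorem zl_near2 (m k : ℕ) (K J : ℤ) (h : |J - K / 2 ^ k| ≤ 1) :
    |zl (m + k) K - zl m J| ≤ 2 * rho m := by
  obtain ⟨h1, h2⟩ := zl_near m k K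
  have e : zl m J - zl m (K / 2 ^ k) = ((J - K / 2 ^ k : ℤ) : ℝ) * rho m := by
    unfold zl rho; push_cast; ring
  have e1 : |zl m J - zl m (K / 2 ^ k)| ≤ rho m := by
    rw [e, abs_mul, abs_of_pos (rho_pos m)]
    have : |((J - K / 2 ^ k : ℤ) : ℝ)| ≤ 1 := by exact_mod_cast h
    nlinarith [rho_pos m]
  rw [abs_le] at e1 ⊢
  constructor <;> linarith

/-! ### D-max for planks slightly outside the legal range -/

open Classical in
theorem cover_dmax {S S' : Finset ℕ} {L : ℕ → Ln} {z0 ρ D q r0 : ℝ} (hρ : 0 < ρ) (hq : 0 ≤ q)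
    (hD : 0 ≤ D) (hr : 0 < r0)
    (h : DMax S L (fun _ => 1) z0 ρ D 0 q r0 (100 * ρ)) (hS : S' ⊆ S) {l : Ln} {e : E2}
    {a1 a2 : ℝ} {N : ℕ}
    (hN : 1 ≤ N) (he : dt e e = 1) (h1 : r0 * N ≤ a1) (h12 : a1 ≤ a2) (h2 : a2 ≤ 100 * ρ * N)
    (hin : ∀ t ∈ S', InPlank (L t) l e a1 a2 z0 ρ) :
    (S'.card : ℝ) ≤ (2 * N + 1) ^ 4 * (D * (a1 * a2 * a2 ^ q)) := by
  have hN0 : (0:ℝ) < N := by exact_mod_cast hN
  have hN1 : (1:ℝ) ≤ N := by exact_mod_cast hN
  have ha1 : 0 < a1 := lt_of_lt_of_le (by positivity) h1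
  have ha2 : 0 < a2 := lt_of_lt_of_le ha1 h12
  refine K294.cover S' L (w1 := a1 / N) (w2 := a2 / N) (e := e) (z0 := z0) (by positivity)
    (by positivity) hρ (n := N) (l := l) ?_ (by positivity) ?_
  · intro t ht
    rw [mul_div_cancel₀ _ hN0.ne', mul_div_cancel₀ _ hN0.ne']; exact hin t ht
  · intro t0 ht0
    have key := h (L t0) e (a1 / N) (a2 / N) he (by rw [le_div_iff₀ hN0]; exact h1)
      (by gcongr) (by rw [div_le_iff₀ hN0]; linarith)
    rw [sum_const, nsmul_eq_mul, mul_one] at key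
    have e1 : ((S'.filter fun t => InPlank (L t) (L t0) e (a1 / N) (a2 / N) z0 ρ).card : ℝ) ≤
        ((S.filter fun t => InPlank (L t) (L t0) e (a1 / N) (a2 / N) z0 ρ).card : ℝ) := by
      exact_mod_cast card_le_card (filter_subset_filter _ hS)
    refine (e1.trans key).trans ?_
    have e2 : a1 / N ≤ a1 := div_le_self ha1.le hN1
    have e3 : a2 / N ≤ a2 := div_le_self ha2.le hN1
    have e4 : (a2 / N) ^ (1 + q) ≤ a2 ^ (1 + q) :=
      Real.rpow_le_rpow (by positivity) e3 (by linarith)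
    have e5 : a2 ^ (1 + q) = a2 * a2 ^ q := by rw [Real.rpow_add ha2, Real.rpow_one]
    rw [add_zero, Real.rpow_one]
    calc D * (a1 / N) * (a2 / N) ^ (1 + q) ≤ D * a1 * (a2 * a2 ^ q) := by
          rw [← e5]; gcongr
      _ = D * (a1 * a2 * a2 ^ q) := by ring

/-! ### normalised coordinates -/

section coord

variable (φ : E2 → ℝ) (L : ℕ → Ln) (i : ℕ) (J : ℤ) (l0 : Ln) (W : ℝ)

/-- normalised position over the left end of the cell -/
noncomputable def gp (t : ℕ) : ℝ := φ (Flag51.pos (L t) (zl i J) - Flag51.pos l0 (zl i J)) / (2 * W)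

/-- normalised velocity -/
noncomputable def gv (t : ℕ) : ℝ := rho i * φ ((L t).2 - l0.2) / (2 * W)

variable {φ} (hφ : ∀ (x y : E2) (s : ℝ), φ (x + s • y) = φ x + s * φ y)
include hφ

theorem phi_sub (x y : E2) : φ (x - y) = φ x - φ y := by
  have := hφ x y (-1)
  rw [neg_one_smul, ← sub_eq_add_neg] at this
  rw [this]; ring

theorem phi_pos (t l : Ln) (z z0 : ℝ) : φ (Flag51.pos t z - Flag51.pos l z) =
    φ (Flag51.pos t z0 - Flag51.pos l z0) + (z - z0) * φ (t.2 - l.2) := by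
  rw [← hφ]
  congr 1
  unfold Flag51.pos
  module

theorem pos_eq (M : ℕ) (hW : 0 < W) (t : ℕ) (k : ℤ) :
    pos (gp φ L i J l0 W) (gv φ L i l0 W) (2 ^ M) t k =
      φ (Flag51.pos (L t) (zl (i + M) (2 ^ M * J + k)) -
        Flag51.pos l0 (zl (i + M) (2 ^ M * J + k))) / (2 * W) := by
  rw [phi_pos hφ (L t) l0 _ (zl i J)]
  have e : zl (i + M) (2 ^ M * J + k) - zl i J = rho i * (k / 2 ^ M) := by
    unfold zl rho
    rw [pow_add]; push_cast; field_simp; ring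
  rw [e]
  unfold pos gp gv
  field_simp

theorem pos_bd (M : ℕ) (hW : 0 < W) (t : ℕ)
    (h : ∀ z, |z - zl i J| ≤ rho i → |φ (Flag51.pos (L t) z - Flag51.pos l0 z)| ≤ W) (k : ℤ)
    (hk0 : 0 ≤ k) (hk : k ≤ 2 ^ M) :
    |pos (gp φ L i J l0 W) (gv φ L i l0 W) (2 ^ M) t k| ≤ 1 ∧ |gv φ L i l0 W t| ≤ 1 := by
  have hρ := rho_pos i
  constructor
  · rw [pos_eq L i J l0 W hφ M hW, abs_div, abs_of_pos (by linarith : 0 < 2 * W),
      div_le_one (by linarith)]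
    refine (h _ ?_).trans (by linarith)
    have e : zl (i + M) (2 ^ M * J + k) - zl i J = rho i * (k / 2 ^ M) := by
      unfold zl rho
      rw [pow_add]; push_cast; field_simp; ring
    have k0 : (0:ℝ) ≤ k := by exact_mod_cast hk0
    have k1 : (k:ℝ) ≤ 2 ^ M := by exact_mod_cast hk
    have k2 : (k:ℝ) / 2 ^ M ≤ 1 := by rw [div_le_one (by positivity)]; exact k1
    rw [e, abs_of_nonneg (by positivity)]
    nlinarith
  · have e1 := h (zl i J) (by rw [sub_self, abs_zero]; exact hρ.le)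
    have e2 := h (zl i J + rho i) (by rw [add_sub_cancel_left, abs_of_pos hρ])
    rw [phi_pos hφ (L t) l0 _ (zl i J), add_sub_cancel_left] at e2
    unfold gv
    rw [abs_div, abs_of_pos (by linarith : 0 < 2 * W), div_le_one (by linarith)]
    rw [abs_le] at e1 e2 ⊢
    constructor <;> linarith

/-- difference of two lines -/
theorem pos_diff (M : ℕ) (hW : 0 < W) (t t' : ℕ) (k : ℤ) (z : ℝ) :
    φ (Flag51.pos (L t) z - Flag51.pos (L t') z) =
      2 * W * ((pos (gp φ L i J l0 W) (gv φ L i l0 W) (2 ^ M) t k -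
        pos (gp φ L i J l0 W) (gv φ L i l0 W) (2 ^ M) t' k) +
        (z - zl (i + M) (2 ^ M * J + k)) / rho i *
          (gv φ L i l0 W t - gv φ L i l0 W t')) := by
  have hρ := rho_pos i
  have e0 : Flag51.pos (L t) z - Flag51.pos (L t') z =
      (Flag51.pos (L t) z - Flag51.pos l0 z) - (Flag51.pos (L t') z - Flag51.pos l0 z) := by
    abel
  rw [e0, phi_sub hφ, phi_pos hφ (L t) l0 z (zl (i + M) (2 ^ M * J + k)),
    phi_pos hφ (L t') l0 z (zl (i + M) (2 ^ M * J + k)), pos_eq L i J l0 W hφ M hW,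
    pos_eq L i J l0 W hφ M hW]
  unfold gv
  field_simp
  ring

end coord

theorem cr_lin (E : E2) (x y : E2) (s : ℝ) : cr E (x + s • y) = cr E x + s * cr E y := by
  simp [cr]; ring

theorem dt_lin (E : E2) (x y : E2) (s : ℝ) : dt (x + s • y) E = dt x E + s * dt y E := by
  simp [dt]; ring

theorem diff_le {φ : E2 → ℝ} (L : ℕ → Ln) (i : ℕ) (J : ℤ) (l0 : Ln) (W : ℝ)
    (hφ : ∀ (x y : E2) (s : ℝ), φ (x + s • y) = φ x + s * φ y) (M : ℕ) (hW : 0 < W) (t t' : ℕ)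
    (k : ℤ) (z : ℝ) {p v r : ℝ}
    (hp : |pos (gp φ L i J l0 W) (gv φ L i l0 W) (2 ^ M) t k -
        pos (gp φ L i J l0 W) (gv φ L i l0 W) (2 ^ M) t' k| ≤ p)
    (hv : |gv φ L i l0 W t - gv φ L i l0 W t'| ≤ v) (hr0 : 0 ≤ r)
    (hr : |z - zl (i + M) (2 ^ M * J + k)| ≤ r * rho i) :
    |φ (Flag51.pos (L t) z - Flag51.pos (L t') z)| ≤ 2 * W * (p + r * v) := by
  rw [pos_diff L i J l0 W hφ M hW t t' k z, abs_mul, abs_of_pos (by linarith : 0 < 2 * W)]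
  refine mul_le_mul_of_nonneg_left ?_ (by linarith)
  refine (abs_add_le _ _).trans (add_le_add hp ?_)
  rw [abs_mul, abs_div, abs_of_pos (rho_pos i)]
  refine mul_le_mul ?_ hv (abs_nonneg _) hr0
  rw [div_le_iff₀ (rho_pos i)]
  exact hr

theorem rho_eq {i M j k : ℕ} (hj : i + M = j + k) : rho j = (2 ^ k / 2 ^ M) * rho i := by
  have h : (2:ℝ) ^ i * 2 ^ M = 2 ^ j * 2 ^ k := by rw [← pow_add, ← pow_add, hj]
  unfold rho
  rw [div_mul_div_comm, mul_one, div_eq_div_iff (by positivity) (by positivity), one_mul]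
  linarith

/-! ### relative incidences -/

open Classical in
/-- the incidences with the height replaced by the relative index of the fine cell -/
noncomputable def Iz (I : Finset (ℕ × ℝ)) (j M : ℕ) (J : ℤ) : Finset (ℕ × ℤ) :=
  I.image fun x => (x.1, zc j x.2 - 2 ^ M * J)

theorem mem_Iz {I : Finset (ℕ × ℝ)} {j M : ℕ} {J : ℤ} {y : ℕ × ℤ} :
    y ∈ Iz I j M J ↔ ∃ x ∈ I, x.1 = y.1 ∧ zc j x.2 = 2 ^ M * J + y.2 := by
  unfold Iz
  rw [mem_image]
  constructor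
  · rintro ⟨x, hx, rfl⟩
    exact ⟨x, hx, rfl, by ring⟩
  · rintro ⟨x, hx, h1, h2⟩
    exact ⟨x, hx, Prod.ext h1 (by simp only; rw [h2]; ring)⟩

theorem Iz_range {I : Finset (ℕ × ℝ)} {i M : ℕ} {J : ℤ} (hJ : ∀ x ∈ I, zc i x.2 = J)
    {y : ℕ × ℤ} (hy : y ∈ Iz I (i + M) M J) : 0 ≤ y.2 ∧ y.2 < 2 ^ M := by
  obtain ⟨x, hx, h1, h2⟩ := mem_Iz.1 hy
  have h3 := hJ x hx
  rw [zc_div i M, h2] at h3
  have h4 : (0:ℤ) < 2 ^ M := by positivity
  rw [add_comm, Int.add_mul_ediv_left _ _ h4.ne'] at h3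
  have h5 : y.2 / 2 ^ M = 0 := by linarith
  have h6 := Int.emod_add_mul_ediv y.2 (2 ^ M)
  rw [h5, mul_zero, add_zero] at h6
  rw [← h6]
  exact ⟨Int.emod_nonneg _ h4.ne', Int.emod_lt_of_pos _ h4⟩

open Classical in
theorem own_le_Iz {I : Finset (ℕ × ℝ)} {i M : ℕ} {J : ℤ} {x : ℕ × ℝ} :
    (own I i (i + M) x).card ≤ ((Iz I (i + M) M J).filter fun y => y.1 = x.1).card := by
  refine card_le_card_of_injOn (fun k => (x.1, k - 2 ^ M * J)) ?_ ?_
  · intro k hk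
    rw [mem_coe] at hk ⊢
    unfold own at hk
    obtain ⟨y, hy, rfl⟩ := mem_image.1 hk
    rw [mem_filter] at hy ⊢
    exact ⟨mem_Iz.2 ⟨y, hy.1, hy.2.1, by ring⟩, rfl⟩
  · intro k _ k' _ h
    have := congrArg Prod.snd h
    simpa using this

/-- the window cell of a relative index -/
theorem div_rel {M k : ℕ} (hk : k ≤ M) (J K : ℤ) :
    (2 ^ M * J + K) / 2 ^ k = 2 ^ (M - k) * J + K / 2 ^ k := by
  have h4 : (0:ℤ) < 2 ^ k := by positivity
  obtain ⟨m, rfl⟩ := Nat.exists_eq_add_of_le hk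
  rw [Nat.add_sub_cancel_left, pow_add, mul_assoc, add_comm,
    Int.add_mul_ediv_left _ _ h4.ne', add_comm]

open Classical in
theorem own_eq_Iz {I : Finset (ℕ × ℝ)} {i M j1 k1 : ℕ} {J : ℤ} (hj : i + M = j1 + k1)
    (hk : k1 ≤ M) {x : ℕ × ℝ} {y : ℕ × ℤ} (hx : x.1 = y.1) (hxy : zc (i + M) x.2 = 2 ^ M * J + y.2) :
    (own I j1 (i + M) x).card = ((Iz I (i + M) M J).filter fun w => w.1 = y.1 ∧
      w.2 / ((2 ^ k1 : ℕ) : ℤ) = y.2 / ((2 ^ k1 : ℕ) : ℤ)).card := by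
  have h1 : ((Iz I (i + M) M J).filter fun w => w.1 = y.1 ∧
      w.2 / ((2 ^ k1 : ℕ) : ℤ) = y.2 / ((2 ^ k1 : ℕ) : ℤ)) =
      (own I j1 (i + M) x).image fun k => (y.1, k - 2 ^ M * J) := by
    ext w
    rw [mem_filter, mem_image]
    unfold own
    push_cast
    constructor
    · rintro ⟨hw, hw1, hw2⟩
      obtain ⟨v, hv, e1, e2⟩ := mem_Iz.1 hw
      refine ⟨zc (i + M) v.2, mem_image.2 ⟨v, mem_filter.2 ⟨hv, ?_, ?_⟩, rfl⟩, ?_⟩
      · rw [e1, hw1, hx]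
      · rw [zc_div j1 k1 v.2, zc_div j1 k1 x.2, ← hj, e2, hxy, div_rel hk, div_rel hk, hw2]
      · rw [e2, ← hw1]; exact Prod.ext rfl (by ring)
    · rintro ⟨k, hk', rfl⟩
      obtain ⟨v, hv, rfl⟩ := mem_image.1 hk'
      rw [mem_filter] at hv
      refine ⟨mem_Iz.2 ⟨v, hv.1, by rw [hv.2.1, hx], by ring⟩, rfl, ?_⟩
      have e3 := hv.2.2
      rw [zc_div j1 k1 v.2, zc_div j1 k1 x.2, ← hj, hxy] at e3
      have e4 : zc (i + M) v.2 = 2 ^ M * J + (zc (i + M) v.2 - 2 ^ M * J) := by ring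
      rw [e4, div_rel hk, div_rel hk] at e3
      simp only
      linarith
  rw [h1, card_image_of_injective]
  intro k k' h
  have := congrArg Prod.snd h
  simpa using this

open Classical in
theorem image_fst_Iz {I : Finset (ℕ × ℝ)} {i j M : ℕ} {J : ℤ} (hJ : ∀ x ∈ I, zc i x.2 = J) :
    (Iz I j M J).image Prod.fst = alive I i J := by
  ext t
  unfold alive
  rw [mem_image, mem_image]
  constructor
  · rintro ⟨y, hy, rfl⟩
    obtain ⟨x, hx, h1, h2⟩ := mem_Iz.1 hy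
    exact ⟨x, mem_filter.2 ⟨hx, hJ x hx⟩, h1⟩
  · rintro ⟨x, hx, rfl⟩
    rw [mem_filter] at hx
    exact ⟨(x.1, zc j x.2 - 2 ^ M * J), mem_Iz.2 ⟨x, hx.1, rfl, by ring⟩, rfl⟩

/-! ### the three counts -/

section counts

variable {I : Finset (ℕ × ℝ)} {L : ℕ → Ln} {i M : ℕ} {J : ℤ} {l0 : Ln} {E : E2}
  {W1 W2 r0 q Kc : ℝ} {N : ℕ}

/-- the four coordinate functions -/
noncomputable abbrev fa (L : ℕ → Ln) (i : ℕ) (J : ℤ) (l0 : Ln) (E : E2) (W2 : ℝ) : ℕ → ℝ :=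
  gp (cr E) L i J l0 W2
noncomputable abbrev fb (L : ℕ → Ln) (i : ℕ) (J : ℤ) (l0 : Ln) (E : E2) (W1 : ℝ) : ℕ → ℝ :=
  gp (fun x => dt x E) L i J l0 W1
noncomputable abbrev fc (L : ℕ → Ln) (i : ℕ) (l0 : Ln) (E : E2) (W2 : ℝ) : ℕ → ℝ :=
  gv (cr E) L i l0 W2
noncomputable abbrev fd (L : ℕ → Ln) (i : ℕ) (l0 : Ln) (E : E2) (W1 : ℝ) : ℕ → ℝ :=
  gv (fun x => dt x E) L i l0 W1

theorem lines_le (hJ : ∀ x ∈ I, zc i x.2 = J) (hE : dt E E = 1) (hq : 0 ≤ q) (hW1 : 0 < W1)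
    (hW12 : W1 ≤ W2) (hW2 : W2 ≤ Kc * rho i) (hr0 : 0 < r0) (hr : r0 * N ≤ W1)
    (hN : 1 ≤ N) (hKN : 2 * Kc ≤ N)
    (hin : ∀ x ∈ I, InPlank (L x.1) l0 E W1 W2 (zl i J) (rho i)) {D0 : ℝ} (hD0 : 0 ≤ D0)
    (hD : DMax (alive I i J) L (fun _ => 1) (zl i J) (rho i) D0 0 q r0 (100 * rho i)) :
    (((Iz I (i + M) M J).image Prod.fst).card : ℝ) ≤
      (2 * N + 1) ^ 4 * (D0 * (W1 * W2 * W2 ^ q)) := by
  classical
  have e : ((Iz I (i + M) M J).image Prod.fst).card = (alive I i J).card := by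
    rw [← image_fst_Iz (j := i + M) (M := M) hJ]
  rw [e]
  have hρ := rho_pos i
  have hM : (1:ℝ) ≤ 2 ^ M := one_le_pow₀ (by norm_num)
  have hN1 : (1:ℝ) ≤ N := by exact_mod_cast hN
  refine cover_dmax hρ hq hD0 hr0 hD (Subset.refl _) hN hE (l := l0) hr hW12 ?_ ?_
  · refine hW2.trans ?_
    have : Kc * rho i ≤ (100 * N) * rho i := mul_le_mul_of_nonneg_right (by linarith) hρ.le
    linarith
  · intro t ht
    unfold alive at ht
    obtain ⟨x, hx, rfl⟩ := mem_image.1 ht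
    exact hin x (mem_filter.1 hx).1

theorem tube_le (hJ : ∀ x ∈ I, zc i x.2 = J) (hE : dt E E = 1) (hq : 0 ≤ q) (hW1 : 0 < W1)
    (hW12 : W1 ≤ W2) (hW2 : W2 ≤ Kc * rho i) (hr0 : 0 < r0) (hr : r0 * (N * 2 ^ M) ≤ 6 * W1)
    (hN : 1 ≤ N) (hKN : 2 * Kc ≤ N) {j2 k2 : ℕ} (hj : i + M = j2 + k2) {D2 T : ℝ} (hD2 : 0 ≤ D2)
    (hT : T = 2 ^ k2)
    (hD : ∀ J', DMax (alive I j2 J') L (fun _ => 1) (zl j2 J') (rho j2) D2 0 q r0 (100 * rho j2))
    {y0 : ℕ × ℤ} (hy0 : y0 ∈ Iz I (i + M) M J) :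
    ((Tube (Iz I (i + M) M J) (fa L i J l0 E W2) (fb L i J l0 E W1) (fc L i l0 E W2)
      (fd L i l0 E W1) (2 ^ M) T y0).card : ℝ) ≤
      (2 * N + 1) ^ 4 * (D2 * ((6 * W1 / 2 ^ M) * (6 * W2 / 2 ^ M) * (6 * W2 / 2 ^ M) ^ q)) := by
  classical
  have hW2' : 0 < W2 := lt_of_lt_of_le hW1 hW12
  set TT := Tube (Iz I (i + M) M J) (fa L i J l0 E W2) (fb L i J l0 E W1) (fc L i l0 E W2)
      (fd L i l0 E W1) (2 ^ M) T y0 with hTT
  have hρ := rho_pos j2
  have hρi := rho_pos i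
  have hM : (0:ℝ) < 2 ^ M := by positivity
  have hM1 : (1:ℝ) ≤ 2 ^ M := one_le_pow₀ (by norm_num)
  have hk1 : (1:ℝ) ≤ 2 ^ k2 := one_le_pow₀ (by norm_num)
  have hN1 : (1:ℝ) ≤ N := by exact_mod_cast hN
  have e1 : TT.card = (TT.image Prod.fst).card := by
    rw [card_image_of_injOn]
    intro y hy y' hy' h
    rw [mem_coe, hTT] at hy hy'
    unfold Tube at hy hy'
    rw [mem_filter] at hy hy'
    exact Prod.ext h (by rw [hy.2.1, hy'.2.1])
  rw [e1]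
  set J' : ℤ := (2 ^ M * J + y0.2) / 2 ^ k2 with hJ'
  refine cover_dmax hρ hq hD2 hr0 (hD J') (S' := TT.image Prod.fst) ?_ hN hE (l := L y0.1) ?_ ?_
    ?_ ?_
  · -- alive
    intro t ht
    obtain ⟨y, hy, rfl⟩ := mem_image.1 ht
    rw [hTT] at hy
    unfold Tube at hy
    rw [mem_filter] at hy
    obtain ⟨x, hx, h1, h2⟩ := mem_Iz.1 hy.1
    unfold alive
    refine mem_image.2 ⟨x, mem_filter.2 ⟨hx, ?_⟩, h1⟩
    rw [zc_div j2 k2, ← hj, h2, hy.2.1]
  · rw [le_div_iff₀ hM]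
    have : r0 * N * 2 ^ M = r0 * (N * 2 ^ M) := by ring
    linarith
  · gcongr
  · rw [rho_eq hj, div_le_iff₀ hM]
    have e2 : 100 * (2 ^ k2 / 2 ^ M * rho i) * N * 2 ^ M = 100 * 2 ^ k2 * (N * rho i) := by
      field_simp
    rw [e2]
    have e3 : 2 * W2 ≤ N * rho i := by nlinarith
    have e4 : 0 ≤ N * rho i := by positivity
    nlinarith
  · intro t ht z hz
    obtain ⟨y, hy, rfl⟩ := mem_image.1 ht
    rw [hTT] at hy
    unfold Tube at hy
    rw [mem_filter] at hy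
    obtain ⟨-, h2, hpa, hpb, hc, hd⟩ := hy
    rw [h2] at hpa hpb
    have hzz : |z - zl (i + M) (2 ^ M * J + y0.2)| ≤ (2 * (2 ^ k2 / 2 ^ M)) * rho i := by
      have n1 := zl_near j2 k2 (2 ^ M * J + y0.2)
      rw [← hj, ← hJ'] at n1
      have e3 : (2 * (2 ^ k2 / 2 ^ M)) * rho i = 2 * rho j2 := by rw [rho_eq hj]; ring
      rw [e3]
      rw [abs_le] at hz ⊢
      constructor <;> linarith [n1.1, n1.2]
    have ee : ∀ W : ℝ, 2 * W * (1 / 2 ^ M + 2 * (2 ^ k2 / 2 ^ M) * (1 / T)) = 6 * W / 2 ^ M := by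
      intro W
      rw [hT]; field_simp; ring
    constructor
    · rw [← ee W1]
      exact diff_le L i J l0 W1 (dt_lin E) M hW1 y.1 y0.1 y0.2 z hpb hd (by positivity) hzz
    · rw [← ee W2]
      exact diff_le L i J l0 W2 (cr_lin E) M hW2' y.1 y0.1 y0.2 z hpa hc (by positivity) hzz

theorem slab_le (hJ : ∀ x ∈ I, zc i x.2 = J) (hE : dt E E = 1) (hq : 0 ≤ q) (hW1 : 0 < W1)
    (hW12 : W1 ≤ W2) (hW2 : W2 ≤ Kc * rho i) (hr0 : 0 < r0) (hr : r0 * (N * 2 ^ M) ≤ 6 * W1)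
    (hN : 1 ≤ N) (hKN : 2 * Kc ≤ N)
    (hin : ∀ x ∈ I, InPlank (L x.1) l0 E W1 W2 (zl i J) (rho i))
    {j1 k1 : ℕ} (hj : i + M = j1 + k1) {D1 : ℝ} (hD1 : 0 ≤ D1)
    (hD : ∀ J', DMax (alive I j1 J') L (fun _ => 1) (zl j1 J') (rho j1) D1 0 q r0 (100 * rho j1))
    {y0 : ℕ × ℤ} (hy0 : y0 ∈ Iz I (i + M) M J) (n : ℝ × ℝ) (hn : n.1 ^ 2 + n.2 ^ 2 = 1) :
    (((Slab (Iz I (i + M) M J) (fa L i J l0 E W2) (fb L i J l0 E W1) (fc L i l0 E W2)
      (fd L i l0 E W1) (2 ^ k1) (2 ^ M) n y0).image Prod.fst).card : ℝ) ≤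
      3 * ((2 * N + 1) ^ 4 * (D1 * ((2880 * 2 ^ k1 * W1 * W2 / (2 ^ M) ^ 2) *
        (144 * 2 ^ k1 * W2 / 2 ^ M) ^ q))) := by
  classical
  have hW2' : 0 < W2 := lt_of_lt_of_le hW1 hW12
  set SS := Slab (Iz I (i + M) M J) (fa L i J l0 E W2) (fb L i J l0 E W1) (fc L i l0 E W2)
      (fd L i l0 E W1) (2 ^ k1) (2 ^ M) n y0 with hSS
  have hρ := rho_pos j1
  have hρi := rho_pos i
  have hM : (0:ℝ) < 2 ^ M := by positivity
  have hM1 : (1:ℝ) ≤ 2 ^ M := one_le_pow₀ (by norm_num)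
  have hk0 : (0:ℝ) < 2 ^ k1 := by positivity
  have hk1 : (1:ℝ) ≤ 2 ^ k1 := one_le_pow₀ (by norm_num)
  have hN1 : (1:ℝ) ≤ N := by exact_mod_cast hN
  obtain ⟨e', a1, a2, he', hBa, ha12, ha2, haa, hmem⟩ := rect hE (A := 18 * 2 ^ k1 * W2 / 2 ^ M)
    (B := 18 * 2 ^ k1 * W1 / 2 ^ M) (δ := 10 / (9 * 2 ^ k1)) (by positivity) (by gcongr)
    (by positivity) (by rw [div_le_iff₀ (by positivity)]; linarith) hn
  have hBa' : 10 * W1 / 2 ^ M ≤ a1 := by
    refine le_trans (le_of_eq ?_) hBa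
    field_simp; ring
  have ha1 : 0 < a1 := lt_of_lt_of_le (by positivity) hBa'
  have ha2p : 0 < a2 := lt_of_lt_of_le ha1 ha12
  have haa' : a1 * a2 ≤ 2880 * 2 ^ k1 * W1 * W2 / (2 ^ M) ^ 2 := by
    refine haa.trans (le_of_eq ?_)
    field_simp; ring
  have ha2' : a2 ≤ 144 * 2 ^ k1 * W2 / 2 ^ M := by
    refine ha2.trans (le_of_eq ?_)
    ring
  set J0 : ℤ := (2 ^ M * J + y0.2) / 2 ^ k1 with hJ0
  -- one window cell
  set Sd : ℤ → Finset ℕ := fun δ => (alive I j1 (J0 + δ)).filter fun t =>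
    InPlank (L t) (L y0.1) e' a1 a2 (zl j1 (J0 + δ)) (rho j1) with hSd
  have hone : ∀ δ : ℤ, ((Sd δ).card : ℝ) ≤ (2 * N + 1) ^ 4 * (D1 * (a1 * a2 * a2 ^ q)) := by
    intro δ
    refine cover_dmax hρ hq hD1 hr0 (hD (J0 + δ)) (S' := Sd δ) (filter_subset _ _) hN he'
      (l := L y0.1) ?_ ha12 ?_ fun t ht => (mem_filter.1 ht).2
    · refine le_trans ?_ hBa'
      rw [le_div_iff₀ hM]
      have : r0 * N * 2 ^ M = r0 * (N * 2 ^ M) := by ring
      linarith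
    · refine ha2'.trans ?_
      rw [rho_eq hj, div_le_iff₀ hM]
      have e2 : 100 * (2 ^ k1 / 2 ^ M * rho i) * N * 2 ^ M = 100 * 2 ^ k1 * (N * rho i) := by
        field_simp
      rw [e2]
      have e3 : 2 * W2 ≤ N * rho i := by nlinarith
      have e4 : 0 ≤ N * rho i := by positivity
      nlinarith
  have hsub : SS.image Prod.fst ⊆ (Sd (-1) ∪ Sd 0) ∪ Sd 1 := by
    intro t ht
    obtain ⟨y, hy, rfl⟩ := mem_image.1 ht
    rw [hSS] at hy
    unfold Slab at hy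
    rw [mem_filter] at hy
    obtain ⟨hyI, hyH, hpa, hpb, hnp, hnv⟩ := hy
    obtain ⟨x, hx, h1, h2⟩ := mem_Iz.1 hyI
    -- the window cell of `y`
    set J' : ℤ := (2 ^ M * J + y.2) / 2 ^ k1 with hJ'
    have hz2 : |y.2 - y0.2| ≤ 2 ^ k1 := by
      have : |((y.2 - y0.2 : ℤ) : ℝ)| ≤ ((2 ^ k1 : ℤ) : ℝ) := by
        push_cast; push_cast at hyH; exact hyH
      exact_mod_cast this
    have hkz : (0:ℤ) < 2 ^ k1 := by positivity
    have hJJ : |J' - J0| ≤ 1 := by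
      have m1 := Int.emod_add_mul_ediv (2 ^ M * J + y.2) (2 ^ k1)
      have m2 := Int.emod_nonneg (2 ^ M * J + y.2) hkz.ne'
      have m3 := Int.emod_lt_of_pos (2 ^ M * J + y.2) hkz
      have m4 := Int.emod_add_mul_ediv (2 ^ M * J + y0.2) (2 ^ k1)
      have m5 := Int.emod_nonneg (2 ^ M * J + y0.2) hkz.ne'
      have m6 := Int.emod_lt_of_pos (2 ^ M * J + y0.2) hkz
      rw [← hJ'] at m1
      rw [← hJ0] at m4
      rw [abs_le] at hz2 ⊢
      constructor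
      · by_contra hcon
        rw [not_le] at hcon
        have : J' - J0 ≤ -2 := by omega
        nlinarith
      · by_contra hcon
        rw [not_le] at hcon
        have : 2 ≤ J' - J0 := by omega
        nlinarith
    have hin' : y.1 ∈ Sd (J' - J0) := by
      rw [hSd]
      simp only
      rw [mem_filter]
      have e1 : J0 + (J' - J0) = J' := by ring
      rw [e1]
      refine ⟨?_, ?_⟩
      · unfold alive
        refine mem_image.2 ⟨x, mem_filter.2 ⟨hx, ?_⟩, h1⟩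
        rw [zc_div j1 k1, ← hj, h2]
      · intro z hz
        have hzz : |z - zl (i + M) (2 ^ M * J + y0.2)| ≤ (3 * (2 ^ k1 / 2 ^ M)) * rho i := by
          have n1 := zl_near2 j1 k1 (2 ^ M * J + y0.2) J' (by rw [← hJ0]; exact hJJ)
          rw [← hj] at n1
          have e3 : (3 * (2 ^ k1 / 2 ^ M)) * rho i = 3 * rho j1 := by rw [rho_eq hj]; ring
          rw [e3]
          rw [abs_le] at hz n1 ⊢
          constructor <;> linarith [n1.1, n1.2]
        have hbd : ∀ w ∈ Iz I (i + M) M J, |fc L i l0 E W2 w.1| ≤ 1 ∧ |fd L i l0 E W1 w.1| ≤ 1 := by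
          intro w hw
          obtain ⟨v, hv, g1, g2⟩ := mem_Iz.1 hw
          have hin2 := hin v hv
          rw [g1] at hin2
          exact ⟨(pos_bd L i J l0 W2 (cr_lin E) M hW2' w.1 (fun z hz => (hin2 z hz).2) 0 le_rfl
            (by positivity)).2, (pos_bd L i J l0 W1 (dt_lin E) M hW1 w.1
            (fun z hz => (hin2 z hz).1) 0 le_rfl (by positivity)).2⟩
        have hc2 : |fc L i l0 E W2 y.1 - fc L i l0 E W2 y0.1| ≤ 2 := by
          refine (abs_sub _ _).trans ?_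
          linarith [(hbd y hyI).1, (hbd y0 hy0).1]
        have hd2 : |fd L i l0 E W1 y.1 - fd L i l0 E W1 y0.1| ≤ 2 := by
          refine (abs_sub _ _).trans ?_
          linarith [(hbd y hyI).2, (hbd y0 hy0).2]
        push_cast at hpa hpb hnv
        have ee : ∀ W : ℝ, 2 * W * (3 * 2 ^ k1 / 2 ^ M + 3 * (2 ^ k1 / 2 ^ M) * 2) =
            18 * 2 ^ k1 * W / 2 ^ M := by
          intro W; ring
        refine hmem _ ?_ ?_ ?_
        · rw [← ee W2]
          exact diff_le L i J l0 W2 (cr_lin E) M hW2' y.1 y0.1 y0.2 z hpa hc2 (by positivity) hzz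
        · rw [← ee W1]
          exact diff_le L i J l0 W1 (dt_lin E) M hW1 y.1 y0.1 y0.2 z hpb hd2 (by positivity) hzz
        · have d1 := pos_diff L i J l0 W2 (cr_lin E) M hW2' y.1 y0.1 y0.2 z
          have d2 := pos_diff (φ := fun x => dt x E) L i J l0 W1 (dt_lin E) M hW1 y.1 y0.1 y0.2 z
          rw [d1, d2]
          set pa := pos (gp (cr E) L i J l0 W2) (gv (cr E) L i l0 W2) (2 ^ M) y.1 y0.2 -
            pos (gp (cr E) L i J l0 W2) (gv (cr E) L i l0 W2) (2 ^ M) y0.1 y0.2 with hpa'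
          set pb := pos (gp (fun x => dt x E) L i J l0 W1) (gv (fun x => dt x E) L i l0 W1)
            (2 ^ M) y.1 y0.2 - pos (gp (fun x => dt x E) L i J l0 W1)
            (gv (fun x => dt x E) L i l0 W1) (2 ^ M) y0.1 y0.2 with hpb'
          set rr := (z - zl (i + M) (2 ^ M * J + y0.2)) / rho i with hrr
          have hrr' : |rr| ≤ 3 * (2 ^ k1 / 2 ^ M) := by
            rw [hrr, abs_div, abs_of_pos hρi, div_le_iff₀ hρi]; exact hzz
          have e4 : n.1 * (2 * W2 * (pa + rr * (gv (cr E) L i l0 W2 y.1 -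
              gv (cr E) L i l0 W2 y0.1)) / (18 * 2 ^ k1 * W2 / 2 ^ M)) +
              n.2 * (2 * W1 * (pb + rr * (gv (fun x => dt x E) L i l0 W1 y.1 -
              gv (fun x => dt x E) L i l0 W1 y0.1)) / (18 * 2 ^ k1 * W1 / 2 ^ M)) =
              (2 ^ M / (9 * 2 ^ k1)) * ((n.1 * pa + n.2 * pb) +
                rr * (n.1 * (gv (cr E) L i l0 W2 y.1 - gv (cr E) L i l0 W2 y0.1) +
                  n.2 * (gv (fun x => dt x E) L i l0 W1 y.1 -
                    gv (fun x => dt x E) L i l0 W1 y0.1))) := by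
            field_simp
            ring
          rw [e4, abs_mul, abs_of_pos (by positivity : (0:ℝ) < 2 ^ M / (9 * 2 ^ k1))]
          have e5 : |(n.1 * pa + n.2 * pb) +
                rr * (n.1 * (gv (cr E) L i l0 W2 y.1 - gv (cr E) L i l0 W2 y0.1) +
                  n.2 * (gv (fun x => dt x E) L i l0 W1 y.1 -
                    gv (fun x => dt x E) L i l0 W1 y0.1))| ≤
              4 / 2 ^ M + 3 * (2 ^ k1 / 2 ^ M) * (2 / 2 ^ k1) := by
            refine (abs_add_le _ _).trans (add_le_add hnp ?_)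
            rw [abs_mul]
            exact mul_le_mul hrr' hnv (abs_nonneg _) (by positivity)
          refine (mul_le_mul_of_nonneg_left e5 (by positivity)).trans (le_of_eq ?_)
          field_simp
          ring
    have hcases : J' - J0 = -1 ∨ J' - J0 = 0 ∨ J' - J0 = 1 := by
      rw [abs_le] at hJJ; omega
    rw [mem_union, mem_union]
    rcases hcases with h | h | h
    · rw [h] at hin'; exact Or.inl (Or.inl hin')
    · rw [h] at hin'; exact Or.inl (Or.inr hin')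
    · rw [h] at hin'; exact Or.inr hin'
  have hcard : ((SS.image Prod.fst).card : ℝ) ≤
      ((Sd (-1)).card : ℝ) + ((Sd 0).card : ℝ) + ((Sd 1).card : ℝ) := by
    have h1 := card_le_card hsub
    have h2 := card_union_le (Sd (-1) ∪ Sd 0) (Sd 1)
    have h3 := card_union_le (Sd (-1)) (Sd 0)
    have : (SS.image Prod.fst).card ≤ (Sd (-1)).card + (Sd 0).card + (Sd 1).card := by omega
    exact_mod_cast this
  have hfin : (2 * (N:ℝ) + 1) ^ 4 * (D1 * (a1 * a2 * a2 ^ q)) ≤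
      (2 * N + 1) ^ 4 * (D1 * ((2880 * 2 ^ k1 * W1 * W2 / (2 ^ M) ^ 2) *
        (144 * 2 ^ k1 * W2 / 2 ^ M) ^ q)) := by
    gcongr
  linarith [hone (-1), hone 0, hone 1]

end counts

end Crest.Agent.R138.LmA861
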