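import Crest.Agent.R138.LmA6_861

/-!
# R138, LEMMA A over one box (helper861), part 3: `boxA`
-/

set_option autoImplicit false
set_option linter.unusedVariables false
set_option linter.unusedSectionVars false

namespace Crest.Agent.R138.LmA861

open Finset
open Crest.Agent.R138.Flag51 (Ln E2 cr dt InPlank)
open Crest.Agent.R138.Tilt51 (DMax)
open Crest.Agent.R138.Mk163 (zc zl rho alive own)

theorem two_pow_exp (k : ℕ) : (2:ℝ) ^ k = Real.exp (k * Real.log 2) := by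
  rw [Real.exp_nat_mul, Real.exp_log (by norm_num)]

theorem rpow_aux {c W q : ℝ} (hc : 0 < c) (hW : 0 < W) (x : ℝ) :
    (c * W * Real.exp x) ^ q = c ^ q * (W ^ q * Real.exp (q * x)) := by
  rw [Real.mul_rpow (by positivity) (Real.exp_pos _).le, Real.mul_rpow hc.le hW.le,
    ← Real.exp_mul, mul_comm x q, mul_assoc]

set_option maxHeartbeats 1600000 in
open Classical in
/-- **LEMMA A over one box**, core form. -/
theorem boxA_core {s c' q Kc : ℝ} (hs : 0 ≤ s) (hs1 : s ≤ 1) (hsc : 2 * s < c') (hq : 0 ≤ q)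
    (hK : 1 ≤ Kc) :
    ∃ (η τ ε : ℝ) (M0 N : ℕ), 0 < η ∧ η < 1 ∧ 0 < τ ∧ τ < 1 ∧ 0 < ε ∧ 1 ≤ N ∧ (N : ℝ) ≤ 3 * Kc ∧
    ∀ (I : Finset (ℕ × ℝ)) (L : ℕ → Ln) (i M k1 k2 j j1 j2 : ℕ) (J : ℤ) (l0 : Ln) (E : E2)
      (W1 W2 r0 D0 D1 D2 : ℝ),
      j = i + M → j = j1 + k1 → j = j2 + k2 → M0 ≤ M →
      η / 2 * M ≤ k1 → (k1 : ℝ) ≤ η * M → τ / 2 * M ≤ k2 → (k2 : ℝ) ≤ τ * M →
      I.Nonempty → (∀ x ∈ I, zc i x.2 = J) → dt E E = 1 → 0 < W1 → W1 ≤ W2 → W2 ≤ Kc * rho i →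
      0 < r0 → r0 * (N * 2 ^ M) ≤ 6 * W1 →
      (∀ x ∈ I, InPlank (L x.1) l0 E W1 W2 (zl i J) (rho i)) →
      0 < D0 → 0 ≤ D1 → 0 ≤ D2 →
      DMax (alive I i J) L (fun _ => 1) (zl i J) (rho i) D0 0 q r0 (100 * rho i) →
      (∀ J', DMax (alive I j1 J') L (fun _ => 1) (zl j1 J') (rho j1) D1 0 q r0 (100 * rho j1)) →
      (∀ J', DMax (alive I j2 J') L (fun _ => 1) (zl j2 J') (rho j2) D2 0 q r0 (100 * rho j2)) →
      D1 ≤ D0 * Real.exp ((c' + q) * ((M - k1) * Real.log 2) + ε * (M * Real.log 2)) →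
      D2 ≤ D0 * Real.exp ((c' + q) * ((M - k2) * Real.log 2) + ε * (M * Real.log 2)) →
      (∀ x ∈ I, Real.exp ((1 - s - ε) * (M * Real.log 2)) ≤ ((own I i j x).card : ℝ)) →
      (∀ x ∈ I, Real.exp ((1 - s) * (k1 * Real.log 2) - ε * (M * Real.log 2)) ≤
        ((own I j1 j x).card : ℝ)) →
      (∀ x ∈ I, ((own I j1 j x).card : ℝ) ≤
        Real.exp ((1 - s) * (k1 * Real.log 2) + ε * (M * Real.log 2))) →
      (∀ x ∈ I, D0 * W1 * W2 ^ (1 + q) * Real.exp (-(2 - c' + ε) * (M * Real.log 2)) ≤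
        (((alive I j (zc j x.2)).filter fun t =>
          |dt (Flag51.pos (L t) (zl j (zc j x.2)) - Flag51.pos (L x.1) (zl j (zc j x.2))) E| ≤
            2 * W1 / 2 ^ M ∧
          |cr E (Flag51.pos (L t) (zl j (zc j x.2)) - Flag51.pos (L x.1) (zl j (zc j x.2)))| ≤
            2 * W2 / 2 ^ M).card : ℝ)) → False := by
  obtain ⟨η, τ, ε₀, ℓ₀, hη0, hη1, hτ0, hτ1, hε0, hℓ0, key⟩ := lemmaA_exp hs hs1 hsc
  have hlog : 0 < Real.log 2 := Real.log_pos (by norm_num)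
  set N : ℕ := ⌈2 * Kc⌉₊ with hN
  have hKN : 2 * Kc ≤ N := Nat.le_ceil _
  have hN1 : 1 ≤ N := by
    have : (1:ℝ) ≤ N := by linarith
    exact_mod_cast this
  have hNr : (1:ℝ) ≤ N := by exact_mod_cast hN1
  set CN : ℝ := 3 * (2 * N + 1) ^ 4 * 2880 * 144 ^ q with hCN
  have h144 : (1:ℝ) ≤ 144 ^ q := Real.one_le_rpow (by norm_num) hq
  have hp4 : (1:ℝ) ≤ (2 * (N:ℝ) + 1) ^ 4 := one_le_pow₀ (by linarith)
  have hCN1 : 1 ≤ CN := by
    rw [hCN]; nlinarith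
  have hCN0 : 0 < CN := by linarith
  have hN3 : (N : ℝ) ≤ 3 * Kc := by
    have := (Nat.ceil_lt_add_one (by linarith : 0 ≤ 2 * Kc)).le
    rw [← hN] at this
    linarith
  set M0 : ℕ := ⌈(ℓ₀ + Real.log CN / (ε₀ / 2)) / Real.log 2⌉₊ with hM0
  refine ⟨η, τ, ε₀ / 2, max 3 M0, N, hη0, hη1, hτ0, hτ1, by linarith, hN1, hN3, ?_⟩
  intro I L i M k1 k2 j j1 j2 J l0 E W1 W2 r0 D0 D1 D2 hj hj1 hj2 hM hk1a hk1b hk2a hk2b hI hJ hE
    hW1 hW12 hW2 hr0 hr hin hD0 hD1 hD2 hdm0 hdm1 hdm2 hD1' hD2' hown hw1 hw2 hrich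
  have hW2' : 0 < W2 := lt_of_lt_of_le hW1 hW12
  have hM3 : 3 ≤ M := (le_max_left _ _).trans hM
  replace hM : M0 ≤ M := (le_max_right _ _).trans hM
  have hr' : r0 * N ≤ W1 := by
    have h8 : (2:ℝ) ^ 3 ≤ 2 ^ M := pow_le_pow_right₀ (by norm_num) hM3
    have h9 : r0 * N * 2 ^ 3 ≤ r0 * N * 2 ^ M := mul_le_mul_of_nonneg_left h8 (by positivity)
    have h10 : r0 * N * 2 ^ M = r0 * (N * 2 ^ M) := by ring
    linarith
  set ℓ : ℝ := M * Real.log 2 with hℓ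
  have hMM : (ℓ₀ + Real.log CN / (ε₀ / 2)) ≤ ℓ := by
    have e1 : (ℓ₀ + Real.log CN / (ε₀ / 2)) / Real.log 2 ≤ M0 := Nat.le_ceil _
    have e2 : (M0 : ℝ) ≤ M := by exact_mod_cast hM
    rw [div_le_iff₀ hlog] at e1
    exact e1.trans (mul_le_mul_of_nonneg_right e2 hlog.le)
  have hlC : 0 ≤ Real.log CN := Real.log_nonneg hCN1
  have hℓℓ : ℓ₀ ≤ ℓ := by
    have : 0 ≤ Real.log CN / (ε₀ / 2) := by positivity
    linarith
  have hCexp : CN ≤ Real.exp (ε₀ / 2 * ℓ) := by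
    rw [← Real.log_le_iff_le_exp hCN0]
    have : Real.log CN / (ε₀ / 2) ≤ ℓ := by linarith
    rw [div_le_iff₀ (by linarith)] at this
    linarith
  have hℓp : 0 < ℓ := lt_of_lt_of_le hℓ0 hℓℓ
  have hεℓ : 0 < ε₀ * ℓ := mul_pos hε0 hℓp
  set h : ℝ := k1 * Real.log 2 with hh
  set t : ℝ := k2 * Real.log 2 with ht
  have hMk1 : (M - k1 : ℝ) * Real.log 2 = ℓ - h := by rw [hℓ, hh]; ring
  have hMk2 : (M - k2 : ℝ) * Real.log 2 = ℓ - t := by rw [hℓ, ht]; ring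
  rw [hMk1] at hD1'
  rw [hMk2] at hD2'
  have hk1M : k1 ≤ M := by
    have : (k1 : ℝ) ≤ M := hk1b.trans (by nlinarith [(Nat.cast_nonneg M : (0:ℝ) ≤ M)])
    exact_mod_cast this
  have hk2M : k2 ≤ M := by
    have : (k2 : ℝ) ≤ M := hk2b.trans (by nlinarith [(Nat.cast_nonneg M : (0:ℝ) ≤ M)])
    exact_mod_cast this
  have hR : (2:ℝ) ^ M = Real.exp ℓ := two_pow_exp M
  have hH : (2:ℝ) ^ k1 = Real.exp h := two_pow_exp k1
  have hT : Real.exp t = (2:ℝ) ^ k2 := (two_pow_exp k2).symm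
  subst hj
  set Z := Iz I (i + M) M J with hZ
  set n₀ : ℝ := Real.log (D0 * W1 * W2 ^ (1 + q)) with hn₀
  have hcap : 0 < D0 * W1 * W2 ^ (1 + q) := by positivity
  have hen : Real.exp n₀ = D0 * W1 * (W2 * W2 ^ q) := by
    rw [hn₀, Real.exp_log hcap, Real.rpow_add hW2', Real.rpow_one]
  refine key Z (fa L i J l0 E W2) (fb L i J l0 E W1) (fc L i l0 E W2) (fd L i l0 E W1) (2 ^ k1)
    (2 ^ M) ℓ n₀ h t ?_ (by positivity) hℓℓ hR (by push_cast; exact hH)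
    (by rw [hℓ, hh, ← mul_assoc]; exact mul_le_mul_of_nonneg_right hk1a hlog.le)
    (by rw [hℓ, hh, ← mul_assoc]; exact mul_le_mul_of_nonneg_right hk1b hlog.le)
    (by rw [hℓ, ht, ← mul_assoc]; exact mul_le_mul_of_nonneg_right hk2a hlog.le)
    (by rw [hℓ, ht, ← mul_assoc]; exact mul_le_mul_of_nonneg_right hk2b hlog.le)
    ?_ ?_ ?_ ?_ ?_ ?_ ?_ ?_
  · obtain ⟨x, hx⟩ := hI
    exact ⟨(x.1, zc (i + M) x.2 - 2 ^ M * J), mem_Iz.2 ⟨x, hx, rfl, by ring⟩⟩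
  · -- bounds
    intro x hx
    obtain ⟨v, hv, g1, g2⟩ := mem_Iz.1 hx
    have hr1 := Iz_range hJ hx
    have hin2 := hin v hv
    rw [g1] at hin2
    have p1 := pos_bd L i J l0 W2 (cr_lin E) M hW2' x.1 (fun z hz => (hin2 z hz).2) x.2 hr1.1
      hr1.2.le
    have p2 := pos_bd (φ := fun x => dt x E) L i J l0 W1 (dt_lin E) M hW1 x.1
      (fun z hz => (hin2 z hz).1) x.2 hr1.1 hr1.2.le
    refine ⟨?_, p1.1, p2.1, p1.2, p2.2⟩
    have e1 : (0:ℝ) ≤ x.2 := by exact_mod_cast hr1.1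
    have e2 : (x.2:ℝ) ≤ 2 ^ M := by exact_mod_cast hr1.2.le
    rw [abs_of_nonneg e1]; exact e2
  · -- own
    intro x hx
    obtain ⟨v, hv, g1, g2⟩ := mem_Iz.1 hx
    have e1 := hown v hv
    have e2 := own_le_Iz (I := I) (i := i) (M := M) (J := J) (x := v)
    rw [g1] at e2
    refine le_trans (le_trans ?_ e1) (Nat.cast_le.2 (e2.trans (card_le_card fun y hy => ?_)))
    · rw [Real.exp_le_exp]
      linarith
    · rw [mem_filter] at hy ⊢; exact hy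
  · intro x hx
    obtain ⟨v, hv, g1, g2⟩ := mem_Iz.1 hx
    have e1 := hw1 v hv
    have e2 := own_eq_Iz (I := I) (J := J) hj1 hk1M (x := v) (y := x) g1 g2
    rw [e2] at e1
    refine le_trans (le_trans ?_ e1) (Nat.cast_le.2 (card_le_card fun y hy => ?_))
    · rw [Real.exp_le_exp]
      linarith
    · rw [mem_filter] at hy ⊢; exact hy
  · intro x hx
    obtain ⟨v, hv, g1, g2⟩ := mem_Iz.1 hx
    have e1 := hw2 v hv
    have e2 := own_eq_Iz (I := I) (J := J) hj1 hk1M (x := v) (y := x) g1 g2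
    rw [e2] at e1
    refine le_trans (Nat.cast_le.2 (card_le_card fun y hy => ?_)) (le_trans e1 ?_)
    · rw [mem_filter] at hy ⊢; exact hy
    · rw [Real.exp_le_exp]
      linarith
  · -- ball
    intro x hx
    obtain ⟨v, hv, g1, g2⟩ := mem_Iz.1 hx
    have e1 := hrich v hv
    have e0 : Real.exp (n₀ - (2 - c') * ℓ - ε₀ * ℓ) ≤
        D0 * W1 * W2 ^ (1 + q) * Real.exp (-(2 - c' + ε₀ / 2) * ℓ) := by
      rw [← Real.exp_log hcap, ← hn₀, ← Real.exp_add, Real.exp_le_exp]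
      linarith
    refine le_trans (e0.trans e1) (Nat.cast_le.2 ?_)
    rw [g2, g1]
    refine card_le_card_of_injOn (fun t => (t, x.2)) ?_ ?_
    · intro t ht
      rw [mem_coe, mem_filter] at ht
      obtain ⟨hal, hdt, hcr⟩ := ht
      unfold alive at hal
      obtain ⟨w, hw, rfl⟩ := mem_image.1 hal
      rw [mem_filter] at hw
      rw [mem_coe]
      unfold Ball
      rw [mem_filter]
      refine ⟨mem_Iz.2 ⟨w, hw.1, rfl, hw.2⟩, rfl, ?_, ?_⟩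
      · have d1 := pos_diff L i J l0 W2 (cr_lin E) M hW2' w.1 x.1 x.2
          (zl (i + M) (2 ^ M * J + x.2))
        rw [sub_self, zero_div, zero_mul, add_zero] at d1
        rw [d1, abs_mul, abs_of_pos (by linarith : 0 < 2 * W2), mul_div_assoc] at hcr
        have h2 : (2 * W2) * |pos (gp (cr E) L i J l0 W2) (gv (cr E) L i l0 W2) (2 ^ M) w.1 x.2 -
            pos (gp (cr E) L i J l0 W2) (gv (cr E) L i l0 W2) (2 ^ M) x.1 x.2| ≤
            (2 * W2) * (1 / 2 ^ M) := by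
          refine hcr.trans (le_of_eq ?_); ring
        exact le_of_mul_le_mul_left h2 (by linarith)
      · have d1 := pos_diff (φ := fun x => dt x E) L i J l0 W1 (dt_lin E) M hW1 w.1 x.1 x.2
          (zl (i + M) (2 ^ M * J + x.2))
        rw [sub_self, zero_div, zero_mul, add_zero] at d1
        rw [d1, abs_mul, abs_of_pos (by linarith : 0 < 2 * W1), mul_div_assoc] at hdt
        have h2 : (2 * W1) * |pos (gp (fun x => dt x E) L i J l0 W1)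
            (gv (fun x => dt x E) L i l0 W1) (2 ^ M) w.1 x.2 -
            pos (gp (fun x => dt x E) L i J l0 W1) (gv (fun x => dt x E) L i l0 W1) (2 ^ M)
              x.1 x.2| ≤ (2 * W1) * (1 / 2 ^ M) := by
          refine hdt.trans (le_of_eq ?_); ring
        exact le_of_mul_le_mul_left h2 (by linarith)
    · intro t _ t' _ h
      have := congrArg Prod.fst h
      simpa using this
  · -- slab
    intro x hx n hn
    refine le_trans (Nat.cast_le.2 (card_le_card fun y hy => ?_))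
      ((slab_le hJ hE hq hW1 hW12 hW2 hr0 hr hN1 hKN hin hj1 hD1 hdm1 hx n hn).trans ?_)
    · rw [mem_image] at hy ⊢; exact hy
    have e1 : (144:ℝ) * 2 ^ k1 * W2 / 2 ^ M = 144 * W2 * Real.exp (h - ℓ) := by
      rw [hH, hR, Real.exp_sub]; ring
    have e2 : 2880 * (2:ℝ) ^ k1 * W1 * W2 / (2 ^ M) ^ 2 =
        2880 * W1 * W2 * Real.exp (h - 2 * ℓ) := by
      rw [hH, hR, ← Real.exp_nat_mul, Real.exp_sub]; push_cast; ring
    rw [e1, e2, rpow_aux (by norm_num) hW2']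
    calc 3 * ((2 * (N:ℝ) + 1) ^ 4 * (D1 * (2880 * W1 * W2 * Real.exp (h - 2 * ℓ) *
          (144 ^ q * (W2 ^ q * Real.exp (q * (h - ℓ))))))) ≤
        3 * ((2 * (N:ℝ) + 1) ^ 4 * ((D0 * Real.exp ((c' + q) * (ℓ - h) + ε₀ / 2 * ℓ)) *
          (2880 * W1 * W2 * Real.exp (h - 2 * ℓ) *
          (144 ^ q * (W2 ^ q * Real.exp (q * (h - ℓ))))))) := by gcongr
      _ = CN * ((D0 * W1 * (W2 * W2 ^ q)) * (Real.exp ((c' + q) * (ℓ - h) + ε₀ / 2 * ℓ) *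
          Real.exp (h - 2 * ℓ) * Real.exp (q * (h - ℓ)))) := by rw [hCN]; ring
      _ ≤ Real.exp (ε₀ / 2 * ℓ) * ((D0 * W1 * (W2 * W2 ^ q)) *
          (Real.exp ((c' + q) * (ℓ - h) + ε₀ / 2 * ℓ) *
          Real.exp (h - 2 * ℓ) * Real.exp (q * (h - ℓ)))) := by
          refine mul_le_mul_of_nonneg_right hCexp (by positivity)
      _ = Real.exp (n₀ - (2 - c') * (ℓ - h) - h + ε₀ * ℓ) := by
          rw [← hen, ← Real.exp_add, ← Real.exp_add, ← Real.exp_add, ← Real.exp_add]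
          congr 1; ring
  · -- tube
    intro x hx
    refine (tube_le hJ hE hq hW1 hW12 hW2 hr0 hr hN1 hKN hj2 hD2 hT hdm2 hx).trans ?_
    have e1 : 6 * W2 / 2 ^ M = 6 * W2 * Real.exp (-ℓ) := by
      rw [hR, Real.exp_neg]; ring
    have e2 : 6 * W1 / 2 ^ M = 6 * W1 * Real.exp (-ℓ) := by
      rw [hR, Real.exp_neg]; ring
    rw [e1, e2, rpow_aux (by norm_num) hW2']
    have e6 : (6:ℝ) ^ q ≤ 144 ^ q := Real.rpow_le_rpow (by norm_num) (by norm_num) hq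
    calc (2 * (N:ℝ) + 1) ^ 4 * (D2 * (6 * W1 * Real.exp (-ℓ) * (6 * W2 * Real.exp (-ℓ)) *
          (6 ^ q * (W2 ^ q * Real.exp (q * -ℓ))))) ≤
        (2 * (N:ℝ) + 1) ^ 4 * ((D0 * Real.exp ((c' + q) * (ℓ - t) + ε₀ / 2 * ℓ)) *
          (6 * W1 * Real.exp (-ℓ) * (6 * W2 * Real.exp (-ℓ)) *
          (144 ^ q * (W2 ^ q * Real.exp (q * -ℓ))))) := by gcongr
      _ = ((2 * (N:ℝ) + 1) ^ 4 * 36 * 144 ^ q) * ((D0 * W1 * (W2 * W2 ^ q)) *
          (Real.exp ((c' + q) * (ℓ - t) + ε₀ / 2 * ℓ) *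
          Real.exp (-ℓ) * Real.exp (-ℓ) * Real.exp (q * -ℓ))) := by ring
      _ ≤ Real.exp (ε₀ / 2 * ℓ) * ((D0 * W1 * (W2 * W2 ^ q)) *
          (Real.exp ((c' + q) * (ℓ - t) + ε₀ / 2 * ℓ) *
          Real.exp (-ℓ) * Real.exp (-ℓ) * Real.exp (q * -ℓ))) := by
          refine mul_le_mul_of_nonneg_right (le_trans ?_ hCexp) (by positivity)
          rw [hCN]
          have : (2 * (N:ℝ) + 1) ^ 4 * 36 * 144 ^ q = 36 * ((2 * (N:ℝ) + 1) ^ 4 * 144 ^ q) := by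
            ring
          rw [this]
          have : 3 * (2 * (N:ℝ) + 1) ^ 4 * 2880 * 144 ^ q =
            8640 * ((2 * (N:ℝ) + 1) ^ 4 * 144 ^ q) := by ring
          rw [this]
          gcongr
          norm_num
      _ = Real.exp (n₀ - (2 - c') * ℓ - (c' + q) * t + ε₀ * ℓ) := by
          rw [← hen, ← Real.exp_add, ← Real.exp_add, ← Real.exp_add, ← Real.exp_add,
            ← Real.exp_add]
          congr 1; ring
      _ ≤ Real.exp (n₀ - (2 - c') * ℓ - c' * t + ε₀ * ℓ) := by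
          rw [Real.exp_le_exp]
          have : 0 ≤ q * t := by rw [ht]; positivity
          linarith
  · -- lines
    refine le_trans (Nat.cast_le.2 (card_le_card fun y hy => ?_))
      ((lines_le (M := M) hJ hE hq hW1 hW12 hW2 hr0 hr' hN1 hKN hin hD0.le hdm0).trans ?_)
    · rw [mem_image] at hy ⊢; exact hy
    calc (2 * (N:ℝ) + 1) ^ 4 * (D0 * (W1 * W2 * W2 ^ q)) =
        (2 * (N:ℝ) + 1) ^ 4 * (D0 * W1 * (W2 * W2 ^ q)) := by ring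
      _ ≤ Real.exp (ε₀ / 2 * ℓ) * (D0 * W1 * (W2 * W2 ^ q)) := by
          refine mul_le_mul_of_nonneg_right (le_trans ?_ hCexp) (by positivity)
          rw [hCN]; nlinarith
      _ ≤ Real.exp (ε₀ * ℓ) * (D0 * W1 * (W2 * W2 ^ q)) := by
          refine mul_le_mul_of_nonneg_right ?_ (by positivity)
          rw [Real.exp_le_exp]; linarith
      _ = Real.exp (n₀ + ε₀ * ℓ) := by rw [← hen, ← Real.exp_add, add_comm]

open Classical in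
/-- **LEMMA A over one box.** -/
theorem boxA {s c' q Kc : ℝ} (hs : 0 ≤ s) (hs1 : s ≤ 1) (hsc : 2 * s < c') (hq : 0 ≤ q)
    (hK : 1 ≤ Kc) :
    ∃ (η τ ε : ℝ) (M0 N : ℕ), 0 < η ∧ η < 1 ∧ 0 < τ ∧ τ < 1 ∧ 0 < ε ∧ 1 ≤ N ∧
    ∀ (I : Finset (ℕ × ℝ)) (L : ℕ → Ln) (i M k1 k2 j j1 j2 : ℕ) (J : ℤ) (l0 : Ln) (E : E2)
      (W1 W2 r0 D0 D1 D2 : ℝ),
      j = i + M → j = j1 + k1 → j = j2 + k2 → M0 ≤ M →
      η / 2 * M ≤ k1 → (k1 : ℝ) ≤ η * M → τ / 2 * M ≤ k2 → (k2 : ℝ) ≤ τ * M →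
      I.Nonempty → (∀ x ∈ I, zc i x.2 = J) → dt E E = 1 → 0 < W1 → W1 ≤ W2 → W2 ≤ Kc * rho i →
      0 < r0 → r0 * (N * 2 ^ M) ≤ W1 →
      (∀ x ∈ I, InPlank (L x.1) l0 E W1 W2 (zl i J) (rho i)) →
      0 < D0 → 0 ≤ D1 → 0 ≤ D2 →
      DMax (alive I i J) L (fun _ => 1) (zl i J) (rho i) D0 0 q r0 (100 * rho i) →
      (∀ J', DMax (alive I j1 J') L (fun _ => 1) (zl j1 J') (rho j1) D1 0 q r0 (100 * rho j1)) →
      (∀ J', DMax (alive I j2 J') L (fun _ => 1) (zl j2 J') (rho j2) D2 0 q r0 (100 * rho j2)) →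
      D1 ≤ D0 * Real.exp ((c' + q) * ((M - k1) * Real.log 2) + ε * (M * Real.log 2)) →
      D2 ≤ D0 * Real.exp ((c' + q) * ((M - k2) * Real.log 2) + ε * (M * Real.log 2)) →
      (∀ x ∈ I, Real.exp ((1 - s - ε) * (M * Real.log 2)) ≤ ((own I i j x).card : ℝ)) →
      (∀ x ∈ I, Real.exp ((1 - s) * (k1 * Real.log 2) - ε * (M * Real.log 2)) ≤
        ((own I j1 j x).card : ℝ)) →
      (∀ x ∈ I, ((own I j1 j x).card : ℝ) ≤
        Real.exp ((1 - s) * (k1 * Real.log 2) + ε * (M * Real.log 2))) →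
      (∀ x ∈ I, D0 * W1 * W2 ^ (1 + q) * Real.exp (-(2 - c' + ε) * (M * Real.log 2)) ≤
        (((alive I j (zc j x.2)).filter fun t =>
          |dt (Flag51.pos (L t) (zl j (zc j x.2)) - Flag51.pos (L x.1) (zl j (zc j x.2))) E| ≤
            2 * W1 / 2 ^ M ∧
          |cr E (Flag51.pos (L t) (zl j (zc j x.2)) - Flag51.pos (L x.1) (zl j (zc j x.2)))| ≤
            2 * W2 / 2 ^ M).card : ℝ)) → False := by
  obtain ⟨η, τ, ε, M0, N, h1, h2, h3, h4, h5, h6, h7, key⟩ := boxA_core hs hs1 hsc hq hK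
  refine ⟨η, τ, ε, M0, N, h1, h2, h3, h4, h5, h6, ?_⟩
  intro I L i M k1 k2 j j1 j2 J l0 E W1 W2 r0 D0 D1 D2 hj hj1 hj2 hM hk1a hk1b hk2a hk2b hI hJ hE
    hW1 hW12 hW2 hr0 hr
  exact key I L i M k1 k2 j j1 j2 J l0 E W1 W2 r0 D0 D1 D2 hj hj1 hj2 hM hk1a hk1b hk2a hk2b hI hJ
    hE hW1 hW12 hW2 hr0 (by linarith)

theorem exp_two (x : ℝ) : Real.exp (x * Real.log 2) = (2:ℝ) ^ x := by
  rw [Real.rpow_def_of_pos (by norm_num), mul_comm]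

open Classical in
/-- **LEMMA A over one box**, form of the assembly (829, 57): levels `i ≤ j1, j2 ≤ j`, powers of
`2`, resolution `r0 ≤ W1 / (Kc 2^M)`. -/
theorem boxA2 {s c' q Kc : ℝ} (hs : 0 ≤ s) (hs1 : s ≤ 1) (hsc : 2 * s < c') (hq : 0 ≤ q)
    (hK : 1 ≤ Kc) :
    ∃ (η τ ε : ℝ) (M0 : ℕ), 0 < η ∧ η < 1 ∧ 0 < τ ∧ τ < 1 ∧ 0 < ε ∧
    ∀ (I : Finset (ℕ × ℝ)) (L : ℕ → Ln) (i j j1 j2 : ℕ) (J : ℤ) (l0 : Ln) (E : E2)
      (W1 W2 r0 D0 D1 D2 : ℝ),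
      i ≤ j → j1 ≤ j → j2 ≤ j → M0 ≤ j - i →
      η / 2 * ((j - i : ℕ) : ℝ) ≤ ((j - j1 : ℕ) : ℝ) →
      ((j - j1 : ℕ) : ℝ) ≤ η * ((j - i : ℕ) : ℝ) →
      τ / 2 * ((j - i : ℕ) : ℝ) ≤ ((j - j2 : ℕ) : ℝ) →
      ((j - j2 : ℕ) : ℝ) ≤ τ * ((j - i : ℕ) : ℝ) →
      I.Nonempty → (∀ x ∈ I, zc i x.2 = J) → dt E E = 1 → 0 < W1 → W1 ≤ W2 → W2 ≤ Kc * rho i →
      0 < r0 → r0 * (Kc * 2 ^ (j - i)) ≤ W1 →
      (∀ x ∈ I, InPlank (L x.1) l0 E W1 W2 (zl i J) (rho i)) →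
      0 < D0 → 0 ≤ D1 → 0 ≤ D2 →
      DMax (alive I i J) L (fun _ => 1) (zl i J) (rho i) D0 0 q r0 (100 * rho i) →
      (∀ J', DMax (alive I j1 J') L (fun _ => 1) (zl j1 J') (rho j1) D1 0 q r0 (100 * rho j1)) →
      (∀ J', DMax (alive I j2 J') L (fun _ => 1) (zl j2 J') (rho j2) D2 0 q r0 (100 * rho j2)) →
      D1 ≤ D0 * (2:ℝ) ^ ((c' + q) * (((j - i : ℕ) : ℝ) - ((j - j1 : ℕ) : ℝ)) +
        ε * ((j - i : ℕ) : ℝ)) →
      D2 ≤ D0 * (2:ℝ) ^ ((c' + q) * (((j - i : ℕ) : ℝ) - ((j - j2 : ℕ) : ℝ)) +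
        ε * ((j - i : ℕ) : ℝ)) →
      (∀ x ∈ I, (2:ℝ) ^ ((1 - s) * ((j - i : ℕ) : ℝ) - ε * ((j - i : ℕ) : ℝ)) ≤
        ((own I i j x).card : ℝ)) →
      (∀ x ∈ I, (2:ℝ) ^ ((1 - s) * ((j - j1 : ℕ) : ℝ) - ε * ((j - i : ℕ) : ℝ)) ≤
        ((own I j1 j x).card : ℝ)) →
      (∀ x ∈ I, ((own I j1 j x).card : ℝ) ≤
        (2:ℝ) ^ ((1 - s) * ((j - j1 : ℕ) : ℝ) + ε * ((j - i : ℕ) : ℝ))) →
      (∀ x ∈ I, D0 * W1 * W2 ^ (1 + q) *
          (2:ℝ) ^ (-(2 - c') * ((j - i : ℕ) : ℝ) - ε * ((j - i : ℕ) : ℝ)) ≤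
        (((alive I j (zc j x.2)).filter fun t =>
          |cr E (Flag51.pos (L t) (zl j (zc j x.2)) - Flag51.pos (L x.1) (zl j (zc j x.2)))| ≤
            2 * W2 / 2 ^ (j - i) ∧
          |dt (Flag51.pos (L t) (zl j (zc j x.2)) - Flag51.pos (L x.1) (zl j (zc j x.2))) E| ≤
            2 * W1 / 2 ^ (j - i)).card : ℝ)) → False := by
  obtain ⟨η, τ, ε, M0, N, h1, h2, h3, h4, h5, h6, h7, key⟩ := boxA_core hs hs1 hsc hq hK
  refine ⟨η, τ, ε, M0, h1, h2, h3, h4, h5, ?_⟩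
  intro I L i j j1 j2 J l0 E W1 W2 r0 D0 D1 D2 hij hj1 hj2 hM hk1a hk1b hk2a hk2b hI hJ hE
    hW1 hW12 hW2 hr0 hr hin hD0 hD1 hD2 hdm0 hdm1 hdm2 hD1' hD2' hown hw1 hw2 hrich
  refine key I L i (j - i) (j - j1) (j - j2) j j1 j2 J l0 E W1 W2 r0 D0 D1 D2 (by omega) (by omega)
    (by omega) hM hk1a hk1b hk2a hk2b hI hJ hE hW1 hW12 hW2 hr0 ?_ hin hD0 hD1 hD2 hdm0 hdm1 hdm2
    (hD1'.trans (le_of_eq ?_)) (hD2'.trans (le_of_eq ?_))
    (fun x hx => (le_of_eq ?_).trans (hown x hx)) (fun x hx => (le_of_eq ?_).trans (hw1 x hx))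
    (fun x hx => (hw2 x hx).trans (le_of_eq ?_))
    (fun x hx => ((le_of_eq ?_).trans (hrich x hx)).trans (Nat.cast_le.2 (card_le_card ?_)))
  · have e1 : r0 * (N * 2 ^ (j - i)) ≤ r0 * ((3 * Kc) * 2 ^ (j - i)) := by gcongr
    have e2 : r0 * ((3 * Kc) * 2 ^ (j - i)) = 3 * (r0 * (Kc * 2 ^ (j - i))) := by ring
    linarith
  · rw [← exp_two]; congr 2; ring
  · rw [← exp_two]; congr 2; ring
  · rw [← exp_two]; congr 1; ring
  · rw [← exp_two]; congr 1; ring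
  · rw [← exp_two]; congr 1; ring
  · rw [← exp_two]; congr 2; ring
  · intro t ht
    rw [mem_filter] at ht ⊢
    exact ⟨ht.1, ht.2.2, ht.2.1⟩

end Crest.Agent.R138.LmA861
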