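import Mathlib
import Crest.Agent.R138.Ctn2_829
import Crest.Agent.R138.Dp1_76

/-!
# R138, L12c (helper829): the sequence part of `Rotates`

If `Rotates k0` fails between the levels `u < v` of a marked sequence, a dense marked part has all
level-`v` frames of one (line, `u`-cell) within `prec_v d^(-k0 (v-u))` of one centre frame, and the
container label is a function of the class of level `v`.
-/

set_option autoImplicit false
set_option linter.unusedVariables false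
set_option linter.unusedSectionVars false

open Finset Filter Topology

namespace Crest.Agent.R138.LmAU829

open Crest.Agent.R138.Ex926 (Base U cls mem_cls)
open Crest.Agent.R138.Dp76
open Crest.Agent.R138.Flag51 (Ln E2 cr dt InPlank pos)
open Crest.Agent.R138.Tilt51 (DMax Near)
open Crest.Agent.R138.Mk163
open Crest.Agent.R138.MkRef627 (lc kc mem_alive fib_bounds)
open Crest.Agent.R138.Ctn829

open Classical in
/-- number of incidences of a cluster from its number of cells -/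
theorem cluster_card {I : Finset (ℕ × ℝ)} {iu iv : ℕ} (huv : iu ≤ iv) (p : ℕ × ℤ → Prop)
    (x : ℕ × ℝ) {m : ℝ} (hm : ∀ y ∈ I, m ≤ ((I.filter fun y' => lc iv y' = lc iv y).card : ℝ)) :
    m * (((I.filter fun y => y.1 = x.1 ∧ zc iu y.2 = zc iu x.2 ∧ p (lc iv y)).image
      fun y => zc iv y.2).card : ℝ) ≤
      (((I.filter fun y => lc iu y = lc iu x).filter fun y => p (lc iv y)).card : ℝ) := by
  set F := I.filter fun y => y.1 = x.1 ∧ zc iu y.2 = zc iu x.2 ∧ p (lc iv y) with hF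
  have e0 : ((I.filter fun y => lc iu y = lc iu x).filter fun y => p (lc iv y)) = F := by
    ext y
    rw [mem_filter, mem_filter, hF, mem_filter]
    simp only [lc, Prod.mk.injEq, and_assoc]
  rw [e0]
  have e1 : (F.card : ℝ) = ∑ c ∈ F.image (fun y => zc iv y.2),
      ((F.filter fun y => zc iv y.2 = c).card : ℝ) := by
    rw [card_eq_sum_card_image (fun y : ℕ × ℝ => zc iv y.2) F]
    push_cast; rfl
  rw [e1]
  have : ∑ c ∈ F.image (fun y => zc iv y.2), m ≤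
      ∑ c ∈ F.image (fun y => zc iv y.2), ((F.filter fun y => zc iv y.2 = c).card : ℝ) := by
    refine sum_le_sum fun c hc => ?_
    obtain ⟨y, hy, rfl⟩ := mem_image.1 hc
    have hy' := hy
    rw [hF, mem_filter] at hy'
    refine (hm y hy'.1).trans ?_
    have hsub : (I.filter fun y' => lc iv y' = lc iv y) ⊆
        F.filter fun y' => zc iv y'.2 = zc iv y.2 := by
      intro z hz
      rw [mem_filter] at hz
      have hz2 := hz.2
      simp only [lc, Prod.mk.injEq] at hz2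
      rw [mem_filter, hF, mem_filter]
      refine ⟨⟨hz.1, hz2.1.trans hy'.2.1, (zc_nested huv hz2.2).trans hy'.2.2.1, ?_⟩, hz2.2⟩
      rw [hz.2]; exact hy'.2.2.2
    exact_mod_cast card_le_card hsub
  rw [sum_const, nsmul_eq_mul] at this
  linarith

section

variable {B : Base} {I : ℕ → Finset (ℕ × ℝ)} {L : ℕ → ℕ → Ln} {lev : ℕ → ℚ → ℕ}
    {r0 A : ℕ → ℝ} {q g : ℝ} {Λ τ : ℝ → ℝ} {f : ℕ → ℚ → ℕ → ℤ → ℕ} {b : ℕ → ℚ → ℕ → Ln}
    {e : ℕ → ℚ → ℕ → E2} {w1 w2 : ℕ → ℚ → ℝ}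

theorem fr_unit (h : Mk B I L lev r0 A q g Λ τ f b e w1 w2) {v : ℚ} (hv0 : 0 ≤ v) (hv : v ≤ 1) :
    ∀ᶠ n in (U : Filter ℕ), ∀ x ∈ I n,
      dt (fr lev f e n v x) (fr lev f e n v x) = 1 := by
  filter_upwards [h.near v hv0 hv 1 one_pos] with n hn x hx
  exact (hn (zc (lev n v) x.2)).unit x.1 (mem_alive.2 ⟨x, hx, rfl, rfl⟩)

theorem mem_plank (h : Mk B I L lev r0 A q g Λ τ f b e w1 w2) {v : ℚ} (hv0 : 0 ≤ v) (hv : v ≤ 1) :
    ∀ᶠ n in (U : Filter ℕ), ∀ x ∈ I n,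
      InPlank (L n x.1) (b n v (f n v x.1 (zc (lev n v) x.2)))
        (e n v (f n v x.1 (zc (lev n v) x.2))) (w1 n v) (w2 n v)
        (zl (lev n v) (zc (lev n v) x.2)) (rho (lev n v)) := by
  filter_upwards [h.near v hv0 hv 1 one_pos] with n hn x hx
  exact (hn (zc (lev n v) x.2)).mem x.1 (mem_alive.2 ⟨x, hx, rfl, rfl⟩)

open Classical in
/-- step 1: if `Rotates k0` fails between `u` and `v`, a dense part is clustered. -/
theorem dense_cluster (h : Mk B I L lev r0 A q g Λ τ f b e w1 w2) {u v : ℚ} (hu : 0 ≤ u)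
    (huv : u < v) (hv : v ≤ 1) {k0 : ℝ}
    (hneg : ¬ ∃ γ : ℝ, 0 < γ ∧ Negl B I fun n x =>
      B.d n ^ γ * ((Mk163.own (I n) (lev n u) (lev n v) x).card : ℝ) ≤
        ((((I n).filter fun y => y.1 = x.1 ∧ zc (lev n u) y.2 = zc (lev n u) x.2 ∧
          |cr (fr lev f e n v x) (fr lev f e n v y)| ≤
            prec w1 w2 n v * B.d n ^ (-(k0 * ((v : ℝ) - u)))).image
              fun y => zc (lev n v) y.2).card : ℝ)) :
    ∃ J : ℕ → Finset (ℕ × ℝ), Dense B J I ∧ ∀ᶠ n in (U : Filter ℕ), ∀ x ∈ J n, ∃ s : E2,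
      ∀ y ∈ J n, lc (lev n u) y = lc (lev n u) x → dt s s = 1 ∧
        |cr s (fr lev f e n v y)| ≤ prec w1 w2 n v * B.d n ^ (-(k0 * ((v : ℝ) - u))) := by
  have hv0 : 0 ≤ v := hu.trans huv.le
  have hu1 : u ≤ 1 := huv.le.trans hv
  set a : ℝ := -(k0 * ((v : ℝ) - u)) with ha
  set mem : ∀ n : ℕ, ℝ → E2 → ℕ × ℝ → Prop := fun n a s y => dt s s = 1 ∧
    |cr s (fr lev f e n v y)| ≤ prec w1 w2 n v * B.d n ^ a with hmem
  have key : ∀ c : ℝ, 0 < c → ∀ᶠ n in (U : Filter ℕ),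
      B.d n ^ c * ((I n).card : ℝ) <
        ((bad B (fun n => lc (lev n u)) mem I a c n).card : ℝ) := by
    intro c hc
    push Not at hneg
    have h1 := hneg (c / 4) (by positivity)
    unfold Negl at h1
    push Not at h1
    have h2 := h1 c hc
    filter_upwards [h2, h.ne, h.lev_mono u v hu huv.le hv, fib_bounds h u hu hu1
      (by positivity : 0 < c / 8), fib_bounds h v hv0 hv (by positivity : 0 < c / 8),
      h.own u v hu huv.le hv (c / 8) (by positivity), fr_unit h hv0 hv] with n p1 p2 p3 p4 p5 p6 p7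
    refine p1.trans_le ?_
    refine Nat.cast_le.2 (card_le_card fun x hx => ?_)
    rw [mem_filter] at hx
    unfold bad
    rw [mem_filter]
    refine ⟨hx.1, fr lev f e n v x, ?_⟩
    obtain ⟨hxI, hxc⟩ := hx
    set p : ℕ × ℤ → Prop := fun k =>
      |cr (fr lev f e n v x) (e n v (f n v k.1 k.2))| ≤ prec w1 w2 n v * B.d n ^ a with hp
    have q1 := cluster_card p3 p x (fun y hy => (p5 y hy).1)
    have q4 := (p4 x hxI).2
    have q5 := (p6 x hxI).1
    have hd := B.pos n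
    set X : ℝ := -(1 - (u : ℝ)) + (Λ 1 - Λ u) with hX
    set Y : ℝ := -(1 - (v : ℝ)) + (Λ 1 - Λ v) with hY
    set Z : ℝ := -((v : ℝ) - u) + (Λ v - Λ u) with hZ
    have hXYZ : X = Y + Z := by rw [hX, hY, hZ]; ring
    have t1 : B.d n ^ c * (((I n).filter fun y => lc (lev n u) y = lc (lev n u) x).card : ℝ) ≤
        B.d n ^ (c + (X - c / 8)) := by
      rw [dpow_add]
      exact mul_le_mul_of_nonneg_left q4 (dpow_pos B n c).le
    have t2 : B.d n ^ (c + (X - c / 8)) < B.d n ^ ((Y + c / 8) + (c / 4 + (Z + c / 8))) := by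
      refine Real.rpow_lt_rpow_of_exponent_gt hd (B.lt n) ?_
      rw [hXYZ]; linarith
    have t3 : B.d n ^ ((Y + c / 8) + (c / 4 + (Z + c / 8))) ≤ B.d n ^ (Y + c / 8) *
        (((I n).filter fun y => y.1 = x.1 ∧ zc (lev n u) y.2 = zc (lev n u) x.2 ∧
          p (lc (lev n v) y)).image fun y => zc (lev n v) y.2).card := by
      rw [dpow_add]
      refine mul_le_mul_of_nonneg_left ?_ (dpow_pos B n _).le
      rw [dpow_add]
      refine (mul_le_mul_of_nonneg_left q5 (dpow_pos B n _).le).trans ?_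
      exact hxc
    have fin := t1.trans_lt (t2.trans_le (t3.trans q1))
    have s1 : ∀ y, y ∈ cls (I n) (lc (lev n u)) x ↔
        y ∈ (I n).filter fun y => lc (lev n u) y = lc (lev n u) x := by
      intro y; rw [mem_cls, mem_filter]
    have s2 : ∀ y, (y ∈ (cls (I n) (lc (lev n u)) x).filter
        fun y => mem n a (fr lev f e n v x) y) ↔
        y ∈ ((I n).filter fun y => lc (lev n u) y = lc (lev n u) x).filter fun y =>
          p (lc (lev n v) y) := by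
      intro y
      rw [mem_filter, mem_filter, s1 y]
      constructor
      · rintro ⟨a1, a3, a4⟩; exact ⟨a1, a4⟩
      · rintro ⟨a1, a4⟩; exact ⟨a1, p7 x hxI, a4⟩
    have e1 := congrArg card (Finset.ext s1)
    have e2 := congrArg card (Finset.ext s2)
    rw [← e1, ← e2] at fin
    refine lt_of_le_of_lt (le_of_eq ?_) (lt_of_lt_of_le fin (le_of_eq ?_))
    · congr!
    · congr!
  obtain ⟨J, hJ, hJs⟩ := exists_of_bad key
  refine ⟨J, hJ, ?_⟩
  filter_upwards [hJs] with n hn x hx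
  obtain ⟨s, hs⟩ := hn x hx
  refine ⟨s, fun y hy hxy => hs y ?_⟩
  rw [mem_cls]
  exact ⟨hy, hxy⟩

/-- the precision of the clustered part -/
noncomputable def dlt (B : Base) (w1 w2 : ℕ → ℚ → ℝ) (k0 : ℝ) (u v : ℚ) (n : ℕ) : ℝ :=
  min 1 (prec w1 w2 n v * B.d n ^ (-(k0 * ((v : ℝ) - u))))

theorem dlt_le_one (k0 : ℝ) (u v : ℚ) (n : ℕ) : dlt B w1 w2 k0 u v n ≤ 1 := min_le_left _ _

theorem dlt_facts (h : Mk B I L lev r0 A q g Λ τ f b e w1 w2) {u v : ℚ} (hu : 0 ≤ u)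
    (huv : u < v) (hv : v ≤ 1) {k0 : ℝ} (hk0 : 0 ≤ k0) :
    ∀ᶠ n in (U : Filter ℕ), 0 < w1 n v ∧ 0 < w2 n v ∧ 0 < dlt B w1 w2 k0 u v n ∧
      w1 n v ≤ dlt B w1 w2 k0 u v n * w2 n v := by
  filter_upwards [h.dims v (hu.trans huv.le) hv] with n hn
  have h1 : 0 < w1 n v := (h.rpos n).trans_le hn.1
  have h2 : 0 < w2 n v := h1.trans_le hn.2.1
  have h3 : 0 < prec w1 w2 n v := div_pos h1 h2
  have h4 := dpow_pos B n (-(k0 * ((v : ℝ) - u)))
  have huv' : (u : ℝ) < v := by exact_mod_cast huv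
  have h5 : 1 ≤ B.d n ^ (-(k0 * ((v : ℝ) - u))) := by
    have := dpow_le_one B n (a := k0 * ((v : ℝ) - u)) (mul_nonneg hk0 (by linarith))
    rw [Real.rpow_neg (B.pos n).le]
    exact (one_le_inv₀ (dpow_pos B n _)).2 this
  refine ⟨h1, h2, lt_min one_pos (mul_pos h3 h4), ?_⟩
  have h6 : w1 n v = prec w1 w2 n v * w2 n v := by unfold prec; field_simp
  rw [h6]
  refine mul_le_mul_of_nonneg_right (le_min ?_ ?_) h2.le
  · unfold prec; rw [div_le_one h2]; exact hn.2.1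
  · nlinarith

open Classical in
/-- step 2: centre frames, container labels, refinement. -/
theorem seq_part (h : Mk B I L lev r0 A q g Λ τ f b e w1 w2) {u v : ℚ} (hu : 0 ≤ u)
    (huv : u < v) (hv : v ≤ 1) {k0 : ℝ} (hk0 : 0 ≤ k0)
    (hneg : ¬ ∃ γ : ℝ, 0 < γ ∧ Negl B I fun n x =>
      B.d n ^ γ * ((Mk163.own (I n) (lev n u) (lev n v) x).card : ℝ) ≤
        ((((I n).filter fun y => y.1 = x.1 ∧ zc (lev n u) y.2 = zc (lev n u) x.2 ∧
          |cr (fr lev f e n v x) (fr lev f e n v y)| ≤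
            prec w1 w2 n v * B.d n ^ (-(k0 * ((v : ℝ) - u)))).image
              fun y => zc (lev n v) y.2).card : ℝ)) :
    ∃ (J : ℕ → Finset (ℕ × ℝ)) (ce : ℕ → ℕ × ℤ → E2), Mk B J L lev r0 A q g Λ τ f b e w1 w2 ∧
      ∀ᶠ n in (U : Filter ℕ),
        (∀ x ∈ J n, dt (ce n (lc (lev n u) x)) (ce n (lc (lev n u) x)) = 1) ∧
        (∀ x ∈ J n, |cr (ce n (lc (lev n u) x)) (e n v (f n v x.1 (zc (lev n v) x.2)))| ≤
          dlt B w1 w2 k0 u v n) ∧
        (∀ x ∈ J n, ∀ y ∈ J n, kc (lev n v) (f n v) x = kc (lev n v) (f n v) y →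
          Qc (L n) (lev n u) (ce n) (dlt B w1 w2 k0 u v n)
              (32 * dlt B w1 w2 k0 u v n * w2 n v * 2 ^ (lev n v - lev n u))
              (32 * w2 n v * 2 ^ (lev n v - lev n u)) x =
            Qc (L n) (lev n u) (ce n) (dlt B w1 w2 k0 u v n)
              (32 * dlt B w1 w2 k0 u v n * w2 n v * 2 ^ (lev n v - lev n u))
              (32 * w2 n v * 2 ^ (lev n v - lev n u)) y) := by
  have hv0 : 0 ≤ v := hu.trans huv.le
  obtain ⟨J1, hJ1, hcl1⟩ := dense_cluster h hu huv hv hneg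
  -- centre frames
  have hce : ∀ (n : ℕ) (k : ℕ × ℤ), ∃ s : E2, (∀ x ∈ J1 n, ∃ s : E2,
      ∀ y ∈ J1 n, lc (lev n u) y = lc (lev n u) x → dt s s = 1 ∧
        |cr s (fr lev f e n v y)| ≤ prec w1 w2 n v * B.d n ^ (-(k0 * ((v : ℝ) - u)))) →
      ∀ y ∈ J1 n, lc (lev n u) y = k → dt s s = 1 ∧
        |cr s (fr lev f e n v y)| ≤ prec w1 w2 n v * B.d n ^ (-(k0 * ((v : ℝ) - u))) := by
    intro n k
    by_cases hx : (∀ x ∈ J1 n, ∃ s : E2,
      ∀ y ∈ J1 n, lc (lev n u) y = lc (lev n u) x → dt s s = 1 ∧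
        |cr s (fr lev f e n v y)| ≤ prec w1 w2 n v * B.d n ^ (-(k0 * ((v : ℝ) - u)))) ∧
        ∃ x ∈ J1 n, lc (lev n u) x = k
    · obtain ⟨h1, x, hx, rfl⟩ := hx
      obtain ⟨s, hs⟩ := h1 x hx
      exact ⟨s, fun _ => hs⟩
    · refine ⟨0, fun h1 y hy hyk => absurd ⟨h1, y, hy, hyk⟩ hx⟩
  choose ce hce using hce
  obtain ⟨J2, hJ2, hJ2', -, hM2⟩ := MkRef627.Mk.refine h hJ1
  -- popular labels
  have hpop : ∀ n, ∃ J3 : Finset (ℕ × ℝ), J3 ⊆ J2 n ∧
      ((0 < w1 n v ∧ 0 < w2 n v ∧ 0 < dlt B w1 w2 k0 u v n ∧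
        w1 n v ≤ dlt B w1 w2 k0 u v n * w2 n v) → lev n u ≤ lev n v →
        (∀ x ∈ J2 n, dt (fr lev f e n v x) (fr lev f e n v x) = 1) →
        (∀ x ∈ J2 n, InPlank (L n x.1) (b n v (f n v x.1 (zc (lev n v) x.2)))
          (e n v (f n v x.1 (zc (lev n v) x.2))) (w1 n v) (w2 n v)
          (zl (lev n v) (zc (lev n v) x.2)) (rho (lev n v))) →
        (∀ x ∈ J2 n, dt (ce n (lc (lev n u) x)) (ce n (lc (lev n u) x)) = 1) →
        (∀ x ∈ J2 n, |cr (ce n (lc (lev n u) x)) (e n v (f n v x.1 (zc (lev n v) x.2)))| ≤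
          dlt B w1 w2 k0 u v n) →
        (J2 n).card ≤ 4050 * J3.card ∧
        (∀ x ∈ J3, ∀ y ∈ J3, kc (lev n v) (f n v) x = kc (lev n v) (f n v) y →
          Qc (L n) (lev n u) (ce n) (dlt B w1 w2 k0 u v n)
              (32 * dlt B w1 w2 k0 u v n * w2 n v * 2 ^ (lev n v - lev n u))
              (32 * w2 n v * 2 ^ (lev n v - lev n u)) x =
            Qc (L n) (lev n u) (ce n) (dlt B w1 w2 k0 u v n)
              (32 * dlt B w1 w2 k0 u v n * w2 n v * 2 ^ (lev n v - lev n u))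
              (32 * w2 n v * 2 ^ (lev n v - lev n u)) y)) := by
    intro n
    by_cases hc : (0 < w1 n v ∧ 0 < w2 n v ∧ 0 < dlt B w1 w2 k0 u v n ∧
        w1 n v ≤ dlt B w1 w2 k0 u v n * w2 n v) ∧ lev n u ≤ lev n v ∧
        (∀ x ∈ J2 n, dt (fr lev f e n v x) (fr lev f e n v x) = 1) ∧
        (∀ x ∈ J2 n, InPlank (L n x.1) (b n v (f n v x.1 (zc (lev n v) x.2)))
          (e n v (f n v x.1 (zc (lev n v) x.2))) (w1 n v) (w2 n v)
          (zl (lev n v) (zc (lev n v) x.2)) (rho (lev n v))) ∧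
        (∀ x ∈ J2 n, dt (ce n (lc (lev n u) x)) (ce n (lc (lev n u) x)) = 1) ∧
        (∀ x ∈ J2 n, |cr (ce n (lc (lev n u) x)) (e n v (f n v x.1 (zc (lev n v) x.2)))| ≤
          dlt B w1 w2 k0 u v n)
    · obtain ⟨⟨c1, c2, c3, c4⟩, c5, c6, c7, c8, c9⟩ := hc
      obtain ⟨J3, a1, a2, a3⟩ := exists_pop (J2 n) (L n) c5 (f n v) (b n v) (e n v) (ce n) c2 c4 c3
        (dlt_le_one k0 u v n) c6 c7 c8 c9
      exact ⟨J3, a1, fun _ _ _ _ _ _ => ⟨a2, a3⟩⟩
    · exact ⟨∅, empty_subset _, fun c1 c2 c3 c4 c5 c6 => absurd ⟨c1, c2, c3, c4, c5, c6⟩ hc⟩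
  choose J3 hJ3 hJ3' using hpop
  have hcl2 : ∀ᶠ n in (U : Filter ℕ),
      (∀ x ∈ J2 n, dt (ce n (lc (lev n u) x)) (ce n (lc (lev n u) x)) = 1) ∧
      (∀ x ∈ J2 n, |cr (ce n (lc (lev n u) x)) (e n v (f n v x.1 (zc (lev n v) x.2)))| ≤
          dlt B w1 w2 k0 u v n) := by
    filter_upwards [hcl1, fr_unit hM2 hv0 hv] with n h1 h2
    refine ⟨fun x hx => (hce n _ h1 x (hJ2 n hx) rfl).1, fun x hx => ?_⟩
    have h3 := hce n _ h1 x (hJ2 n hx) rfl
    exact le_min (Flag51.abs_cr_le_one h3.1 (h2 x hx)) h3.2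
  have hev : ∀ᶠ n in (U : Filter ℕ), (J2 n).card ≤ 4050 * (J3 n).card ∧
        (∀ x ∈ J3 n, ∀ y ∈ J3 n, kc (lev n v) (f n v) x = kc (lev n v) (f n v) y →
          Qc (L n) (lev n u) (ce n) (dlt B w1 w2 k0 u v n)
              (32 * dlt B w1 w2 k0 u v n * w2 n v * 2 ^ (lev n v - lev n u))
              (32 * w2 n v * 2 ^ (lev n v - lev n u)) x =
            Qc (L n) (lev n u) (ce n) (dlt B w1 w2 k0 u v n)
              (32 * dlt B w1 w2 k0 u v n * w2 n v * 2 ^ (lev n v - lev n u))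
              (32 * w2 n v * 2 ^ (lev n v - lev n u)) y) := by
    filter_upwards [hcl2, dlt_facts h hu huv hv hk0, h.lev_mono u v hu huv.le hv,
      fr_unit hM2 hv0 hv, mem_plank hM2 hv0 hv] with n h1 h2 h3 h4 h5
    exact hJ3' n h2 h3 h4 h5 h1.1 h1.2
  have hD3 : Dense B J3 J2 := by
    refine dense_of_sub (Ex926.Base.Sub.const (by norm_num : (0:ℝ) < 4050)) ?_
    filter_upwards [hev] with n hn
    refine ⟨hJ3 n, ?_⟩
    exact_mod_cast hn.1
  obtain ⟨J4, hJ4, -, -, hM4⟩ := MkRef627.Mk.refine hM2 hD3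
  refine ⟨J4, ce, hM4, ?_⟩
  filter_upwards [hcl2, hev] with n h1 h2
  refine ⟨fun x hx => h1.1 x (hJ3 n (hJ4 n hx)), fun x hx => h1.2 x (hJ3 n (hJ4 n hx)), ?_⟩
  intro x hx y hy hxy
  exact h2.2 x (hJ4 n hx) y (hJ4 n hy) hxy

end

end Crest.Agent.R138.LmAU829
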