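import Mathlib
import Crest.Agent.R138.LmAU_829
import Crest.Agent.R138.LmA7_861
import Crest.Agent.R138.LmAN_57
import Crest.Agent.R138.ArgM2_163

/-!
# R138, L12 (helper829): LEMMA A, `Rotates k0` for every marked sequence with linear own profile

Assembly: failure of `Rotates (eps/2)` => (LmAU_829) a dense marked part which is clustered and whose
container label is a function of the deep class => one container box at one large `n` =>
(LmAN_57 numerics) contradiction with `boxA2` of LmA7_861.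
-/

set_option autoImplicit false
set_option linter.unusedVariables false
set_option linter.unusedSectionVars false

open Finset Filter Topology

namespace Crest.Agent.R138.LmAV829

open Crest.Agent.R138.Ex926 (Base U)
open Crest.Agent.R138.Dp76 (dpow_pos dpow_add)
open Crest.Agent.R138.Flag51 (Ln E2 cr dt InPlank pos)
open Crest.Agent.R138.Tilt51 (DMax Near)
open Crest.Agent.R138.Mk163
open Crest.Agent.R138.MkRef627 (lc kc mem_alive alive_mono)
open Crest.Agent.R138.Ctn829
open Crest.Agent.R138.LmAU829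

set_option maxHeartbeats 1000000 in
/-- **LEMMA A** for marked sequences with `Λ v = s v`. -/
theorem hrot (q g s : ℝ) (hs : 0 ≤ s) (hs1 : s ≤ 1) :
    ∃ k0 : ℝ, 0 < k0 ∧ ArgM163.HRot q g s k0 := by
  by_cases hgq : 0 < g ∧ 0 < q
  swap
  · refine ⟨1, one_pos, ?_⟩
    intro B I L lev r0 A τ f b e w1 w2 h
    exact absurd ⟨h.g0, h.q0⟩ hgq
  obtain ⟨hg, hq⟩ := hgq
  obtain ⟨η, τ', ε, M0, hη0, hη1, hτ0, hτ1, hε, key⟩ :=
    LmA861.boxA2 (s := s) (c' := 2 * s + g) (q := q) (Kc := 32) hs hs1 (by linarith) hq.le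
      (by norm_num)
  refine ⟨ε / 2, half_pos hε, ?_⟩
  intro B I L lev r0 A τ f b e w1 w2 h u v hu huv hv
  by_contra hneg
  obtain ⟨J, ce, hJ, hcl⟩ := seq_part h hu huv hv (half_pos hε).le hneg
  obtain ⟨a, a', ⟨ha1, ha2⟩, ⟨ha1', ha2'⟩, ε1, hε1, hev⟩ :=
    LmAN57.arith hJ hu huv hv hη0 hη1.le hτ0 hτ1.le hε M0
  have hv0 : 0 ≤ v := hu.trans huv.le
  have hu1 : u ≤ 1 := huv.le.trans hv
  have hfin : ∀ᶠ n in (U : Filter ℕ), False := by
    filter_upwards [hev, hcl, hJ.ne, dlt_facts hJ hu huv hv (half_pos hε).le,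
      hJ.dmax u hu hu1 ε1 hε1, hJ.dmax a (hu.trans ha1.le) (ha2.le.trans hv) ε1 hε1,
      hJ.dmax a' (hu.trans ha1'.le) (ha2'.le.trans hv) ε1 hε1, hJ.near v hv0 hv ε1 hε1,
      hJ.dims v hv0 hv, hJ.lev_mono u v hu huv.le hv] with n p1 p2 p3 p4 p5 p6 p7 p8 p9 p10
    obtain ⟨q1, q2, q3, q4, q5, q6, q7, q8, q9, q10, q11, q12, q13⟩ := p1
    obtain ⟨c1, c2, c3⟩ := p2
    obtain ⟨x0, hx0⟩ := p3
    obtain ⟨hw1, hw2, hδ, hw12⟩ := p4
    have hδ1 : dlt B w1 w2 (ε / 2) u v n ≤ 1 := dlt_le_one _ _ _ _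
    set δ := dlt B w1 w2 (ε / 2) u v n with hδdef
    set R : ℝ := 2 ^ (lev n v - lev n u) with hR
    have hR0 : 0 < R := by positivity
    set W1 := 32 * δ * w2 n v * R with hW1def
    set W2 := 32 * w2 n v * R with hW2def
    have hW1 : 0 < W1 := by positivity
    have hW12 : W1 ≤ W2 := by
      have h1 : W1 = δ * W2 := by rw [hW1def, hW2def]; ring
      have hW2 : 0 < W2 := by positivity
      calc W1 = δ * W2 := h1
        _ ≤ 1 * W2 := mul_le_mul_of_nonneg_right hδ1 hW2.le
        _ = W2 := one_mul _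
    have hrv : rho (lev n u) = R * rho (lev n v) := rho_mul p10
    set Q := Qc (L n) (lev n u) (ce n) δ W1 W2 with hQ
    set F := (J n).filter fun y => Q y = Q x0 with hF
    have hFJ : F ⊆ J n := filter_subset _ _
    have hsub : ∀ i c, alive F i c ⊆ alive (J n) i c := fun i c => alive_mono hFJ i c
    have hown : ∀ x ∈ F, ∀ i, lev n u ≤ i → ∀ j, own F i j x = own (J n) i j x := by
      intro x hx i hi j
      exact own_fiber Q (fun x y hxy => Qc_congr (L n) (ce n) δ W1 W2 hxy) hx hi j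
    refine key F (L n) (lev n u) (lev n v) (lev n a) (lev n a') (zc (lev n u) x0.2) (L n x0.1)
      (rep δ (kl δ (ce n (lc (lev n u) x0)))) W1 W2 (r0 n)
      (B.d n ^ (-ε1) * amp B lev A q g (fun v => s * v) n u)
      (B.d n ^ (-ε1) * amp B lev A q g (fun v => s * v) n a)
      (B.d n ^ (-ε1) * amp B lev A q g (fun v => s * v) n a') p10 q2 q4 q5 q6 q7 q8 q9
      ⟨x0, mem_filter.2 ⟨hx0, rfl⟩⟩ ?_ (rep_spec (c1 x0 hx0)).1 hW1 hW12 ?_ (hJ.rpos n) ?_ ?_ ?_ ?_ ?_
      ?_ ?_ ?_ ?_ ?_ ?_ ?_ ?_ ?_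
    · intro x hx
      exact congrArg Prod.fst (mem_filter.1 hx).2
    · calc W2 = 32 * w2 n v * R := hW2def
        _ ≤ 32 * rho (lev n v) * R := by
            have := p9.2.2
            gcongr
        _ = 32 * rho (lev n u) := by rw [hrv]; ring
    · rw [hW1def]
      have : r0 n ≤ δ * w2 n v := p9.1.trans hw12
      calc r0 n * (32 * 2 ^ (lev n v - lev n u)) = 32 * (r0 n) * R := by rw [hR]; ring
        _ ≤ 32 * (δ * w2 n v) * R := by gcongr
        _ = _ := by ring
    · intro x hx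
      have h1 := (mem_filter.1 hx).2
      have h2 : zc (lev n u) x.2 = zc (lev n u) x0.2 := congrArg Prod.fst h1
      have h3 := congrArg Prod.snd h1
      simp only [hQ, Qc] at h3
      rw [h2] at h3
      exact Qlab_box hW1 (hW1.trans_le hW12) (rho_pos _) h3
    · exact mul_pos (dpow_pos B n _) (LmAN57.amp_pos hJ.Apos n u)
    · exact (mul_pos (dpow_pos B n _) (LmAN57.amp_pos hJ.Apos n a)).le
    · exact (mul_pos (dpow_pos B n _) (LmAN57.amp_pos hJ.Apos n a')).le
    · exact (p5 _).subset (hsub _ _) (fun _ _ => zero_le_one)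
    · intro J'; exact (p6 J').subset (hsub _ _) (fun _ _ => zero_le_one)
    · intro J'; exact (p7 J').subset (hsub _ _) (fun _ _ => zero_le_one)
    · rw [mul_assoc]
      exact mul_le_mul_of_nonneg_left q10 (dpow_pos B n _).le
    · rw [mul_assoc]
      exact mul_le_mul_of_nonneg_left q11 (dpow_pos B n _).le
    · intro x hx
      rw [hown x hx _ le_rfl]
      exact (q12 x (hFJ hx)).1
    · intro x hx
      rw [hown x hx _ q1]
      exact (q12 x (hFJ hx)).2.1
    · intro x hx
      rw [hown x hx _ q1]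
      exact (q12 x (hFJ hx)).2.2.1
    · intro x hx
      have h1 := box_rich p10 hw2 hw12 hδ hδ1 c1 c2 c3 (dpow_pos B n (-ε1)).le p8 hx
      have h2 : B.d n ^ ε1 * (amp B lev A q g (fun v => s * v) n v * w1 n v * w2 n v ^ (1 + q)) ≤
          (((alive F (lev n v) (zc (lev n v) x.2)).filter fun t =>
            |cr (rep δ (kl δ (ce n (lc (lev n u) x0)))) (pos (L n t) (zl (lev n v) (zc (lev n v) x.2)) -
              pos (L n x.1) (zl (lev n v) (zc (lev n v) x.2)))| ≤ 32 * w2 n v ∧
            |dt (pos (L n t) (zl (lev n v) (zc (lev n v) x.2)) -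
              pos (L n x.1) (zl (lev n v) (zc (lev n v) x.2)))
              (rep δ (kl δ (ce n (lc (lev n u) x0))))| ≤ 32 * δ * w2 n v).card : ℝ) := by
        have h3 := mul_le_mul_of_nonneg_left h1 (dpow_pos B n ε1).le
        rw [← mul_assoc (B.d n ^ ε1) (B.d n ^ (-ε1)), ← dpow_add, add_neg_cancel,
          Real.rpow_zero, one_mul] at h3
        refine h3.trans (le_of_eq ?_)
        congr!
      refine (q13.trans h2).trans (Nat.cast_le.2 (card_le_card ?_))
      intro t ht
      rw [mem_filter] at ht ⊢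
      have e1 : 2 * W2 / 2 ^ (lev n v - lev n u) = 64 * w2 n v := by
        rw [hW2def, hR]; field_simp; ring
      have e2 : 2 * W1 / 2 ^ (lev n v - lev n u) = 64 * (δ * w2 n v) := by
        rw [hW1def, hR]; field_simp; ring
      rw [e1, e2]
      have e3 : 0 < δ * w2 n v := mul_pos hδ hw2
      exact ⟨ht.1, ht.2.1.trans (by linarith), ht.2.2.trans (by linarith)⟩
  obtain ⟨_, hF⟩ := hfin.exists
  exact hF

end Crest.Agent.R138.LmAV829
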