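import Crest.Agent.R138.Loc1_878
import Crest.Agent.R138.Hf1_774

/-!
# R138 / R139, WAVE side, LOWER (helper759)

The local densities `AA N w F z` of the cap pieces `F^m = ext h (cap win (cen ρ m) ρ * g)` of a wave:
transport along the tubes of the cap, orthogonality, lower bound of the energy by transported rich
cells (doc 1979, STEP-SLAB, lower half).
-/

set_option autoImplicit false

open MeasureTheory FourierTransform
open scoped ENNReal ContDiff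

namespace Crest.Agent.R138.Lo759

open Crest.Agent.R138.Defs Crest.Agent.R138.Wpk685
open Crest.Agent.R138.Bil882 (wt wt_pos measurable_wt)
open Crest.Agent.R138.T774 (AA AA_sum ext_sum)
open Crest.Agent.R138.Wf448 (sl ext_eq)

/-- the wave of `g`. -/
noncomputable def ex (h : E2 → ℝ) (g : E2 → ℂ) (p : E2 × ℝ) : ℂ := ext h g p.1 p.2

/-- the cap piece `m` of scale `ρ`. -/
noncomputable def cp (ρ : ℝ) (g : E2 → ℂ) (m : ℤ × ℤ) (ξ : E2) : ℂ := cap win (cen ρ m) ρ ξ * g ξ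

theorem measurable_ex {h : E2 → ℝ} (hh : Continuous h) {g : E2 → ℂ} (hg : Integrable g) :
    Measurable (ex h g) := (F4x858.continuous_ext hh hg).measurable

/-- time slices of the weighted average. -/
theorem AA_slice (N : ℕ) (w : ℝ) {h : E2 → ℝ} (hh : Continuous h) {g : E2 → ℂ}
    (hg : Integrable g) (z : E2 × ℝ) :
    AA N w (ex h g) z = ENNReal.ofReal ((w ^ 3)⁻¹) *
      ∫⁻ s : ℝ, WE (fun y => wt N w z.1 z.2 (y, s)) (sl h g s) := by
  unfold AA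
  congr 1
  have hm : Measurable fun p : E2 × ℝ => ‖ex h g p‖ₑ ^ 2 * ENNReal.ofReal (wt N w z.1 z.2 p) :=
    ((measurable_ex hh hg).enorm.pow_const 2).mul (measurable_wt N w z.1 z.2).ennreal_ofReal
  rw [Measure.volume_eq_prod, lintegral_prod_symm' _ hm]
  refine lintegral_congr fun s => ?_
  unfold WE
  refine lintegral_congr fun y => ?_
  rw [mul_comm]
  unfold ex
  rw [ext_eq]

theorem wt_pos' (N : ℕ) {w : ℝ} (hw : 0 < w) (z : E2 × ℝ) (s : ℝ) (y : E2) :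
    0 < wt N w z.1 z.2 (y, s) := wt_pos N hw _ _ _

/-- the slices of the weight are slowly varying at every scale `1/ρ ≤ w`. -/
theorem SV_wt (N : ℕ) {ρ w : ℝ} (hw : 0 < w) (hρw : 1 ≤ ρ * w) (z : E2 × ℝ) (s : ℝ) :
    SV ρ 1 N (fun y => wt N w z.1 z.2 (y, s)) := by
  have hρ : 0 < ρ := by
    by_contra hc
    push Not at hc
    nlinarith
  refine ⟨?_, fun y => wt_pos N hw _ _ _, fun x y => ?_⟩
  · exact (measurable_wt N w z.1 z.2).comp (measurable_id.prodMk measurable_const)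
  · unfold wt
    rw [one_mul, ← div_eq_mul_inv, inv_eq_one_div,
      div_le_div_iff₀ (by positivity) (by positivity), one_mul, ← mul_pow]
    refine pow_le_pow_left₀ (by positivity) ?_ N
    have h1 : ‖y - z.1‖ ≤ ‖x - y‖ + ‖x - z.1‖ := by
      have : y - z.1 = -(x - y) + (x - z.1) := by abel
      rw [this]
      exact (norm_add_le _ _).trans (by rw [norm_neg])
    have h2 : w⁻¹ ≤ ρ := by rw [inv_le_iff_one_le_mul₀ hw]; exact hρw
    have h3 : (‖y - z.1‖ + |s - z.2|) / w ≤ ρ * ‖x - y‖ + (‖x - z.1‖ + |s - z.2|) / w := by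
      rw [div_eq_mul_inv, div_eq_mul_inv]
      have h4 : 0 ≤ ‖x - y‖ := norm_nonneg _
      have h5 : ‖x - y‖ * w⁻¹ ≤ ρ * ‖x - y‖ := by
        rw [mul_comm]; exact mul_le_mul_of_nonneg_right h2 h4
      have h6 : (‖y - z.1‖ + |s - z.2|) * w⁻¹ ≤ (‖x - y‖ + ‖x - z.1‖ + |s - z.2|) * w⁻¹ := by
        have : 0 ≤ w⁻¹ := by positivity
        gcongr
      calc _ ≤ _ := h6
        _ = ‖x - y‖ * w⁻¹ + (‖x - z.1‖ + |s - z.2|) * w⁻¹ := by ring
        _ ≤ _ := by linarith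
    have h7 : 0 ≤ (‖x - z.1‖ + |s - z.2|) / w := by positivity
    have h8 : 0 ≤ ρ * ‖x - y‖ := by positivity
    nlinarith [mul_nonneg h8 h7]

/-- change of the centre. -/
theorem wt_shift (N : ℕ) {w δ : ℝ} (hw : 0 < w) (hδ : 0 ≤ δ) {z z' : E2 × ℝ}
    (h1 : ‖z.1 - z'.1‖ + |z.2 - z'.2| ≤ δ * w) (p : E2 × ℝ) :
    wt N w z.1 z.2 p ≤ (1 + δ) ^ N * wt N w z'.1 z'.2 p := by
  unfold wt
  rw [← inv_pow, ← inv_pow, ← mul_pow]
  refine pow_le_pow_left₀ (by positivity) ?_ N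
  set a : ℝ := ‖p.1 - z.1‖ + |p.2 - z.2| with ha
  set b : ℝ := ‖p.1 - z'.1‖ + |p.2 - z'.2| with hb
  have ha0 : 0 ≤ a := by positivity
  have hb0 : 0 ≤ b := by positivity
  have h2 : b ≤ a + δ * w := by
    have e1 : ‖p.1 - z'.1‖ ≤ ‖p.1 - z.1‖ + ‖z.1 - z'.1‖ := by
      have : p.1 - z'.1 = (p.1 - z.1) + (z.1 - z'.1) := by abel
      rw [this]; exact norm_add_le _ _
    have e2 : |p.2 - z'.2| ≤ |p.2 - z.2| + |z.2 - z'.2| := by
      have : p.2 - z'.2 = (p.2 - z.2) + (z.2 - z'.2) := by ring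
      rw [this]; exact abs_add_le _ _
    rw [ha, hb]
    linarith
  rw [← div_eq_mul_inv, inv_eq_one_div, div_le_div_iff₀ (by positivity) (by positivity), one_mul]
  have h3 : b / w ≤ a / w + δ := by
    rw [div_le_iff₀ hw, add_mul, div_mul_cancel₀ _ hw.ne']
    exact h2
  have h4 : 0 ≤ a / w := by positivity
  nlinarith [mul_nonneg hδ h4]

theorem AA_shift (N : ℕ) {w δ : ℝ} (hw : 0 < w) (hδ : 0 ≤ δ) (F : E2 × ℝ → ℂ) {z z' : E2 × ℝ}
    (h1 : ‖z.1 - z'.1‖ + |z.2 - z'.2| ≤ δ * w) :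
    AA N w F z ≤ ENNReal.ofReal ((1 + δ) ^ N) * AA N w F z' := by
  unfold AA
  rw [mul_left_comm]
  refine mul_le_mul_right ?_ _
  rw [← lintegral_const_mul' _ _ ENNReal.ofReal_ne_top]
  refine lintegral_mono fun p => ?_
  rw [mul_left_comm]
  refine mul_le_mul_right ?_ _
  rw [← ENNReal.ofReal_mul (by positivity)]
  exact ENNReal.ofReal_le_ofReal (wt_shift N hw hδ h1 p)

/-! ### cap pieces -/

theorem cap_cont (ρ : ℝ) (m : ℤ × ℤ) : Continuous (cap win (cen ρ m) ρ) :=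
  (contDiff_cap win_contDiff _ _).continuous

theorem cp_int {g : E2 → ℂ} (hg : Integrable g) (ρ : ℝ) (m : ℤ × ℤ) : Integrable (cp ρ g m) :=
  hg.bdd_mul (c := 1) (cap_cont ρ m).aestronglyMeasurable
    (Filter.Eventually.of_forall fun _ => norm_win_le _)

theorem cp_l2 {g : E2 → ℂ} (hg : MemLp g 2) (ρ : ℝ) (m : ℤ × ℤ) : MemLp (cp ρ g m) 2 := by
  refine MemLp.of_le hg ((cap_cont ρ m).aestronglyMeasurable.mul hg.1)
    (Filter.Eventually.of_forall fun ξ => ?_)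
  unfold cp
  rw [norm_mul]
  exact mul_le_of_le_one_left (norm_nonneg _) (norm_win_le _)

theorem cp_supp {ρ : ℝ} (hρ : 0 < ρ) {m : ℤ × ℤ} {g : E2 → ℂ} {ξ : E2} (hξ : cp ρ g m ξ ≠ 0) :
    ‖ξ - cen ρ m‖ ≤ 71 / 50 * ρ := by
  by_contra hc
  push Not at hc
  exact left_ne_zero_of_mul hξ (cap_supp (fun ζ hζ => win_zero' hζ) (cen ρ m) hρ ξ hc)

theorem sl_cp (h : E2 → ℝ) (g : E2 → ℂ) (t ρ : ℝ) (m : ℤ × ℤ) :
    sl h (cp ρ g m) t = fun ξ => cap win (cen ρ m) ρ ξ * sl h g t ξ := by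
  funext ξ
  unfold sl cp
  ring

/-! ### (A2) transport -/

/-- **(A2)** the density of a cap piece is transported along its tubes. -/
theorem AA_transport (B : ℕ → ℝ) (N : ℕ) (L : ℝ) (hL : 1 ≤ L) : ∃ C : ℝ, 0 ≤ C ∧
    ∀ h, ParB B h → ∀ (ρ w : ℝ), 0 < ρ → ρ ≤ 1 → 0 < w → 1 ≤ ρ * w → ∀ (ξ0 : E2) (G : E2 → ℂ),
    Integrable G → MemLp G 2 → (∀ ξ, G ξ ≠ 0 → ‖ξ - ξ0‖ ≤ 2 * ρ) →
    ∀ (z : E2 × ℝ) (τ : ℝ), |τ| * ρ ^ 2 ≤ L →
    AA N w (ex h G) (z.1, z.2 + τ) ≤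
      ENNReal.ofReal C * AA N w (ex h G) (z.1 + τ • gradient h ξ0, z.2) := by
  obtain ⟨C, hC, h1⟩ := sv_transport B N L hL
  refine ⟨C, hC, ?_⟩
  intro h hh ρ w hρ hρ1 hw hρw ξ0 G hG hG2 hGs z τ hτ
  have hhc : Continuous h := hh.1.continuous
  rw [AA_slice N w hhc hG, AA_slice N w hhc hG, mul_left_comm]
  refine mul_le_mul_right ?_ _
  rw [← lintegral_const_mul' _ _ ENNReal.ofReal_ne_top, ← lintegral_add_right_eq_self _ τ]
  refine lintegral_mono fun s => ?_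
  have h2 := h1 h hh ρ 1 _ hρ hρ1 (SV_wt N hw hρw (z.1, z.2 + τ) (s + τ)) ξ0 G hG hG2 hGs s τ hτ
  rw [one_pow, mul_one] at h2
  refine h2.trans (le_of_eq ?_)
  congr 2
  funext x
  unfold wt
  simp only
  rw [show x - τ • gradient h ξ0 - z.1 = x - (z.1 + τ • gradient h ξ0) by abel,
    show s + τ - (z.2 + τ) = s - z.2 by ring]

/-- transport of a cap piece with an error of the velocity. -/
theorem AA_transport_cp (B : ℕ → ℝ) (N : ℕ) (L : ℝ) (hL : 1 ≤ L) : ∃ C : ℝ, 0 ≤ C ∧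
    ∀ h, ParB B h → ∀ (ρ w : ℝ), 0 < ρ → ρ ≤ 1 → 0 < w → 1 ≤ ρ * w → ∀ (m : ℤ × ℤ) (g : E2 → ℂ),
    Integrable g → MemLp g 2 →
    ∀ (z z' : E2 × ℝ) (δ : ℝ), 0 ≤ δ → |z'.2 - z.2| * ρ ^ 2 ≤ L →
    ‖z'.1 + (z'.2 - z.2) • gradient h (cen ρ m) - z.1‖ ≤ δ * w →
    AA N w (ex h (cp ρ g m)) z' ≤
      ENNReal.ofReal (C * (1 + δ) ^ N) * AA N w (ex h (cp ρ g m)) z := by
  obtain ⟨C, hC, h1⟩ := AA_transport B N L hL
  refine ⟨C, hC, ?_⟩
  intro h hh ρ w hρ hρ1 hw hρw m g hg hg2 z z' δ hδ hτ hv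
  have h2 := h1 h hh ρ w hρ hρ1 hw hρw (cen ρ m) (cp ρ g m) (cp_int hg ρ m) (cp_l2 hg2 ρ m)
    (fun ξ hξ => (cp_supp hρ hξ).trans (by linarith)) (z'.1, z.2) (z'.2 - z.2) hτ
  have e1 : ((z'.1, z.2).1, (z'.1, z.2).2 + (z'.2 - z.2)) = z' := by
    ext
    · simp
    · simp
  rw [e1] at h2
  refine h2.trans ?_
  rw [ENNReal.ofReal_mul hC, mul_assoc]
  refine mul_le_mul_right ?_ _
  refine AA_shift N hw hδ _ ?_
  simpa using hv

/-! ### (A3) orthogonality -/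

theorem AA_col (N : ℕ) : ∃ C : ℝ, 0 ≤ C ∧ ∀ (h : E2 → ℝ), Continuous h → ∀ (ρ w : ℝ), 0 < ρ →
    0 < w → 1 ≤ ρ * w → ∀ (κ : Type) (s : Finset κ) (a : κ → E2 → ℂ) (g : E2 → ℂ) (K L : ℝ),
    0 < K → 0 < L → (∀ i ∈ s, (a i).HasTemperateGrowth) →
    (∀ i ∈ s, ∀ j ≤ N + 2, ∀ ξ, ‖iteratedFDeriv ℝ j (a i) ξ‖ ≤ K * (ρ⁻¹) ^ j) →
    (∀ ξ, (Set.ncard {i | i ∈ s ∧ ξ ∈ tsupport (a i)} : ℝ) ≤ L) → Integrable g → MemLp g 2 →
    ∀ z : E2 × ℝ, ∑ i ∈ s, AA N w (ex h (fun ξ => a i ξ * g ξ)) z ≤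
      ENNReal.ofReal (C * K ^ 2 * L) * AA N w (ex h g) z := by
  obtain ⟨C, hC, h1⟩ := sv_col N
  refine ⟨C, hC, ?_⟩
  intro h hh ρ w hρ hw hρw κ s a g K L hK hL ha hab hov hg hg2 z
  have hi : ∀ i ∈ s, Integrable (fun ξ => a i ξ * g ξ) := by
    intro i hi
    refine hg.bdd_mul (c := K) (ha i hi).1.continuous.aestronglyMeasurable
      (Filter.Eventually.of_forall fun ξ => ?_)
    simpa using hab i hi 0 (Nat.zero_le _) ξ
  have e1 : ∀ i ∈ s, AA N w (ex h (fun ξ => a i ξ * g ξ)) z = ENNReal.ofReal ((w ^ 3)⁻¹) *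
      ∫⁻ t : ℝ, WE (fun y => wt N w z.1 z.2 (y, t)) (sl h (fun ξ => a i ξ * g ξ) t) :=
    fun i hi' => AA_slice N w hh (hi i hi') z
  have hsm : ∀ G : E2 → ℂ, Integrable G →
      Measurable fun t : ℝ => WE (fun y => wt N w z.1 z.2 (y, t)) (sl h G t) := by
    intro G hG
    have hm : Measurable fun p : E2 × ℝ => ‖ex h G p‖ₑ ^ 2 * ENNReal.ofReal (wt N w z.1 z.2 p) :=
      ((measurable_ex hh hG).enorm.pow_const 2).mul (measurable_wt N w z.1 z.2).ennreal_ofReal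
    have h3 := hm.lintegral_prod_left' (μ := (volume : Measure E2))
    have h4 : (fun t : ℝ => WE (fun y => wt N w z.1 z.2 (y, t)) (sl h G t)) =
        fun t => ∫⁻ y : E2, ‖ex h G (y, t)‖ₑ ^ 2 * ENNReal.ofReal (wt N w z.1 z.2 (y, t)) := by
      funext t
      unfold WE
      refine lintegral_congr fun y => ?_
      rw [mul_comm]
      unfold ex
      rw [ext_eq]
    rw [h4]
    exact h3
  rw [Finset.sum_congr rfl e1, ← Finset.mul_sum, ← lintegral_finsetSum s fun i hi' => hsm _ (hi i hi'),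
    AA_slice N w hh hg, mul_left_comm]
  refine mul_le_mul_right ?_ _
  rw [← lintegral_const_mul' _ _ ENNReal.ofReal_ne_top]
  refine lintegral_mono fun t => ?_
  have h2 := h1 ρ 1 _ hρ (SV_wt N hw hρw z t) κ s a (sl h g t) K L hK hL ha hab hov
    (sl_int hh hg t) (sl_l2 hh hg2 t)
  rw [one_pow, mul_one] at h2
  have e2 : ∀ i, sl h (fun ξ => a i ξ * g ξ) t = fun ξ => a i ξ * sl h g t ξ := by
    intro i
    funext ξ
    unfold sl
    ring
  simp only [e2]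
  exact h2

/-- **(A3)** the densities of the cap pieces add up to at most the density of the wave. -/
theorem AA_caps (N : ℕ) : ∃ C : ℝ, 0 ≤ C ∧ ∀ (h : E2 → ℝ), Continuous h → ∀ (ρ w : ℝ), 0 < ρ →
    0 < w → 1 ≤ ρ * w → ∀ (M : Finset (ℤ × ℤ)) (g : E2 → ℂ), Integrable g → MemLp g 2 →
    ∀ z : E2 × ℝ, ∑ m ∈ M, AA N w (ex h (cp ρ g m)) z ≤
      ENNReal.ofReal C * AA N w (ex h g) z := by
  obtain ⟨C, hC, h1⟩ := AA_col N
  obtain ⟨K, hK, hwin⟩ := Loc878.win_kbound (N + 2)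
  refine ⟨C * K ^ 2 * 36, by positivity, ?_⟩
  intro h hh ρ w hρ hw hρw M g hg hg2 z
  refine h1 h hh ρ w hρ hw hρw (ℤ × ℤ) M (fun m => cap win (cen ρ m) ρ) g K 36 hK (by norm_num)
    (fun m _ => temperate_cap win_contDiff (fun ζ hζ => win_zero' hζ) _ hρ)
    (fun m _ j hj ξ => hwin ρ ρ hρ le_rfl m j hj ξ) ?_ hg hg2 z
  intro ξ
  have : Set.ncard {m | m ∈ M ∧ ξ ∈ tsupport (cap win (cen ρ m) ρ)} ≤ 36 := by
    refine card_near hρ ξ _ fun m hm => ?_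
    have h5 : tsupport (cap win (cen ρ m) ρ) ⊆ Metric.closedBall (cen ρ m) (71 / 50 * ρ) := by
      refine closure_minimal (fun ξ hξ => ?_) Metric.isClosed_closedBall
      rw [Metric.mem_closedBall, dist_eq_norm]
      by_contra hc
      push Not at hc
      exact hξ (cap_supp (fun ζ hζ => win_zero' hζ) (cen ρ m) hρ ξ hc)
    have h6 := h5 hm.2
    rw [Metric.mem_closedBall, dist_eq_norm] at h6
    linarith
  exact_mod_cast this

end Crest.Agent.R138.Lo759
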