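import Crest.Agent.R138.Lo1_759
import Crest.Agent.R138.Rect_779
import Crest.Agent.R138.Bn3_759

/-!
# R138 / R139, WAVE side, LOWER (helper759), second part

`AA_capf`: densities of small caps against densities of direction caps; `lower`: the lower bound of
the direction-cap densities by a row of selected cells with rich rectangles.
-/

set_option autoImplicit false

open MeasureTheory FourierTransform
open scoped ENNReal ContDiff

namespace Crest.Agent.R138.Lo759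

open Crest.Agent.R138.Defs Crest.Agent.R138.Wpk685
open Crest.Agent.R138.Bil882 (wt wt_pos measurable_wt NearId)
open Crest.Agent.R138.T774 (AA AA_sum ext_sum)
open Crest.Agent.R138.Wf448 (sl ext_eq)
open Crest.Agent.R138.Sup882 (capf capf_sum capf_supp contDiff_capf norm_capf_le grad_lip)
open Crest.Agent.R138.Bn759 (nearId)

/-- direction cap of `g`. -/
noncomputable def gc (h : E2 → ℝ) (s : ℝ) (g : E2 → ℂ) (k : ℤ × ℤ) (ξ : E2) : ℂ :=
  g ξ * capf h s k ξ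

/-- the direction cap `k` of size `s` meets the cap `m` of size `ρ`. -/
def Sees (h : E2 → ℝ) (ρ s : ℝ) (m k : ℤ × ℤ) : Prop :=
  ‖gradient h (cen ρ m) - cen s k‖ < 3 * s

theorem gc_int {h : E2 → ℝ} (hh : ContDiff ℝ ∞ h) {g : E2 → ℂ} (hg : Integrable g) (s : ℝ)
    (k : ℤ × ℤ) : Integrable (gc h s g k) :=
  hg.mul_bdd (c := 1) (contDiff_capf hh s k).continuous.aestronglyMeasurable
    (Filter.Eventually.of_forall fun ξ => norm_capf_le h s k ξ)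

theorem gc_l2 {h : E2 → ℝ} (hh : ContDiff ℝ ∞ h) {g : E2 → ℂ} (hg : MemLp g 2) (s : ℝ)
    (k : ℤ × ℤ) : MemLp (gc h s g k) 2 := by
  refine MemLp.of_le hg (hg.1.mul (contDiff_capf hh s k).continuous.aestronglyMeasurable)
    (Filter.Eventually.of_forall fun ξ => ?_)
  unfold gc
  rw [norm_mul]
  exact mul_le_of_le_one_right (norm_nonneg _) (norm_capf_le h s k ξ)

theorem sees_of_ne {h : E2 → ℝ} (hn : NearId h (1 / 10)) {ρ s : ℝ} (hρ : 0 < ρ) (hs : ρ ≤ s)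
    {m k : ℤ × ℤ} {ξ : E2} (h1 : cap win (cen ρ m) ρ ξ ≠ 0) (h2 : capf h s k ξ ≠ 0) :
    Sees h ρ s m k := by
  have hs0 : 0 < s := lt_of_lt_of_le hρ hs
  have e1 : ‖ξ - cen ρ m‖ ≤ 71 / 50 * ρ := by
    by_contra hc
    push Not at hc
    exact h1 (cap_supp (fun ζ hζ => win_zero' hζ) (cen ρ m) hρ ξ hc)
  have e2 := capf_supp h hs0 h2
  have e3 := grad_lip hn (cen ρ m) ξ
  rw [norm_sub_rev (cen ρ m) ξ] at e3
  unfold Sees
  have e4 : ‖gradient h (cen ρ m) - cen s k‖ ≤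
      ‖gradient h (cen ρ m) - gradient h ξ‖ + ‖gradient h ξ - cen s k‖ := by
    have : gradient h (cen ρ m) - cen s k =
      (gradient h (cen ρ m) - gradient h ξ) + (gradient h ξ - cen s k) := by abel
    rw [this]
    exact norm_add_le _ _
  nlinarith

theorem card_sees {h : E2 → ℝ} {ρ s : ℝ} (hs0 : 0 < s) (m : ℤ × ℤ) (K : Finset (ℤ × ℤ))
    (hK : ∀ k ∈ K, Sees h ρ s m k) : K.card ≤ 36 := by
  have h1 := card_near hs0 (gradient h (cen ρ m)) (fun k => k ∈ K) fun k hk => hK k hk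
  have e : {k | k ∈ K} = ((K : Finset (ℤ × ℤ)) : Set (ℤ × ℤ)) := rfl
  rwa [e, Set.ncard_coe_finset] at h1

open Classical in
theorem cp_split {h : E2 → ℝ} (hn : NearId h (1 / 10)) {ρ s : ℝ} (hρ : 0 < ρ) (hs : ρ ≤ s)
    {g : E2 → ℂ} (hg : ∀ ξ, g ξ ≠ 0 → ‖gradient h ξ‖ ≤ 2) (m : ℤ × ℤ) (ξ : E2) :
    cp ρ g m ξ = ∑ k ∈ (caps s).filter (Sees h ρ s m), cp ρ (gc h s g k) m ξ := by
  have hs0 : 0 < s := lt_of_lt_of_le hρ hs
  have h1 : ∑ k ∈ (caps s).filter (Sees h ρ s m), cp ρ (gc h s g k) m ξ =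
      ∑ k ∈ caps s, cp ρ (gc h s g k) m ξ := by
    refine Finset.sum_subset (Finset.filter_subset _ _) fun k hk hk' => ?_
    by_contra hc
    apply hk'
    rw [Finset.mem_filter]
    refine ⟨hk, sees_of_ne hn hρ hs (ξ := ξ) (left_ne_zero_of_mul hc) ?_⟩
    exact right_ne_zero_of_mul (right_ne_zero_of_mul hc)
  rw [h1]
  unfold cp gc
  by_cases hξ : g ξ = 0
  · simp [hξ]
  · rw [← Finset.mul_sum, ← Finset.mul_sum, capf_sum h hs0 (hg ξ hξ), mul_one]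

/-- **(A4)** the densities of small caps are dominated by the densities of the direction caps. -/
theorem AA_capf (N : ℕ) : ∃ C : ℝ, 0 ≤ C ∧ ∀ (h : E2 → ℝ), ContDiff ℝ ∞ h → NearId h (1 / 10) →
    ∀ (ρ s w : ℝ), 0 < ρ → ρ ≤ s → 0 < w → 1 ≤ ρ * w → ∀ g : E2 → ℂ, Integrable g → MemLp g 2 →
    (∀ ξ, g ξ ≠ 0 → ‖gradient h ξ‖ ≤ 2) → ∀ (U K : Finset (ℤ × ℤ)),
    (∀ m ∈ U, ∀ k ∈ caps s, Sees h ρ s m k → k ∈ K) → ∀ z : E2 × ℝ,
    ∑ m ∈ U, AA N w (ex h (cp ρ g m)) z ≤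
      ENNReal.ofReal C * ∑ k ∈ K, AA N w (ex h (gc h s g k)) z := by
  classical
  obtain ⟨C, hC, h1⟩ := AA_caps N
  refine ⟨36 * C, by positivity, ?_⟩
  intro h hh hn ρ s w hρ hs hw hρw g hg hg2 hgs U K hK z
  have hs0 : 0 < s := lt_of_lt_of_le hρ hs
  have hhc : Continuous h := hh.continuous
  have h2 : ∀ m ∈ U, AA N w (ex h (cp ρ g m)) z ≤
      36 * ∑ k ∈ K, AA N w (ex h (cp ρ (gc h s g k) m)) z := by
    intro m hm
    set Km := (caps s).filter (Sees h ρ s m) with hKm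
    have e1 : ex h (cp ρ g m) = fun p => ∑ k ∈ Km, ex h (cp ρ (gc h s g k) m) p := by
      funext p
      unfold ex
      rw [← ext_sum hhc Km (fun k _ => cp_int (gc_int hh hg s k) ρ m)]
      congr 1
      funext ξ
      exact cp_split hn hρ hs hgs m ξ
    rw [e1]
    refine (AA_sum N w Km _ (fun k _ => measurable_ex hhc (cp_int (gc_int hh hg s k) ρ m)) z).trans ?_
    have hc : Km.card ≤ 36 := card_sees hs0 m Km fun k hk => (Finset.mem_filter.1 hk).2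
    have hsub : Km ⊆ K := fun k hk => hK m hm k (Finset.mem_filter.1 hk).1 (Finset.mem_filter.1 hk).2
    have hc' : (Km.card : ℝ≥0∞) ≤ 36 := by exact_mod_cast hc
    exact mul_le_mul' hc' (Finset.sum_le_sum_of_subset hsub)
  calc ∑ m ∈ U, AA N w (ex h (cp ρ g m)) z
      ≤ ∑ m ∈ U, 36 * ∑ k ∈ K, AA N w (ex h (cp ρ (gc h s g k) m)) z := Finset.sum_le_sum h2
    _ = 36 * ∑ k ∈ K, ∑ m ∈ U, AA N w (ex h (cp ρ (gc h s g k) m)) z := by
        rw [← Finset.mul_sum, Finset.sum_comm]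
    _ ≤ 36 * ∑ k ∈ K, ENNReal.ofReal C * AA N w (ex h (gc h s g k)) z := by
        refine mul_le_mul_right (Finset.sum_le_sum fun k _ => ?_) _
        exact h1 h hhc ρ w hρ hw hρw U _ (gc_int hh hg s k) (gc_l2 hh hg2 s k) z
    _ = ENNReal.ofReal (36 * C) * ∑ k ∈ K, AA N w (ex h (gc h s g k)) z := by
        rw [← Finset.mul_sum, ENNReal.ofReal_mul (by norm_num)]
        norm_num [mul_assoc]

/-! ### (A5) LOWER -/

/-- **(A5)** `n = #T` cells with bases `y m`, each with `≥ p` rich caps in `R m` (density `≥ A` at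
the base of the cell), pass the point `x`; then the densities at `x` of the direction caps are at
least `n p A`, up to the multiplicity `K1` and constants. -/
theorem lower (B : ℕ → ℝ) (hB2 : B 2 ≤ 1 / 10) (N : ℕ) (L : ℝ) (hL : 1 ≤ L) : ∃ C : ℝ, 0 ≤ C ∧
    ∀ h, ParB B h → ∀ (ρ s w : ℝ), 0 < ρ → ρ ≤ 1 → ρ ≤ s → 0 < w → 1 ≤ ρ * w →
    ∀ g : E2 → ℂ, Integrable g → MemLp g 2 → (∀ ξ, g ξ ≠ 0 → ‖gradient h ξ‖ ≤ 2) →
    ∀ {ι : Type} [DecidableEq ι] (T : Finset ι) (R : ι → Finset (ℤ × ℤ)) (U K : Finset (ℤ × ℤ))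
      (p : ℕ) (K1 δ : ℝ) (A : ℝ≥0∞) (y : ι → E2 × ℝ) (x : E2 × ℝ), 0 ≤ δ → 0 ≤ K1 →
      (∀ m ∈ T, R m ⊆ U) → (∀ m ∈ T, p ≤ (R m).card) →
      (∀ j ∈ U, ((T.filter fun m => j ∈ R m).card : ℝ) ≤ K1) →
      (∀ m ∈ T, ∀ j ∈ R m, A ≤ AA N w (ex h (cp ρ g j)) (y m)) →
      (∀ m ∈ T, |(y m).2 - x.2| * ρ ^ 2 ≤ L) →
      (∀ m ∈ T, ∀ j ∈ R m,
        ‖(y m).1 + ((y m).2 - x.2) • gradient h (cen ρ j) - x.1‖ ≤ δ * w) →
      (∀ m ∈ U, ∀ k ∈ caps s, Sees h ρ s m k → k ∈ K) →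
      (T.card : ℝ≥0∞) * p * A ≤ ENNReal.ofReal (C * (1 + δ) ^ N * K1) *
        ∑ k ∈ K, AA N w (ex h (gc h s g k)) x := by
  obtain ⟨C1, hC1, h1⟩ := AA_transport_cp B N L hL
  obtain ⟨C2, hC2, h2⟩ := AA_capf N
  refine ⟨C1 * C2, by positivity, ?_⟩
  intro h hh ρ s w hρ hρ1 hs hw hρw g hg hg2 hgs ι _ T R U K p K1 δ A y x hδ hK1 hRU hp hmul hA
    htime hpos hK
  have hn := nearId hB2 hh
  have e1 : (T.card : ℝ≥0∞) * p * A ≤
      ∑ m ∈ T, ∑ j ∈ R m, ENNReal.ofReal (C1 * (1 + δ) ^ N) * AA N w (ex h (cp ρ g j)) x := by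
    calc (T.card : ℝ≥0∞) * p * A = ∑ m ∈ T, (p : ℝ≥0∞) * A := by
          rw [Finset.sum_const, nsmul_eq_mul, mul_assoc]
      _ ≤ ∑ m ∈ T, ∑ j ∈ R m, A := by
          refine Finset.sum_le_sum fun m hm => ?_
          rw [Finset.sum_const, nsmul_eq_mul]
          have : (p : ℝ≥0∞) ≤ ((R m).card : ℝ≥0∞) := by exact_mod_cast hp m hm
          gcongr
      _ ≤ _ := by
          refine Finset.sum_le_sum fun m hm => Finset.sum_le_sum fun j hj => ?_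
          refine (hA m hm j hj).trans ?_
          exact h1 h hh ρ w hρ hρ1 hw hρw j g hg hg2 x (y m) δ hδ (htime m hm) (hpos m hm j hj)
  have e2 : ∀ f : ℤ × ℤ → ℝ≥0∞, ∑ m ∈ T, ∑ j ∈ R m, f j ≤
      ENNReal.ofReal K1 * ∑ j ∈ U, f j := by
    intro f
    have e3 : ∀ m ∈ T, ∑ j ∈ R m, f j = ∑ j ∈ U, if j ∈ R m then f j else 0 := by
      intro m hm
      rw [Finset.sum_ite_mem, Finset.inter_eq_right.2 (hRU m hm)]
    rw [Finset.sum_congr rfl e3, Finset.sum_comm, Finset.mul_sum]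
    refine Finset.sum_le_sum fun j hj => ?_
    rw [← Finset.sum_filter, Finset.sum_const, nsmul_eq_mul]
    refine mul_le_mul_left ?_ _
    rw [← ENNReal.ofReal_natCast]
    exact ENNReal.ofReal_le_ofReal (hmul j hj)
  calc (T.card : ℝ≥0∞) * p * A
      ≤ ∑ m ∈ T, ∑ j ∈ R m, ENNReal.ofReal (C1 * (1 + δ) ^ N) * AA N w (ex h (cp ρ g j)) x := e1
    _ ≤ ENNReal.ofReal K1 * ∑ j ∈ U, ENNReal.ofReal (C1 * (1 + δ) ^ N) *
        AA N w (ex h (cp ρ g j)) x := e2 _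
    _ = ENNReal.ofReal K1 * (ENNReal.ofReal (C1 * (1 + δ) ^ N) * ∑ j ∈ U,
        AA N w (ex h (cp ρ g j)) x) := by rw [← Finset.mul_sum]
    _ ≤ ENNReal.ofReal K1 * (ENNReal.ofReal (C1 * (1 + δ) ^ N) * (ENNReal.ofReal C2 *
        ∑ k ∈ K, AA N w (ex h (gc h s g k)) x)) := by
        gcongr
        exact h2 h hh.1 hn ρ s w hρ hs hw hρw g hg hg2 hgs U K hK x
    _ = _ := by
        rw [← mul_assoc, ← mul_assoc, ← ENNReal.ofReal_mul hK1, ← ENNReal.ofReal_mul (by positivity)]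
        congr 2
        ring

/-- **LOWER**, rectangle form: `T` is a set of caps of a plank row with normal `N0` (the normal
components of the velocities agree up to `a`), the rich caps of `m` are in the rectangle of `m`,
all cells have bases `y m` and pass the point `x` up to `δ w`. -/
theorem lower_rect (B : ℕ → ℝ) (hB2 : B 2 ≤ 1 / 10) (N : ℕ) (L : ℝ) (hL : 1 ≤ L) : ∃ C : ℝ, 0 ≤ C ∧
    ∀ h, ParB B h → ∀ (ρ s w : ℝ), 0 < ρ → ρ ≤ 1 → ρ ≤ s → 0 < w → 1 ≤ ρ * w →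
    ∀ g : E2 → ℂ, Integrable g → MemLp g 2 → (∀ ξ, g ξ ≠ 0 → ‖gradient h ξ‖ ≤ 2) →
    ∀ (N0 : E2), ‖N0‖ = 1 → ∀ (T : Finset (ℤ × ℤ)) (R : ℤ × ℤ → Finset (ℤ × ℤ))
      (K : Finset (ℤ × ℤ)) (p : ℕ) (a K0 Lr wr δ : ℝ) (A : ℝ≥0∞) (y : ℤ × ℤ → E2 × ℝ)
      (x : E2 × ℝ), 0 ≤ δ → 0 ≤ K0 → 10 / 9 * (a + 2 * wr) ≤ K0 * ρ →
      (∀ m ∈ T, ∀ m' ∈ T,
        |(inner ℝ N0 (gradient h (cen ρ m) - gradient h (cen ρ m')) : ℝ)| ≤ a) →
      (∀ m ∈ T, ∀ j ∈ R m, cen ρ j ∈ Rect779.RectF N0 (cen ρ m) Lr wr) →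
      (∀ m ∈ T, p ≤ (R m).card) →
      (∀ m ∈ T, ∀ j ∈ R m, A ≤ AA N w (ex h (cp ρ g j)) (y m)) →
      (∀ m ∈ T, |(y m).2 - x.2| * ρ ^ 2 ≤ L) →
      (∀ m ∈ T, ‖(y m).1 + ((y m).2 - x.2) • gradient h (cen ρ m) - x.1‖ +
        11 / 10 * Lr * |(y m).2 - x.2| ≤ δ * w) →
      (∀ m ∈ T, ∀ k ∈ caps s, ‖gradient h (cen ρ m) - cen s k‖ < 3 * s + 11 / 10 * Lr → k ∈ K) →
      (T.card : ℝ≥0∞) * p * A ≤ ENNReal.ofReal (C * (1 + δ) ^ N * (2 * K0 + 1) ^ 2) *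
        ∑ k ∈ K, AA N w (ex h (gc h s g k)) x := by
  classical
  obtain ⟨C, hC, h1⟩ := lower B hB2 N L hL
  refine ⟨C, hC, ?_⟩
  intro h hh ρ s w hρ hρ1 hs hw hρw g hg hg2 hgs N0 hN0 T R K p a K0 Lr wr δ A y x hδ hK0 hKa ha
    hR hp hA htime hpos hK
  have hn := nearId hB2 hh
  have hvel : ∀ m ∈ T, ∀ j ∈ R m,
      ‖gradient h (cen ρ j) - gradient h (cen ρ m)‖ ≤ 11 / 10 * Lr := by
    intro m hm j hj
    have h2 := (hR m hm j hj).1
    have h3 := grad_lip hn (cen ρ j) (cen ρ m)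
    linarith
  refine h1 h hh ρ s w hρ hρ1 hs hw hρw g hg hg2 hgs T R (T.biUnion R) K p ((2 * K0 + 1) ^ 2) δ A
    y x hδ (by positivity) (fun m hm => Finset.subset_biUnion_of_mem R hm) hp ?_ hA htime ?_ ?_
  · intro j _
    refine Rect779.mult_le hn hN0 hρ hK0 hKa (T := T.filter fun m => j ∈ R m) ?_ (cen ρ j) ?_
      (L := Lr) (w := wr)
    · intro m hm m' hm'
      exact ha m (Finset.mem_filter.1 hm).1 m' (Finset.mem_filter.1 hm').1
    · intro m hm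
      exact hR m (Finset.mem_filter.1 hm).1 j (Finset.mem_filter.1 hm).2
  · intro m hm j hj
    have h2 := hvel m hm j hj
    have e1 : (y m).1 + ((y m).2 - x.2) • gradient h (cen ρ j) - x.1 =
        ((y m).1 + ((y m).2 - x.2) • gradient h (cen ρ m) - x.1) +
        ((y m).2 - x.2) • (gradient h (cen ρ j) - gradient h (cen ρ m)) := by
      rw [smul_sub]; abel
    rw [e1]
    refine (norm_add_le _ _).trans ((add_le_add le_rfl ?_).trans (hpos m hm))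
    rw [norm_smul, Real.norm_eq_abs, mul_comm]
    exact mul_le_mul_of_nonneg_right h2 (abs_nonneg _)
  · intro j hj k hk hsee
    obtain ⟨m, hm, hjm⟩ := Finset.mem_biUnion.1 hj
    refine hK m hm k hk ?_
    have h2 := hvel m hm j hjm
    unfold Sees at hsee
    have e1 : gradient h (cen ρ m) - cen s k =
        -(gradient h (cen ρ j) - gradient h (cen ρ m)) + (gradient h (cen ρ j) - cen s k) := by abel
    rw [e1]
    refine lt_of_le_of_lt (norm_add_le _ _) ?_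
    rw [norm_neg]
    linarith

end Crest.Agent.R138.Lo759
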