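import Crest.Agent.R138.Loc1_878

/-!
# R138 / R139: localisation for selected waves (helper878).

`loc_sel_le` : short packets of `tr h z (sel ρ g S)` in `S'` are controlled by the long packets of
`g` in `S` which pass through `S'`.
-/

set_option autoImplicit false
set_option linter.unusedSectionVars false

open MeasureTheory FourierTransform
open scoped ContDiff ENNReal

namespace Crest.Agent.R138.Loc878

open Crest.Agent.R138.Defs Crest.Agent.R138.Wpk685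
open Crest.Agent.R138.Wf448 (wE sl)
open Crest.Agent.R138.W188 (tr)

theorem capfat_prod {ρ ρ' : ℝ} (hρ : 0 < ρ) (hρ' : ρ ≤ ρ') {m m' : ℤ × ℤ}
    (hm : ¬ Near ρ ρ' m' m) {G : E2 → ℂ} (hG : ∀ ξ, G ξ ≠ 0 → ‖ξ - cen ρ m‖ ≤ 3 / 2 * ρ) (ξ : E2) :
    cap win (cen ρ' m') ρ' ξ * G ξ = 0 := by
  by_contra hne
  have h1 := hG ξ (right_ne_zero_of_mul hne)
  have h2 := capwin_supp (lt_of_lt_of_le hρ hρ') m' ξ (left_ne_zero_of_mul hne)
  apply hm
  unfold Near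
  have h3 : ‖cen ρ m - cen ρ' m'‖ ≤ ‖ξ - cen ρ m‖ + ‖ξ - cen ρ' m'‖ := by
    have : cen ρ m - cen ρ' m' = -(ξ - cen ρ m) + (ξ - cen ρ' m') := by abel
    rw [this]
    exact (norm_add_le _ _).trans (by rw [norm_neg])
  have h4 : 0 < ρ' := lt_of_lt_of_le hρ hρ'
  linarith

/-- **core**, one short cap, a wave given by represented pieces. -/
theorem loc_core_rep (B : ℕ → ℝ) (n : ℕ) (L : ℝ) (hL : 1 ≤ L) : ∃ C : ℝ, 0 ≤ C ∧ ∀ h, ParB B h →
    ∀ (ρ ρ' A : ℝ) (w : E2 → ℝ), 0 < ρ → ρ ≤ ρ' → ρ ≤ 1 → SV ρ A n w →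
    ∀ (G v : ℤ × ℤ → E2 → ℂ), (∀ m ∈ caps ρ, Rep ρ (cen ρ m) (G m) (v m)) →
    ∀ z : E2 × ℝ, |z.2| * ρ ^ 2 ≤ L → ∀ m' : ℤ × ℤ,
    ∫⁻ x, ENNReal.ofReal (w x) * ‖um ρ' (tr h z (fun ξ => ∑ m ∈ caps ρ, G m ξ)) m' x‖ₑ ^ 2 ≤
      ENNReal.ofReal (C * A ^ 7) * ∑ m ∈ nearL ρ ρ' m', ∫⁻ y,
        ENNReal.ofReal (w (y - z.1 - z.2 • gradient h (cen ρ m))) * ‖v m y‖ₑ ^ 2 := by
  obtain ⟨C1, hC1, h1⟩ := sv_row n
  obtain ⟨C2, hC2, h2⟩ := sv_transport B n L hL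
  obtain ⟨C3, hC3, h3⟩ := sv_mult n
  obtain ⟨C4, hC4, h4⟩ := rep_energy n
  obtain ⟨K, hK, hwin⟩ := win_kbound (n + 2)
  refine ⟨C1 * 36 * (C2 * (C3 * K ^ 2 * C4)), by positivity, ?_⟩
  intro h hh ρ ρ' A w hρ hρ' hρ1 hw G v hR z hz m'
  have hA := hw.one_le
  have hpos' : 0 < ρ' := lt_of_lt_of_le hρ hρ'
  have hhc : Continuous h := hh.1.continuous
  set s := nearL ρ ρ' m' with hs
  have hsc : ∀ m ∈ s, m ∈ caps ρ := fun m hm => (mem_nearL.1 hm).1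
  set G' : ℤ × ℤ → E2 → ℂ := fun m ξ => cap win (cen ρ' m') ρ' ξ * G m ξ with hG'
  have hG'i : ∀ m ∈ s, Integrable (G' m) := fun m hm => win_int (hR m (hsc m hm)).int m'
  have hG'2 : ∀ m ∈ s, MemLp (G' m) 2 := fun m hm => win_l2 (hR m (hsc m hm)).l2 m'
  have hG's : ∀ m ∈ s, ∀ ξ, G' m ξ ≠ 0 → ‖ξ - cen ρ m‖ ≤ 3 / 2 * ρ := fun m hm ξ hξ =>
    (hR m (hsc m hm)).supp ξ (right_ne_zero_of_mul hξ)
  have esum : ∀ ξ, cap win (cen ρ' m') ρ' ξ * ∑ m ∈ caps ρ, G m ξ = ∑ m ∈ s, G' m ξ := by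
    classical
    intro ξ
    rw [Finset.mul_sum, hs]
    unfold nearL
    rw [Finset.sum_filter_of_ne]
    intro m hm hne
    by_contra hc
    exact hne (capfat_prod hρ hρ' hc (hR m hm).supp ξ)
  have e1 : ∫⁻ x, ENNReal.ofReal (w x) *
      ‖um ρ' (tr h z (fun ξ => ∑ m ∈ caps ρ, G m ξ)) m' x‖ₑ ^ 2 =
      WE (fun x => w (x - z.1)) (fun ξ => ∑ m ∈ s, sl h (G' m) z.2 ξ) := by
    rw [um_lint]
    refine WE_modulate w z.1 fun ξ => ?_
    have e2 : ∑ m ∈ s, sl h (G' m) z.2 ξ = (∑ m ∈ s, G' m ξ) * ee (z.2 * h ξ) := by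
      unfold sl
      rw [Finset.sum_mul]
    rw [e2, ← esum]
    simp only [tr]
    rw [ee_add]
    ring
  rw [e1]
  have hw1 := hw.comp_sub z.1
  have a1 := h1 ρ A _ hρ hw1 (ℤ × ℤ) s (fun m => Metric.closedBall (cen ρ m) (3 / 2 * ρ))
    (fun m => sl h (G' m) z.2) 36 (by norm_num) (fun ξ => ?_)
    (fun m hm ξ hξ => by
      rw [Metric.mem_closedBall, dist_eq_norm]
      exact hG's m hm ξ (left_ne_zero_of_mul hξ))
    (fun m hm => sl_int hhc (hG'i m hm) _) (fun m hm => sl_l2 hhc (hG'2 m hm) _)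
  · refine a1.trans ?_
    have e3 : C1 * 36 * (C2 * (C3 * K ^ 2 * C4)) * A ^ 7 =
        (C1 * A ^ 2 * 36) * ((C2 * A ^ 2) * ((C3 * A ^ 2 * K ^ 2) * (C4 * A))) := by ring
    rw [e3, ENNReal.ofReal_mul (p := C1 * A ^ 2 * 36) (by positivity),
      mul_assoc (ENNReal.ofReal (C1 * A ^ 2 * 36))]
    refine mul_le_mul' le_rfl ?_
    rw [Finset.mul_sum]
    refine Finset.sum_le_sum fun m hm => ?_
    have hRm := hR m (hsc m hm)
    have a2 := h2 h hh ρ A _ hρ hρ1 hw1 (cen ρ m) (G' m) (hG'i m hm) (hG'2 m hm)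
      (fun ξ hξ => (hG's m hm ξ hξ).trans (by linarith)) 0 z.2 hz
    rw [zero_add, sl_zero] at a2
    have hw2 : SV ρ A n (fun x => w (x - z.2 • gradient h (cen ρ m) - z.1)) :=
      hw1.comp_sub (z.2 • gradient h (cen ρ m))
    have a3 := h3 ρ A _ hρ hw2 (cap win (cen ρ' m') ρ') (G m) K hK
      (temperate_cap win_contDiff (fun ζ hζ => win_zero' hζ) _ hpos')
      (fun j hj ξ => hwin ρ ρ' hρ hρ' m' j hj ξ) hRm.int hRm.l2
    have a4 := h4 ρ A _ hρ hρ1 hw2 (cen ρ m) (G m) (v m) hRm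
    have e5 : ∀ y : E2, y - z.1 - z.2 • gradient h (cen ρ m) =
        y - z.2 • gradient h (cen ρ m) - z.1 := by
      intro y; abel
    simp only [e5]
    refine a2.trans ?_
    rw [ENNReal.ofReal_mul (p := C2 * A ^ 2) (by positivity),
      mul_assoc (ENNReal.ofReal (C2 * A ^ 2))]
    refine mul_le_mul' le_rfl (a3.trans ?_)
    rw [ENNReal.ofReal_mul (p := C3 * A ^ 2 * K ^ 2) (by positivity),
      mul_assoc (ENNReal.ofReal (C3 * A ^ 2 * K ^ 2))]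
    exact mul_le_mul' le_rfl a4
  · have h6 := card_near hρ ξ (fun m => m ∈ s ∧
      ξ ∈ Metric.thickening ρ (Metric.closedBall (cen ρ m) (3 / 2 * ρ))) (fun m hm => ?_)
    · exact_mod_cast h6
    · obtain ⟨y, hy, hyd⟩ := Metric.mem_thickening_iff.1 hm.2
      rw [Metric.mem_closedBall, dist_eq_norm] at hy
      rw [dist_eq_norm] at hyd
      calc ‖ξ - cen ρ m‖ = ‖(ξ - y) + (y - cen ρ m)‖ := by congr 1; abel
        _ ≤ ‖ξ - y‖ + ‖y - cen ρ m‖ := norm_add_le _ _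
        _ < 3 * ρ := by linarith

/-- **LOC for selected waves**. -/
theorem loc_sel_le (B : ℕ → ℝ) (n : ℕ) (L : ℝ) (hL : 1 ≤ L) : ∃ C : ℝ, 0 ≤ C ∧ ∀ h, ParB B h →
    ∀ (ρ ρ' : ℝ), 0 < ρ → ρ ≤ ρ' → ρ ≤ 1 → ∀ g : E2 → ℂ, Integrable g →
    ∀ S : ℤ × ℤ → Set E2, Bs ρ S → ∀ z : E2 × ℝ, |z.2| * ρ ^ 2 ≤ L →
    ∀ S' Sp : ℤ × ℤ → Set E2, (∀ m ∈ caps ρ', MeasurableSet (S' m)) →
    (∀ m ∈ caps ρ, MeasurableSet (Sp m)) → ∀ X : ℝ, 0 < X →
    (∀ m ∈ caps ρ, ∀ m' ∈ caps ρ', Near ρ ρ' m' m → ∀ x ∈ S' m', ∀ y : E2,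
      ρ * ‖y - (x + z.1 + z.2 • gradient h (cen ρ m))‖ ≤ X → y ∈ Sp m) →
    en ρ' (tr h z (sel ρ g S)) S' ≤ ENNReal.ofReal C * en ρ g (fun m => S m ∩ Sp m) +
      ENNReal.ofReal (C * (X ^ n)⁻¹) * en ρ g S := by
  obtain ⟨C1, hC1, h1⟩ := loc_core_rep B n L hL
  refine ⟨C1 * 36, by positivity, ?_⟩
  intro h hh ρ ρ' hρ hρ' hρ1 g hg S hS z hz S' Sp hS' hSp X hX hX2
  have hpos' : 0 < ρ' := lt_of_lt_of_le hρ hρ'
  set v : ℤ × ℤ → E2 → ℂ := fun m => (S m).indicator (um ρ g m) with hv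
  set a : ℤ × ℤ → ℝ≥0∞ := fun m => (∫⁻ y in Sp m, ‖v m y‖ₑ ^ 2) +
    ENNReal.ofReal ((X ^ n)⁻¹) * ∫⁻ y, ‖v m y‖ₑ ^ 2 with ha
  have key : ∀ m' ∈ caps ρ', ∫⁻ x in S' m', ‖um ρ' (tr h z (sel ρ g S)) m' x‖ₑ ^ 2 ≤
      ENNReal.ofReal C1 * ∑ m ∈ nearL ρ ρ' m', a m := by
    intro m' hm'
    rcases (S' m').eq_empty_or_nonempty with he | hne
    · rw [he]; simp
    · have b1 := h1 h hh ρ ρ' 1 _ hρ hρ' hρ1 (SV_wS hρ.le n (S' m'))
        (fun m => piece ρ g m (S m)) v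
        (fun m hm => piece_rep hρ hg m (hS.meas m hm) (hS.bdd m hm)) z hz m'
      rw [one_pow, mul_one] at b1
      refine (set_le_wS n (hS' m' hm') _).trans (b1.trans ?_)
      refine mul_le_mul' le_rfl (Finset.sum_le_sum fun m hm => ?_)
      obtain ⟨hmc, hmn⟩ := mem_nearL.1 hm
      refine split_le (w := fun y => wS ρ n (S' m') (y - z.1 - z.2 • gradient h (cen ρ m)))
        (hSp m hmc) (fun y => wS_le_one hρ.le _ _ _) (fun y hy => ?_) _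
      refine wS_far hX n ?_
      have h5 : X / ρ ≤ Metric.infDist (y - z.1 - z.2 • gradient h (cen ρ m)) (S' m') := by
        rw [Metric.le_infDist hne]
        intro x hx
        rw [div_le_iff₀' hρ]
        by_contra hc
        push Not at hc
        apply hy
        refine hX2 m hmc m' hm' hmn x hx y ?_
        rw [dist_eq_norm] at hc
        have e : y - (x + z.1 + z.2 • gradient h (cen ρ m)) =
            y - z.1 - z.2 • gradient h (cen ρ m) - x := by abel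
        rw [e]
        exact hc.le
      rwa [div_le_iff₀' hρ] at h5
  have hsum : ∑ m ∈ caps ρ, a m = en ρ g (fun m => S m ∩ Sp m) +
      ENNReal.ofReal ((X ^ n)⁻¹) * en ρ g S := by
    rw [ha]
    simp only [Finset.sum_add_distrib]
    rw [← Finset.mul_sum]
    unfold en
    congr 1
    · refine Finset.sum_congr rfl fun m hm => ?_
      rw [← lintegral_indicator (hSp m hm), ← lintegral_indicator ((hS.meas m hm).inter (hSp m hm))]
      refine lintegral_congr fun y => ?_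
      simp only [hv, Set.indicator, Set.mem_inter_iff]
      by_cases h1 : y ∈ S m <;> by_cases h2 : y ∈ Sp m <;> simp [h1, h2]
    · congr 1
      refine Finset.sum_congr rfl fun m hm => ?_
      have := lint_ind (hS.meas m hm) (fun _ => 1) (um ρ g m)
      simpa only [one_mul] using this
  calc en ρ' (tr h z (sel ρ g S)) S' ≤
        ∑ m' ∈ caps ρ', ENNReal.ofReal C1 * ∑ m ∈ nearL ρ ρ' m', a m := Finset.sum_le_sum key
    _ = ENNReal.ofReal C1 * ∑ m' ∈ caps ρ', ∑ m ∈ nearL ρ ρ' m', a m := by rw [Finset.mul_sum]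
    _ ≤ ENNReal.ofReal C1 * (36 * ∑ m ∈ caps ρ, a m) :=
        mul_le_mul' le_rfl (sum_near_le hpos' a)
    _ = _ := by
        have e36 : ENNReal.ofReal 36 = 36 := by norm_num
        rw [hsum, ENNReal.ofReal_mul (p := C1 * 36) (by positivity),
          ENNReal.ofReal_mul (p := C1) hC1, e36]
        ring

end Crest.Agent.R138.Loc878
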