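import Crest.Agent.R138.Sup1_882
import Crest.Agent.R138.Ker4_858

/-!
# R138 / R139, wave side (b): superadditivity, part 2 (helper882)

Selections of packets, the slice inequality.
-/

set_option autoImplicit false

open MeasureTheory FourierTransform
open scoped ContDiff ENNReal

namespace Crest.Agent.R138.Sup882

open Crest.Agent.R138.Defs Crest.Agent.R138.Wf448
open Crest.Agent.R138.Ker858 (rect volume_rect)

/-- plates `(c i, b i, s i, x0 i)` of length `r` and disjoint measurable selections `S i m` of the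
packets with velocity `v m`. -/
structure Sel (A r w : ℝ) {M I : Type} (v : M → E2) (c : I → E2)
    (b : I → OrthonormalBasis (Fin 2) ℝ E2) (s : I → Fin 2 → ℝ) (x0 : I → E2)
    (S : I → M → Set E2) : Prop where
  meas : ∀ i m, MeasurableSet (S i m)
  disj : ∀ m, Pairwise (Function.onFun Disjoint fun i => S i m)
  dir : ∀ i m, (S i m).Nonempty → ∀ a, |inner ℝ (v m - c i) (b i a)| ≤ A * s i a
  pos : ∀ i m, ∀ y ∈ S i m, ∀ a, |inner ℝ (y - x0 i) (b i a)| ≤ A * (s i a * r)
  wle : ∀ i a, w ≤ s i a * r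
  spos : ∀ i a, 0 < s i a

/-- the packet `𝓕⁻ (a g)`, squared. -/
noncomputable def U (a g : E2 → ℂ) (y : E2) : ℝ≥0∞ :=
  ENNReal.ofReal (‖𝓕⁻ (fun ξ => a ξ * g ξ) y‖ ^ 2)

/-- the energy of a selection. -/
noncomputable def en {M I : Type} [Fintype M] (a : M → E2 → ℂ) (g : E2 → ℂ) (S : I → M → Set E2)
    (i : I) : ℝ≥0∞ := ∑ m, ∫⁻ y in S i m, U (a m) g y

/-- the local energy of a selection. -/
noncomputable def se (n : ℕ) (w : ℝ) {M I : Type} [Fintype M] (a : M → E2 → ℂ) (v : M → E2)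
    (g : E2 → ℂ) (S : I → M → Set E2) (i : I) (x : E2) (t : ℝ) : ℝ≥0∞ :=
  ∑ m, ∫⁻ y in S i m, ENNReal.ofReal (dw n (iso w) (y - (x + t • v m))) * U (a m) g y

theorem dw_iso {n : ℕ} {w : ℝ} (hw : 0 < w) (z : E2) :
    dw n (iso w) z = ((1 + (‖z‖ / w) ^ 2) ^ n)⁻¹ := by
  unfold dw gw
  rw [norm_iso_apply hw]

theorem measurable_U {a : E2 → ℂ} (hs : ContDiff ℝ ∞ a) (hc : HasCompactSupport a) {g : E2 → ℂ}
    (hg : Integrable g) : Measurable (U a g) := by
  unfold U
  have h := fourierInv_continuous (packet_integrable (Mx := Unit) hs hc hg)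
  exact ((h.norm.pow 2).measurable).ennreal_ofReal

/-- disjointness: the selections together are dominated by the weighted energies. -/
theorem sum_se_le (n : ℕ) {A r w : ℝ} {M I : Type} [Fintype M] [Fintype I] {a : M → E2 → ℂ}
    {v : M → E2} {c : I → E2} {b : I → OrthonormalBasis (Fin 2) ℝ E2} {s : I → Fin 2 → ℝ}
    {x0 : I → E2} {S : I → M → Set E2} (hS : Sel A r w v c b s x0 S) (g : E2 → ℂ) (x : E2) (t : ℝ) :
    ∑ i, se n w a v g S i x t ≤
      ∑ m, wE n (iso w) (x + t • v m) (fun ξ => a m ξ * g ξ) := by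
  classical
  unfold se
  rw [Finset.sum_comm]
  refine Finset.sum_le_sum fun m _ => ?_
  have h1 := lintegral_biUnion_finset (μ := (volume : Measure E2)) (s := (Finset.univ : Finset I))
    (t := fun i => S i m) (fun i _ j _ hij => hS.disj m hij) (fun i _ => hS.meas i m)
    (fun y => ENNReal.ofReal (dw n (iso w) (y - (x + t • v m))) * U (a m) g y)
  rw [← h1]
  refine (setLIntegral_le_lintegral _ _).trans (le_of_eq ?_)
  unfold wE LI U
  refine lintegral_congr fun y => ?_
  rw [ENNReal.ofReal_mul (dw_pos _ _ _).le]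

theorem measurable_dwf (n : ℕ) (w : ℝ) (u : E2) :
    Measurable fun p : E2 × E2 => ENNReal.ofReal (dw n (iso w) (p.2 - (p.1 + u))) := by
  have h := continuous_dw n (iso w)
  exact (h.comp (continuous_snd.sub (continuous_fst.add continuous_const))).measurable.ennreal_ofReal

theorem measurable_se (n : ℕ) (w : ℝ) {M I : Type} [Fintype M] {a : M → E2 → ℂ} (v : M → E2)
    {g : E2 → ℂ} (S : I → M → Set E2) (i : I) (t : ℝ) (hs : ∀ m, ContDiff ℝ ∞ (a m))
    (hc : ∀ m, HasCompactSupport (a m)) (hg : Integrable g) :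
    Measurable fun x => se n w a v g S i x t := by
  unfold se
  refine Finset.measurable_fun_sum _ fun m _ => ?_
  have h1 : Measurable fun p : E2 × E2 =>
      ENNReal.ofReal (dw n (iso w) (p.2 - (p.1 + t • v m))) * U (a m) g p.2 :=
    (measurable_dwf n w (t • v m)).mul ((measurable_U (hs m) (hc m) hg).comp measurable_snd)
  exact h1.lintegral_prod_right'

/-- the unit ball -/
noncomputable def kap : ℝ := (volume (Metric.ball (0 : E2) 1)).toReal

theorem kap_pos : 0 < kap :=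
  ENNReal.toReal_pos (Metric.measure_ball_pos volume (0 : E2) one_pos).ne' measure_ball_lt_top.ne

theorem volume_ball_E2 (x : E2) {w : ℝ} (hw : 0 ≤ w) :
    volume (Metric.closedBall x w) = ENNReal.ofReal (kap * w ^ 2) := by
  rw [Measure.addHaar_closedBall _ _ hw, mul_comm kap, ENNReal.ofReal_mul (by positivity)]
  congr 1
  · simp
  · unfold kap; rw [ENNReal.ofReal_toReal measure_ball_lt_top.ne]

/-- mass of the local energy on the plate. -/
theorem int_se_ge (n : ℕ) {A r w : ℝ} (hA : 0 ≤ A) (hr : 0 < r) (hw : 0 < w) {M I : Type} [Fintype M]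
    {a : M → E2 → ℂ} {v : M → E2} {c : I → E2} {b : I → OrthonormalBasis (Fin 2) ℝ E2}
    {s : I → Fin 2 → ℝ} {x0 : I → E2} {S : I → M → Set E2} (hS : Sel A r w v c b s x0 S)
    {g : E2 → ℂ} (hs : ∀ m, ContDiff ℝ ∞ (a m)) (hc : ∀ m, HasCompactSupport (a m))
    (hg : Integrable g) (i : I) (t : ℝ) (ht : |t| ≤ r) :
    ENNReal.ofReal ((2 ^ n)⁻¹ * (kap * w ^ 2)) * en a g S i ≤
      ∫⁻ x in rect (x0 i - t • c i) (b i) (fun j => s i j * r) (2 + 2 * A), se n w a v g S i x t := by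
  set R := rect (x0 i - t • c i) (b i) (fun j => s i j * r) (2 + 2 * A) with hR
  unfold se en
  rw [lintegral_finsetSum, Finset.mul_sum]
  · refine Finset.sum_le_sum fun m _ => ?_
    have h1 : Measurable fun p : E2 × E2 =>
        ENNReal.ofReal (dw n (iso w) (p.2 - (p.1 + t • v m))) * U (a m) g p.2 :=
      (measurable_dwf n w (t • v m)).mul ((measurable_U (hs m) (hc m) hg).comp measurable_snd)
    rw [lintegral_lintegral_swap h1.aemeasurable, ← lintegral_const_mul' _ _ ENNReal.ofReal_ne_top]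
    refine setLIntegral_mono' (hS.meas i m) fun y hy => ?_
    have hmx : Measurable fun x => ENNReal.ofReal (dw n (iso w) (y - (x + t • v m))) :=
      ((continuous_dw n (iso w)).comp
        (continuous_const.sub (continuous_id.add continuous_const))).measurable.ennreal_ofReal
    rw [lintegral_mul_const _ hmx]
    refine mul_le_mul_left ?_ _
    have hsub : Metric.closedBall (y - t • v m) w ⊆ R := by
      intro x hx a'
      rw [mem_closedBall_iff_norm] at hx
      have e : x - (x0 i - t • c i) = (x - (y - t • v m)) + (y - x0 i) - t • (v m - c i) := by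
        rw [smul_sub]; abel
      have hb1 : |inner ℝ (x - (y - t • v m)) (b i a')| ≤ w := by
        refine (abs_real_inner_le_norm _ _).trans ?_
        rw [(b i).norm_eq_one, mul_one]; exact hx
      have hb2 := hS.pos i m y hy a'
      have hb3 := hS.dir i m ⟨y, hy⟩ a'
      have hwl := hS.wle i a'
      have hsp := hS.spos i a'
      have hsr : 0 < s i a' * r := by positivity
      have hb4 : |t| * |inner ℝ (v m - c i) (b i a')| ≤ A * (s i a' * r) := by
        calc |t| * |inner ℝ (v m - c i) (b i a')| ≤ r * (A * s i a') :=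
              mul_le_mul ht hb3 (abs_nonneg _) hr.le
          _ = _ := by ring
      rw [e, inner_sub_left, inner_add_left, inner_smul_left]
      simp only [conj_trivial]
      have := abs_sub (inner ℝ (x - (y - t • v m)) (b i a') + inner ℝ (y - x0 i) (b i a'))
        (t * inner ℝ (v m - c i) (b i a'))
      have h3 := abs_add_le (inner ℝ (x - (y - t • v m)) (b i a')) (inner ℝ (y - x0 i) (b i a'))
      rw [abs_mul] at this
      calc _ ≤ _ := this
        _ ≤ w + A * (s i a' * r) + A * (s i a' * r) := by linarith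
        _ < (2 + 2 * A) * (s i a' * r) := by nlinarith
    calc ENNReal.ofReal ((2 ^ n)⁻¹ * (kap * w ^ 2))
        = ∫⁻ _x in Metric.closedBall (y - t • v m) w, ENNReal.ofReal ((2 ^ n)⁻¹) := by
          rw [setLIntegral_const, volume_ball_E2 _ hw.le, ← ENNReal.ofReal_mul (by positivity)]
      _ ≤ ∫⁻ x in Metric.closedBall (y - t • v m) w,
            ENNReal.ofReal (dw n (iso w) (y - (x + t • v m))) := by
          refine setLIntegral_mono' Metric.isClosed_closedBall.measurableSet fun x hx => ?_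
          refine ENNReal.ofReal_le_ofReal ?_
          rw [mem_closedBall_iff_norm] at hx
          rw [dw_iso hw]
          have h4 : ‖y - (x + t • v m)‖ ≤ w := by
            rw [show y - (x + t • v m) = -(x - (y - t • v m)) by abel, norm_neg]; exact hx
          have h5 : ‖y - (x + t • v m)‖ / w ≤ 1 := by rw [div_le_one hw]; exact h4
          have h6 : (‖y - (x + t • v m)‖ / w) ^ 2 ≤ 1 := pow_le_one₀ (by positivity) h5
          gcongr
          linarith
      _ ≤ _ := lintegral_mono_set hsub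
  · intro m _
    have h1 : Measurable fun p : E2 × E2 =>
        ENNReal.ofReal (dw n (iso w) (p.2 - (p.1 + t • v m))) * U (a m) g p.2 :=
      (measurable_dwf n w (t • v m)).mul ((measurable_U (hs m) (hc m) hg).comp measurable_snd)
    exact h1.lintegral_prod_right'

theorem measurableSet_rect (c : E2) (b : OrthonormalBasis (Fin 2) ℝ E2) (s : Fin 2 → ℝ) (l : ℝ) :
    MeasurableSet (rect c b s l) := by
  have : rect c b s l = ⋂ a, {η : E2 | |inner ℝ (η - c) (b a)| < l * s a} := by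
    ext η; simp [rect]
  rw [this]
  refine MeasurableSet.iInter fun a => ?_
  exact (isOpen_lt (by fun_prop) continuous_const).measurableSet

/-- **the slice inequality** -/
theorem slice_main (n : ℕ) {A r w : ℝ} (hA : 0 ≤ A) (hr : 0 < r) (hw : 0 < w) {M I : Type}
    [Fintype M] [Fintype I]
    {a : M → E2 → ℂ} {v : M → E2} {c : I → E2} {b : I → OrthonormalBasis (Fin 2) ℝ E2}
    {s : I → Fin 2 → ℝ} {x0 : I → E2} {S : I → M → Set E2} (hS : Sel A r w v c b s x0 S)
    {g : E2 → ℂ} (hs : ∀ m, ContDiff ℝ ∞ (a m)) (hc : ∀ m, HasCompactSupport (a m))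
    (hg : Integrable g) (t : ℝ) (ht : |t| ≤ r) (G : E2 → ℝ≥0∞)
    (hG : ∀ x, ∑ i, se n w a v g S i x t ≤ ENNReal.ofReal (w ^ 2) * G x)
    (T : Set E2) (hT : MeasurableSet T)
    (hR : ∀ i, rect (x0 i - t • c i) (b i) (fun j => s i j * r) (2 + 2 * A) ⊆ T) :
    ∑ i, ENNReal.ofReal ((s i 0 * s i 1 * r ^ 2) ^ (-(1/2) : ℝ)) * en a g S i ^ (3 / 2 : ℝ) ≤
      ENNReal.ofReal (4 * (1 + A) * ((2 ^ n)⁻¹ * kap) ^ (-(3 / 2) : ℝ)) *
        ∫⁻ x in T, G x ^ (3 / 2 : ℝ) := by
  have hκ := kap_pos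
  have hw2 : ENNReal.ofReal (w ^ 2) ≠ 0 := by
    rw [Ne, ENNReal.ofReal_eq_zero, not_le]; positivity
  -- one plate
  have one : ∀ i, ENNReal.ofReal ((s i 0 * s i 1 * r ^ 2) ^ (-(1/2) : ℝ)) *
      en a g S i ^ (3 / 2 : ℝ) ≤
      ENNReal.ofReal (4 * (1 + A) * ((2 ^ n)⁻¹ * kap) ^ (-(3 / 2) : ℝ)) *
        ∫⁻ x in T, ((ENNReal.ofReal (w ^ 2))⁻¹ * se n w a v g S i x t) ^ (3 / 2 : ℝ) := by
    intro i
    have hs0 := hS.spos i 0
    have hs1 := hS.spos i 1
    have hq : 0 < s i 0 * s i 1 * r ^ 2 := by positivity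
    have h1 := int_se_ge n hA hr hw hS hs hc hg i t ht
    set R := rect (x0 i - t • c i) (b i) (fun j => s i j * r) (2 + 2 * A) with hRdef
    have hm := measurable_se n w v S i t hs hc hg
    have h2 := holder_R (volume.restrict R) (fun x => se n w a v g S i x t) hm.aemeasurable
    have hvol : (volume.restrict R) Set.univ = ENNReal.ofReal (16 * (1 + A) ^ 2 * (s i 0 * s i 1 * r ^ 2)) := by
      rw [Measure.restrict_apply_univ, hRdef, volume_rect, Fin.prod_univ_two,
        ← ENNReal.ofReal_mul (by positivity)]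
      congr 1; ring
    rw [hvol] at h2
    -- (c w² e)^{3/2} ≤ vol^{1/2} ∫ se^{3/2}
    have h3 : ENNReal.ofReal (((2 ^ n)⁻¹ * kap) ^ (3 / 2 : ℝ)) *
        (ENNReal.ofReal (w ^ 2)) ^ (3 / 2 : ℝ) * en a g S i ^ (3 / 2 : ℝ) ≤
        ENNReal.ofReal (4 * (1 + A)) * ENNReal.ofReal ((s i 0 * s i 1 * r ^ 2) ^ (1 / 2 : ℝ)) *
          ∫⁻ x in R, se n w a v g S i x t ^ (3 / 2 : ℝ) := by
      calc _ = (ENNReal.ofReal ((2 ^ n)⁻¹ * (kap * w ^ 2)) * en a g S i) ^ (3 / 2 : ℝ) := by
            rw [ENNReal.mul_rpow_of_nonneg _ _ (by norm_num), ← mul_assoc,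
              ENNReal.ofReal_mul (p := (2 ^ n)⁻¹ * kap) (by positivity),
              ENNReal.mul_rpow_of_nonneg _ _ (by norm_num),
              ENNReal.ofReal_rpow_of_nonneg (p := (3 / 2 : ℝ)) (x := (2 ^ n)⁻¹ * kap)
                (by positivity) (by norm_num)]
        _ ≤ (∫⁻ x in R, se n w a v g S i x t) ^ (3 / 2 : ℝ) := by gcongr
        _ ≤ _ := h2
        _ = _ := by
            congr 1
            rw [ENNReal.ofReal_rpow_of_nonneg (by positivity) (by norm_num),
              ← ENNReal.ofReal_mul (by positivity)]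
            congr 1
            rw [Real.mul_rpow (by positivity) (by positivity)]
            congr 1
            rw [show 16 * (1 + A) ^ 2 = (4 * (1 + A)) ^ 2 by ring, ← Real.sqrt_eq_rpow,
              Real.sqrt_sq (by positivity)]
    have h4 : ∫⁻ x in R, ((ENNReal.ofReal (w ^ 2))⁻¹ * se n w a v g S i x t) ^ (3 / 2 : ℝ)
        = ((ENNReal.ofReal (w ^ 2))⁻¹) ^ (3 / 2 : ℝ) *
          ∫⁻ x in R, se n w a v g S i x t ^ (3 / 2 : ℝ) := by
      rw [← lintegral_const_mul' _ _ (by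
        apply ENNReal.rpow_ne_top_of_nonneg (by norm_num)
        exact ENNReal.inv_ne_top.2 hw2)]
      refine lintegral_congr fun x => ?_
      rw [ENNReal.mul_rpow_of_nonneg _ _ (by norm_num)]
    calc ENNReal.ofReal ((s i 0 * s i 1 * r ^ 2) ^ (-(1/2) : ℝ)) * en a g S i ^ (3 / 2 : ℝ)
        = (ENNReal.ofReal ((s i 0 * s i 1 * r ^ 2) ^ (-(1/2) : ℝ)) *
            ENNReal.ofReal (((2 ^ n)⁻¹ * kap) ^ (-(3 / 2) : ℝ)) *
            ((ENNReal.ofReal (w ^ 2))⁻¹) ^ (3 / 2 : ℝ)) *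
          (ENNReal.ofReal (((2 ^ n)⁻¹ * kap) ^ (3 / 2 : ℝ)) *
            (ENNReal.ofReal (w ^ 2)) ^ (3 / 2 : ℝ) * en a g S i ^ (3 / 2 : ℝ)) := by
          have e1 : ENNReal.ofReal (((2 ^ n)⁻¹ * kap) ^ (-(3 / 2) : ℝ)) *
              ENNReal.ofReal (((2 ^ n)⁻¹ * kap) ^ (3 / 2 : ℝ)) = 1 := by
            rw [← ENNReal.ofReal_mul (by positivity), ← Real.rpow_add (by positivity)]
            norm_num
          have e2 : ((ENNReal.ofReal (w ^ 2))⁻¹) ^ (3 / 2 : ℝ) *
              (ENNReal.ofReal (w ^ 2)) ^ (3 / 2 : ℝ) = 1 := by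
            rw [← ENNReal.mul_rpow_of_nonneg _ _ (by norm_num),
              ENNReal.inv_mul_cancel hw2 ENNReal.ofReal_ne_top, ENNReal.one_rpow]
          calc _ = ENNReal.ofReal ((s i 0 * s i 1 * r ^ 2) ^ (-(1/2) : ℝ)) *
                (ENNReal.ofReal (((2 ^ n)⁻¹ * kap) ^ (-(3 / 2) : ℝ)) *
              ENNReal.ofReal (((2 ^ n)⁻¹ * kap) ^ (3 / 2 : ℝ))) *
                (((ENNReal.ofReal (w ^ 2))⁻¹) ^ (3 / 2 : ℝ) *
              (ENNReal.ofReal (w ^ 2)) ^ (3 / 2 : ℝ)) * en a g S i ^ (3 / 2 : ℝ) := by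
                rw [e1, e2, mul_one, mul_one]
            _ = _ := by ring
      _ ≤ (ENNReal.ofReal ((s i 0 * s i 1 * r ^ 2) ^ (-(1/2) : ℝ)) *
            ENNReal.ofReal (((2 ^ n)⁻¹ * kap) ^ (-(3 / 2) : ℝ)) *
            ((ENNReal.ofReal (w ^ 2))⁻¹) ^ (3 / 2 : ℝ)) *
          (ENNReal.ofReal (4 * (1 + A)) * ENNReal.ofReal ((s i 0 * s i 1 * r ^ 2) ^ (1 / 2 : ℝ)) *
          ∫⁻ x in R, se n w a v g S i x t ^ (3 / 2 : ℝ)) := by gcongr
      _ = ENNReal.ofReal (4 * (1 + A) * ((2 ^ n)⁻¹ * kap) ^ (-(3 / 2) : ℝ)) *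
          (((ENNReal.ofReal (w ^ 2))⁻¹) ^ (3 / 2 : ℝ) *
          ∫⁻ x in R, se n w a v g S i x t ^ (3 / 2 : ℝ)) := by
          have e3 : ENNReal.ofReal ((s i 0 * s i 1 * r ^ 2) ^ (-(1/2) : ℝ)) *
              ENNReal.ofReal ((s i 0 * s i 1 * r ^ 2) ^ (1 / 2 : ℝ)) = 1 := by
            rw [← ENNReal.ofReal_mul (by positivity), ← Real.rpow_add (by positivity)]
            norm_num
          calc _ = (ENNReal.ofReal ((s i 0 * s i 1 * r ^ 2) ^ (-(1/2) : ℝ)) *
              ENNReal.ofReal ((s i 0 * s i 1 * r ^ 2) ^ (1 / 2 : ℝ))) *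
              (ENNReal.ofReal (4 * (1 + A)) * ENNReal.ofReal (((2 ^ n)⁻¹ * kap) ^ (-(3 / 2) : ℝ))) *
              (((ENNReal.ofReal (w ^ 2))⁻¹) ^ (3 / 2 : ℝ) *
              ∫⁻ x in R, se n w a v g S i x t ^ (3 / 2 : ℝ)) := by ring
            _ = _ := by rw [e3, one_mul, ← ENNReal.ofReal_mul (by positivity)]
      _ ≤ _ := by
          rw [← h4]
          gcongr
          exact hR i
  calc ∑ i, ENNReal.ofReal ((s i 0 * s i 1 * r ^ 2) ^ (-(1/2) : ℝ)) * en a g S i ^ (3 / 2 : ℝ)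
      ≤ ∑ i, ENNReal.ofReal (4 * (1 + A) * ((2 ^ n)⁻¹ * kap) ^ (-(3 / 2) : ℝ)) *
        ∫⁻ x in T, ((ENNReal.ofReal (w ^ 2))⁻¹ * se n w a v g S i x t) ^ (3 / 2 : ℝ) :=
        Finset.sum_le_sum fun i _ => one i
    _ = ENNReal.ofReal (4 * (1 + A) * ((2 ^ n)⁻¹ * kap) ^ (-(3 / 2) : ℝ)) *
        ∫⁻ x in T, ∑ i, ((ENNReal.ofReal (w ^ 2))⁻¹ * se n w a v g S i x t) ^ (3 / 2 : ℝ) := by
        rw [← Finset.mul_sum, lintegral_finsetSum]
        intro i _
        exact ((measurable_se n w v S i t hs hc hg).const_mul _).pow_const _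
    _ ≤ _ := by
        gcongr with x
        refine (sum_rpow_le _ _).trans ?_
        gcongr
        rw [← Finset.mul_sum]
        calc (ENNReal.ofReal (w ^ 2))⁻¹ * ∑ i, se n w a v g S i x t
            ≤ (ENNReal.ofReal (w ^ 2))⁻¹ * (ENNReal.ofReal (w ^ 2) * G x) := by
              gcongr; exact hG x
          _ = G x := by
              rw [← mul_assoc, ENNReal.inv_mul_cancel hw2 ENNReal.ofReal_ne_top, one_mul]

end Crest.Agent.R138.Sup882
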