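import Crest.Agent.R138.Bn3_759
import Crest.Agent.R138.F4_858
import Crest.Agent.R138.Sup2_882

/-!
# R138 / R139: leaf LOW of doc 1812 (helper448), part 1

Packet energies at time `0` against the energy of the wave on a plank.
-/

set_option autoImplicit false

open MeasureTheory FourierTransform
open scoped ContDiff ENNReal

namespace Crest.Agent.R138.Low448

open Crest.Agent.R138.Defs Crest.Agent.R138.Wf448
open Crest.Agent.R138.Sup882 (Caps U)
open Crest.Agent.R138.F4x858 (memLp_of_bdd measurable_chi)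

/-- the frame map -/
noncomputable def fr (b : OrthonormalBasis (Fin 2) ℝ E2) (σ : Fin 2 → ℝ) : E2 →L[ℝ] E2 :=
  ∑ i, (σ i)⁻¹ • ((innerSL ℝ (b i)).smulRight (b i))

theorem fr_apply (b : OrthonormalBasis (Fin 2) ℝ E2) (σ : Fin 2 → ℝ) (y : E2) :
    fr b σ y = ∑ i, ((σ i)⁻¹ * inner ℝ (b i) y) • b i := by
  unfold fr
  rw [sum_apply]
  refine Finset.sum_congr rfl fun i _ => ?_
  rw [smul_apply, ContinuousLinearMap.smulRight_apply, innerSL_apply_apply, smul_smul]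

theorem inner_fr (b : OrthonormalBasis (Fin 2) ℝ E2) (σ : Fin 2 → ℝ) (y : E2) (j : Fin 2) :
    inner ℝ (b j) (fr b σ y) = inner ℝ y (b j) / σ j := by
  rw [fr_apply, inner_sum]
  simp only [inner_smul_right]
  rw [Finset.sum_eq_single j]
  · rw [b.inner_eq_one, mul_one, real_inner_comm, div_eq_inv_mul]
  · intro i _ hij
    rw [b.inner_eq_zero hij.symm, mul_zero]
  · simp

theorem norm_fr_sq (b : OrthonormalBasis (Fin 2) ℝ E2) (σ : Fin 2 → ℝ) (y : E2) :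
    ‖fr b σ y‖ ^ 2 = (inner ℝ y (b 0) / σ 0) ^ 2 + (inner ℝ y (b 1) / σ 1) ^ 2 := by
  rw [← b.sum_sq_norm_inner_right (fr b σ y), Fin.sum_univ_two, inner_fr, inner_fr,
    Real.norm_eq_abs, Real.norm_eq_abs, sq_abs, sq_abs]

theorem norm_sq_eq (b : OrthonormalBasis (Fin 2) ℝ E2) (y : E2) :
    ‖y‖ ^ 2 = (inner ℝ y (b 0)) ^ 2 + (inner ℝ y (b 1)) ^ 2 := by
  rw [← b.sum_sq_norm_inner_right y, Fin.sum_univ_two, Real.norm_eq_abs, Real.norm_eq_abs, sq_abs,
    sq_abs, real_inner_comm, real_inner_comm y]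

theorem norm_fr_le (b : OrthonormalBasis (Fin 2) ℝ E2) {σ : Fin 2 → ℝ} {μ : ℝ} (hμ : 0 < μ)
    (hσ : ∀ i, μ ≤ σ i) : ‖fr b σ‖ ≤ μ⁻¹ := by
  refine ContinuousLinearMap.opNorm_le_bound _ (by positivity) fun y => ?_
  have h : ‖fr b σ y‖ ^ 2 ≤ (μ⁻¹ * ‖y‖) ^ 2 := by
    rw [norm_fr_sq, mul_pow, norm_sq_eq b y, div_pow, div_pow, mul_add]
    have key : ∀ i, (inner ℝ y (b i)) ^ 2 / σ i ^ 2 ≤ μ⁻¹ ^ 2 * (inner ℝ y (b i)) ^ 2 := by
      intro i
      have h1 : 0 < σ i := hμ.trans_le (hσ i)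
      rw [div_eq_inv_mul, ← inv_pow]
      have h2 : (σ i)⁻¹ ≤ μ⁻¹ := inv_anti₀ hμ (hσ i)
      gcongr
    exact add_le_add (key 0) (key 1)
  exact le_of_sq_le_sq h (by positivity)

/-- smooth caps of scale `R^{-1/2}`, without directions. -/
structure Cap (n : ℕ) (Kc L : ℝ) (R : ℝ) {M : Type} [Fintype M] (a : M → E2 → ℂ) : Prop where
  smooth : ∀ m, ContDiff ℝ ∞ (a m)
  cpt : ∀ m, HasCompactSupport (a m)
  der : ∀ m, ∀ j ≤ n, ∀ ξ, ‖iteratedFDeriv ℝ j (a m) ξ‖ ≤ Kc * ((R ^ (-(1/2) : ℝ))⁻¹) ^ j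
  ov : ∀ ξ, (Set.ncard {m | ξ ∈ tsupport (a m)} : ℝ) ≤ L

/-- **packets at time `0` against the slice at time `t`**, weight of a rectangle. -/
theorem slice_le (n : ℕ) (M Kc L : ℝ) (hKc : 0 < Kc) (hL : 0 < L) :
    ∃ C : ℝ, 0 ≤ C ∧ ∀ h : E2 → ℝ, ContDiff ℝ ∞ h →
    (∀ i, 2 ≤ i → i ≤ max n 2 → ∀ ξ, ‖iteratedFDeriv ℝ i h ξ‖ ≤ M) →
    ∀ R : ℝ, 1 ≤ R → ∀ (ι : Type) [Fintype ι] (a : ι → E2 → ℂ), Cap n Kc L R a →
    ∀ (b : OrthonormalBasis (Fin 2) ℝ E2) (s : Fin 2 → ℝ), (∀ i, R ^ (-(1/2) : ℝ) ≤ s i) →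
    ∀ (c : E2) (G : E2 → ℂ), Integrable G → MemLp G 2 → Bornology.IsBounded {ξ | G ξ ≠ 0} →
    (∀ ξ, G ξ ≠ 0 → ∀ i, |inner ℝ (gradient h ξ - c) (b i)| ≤ 2 * s i) →
    ∀ (x0 : E2) (t : ℝ), |t| ≤ R →
    ∑ m, wE n (fr b fun i => s i * R) x0 (fun ξ => a m ξ * G ξ) ≤
      ENNReal.ofReal C * wE n (fr b fun i => s i * R) (x0 - t • c) (sl h G t) := by
  obtain ⟨C1, hC1, h1⟩ := transport (V := E2) (W := E2) n M
  obtain ⟨C2, hC2, h2⟩ := ortho_col (V := E2) (W := E2) n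
  refine ⟨C1 * (C2 * Kc ^ 2 * L) * 4 ^ (2 * n), by positivity, ?_⟩
  intro h hh hM R hR ι _ a hcap b s hs c G hG hG2 hG1 hGs x0 t ht
  have hR0 : 0 < R := by linarith
  have hρ : 0 < R ^ (-(1/2) : ℝ) := Real.rpow_pos_of_pos hR0 _
  have hs0 : ∀ i, 0 < s i := fun i => hρ.trans_le (hs i)
  set A := fr b fun i => s i * R with hA
  set l : ℝ := 1 / 4 with hl
  have hl0 : 0 < l := by norm_num [hl]
  have hl1 : l ≤ 1 := by norm_num [hl]
  have hρρ : R ^ (-(1/2) : ℝ) * R ^ (-(1/2) : ℝ) = R⁻¹ := by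
    rw [← Real.rpow_add hR0]
    norm_num
    exact Real.rpow_neg_one R
  have hA1 : ‖A‖ ≤ R ^ (-(1/2) : ℝ) := by
    have h3 : ∀ i : Fin 2, R ^ (-(1/2) : ℝ) * R ≤ s i * R := fun i => by
      have := hs i; gcongr
    refine (norm_fr_le b (mul_pos hρ hR0) h3).trans (le_of_eq ?_)
    rw [mul_inv, ← hρρ]
    field_simp
  have hlA : ‖l • A‖ ≤ R ^ (-(1/2) : ℝ) := by
    rw [norm_smul, Real.norm_of_nonneg hl0.le]
    exact (mul_le_of_le_one_left (norm_nonneg _) hl1).trans hA1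
  have hle : ∀ y, ‖(l • A) y‖ ≤ ‖A y‖ := by
    intro y
    rw [smul_apply, norm_smul, Real.norm_of_nonneg hl0.le]
    exact mul_le_of_le_one_left (norm_nonneg _) hl1
  set S : Set E2 := {ξ | G ξ ≠ 0} with hS
  have hb : Bornology.IsBounded S := hG1
  have hSs : ∀ ξ ∈ S, ‖(l • A) (gradient h ξ - c)‖ ≤ 1 / R := by
    intro ξ hξ
    rw [smul_apply, norm_smul, Real.norm_of_nonneg hl0.le]
    have h3 : ‖A (gradient h ξ - c)‖ ^ 2 ≤ (4 * (1 / R)) ^ 2 := by
      rw [hA, norm_fr_sq]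
      have key : ∀ i : Fin 2, (inner ℝ (gradient h ξ - c) (b i) / (s i * R)) ^ 2 ≤ 8 * (1 / R) ^ 2 := by
        intro i
        have h4 := hGs ξ hξ i
        have h5 := hs0 i
        have h6 : |inner ℝ (gradient h ξ - c) (b i) / (s i * R)| ≤ 2 * (1 / R) := by
          rw [abs_div, abs_of_pos (mul_pos h5 hR0), div_le_iff₀ (mul_pos h5 hR0)]
          calc _ ≤ 2 * s i := h4
            _ = _ := by field_simp
        calc _ = |inner ℝ (gradient h ξ - c) (b i) / (s i * R)| ^ 2 := (sq_abs _).symm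
          _ ≤ (2 * (1 / R)) ^ 2 := by gcongr
          _ ≤ _ := by nlinarith [sq_nonneg (1 / R)]
      calc _ ≤ 8 * (1 / R) ^ 2 + 8 * (1 / R) ^ 2 := add_le_add (key 0) (key 1)
        _ = _ := by ring
    have h4 : ‖A (gradient h ξ - c)‖ ≤ 4 * (1 / R) := le_of_sq_le_sq h3 (by positivity)
    calc l * ‖A (gradient h ξ - c)‖ ≤ l * (4 * (1 / R)) := by gcongr
      _ = 1 / R := by rw [hl]; ring
  -- each packet
  have step : ∀ m, wE n A x0 (fun ξ => a m ξ * G ξ) ≤ ENNReal.ofReal C1 *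
      wE n (l • A) (x0 - t • c) (sl h (fun ξ => a m ξ * G ξ) t) := by
    intro m
    have hgi := Sup882.packet_integrable (Mx := ι) (hcap.smooth m) (hcap.cpt m) hG
    have hg2' := Sup882.packet_memLp (hcap.smooth m) (hcap.cpt m) hG2
    have h4 := h1 (l • A) h hh hM R hR hlA c S hb hSs
      (fun ξ => a m ξ * G ξ) hgi hg2' (fun ξ hξ => right_ne_zero_of_mul hξ) (x0 - t • c) t (-t)
      (by rwa [abs_neg])
    rw [add_neg_cancel, neg_smul, sub_neg_eq_add, sub_add_cancel] at h4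
    have e0 : sl h (fun ξ => a m ξ * G ξ) 0 = fun ξ => a m ξ * G ξ := by
      funext ξ
      simp [sl, ee]
    rw [e0] at h4
    exact (wE_mono hle).trans h4
  have e1 : ∀ m, sl h (fun ξ => a m ξ * G ξ) t = fun ξ => a m ξ * sl h G t ξ := by
    intro m; funext ξ; simp only [sl]; ring
  have h5 := h2 (l • A) (x0 - t • c) (R ^ (-(1/2) : ℝ)) hρ hlA ι a (sl h G t) Kc L
    hKc hL (fun m => (hcap.cpt m).hasTemperateGrowth (hcap.smooth m)) hcap.der hcap.ov
    (integrable_sl hh.continuous hG t) (memLp_sl hh.continuous hG2 t)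
  calc ∑ m, wE n A x0 (fun ξ => a m ξ * G ξ)
      ≤ ∑ m, ENNReal.ofReal C1 *
        wE n (l • A) (x0 - t • c) (sl h (fun ξ => a m ξ * G ξ) t) :=
        Finset.sum_le_sum fun m _ => step m
    _ = ENNReal.ofReal C1 *
        ∑ m, wE n (l • A) (x0 - t • c) (fun ξ => a m ξ * sl h G t ξ) := by
        rw [Finset.mul_sum]
        exact Finset.sum_congr rfl fun m _ => by rw [e1]
    _ ≤ ENNReal.ofReal C1 *
        (ENNReal.ofReal (C2 * Kc ^ 2 * L) * wE n (l • A) (x0 - t • c) (sl h G t)) := by gcongr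
    _ ≤ ENNReal.ofReal C1 *
        (ENNReal.ofReal (C2 * Kc ^ 2 * L) * (ENNReal.ofReal ((l⁻¹) ^ (2 * n)) *
          wE n A (x0 - t • c) (sl h G t))) := by
        gcongr
        exact wE_smul_le hl0 hl1 _ _
    _ = _ := by
        rw [← mul_assoc, ← mul_assoc, ← ENNReal.ofReal_mul (by positivity),
          ← ENNReal.ofReal_mul (by positivity)]
        congr 3
        rw [hl]; norm_num

/-- the lattice vector of the frame. -/
noncomputable def jv (b : OrthonormalBasis (Fin 2) ℝ E2) (σ : Fin 2 → ℝ) (j : ℤ × ℤ) : E2 :=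
  ((j.1 : ℝ) * σ 0) • b 0 + ((j.2 : ℝ) * σ 1) • b 1

theorem inner_jv0 (b : OrthonormalBasis (Fin 2) ℝ E2) (σ : Fin 2 → ℝ) (j : ℤ × ℤ) :
    inner ℝ (jv b σ j) (b 0) = (j.1 : ℝ) * σ 0 := by
  unfold jv
  rw [inner_add_left, inner_smul_left, inner_smul_left, b.inner_eq_one,
    b.inner_eq_zero (show (1 : Fin 2) ≠ 0 by decide)]
  simp

theorem inner_jv1 (b : OrthonormalBasis (Fin 2) ℝ E2) (σ : Fin 2 → ℝ) (j : ℤ × ℤ) :
    inner ℝ (jv b σ j) (b 1) = (j.2 : ℝ) * σ 1 := by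
  unfold jv
  rw [inner_add_left, inner_smul_left, inner_smul_left, b.inner_eq_one,
    b.inner_eq_zero (show (0 : Fin 2) ≠ 1 by decide)]
  simp

theorem norm_jv_le (b : OrthonormalBasis (Fin 2) ℝ E2) {σ : Fin 2 → ℝ} (hσ : ∀ i, 0 ≤ σ i)
    {j : ℤ × ℤ} {N : ℝ} (h0 : |(j.1 : ℝ)| ≤ N) (h1 : |(j.2 : ℝ)| ≤ N) :
    ‖jv b σ j‖ ≤ N * (σ 0 + σ 1) := by
  unfold jv
  refine (norm_add_le _ _).trans ?_
  rw [norm_smul, norm_smul, b.norm_eq_one, b.norm_eq_one, mul_one, mul_one, Real.norm_eq_abs,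
    Real.norm_eq_abs, abs_mul, abs_mul, abs_of_nonneg (hσ 0), abs_of_nonneg (hσ 1), mul_add]
  exact add_le_add (mul_le_mul_of_nonneg_right h0 (hσ 0)) (mul_le_mul_of_nonneg_right h1 (hσ 1))

theorem mem_sq {N : ℕ} {j : ℤ × ℤ} : j ∈ Bn759.sq N ↔ |(j.1 : ℝ)| ≤ N ∧ |(j.2 : ℝ)| ≤ N := by
  unfold Bn759.sq
  rw [Finset.mem_product, Finset.mem_Icc, Finset.mem_Icc, abs_le, abs_le]
  have e : ∀ k : ℤ, (-(N:ℤ) ≤ k ∧ k ≤ N) ↔ (-(N:ℝ) ≤ (k:ℝ) ∧ (k:ℝ) ≤ N) := by
    intro k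
    constructor
    · rintro ⟨h1, h2⟩; exact ⟨by exact_mod_cast h1, by exact_mod_cast h2⟩
    · rintro ⟨h1, h2⟩; exact ⟨by exact_mod_cast h1, by exact_mod_cast h2⟩
  rw [e, e]

theorem card_sq (N : ℕ) : ((Bn759.sq N).card : ℝ) = (2 * N + 1) ^ 2 := by
  unfold Bn759.sq
  rw [Finset.card_product, Int.card_Icc]
  have : ((N:ℤ) + 1 - -(N:ℤ)).toNat = 2 * N + 1 := by omega
  rw [this]; push_cast; ring

/-- every real number of size at most `N` is at distance at most `1` of an integer of size at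
most `N`. -/
theorem exists_int {u : ℝ} {N : ℕ} (hu : |u| ≤ N) : ∃ k : ℤ, |(k : ℝ)| ≤ N ∧ |u - k| ≤ 1 := by
  rw [abs_le] at hu
  rcases le_total 0 u with h | h
  · refine ⟨⌊u⌋, ?_, ?_⟩
    · rw [abs_of_nonneg (by exact_mod_cast Int.floor_nonneg.2 h)]
      exact (Int.floor_le u).trans hu.2
    · rw [abs_le]
      have h1 := Int.floor_le u
      have h2 := Int.lt_floor_add_one u
      constructor <;> linarith
  · refine ⟨⌈u⌉, ?_, ?_⟩
    · have h3 : (⌈u⌉ : ℝ) ≤ 0 := by exact_mod_cast Int.ceil_le.2 (by simpa using h)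
      rw [abs_of_nonpos h3]
      have := Int.le_ceil u
      linarith
    · rw [abs_le]
      have h1 := Int.le_ceil u
      have h2 := Int.ceil_lt_add_one u
      constructor <;> linarith

theorem isClosed_plank (c : E2) (b : OrthonormalBasis (Fin 2) ℝ E2) (s : Fin 2 → ℝ) (R : ℝ)
    (x0 : E2) (t0 : ℝ) : IsClosed (plank c b s R x0 t0) := by
  have : plank c b s R x0 t0 = {p : E2 × ℝ | |p.2 - t0| ≤ R} ∩
      ⋂ i, {p : E2 × ℝ | |inner ℝ (p.1 - x0 + (p.2 - t0) • c) (b i)| ≤ s i * R} := by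
    ext p; simp [plank]
  rw [this]
  refine IsClosed.inter (isClosed_le (by fun_prop) continuous_const) (isClosed_iInter fun i => ?_)
  exact isClosed_le (by fun_prop) continuous_const

theorem measurableSet_plank (c : E2) (b : OrthonormalBasis (Fin 2) ℝ E2) (s : Fin 2 → ℝ) (R : ℝ)
    (x0 : E2) (t0 : ℝ) : MeasurableSet (plank c b s R x0 t0) :=
  (isClosed_plank c b s R x0 t0).measurableSet

/-- the weight against the cells. -/
theorem dw_le_cells (n : ℕ) (b : OrthonormalBasis (Fin 2) ℝ E2) {s : Fin 2 → ℝ} (hs : ∀ i, 0 < s i)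
    {R : ℝ} (hR : 0 < R) (c x0 : E2) {T : ℝ} (hT : 1 ≤ T) {N0 : ℕ} (hN : T ≤ N0) (F : E2 × ℝ → ℝ≥0∞)
    {t : ℝ} (ht : |t| ≤ R) (x : E2) :
    ENNReal.ofReal (dw n (fr b fun i => s i * R) (x - (x0 - t • c))) * F (x, t) ≤
      ENNReal.ofReal ((T ^ (2 * n))⁻¹) * F (x, t) +
        ∑ j ∈ Bn759.sq N0,
          (plank c b s R (x0 + jv b (fun i => s i * R) j) 0).indicator F (x, t) := by
  set A := fr b fun i => s i * R with hA
  set y := x - (x0 - t • c) with hy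
  have hsR : ∀ i, 0 < s i * R := fun i => mul_pos (hs i) hR
  by_cases hcase : |inner ℝ y (b 0) / (s 0 * R)| ≤ T ∧ |inner ℝ y (b 1) / (s 1 * R)| ≤ T
  · obtain ⟨k0, hk0, hk0'⟩ := exists_int (hcase.1.trans hN)
    obtain ⟨k1, hk1, hk1'⟩ := exists_int (hcase.2.trans hN)
    refine le_add_left ?_
    have hmem : (k0, k1) ∈ Bn759.sq N0 := mem_sq.2 ⟨hk0, hk1⟩
    refine le_trans ?_ (Finset.single_le_sum (f := fun j =>
      (plank c b s R (x0 + jv b (fun i => s i * R) j) 0).indicator F (x, t))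
      (fun j _ => zero_le) hmem)
    have hp : (x, t) ∈ plank c b s R (x0 + jv b (fun i => s i * R) (k0, k1)) 0 := by
      refine ⟨by simpa using ht, fun i => ?_⟩
      have e : x - (x0 + jv b (fun i => s i * R) (k0, k1)) + (t - 0) • c =
          y - jv b (fun i => s i * R) (k0, k1) := by
        rw [hy, sub_zero]; abel
      simp only []
      rw [e, inner_sub_left]
      fin_cases i
      · simp only [Fin.zero_eta, Fin.isValue]
        rw [inner_jv0]
        have h1 : inner ℝ y (b 0) - (k0 : ℝ) * (s 0 * R) =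
            (inner ℝ y (b 0) / (s 0 * R) - k0) * (s 0 * R) := by
          rw [sub_mul, div_mul_cancel₀ _ (hsR 0).ne']
        rw [h1, abs_mul, abs_of_pos (hsR 0)]
        exact mul_le_of_le_one_left (hsR 0).le hk0'
      · simp only [Fin.mk_one, Fin.isValue]
        rw [inner_jv1]
        have h1 : inner ℝ y (b 1) - (k1 : ℝ) * (s 1 * R) =
            (inner ℝ y (b 1) / (s 1 * R) - k1) * (s 1 * R) := by
          rw [sub_mul, div_mul_cancel₀ _ (hsR 1).ne']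
        rw [h1, abs_mul, abs_of_pos (hsR 1)]
        exact mul_le_of_le_one_left (hsR 1).le hk1'
    rw [Set.indicator_of_mem hp]
    refine mul_le_of_le_one_left zero_le ?_
    rw [← ENNReal.ofReal_one]
    exact ENNReal.ofReal_le_ofReal (dw_le_one _ _ _)
  · refine le_add_right ?_
    gcongr
    have h1 : T ^ 2 ≤ 1 + ‖A y‖ ^ 2 := by
      rw [hA, norm_fr_sq]
      have h2 : ∀ i : Fin 2, ¬ |inner ℝ y (b i) / (s i * R)| ≤ T →
          T ^ 2 ≤ (inner ℝ y (b i) / (s i * R)) ^ 2 := by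
        intro i hi
        rw [← sq_abs (inner ℝ y (b i) / (s i * R))]
        have := (not_le.1 hi).le
        gcongr
      rcases not_and_or.1 hcase with h | h
      · have := h2 0 h
        nlinarith [sq_nonneg (inner ℝ y (b 1) / (s 1 * R))]
      · have := h2 1 h
        nlinarith [sq_nonneg (inner ℝ y (b 0) / (s 0 * R))]
    unfold dw gw
    rw [pow_mul]
    gcongr

/-- **packets at time `0` against the energy of the wave on planks**. -/
theorem plank_le (n : ℕ) (M Kc L : ℝ) (hKc : 0 < Kc) (hL : 0 < L) :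
    ∃ C : ℝ, 0 ≤ C ∧ ∀ h : E2 → ℝ, ContDiff ℝ ∞ h →
    (∀ i, 2 ≤ i → i ≤ max n 2 → ∀ ξ, ‖iteratedFDeriv ℝ i h ξ‖ ≤ M) →
    ∀ R : ℝ, 1 ≤ R → ∀ (ι : Type) [Fintype ι] (a : ι → E2 → ℂ), Cap n Kc L R a →
    ∀ (b : OrthonormalBasis (Fin 2) ℝ E2) (s : Fin 2 → ℝ), (∀ i, R ^ (-(1/2) : ℝ) ≤ s i) →
    ∀ (c : E2) (G : E2 → ℂ), Integrable G → MemLp G 2 → Bornology.IsBounded {ξ | G ξ ≠ 0} →
    (∀ ξ, G ξ ≠ 0 → ∀ i, |inner ℝ (gradient h ξ - c) (b i)| ≤ 2 * s i) →
    ∀ (x0 : E2) (T : ℝ) (N0 : ℕ), 1 ≤ T → T ≤ N0 →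
    ENNReal.ofReal (2 * R) * ∑ m, wE n (fr b fun i => s i * R) x0 (fun ξ => a m ξ * G ξ) ≤
      ENNReal.ofReal C * (ENNReal.ofReal ((T ^ (2 * n))⁻¹) *
          (ENNReal.ofReal (2 * R) * LI (fun ξ => ‖G ξ‖ ^ 2)) +
        ∑ j ∈ Bn759.sq N0, ∫⁻ p in plank c b s R (x0 + jv b (fun i => s i * R) j) 0,
          ‖ext h G p.1 p.2‖ₑ ^ 2) := by
  obtain ⟨C, hC, h1⟩ := slice_le n M Kc L hKc hL
  refine ⟨C, hC, ?_⟩
  intro h hh hM R hR ι _ a hcap b s hs c G hG hG2 hG1 hGs x0 T N0 hT hN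
  have hR0 : 0 < R := by linarith
  have hs0 : ∀ i, 0 < s i := fun i => (Real.rpow_pos_of_pos hR0 _).trans_le (hs i)
  set A := fr b fun i => s i * R with hA
  set f : E2 × ℝ → ℝ≥0∞ := fun p => ‖ext h G p.1 p.2‖ₑ ^ 2 with hf
  have hcont := F4x858.continuous_ext hh.continuous hG
  have hfm : Measurable f := (hcont.enorm.measurable).pow_const 2
  have hw : ∀ t, wE n A (x0 - t • c) (sl h G t) =
      ∫⁻ x, ENNReal.ofReal (dw n A (x - (x0 - t • c))) * f (x, t) := by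
    intro t
    rw [wE_sl]
    unfold LI
    refine lintegral_congr fun x => ?_
    rw [ENNReal.ofReal_mul (dw_pos _ _ _).le, hf]
    simp only []
    rw [← ofReal_norm, ENNReal.ofReal_pow (norm_nonneg _)]
  have hpl : ∀ j : ℤ × ℤ, MeasurableSet (plank c b s R (x0 + jv b (fun i => s i * R) j) 0) :=
    fun j => measurableSet_plank _ _ _ _ _ _
  have hind : ∀ j : ℤ × ℤ, Measurable
      ((plank c b s R (x0 + jv b (fun i => s i * R) j) 0).indicator f) :=
    fun j => hfm.indicator (hpl j)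
  calc ENNReal.ofReal (2 * R) * ∑ m, wE n A x0 (fun ξ => a m ξ * G ξ)
      = ∫⁻ _t in Set.Icc (-R) R, ∑ m, wE n A x0 (fun ξ => a m ξ * G ξ) := by
        rw [setLIntegral_const, Real.volume_Icc, mul_comm]
        congr 2; ring
    _ ≤ ∫⁻ t in Set.Icc (-R) R, ENNReal.ofReal C * (ENNReal.ofReal ((T ^ (2 * n))⁻¹) *
          (∫⁻ x, f (x, t)) + ∑ j ∈ Bn759.sq N0, ∫⁻ x,
            (plank c b s R (x0 + jv b (fun i => s i * R) j) 0).indicator f (x, t)) := by
        refine setLIntegral_mono' measurableSet_Icc fun t ht => ?_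
        have ht' : |t| ≤ R := abs_le.2 ht
        refine (h1 h hh hM R hR ι a hcap b s hs c G hG hG2 hG1 hGs x0 t ht').trans ?_
        rw [hw]
        gcongr
        refine (lintegral_mono fun x => dw_le_cells n b hs0 hR0 c x0 hT hN f ht' x).trans ?_
        have hmt : Measurable fun x : E2 => f (x, t) := hfm.comp measurable_prodMk_right
        have hmj : ∀ j : ℤ × ℤ, Measurable fun x : E2 =>
            (plank c b s R (x0 + jv b (fun i => s i * R) j) 0).indicator f (x, t) :=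
          fun j => (hind j).comp measurable_prodMk_right
        rw [lintegral_add_left (hmt.const_mul _), lintegral_const_mul _ hmt,
          lintegral_finsetSum _ fun j _ => hmj j]
    _ = ENNReal.ofReal C * (ENNReal.ofReal ((T ^ (2 * n))⁻¹) *
          (∫⁻ t in Set.Icc (-R) R, ∫⁻ x, f (x, t)) + ∑ j ∈ Bn759.sq N0,
            ∫⁻ t in Set.Icc (-R) R, ∫⁻ x,
            (plank c b s R (x0 + jv b (fun i => s i * R) j) 0).indicator f (x, t)) := by
        have hm1 : Measurable fun t : ℝ => ∫⁻ x, f (x, t) := hfm.lintegral_prod_left'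
        have hm2 : ∀ j : ℤ × ℤ, Measurable fun t : ℝ => ∫⁻ x,
            (plank c b s R (x0 + jv b (fun i => s i * R) j) 0).indicator f (x, t) :=
          fun j => (hind j).lintegral_prod_left'
        rw [lintegral_const_mul' _ _ ENNReal.ofReal_ne_top, lintegral_add_left (hm1.const_mul _),
          lintegral_const_mul _ hm1, lintegral_finsetSum _ fun j _ => hm2 j]
    _ ≤ _ := by
        gcongr with j hj
        · refine le_of_eq ?_
          have e : ∀ t : ℝ, ∫⁻ x, f (x, t) = LI (fun ξ => ‖G ξ‖ ^ 2) := by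
            intro t
            rw [← conservation hh.continuous hG hG2 t, LI_sq_eq]
          simp_rw [e]
          rw [setLIntegral_const, Real.volume_Icc, mul_comm]
          congr 2; ring
        · rw [← lintegral_indicator (hpl j)]
          refine (setLIntegral_le_lintegral _ _).trans (le_of_eq ?_)
          rw [Measure.volume_eq_prod, lintegral_prod_symm _ (hind j).aemeasurable]

end Crest.Agent.R138.Low448
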