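import Crest.Agent.R138.Low1_448

/-!
# R138 / R139: leaf LOW of doc 1812 (helper448), part 2

Cells, the lattice partition in direction space, admissible bumps.
-/

set_option autoImplicit false

open MeasureTheory FourierTransform
open scoped ContDiff ENNReal

namespace Crest.Agent.R138.Low448

open Crest.Agent.R138.Defs Crest.Agent.R138.Wf448
open Crest.Agent.R138.F4x858 (memLp_of_bdd measurable_chi)
open Crest.Agent.R138.Bn759 (th2 sq)

theorem inner_jv (b : OrthonormalBasis (Fin 2) ℝ E2) (σ : Fin 2 → ℝ) (j : ℤ × ℤ) (i : Fin 2) :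
    inner ℝ (jv b σ j) (b i) = (![(j.1 : ℝ), (j.2 : ℝ)] i) * σ i := by
  fin_cases i
  · simpa using inner_jv0 b σ j
  · simpa using inner_jv1 b σ j

/-- a point of the big rectangle lies in a cell. -/
theorem exists_cell (b : OrthonormalBasis (Fin 2) ℝ E2) {σ : Fin 2 → ℝ} (hσ : ∀ i, 0 < σ i)
    {N : ℕ} {v : E2} (hv : ∀ i, |inner ℝ v (b i)| ≤ N * σ i) :
    ∃ j ∈ sq N, ∀ i, |inner ℝ (v - jv b σ j) (b i)| ≤ σ i := by
  have h : ∀ i, ∃ k : ℤ, |(k : ℝ)| ≤ N ∧ |inner ℝ v (b i) / σ i - k| ≤ 1 := by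
    intro i
    refine exists_int ?_
    rw [abs_div, abs_of_pos (hσ i), div_le_iff₀ (hσ i)]
    exact hv i
  choose k hk hk' using h
  refine ⟨(k 0, k 1), mem_sq.2 ⟨hk 0, hk 1⟩, fun i => ?_⟩
  have h1 : inner ℝ (v - jv b σ (k 0, k 1)) (b i) = (inner ℝ v (b i) / σ i - k i) * σ i := by
    rw [inner_sub_left, inner_jv, sub_mul, div_mul_cancel₀ _ (hσ i).ne']
    congr 2
    fin_cases i <;> rfl
  rw [h1, abs_mul, abs_of_pos (hσ i)]
  exact mul_le_of_le_one_left (hσ i).le (hk' i)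

/-- the weight is bounded below on its cell. -/
theorem dw_ge (n : ℕ) (b : OrthonormalBasis (Fin 2) ℝ E2) {σ : Fin 2 → ℝ} (hσ : ∀ i, 0 < σ i)
    {v : E2} (hv : ∀ i, |inner ℝ v (b i)| ≤ σ i) : (3 ^ n : ℝ)⁻¹ ≤ dw n (fr b σ) v := by
  unfold dw gw
  have h : ∀ i, (inner ℝ v (b i) / σ i) ^ 2 ≤ 1 := by
    intro i
    rw [sq_le_one_iff_abs_le_one, abs_div, abs_of_pos (hσ i), div_le_one (hσ i)]
    exact hv i
  have h1 : 1 + ‖fr b σ v‖ ^ 2 ≤ 3 := by
    rw [norm_fr_sq]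
    have := h 0; have := h 1
    linarith
  gcongr

/-- Cauchy-Schwarz for `𝓕⁻` of a finite sum. -/
theorem enorm_fourierInv_sum_sq {ι : Type*} (s : Finset ι) (f : ι → E2 → ℂ)
    (hf : ∀ i ∈ s, Integrable (f i)) (y : E2) :
    ‖𝓕⁻ (fun ξ => ∑ i ∈ s, f i ξ) y‖ₑ ^ 2 ≤ (s.card : ℝ≥0∞) * ∑ i ∈ s, ‖𝓕⁻ (f i) y‖ₑ ^ 2 := by
  have h1 : 𝓕⁻ (fun ξ => ∑ i ∈ s, f i ξ) y = ∑ i ∈ s, 𝓕⁻ (f i) y := by
    simp only [Real.fourierInv_eq]
    rw [← integral_finsetSum]
    · refine integral_congr_ae (Filter.Eventually.of_forall fun ξ => ?_)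
      simp only [Finset.smul_sum]
    · intro i hi
      exact (Real.fourierIntegral_convergent_iff' (innerSL ℝ) (-y)).2 (hf i hi) |>.congr
        (Filter.Eventually.of_forall fun ξ => by simp; rfl)
  rw [h1]
  have h2 : ‖∑ i ∈ s, 𝓕⁻ (f i) y‖ ^ 2 ≤ (s.card : ℝ) * ∑ i ∈ s, ‖𝓕⁻ (f i) y‖ ^ 2 := by
    refine (pow_le_pow_left₀ (norm_nonneg _) (norm_sum_le _ _) 2).trans ?_
    exact sq_sum_le_card_mul_sum_sq
  have e : ∀ w : ℂ, ‖w‖ₑ ^ 2 = ENNReal.ofReal (‖w‖ ^ 2) := fun w => by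
    rw [← ofReal_norm, ENNReal.ofReal_pow (norm_nonneg _)]
  simp only [e]
  rw [← ENNReal.ofReal_sum_of_nonneg (fun i _ => by positivity), ← ENNReal.ofReal_natCast,
    ← ENNReal.ofReal_mul (by positivity)]
  exact ENNReal.ofReal_le_ofReal h2

/-- the normalised bump. -/
noncomputable def bmK (K : ℝ) (y : E2) : ℂ := ((K⁻¹ * th2 0 y : ℝ) : ℂ)

theorem adm_bmK (Na : ℕ) : ∃ K : ℝ, 0 < K ∧ Adm Na (bmK K) := by
  choose C hC0 hC using Bn759.deriv_th2_bdd
  set K : ℝ := ∑ i ∈ Finset.range (Na + 1), C i with hK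
  have hK0 : 0 < K := Finset.sum_pos (fun i _ => hC0 i) ⟨0, by simp⟩
  refine ⟨K, hK0, ?_, ?_, ?_⟩
  · exact Complex.ofRealCLM.contDiff.comp (contDiff_const.mul (Bn759.contDiff_th2 0))
  · intro y hy
    have h1 : th2 0 y ≠ 0 := by
      intro h
      apply hy
      unfold bmK
      rw [h, mul_zero, Complex.ofReal_zero]
    have h2 := Bn759.th2_ne_zero h1
    simp only [Prod.fst_zero, Prod.snd_zero, Int.cast_zero, sub_zero] at h2
    intro i
    fin_cases i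
    · exact h2.1.le.trans (by norm_num)
    · exact h2.2.le.trans (by norm_num)
  · intro j hj y
    have e1 : ‖iteratedFDeriv ℝ j (bmK K) y‖ = ‖iteratedFDeriv ℝ j (fun y => K⁻¹ * th2 0 y) y‖ := by
      have h1 := Complex.ofRealLI.norm_iteratedFDeriv_comp_left
        (f := fun y => K⁻¹ * th2 0 y) (x := y) (n := j) (i := j)
        (((contDiff_const.mul (Bn759.contDiff_th2 0)).of_le
          (by exact_mod_cast le_top)).contDiffAt) le_rfl
      rw [← h1]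
      rfl
    have e2 : iteratedFDeriv ℝ j (fun y => K⁻¹ * th2 0 y) y = K⁻¹ • iteratedFDeriv ℝ j (th2 0) y := by
      have : (fun y => K⁻¹ * th2 0 y) = K⁻¹ • th2 0 := by
        funext y; simp
      rw [this, iteratedFDeriv_const_smul_apply]
      exact ((Bn759.contDiff_th2 0).of_le (by exact_mod_cast le_top)).contDiffAt
    rw [e1, e2, norm_smul, norm_inv, Real.norm_of_nonneg hK0.le, inv_mul_le_iff₀ hK0, mul_one]
    refine (hC j 0 y).trans ?_
    exact Finset.single_le_sum (f := C) (fun i _ => (hC0 i).le) (Finset.mem_range.2 (by omega))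

/-- the cut-off at the lattice point `a`. -/
theorem chi_eq (h : E2 → ℝ) (c : E2) (b : OrthonormalBasis (Fin 2) ℝ E2) {s : Fin 2 → ℝ}
    (hs : ∀ i, 0 < s i) (K : ℝ) (a : ℤ × ℤ) (ξ : E2) :
    chi h (c + jv b s a) b s (bmK K) ξ =
      ((K⁻¹ * th2 a (WithLp.toLp 2 fun i => inner ℝ (gradient h ξ - c) (b i) / s i) : ℝ) : ℂ) := by
  unfold chi bmK
  rw [Bn759.th2_eq a]
  congr 4
  ext i
  have h1 : inner ℝ (gradient h ξ - (c + jv b s a)) (b i) / s i =
      inner ℝ (gradient h ξ - c) (b i) / s i - ![(a.1 : ℝ), (a.2 : ℝ)] i := by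
    rw [← sub_sub, inner_sub_left, inner_jv, sub_div, mul_div_assoc, div_self (hs i).ne', mul_one]
  exact h1

theorem chi_support (h : E2 → ℝ) (c : E2) (b : OrthonormalBasis (Fin 2) ℝ E2) {s : Fin 2 → ℝ}
    (hs : ∀ i, 0 < s i) {Na : ℕ} {ψ : E2 → ℂ} (hψ : Adm Na ψ) {ξ : E2}
    (hξ : chi h c b s ψ ξ ≠ 0) (i : Fin 2) : |inner ℝ (gradient h ξ - c) (b i)| ≤ 2 * s i := by
  have h1 := hψ.2.1 _ hξ i
  have h2 : |inner ℝ (gradient h ξ - c) (b i) / s i| ≤ 2 := h1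
  rwa [abs_div, abs_of_pos (hs i), div_le_iff₀ (hs i)] at h2

/-- the lattice partition of unity in direction space. -/
theorem sum_chi (h : E2 → ℝ) (c : E2) (b : OrthonormalBasis (Fin 2) ℝ E2) {s : Fin 2 → ℝ}
    (hs : ∀ i, 0 < s i) {K : ℝ} (hK : 0 < K) {N : ℕ} {ξ : E2}
    (hξ : ∀ i, 2 * |inner ℝ (gradient h ξ - c) (b i)| ≤ N * s i) :
    ∑ a ∈ sq N, (K : ℂ) * chi h (c + jv b s a) b s (bmK K) ξ = 1 := by
  set y : E2 := WithLp.toLp 2 fun i => inner ℝ (gradient h ξ - c) (b i) / s i with hy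
  have hyi : ∀ i, |y i| ≤ N / 2 := by
    intro i
    have : y i = inner ℝ (gradient h ξ - c) (b i) / s i := rfl
    rw [this, abs_div, abs_of_pos (hs i), div_le_iff₀ (hs i)]
    have := hξ i
    linarith
  have hN : ‖y‖ ≤ N := by
    have h1 : ‖y‖ ^ 2 ≤ (N : ℝ) ^ 2 := by
      rw [EuclideanSpace.norm_sq_eq, Fin.sum_univ_two, Real.norm_eq_abs, Real.norm_eq_abs]
      have h0 := pow_le_pow_left₀ (abs_nonneg _) (hyi 0) 2
      have h1 := pow_le_pow_left₀ (abs_nonneg _) (hyi 1) 2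
      nlinarith [sq_nonneg (N : ℝ)]
    exact le_of_sq_le_sq h1 (by positivity)
  have h2 := Bn759.sum_th2 hN
  simp only [chi_eq h c b hs]
  rw [← Complex.ofReal_one, ← h2, Complex.ofReal_sum]
  refine Finset.sum_congr rfl fun a _ => ?_
  rw [← Complex.ofReal_mul, mul_inv_cancel_left₀ hK.ne']

/-- translation of planks. -/
theorem lintegral_plank_add (f : E2 × ℝ → ℝ≥0∞) (c : E2) (b : OrthonormalBasis (Fin 2) ℝ E2)
    (s : Fin 2 → ℝ) (R : ℝ) (x0 : E2) (z : E2 × ℝ) :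
    ∫⁻ p in plank c b s R x0 0, f (p + z) = ∫⁻ p in plank c b s R (x0 + z.1) z.2, f p := by
  have : (volume : Measure (E2 × ℝ)).IsAddRightInvariant := by
    rw [Measure.volume_eq_prod]; infer_instance
  rw [← lintegral_indicator (measurableSet_plank _ _ _ _ _ _),
    ← lintegral_indicator (measurableSet_plank _ _ _ _ _ _),
    ← lintegral_add_right_eq_self ((plank c b s R (x0 + z.1) z.2).indicator f) z]
  refine lintegral_congr fun p => ?_
  have hiff : p ∈ plank c b s R x0 0 ↔ p + z ∈ plank c b s R (x0 + z.1) z.2 := by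
    simp only [plank, Set.mem_ofPred_eq, Prod.fst_add, Prod.snd_add, sub_zero]
    have e1 : p.2 + z.2 - z.2 = p.2 := by ring
    have e2 : p.1 + z.1 - (x0 + z.1) = p.1 - x0 := by abel
    rw [e1, e2]
  by_cases hp : p ∈ plank c b s R x0 0
  · rw [Set.indicator_of_mem hp, Set.indicator_of_mem (hiff.1 hp)]
  · rw [Set.indicator_of_notMem hp, Set.indicator_of_notMem fun h => hp (hiff.2 h)]

theorem plank_mono (c : E2) (b : OrthonormalBasis (Fin 2) ℝ E2) {s : Fin 2 → ℝ} (hs : ∀ i, 0 ≤ s i)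
    {r R : ℝ} (hr : r ≤ R) (x0 : E2) (t0 : ℝ) : plank c b s r x0 t0 ⊆ plank c b s R x0 t0 := by
  intro p hp
  refine ⟨hp.1.trans hr, fun i => (hp.2 i).trans ?_⟩
  have := hs i
  gcongr

end Crest.Agent.R138.Low448
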