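import Crest.Agent.R138.Low2_448
import Crest.Agent.R138.WDef_188

/-!
# R138 / R139: leaf LOW of doc 1812 (helper448), part 3: the abstract inequality
-/

set_option autoImplicit false

open MeasureTheory FourierTransform
open scoped ContDiff ENNReal

namespace Crest.Agent.R138.Low448

open Crest.Agent.R138.Defs Crest.Agent.R138.Wf448
open Crest.Agent.R138.F4x858 (memLp_of_bdd measurable_chi)
open Crest.Agent.R138.Bn759 (th2)
open Crest.Agent.R138.W188 (tr)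

theorem norm_tr (h : E2 → ℝ) (z : E2 × ℝ) (g : E2 → ℂ) (ξ : E2) : ‖tr h z g ξ‖ = ‖g ξ‖ := by
  unfold tr
  rw [norm_mul, Wf448.norm_ee, mul_one]

theorem ext_tr (h : E2 → ℝ) (z : E2 × ℝ) (g : E2 → ℂ) (p : E2 × ℝ) :
    ext h (tr h z g) p.1 p.2 = ext h g (p + z).1 (p + z).2 := by
  unfold ext tr
  refine integral_congr_ae (Filter.Eventually.of_forall fun ξ => ?_)
  simp only []
  rw [mul_assoc, ← Wf448.ee_add]
  congr 2
  rw [Prod.fst_add, Prod.snd_add, inner_add_left]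
  ring

theorem measurable_tr {h : E2 → ℝ} (hh : Continuous h) (z : E2 × ℝ) {g : E2 → ℂ}
    (hg : Measurable g) : Measurable (tr h z g) := by
  unfold tr
  refine hg.mul (Continuous.measurable ?_)
  exact Wf448.contDiff_ee.continuous.comp
    ((continuous_const.inner continuous_id).add (continuous_const.mul hh))

theorem norm_le_coord (b : OrthonormalBasis (Fin 2) ℝ E2) (v : E2) {x y : ℝ}
    (h0 : |inner ℝ v (b 0)| ≤ x) (h1 : |inner ℝ v (b 1)| ≤ y) : ‖v‖ ≤ x + y := by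
  have hx : 0 ≤ x := (abs_nonneg _).trans h0
  have hy : 0 ≤ y := (abs_nonneg _).trans h1
  have h2 : ‖v‖ ^ 2 ≤ (x + y) ^ 2 := by
    rw [norm_sq_eq b v, ← sq_abs (inner ℝ v (b 0)), ← sq_abs (inner ℝ v (b 1))]
    have a0 := pow_le_pow_left₀ (abs_nonneg _) h0 2
    have a1 := pow_le_pow_left₀ (abs_nonneg _) h1 2
    nlinarith [mul_nonneg hx hy]
  exact le_of_sq_le_sq h2 (by positivity)

/-- one cap: cells in position, lattice in direction. -/
theorem one_cap (n : ℕ) {h : E2 → ℝ} {K : ℝ} (hK : 0 < K)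
    (b : OrthonormalBasis (Fin 2) ℝ E2) {s' : Fin 2 → ℝ} (hs' : ∀ i, 0 < s' i)
    {r : ℝ} (hr : 0 < r) (c x : E2) {N : ℕ} {u : E2 → ℂ}
    (hui : ∀ a, Integrable fun ξ => u ξ * chi h (c + jv b s' a) b s' (bmK K) ξ)
    (hdir : ∀ ξ, u ξ ≠ 0 → ∀ i, 2 * |inner ℝ (gradient h ξ - c) (b i)| ≤ N * s' i)
    {S : Set E2} (hS : MeasurableSet S) (J : Finset (ℤ × ℤ))
    (hJ : ∀ y ∈ S, ∃ j ∈ J, ∀ i, |inner ℝ (y - (x + jv b (fun i => s' i * r) j)) (b i)| ≤ s' i * r) :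
    ∫⁻ y in S, ‖𝓕⁻ u y‖ₑ ^ 2 ≤ ENNReal.ofReal (3 ^ n * K ^ 2) * (((Bn759.sq N).card : ℝ≥0∞) *
      ∑ j ∈ J, ∑ a ∈ Bn759.sq N, wE n (fr b fun i => s' i * r) (x + jv b (fun i => s' i * r) j)
        (fun ξ => u ξ * chi h (c + jv b s' a) b s' (bmK K) ξ)) := by
  set A := fr b fun i => s' i * r with hA
  have hσ : ∀ i, 0 < s' i * r := fun i => mul_pos (hs' i) hr
  set v : ℤ × ℤ → E2 → ℂ := fun a ξ => u ξ * chi h (c + jv b s' a) b s' (bmK K) ξ with hv
  -- the partition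
  have hpart : u = fun ξ => ∑ a ∈ Bn759.sq N, (K : ℂ) * v a ξ := by
    funext ξ
    by_cases hξ : u ξ = 0
    · simp [hv, hξ]
    · have h1 := sum_chi h c b hs' hK (hdir ξ hξ)
      calc u ξ = u ξ * 1 := (mul_one _).symm
        _ = _ := by
          rw [← h1, Finset.mul_sum]
          refine Finset.sum_congr rfl fun a _ => ?_
          rw [hv]; ring
  have hCS : ∀ y, ‖𝓕⁻ u y‖ₑ ^ 2 ≤ ENNReal.ofReal (K ^ 2) * (((Bn759.sq N).card : ℝ≥0∞) *
      ∑ a ∈ Bn759.sq N, ‖𝓕⁻ (v a) y‖ₑ ^ 2) := by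
    intro y
    have h1 := enorm_fourierInv_sum_sq (Bn759.sq N) (fun a ξ => (K : ℂ) * v a ξ)
      (fun a _ => (hui a).const_mul _) y
    rw [← hpart] at h1
    refine h1.trans (le_of_eq ?_)
    have h2 : ∀ a, 𝓕⁻ (fun ξ => (K : ℂ) * v a ξ) y = (K : ℂ) * 𝓕⁻ (v a) y := by
      intro a
      rw [Real.fourierInv_eq, Real.fourierInv_eq, ← integral_const_mul]
      refine integral_congr_ae (Filter.Eventually.of_forall fun ξ => ?_)
      simp only [Circle.smul_def, smul_eq_mul]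
      ring
    have h3 : ∀ a, ‖𝓕⁻ (fun ξ => (K : ℂ) * v a ξ) y‖ₑ ^ 2 =
        ENNReal.ofReal (K ^ 2) * ‖𝓕⁻ (v a) y‖ₑ ^ 2 := by
      intro a
      rw [h2, enorm_mul, mul_pow]
      congr 1
      rw [← ofReal_norm, Complex.norm_real, Real.norm_of_nonneg hK.le,
        ENNReal.ofReal_pow hK.le]
    simp only [h3]
    rw [← Finset.mul_sum]
    ring
  have hmeas : ∀ a, Measurable fun y => ‖𝓕⁻ (v a) y‖ₑ ^ 2 := fun a =>
    ((fourierInv_continuous (hui a)).enorm.measurable).pow_const 2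
  have hdwm : ∀ j : ℤ × ℤ, Measurable fun y : E2 =>
      ENNReal.ofReal (dw n A (y - (x + jv b (fun i => s' i * r) j))) := fun j =>
    ((continuous_dw n A).comp (continuous_id.sub continuous_const)).measurable.ennreal_ofReal
  have hterm : ∀ (j a : ℤ × ℤ), Measurable fun y : E2 =>
      ENNReal.ofReal (dw n A (y - (x + jv b (fun i => s' i * r) j))) * ‖𝓕⁻ (v a) y‖ₑ ^ 2 :=
    fun j a => (hdwm j).mul (hmeas a)
  have hwE : ∀ (j a : ℤ × ℤ), wE n A (x + jv b (fun i => s' i * r) j) (v a) =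
      ∫⁻ y, ENNReal.ofReal (dw n A (y - (x + jv b (fun i => s' i * r) j))) *
        ‖𝓕⁻ (v a) y‖ₑ ^ 2 := by
    intro j a
    unfold wE LI
    refine lintegral_congr fun y => ?_
    rw [ENNReal.ofReal_mul (dw_pos n A _).le, ENNReal.ofReal_pow (norm_nonneg _), ofReal_norm]
  calc ∫⁻ y in S, ‖𝓕⁻ u y‖ₑ ^ 2
      ≤ ∫⁻ y in S, ENNReal.ofReal (3 ^ n * K ^ 2) * (((Bn759.sq N).card : ℝ≥0∞) * ∑ j ∈ J, ∑ a ∈ Bn759.sq N,
          ENNReal.ofReal (dw n A (y - (x + jv b (fun i => s' i * r) j))) *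
            ‖𝓕⁻ (v a) y‖ₑ ^ 2) := by
        refine setLIntegral_mono' hS fun y hy => ?_
        obtain ⟨j, hj, hj'⟩ := hJ y hy
        have h1 := dw_ge n b hσ hj'
        have h2 : (1 : ℝ≥0∞) ≤ ENNReal.ofReal (3 ^ n) *
            ENNReal.ofReal (dw n A (y - (x + jv b (fun i => s' i * r) j))) := by
          rw [← ENNReal.ofReal_mul (by positivity), ← ENNReal.ofReal_one]
          refine ENNReal.ofReal_le_ofReal ?_
          calc (1:ℝ) = 3 ^ n * (3 ^ n)⁻¹ := by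
                rw [mul_inv_cancel₀ (by positivity)]
            _ ≤ _ := by gcongr
        calc ‖𝓕⁻ u y‖ₑ ^ 2 ≤ 1 * (ENNReal.ofReal (K ^ 2) * (((Bn759.sq N).card : ℝ≥0∞) *
              ∑ a ∈ Bn759.sq N, ‖𝓕⁻ (v a) y‖ₑ ^ 2)) := by rw [one_mul]; exact hCS y
          _ ≤ (ENNReal.ofReal (3 ^ n) *
            ENNReal.ofReal (dw n A (y - (x + jv b (fun i => s' i * r) j)))) *
              (ENNReal.ofReal (K ^ 2) * (((Bn759.sq N).card : ℝ≥0∞) *
              ∑ a ∈ Bn759.sq N, ‖𝓕⁻ (v a) y‖ₑ ^ 2)) := by gcongr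
          _ = ENNReal.ofReal (3 ^ n * K ^ 2) * (((Bn759.sq N).card : ℝ≥0∞) * ∑ a ∈ Bn759.sq N,
              ENNReal.ofReal (dw n A (y - (x + jv b (fun i => s' i * r) j))) *
            ‖𝓕⁻ (v a) y‖ₑ ^ 2) := by
              rw [ENNReal.ofReal_mul (by positivity), ← Finset.mul_sum]
              ring
          _ ≤ _ := by
              gcongr
              exact Finset.single_le_sum (f := fun j => ∑ a ∈ Bn759.sq N,
                ENNReal.ofReal (dw n A (y - (x + jv b (fun i => s' i * r) j))) *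
                  ‖𝓕⁻ (v a) y‖ₑ ^ 2) (fun _ _ => zero_le) hj
    _ ≤ ∫⁻ y, ENNReal.ofReal (3 ^ n * K ^ 2) * (((Bn759.sq N).card : ℝ≥0∞) * ∑ j ∈ J, ∑ a ∈ Bn759.sq N,
          ENNReal.ofReal (dw n A (y - (x + jv b (fun i => s' i * r) j))) *
            ‖𝓕⁻ (v a) y‖ₑ ^ 2) := setLIntegral_le_lintegral _ _
    _ = _ := by
        rw [lintegral_const_mul' _ _ ENNReal.ofReal_ne_top,
          lintegral_const_mul' _ _ (ENNReal.natCast_ne_top _), lintegral_finsetSum]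
        · congr 3
          funext j
          rw [lintegral_finsetSum _ fun a _ => hterm j a]
          exact Finset.sum_congr rfl fun a _ => (hwE j a).symm
        · intro j _
          exact Finset.measurable_fun_sum _ fun a _ => hterm j a

theorem norm_bmK_le {Na : ℕ} {ψ : E2 → ℂ} (hψ : Adm Na ψ) (y : E2) : ‖ψ y‖ ≤ 1 := by
  have := hψ.2.2 0 (Nat.zero_le _) y
  rwa [norm_iteratedFDeriv_zero] at this

/-- **abstract form of LOW**. -/
theorem core (n : ℕ) (M Kc L : ℝ) (hKc : 0 < Kc) (hL : 0 < L) (Na : ℕ) :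
    ∃ K C : ℝ, 0 < K ∧ Adm Na (bmK K) ∧ 0 ≤ C ∧ ∀ h : E2 → ℝ, ContDiff ℝ ∞ h →
    (∀ i, 2 ≤ i → i ≤ max n 2 → ∀ ξ, ‖iteratedFDeriv ℝ i h ξ‖ ≤ M) →
    ∀ r R : ℝ, 1 ≤ r → r ≤ R → ∀ (ι : Type) [Fintype ι] (a : ι → E2 → ℂ), Cap n Kc L r a →
    ∀ (b : OrthonormalBasis (Fin 2) ℝ E2) (s' : Fin 2 → ℝ), (∀ i, r ^ (-(1/2) : ℝ) ≤ s' i) →
    ∀ (c x : E2) (g : E2 → ℂ), Measurable g → (∃ M' : ℝ, ∀ ξ, ‖g ξ‖ ≤ M') →
    (∃ σ : ℝ, ∀ ξ, σ < ‖ξ‖ → g ξ = 0) →
    ∀ (z : E2 × ℝ) (T : ℝ) (N0 N : ℕ) (E : ℝ≥0∞), 1 ≤ T → T ≤ N0 →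
    ∀ S : ι → Set E2, (∀ m, MeasurableSet (S m)) →
    (∀ m, (S m).Nonempty → ∀ ξ, a m ξ ≠ 0 →
      ∀ i, 2 * |inner ℝ (gradient h ξ - c) (b i)| ≤ N * s' i) →
    (∀ m, ∀ y ∈ S m, ∀ i, |inner ℝ (y - x) (b i)| ≤ N * (s' i * r)) →
    (∀ m, ∀ y ∈ S m, ‖y + z.1‖ + (N0 + 1) * (s' 0 * r + s' 1 * r) ≤ 4 * R) →
    (∀ (c' x0 : E2), ‖x0‖ ≤ 4 * R → ∫⁻ p in plank c' b s' R x0 z.2,
      ‖ext h (fun ξ => g ξ * chi h c' b s' (bmK K) ξ) p.1 p.2‖ₑ ^ 2 ≤ E) →
    ENNReal.ofReal (2 * r) * ∑ m, ∫⁻ y in S m, ‖𝓕⁻ (fun ξ => a m ξ * tr h z g ξ) y‖ₑ ^ 2 ≤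
      ENNReal.ofReal C * (((Bn759.sq N).card : ℝ≥0∞) ^ 3 * (ENNReal.ofReal ((T ^ (2 * n))⁻¹) *
        (ENNReal.ofReal (2 * r) * LI (fun ξ => ‖g ξ‖ ^ 2)) + ((Bn759.sq N0).card : ℝ≥0∞) * E)) := by
  obtain ⟨K, hK, hadm⟩ := adm_bmK Na
  obtain ⟨C, hC, hpl⟩ := plank_le n M Kc L hKc hL
  refine ⟨K, 3 ^ n * K ^ 2 * C, hK, hadm, by positivity, ?_⟩
  intro h hh hM r R hr hrR ι _ a hcap b s' hs' c x g hg ⟨Mg, hMg⟩ ⟨σ, hσ⟩ z T N0 N E hT hTN S hS
    hdir hpos hloc hbox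
  have hr0 : 0 < r := by linarith
  have hs0 : ∀ i, 0 < s' i := fun i => (Real.rpow_pos_of_pos hr0 _).trans_le (hs' i)
  have hsr : ∀ i, 0 < s' i * r := fun i => mul_pos (hs0 i) hr0
  -- integrability
  set Bl : Set E2 := Metric.closedBall 0 σ with hBl
  have hBlf : volume Bl < ⊤ := measure_closedBall_lt_top
  have hBlm : MeasurableSet Bl := Metric.isClosed_closedBall.measurableSet
  have hout : ∀ ξ, ξ ∉ Bl → g ξ = 0 := by
    intro ξ hξ
    refine hσ ξ ?_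
    rw [hBl, mem_closedBall_zero_iff, not_le] at hξ
    exact hξ
  have hchim : ∀ c', Measurable (chi h c' b s' (bmK K)) := fun c' =>
    (measurable_chi hh c' b s' hadm.1.continuous).measurable
  have hchi1 : ∀ c' ξ, ‖chi h c' b s' (bmK K) ξ‖ ≤ 1 := fun c' ξ => norm_bmK_le hadm _
  set G0 : E2 → E2 → ℂ := fun c' ξ => g ξ * chi h c' b s' (bmK K) ξ with hG0
  set G : E2 → E2 → ℂ := fun c' ξ => tr h z g ξ * chi h c' b s' (bmK K) ξ with hG
  have hGtr : ∀ c', G c' = tr h z (G0 c') := by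
    intro c'; funext ξ; simp only [hG, hG0, tr]; ring
  have hGm : ∀ c', Measurable (G c') := fun c' => (measurable_tr hh.continuous z hg).mul (hchim c')
  have hG0m : ∀ c', Measurable (G0 c') := fun c' => hg.mul (hchim c')
  have hGle : ∀ c' ξ, ‖G c' ξ‖ ≤ ‖g ξ‖ := by
    intro c' ξ
    rw [hG, norm_mul, norm_tr]
    exact mul_le_of_le_one_right (norm_nonneg _) (hchi1 c' ξ)
  have hGb : ∀ c' ξ, ‖G c' ξ‖ ≤ Mg := fun c' ξ => (hGle c' ξ).trans (hMg ξ)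
  have hGout : ∀ c' ξ, ξ ∉ Bl → G c' ξ = 0 := by
    intro c' ξ hξ
    have := hGle c' ξ
    rw [hout ξ hξ, norm_zero] at this
    exact norm_le_zero_iff.1 this
  have hGi : ∀ c', Integrable (G c') := fun c' =>
    memLp_one_iff_integrable.1 (memLp_of_bdd (hGm c') (hGb c') hBlf hBlm (hGout c') 1)
  have hG2 : ∀ c', MemLp (G c') 2 := fun c' =>
    memLp_of_bdd (hGm c') (hGb c') hBlf hBlm (hGout c') 2
  have hGs : ∀ c' ξ, G c' ξ ≠ 0 → ∀ i, |inner ℝ (gradient h ξ - c') (b i)| ≤ 2 * s' i := by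
    intro c' ξ hξ i
    exact chi_support h c' b hs0 hadm (right_ne_zero_of_mul hξ) i
  have hGbd : ∀ c', Bornology.IsBounded {ξ | G c' ξ ≠ 0} := by
    intro c'
    refine Metric.isBounded_closedBall.subset (t := Bl) ?_
    intro ξ hξ
    by_contra h3
    exact hξ (hGout c' ξ h3)
  set J : Finset (ℤ × ℤ) := (Bn759.sq N).filter fun j =>
    ‖x + jv b (fun i => s' i * r) j + z.1‖ + N0 * (s' 0 * r + s' 1 * r) ≤ 4 * R with hJ
  set u : ι → E2 → ℂ := fun m ξ => a m ξ * tr h z g ξ with hu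
  have hui : ∀ m c', Integrable fun ξ => u m ξ * chi h c' b s' (bmK K) ξ := by
    intro m c'
    have h1 := Sup882.packet_integrable (Mx := ι) (hcap.smooth m) (hcap.cpt m) (hGi c')
    refine h1.congr (Filter.Eventually.of_forall fun ξ => ?_)
    simp only [hG, hu]; ring
  -- one cap
  have h1 : ∀ m, ∫⁻ y in S m, ‖𝓕⁻ (u m) y‖ₑ ^ 2 ≤ ENNReal.ofReal (3 ^ n * K ^ 2) *
      (((Bn759.sq N).card : ℝ≥0∞) * ∑ j ∈ J, ∑ a' ∈ Bn759.sq N,
        wE n (fr b fun i => s' i * r) (x + jv b (fun i => s' i * r) j)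
          (fun ξ => a m ξ * G (c + jv b s' a') ξ)) := by
    intro m
    rcases (S m).eq_empty_or_nonempty with he | hne
    · rw [he]; simp
    · have e : ∀ c', (fun ξ => a m ξ * G c' ξ) = fun ξ => u m ξ * chi h c' b s' (bmK K) ξ := by
        intro c'; funext ξ; simp only [hG, hu]; ring
      simp only [e]
      refine one_cap n hK b hs0 hr0 c x (hui m <| c + jv b s' ·) ?_ (hS m) J ?_
      · intro ξ hξ i
        exact hdir m hne ξ (left_ne_zero_of_mul hξ) i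
      · intro y hy
        obtain ⟨j, hj, hj'⟩ := exists_cell b hsr (N := N) (v := y - x) (hpos m y hy)
        refine ⟨j, ?_, fun i => ?_⟩
        · rw [hJ, Finset.mem_filter]
          refine ⟨hj, ?_⟩
          have h2 := norm_le_coord b (y - x - jv b (fun i => s' i * r) j) (hj' 0) (hj' 1)
          have h3 : x + jv b (fun i => s' i * r) j + z.1 =
              (y + z.1) - (y - x - jv b (fun i => s' i * r) j) := by abel
          have h4 := hloc m y hy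
          rw [h3]
          have h5 := norm_sub_le (y + z.1) (y - x - jv b (fun i => s' i * r) j)
          nlinarith
        · rw [← sub_sub]; exact hj' i
  -- planks
  have h2 : ∀ j ∈ J, ∀ a' : ℤ × ℤ, ENNReal.ofReal (2 * r) *
      ∑ m, wE n (fr b fun i => s' i * r) (x + jv b (fun i => s' i * r) j)
        (fun ξ => a m ξ * G (c + jv b s' a') ξ) ≤ ENNReal.ofReal C *
          (ENNReal.ofReal ((T ^ (2 * n))⁻¹) * (ENNReal.ofReal (2 * r) * LI (fun ξ => ‖g ξ‖ ^ 2)) +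
            ((Bn759.sq N0).card : ℝ≥0∞) * E) := by
    intro j hj a'
    rw [hJ, Finset.mem_filter] at hj
    set c' := c + jv b s' a' with hc'
    refine (hpl h hh hM r hr ι a hcap b s' hs' c' (G c') (hGi c') (hG2 c') (hGbd c') (hGs c')
      (x + jv b (fun i => s' i * r) j) T N0 hT hTN).trans ?_
    gcongr ENNReal.ofReal C * (_ * (_ * ?_) + ?_)
    · refine LI_mono fun ξ => ?_
      exact pow_le_pow_left₀ (norm_nonneg _) (hGle c' ξ) 2
    · rw [← nsmul_eq_mul]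
      refine Finset.sum_le_card_nsmul _ _ _ fun k hk => ?_
      have e1 : ∀ p : E2 × ℝ, ‖ext h (G c') p.1 p.2‖ₑ ^ 2 =
          (fun p : E2 × ℝ => ‖ext h (G0 c') p.1 p.2‖ₑ ^ 2) (p + z) := by
        intro p
        rw [hGtr c', ext_tr]
      simp only [e1]
      rw [lintegral_plank_add (fun p : E2 × ℝ => ‖ext h (G0 c') p.1 p.2‖ₑ ^ 2)]
      refine (lintegral_mono_set (plank_mono _ _ (fun i => (hs0 i).le) hrR _ _)).trans ?_
      refine hbox c' _ ?_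
      have hk' := mem_sq.1 hk
      have h3 := norm_jv_le b (σ := fun i => s' i * r) (fun i => (hsr i).le) hk'.1 hk'.2
      have h4 : x + jv b (fun i => s' i * r) j + jv b (fun i => s' i * r) k + z.1 =
          (x + jv b (fun i => s' i * r) j + z.1) + jv b (fun i => s' i * r) k := by abel
      rw [h4]
      exact (norm_add_le _ _).trans (by linarith [hj.2])
  have hJc : (J.card : ℝ≥0∞) ≤ ((Bn759.sq N).card : ℝ≥0∞) := by
    exact_mod_cast Finset.card_filter_le _ _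
  set X : ℝ≥0∞ := ENNReal.ofReal C *
          (ENNReal.ofReal ((T ^ (2 * n))⁻¹) * (ENNReal.ofReal (2 * r) * LI (fun ξ => ‖g ξ‖ ^ 2)) +
            ((Bn759.sq N0).card : ℝ≥0∞) * E) with hX
  calc ENNReal.ofReal (2 * r) * ∑ m, ∫⁻ y in S m, ‖𝓕⁻ (u m) y‖ₑ ^ 2
      ≤ ENNReal.ofReal (2 * r) * ∑ m, ENNReal.ofReal (3 ^ n * K ^ 2) *
      (((Bn759.sq N).card : ℝ≥0∞) * ∑ j ∈ J, ∑ a' ∈ Bn759.sq N,
        wE n (fr b fun i => s' i * r) (x + jv b (fun i => s' i * r) j)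
          (fun ξ => a m ξ * G (c + jv b s' a') ξ)) := by
        gcongr with m
        exact h1 m
    _ = ENNReal.ofReal (3 ^ n * K ^ 2) * (((Bn759.sq N).card : ℝ≥0∞) *
        ∑ j ∈ J, ∑ a' ∈ Bn759.sq N, ENNReal.ofReal (2 * r) *
          ∑ m, wE n (fr b fun i => s' i * r) (x + jv b (fun i => s' i * r) j)
            (fun ξ => a m ξ * G (c + jv b s' a') ξ)) := by
        rw [← Finset.mul_sum, ← Finset.mul_sum, Finset.sum_comm]
        simp only [← Finset.mul_sum]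
        have e : ∀ j ∈ J, ∑ m, ∑ a' ∈ Bn759.sq N,
            wE n (fr b fun i => s' i * r) (x + jv b (fun i => s' i * r) j)
              (fun ξ => a m ξ * G (c + jv b s' a') ξ) = ∑ a' ∈ Bn759.sq N, ∑ m,
            wE n (fr b fun i => s' i * r) (x + jv b (fun i => s' i * r) j)
              (fun ξ => a m ξ * G (c + jv b s' a') ξ) := fun j _ => Finset.sum_comm
        rw [Finset.sum_congr rfl e]
        ring
    _ ≤ ENNReal.ofReal (3 ^ n * K ^ 2) * (((Bn759.sq N).card : ℝ≥0∞) *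
        ∑ j ∈ J, ∑ a' ∈ Bn759.sq N, X) := by
        gcongr with j hj a' ha'
        exact h2 j hj a'
    _ = ENNReal.ofReal (3 ^ n * K ^ 2) * (((Bn759.sq N).card : ℝ≥0∞) *
        ((J.card : ℝ≥0∞) * (((Bn759.sq N).card : ℝ≥0∞) * X))) := by
        rw [Finset.sum_const, Finset.sum_const, nsmul_eq_mul, nsmul_eq_mul]
    _ ≤ ENNReal.ofReal (3 ^ n * K ^ 2) * (((Bn759.sq N).card : ℝ≥0∞) *
        (((Bn759.sq N).card : ℝ≥0∞) * (((Bn759.sq N).card : ℝ≥0∞) * X))) := by gcongr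
    _ = _ := by
        rw [hX, ENNReal.ofReal_mul (p := 3 ^ n * K ^ 2) (by positivity)]
        ring

end Crest.Agent.R138.Low448
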