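import Mathlib

/-! Linear programming ends of the wave side (doc 1684, section 3) and of TW (doc 1686, version V2):
pure real inequalities, no geometry. -/

set_option autoImplicit false

namespace Crest.Agent.R138.Lp615

/-- **doc 1684, claim 3, twist `al ≠ 1`** (decoupled rates).
`al` twist exponent, `α = 1 - a`, `lam = 1 - y`, `s'` union loss, `e` own minus union loss,
`γ` the gain of the last box, `D` the growth rate. -/
theorem boundary {al α lam q m s e γ D : ℝ} (hal : 0 ≤ al) (hal1 : al ≠ 1)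
    (hq : 0 ≤ q) (hlam : 0 ≤ lam)
    (hbct : al = 0 → α + lam ≤ 2 * s)
    (hF1 : 0 < al → lam ≤ s) (hF2 : 0 < al → 0 < lam → m ≤ s) (hK3 : 0 < al → α ≤ s)
    (hay : 0 < al → α ≤ lam) (hpi : 1 < al → m - lam ≤ q - α)
    (hγq : γ ≤ q / 2) (hγα : γ ≤ α / 2)
    (hi : D ≤ γ + q / 2 + (1 / 2 + al) * m + (1 - (1 / 2 + al)) * lam - e)
    (hii : D ≤ γ + α / 2 + al * (α - q) + lam - e) :
    D ≤ 2 * s - e := by
  rcases hal.eq_or_lt with h0 | h0
  · have := hbct h0.symm
    rw [← h0] at hii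
    linarith
  have hF1 := hF1 h0
  have hK3 := hK3 h0
  have hay := hay h0
  have hF2 := hF2 h0
  by_cases hqα : α ≤ q
  · have : al * (α - q) ≤ 0 := mul_nonpos_of_nonneg_of_nonpos hal (by linarith)
    linarith
  push Not at hqα
  rcases le_or_gt al (1 / 2) with h1 | h1
  · have : (al - 1 / 2) * (α - q) ≤ 0 :=
      mul_nonpos_of_nonpos_of_nonneg (by linarith) (by linarith)
    nlinarith
  rcases lt_or_gt_of_ne hal1 with h2 | h2
  · -- 1/2 < al < 1
    have hlam0 : 0 < lam := by linarith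
    have hm : m ≤ s := hF2 hlam0
    rcases le_or_gt (m - lam) (α - q) with h3 | h3
    · have : (al - 1 / 2) * (m - lam) ≤ 1 / 2 * (α - q) := by
        rcases le_or_gt (m - lam) 0 with h4 | h4
        · have h5 : (al - 1 / 2) * (m - lam) ≤ 0 :=
            mul_nonpos_of_nonneg_of_nonpos (by linarith) h4
          linarith
        · nlinarith
      nlinarith
    · have : (al - 1 / 2) * (α - q) ≤ 1 / 2 * (s - lam) := by
        nlinarith
      nlinarith
  · -- 1 < al
    have h3 := hpi h2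
    have h4 : (1 / 2 + al) * (m - lam) ≤ 0 :=
      mul_nonpos_of_nonneg_of_nonpos (by linarith) (by linarith)
    nlinarith

/-- **doc 1684, claim 3, twist `al = 1`** (normal velocity and lateral position coupled, joint
rate `Q`). -/
theorem boundary_one {α m s e γ D Q : ℝ} (hK3 : α ≤ s)
    (hF : s < m → 1 ≤ Q) (hγα : γ ≤ α / 2)
    (hi : D ≤ γ + Q / 2 + 3 * m / 2 - 1 / 2 - e)
    (hii : D ≤ γ + 3 * α / 2 + 1 - Q - e) :
    D ≤ 2 * s - e := by
  rcases lt_or_ge s m with h | h
  · have := hF h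
    linarith
  · rcases le_or_gt Q (1 + α - m) with h1 | h1 <;> linarith

/-- **TW, `k < 1`** (doc 1686, V2), pointwise integrand: `A = 1 - a`, `Y = 1 - y`. -/
theorem tw_lt_one {k A Y m s s' e : ℝ} (hk : 0 ≤ k) (hk1 : k ≤ 1) (he : 0 ≤ e) (hs : s' = s - e)
    (hA : A ≤ Y) (hY : Y ≤ s') (hm : m ≤ s) : A + (1 - k) * Y + k * m - e ≤ 2 * s := by
  have h1 : (1 - k) * Y ≤ (1 - k) * s' := mul_le_mul_of_nonneg_left hY (by linarith)
  have h2 : k * m ≤ k * s := mul_le_mul_of_nonneg_left hm hk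
  have h3 : 0 ≤ (1 - k) * e := mul_nonneg (by linarith) he
  subst hs
  nlinarith

/-- **TW, `k > 1`** (doc 1686, V2), pointwise integrand of the combination
`(k/2)·(path inequality) + (1 - k/2)·(identity)`. -/
theorem tw_gt_one {k A Y m q e : ℝ} (hk : 1 ≤ k) (hq : 0 ≤ q)
    (hA : A ≤ Y) (hpi : m + A ≤ Y + q) :
    (k / 2) * (m + k * A - (k - 1) * q - e) + (1 - k / 2) * ((1 + k) * A - k * q - e + Y)
      ≤ A + Y - e := by
  have e1 : (k / 2) * (m + k * A - (k - 1) * q - e) + (1 - k / 2) * ((1 + k) * A - k * q - e + Y)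
      = (k / 2) * m + A * (1 + k / 2) + (1 - k / 2) * Y - (k / 2) * q - e := by ring
  rw [e1]
  have h1 : (k / 2) * (m + A) ≤ (k / 2) * (Y + q) := mul_le_mul_of_nonneg_left hpi (by linarith)
  nlinarith

end Crest.Agent.R138.Lp615
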