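import Crest.Agent.R138.GenRoot4_639
import Crest.Agent.R138.Dom_878
import Crest.Agent.R138.Acl2_101
import Crest.Agent.R138.PDef_654

/-!
# R138 / R139, wave side: the level recursion (helper323)

`Lb` = labels of one level (depend on the scales only), `Lv` = data of one level.
`lvl_step` = one level from `DECc`; `tower` = all levels, the class functions of level `j + 1` being
an arbitrary functional of the data of level `j`.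
-/

set_option autoImplicit false

open MeasureTheory FourierTransform
open scoped ContDiff ENNReal

namespace Crest.Agent.R138.Lvl323

open Crest.Agent.R138.Defs Crest.Agent.R138.Bil882 Crest.Agent.R138.W188
open Crest.Agent.R138.Wpk685 Crest.Agent.R138.W323 Crest.Agent.R138.GR639

/-- labels of one level. -/
structure Lb where
  Λ : Finset ℕ
  s : ℕ → ℝ × ℝ
  cl : ℕ → ℕ
  nb : ℕ

/-- data of one level. -/
structure Lv where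
  cls : E2 × ℝ → OrthonormalBasis (Fin 2) ℝ E2 → ℤ × ℤ → E2 → ℕ
  G : E2 × ℝ → ℕ → E2 → ℂ
  D : E2 × ℝ → ℕ → ℝ
  rest : E2 × ℝ → E2 → ℂ
  I : E2 × ℝ → ℕ → Finset ℕ
  P : E2 × ℝ → ℕ → ℕ → Plate

/-- the data are admissible (639's `LvD`). -/
def Lv.Ok (L : Lv) (q A σ C : ℝ) (B : ℕ → ℝ) (M : ℕ) (h : E2 → ℝ) (g : E2 → ℂ) (R r : ℝ)
    (Z : Finset (E2 × ℝ)) (b : Lb) : Prop :=
  LvD q A σ C B b.nb M h g R r Z L.cls b.Λ b.s b.cl L.G L.D L.rest L.I L.P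

/-- one level. -/
theorem lvl_step {B : ℕ → ℝ} {q A : ℝ} (hD : DECc B q A) {ε : ℝ} (hε : 0 < ε) (Na : ℕ) (M0 : ℝ)
    (M : ℕ) : ∃ C : ℝ, 0 ≤ C ∧ ∀ R r : ℝ, 1 ≤ R → R ^ (1/2 : ℝ) ≤ r → r ≤ R → ∀ nb : ℕ, 1 ≤ nb →
    ∃ b : Lb, b.nb = nb ∧ (b.Λ.card : ℝ) ≤ C * R ^ ε * nb ∧
      (∀ k ∈ b.Λ, Sd r (b.s k).1 (b.s k).2) ∧ (∀ k ∈ b.Λ, b.cl k < nb) ∧
      ∀ σ h g D, σ ≤ 3/2 → St B q Na M0 σ h g R D → ∀ Z : Finset (E2 × ℝ),
        (∀ z ∈ Z, z ∈ cyl R) → (∀ z ∈ Z, ∀ z' ∈ Z, Sep r z z') →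
        ∀ cls : E2 × ℝ → OrthonormalBasis (Fin 2) ℝ E2 → ℤ × ℤ → E2 → ℕ,
          (∀ z ∈ Z, ∀ bb m, Measurable (cls z bb m)) → (∀ z ∈ Z, ∀ bb m y, cls z bb m y < nb) →
          ∃ L : Lv, L.cls = cls ∧ L.Ok q A σ C B M h g R r Z b := by
  classical
  obtain ⟨C, hC, H⟩ := hD ε hε Na M0 M
  refine ⟨C, hC, ?_⟩
  intro R r hR h1 h2 nb hnb
  obtain ⟨Λ, s, cl, h3, h4, h5, h6⟩ := H R r hR h1 h2 nb hnb
  refine ⟨⟨Λ, s, cl, nb⟩, rfl, h3, h4, h5, ?_⟩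
  intro σ h g D hσ hSt Z hZ hs cls hm hlt
  have h7 : ∀ z : E2 × ℝ, ∃ (G : ℕ → E2 → ℂ) (D' : ℕ → ℝ) (rest : E2 → ℂ) (I : ℕ → Finset ℕ)
      (P : ℕ → ℕ → Plate), z ∈ Z →
      DecOut q A σ C B nb M h g R r z (cls z) Λ s cl G D' rest I P := by
    intro z
    by_cases hz : z ∈ Z
    · obtain ⟨G, D', rest, I, P, hO⟩ := h6 σ h g D hσ hSt z (hZ z hz) (cls z) (hm z hz) (hlt z hz)
      exact ⟨G, D', rest, I, P, fun _ => hO⟩
    · exact ⟨fun _ _ => 0, fun _ => 0, fun _ => 0, fun _ => ∅,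
        fun _ _ => ⟨0, 0, EuclideanSpace.basisFun (Fin 2) ℝ, 0, fun _ => ∅⟩, fun h => absurd h hz⟩
  choose G D' rest I P hO using h7
  exact ⟨⟨cls, G, D', rest, I, P⟩, rfl, h4, hZ, hs, hO⟩

/-- dependent recursion with invariants. -/
theorem exists_rec {α : Type*} [Nonempty α] {P : ℕ → α → Prop} {Q : ℕ → α → α → Prop} (J : ℕ)
    (h0 : ∃ a, P 0 a) (hs : ∀ j < J, ∀ a, P j a → ∃ b, P (j + 1) b ∧ Q j a b) :
    ∃ f : ℕ → α, (∀ j ≤ J, P j (f j)) ∧ ∀ j < J, Q j (f j) (f (j + 1)) := by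
  classical
  obtain ⟨a0, ha0⟩ := h0
  let F : ℕ → α → α := fun j a => if h : j < J ∧ P j a then Classical.choose (hs j h.1 a h.2)
    else Classical.arbitrary α
  let f : ℕ → α := fun j => Nat.rec a0 F j
  have hf0 : f 0 = a0 := rfl
  have hfs : ∀ j, f (j + 1) = F j (f j) := fun _ => rfl
  have hP : ∀ j ≤ J, P j (f j) := by
    intro j
    induction j with
    | zero => intro _; rw [hf0]; exact ha0
    | succ j ih =>
      intro hj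
      have h1 := ih (by omega)
      have h2 : j < J ∧ P j (f j) := ⟨by omega, h1⟩
      rw [hfs]
      simp only [F, dif_pos h2]
      exact (Classical.choose_spec (hs j h2.1 (f j) h2.2)).1
  refine ⟨f, hP, fun j hj => ?_⟩
  have h2 : j < J ∧ P j (f j) := ⟨hj, hP j hj.le⟩
  rw [hfs]
  simp only [F, dif_pos h2]
  exact (Classical.choose_spec (hs j h2.1 (f j) h2.2)).2

/-- **the tower**: all levels at once; the class functions of level `j + 1` are a functional `F j` of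
the data of level `j`, the number of classes a functional `NB j` of the labels of level `j`. -/
theorem tower {B : ℕ → ℝ} {q A : ℝ} (hD : DECc B q A) {ε : ℝ} (hε : 0 < ε) (Na : ℕ) (M0 : ℝ)
    (M : ℕ) : ∃ C : ℝ, 0 ≤ C ∧ ∀ (J : ℕ) (R : ℝ) (r : ℕ → ℝ), 1 ≤ R →
    (∀ j ≤ J, R ^ (1/2 : ℝ) ≤ r j ∧ r j ≤ R) → ∀ NB : ℕ → Lb → ℕ, (∀ j b, 1 ≤ NB j b) →
    ∃ b : ℕ → Lb, (b 0).nb = 1 ∧ (∀ j < J, (b (j + 1)).nb = NB j (b j)) ∧
      (∀ j ≤ J, ((b j).Λ.card : ℝ) ≤ C * R ^ ε * (b j).nb ∧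
        (∀ k ∈ (b j).Λ, Sd (r j) ((b j).s k).1 ((b j).s k).2) ∧
        (∀ k ∈ (b j).Λ, (b j).cl k < (b j).nb) ∧ 1 ≤ (b j).nb) ∧
      ∀ σ h g D, σ ≤ 3/2 → St B q Na M0 σ h g R D → ∀ Z : ℕ → Finset (E2 × ℝ),
        (∀ j ≤ J, ∀ z ∈ Z j, z ∈ cyl R) →
        (∀ j ≤ J, ∀ z ∈ Z j, ∀ z' ∈ Z j, Sep (r j) z z') →
        ∀ F : ℕ → Lv → E2 × ℝ → OrthonormalBasis (Fin 2) ℝ E2 → ℤ × ℤ → E2 → ℕ,
          (∀ j < J, ∀ L : Lv, L.Ok q A σ C B M h g R (r j) (Z j) (b j) → ∀ z ∈ Z (j + 1), ∀ bb m,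
            Measurable (F j L z bb m) ∧ ∀ y, F j L z bb m y < NB j (b j)) →
          ∃ L : ℕ → Lv, (∀ j ≤ J, (L j).Ok q A σ C B M h g R (r j) (Z j) (b j)) ∧
            (L 0).cls = (fun _ _ _ _ => 0) ∧ ∀ j < J, (L (j + 1)).cls = F j (L j) := by
  classical
  obtain ⟨C, hC, H⟩ := lvl_step hD hε Na M0 M
  refine ⟨C, hC, ?_⟩
  intro J R r hR hr NB hNB
  let PB : ℕ → Lb → Prop := fun j b => (b.Λ.card : ℝ) ≤ C * R ^ ε * b.nb ∧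
      (∀ k ∈ b.Λ, Sd (r j) (b.s k).1 (b.s k).2) ∧ (∀ k ∈ b.Λ, b.cl k < b.nb) ∧ 1 ≤ b.nb ∧
      (j = 0 → b.nb = 1) ∧
      ∀ σ h g D, σ ≤ 3/2 → St B q Na M0 σ h g R D → ∀ Z : Finset (E2 × ℝ),
        (∀ z ∈ Z, z ∈ cyl R) → (∀ z ∈ Z, ∀ z' ∈ Z, Sep (r j) z z') →
        ∀ cls : E2 × ℝ → OrthonormalBasis (Fin 2) ℝ E2 → ℤ × ℤ → E2 → ℕ,
          (∀ z ∈ Z, ∀ bb m, Measurable (cls z bb m)) → (∀ z ∈ Z, ∀ bb m y, cls z bb m y < b.nb) →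
          ∃ L : Lv, L.cls = cls ∧ L.Ok q A σ C B M h g R (r j) Z b
  have : Nonempty Lb := ⟨⟨∅, fun _ => (0, 0), fun _ => 0, 0⟩⟩
  have : Nonempty Lv := ⟨⟨fun _ _ _ _ => 0, fun _ _ _ => 0, fun _ _ => 0, fun _ _ => 0,
    fun _ _ => ∅, fun _ _ _ => ⟨0, 0, EuclideanSpace.basisFun (Fin 2) ℝ, 0, fun _ => ∅⟩⟩⟩
  obtain ⟨b, hb1, hb2⟩ := exists_rec (P := PB) (Q := fun j b b' => b'.nb = NB j b) J
    (by
      obtain ⟨b, h1, h2, h3, h4, h5⟩ := H R (r 0) hR (hr 0 (Nat.zero_le _)).1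
        (hr 0 (Nat.zero_le _)).2 1 le_rfl
      refine ⟨b, ?_, h3, ?_, ?_, fun _ => h1, ?_⟩
      · rw [h1]; exact h2
      · rw [h1]; exact h4
      · rw [h1]
      · rw [h1]; exact h5)
    (by
      intro j hj b _
      obtain ⟨b', h1, h2, h3, h4, h5⟩ := H R (r (j + 1)) hR (hr (j + 1) hj).1
        (hr (j + 1) hj).2 (NB j b) (hNB j b)
      refine ⟨b', ⟨?_, h3, ?_, ?_, fun h => absurd h (Nat.succ_ne_zero j), ?_⟩, h1⟩
      · rw [h1]; exact h2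
      · rw [h1]; exact h4
      · rw [h1]; exact hNB j b
      · rw [h1]; exact h5)
  refine ⟨b, (hb1 0 (Nat.zero_le _)).2.2.2.2.1 rfl, hb2, fun j hj => ?_, ?_⟩
  · obtain ⟨h1, h2, h3, h4, _, _⟩ := hb1 j hj
    exact ⟨h1, h2, h3, h4⟩
  intro σ h g D hσ hSt Z hZ hs F hF
  obtain ⟨L, hL1, hL2⟩ := exists_rec
    (P := fun j (L : Lv) => L.Ok q A σ C B M h g R (r j) (Z j) (b j) ∧
      (j = 0 → L.cls = fun _ _ _ _ => 0))
    (Q := fun j (L L' : Lv) => L'.cls = F j L) J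
    (by
      have h0 : (0:ℕ) ≤ J := Nat.zero_le _
      obtain ⟨L, e, hL⟩ := (hb1 0 h0).2.2.2.2.2 σ h g D hσ hSt (Z 0) (hZ 0 h0) (hs 0 h0)
        (fun _ _ _ _ => 0) (fun _ _ _ _ => measurable_const)
        (fun _ _ _ _ _ => (hb1 0 h0).2.2.2.1)
      exact ⟨L, hL, fun _ => e⟩)
    (by
      rintro j hj L ⟨hL, _⟩
      obtain ⟨L', e, hL'⟩ := (hb1 (j + 1) hj).2.2.2.2.2 σ h g D hσ hSt (Z (j + 1)) (hZ (j + 1) hj)
        (hs (j + 1) hj) (F j L) (fun z hz bb m => (hF j hj L hL z hz bb m).1)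
        (fun z hz bb m y => by rw [hb2 j hj]; exact (hF j hj L hL z hz bb m).2 y)
      exact ⟨L', ⟨hL', fun h => absurd h (Nat.succ_ne_zero j)⟩, e⟩)
  exact ⟨L, fun j hj => (hL1 j hj).1, (hL1 0 (Nat.zero_le _)).2 rfl, hL2⟩

end Crest.Agent.R138.Lvl323
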