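import Mathlib

/-!
# Trilinear Kakeya, discrete form (row 138, helper191): Guth's induction on scales

`Ln` = a line which is a graph over one coordinate axis: position `p1 + t u1`, `p2 + t u2` in the two
other coordinates.  Unit cubes are indexed by `(x, y, z) : ℕ × ℕ × ℕ`.
-/

set_option autoImplicit false

namespace Crest.Agent.R138.MK191

open Finset

/-- a line given as a graph over an axis -/
structure Ln where
  p1 : ℝ
  u1 : ℝ
  p2 : ℝ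
  u2 : ℝ

/-- incidence of the line `l` (graph over the first variable `t`) with the unit cube whose centre is
`(t + 1/2, y + 1/2, z + 1/2)`, with tolerance `κ` -/
def Inc (κ : ℝ) (l : Ln) (t y z : ℝ) : Prop :=
  |y + 1 / 2 - l.p1 - (t + 1 / 2) * l.u1| ≤ κ ∧ |z + 1 / 2 - l.p2 - (t + 1 / 2) * l.u2| ≤ κ

/-- the line seen at scale `N` -/
noncomputable def Ln.sc (N : ℝ) (l : Ln) : Ln := ⟨l.p1 / N, l.u1, l.p2 / N, l.u2⟩

/-- slopes at most `θ` -/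
def Ln.Sl (θ : ℝ) (l : Ln) : Prop := |l.u1| ≤ θ ∧ |l.u2| ≤ θ

@[simp] lemma sc_p1 (N : ℝ) (l : Ln) : (l.sc N).p1 = l.p1 / N := rfl
@[simp] lemma sc_p2 (N : ℝ) (l : Ln) : (l.sc N).p2 = l.p2 / N := rfl
@[simp] lemma sc_u1 (N : ℝ) (l : Ln) : (l.sc N).u1 = l.u1 := rfl
@[simp] lemma sc_u2 (N : ℝ) (l : Ln) : (l.sc N).u2 = l.u2 := rfl

lemma Ln.Sl.sc {θ N : ℝ} {l : Ln} (h : l.Sl θ) : (l.sc N).Sl θ := h

open Classical in
/-- weighted number of incident lines -/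
noncomputable def cnt {ι : Type*} (s : Finset ι) (a : ι → ℝ) (L : ι → Ln) (κ : ℝ) (t y z : ℝ) : ℝ :=
  ∑ i ∈ s, if Inc κ (L i) t y z then a i else 0

lemma cnt_nonneg {ι : Type*} {s : Finset ι} {a : ι → ℝ} (ha : ∀ i ∈ s, 0 ≤ a i) (L : ι → Ln)
    (κ t y z : ℝ) : 0 ≤ cnt s a L κ t y z := by
  classical
  unfold cnt
  refine sum_nonneg fun i hi => ?_
  split_ifs
  · exact ha i hi
  · exact le_rfl

lemma cnt_le {ι : Type*} {s : Finset ι} {a : ι → ℝ} (ha : ∀ i ∈ s, 0 ≤ a i) (L : ι → Ln)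
    (κ t y z : ℝ) : cnt s a L κ t y z ≤ ∑ i ∈ s, a i := by
  classical
  unfold cnt
  refine sum_le_sum fun i hi => ?_
  split_ifs
  · exact le_rfl
  · exact ha i hi

/-! ### Discrete Loomis–Whitney -/

lemma sqrt_sum_mul_le {α : Type*} (s : Finset α) (f g : α → ℝ) (hf : ∀ x ∈ s, 0 ≤ f x)
    (hg : ∀ x ∈ s, 0 ≤ g x) :
    ∑ x ∈ s, √(f x) * √(g x) ≤ √(∑ x ∈ s, f x) * √(∑ x ∈ s, g x) := by
  have h := Real.sum_sqrt_mul_sqrt_le s (f := fun x => max (f x) 0) (g := fun x => max (g x) 0)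
    (fun _ => le_max_right _ _) (fun _ => le_max_right _ _)
  have e1 : ∑ x ∈ s, √(max (f x) 0) * √(max (g x) 0) = ∑ x ∈ s, √(f x) * √(g x) :=
    sum_congr rfl fun x hx => by rw [max_eq_left (hf x hx), max_eq_left (hg x hx)]
  have e2 : ∑ x ∈ s, max (f x) 0 = ∑ x ∈ s, f x :=
    sum_congr rfl fun x hx => by rw [max_eq_left (hf x hx)]
  have e3 : ∑ x ∈ s, max (g x) 0 = ∑ x ∈ s, g x :=
    sum_congr rfl fun x hx => by rw [max_eq_left (hg x hx)]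
  rw [e1, e2, e3] at h
  exact h

lemma loomis_whitney {α β γ : Type*} (X : Finset α) (Y : Finset β) (Z : Finset γ)
    (f : β → γ → ℝ) (g : α → γ → ℝ) (h : α → β → ℝ)
    (hf : ∀ y ∈ Y, ∀ z ∈ Z, 0 ≤ f y z) (hg : ∀ x ∈ X, ∀ z ∈ Z, 0 ≤ g x z)
    (hh : ∀ x ∈ X, ∀ y ∈ Y, 0 ≤ h x y) :
    ∑ x ∈ X, ∑ y ∈ Y, ∑ z ∈ Z, √(f y z) * √(g x z) * √(h x y) ≤
      √(∑ y ∈ Y, ∑ z ∈ Z, f y z) * √(∑ x ∈ X, ∑ z ∈ Z, g x z) * √(∑ x ∈ X, ∑ y ∈ Y, h x y) := by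
  have hG : ∀ z ∈ Z, 0 ≤ ∑ x ∈ X, g x z := fun z hz => sum_nonneg fun x hx => hg x hx z hz
  have hH : ∀ y ∈ Y, 0 ≤ ∑ x ∈ X, h x y := fun y hy => sum_nonneg fun x hx => hh x hx y hy
  calc ∑ x ∈ X, ∑ y ∈ Y, ∑ z ∈ Z, √(f y z) * √(g x z) * √(h x y)
      = ∑ y ∈ Y, ∑ z ∈ Z, √(f y z) * ∑ x ∈ X, √(g x z) * √(h x y) := by
        rw [sum_comm]
        refine sum_congr rfl fun y _ => ?_
        rw [sum_comm]
        refine sum_congr rfl fun z _ => ?_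
        rw [mul_sum]
        exact sum_congr rfl fun x _ => by ring
    _ ≤ ∑ y ∈ Y, ∑ z ∈ Z, √(f y z) * (√(∑ x ∈ X, g x z) * √(∑ x ∈ X, h x y)) := by
        refine sum_le_sum fun y hy => sum_le_sum fun z hz => ?_
        refine mul_le_mul_of_nonneg_left ?_ (Real.sqrt_nonneg _)
        exact sqrt_sum_mul_le X _ _ (fun x hx => hg x hx z hz) (fun x hx => hh x hx y hy)
    _ = ∑ p ∈ Y ×ˢ Z, √(f p.1 p.2) * √((∑ x ∈ X, g x p.2) * ∑ x ∈ X, h x p.1) := by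
        rw [sum_product]
        refine sum_congr rfl fun y hy => sum_congr rfl fun z hz => ?_
        rw [Real.sqrt_mul (hG z hz)]
    _ ≤ √(∑ p ∈ Y ×ˢ Z, f p.1 p.2) * √(∑ p ∈ Y ×ˢ Z, (∑ x ∈ X, g x p.2) * ∑ x ∈ X, h x p.1) := by
        refine sqrt_sum_mul_le _ _ _ (fun p hp => ?_) (fun p hp => ?_)
        · exact hf _ (mem_product.1 hp).1 _ (mem_product.1 hp).2
        · exact mul_nonneg (hG _ (mem_product.1 hp).2) (hH _ (mem_product.1 hp).1)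
    _ = _ := by
        rw [sum_product, sum_product]
        have e : ∑ y ∈ Y, ∑ z ∈ Z, (∑ x ∈ X, g x z) * ∑ x ∈ X, h x y =
            (∑ x ∈ X, ∑ z ∈ Z, g x z) * ∑ x ∈ X, ∑ y ∈ Y, h x y := by
          rw [sum_comm (s := X) (t := Z), sum_comm (s := X) (t := Y), sum_mul_sum, sum_comm]
        rw [e, Real.sqrt_mul (sum_nonneg fun x hx => sum_nonneg fun z hz => hg x hx z hz), mul_assoc]

/-! ### counting lattice points in an interval -/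

lemma card_range_abs_le (N : ℕ) (c κ : ℝ) (hκ : 0 ≤ κ) :
    ((((range N).filter fun r : ℕ => |(r : ℝ) - c| ≤ κ).card : ℕ) : ℝ) ≤ 2 * κ + 1 := by
  classical
  by_cases he : ((range N).filter fun r : ℕ => |(r : ℝ) - c| ≤ κ) = ∅
  · rw [he]; simp; linarith
  obtain ⟨m, hm⟩ := Finset.nonempty_iff_ne_empty.2 he
  set S := (range N).filter fun r : ℕ => |(r : ℝ) - c| ≤ κ with hS
  set a := S.min' ⟨m, hm⟩
  set b := S.max' ⟨m, hm⟩
  have ha := S.min'_mem ⟨m, hm⟩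
  have hb := S.max'_mem ⟨m, hm⟩
  have hab : a ≤ b := S.min'_le _ hb
  have hsub : S ⊆ Icc a b := fun r hr => mem_Icc.2 ⟨S.min'_le _ hr, S.le_max' _ hr⟩
  have hc := card_le_card hsub
  rw [Nat.card_Icc] at hc
  have h1 := abs_le.1 (mem_filter.1 ha).2
  have h2 := abs_le.1 (mem_filter.1 hb).2
  have h3 : (S.card : ℝ) ≤ (b + 1 - a : ℕ) := by exact_mod_cast hc
  have h4 : ((b + 1 - a : ℕ) : ℝ) = (b : ℝ) + 1 - a := by
    rw [Nat.cast_sub (by omega)]; push_cast; ring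
  have h1' : c - κ ≤ (a : ℝ) := by linarith [h1.1]
  have h2' : (b : ℝ) ≤ c + κ := by linarith [h2.2]
  linarith

/-! ### splitting a range into blocks -/

lemma sum_range_mul (N n : ℕ) (f : ℕ → ℝ) :
    ∑ q ∈ range (N * n), f q = ∑ q' ∈ range n, ∑ r ∈ range N, f (N * q' + r) := by
  induction n with
  | zero => simp
  | succ n ih => rw [Nat.mul_succ, sum_range_add, ih, sum_range_succ]

lemma sum_range_mul3 (N n : ℕ) (f : ℕ → ℕ → ℕ → ℝ) :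
    ∑ x ∈ range (N * n), ∑ y ∈ range (N * n), ∑ z ∈ range (N * n), f x y z =
      ∑ x' ∈ range n, ∑ y' ∈ range n, ∑ z' ∈ range n,
        ∑ x ∈ range N, ∑ y ∈ range N, ∑ z ∈ range N, f (N * x' + x) (N * y' + y) (N * z' + z) := by
  rw [sum_range_mul]
  refine sum_congr rfl fun x' _ => ?_
  calc ∑ r ∈ range N, ∑ y ∈ range (N * n), ∑ z ∈ range (N * n), f (N * x' + r) y z
      = ∑ r ∈ range N, ∑ y' ∈ range n, ∑ y ∈ range N, ∑ z' ∈ range n, ∑ z ∈ range N,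
          f (N * x' + r) (N * y' + y) (N * z' + z) := by
        refine sum_congr rfl fun r _ => ?_
        rw [sum_range_mul]
        refine sum_congr rfl fun y' _ => sum_congr rfl fun y _ => ?_
        rw [sum_range_mul]
    _ = _ := by
        rw [sum_comm]
        refine sum_congr rfl fun y' _ => ?_
        calc ∑ r ∈ range N, ∑ y ∈ range N, ∑ z' ∈ range n, ∑ z ∈ range N,
              f (N * x' + r) (N * y' + y) (N * z' + z)
            = ∑ r ∈ range N, ∑ z' ∈ range n, ∑ y ∈ range N, ∑ z ∈ range N,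
              f (N * x' + r) (N * y' + y) (N * z' + z) :=
              sum_congr rfl fun r _ => sum_comm
          _ = _ := sum_comm

/-! ### one block -/

/-- if a line meets a unit cube of a block, it meets the block at the coarse scale -/
lemma Inc.coarse {κ : ℝ} (hκ : 1 ≤ κ) {N : ℕ} (hN : 4 ≤ N) {l : Ln} (hl : l.Sl (1 / N))
    {t' y' z' t y z : ℕ} (ht : t < N) (hy : y < N) (hz : z < N)
    (h : Inc κ l ((N * t' + t : ℕ) : ℝ) ((N * y' + y : ℕ) : ℝ) ((N * z' + z : ℕ) : ℝ)) :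
    Inc κ (l.sc N) t' y' z' := by
  have hN4 : (4 : ℝ) ≤ N := by exact_mod_cast hN
  have hN0 : (0 : ℝ) < N := by linarith
  have key : ∀ (p u : ℝ) (w' w : ℕ), w < N → |u| ≤ 1 / N →
      |((N * w' + w : ℕ) : ℝ) + 1 / 2 - p - (((N * t' + t : ℕ) : ℝ) + 1 / 2) * u| ≤ κ →
      |(w' : ℝ) + 1 / 2 - p / N - ((t' : ℝ) + 1 / 2) * u| ≤ κ := by
    intro p u w' w hw hu h
    push_cast at h
    have e : (w' : ℝ) + 1 / 2 - p / N - ((t' : ℝ) + 1 / 2) * u =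
        ((N : ℝ) * w' + w + 1 / 2 - p - (N * t' + t + 1 / 2) * u) / N +
          (1 / 2 - (w + 1 / 2) / N) - (1 / 2 - (t + 1 / 2) / N) * u := by
      field_simp; ring
    have hb : ∀ v : ℕ, v < N → |1 / 2 - ((v : ℝ) + 1 / 2) / N| ≤ 1 / 2 := by
      intro v hv
      have hv' : (v : ℝ) + 1 ≤ N := by exact_mod_cast hv
      have h0 : 0 ≤ ((v : ℝ) + 1 / 2) / N := by positivity
      have h1 : ((v : ℝ) + 1 / 2) / N ≤ 1 := by rw [div_le_one hN0]; linarith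
      rw [abs_le]; constructor <;> linarith
    have h1 : |((N : ℝ) * w' + w + 1 / 2 - p - (N * t' + t + 1 / 2) * u) / N| ≤ κ / 4 := by
      rw [abs_div, abs_of_pos hN0, div_le_div_iff₀ hN0 (by norm_num)]
      nlinarith [abs_nonneg ((N : ℝ) * w' + w + 1 / 2 - p - (N * t' + t + 1 / 2) * u)]
    have h2 := hb w hw
    have h3 : |(1 / 2 - ((t : ℝ) + 1 / 2) / N) * u| ≤ 1 / 8 := by
      rw [abs_mul]
      have hu4 : |u| ≤ 1 / 4 := hu.trans (one_div_le_one_div_of_le (by norm_num) hN4)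
      calc |1 / 2 - ((t : ℝ) + 1 / 2) / N| * |u| ≤ 1 / 2 * (1 / 4) :=
            mul_le_mul (hb t ht) hu4 (abs_nonneg _) (by norm_num)
        _ = 1 / 8 := by norm_num
    rw [e]
    calc |((N : ℝ) * w' + w + 1 / 2 - p - (N * t' + t + 1 / 2) * u) / N +
          (1 / 2 - (w + 1 / 2) / N) - (1 / 2 - (t + 1 / 2) / N) * u|
        ≤ κ / 4 + 1 / 2 + 1 / 8 := by
          refine (abs_sub _ _).trans ?_
          exact add_le_add ((abs_add_le _ _).trans (add_le_add h1 h2)) h3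
      _ ≤ κ := by linarith
  exact ⟨key _ _ _ _ hy hl.1 h.1, key _ _ _ _ hz hl.2 h.2⟩

/-- if a line meets a unit cube of a block then the transverse coordinates of the cube are essentially
determined -/
lemma Inc.fine {κ : ℝ} {N : ℕ} (hN : 4 ≤ N) {l : Ln} (hl : l.Sl (1 / N))
    {t' y' z' t y z : ℕ} (ht : t < N)
    (h : Inc κ l ((N * t' + t : ℕ) : ℝ) ((N * y' + y : ℕ) : ℝ) ((N * z' + z : ℕ) : ℝ)) :
    |(y : ℝ) - (l.p1 + (N * t') * l.u1 - N * y' - 1 / 2)| ≤ κ + 1 ∧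
      |(z : ℝ) - (l.p2 + (N * t') * l.u2 - N * z' - 1 / 2)| ≤ κ + 1 := by
  have hN4 : (4 : ℝ) ≤ N := by exact_mod_cast hN
  have hN0 : (0 : ℝ) < N := by linarith
  have key : ∀ (p u : ℝ) (w' w : ℕ), |u| ≤ 1 / N →
      |((N * w' + w : ℕ) : ℝ) + 1 / 2 - p - (((N * t' + t : ℕ) : ℝ) + 1 / 2) * u| ≤ κ →
      |(w : ℝ) - (p + (N * t') * u - N * w' - 1 / 2)| ≤ κ + 1 := by
    intro p u w' w hu h
    push_cast at h
    have e : (w : ℝ) - (p + (N * t') * u - N * w' - 1 / 2) =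
        ((N : ℝ) * w' + w + 1 / 2 - p - (N * t' + t + 1 / 2) * u) + (t + 1 / 2) * u := by ring
    have h3 : |((t : ℝ) + 1 / 2) * u| ≤ 1 := by
      rw [abs_mul, abs_of_nonneg (by positivity)]
      have ht' : (t : ℝ) + 1 / 2 ≤ N := by
        have : (t : ℝ) + 1 ≤ N := by exact_mod_cast ht
        linarith
      calc ((t : ℝ) + 1 / 2) * |u| ≤ N * (1 / N) := mul_le_mul ht' hu (abs_nonneg _) hN0.le
        _ = 1 := by field_simp
    rw [e]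
    exact (abs_add_le _ _).trans (add_le_add h h3)
  exact ⟨key _ _ _ _ hl.1 h.1, key _ _ _ _ hl.2 h.2⟩

open Classical in
/-- the two-dimensional majorant of `cnt` on a block -/
noncomputable def maj {ι : Type*} (s : Finset ι) (a : ι → ℝ) (L : ι → Ln) (κ : ℝ) (N : ℕ)
    (t' y' z' : ℕ) (y z : ℕ) : ℝ :=
  ∑ i ∈ s, if Inc κ ((L i).sc N) t' y' z' ∧
    |(y : ℝ) - ((L i).p1 + (N * t') * (L i).u1 - N * y' - 1 / 2)| ≤ κ + 1 ∧
      |(z : ℝ) - ((L i).p2 + (N * t') * (L i).u2 - N * z' - 1 / 2)| ≤ κ + 1 then a i else 0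

lemma maj_nonneg {ι : Type*} {s : Finset ι} {a : ι → ℝ} (ha : ∀ i ∈ s, 0 ≤ a i) (L : ι → Ln)
    (κ : ℝ) (N t' y' z' y z : ℕ) : 0 ≤ maj s a L κ N t' y' z' y z := by
  classical
  unfold maj
  refine sum_nonneg fun i hi => ?_
  split_ifs
  · exact ha i hi
  · exact le_rfl

lemma cnt_le_maj {ι : Type*} {s : Finset ι} {a : ι → ℝ} (ha : ∀ i ∈ s, 0 ≤ a i) {L : ι → Ln}
    {κ : ℝ} (hκ : 1 ≤ κ) {N : ℕ} (hN : 4 ≤ N) (hL : ∀ i ∈ s, (L i).Sl (1 / N))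
    {t' y' z' t y z : ℕ} (ht : t < N) (hy : y < N) (hz : z < N) :
    cnt s a L κ ((N * t' + t : ℕ) : ℝ) ((N * y' + y : ℕ) : ℝ) ((N * z' + z : ℕ) : ℝ) ≤
      maj s a L κ N t' y' z' y z := by
  classical
  unfold cnt maj
  refine sum_le_sum fun i hi => ?_
  by_cases h : Inc κ (L i) ((N * t' + t : ℕ) : ℝ) ((N * y' + y : ℕ) : ℝ) ((N * z' + z : ℕ) : ℝ)
  · rw [if_pos h, if_pos ⟨h.coarse hκ hN (hL i hi) ht hy hz, h.fine hN (hL i hi) ht⟩]
  · rw [if_neg h]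
    split_ifs
    · exact ha i hi
    · exact le_rfl

lemma sum_maj_le {ι : Type*} {s : Finset ι} {a : ι → ℝ} (ha : ∀ i ∈ s, 0 ≤ a i) (L : ι → Ln)
    {κ : ℝ} (hκ : 1 ≤ κ) (N : ℕ) (t' y' z' : ℕ) :
    ∑ y ∈ range N, ∑ z ∈ range N, maj s a L κ N t' y' z' y z ≤
      (2 * κ + 3) ^ 2 * cnt s a (fun i => (L i).sc N) κ t' y' z' := by
  classical
  unfold maj cnt
  have e : ∑ y ∈ range N, ∑ z ∈ range N, ∑ i ∈ s, (if Inc κ ((L i).sc N) t' y' z' ∧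
      |(y : ℝ) - ((L i).p1 + (N * t') * (L i).u1 - N * y' - 1 / 2)| ≤ κ + 1 ∧
      |(z : ℝ) - ((L i).p2 + (N * t') * (L i).u2 - N * z' - 1 / 2)| ≤ κ + 1 then a i else 0) =
      ∑ i ∈ s, ∑ y ∈ range N, ∑ z ∈ range N, (if Inc κ ((L i).sc N) t' y' z' ∧
      |(y : ℝ) - ((L i).p1 + (N * t') * (L i).u1 - N * y' - 1 / 2)| ≤ κ + 1 ∧
      |(z : ℝ) - ((L i).p2 + (N * t') * (L i).u2 - N * z' - 1 / 2)| ≤ κ + 1 then a i else 0) := by
    rw [sum_comm]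
    refine (sum_congr rfl fun z _ => sum_comm).trans ?_
    rw [sum_comm]
    exact sum_congr rfl fun i _ => sum_comm
  rw [e, mul_sum]
  refine sum_le_sum fun i hi => ?_
  by_cases h : Inc κ ((L i).sc N) t' y' z'
  · rw [if_pos h]
    set c1 := (L i).p1 + (N * t') * (L i).u1 - N * y' - 1 / 2
    set c2 := (L i).p2 + (N * t') * (L i).u2 - N * z' - 1 / 2
    have e2 : ∑ y ∈ range N, ∑ z ∈ range N, (if Inc κ ((L i).sc N) t' y' z' ∧
        |(y : ℝ) - c1| ≤ κ + 1 ∧ |(z : ℝ) - c2| ≤ κ + 1 then a i else 0) =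
        (((range N).filter fun r : ℕ => |(r : ℝ) - c1| ≤ κ + 1).card : ℝ) *
        (((range N).filter fun r : ℕ => |(r : ℝ) - c2| ≤ κ + 1).card : ℝ) * a i := by
      have : ∀ y ∈ range N, ∑ z ∈ range N, (if Inc κ ((L i).sc N) t' y' z' ∧
        |(y : ℝ) - c1| ≤ κ + 1 ∧ |(z : ℝ) - c2| ≤ κ + 1 then a i else 0) =
          if |(y : ℝ) - c1| ≤ κ + 1 then
            (((range N).filter fun r : ℕ => |(r : ℝ) - c2| ≤ κ + 1).card : ℝ) * a i else 0 := by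
        intro y _
        by_cases hy : |(y : ℝ) - c1| ≤ κ + 1
        · rw [if_pos hy]
          simp only [h, hy, true_and]
          rw [← sum_filter, sum_const, nsmul_eq_mul]
        · rw [if_neg hy]
          refine sum_eq_zero fun z _ => if_neg fun hh => hy hh.2.1
      rw [sum_congr rfl this, ← sum_filter, sum_const, nsmul_eq_mul, mul_assoc]
    rw [e2]
    have h1 := card_range_abs_le N c1 (κ + 1) (by linarith)
    have h2 := card_range_abs_le N c2 (κ + 1) (by linarith)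
    refine mul_le_mul_of_nonneg_right ?_ (ha i hi)
    rw [sq]
    refine mul_le_mul (h1.trans (by linarith)) (h2.trans (by linarith)) (Nat.cast_nonneg _) ?_
    linarith
  · rw [if_neg h, mul_zero]
    refine (sum_eq_zero fun y _ => sum_eq_zero fun z _ => if_neg fun hh => h hh.1).le

/-! ### the multilinear sum -/

section main

variable {ι₁ ι₂ ι₃ : Type*}

/-- weighted data: three families of lines with weights -/
structure Fam (ι₁ ι₂ ι₃ : Type*) where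
  s1 : Finset ι₁
  s2 : Finset ι₂
  s3 : Finset ι₃
  a1 : ι₁ → ℝ
  a2 : ι₂ → ℝ
  a3 : ι₃ → ℝ
  L1 : ι₁ → Ln
  L2 : ι₂ → Ln
  L3 : ι₃ → Ln

/-- nonnegative weights and small slopes -/
structure Fam.Ok (F : Fam ι₁ ι₂ ι₃) (θ : ℝ) : Prop where
  a1 : ∀ i ∈ F.s1, 0 ≤ F.a1 i
  a2 : ∀ i ∈ F.s2, 0 ≤ F.a2 i
  a3 : ∀ i ∈ F.s3, 0 ≤ F.a3 i
  L1 : ∀ i ∈ F.s1, (F.L1 i).Sl θ
  L2 : ∀ i ∈ F.s2, (F.L2 i).Sl θ
  L3 : ∀ i ∈ F.s3, (F.L3 i).Sl θ

/-- the family at scale `N` -/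
noncomputable def Fam.sc (N : ℝ) (F : Fam ι₁ ι₂ ι₃) : Fam ι₁ ι₂ ι₃ :=
  { F with L1 := fun i => (F.L1 i).sc N, L2 := fun i => (F.L2 i).sc N,
           L3 := fun i => (F.L3 i).sc N }

lemma Fam.Ok.sc {F : Fam ι₁ ι₂ ι₃} {θ : ℝ} (h : F.Ok θ) (N : ℝ) : (F.sc N).Ok θ :=
  ⟨h.a1, h.a2, h.a3, fun i hi => (h.L1 i hi).sc, fun i hi => (h.L2 i hi).sc,
    fun i hi => (h.L3 i hi).sc⟩

/-- the trilinear integrand at the cube `(x, y, z)` -/
noncomputable def Fam.tri (F : Fam ι₁ ι₂ ι₃) (κ x y z : ℝ) : ℝ :=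
  √(cnt F.s1 F.a1 F.L1 κ x y z) * √(cnt F.s2 F.a2 F.L2 κ y x z) * √(cnt F.s3 F.a3 F.L3 κ z x y)

lemma Fam.tri_nonneg (F : Fam ι₁ ι₂ ι₃) (κ x y z : ℝ) : 0 ≤ F.tri κ x y z := by
  unfold Fam.tri; positivity

lemma block_le {F : Fam ι₁ ι₂ ι₃} {κ : ℝ} (hκ : 1 ≤ κ) {N : ℕ} (hN : 4 ≤ N)
    (hF : F.Ok (1 / N)) (x' y' z' : ℕ) :
    ∑ x ∈ range N, ∑ y ∈ range N, ∑ z ∈ range N,
      F.tri κ ((N * x' + x : ℕ) : ℝ) ((N * y' + y : ℕ) : ℝ) ((N * z' + z : ℕ) : ℝ) ≤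
      (2 * κ + 3) ^ 3 * (F.sc N).tri κ x' y' z' := by
  have h1 : ∑ x ∈ range N, ∑ y ∈ range N, ∑ z ∈ range N,
      F.tri κ ((N * x' + x : ℕ) : ℝ) ((N * y' + y : ℕ) : ℝ) ((N * z' + z : ℕ) : ℝ) ≤
      ∑ x ∈ range N, ∑ y ∈ range N, ∑ z ∈ range N,
        √(maj F.s1 F.a1 F.L1 κ N x' y' z' y z) * √(maj F.s2 F.a2 F.L2 κ N y' x' z' x z) *
          √(maj F.s3 F.a3 F.L3 κ N z' x' y' x y) := by
    refine sum_le_sum fun x hx => sum_le_sum fun y hy => sum_le_sum fun z hz => ?_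
    rw [mem_range] at hx hy hz
    unfold Fam.tri
    refine mul_le_mul (mul_le_mul (Real.sqrt_le_sqrt ?_) (Real.sqrt_le_sqrt ?_)
      (Real.sqrt_nonneg _) (Real.sqrt_nonneg _)) (Real.sqrt_le_sqrt ?_) (Real.sqrt_nonneg _)
      (by positivity)
    · exact cnt_le_maj hF.a1 hκ hN hF.L1 hx hy hz
    · exact cnt_le_maj hF.a2 hκ hN hF.L2 hy hx hz
    · exact cnt_le_maj hF.a3 hκ hN hF.L3 hz hx hy
  have h2 := loomis_whitney (range N) (range N) (range N)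
    (fun y z => maj F.s1 F.a1 F.L1 κ N x' y' z' y z)
    (fun x z => maj F.s2 F.a2 F.L2 κ N y' x' z' x z)
    (fun x y => maj F.s3 F.a3 F.L3 κ N z' x' y' x y)
    (fun _ _ _ _ => maj_nonneg hF.a1 _ _ _ _ _ _ _ _)
    (fun _ _ _ _ => maj_nonneg hF.a2 _ _ _ _ _ _ _ _)
    (fun _ _ _ _ => maj_nonneg hF.a3 _ _ _ _ _ _ _ _)
  have h3 : ∀ {A B c : ℝ}, 0 ≤ B → 0 ≤ c → A ≤ c ^ 2 * B → √A ≤ c * √B := by
    intro A B c hB hc h
    calc √A ≤ √(c ^ 2 * B) := Real.sqrt_le_sqrt h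
      _ = c * √B := by rw [Real.sqrt_mul (sq_nonneg c), Real.sqrt_sq hc]
  have hc : (0 : ℝ) ≤ 2 * κ + 3 := by linarith
  have k1 := h3 (cnt_nonneg hF.a1 _ κ _ _ _) hc (sum_maj_le hF.a1 F.L1 hκ N x' y' z')
  have k2 := h3 (cnt_nonneg hF.a2 _ κ _ _ _) hc (sum_maj_le hF.a2 F.L2 hκ N y' x' z')
  have k3 := h3 (cnt_nonneg hF.a3 _ κ _ _ _) hc (sum_maj_le hF.a3 F.L3 hκ N z' x' y')
  refine h1.trans (h2.trans ?_)
  calc _ ≤ ((2 * κ + 3) * √(cnt F.s1 F.a1 (fun i => (F.L1 i).sc N) κ x' y' z')) *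
        ((2 * κ + 3) * √(cnt F.s2 F.a2 (fun i => (F.L2 i).sc N) κ y' x' z')) *
        ((2 * κ + 3) * √(cnt F.s3 F.a3 (fun i => (F.L3 i).sc N) κ z' x' y')) := by
        refine mul_le_mul (mul_le_mul k1 k2 (Real.sqrt_nonneg _) ?_) k3 (Real.sqrt_nonneg _) ?_
        · positivity
        · positivity
    _ = _ := by unfold Fam.tri Fam.sc; ring

/-- **Trilinear Kakeya, discrete form (Guth's induction on scales).** -/
theorem kakeya_pow {F : Fam ι₁ ι₂ ι₃} {κ : ℝ} (hκ : 1 ≤ κ) {N : ℕ} (hN : 4 ≤ N)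
    (hF : F.Ok (1 / N)) (m : ℕ) :
    ∑ x ∈ range (N ^ m), ∑ y ∈ range (N ^ m), ∑ z ∈ range (N ^ m), F.tri κ x y z ≤
      ((2 * κ + 3) ^ 3) ^ m *
        (√(∑ i ∈ F.s1, F.a1 i) * √(∑ i ∈ F.s2, F.a2 i) * √(∑ i ∈ F.s3, F.a3 i)) := by
  induction m generalizing F with
  | zero =>
    simp only [pow_zero, range_one, sum_singleton, one_mul, Nat.cast_zero]
    unfold Fam.tri
    refine mul_le_mul (mul_le_mul (Real.sqrt_le_sqrt ?_) (Real.sqrt_le_sqrt ?_)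
      (Real.sqrt_nonneg _) (Real.sqrt_nonneg _)) (Real.sqrt_le_sqrt ?_) (Real.sqrt_nonneg _)
      (by positivity)
    · exact cnt_le hF.a1 _ _ _ _ _
    · exact cnt_le hF.a2 _ _ _ _ _
    · exact cnt_le hF.a3 _ _ _ _ _
  | succ m ih =>
    rw [pow_succ' N m, sum_range_mul3 N (N ^ m) (fun x y z => F.tri κ x y z)]
    calc _ ≤ ∑ x' ∈ range (N ^ m), ∑ y' ∈ range (N ^ m), ∑ z' ∈ range (N ^ m),
          (2 * κ + 3) ^ 3 * (F.sc N).tri κ x' y' z' :=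
          sum_le_sum fun x' _ => sum_le_sum fun y' _ => sum_le_sum fun z' _ =>
            block_le hκ hN hF x' y' z'
      _ = (2 * κ + 3) ^ 3 * ∑ x' ∈ range (N ^ m), ∑ y' ∈ range (N ^ m), ∑ z' ∈ range (N ^ m),
          (F.sc N).tri κ x' y' z' := by simp_rw [mul_sum]
      _ ≤ (2 * κ + 3) ^ 3 * (((2 * κ + 3) ^ 3) ^ m *
        (√(∑ i ∈ F.s1, F.a1 i) * √(∑ i ∈ F.s2, F.a2 i) * √(∑ i ∈ F.s3, F.a3 i))) := by
          refine mul_le_mul_of_nonneg_left (ih (hF.sc N)) ?_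
          have : (0 : ℝ) ≤ 2 * κ + 3 := by linarith
          positivity
      _ = _ := by rw [pow_succ]; ring

end main

end Crest.Agent.R138.MK191
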