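import Mathlib

/-!
# Trilinear Kakeya in R^3, part 1 (helper877)

Discrete Loomis–Whitney and the near-axis induction on scales (Guth).
-/

set_option autoImplicit false

namespace Crest.Agent.R138.MK877

open Finset

/-- Discrete Loomis–Whitney inequality. -/
lemma lw {α β γ : Type*} (s : Finset α) (t : Finset β) (u : Finset γ)
    (f : β → γ → ℝ) (g : α → γ → ℝ) (h : α → β → ℝ)
    (hf : ∀ b c, 0 ≤ f b c) (hg : ∀ a c, 0 ≤ g a c) (hh : ∀ a b, 0 ≤ h a b) :
    ∑ a ∈ s, ∑ b ∈ t, ∑ c ∈ u, √(f b c) * √(g a c) * √(h a b) ≤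
      √(∑ b ∈ t, ∑ c ∈ u, f b c) * √(∑ a ∈ s, ∑ c ∈ u, g a c) * √(∑ a ∈ s, ∑ b ∈ t, h a b) := by
  have e1 : ∑ a ∈ s, ∑ b ∈ t, ∑ c ∈ u, √(f b c) * √(g a c) * √(h a b) =
      ∑ b ∈ t, ∑ c ∈ u, √(f b c) * ∑ a ∈ s, √(g a c) * √(h a b) := by
    rw [Finset.sum_comm]
    refine Finset.sum_congr rfl fun b _ => ?_
    rw [Finset.sum_comm]
    refine Finset.sum_congr rfl fun c _ => ?_
    rw [Finset.mul_sum]
    refine Finset.sum_congr rfl fun a _ => ?_
    ring
  rw [e1]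
  have e2 : ∀ b c, ∑ a ∈ s, √(g a c) * √(h a b) ≤
      √(∑ a ∈ s, g a c) * √(∑ a ∈ s, h a b) := fun b c =>
    Real.sum_sqrt_mul_sqrt_le s (fun a => hg a c) (fun a => hh a b)
  have e3 : ∑ b ∈ t, ∑ c ∈ u, √(f b c) * ∑ a ∈ s, √(g a c) * √(h a b) ≤
      ∑ p ∈ t ×ˢ u, √(f p.1 p.2) * √((∑ a ∈ s, g a p.2) * (∑ a ∈ s, h a p.1)) := by
    rw [Finset.sum_product]
    refine Finset.sum_le_sum fun b _ => Finset.sum_le_sum fun c _ => ?_
    refine mul_le_mul_of_nonneg_left ?_ (Real.sqrt_nonneg _)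
    rw [Real.sqrt_mul (Finset.sum_nonneg fun a _ => hg a c)]
    exact e2 b c
  refine e3.trans ?_
  refine (Real.sum_sqrt_mul_sqrt_le (t ×ˢ u) (f := fun p => f p.1 p.2)
    (g := fun p => (∑ a ∈ s, g a p.2) * (∑ a ∈ s, h a p.1)) (fun p => hf p.1 p.2)
    (fun p => mul_nonneg (Finset.sum_nonneg fun a _ => hg a _)
      (Finset.sum_nonneg fun a _ => hh a _))).trans ?_
  have e4 : ∑ p ∈ t ×ˢ u, (∑ a ∈ s, g a p.2) * (∑ a ∈ s, h a p.1) =
      (∑ a ∈ s, ∑ c ∈ u, g a c) * (∑ a ∈ s, ∑ b ∈ t, h a b) := by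
    rw [Finset.sum_product, Finset.sum_comm (s := s) (t := u), Finset.sum_comm (s := s) (t := t),
      Finset.sum_mul_sum, Finset.sum_comm]
  rw [e4, Finset.sum_product, Real.sqrt_mul (Finset.sum_nonneg fun a _ =>
    Finset.sum_nonneg fun c _ => hg a c), mul_assoc]

/-- the line `p + ℝ e` passes at sup-distance `≤ r` from `x`. -/
def Near (x p e : Fin 3 → ℝ) (r : ℝ) : Prop := ∃ s : ℝ, ∀ i, |x i - p i - s * e i| ≤ r

lemma Near.mono {x p e : Fin 3 → ℝ} {r r' : ℝ} (h : Near x p e r) (hr : r ≤ r') :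
    Near x p e r' := by
  obtain ⟨s, hs⟩ := h
  exact ⟨s, fun i => (hs i).trans hr⟩

lemma Near.shift {x y p e : Fin 3 → ℝ} {r d : ℝ} (h : Near x p e r) (hd : ∀ i, |y i - x i| ≤ d) :
    Near y p e (r + d) := by
  obtain ⟨s, hs⟩ := h
  refine ⟨s, fun i => ?_⟩
  have : y i - p i - s * e i = (x i - p i - s * e i) + (y i - x i) := by ring
  rw [this]
  exact (abs_add_le _ _).trans (add_le_add (hs i) (hd i))

/-- integer points as real vectors, scaled by `σ` -/
def pt (σ : ℝ) (k : Fin 3 → ℤ) : Fin 3 → ℝ := fun i => σ * (k i : ℝ)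

/-- the parent relation -/
lemma near_parent {σ : ℝ} (hσ : 0 ≤ σ) {N : ℕ} {K : Fin 3 → ℤ} {a : Fin 3 → ℤ}
    (ha0 : ∀ i, 0 ≤ a i) (haN : ∀ i, a i < N) {p e : Fin 3 → ℝ}
    (h : Near (pt σ (fun i => N * K i + a i)) p e σ) :
    Near (pt (σ * N) K) p e (σ * N) := by
  have h1 : Near (pt (σ * N) K) p e (σ + σ * (N - 1)) := by
    refine h.shift fun i => ?_
    simp only [pt]
    push_cast
    have : σ * N * (K i : ℝ) - σ * (N * K i + a i) = -(σ * a i) := by ring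
    rw [this, abs_neg, abs_mul, abs_of_nonneg hσ]
    refine mul_le_mul_of_nonneg_left ?_ hσ
    have h0 : (0 : ℝ) ≤ a i := by exact_mod_cast ha0 i
    have h2 : (a i : ℝ) + 1 ≤ N := by exact_mod_cast haN i
    rw [abs_of_nonneg h0]
    linarith
  refine h1.mono (le_of_eq ?_)
  ring

/-- near-axis line in direction `j` -/
structure Axial (N : ℕ) (j : Fin 3) (e : Fin 3 → ℝ) : Prop where
  one : e j = 1
  small : ∀ i, i ≠ j → |e i| ≤ 1 / (N : ℝ)

lemma column {σ : ℝ} (hσ : 0 < σ) {N : ℕ} (hN : 1 ≤ N) {j : Fin 3} {e : Fin 3 → ℝ}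
    (he : Axial N j e) {p : Fin 3 → ℝ} {k k' : Fin 3 → ℤ}
    (hk : Near (pt σ k) p e σ) (hk' : Near (pt σ k') p e σ) (hj : |k j - k' j| ≤ N)
    (i : Fin 3) (hi : i ≠ j) : |k i - k' i| ≤ 5 := by
  obtain ⟨s, hs⟩ := hk
  obtain ⟨s', hs'⟩ := hk'
  have hN' : (1 : ℝ) ≤ N := by exact_mod_cast hN
  have hjR : |(k j : ℝ) - k' j| ≤ N := by exact_mod_cast hj
  have h1 := hs j
  have h2 := hs' j
  rw [he.one] at h1 h2
  simp only [pt] at h1 h2
  have h3 : |s - s'| ≤ σ * (N + 2) := by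
    have : s - s' = -(σ * k j - p j - s * 1) + (σ * k' j - p j - s' * 1) + σ * (k j - k' j) := by
      ring
    rw [this]
    refine (abs_add_le _ _).trans ?_
    have h4 := abs_add_le (-(σ * (k j : ℝ) - p j - s * 1)) (σ * (k' j : ℝ) - p j - s' * 1)
    rw [abs_neg] at h4
    have h5 : |σ * ((k j : ℝ) - k' j)| ≤ σ * N := by
      rw [abs_mul, abs_of_pos hσ]
      exact mul_le_mul_of_nonneg_left hjR hσ.le
    nlinarith
  have g1 := hs i
  have g2 := hs' i
  simp only [pt] at g1 g2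
  have h6 : |σ * ((k i : ℝ) - k' i)| ≤ σ * 5 := by
    have : σ * ((k i : ℝ) - k' i) = (σ * k i - p i - s * e i) - (σ * k' i - p i - s' * e i)
        + (s - s') * e i := by ring
    rw [this]
    refine (abs_add_le _ _).trans ?_
    have h7 := abs_sub (σ * (k i : ℝ) - p i - s * e i) (σ * k' i - p i - s' * e i)
    have h8 : |(s - s') * e i| ≤ σ * 3 := by
      rw [abs_mul]
      calc |s - s'| * |e i| ≤ (σ * (N + 2)) * (1 / (N : ℝ)) :=
            mul_le_mul h3 (he.small i hi) (abs_nonneg _) (by positivity)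
        _ ≤ σ * 3 := by
            rw [mul_assoc]
            refine mul_le_mul_of_nonneg_left ?_ hσ.le
            rw [mul_one_div, div_le_iff₀ (by linarith)]
            linarith
    linarith
  rw [abs_mul, abs_of_pos hσ] at h6
  have h9 := le_of_mul_le_mul_left h6 hσ
  exact_mod_cast h9

lemma card_close {N : ℕ} (P : ℕ → ℕ → Prop) [DecidablePred fun q : ℕ × ℕ => P q.1 q.2]
    (h : ∀ b c b' c', b < N → c < N → b' < N → c' < N → P b c → P b' c' →
      |(b : ℤ) - b'| ≤ 5 ∧ |(c : ℤ) - c'| ≤ 5) :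
    (((range N ×ˢ range N).filter fun q : ℕ × ℕ => P q.1 q.2).card : ℝ) ≤ 121 := by
  classical
  by_cases hne : ((range N ×ˢ range N).filter fun q : ℕ × ℕ => P q.1 q.2).Nonempty
  · obtain ⟨⟨b0, c0⟩, h0⟩ := hne
    simp only [mem_filter, mem_product, mem_range] at h0
    have hsub : ((range N ×ˢ range N).filter fun q : ℕ × ℕ => P q.1 q.2) ⊆
        (Finset.Icc (b0 - 5) (b0 + 5)) ×ˢ (Finset.Icc (c0 - 5) (c0 + 5)) := by
      intro q hq
      simp only [mem_filter, mem_product, mem_range] at hq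
      have := h q.1 q.2 b0 c0 hq.1.1 hq.1.2 h0.1.1 h0.1.2 hq.2 h0.2
      simp only [mem_product, mem_Icc]
      obtain ⟨h1, h2⟩ := this
      rw [abs_le] at h1 h2
      omega
    have := Finset.card_le_card hsub
    rw [Finset.card_product, Nat.card_Icc, Nat.card_Icc] at this
    have h3 : b0 + 5 + 1 - (b0 - 5) ≤ 11 := by omega
    have h4 : c0 + 5 + 1 - (c0 - 5) ≤ 11 := by omega
    have h5 : ((range N ×ˢ range N).filter fun q : ℕ × ℕ => P q.1 q.2).card ≤ 11 * 11 :=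
      this.trans (Nat.mul_le_mul h3 h4)
    calc (((range N ×ˢ range N).filter fun q : ℕ × ℕ => P q.1 q.2).card : ℝ)
        ≤ ((11 * 11 : ℕ) : ℝ) := by exact_mod_cast h5
      _ = 121 := by norm_num
  · rw [Finset.not_nonempty_iff_eq_empty] at hne
    rw [hne]
    norm_num

open Classical in
/-- total weight of the lines passing near the cube `k` at scale `σ` -/
noncomputable def W {ι : Type*} (s : Finset ι) (p e : ι → Fin 3 → ℝ) (w : ι → ℝ) (σ : ℝ)
    (k : Fin 3 → ℤ) : ℝ :=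
  ∑ l ∈ s, if Near (pt σ k) (p l) (e l) σ then w l else 0

lemma W_nonneg {ι : Type*} (s : Finset ι) (p e : ι → Fin 3 → ℝ) (w : ι → ℝ) (hw : ∀ l ∈ s, 0 ≤ w l)
    (σ : ℝ) (k : Fin 3 → ℤ) : 0 ≤ W s p e w σ k := by
  classical
  refine Finset.sum_nonneg fun l hl => ?_
  split_ifs
  · exact hw l hl
  · exact le_rfl

lemma W_le {ι : Type*} (s : Finset ι) (p e : ι → Fin 3 → ℝ) (w : ι → ℝ) (hw : ∀ l ∈ s, 0 ≤ w l)
    (σ : ℝ) (k : Fin 3 → ℤ) : W s p e w σ k ≤ ∑ l ∈ s, w l := by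
  classical
  refine Finset.sum_le_sum fun l hl => ?_
  split_ifs
  · exact le_rfl
  · exact hw l hl

/-- the child cube -/
def ch (N : ℕ) (K : Fin 3 → ℤ) (a b c : ℕ) : Fin 3 → ℤ :=
  fun i => N * K i + (![(a : ℤ), b, c] i)

open Classical in
/-- abstract column count -/
lemma col_sum {ι : Type*} (s : Finset ι) (w : ι → ℝ) (hw : ∀ l ∈ s, 0 ≤ w l) (N : ℕ)
    (Q : ι → ℕ → ℕ → ℕ → Prop) (R : ι → Prop)
    (hR : ∀ l ∈ s, ∀ a b c, a < N → b < N → c < N → Q l a b c → R l)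
    (hcol : ∀ l ∈ s, ∀ a b c a' b' c', a < N → b < N → c < N → a' < N → b' < N → c' < N →
      Q l a b c → Q l a' b' c' → |(b : ℤ) - b'| ≤ 5 ∧ |(c : ℤ) - c'| ≤ 5) :
    ∑ b ∈ range N, ∑ c ∈ range N, ∑ l ∈ s, (if ∃ a < N, Q l a b c then w l else 0) ≤
      121 * ∑ l ∈ s, (if R l then w l else 0) := by
  have e1 : ∑ b ∈ range N, ∑ c ∈ range N, ∑ l ∈ s, (if ∃ a < N, Q l a b c then w l else 0) =
      ∑ l ∈ s, w l * (((range N ×ˢ range N).filter fun q : ℕ × ℕ =>
        ∃ a < N, Q l a q.1 q.2).card : ℝ) := by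
    rw [← Finset.sum_product', Finset.sum_comm]
    refine Finset.sum_congr rfl fun l _ => ?_
    rw [Finset.card_filter]
    push_cast
    rw [Finset.mul_sum]
    refine Finset.sum_congr rfl fun q _ => ?_
    split_ifs <;> simp
  rw [e1, Finset.mul_sum]
  refine Finset.sum_le_sum fun l hl => ?_
  by_cases hRl : R l
  · rw [if_pos hRl, mul_comm]
    refine mul_le_mul_of_nonneg_right ?_ (hw l hl)
    refine card_close (fun b c => ∃ a < N, Q l a b c) ?_
    rintro b c b' c' hb hc hb' hc' ⟨a, ha, h1⟩ ⟨a', ha', h2⟩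
    exact hcol l hl a b c a' b' c' ha hb hc ha' hb' hc' h1 h2
  · rw [if_neg hRl]
    have : ((range N ×ˢ range N).filter fun q : ℕ × ℕ => ∃ a < N, Q l a q.1 q.2) = ∅ := by
      rw [Finset.filter_eq_empty_iff]
      rintro ⟨b, c⟩ hq ⟨a, ha, h1⟩
      simp only [mem_product, mem_range] at hq
      exact hRl (hR l hl a b c ha hq.1 hq.2 h1)
    rw [this]
    simp

open Classical in
/-- **local step** -/
lemma local_step {ι : Type*} (s : Fin 3 → Finset ι) (p e : ι → Fin 3 → ℝ) (w : ι → ℝ)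
    (hw : ∀ j, ∀ l ∈ s j, 0 ≤ w l) {N : ℕ} (hN : 1 ≤ N)
    (hax : ∀ j, ∀ l ∈ s j, Axial N j (e l)) {σ : ℝ} (hσ : 0 < σ) (K : Fin 3 → ℤ) :
    ∑ a ∈ range N, ∑ b ∈ range N, ∑ c ∈ range N,
      √(W (s 0) p e w σ (ch N K a b c)) * √(W (s 1) p e w σ (ch N K a b c)) *
        √(W (s 2) p e w σ (ch N K a b c)) ≤
      1331 * (√(W (s 0) p e w (σ * N) K) * √(W (s 1) p e w (σ * N) K) *
        √(W (s 2) p e w (σ * N) K)) := by
  -- child nearness predicate
  set Q : ι → ℕ → ℕ → ℕ → Prop := fun l a b c => Near (pt σ (ch N K a b c)) (p l) (e l) σ with hQ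
  set R : ι → Prop := fun l => Near (pt (σ * N) K) (p l) (e l) (σ * N) with hRdef
  have hR : ∀ l a b c, a < N → b < N → c < N → Q l a b c → R l := by
    intro l a b c ha hb hc h
    refine near_parent hσ.le (a := ![(a : ℤ), b, c]) ?_ ?_ h
    · intro i; fin_cases i <;> simp
    · intro i; fin_cases i <;> simp [ha, hb, hc]
  have hclose : ∀ j, ∀ l ∈ s j, ∀ a b c a' b' c', a < N → b < N → c < N → a' < N → b' < N →
      c' < N → Q l a b c → Q l a' b' c' → ∀ i, i ≠ j →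
      |(![(a : ℤ), b, c] i) - (![(a' : ℤ), b', c'] i)| ≤ 5 := by
    intro j l hl a b c a' b' c' ha hb hc ha' hb' hc' h1 h2 i hi
    have h3 := column hσ hN (hax j l hl) h1 h2 ?_ i hi
    · have : (ch N K a b c i) - (ch N K a' b' c' i) =
        (![(a : ℤ), b, c] i) - (![(a' : ℤ), b', c'] i) := by simp [ch]
      rwa [this] at h3
    · have : (ch N K a b c j) - (ch N K a' b' c' j) =
        (![(a : ℤ), b, c] j) - (![(a' : ℤ), b', c'] j) := by simp [ch]
      rw [this, abs_le]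
      fin_cases j <;> simp <;> omega
  -- the three column functions
  set g0 : ℕ → ℕ → ℝ := fun b c => ∑ l ∈ s 0, (if ∃ a < N, Q l a b c then w l else 0) with hg0
  set g1 : ℕ → ℕ → ℝ := fun a c => ∑ l ∈ s 1, (if ∃ b < N, Q l a b c then w l else 0) with hg1
  set g2 : ℕ → ℕ → ℝ := fun a b => ∑ l ∈ s 2, (if ∃ c < N, Q l a b c then w l else 0) with hg2
  have n0 : ∀ b c, 0 ≤ g0 b c := fun b c => Finset.sum_nonneg fun l hl => by
    split_ifs; exacts [hw 0 l hl, le_rfl]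
  have n1 : ∀ b c, 0 ≤ g1 b c := fun b c => Finset.sum_nonneg fun l hl => by
    split_ifs; exacts [hw 1 l hl, le_rfl]
  have n2 : ∀ b c, 0 ≤ g2 b c := fun b c => Finset.sum_nonneg fun l hl => by
    split_ifs; exacts [hw 2 l hl, le_rfl]
  have b0 : ∀ a b c, a < N → W (s 0) p e w σ (ch N K a b c) ≤ g0 b c := by
    intro a b c ha
    refine Finset.sum_le_sum fun l hl => ?_
    by_cases h : Q l a b c
    · rw [if_pos h, if_pos ⟨a, ha, h⟩]
    · rw [if_neg h]
      split_ifs; exacts [hw 0 l hl, le_rfl]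
  have b1 : ∀ a b c, b < N → W (s 1) p e w σ (ch N K a b c) ≤ g1 a c := by
    intro a b c ha
    refine Finset.sum_le_sum fun l hl => ?_
    by_cases h : Q l a b c
    · rw [if_pos h, if_pos ⟨b, ha, h⟩]
    · rw [if_neg h]
      split_ifs; exacts [hw 1 l hl, le_rfl]
  have b2 : ∀ a b c, c < N → W (s 2) p e w σ (ch N K a b c) ≤ g2 a b := by
    intro a b c ha
    refine Finset.sum_le_sum fun l hl => ?_
    by_cases h : Q l a b c
    · rw [if_pos h, if_pos ⟨c, ha, h⟩]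
    · rw [if_neg h]
      split_ifs; exacts [hw 2 l hl, le_rfl]
  have t0 : ∑ b ∈ range N, ∑ c ∈ range N, g0 b c ≤ 121 * W (s 0) p e w (σ * N) K := by
    refine col_sum (s 0) w (hw 0) N (fun l a b c => Q l a b c) R
      (fun l _ a b c ha hb hc h => hR l a b c ha hb hc h) ?_
    intro l hl a b c a' b' c' ha hb hc ha' hb' hc' h1 h2
    exact ⟨by simpa using hclose 0 l hl a b c a' b' c' ha hb hc ha' hb' hc' h1 h2 1 (by decide),
      by simpa using hclose 0 l hl a b c a' b' c' ha hb hc ha' hb' hc' h1 h2 2 (by decide)⟩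
  have t1 : ∑ a ∈ range N, ∑ c ∈ range N, g1 a c ≤ 121 * W (s 1) p e w (σ * N) K := by
    refine col_sum (s 1) w (hw 1) N (fun l b a c => Q l a b c) R
      (fun l _ b a c hb ha hc h => hR l a b c ha hb hc h) ?_
    intro l hl b a c b' a' c' hb ha hc hb' ha' hc' h1 h2
    exact ⟨by simpa using hclose 1 l hl a b c a' b' c' ha hb hc ha' hb' hc' h1 h2 0 (by decide),
      by simpa using hclose 1 l hl a b c a' b' c' ha hb hc ha' hb' hc' h1 h2 2 (by decide)⟩
  have t2 : ∑ a ∈ range N, ∑ b ∈ range N, g2 a b ≤ 121 * W (s 2) p e w (σ * N) K := by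
    refine col_sum (s 2) w (hw 2) N (fun l c a b => Q l a b c) R
      (fun l _ c a b hc ha hb h => hR l a b c ha hb hc h) ?_
    intro l hl c a b c' a' b' hc ha hb hc' ha' hb' h1 h2
    exact ⟨by simpa using hclose 2 l hl a b c a' b' c' ha hb hc ha' hb' hc' h1 h2 0 (by decide),
      by simpa using hclose 2 l hl a b c a' b' c' ha hb hc ha' hb' hc' h1 h2 1 (by decide)⟩
  calc ∑ a ∈ range N, ∑ b ∈ range N, ∑ c ∈ range N,
      √(W (s 0) p e w σ (ch N K a b c)) * √(W (s 1) p e w σ (ch N K a b c)) *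
        √(W (s 2) p e w σ (ch N K a b c))
      ≤ ∑ a ∈ range N, ∑ b ∈ range N, ∑ c ∈ range N, √(g0 b c) * √(g1 a c) * √(g2 a b) := by
        refine Finset.sum_le_sum fun a ha => Finset.sum_le_sum fun b hb =>
          Finset.sum_le_sum fun c hc => ?_
        rw [mem_range] at ha hb hc
        gcongr
        · exact b0 a b c ha
        · exact b1 a b c hb
        · exact b2 a b c hc
    _ ≤ √(∑ b ∈ range N, ∑ c ∈ range N, g0 b c) * √(∑ a ∈ range N, ∑ c ∈ range N, g1 a c) *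
          √(∑ a ∈ range N, ∑ b ∈ range N, g2 a b) := lw _ _ _ g0 g1 g2 n0 n1 n2
    _ ≤ √(121 * W (s 0) p e w (σ * N) K) * √(121 * W (s 1) p e w (σ * N) K) *
          √(121 * W (s 2) p e w (σ * N) K) := by gcongr
    _ = 1331 * (√(W (s 0) p e w (σ * N) K) * √(W (s 1) p e w (σ * N) K) *
        √(W (s 2) p e w (σ * N) K)) := by
        have h121 : √(121 : ℝ) = 11 := by
          rw [show (121 : ℝ) = 11 ^ 2 by norm_num]
          exact Real.sqrt_sq (by norm_num)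
        rw [Real.sqrt_mul (by norm_num), Real.sqrt_mul (by norm_num), Real.sqrt_mul (by norm_num),
          h121]
        ring

end Crest.Agent.R138.MK877
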