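import Crest.Agent.R138.MK1_877

/-!
# Trilinear Kakeya in R^3, part 2 (helper877): multi-scale induction and linear change of variables
-/

set_option autoImplicit false

namespace Crest.Agent.R138.MK877

open Finset

lemma sum_range_mul' (f : ℕ → ℝ) (M N : ℕ) :
    ∑ a ∈ range (M * N), f a = ∑ a1 ∈ range N, ∑ a0 ∈ range M, f (M * a1 + a0) := by
  induction N with
  | zero => simp
  | succ N ih =>
    rw [Nat.mul_succ, Finset.sum_range_add, ih, Finset.sum_range_succ]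

/-- **near-axis multilinear Kakeya**, discrete boxes. -/
theorem axial_box {ι : Type*} (s : Fin 3 → Finset ι) (p e : ι → Fin 3 → ℝ) (w : ι → ℝ)
    (hw : ∀ j, ∀ l ∈ s j, 0 ≤ w l) {N : ℕ} (hN : 1 ≤ N)
    (hax : ∀ j, ∀ l ∈ s j, Axial N j (e l)) {σ : ℝ} (hσ : 0 < σ) (m : ℕ) : ∀ K : Fin 3 → ℤ,
    ∑ a ∈ range (N ^ m), ∑ b ∈ range (N ^ m), ∑ c ∈ range (N ^ m),
      √(W (s 0) p e w σ (ch (N ^ m) K a b c)) * √(W (s 1) p e w σ (ch (N ^ m) K a b c)) *
        √(W (s 2) p e w σ (ch (N ^ m) K a b c)) ≤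
      1331 ^ m * (√(W (s 0) p e w (σ * N ^ m) K) * √(W (s 1) p e w (σ * N ^ m) K) *
        √(W (s 2) p e w (σ * N ^ m) K)) := by
  induction m with
  | zero =>
    intro K
    have : ch (N ^ 0) K 0 0 0 = K := by
      funext i
      simp only [ch]
      fin_cases i <;> simp
    simp only [pow_zero, Finset.range_one, Finset.sum_singleton, mul_one, one_mul]
    simp only [pow_zero] at this
    rw [this]
  | succ m ih =>
    intro K
    set F : (Fin 3 → ℤ) → ℝ := fun k => √(W (s 0) p e w σ k) * √(W (s 1) p e w σ k) *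
        √(W (s 2) p e w σ k) with hF
    have hch : ∀ a1 b1 c1 a0 b0 c0 : ℕ, ch (N ^ (m + 1)) K (N ^ m * a1 + a0) (N ^ m * b1 + b0)
        (N ^ m * c1 + c0) = ch (N ^ m) (ch N K a1 b1 c1) a0 b0 c0 := by
      intro a1 b1 c1 a0 b0 c0
      funext i
      simp only [ch]
      fin_cases i <;> simp <;> ring
    have e1 : ∑ a ∈ range (N ^ (m + 1)), ∑ b ∈ range (N ^ (m + 1)), ∑ c ∈ range (N ^ (m + 1)),
        F (ch (N ^ (m + 1)) K a b c) =
        ∑ a1 ∈ range N, ∑ b1 ∈ range N, ∑ c1 ∈ range N,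
          ∑ a0 ∈ range (N ^ m), ∑ b0 ∈ range (N ^ m), ∑ c0 ∈ range (N ^ m),
            F (ch (N ^ m) (ch N K a1 b1 c1) a0 b0 c0) := by
      have hp : range (N ^ (m + 1)) = range (N ^ m * N) := by rw [pow_succ]
      rw [hp, sum_range_mul' (fun a => ∑ b ∈ range (N ^ m * N), ∑ c ∈ range (N ^ m * N),
        F (ch (N ^ (m + 1)) K a b c))]
      refine Finset.sum_congr rfl fun a1 _ => ?_
      have e2 : ∀ a0, ∑ b ∈ range (N ^ m * N), ∑ c ∈ range (N ^ m * N),
          F (ch (N ^ (m + 1)) K (N ^ m * a1 + a0) b c) =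
          ∑ b1 ∈ range N, ∑ c1 ∈ range N, ∑ b0 ∈ range (N ^ m), ∑ c0 ∈ range (N ^ m),
            F (ch (N ^ m) (ch N K a1 b1 c1) a0 b0 c0) := by
        intro a0
        rw [sum_range_mul' (fun b => ∑ c ∈ range (N ^ m * N),
          F (ch (N ^ (m + 1)) K (N ^ m * a1 + a0) b c))]
        refine Finset.sum_congr rfl fun b1 _ => ?_
        refine Eq.trans ?_ Finset.sum_comm
        refine Finset.sum_congr rfl fun b0 _ => ?_
        rw [sum_range_mul' (fun c => F (ch (N ^ (m + 1)) K (N ^ m * a1 + a0) (N ^ m * b1 + b0) c))]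
        refine Finset.sum_congr rfl fun c1 _ => Finset.sum_congr rfl fun c0 _ => ?_
        rw [hch]
      rw [Finset.sum_congr rfl fun a0 _ => e2 a0]
      rw [Finset.sum_comm]
      refine Finset.sum_congr rfl fun b1 _ => ?_
      rw [Finset.sum_comm]
    rw [e1]
    calc ∑ a1 ∈ range N, ∑ b1 ∈ range N, ∑ c1 ∈ range N,
          ∑ a0 ∈ range (N ^ m), ∑ b0 ∈ range (N ^ m), ∑ c0 ∈ range (N ^ m),
            F (ch (N ^ m) (ch N K a1 b1 c1) a0 b0 c0)
        ≤ ∑ a1 ∈ range N, ∑ b1 ∈ range N, ∑ c1 ∈ range N,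
            1331 ^ m * (√(W (s 0) p e w (σ * N ^ m) (ch N K a1 b1 c1)) *
              √(W (s 1) p e w (σ * N ^ m) (ch N K a1 b1 c1)) *
              √(W (s 2) p e w (σ * N ^ m) (ch N K a1 b1 c1))) :=
          Finset.sum_le_sum fun a1 _ => Finset.sum_le_sum fun b1 _ =>
            Finset.sum_le_sum fun c1 _ => ih (ch N K a1 b1 c1)
      _ = 1331 ^ m * ∑ a1 ∈ range N, ∑ b1 ∈ range N, ∑ c1 ∈ range N,
            (√(W (s 0) p e w (σ * N ^ m) (ch N K a1 b1 c1)) *
              √(W (s 1) p e w (σ * N ^ m) (ch N K a1 b1 c1)) *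
              √(W (s 2) p e w (σ * N ^ m) (ch N K a1 b1 c1))) := by
          simp only [Finset.mul_sum]
      _ ≤ 1331 ^ m * (1331 * (√(W (s 0) p e w (σ * N ^ m * N) K) *
            √(W (s 1) p e w (σ * N ^ m * N) K) * √(W (s 2) p e w (σ * N ^ m * N) K))) := by
          refine mul_le_mul_of_nonneg_left ?_ (by positivity)
          refine local_step s p e w hw hN hax ?_ K
          have : (0 : ℝ) < N := by exact_mod_cast hN
          positivity
      _ = _ := by
          rw [show σ * (N : ℝ) ^ m * N = σ * N ^ (m + 1) by rw [pow_succ]; ring]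
          ring

/-- crude form: total weights on the right. -/
theorem axial_box' {ι : Type*} (s : Fin 3 → Finset ι) (p e : ι → Fin 3 → ℝ) (w : ι → ℝ)
    (hw : ∀ j, ∀ l ∈ s j, 0 ≤ w l) {N : ℕ} (hN : 1 ≤ N)
    (hax : ∀ j, ∀ l ∈ s j, Axial N j (e l)) {σ : ℝ} (hσ : 0 < σ) (m : ℕ) (K : Fin 3 → ℤ) :
    ∑ a ∈ range (N ^ m), ∑ b ∈ range (N ^ m), ∑ c ∈ range (N ^ m),
      √(W (s 0) p e w σ (ch (N ^ m) K a b c)) * √(W (s 1) p e w σ (ch (N ^ m) K a b c)) *
        √(W (s 2) p e w σ (ch (N ^ m) K a b c)) ≤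
      1331 ^ m * (√(∑ l ∈ s 0, w l) * √(∑ l ∈ s 1, w l) * √(∑ l ∈ s 2, w l)) := by
  refine (axial_box s p e w hw hN hax hσ m K).trans ?_
  gcongr
  · exact W_le _ _ _ _ (hw 0) _ _
  · exact W_le _ _ _ _ (hw 1) _ _
  · exact W_le _ _ _ _ (hw 2) _ _

/-- Sum over a finite set of integer points contained in a translated box. -/
theorem axial_finset {ι : Type*} (s : Fin 3 → Finset ι) (p e : ι → Fin 3 → ℝ) (w : ι → ℝ)
    (hw : ∀ j, ∀ l ∈ s j, 0 ≤ w l) {N : ℕ} (hN : 1 ≤ N)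
    (hax : ∀ j, ∀ l ∈ s j, Axial N j (e l)) {σ : ℝ} (hσ : 0 < σ) (m : ℕ)
    (q0 : ℤ) (X : Finset (Fin 3 → ℤ)) (hX : ∀ k ∈ X, ∀ i, q0 ≤ k i ∧ k i < q0 + (N ^ m : ℕ)) :
    ∑ k ∈ X, √(W (s 0) p e w σ k) * √(W (s 1) p e w σ k) * √(W (s 2) p e w σ k) ≤
      1331 ^ m * (√(∑ l ∈ s 0, w l) * √(∑ l ∈ s 1, w l) * √(∑ l ∈ s 2, w l)) := by
  classical
  -- translate the lines by `-σ q0`
  set p' : ι → Fin 3 → ℝ := fun l i => p l i - σ * q0 with hp'
  have hnear : ∀ k : Fin 3 → ℤ, ∀ l, Near (pt σ (fun i => k i - q0)) (p' l) (e l) σ ↔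
      Near (pt σ k) (p l) (e l) σ := by
    intro k l
    unfold Near
    refine exists_congr fun t => forall_congr' fun i => ?_
    simp only [pt, hp']
    push_cast
    have : σ * ((k i : ℝ) - q0) - (p l i - σ * q0) - t * e l i = σ * k i - p l i - t * e l i := by
      ring
    rw [this]
  have hW : ∀ j, ∀ k : Fin 3 → ℤ, W (s j) p' e w σ (fun i => k i - q0) = W (s j) p e w σ k := by
    intro j k
    unfold W
    refine Finset.sum_congr rfl fun l _ => ?_
    simp only [hnear k l]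
  have hbox := axial_box' s p' e w hw hN hax hσ m (fun _ => 0)
  refine le_trans ?_ hbox
  set F : (Fin 3 → ℤ) → ℝ := fun k => √(W (s 0) p' e w σ k) * √(W (s 1) p' e w σ k) *
        √(W (s 2) p' e w σ k) with hF
  have hFn : ∀ k, 0 ≤ F k := fun k => by positivity
  have e1 : ∑ k ∈ X, √(W (s 0) p e w σ k) * √(W (s 1) p e w σ k) * √(W (s 2) p e w σ k) =
      ∑ k ∈ X, F (fun i => k i - q0) := by
    refine Finset.sum_congr rfl fun k _ => ?_
    simp only [hF, hW]
  rw [e1]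
  -- the triple sum as a sum over the product
  have e2 : ∑ a ∈ range (N ^ m), ∑ b ∈ range (N ^ m), ∑ c ∈ range (N ^ m),
      F (ch (N ^ m) (fun _ => 0) a b c) =
      ∑ q ∈ range (N ^ m) ×ˢ (range (N ^ m) ×ˢ range (N ^ m)),
        F (ch (N ^ m) (fun _ => 0) q.1 q.2.1 q.2.2) := by
    rw [Finset.sum_product]
    refine Finset.sum_congr rfl fun a _ => ?_
    rw [Finset.sum_product]
  change _ ≤ ∑ a ∈ range (N ^ m), ∑ b ∈ range (N ^ m), ∑ c ∈ range (N ^ m),
      F (ch (N ^ m) (fun _ => 0) a b c)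
  rw [e2]
  -- inject X
  have hinj : Set.InjOn (fun k : Fin 3 → ℤ => ((k 0 - q0).toNat, ((k 1 - q0).toNat,
      (k 2 - q0).toNat))) (X : Set (Fin 3 → ℤ)) := by
    intro k hk k' hk' h
    simp only [Prod.mk.injEq] at h
    have a0 := hX k hk; have a1 := hX k' hk'
    funext i
    fin_cases i
    · have := (a0 0).1; have := (a1 0).1; have := h.1; simp only [Fin.zero_eta]; omega
    · have := (a0 1).1; have := (a1 1).1; have := h.2.1; simp only [Fin.mk_one]; omega
    · have := (a0 2).1; have := (a1 2).1; have := h.2.2; simp only [Fin.reduceFinMk]; omega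
  have e3 : ∑ k ∈ X, F (fun i => k i - q0) =
      ∑ q ∈ X.image (fun k : Fin 3 → ℤ => ((k 0 - q0).toNat, ((k 1 - q0).toNat,
      (k 2 - q0).toNat))), F (ch (N ^ m) (fun _ => 0) q.1 q.2.1 q.2.2) := by
    rw [Finset.sum_image hinj]
    refine Finset.sum_congr rfl fun k hk => ?_
    congr 1
    funext i
    have a0 := hX k hk
    have h0 := (a0 0).1; have h1 := (a0 1).1; have h2 := (a0 2).1
    simp only [ch, mul_zero, zero_add]
    fin_cases i <;> simp <;> omega
  rw [e3]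
  refine Finset.sum_le_sum_of_subset_of_nonneg ?_ (fun q _ _ => hFn _)
  intro q hq
  simp only [Finset.mem_image] at hq
  obtain ⟨k, hk, rfl⟩ := hq
  have a0 := hX k hk
  have h0 := (a0 0); have h1 := (a0 1); have h2 := (a0 2)
  simp only [Finset.mem_product, Finset.mem_range]
  refine ⟨?_, ?_, ?_⟩ <;> omega

end Crest.Agent.R138.MK877
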