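import Crest.Agent.R138.MK2_877

/-!
# Trilinear Kakeya in R^3, part 3 (helper877): one triple of caps (linear change of variables)
-/

set_option autoImplicit false

namespace Crest.Agent.R138.MK877

open Finset Matrix

open Classical in
/-- total weight of the lines passing within `r` of the real point `x` -/
noncomputable def Wr {ι : Type*} (s : Finset ι) (p e : ι → Fin 3 → ℝ) (w : ι → ℝ) (r : ℝ)
    (x : Fin 3 → ℝ) : ℝ :=
  ∑ l ∈ s, if Near x (p l) (e l) r then w l else 0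

lemma Wr_nonneg {ι : Type*} (s : Finset ι) (p e : ι → Fin 3 → ℝ) (w : ι → ℝ)
    (hw : ∀ l ∈ s, 0 ≤ w l) (r : ℝ) (x : Fin 3 → ℝ) : 0 ≤ Wr s p e w r x := by
  classical
  refine Finset.sum_nonneg fun l hl => ?_
  split_ifs
  · exact hw l hl
  · exact le_rfl

lemma W_eq_Wr {ι : Type*} (s : Finset ι) (p e : ι → Fin 3 → ℝ) (w : ι → ℝ) (σ : ℝ)
    (k : Fin 3 → ℤ) : W s p e w σ k = Wr s p e w σ (pt σ k) := rfl

lemma Wr_le_of_near {ι : Type*} (s : Finset ι) (p e p' e' : ι → Fin 3 → ℝ) (w : ι → ℝ)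
    (hw : ∀ l ∈ s, 0 ≤ w l) (r r' : ℝ) (x x' : Fin 3 → ℝ)
    (h : ∀ l ∈ s, Near x (p l) (e l) r → Near x' (p' l) (e' l) r') :
    Wr s p e w r x ≤ Wr s p' e' w r' x' := by
  classical
  refine Finset.sum_le_sum fun l hl => ?_
  by_cases h1 : Near x (p l) (e l) r
  · rw [if_pos h1, if_pos (h l hl h1)]
  · rw [if_neg h1]
    split_ifs
    · exact hw l hl
    · exact le_rfl

lemma inv_entry {B : Matrix (Fin 3) (Fin 3) ℝ} {ν : ℝ} (hν : 0 < ν) (hB : ∀ i j, |B i j| ≤ 1)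
    (hdet : ν ≤ |B.det|) (i j : Fin 3) : |B⁻¹ i j| ≤ 2 / ν := by
  have hd : 0 < |B.det| := lt_of_lt_of_le hν hdet
  have h0 : B⁻¹ = (B.det)⁻¹ • B.adjugate := by
    rw [Matrix.inv_def, Ring.inverse_eq_inv']
  have hm : ∀ a b c d : Fin 3, |B a b * B c d| ≤ 1 := fun a b c d => by
    rw [abs_mul]
    exact mul_le_one₀ (hB a b) (abs_nonneg _) (hB c d)
  have key : |B.adjugate i j| ≤ 2 := by
    rw [Matrix.adjugate_fin_three]
    have h1 : ∀ x y : ℝ, |x| ≤ 1 → |y| ≤ 1 → |x - y| ≤ 2 := fun x y hx hy => by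
      have := abs_sub x y; linarith
    have h2 : ∀ x y : ℝ, |x| ≤ 1 → |y| ≤ 1 → |-x + y| ≤ 2 := fun x y hx hy => by
      have := abs_add_le (-x) y; rw [abs_neg] at this; linarith
    fin_cases i <;> fin_cases j <;> simp only [Matrix.of_apply, Matrix.cons_val', Matrix.cons_val_zero,
      Matrix.cons_val_one, Matrix.cons_val, Fin.zero_eta, Fin.mk_one, Fin.reduceFinMk,
      Fin.isValue, Matrix.cons_val_fin_one, Matrix.empty_val'] <;>
      first
        | exact h1 _ _ (hm _ _ _ _) (hm _ _ _ _)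
        | exact h2 _ _ (hm _ _ _ _) (hm _ _ _ _)
  rw [h0, Matrix.smul_apply, smul_eq_mul, abs_mul, abs_inv]
  rw [div_eq_mul_inv, mul_comm]
  refine mul_le_mul key ?_ (by positivity) (by norm_num)
  exact inv_anti₀ hν hdet

lemma mulVec_bound {A : Matrix (Fin 3) (Fin 3) ℝ} {a : ℝ} (hA : ∀ i j, |A i j| ≤ a)
    {v : Fin 3 → ℝ} {d : ℝ} (hv : ∀ i, |v i| ≤ d) (i : Fin 3) : |(A *ᵥ v) i| ≤ 3 * a * d := by
  have hd : 0 ≤ d := (abs_nonneg _).trans (hv 0)
  have ha : 0 ≤ a := (abs_nonneg _).trans (hA 0 0)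
  simp only [Matrix.mulVec, dotProduct, Fin.sum_univ_three]
  have h : ∀ j, |A i j * v j| ≤ a * d := fun j => by
    rw [abs_mul]; exact mul_le_mul (hA i j) (hv j) (abs_nonneg _) ha
  have h1 := abs_add_le (A i 0 * v 0 + A i 1 * v 1) (A i 2 * v 2)
  have h2 := abs_add_le (A i 0 * v 0) (A i 1 * v 1)
  have := h 0; have := h 1; have := h 2
  linarith

/-- One triple of small caps. `X` is a finite set of integer points in the box `|k| ≤ R`. -/
theorem cap_triple {ι : Type*} (s : Fin 3 → Finset ι) (p e : ι → Fin 3 → ℝ) (w : ι → ℝ)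
    (hw : ∀ j, ∀ l ∈ s j, 0 ≤ w l) {N : ℕ} (hN : 1 ≤ N) {ν r R : ℝ} (hν : 0 < ν) (hν1 : ν ≤ 1)
    (hr : 1 ≤ r) (hR : 0 ≤ R) (e0 : Fin 3 → Fin 3 → ℝ) (he0 : ∀ j i, |e0 j i| ≤ 1)
    (hdet : ν ≤ |(Matrix.of fun i j => e0 j i).det|)
    (hcap : ∀ j, ∀ l ∈ s j, ∀ i, |e l i - e0 j i| ≤ ν / (12 * N))
    (m : ℕ) (hm : R + 6 ≤ (N : ℝ) ^ m) (X : Finset (Fin 3 → ℤ))
    (hX : ∀ k ∈ X, ∀ i, |(k i : ℝ)| ≤ R) :
    ∑ k ∈ X, √(Wr (s 0) p e w r (pt 1 k)) * √(Wr (s 1) p e w r (pt 1 k)) *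
      √(Wr (s 2) p e w r (pt 1 k)) ≤
      343 * (12 * r / ν) ^ 3 * (1331 ^ m *
        (√(∑ l ∈ s 0, w l) * √(∑ l ∈ s 1, w l) * √(∑ l ∈ s 2, w l))) := by
  classical
  set B : Matrix (Fin 3) (Fin 3) ℝ := Matrix.of fun i j => e0 j i with hBdef
  have hB : ∀ i j, |B i j| ≤ 1 := fun i j => he0 j i
  set A : Matrix (Fin 3) (Fin 3) ℝ := B⁻¹ with hA
  have hAe : ∀ i j, |A i j| ≤ 2 / ν := inv_entry hν hB hdet
  have hunit : IsUnit B.det := by
    rw [isUnit_iff_ne_zero]
    intro h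
    rw [h, abs_zero] at hdet
    linarith
  have hAB : A * B = 1 := Matrix.nonsing_inv_mul B hunit
  have hBA : B * A = 1 := Matrix.mul_nonsing_inv B hunit
  have hNR : (1 : ℝ) ≤ N := by exact_mod_cast hN
  have hNpos : (0 : ℝ) < N := by linarith
  -- image of the cap centres
  have hAe0 : ∀ j i, (A *ᵥ (e0 j)) i = if i = j then 1 else 0 := by
    intro j i
    have h1 : e0 j = B *ᵥ (Pi.single j 1) := by
      funext i
      rw [Matrix.mulVec_single_one]
      rfl
    rw [h1, Matrix.mulVec_mulVec, hAB, Matrix.one_mulVec, Pi.single_apply]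
  have hAel : ∀ j, ∀ l ∈ s j, ∀ i, |(A *ᵥ (e l)) i - (if i = j then 1 else 0)| ≤ 1 / (2 * N) := by
    intro j l hl i
    rw [← hAe0 j i]
    have : (A *ᵥ (e l)) i - (A *ᵥ (e0 j)) i = (A *ᵥ (e l - e0 j)) i := by
      rw [Matrix.mulVec_sub]; rfl
    rw [this]
    refine (mulVec_bound hAe (v := e l - e0 j) (d := ν / (12 * N)) (fun i => hcap j l hl i) i).trans ?_
    refine le_of_eq ?_
    field_simp
    norm_num
  have h2N : 1 / (2 * (N : ℝ)) ≤ 1 / 2 := by
    apply one_div_le_one_div_of_le (by norm_num)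
    linarith
  -- diagonal entry
  have hdiag : ∀ j, ∀ l ∈ s j, 1 / 2 ≤ (A *ᵥ (e l)) j := by
    intro j l hl
    have := hAel j l hl j
    rw [if_pos rfl, abs_le] at this
    linarith
  set σ : ℝ := 12 * r / ν with hσ
  have hσpos : 0 < σ := by positivity
  have hσ12 : 12 ≤ σ := by
    rw [hσ, le_div_iff₀ hν]
    nlinarith
  -- the new families are indexed by `ι`; the family of `l` is needed for normalisation:
  -- we use the product index type `Fin 3 × ι`.
  set p' : Fin 3 × ι → Fin 3 → ℝ := fun l => A *ᵥ (p l.2) with hp'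
  set e' : Fin 3 × ι → Fin 3 → ℝ := fun l i => (A *ᵥ (e l.2)) i / (A *ᵥ (e l.2)) l.1 with he'
  set w' : Fin 3 × ι → ℝ := fun l => w l.2 with hw'
  set s' : Fin 3 → Finset (Fin 3 × ι) := fun j => (s j).map ⟨fun l => (j, l), fun a b h => by
    simpa using h⟩ with hs'
  have hmem : ∀ j, ∀ l ∈ s' j, l.1 = j ∧ l.2 ∈ s j := by
    intro j l hl
    simp only [hs', Finset.mem_map] at hl
    obtain ⟨a, ha, rfl⟩ := hl
    exact ⟨rfl, ha⟩
  have hw'n : ∀ j, ∀ l ∈ s' j, 0 ≤ w' l := fun j l hl => hw j l.2 (hmem j l hl).2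
  have hax : ∀ j, ∀ l ∈ s' j, Axial N j (e' l) := by
    intro j l hl
    obtain ⟨h1, h2⟩ := hmem j l hl
    have hd := hdiag j l.2 h2
    constructor
    · simp only [he', h1]
      exact div_self (by linarith)
    · intro i hi
      simp only [he', h1]
      have h3 := hAel j l.2 h2 i
      rw [if_neg hi, sub_zero] at h3
      rw [abs_div, abs_of_pos (by linarith : 0 < (A *ᵥ e l.2) j), div_le_iff₀ (by linarith)]
      refine h3.trans ?_
      rw [one_div, one_div, mul_inv, mul_comm]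
      refine mul_le_mul_of_nonneg_left (by linarith) (by positivity)
  -- snapping
  set q : (Fin 3 → ℤ) → (Fin 3 → ℤ) := fun k i => round ((A *ᵥ (pt 1 k)) i / σ) with hq
  have hsnap : ∀ k i, |σ * (q k i : ℝ) - (A *ᵥ (pt 1 k)) i| ≤ σ / 2 := by
    intro k i
    have h1 := abs_sub_round ((A *ᵥ (pt 1 k)) i / σ)
    have h2 : σ * (q k i : ℝ) - (A *ᵥ (pt 1 k)) i =
        -(σ * ((A *ᵥ (pt 1 k)) i / σ - (round ((A *ᵥ (pt 1 k)) i / σ) : ℤ))) := by
      simp only [hq]
      field_simp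
      ring
    rw [h2, abs_neg, abs_mul, abs_of_pos hσpos]
    calc σ * |(A *ᵥ (pt 1 k)) i / σ - (round ((A *ᵥ (pt 1 k)) i / σ) : ℤ)| ≤ σ * (1 / 2) :=
          mul_le_mul_of_nonneg_left h1 hσpos.le
      _ = σ / 2 := by ring
  have hnear : ∀ j, ∀ k : Fin 3 → ℤ, Wr (s j) p e w r (pt 1 k) ≤ W (s' j) p' e' w' σ (q k) := by
    intro j k
    have h1 : W (s' j) p' e' w' σ (q k) =
        Wr (s j) (fun l => p' (j, l)) (fun l => e' (j, l)) w σ (pt σ (q k)) := by
      rw [W_eq_Wr]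
      unfold Wr
      simp only [hs', Finset.sum_map]
      rfl
    rw [h1]
    refine Wr_le_of_near _ _ _ _ _ _ (hw j) _ _ _ _ ?_
    rintro l hl ⟨t, ht⟩
    have hd := hdiag j l hl
    refine ⟨t * (A *ᵥ (e l)) j, fun i => ?_⟩
    simp only [pt, hp', he']
    have e1 : t * (A *ᵥ (e l)) j * ((A *ᵥ (e l)) i / (A *ᵥ (e l)) j) = t * (A *ᵥ (e l)) i := by
      have : (A *ᵥ (e l)) j ≠ 0 := by linarith
      field_simp
    rw [e1]
    have e2 : σ * (q k i : ℝ) - (A *ᵥ p l) i - t * (A *ᵥ e l) i =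
        (σ * (q k i : ℝ) - (A *ᵥ (pt 1 k)) i) + (A *ᵥ (pt 1 k - p l - t • e l)) i := by
      rw [Matrix.mulVec_sub, Matrix.mulVec_sub, Matrix.mulVec_smul]
      simp only [Pi.sub_apply, Pi.smul_apply, smul_eq_mul]
      ring
    rw [e2]
    refine (abs_add_le _ _).trans ?_
    have h3 := hsnap k i
    have h4 := mulVec_bound hAe (v := pt 1 k - p l - t • e l) (d := r) (fun i => by
      simpa using ht i) i
    have h5 : 3 * (2 / ν) * r = σ / 2 := by
      rw [hσ]; ring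
    rw [h5] at h4
    linarith
  -- range of the snapped points
  set q0 : ℤ := -(⌈R / (2 * r) + 1 / 2⌉) with hq0
  have hqrange : ∀ k ∈ X, ∀ i, q0 ≤ q k i ∧ q k i < q0 + ((N ^ m : ℕ) : ℤ) := by
    intro k hk i
    have h1 := mulVec_bound hAe (v := pt 1 k) (d := R) (fun i => by
      simpa [pt] using hX k hk i) i
    have h2 : |(A *ᵥ (pt 1 k)) i / σ| ≤ R / (2 * r) := by
      rw [abs_div, abs_of_pos hσpos, div_le_iff₀ hσpos]
      refine h1.trans (le_of_eq ?_)
      rw [hσ]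
      field_simp
      ring
    have h3 := abs_sub_round ((A *ᵥ (pt 1 k)) i / σ)
    have h4 : |(q k i : ℝ)| ≤ R / (2 * r) + 1 / 2 := by
      have : (q k i : ℝ) = (A *ᵥ (pt 1 k)) i / σ -
          ((A *ᵥ (pt 1 k)) i / σ - (round ((A *ᵥ (pt 1 k)) i / σ) : ℤ)) := by
        simp only [hq]; ring
      rw [this]
      have := abs_sub ((A *ᵥ (pt 1 k)) i / σ)
        ((A *ᵥ (pt 1 k)) i / σ - (round ((A *ᵥ (pt 1 k)) i / σ) : ℤ))
      linarith
    rw [abs_le] at h4
    have h5 := Int.le_ceil (R / (2 * r) + 1 / 2)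
    have h6 := Int.ceil_lt_add_one (R / (2 * r) + 1 / 2)
    constructor
    · have : (q0 : ℝ) ≤ q k i := by
        rw [hq0]; push_cast; linarith
      exact_mod_cast this
    · have h7 : R / (2 * r) ≤ R / 2 := by
        apply div_le_div_of_nonneg_left hR (by norm_num) (by linarith)
      have : (q k i : ℝ) < q0 + ((N ^ m : ℕ) : ℤ) := by
        rw [hq0]
        push_cast
        linarith
      exact_mod_cast this
  -- fibers
  have hfib : ∀ b ∈ X.image q, ((X.filter fun k => q k = b).card : ℝ) ≤ 343 * σ ^ 3 := by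
    intro b hb
    rw [Finset.mem_image] at hb
    obtain ⟨k0, hk0, hk0b⟩ := hb
    set n : ℕ := ⌊3 * σ⌋₊ with hn
    have hsub : (X.filter fun k => q k = b) ⊆
        Fintype.piFinset (fun i => Finset.Icc (k0 i - n) (k0 i + n)) := by
      intro k hk
      rw [Finset.mem_filter] at hk
      rw [Fintype.mem_piFinset]
      intro i
      rw [Finset.mem_Icc]
      have h1 : ∀ i, |(A *ᵥ (pt 1 k - pt 1 k0)) i| ≤ σ := by
        intro i
        rw [Matrix.mulVec_sub]
        have h2 := hsnap k i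
        have h3 := hsnap k0 i
        rw [hk.2] at h2
        rw [hk0b] at h3
        have : (A *ᵥ pt 1 k - A *ᵥ pt 1 k0) i =
            -(σ * (b i : ℝ) - (A *ᵥ (pt 1 k)) i) + (σ * (b i : ℝ) - (A *ᵥ (pt 1 k0)) i) := by
          simp only [Pi.sub_apply]; ring
        rw [this]
        have h4 := abs_add_le (-(σ * (b i : ℝ) - (A *ᵥ (pt 1 k)) i))
          (σ * (b i : ℝ) - (A *ᵥ (pt 1 k0)) i)
        rw [abs_neg] at h4
        linarith
      have h2 : pt 1 k - pt 1 k0 = B *ᵥ (A *ᵥ (pt 1 k - pt 1 k0)) := by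
        rw [Matrix.mulVec_mulVec, hBA, Matrix.one_mulVec]
      have h3 := mulVec_bound hB (v := A *ᵥ (pt 1 k - pt 1 k0)) (d := σ) h1 i
      rw [← h2] at h3
      simp only [pt, Pi.sub_apply, one_mul, mul_one] at h3
      have h4 : |k i - k0 i| ≤ (n : ℤ) := by
        have h5 : ((|k i - k0 i| : ℤ) : ℝ) ≤ 3 * σ := by
          push_cast; exact h3
        have h6 : |k i - k0 i| ≤ ⌊3 * σ⌋ := Int.le_floor.mpr h5
        have h7 : ((n : ℕ) : ℤ) = ⌊3 * σ⌋ := by
          rw [hn]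
          exact Int.natCast_floor_eq_floor (by positivity)
        rw [h7]; exact h6
      rw [abs_le] at h4
      omega
    have h1 := Finset.card_le_card hsub
    rw [Fintype.card_piFinset] at h1
    have h2 : ∀ i, (Finset.Icc (k0 i - n) (k0 i + (n : ℤ))).card = 2 * n + 1 := by
      intro i
      rw [Int.card_Icc]
      omega
    simp only [h2, Finset.prod_const, Finset.card_univ, Fintype.card_fin] at h1
    have h3 : (n : ℝ) ≤ 3 * σ := Nat.floor_le (by positivity)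
    calc ((X.filter fun k => q k = b).card : ℝ) ≤ (((2 * n + 1) ^ 3 : ℕ) : ℝ) := by exact_mod_cast h1
      _ = (2 * (n : ℝ) + 1) ^ 3 := by push_cast; ring
      _ ≤ (7 * σ) ^ 3 := by
          apply pow_le_pow_left₀ (by positivity)
          linarith
      _ = 343 * σ ^ 3 := by ring
  set F : (Fin 3 → ℤ) → ℝ := fun k => √(W (s' 0) p' e' w' σ k) * √(W (s' 1) p' e' w' σ k) *
        √(W (s' 2) p' e' w' σ k) with hF
  have hFn : ∀ k, 0 ≤ F k := fun k => by positivity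
  calc ∑ k ∈ X, √(Wr (s 0) p e w r (pt 1 k)) * √(Wr (s 1) p e w r (pt 1 k)) *
      √(Wr (s 2) p e w r (pt 1 k)) ≤ ∑ k ∈ X, F (q k) := by
        refine Finset.sum_le_sum fun k _ => ?_
        simp only [hF]
        gcongr
        · exact hnear 0 k
        · exact hnear 1 k
        · exact hnear 2 k
    _ = ∑ b ∈ X.image q, ((X.filter fun k => q k = b).card : ℝ) * F b := by
        rw [Finset.sum_comp]
        refine Finset.sum_congr rfl fun b _ => ?_
        rw [nsmul_eq_mul]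
    _ ≤ ∑ b ∈ X.image q, 343 * σ ^ 3 * F b := by
        refine Finset.sum_le_sum fun b hb => ?_
        exact mul_le_mul_of_nonneg_right (hfib b hb) (hFn b)
    _ = 343 * σ ^ 3 * ∑ b ∈ X.image q, F b := by rw [Finset.mul_sum]
    _ ≤ 343 * σ ^ 3 * (1331 ^ m * (√(∑ l ∈ s' 0, w' l) * √(∑ l ∈ s' 1, w' l) *
          √(∑ l ∈ s' 2, w' l))) := by
        refine mul_le_mul_of_nonneg_left ?_ (by positivity)
        refine axial_finset s' p' e' w' hw'n hN hax hσpos m q0 (X.image q) ?_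
        intro b hb i
        rw [Finset.mem_image] at hb
        obtain ⟨k, hk, rfl⟩ := hb
        exact hqrange k hk i
    _ = _ := by
        have : ∀ j, ∑ l ∈ s' j, w' l = ∑ l ∈ s j, w l := by
          intro j
          simp only [hs', Finset.sum_map, hw']
          rfl
        rw [this, this, this]

end Crest.Agent.R138.MK877
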