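import Crest.Agent.R138.MK3_877

/-!
# Trilinear Kakeya in R^3, part 4 (helper877): general transversal families, epsilon loss
-/

set_option autoImplicit false

namespace Crest.Agent.R138.MK877

open Finset Matrix

lemma sqrt_add_le' {x y : ℝ} (hx : 0 ≤ x) (hy : 0 ≤ y) : √(x + y) ≤ √x + √y := by
  rw [Real.sqrt_le_left (by positivity)]
  nlinarith [Real.sq_sqrt hx, Real.sq_sqrt hy, Real.sqrt_nonneg x, Real.sqrt_nonneg y,
    mul_nonneg (Real.sqrt_nonneg x) (Real.sqrt_nonneg y)]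

lemma sqrt_sum_le {α : Type*} (s : Finset α) (f : α → ℝ) (hf : ∀ a ∈ s, 0 ≤ f a) :
    √(∑ a ∈ s, f a) ≤ ∑ a ∈ s, √(f a) := by
  classical
  induction s using Finset.induction_on with
  | empty => simp
  | insert a s ha ih =>
    rw [Finset.sum_insert ha, Finset.sum_insert ha]
    refine (sqrt_add_le' (hf a (Finset.mem_insert_self a s)) (Finset.sum_nonneg fun b hb =>
      hf b (Finset.mem_insert_of_mem hb))).trans ?_
    have := ih (fun b hb => hf b (Finset.mem_insert_of_mem hb))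
    linarith

lemma sum_sqrt_le {α : Type*} (s : Finset α) (f : α → ℝ) (hf : ∀ a, 0 ≤ f a) :
    ∑ a ∈ s, √(f a) ≤ √(s.card : ℝ) * √(∑ a ∈ s, f a) := by
  have := Real.sum_sqrt_mul_sqrt_le s (f := fun _ => (1 : ℝ)) (g := f) (fun _ => by norm_num) hf
  simpa using this

/-- cap index -/
noncomputable def cix (η : ℝ) (v : Fin 3 → ℝ) : Fin 3 → ℤ := fun i => ⌊v i / η⌋

lemma cix_close {η : ℝ} (hη : 0 < η) {v v' : Fin 3 → ℝ} (h : cix η v = cix η v') (i : Fin 3) :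
    |v i - v' i| ≤ η := by
  have h1 := congrFun h i
  simp only [cix] at h1
  have h2 := Int.abs_sub_lt_one_of_floor_eq_floor h1
  have h3 : v i - v' i = η * (v i / η - v' i / η) := by field_simp
  rw [h3, abs_mul, abs_of_pos hη]
  nlinarith

lemma cix_card {α : Type*} (s : Finset α) (v : α → Fin 3 → ℝ) {η : ℝ} (hη : 0 < η)
    (hη1 : η ≤ 1) (hv : ∀ a ∈ s, ∀ i, |v a i| ≤ 1) :
    (((s.image fun a => cix η (v a)).card : ℕ) : ℝ) ≤ (5 / η) ^ 3 := by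
  classical
  set n : ℕ := ⌈1 / η⌉₊ with hn
  have hsub : (s.image fun a => cix η (v a)) ⊆
      Fintype.piFinset (fun _ : Fin 3 => Finset.Icc (-(n : ℤ)) n) := by
    intro k hk
    rw [Finset.mem_image] at hk
    obtain ⟨a, ha, rfl⟩ := hk
    rw [Fintype.mem_piFinset]
    intro i
    rw [Finset.mem_Icc]
    have h1 := hv a ha i
    rw [abs_le] at h1
    have h2 : 1 / η ≤ n := Nat.le_ceil _
    simp only [cix]
    constructor
    · rw [Int.le_floor]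
      push_cast
      have : -(1 / η) ≤ v a i / η := by
        rw [le_div_iff₀ hη]
        have : -(1 / η) * η = -1 := by field_simp
        linarith
      linarith
    · have : (⌊v a i / η⌋ : ℝ) ≤ n := by
        refine (Int.floor_le _).trans ?_
        refine le_trans ?_ h2
        exact div_le_div_of_nonneg_right h1.2 hη.le
      exact_mod_cast this
  have h1 := Finset.card_le_card hsub
  rw [Fintype.card_piFinset] at h1
  have h2 : (Finset.Icc (-(n : ℤ)) n).card = 2 * n + 1 := by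
    rw [Int.card_Icc]; omega
  simp only [h2, Finset.prod_const, Finset.card_univ, Fintype.card_fin] at h1
  have h3 : (n : ℝ) ≤ 1 / η + 1 := (Nat.ceil_lt_add_one (by positivity)).le
  have h4 : 1 ≤ 1 / η := by
    rw [le_div_iff₀ hη]; linarith
  calc (((s.image fun a => cix η (v a)).card : ℕ) : ℝ) ≤ (((2 * n + 1) ^ 3 : ℕ) : ℝ) := by
        exact_mod_cast h1
    _ = (2 * (n : ℝ) + 1) ^ 3 := by push_cast; ring
    _ ≤ (5 / η) ^ 3 := by
        apply pow_le_pow_left₀ (by positivity)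
        have : 5 / η = 5 * (1 / η) := by ring
        rw [this]
        linarith

/-- decomposition of the weight function along caps -/
lemma Wr_caps {ι : Type*} [DecidableEq ι] (s : Finset ι) (p e : ι → Fin 3 → ℝ) (w : ι → ℝ)
    (r : ℝ) (x : Fin 3 → ℝ) (η : ℝ) :
    Wr s p e w r x = ∑ τ ∈ s.image (fun a => cix η (e a)),
      Wr (s.filter fun a => cix η (e a) = τ) p e w r x := by
  classical
  unfold Wr
  exact (Finset.sum_fiberwise_of_maps_to (fun a ha => Finset.mem_image_of_mem _ ha) _).symm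

/-- **Trilinear Kakeya, explicit form.** -/
theorem trilinear_explicit {ι : Type*} (s : Fin 3 → Finset ι) (p e : ι → Fin 3 → ℝ) (w : ι → ℝ)
    (hw : ∀ j, ∀ l ∈ s j, 0 ≤ w l) {N : ℕ} (hN : 1 ≤ N) {ν r R : ℝ} (hν : 0 < ν) (hν1 : ν ≤ 1)
    (hr : 1 ≤ r) (hR : 0 ≤ R) (he : ∀ j, ∀ l ∈ s j, ∀ i, |e l i| ≤ 1)
    (hdet : ∀ l0 ∈ s 0, ∀ l1 ∈ s 1, ∀ l2 ∈ s 2,
      ν ≤ |(Matrix.of fun i j => (![e l0, e l1, e l2] : Fin 3 → Fin 3 → ℝ) j i).det|)
    (m : ℕ) (hm : R + 6 ≤ (N : ℝ) ^ m) (X : Finset (Fin 3 → ℤ))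
    (hX : ∀ k ∈ X, ∀ i, |(k i : ℝ)| ≤ R) :
    ∑ k ∈ X, √(Wr (s 0) p e w r (pt 1 k)) * √(Wr (s 1) p e w r (pt 1 k)) *
      √(Wr (s 2) p e w r (pt 1 k)) ≤
      (343 * (12 * r / ν) ^ 3 * 1331 ^ m * (√((60 * N / ν) ^ 3)) ^ 3) *
        (√(∑ l ∈ s 0, w l) * √(∑ l ∈ s 1, w l) * √(∑ l ∈ s 2, w l)) := by
  classical
  have hNR : (1 : ℝ) ≤ N := by exact_mod_cast hN
  set η : ℝ := ν / (12 * N) with hη
  have hηpos : 0 < η := by positivity
  have hη1 : η ≤ 1 := by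
    rw [hη, div_le_one (by positivity)]
    linarith
  set I : Fin 3 → Finset (Fin 3 → ℤ) := fun j => (s j).image (fun a => cix η (e a)) with hI
  set S : Fin 3 → (Fin 3 → ℤ) → Finset ι := fun j τ => (s j).filter fun a => cix η (e a) = τ
    with hS
  set C0 : ℝ := 343 * (12 * r / ν) ^ 3 * 1331 ^ m with hC0
  have hC0n : 0 ≤ C0 := by positivity
  have hwS : ∀ j τ, ∀ l ∈ S j τ, 0 ≤ w l := fun j τ l hl => hw j l (Finset.mem_filter.mp hl).1
  -- one triple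
  have htriple : ∀ τ0 ∈ I 0, ∀ τ1 ∈ I 1, ∀ τ2 ∈ I 2,
      ∑ k ∈ X, √(Wr (S 0 τ0) p e w r (pt 1 k)) * √(Wr (S 1 τ1) p e w r (pt 1 k)) *
        √(Wr (S 2 τ2) p e w r (pt 1 k)) ≤
      C0 * (√(∑ l ∈ S 0 τ0, w l) * √(∑ l ∈ S 1 τ1, w l) * √(∑ l ∈ S 2 τ2, w l)) := by
    intro τ0 h0 τ1 h1 τ2 h2
    simp only [hI, Finset.mem_image] at h0 h1 h2
    obtain ⟨l0, hl0, hτ0⟩ := h0
    obtain ⟨l1, hl1, hτ1⟩ := h1
    obtain ⟨l2, hl2, hτ2⟩ := h2
    have key := cap_triple (fun j => S j (![τ0, τ1, τ2] j)) p e w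
      (fun j l hl => hwS j _ l hl) hN hν hν1 hr hR
      (![e l0, e l1, e l2]) ?_ (hdet l0 hl0 l1 hl1 l2 hl2) ?_ m hm X hX
    · refine key.trans (le_of_eq ?_)
      simp only [hC0, Matrix.cons_val_zero, Matrix.cons_val_one, Matrix.cons_val]
      ring
    · intro j i
      fin_cases j
      · exact he 0 l0 hl0 i
      · exact he 1 l1 hl1 i
      · exact he 2 l2 hl2 i
    · intro j l hl i
      have hl2' := (Finset.mem_filter.mp hl).2
      refine cix_close hηpos ?_ i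
      rw [hl2']
      fin_cases j
      · exact hτ0.symm
      · exact hτ1.symm
      · exact hτ2.symm
  -- pointwise decomposition
  have hpt : ∀ k : Fin 3 → ℤ, √(Wr (s 0) p e w r (pt 1 k)) * √(Wr (s 1) p e w r (pt 1 k)) *
      √(Wr (s 2) p e w r (pt 1 k)) ≤
      ∑ τ0 ∈ I 0, ∑ τ1 ∈ I 1, ∑ τ2 ∈ I 2,
        √(Wr (S 0 τ0) p e w r (pt 1 k)) * √(Wr (S 1 τ1) p e w r (pt 1 k)) *
        √(Wr (S 2 τ2) p e w r (pt 1 k)) := by
    intro k
    have h : ∀ j, √(Wr (s j) p e w r (pt 1 k)) ≤ ∑ τ ∈ I j, √(Wr (S j τ) p e w r (pt 1 k)) := by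
      intro j
      rw [Wr_caps (s j) p e w r (pt 1 k) η]
      exact sqrt_sum_le _ _ fun τ _ => Wr_nonneg _ _ _ _ (hwS j τ) _ _
    have hn : ∀ j, 0 ≤ ∑ τ ∈ I j, √(Wr (S j τ) p e w r (pt 1 k)) := fun j =>
      Finset.sum_nonneg fun _ _ => Real.sqrt_nonneg _
    calc √(Wr (s 0) p e w r (pt 1 k)) * √(Wr (s 1) p e w r (pt 1 k)) *
        √(Wr (s 2) p e w r (pt 1 k))
        ≤ (∑ τ ∈ I 0, √(Wr (S 0 τ) p e w r (pt 1 k))) *
            (∑ τ ∈ I 1, √(Wr (S 1 τ) p e w r (pt 1 k))) *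
            (∑ τ ∈ I 2, √(Wr (S 2 τ) p e w r (pt 1 k))) := by
          refine mul_le_mul (mul_le_mul (h 0) (h 1) (Real.sqrt_nonneg _) (hn 0)) (h 2)
            (Real.sqrt_nonneg _) (mul_nonneg (hn 0) (hn 1))
      _ = _ := by
          rw [Finset.sum_mul_sum, Finset.sum_mul]
          refine Finset.sum_congr rfl fun τ0 _ => ?_
          rw [Finset.sum_mul_sum]
  calc ∑ k ∈ X, √(Wr (s 0) p e w r (pt 1 k)) * √(Wr (s 1) p e w r (pt 1 k)) *
      √(Wr (s 2) p e w r (pt 1 k))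
      ≤ ∑ k ∈ X, ∑ τ0 ∈ I 0, ∑ τ1 ∈ I 1, ∑ τ2 ∈ I 2,
        √(Wr (S 0 τ0) p e w r (pt 1 k)) * √(Wr (S 1 τ1) p e w r (pt 1 k)) *
        √(Wr (S 2 τ2) p e w r (pt 1 k)) := Finset.sum_le_sum fun k _ => hpt k
    _ = ∑ τ0 ∈ I 0, ∑ τ1 ∈ I 1, ∑ τ2 ∈ I 2, ∑ k ∈ X,
        √(Wr (S 0 τ0) p e w r (pt 1 k)) * √(Wr (S 1 τ1) p e w r (pt 1 k)) *
        √(Wr (S 2 τ2) p e w r (pt 1 k)) := by
        rw [Finset.sum_comm]
        refine Finset.sum_congr rfl fun τ0 _ => ?_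
        rw [Finset.sum_comm]
        refine Finset.sum_congr rfl fun τ1 _ => ?_
        rw [Finset.sum_comm]
    _ ≤ ∑ τ0 ∈ I 0, ∑ τ1 ∈ I 1, ∑ τ2 ∈ I 2,
        C0 * (√(∑ l ∈ S 0 τ0, w l) * √(∑ l ∈ S 1 τ1, w l) * √(∑ l ∈ S 2 τ2, w l)) :=
        Finset.sum_le_sum fun τ0 h0 => Finset.sum_le_sum fun τ1 h1 =>
          Finset.sum_le_sum fun τ2 h2 => htriple τ0 h0 τ1 h1 τ2 h2
    _ = C0 * ((∑ τ ∈ I 0, √(∑ l ∈ S 0 τ, w l)) * (∑ τ ∈ I 1, √(∑ l ∈ S 1 τ, w l)) *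
          (∑ τ ∈ I 2, √(∑ l ∈ S 2 τ, w l))) := by
        rw [Finset.sum_mul_sum, Finset.sum_mul, Finset.mul_sum]
        refine Finset.sum_congr rfl fun τ0 _ => ?_
        rw [Finset.sum_mul_sum, Finset.mul_sum]
        refine Finset.sum_congr rfl fun τ1 _ => ?_
        rw [Finset.mul_sum]
    _ ≤ C0 * ((√((60 * N / ν) ^ 3) * √(∑ l ∈ s 0, w l)) *
          (√((60 * N / ν) ^ 3) * √(∑ l ∈ s 1, w l)) *
          (√((60 * N / ν) ^ 3) * √(∑ l ∈ s 2, w l))) := by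
        have hb : ∀ j, ∑ τ ∈ I j, √(∑ l ∈ S j τ, w l) ≤
            √((60 * N / ν) ^ 3) * √(∑ l ∈ s j, w l) := by
          intro j
          have h1 : ∑ τ ∈ I j, √(∑ l ∈ S j τ, w l) ≤
              √((I j).card : ℝ) * √(∑ τ ∈ I j, ∑ l ∈ S j τ, w l) := by
            have := Real.sum_sqrt_mul_sqrt_le (I j) (f := fun _ => (1 : ℝ))
              (g := fun τ => ∑ l ∈ S j τ, w l) (fun _ => by norm_num)
              (fun τ => Finset.sum_nonneg fun l hl => hwS j τ l hl)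
            simpa using this
          have h2 : ∑ τ ∈ I j, ∑ l ∈ S j τ, w l = ∑ l ∈ s j, w l :=
            Finset.sum_fiberwise_of_maps_to (fun a ha => Finset.mem_image_of_mem _ ha) _
          rw [h2] at h1
          refine h1.trans ?_
          refine mul_le_mul_of_nonneg_right (Real.sqrt_le_sqrt ?_) (Real.sqrt_nonneg _)
          refine (cix_card (s j) e hηpos hη1 (fun a ha i => he j a ha i)).trans (le_of_eq ?_)
          rw [hη]
          field_simp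
          norm_num
        have hn : ∀ j, 0 ≤ ∑ τ ∈ I j, √(∑ l ∈ S j τ, w l) := fun j =>
          Finset.sum_nonneg fun _ _ => Real.sqrt_nonneg _
        refine mul_le_mul_of_nonneg_left ?_ hC0n
        refine mul_le_mul (mul_le_mul (hb 0) (hb 1) (hn 1) (by positivity)) (hb 2) (hn 2)
          (by positivity)
    _ = _ := by ring

/-- **Trilinear Kakeya with epsilon loss** (integer points, radius `r`, polynomial transversality
dependence). -/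
theorem trilinear_kakeya (ε : ℝ) (hε : 0 < ε) : ∃ C : ℝ, 0 < C ∧
    ∀ {ι : Type} (s : Fin 3 → Finset ι) (p e : ι → Fin 3 → ℝ) (w : ι → ℝ)
      (_ : ∀ j, ∀ l ∈ s j, 0 ≤ w l) (ν r R : ℝ) (_ : 0 < ν) (_ : ν ≤ 1)
      (_ : 1 ≤ r) (_ : 1 ≤ R) (_ : ∀ j, ∀ l ∈ s j, ∀ i, |e l i| ≤ 1)
      (_ : ∀ l0 ∈ s 0, ∀ l1 ∈ s 1, ∀ l2 ∈ s 2,
        ν ≤ |(Matrix.of fun i j => (![e l0, e l1, e l2] : Fin 3 → Fin 3 → ℝ) j i).det|)
      (X : Finset (Fin 3 → ℤ)) (_ : ∀ k ∈ X, ∀ i, |(k i : ℝ)| ≤ R),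
      ∑ k ∈ X, √(Wr (s 0) p e w r (pt 1 k)) * √(Wr (s 1) p e w r (pt 1 k)) *
        √(Wr (s 2) p e w r (pt 1 k)) ≤
        C * r ^ 3 * (ν⁻¹) ^ 8 * R ^ ε *
          (√(∑ l ∈ s 0, w l) * √(∑ l ∈ s 1, w l) * √(∑ l ∈ s 2, w l)) := by
  -- choose N with 1331 ≤ N ^ ε
  obtain ⟨N, hN⟩ : ∃ N : ℕ, (1331 : ℝ) ≤ (N : ℝ) ^ ε ∧ 2 ≤ N := by
    have := (tendsto_rpow_atTop hε).comp tendsto_natCast_atTop_atTop
    have h1 := (this.eventually_ge_atTop (1331 : ℝ)).and (Filter.eventually_ge_atTop 2)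
    exact h1.exists
  obtain ⟨hN1, hN2⟩ := hN
  have hNR : (2 : ℝ) ≤ N := by exact_mod_cast hN2
  refine ⟨343 * 12 ^ 3 * (1331 * 7 ^ ε) * (√((60 * N : ℝ) ^ 3)) ^ 3 , by positivity, ?_⟩
  intro ι s p e w hw ν r R hν hν1 hr hR he hdet X hX
  -- choose m
  have hex : ∃ m : ℕ, R + 6 ≤ (N : ℝ) ^ m := by
    obtain ⟨m, hm⟩ := pow_unbounded_of_one_lt (R + 6) (by linarith : (1 : ℝ) < N)
    exact ⟨m, hm.le⟩
  classical
  set m := Nat.find hex with hm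
  have hm1 : R + 6 ≤ (N : ℝ) ^ m := Nat.find_spec hex
  have hmpos : 0 < m := by
    rcases Nat.eq_zero_or_pos m with h | h
    · rw [h, pow_zero] at hm1; linarith
    · exact h
  have hm2 : (N : ℝ) ^ (m - 1) < R + 6 := by
    have := Nat.find_min hex (m := m - 1) (by omega)
    push Not at this
    exact this
  have h1331 : (1331 : ℝ) ^ m ≤ 1331 * 7 ^ ε * R ^ ε := by
    have h1 : (1331 : ℝ) ^ (m - 1) ≤ (R + 6) ^ ε := by
      calc (1331 : ℝ) ^ (m - 1) ≤ ((N : ℝ) ^ ε) ^ (m - 1) :=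
            pow_le_pow_left₀ (by norm_num) hN1 _
        _ = ((N : ℝ) ^ (m - 1)) ^ ε := by
            rw [← Real.rpow_natCast, ← Real.rpow_natCast, ← Real.rpow_mul (by linarith),
              ← Real.rpow_mul (by linarith), mul_comm]
        _ ≤ (R + 6) ^ ε := Real.rpow_le_rpow (by positivity) hm2.le hε.le
    have h2 : (R + 6) ^ ε ≤ 7 ^ ε * R ^ ε := by
      rw [← Real.mul_rpow (by norm_num) (by linarith)]
      exact Real.rpow_le_rpow (by linarith) (by linarith) hε.le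
    have h3 : (1331 : ℝ) ^ m = 1331 * 1331 ^ (m - 1) := by
      rw [← pow_succ']
      congr 1
      omega
    rw [h3, mul_assoc]
    exact mul_le_mul_of_nonneg_left (h1.trans h2) (by norm_num)
  refine (trilinear_explicit s p e w hw (N := N) (by omega) hν hν1 hr (by linarith) he hdet m hm1 X
    hX).trans ?_
  refine mul_le_mul_of_nonneg_right ?_ (by positivity)
  have hνi : 1 ≤ ν⁻¹ := (one_le_inv₀ hν).mpr hν1
  have hsq : √((60 * N / ν) ^ 3) ^ 3 ≤ √((60 * N : ℝ) ^ 3) ^ 3 * (ν⁻¹) ^ 5 := by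
    have h1 : (60 * (N : ℝ) / ν) ^ 3 = (60 * N) ^ 3 * (ν⁻¹) ^ 3 := by
      rw [div_eq_mul_inv, mul_pow]
    rw [h1, Real.sqrt_mul (by positivity), mul_pow]
    refine mul_le_mul_of_nonneg_left ?_ (by positivity)
    have h2 : √((ν⁻¹) ^ 3) ^ 3 ≤ (ν⁻¹) ^ 5 := by
      have h3 : √((ν⁻¹) ^ 3) ^ 2 = (ν⁻¹) ^ 3 := Real.sq_sqrt (by positivity)
      have h4 : √((ν⁻¹) ^ 3) ≤ (ν⁻¹) ^ 2 := by
        rw [Real.sqrt_le_left (by positivity), ← pow_mul]
        exact pow_le_pow_right₀ hνi (by norm_num)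
      calc √((ν⁻¹) ^ 3) ^ 3 = √((ν⁻¹) ^ 3) ^ 2 * √((ν⁻¹) ^ 3) := by ring
        _ ≤ (ν⁻¹) ^ 3 * (ν⁻¹) ^ 2 := by
            rw [h3]; exact mul_le_mul_of_nonneg_left h4 (by positivity)
        _ = (ν⁻¹) ^ 5 := by ring
    exact h2
  calc 343 * (12 * r / ν) ^ 3 * 1331 ^ m * √((60 * N / ν) ^ 3) ^ 3
      ≤ 343 * (12 * r / ν) ^ 3 * (1331 * 7 ^ ε * R ^ ε) *
          (√((60 * N : ℝ) ^ 3) ^ 3 * (ν⁻¹) ^ 5) := by gcongr
    _ = _ := by
        rw [div_eq_mul_inv, mul_pow, mul_pow]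
        ring

end Crest.Agent.R138.MK877
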