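import Crest.Agent.R138.MK4_877

/-!
# Trilinear Kakeya in R^3, part 5 (helper877): one family, broad points

`broad_kakeya`: for one weighted family of lines, the number of points (weighted by the square root
of the total weight of the `ν`-transversal triples through the point) is at most
`C r^3 ν^{-13} R^ε W^{3/2}`.
-/

set_option autoImplicit false

namespace Crest.Agent.R138.MK877

open Finset Matrix

/-- determinant of three directions (columns) -/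
noncomputable def D3 (x y z : Fin 3 → ℝ) : ℝ :=
  (Matrix.of fun i j => (![x, y, z] : Fin 3 → Fin 3 → ℝ) j i).det

lemma D3_eq (x y z : Fin 3 → ℝ) : D3 x y z =
    x 0 * y 1 * z 2 - x 0 * z 1 * y 2 - y 0 * x 1 * z 2 + y 0 * z 1 * x 2
      + z 0 * x 1 * y 2 - z 0 * y 1 * x 2 := by
  unfold D3
  rw [Matrix.det_fin_three]
  simp only [Matrix.of_apply, Matrix.cons_val_zero, Matrix.cons_val_one, Matrix.cons_val]

lemma prod3_le {a b c A B C : ℝ} (ha : |a| ≤ A) (hb : |b| ≤ B) (hc : |c| ≤ C) :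
    |a * b * c| ≤ A * B * C := by
  have hA : 0 ≤ A := (abs_nonneg _).trans ha
  have hB : 0 ≤ B := (abs_nonneg _).trans hb
  rw [abs_mul, abs_mul]
  exact mul_le_mul (mul_le_mul ha hb (abs_nonneg _) hA) hc (abs_nonneg _) (mul_nonneg hA hB)

lemma D3_bound {x y z : Fin 3 → ℝ} {a b c : ℝ} (hx : ∀ i, |x i| ≤ a) (hy : ∀ i, |y i| ≤ b)
    (hz : ∀ i, |z i| ≤ c) : |D3 x y z| ≤ 6 * (a * b * c) := by
  rw [D3_eq]
  have h1 := prod3_le (hx 0) (hy 1) (hz 2)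
  have h2 : |x 0 * z 1 * y 2| ≤ a * b * c := by
    have := prod3_le (hx 0) (hz 1) (hy 2); linarith [mul_right_comm a b c]
  have h3 : |y 0 * x 1 * z 2| ≤ a * b * c := by
    have := prod3_le (hy 0) (hx 1) (hz 2); linarith [mul_comm a b, mul_right_comm a b c]
  have h4 : |y 0 * z 1 * x 2| ≤ a * b * c := by
    have := prod3_le (hy 0) (hz 1) (hx 2)
    have e : b * c * a = a * b * c := by ring
    linarith
  have h5 : |z 0 * x 1 * y 2| ≤ a * b * c := by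
    have := prod3_le (hz 0) (hx 1) (hy 2)
    have e : c * a * b = a * b * c := by ring
    linarith
  have h6 : |z 0 * y 1 * x 2| ≤ a * b * c := by
    have := prod3_le (hz 0) (hy 1) (hx 2)
    have e : c * b * a = a * b * c := by ring
    linarith
  rw [abs_le] at *
  constructor <;> linarith [h1.1, h1.2, h2.1, h2.2, h3.1, h3.2, h4.1, h4.2, h5.1, h5.2, h6.1, h6.2]

lemma D3_perturb {x y z x' y' z' : Fin 3 → ℝ} {η : ℝ} (hy : ∀ i, |y i| ≤ 1)
    (hz : ∀ i, |z i| ≤ 1) (hx' : ∀ i, |x' i| ≤ 1) (hy' : ∀ i, |y' i| ≤ 1)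
    (hxx : ∀ i, |x i - x' i| ≤ η) (hyy : ∀ i, |y i - y' i| ≤ η) (hzz : ∀ i, |z i - z' i| ≤ η) :
    |D3 x y z - D3 x' y' z'| ≤ 18 * η := by
  have e : D3 x y z - D3 x' y' z' = D3 (x - x') y z + D3 x' (y - y') z + D3 x' y' (z - z') := by
    simp only [D3_eq, Pi.sub_apply]
    ring
  rw [e]
  have h1 : |D3 (x - x') y z| ≤ 6 * (η * 1 * 1) := D3_bound (fun i => hxx i) hy hz
  have h2 : |D3 x' (y - y') z| ≤ 6 * (1 * η * 1) := D3_bound hx' (fun i => hyy i) hz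
  have h3 : |D3 x' y' (z - z')| ≤ 6 * (1 * 1 * η) := D3_bound hx' hy' (fun i => hzz i)
  have := abs_add_le (D3 (x - x') y z + D3 x' (y - y') z) (D3 x' y' (z - z'))
  have := abs_add_le (D3 (x - x') y z) (D3 x' (y - y') z)
  linarith

open Classical in
/-- total weight of `ν`-transversal triples of lines of `s` passing within `r` of `x` -/
noncomputable def Tri {ι : Type*} (s : Finset ι) (p e : ι → Fin 3 → ℝ) (w : ι → ℝ) (ν r : ℝ)
    (x : Fin 3 → ℝ) : ℝ :=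
  ∑ l0 ∈ s, ∑ l1 ∈ s, ∑ l2 ∈ s,
    if Near x (p l0) (e l0) r ∧ Near x (p l1) (e l1) r ∧ Near x (p l2) (e l2) r ∧
      ν ≤ |D3 (e l0) (e l1) (e l2)| then w l0 * w l1 * w l2 else 0

/-- **Broad Kakeya** -/
theorem broad_kakeya (ε : ℝ) (hε : 0 < ε) : ∃ C : ℝ, 0 < C ∧
    ∀ {ι : Type} (s : Finset ι) (p e : ι → Fin 3 → ℝ) (w : ι → ℝ)
      (_ : ∀ l ∈ s, 0 ≤ w l) (ν r R : ℝ) (_ : 0 < ν) (_ : ν ≤ 1)
      (_ : 1 ≤ r) (_ : 1 ≤ R) (_ : ∀ l ∈ s, ∀ i, |e l i| ≤ 1)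
      (X : Finset (Fin 3 → ℤ)) (_ : ∀ k ∈ X, ∀ i, |(k i : ℝ)| ≤ R),
      ∑ k ∈ X, √(Tri s p e w ν r (pt 1 k)) ≤
        C * r ^ 3 * (ν⁻¹) ^ 13 * R ^ ε * √(∑ l ∈ s, w l) ^ 3 := by
  obtain ⟨C, hC, key⟩ := trilinear_kakeya ε hε
  refine ⟨C * 2 ^ 8 * √((180 : ℝ) ^ 3) ^ 3, by positivity, ?_⟩
  intro ι s p e w hw ν r R hν hν1 hr hR he X hX
  classical
  set η : ℝ := ν / 36 with hη
  have hηpos : 0 < η := by positivity
  have hη1 : η ≤ 1 := by rw [hη]; linarith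
  set I : Finset (Fin 3 → ℤ) := s.image (fun a => cix η (e a)) with hI
  set S : (Fin 3 → ℤ) → Finset ι := fun τ => s.filter fun a => cix η (e a) = τ with hS
  have hwS : ∀ τ, ∀ l ∈ S τ, 0 ≤ w l := fun τ l hl => hw l (Finset.mem_filter.mp hl).1
  -- good triples of cells
  set good : (Fin 3 → ℤ) → (Fin 3 → ℤ) → (Fin 3 → ℤ) → Prop := fun τ0 τ1 τ2 =>
    ∃ l0 ∈ S τ0, ∃ l1 ∈ S τ1, ∃ l2 ∈ S τ2, ν ≤ |D3 (e l0) (e l1) (e l2)| with hgood
  have hgood2 : ∀ τ0 τ1 τ2, good τ0 τ1 τ2 → ∀ l0 ∈ S τ0, ∀ l1 ∈ S τ1, ∀ l2 ∈ S τ2,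
      ν / 2 ≤ |D3 (e l0) (e l1) (e l2)| := by
    rintro τ0 τ1 τ2 ⟨m0, hm0, m1, hm1, m2, hm2, hD⟩ l0 hl0 l1 hl1 l2 hl2
    have hin : ∀ τ, ∀ l ∈ S τ, l ∈ s := fun τ l hl => (Finset.mem_filter.mp hl).1
    have hcl : ∀ τ, ∀ l ∈ S τ, ∀ m ∈ S τ, ∀ i, |e l i - e m i| ≤ η := fun τ l hl m hm i =>
      cix_close hηpos (((Finset.mem_filter.mp hl).2).trans ((Finset.mem_filter.mp hm).2).symm) i
    have h1 := D3_perturb (x := e m0) (y := e m1) (z := e m2) (x' := e l0) (y' := e l1)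
      (z' := e l2) (he m1 (hin _ _ hm1)) (he m2 (hin _ _ hm2)) (he l0 (hin _ _ hl0))
      (he l1 (hin _ _ hl1)) (hcl _ _ hm0 _ hl0) (hcl _ _ hm1 _ hl1) (hcl _ _ hm2 _ hl2)
    have h2 : |D3 (e m0) (e m1) (e m2)| ≤ |D3 (e l0) (e l1) (e l2)| + 18 * η := by
      have := abs_sub_abs_le_abs_sub (D3 (e m0) (e m1) (e m2)) (D3 (e l0) (e l1) (e l2))
      linarith
    have h3 : 18 * η = ν / 2 := by rw [hη]; ring
    linarith
  -- pointwise bound
  set V : (Fin 3 → ℤ) → (Fin 3 → ℤ) → ℝ := fun τ k => Wr (S τ) p e w r (pt 1 k) with hV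
  have hVn : ∀ τ k, 0 ≤ V τ k := fun τ k => Wr_nonneg _ _ _ _ (hwS τ) _ _
  have hpt : ∀ k, Tri s p e w ν r (pt 1 k) ≤ ∑ τ0 ∈ I, ∑ τ1 ∈ I, ∑ τ2 ∈ I,
      (if good τ0 τ1 τ2 then V τ0 k * V τ1 k * V τ2 k else 0) := by
    intro k
    have hfib : ∀ f : ι → ℝ, ∑ l ∈ s, f l = ∑ τ ∈ I, ∑ l ∈ S τ, f l := fun f =>
      (Finset.sum_fiberwise_of_maps_to (fun a ha => Finset.mem_image_of_mem _ ha) _).symm
    unfold Tri
    rw [hfib]
    refine Finset.sum_le_sum fun τ0 _ => ?_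
    have e1 : ∀ l0, ∑ l1 ∈ s, ∑ l2 ∈ s, (if Near (pt 1 k) (p l0) (e l0) r ∧
        Near (pt 1 k) (p l1) (e l1) r ∧ Near (pt 1 k) (p l2) (e l2) r ∧
        ν ≤ |D3 (e l0) (e l1) (e l2)| then w l0 * w l1 * w l2 else 0) =
        ∑ τ1 ∈ I, ∑ τ2 ∈ I, ∑ l1 ∈ S τ1, ∑ l2 ∈ S τ2, (if Near (pt 1 k) (p l0) (e l0) r ∧
        Near (pt 1 k) (p l1) (e l1) r ∧ Near (pt 1 k) (p l2) (e l2) r ∧
        ν ≤ |D3 (e l0) (e l1) (e l2)| then w l0 * w l1 * w l2 else 0) := by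
      intro l0
      refine (hfib _).trans ?_
      refine Finset.sum_congr rfl fun τ1 _ => ?_
      refine Eq.trans ?_ Finset.sum_comm
      refine Finset.sum_congr rfl fun l1 _ => ?_
      exact hfib _
    rw [Finset.sum_congr rfl fun l0 _ => e1 l0, Finset.sum_comm]
    refine Finset.sum_le_sum fun τ1 _ => ?_
    rw [Finset.sum_comm]
    refine Finset.sum_le_sum fun τ2 _ => ?_
    by_cases hg : good τ0 τ1 τ2
    · rw [if_pos hg]
      have e2 : V τ0 k * V τ1 k * V τ2 k = ∑ l0 ∈ S τ0, ∑ l1 ∈ S τ1, ∑ l2 ∈ S τ2,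
          (if Near (pt 1 k) (p l0) (e l0) r then w l0 else 0) *
          (if Near (pt 1 k) (p l1) (e l1) r then w l1 else 0) *
          (if Near (pt 1 k) (p l2) (e l2) r then w l2 else 0) := by
        simp only [hV, Wr]
        rw [Finset.sum_mul_sum, Finset.sum_mul]
        refine Finset.sum_congr rfl fun l0 _ => ?_
        rw [Finset.sum_mul]
        refine Finset.sum_congr rfl fun l1 _ => ?_
        rw [Finset.mul_sum]
      rw [e2]
      refine Finset.sum_le_sum fun l0 h0 => Finset.sum_le_sum fun l1 h1 =>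
        Finset.sum_le_sum fun l2 h2 => ?_
      by_cases hn0 : Near (pt 1 k) (p l0) (e l0) r <;>
        by_cases hn1 : Near (pt 1 k) (p l1) (e l1) r <;>
        by_cases hn2 : Near (pt 1 k) (p l2) (e l2) r <;>
        simp only [hn0, hn1, hn2, if_true, if_false, true_and, false_and, and_false, mul_zero,
          zero_mul, le_refl]
      have a0 := hwS _ _ h0
      have a1 := hwS _ _ h1
      have a2 := hwS _ _ h2
      split_ifs
      · exact le_rfl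
      · positivity
    · rw [if_neg hg]
      refine le_of_eq (Finset.sum_eq_zero fun l0 h0 => Finset.sum_eq_zero fun l1 h1 =>
        Finset.sum_eq_zero fun l2 h2 => ?_)
      rw [if_neg]
      rintro ⟨_, _, _, hD⟩
      exact hg ⟨l0, h0, l1, h1, l2, h2, hD⟩
  have hsq : ∀ k, √(Tri s p e w ν r (pt 1 k)) ≤ ∑ τ0 ∈ I, ∑ τ1 ∈ I, ∑ τ2 ∈ I,
      (if good τ0 τ1 τ2 then √(V τ0 k) * √(V τ1 k) * √(V τ2 k) else 0) := by
    intro k
    refine (Real.sqrt_le_sqrt (hpt k)).trans ?_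
    have hn : ∀ τ0 τ1 τ2, 0 ≤ (if good τ0 τ1 τ2 then V τ0 k * V τ1 k * V τ2 k else 0) := by
      intro τ0 τ1 τ2
      split_ifs
      · exact mul_nonneg (mul_nonneg (hVn _ _) (hVn _ _)) (hVn _ _)
      · exact le_rfl
    refine (sqrt_sum_le _ _ fun τ0 _ => Finset.sum_nonneg fun τ1 _ =>
      Finset.sum_nonneg fun τ2 _ => hn τ0 τ1 τ2).trans ?_
    refine Finset.sum_le_sum fun τ0 _ => ?_
    refine (sqrt_sum_le _ _ fun τ1 _ => Finset.sum_nonneg fun τ2 _ => hn τ0 τ1 τ2).trans ?_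
    refine Finset.sum_le_sum fun τ1 _ => ?_
    refine (sqrt_sum_le _ _ fun τ2 _ => hn τ0 τ1 τ2).trans ?_
    refine Finset.sum_le_sum fun τ2 _ => ?_
    split_ifs
    · rw [Real.sqrt_mul (mul_nonneg (hVn _ _) (hVn _ _)), Real.sqrt_mul (hVn _ _)]
    · rw [Real.sqrt_zero]
  have hνi : 1 ≤ ν⁻¹ := (one_le_inv₀ hν).mpr hν1
  set K0 : ℝ := C * r ^ 3 * ((ν / 2)⁻¹) ^ 8 * R ^ ε with hK0
  have hK0n : 0 ≤ K0 := by positivity
  calc ∑ k ∈ X, √(Tri s p e w ν r (pt 1 k))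
      ≤ ∑ k ∈ X, ∑ τ0 ∈ I, ∑ τ1 ∈ I, ∑ τ2 ∈ I,
        (if good τ0 τ1 τ2 then √(V τ0 k) * √(V τ1 k) * √(V τ2 k) else 0) :=
        Finset.sum_le_sum fun k _ => hsq k
    _ = ∑ τ0 ∈ I, ∑ τ1 ∈ I, ∑ τ2 ∈ I, ∑ k ∈ X,
        (if good τ0 τ1 τ2 then √(V τ0 k) * √(V τ1 k) * √(V τ2 k) else 0) := by
        rw [Finset.sum_comm]
        refine Finset.sum_congr rfl fun τ0 _ => ?_
        rw [Finset.sum_comm]
        refine Finset.sum_congr rfl fun τ1 _ => ?_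
        rw [Finset.sum_comm]
    _ ≤ ∑ τ0 ∈ I, ∑ τ1 ∈ I, ∑ τ2 ∈ I,
        K0 * (√(∑ l ∈ S τ0, w l) * √(∑ l ∈ S τ1, w l) * √(∑ l ∈ S τ2, w l)) := by
        refine Finset.sum_le_sum fun τ0 _ => Finset.sum_le_sum fun τ1 _ =>
          Finset.sum_le_sum fun τ2 _ => ?_
        by_cases hg : good τ0 τ1 τ2
        · simp only [if_pos hg]
          have := key (fun j => (![S τ0, S τ1, S τ2] : Fin 3 → Finset ι) j) p e w ?_ (ν / 2) r R
            (by linarith) (by linarith) hr hR ?_ ?_ X hX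
          · exact this
          · intro j l hl
            fin_cases j
            · exact hwS _ _ hl
            · exact hwS _ _ hl
            · exact hwS _ _ hl
          · intro j l hl i
            fin_cases j
            · exact he l (Finset.mem_filter.mp hl).1 i
            · exact he l (Finset.mem_filter.mp hl).1 i
            · exact he l (Finset.mem_filter.mp hl).1 i
          · intro l0 hl0 l1 hl1 l2 hl2
            exact hgood2 τ0 τ1 τ2 hg l0 hl0 l1 hl1 l2 hl2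
        · simp only [if_neg hg, Finset.sum_const_zero]
          positivity
    _ = K0 * (∑ τ ∈ I, √(∑ l ∈ S τ, w l)) ^ 3 := by
        rw [pow_succ, pow_two, Finset.sum_mul_sum, Finset.sum_mul, Finset.mul_sum]
        refine Finset.sum_congr rfl fun τ0 _ => ?_
        rw [Finset.sum_mul_sum, Finset.mul_sum]
        refine Finset.sum_congr rfl fun τ1 _ => ?_
        rw [Finset.mul_sum]
    _ ≤ K0 * (√((5 / η) ^ 3) * √(∑ l ∈ s, w l)) ^ 3 := by
        refine mul_le_mul_of_nonneg_left ?_ hK0n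
        refine pow_le_pow_left₀ (Finset.sum_nonneg fun _ _ => Real.sqrt_nonneg _) ?_ 3
        have h1 : ∑ τ ∈ I, √(∑ l ∈ S τ, w l) ≤
            √((I).card : ℝ) * √(∑ τ ∈ I, ∑ l ∈ S τ, w l) := by
          have := Real.sum_sqrt_mul_sqrt_le I (f := fun _ => (1 : ℝ))
            (g := fun τ => ∑ l ∈ S τ, w l) (fun _ => by norm_num)
            (fun τ => Finset.sum_nonneg fun l hl => hwS τ l hl)
          simpa using this
        have h2 : ∑ τ ∈ I, ∑ l ∈ S τ, w l = ∑ l ∈ s, w l :=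
          Finset.sum_fiberwise_of_maps_to (fun a ha => Finset.mem_image_of_mem _ ha) _
        rw [h2] at h1
        refine h1.trans ?_
        exact mul_le_mul_of_nonneg_right (Real.sqrt_le_sqrt
          (cix_card s e hηpos hη1 (fun a ha i => he a ha i))) (Real.sqrt_nonneg _)
    _ ≤ C * 2 ^ 8 * √((180 : ℝ) ^ 3) ^ 3 * r ^ 3 * (ν⁻¹) ^ 13 * R ^ ε * √(∑ l ∈ s, w l) ^ 3 := by
        rw [mul_pow, ← mul_assoc]
        refine mul_le_mul_of_nonneg_right ?_ (by positivity)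
        have h1 : (5 / η) ^ 3 = 180 ^ 3 * (ν⁻¹) ^ 3 := by
          rw [hη]
          field_simp
          norm_num
        have h2 : √((5 / η) ^ 3) ^ 3 ≤ √((180 : ℝ) ^ 3) ^ 3 * (ν⁻¹) ^ 5 := by
          rw [h1, Real.sqrt_mul (by positivity), mul_pow]
          refine mul_le_mul_of_nonneg_left ?_ (by positivity)
          have h3 : √((ν⁻¹) ^ 3) ^ 2 = (ν⁻¹) ^ 3 := Real.sq_sqrt (by positivity)
          have h4 : √((ν⁻¹) ^ 3) ≤ (ν⁻¹) ^ 2 := by
            rw [Real.sqrt_le_left (by positivity), ← pow_mul]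
            exact pow_le_pow_right₀ hνi (by norm_num)
          calc √((ν⁻¹) ^ 3) ^ 3 = √((ν⁻¹) ^ 3) ^ 2 * √((ν⁻¹) ^ 3) := by ring
            _ ≤ (ν⁻¹) ^ 3 * (ν⁻¹) ^ 2 := by
                rw [h3]; exact mul_le_mul_of_nonneg_left h4 (by positivity)
            _ = (ν⁻¹) ^ 5 := by ring
        have h5 : ((ν / 2)⁻¹) ^ 8 = 2 ^ 8 * (ν⁻¹) ^ 8 := by
          rw [inv_div, div_eq_mul_inv, mul_pow]
        calc K0 * √((5 / η) ^ 3) ^ 3 ≤ K0 * (√((180 : ℝ) ^ 3) ^ 3 * (ν⁻¹) ^ 5) :=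
              mul_le_mul_of_nonneg_left h2 hK0n
          _ = _ := by
              rw [hK0, h5]; ring

end Crest.Agent.R138.MK877
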