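import Crest.Agent.R138.Mw6_330

/-!
# R138 / R139: MIS, ENNReal half (shadow of helper330), part 1 (helper448)

`mis_half`: MIS from ONE real finite inequality over the cells.
-/

set_option autoImplicit false
set_option linter.unusedSectionVars false
set_option linter.unusedVariables false

open MeasureTheory FourierTransform
open scoped ContDiff ENNReal

namespace Crest.Agent.R138.Mh448

open Crest.Agent.R138.Defs Crest.Agent.R138.Wpk685 Crest.Agent.R138.Loc878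
open Crest.Agent.R138.W188 (tr Plate uS Plates val En Sd)
open Crest.Agent.R138.Ad480
open Crest.Agent.R138.Mis535 (PB)
open Crest.Agent.R138.P654 (an Smis selQ Par Ctx IsMis SCo Tl)
open Crest.Agent.R138.Mis330

theorem en_mono4 {ρ : ℝ} {F G : E2 → ℂ} {S : ℤ × ℤ → Set E2} (hm : ∀ m, MeasurableSet (S m))
    (h : ∀ m, ∀ y ∈ S m, ‖um ρ F m y‖ ≤ 2 * ‖um ρ G m y‖) : en ρ F S ≤ 4 * en ρ G S := by
  unfold en
  rw [Finset.mul_sum]
  refine Finset.sum_le_sum fun m _ => ?_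
  rw [← lintegral_const_mul' _ _ (by norm_num)]
  refine setLIntegral_mono' (hm m) fun y hy => ?_
  have h1 : ‖um ρ F m y‖ₑ ≤ 2 * ‖um ρ G m y‖ₑ := by
    rw [← ofReal_norm_eq_enorm, ← ofReal_norm_eq_enorm,
      ← ENNReal.ofReal_ofNat 2, ← ENNReal.ofReal_mul (by norm_num)]
    exact ENNReal.ofReal_le_ofReal (h m y hy)
  calc ‖um ρ F m y‖ₑ ^ 2 ≤ (2 * ‖um ρ G m y‖ₑ) ^ 2 := by gcongr
    _ = 4 * ‖um ρ G m y‖ₑ ^ 2 := by rw [mul_pow]; norm_num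

open Classical in
/-- energy of one misaligned child plate. -/
theorem plate_en (B : ℕ → ℝ) (A : ℝ) (n : ℕ) : ∃ C : ℝ, 0 ≤ C ∧ ∀ {q c0 : ℝ} {h : E2 → ℝ}
    {g : E2 → ℂ} {r1 dl s1' s2' s1 s2 D δ : ℝ} {I1 : Finset ℕ} {P1 : ℕ → Plate} {I : Finset ℕ}
    {P : ℕ → Plate}, ParB B h → 1 ≤ r1 → 0 < dl → dl ≤ 1 → 1 ≤ dl * r1 →
    Par q A c0 h g r1 s1' s2' D I1 P1 → Plates A h (dl * r1) s1 s2 r1 I P →
    IsMis δ h g dl r1 I1 P1 I P → ∀ i ∈ I,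
    en (an (dl * r1)) (tr h (P i).z (sel (an r1) g (uS I1 P1))) (P i).S ≤
      ENNReal.ofReal (C * dl⁻¹) *
      ∑ T ∈ (TI (an r1) (Nc A r1) I1).filter (fun T => δ < P654.sn (P i).b (P1 T.1).b),
        wT n h (an r1) (an (dl * r1)) (an r1 * r1) P i T.2 *
          muE (an r1) (an r1 * r1) g P1 T := by
  obtain ⟨C, hC, h1⟩ := en_plate_le B n
  refine ⟨4 * C, by positivity, ?_⟩
  intro q c0 h g r1 dl s1' s2' s1 s2 D δ I1 P1 I P hh hr1 hdl hdl1 hr' hp hP hmis i hi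
  have h2 := h1 h hh r1 dl hr1 hdl hdl1 hr' g hp.gi I1 P1 (A * r1) hp.meas hp.disj
    (par_bd hp) (Nc A r1) (Nc_le A r1) δ (P i).b (P i).z (hP.mem i hi).2 (P i).S
    (fun m _ => hP.meas i hi m)
  have h3 := en_mono4 (hP.meas i hi) (hmis i hi)
  refine h3.trans ?_
  refine (mul_le_mul' le_rfl h2).trans (le_of_eq ?_)
  rw [← mul_assoc, ← ENNReal.ofReal_ofNat 4, ← ENNReal.ofReal_mul (by norm_num), ← mul_assoc]
  rfl

open Classical in
/-- near and misaligned. -/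
def MN (h : E2 → ℝ) (r1 K s1 s2 δ : ℝ) (P1 P : ℕ → Plate) (i : ℕ) (T : ℕ × Cel) : Prop :=
  δ < P654.sn (P i).b (P1 T.1).b ∧ NB h (an r1) (an r1 * r1) r1 K s1 s2 P i T.2

open Classical in
/-- near part. -/
noncomputable def Nr (n : ℕ) (A : ℝ) (h : E2 → ℝ) (g : E2 → ℂ) (r1 dl K s1 s2 δ : ℝ)
    (I1 : Finset ℕ) (P1 P : ℕ → Plate) (i : ℕ) : ℝ≥0∞ :=
  ∑ T ∈ TI (an r1) (Nc A r1) I1, (if MN h r1 K s1 s2 δ P1 P i T then
    wT n h (an r1) (an (dl * r1)) (an r1 * r1) P i T.2 else 0) * muE (an r1) (an r1 * r1) g P1 T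

open Classical in
/-- far part. -/
noncomputable def Fr (n : ℕ) (A : ℝ) (h : E2 → ℝ) (g : E2 → ℂ) (r1 dl K s1 s2 : ℝ)
    (I1 : Finset ℕ) (P1 P : ℕ → Plate) (i : ℕ) : ℝ≥0∞ :=
  ∑ T ∈ TI (an r1) (Nc A r1) I1, (if ¬ NB h (an r1) (an r1 * r1) r1 K s1 s2 P i T.2 then
    wT n h (an r1) (an (dl * r1)) (an r1 * r1) P i T.2 else 0) * muE (an r1) (an r1 * r1) g P1 T

open Classical in
theorem split_nf (n : ℕ) (A : ℝ) (h : E2 → ℝ) (g : E2 → ℂ) (r1 dl K s1 s2 δ : ℝ)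
    (I1 : Finset ℕ) (P1 P : ℕ → Plate) (i : ℕ) :
    ∑ T ∈ (TI (an r1) (Nc A r1) I1).filter (fun T => δ < P654.sn (P i).b (P1 T.1).b),
        wT n h (an r1) (an (dl * r1)) (an r1 * r1) P i T.2 *
          muE (an r1) (an r1 * r1) g P1 T ≤
    Nr n A h g r1 dl K s1 s2 δ I1 P1 P i + Fr n A h g r1 dl K s1 s2 I1 P1 P i := by
  unfold Nr Fr
  rw [Finset.sum_filter, ← Finset.sum_add_distrib]
  refine Finset.sum_le_sum fun T _ => ?_
  rw [← add_mul]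
  by_cases h1 : δ < P654.sn (P i).b (P1 T.1).b
  · rw [if_pos h1]
    refine mul_le_mul' ?_ le_rfl
    by_cases h2 : NB h (an r1) (an r1 * r1) r1 K s1 s2 P i T.2
    · rw [if_pos (show MN h r1 K s1 s2 δ P1 P i T from ⟨h1, h2⟩), if_neg (not_not.2 h2), add_zero]
    · rw [if_pos h2]
      exact le_add_self
  · rw [if_neg h1]
    exact zero_le

open Classical in
/-- the far parts. -/
theorem far_sum {B : ℕ → ℝ} {q A c0 : ℝ} {h : E2 → ℝ} {g : E2 → ℂ} {r1 dl s1' s2' s1 s2 D : ℝ}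
    {I1 : Finset ℕ} {P1 : ℕ → Plate} {I : Finset ℕ} {P : ℕ → Plate} (hh : ParB B h) (hA : 0 ≤ A)
    (hr1 : 1 ≤ r1) (hdl : 0 < dl) (hdl1 : dl ≤ 1) (hr' : 1 ≤ dl * r1)
    (hp : Par q A c0 h g r1 s1' s2' D I1 P1) (hsd : Sd (dl * r1) s1 s2)
    (hP : Plates A h (dl * r1) s1 s2 r1 I P) {Y K : ℝ} (hY : 1 ≤ Y)
    (hK : Y + 2 * A + 3 * (1 + |B 2|) ≤ K) (k : ℕ) :
    ∑ i ∈ I, Fr (k + 4) A h g r1 dl K s1 s2 I1 P1 P i ≤
      ENNReal.ofReal (216 * (dl⁻¹) ^ 3 * (36 * cdec * (Y ^ k)⁻¹)) * en (an r1) g (uS I1 P1) := by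
  obtain ⟨hρ, hρ1, hρ2, hρ', hρ'1, hρ'2, hρρ, hdiv⟩ := an_facts hr1 hdl hdl1 hr'
  have hr0 : 0 < r1 := by linarith
  have hl0 : 0 < an r1 * r1 := mul_pos hρ hr0
  unfold Fr
  rw [Finset.sum_comm]
  rw [← mass_all hl0 hp.meas hp.disj (par_bd hp) (Nc_le A r1), Finset.mul_sum]
  refine Finset.sum_le_sum fun T _ => ?_
  rw [← Finset.sum_mul]
  refine mul_le_mul' ?_ le_rfl
  rw [← Finset.sum_filter]
  refine far_wT hr0 hdl hdl1 hP hρ hρ' (by linarith : 0 < Y) k T.2 _ (Finset.filter_subset _ _) ?_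
  intro i hi m' hm' y hy
  rw [Finset.mem_filter] at hi
  refine far_of_not_NB hh hA hr1 hdl hdl1 hr' hP ?_ (by linarith) hK hi.1 hi.2 m' hm' y hy
  intro j
  fin_cases j
  · exact hsd.lo
  · exact hsd.lo.trans hsd.le

/-- the normaliser. -/
noncomputable def cc : ℝ := 36 * cdec + 1

theorem cc_pos : 0 < cc := by
  have := cdec_nonneg
  unfold cc
  linarith

open Classical in
/-- the normalised weights. -/
noncomputable def om (n : ℕ) (h : E2 → ℝ) (r1 dl K s1 s2 δ : ℝ) (P1 P : ℕ → Plate) (i : ℕ)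
    (T : ℕ × Cel) : ℝ :=
  (if MN h r1 K s1 s2 δ P1 P i T then
    wT n h (an r1) (an (dl * r1)) (an r1 * r1) P i T.2 else 0).toReal / cc

open Classical in
theorem Nr_eq {B : ℕ → ℝ} {q A c0 : ℝ} {h : E2 → ℝ} {g : E2 → ℂ} {r1 dl s1' s2' s1 s2 D : ℝ}
    {I1 : Finset ℕ} {P1 : ℕ → Plate} {I : Finset ℕ} {P : ℕ → Plate}
    (hr1 : 1 ≤ r1) (hdl : 0 < dl) (hdl1 : dl ≤ 1) (hr' : 1 ≤ dl * r1)
    (hp : Par q A c0 h g r1 s1' s2' D I1 P1)
    (hP : Plates A h (dl * r1) s1 s2 r1 I P) {K δ : ℝ} (k : ℕ) {i : ℕ} (hi : i ∈ I) :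
    Nr (k + 4) A h g r1 dl K s1 s2 δ I1 P1 P i = ENNReal.ofReal (cc *
      ∑ T ∈ Ic A r1 I1 P1, om (k + 4) h r1 dl K s1 s2 δ P1 P i T *
        mu (an r1) (an r1 * r1) g P1 T) := by
  obtain ⟨hρ, hρ1, hρ2, hρ', hρ'1, hρ'2, hρρ, hdiv⟩ := an_facts hr1 hdl hdl1 hr'
  have hcc := cc_pos
  have hom : ∀ T, 0 ≤ om (k + 4) h r1 dl K s1 s2 δ P1 P i T := fun T =>
    div_nonneg ENNReal.toReal_nonneg hcc.le
  have e1 : ∑ T ∈ Ic A r1 I1 P1, om (k + 4) h r1 dl K s1 s2 δ P1 P i T *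
        mu (an r1) (an r1 * r1) g P1 T = ∑ T ∈ TI (an r1) (Nc A r1) I1,
        om (k + 4) h r1 dl K s1 s2 δ P1 P i T * mu (an r1) (an r1 * r1) g P1 T := by
    refine Finset.sum_subset Ic_sub fun T hT hT2 => ?_
    rw [mu_zero fun hne => hT2 (mem_Ic_of hT hne), mul_zero]
  rw [e1, Finset.mul_sum, ENNReal.ofReal_sum_of_nonneg fun T _ =>
    mul_nonneg hcc.le (mul_nonneg (hom T) (mu_nonneg _ _ _ _ _))]
  unfold Nr
  refine Finset.sum_congr rfl fun T hT => ?_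
  have h2 : cc * (om (k + 4) h r1 dl K s1 s2 δ P1 P i T * mu (an r1) (an r1 * r1) g P1 T) =
      (if MN h r1 K s1 s2 δ P1 P i T then
        wT (k + 4) h (an r1) (an (dl * r1)) (an r1 * r1) P i T.2 else 0).toReal *
        mu (an r1) (an r1 * r1) g P1 T := by
    unfold om
    field_simp
  rw [h2, ENNReal.ofReal_mul ENNReal.toReal_nonneg, ENNReal.ofReal_toReal,
    ofReal_mu hρ hρ1 hp.gi hp.g2 P1 (mem_TI.1 hT).2.1]
  split_ifs
  · refine ne_top_of_le_ne_top ENNReal.ofReal_ne_top (wE_le hρ hρ' k (P i).S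
      (fun m _ => hP.meas i hi m) T.2.1 _)
  · exact ENNReal.zero_ne_top

open Classical in
theorem om_facts {h : E2 → ℝ} {r1 dl s1 s2 A : ℝ} {P1 : ℕ → Plate} {I : Finset ℕ} {P : ℕ → Plate}
    (hr1 : 1 ≤ r1) (hdl : 0 < dl) (hdl1 : dl ≤ 1) (hr' : 1 ≤ dl * r1)
    (hP : Plates A h (dl * r1) s1 s2 r1 I P) (K δ : ℝ) (k : ℕ) :
    (∀ i T, 0 ≤ om (k + 4) h r1 dl K s1 s2 δ P1 P i T) ∧
    (∀ i ∈ I, ∀ T, om (k + 4) h r1 dl K s1 s2 δ P1 P i T ≤ 1) ∧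
    (∀ i T, om (k + 4) h r1 dl K s1 s2 δ P1 P i T ≠ 0 → MN h r1 K s1 s2 δ P1 P i T) ∧
    (∀ T, ∑ i ∈ I, om (k + 4) h r1 dl K s1 s2 δ P1 P i T ≤ 216 * (dl⁻¹) ^ 3) := by
  obtain ⟨hρ, hρ1, hρ2, hρ', hρ'1, hρ'2, hρρ, hdiv⟩ := an_facts hr1 hdl hdl1 hr'
  have hr0 : 0 < r1 := by linarith
  have hcc := cc_pos
  have hc := cdec_nonneg
  have hfin : ∀ i ∈ I, ∀ T : ℕ × Cel, wT (k + 4) h (an r1) (an (dl * r1)) (an r1 * r1) P i T.2 ≤
      ENNReal.ofReal (36 * cdec) := fun i hi T => wE_le hρ hρ' k (P i).S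
      (fun m _ => hP.meas i hi m) T.2.1 _
  have hle : ∀ i, ∀ T : ℕ × Cel, (if MN h r1 K s1 s2 δ P1 P i T then
    wT (k + 4) h (an r1) (an (dl * r1)) (an r1 * r1) P i T.2 else 0) ≤
      wT (k + 4) h (an r1) (an (dl * r1)) (an r1 * r1) P i T.2 := by
    intro i T
    split_ifs
    · exact le_rfl
    · exact zero_le
  refine ⟨fun i T => div_nonneg ENNReal.toReal_nonneg hcc.le, ?_, ?_, ?_⟩
  · intro i hi T
    unfold om
    rw [div_le_one hcc]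
    have h1 := ENNReal.toReal_mono ENNReal.ofReal_ne_top ((hle i T).trans (hfin i hi T))
    rw [ENNReal.toReal_ofReal (by positivity)] at h1
    unfold cc
    linarith
  · intro i T hne
    by_contra hcon
    apply hne
    unfold om
    rw [if_neg hcon]
    simp
  · intro T
    unfold om
    rw [← Finset.sum_div, ← ENNReal.toReal_sum]
    · have h1 : ∑ i ∈ I, (if MN h r1 K s1 s2 δ P1 P i T then
          wT (k + 4) h (an r1) (an (dl * r1)) (an r1 * r1) P i T.2 else 0) ≤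
          ENNReal.ofReal (216 * (dl⁻¹) ^ 3 * (36 * cdec)) :=
        (Finset.sum_le_sum fun i _ => hle i T).trans (tot_wT hr0 hdl hdl1 hP hρ hρ' k T.2)
      have h2 := ENNReal.toReal_mono ENNReal.ofReal_ne_top h1
      rw [ENNReal.toReal_ofReal (by positivity)] at h2
      rw [div_le_iff₀ hcc]
      refine h2.trans (mul_le_mul_of_nonneg_left ?_ (by positivity))
      unfold cc
      linarith
    · intro i hi
      exact ne_top_of_le_ne_top ENNReal.ofReal_ne_top ((hle i T).trans (hfin i hi T))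

end Crest.Agent.R138.Mh448
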