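import Crest.Agent.R138.Mis_535

/-!
# R138 / R139: misaligned plates, energy form and numerology (helper535)
-/

set_option autoImplicit false

namespace Crest.Agent.R138.Mis535

open MeasureTheory Crest.Agent.R138.Tub70

open Classical in
/-- D-max for a dilated box. -/
theorem dens_dil {ι : Type} {θ r q D : ℝ} (hr : 0 < r) (hθ : 0 < θ)
    (I : Finset ι) (c y : ι → E2) (μ : ι → ℝ) (hμ : ∀ i, 0 ≤ μ i)
    (hdm : ∀ (b : OrthonormalBasis (Fin 2) ℝ E2) (s1 s2 : ℝ) (c0 y0 : E2),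
        θ ≤ s1 → s1 ≤ 1 → θ ≤ s2 → s2 ≤ 1 →
          ∑ i ∈ I with PB r b s1 s2 c0 y0 (c i) (y i), μ i ≤ D * (max s1 s2) ^ q * (s1 * s2 * r ^ 2))
    (b : OrthonormalBasis (Fin 2) ℝ E2) {s1 s2 : ℝ} (c0 y0 : E2)
    (h1 : θ ≤ s1) (h1' : s1 ≤ 1) (h2 : θ ≤ s2) (h2' : s2 ≤ 1) {K : ℝ} (hK : 1 ≤ K) :
    ∑ i ∈ I with PB r b (K * s1) (K * s2) c0 y0 (c i) (y i), μ i ≤
      81 * K ^ 4 * (D * (max s1 s2) ^ q * (s1 * s2 * r ^ 2)) := by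
  have p1 : 0 < s1 := hθ.trans_le h1
  have p2 : 0 < s2 := hθ.trans_le h2
  set kx : ℝ → ℝ → ℤ := fun s x => round (x / (2 * s)) with hkx
  have hk1 : ∀ s x : ℝ, 0 < s → |x - 2 * s * (kx s x : ℝ)| ≤ s := by
    intro s x hs
    have h3 := abs_sub_round (x / (2 * s))
    have e : x - 2 * s * (kx s x : ℝ) = (2 * s) * (x / (2 * s) - round (x / (2 * s))) := by
      simp only [hkx]
      field_simp
    rw [e, abs_mul, abs_of_pos (by positivity)]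
    nlinarith
  have hk2 : ∀ s x : ℝ, 0 < s → |x| ≤ K * s → kx s x ∈ Finset.Icc (-⌊K⌋) ⌊K⌋ := by
    intro s x hs hx
    have h3 := abs_sub_round (x / (2 * s))
    have h4 : |x / (2 * s)| ≤ K / 2 := by
      rw [abs_div, abs_of_pos (by positivity : 0 < 2 * s), div_le_iff₀ (by positivity)]
      linarith
    have h5 : |(round (x / (2 * s)) : ℝ)| ≤ K := by
      have h6 := abs_sub_abs_le_abs_sub ((round (x / (2*s)) : ℤ) : ℝ) (x / (2 * s))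
      rw [abs_sub_comm ((round (x / (2*s)) : ℤ) : ℝ)] at h6
      linarith
    rw [abs_le] at h5
    rw [Finset.mem_Icc]
    have h7 : round (x / (2 * s)) ≤ ⌊K⌋ := Int.le_floor.2 h5.2
    have h8 : -round (x / (2 * s)) ≤ ⌊K⌋ := Int.le_floor.2 (by push_cast; linarith [h5.1])
    exact ⟨by linarith, h7⟩
  set J : Finset ((ℤ × ℤ) × (ℤ × ℤ)) := (Finset.Icc (-⌊K⌋) ⌊K⌋ ×ˢ Finset.Icc (-⌊K⌋) ⌊K⌋) ×ˢ
    (Finset.Icc (-⌊K⌋) ⌊K⌋ ×ˢ Finset.Icc (-⌊K⌋) ⌊K⌋) with hJ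
  have hfl : (⌊K⌋ : ℝ) ≤ K := Int.floor_le K
  have hfl1 : (1 : ℤ) ≤ ⌊K⌋ := Int.le_floor.2 (by simpa using hK)
  have hcard1 : ((Finset.Icc (-⌊K⌋) ⌊K⌋).card : ℝ) ≤ 3 * K := by
    rw [Int.card_Icc]
    have h0 : (0 : ℤ) ≤ ⌊K⌋ + 1 - -⌊K⌋ := by omega
    have h3 : (((⌊K⌋ + 1 - -⌊K⌋).toNat : ℤ) : ℝ) = ((⌊K⌋ + 1 - -⌊K⌋ : ℤ) : ℝ) := by
      rw [Int.toNat_of_nonneg h0]
    push_cast at h3
    rw [← Int.cast_natCast (R := ℝ)]
    push_cast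
    linarith
  have hcard : (J.card : ℝ) ≤ 81 * K ^ 4 := by
    rw [hJ, Finset.card_product, Finset.card_product]
    push_cast
    have h0 : (0 : ℝ) ≤ ((Finset.Icc (-⌊K⌋) ⌊K⌋).card : ℝ) := Nat.cast_nonneg _
    calc _ ≤ ((3 * K) * (3 * K)) * ((3 * K) * (3 * K)) := by gcongr
      _ = _ := by ring
  set L : ι → (ℤ × ℤ) × (ℤ × ℤ) := fun i =>
    ((kx s1 (inner ℝ (c i - c0) (b 0)), kx s2 (inner ℝ (c i - c0) (b 1))),
      (kx (s1 * r) (inner ℝ (y i - y0) (b 0)), kx (s2 * r) (inner ℝ (y i - y0) (b 1)))) with hL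
  have hnn : 0 ≤ D * (max s1 s2) ^ q * (s1 * s2 * r ^ 2) := by
    refine le_trans ?_ (hdm b s1 s2 c0 y0 h1 h1' h2 h2')
    exact Finset.sum_nonneg fun i _ => hμ i
  have hmain := sum_le_card_mul (I.filter (fun i => PB r b (K * s1) (K * s2) c0 y0 (c i) (y i))) J L μ
    (B := D * (max s1 s2) ^ q * (s1 * s2 * r ^ 2)) ?_ ?_
  · exact hmain.trans (mul_le_mul_of_nonneg_right hcard hnn)
  · intro i hi
    rw [Finset.mem_filter] at hi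
    obtain ⟨_, g1, g2, g3, g4⟩ := hi
    rw [hJ, hL, Finset.mem_product, Finset.mem_product, Finset.mem_product]
    refine ⟨⟨hk2 _ _ p1 g1, hk2 _ _ p2 g2⟩, hk2 _ _ (by positivity) ?_, hk2 _ _ (by positivity) ?_⟩
    · rw [← mul_assoc]; exact g3
    · rw [← mul_assoc]; exact g4
  · intro j _
    set cj : E2 := c0 + vec b ![2 * s1 * (j.1.1 : ℝ), 2 * s2 * (j.1.2 : ℝ)] with hcj
    set yj : E2 := y0 + vec b ![2 * (s1 * r) * (j.2.1 : ℝ), 2 * (s2 * r) * (j.2.2 : ℝ)] with hyj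
    refine le_trans ?_ (hdm b s1 s2 cj yj h1 h1' h2 h2')
    apply Finset.sum_le_sum_of_subset_of_nonneg
    · intro i hi
      rw [Finset.mem_filter, Finset.mem_filter] at hi
      obtain ⟨⟨hi1, _⟩, hLi⟩ := hi
      rw [Finset.mem_filter]
      refine ⟨hi1, ?_⟩
      rw [hL] at hLi
      have e1 : kx s1 (inner ℝ (c i - c0) (b 0)) = j.1.1 := by rw [← hLi]
      have e2 : kx s2 (inner ℝ (c i - c0) (b 1)) = j.1.2 := by rw [← hLi]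
      have e3 : kx (s1 * r) (inner ℝ (y i - y0) (b 0)) = j.2.1 := by rw [← hLi]
      have e4 : kx (s2 * r) (inner ℝ (y i - y0) (b 1)) = j.2.2 := by rw [← hLi]
      have sub : ∀ (u v t : E2) (k : Fin 2), inner ℝ (u - (v + t)) (b k) =
          (inner ℝ (u - v) (b k) : ℝ) - inner ℝ t (b k) := by
        intro u v t k
        rw [← sub_sub, inner_sub_left]
      refine ⟨?_, ?_, ?_, ?_⟩
      · rw [hcj, sub, inner_vec, ← e1]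
        exact hk1 _ _ p1
      · rw [hcj, sub, inner_vec, ← e2]
        exact hk1 _ _ p2
      · rw [hyj, sub, inner_vec, ← e3]
        exact hk1 _ _ (by positivity)
      · rw [hyj, sub, inner_vec, ← e4]
        exact hk1 _ _ (by positivity)
    · intro i _ _
      exact hμ i

section real

theorem phi_le {ρ t A K Gm a1 b1 : ℝ} (hρ : 0 < ρ) (ht : 0 < t) (ht1 : t ≤ 1) (hA : 0 ≤ A)
    (hAK : A ≤ K) (hG : 1 ≤ Gm) (ha0 : 0 ≤ a1) (ha : a1 ≤ Gm * ρ)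
    (hb : b1 ≤ Gm * (t⁻¹ * ρ)) :
    2 * (A * a1 + K * b1) / t ≤ 4 * (K * Gm) * ρ / t ^ 2 := by
  have hK : 0 ≤ K := hA.trans hAK
  have h1 : A * a1 ≤ K * (Gm * (t⁻¹ * ρ)) := by
    refine (mul_le_mul hAK ha ha0 hK).trans ?_
    refine mul_le_mul_of_nonneg_left (mul_le_mul_of_nonneg_left ?_ (by linarith)) hK
    have : 1 ≤ t⁻¹ := (one_le_inv₀ ht).2 ht1
    nlinarith
  have h2 : K * b1 ≤ K * (Gm * (t⁻¹ * ρ)) := mul_le_mul_of_nonneg_left hb hK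
  rw [div_le_div_iff₀ ht (by positivity)]
  have h3 : 2 * (A * a1 + K * b1) ≤ 4 * (K * Gm) * ρ * t⁻¹ := by
    have e : K * (Gm * (t⁻¹ * ρ)) = K * Gm * ρ * t⁻¹ := by ring
    rw [e] at h1 h2
    linarith
  calc 2 * (A * a1 + K * b1) * t ^ 2 ≤ 4 * (K * Gm) * ρ * t⁻¹ * t ^ 2 :=
        mul_le_mul_of_nonneg_right h3 (by positivity)
    _ = 4 * (K * Gm) * ρ * t := by field_simp

theorem brk {q ε ρ r1 dl Gm K φ0 mn G : ℝ} (hq : 0 < q) (hε : 0 < ε) (hr1 : 1 ≤ r1)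
    (hρ : ρ = r1 ^ (-(1/2) : ℝ)) (hdl : 0 < dl) (hdl1 : dl ≤ 1) (hG : 1 ≤ Gm) (hK : 1 ≤ K)
    (hφ0 : 0 < φ0) (hφ : φ0 ≤ 4 * (K * Gm) * ρ / dl) (hmn : dl ^ (-G) * ρ ≤ mn)
    (hGq : 27 / 2 ≤ (G - 1) * (q / 2)) :
    ρ ^ (-ε) * (dl ^ 10 * dl ^ 5) ^ (-(1/2) : ℝ) * (φ0 * r1 / (ρ * r1)) *
      (24 * φ0 / mn) ^ (q / 2) ≤ 4 * 96 ^ (q / 2) * r1 ^ ε * (K * Gm) ^ (1 + q / 2) * dl ^ 5 := by
  have hr0 : 0 < r1 := by linarith
  have pρ : 0 < ρ := by rw [hρ]; exact Real.rpow_pos_of_pos hr0 _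
  have hKG : 0 < K * Gm := by positivity
  have pd : 0 < dl ^ (-G) := Real.rpow_pos_of_pos hdl _
  have pmn : 0 < mn := (mul_pos pd pρ).trans_le hmn
  have e1 : ρ ^ (-ε) ≤ r1 ^ ε := by
    rw [hρ, ← Real.rpow_mul hr0.le]
    exact Real.rpow_le_rpow_of_exponent_le hr1 (by linarith)
  have e2 : (dl ^ 10 * dl ^ 5) ^ (-(1/2) : ℝ) = dl ^ (-(15/2) : ℝ) := by
    rw [← pow_add, ← Real.rpow_natCast, ← Real.rpow_mul hdl.le]
    norm_num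
  have e3 : φ0 * r1 / (ρ * r1) ≤ 4 * (K * Gm) * dl ^ (-1 : ℝ) := by
    rw [mul_div_mul_right _ _ hr0.ne', div_le_iff₀ pρ, Real.rpow_neg_one]
    calc φ0 ≤ 4 * (K * Gm) * ρ / dl := hφ
      _ = _ := by field_simp
  have e4 : 24 * φ0 / mn ≤ 96 * (K * Gm) * dl ^ (G - 1) := by
    have h1 : 24 * φ0 / mn ≤ 24 * (4 * (K * Gm) * ρ / dl) / (dl ^ (-G) * ρ) := by
      gcongr
    refine h1.trans (le_of_eq ?_)
    have h2 : dl ^ (G - 1) = dl ^ G / dl := by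
      rw [Real.rpow_sub hdl, Real.rpow_one]
    have h3 : dl ^ (-G) = (dl ^ G)⁻¹ := Real.rpow_neg hdl.le _
    have h4 : 0 < dl ^ G := Real.rpow_pos_of_pos hdl _
    rw [h2, h3]
    field_simp
    norm_num
  have e5 : (24 * φ0 / mn) ^ (q / 2) ≤ 96 ^ (q / 2) * (K * Gm) ^ (q / 2) * dl ^ (27 / 2 : ℝ) := by
    have h1 : 0 ≤ 24 * φ0 / mn := by positivity
    refine (Real.rpow_le_rpow h1 e4 (by positivity)).trans ?_
    rw [Real.mul_rpow (by positivity) (Real.rpow_nonneg hdl.le _), Real.mul_rpow (by norm_num)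
      hKG.le, ← Real.rpow_mul hdl.le]
    refine mul_le_mul_of_nonneg_left ?_ (by positivity)
    exact Real.rpow_le_rpow_of_exponent_ge hdl hdl1 hGq
  have p1 : 0 < ρ ^ (-ε) := Real.rpow_pos_of_pos pρ _
  have p2 : 0 < dl ^ (-(15/2) : ℝ) := Real.rpow_pos_of_pos hdl _
  have p3 : 0 < r1 ^ ε := Real.rpow_pos_of_pos hr0 _
  have p4 : 0 ≤ (24 * φ0 / mn) ^ (q / 2) := Real.rpow_nonneg (by positivity) _
  rw [e2]
  calc ρ ^ (-ε) * dl ^ (-(15/2) : ℝ) * (φ0 * r1 / (ρ * r1)) * (24 * φ0 / mn) ^ (q / 2)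
      ≤ r1 ^ ε * dl ^ (-(15/2) : ℝ) * (4 * (K * Gm) * dl ^ (-1 : ℝ)) *
        (96 ^ (q / 2) * (K * Gm) ^ (q / 2) * dl ^ (27 / 2 : ℝ)) := by
        have : 0 ≤ φ0 * r1 / (ρ * r1) := by positivity
        have h0 : 0 ≤ 4 * (K * Gm) * dl ^ (-1 : ℝ) := by
          have := Real.rpow_nonneg hdl.le (-1)
          positivity
        gcongr
    _ = 4 * 96 ^ (q / 2) * r1 ^ ε * ((K * Gm) ^ (1 : ℝ) * (K * Gm) ^ (q / 2)) *
        (dl ^ (-(15/2) : ℝ) * dl ^ (-1 : ℝ) * dl ^ (27 / 2 : ℝ)) := by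
        rw [Real.rpow_one]; ring
    _ = _ := by
        rw [← Real.rpow_add hKG, ← Real.rpow_add hdl, ← Real.rpow_add hdl, ← Real.rpow_natCast]
        norm_num

/-- `3/2` powers. -/
theorem pow32 {e B : ℝ} (he : 0 ≤ e) (h : e ≤ B) : e ^ (3/2 : ℝ) ≤ Real.sqrt B * e := by
  have h6 : e ^ (3/2 : ℝ) = Real.sqrt e * e := by
    rw [Real.sqrt_eq_rpow, ← Real.rpow_add_one' he (by norm_num)]
    norm_num
  rw [h6]
  exact mul_le_mul_of_nonneg_right (Real.sqrt_le_sqrt h) he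

/-- the normalisation. -/
theorem norm_val {q b1 b2 D r1 k : ℝ} (hb1 : 0 < b1) (hb2 : 0 < b2) (hD : 0 ≤ D) (hr1 : 0 < r1)
    (hk : 0 ≤ k) :
    b2 ^ (-q / 2) * (b1 * b2) ^ (-(1/2) : ℝ) *
      Real.sqrt (k * (D * b2 ^ q * (b1 * b2 * r1 ^ 2))) = Real.sqrt k * (r1 * Real.sqrt D) := by
  have p : 0 < b2 ^ q := Real.rpow_pos_of_pos hb2 _
  have h1 : Real.sqrt (b2 ^ q) = b2 ^ (q / 2) := by
    rw [Real.sqrt_eq_rpow, ← Real.rpow_mul hb2.le]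
    congr 1; ring
  have h2 : b2 ^ (-q / 2) = (b2 ^ (q / 2))⁻¹ := by
    rw [← Real.rpow_neg hb2.le]
    congr 1; ring
  have h3 : (b1 * b2) ^ (-(1/2) : ℝ) = (Real.sqrt (b1 * b2))⁻¹ := by
    rw [Real.sqrt_eq_rpow, ← Real.rpow_neg (by positivity)]
  have p2 : 0 < b2 ^ (q / 2) := Real.rpow_pos_of_pos hb2 _
  have p3 : 0 < Real.sqrt (b1 * b2) := Real.sqrt_pos.2 (by positivity)
  rw [Real.sqrt_mul hk, Real.sqrt_mul (by positivity), Real.sqrt_mul hD,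
    Real.sqrt_mul (by positivity), Real.sqrt_sq hr1.le, h1, h2, h3]
  field_simp

end real

theorem fin_num {q C1 dl K M0 c0 Gm G X r1 ε m T SE SR W U rD : ℝ} (hq : 0 < q) (hC1 : 0 ≤ C1)
    (hdl : 0 < dl) (hK : 1 ≤ K) (hM0 : 0 ≤ M0) (hc0 : 0 < c0) (hc01 : c0 ≤ 1)
    (hGm : 1 ≤ Gm) (hG : 1 + q / 2 ≤ G) (hX : X = K / c0) (hr1 : 1 ≤ r1) (hε : 0 < ε) (hm : 0 ≤ m)
    (hW : 0 ≤ W) (hrD : 0 ≤ rD)
    (hWU : ∀ k : ℝ, 0 ≤ k → W * Real.sqrt (k * U) = Real.sqrt k * rD)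
    (hT : T ≤ Real.sqrt (dl ^ 10 * (K ^ q * K ^ 2) * U) * SE + Real.sqrt (81 * K ^ 4 * U) * SR)
    (hSE : SE ≤ M0 * (dl⁻¹) ^ 3 * m)
    (hSR : SR ≤ C1 * (M0 * (dl⁻¹) ^ 3) *
      (4 * 96 ^ (q / 2) * r1 ^ ε * (K * Gm) ^ (1 + q / 2) * dl ^ 5 +
        dl ^ 5 * (K ^ q * K ^ 2 / c0)) * m) :
    W * T ≤ (1 + 9 * C1 * (4 * 96 ^ (q / 2) + 1) + 9 * 144) * M0 * r1 ^ ε * X ^ (q + 6) * Gm ^ G *
      dl ^ 2 * rD * m := by
  have hK0 : 0 < K := by linarith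
  have hKX : K ≤ X := by
    rw [hX, le_div_iff₀ hc0]; nlinarith
  have hX1 : 1 ≤ X := hK.trans hKX
  have hX0 : 0 < X := by linarith
  have hcX : c0⁻¹ ≤ X := by
    rw [hX, div_eq_mul_inv]
    exact le_mul_of_one_le_left (inv_nonneg.2 hc0.le) hK
  have h96 : (0 : ℝ) < 96 ^ (q / 2) := by positivity
  have hrp : 1 ≤ r1 ^ ε := Real.one_le_rpow hr1 hε.le
  have hGp : 1 ≤ Gm ^ G := Real.one_le_rpow hGm (by linarith)
  have hXp : 1 ≤ X ^ (q + 6) := Real.one_le_rpow hX1 (by positivity)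
  have hGm0 : 0 < Gm := by linarith
  have s1 : Real.sqrt (dl ^ 10 * (K ^ q * K ^ 2)) = dl ^ 5 * (K ^ (q / 2) * K) := by
    have e : dl ^ 10 * (K ^ q * K ^ 2) = (dl ^ 5 * (K ^ (q / 2) * K)) ^ 2 := by
      have : K ^ q = K ^ (q / 2) * K ^ (q / 2) := by
        rw [← Real.rpow_add hK0]; congr 1; ring
      rw [this]; ring
    rw [e]
    exact Real.sqrt_sq (by positivity)
  have s2 : Real.sqrt (81 * K ^ 4) = 9 * K ^ 2 := by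
    rw [show (81 : ℝ) * K ^ 4 = (9 * K ^ 2) ^ 2 by ring]
    exact Real.sqrt_sq (by positivity)
  have h1 : W * T ≤ dl ^ 5 * (K ^ (q / 2) * K) * rD * SE + 9 * K ^ 2 * rD * SR := by
    have e1 := hWU (dl ^ 10 * (K ^ q * K ^ 2)) (by positivity)
    have e2 := hWU (81 * K ^ 4) (by positivity)
    rw [s1] at e1
    rw [s2] at e2
    calc W * T ≤ W * (Real.sqrt (dl ^ 10 * (K ^ q * K ^ 2) * U) * SE +
          Real.sqrt (81 * K ^ 4 * U) * SR) := mul_le_mul_of_nonneg_left hT hW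
      _ = (W * Real.sqrt (dl ^ 10 * (K ^ q * K ^ 2) * U)) * SE +
          (W * Real.sqrt (81 * K ^ 4 * U)) * SR := by ring
      _ = _ := by rw [e1, e2]
  have t1 : K ^ (q / 2) * K ≤ X ^ (q + 6) := by
    calc K ^ (q / 2) * K ≤ X ^ (q / 2) * X :=
          mul_le_mul (Real.rpow_le_rpow hK0.le hKX (by positivity)) hKX hK0.le (by positivity)
      _ = X ^ (q / 2 + 1) := (Real.rpow_add_one hX0.ne' _).symm
      _ ≤ _ := Real.rpow_le_rpow_of_exponent_le hX1 (by linarith)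
  have t2 : K ^ 2 * (K * Gm) ^ (1 + q / 2) ≤ X ^ (q + 6) * Gm ^ G := by
    rw [Real.mul_rpow hK0.le hGm0.le, ← mul_assoc]
    refine mul_le_mul ?_ (Real.rpow_le_rpow_of_exponent_le hGm hG) (by positivity) (by positivity)
    calc K ^ 2 * K ^ (1 + q / 2) = K ^ (2 + (1 + q / 2)) := by
          rw [Real.rpow_add hK0 2, Real.rpow_ofNat]
      _ ≤ X ^ (2 + (1 + q / 2)) := Real.rpow_le_rpow hK0.le hKX (by positivity)
      _ ≤ _ := Real.rpow_le_rpow_of_exponent_le hX1 (by linarith)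
  have t3 : K ^ 2 * (K ^ q * K ^ 2 / c0) ≤ X ^ (q + 6) := by
    calc K ^ 2 * (K ^ q * K ^ 2 / c0) = K ^ q * K ^ 4 * c0⁻¹ := by
          rw [div_eq_mul_inv]; ring
      _ ≤ X ^ q * X ^ 4 * X := by
          have : K ^ q ≤ X ^ q := Real.rpow_le_rpow hK0.le hKX hq.le
          have : K ^ 4 ≤ X ^ 4 := pow_le_pow_left₀ hK0.le hKX 4
          gcongr
      _ = X ^ (q + 5) := by
          rw [Real.rpow_add hX0, Real.rpow_ofNat]; ring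
      _ ≤ _ := Real.rpow_le_rpow_of_exponent_le hX1 (by linarith)
  have hdi : dl ^ 5 * (dl⁻¹) ^ 3 = dl ^ 2 := by
    field_simp
  have hB : 0 ≤ M0 * dl ^ 2 * rD * m := by positivity
  have hXG : 1 ≤ r1 ^ ε * X ^ (q + 6) * Gm ^ G := by
    have := mul_le_mul (mul_le_mul hrp hXp zero_le_one (by linarith)) hGp zero_le_one (by positivity)
    simpa using this
  have g1 : dl ^ 5 * (K ^ (q / 2) * K) * rD * SE ≤
      (r1 ^ ε * X ^ (q + 6) * Gm ^ G) * (M0 * dl ^ 2 * rD * m) := by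
    calc dl ^ 5 * (K ^ (q / 2) * K) * rD * SE
        ≤ dl ^ 5 * (K ^ (q / 2) * K) * rD * (M0 * (dl⁻¹) ^ 3 * m) :=
          mul_le_mul_of_nonneg_left hSE (by positivity)
      _ = (K ^ (q / 2) * K) * (M0 * (dl ^ 5 * (dl⁻¹) ^ 3) * rD * m) := by ring
      _ = (K ^ (q / 2) * K) * (M0 * dl ^ 2 * rD * m) := by rw [hdi]
      _ ≤ (r1 ^ ε * X ^ (q + 6) * Gm ^ G) * (M0 * dl ^ 2 * rD * m) := by
          refine mul_le_mul_of_nonneg_right (t1.trans ?_) hB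
          calc X ^ (q + 6) = 1 * X ^ (q + 6) * 1 := by ring
            _ ≤ r1 ^ ε * X ^ (q + 6) * Gm ^ G := by gcongr
  have g2 : 9 * K ^ 2 * rD * SR ≤ (9 * C1 * (4 * 96 ^ (q / 2) + 1)) *
      (r1 ^ ε * X ^ (q + 6) * Gm ^ G) * (M0 * dl ^ 2 * rD * m) := by
    calc 9 * K ^ 2 * rD * SR ≤ 9 * K ^ 2 * rD * (C1 * (M0 * (dl⁻¹) ^ 3) *
          (4 * 96 ^ (q / 2) * r1 ^ ε * (K * Gm) ^ (1 + q / 2) * dl ^ 5 +
          dl ^ 5 * (K ^ q * K ^ 2 / c0)) * m) := mul_le_mul_of_nonneg_left hSR (by positivity)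
      _ = 9 * C1 * (4 * 96 ^ (q / 2) * r1 ^ ε * (K ^ 2 * (K * Gm) ^ (1 + q / 2)) +
          K ^ 2 * (K ^ q * K ^ 2 / c0)) * (M0 * (dl ^ 5 * (dl⁻¹) ^ 3) * rD * m) := by ring
      _ = 9 * C1 * (4 * 96 ^ (q / 2) * r1 ^ ε * (K ^ 2 * (K * Gm) ^ (1 + q / 2)) +
          K ^ 2 * (K ^ q * K ^ 2 / c0)) * (M0 * dl ^ 2 * rD * m) := by rw [hdi]
      _ ≤ 9 * C1 * (4 * 96 ^ (q / 2) * r1 ^ ε * (X ^ (q + 6) * Gm ^ G) +
          1 * X ^ (q + 6) * 1) * (M0 * dl ^ 2 * rD * m) := by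
          rw [one_mul, mul_one]
          gcongr
      _ ≤ 9 * C1 * (4 * 96 ^ (q / 2) * r1 ^ ε * (X ^ (q + 6) * Gm ^ G) +
          r1 ^ ε * X ^ (q + 6) * Gm ^ G) * (M0 * dl ^ 2 * rD * m) := by
          gcongr
      _ = _ := by ring
  have g3 : 0 ≤ (9 * 144) * (r1 ^ ε * X ^ (q + 6) * Gm ^ G) * (M0 * dl ^ 2 * rD * m) := by
    positivity
  calc W * T ≤ _ := h1
    _ ≤ _ := add_le_add g1 g2
    _ ≤ (r1 ^ ε * X ^ (q + 6) * Gm ^ G) * (M0 * dl ^ 2 * rD * m) +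
        (9 * C1 * (4 * 96 ^ (q / 2) + 1)) * (r1 ^ ε * X ^ (q + 6) * Gm ^ G) *
          (M0 * dl ^ 2 * rD * m) +
        (9 * 144) * (r1 ^ ε * X ^ (q + 6) * Gm ^ G) * (M0 * dl ^ 2 * rD * m) := by linarith
    _ = _ := by ring

/-- the trivial case. -/
theorem triv_num {q C1 dl K M0 c0 Gm G X r1 ε m ρ φ0 rD : ℝ} (hq : 0 < q) (hC1 : 0 ≤ C1)
    (hdl : 0 < dl) (hdl1 : dl ≤ 1) (hdlG : dl ^ (-G) ≤ r1) (hK : 1 ≤ K) (hM0 : 0 ≤ M0)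
    (hc0 : 0 < c0) (hc01 : c0 ≤ 1)
    (hGm : 1 ≤ Gm) (hG : 7 ≤ G) (hX : X = K / c0) (hr1 : 1 ≤ r1) (hε : 0 < ε) (hm : 0 ≤ m)
    (hrD : 0 ≤ rD) (hρ : ρ = r1 ^ (-(1/2) : ℝ)) (hφ : φ0 ≤ 4 * (K * Gm) * ρ / dl)
    (h3 : 1 < 3 * φ0) :
    9 * K ^ 2 * rD * (M0 * (dl⁻¹) ^ 3 * m) ≤
      (1 + 9 * C1 * (4 * 96 ^ (q / 2) + 1) + 9 * 144) * M0 * r1 ^ ε * X ^ (q + 6) * Gm ^ G *
      dl ^ 2 * rD * m := by
  have hr0 : 0 < r1 := by linarith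
  have hK0 : 0 < K := by linarith
  have hKX : K ≤ X := by
    rw [hX, le_div_iff₀ hc0]; nlinarith
  have hX1 : 1 ≤ X := hK.trans hKX
  have h96 : (0 : ℝ) < 96 ^ (q / 2) := by positivity
  have hrp : 1 ≤ r1 ^ ε := Real.one_le_rpow hr1 hε.le
  have h4 : 1 < 12 * (K * Gm) * (ρ / dl) := by
    calc 1 < 3 * φ0 := h3
      _ ≤ 3 * (4 * (K * Gm) * ρ / dl) := by linarith
      _ = _ := by ring
  have h5 : ρ ^ 2 = r1⁻¹ := by
    rw [hρ, ← Real.rpow_natCast, ← Real.rpow_mul hr0.le, ← Real.rpow_neg_one]; norm_num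
  have pdG : 0 < dl ^ G := Real.rpow_pos_of_pos hdl _
  have h6 : r1⁻¹ ≤ dl ^ G := by
    rw [Real.rpow_neg hdl.le] at hdlG
    rw [inv_le_comm₀ hr0 pdG]
    exact hdlG
  have h7 : dl ^ G ≤ dl ^ 7 := by
    rw [← Real.rpow_natCast]
    exact Real.rpow_le_rpow_of_exponent_ge hdl hdl1 (by exact_mod_cast hG)
  have h8 : 1 ≤ (12 * (K * Gm) * (ρ / dl)) ^ 2 := one_le_pow₀ h4.le
  have h9 : (12 * (K * Gm) * (ρ / dl)) ^ 2 ≤ 144 * (K ^ 2 * Gm ^ 2) * dl ^ 5 := by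
    have e : (12 * (K * Gm) * (ρ / dl)) ^ 2 = 144 * (K ^ 2 * Gm ^ 2) * (ρ ^ 2 / dl ^ 2) := by
      ring
    rw [e, h5]
    refine mul_le_mul_of_nonneg_left ?_ (by positivity)
    rw [div_le_iff₀ (by positivity)]
    calc r1⁻¹ ≤ dl ^ 7 := h6.trans h7
      _ = _ := by ring
  have h10 : (dl⁻¹) ^ 3 ≤ 144 * (K ^ 2 * Gm ^ 2) * dl ^ 2 := by
    have h11 : 1 ≤ 144 * (K ^ 2 * Gm ^ 2) * dl ^ 5 := h8.trans h9
    rw [inv_pow, inv_le_iff_one_le_mul₀ (by positivity)]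
    calc 1 ≤ 144 * (K ^ 2 * Gm ^ 2) * dl ^ 5 := h11
      _ = _ := by ring
  have h12 : Gm ^ 2 ≤ Gm ^ G := by
    rw [← Real.rpow_natCast]
    exact Real.rpow_le_rpow_of_exponent_le hGm (by push_cast; linarith)
  have h13 : K ^ 4 ≤ X ^ (q + 6) := by
    calc K ^ 4 ≤ X ^ 4 := pow_le_pow_left₀ hK0.le hKX 4
      _ = X ^ ((4 : ℕ) : ℝ) := (Real.rpow_natCast _ _).symm
      _ ≤ X ^ (q + 6) := Real.rpow_le_rpow_of_exponent_le hX1 (by push_cast; linarith)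
  have h14 : (9 : ℝ) * 144 ≤ 1 + 9 * C1 * (4 * 96 ^ (q / 2) + 1) + 9 * 144 := by
    have : 0 ≤ 9 * C1 * (4 * 96 ^ (q / 2) + 1) := by positivity
    linarith
  calc 9 * K ^ 2 * rD * (M0 * (dl⁻¹) ^ 3 * m)
      ≤ 9 * K ^ 2 * rD * (M0 * (144 * (K ^ 2 * Gm ^ 2) * dl ^ 2) * m) := by
        gcongr
    _ = (9 * 144) * M0 * 1 * K ^ 4 * Gm ^ 2 * dl ^ 2 * rD * m := by ring
    _ ≤ (1 + 9 * C1 * (4 * 96 ^ (q / 2) + 1) + 9 * 144) * M0 * r1 ^ ε * X ^ (q + 6) * Gm ^ G *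
        dl ^ 2 * rD * m := by
        gcongr

end Crest.Agent.R138.Mis535
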