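import Crest.Agent.R138.Mis2A_535

/-!
# R138 / R139: misaligned plates, energy form `mis_E` (helper535)
-/

set_option autoImplicit false
namespace Crest.Agent.R138.Mis535
open MeasureTheory Crest.Agent.R138.Tub70

open Classical in
set_option maxHeartbeats 1000000 in
/-- **misaligned plates are negligible**, energy form: rich and poor plates, all parameters. -/
theorem mis_E {V : ℝ} (hKM : KM32 V) {q A : ℝ} (hq : 0 < q) (hA : 1 ≤ A) : ∃ G : ℝ, 1 ≤ G ∧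
    ∀ ε : ℝ, 0 < ε → ∃ C G' : ℝ, 0 ≤ C ∧ 0 ≤ G' ∧
    ∀ (r1 ρ dl Gm K M0 c0 D a1 a2 b1 b2 : ℝ), 1 ≤ r1 → ρ = r1 ^ (-(1/2) : ℝ) → 0 < dl → dl ≤ 1 →
      dl ^ (-G) ≤ r1 → 1 ≤ Gm → A ≤ K → 0 ≤ M0 → 0 < c0 → c0 ≤ 1 → 0 ≤ D →
      ρ ≤ a1 → a1 ≤ a2 → a2 ≤ 1 → ρ ≤ b1 → b1 ≤ b2 → b2 ≤ 1 → a1 ≤ Gm * ρ →
      b1 ≤ Gm * (dl ^ (-(1/2) : ℝ) * ρ) → dl ^ (-G) * ρ ≤ a2 → dl ^ (-G) * ρ ≤ b2 →
    ∀ (ι κ α : Type) (I : Finset ι) (c y : ι → E2) (μ : ι → ℝ), (∀ i, 0 ≤ μ i) →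
      (∀ i ∈ I, ‖c i‖ ≤ V) → (∀ i ∈ I, ‖y i‖ ≤ V * r1) →
      (∀ (b : OrthonormalBasis (Fin 2) ℝ E2) (s1 s2 : ℝ) (c0 y0 : E2),
        ρ ≤ s1 → s1 ≤ 1 → ρ ≤ s2 → s2 ≤ 1 →
          ∑ i ∈ I with PB r1 b s1 s2 c0 y0 (c i) (y i), μ i ≤
            D * (max s1 s2) ^ q * (s1 * s2 * r1 ^ 2)) →
    ∀ (pl : ι → κ) (bP : κ → OrthonormalBasis (Fin 2) ℝ E2) (cP yP : κ → E2),
      (∀ i ∈ I, PB r1 (bP (pl i)) (A * a1) (A * a2) (cP (pl i)) (yP (pl i)) (c i) (y i)) →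
      (∀ i ∈ I, c0 * D * a2 ^ q * (a1 * a2 * r1 ^ 2) ≤ ∑ i' ∈ I with pl i' = pl i, μ i') →
    ∀ (J : Finset α) (om : α → ι → ℝ) (bA : α → OrthonormalBasis (Fin 2) ℝ E2)
      (cA yA : α → E2),
      (∀ a ∈ J, ∀ i ∈ I, 0 ≤ om a i) → (∀ a ∈ J, ∀ i ∈ I, om a i ≤ 1) →
      (∀ a ∈ J, ∀ i ∈ I, om a i ≠ 0 → PB r1 (bA a) (K * b1) (K * b2) (cA a) (yA a) (c i) (y i)) →
      (∀ a ∈ J, ∀ i ∈ I, om a i ≠ 0 → dl ^ (1/2 : ℝ) ≤ |sn (bP (pl i) 0) (bA a 0)|) →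
      (∀ i ∈ I, ∑ a ∈ J, om a i ≤ M0 * (dl⁻¹) ^ 3) →
      b2 ^ (-q / 2) * (b1 * b2) ^ (-(1/2) : ℝ) * ∑ a ∈ J, (∑ i ∈ I, om a i * μ i) ^ (3/2 : ℝ) ≤
        C * M0 * r1 ^ ε * (K / c0) ^ G' * Gm ^ G * dl ^ 2 * (r1 * Real.sqrt D) *
          ∑ i ∈ I, μ i := by
  set G : ℝ := q + 10 + 30 / q with hGdef
  have hG1 : 1 ≤ G := by
    have : 0 < 30 / q := by positivity
    linarith
  have hGq : 27 / 2 ≤ (G - 1) * (q / 2) := by
    have e : (G - 1) * (q / 2) = q * q / 2 + 9 * q / 2 + 15 := by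
      rw [hGdef]; field_simp; ring
    rw [e]
    nlinarith
  have hG7 : 7 ≤ G := by
    have : 0 < 30 / q := by positivity
    linarith
  have hGq2 : 1 + q / 2 ≤ G := by
    have : 0 < 30 / q := by positivity
    linarith
  refine ⟨G, hG1, ?_⟩
  intro ε hε
  obtain ⟨C1, hC1, hfrac⟩ := mis_frac hKM ε hε
  have h96 : (0 : ℝ) < 96 ^ (q / 2) := by positivity
  refine ⟨1 + 9 * C1 * (4 * 96 ^ (q / 2) + 1) + 9 * 144, q + 6, by positivity, by positivity, ?_⟩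
  intro r1 ρ dl Gm K M0 c0 D a1 a2 b1 b2 hr1 hρ hdl hdl1 hdlG hGm hAK hM0 hc0 hc01 hD ha1 ha12 ha2
    hb1 hb12 hb2 ha1G hb1G ha2G hb2G ι κ α I c y μ hμ hc hy hdm pl bP cP yP hPB hdens J om bA cA yA
    hom0 hom1 hPBA hmis hmult
  have hr0 : 0 < r1 := by linarith
  have pρ : 0 < ρ := by rw [hρ]; exact Real.rpow_pos_of_pos hr0 _
  have hρ1 : ρ ≤ 1 := ha1.trans (ha12.trans ha2)
  have pa1 : 0 < a1 := pρ.trans_le ha1
  have pa2 : 0 < a2 := pa1.trans_le ha12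
  have pb1 : 0 < b1 := pρ.trans_le hb1
  have pb2 : 0 < b2 := pb1.trans_le hb12
  have hK1 : 1 ≤ K := hA.trans hAK
  have hK0 : 0 < K := by linarith
  have hA0 : 0 < A := by linarith
  have pdG : 1 ≤ dl ^ (-G) := Real.one_le_rpow_of_pos_of_le_one_of_nonpos hdl hdl1 (by linarith)
  set m : ℝ := ∑ i ∈ I, μ i with hm
  have hm0 : 0 ≤ m := Finset.sum_nonneg fun i _ => hμ i
  set E : α → ℝ := fun a => ∑ i ∈ I, om a i * μ i with hE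
  have hE0 : ∀ a ∈ J, 0 ≤ E a := fun a ha => Finset.sum_nonneg fun i hi =>
    mul_nonneg (hom0 a ha i hi) (hμ i)
  have hmax : max b1 b2 = b2 := max_eq_right hb12
  set U : ℝ := D * b2 ^ q * (b1 * b2 * r1 ^ 2) with hU
  have pbq : 0 < b2 ^ q := Real.rpow_pos_of_pos pb2 _
  have hU0 : 0 ≤ U := by positivity
  have hup : ∀ a ∈ J, E a ≤ 81 * K ^ 4 * U := by
    intro a ha
    have h1 := dens_dil hr0 pρ I c y μ hμ hdm (bA a) (cA a) (yA a) hb1 (hb12.trans hb2)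
      (hb1.trans hb12) hb2 hK1
    rw [hmax] at h1
    refine le_trans ?_ h1
    rw [Finset.sum_filter]
    refine Finset.sum_le_sum fun i hi => ?_
    by_cases ho : om a i = 0
    · rw [ho, zero_mul]
      split_ifs
      · exact hμ i
      · exact le_rfl
    · rw [if_pos (hPBA a ha i hi ho)]
      exact mul_le_of_le_one_left (hμ i) (hom1 a ha i hi)
  have hsum : ∑ a ∈ J, E a ≤ M0 * (dl⁻¹) ^ 3 * m :=
    sum_multw J I I om subset_rfl (fun a _ i hi _ => hi) μ (fun i _ => hμ i) hmult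
  set W : ℝ := b2 ^ (-q / 2) * (b1 * b2) ^ (-(1/2) : ℝ) with hW
  have hW0 : 0 ≤ W := by
    have := Real.rpow_nonneg pb2.le (-q / 2)
    have := Real.rpow_nonneg (mul_pos pb1 pb2).le (-(1/2))
    positivity
  have hWU : ∀ k : ℝ, 0 ≤ k → W * Real.sqrt (k * U) = Real.sqrt k * (r1 * Real.sqrt D) :=
    fun k hk => norm_val pb1 pb2 hD hr0 hk
  have hsD : 0 ≤ r1 * Real.sqrt D := by positivity
  -- trivial bound
  have htriv : W * ∑ a ∈ J, E a ^ (3/2 : ℝ) ≤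
      9 * K ^ 2 * (r1 * Real.sqrt D) * (M0 * (dl⁻¹) ^ 3 * m) := by
    have h1 : ∑ a ∈ J, E a ^ (3/2 : ℝ) ≤ Real.sqrt (81 * K ^ 4 * U) * ∑ a ∈ J, E a := by
      rw [Finset.mul_sum]
      exact Finset.sum_le_sum fun a ha => pow32 (hE0 a ha) (hup a ha)
    have h2 : Real.sqrt (81 * K ^ 4) = 9 * K ^ 2 := by
      rw [show (81 : ℝ) * K ^ 4 = (9 * K ^ 2) ^ 2 by ring]
      exact Real.sqrt_sq (by positivity)
    calc W * ∑ a ∈ J, E a ^ (3/2 : ℝ) ≤ W * (Real.sqrt (81 * K ^ 4 * U) * ∑ a ∈ J, E a) :=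
          mul_le_mul_of_nonneg_left h1 hW0
      _ = 9 * K ^ 2 * (r1 * Real.sqrt D) * ∑ a ∈ J, E a := by
          rw [← mul_assoc, hWU _ (by positivity), h2]
      _ ≤ _ := mul_le_mul_of_nonneg_left hsum (by positivity)
  rcases hD.eq_or_lt with hD0 | hDp
  · rw [← hD0] at htriv ⊢
    rw [Real.sqrt_zero] at htriv ⊢
    simpa using htriv
  have hpdl : 0 < dl ^ (1/2 : ℝ) := Real.rpow_pos_of_pos hdl _
  have ht1 : dl ^ (1/2 : ℝ) ≤ 1 := Real.rpow_le_one hdl.le hdl1 (by norm_num)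
  have ht2 : (dl ^ (1/2 : ℝ)) ^ 2 = dl := by
    rw [← Real.rpow_natCast, ← Real.rpow_mul hdl.le]; norm_num
  have hb1G' : b1 ≤ Gm * ((dl ^ (1/2 : ℝ))⁻¹ * ρ) := by
    rwa [← Real.rpow_neg hdl.le]
  set φ0 : ℝ := 2 * (A * a1 + K * b1) / dl ^ (1/2 : ℝ) with hφ0
  have pφ : 0 < φ0 := by positivity
  have hφle : φ0 ≤ 4 * (K * Gm) * ρ / dl := by
    have := phi_le pρ hpdl ht1 hA0.le hAK hGm pa1.le ha1G hb1G'
    rwa [ht2] at this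
  by_cases h3 : 3 * φ0 ≤ 1
  swap
  · -- the trivial case
    exact htriv.trans (triv_num hq hC1 hdl hdl1 hdlG hK1 hM0 hc0 hc01 hGm hG7 rfl hr1 hε hm0 hsD hρ
      hφle (not_le.1 h3))
  -- the main case
  set R : Finset α := J.filter (fun a => dl ^ 10 * D * (K * b2) ^ q *
    ((K * b1) * (K * b2) * r1 ^ 2) ≤ E a) with hR
  have hKq : 0 < K ^ q := Real.rpow_pos_of_pos hK0 _
  have hthr : dl ^ 10 * D * (K * b2) ^ q * ((K * b1) * (K * b2) * r1 ^ 2) =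
      dl ^ 10 * (K ^ q * K ^ 2) * U := by
    rw [Real.mul_rpow hK0.le pb2.le, hU]; ring
  have hRJ : R ⊆ J := Finset.filter_subset _ _
  have hsplit : ∑ a ∈ J, E a ^ (3/2 : ℝ) ≤
      Real.sqrt (dl ^ 10 * (K ^ q * K ^ 2) * U) * ∑ a ∈ J, E a +
        Real.sqrt (81 * K ^ 4 * U) * ∑ a ∈ R, E a := by
    rw [← Finset.sum_filter_add_sum_filter_not J (fun a => dl ^ 10 * D * (K * b2) ^ q *
      ((K * b1) * (K * b2) * r1 ^ 2) ≤ E a), add_comm]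
    refine add_le_add ?_ ?_
    · have h1 : ∑ a ∈ J with ¬ (dl ^ 10 * D * (K * b2) ^ q *
          ((K * b1) * (K * b2) * r1 ^ 2) ≤ E a), E a ^ (3/2 : ℝ) ≤
          Real.sqrt (dl ^ 10 * (K ^ q * K ^ 2) * U) * ∑ a ∈ J with ¬ (dl ^ 10 * D * (K * b2) ^ q *
          ((K * b1) * (K * b2) * r1 ^ 2) ≤ E a), E a := by
        rw [Finset.mul_sum]
        refine Finset.sum_le_sum fun a ha => ?_
        rw [Finset.mem_filter] at ha
        refine pow32 (hE0 a ha.1) ?_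
        rw [← hthr]
        exact (not_le.1 ha.2).le
      refine h1.trans (mul_le_mul_of_nonneg_left ?_ (Real.sqrt_nonneg _))
      exact Finset.sum_le_sum_of_subset_of_nonneg (Finset.filter_subset _ _)
        fun a ha _ => hE0 a ha
    · rw [Finset.mul_sum]
      exact Finset.sum_le_sum fun a ha => pow32 (hE0 a (hRJ ha)) (hup a (hRJ ha))
  -- apply the finite estimate to the rich plates
  have hww : ρ * r1 / r1 = ρ := by field_simp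
  have hw0 : 0 < ρ * r1 := mul_pos pρ hr0
  have hwr : ρ * r1 ≤ r1 := mul_le_of_le_one_left hr0.le hρ1
  have hAq : 0 < A ^ q := Real.rpow_pos_of_pos hA0 _
  have k1 : ρ * r1 / r1 ≤ A * a1 := by
    rw [hww]; exact ha1.trans (le_mul_of_one_le_left pa1.le hA)
  have k2 : A * a1 ≤ A * a2 := mul_le_mul_of_nonneg_left ha12 hA0.le
  have k3 : ρ * r1 / r1 ≤ K * b1 := by
    rw [hww]; exact hb1.trans (le_mul_of_one_le_left pb1.le hK1)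
  have k4 : K * b1 ≤ K * b2 := mul_le_mul_of_nonneg_left hb12 hK0.le
  have k5 : 0 < c0 / (A ^ q * A ^ 2) := div_pos hc0 (mul_pos hAq (pow_pos hA0 2))
  have k6 : ∀ i ∈ I, c0 / (A ^ q * A ^ 2) * D * (A * a2) ^ q * ((A * a1) * (A * a2) * r1 ^ 2) ≤
      ∑ i' ∈ I with pl i' = pl i, μ i' := by
    intro i hi
    refine le_trans (le_of_eq ?_) (hdens i hi)
    rw [Real.mul_rpow hA0.le pa2.le]
    field_simp
  have k7 : ∀ a ∈ R, dl ^ 10 * D * (K * b2) ^ q * ((K * b1) * (K * b2) * r1 ^ 2) ≤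
      ∑ i ∈ I, om a i * μ i := by
    intro a ha
    exact (Finset.mem_filter.1 ha).2
  have k8 : ∀ i ∈ I, ∑ a ∈ R, om a i ≤ M0 * (dl⁻¹) ^ 3 := by
    intro i hi
    refine le_trans ?_ (hmult i hi)
    exact Finset.sum_le_sum_of_subset_of_nonneg hRJ fun a ha _ => hom0 a ha i hi
  have k9 : 0 ≤ M0 * (dl⁻¹) ^ 3 := mul_nonneg hM0 (pow_nonneg (inv_nonneg.2 hdl.le) 3)
  have hdm' : ∀ (b : OrthonormalBasis (Fin 2) ℝ E2) (s1 s2 : ℝ) (c0 y0 : E2),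
        ρ * r1 / r1 ≤ s1 → s1 ≤ 1 → ρ * r1 / r1 ≤ s2 → s2 ≤ 1 →
          ∑ i ∈ I with PB r1 b s1 s2 c0 y0 (c i) (y i), μ i ≤
            D * (max s1 s2) ^ q * (s1 * s2 * r1 ^ 2) := by
    rw [hww]; exact hdm
  have hrich := hfrac (ρ * r1) r1 q D hw0 hwr hq.le hDp ι κ α I c y μ hμ hc hy
    hdm' pl bP cP yP (A * a1) (A * a2) (c0 / (A ^ q * A ^ 2))
    k1 k2 k5 hPB k6 R om bA cA yA (K * b1) (K * b2) (dl ^ 10) (dl ^ (1/2 : ℝ)) (M0 * (dl⁻¹) ^ 3) φ0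
    k3 k4 (pow_pos hdl 10) hpdl ht1 k9
    (fun a ha => hom0 a (hRJ ha)) (fun a ha => hom1 a (hRJ ha)) (fun a ha => hPBA a (hRJ ha))
    (fun a ha => hmis a (hRJ ha)) k7 k8 rfl h3 (dl ^ 5) (pow_pos hdl 5)
  rw [hww] at hrich
  set mn : ℝ := min (A * a2) (K * b2) with hmn
  have hmn1 : dl ^ (-G) * ρ ≤ mn := le_min (ha2G.trans (le_mul_of_one_le_left pa2.le hA))
    (hb2G.trans (le_mul_of_one_le_left pb2.le hK1))
  have hbrk := brk (Gm := Gm) (K := K) (φ0 := φ0) (mn := mn) hq hε hr1 hρ hdl hdl1 hGm hK1 pφ hφle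
    hmn1 hGq
  have hc0' : dl ^ 5 / (c0 / (A ^ q * A ^ 2)) ≤ dl ^ 5 * (K ^ q * K ^ 2 / c0) := by
    rw [div_div_eq_mul_div, mul_div_assoc]
    have h1 : A ^ q ≤ K ^ q := Real.rpow_le_rpow hA0.le hAK hq.le
    have h2 : A ^ 2 ≤ K ^ 2 := pow_le_pow_left₀ hA0.le hAK 2
    have h3 : A ^ q * A ^ 2 ≤ K ^ q * K ^ 2 :=
      mul_le_mul h1 h2 (by positivity) (by positivity)
    exact mul_le_mul_of_nonneg_left (div_le_div_of_nonneg_right h3 hc0.le) (by positivity)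
  have hrich2 : ∑ a ∈ R, E a ≤ C1 * (M0 * (dl⁻¹) ^ 3) *
      (4 * 96 ^ (q / 2) * r1 ^ ε * (K * Gm) ^ (1 + q / 2) * dl ^ 5 +
        dl ^ 5 * (K ^ q * K ^ 2 / c0)) * m := by
    refine hrich.trans ?_
    refine mul_le_mul_of_nonneg_right ?_ hm0
    exact mul_le_mul_of_nonneg_left (add_le_add hbrk hc0') (mul_nonneg hC1 k9)
  exact fin_num hq hC1 hdl hK1 hM0 hc0 hc01 hGm hGq2 rfl hr1 hε hm0 hW0 hsD hWU hsplit hsum hrich2

end Crest.Agent.R138.Mis535
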