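import Crest.Agent.R138.Km_535
import Crest.Agent.R138.Fq7_665

/-!
# R138 / R139: misaligned plates are negligible, finite counting (helper535)

Weighted tubes `‖x - y i + t c i‖ ≤ w`, `|t| ≤ r`, partitioned into plates of full density.
A family of plates `α` whose tubes belong to plates making an angle at least `δ` with `α` carries
a small part of the mass, by Kakeya (`KM32`) alone.
-/

set_option autoImplicit false

namespace Crest.Agent.R138.Mis535

open MeasureTheory Crest.Agent.R138.Tub70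
open Crest.Agent.R138.Defs (plank)
open scoped ENNReal

section pointwise

variable {ι κ : Type*}

open Classical in
/-- the good part of a misaligned family at one point is a small part of the total. -/
theorem pw_good (I TT J : Finset ι) (pl : ι → κ) (T : ι → Prop) (μ : ι → ℝ) (hμ : ∀ i, 0 ≤ μ i)
    {K κ' : ℝ} (hκ : 0 ≤ κ')
    (hK0 : 0 ≤ K)
    (hK : ∀ i0 ∈ TT, T i0 → ∑ i ∈ TT with pl i = pl i0, (if T i then μ i else 0) ≤ K)
    (hJ : ∀ i0 ∈ TT, ∀ i ∈ I, pl i = pl i0 → i ∈ J) :
    (∑ i ∈ TT, if T i ∧ κ' ≤ ∑ i' ∈ I with pl i' = pl i, (if T i' then μ i' else 0) then μ i else 0)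
      * κ' ≤ K * ∑ i ∈ J, if T i then μ i else 0 := by
  set G : Finset ι := TT.filter (fun i => T i ∧
    κ' ≤ ∑ i' ∈ I with pl i' = pl i, (if T i' then μ i' else 0)) with hG
  set L : Finset κ := G.image pl with hL
  have h1 : (∑ i ∈ TT, if T i ∧ κ' ≤ ∑ i' ∈ I with pl i' = pl i, (if T i' then μ i' else 0)
      then μ i else 0) = ∑ i ∈ G, μ i := by
    rw [hG, Finset.sum_filter]
  have h2 : ∑ i ∈ G, μ i ≤ L.card * K := by
    apply sum_le_card_mul G L pl μ (fun i hi => Finset.mem_image_of_mem pl hi)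
    intro P hP
    obtain ⟨i0, hi0, rfl⟩ := Finset.mem_image.1 hP
    rw [hG, Finset.mem_filter] at hi0
    refine le_trans ?_ (hK i0 hi0.1 hi0.2.1)
    rw [hG, Finset.filter_filter, Finset.sum_filter, Finset.sum_filter]
    refine Finset.sum_le_sum fun i _ => ?_
    by_cases hp : pl i = pl i0
    · rw [if_pos hp]
      by_cases ht : T i
      · rw [if_pos ht]
        split_ifs
        · exact le_rfl
        · exact hμ i
      · rw [if_neg ht, if_neg (fun h => ht h.1.1)]
    · rw [if_neg hp, if_neg (fun h => hp h.2)]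
  have h3 : L.card * κ' ≤ ∑ i ∈ J, if T i then μ i else 0 := by
    have h4 : (L.card : ℝ) * κ' ≤ ∑ P ∈ L, ∑ i' ∈ I with pl i' = P, (if T i' then μ i' else 0) := by
      rw [← nsmul_eq_mul]
      apply Finset.card_nsmul_le_sum
      intro P hP
      obtain ⟨i0, hi0, rfl⟩ := Finset.mem_image.1 hP
      rw [hG, Finset.mem_filter] at hi0
      exact hi0.2.2
    refine h4.trans ?_
    have h5 : ∑ P ∈ L, ∑ i' ∈ I with pl i' = P, (if T i' then μ i' else 0) =
        ∑ i' ∈ I with pl i' ∈ L, (if T i' then μ i' else 0) := by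
      rw [← Finset.sum_fiberwise_of_maps_to (s := I.filter (fun i' => pl i' ∈ L)) (t := L) (g := pl)
        (fun i hi => (Finset.mem_filter.1 hi).2)]
      refine Finset.sum_congr rfl fun P hP => ?_
      rw [Finset.filter_filter]
      refine Finset.sum_congr ?_ fun _ _ => rfl
      ext i
      simp only [Finset.mem_filter]
      constructor
      · rintro ⟨a, b⟩
        exact ⟨a, b ▸ hP, b⟩
      · rintro ⟨a, _, b⟩
        exact ⟨a, b⟩
    rw [h5]
    apply Finset.sum_le_sum_of_subset_of_nonneg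
    · intro i hi
      rw [Finset.mem_filter] at hi
      obtain ⟨i0, hi0, he⟩ := Finset.mem_image.1 hi.2
      rw [hG, Finset.mem_filter] at hi0
      exact hJ i0 hi0.1 i hi.1 he.symm
    · intro i _ _
      split_ifs
      · exact hμ i
      · exact le_rfl
  rw [h1]
  calc (∑ i ∈ G, μ i) * κ' ≤ (L.card * K) * κ' := mul_le_mul_of_nonneg_right h2 hκ
    _ = K * (L.card * κ') := by ring
    _ ≤ K * _ := mul_le_mul_of_nonneg_left h3 hK0

open Classical in
/-- sum over the families with bounded multiplicity. -/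
theorem sum_mult {α : Type*} (A : Finset α) (TT : α → Finset ι) (J : Finset ι) {mult : ℝ}
    (hsub : ∀ a ∈ A, TT a ⊆ J) (f : ι → ℝ) (hf : ∀ i ∈ J, 0 ≤ f i)
    (hm : ∀ i ∈ J, ((A.filter (fun a => i ∈ TT a)).card : ℝ) ≤ mult) :
    ∑ a ∈ A, ∑ i ∈ TT a, f i ≤ mult * ∑ i ∈ J, f i := by
  have h1 : ∑ a ∈ A, ∑ i ∈ TT a, f i = ∑ i ∈ J, ∑ a ∈ A with i ∈ TT a, f i := by
    have h2 : ∀ a ∈ A, ∑ i ∈ TT a, f i = ∑ i ∈ J, if i ∈ TT a then f i else 0 := by
      intro a ha
      rw [← Finset.sum_filter]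
      congr 1
      ext i
      rw [Finset.mem_filter]
      exact ⟨fun h => ⟨hsub a ha h, h⟩, fun h => h.2⟩
    rw [Finset.sum_congr rfl h2, Finset.sum_comm]
    refine Finset.sum_congr rfl fun i _ => ?_
    rw [Finset.sum_filter]
  rw [h1, Finset.mul_sum]
  refine Finset.sum_le_sum fun i hi => ?_
  rw [Finset.sum_const, nsmul_eq_mul]
  exact mul_le_mul_of_nonneg_right (hm i hi) (hf i hi)

end pointwise

section geometry

variable {w r : ℝ}

theorem PB.norm_c {b : OrthonormalBasis (Fin 2) ℝ E2} {s1 s2 : ℝ} {c0 y0 c y : E2} (h12 : s1 ≤ s2)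
    (h : PB r b s1 s2 c0 y0 c y) : ‖c - c0‖ ≤ 2 * s2 := by
  have h0 : 0 ≤ s1 := (abs_nonneg _).trans h.1
  refine le_of_sq_le_sq ?_ (by linarith)
  have h1 := b.sum_sq_norm_inner_right (c - c0)
  rw [Fin.sum_univ_two] at h1
  have h2 : ‖(inner ℝ (b 0) (c - c0) : ℝ)‖ ≤ s1 := by
    rw [real_inner_comm]; exact h.1
  have h3 : ‖(inner ℝ (b 1) (c - c0) : ℝ)‖ ≤ s2 := by
    rw [real_inner_comm]; exact h.2.1
  have h4 := norm_nonneg (inner ℝ (b 0) (c - c0) : ℝ)
  have h5 := norm_nonneg (inner ℝ (b 1) (c - c0) : ℝ)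
  nlinarith

/-- all tubes of a box stay in a plank. -/
theorem mem_plank {b : OrthonormalBasis (Fin 2) ℝ E2} {s1 s2 : ℝ} {c0 y0 c y : E2} (hr : 0 < r)
    (h1 : w / r ≤ s1) (h2 : w / r ≤ s2) (h : PB r b s1 s2 c0 y0 c y) {p : E2 × ℝ} (hp : |p.2| ≤ r)
    (hT : InT w c y p) : p ∈ plank c0 b (fun j => 3 * ![s1, s2] j) r y0 0 := by
  have key : ∀ (j : Fin 2) (s : ℝ), w / r ≤ s → |inner ℝ (c - c0) (b j)| ≤ s →
      |inner ℝ (y - y0) (b j)| ≤ s * r →
      |inner ℝ (p.1 - y0 + (p.2 - 0) • c0) (b j)| ≤ 3 * s * r := by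
    intro j s hs hc hy
    have e : p.1 - y0 + (p.2 - 0) • c0 = (p.1 - y + p.2 • c) + (y - y0) - p.2 • (c - c0) := by
      rw [sub_zero, smul_sub]; abel
    rw [e, inner_sub_left, inner_add_left, inner_smul_left]
    simp only [conj_trivial]
    have e1 : |inner ℝ (p.1 - y + p.2 • c) (b j)| ≤ s * r := by
      refine (abs_real_inner_le_norm _ _).trans ?_
      rw [b.orthonormal.1 j, mul_one]
      refine (show ‖p.1 - y + p.2 • c‖ ≤ w from hT).trans ?_
      rw [div_le_iff₀ hr] at hs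
      exact hs
    have e2 : |p.2 * inner ℝ (c - c0) (b j)| ≤ s * r := by
      rw [abs_mul, mul_comm s r]
      exact mul_le_mul hp hc (abs_nonneg _) hr.le
    have e3 := abs_sub (inner ℝ (p.1 - y + p.2 • c) (b j) + inner ℝ (y - y0) (b j))
      (p.2 * inner ℝ (c - c0) (b j))
    have e4 := abs_add_le (inner ℝ (p.1 - y + p.2 • c) (b j)) (inner ℝ (y - y0) (b j))
    linarith
  refine ⟨by simpa using hp, fun j => ?_⟩
  fin_cases j
  · exact key 0 s1 h1 h.1 h.2.2.1
  · exact key 1 s2 h2 h.2.1 h.2.2.2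

theorem lint_tube (hr : 0 < r) (hw : 0 < w) {ι : Type} (c y : ι → E2) (μ : ι → ℝ)
    (hμ : ∀ i, 0 ≤ μ i) (J : Finset ι) :
    ∫⁻ p in cy r, ENNReal.ofReal (ef w c y μ J p) =
      ENNReal.ofReal (2 * Real.pi * w ^ 2 * r * ∑ i ∈ J, μ i) := by
  classical
  simp only [ofReal_ef hμ]
  rw [lintegral_finsetSum]
  · rw [Finset.mul_sum, ENNReal.ofReal_sum_of_nonneg]
    · refine Finset.sum_congr rfl fun i _ => ?_
      have e1 : ∀ p, (if InT w (c i) (y i) p then ENNReal.ofReal (μ i) else 0) =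
          {p | InT w (c i) (y i) p}.indicator (fun _ => ENNReal.ofReal (μ i)) p := by
        intro p
        simp only [Set.indicator, Set.mem_ofPred_eq]
      simp only [e1]
      rw [lintegral_indicator (measurableSet_inT _ _ _), lintegral_const,
        Measure.restrict_restrict (measurableSet_inT _ _ _), Measure.restrict_apply_univ]
      have e2 : {p | InT w (c i) (y i) p} ∩ cy r = NR877.Tube (y i, - c i) w 0 r := by
        ext p
        simp only [Set.mem_inter_iff, Set.mem_ofPred_eq, cy, NR877.Tube, NR877.pos, InT, sub_zero]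
        have e3 : p.1 - (y i + p.2 • -c i) = p.1 - y i + p.2 • c i := by
          rw [smul_neg]; abel
        rw [e3]
        exact And.comm
      rw [e2, NR877.volume_tube _ _ _ _ hw.le, mul_comm, ← ENNReal.ofReal_mul (by positivity)]
    · intro i _
      have := hμ i
      positivity
  · intro i _
    exact Measurable.ite (measurableSet_inT _ _ _) measurable_const measurable_const

/-- a bounded function supported in the plank of a box. -/
theorem lint_low {b : OrthonormalBasis (Fin 2) ℝ E2} {s1 s2 : ℝ} {c0 y0 : E2} (hr : 0 < r)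
    (hs1 : 0 ≤ s1) (hs2 : 0 ≤ s2) {β : ℝ} (hβ : 0 ≤ β) (f : E2 × ℝ → ℝ)
    (hf : ∀ p, |p.2| ≤ r → f p ≤ β)
    (hf0 : ∀ p, |p.2| ≤ r → p ∉ plank c0 b (fun j => 3 * ![s1, s2] j) r y0 0 → f p ≤ 0) :
    ∫⁻ p in cy r, ENNReal.ofReal (f p) ≤ ENNReal.ofReal (β * (72 * (s1 * s2 * r ^ 3))) := by
  have hP : MeasurableSet (plank c0 b (fun j => 3 * ![s1, s2] j) r y0 0) :=
    Fq665.measurableSet_plank _ _ _ _ _ _
  calc ∫⁻ p in cy r, ENNReal.ofReal (f p)
      ≤ ∫⁻ p in cy r, (plank c0 b (fun j => 3 * ![s1, s2] j) r y0 0).indicator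
          (fun _ => ENNReal.ofReal β) p := by
        refine setLIntegral_mono' (measurableSet_cy r) fun p hp => ?_
        by_cases h : p ∈ plank c0 b (fun j => 3 * ![s1, s2] j) r y0 0
        · rw [Set.indicator_of_mem h]
          exact ENNReal.ofReal_le_ofReal (hf p hp)
        · rw [Set.indicator_of_notMem h]
          rw [ENNReal.ofReal_of_nonpos (hf0 p hp h)]
    _ ≤ ∫⁻ p, (plank c0 b (fun j => 3 * ![s1, s2] j) r y0 0).indicator
          (fun _ => ENNReal.ofReal β) p := setLIntegral_le_lintegral _ _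
    _ = ENNReal.ofReal β * volume (plank c0 b (fun j => 3 * ![s1, s2] j) r y0 0) := by
        rw [lintegral_indicator hP, lintegral_const, Measure.restrict_apply_univ]
    _ ≤ ENNReal.ofReal β * ENNReal.ofReal (8 * ((3 * ![s1, s2] 0) * (3 * ![s1, s2] 1) * r ^ 3)) := by
        gcongr
        refine Fq665.vol_plank_le c0 b (fun j => 3 * ![s1, s2] j) (fun j => ?_) hr.le y0 0
        fin_cases j
        · simpa using hs1
        · simpa using hs2
    _ = _ := by
        rw [← ENNReal.ofReal_mul hβ]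
        congr 1
        simp only [Matrix.cons_val_zero, Matrix.cons_val_one]
        ring

end geometry

section real

/-- the final numerology. -/
theorem numer {w r q D m0 κ0 s2 s2' φ0 : ℝ} (hw : 0 < w) (hr : 0 < r) (hD : 0 < D)
    (hm0 : 0 < m0) (hκ0 : 0 < κ0) (hs2 : 0 < s2) (hs2' : 0 < s2') (hφ : 0 < φ0) :
    (Real.sqrt ((Real.pi / 144 * m0 * D * s2' ^ q * w ^ 2) * (κ0 * w ^ 2 * D * s2 ^ q) /
      (2 * (D * (3 * φ0) ^ q * (3 * φ0 * (3 * φ0) * r ^ 2)))))⁻¹ *
        Real.sqrt (25 * D * (8 * max s2 s2') ^ q) * w ≤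
      150 * ((m0 * κ0) ^ (-(1/2) : ℝ) * (φ0 * r / w) * (24 * φ0 / min s2 s2') ^ (q / 2)) := by
  have hmn : 0 < min s2 s2' := lt_min hs2 hs2'
  have hmx : 0 < max s2 s2' := lt_max_of_lt_left hs2
  have hpi := Real.pi_pos
  have h3 : (3 : ℝ) < Real.pi := Real.pi_gt_three
  have p1 : 0 < s2' ^ q := Real.rpow_pos_of_pos hs2' _
  have p2 : 0 < s2 ^ q := Real.rpow_pos_of_pos hs2 _
  have p3 : 0 < (3 * φ0) ^ q := Real.rpow_pos_of_pos (by positivity) _
  have p4 : 0 < (8 * max s2 s2') ^ q := Real.rpow_pos_of_pos (by positivity) _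
  have p5 : 0 < (24 * φ0 / min s2 s2') ^ q := Real.rpow_pos_of_pos (by positivity) _
  set A0 : ℝ := (Real.pi / 144 * m0 * D * s2' ^ q * w ^ 2) * (κ0 * w ^ 2 * D * s2 ^ q) /
      (2 * (D * (3 * φ0) ^ q * (3 * φ0 * (3 * φ0) * r ^ 2))) with hA0
  have pA : 0 < A0 := by positivity
  have key : (8 * max s2 s2') ^ q * (3 * φ0) ^ q = (24 * φ0 / min s2 s2') ^ q * (s2 ^ q * s2' ^ q) := by
    rw [← Real.mul_rpow (by positivity) (by positivity), ← Real.mul_rpow hs2.le hs2'.le,
      ← Real.mul_rpow (by positivity) (by positivity)]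
    congr 1
    have : max s2 s2' * min s2 s2' = s2 * s2' := max_mul_min s2 s2'
    field_simp
    linarith
  refine le_of_sq_le_sq ?_ (by positivity)
  have e1 : ((Real.sqrt A0)⁻¹ * Real.sqrt (25 * D * (8 * max s2 s2') ^ q) * w) ^ 2 =
      25 * D * (8 * max s2 s2') ^ q * w ^ 2 / A0 := by
    rw [mul_pow, mul_pow, inv_pow, Real.sq_sqrt pA.le, Real.sq_sqrt (by positivity)]
    field_simp
  have e2 : (150 * ((m0 * κ0) ^ (-(1/2) : ℝ) * (φ0 * r / w) * (24 * φ0 / min s2 s2') ^ (q / 2))) ^ 2 =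
      22500 * ((m0 * κ0)⁻¹ * (φ0 * r / w) ^ 2 * (24 * φ0 / min s2 s2') ^ q) := by
    have a1 : ((m0 * κ0) ^ (-(1/2) : ℝ)) ^ 2 = (m0 * κ0)⁻¹ := by
      rw [← Real.rpow_natCast, ← Real.rpow_mul (by positivity), ← Real.rpow_neg_one]
      norm_num
    have a2 : ((24 * φ0 / min s2 s2') ^ (q / 2)) ^ 2 = (24 * φ0 / min s2 s2') ^ q := by
      rw [← Real.rpow_natCast, ← Real.rpow_mul (by positivity)]
      congr 1
      push_cast
      ring
    rw [mul_pow, mul_pow, mul_pow, a1, a2]
    norm_num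
  rw [e1, e2, div_le_iff₀ pA]
  have e3 : 22500 * ((m0 * κ0)⁻¹ * (φ0 * r / w) ^ 2 * (24 * φ0 / min s2 s2') ^ q) * A0 =
      (22500 * Real.pi / 2592) * (D * w ^ 2) *
        ((24 * φ0 / min s2 s2') ^ q * (s2 ^ q * s2' ^ q) / (3 * φ0) ^ q) := by
    rw [hA0]
    field_simp
    ring
  rw [e3, ← key]
  have e4 : (8 * max s2 s2') ^ q * (3 * φ0) ^ q / (3 * φ0) ^ q = (8 * max s2 s2') ^ q := by
    field_simp
  rw [e4]
  have h5 : 25 ≤ 22500 * Real.pi / 2592 := by
    rw [le_div_iff₀ (by norm_num)]; linarith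
  calc 25 * D * (8 * max s2 s2') ^ q * w ^ 2 = 25 * (D * w ^ 2 * (8 * max s2 s2') ^ q) := by ring
    _ ≤ (22500 * Real.pi / 2592) * (D * w ^ 2 * (8 * max s2 s2') ^ q) := by
        apply mul_le_mul_of_nonneg_right h5; positivity
    _ = _ := by ring

end real

section pointwise2

variable {ι κ α κ' : Type*}

/-- exchange of the two sums, fractional multiplicity. -/
theorem sum_multw (A : Finset α) (I J : Finset ι) (om : α → ι → ℝ) {mult : ℝ}
    (hJI : J ⊆ I) (hsub : ∀ a ∈ A, ∀ i ∈ I, om a i ≠ 0 → i ∈ J) (f : ι → ℝ) (hf : ∀ i ∈ J, 0 ≤ f i)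
    (hm : ∀ i ∈ J, ∑ a ∈ A, om a i ≤ mult) :
    ∑ a ∈ A, ∑ i ∈ I, om a i * f i ≤ mult * ∑ i ∈ J, f i := by
  have h1 : ∀ a ∈ A, ∑ i ∈ I, om a i * f i = ∑ i ∈ J, om a i * f i := by
    intro a ha
    symm
    apply Finset.sum_subset hJI
    intro i hi hiJ
    have : om a i = 0 := by
      by_contra h
      exact hiJ (hsub a ha i hi h)
    rw [this, zero_mul]
  rw [Finset.sum_congr rfl h1, Finset.sum_comm, Finset.mul_sum]
  refine Finset.sum_le_sum fun i hi => ?_
  rw [← Finset.sum_mul]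
  exact mul_le_mul_of_nonneg_right (hm i hi) (hf i hi)

open Classical in
/-- the total inequality at one point. -/
theorem pw_total (I : Finset ι) (A : Finset α) (om : α → ι → ℝ) (JJ : κ' → Finset ι) (k : α → κ')
    (pl : ι → κ) (T : ι → Prop) (μ : ι → ℝ) (hμ : ∀ i, 0 ≤ μ i) {mult K κ1 β0 : ℝ}
    (h0 : ∀ a i, 0 ≤ om a i) (h1' : ∀ a i, om a i ≤ 1) (hm0 : 0 ≤ mult)
    (hm : ∀ i ∈ I, ∑ a ∈ A, om a i ≤ mult)
    (hJI : ∀ k, JJ k ⊆ I)
    (hPJ : ∀ a ∈ A, ∀ i0 ∈ I, om a i0 ≠ 0 → ∀ i ∈ I, pl i = pl i0 → i ∈ JJ (k a))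
    (hK0 : 0 < K) (hκ : 0 < κ1) (hβ : 0 < β0)
    (KK : Finset κ') (hKK : ∀ a ∈ A, k a ∈ KK)
    (hK : ∀ a ∈ A, ∀ i0 ∈ I, om a i0 ≠ 0 → T i0 →
      ∑ i ∈ (I.filter (fun i => om a i ≠ 0)) with pl i = pl i0, (if T i then μ i else 0) ≤ K) :
    ∑ a ∈ A, ∑ i ∈ I, (if T i then om a i * μ i else 0) ≤
      mult * (Real.sqrt (β0 * κ1 / (2 * K)))⁻¹ *
        ∑ j ∈ KK, (∑ i ∈ JJ j, if T i then μ i else 0) ^ (3/2 : ℝ) +
      ∑ a ∈ A, (if (∑ i ∈ I, if T i then om a i * μ i else 0) < β0 then
        (∑ i ∈ I, if T i then om a i * μ i else 0) else 0) +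
      2 * mult * ∑ P ∈ I.image pl, (if (∑ i ∈ I with pl i = P, if T i then μ i else 0) < κ1 then
        (∑ i ∈ I with pl i = P, if T i then μ i else 0) else 0) := by
  set f : ι → ℝ := fun i => if T i then μ i else 0 with hf
  have hf0 : ∀ i, 0 ≤ f i := fun i => by
    simp only [hf]; split_ifs
    · exact hμ i
    · exact le_rfl
  have hfo : ∀ a i, (if T i then om a i * μ i else 0) = om a i * f i := by
    intro a i
    simp only [hf]
    split_ifs
    · rfl
    · rw [mul_zero]
  simp only [hfo]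
  set A0 : ℝ := β0 * κ1 / (2 * K) with hA0
  have hA0p : 0 < A0 := by positivity
  set E : α → ℝ := fun a => ∑ i ∈ I, om a i * f i with hE
  set th : ι → ℝ := fun i => if (∑ i' ∈ I with pl i' = pl i, f i') < κ1 then f i else 0 with hth
  have hth0 : ∀ i, 0 ≤ th i := fun i => by
    simp only [hth]; split_ifs
    · exact hf0 i
    · exact le_rfl
  set Tn : α → ℝ := fun a => ∑ i ∈ I, om a i * th i with hTn
  have hE0 : ∀ a, 0 ≤ E a := fun a => Finset.sum_nonneg fun i _ => mul_nonneg (h0 a i) (hf0 i)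
  have hTn0 : ∀ a, 0 ≤ Tn a := fun a => Finset.sum_nonneg fun i _ => mul_nonneg (h0 a i) (hth0 i)
  -- step 1: decomposition of every `E a`
  have h1 : ∀ a ∈ A, E a ≤ (if β0 ≤ E a ∧ 2 * Tn a ≤ E a then E a else 0) +
      (if E a < β0 then E a else 0) + 2 * Tn a := by
    intro a _
    by_cases hb : E a < β0
    · rw [if_pos hb]
      have : 0 ≤ (if β0 ≤ E a ∧ 2 * Tn a ≤ E a then E a else 0) := by
        split_ifs
        · exact hE0 a
        · exact le_rfl
      linarith [hTn0 a]
    · rw [if_neg hb]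
      by_cases ht : 2 * Tn a ≤ E a
      · rw [if_pos ⟨not_lt.1 hb, ht⟩]
        linarith [hTn0 a]
      · rw [if_neg (fun h => ht h.2)]
        push Not at ht
        linarith
  -- step 2: the thin part
  have h2 : ∑ a ∈ A, Tn a ≤ mult * ∑ P ∈ I.image pl,
      (if (∑ i ∈ I with pl i = P, f i) < κ1 then (∑ i ∈ I with pl i = P, f i) else 0) := by
    have h3 := sum_multw A I I om subset_rfl (fun a _ i hi _ => hi) th (fun i _ => hth0 i) hm
    refine h3.trans (mul_le_mul_of_nonneg_left (le_of_eq ?_) hm0)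
    rw [← Finset.sum_fiberwise_of_maps_to (s := I) (t := I.image pl) (g := pl)
      (fun i hi => Finset.mem_image_of_mem pl hi)]
    refine Finset.sum_congr rfl fun P _ => ?_
    simp only [hth]
    split_ifs with hP
    · refine Finset.sum_congr rfl fun i hi => ?_
      rw [(Finset.mem_filter.1 hi).2, if_pos hP]
    · refine Finset.sum_eq_zero fun i hi => ?_
      rw [(Finset.mem_filter.1 hi).2, if_neg hP]
  -- step 3: the rich part
  have h3 : ∑ a ∈ A, (if β0 ≤ E a ∧ 2 * Tn a ≤ E a then E a else 0) ≤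
      mult * (Real.sqrt A0)⁻¹ * ∑ j ∈ KK, (∑ i ∈ JJ j, f i) ^ (3/2 : ℝ) := by
    rw [← Finset.sum_fiberwise_of_maps_to (s := A) (t := KK) (g := k)
      (fun a ha => hKK a ha), Finset.mul_sum]
    refine Finset.sum_le_sum fun j _ => ?_
    set ej : ℝ := ∑ i ∈ JJ j, f i with hej
    have hej0 : 0 ≤ ej := Finset.sum_nonneg fun i _ => hf0 i
    have hTJ : ∀ a ∈ A, k a = j → ∀ i ∈ I, om a i ≠ 0 → i ∈ JJ j := fun a ha hk i hi ho =>
      hk ▸ hPJ a ha i hi ho i hi rfl
    by_cases hA : A0 ≤ ej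
    · have h4 : ∑ a ∈ A with k a = j, (if β0 ≤ E a ∧ 2 * Tn a ≤ E a then E a else 0) ≤
          ∑ a ∈ A with k a = j, E a := by
        refine Finset.sum_le_sum fun a _ => ?_
        split_ifs
        · exact le_rfl
        · exact hE0 a
      have h5 : ∑ a ∈ A with k a = j, E a ≤ mult * ej := by
        apply sum_multw (A.filter (fun a => k a = j)) I (JJ j) om (hJI j)
        · intro a ha
          rw [Finset.mem_filter] at ha
          exact hTJ a ha.1 ha.2
        · exact fun i _ => hf0 i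
        · intro i hi
          refine le_trans ?_ (hm i (hJI j hi))
          exact Finset.sum_le_sum_of_subset_of_nonneg (Finset.filter_subset _ _)
            fun a _ _ => h0 a i
      refine (h4.trans h5).trans ?_
      have hejp : 0 < ej := hA0p.trans_le hA
      have h6 : ej ^ (3/2 : ℝ) = ej * Real.sqrt ej := by
        rw [Real.sqrt_eq_rpow, ← Real.rpow_one_add' hej0 (by norm_num)]
        norm_num
      have h7 : Real.sqrt A0 ≤ Real.sqrt ej := Real.sqrt_le_sqrt hA
      have h8 : 0 < Real.sqrt A0 := Real.sqrt_pos.2 hA0p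
      rw [h6, mul_assoc]
      apply mul_le_mul_of_nonneg_left _ hm0
      rw [le_inv_mul_iff₀ h8, mul_comm (Real.sqrt A0)]
      exact mul_le_mul_of_nonneg_left h7 hej0
    · have h4 : ∑ a ∈ A with k a = j, (if β0 ≤ E a ∧ 2 * Tn a ≤ E a then E a else 0) = 0 := by
        refine Finset.sum_eq_zero fun a ha => ?_
        rw [Finset.mem_filter] at ha
        rw [if_neg]
        rintro ⟨hb1, hb2⟩
        apply hA
        set TTa : Finset ι := I.filter (fun i => om a i ≠ 0) with hTTa
        have h5 := pw_good I TTa (JJ j) pl T μ hμ (K := K) (κ' := κ1) hκ.le hK0.le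
          (fun i0 hi0 hT0 => hK a ha.1 i0 (Finset.mem_filter.1 hi0).1 (Finset.mem_filter.1 hi0).2 hT0)
          (fun i0 hi0 i hi hp => ha.2 ▸ hPJ a ha.1 i0 (Finset.mem_filter.1 hi0).1
            (Finset.mem_filter.1 hi0).2 i hi hp)
        have h6 : E a - Tn a ≤ (∑ i ∈ TTa, if T i ∧ κ1 ≤ ∑ i' ∈ I with pl i' = pl i,
            (if T i' then μ i' else 0) then μ i else 0) := by
          rw [hE, hTn]
          simp only
          rw [← Finset.sum_sub_distrib, hTTa, Finset.sum_filter]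
          refine Finset.sum_le_sum fun i _ => ?_
          by_cases ho : om a i = 0
          · rw [ho, if_neg (fun h => h rfl)]; simp
          · rw [if_pos ho]
            have hr0 : 0 ≤ (if T i ∧ κ1 ≤ ∑ i' ∈ I with pl i' = pl i,
                (if T i' then μ i' else 0) then μ i else 0) := by
              split_ifs
              · exact hμ i
              · exact le_rfl
            by_cases h1 : T i
            · by_cases h2 : κ1 ≤ ∑ i' ∈ I with pl i' = pl i, (if T i' then μ i' else 0)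
              · have e1 : th i = 0 := by
                  simp only [hth]
                  exact if_neg (not_lt.2 h2)
                have e2 : f i = μ i := by
                  simp only [hf]
                  exact if_pos h1
                rw [if_pos ⟨h1, h2⟩, e1, e2, mul_zero, sub_zero]
                exact mul_le_of_le_one_left (hμ i) (h1' a i)
              · have e1 : th i = f i := by
                  simp only [hth]
                  exact if_pos (not_le.1 h2)
                rw [e1, sub_self]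
                exact hr0
            · have e2 : f i = 0 := by
                simp only [hf]
                exact if_neg h1
              have e1 : th i = 0 := by
                simp only [hth]
                split_ifs
                · exact e2
                · rfl
              rw [e1, e2, sub_self]
              exact hr0
        have h7 : β0 / 2 ≤ E a - Tn a := by linarith
        have h8 : β0 / 2 * κ1 ≤ K * ej :=
          (mul_le_mul_of_nonneg_right (h7.trans h6) hκ.le).trans h5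
        rw [hA0, div_le_iff₀ (by positivity)]
        linarith
      rw [h4]
      positivity
  have h4 := Finset.sum_le_sum h1
  rw [Finset.sum_add_distrib, Finset.sum_add_distrib, ← Finset.mul_sum] at h4
  have h5 : 2 * ∑ a ∈ A, Tn a ≤ 2 * mult * ∑ P ∈ I.image pl,
      (if (∑ i ∈ I with pl i = P, f i) < κ1 then (∑ i ∈ I with pl i = P, f i) else 0) := by
    rw [mul_assoc]
    exact mul_le_mul_of_nonneg_left h2 (by norm_num)
  linarith

end pointwise2

open Classical in
/-- number of lattice caps near a point. -/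
theorem card_lat {s : ℝ} (hs : 0 < s) (K : Finset (ℤ × ℤ)) (c : E2) :
    ((K.filter (fun k => ‖c - Lat s k‖ ≤ 8 * s)).card : ℝ) ≤ 361 := by
  have h1 : (K.filter (fun k => ‖c - Lat s k‖ ≤ 8 * s)).card ≤
      (Finset.Icc (-9 : ℤ) 9 ×ˢ Finset.Icc (-9 : ℤ) 9).card := by
    apply Finset.card_le_card_of_injOn (fun k => k - nr s c)
    · intro k hk
      rw [Finset.coe_filter, Set.mem_ofPred_eq] at hk
      have h2 : ‖Lat s (k - nr s c)‖ ≤ 9 * s := by
        rw [Lat_sub]
        have e : Lat s k - Lat s (nr s c) = (c - Lat s (nr s c)) - (c - Lat s k) := by abel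
        rw [e]
        have := norm_sub_le (c - Lat s (nr s c)) (c - Lat s k)
        have := norm_sub_nr hs c
        linarith [hk.2]
      have h3 : ∀ j : Fin 2, |Lat s (k - nr s c) j| ≤ 9 * s := fun j =>
        (PiLp.norm_apply_le (Lat s (k - nr s c)) j).trans h2
      have h4 := h3 0
      have h5 := h3 1
      rw [Lat_zero_coord, abs_mul, abs_of_pos hs, mul_comm, mul_le_mul_iff_left₀ hs] at h4
      rw [Lat_one_coord, abs_mul, abs_of_pos hs, mul_comm, mul_le_mul_iff_left₀ hs] at h5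
      rw [abs_le] at h4 h5
      simp only [Finset.coe_product, Finset.coe_Icc, Set.mem_prod, Set.mem_Icc]
      refine ⟨⟨?_, ?_⟩, ?_, ?_⟩
      · exact_mod_cast h4.1
      · exact_mod_cast h4.2
      · exact_mod_cast h5.1
      · exact_mod_cast h5.2
    · intro a _ b _ hab
      simpa using hab
  have h2 : (Finset.Icc (-9 : ℤ) 9 ×ˢ Finset.Icc (-9 : ℤ) 9).card = 361 := by
    rw [Finset.card_product, Int.card_Icc]
    rfl
  rw [h2] at h1
  exact_mod_cast h1

end Crest.Agent.R138.Mis535
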