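import Crest.Agent.R138.MisA_535

/-!
# R138 / R139: misaligned plates are negligible, main statement (helper535)
-/

set_option autoImplicit false

namespace Crest.Agent.R138.Mis535

open MeasureTheory Crest.Agent.R138.Tub70
open Crest.Agent.R138.Defs (plank)
open scoped ENNReal

theorem sn_comm (e e' : E2) : sn e e' = - sn e' e := by
  unfold sn; ring

/-- the sine of the angle of the normals. -/
theorem abs_sn_eq (b b' : OrthonormalBasis (Fin 2) ℝ E2) :
    |sn (b 0) (b' 0)| = |inner ℝ (b 0) (b' 1)| := by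
  have h1 := b'.sum_sq_norm_inner_right (b 0)
  rw [Fin.sum_univ_two, b.orthonormal.1 0] at h1
  have h2 : (inner ℝ (b 0) (b' 0) : ℝ) ^ 2 + sn (b 0) (b' 0) ^ 2 = 1 := by
    have e1 := norm_sq_eq (b 0)
    have e2 := norm_sq_eq (b' 0)
    rw [b.orthonormal.1 0] at e1
    rw [b'.orthonormal.1 0] at e2
    rw [inner_eq]
    unfold sn
    nlinarith
  rw [← sq_eq_sq_iff_abs_eq_abs]
  simp only [Real.norm_eq_abs, sq_abs] at h1
  rw [real_inner_comm (b 0) (b' 0), real_inner_comm (b 0) (b' 1)] at *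
  linarith

set_option maxHeartbeats 2000000 in
open Classical in
/-- **misaligned plates are negligible** (finite form). -/
theorem mis_frac0 {V : ℝ} (hKM : KM32 V) (ε : ℝ) (hε : 0 < ε) : ∃ C : ℝ, 0 ≤ C ∧
    ∀ (w r q D : ℝ), 0 < w → w ≤ r → 0 ≤ q → 0 < D →
    ∀ (ι κ α : Type) (I : Finset ι) (c y : ι → E2) (μ : ι → ℝ), (∀ i, 0 ≤ μ i) →
      (∀ i ∈ I, ‖c i‖ ≤ V) → (∀ i ∈ I, ‖y i‖ ≤ V * r) →
      (∀ (b : OrthonormalBasis (Fin 2) ℝ E2) (s1 s2 : ℝ) (c0 y0 : E2),
        w / r ≤ s1 → s1 ≤ 1 → w / r ≤ s2 → s2 ≤ 1 →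
          ∑ i ∈ I with PB r b s1 s2 c0 y0 (c i) (y i), μ i ≤
            D * (max s1 s2) ^ q * (s1 * s2 * r ^ 2)) →
    ∀ (pl : ι → κ) (bP : κ → OrthonormalBasis (Fin 2) ℝ E2) (cP yP : κ → E2) (s1 s2 c0 : ℝ),
      w / r ≤ s1 → s1 ≤ s2 → 0 < c0 →
      (∀ i ∈ I, PB r (bP (pl i)) s1 s2 (cP (pl i)) (yP (pl i)) (c i) (y i)) →
      (∀ i ∈ I, c0 * D * s2 ^ q * (s1 * s2 * r ^ 2) ≤ ∑ i' ∈ I with pl i' = pl i, μ i') →
    ∀ (A : Finset α) (om : α → ι → ℝ) (bA : α → OrthonormalBasis (Fin 2) ℝ E2)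
      (cA yA : α → E2) (s1' s2' m0 δ mult φ0 : ℝ),
      w / r ≤ s1' → s1' ≤ s2' → 0 < m0 → 0 < δ → δ ≤ 1 → 0 ≤ mult →
      (∀ a i, 0 ≤ om a i) → (∀ a i, om a i ≤ 1) →
      (∀ a ∈ A, ∀ i ∈ I, om a i ≠ 0 → PB r (bA a) s1' s2' (cA a) (yA a) (c i) (y i)) →
      (∀ a ∈ A, ∀ i ∈ I, om a i ≠ 0 → δ ≤ |sn (bA a 0) (bP (pl i) 0)|) →
      (∀ a ∈ A, m0 * D * s2' ^ q * (s1' * s2' * r ^ 2) ≤ ∑ i ∈ I, om a i * μ i) →
      (∀ i ∈ I, ∑ a ∈ A, om a i ≤ mult) →
      φ0 = 2 * (s1 + s1') / δ → 3 * φ0 ≤ 1 →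
    ∀ κ0 : ℝ, 0 < κ0 →
      ∑ a ∈ A, ∑ i ∈ I, om a i * μ i ≤ C * mult *
        ((w / r) ^ (-ε) * (m0 * κ0) ^ (-(1/2) : ℝ) * (φ0 * r / w) *
          (24 * φ0 / min s2 s2') ^ (q / 2) + κ0 / c0) * ∑ i ∈ I, μ i := by
  obtain ⟨C1, hC1, hkm⟩ := km_fin hKM ε hε
  refine ⟨C1 * 54150 + 144, by positivity, ?_⟩
  intro w r q D hw hwr hq hD ι κ α I c y μ hμ hc hy hdm pl bP cP yP s1 s2 c0 hs1 hs12 hc0 hPB
    hdens A om bA cA yA s1' s2' m0 δ mult φ0 hs1' hs12' hm0 hδ hδ1 hmult hom0 hom1 hPBA hmis hmass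
    hm hφ hφ1 κ0 hκ0
  set μo : α → ι → ℝ := fun a i => om a i * μ i with hμod
  have hμo : ∀ a i, 0 ≤ μo a i := fun a i => mul_nonneg (hom0 a i) (hμ i)
  have hr : 0 < r := hw.trans_le hwr
  have hθ : 0 < w / r := by positivity
  have ps1 : 0 < s1 := hθ.trans_le hs1
  have ps2 : 0 < s2 := ps1.trans_le hs12
  have ps1' : 0 < s1' := hθ.trans_le hs1'
  have ps2' : 0 < s2' := ps1'.trans_le hs12'
  have pφ : 0 < φ0 := by rw [hφ]; positivity
  have hφθ : w / r ≤ φ0 := by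
    rw [hφ, le_div_iff₀ hδ]
    nlinarith
  have hpi := Real.pi_pos
  set s : ℝ := max s2 s2' with hs
  have ps : 0 < s := lt_max_of_lt_left ps2
  have hs2s : s2 ≤ s := le_max_left _ _
  have hs2s' : s2' ≤ s := le_max_right _ _
  set k : α → ℤ × ℤ := fun a => nr s (cA a) with hk
  set JJ : ℤ × ℤ → Finset ι := fun k => I.filter (fun i => ‖c i - Lat s k‖ ≤ 8 * s) with hJJ
  set K : ℝ := D * (3 * φ0) ^ q * (3 * φ0 * (3 * φ0) * r ^ 2) with hKdef
  have p3 : 0 < (3 * φ0) ^ q := Real.rpow_pos_of_pos (by positivity) _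
  have p1 : 0 < s2' ^ q := Real.rpow_pos_of_pos ps2' _
  have p2 : 0 < s2 ^ q := Real.rpow_pos_of_pos ps2 _
  have hK0 : 0 < K := by positivity
  set β0 : ℝ := Real.pi / 144 * m0 * D * s2' ^ q * w ^ 2 with hβ0
  have pβ : 0 < β0 := by positivity
  set κ1 : ℝ := κ0 * w ^ 2 * D * s2 ^ q with hκ1
  have pκ1 : 0 < κ1 := by positivity
  have hJI : ∀ k, JJ k ⊆ I := fun k => Finset.filter_subset _ _
  have hPJ : ∀ a ∈ A, ∀ i0 ∈ I, om a i0 ≠ 0 → ∀ i ∈ I, pl i = pl i0 → i ∈ JJ (k a) := by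
    intro a ha i0 hi0 ho0 i hi hp
    rw [hJJ, Finset.mem_filter]
    refine ⟨hi, ?_⟩
    have n1 := (hPB i hi).norm_c hs12
    have n2 := (hPB i0 hi0).norm_c hs12
    have n3 := (hPBA a ha i0 hi0 ho0).norm_c hs12'
    have n4 := norm_sub_nr ps (cA a)
    rw [hp] at n1
    have e : c i - Lat s (k a) = (c i - cP (pl i0)) - (c i0 - cP (pl i0)) + (c i0 - cA a) +
        (cA a - Lat s (nr s (cA a))) := by
      rw [hk]; abel
    rw [e]
    have t1 := norm_add_le ((c i - cP (pl i0)) - (c i0 - cP (pl i0)) + (c i0 - cA a))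
      (cA a - Lat s (nr s (cA a)))
    have t2 := norm_add_le ((c i - cP (pl i0)) - (c i0 - cP (pl i0))) (c i0 - cA a)
    have t3 := norm_sub_le (c i - cP (pl i0)) (c i0 - cP (pl i0))
    linarith
  -- the bound `K`
  have hKb : ∀ p : E2 × ℝ, p ∈ cy r → ∀ a ∈ A, ∀ i0 ∈ I, om a i0 ≠ 0 → InT w (c i0) (y i0) p →
      ∑ i ∈ (I.filter (fun i => om a i ≠ 0)) with pl i = pl i0,
        (if InT w (c i) (y i) p then μ i else 0) ≤ K := by
    intro p hp a ha i0 hi0I ho0 hT0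
    refine le_trans ?_ (hdm (bA a) (3 * φ0) (3 * φ0) (c i0) (y i0) (by linarith) hφ1
      (by linarith) hφ1 |>.trans (le_of_eq (by rw [max_self])))
    rw [← Finset.sum_filter]
    apply Finset.sum_le_sum_of_subset_of_nonneg
    · intro i hi
      rw [Finset.mem_filter, Finset.mem_filter] at hi
      obtain ⟨⟨hi1, hpl⟩, hT⟩ := hi
      rw [Finset.mem_filter] at hi1
      obtain ⟨hiI, ho⟩ := hi1
      rw [Finset.mem_filter]
      refine ⟨hiI, ?_⟩
      have q1 := hPB i hiI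
      have q2 := hPB i0 hi0I
      rw [hpl] at q1
      have q3 := hPBA a ha i hiI ho
      have q4 := hPBA a ha i0 hi0I ho0
      have dif : ∀ (u v x e : E2) (σ : ℝ), |inner ℝ (u - x) e| ≤ σ → |inner ℝ (v - x) e| ≤ σ →
          |inner ℝ (u - v) e| ≤ 2 * σ := by
        intro u v x e σ h1 h2
        have e1 : u - v = (u - x) - (v - x) := by abel
        rw [e1, inner_sub_left]
        have := abs_sub (inner ℝ (u - x) e) (inner ℝ (v - x) e)
        linarith
      have m1 := dif _ _ _ _ _ q1.1 q2.1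
      have m2 := dif _ _ _ _ _ q3.1 q4.1
      have m3 := sn_norm_le (u := c i - c i0) ((bA a).orthonormal.1 0)
        ((bP (pl i0)).orthonormal.1 0)
      have m4 := hmis a ha i0 hi0I ho0
      have m5 : ‖c i - c i0‖ ≤ φ0 := by
        rw [hφ, le_div_iff₀ hδ]
        have := mul_le_mul_of_nonneg_right m4 (norm_nonneg (c i - c i0))
        linarith
      have m6 : ‖y i - y i0‖ ≤ 3 * φ0 * r := by
        have e1 : y i - y i0 = (p.1 - y i0 + p.2 • c i0) - (p.1 - y i + p.2 • c i) +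
            p.2 • (c i - c i0) := by
          rw [smul_sub]; abel
        rw [e1]
        have t1 := norm_add_le ((p.1 - y i0 + p.2 • c i0) - (p.1 - y i + p.2 • c i))
          (p.2 • (c i - c i0))
        have t2 := norm_sub_le (p.1 - y i0 + p.2 • c i0) (p.1 - y i + p.2 • c i)
        have t3 : ‖p.1 - y i0 + p.2 • c i0‖ ≤ w := hT0
        have t4 : ‖p.1 - y i + p.2 • c i‖ ≤ w := hT
        have t5 : ‖p.2 • (c i - c i0)‖ ≤ r * φ0 := by
          rw [norm_smul]
          exact mul_le_mul hp m5 (norm_nonneg _) hr.le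
        have t6 : w ≤ φ0 * r := by rwa [div_le_iff₀ hr] at hφθ
        nlinarith
      have cs : ∀ (u : E2) (j : Fin 2), |inner ℝ u (bA a j)| ≤ ‖u‖ := by
        intro u j
        refine (abs_real_inner_le_norm _ _).trans ?_
        rw [(bA a).orthonormal.1 j, mul_one]
      exact ⟨(cs _ _).trans (by linarith), (cs _ _).trans (by linarith), (cs _ _).trans m6,
        (cs _ _).trans m6⟩
    · intro i _ _
      exact hμ i
  -- pointwise inequality
  set A0 : ℝ := β0 * κ1 / (2 * K) with hA0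
  have pA0 : 0 < A0 := by positivity
  set Cx : ℝ := mult * (Real.sqrt A0)⁻¹ with hCx
  have hCx0 : 0 ≤ Cx := by positivity
  have hpw : ∀ p ∈ cy r, ∑ a ∈ A, ef w c y (μo a) I p ≤
      Cx * ∑ j ∈ A.image k, (ef w c y μ (JJ j) p) ^ (3/2 : ℝ) +
      ∑ a ∈ A, (if ef w c y (μo a) I p < β0 then ef w c y (μo a) I p else 0) +
      2 * mult * ∑ P ∈ I.image pl, (if ef w c y μ (I.filter (fun i => pl i = P)) p < κ1 then
        ef w c y μ (I.filter (fun i => pl i = P)) p else 0) := by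
    intro p hp
    exact pw_total I A om JJ k pl (fun i => InT w (c i) (y i) p) μ hμ hom0 hom1 hmult hm hJI hPJ
      hK0 pκ1 pβ (A.image k) (fun a ha => Finset.mem_image_of_mem k ha) (hKb p hp)
  set Ma : ℝ := ∑ a ∈ A, ∑ i ∈ I, μo a i with hMa
  set m : ℝ := ∑ i ∈ I, μ i with hmdef
  have hm_nn : 0 ≤ m := Finset.sum_nonneg fun i _ => hμ i
  have hMa_nn : 0 ≤ Ma := Finset.sum_nonneg fun a _ => Finset.sum_nonneg fun i _ => hμo a i
  -- left side
  have hL : ∫⁻ p in cy r, ENNReal.ofReal (∑ a ∈ A, ef w c y (μo a) I p) =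
      ENNReal.ofReal (2 * Real.pi * w ^ 2 * r * Ma) := by
    have e1 : ∀ p, ENNReal.ofReal (∑ a ∈ A, ef w c y (μo a) I p) =
        ∑ a ∈ A, ENNReal.ofReal (ef w c y (μo a) I p) := fun p =>
      ENNReal.ofReal_sum_of_nonneg fun a _ => ef_nonneg (hμo a) _ _
    simp only [e1]
    rw [lintegral_finsetSum _ fun a _ => (measurable_ef I).ennreal_ofReal]
    have e2 : ∀ a, ∫⁻ p in cy r, ENNReal.ofReal (ef w c y (μo a) I p) =
        ENNReal.ofReal (2 * Real.pi * w ^ 2 * r * ∑ i ∈ I, μo a i) := fun a =>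
      lint_tube hr hw c y (μo a) (hμo a) I
    simp only [e2]
    rw [hMa, Finset.mul_sum, ENNReal.ofReal_sum_of_nonneg]
    intro a _
    have : 0 ≤ ∑ i ∈ I, μo a i := Finset.sum_nonneg fun i _ => hμo a i
    positivity
  -- first term
  have hR1 : ∫⁻ p in cy r, ENNReal.ofReal
      (Cx * ∑ j ∈ A.image k, (ef w c y μ (JJ j) p) ^ (3/2 : ℝ)) ≤
      ENNReal.ofReal (Cx * (C1 * (w / r) ^ (-ε) * Real.sqrt (25 * D * (8 * s) ^ q) *
        (w ^ 3 * r * (361 * m)))) := by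
    have e1 : ∀ p, ENNReal.ofReal (Cx * ∑ j ∈ A.image k, (ef w c y μ (JJ j) p) ^ (3/2 : ℝ)) =
        ENNReal.ofReal Cx * ∑ j ∈ A.image k, ENNReal.ofReal (ef w c y μ (JJ j) p) ^ (3/2 : ℝ) := by
      intro p
      rw [ENNReal.ofReal_mul hCx0, ENNReal.ofReal_sum_of_nonneg]
      · congr 1
        refine Finset.sum_congr rfl fun j _ => ?_
        rw [ENNReal.ofReal_rpow_of_nonneg (ef_nonneg hμ _ _) (by norm_num)]
      · intro j _
        exact Real.rpow_nonneg (ef_nonneg hμ _ _) _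
    simp only [e1]
    rw [lintegral_const_mul' _ _ ENNReal.ofReal_ne_top, lintegral_finsetSum _ fun j _ =>
      (measurable_ef (JJ j)).ennreal_ofReal.pow_const _, ENNReal.ofReal_mul hCx0]
    gcongr
    have hΔ0 : 0 ≤ 25 * D * (8 * s) ^ q := by positivity
    have h1 : ∀ j ∈ A.image k, ∫⁻ p in cy r, ENNReal.ofReal (ef w c y μ (JJ j) p) ^ (3/2 : ℝ) ≤
        ENNReal.ofReal (C1 * (w / r) ^ (-ε) * Real.sqrt (25 * D * (8 * s) ^ q) *
          (w ^ 3 * r * ∑ i ∈ JJ j, μ i)) := by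
      intro j _
      apply hkm w r hw hwr ι (JJ j) c y μ hμ (fun i hi => hy i (hJI j hi))
        (fun i hi => hc i (hJI j hi)) _ hΔ0
      intro b σ1 σ2 cc yy h1 h2 h3 h4
      have hs8 : w / r ≤ 8 * s := by linarith
      exact cap_dmax hw hr hq hD.le I c y μ hμ hdm (Lat s j) (8 * s) hs8 b σ1 σ2 cc yy h1 h2 h3 h4
    refine (Finset.sum_le_sum h1).trans ?_
    rw [← ENNReal.ofReal_sum_of_nonneg]
    · apply ENNReal.ofReal_le_ofReal
      rw [← Finset.mul_sum, ← Finset.mul_sum]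
      have h2 : ∑ j ∈ A.image k, ∑ i ∈ JJ j, μ i ≤ 361 * m := by
        apply sum_mult (A.image k) JJ I (fun j _ => hJI j) μ (fun i _ => hμ i)
        intro i hi
        refine le_trans ?_ (card_lat ps (A.image k) (c i))
        exact_mod_cast Finset.card_le_card (fun j hj => by
          rw [Finset.mem_filter] at hj ⊢
          exact ⟨hj.1, (Finset.mem_filter.1 hj.2).2⟩)
      have : 0 ≤ (w / r) ^ (-ε) := Real.rpow_nonneg hθ.le _
      gcongr
    · intro j _
      have : 0 ≤ ∑ i ∈ JJ j, μ i := Finset.sum_nonneg fun i _ => hμ i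
      have : 0 ≤ (w / r) ^ (-ε) := Real.rpow_nonneg hθ.le _
      positivity
  -- second term
  have hR2 : ∫⁻ p in cy r, ENNReal.ofReal
      (∑ a ∈ A, (if ef w c y (μo a) I p < β0 then ef w c y (μo a) I p else 0)) ≤
      ENNReal.ofReal (Real.pi / 2 * w ^ 2 * r * Ma) := by
    have e1 : ∀ p, ENNReal.ofReal
        (∑ a ∈ A, (if ef w c y (μo a) I p < β0 then ef w c y (μo a) I p else 0)) =
        ∑ a ∈ A, ENNReal.ofReal (if ef w c y (μo a) I p < β0 then ef w c y (μo a) I p else 0) :=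
      fun p => ENNReal.ofReal_sum_of_nonneg fun a _ => by
        split_ifs
        · exact ef_nonneg (hμo a) _ _
        · exact le_rfl
    simp only [e1]
    rw [lintegral_finsetSum _ fun a _ => (Measurable.ite
      (measurableSet_lt (measurable_ef I) measurable_const) (measurable_ef I)
      measurable_const).ennreal_ofReal]
    have h1 : ∀ a ∈ A, ∫⁻ p in cy r, ENNReal.ofReal
        (if ef w c y (μo a) I p < β0 then ef w c y (μo a) I p else 0) ≤
        ENNReal.ofReal (Real.pi / 2 * w ^ 2 * r * ∑ i ∈ I, μo a i) := by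
      intro a ha
      refine (lint_low (b := bA a) (c0 := cA a) (y0 := yA a) hr ps1'.le ps2'.le pβ.le _
        (fun p _ => ?_) (fun p hp hnp => ?_)).trans ?_
      · split_ifs with h
        · exact h.le
        · exact pβ.le
      · have h0 : ef w c y (μo a) I p = 0 := by
          unfold ef
          refine Finset.sum_eq_zero fun i hi => ?_
          split_ifs with hT
          · by_contra hne
            have ho : om a i ≠ 0 := fun h => hne (by rw [hμod]; simp only [h, zero_mul])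
            exact hnp (mem_plank hr hs1' (hs1'.trans hs12') (hPBA a ha i hi ho) hp hT)
          · rfl
        simp [h0]
      · apply ENNReal.ofReal_le_ofReal
        have h2 := hmass a ha
        calc β0 * (72 * (s1' * s2' * r ^ 3)) = Real.pi / 2 * w ^ 2 * r *
              (m0 * D * s2' ^ q * (s1' * s2' * r ^ 2)) := by rw [hβ0]; ring
          _ ≤ _ := by gcongr
    refine (Finset.sum_le_sum h1).trans ?_
    rw [← ENNReal.ofReal_sum_of_nonneg]
    · rw [← Finset.mul_sum]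
    · intro a _
      have : 0 ≤ ∑ i ∈ I, μo a i := Finset.sum_nonneg fun i _ => hμo a i
      positivity
  -- third term
  have hR3 : ∫⁻ p in cy r, ENNReal.ofReal
      (2 * mult * ∑ P ∈ I.image pl, (if ef w c y μ (I.filter (fun i => pl i = P)) p < κ1 then
        ef w c y μ (I.filter (fun i => pl i = P)) p else 0)) ≤
      ENNReal.ofReal (144 * mult * κ0 * w ^ 2 * r * m / c0) := by
    have e1 : ∀ p, ENNReal.ofReal
        (2 * mult * ∑ P ∈ I.image pl, (if ef w c y μ (I.filter (fun i => pl i = P)) p < κ1 then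
          ef w c y μ (I.filter (fun i => pl i = P)) p else 0)) =
        ENNReal.ofReal (2 * mult) * ∑ P ∈ I.image pl, ENNReal.ofReal
          (if ef w c y μ (I.filter (fun i => pl i = P)) p < κ1 then
          ef w c y μ (I.filter (fun i => pl i = P)) p else 0) := by
      intro p
      rw [ENNReal.ofReal_mul (by positivity), ENNReal.ofReal_sum_of_nonneg]
      intro P _
      split_ifs
      · exact ef_nonneg hμ _ _
      · exact le_rfl
    simp only [e1]
    rw [lintegral_const_mul' _ _ ENNReal.ofReal_ne_top, lintegral_finsetSum _ fun P _ =>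
      (Measurable.ite (measurableSet_lt (measurable_ef _) measurable_const) (measurable_ef _)
      measurable_const).ennreal_ofReal]
    have h1 : ∀ P ∈ I.image pl, ∫⁻ p in cy r, ENNReal.ofReal
        (if ef w c y μ (I.filter (fun i => pl i = P)) p < κ1 then
          ef w c y μ (I.filter (fun i => pl i = P)) p else 0) ≤
        ENNReal.ofReal (κ1 * (72 * (s1 * s2 * r ^ 3))) := by
      intro P _
      refine lint_low (b := bP P) (c0 := cP P) (y0 := yP P) hr ps1.le ps2.le pκ1.le _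
        (fun p _ => ?_) (fun p hp hnp => ?_)
      · split_ifs with h
        · exact h.le
        · exact pκ1.le
      · have h0 : ef w c y μ (I.filter (fun i => pl i = P)) p = 0 := by
          unfold ef
          refine Finset.sum_eq_zero fun i hi => ?_
          rw [if_neg]
          intro hT
          rw [Finset.mem_filter] at hi
          have h2 := hPB i hi.1
          rw [hi.2] at h2
          exact hnp (mem_plank hr hs1 (hs1.trans hs12) h2 hp hT)
        simp [h0]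
    refine (mul_le_mul_right (Finset.sum_le_sum h1) _).trans ?_
    rw [Finset.sum_const, nsmul_eq_mul, ← ENNReal.ofReal_natCast, ← ENNReal.ofReal_mul
      (Nat.cast_nonneg _), ← ENNReal.ofReal_mul (by positivity)]
    apply ENNReal.ofReal_le_ofReal
    -- number of labels
    have h2 : ((I.image pl).card : ℝ) * (c0 * D * s2 ^ q * (s1 * s2 * r ^ 2)) ≤ m := by
      rw [hmdef, ← Finset.sum_fiberwise_of_maps_to (s := I) (t := I.image pl) (g := pl)
        (fun i hi => Finset.mem_image_of_mem pl hi), ← nsmul_eq_mul]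
      apply Finset.card_nsmul_le_sum
      intro P hP
      obtain ⟨i0, hi0, rfl⟩ := Finset.mem_image.1 hP
      exact hdens i0 hi0
    rw [le_div_iff₀ hc0]
    calc 2 * mult * (((I.image pl).card : ℝ) * (κ1 * (72 * (s1 * s2 * r ^ 3)))) * c0
        = 144 * mult * κ0 * w ^ 2 * r * (((I.image pl).card : ℝ) *
          (c0 * D * s2 ^ q * (s1 * s2 * r ^ 2))) := by rw [hκ1]; ring
      _ ≤ _ := by gcongr
  -- total
  have htot : ENNReal.ofReal (2 * Real.pi * w ^ 2 * r * Ma) ≤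
      ENNReal.ofReal (Cx * (C1 * (w / r) ^ (-ε) * Real.sqrt (25 * D * (8 * s) ^ q) *
        (w ^ 3 * r * (361 * m))) + Real.pi / 2 * w ^ 2 * r * Ma +
        144 * mult * κ0 * w ^ 2 * r * m / c0) := by
    have hp0 : 0 ≤ (w / r) ^ (-ε) := Real.rpow_nonneg hθ.le _
    rw [ENNReal.ofReal_add (by positivity) (by positivity), ENNReal.ofReal_add (by positivity)
      (by positivity), ← hL]
    refine le_trans ?_ (add_le_add (add_le_add hR1 hR2) hR3)
    rw [← lintegral_add_left, ← lintegral_add_left]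
    · refine setLIntegral_mono' (measurableSet_cy r) fun p hp => ?_
      refine (ENNReal.ofReal_le_ofReal (hpw p hp)).trans ?_
      exact ENNReal.ofReal_add_le.trans (add_le_add ENNReal.ofReal_add_le le_rfl)
    · refine Measurable.fun_add ?_ ?_
      · exact (measurable_const.mul (Finset.measurable_fun_sum _ fun j _ =>
          (measurable_ef (JJ j)).pow_const _)).ennreal_ofReal
      · exact (Finset.measurable_fun_sum _ fun a _ => Measurable.ite
          (measurableSet_lt (measurable_ef I) measurable_const) (measurable_ef I)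
          measurable_const).ennreal_ofReal
    · exact (measurable_const.mul (Finset.measurable_fun_sum _ fun j _ =>
          (measurable_ef (JJ j)).pow_const _)).ennreal_ofReal
  have hp0 : 0 ≤ (w / r) ^ (-ε) := Real.rpow_nonneg hθ.le _
  have hreal : 2 * Real.pi * w ^ 2 * r * Ma ≤
      Cx * (C1 * (w / r) ^ (-ε) * Real.sqrt (25 * D * (8 * s) ^ q) *
        (w ^ 3 * r * (361 * m))) + Real.pi / 2 * w ^ 2 * r * Ma +
        144 * mult * κ0 * w ^ 2 * r * m / c0 := by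
    rwa [ENNReal.ofReal_le_ofReal_iff (by positivity)] at htot
  have hnum := numer (D := D) (m0 := m0) (κ0 := κ0) (q := q) hw hr hD hm0 hκ0 ps2 ps2' pφ
  set X : ℝ := (m0 * κ0) ^ (-(1/2) : ℝ) * (φ0 * r / w) * (24 * φ0 / min s2 s2') ^ (q / 2) with hX
  have hmn : 0 < min s2 s2' := lt_min ps2 ps2'
  have hX0 : 0 ≤ X := by
    rw [hX]
    have : 0 ≤ (m0 * κ0) ^ (-(1/2) : ℝ) := Real.rpow_nonneg (by positivity) _
    have : 0 ≤ (24 * φ0 / min s2 s2') ^ (q / 2) := Real.rpow_nonneg (by positivity) _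
    positivity
  have h5 : Cx * (C1 * (w / r) ^ (-ε) * Real.sqrt (25 * D * (8 * s) ^ q) *
        (w ^ 3 * r * (361 * m))) ≤ mult * C1 * (w / r) ^ (-ε) * (w ^ 2 * r) * 361 * m * (150 * X) := by
    calc _ = mult * C1 * (w / r) ^ (-ε) * (w ^ 2 * r) * 361 * m *
          ((Real.sqrt A0)⁻¹ * Real.sqrt (25 * D * (8 * s) ^ q) * w) := by rw [hCx]; ring
      _ ≤ _ := by gcongr
  have h3 : (3 : ℝ) < Real.pi := Real.pi_gt_three
  have h6 : (w ^ 2 * r) * Ma ≤ (w ^ 2 * r) * (mult * C1 * (w / r) ^ (-ε) * 361 * m * (150 * X) +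
      144 * mult * κ0 * m / c0) := by
    have e1 : (w ^ 2 * r) * Ma ≤ 3 / 2 * Real.pi * w ^ 2 * r * Ma := by
      have : 1 ≤ 3 / 2 * Real.pi := by linarith
      calc (w ^ 2 * r) * Ma = 1 * (w ^ 2 * r * Ma) := by ring
        _ ≤ (3 / 2 * Real.pi) * (w ^ 2 * r * Ma) := by
          apply mul_le_mul_of_nonneg_right this; positivity
        _ = _ := by ring
    refine e1.trans ?_
    have e2 : 144 * mult * κ0 * w ^ 2 * r * m / c0 = (w ^ 2 * r) * (144 * mult * κ0 * m / c0) := by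
      field_simp
    rw [e2] at hreal
    linarith
  have h7 : Ma ≤ mult * C1 * (w / r) ^ (-ε) * 361 * m * (150 * X) + 144 * mult * κ0 * m / c0 :=
    le_of_mul_le_mul_left h6 (by positivity)
  refine h7.trans ?_
  have e3 : (C1 * 54150 + 144) * mult * ((w / r) ^ (-ε) * (m0 * κ0) ^ (-(1/2) : ℝ) * (φ0 * r / w) *
      (24 * φ0 / min s2 s2') ^ (q / 2) + κ0 / c0) * m =
      (mult * C1 * (w / r) ^ (-ε) * 361 * m * (150 * X) + 144 * mult * κ0 * m / c0) +
      (144 * mult * ((w / r) ^ (-ε) * X) * m + C1 * 54150 * mult * (κ0 / c0) * m) := by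
    rw [hX]; ring
  rw [e3]
  have : 0 ≤ 144 * mult * ((w / r) ^ (-ε) * X) * m + C1 * 54150 * mult * (κ0 / c0) * m := by
    positivity
  linarith

open Classical in
/-- **misaligned plates are negligible** (finite form, fractional incidences `om`). -/
theorem mis_frac {V : ℝ} (hKM : KM32 V) (ε : ℝ) (hε : 0 < ε) : ∃ C : ℝ, 0 ≤ C ∧
    ∀ (w r q D : ℝ), 0 < w → w ≤ r → 0 ≤ q → 0 < D →
    ∀ (ι κ α : Type) (I : Finset ι) (c y : ι → E2) (μ : ι → ℝ), (∀ i, 0 ≤ μ i) →
      (∀ i ∈ I, ‖c i‖ ≤ V) → (∀ i ∈ I, ‖y i‖ ≤ V * r) →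
      (∀ (b : OrthonormalBasis (Fin 2) ℝ E2) (s1 s2 : ℝ) (c0 y0 : E2),
        w / r ≤ s1 → s1 ≤ 1 → w / r ≤ s2 → s2 ≤ 1 →
          ∑ i ∈ I with PB r b s1 s2 c0 y0 (c i) (y i), μ i ≤
            D * (max s1 s2) ^ q * (s1 * s2 * r ^ 2)) →
    ∀ (pl : ι → κ) (bP : κ → OrthonormalBasis (Fin 2) ℝ E2) (cP yP : κ → E2) (s1 s2 c0 : ℝ),
      w / r ≤ s1 → s1 ≤ s2 → 0 < c0 →
      (∀ i ∈ I, PB r (bP (pl i)) s1 s2 (cP (pl i)) (yP (pl i)) (c i) (y i)) →
      (∀ i ∈ I, c0 * D * s2 ^ q * (s1 * s2 * r ^ 2) ≤ ∑ i' ∈ I with pl i' = pl i, μ i') →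
    ∀ (A : Finset α) (om : α → ι → ℝ) (bA : α → OrthonormalBasis (Fin 2) ℝ E2)
      (cA yA : α → E2) (s1' s2' m0 δ mult φ0 : ℝ),
      w / r ≤ s1' → s1' ≤ s2' → 0 < m0 → 0 < δ → δ ≤ 1 → 0 ≤ mult →
      (∀ a ∈ A, ∀ i ∈ I, 0 ≤ om a i) → (∀ a ∈ A, ∀ i ∈ I, om a i ≤ 1) →
      (∀ a ∈ A, ∀ i ∈ I, om a i ≠ 0 → PB r (bA a) s1' s2' (cA a) (yA a) (c i) (y i)) →
      (∀ a ∈ A, ∀ i ∈ I, om a i ≠ 0 → δ ≤ |sn (bP (pl i) 0) (bA a 0)|) →
      (∀ a ∈ A, m0 * D * s2' ^ q * (s1' * s2' * r ^ 2) ≤ ∑ i ∈ I, om a i * μ i) →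
      (∀ i ∈ I, ∑ a ∈ A, om a i ≤ mult) →
      φ0 = 2 * (s1 + s1') / δ → 3 * φ0 ≤ 1 →
    ∀ κ0 : ℝ, 0 < κ0 →
      ∑ a ∈ A, ∑ i ∈ I, om a i * μ i ≤ C * mult *
        ((w / r) ^ (-ε) * (m0 * κ0) ^ (-(1/2) : ℝ) * (φ0 * r / w) *
          (24 * φ0 / min s2 s2') ^ (q / 2) + κ0 / c0) * ∑ i ∈ I, μ i := by
  obtain ⟨C, hC, H⟩ := mis_frac0 hKM ε hε
  refine ⟨C, hC, ?_⟩
  intro w r q D hw hwr hq hD ι κ α I c y μ hμ hc hy hdm pl bP cP yP s1 s2 c0 hs1 hs12 hc0 hPB
    hdens A om bA cA yA s1' s2' m0 δ mult φ0 hs1' hs12' hm0 hδ hδ1 hmult hom0 hom1 hPBA hmis hmass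
    hm hφ hφ1 κ0 hκ0
  set om' : α → ι → ℝ := fun a i => if a ∈ A ∧ i ∈ I then om a i else 0 with hom'
  have he : ∀ a ∈ A, ∀ i ∈ I, om' a i = om a i := fun a ha i hi => if_pos ⟨ha, hi⟩
  have hs : ∀ a ∈ A, ∑ i ∈ I, om' a i * μ i = ∑ i ∈ I, om a i * μ i := fun a ha =>
    Finset.sum_congr rfl fun i hi => by rw [he a ha i hi]
  have h := H w r q D hw hwr hq hD ι κ α I c y μ hμ hc hy hdm pl bP cP yP s1 s2 c0 hs1 hs12 hc0
    hPB hdens A om' bA cA yA s1' s2' m0 δ mult φ0 hs1' hs12' hm0 hδ hδ1 hmult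
    (fun a i => by
      simp only [hom']
      split_ifs with h
      · exact hom0 a h.1 i h.2
      · exact le_rfl)
    (fun a i => by
      simp only [hom']
      split_ifs with h
      · exact hom1 a h.1 i h.2
      · exact zero_le_one)
    (fun a ha i hi h => hPBA a ha i hi (by rwa [he a ha i hi] at h))
    (fun a ha i hi h => by
      rw [sn_comm, abs_neg]
      exact hmis a ha i hi (by rwa [he a ha i hi] at h))
    (fun a ha => by rw [hs a ha]; exact hmass a ha)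
    (fun i hi => by
      rw [Finset.sum_congr rfl fun a ha => he a ha i hi]
      exact hm i hi) hφ hφ1 κ0 hκ0
  rwa [Finset.sum_congr rfl hs] at h

end Crest.Agent.R138.Mis535
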