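import Mathlib
import Crest.Agent.R138.Tilt_51

/-!
# R138: the lattice (meet) lemma for near-maximal planks (helper829)

Two near-maximal plank systems over one cell, one narrower (`v2 ≤ w2`) and thicker (`w1 ≤ v1`) than
the other: outside a small part of the mass the **meet** system, dimensions `(w1, v2)`, is again
near-maximal.
-/

set_option autoImplicit false
set_option linter.unusedVariables false
set_option linter.unusedSectionVars false

open Finset

namespace Crest.Agent.R138.Mj829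

open Crest.Agent.R138.Flag51
open Crest.Agent.R138.Tilt51 (DMax Near)

noncomputable section

section geo

variable {w1 w2 v1 v2 z0 ρ Λ : ℝ} {l l' t t0 t2 : Ln} {e e' : E2}

/-- a plank `(l', e'; v1, v2)` which has a common line with `(l, e; w1, w2)` (`w1 ≤ v1`, `v2 ≤ w2`)
and small tilt lies in the thickened plank. -/
theorem thick_of_share (hw1 : 0 ≤ w1) (hwv : w1 ≤ v1) (hv12 : v1 ≤ v2) (hvw : v2 ≤ w2)
    (hΛ0 : 0 ≤ Λ) (he : dt e e = 1) (he' : dt e' e' = 1)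
    (ht : InPlank t l e w1 w2 z0 ρ) (ht' : InPlank t l' e' v1 v2 z0 ρ)
    (hΛ : |cr e e'| * v2 ≤ Λ * v1) (h2 : InPlank t2 l' e' v1 v2 z0 ρ) :
    InPlank t2 l e ((5 + 2 * Λ) * v1) ((5 + 2 * Λ) * w2) z0 ρ := by
  intro z hz
  have hv1 : 0 ≤ v1 := hw1.trans hwv
  have hv2 : 0 ≤ v2 := hv1.trans hv12
  have hw2 : 0 ≤ w2 := hv2.trans hvw
  obtain ⟨a1, a2⟩ := ht z hz
  obtain ⟨b1, b2⟩ := ht' z hz
  obtain ⟨c1, c2⟩ := h2 z hz
  have hcc := abs_dt_le_one he he'
  have hss := abs_cr_le_one he he'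
  set Y := pos t2 z - pos t z with hY
  have hYe : |dt Y e'| ≤ 2 * v1 := by
    have : dt Y e' = dt (pos t2 z - pos l' z) e' - dt (pos t z - pos l' z) e' := by
      rw [hY, ← dt_sub]; congr 1; abel
    rw [this]; exact (abs_sub _ _).trans (by linarith)
  have hYr : |cr e' Y| ≤ 2 * v2 := by
    have : cr e' Y = cr e' (pos t2 z - pos l' z) - cr e' (pos t z - pos l' z) := by
      rw [hY, ← cr_sub]; congr 1; abel
    rw [this]; exact (abs_sub _ _).trans (by linarith)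
  have hYdt : |dt Y e| ≤ 2 * v1 + 2 * (Λ * v1) := by
    rw [dt_of he' Y]
    refine (abs_sub _ _).trans ?_
    rw [abs_mul, abs_mul]
    have e1 : |dt e e'| * |dt Y e'| ≤ 1 * (2 * v1) :=
      mul_le_mul hcc hYe (abs_nonneg _) zero_le_one
    have e2 : |cr e e'| * |cr e' Y| ≤ |cr e e'| * (2 * v2) :=
      mul_le_mul_of_nonneg_left hYr (abs_nonneg _)
    linarith
  have hYcr : |cr e Y| ≤ 2 * v1 + 2 * v2 := by
    rw [cr_of he' Y]
    refine (abs_add_le _ _).trans ?_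
    rw [abs_mul, abs_mul]
    have e1 : |cr e e'| * |dt Y e'| ≤ 1 * (2 * v1) :=
      mul_le_mul hss hYe (abs_nonneg _) zero_le_one
    have e2 : |dt e e'| * |cr e' Y| ≤ 1 * (2 * v2) :=
      mul_le_mul hcc hYr (abs_nonneg _) zero_le_one
    linarith
  have hX : pos t2 z - pos l z = Y + (pos t z - pos l z) := by rw [hY]; abel
  constructor
  · have : dt (pos t2 z - pos l z) e = dt Y e + dt (pos t z - pos l z) e := by
      rw [hX]; simp only [dt, PiLp.add_apply]; ring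
    rw [this]
    have h3 := abs_add_le (dt Y e) (dt (pos t z - pos l z) e)
    nlinarith [mul_nonneg hΛ0 hv1]
  · have : cr e (pos t2 z - pos l z) = cr e Y + cr e (pos t z - pos l z) := by
      rw [hX]; simp only [cr, PiLp.add_apply]; ring
    rw [this]
    have h3 := abs_add_le (cr e Y) (cr e (pos t z - pos l z))
    nlinarith [mul_nonneg hΛ0 hw2]

/-- two lines in the same pair of planks lie in one plank of the meet dimensions. -/
theorem meet_of_share (hw1 : 0 ≤ w1) (hwv : w1 ≤ v1) (hv12 : v1 ≤ v2)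
    (he : dt e e = 1) (he' : dt e' e' = 1)
    (ht : InPlank t l e w1 w2 z0 ρ) (ht' : InPlank t l' e' v1 v2 z0 ρ)
    (h0 : InPlank t0 l e w1 w2 z0 ρ) (h0' : InPlank t0 l' e' v1 v2 z0 ρ) :
    InPlank t t0 e (2 * w1) (4 * v2) z0 ρ := by
  intro z hz
  have hv1 : 0 ≤ v1 := hw1.trans hwv
  have hv2 : 0 ≤ v2 := hv1.trans hv12
  obtain ⟨a1, a2⟩ := ht z hz
  obtain ⟨b1, b2⟩ := ht' z hz
  obtain ⟨c1, c2⟩ := h0 z hz
  obtain ⟨d1, d2⟩ := h0' z hz
  have hcc := abs_dt_le_one he he'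
  have hss := abs_cr_le_one he he'
  set Y := pos t z - pos t0 z with hY
  have hYe : |dt Y e'| ≤ 2 * v1 := by
    have : dt Y e' = dt (pos t z - pos l' z) e' - dt (pos t0 z - pos l' z) e' := by
      rw [hY, ← dt_sub]; congr 1; abel
    rw [this]; exact (abs_sub _ _).trans (by linarith)
  have hYr : |cr e' Y| ≤ 2 * v2 := by
    have : cr e' Y = cr e' (pos t z - pos l' z) - cr e' (pos t0 z - pos l' z) := by
      rw [hY, ← cr_sub]; congr 1; abel
    rw [this]; exact (abs_sub _ _).trans (by linarith)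
  constructor
  · have : dt Y e = dt (pos t z - pos l z) e - dt (pos t0 z - pos l z) e := by
      rw [hY, ← dt_sub]; congr 1; abel
    rw [this]; exact (abs_sub _ _).trans (by linarith)
  · rw [cr_of he' Y]
    refine (abs_add_le _ _).trans ?_
    rw [abs_mul, abs_mul]
    have e1 : |cr e e'| * |dt Y e'| ≤ 1 * (2 * v1) :=
      mul_le_mul hss hYe (abs_nonneg _) zero_le_one
    have e2 : |dt e e'| * |cr e' Y| ≤ 1 * (2 * v2) :=
      mul_le_mul hcc hYr (abs_nonneg _) zero_le_one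
    linarith

end geo

section comb

variable {ι α β : Type*} {S : Finset ι} {L : ι → Ln} {m : ι → ℝ} {f : ι → α} {bK : α → Ln}
  {eK : α → E2} {g : ι → β} {bK' : β → Ln}
  {eK' : β → E2} {w1 w2 v1 v2 z0 ρ M E1 E2' p q r0 R0 Λ : ℝ}

theorem rpow_bound {x r : ℝ} (hx : 1 ≤ x) (hr : r ≤ 1) : x ^ (1 + r) ≤ x ^ 2 := by
  rw [← Real.rpow_natCast x 2]
  exact Real.rpow_le_rpow_of_exponent_le hx (by push_cast; linarith)

open Classical in
/-- the number of planks of the second system which meet the plank `a` of the first one with small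
tilt. -/
theorem card_meet (h1 : Near S L m f bK eK w1 w2 z0 ρ M E1 p q)
    (h2 : Near S L m g bK' eK' v1 v2 z0 ρ M E2' p q)
    (d : DMax S L m z0 ρ M p q r0 R0) (hm : ∀ t ∈ S, 0 ≤ m t)
    (hp : 0 ≤ p) (hp1 : p ≤ 1) (hq0 : 0 ≤ q) (hq : q ≤ 1)
    (hw1 : 0 < w1) (hwv : w1 ≤ v1) (hv12 : v1 ≤ v2) (hvw : v2 ≤ w2)
    (hr0 : r0 ≤ v1) (hM : 0 < M) (hE2 : 0 ≤ E2') (hΛ : 0 ≤ Λ) (hR0 : (5 + 2 * Λ) * w2 ≤ R0)
    (a : α) :
    ((((S.filter fun t => f t = a ∧ |cr (eK (f t)) (eK' (g t))| * v2 ≤ Λ * v1).image g).card : ℕ)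
      : ℝ) * v2 ^ (1 + q) ≤ E2' * (5 + 2 * Λ) ^ 4 * w2 ^ (1 + q) := by
  have hv1 : 0 < v1 := hw1.trans_le hwv
  have hv2 : 0 < v2 := hv1.trans_le hv12
  have hw2 : 0 < w2 := hv2.trans_le hvw
  set T := S.filter fun t => f t = a ∧ |cr (eK (f t)) (eK' (g t))| * v2 ≤ Λ * v1 with hT
  rcases T.eq_empty_or_nonempty with hE | hne
  · rw [hE]; simp; positivity
  obtain ⟨t0, ht0⟩ := hne
  have hea : dt (eK a) (eK a) = 1 := by
    rw [hT, mem_filter] at ht0
    rw [← ht0.2.1]; exact h1.unit t0 ht0.1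
  have key : ∀ s ∈ S, g s ∈ T.image g →
      InPlank (L s) (bK a) (eK a) ((5 + 2 * Λ) * v1) ((5 + 2 * Λ) * w2) z0 ρ := by
    intro s hs hgs
    rw [mem_image] at hgs
    obtain ⟨t, ht, hgt⟩ := hgs
    rw [hT, mem_filter] at ht
    obtain ⟨ht, hft, hang⟩ := ht
    have m1 := h1.mem t ht
    have m2 := h2.mem t ht
    have m3 := h2.mem s hs
    have hes := h2.unit t ht
    rw [hft] at m1 hang
    rw [← hgt] at m3
    exact thick_of_share hw1.le hwv hv12 hvw hΛ hea hes m1 m2 hang m3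
  have h3 : ((T.image g).card : ℝ) * (M * v1 ^ (1 + p) * v2 ^ (1 + q)) ≤
      E2' * ∑ s ∈ S with g s ∈ T.image g, m s := by
    have : ∑ s ∈ S with g s ∈ T.image g, m s
        = ∑ b ∈ T.image g, ∑ s ∈ S with g s = b, m s := by
      rw [← Finset.sum_fiberwise_of_maps_to (t := T.image g) (g := g)
        (s := S.filter fun s => g s ∈ T.image g) (fun s hs => (mem_filter.1 hs).2)]
      refine sum_congr rfl fun b hb => ?_
      refine sum_congr ?_ fun _ _ => rfl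
      ext s
      simp only [mem_filter]
      constructor
      · rintro ⟨⟨h, _⟩, h'⟩; exact ⟨h, h'⟩
      · rintro ⟨h, h'⟩; exact ⟨⟨h, h' ▸ hb⟩, h'⟩
    rw [this, ← nsmul_eq_mul, ← sum_const, mul_sum]
    refine sum_le_sum fun b hb => ?_
    rw [mem_image] at hb
    obtain ⟨s, hs, rfl⟩ := hb
    exact h2.low s (mem_filter.1 hs).1
  have h4 : ∑ s ∈ S with g s ∈ T.image g, m s
      ≤ ∑ s ∈ S with InPlank (L s) (bK a) (eK a) ((5 + 2 * Λ) * v1) ((5 + 2 * Λ) * w2) z0 ρ,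
        m s := by
    refine sum_le_sum_of_subset_of_nonneg ?_ ?_
    · intro s hs
      rw [mem_filter] at hs ⊢
      exact ⟨hs.1, key s hs.1 hs.2⟩
    · intro s hs _
      exact hm s (mem_filter.1 hs).1
  have hc1 : (1 : ℝ) ≤ 5 + 2 * Λ := by linarith
  have h5 := d (bK a) (eK a) ((5 + 2 * Λ) * v1) ((5 + 2 * Λ) * w2) hea
    (hr0.trans (by nlinarith)) (mul_le_mul_of_nonneg_left (hv12.trans hvw) (by linarith)) hR0
  have h6 := h3.trans (mul_le_mul_of_nonneg_left (h4.trans h5) hE2)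
  rw [Real.mul_rpow (by linarith) hv1.le, Real.mul_rpow (by linarith) hw2.le] at h6
  have b1 := rpow_bound hc1 hp1
  have b2 := rpow_bound hc1 hq
  have hP : 0 < M * v1 ^ (1 + p) := by positivity
  have h7 : M * v1 ^ (1 + p) * (((T.image g).card : ℝ) * v2 ^ (1 + q)) ≤
      M * v1 ^ (1 + p) * (E2' * (5 + 2 * Λ) ^ 4 * w2 ^ (1 + q)) := by
    calc M * v1 ^ (1 + p) * (((T.image g).card : ℝ) * v2 ^ (1 + q))
        = ((T.image g).card : ℝ) * (M * v1 ^ (1 + p) * v2 ^ (1 + q)) := by ring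
      _ ≤ E2' * (M * ((5 + 2 * Λ) ^ (1 + p) * v1 ^ (1 + p)) *
          ((5 + 2 * Λ) ^ (1 + q) * w2 ^ (1 + q))) := h6
      _ = (M * v1 ^ (1 + p) * (E2' * w2 ^ (1 + q))) *
          ((5 + 2 * Λ) ^ (1 + p) * (5 + 2 * Λ) ^ (1 + q)) := by ring
      _ ≤ (M * v1 ^ (1 + p) * (E2' * w2 ^ (1 + q))) * ((5 + 2 * Λ) ^ 2 * (5 + 2 * Λ) ^ 2) := by
          refine mul_le_mul_of_nonneg_left ?_ (by positivity)
          exact mul_le_mul b1 b2 (by positivity) (by positivity)
      _ = _ := by ring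
  exact le_of_mul_le_mul_left h7 hP

open Classical in
/-- **MEET LEMMA** (one cell).  `S'` = the lines of small tilt whose pair class `(f, g)` is heavy. -/
theorem meet (h1 : Near S L m f bK eK w1 w2 z0 ρ M E1 p q)
    (h2 : Near S L m g bK' eK' v1 v2 z0 ρ M E2' p q)
    (d : DMax S L m z0 ρ M p q r0 R0) (hm : ∀ t ∈ S, 0 ≤ m t)
    (hp : 0 ≤ p) (hp1 : p ≤ 1) (hq0 : 0 ≤ q) (hq : q ≤ 1)
    (hw1 : 0 < w1) (hwv : w1 ≤ v1) (hv12 : v1 ≤ v2) (hvw : v2 ≤ w2)
    (hr0 : r0 ≤ v1) (hM : 0 < M) (hE1 : 0 ≤ E1) (hE2 : 0 ≤ E2') (hΛ : 0 ≤ Λ)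
    (hR0 : (5 + 2 * Λ) * w2 ≤ R0) {δ : ℝ} (hδ : 0 < δ) :
    ∃ S' ⊆ S, (∀ t ∈ S', |cr (eK (f t)) (eK' (g t))| * v2 ≤ Λ * v1) ∧
      (∀ t ∈ S', ∀ s ∈ S, f s = f t → g s = g t → s ∈ S') ∧
      ∑ t ∈ S with |cr (eK (f t)) (eK' (g t))| * v2 ≤ Λ * v1 ∧ t ∉ S', m t
        ≤ δ * ∑ t ∈ S, m t ∧
      ∃ b : α × β → Ln, Near S' L m (fun t => (f t, g t)) b (fun x => eK x.1) (2 * w1) (4 * v2)
        z0 ρ M (64 * (E1 * E2' * (5 + 2 * Λ) ^ 4) / δ) p q := by
  have hv1 : 0 < v1 := hw1.trans_le hwv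
  have hv2 : 0 < v2 := hv1.trans_le hv12
  have hw2 : 0 < w2 := hv2.trans_le hvw
  rcases S.eq_empty_or_nonempty with hSe | ⟨t1, ht1⟩
  · subst hSe
    refine ⟨∅, subset_rfl, by simp, by simp, by simp, fun _ => (0, 0), ?_⟩
    exact ⟨by simp, by simp, by simp⟩
  set A : ℝ := M * w1 ^ (1 + p) * w2 ^ (1 + q) with hA
  have hA0 : 0 < A := by positivity
  have hE1p : 0 < E1 := by
    rcases hE1.eq_or_lt with h0 | h0
    · exfalso; have := h1.low t1 ht1; rw [← h0, zero_mul] at this; linarith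
    · exact h0
  have hE2p : 0 < E2' := by
    rcases hE2.eq_or_lt with h0 | h0
    · exfalso
      have := h2.low t1 ht1
      rw [← h0, zero_mul] at this
      have : 0 < M * v1 ^ (1 + p) * v2 ^ (1 + q) := by positivity
      linarith
    · exact h0
  set K : ℝ := (5 + 2 * Λ) ^ 4 with hK
  have hK0 : 0 < K := by positivity
  set sm : ι → Prop := fun t => |cr (eK (f t)) (eK' (g t))| * v2 ≤ Λ * v1 with hsm
  set pm : ι → ℝ := fun t => ∑ s ∈ S with f s = f t ∧ g s = g t, m s with hpm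
  set Z : ℝ := δ * (M * w1 ^ (1 + p) * v2 ^ (1 + q)) with hZ
  set S' := S.filter fun t => sm t ∧ Z ≤ E1 * E2' * K * pm t with hS'
  have hcls : ∀ t s, f s = f t → g s = g t → (sm s ↔ sm t) ∧ pm s = pm t := by
    intro t s h h'
    constructor
    · simp only [hsm]; rw [h, h']
    · simp only [hpm]; rw [h, h']
  -- the light pairs of one plank of the first system
  have hone : ∀ a ∈ S.image f, ∑ t ∈ S with f t = a ∧ sm t ∧ t ∉ S', m t
      ≤ δ * ∑ t ∈ S with f t = a, m t := by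
    intro a ha
    set T := S.filter fun t => f t = a ∧ sm t with hT
    set T' := S.filter fun t => f t = a ∧ sm t ∧ t ∉ S' with hT'
    have hT'T : T' ⊆ T := by
      intro t ht
      rw [hT', mem_filter] at ht
      rw [hT, mem_filter]
      exact ⟨ht.1, ht.2.1, ht.2.2.1⟩
    have hN := card_meet h1 h2 d hm hp hp1 hq0 hq hw1 hwv hv12 hvw hr0 hM hE2 hΛ hR0 a
    change (((T.image g).card : ℕ) : ℝ) * v2 ^ (1 + q) ≤ E2' * K * w2 ^ (1 + q) at hN
    have h3 : ∑ t ∈ T', m t = ∑ b ∈ T'.image g, ∑ t ∈ T' with g t = b, m t := by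
      rw [Finset.sum_fiberwise_of_maps_to (fun t ht => mem_image_of_mem g ht)]
    have h4 : ∀ b ∈ T'.image g, E1 * E2' * K * ∑ t ∈ T' with g t = b, m t ≤ Z := by
      intro b hb
      rw [mem_image] at hb
      obtain ⟨t, ht, rfl⟩ := hb
      have ht' := ht
      rw [hT', mem_filter] at ht'
      obtain ⟨htS, hfa, hst, hnS⟩ := ht'
      have hlt : E1 * E2' * K * pm t < Z := by
        by_contra hcon
        exact hnS (by rw [hS', mem_filter]; exact ⟨htS, hst, not_lt.1 hcon⟩)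
      refine le_trans ?_ hlt.le
      refine mul_le_mul_of_nonneg_left ?_ (by positivity)
      simp only [hpm]
      refine sum_le_sum_of_subset_of_nonneg ?_ ?_
      · intro s hs
        rw [mem_filter] at hs ⊢
        have hs1 := hs.1
        rw [hT', mem_filter] at hs1
        exact ⟨hs1.1, by rw [hs1.2.1, hfa], hs.2⟩
      · intro s hs _
        exact hm s (mem_filter.1 hs).1
    have h5 : E1 * E2' * K * ∑ t ∈ T', m t ≤ (T.image g).card * Z := by
      rw [h3, mul_sum]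
      refine (sum_le_card_nsmul _ _ _ h4).trans ?_
      rw [nsmul_eq_mul]
      have : ((T'.image g).card : ℝ) ≤ (T.image g).card := by
        exact_mod_cast card_le_card (image_subset_image hT'T)
      exact mul_le_mul_of_nonneg_right this (by positivity)
    have h6 : ((T.image g).card : ℝ) * Z ≤ δ * (E2' * K) * A := by
      calc ((T.image g).card : ℝ) * Z
          = δ * M * w1 ^ (1 + p) * (((T.image g).card : ℝ) * v2 ^ (1 + q)) := by rw [hZ]; ring
        _ ≤ δ * M * w1 ^ (1 + p) * (E2' * K * w2 ^ (1 + q)) :=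
            mul_le_mul_of_nonneg_left hN (by positivity)
        _ = _ := by rw [hA]; ring
    have h7 : A ≤ E1 * ∑ t ∈ S with f t = a, m t := by
      rw [mem_image] at ha
      obtain ⟨t, ht, rfl⟩ := ha
      exact h1.low t ht
    have h8 : E1 * E2' * K * ∑ t ∈ T', m t ≤
        E1 * E2' * K * (δ * ∑ t ∈ S with f t = a, m t) := by
      refine (h5.trans h6).trans ?_
      calc δ * (E2' * K) * A ≤ δ * (E2' * K) * (E1 * ∑ t ∈ S with f t = a, m t) :=
            mul_le_mul_of_nonneg_left h7 (by positivity)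
        _ = _ := by ring
    exact le_of_mul_le_mul_left h8 (by positivity)
  refine ⟨S', filter_subset _ _, fun t ht => ?_, fun t ht s hs hf hg => ?_, ?_, ?_⟩
  · rw [hS', mem_filter] at ht; exact ht.2.1
  · rw [hS', mem_filter] at ht ⊢
    obtain ⟨e1, e2⟩ := hcls t s hf hg
    exact ⟨hs, e1.2 ht.2.1, by rw [e2]; exact ht.2.2⟩
  · have h7 : ∑ t ∈ S with sm t ∧ t ∉ S', m t
        = ∑ a ∈ S.image f, ∑ t ∈ S with f t = a ∧ sm t ∧ t ∉ S', m t := by
      rw [← Finset.sum_fiberwise_of_maps_to (t := S.image f) (g := f)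
        (s := S.filter fun t => sm t ∧ t ∉ S')
        (fun s hs => mem_image_of_mem f (mem_filter.1 hs).1)]
      refine sum_congr rfl fun a ha => sum_congr ?_ fun _ _ => rfl
      ext s; simp only [mem_filter]; tauto
    have h8 : ∑ t ∈ S, m t = ∑ a ∈ S.image f, ∑ t ∈ S with f t = a, m t := by
      rw [Finset.sum_fiberwise_of_maps_to (t := S.image f) (g := f)
        (fun s hs => mem_image_of_mem f hs)]
    change ∑ t ∈ S with sm t ∧ t ∉ S', m t ≤ _
    rw [h7, h8, mul_sum]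
    exact sum_le_sum hone
  · -- the meet system
    have hex : ∀ x : α × β, ∃ l : Ln, ∀ t ∈ S', (f t, g t) = x → InPlank (L t) l (eK x.1) (2 * w1)
        (4 * v2) z0 ρ := by
      intro x
      by_cases hx : ∃ t ∈ S', (f t, g t) = x
      · obtain ⟨t0, ht0, rfl⟩ := hx
        refine ⟨L t0, fun t ht h => ?_⟩
        rw [Prod.mk.injEq] at h
        rw [hS', mem_filter] at ht ht0
        have m1 := h1.mem t ht.1
        have m2 := h2.mem t ht.1
        rw [h.1] at m1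
        rw [h.2] at m2
        exact meet_of_share hw1.le hwv hv12 (h1.unit t0 ht0.1) (h2.unit t0 ht0.1) m1 m2
          (h1.mem t0 ht0.1) (h2.mem t0 ht0.1)
      · exact ⟨(0, 0), fun t ht h => absurd ⟨t, ht, h⟩ hx⟩
    choose b hb using hex
    refine ⟨b, fun t ht => ?_, fun t ht => hb _ t ht rfl, fun t ht => ?_⟩
    · rw [hS', mem_filter] at ht
      exact h1.unit t ht.1
    · suffices hgoal : M * (2 * w1) ^ (1 + p) * (4 * v2) ^ (1 + q) ≤
          64 * (E1 * E2' * K) / δ * pm t by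
        refine hgoal.trans (le_of_eq ?_)
        congr 1
        simp only [hpm]
        refine sum_congr ?_ fun _ _ => rfl
        ext s
        simp only [mem_filter, Prod.mk.injEq]
        constructor
        · rintro ⟨hs, h, h'⟩
          refine ⟨?_, h, h'⟩
          rw [hS', mem_filter] at ht ⊢
          obtain ⟨e1, e2⟩ := hcls t s h h'
          exact ⟨hs, e1.2 ht.2.1, by rw [e2]; exact ht.2.2⟩
        · rintro ⟨hs, h, h'⟩
          rw [hS', mem_filter] at hs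
          exact ⟨hs.1, h, h'⟩
      have ht2 := ht
      rw [hS', mem_filter] at ht2
      have hz := ht2.2.2
      rw [Real.mul_rpow (by norm_num) hw1.le, Real.mul_rpow (by norm_num) hv2.le]
      have b1 := rpow_bound (x := 2) (by norm_num) hp1
      have b2 := rpow_bound (x := 4) (by norm_num) hq
      have hc : (2 : ℝ) ^ (1 + p) * 4 ^ (1 + q) ≤ 64 := by
        calc (2 : ℝ) ^ (1 + p) * 4 ^ (1 + q) ≤ 2 ^ 2 * 4 ^ 2 :=
              mul_le_mul b1 b2 (by positivity) (by positivity)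
          _ = 64 := by norm_num
      have h9 : M * w1 ^ (1 + p) * v2 ^ (1 + q) ≤ E1 * E2' * K * pm t / δ := by
        rw [le_div_iff₀ hδ]
        calc M * w1 ^ (1 + p) * v2 ^ (1 + q) * δ = Z := by rw [hZ]; ring
          _ ≤ _ := hz
      calc M * (2 ^ (1 + p) * w1 ^ (1 + p)) * (4 ^ (1 + q) * v2 ^ (1 + q))
          = (2 ^ (1 + p) * 4 ^ (1 + q)) * (M * w1 ^ (1 + p) * v2 ^ (1 + q)) := by ring
        _ ≤ 64 * (M * w1 ^ (1 + p) * v2 ^ (1 + q)) :=
            mul_le_mul_of_nonneg_right hc (by positivity)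
        _ ≤ 64 * (E1 * E2' * K * pm t / δ) := mul_le_mul_of_nonneg_left h9 (by norm_num)
        _ = _ := by ring

open Classical in
/-- **MEET LEMMA with the tilt lemma**: outside a `2δ` part of the mass the tilt is at most
`Λ v1 / v2` and the meet system is near-maximal. -/
theorem meet_tilt (h1 : Near S L m f bK eK w1 w2 z0 ρ M E1 p q)
    (h2 : Near S L m g bK' eK' v1 v2 z0 ρ M E2' p q)
    (d : DMax S L m z0 ρ M p q r0 R0) (hm : ∀ t ∈ S, 0 ≤ m t)
    (hp : 0 ≤ p) (hpq : p < q) (hq : q ≤ 1)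
    (hw1 : 0 < w1) (hwv : w1 ≤ v1) (hv12 : v1 ≤ v2) (hvw : v2 ≤ w2)
    (hr0 : r0 ≤ w1) (hM : 0 < M) (hE1 : 0 ≤ E1) (hE2 : 0 ≤ E2') (hΛ : 2 ≤ Λ)
    (hR0 : (5 + 2 * Λ) * w2 ≤ R0) {δ : ℝ} (hδ : 0 < δ)
    (hΛδ : 2359296 * E1 * E2' / (1 - 2 ^ (p - q)) * (1 / Λ) ^ (q - p) ≤ δ) :
    ∃ S' ⊆ S, (∀ t ∈ S', |cr (eK (f t)) (eK' (g t))| * v2 ≤ Λ * v1) ∧
      (∀ t ∈ S', ∀ s ∈ S, f s = f t → g s = g t → s ∈ S') ∧
      ∑ t ∈ S \ S', m t ≤ 2 * δ * ∑ t ∈ S, m t ∧
      ∃ b : α × β → Ln, Near S' L m (fun t => (f t, g t)) b (fun x => eK x.1) (2 * w1) (4 * v2)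
        z0 ρ M (64 * (E1 * E2' * (5 + 2 * Λ) ^ 4) / δ) p q := by
  have hv1 : 0 < v1 := hw1.trans_le hwv
  have hv2 : 0 < v2 := hv1.trans_le hv12
  have hw2 : 0 < w2 := hv2.trans_le hvw
  obtain ⟨S', hS', h3, h4, h5, h6⟩ := meet h1 h2 d hm hp (hpq.le.trans hq) (hp.trans hpq.le) hq
    hw1 hwv hv12 hvw (hr0.trans hwv) hM hE1 hE2 (by linarith) hR0 hδ
  refine ⟨S', hS', h3, h4, ?_, h6⟩
  have hθ : max w1 v1 ≤ (Λ * v1 / v2) * min w2 v2 := by
    rw [max_eq_right hwv, min_eq_right hvw, div_mul_cancel₀ _ hv2.ne']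
    nlinarith
  have key := Tilt51.tilt_one h1 h2 d hm subset_rfl hp hpq hq hw1 (hwv.trans (hv12.trans hvw)) hv1
    hv12 (hr0.trans (le_min le_rfl hwv))
    (by rw [max_eq_left hvw]; nlinarith) hM hE1 hE2 hθ
  have hX : max w1 v1 / (Λ * v1 / v2 * min w2 v2) = 1 / Λ := by
    rw [max_eq_right hwv, min_eq_right hvw, div_mul_cancel₀ _ hv2.ne']
    field_simp
  rw [hX] at key
  have hS0 : 0 ≤ ∑ t ∈ S, m t := sum_nonneg hm
  have h7 : ∑ t ∈ S \ S', m t ≤
      ∑ t ∈ S with Λ * v1 / v2 ≤ |cr (eK (f t)) (eK' (g t))|, m t +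
      ∑ t ∈ S with |cr (eK (f t)) (eK' (g t))| * v2 ≤ Λ * v1 ∧ t ∉ S', m t := by
    have hsub : S \ S' ⊆ (S.filter fun t => Λ * v1 / v2 ≤ |cr (eK (f t)) (eK' (g t))|) ∪
        (S.filter fun t => |cr (eK (f t)) (eK' (g t))| * v2 ≤ Λ * v1 ∧ t ∉ S') := by
      intro t ht
      rw [mem_sdiff] at ht
      rw [mem_union, mem_filter, mem_filter]
      rcases le_total (Λ * v1 / v2) |cr (eK (f t)) (eK' (g t))| with h | h
      · exact Or.inl ⟨ht.1, h⟩
      · exact Or.inr ⟨ht.1, by rwa [le_div_iff₀ hv2] at h, ht.2⟩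
    refine (sum_le_sum_of_subset_of_nonneg hsub fun t ht _ => ?_).trans ?_
    · rw [mem_union, mem_filter, mem_filter] at ht
      rcases ht with ht | ht
      · exact hm t ht.1
      · exact hm t ht.1
    · have := sum_union_inter (s₁ := S.filter fun t => Λ * v1 / v2 ≤ |cr (eK (f t)) (eK' (g t))|)
        (s₂ := S.filter fun t => |cr (eK (f t)) (eK' (g t))| * v2 ≤ Λ * v1 ∧ t ∉ S') (f := m)
      have h0 : 0 ≤ ∑ t ∈ (S.filter fun t => Λ * v1 / v2 ≤ |cr (eK (f t)) (eK' (g t))|) ∩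
          (S.filter fun t => |cr (eK (f t)) (eK' (g t))| * v2 ≤ Λ * v1 ∧ t ∉ S'), m t :=
        sum_nonneg fun t ht => hm t (mem_filter.1 (mem_inter.1 ht).1).1
      linarith
  have h8 := mul_le_mul_of_nonneg_right hΛδ hS0
  linarith

end comb

end

end Crest.Agent.R138.Mj829
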