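import Crest.Agent.R138.XDef_248

/-!
# R138, L7 of TEXT I: from the extremal stable family to the marks, finite part (helper501)
-/

set_option autoImplicit false
set_option linter.unusedVariables false

open Filter Topology Finset

namespace Crest.Agent.R138.X248

open Crest.Agent.R138.Ex926 Crest.Agent.R138.Dp76 Crest.Agent.R138.Flag51
open Crest.Agent.R138.K294 Crest.Agent.R138.Ps926

open Classical in
/-- the objects of `A` of class `k` -/
noncomputable def cset {α ο κ : Type*} (A : Finset α) (ob : α → ο) (c : ο → κ) (k : κ) :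
    Finset ο := (A.image ob).filter fun o => c o = k

theorem mem_cset {α ο κ : Type*} {A : Finset α} {ob : α → ο} {c : ο → κ} {k : κ} {o : ο} :
    o ∈ cset A ob c k ↔ (∃ x ∈ A, ob x = o) ∧ c o = k := by
  classical
  unfold cset
  rw [mem_filter, mem_image]

/-- number of objects of `A` of class `k` -/
noncomputable def ccard {α ο κ : Type*} (A : Finset α) (ob : α → ο) (c : ο → κ) (k : κ) : ℕ :=
  (cset A ob c k).card

theorem ccard_eq {α ο κ : Type*} (d1 : DecidableEq ο) (A : Finset α) (ob : α → ο) (c : ο → κ)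
    (k : κ) (p1 : DecidablePred fun o => c o = k) :
    (@Finset.filter ο (fun o => c o = k) p1 (@Finset.image α ο d1 ob A)).card =
      ccard A ob c k := by
  unfold ccard cset
  congr!

/-- coding of finitely many values by naturals -/
theorem exists_code {ο κ : Type*} (hκ : Nonempty κ) (S : Finset ο) (c : ο → κ) :
    ∃ (code : κ → ℕ) (dec : ℕ → κ), ∀ o ∈ S, dec (code (c o)) = c o := by
  classical
  set T := S.image c with hT
  refine ⟨fun k => if h : k ∈ T then (T.equivFin ⟨k, h⟩ : ℕ) else 0,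
    fun j => if h : j < T.card then (T.equivFin.symm ⟨j, h⟩).1 else Classical.choice hκ, ?_⟩
  intro o ho
  have h : c o ∈ T := mem_image_of_mem c ho
  simp only [dif_pos h]
  rw [dif_pos (T.equivFin ⟨c o, h⟩).2]
  simp

open Classical in
/-- finite form of the own profile -/
theorem own_bounds {i j : ℕ} (hij : i ≤ j) {I I1 : Finset (Ln × ℝ)} (hs : I1 ⊆ I) {x : Ln × ℝ}
    (hx : x ∈ I1) {a : ℝ}
    (h1 : ∀ y ∈ I1, a * (cmax (K294.ob j) I : ℝ) ≤
      ((I1.filter fun z => K294.ob j z = K294.ob j y).card : ℝ))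
    (h2 : ∀ y ∈ I1, a * (cmax (K294.ob i) I : ℝ) ≤
      ((I1.filter fun z => K294.ob i z = K294.ob i y).card : ℝ)) :
    (ownc i j I1 x : ℝ) * (a * (cmax (K294.ob j) I : ℝ)) ≤ (cmax (K294.ob i) I : ℝ) ∧
      a * (cmax (K294.ob i) I : ℝ) ≤ (ownc i j I1 x : ℝ) * (cmax (K294.ob j) I : ℝ) := by
  set F := I1.filter fun z => K294.ob i z = K294.ob i x with hF
  have hFI : F ⊆ I1 := filter_subset _ _
  have hown : ownc i j I1 x = (F.image (K294.ob j)).card := rfl
  have hcard : F.card = ∑ o ∈ F.image (K294.ob j), (F.filter fun z => K294.ob j z = o).card :=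
    card_eq_sum_card_image (K294.ob j) F
  have hfib : ∀ y ∈ F, (F.filter fun z => K294.ob j z = K294.ob j y) =
      I1.filter fun z => K294.ob j z = K294.ob j y := by
    intro y hy
    ext z
    rw [mem_filter, mem_filter, mem_filter]
    constructor
    · rintro ⟨⟨h3, _⟩, h4⟩; exact ⟨h3, h4⟩
    · rintro ⟨h3, h4⟩
      refine ⟨⟨h3, ?_⟩, h4⟩
      have h5 := (mem_filter.1 hy).2
      rw [← h5]
      have h6 : z.1 = y.1 := by have := congrArg Prod.fst h4; exact this
      have h7 : zc j z.2 = zc j y.2 := by have := congrArg Prod.snd h4; exact this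
      exact Prod.ext h6 (zc_nested hij h7)
  constructor
  · have h3 : (F.card : ℝ) ≤ (cmax (K294.ob i) I : ℝ) := by
      have := le_cmax (K294.ob i) (hs hx)
      refine le_trans ?_ (Nat.cast_le.2 this)
      exact_mod_cast card_le_card (filter_subset_filter _ hs)
    refine le_trans ?_ h3
    rw [hcard, hown]
    push_cast
    have h4 : ∀ o ∈ F.image (K294.ob j), a * (cmax (K294.ob j) I : ℝ) ≤
        ((F.filter fun z => K294.ob j z = o).card : ℝ) := by
      intro o ho
      obtain ⟨y, hy, rfl⟩ := mem_image.1 ho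
      rw [hfib y hy]
      exact h1 y (hFI hy)
    have h5 := card_nsmul_le_sum _ _ _ h4
    rw [nsmul_eq_mul] at h5
    exact h5
  · refine (h2 x hx).trans ?_
    show (F.card : ℝ) ≤ _
    rw [hcard, hown]
    push_cast
    have h4 : ∀ o ∈ F.image (K294.ob j), ((F.filter fun z => K294.ob j z = o).card : ℝ) ≤
        (cmax (K294.ob j) I : ℝ) := by
      intro o ho
      obtain ⟨y, hy, rfl⟩ := mem_image.1 ho
      rw [hfib y hy]
      have := le_cmax (K294.ob j) (hs (hFI hy))
      refine le_trans ?_ (Nat.cast_le.2 this)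
      exact_mod_cast card_le_card (filter_subset_filter _ hs)
    have h5 := sum_le_card_nsmul _ _ _ h4
    rw [nsmul_eq_mul] at h5
    exact h5

section coded

variable {I I1 : Finset (Ln × ℝ)} {code : Ln → ℕ} {L : ℕ → Ln}

open Classical in
/-- the coded family -/
noncomputable def cdI (I1 : Finset (Ln × ℝ)) (code : Ln → ℕ) : Finset (ℕ × ℝ) :=
  I1.image fun x => (code x.1, x.2)

theorem mem_cdI {y : ℕ × ℝ} : y ∈ cdI I1 code ↔ ∃ x ∈ I1, (code x.1, x.2) = y := by
  classical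
  unfold cdI; rw [mem_image]

theorem mem_alive_cd {i : ℕ} {J : ℤ} {t : ℕ} :
    t ∈ Mk163.alive (cdI I1 code) i J ↔ ∃ x ∈ I1, zc i x.2 = J ∧ code x.1 = t := by
  classical
  unfold Mk163.alive
  rw [mem_image]
  constructor
  · rintro ⟨y, hy, rfl⟩
    rw [mem_filter] at hy
    obtain ⟨x, hx, rfl⟩ := mem_cdI.1 hy.1
    exact ⟨x, hx, hy.2, rfl⟩
  · rintro ⟨x, hx, h1, rfl⟩
    exact ⟨(code x.1, x.2), mem_filter.2 ⟨mem_cdI.2 ⟨x, hx, rfl⟩, h1⟩, rfl⟩

theorem alive_code (hL : ∀ x ∈ I1, L (code x.1) = x.1) {i : ℕ} {J : ℤ} {t : ℕ}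
    (ht : t ∈ Mk163.alive (cdI I1 code) i J) : ∃ x ∈ I1, K294.ob i x = (L t, J) ∧ code x.1 = t ∧
      code (L t) = t := by
  obtain ⟨x, hx, h1, rfl⟩ := mem_alive_cd.1 ht
  refine ⟨x, hx, ?_, rfl, by rw [hL x hx]⟩
  rw [hL x hx]
  exact Prod.ext rfl h1

open Classical in
/-- own counts of the coded family -/
theorem own_cd (hL : ∀ x ∈ I1, L (code x.1) = x.1) {i j : ℕ} {x : Ln × ℝ} (hx : x ∈ I1) :
    (Mk163.own (cdI I1 code) i j (code x.1, x.2)).card = ownc i j I1 x := by
  unfold Mk163.own ownc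
  refine card_nbij' (fun c => (x.1, c)) Prod.snd ?_ ?_ ?_ ?_
  · intro c hc
    rw [mem_coe, mem_image] at hc ⊢
    obtain ⟨y, hy, rfl⟩ := hc
    rw [mem_filter] at hy
    obtain ⟨hy1, hy2, hy3⟩ := hy
    obtain ⟨z, hz, rfl⟩ := mem_cdI.1 hy1
    have h1 : z.1 = x.1 := by
      have h2 : code z.1 = code x.1 := hy2
      rw [← hL z hz, ← hL x hx, h2]
    refine ⟨z, mem_filter.2 ⟨hz, Prod.ext h1 hy3⟩, ?_⟩
    exact Prod.ext h1 rfl
  · intro o ho
    rw [mem_coe, mem_image] at ho ⊢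
    obtain ⟨y, hy, rfl⟩ := ho
    rw [mem_filter] at hy
    refine ⟨(code y.1, y.2), mem_filter.2 ⟨mem_cdI.2 ⟨y, hy.1, rfl⟩, ?_, ?_⟩, rfl⟩
    · have h1 : y.1 = x.1 := by have := congrArg Prod.fst hy.2; exact this
      exact congrArg code h1
    · have h1 := congrArg Prod.snd hy.2
      exact h1
  · intro c hc; rfl
  · intro o ho
    rw [mem_coe, mem_image] at ho
    obtain ⟨y, hy, rfl⟩ := ho
    rw [mem_filter] at hy
    exact Prod.ext (congrArg Prod.fst hy.2).symm rfl

open Classical in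
/-- D-max for the coded family from the bound for legal planks -/
theorem dmax_cd (hs : I1 ⊆ I) (hL : ∀ x ∈ I1, L (code x.1) = x.1) {m' : ℕ} {r q A : ℝ}
    (hr : 0 < r) (hrle : r ≤ 1 / 2 ^ m') (hq : 0 ≤ q) (hA : 0 ≤ A)
    (hup : ∀ K, Legal m' r K → ((K294.objs m' I K).card : ℝ) ≤ A * (K.w1 * K.w2 ^ (1 + q)))
    (J : ℤ) :
    Tilt51.DMax (Mk163.alive (cdI I1 code) m' J) L (fun _ => 1) (Mk163.zl m' J) (Mk163.rho m')
      (201 ^ 4 * A) 0 q r (100 * Mk163.rho m') := by
  intro l e a1 a2 he h1 h2 h3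
  have hρ : Mk163.rho m' = 1 / 2 ^ m' := rfl
  have hρ0 : 0 < Mk163.rho m' := by rw [hρ]; positivity
  have ha1 : 0 < a1 := hr.trans_le h1
  have ha2 : 0 < a2 := ha1.trans_le h2
  rw [sum_const, nsmul_eq_mul, mul_one]
  set S := (Mk163.alive (cdI I1 code) m' J).filter fun t =>
    InPlank (L t) l e a1 a2 (Mk163.zl m' J) (Mk163.rho m') with hS
  set v1 : ℝ := min a1 (Mk163.rho m') with hv1
  set v2 : ℝ := min a2 (Mk163.rho m') with hv2
  have v1p : 0 < v1 := lt_min ha1 hρ0
  have v2p : 0 < v2 := lt_min ha2 hρ0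
  have k1 : a1 ≤ (100 : ℕ) * v1 := by
    rw [hv1]
    rcases le_total a1 (Mk163.rho m') with h | h
    · rw [min_eq_left h]; push_cast; linarith
    · rw [min_eq_right h]; push_cast; linarith
  have k2 : a2 ≤ (100 : ℕ) * v2 := by
    rw [hv2]
    rcases le_total a2 (Mk163.rho m') with h | h
    · rw [min_eq_left h]; push_cast; linarith
    · rw [min_eq_right h]; push_cast; linarith
  -- the short cell lies in the long one
  have hcell : ∀ z, |z - zm m' J| ≤ zr m' → |z - Mk163.zl m' J| ≤ Mk163.rho m' := by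
    intro z hz
    have e1 : zm m' J = Mk163.zl m' J + zr m' := by
      unfold zm Mk163.zl zr; rw [pow_succ]; field_simp
    have e2 : Mk163.rho m' = 2 * zr m' := by rw [two_zr]; rfl
    have e3 := zr_pos m'
    rw [e1, abs_le] at hz
    rw [e2, abs_le]
    constructor <;> linarith [hz.1, hz.2]
  have key := K294.cover S L (e := e) (w1 := v1) (w2 := v2) (z0 := zm m' J) (ρ := zr m') v1p v2p
    (zr_pos m') (n := 100) (l := l) (fun t ht z hz => by
      have h4 := (mem_filter.1 ht).2 z (hcell z hz)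
      exact ⟨h4.1.trans k1, h4.2.trans k2⟩)
    (A := A * (v1 * v2 ^ (1 + q))) (by positivity) (fun t0 ht0 => by
      have hleg : Legal m' r ⟨J, L t0, e, v1, v2⟩ := by
        refine ⟨he, le_min h1 hrle, min_le_min_right _ h2, ?_⟩
        exact (min_le_right _ _).trans (le_of_eq hρ)
      refine le_trans ?_ (hup _ hleg)
      refine Nat.cast_le.2 (card_le_card_of_injOn (fun t => (L t, J)) ?_ ?_)
      · intro t ht
        rw [mem_coe, mem_filter] at ht
        obtain ⟨x, hx, h4, h5, h6⟩ := alive_code hL (mem_filter.1 ht.1).1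
        rw [mem_coe]
        unfold K294.objs
        rw [mem_filter]
        refine ⟨?_, rfl, ht.2⟩
        show (L t, J) ∈ _
        rw [← h4]
        exact mem_image_of_mem _ (hs hx)
      · intro t ht t' ht' htt
        rw [mem_coe, mem_filter] at ht ht'
        obtain ⟨x, hx, h4, h5, h6⟩ := alive_code hL (mem_filter.1 ht.1).1
        obtain ⟨x', hx', h4', h5', h6'⟩ := alive_code hL (mem_filter.1 ht'.1).1
        have h7 : L t = L t' := congrArg Prod.fst htt
        rw [← h6, ← h6', h7])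
  refine key.trans ?_
  have b1 : v1 ≤ a1 := min_le_left _ _
  have b2 : v2 ^ (1 + q) ≤ a2 ^ (1 + q) :=
    Real.rpow_le_rpow v2p.le (min_le_left _ _) (by linarith)
  have e1 : ((2 : ℝ) * ((100 : ℕ) : ℝ) + 1) = 201 := by norm_num
  rw [e1, add_zero, Real.rpow_one]
  calc (201 : ℝ) ^ 4 * (A * (v1 * v2 ^ (1 + q))) ≤ 201 ^ 4 * (A * (a1 * a2 ^ (1 + q))) := by
        gcongr
    _ = _ := by ring

open Classical in
/-- near-maximality of the coded classes -/
theorem near_cd (hL : ∀ x ∈ I1, L (code x.1) = x.1) {m' : ℕ} {w1 w2 q M E : ℝ}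
    {κ : Type*} (pl : κ → ℤ × Ln × E2) (cl : Ln × ℤ → κ) (ck : κ → ℕ) (dk : ℕ → κ)
    (hck : ∀ x ∈ I1, dk (ck (cl (K294.ob m' x))) = cl (K294.ob m' x))
    (hu : ∀ k, dt (pl k).2.2 (pl k).2.2 = 1)
    (hm : ∀ x ∈ I1, (K294.ob m' x).2 = (pl (cl (K294.ob m' x))).1 ∧
      InPlank (K294.ob m' x).1 (pl (cl (K294.ob m' x))).2.1 (pl (cl (K294.ob m' x))).2.2 w1 w2
        (Mk163.zl m' (pl (cl (K294.ob m' x))).1) (Mk163.rho m'))
    (hlow : ∀ x ∈ I1, M * (w1 * w2 ^ (1 + q)) ≤
      E * (ccard I1 (K294.ob m') cl (cl (K294.ob m' x)) : ℝ))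
    (hE : 0 ≤ E) (J : ℤ) :
    Tilt51.Near (Mk163.alive (cdI I1 code) m' J) L (fun _ => 1) (fun t => ck (cl (L t, J)))
      (fun c => (pl (dk c)).2.1) (fun c => (pl (dk c)).2.2) w1 w2 (Mk163.zl m' J) (Mk163.rho m')
      M E 0 q := by
  refine ⟨fun t ht => hu _, fun t ht => ?_, fun t ht => ?_⟩
  · obtain ⟨x, hx, h4, h5, h6⟩ := alive_code hL ht
    have h7 := hck x hx
    have h8 := hm x hx
    rw [h4] at h7 h8
    simp only at h8 ⊢
    rw [h7]
    rw [← h8.1] at h8
    exact h8.2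
  · obtain ⟨x, hx, h4, h5, h6⟩ := alive_code hL ht
    have h9 := hlow x hx
    rw [add_zero, Real.rpow_one, sum_const, nsmul_eq_mul, mul_one, mul_assoc]
    refine h9.trans (mul_le_mul_of_nonneg_left (Nat.cast_le.2 ?_) hE)
    unfold ccard
    refine card_le_card_of_injOn (fun o => code o.1) ?_ ?_
    · intro o ho
      rw [mem_coe, mem_cset] at ho
      obtain ⟨⟨y, hy, rfl⟩, h10⟩ := ho
      have h11 : (K294.ob m' y).2 = J := by
        rw [(hm y hy).1, h10, ← (hm x hx).1, h4]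
      refine mem_coe.2 ((@Finset.mem_filter ℕ (fun s => ck (cl (L s, J)) = ck (cl (L t, J)))
        (fun _ => Classical.propDecidable _) _ _).2 ⟨mem_alive_cd.2 ⟨y, hy, h11, rfl⟩, ?_⟩)
      have h12 : ((y.1, J) : Ln × ℤ) = K294.ob m' y := Prod.ext rfl h11.symm
      show ck (cl (L (code y.1), J)) = ck (cl (L t, J))
      rw [hL y hy, h12, h10, h4]
    · intro o ho o' ho' hoo
      rw [mem_coe, mem_cset] at ho ho'
      obtain ⟨⟨y, hy, rfl⟩, h10⟩ := ho
      obtain ⟨⟨y', hy', rfl⟩, h10'⟩ := ho'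
      have h11 : (K294.ob m' y).2 = J := by
        rw [(hm y hy).1, h10, ← (hm x hx).1, h4]
      have h11' : (K294.ob m' y').2 = J := by
        rw [(hm y' hy').1, h10', ← (hm x hx).1, h4]
      refine Prod.ext ?_ (h11.trans h11'.symm)
      have h12 : code y.1 = code y'.1 := hoo
      show y.1 = y'.1
      rw [← hL y hy, ← hL y' hy', h12]

end coded

end Crest.Agent.R138.X248
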