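import Crest.Agent.R138.Ad_480

/-!
# R138 / R139: MIS / ALIGN, wave half, part 1 (helper330)

Pointwise bound of a short packet of `tr h z (sel ρ g S)` by the weighted energy of the long packets
of `g` in `S` through the point, and its integrated form with the (additive) weight of a set.
-/

set_option autoImplicit false
set_option linter.unusedSectionVars false

open MeasureTheory FourierTransform
open scoped ContDiff ENNReal

namespace Crest.Agent.R138.Mis330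

open Crest.Agent.R138.Defs Crest.Agent.R138.Wpk685 Crest.Agent.R138.Loc878
open Crest.Agent.R138.Wf448 (wE sl adj adet dw gw LI)
open Crest.Agent.R138.W188 (tr)
open Crest.Agent.R138.Ad480

/-- multiplication by `a`. -/
noncomputable def sca (a : ℝ) (ha : a ≠ 0) : E2 ≃L[ℝ] E2 :=
  ContinuousLinearEquiv.smulLeft (Units.mk0 a ha)

theorem sca_apply (a : ℝ) (ha : a ≠ 0) (x : E2) : (sca a ha : E2 →L[ℝ] E2) x = a • x := rfl

theorem adj_sca (a : ℝ) (ha : a ≠ 0) (η : E2) : adj (sca a ha : E2 →L[ℝ] E2) η = a • η := by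
  refine ext_inner_right ℝ fun v => ?_
  rw [ContinuousLinearMap.adjoint_inner_left, sca_apply, real_inner_smul_left, inner_smul_right]

theorem adet_sca (a : ℝ) (ha : a ≠ 0) : adet (sca a ha : E2 →L[ℝ] E2) = a ^ 2 := by
  unfold adet
  have : ((sca a ha : E2 →L[ℝ] E2) : E2 →ₗ[ℝ] E2) = a • LinearMap.id := by
    ext x
    rfl
  rw [this, LinearMap.det_smul, LinearMap.det_id, mul_one, finrank_euclideanSpace_fin,
    abs_of_nonneg (sq_nonneg a)]

/-- locally constant property at scale `1/ρ`. -/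
theorem loc_ptr (n : ℕ) : ∃ C : ℝ, 0 ≤ C ∧ ∀ (ρ : ℝ), 0 < ρ → ∀ (ξ0 : E2) (G : E2 → ℂ),
    Integrable G → (∀ ξ, G ξ ≠ 0 → ‖ξ - ξ0‖ ≤ 2 * ρ) → ∀ x,
    ‖𝓕⁻ G x‖ₑ ^ 2 ≤ ENNReal.ofReal (C * ρ ^ 2) * WE (fun y => wa ρ n (y - x)) G := by
  obtain ⟨C, hC, h⟩ := Crest.Agent.R138.Wf448.loc_const E2 n
  refine ⟨C * 4 * 2 ^ n, by positivity, ?_⟩
  intro ρ hρ ξ0 G hG hs x
  have h2ρ : (2 * ρ : ℝ) ≠ 0 := by positivity
  have h1 := h (sca (2 * ρ) h2ρ) ξ0 G hG ?_ x
  · refine h1.trans ?_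
    rw [wE_eq, adet_sca]
    have e : C * 4 * 2 ^ n * ρ ^ 2 = C * (2 * ρ) ^ 2 * 2 ^ n := by ring
    rw [e, ENNReal.ofReal_mul (p := C * (2 * ρ) ^ 2) (by positivity), mul_assoc]
    refine mul_le_mul_right ?_ _
    unfold WE
    rw [← lintegral_const_mul' _ _ ENNReal.ofReal_ne_top]
    refine lintegral_mono fun y => ?_
    rw [← mul_assoc, ← ENNReal.ofReal_mul (by positivity)]
    refine mul_le_mul_left (ENNReal.ofReal_le_ofReal ?_) _
    unfold dw gw wa
    rw [sca_apply, norm_smul, Real.norm_eq_abs, abs_of_pos (by positivity : 0 < 2 * ρ)]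
    set u : ℝ := ‖y - x‖ with hu
    have hu0 : 0 ≤ u := norm_nonneg _
    have h2 : (1 + ρ * u) ^ n ≤ 2 ^ n * (1 + (2 * ρ * u) ^ 2) ^ n := by
      rw [← mul_pow]
      refine pow_le_pow_left₀ (by positivity) ?_ n
      nlinarith [sq_nonneg (1 - ρ * u), sq_nonneg (ρ * u), mul_nonneg hρ.le hu0]
    rw [← div_eq_mul_inv, inv_eq_one_div, div_le_div_iff₀ (by positivity) (by positivity), one_mul]
    exact h2
  · intro ξ hξ
    refine ⟨(2 * ρ)⁻¹ • (ξ - ξ0), ?_, ?_⟩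
    · rw [norm_smul, norm_inv, Real.norm_eq_abs, abs_of_pos (by positivity : (0:ℝ) < 2 * ρ)]
      have := hs ξ hξ
      rw [inv_mul_le_iff₀ (by positivity)]
      linarith
    · rw [adj_sca, smul_smul, mul_inv_cancel₀ h2ρ, one_smul]
      abel

/-- **pointwise bound** of a short packet of a selected wave. -/
theorem pt_le (B : ℕ → ℝ) (n : ℕ) (L : ℝ) (hL : 1 ≤ L) : ∃ C : ℝ, 0 ≤ C ∧ ∀ h, ParB B h →
    ∀ (ρ ρ' : ℝ), 0 < ρ → ρ ≤ ρ' → ρ ≤ 1 → ∀ g : E2 → ℂ, Integrable g →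
    ∀ S : ℤ × ℤ → Set E2, Bs ρ S → ∀ z : E2 × ℝ, |z.2| * ρ ^ 2 ≤ L → ∀ (m' : ℤ × ℤ) (x : E2),
    ‖um ρ' (tr h z (sel ρ g S)) m' x‖ₑ ^ 2 ≤
      ENNReal.ofReal (C * (ρ' / ρ) ^ 2) * Ad n h ρ ρ' g S m' z x := by
  obtain ⟨C1, hC1, h1⟩ := loc_core_rep B n L hL
  obtain ⟨C2, hC2, h2⟩ := loc_ptr n
  refine ⟨C2 * C1, by positivity, ?_⟩
  intro h hh ρ ρ' hρ hρ' hρ1 g hg S hS z hz m' x
  have hpos' : 0 < ρ' := lt_of_lt_of_le hρ hρ'
  have hhc : Continuous h := hh.1.continuous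
  have hgs : Integrable (sel ρ g S) := (sel_int hρ hg hS).1
  have hgt : Integrable (tr h z (sel ρ g S)) := tr_int hhc hgs z
  have a1 := h2 ρ' hpos' (cen ρ' m') (fun ξ => cap win (cen ρ' m') ρ' ξ * tr h z (sel ρ g S) ξ)
    (win_int hgt m') (fun ξ hξ => by
      have := capwin_supp hpos' m' ξ (left_ne_zero_of_mul hξ)
      linarith) x
  have a2 := h1 h hh ρ ρ' 1 (fun y => wa ρ n (y - x)) hρ hρ' hρ1
    (by simpa [wa] using SV_pt hρ.le n x)
    (fun m => piece ρ g m (S m)) (fun m => (S m).indicator (um ρ g m))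
    (fun m hm => piece_rep hρ hg m (hS.meas m hm) (hS.bdd m hm)) z hz m'
  rw [one_pow, mul_one] at a2
  have a3 : WE (fun y => wa ρ' n (y - x))
      (fun ξ => cap win (cen ρ' m') ρ' ξ * tr h z (sel ρ g S) ξ) ≤
      ∫⁻ y, ENNReal.ofReal (wa ρ n (y - x)) *
        ‖um ρ' (tr h z (fun ξ => ∑ m ∈ caps ρ, piece ρ g m (S m) ξ)) m' y‖ₑ ^ 2 := by
    unfold WE
    refine lintegral_mono fun y => ?_
    refine mul_le_mul' (ENNReal.ofReal_le_ofReal ?_) le_rfl
    unfold wa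
    have : (1 + ρ * ‖y - x‖) ≤ (1 + ρ' * ‖y - x‖) := by
      have := mul_le_mul_of_nonneg_right hρ' (norm_nonneg (y - x))
      linarith
    have h0 : 0 < 1 + ρ * ‖y - x‖ := by positivity
    exact inv_anti₀ (by positivity) (pow_le_pow_left₀ h0.le this n)
  calc ‖um ρ' (tr h z (sel ρ g S)) m' x‖ₑ ^ 2
      ≤ ENNReal.ofReal (C2 * ρ' ^ 2) * (ENNReal.ofReal C1 * ∑ m ∈ nearL ρ ρ' m', ∫⁻ y,
        ENNReal.ofReal (wa ρ n (y - z.1 - z.2 • gradient h (cen ρ m) - x)) *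
          ‖(S m).indicator (um ρ g m) y‖ₑ ^ 2) :=
        a1.trans (mul_le_mul' le_rfl (a3.trans a2))
    _ = _ := by
        unfold Ad Ac
        rw [← mul_assoc, ← mul_assoc, ← ENNReal.ofReal_mul (by positivity),
          ← ENNReal.ofReal_mul (by positivity)]
        congr 1
        · congr 1
          field_simp
        · refine Finset.sum_congr rfl fun m hm => ?_
          rw [← lint_ind (hS.meas m (mem_nearL.1 hm).1)]

/-- weight of the set family `S'` of level `ρ'` seen from a packet of the cap `m` of level `ρ` at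
the point `v`. Additive in `S'`. -/
noncomputable def wE (n : ℕ) (ρ ρ' : ℝ) (S' : ℤ × ℤ → Set E2) (m : ℤ × ℤ) (v : E2) : ℝ≥0∞ :=
  ∑ m' ∈ nearS ρ ρ' m, ENNReal.ofReal (ρ ^ 2) * ∫⁻ x in S' m', ENNReal.ofReal (wa ρ n (v - x))

theorem um_meas {ρ : ℝ} {g : E2 → ℂ} (hg : Integrable g) (m : ℤ × ℤ) :
    Measurable fun y => ‖um ρ g m y‖ₑ ^ 2 :=
  ((um_cont hg m).enorm.measurable).pow_const 2

/-- **integrated form**: the energy of a selected wave in the family `S'`. -/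
theorem en_le_wE (B : ℕ → ℝ) (n : ℕ) (L : ℝ) (hL : 1 ≤ L) : ∃ C : ℝ, 0 ≤ C ∧ ∀ h, ParB B h →
    ∀ (ρ ρ' : ℝ), 0 < ρ → ρ ≤ ρ' → ρ ≤ 1 → ∀ g : E2 → ℂ, Integrable g →
    ∀ S : ℤ × ℤ → Set E2, Bs ρ S → ∀ z : E2 × ℝ, |z.2| * ρ ^ 2 ≤ L →
    ∀ S' : ℤ × ℤ → Set E2, (∀ m ∈ caps ρ', MeasurableSet (S' m)) →
    en ρ' (tr h z (sel ρ g S)) S' ≤ ENNReal.ofReal (C * (ρ' / ρ) ^ 2) *
      ∑ m ∈ caps ρ, ∫⁻ y in S m,
        wE n ρ ρ' S' m (y - z.1 - z.2 • gradient h (cen ρ m)) * ‖um ρ g m y‖ₑ ^ 2 := by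
  obtain ⟨C, hC, hpt⟩ := pt_le B n L hL
  refine ⟨C, hC, ?_⟩
  intro h hh ρ ρ' hρ hρ' hρ1 g hg S hS z hz S' hS'
  have hwc := wa_cont hρ.le n
  have hmeas : ∀ m : ℤ × ℤ, Measurable (Function.uncurry fun (x y : E2) =>
      ENNReal.ofReal (wa ρ n (y - z.1 - z.2 • gradient h (cen ρ m) - x)) * ‖um ρ g m y‖ₑ ^ 2) := by
    intro m
    refine Measurable.mul ?_ ((um_meas hg m).comp measurable_snd)
    exact ENNReal.measurable_ofReal.comp (Continuous.measurable (by fun_prop))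
  have key : ∀ m' ∈ caps ρ', ∫⁻ x in S' m', ‖um ρ' (tr h z (sel ρ g S)) m' x‖ₑ ^ 2 ≤
      ENNReal.ofReal (C * (ρ' / ρ) ^ 2) * ∑ m ∈ nearL ρ ρ' m', ∫⁻ y in S m,
        (ENNReal.ofReal (ρ ^ 2) * ∫⁻ x in S' m',
          ENNReal.ofReal (wa ρ n ((y - z.1 - z.2 • gradient h (cen ρ m)) - x))) *
            ‖um ρ g m y‖ₑ ^ 2 := by
    intro m' hm'
    calc ∫⁻ x in S' m', ‖um ρ' (tr h z (sel ρ g S)) m' x‖ₑ ^ 2
        ≤ ∫⁻ x in S' m', ENNReal.ofReal (C * (ρ' / ρ) ^ 2) * Ad n h ρ ρ' g S m' z x :=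
          lintegral_mono fun x => hpt h hh ρ ρ' hρ hρ' hρ1 g hg S hS z hz m' x
      _ = ENNReal.ofReal (C * (ρ' / ρ) ^ 2) * (ENNReal.ofReal (ρ ^ 2) *
            ∑ m ∈ nearL ρ ρ' m', ∫⁻ x in S' m', ∫⁻ y in S m,
              ENNReal.ofReal (wa ρ n (y - z.1 - z.2 • gradient h (cen ρ m) - x)) *
                ‖um ρ g m y‖ₑ ^ 2) := by
          rw [lintegral_const_mul' _ _ ENNReal.ofReal_ne_top]
          congr 1
          unfold Ad Ac
          rw [lintegral_const_mul' _ _ ENNReal.ofReal_ne_top]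
          congr 1
          refine lintegral_finsetSum' _ fun m _ => ?_
          exact ((hmeas m).lintegral_prod_right' (ν := volume.restrict (S m))).aemeasurable
      _ = _ := by
          congr 1
          rw [Finset.mul_sum]
          refine Finset.sum_congr rfl fun m _ => ?_
          rw [lintegral_lintegral_swap (hmeas m).aemeasurable,
            ← lintegral_const_mul' _ _ ENNReal.ofReal_ne_top]
          refine lintegral_congr fun y => ?_
          have hm1 : Measurable fun x : E2 =>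
              ENNReal.ofReal (wa ρ n (y - z.1 - z.2 • gradient h (cen ρ m) - x)) :=
            (Continuous.measurable (by fun_prop)).ennreal_ofReal
          rw [lintegral_mul_const _ hm1, mul_assoc]
  unfold en
  refine (Finset.sum_le_sum key).trans (le_of_eq ?_)
  rw [← Finset.mul_sum]
  congr 1
  rw [Finset.sum_comm' (s := caps ρ') (t := fun m' => nearL ρ ρ' m') (t' := caps ρ)
    (s' := fun m => nearS ρ ρ' m) (fun m' m => by rw [mem_nearL, mem_nearS]; tauto)]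
  refine Finset.sum_congr rfl fun m _ => ?_
  rw [← lintegral_finsetSum']
  · refine lintegral_congr fun y => ?_
    unfold wE
    rw [Finset.sum_mul]
  · intro m' _
    refine AEMeasurable.mul ?_ (um_meas hg m).aemeasurable
    refine AEMeasurable.const_mul ?_ _
    have : Measurable (Function.uncurry fun (y x : E2) =>
        ENNReal.ofReal (wa ρ n (y - z.1 - z.2 • gradient h (cen ρ m) - x))) :=
      ENNReal.measurable_ofReal.comp (Continuous.measurable (by fun_prop))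
    exact (this.lintegral_prod_right' (ν := volume.restrict (S' m'))).aemeasurable

end Crest.Agent.R138.Mis330
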