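import Crest.Agent.R138.Mw1_330

/-!
# R138 / R139: MIS / ALIGN, wave half, part 2 (helper330): the weights

`wE_le`, `wE_shift`, `wE_far`, `wE_sum` (additivity over disjoint selections of one frame).
-/

set_option autoImplicit false
set_option linter.unusedSectionVars false

open MeasureTheory FourierTransform
open scoped ContDiff ENNReal

namespace Crest.Agent.R138.Mis330

open Crest.Agent.R138.Defs Crest.Agent.R138.Wpk685 Crest.Agent.R138.Loc878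
open Crest.Agent.R138.W188 (tr)
open Crest.Agent.R138.Ad480

theorem wa4_le {ρ : ℝ} (hρ : 0 ≤ ρ) (v : E2) : ENNReal.ofReal (wa ρ 4 v) ≤ dec (ρ • v) := by
  unfold dec wa
  apply ENNReal.ofReal_le_ofReal
  rw [norm_smul, Real.norm_eq_abs, abs_of_nonneg hρ]
  have h0 : 0 ≤ ρ * ‖v‖ := by positivity
  refine inv_anti₀ (by positivity) ?_
  have : (1 + ρ * ‖v‖) ^ 4 = ((1 + ρ * ‖v‖) ^ 2) ^ 2 := by ring
  rw [this]
  refine pow_le_pow_left₀ (by positivity) ?_ 2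
  nlinarith

theorem int_wa {ρ : ℝ} (hρ : 0 < ρ) (v : E2) :
    ENNReal.ofReal (ρ ^ 2) * ∫⁻ x, ENNReal.ofReal (wa ρ 4 (v - x)) ≤ ENNReal.ofReal cdec := by
  calc ENNReal.ofReal (ρ ^ 2) * ∫⁻ x, ENNReal.ofReal (wa ρ 4 (v - x))
      ≤ ENNReal.ofReal (ρ ^ 2) * ∫⁻ x, dec (ρ • (v - x)) :=
        mul_le_mul' le_rfl (lintegral_mono fun x => wa4_le hρ.le _)
    _ = ENNReal.ofReal cdec := by
        rw [lintegral_scale dec v hρ, lintegral_dec, ← mul_assoc, ← ENNReal.ofReal_mul (by positivity),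
          mul_inv_cancel₀ (by positivity), ENNReal.ofReal_one, one_mul]

theorem wa_split {ρ : ℝ} (_hρ : 0 ≤ ρ) (k : ℕ) (v : E2) : wa ρ (k + 4) v = wa ρ k v * wa ρ 4 v := by
  unfold wa
  rw [pow_add, mul_inv]

theorem wa_far {ρ X : ℝ} (hρ : 0 ≤ ρ) (hX : 0 < X) (k : ℕ) {v : E2} (h : X ≤ ρ * ‖v‖) :
    wa ρ (k + 4) v ≤ (X ^ k)⁻¹ * wa ρ 4 v := by
  rw [wa_split hρ]
  refine mul_le_mul_of_nonneg_right ?_ (wa_pos hρ 4 v).le
  unfold wa
  exact inv_anti₀ (by positivity) (pow_le_pow_left₀ hX.le (by linarith) k)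

theorem int_far {ρ X : ℝ} (hρ : 0 < ρ) (hX : 0 < X) (k : ℕ) (v : E2) (T : Set E2)
    (hT : MeasurableSet T) (h : ∀ x ∈ T, X ≤ ρ * ‖v - x‖) :
    ENNReal.ofReal (ρ ^ 2) * ∫⁻ x in T, ENNReal.ofReal (wa ρ (k + 4) (v - x)) ≤
      ENNReal.ofReal (cdec * (X ^ k)⁻¹) := by
  have hc := cdec_nonneg
  calc ENNReal.ofReal (ρ ^ 2) * ∫⁻ x in T, ENNReal.ofReal (wa ρ (k + 4) (v - x))
      ≤ ENNReal.ofReal (ρ ^ 2) * ∫⁻ x in T, ENNReal.ofReal ((X ^ k)⁻¹) * ENNReal.ofReal (wa ρ 4 (v - x)) := by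
        refine mul_le_mul' le_rfl (setLIntegral_mono' hT fun x hx => ?_)
        rw [← ENNReal.ofReal_mul (by positivity)]
        exact ENNReal.ofReal_le_ofReal (wa_far hρ.le hX k (h x hx))
    _ = ENNReal.ofReal ((X ^ k)⁻¹) * (ENNReal.ofReal (ρ ^ 2) *
          ∫⁻ x in T, ENNReal.ofReal (wa ρ 4 (v - x))) := by
        rw [lintegral_const_mul' _ _ ENNReal.ofReal_ne_top, mul_left_comm]
    _ ≤ ENNReal.ofReal ((X ^ k)⁻¹) * ENNReal.ofReal cdec := by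
        refine mul_le_mul' le_rfl (le_trans ?_ (int_wa hρ v))
        exact mul_le_mul' le_rfl (setLIntegral_le_lintegral _ _)
    _ = _ := by rw [← ENNReal.ofReal_mul (by positivity), mul_comm]

theorem wa_anti' {ρ : ℝ} (hρ : 0 ≤ ρ) (k : ℕ) (v : E2) : wa ρ (k + 4) v ≤ wa ρ 4 v := by
  rw [wa_split hρ]
  exact mul_le_of_le_one_left (wa_pos hρ 4 v).le (wa_le_one hρ k v)

/-- the sum of the weights of a disjoint family (one frame) is bounded. -/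
theorem wE_sum {κ : Type*} (J : Finset κ) {ρ ρ' : ℝ} (hρ : 0 < ρ) (hρ' : 0 < ρ') (k : ℕ)
    (S' : κ → ℤ × ℤ → Set E2) (hm : ∀ i ∈ J, ∀ m ∈ caps ρ', MeasurableSet (S' i m))
    (hd : ∀ i ∈ J, ∀ j ∈ J, i ≠ j → ∀ m, Disjoint (S' i m) (S' j m)) (m : ℤ × ℤ) (v : E2) :
    ∑ i ∈ J, wE (k + 4) ρ ρ' (S' i) m v ≤ ENNReal.ofReal (36 * cdec) := by
  have hc := cdec_nonneg
  unfold wE
  rw [Finset.sum_comm]
  calc ∑ m' ∈ nearS ρ ρ' m, ∑ i ∈ J, ENNReal.ofReal (ρ ^ 2) *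
        ∫⁻ x in S' i m', ENNReal.ofReal (wa ρ (k + 4) (v - x))
      ≤ ∑ m' ∈ nearS ρ ρ' m, ENNReal.ofReal cdec := by
        refine Finset.sum_le_sum fun m' hm' => ?_
        rw [← Finset.mul_sum, ← lintegral_biUnion_finset]
        · refine le_trans (mul_le_mul' le_rfl ((setLIntegral_le_lintegral _ _).trans
            (lintegral_mono fun x => ENNReal.ofReal_le_ofReal (wa_anti' hρ.le k _)))) (int_wa hρ v)
        · intro i hi j hj hij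
          exact hd i hi j hj hij m'
        · intro i hi
          exact hm i hi m' (mem_nearS.1 hm').1
    _ = (nearS ρ ρ' m).card * ENNReal.ofReal cdec := by
        rw [Finset.sum_const, nsmul_eq_mul]
    _ ≤ _ := by
        rw [ENNReal.ofReal_mul (by norm_num), ENNReal.ofReal_ofNat]
        refine mul_le_mul' ?_ le_rfl
        exact_mod_cast card_nearS hρ' m

theorem wE_le {ρ ρ' : ℝ} (hρ : 0 < ρ) (hρ' : 0 < ρ') (k : ℕ) (S' : ℤ × ℤ → Set E2)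
    (hm : ∀ m ∈ caps ρ', MeasurableSet (S' m)) (m : ℤ × ℤ) (v : E2) :
    wE (k + 4) ρ ρ' S' m v ≤ ENNReal.ofReal (36 * cdec) := by
  have := wE_sum ({()} : Finset Unit) hρ hρ' k (fun _ => S') (fun _ _ => hm)
    (fun i _ j _ hij => absurd rfl hij) m v
  simpa using this

theorem wE_shift {ρ ρ' δ : ℝ} (hρ : 0 ≤ ρ) (hδ : 0 ≤ δ) (n : ℕ) (S' : ℤ × ℤ → Set E2)
    (m : ℤ × ℤ) {v v' : E2} (h : ρ * ‖v' - v‖ ≤ δ) :
    wE n ρ ρ' S' m v ≤ ENNReal.ofReal ((1 + δ) ^ n) * wE n ρ ρ' S' m v' := by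
  unfold wE
  rw [Finset.mul_sum]
  refine Finset.sum_le_sum fun m' _ => ?_
  rw [mul_left_comm]
  refine mul_le_mul' le_rfl ?_
  rw [← lintegral_const_mul' _ _ ENNReal.ofReal_ne_top]
  refine lintegral_mono fun x => ?_
  rw [← ENNReal.ofReal_mul (by positivity)]
  refine ENNReal.ofReal_le_ofReal (wa_shift hρ hδ n ?_)
  rwa [sub_sub_sub_cancel_right]

theorem wE_far {ρ ρ' X : ℝ} (hρ : 0 < ρ) (hρ' : 0 < ρ') (hX : 0 < X) (k : ℕ)
    (S' : ℤ × ℤ → Set E2) (hm : ∀ m ∈ caps ρ', MeasurableSet (S' m)) (m : ℤ × ℤ) (v : E2)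
    (h : ∀ m' ∈ nearS ρ ρ' m, ∀ x ∈ S' m', X ≤ ρ * ‖v - x‖) :
    wE (k + 4) ρ ρ' S' m v ≤ ENNReal.ofReal (36 * cdec * (X ^ k)⁻¹) := by
  have hc := cdec_nonneg
  unfold wE
  calc _ ≤ ∑ m' ∈ nearS ρ ρ' m, ENNReal.ofReal (cdec * (X ^ k)⁻¹) :=
        Finset.sum_le_sum fun m' hm' => int_far hρ hX k v _ (hm m' (mem_nearS.1 hm').1) (h m' hm')
    _ = (nearS ρ ρ' m).card * ENNReal.ofReal (cdec * (X ^ k)⁻¹) := by
        rw [Finset.sum_const, nsmul_eq_mul]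
    _ ≤ _ := by
        have e : ENNReal.ofReal (36 * cdec * (X ^ k)⁻¹) = 36 * ENNReal.ofReal (cdec * (X ^ k)⁻¹) := by
          rw [mul_assoc, ENNReal.ofReal_mul (by norm_num : (0:ℝ) ≤ 36), ENNReal.ofReal_ofNat]
        rw [e]
        refine mul_le_mul' ?_ le_rfl
        exact_mod_cast card_nearS hρ' m

end Crest.Agent.R138.Mis330
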