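import Crest.Agent.R138.Mw2_330
import Crest.Agent.R138.Wpk9_685
import Crest.Agent.R138.DecC_685
import Crest.Agent.R138.Km_535

/-!
# R138 / R139: MIS / ALIGN, wave half, part 3 (helper330): cells of a plate system

`mu` = energy of the part of a plate in a phase space cell; `dmax_cells`, `mass_eq`, `box_cells`.
-/

set_option autoImplicit false
set_option linter.unusedSectionVars false

open MeasureTheory FourierTransform
open scoped ContDiff ENNReal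

namespace Crest.Agent.R138.Mis330

open Crest.Agent.R138.Defs Crest.Agent.R138.Wpk685 Crest.Agent.R138.Loc878
open Crest.Agent.R138.W188 (tr Plate uS)
open Crest.Agent.R138.Ad480
open Crest.Agent.R138.Mis535 (PB)

theorem glip {B : ℕ → ℝ} {h : E2 → ℝ} (hh : ParB B h) (ξ ξ' : E2) :
    ‖gradient h ξ - gradient h ξ'‖ ≤ (1 + |B 2|) * ‖ξ - ξ'‖ :=
  Crest.Agent.R138.Wf448.gradient_lip hh.1
    (fun ξ => (norm_phase_le hh 2 le_rfl ξ).trans (by linarith [le_abs_self (B 2)])) ξ ξ'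

/-! ### cells -/

/-- square of indices -/
noncomputable def kbox (N : ℕ) : Finset (ℤ × ℤ) := Finset.Icc (-(N:ℤ)) N ×ˢ Finset.Icc (-(N:ℤ)) N

theorem kk_mem_kbox {l K : ℝ} (hl : 0 < l) {y : E2} (hy : ‖y‖ ≤ K) {N : ℕ} (hN : K / l + 1 ≤ N) :
    kk l y ∈ kbox N := by
  have key : ∀ i : Fin 2, ⌊y i / l⌋ ∈ Finset.Icc (-(N:ℤ)) N := by
    intro i
    have h1 : |y i| ≤ K := (PiLp.norm_apply_le y i).trans hy
    have h2 : |y i / l| ≤ K / l := by
      rw [abs_div, abs_of_pos hl]; gcongr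
    obtain ⟨h3, h4⟩ := abs_le.1 h2
    have h5 := Int.floor_le (y i / l)
    have h6 := Int.lt_floor_add_one (y i / l)
    rw [Finset.mem_Icc]
    constructor
    · have : (-(N:ℝ)) ≤ ⌊y i / l⌋ := by linarith
      exact_mod_cast this
    · have : ((⌊y i / l⌋ : ℤ) : ℝ) ≤ N := by linarith
      exact_mod_cast this
  unfold kk kbox
  rw [Finset.mem_product]
  exact ⟨key 0, key 1⟩

/-- the part of the cell `k` in `T`. -/
def pc (l : ℝ) (T : Set E2) (k : ℤ × ℤ) : Set E2 := T ∩ {y | kk l y = k}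

theorem pc_meas {l : ℝ} {T : Set E2} (hT : MeasurableSet T) (k : ℤ × ℤ) : MeasurableSet (pc l T k) :=
  hT.inter (cell_meas l k)

theorem split_cells {l K : ℝ} (hl : 0 < l) {T : Set E2} (hT : MeasurableSet T)
    (hb : ∀ y ∈ T, ‖y‖ ≤ K) {N : ℕ} (hN : K / l + 1 ≤ N) (f : E2 → ℝ≥0∞) :
    ∫⁻ y in T, f y = ∑ k ∈ kbox N, ∫⁻ y in pc l T k, f y := by
  have e : T = ⋃ k ∈ kbox N, pc l T k := by
    ext y
    simp only [pc, Set.mem_iUnion, Set.mem_inter_iff, Set.mem_ofPred_eq, exists_prop]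
    constructor
    · intro hy
      exact ⟨kk l y, kk_mem_kbox hl (hb y hy) hN, hy, rfl⟩
    · rintro ⟨k, _, hy, _⟩
      exact hy
  conv_lhs => rw [e]
  rw [lintegral_biUnion_finset]
  · intro k _ k' _ hkk
    rw [Function.onFun, Set.disjoint_left]
    intro y hy hy'
    exact hkk (hy.2.symm.trans hy'.2)
  · exact fun k _ => pc_meas hT k

/-- energy of the part of the plate `T.1` in the cell `T.2`. -/
noncomputable def muE (ρ l : ℝ) (g : E2 → ℂ) (P : ℕ → Plate) (T : ℕ × Cel) : ℝ≥0∞ :=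
  ∫⁻ y in pc l ((P T.1).S T.2.1) T.2.2, ‖um ρ g T.2.1 y‖ₑ ^ 2

/-- real version. -/
noncomputable def mu (ρ l : ℝ) (g : E2 → ℂ) (P : ℕ → Plate) (T : ℕ × Cel) : ℝ :=
  (muE ρ l g P T).toReal

theorem mu_nonneg (ρ l : ℝ) (g : E2 → ℂ) (P : ℕ → Plate) (T : ℕ × Cel) : 0 ≤ mu ρ l g P T :=
  ENNReal.toReal_nonneg

/-- finiteness. -/
theorem um_fin {ρ : ℝ} (hρ : 0 < ρ) (hρ1 : ρ ≤ 1) {g : E2 → ℂ} (hg : Integrable g)
    (hg2 : MemLp g 2) (S : ℤ × ℤ → Set E2) : en ρ g S ≠ ⊤ := by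
  obtain ⟨C, _, hC⟩ := en_le
  refine ne_top_of_le_ne_top ?_ (hC ρ hρ hρ1 g hg hg2 S)
  refine ENNReal.mul_ne_top ENNReal.ofReal_ne_top ?_
  have := hg2.eLpNorm_lt_top
  have h2 := MeasureTheory.lintegral_rpow_enorm_lt_top_of_eLpNorm_lt_top (p := 2) (by norm_num)
    (by norm_num) this
  simpa using h2.ne

theorem muE_fin {ρ l : ℝ} (hρ : 0 < ρ) (hρ1 : ρ ≤ 1) {g : E2 → ℂ} (hg : Integrable g)
    (hg2 : MemLp g 2) (P : ℕ → Plate) {T : ℕ × Cel} (hT : T.2.1 ∈ caps ρ) :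
    muE ρ l g P T ≠ ⊤ := by
  refine ne_top_of_le_ne_top (um_fin hρ hρ1 hg hg2 (fun _ => Set.univ)) ?_
  unfold muE en
  refine le_trans ?_ (Finset.single_le_sum
    (f := fun m => ∫⁻ x in (Set.univ : Set E2), ‖um ρ g m x‖ₑ ^ 2) (fun _ _ => zero_le) hT)
  exact lintegral_mono_set (Set.subset_univ _)

theorem ofReal_mu {ρ l : ℝ} (hρ : 0 < ρ) (hρ1 : ρ ≤ 1) {g : E2 → ℂ} (hg : Integrable g)
    (hg2 : MemLp g 2) (P : ℕ → Plate) {T : ℕ × Cel} (hT : T.2.1 ∈ caps ρ) :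
    ENNReal.ofReal (mu ρ l g P T) = muE ρ l g P T :=
  ENNReal.ofReal_toReal (muE_fin hρ hρ1 hg hg2 P hT)

/-- all cells. -/
noncomputable def TI (ρ : ℝ) (N : ℕ) (I : Finset ℕ) : Finset (ℕ × Cel) :=
  I ×ˢ (caps ρ ×ˢ kbox N)

theorem mem_TI {ρ : ℝ} {N : ℕ} {I : Finset ℕ} {T : ℕ × Cel} :
    T ∈ TI ρ N I ↔ T.1 ∈ I ∧ T.2.1 ∈ caps ρ ∧ T.2.2 ∈ kbox N := by
  unfold TI
  rw [Finset.mem_product, Finset.mem_product]

/-- sum over the cells of one plate. -/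
theorem mass_plate {ρ l K : ℝ} (hl : 0 < l) {g : E2 → ℂ} {P : ℕ → Plate} {a : ℕ}
    (hm : ∀ m, MeasurableSet ((P a).S m)) (hb : ∀ m, ∀ y ∈ (P a).S m, ‖y‖ ≤ K) {N : ℕ}
    (hN : K / l + 1 ≤ N) :
    ∑ x ∈ caps ρ ×ˢ kbox N, muE ρ l g P (a, x) = en ρ g (P a).S := by
  unfold en muE
  rw [Finset.sum_product]
  exact Finset.sum_congr rfl fun m _ => (split_cells hl (hm m) (hb m) hN
    (fun y => ‖um ρ g m y‖ₑ ^ 2)).symm

/-- the energy of a disjoint family of plates. -/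
theorem en_uS {ρ : ℝ} {g : E2 → ℂ} {I : Finset ℕ} {P : ℕ → Plate}
    (hm : ∀ a ∈ I, ∀ m, MeasurableSet ((P a).S m))
    (hd : ∀ a ∈ I, ∀ a' ∈ I, a ≠ a' → ∀ m, Disjoint ((P a).S m) ((P a').S m)) :
    en ρ g (uS I P) = ∑ a ∈ I, en ρ g (P a).S := by
  unfold en uS
  rw [Finset.sum_comm]
  refine Finset.sum_congr rfl fun m _ => ?_
  rw [lintegral_biUnion_finset]
  · intro a ha a' ha' hne
    exact hd a ha a' ha' hne m
  · exact fun a ha => hm a ha m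

theorem mass_all {ρ l K : ℝ} (hl : 0 < l) {g : E2 → ℂ} {I : Finset ℕ} {P : ℕ → Plate}
    (hm : ∀ a ∈ I, ∀ m, MeasurableSet ((P a).S m))
    (hd : ∀ a ∈ I, ∀ a' ∈ I, a ≠ a' → ∀ m, Disjoint ((P a).S m) ((P a').S m))
    (hb : ∀ a ∈ I, ∀ m, ∀ y ∈ (P a).S m, ‖y‖ ≤ K) {N : ℕ} (hN : K / l + 1 ≤ N) :
    ∑ T ∈ TI ρ N I, muE ρ l g P T = en ρ g (uS I P) := by
  rw [en_uS hm hd]
  unfold TI
  rw [Finset.sum_product]
  exact Finset.sum_congr rfl fun a ha => mass_plate hl (hm a ha) (hb a ha) hN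

/-- finite subadditivity over a cover of the domain. -/
theorem lint_cover {κ : Type*} (J : Finset κ) (U : Set E2) (V : κ → Set E2)
    (h : ∀ y ∈ U, ∃ j ∈ J, y ∈ V j) (f : E2 → ℝ≥0∞) :
    ∫⁻ y in U, f y ≤ ∑ j ∈ J, ∫⁻ y in V j, f y := by
  classical
  have h1 : U ⊆ ⋃ j : {j // j ∈ J}, V j.1 := by
    intro y hy
    obtain ⟨j, hj, hyj⟩ := h y hy
    exact Set.mem_iUnion.2 ⟨⟨j, hj⟩, hyj⟩
  refine (lintegral_mono_set h1).trans ((lintegral_iUnion_le _ _).trans ?_)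
  rw [tsum_fintype, ← Finset.sum_coe_sort J (fun j => ∫⁻ y in V j, f y)]

open Classical in
/-- **dmax for cells**. -/
theorem dmax_cells {q : ℝ} {h : E2 → ℝ} {r : ℝ} (hr : 1 ≤ r) {g : E2 → ℂ} {I : Finset ℕ}
    {P : ℕ → Plate} (hm : ∀ a ∈ I, ∀ m, MeasurableSet ((P a).S m))
    (hd : ∀ a ∈ I, ∀ a' ∈ I, a ≠ a' → ∀ m, Disjoint ((P a).S m) ((P a').S m)) {D : ℝ} (hD : 0 ≤ D)
    (hdens : Dens q h r g (uS I P) D) (N : ℕ) (c0 : E2) (b : OrthonormalBasis (Fin 2) ℝ E2)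
    (s : Fin 2 → ℝ) (y0 : E2) (hs : ∀ i, r ^ (-(1/2) : ℝ) ≤ s i ∧ s i ≤ 1) :
    ∑ T ∈ (TI (r ^ (-(1/2) : ℝ)) N I).filter (fun T => PB r b (s 0) (s 1) c0 y0
        (gradient h (cen (r ^ (-(1/2) : ℝ)) T.2.1)) (cen (r ^ (-(1/2) : ℝ) * r) T.2.2)),
      muE (r ^ (-(1/2) : ℝ)) (r ^ (-(1/2) : ℝ) * r) g P T ≤
    ENNReal.ofReal (49 * D * (max (s 0) (s 1)) ^ q * (s 0 * s 1 * r ^ 2)) := by
  obtain ⟨hρ, hρ1, hρ2⟩ := rp_facts hr
  have hr0 : 0 < r := by linarith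
  have hdens' := fun (y1 : E2) => hdens c0 b s y1 hs
  have hpb : ∀ m y1, pbox h r c0 b s y1 m =
    {y | (∀ i, |inner ℝ (gradient h (cen (r ^ (-(1/2) : ℝ)) m) - c0) (b i)| ≤ s i) ∧
    ∀ i, |inner ℝ (y - y1) (b i)| ≤ s i * r} := fun m y1 => rfl
  set ρ : ℝ := r ^ (-(1/2) : ℝ) with hρdef
  set l : ℝ := ρ * r with hl
  have hl0 : 0 < l := by positivity
  have hs0 : ∀ i, 0 < s i := fun i => hρ.trans_le (hs i).1
  set J : Finset (ℤ × ℤ) := Finset.Icc (-⌈(5/2:ℝ)⌉) ⌈(5/2:ℝ)⌉ ×ˢ Finset.Icc (-⌈(5/2:ℝ)⌉) ⌈(5/2:ℝ)⌉ with hJ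
  have hJc : (J.card : ℝ≥0∞) = ENNReal.ofReal 49 := by
    have h3 : ⌈(5/2:ℝ)⌉ = 3 := by
      rw [Int.ceil_eq_iff]; norm_num
    rw [hJ, Finset.card_product, h3, ENNReal.ofReal_ofNat]
    rfl
  -- the translated boxes
  set yj : ℤ × ℤ → E2 := fun j => y0 + sh b ![2 * (j : ℤ × ℤ).1 * (s 0 * r), 2 * j.2 * (s 1 * r)] with hyj
  set Q : ℕ × Cel → Prop := fun T => PB r b (s 0) (s 1) c0 y0 (gradient h (cen ρ T.2.1)) (cen l T.2.2) with hQ
  -- per cap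
  have key : ∀ m ∈ caps ρ, ∑ a ∈ I, ∑ k ∈ kbox N, (if Q (a, (m, k)) then muE ρ l g P (a, (m, k)) else 0) ≤
      ∑ j ∈ J, ∫⁻ y in uS I P m ∩ pbox h r c0 b s (yj j) m, ‖um ρ g m y‖ₑ ^ 2 := by
    intro m _
    set U : Set E2 := ⋃ x ∈ (I ×ˢ kbox N).filter (fun x => Q (x.1, (m, x.2))), pc l ((P x.1).S m) x.2 with hU
    have e1 : ∑ a ∈ I, ∑ k ∈ kbox N, (if Q (a, (m, k)) then muE ρ l g P (a, (m, k)) else 0) =
        ∫⁻ y in U, ‖um ρ g m y‖ₑ ^ 2 := by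
      rw [hU, lintegral_biUnion_finset, ← Finset.sum_product', Finset.sum_filter]
      · rfl
      · intro x hx x' hx' hne
        rw [Function.onFun, Set.disjoint_left]
        intro y hy hy'
        have hx1 := (Finset.mem_product.1 (Finset.mem_filter.1 (Finset.mem_coe.1 hx)).1).1
        have hx2 := (Finset.mem_product.1 (Finset.mem_filter.1 (Finset.mem_coe.1 hx')).1).1
        by_cases ha : x.1 = x'.1
        · exact hne (Prod.ext ha (hy.2.symm.trans hy'.2))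
        · exact Set.disjoint_left.1 (hd x.1 hx1 x'.1 hx2 ha m) hy.1 hy'.1
      · intro x hx
        have hx1 := (Finset.mem_product.1 (Finset.mem_filter.1 hx).1).1
        exact pc_meas (hm x.1 hx1 m) x.2
    rw [e1]
    refine lint_cover J U _ ?_ _
    intro y hy
    simp only [hU, Set.mem_iUnion, Finset.mem_filter, Finset.mem_product, exists_prop] at hy
    obtain ⟨x, ⟨⟨hx1, _⟩, hx3⟩, hy1, hy2⟩ := hy
    have hk := kk_dist hl0 y
    have hy2' : kk l y = x.2 := hy2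
    rw [hy2'] at hk
    obtain ⟨q1, q2, q3, q4⟩ := hx3
    have hin : ∀ i, |inner ℝ (y - y0) (b i)| ≤ 5/2 * (s i * r) := by
      intro i
      have e : y - y0 = (y - cen l x.2) + (cen l x.2 - y0) := by abel
      rw [e, inner_add_left]
      have h1 : |inner ℝ (y - cen l x.2) (b i)| ≤ 3 / 2 * (s i * r) := by
        refine (abs_real_inner_le_norm _ _).trans ?_
        rw [b.orthonormal.1 i, mul_one]
        refine hk.trans ?_
        have : l ≤ s i * r := by rw [hl]; exact mul_le_mul_of_nonneg_right (hs i).1 hr0.le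
        linarith
      have h2 : |inner ℝ (cen l x.2 - y0) (b i)| ≤ s i * r := by
        fin_cases i
        · exact q3
        · exact q4
      have := abs_add_le (inner ℝ (y - cen l x.2) (b i)) (inner ℝ (cen l x.2 - y0) (b i))
      linarith
    obtain ⟨j, hj, hj2⟩ := near_shift (K := 5/2) (by norm_num) b (s := fun i => s i * r)
      (fun i => mul_pos (hs0 i) hr0) (y - y0) hin
    refine ⟨j, hj, ?_, ?_⟩
    · unfold uS
      exact Set.mem_biUnion hx1 hy1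
    · rw [hpb]
      refine ⟨?_, ?_⟩
      · intro i
        fin_cases i
        · exact q1
        · exact q2
      · intro i
        have e : y - yj j = y - y0 - sh b ![2 * (j : ℤ × ℤ).1 * (s 0 * r), 2 * j.2 * (s 1 * r)] := by
          rw [hyj]; exact sub_add_eq_sub_sub _ _ _
        rw [e]
        exact hj2 i
  calc ∑ T ∈ (TI ρ N I).filter Q, muE ρ l g P T
      = ∑ m ∈ caps ρ, ∑ a ∈ I, ∑ k ∈ kbox N,
          (if Q (a, (m, k)) then muE ρ l g P (a, (m, k)) else 0) := by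
        rw [Finset.sum_filter]
        unfold TI
        rw [Finset.sum_product]
        simp_rw [Finset.sum_product]
        rw [Finset.sum_comm]
    _ ≤ ∑ m ∈ caps ρ, ∑ j ∈ J, ∫⁻ y in uS I P m ∩ pbox h r c0 b s (yj j) m, ‖um ρ g m y‖ₑ ^ 2 :=
        Finset.sum_le_sum key
    _ = ∑ j ∈ J, en ρ g (fun m => uS I P m ∩ pbox h r c0 b s (yj j) m) := by
        rw [Finset.sum_comm]
        rfl
    _ ≤ ∑ j ∈ J, ENNReal.ofReal (D * (max (s 0) (s 1)) ^ q * (s 0 * s 1 * r ^ 2)) :=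
        Finset.sum_le_sum fun j _ => hdens' (yj j)
    _ = _ := by
        rw [Finset.sum_const, nsmul_eq_mul, hJc, ← ENNReal.ofReal_mul (by norm_num)]
        congr 1; ring

end Crest.Agent.R138.Mis330
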