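import Crest.Agent.R138.Bil6_882

/-!
# R138 / R139, WAVE leaf T12 (helper774)

Localisation of the averaged functional `NN` to balls of radius `r`, with a decomposition of the
localised function in every ball (doc 1812, leaf (T12)); abstract form.
-/

set_option autoImplicit false

open MeasureTheory
open scoped ENNReal

namespace Crest.Agent.R138.T774

open Crest.Agent.R138.Defs (E2 cyl)
open Crest.Agent.R138.Bil882 (wt wt_pos measurable_wt)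

/-- weighted average at scale `w` of `|F|^2` around `z`. -/
noncomputable def AA (N : ℕ) (w : ℝ) (F : E2 × ℝ → ℂ) (z : E2 × ℝ) : ℝ≥0∞ :=
  ENNReal.ofReal ((w ^ 3)⁻¹) * ∫⁻ p : E2 × ℝ, ‖F p‖ₑ ^ 2 * ENNReal.ofReal (wt N w z.1 z.2 p)

theorem cyl_eq (R : ℝ) : cyl R = Metric.closedBall (0 : E2 × ℝ) R := by
  ext p
  simp [cyl, Prod.norm_def, Real.norm_eq_abs]

theorem measurableSet_cyl (R : ℝ) : MeasurableSet (cyl R) := by
  rw [cyl_eq]; exact Metric.isClosed_closedBall.measurableSet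

theorem finrank3 : Module.finrank ℝ (E2 × ℝ) = 3 := by
  simp [Module.finrank_prod]

theorem haar3 : (volume : Measure (E2 × ℝ)).IsAddHaarMeasure := by
  rw [Measure.volume_eq_prod]; infer_instance

attribute [local instance] haar3

/-- volume of the cylinder. -/
theorem volume_cyl : ∃ C : ℝ, 0 ≤ C ∧ ∀ R : ℝ, 0 ≤ R →
    volume (cyl R) ≤ ENNReal.ofReal (C * R ^ 3) := by
  have hfin : volume (Metric.ball (0 : E2 × ℝ) 1) < ⊤ := measure_ball_lt_top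
  refine ⟨(volume (Metric.ball (0 : E2 × ℝ) 1)).toReal, ENNReal.toReal_nonneg, fun R hR => ?_⟩
  rw [cyl_eq, Measure.addHaar_closedBall _ _ hR, finrank3, mul_comm,
    ENNReal.ofReal_mul ENNReal.toReal_nonneg, ENNReal.ofReal_toReal hfin.ne]

/-- the weight at the origin and scale one. -/
theorem lint_wt_one : ∃ C : ℝ, 0 ≤ C ∧
    ∫⁻ p : E2 × ℝ, ENNReal.ofReal (wt 4 1 0 0 p) ≤ ENNReal.ofReal C := by
  have h1 : ∫⁻ p : E2 × ℝ, ENNReal.ofReal ((1 + ‖p‖) ^ (-(4:ℝ))) < ⊤ := by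
    apply finite_integral_one_add_norm
    rw [finrank3]; norm_num
  refine ⟨(∫⁻ p : E2 × ℝ, ENNReal.ofReal ((1 + ‖p‖) ^ (-(4:ℝ)))).toReal,
    ENNReal.toReal_nonneg, ?_⟩
  rw [ENNReal.ofReal_toReal h1.ne]
  refine lintegral_mono fun p => ENNReal.ofReal_le_ofReal ?_
  unfold wt
  rw [Real.rpow_neg (by positivity)]
  have h2 : (1 + ‖p‖) ^ (4:ℝ) = (1 + ‖p‖) ^ 4 := by
    rw [show (4:ℝ) = ((4:ℕ):ℝ) by norm_num, Real.rpow_natCast]
  rw [h2]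
  have h3 : ‖p‖ ≤ ‖p.1 - 0‖ + |p.2 - 0| := by
    rw [sub_zero, sub_zero, Prod.norm_def, Real.norm_eq_abs]
    exact max_le (by have := abs_nonneg p.2; linarith) (by have := norm_nonneg p.1; linarith)
  have h4 : 1 + ‖p‖ ≤ 1 + (‖p.1 - 0‖ + |p.2 - 0|) / 1 := by rw [div_one]; linarith
  gcongr

theorem wt_scale (N : ℕ) {w : ℝ} (hw : 0 < w) (z p : E2 × ℝ) :
    wt N w z.1 z.2 (p + z) = wt N 1 0 0 (w⁻¹ • p) := by
  unfold wt
  have h1 : ‖(p + z).1 - z.1‖ = ‖p.1‖ := by simp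
  have h2 : |(p + z).2 - z.2| = |p.2| := by simp
  have h3 : ‖(w⁻¹ • p).1 - 0‖ = w⁻¹ * ‖p.1‖ := by
    rw [sub_zero, Prod.smul_fst, norm_smul, Real.norm_eq_abs, abs_of_pos (inv_pos.2 hw)]
  have h4 : |(w⁻¹ • p).2 - 0| = w⁻¹ * |p.2| := by
    rw [sub_zero, Prod.smul_snd, smul_eq_mul, abs_mul, abs_of_pos (inv_pos.2 hw)]
  rw [h1, h2, h3, h4]
  congr 2
  field_simp

theorem lint_smul {w : ℝ} (hw : 0 < w) {f : E2 × ℝ → ℝ≥0∞} (hf : Measurable f) :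
    ∫⁻ p : E2 × ℝ, f (w⁻¹ • p) = ENNReal.ofReal (w ^ 3) * ∫⁻ p, f p := by
  have h1 := Measure.map_addHaar_smul (volume : Measure (E2 × ℝ)) (inv_ne_zero hw.ne')
  have h2 : ∫⁻ p : E2 × ℝ, f (w⁻¹ • p)
      = ∫⁻ q, f q ∂(Measure.map (fun x : E2 × ℝ => w⁻¹ • x) volume) := by
    rw [lintegral_map hf (measurable_const_smul _)]
  rw [h2, h1, lintegral_smul_measure, finrank3]
  congr 2
  rw [inv_pow, inv_inv, abs_of_pos (by positivity)]

/-- integral of the weight. -/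
theorem lint_wt : ∃ C : ℝ, 0 ≤ C ∧ ∀ w : ℝ, 0 < w → ∀ z : E2 × ℝ,
    ∫⁻ p : E2 × ℝ, ENNReal.ofReal (wt 4 w z.1 z.2 p) ≤ ENNReal.ofReal (C * w ^ 3) := by
  obtain ⟨C, hC, h⟩ := lint_wt_one
  refine ⟨C, hC, fun w hw z => ?_⟩
  rw [← lintegral_add_right_eq_self _ z]
  simp_rw [wt_scale 4 hw z]
  rw [lint_smul hw (f := fun p => ENNReal.ofReal (wt 4 1 0 0 p)) (measurable_wt 4 1 0 0).ennreal_ofReal]
  calc ENNReal.ofReal (w ^ 3) * ∫⁻ p : E2 × ℝ, ENNReal.ofReal (wt 4 1 0 0 p)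
      ≤ ENNReal.ofReal (w ^ 3) * ENNReal.ofReal C := by gcongr
    _ = ENNReal.ofReal (C * w ^ 3) := by
        rw [← ENNReal.ofReal_mul (by positivity), mul_comm]

/-- translation invariance. -/
theorem AA_translate (N : ℕ) (w : ℝ) (F : E2 × ℝ → ℂ) (z z0 : E2 × ℝ) :
    AA N w F (z + z0) = AA N w (fun p => F (p + z0)) z := by
  unfold AA
  congr 1
  rw [← lintegral_add_right_eq_self _ z0]
  refine lintegral_congr fun p => ?_
  congr 2
  unfold wt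
  congr 3
  simp

theorem measurable_AA (N : ℕ) (w : ℝ) {F : E2 × ℝ → ℂ} (hF : Measurable F) :
    Measurable (AA N w F) := by
  unfold AA
  refine Measurable.const_mul ?_ _
  apply Measurable.lintegral_prod_right' (f := fun q : (E2 × ℝ) × (E2 × ℝ) =>
    ‖F q.2‖ₑ ^ 2 * ENNReal.ofReal (wt N w q.1.1 q.1.2 q.2))
  refine Measurable.mul ?_ (Measurable.ennreal_ofReal ?_)
  · exact (hF.comp measurable_snd).enorm.pow_const 2
  · unfold wt
    fun_prop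

/-- the weight of large order far from its centre. -/
theorem wt_far {N : ℕ} (hN : 4 ≤ N) {w r : ℝ} (hw : 0 < w) (hr : 0 < r) {z p : E2 × ℝ}
    (hz : z ∈ cyl r) (hp : ¬ (‖p.1‖ ≤ 8 * r ∧ |p.2| ≤ 8 * r)) :
    wt N w z.1 z.2 p ≤ (w / r) ^ (N - 4) * wt 4 w z.1 z.2 p := by
  obtain ⟨hz1, hz2⟩ := hz
  set a : ℝ := 1 + (‖p.1 - z.1‖ + |p.2 - z.2|) / w with ha
  have h1 : r ≤ ‖p.1 - z.1‖ + |p.2 - z.2| := by
    rw [not_and_or, not_le, not_le] at hp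
    rcases hp with hp | hp
    · have h2 : ‖p.1‖ ≤ ‖p.1 - z.1‖ + ‖z.1‖ := by
        simpa using norm_add_le (p.1 - z.1) z.1
      have := abs_nonneg (p.2 - z.2)
      linarith
    · have h2 : |p.2| ≤ |p.2 - z.2| + |z.2| := by
        simpa using abs_add_le (p.2 - z.2) z.2
      have := norm_nonneg (p.1 - z.1)
      linarith
  have h3 : r / w ≤ a := by
    rw [ha]
    have : r / w ≤ (‖p.1 - z.1‖ + |p.2 - z.2|) / w := by gcongr
    linarith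
  have ha0 : 0 < a := lt_of_lt_of_le (by positivity) h3
  have h4 : (a ^ (N - 4))⁻¹ ≤ (w / r) ^ (N - 4) := by
    rw [← inv_pow]
    have : a⁻¹ ≤ w / r := by
      rw [inv_le_comm₀ ha0 (by positivity), inv_div]
      exact h3
    gcongr
  have e1 : wt N w z.1 z.2 p = (a ^ (N - 4))⁻¹ * (a ^ 4)⁻¹ := by
    unfold wt
    rw [← mul_inv, ← pow_add, show N - 4 + 4 = N by omega]
  have e2 : wt 4 w z.1 z.2 p = (a ^ 4)⁻¹ := rfl
  rw [e1, e2]
  gcongr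

theorem wt_le_wt4 {N : ℕ} (hN : 4 ≤ N) {w : ℝ} (hw : 0 < w) (z p : E2 × ℝ) :
    wt N w z.1 z.2 p ≤ wt 4 w z.1 z.2 p := by
  unfold wt
  have h1 : 1 ≤ 1 + (‖p.1 - z.1‖ + |p.2 - z.2|) / w := by
    have : 0 ≤ (‖p.1 - z.1‖ + |p.2 - z.2|) / w := by positivity
    linarith
  gcongr

/-- the average of a function which is small on `cyl (8r)` and bounded. -/
theorem AA_rest {N : ℕ} (hN : 4 ≤ N) : ∃ C : ℝ, 0 ≤ C ∧ ∀ (w r B S : ℝ), 0 < w → 0 < r →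
    0 ≤ B → 0 ≤ S → ∀ F : E2 × ℝ → ℂ,
    (∀ p, ‖p.1‖ ≤ 8 * r → |p.2| ≤ 8 * r → ‖F p‖ ≤ B) → (∀ p, ‖F p‖ ≤ S) →
    ∀ z ∈ cyl r, AA N w F z ≤ ENNReal.ofReal (C * (B ^ 2 + S ^ 2 * (w / r) ^ (N - 4))) := by
  obtain ⟨C, hC, h⟩ := lint_wt
  refine ⟨C, hC, fun w r B S hw hr hB hS F hF1 hF2 z hz => ?_⟩
  have h1 : ∀ p : E2 × ℝ, ‖F p‖ₑ ^ 2 * ENNReal.ofReal (wt N w z.1 z.2 p)
      ≤ ENNReal.ofReal (B ^ 2 + S ^ 2 * (w / r) ^ (N - 4)) * ENNReal.ofReal (wt 4 w z.1 z.2 p) := by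
    intro p
    have hw4 := (wt_pos 4 hw z.1 z.2 p).le
    have hwN := (wt_pos N hw z.1 z.2 p).le
    rw [← ofReal_norm, ← ENNReal.ofReal_pow (norm_nonneg _), ← ENNReal.ofReal_mul (by positivity),
      ← ENNReal.ofReal_mul (by positivity)]
    apply ENNReal.ofReal_le_ofReal
    by_cases hp : ‖p.1‖ ≤ 8 * r ∧ |p.2| ≤ 8 * r
    · have h2 := hF1 p hp.1 hp.2
      have h3 : ‖F p‖ ^ 2 ≤ B ^ 2 := by gcongr
      calc ‖F p‖ ^ 2 * wt N w z.1 z.2 p ≤ B ^ 2 * wt 4 w z.1 z.2 p := by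
            gcongr
            exact wt_le_wt4 hN hw z p
        _ ≤ _ := by
            gcongr
            have : 0 ≤ S ^ 2 * (w / r) ^ (N - 4) := by positivity
            linarith
    · have h2 := hF2 p
      have h3 : ‖F p‖ ^ 2 ≤ S ^ 2 := by gcongr
      calc ‖F p‖ ^ 2 * wt N w z.1 z.2 p ≤ S ^ 2 * ((w / r) ^ (N - 4) * wt 4 w z.1 z.2 p) := by
            gcongr
            exact wt_far hN hw hr hz hp
        _ = (S ^ 2 * (w / r) ^ (N - 4)) * wt 4 w z.1 z.2 p := by ring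
        _ ≤ _ := by
            gcongr
            have : 0 ≤ B ^ 2 := by positivity
            linarith
  unfold AA
  calc ENNReal.ofReal ((w ^ 3)⁻¹) * ∫⁻ p : E2 × ℝ, ‖F p‖ₑ ^ 2 * ENNReal.ofReal (wt N w z.1 z.2 p)
      ≤ ENNReal.ofReal ((w ^ 3)⁻¹) * ∫⁻ p : E2 × ℝ,
        ENNReal.ofReal (B ^ 2 + S ^ 2 * (w / r) ^ (N - 4)) * ENNReal.ofReal (wt 4 w z.1 z.2 p) := by
        exact mul_le_mul_right (lintegral_mono h1) _
    _ = ENNReal.ofReal ((w ^ 3)⁻¹) * (ENNReal.ofReal (B ^ 2 + S ^ 2 * (w / r) ^ (N - 4)) *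
        ∫⁻ p : E2 × ℝ, ENNReal.ofReal (wt 4 w z.1 z.2 p)) := by
        rw [lintegral_const_mul _ (measurable_wt 4 w z.1 z.2).ennreal_ofReal]
    _ ≤ ENNReal.ofReal ((w ^ 3)⁻¹) * (ENNReal.ofReal (B ^ 2 + S ^ 2 * (w / r) ^ (N - 4)) *
        ENNReal.ofReal (C * w ^ 3)) := by
        gcongr
        exact h w hw z
    _ = ENNReal.ofReal (C * (B ^ 2 + S ^ 2 * (w / r) ^ (N - 4))) := by
        rw [← ENNReal.ofReal_mul (by positivity), ← ENNReal.ofReal_mul (by positivity)]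
        congr 1
        field_simp

/-- square of a sum of `n + 1` functions. -/
theorem enorm_sum_sq {κ : Type*} [Fintype κ] (a : κ → ℂ) (b : ℂ) :
    ‖∑ k, a k + b‖ₑ ^ 2 ≤ ((Fintype.card κ : ℝ≥0∞) + 1) * (∑ k, ‖a k‖ₑ ^ 2 + ‖b‖ₑ ^ 2) := by
  have h1 : ‖∑ k, a k + b‖ₑ ≤ ∑ k : Option κ, (Option.elim k ‖b‖ₑ fun k => ‖a k‖ₑ) := by
    rw [Fintype.sum_option]
    refine (enorm_add_le _ _).trans ?_
    rw [add_comm]
    simp only [Option.elim_none, Option.elim_some]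
    gcongr
    exact enorm_sum_le _ _
  have h2 := ENNReal.rpow_sum_le_const_mul_sum_rpow (Finset.univ : Finset (Option κ))
    (fun k => Option.elim k ‖b‖ₑ fun k => ‖a k‖ₑ) (p := 2) (by norm_num)
  have h3 : ‖∑ k, a k + b‖ₑ ^ 2 ≤ (∑ k : Option κ, (Option.elim k ‖b‖ₑ fun k => ‖a k‖ₑ)) ^ (2:ℝ) := by
    rw [← ENNReal.rpow_natCast]
    exact ENNReal.rpow_le_rpow h1 (by norm_num)
  refine h3.trans (h2.trans_eq ?_)
  rw [Finset.card_univ, Fintype.card_option, Fintype.sum_option]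
  norm_num
  rw [add_comm (∑ k, _)]

/-- localisation to balls. -/
theorem lint_cover {R r : ℝ} (Z : Finset (E2 × ℝ)) (hZ : ∀ p ∈ cyl R, ∃ z ∈ Z, p - z ∈ cyl r)
    (f : E2 × ℝ → ℝ≥0∞) :
    ∫⁻ z in cyl R, f z ≤ ∑ z0 ∈ Z, ∫⁻ z in cyl r, f (z + z0) := by
  have h1 : cyl R ⊆ ⋃ z0 : Z, (fun p : E2 × ℝ => p + (-(z0 : E2 × ℝ))) ⁻¹' cyl r := by
    intro p hp
    obtain ⟨z, hz, h⟩ := hZ p hp
    exact Set.mem_iUnion.2 ⟨⟨z, hz⟩, by simpa [sub_eq_add_neg] using h⟩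
  calc ∫⁻ z in cyl R, f z
      ≤ ∫⁻ z in ⋃ z0 : Z, (fun p : E2 × ℝ => p + (-(z0 : E2 × ℝ))) ⁻¹' cyl r, f z :=
        lintegral_mono_set h1
    _ ≤ ∑' z0 : Z, ∫⁻ z in (fun p : E2 × ℝ => p + (-(z0 : E2 × ℝ))) ⁻¹' cyl r, f z :=
        lintegral_iUnion_le _ _
    _ = ∑' z0 : Z, ∫⁻ z in cyl r, f (z + z0) := by
        congr 1
        funext z0
        have h2 := (measurePreserving_add_right (volume : Measure (E2 × ℝ))
          (-(z0 : E2 × ℝ))).setLIntegral_comp_preimage_emb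
          (MeasurableEquiv.addRight (-(z0 : E2 × ℝ))).measurableEmbedding
          (fun p => f (p + z0)) (cyl r)
        rw [← h2]
        simp
    _ = ∑ z0 ∈ Z, ∫⁻ z in cyl r, f (z + z0) := by
        rw [tsum_fintype, Finset.sum_coe_sort Z (fun z0 => ∫⁻ z in cyl r, f (z + z0))]

/-- **T12**, abstract form: cover of `cyl R` by balls `z + cyl r` and a decomposition of the
translate of `F` in every ball. -/
theorem T12_abs {N : ℕ} (hN : 4 ≤ N) : ∃ C : ℝ, 0 ≤ C ∧ ∀ (w r R B S : ℝ), 0 < w → 0 < r →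
    0 ≤ B → 0 ≤ S → ∀ (Z : Finset (E2 × ℝ)), (∀ p ∈ cyl R, ∃ z ∈ Z, p - z ∈ cyl r) →
    ∀ (κ : Type) [Fintype κ] (F : E2 × ℝ → ℂ) (G : E2 × ℝ → κ → E2 × ℝ → ℂ)
      (ρ : E2 × ℝ → E2 × ℝ → ℂ), (∀ z ∈ Z, ∀ k, Measurable (G z k)) →
    (∀ z ∈ Z, Measurable (ρ z)) → (∀ z ∈ Z, ∀ p, F (p + z) = ∑ k, G z k p + ρ z p) →
    (∀ z ∈ Z, ∀ p, ‖p.1‖ ≤ 8 * r → |p.2| ≤ 8 * r → ‖ρ z p‖ ≤ B) →
    (∀ z ∈ Z, ∀ p, ‖ρ z p‖ ≤ S) →
    ∫⁻ z in cyl R, AA N w F z ^ (3 / 2 : ℝ) ≤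
      ((Fintype.card κ : ℝ≥0∞) + 1) ^ 2 *
        (∑ z ∈ Z, ∑ k, ∫⁻ z' in cyl r, AA N w (G z k) z' ^ (3 / 2 : ℝ)) +
      ((Fintype.card κ : ℝ≥0∞) + 1) ^ 2 * ((Z.card : ℝ≥0∞) *
        ENNReal.ofReal (C * r ^ 3 * (B ^ 2 + S ^ 2 * (w / r) ^ (N - 4)) ^ (3 / 2 : ℝ))) := by
  obtain ⟨C1, hC1, hA⟩ := AA_rest hN
  obtain ⟨C2, hC2, hV⟩ := volume_cyl
  refine ⟨C2 * C1 ^ (3 / 2 : ℝ), by positivity, fun w r R B S hw hr hB hS Z hZ κ _ F G ρ hG hρ
    hdec hρ1 hρ2 => ?_⟩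
  set K1 : ℝ≥0∞ := (Fintype.card κ : ℝ≥0∞) + 1 with hK1
  have hK1' : K1 = ((Fintype.card (Option κ) : ℕ) : ℝ≥0∞) := by
    rw [Fintype.card_option]; push_cast; rfl
  -- one ball
  have key : ∀ z0 ∈ Z, ∀ z ∈ cyl r, AA N w F (z + z0) ^ (3 / 2 : ℝ) ≤
      K1 ^ 2 * (∑ k, AA N w (G z0 k) z ^ (3 / 2 : ℝ)) + K1 ^ 2 *
        ENNReal.ofReal ((C1 * (B ^ 2 + S ^ 2 * (w / r) ^ (N - 4))) ^ (3 / 2 : ℝ)) := by
    intro z0 hz0 z hz
    have h1 : AA N w F (z + z0) ≤ K1 * (∑ k, AA N w (G z0 k) z + AA N w (ρ z0) z) := by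
      rw [AA_translate]
      unfold AA
      have h2 : ∫⁻ p : E2 × ℝ, ‖F (p + z0)‖ₑ ^ 2 * ENNReal.ofReal (wt N w z.1 z.2 p) ≤
          K1 * ((∑ k, ∫⁻ p : E2 × ℝ, ‖G z0 k p‖ₑ ^ 2 * ENNReal.ofReal (wt N w z.1 z.2 p))
            + ∫⁻ p : E2 × ℝ, ‖ρ z0 p‖ₑ ^ 2 * ENNReal.ofReal (wt N w z.1 z.2 p)) := by
        have hm : ∀ k, Measurable fun p : E2 × ℝ =>
            ‖G z0 k p‖ₑ ^ 2 * ENNReal.ofReal (wt N w z.1 z.2 p) := fun k =>
          ((hG z0 hz0 k).enorm.pow_const 2).mul (measurable_wt N w z.1 z.2).ennreal_ofReal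
        have hm2 : Measurable fun p : E2 × ℝ =>
            ‖ρ z0 p‖ₑ ^ 2 * ENNReal.ofReal (wt N w z.1 z.2 p) :=
          ((hρ z0 hz0).enorm.pow_const 2).mul (measurable_wt N w z.1 z.2).ennreal_ofReal
        have hm3 : Measurable fun p : E2 × ℝ =>
            (∑ k, ‖G z0 k p‖ₑ ^ 2 * ENNReal.ofReal (wt N w z.1 z.2 p)) +
            ‖ρ z0 p‖ₑ ^ 2 * ENNReal.ofReal (wt N w z.1 z.2 p) :=
          (Finset.measurable_fun_sum _ fun k _ => hm k).add hm2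
        rw [← lintegral_finsetSum _ fun k _ => hm k, ← lintegral_add_right _ hm2,
          ← lintegral_const_mul _ hm3]
        refine lintegral_mono fun p => ?_
        rw [hdec z0 hz0 p]
        calc ‖∑ k, G z0 k p + ρ z0 p‖ₑ ^ 2 * ENNReal.ofReal (wt N w z.1 z.2 p)
            ≤ (K1 * (∑ k, ‖G z0 k p‖ₑ ^ 2 + ‖ρ z0 p‖ₑ ^ 2)) *
              ENNReal.ofReal (wt N w z.1 z.2 p) := by
              gcongr
              exact enorm_sum_sq _ _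
          _ = _ := by
              rw [mul_assoc K1, add_mul (∑ k, ‖G z0 k p‖ₑ ^ 2), Finset.sum_mul]
      calc _ ≤ ENNReal.ofReal ((w ^ 3)⁻¹) * (K1 *
            ((∑ k, ∫⁻ p : E2 × ℝ, ‖G z0 k p‖ₑ ^ 2 * ENNReal.ofReal (wt N w z.1 z.2 p))
            + ∫⁻ p : E2 × ℝ, ‖ρ z0 p‖ₑ ^ 2 * ENNReal.ofReal (wt N w z.1 z.2 p))) := by gcongr
        _ = _ := by
            rw [← Finset.mul_sum]; ring
    have h3 : AA N w F (z + z0) ≤ K1 * ∑ o : Option κ,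
        (Option.elim o (AA N w (ρ z0) z) fun k => AA N w (G z0 k) z) := by
      rw [Fintype.sum_option, add_comm (Option.elim none _ _)]
      exact h1
    calc AA N w F (z + z0) ^ (3 / 2 : ℝ)
        ≤ (K1 * ∑ o : Option κ,
          (Option.elim o (AA N w (ρ z0) z) fun k => AA N w (G z0 k) z)) ^ (3 / 2 : ℝ) :=
          ENNReal.rpow_le_rpow h3 (by norm_num)
      _ = K1 ^ (3 / 2 : ℝ) * (∑ o : Option κ,
          (Option.elim o (AA N w (ρ z0) z) fun k => AA N w (G z0 k) z)) ^ (3 / 2 : ℝ) :=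
          ENNReal.mul_rpow_of_nonneg _ _ (by norm_num)
      _ ≤ K1 ^ (3 / 2 : ℝ) * (K1 ^ (3 / 2 - 1 : ℝ) * ∑ o : Option κ,
          (Option.elim o (AA N w (ρ z0) z) fun k => AA N w (G z0 k) z) ^ (3 / 2 : ℝ)) := by
          gcongr
          have := ENNReal.rpow_sum_le_const_mul_sum_rpow (Finset.univ : Finset (Option κ))
            (fun o => Option.elim o (AA N w (ρ z0) z) fun k => AA N w (G z0 k) z)
            (p := 3 / 2) (by norm_num)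
          rwa [Finset.card_univ, ← hK1'] at this
      _ = K1 ^ 2 * ∑ o : Option κ,
          (Option.elim o (AA N w (ρ z0) z) fun k => AA N w (G z0 k) z) ^ (3 / 2 : ℝ) := by
          rw [← mul_assoc, ← ENNReal.rpow_add_of_nonneg _ _ (by norm_num) (by norm_num)]
          congr 1
          rw [show (3 / 2 + (3 / 2 - 1) : ℝ) = ((2:ℕ) : ℝ) by norm_num, ENNReal.rpow_natCast]
      _ = K1 ^ 2 * (∑ k, AA N w (G z0 k) z ^ (3 / 2 : ℝ)) +
          K1 ^ 2 * AA N w (ρ z0) z ^ (3 / 2 : ℝ) := by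
          rw [Fintype.sum_option]
          simp only [Option.elim_none, Option.elim_some]
          rw [add_comm, mul_add]
      _ ≤ _ := by
          gcongr
          rw [← ENNReal.ofReal_rpow_of_nonneg (by positivity) (by norm_num)]
          exact ENNReal.rpow_le_rpow (hA w r B S hw hr hB hS (ρ z0) (hρ1 z0 hz0) (hρ2 z0 hz0) z hz)
            (by norm_num)
  calc ∫⁻ z in cyl R, AA N w F z ^ (3 / 2 : ℝ)
      ≤ ∑ z0 ∈ Z, ∫⁻ z in cyl r, AA N w F (z + z0) ^ (3 / 2 : ℝ) := lint_cover Z hZ _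
    _ ≤ ∑ z0 ∈ Z, (K1 ^ 2 * (∑ k, ∫⁻ z in cyl r, AA N w (G z0 k) z ^ (3 / 2 : ℝ)) +
        K1 ^ 2 * ENNReal.ofReal (C2 * C1 ^ (3 / 2 : ℝ) * r ^ 3 *
          (B ^ 2 + S ^ 2 * (w / r) ^ (N - 4)) ^ (3 / 2 : ℝ))) := by
        refine Finset.sum_le_sum fun z0 hz0 => ?_
        have hm : ∀ k, Measurable fun z => AA N w (G z0 k) z ^ (3 / 2 : ℝ) := fun k =>
          (measurable_AA N w (hG z0 hz0 k)).pow_const _
        calc ∫⁻ z in cyl r, AA N w F (z + z0) ^ (3 / 2 : ℝ)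
            ≤ ∫⁻ z in cyl r, (K1 ^ 2 * (∑ k, AA N w (G z0 k) z ^ (3 / 2 : ℝ)) + K1 ^ 2 *
              ENNReal.ofReal ((C1 * (B ^ 2 + S ^ 2 * (w / r) ^ (N - 4))) ^ (3 / 2 : ℝ))) :=
              setLIntegral_mono' (measurableSet_cyl r) fun z hz => key z0 hz0 z hz
          _ = K1 ^ 2 * (∑ k, ∫⁻ z in cyl r, AA N w (G z0 k) z ^ (3 / 2 : ℝ)) +
              K1 ^ 2 * ENNReal.ofReal ((C1 * (B ^ 2 + S ^ 2 * (w / r) ^ (N - 4))) ^ (3 / 2 : ℝ)) *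
                volume (cyl r) := by
              rw [lintegral_add_left ((Finset.measurable_fun_sum _ fun k _ => hm k).const_mul _),
                lintegral_const_mul _ (Finset.measurable_fun_sum _ fun k _ => hm k),
                lintegral_finsetSum _ fun k _ => hm k, setLIntegral_const]
          _ ≤ _ := by
              rw [mul_assoc (K1 ^ 2)]
              gcongr
              calc ENNReal.ofReal ((C1 * (B ^ 2 + S ^ 2 * (w / r) ^ (N - 4))) ^ (3 / 2 : ℝ)) *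
                    volume (cyl r)
                  ≤ ENNReal.ofReal ((C1 * (B ^ 2 + S ^ 2 * (w / r) ^ (N - 4))) ^ (3 / 2 : ℝ)) *
                    ENNReal.ofReal (C2 * r ^ 3) := by
                    gcongr
                    exact hV r hr.le
                _ = _ := by
                    rw [← ENNReal.ofReal_mul (by positivity)]
                    congr 1
                    rw [Real.mul_rpow hC1 (by positivity)]
                    ring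
    _ = _ := by
        rw [Finset.sum_add_distrib, ← Finset.mul_sum, Finset.sum_const, nsmul_eq_mul]
        ring

end Crest.Agent.R138.T774
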