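import Crest.Agent.R138.RR4_323
import Crest.Agent.R138.DecDef_774
import Crest.Agent.R138.T12_774

/-!
# R138 wave side: re-rooting (helper323), part 5: **A3** from **DEC**

The section `nets` is copied from `A1_774` (helper774).
-/

set_option autoImplicit false

open MeasureTheory FourierTransform
open scoped ContDiff ENNReal

namespace Crest.Agent.R138.W323

open Crest.Agent.R138.Defs Crest.Agent.R138.Bil882 Crest.Agent.R138.W188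
open Crest.Agent.R138.Wpk685
open Crest.Agent.R138.T774 (haar3 cyl_eq finrank3)

attribute [local instance] haar3

/-! ### nets -/

/-- the relation in `Plates.sep`. -/
def Sep (r : ℝ) (z z' : E2 × ℝ) : Prop := z = z' ∨ r ≤ ‖z.1 - z'.1‖ ∨ r ≤ |z.2 - z'.2|

theorem Sep.symm {r : ℝ} {z z' : E2 × ℝ} (h : Sep r z z') : Sep r z' z := by
  rcases h with h | h | h
  · exact Or.inl h.symm
  · exact Or.inr (Or.inl (by rwa [norm_sub_rev]))
  · exact Or.inr (Or.inr (by rwa [abs_sub_comm]))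

theorem card_net {R r : ℝ} (hr : 0 < r) (hrR : r ≤ R) (Z : Finset (E2 × ℝ))
    (hZ : ∀ z ∈ Z, z ∈ cyl R) (hs : ∀ z ∈ Z, ∀ z' ∈ Z, Sep r z z') :
    (Z.card : ℝ) ≤ 216 * (R / r) ^ 3 := by
  have hR : 0 < R := hr.trans_le hrR
  set v : ℝ≥0∞ := volume (Metric.ball (0 : E2 × ℝ) 1) with hv
  have hvfin : v < ⊤ := measure_ball_lt_top
  have hvpos : 0 < v := Metric.measure_ball_pos _ _ one_pos
  have hdisj : (Z : Set (E2 × ℝ)).PairwiseDisjoint fun z => Metric.ball z (r / 2) := by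
    intro z hz z' hz' hne
    refine Metric.ball_disjoint_ball ?_
    have h1 : r ≤ dist z z' := by
      rcases hs z hz z' hz' with h | h | h
      · exact absurd h hne
      · rw [Prod.dist_eq, dist_eq_norm]; exact h.trans (le_max_left _ _)
      · rw [Prod.dist_eq, Real.dist_eq]; exact h.trans (le_max_right _ _)
    linarith
  have hsub : (⋃ z ∈ Z, Metric.ball z (r / 2)) ⊆ Metric.ball (0 : E2 × ℝ) (3 * R) := by
    intro p hp
    simp only [Set.mem_iUnion] at hp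
    obtain ⟨z, hz, hp⟩ := hp
    have h1 := hZ z hz
    rw [cyl_eq, Metric.mem_closedBall] at h1
    rw [Metric.mem_ball] at hp ⊢
    calc dist p 0 ≤ dist p z + dist z 0 := dist_triangle _ _ _
      _ < r / 2 + R := by linarith
      _ ≤ 3 * R := by linarith
  have h2 : (Z.card : ℝ≥0∞) * (ENNReal.ofReal ((r / 2) ^ 3) * v) ≤ ENNReal.ofReal ((3 * R) ^ 3) * v := by
    have h3 := measure_mono (μ := (volume : Measure (E2 × ℝ))) hsub
    rw [measure_biUnion_finset hdisj fun z _ => measurableSet_ball] at h3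
    have h4 : ∀ z ∈ Z, volume (Metric.ball z (r / 2)) = ENNReal.ofReal ((r / 2) ^ 3) * v := by
      intro z _
      rw [Measure.addHaar_ball _ _ (by positivity), finrank3]
    rw [Finset.sum_congr rfl h4, Finset.sum_const, nsmul_eq_mul,
      Measure.addHaar_ball _ _ (by positivity), finrank3] at h3
    exact h3
  rw [← mul_assoc, ENNReal.mul_le_mul_iff_left hvpos.ne' hvfin.ne, ← ENNReal.ofReal_natCast,
    ← ENNReal.ofReal_mul (by positivity), ENNReal.ofReal_le_ofReal_iff (by positivity)] at h2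
  have h5 : (Z.card : ℝ) ≤ (3 * R) ^ 3 / (r / 2) ^ 3 := by
    rw [le_div_iff₀ (by positivity)]; exact h2
  refine h5.trans_eq ?_
  field_simp
  norm_num

/-- a maximal `r`-separated net of the cylinder. -/
theorem exists_net {R r : ℝ} (hr : 0 < r) (hrR : r ≤ R) : ∃ Z : Finset (E2 × ℝ),
    (∀ z ∈ Z, z ∈ cyl R) ∧ (∀ z ∈ Z, ∀ z' ∈ Z, Sep r z z') ∧
    (∀ p ∈ cyl R, ∃ z ∈ Z, p - z ∈ cyl r) ∧ (Z.card : ℝ) ≤ 216 * (R / r) ^ 3 := by
  classical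
  let Q : ℕ → Prop := fun n => ∃ Z : Finset (E2 × ℝ), Z.card = n ∧ (∀ z ∈ Z, z ∈ cyl R) ∧
    (∀ z ∈ Z, ∀ z' ∈ Z, Sep r z z')
  have hQ0 : Q 0 := ⟨∅, rfl, by simp, by simp⟩
  set n0 : ℕ := ⌊216 * (R / r) ^ 3⌋₊ with hn0
  have hb : ∀ n, Q n → n ≤ n0 := by
    rintro n ⟨Z, rfl, h1, h2⟩
    exact Nat.le_floor (card_net hr hrR Z h1 h2)
  obtain ⟨Z, hc, h1, h2⟩ := Nat.findGreatest_spec (P := Q) (Nat.zero_le n0) hQ0
  refine ⟨Z, h1, h2, fun p hp => ?_, card_net hr hrR Z h1 h2⟩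
  by_contra hcon
  push Not at hcon
  have hpZ : p ∉ Z := by
    intro hpZ
    refine hcon p hpZ ?_
    rw [sub_self, cyl_eq]
    exact Metric.mem_closedBall_self hr.le
  have h3 : ∀ z ∈ Z, Sep r p z := by
    intro z hz
    have h4 := hcon z hz
    have h5 : ¬ (‖(p - z).1‖ ≤ r ∧ |(p - z).2| ≤ r) := h4
    rw [not_and_or, not_le, not_le] at h5
    rcases h5 with h5 | h5
    · exact Or.inr (Or.inl h5.le)
    · exact Or.inr (Or.inr h5.le)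
  have hQ : Q (Z.card + 1) := by
    refine ⟨insert p Z, Finset.card_insert_of_notMem hpZ, ?_, ?_⟩
    · intro z hz
      rcases Finset.mem_insert.1 hz with rfl | hz
      · exact hp
      · exact h1 z hz
    · intro z hz z' hz'
      rcases Finset.mem_insert.1 hz with hz1 | hz1 <;>
        rcases Finset.mem_insert.1 hz' with hz2 | hz2
      · exact Or.inl (hz1.trans hz2.symm)
      · rw [hz1]; exact h3 z' hz2
      · rw [hz2]; exact (h3 z hz1).symm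
      · exact h2 z hz1 z' hz2
  have h6 := Nat.le_findGreatest (P := Q) (hb _ hQ) hQ
  omega


/-! ### A3 -/

/-- **A3** with children in the class `St B q Na0 4 1` (`Na0` absolute) and `K0 * r2 ≤ r1`. -/
def A3n (B : ℕ → ℝ) (q : ℝ) (F : ℝ → ℝ → ℝ → (E2 → ℝ) → (E2 → ℂ) → ℝ → ℝ≥0∞) (Na0 : ℕ)
    (K0 : ℝ) : Prop :=
  ∀ ε : ℝ, 0 < ε → ∀ (Na : ℕ) (M0 : ℝ), ∃ C : ℝ, 0 ≤ C ∧
  ∀ h g R D, St B q Na M0 (1/2) h g R D → ∀ r1 r2 s1 s2, R ^ (1/2 : ℝ) ≤ r2 → K0 * r2 ≤ r1 →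
    r1 ≤ R → Sd r2 s1 s2 → ∀ Q : ℝ, 1 ≤ Q →
      (∀ g' D', St B q Na0 4 1 h g' r1 D' →
        ENNReal.ofReal (s2 ^ (-q / 2)) * F r2 s1 s2 h g' r1 ≤ ENNReal.ofReal (Q * SS g' r1 D')) →
      ∃ s1' s2', Sd r1 s1' s2' ∧ ENNReal.ofReal (s2 ^ (-q / 2)) * F r2 s1 s2 h g R ≤
        ENNReal.ofReal (C * R ^ ε * Q) * (ENNReal.ofReal (s2' ^ (-q / 2)) * F r1 s1' s2' h g R) +
          ENNReal.ofReal (C * SS g R D)

/-- bound of the rest. -/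
theorem rest_W {C1 C2 R r1 r2 ρ A e e' β ε' : ℝ} {k0 : ℕ} (hC1 : 0 ≤ C1) (hC2 : 0 ≤ C2)
    (hR : 1 ≤ R) (hA : 1 ≤ A) (hr2 : R ^ (1/2 : ℝ) ≤ r2) (h21 : A * r2 ≤ r1) (h1R : r1 ≤ R)
    (hρ : ρ = r2 ^ (-(1/2) : ℝ)) (he : 0 ≤ e) (hε1 : ε' ≤ 1)
    (hβ : β = C2 * R ^ (-((k0 + 1 : ℕ) : ℝ)) * Real.sqrt e) (he' : e' ≤ C2 * R ^ ε' * e) :
    C1 * (4 * (3 * A * r2 + r1) ^ 2 * β ^ 2 + ((1 + ρ * r1) ^ (4 * (k0 + 1)))⁻¹ * e') ≤
      C1 * (64 * C2 ^ 2 + C2) * (R ^ (-(k0 : ℝ)) * e) := by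
  have hR0 : 0 < R := by linarith
  have hr2' : 1 ≤ r2 := (Real.one_le_rpow hR (by norm_num)).trans hr2
  have h21' : r2 ≤ r1 := by nlinarith
  have hr1 : 0 < r1 := by linarith
  have e1 : 4 * (3 * A * r2 + r1) ^ 2 * β ^ 2 ≤ 64 * C2 ^ 2 * (R ^ (-(k0 : ℝ)) * e) := by
    have h1 : 3 * A * r2 + r1 ≤ 4 * R := by nlinarith
    have h2 : β ^ 2 = C2 ^ 2 * (R ^ (-((2 * (k0 + 1) : ℕ) : ℝ)) * e) := by
      rw [hβ, mul_pow, mul_pow, Real.sq_sqrt he, ← Real.rpow_natCast (R ^ _) 2,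
        ← Real.rpow_mul hR0.le, mul_assoc]
      congr 3
      push_cast; ring
    rw [h2]
    calc 4 * (3 * A * r2 + r1) ^ 2 * (C2 ^ 2 * (R ^ (-((2 * (k0 + 1) : ℕ) : ℝ)) * e))
        ≤ 4 * (4 * R) ^ 2 * (C2 ^ 2 * (R ^ (-((2 * (k0 + 1) : ℕ) : ℝ)) * e)) := by
          gcongr
      _ = 64 * C2 ^ 2 * ((R ^ (2 : ℝ) * R ^ (-((2 * (k0 + 1) : ℕ) : ℝ))) * e) := by
          rw [Real.rpow_two]; ring
      _ ≤ 64 * C2 ^ 2 * (R ^ (-(k0 : ℝ)) * e) := by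
          rw [← Real.rpow_add hR0]
          gcongr
          push_cast
          have : (0:ℝ) ≤ k0 := Nat.cast_nonneg _
          linarith
  have e2 : ((1 + ρ * r1) ^ (4 * (k0 + 1)))⁻¹ * e' ≤ C2 * (R ^ (-(k0 : ℝ)) * e) := by
    have h1 : R ^ (1/4 : ℝ) ≤ 1 + ρ * r1 := by
      have h2 : R ^ (1/4 : ℝ) ≤ r2 ^ (1/2 : ℝ) := by
        have : R ^ (1/4 : ℝ) = (R ^ (1/2 : ℝ)) ^ (1/2 : ℝ) := by
          rw [← Real.rpow_mul hR0.le]; norm_num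
        rw [this]
        gcongr
      have h3 : r2 ^ (1/2 : ℝ) = ρ * r2 := by
        rw [hρ]
        nth_rw 3 [← Real.rpow_one r2]
        rw [← Real.rpow_add (by linarith)]
        norm_num
      have hρ0 : 0 ≤ ρ := by rw [hρ]; positivity
      have h4 : ρ * r2 ≤ ρ * r1 := by gcongr
      linarith
    have h5 : ((1 + ρ * r1) ^ (4 * (k0 + 1)))⁻¹ ≤ R ^ (-((k0 + 1 : ℕ) : ℝ)) := by
      calc ((1 + ρ * r1) ^ (4 * (k0 + 1)))⁻¹ ≤ ((R ^ (1/4 : ℝ)) ^ (4 * (k0 + 1)))⁻¹ := by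
            gcongr
        _ = R ^ (-((k0 + 1 : ℕ) : ℝ)) := by
            rw [← Real.rpow_natCast, ← Real.rpow_mul hR0.le, ← Real.rpow_neg hR0.le]
            congr 1
            push_cast; ring
    calc ((1 + ρ * r1) ^ (4 * (k0 + 1)))⁻¹ * e'
        ≤ ((1 + ρ * r1) ^ (4 * (k0 + 1)))⁻¹ * (C2 * R ^ ε' * e) := by
          gcongr
          have : (0:ℝ) ≤ 1 + ρ * r1 := (by positivity : (0:ℝ) ≤ R ^ (1/4 : ℝ)).trans h1
          positivity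
      _ ≤ R ^ (-((k0 + 1 : ℕ) : ℝ)) * (C2 * R ^ ε' * e) := by gcongr
      _ = C2 * ((R ^ (-((k0 + 1 : ℕ) : ℝ)) * R ^ ε') * e) := by ring
      _ ≤ C2 * (R ^ (-(k0 : ℝ)) * e) := by
          rw [← Real.rpow_add hR0]
          gcongr
          push_cast
          linarith
  calc C1 * (4 * (3 * A * r2 + r1) ^ 2 * β ^ 2 + ((1 + ρ * r1) ^ (4 * (k0 + 1)))⁻¹ * e')
      ≤ C1 * (64 * C2 ^ 2 * (R ^ (-(k0 : ℝ)) * e) + C2 * (R ^ (-(k0 : ℝ)) * e)) := by gcongr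
    _ = _ := by ring

/-- the total contribution of the rest. -/
theorem rest_total {C2 C3 R D r2 s1 s2 q M0 e n ε' : ℝ} {F k0 : ℕ} (hC2 : 0 ≤ C2) (hC3 : 0 ≤ C3)
    (hR : 1 ≤ R) (hr2 : R ^ (1/2 : ℝ) ≤ r2) (h2R : r2 ≤ R) (hSd : Sd r2 s1 s2) (he : 0 ≤ e)
    (hε1 : ε' ≤ 1) (hn0 : 0 ≤ n) (hn : n ≤ C2 * R ^ ε') (hF : (F : ℝ) ≤ 216 * (R / r2) ^ 3)
    (hnd : e ≤ R ^ M0 * D) (hk0 : 10 + |q| + |M0| ≤ k0) :
    ENNReal.ofReal (s2 ^ (-q / 2)) * (ENNReal.ofReal (2 * (n + 1) ^ 2) *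
      (ENNReal.ofReal ((s1 * s2 * r2 ^ 3) ^ (-(1/2) : ℝ)) *
        (ENNReal.ofReal r2 * ((F : ℝ≥0∞) * ENNReal.ofReal (C3 * (R ^ (-(k0 : ℝ)) * e)))) ^
          (3 / 2 : ℝ))) ≤
      ENNReal.ofReal (2 * (C2 + 1) ^ 2 * (216 * C3) ^ (3/2 : ℝ) * (R * e * Real.sqrt D)) := by
  have hR0 : 0 < R := by linarith
  have hr2' : 1 ≤ r2 := (Real.one_le_rpow hR (by norm_num)).trans hr2
  have hr20 : 0 < r2 := by linarith
  have hs1 : 0 < s1 := (by positivity : (0:ℝ) < r2 ^ (-(1/2) : ℝ)).trans_le hSd.lo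
  have hs2 : 0 < s2 := hs1.trans_le hSd.le
  have hk : (0:ℝ) ≤ k0 := Nat.cast_nonneg _
  -- everything is real
  rw [← ENNReal.ofReal_natCast, ← ENNReal.ofReal_mul (Nat.cast_nonneg _),
    ← ENNReal.ofReal_mul hr20.le, ENNReal.ofReal_rpow_of_nonneg (by positivity) (by norm_num),
    ← ENNReal.ofReal_mul (by positivity), ← ENNReal.ofReal_mul (by positivity),
    ← ENNReal.ofReal_mul (by positivity)]
  refine ENNReal.ofReal_le_ofReal ?_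
  have a1 : s2 ^ (-q / 2) ≤ R ^ (|q| / 4) := by
    rcases le_or_gt 0 q with hq | hq
    · have h1 : r2 ^ (-(1/2) : ℝ) ≤ s2 := hSd.lo.trans hSd.le
      calc s2 ^ (-q / 2) ≤ (r2 ^ (-(1/2) : ℝ)) ^ (-q / 2) :=
            Real.rpow_le_rpow_of_nonpos (by positivity) h1 (by linarith)
        _ = r2 ^ (|q| / 4) := by
            rw [← Real.rpow_mul hr20.le, abs_of_nonneg hq]; congr 1; ring
        _ ≤ R ^ (|q| / 4) := by gcongr
    · calc s2 ^ (-q / 2) ≤ 1 := Real.rpow_le_one hs2.le hSd.hi (by linarith)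
        _ ≤ R ^ (|q| / 4) := Real.one_le_rpow hR (by positivity)
  have a2 : 2 * (n + 1) ^ 2 ≤ 2 * ((C2 + 1) ^ 2 * R ^ (2:ℝ)) := by
    have h1 : n + 1 ≤ (C2 + 1) * R := by
      have : R ^ ε' ≤ R := by
        calc R ^ ε' ≤ R ^ (1:ℝ) := Real.rpow_le_rpow_of_exponent_le hR hε1
          _ = R := Real.rpow_one R
      nlinarith
    rw [Real.rpow_two, ← mul_pow]
    gcongr
  have a3 : (s1 * s2 * r2 ^ 3) ^ (-(1/2) : ℝ) ≤ 1 := by
    refine Real.rpow_le_one_of_one_le_of_nonpos ?_ (by norm_num)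
    have h1 : r2 ^ (-(1/2) : ℝ) * r2 ^ (-(1/2) : ℝ) ≤ s1 * s2 := by
      have := hSd.lo
      have := hSd.le
      gcongr
      linarith
    have h2 : r2 ^ (-(1/2) : ℝ) * r2 ^ (-(1/2) : ℝ) = r2⁻¹ := by
      rw [← Real.rpow_add hr20, ← Real.rpow_neg_one]; norm_num
    rw [h2] at h1
    calc (1:ℝ) ≤ r2 ^ 2 := by nlinarith
      _ = r2⁻¹ * r2 ^ 3 := by field_simp
      _ ≤ s1 * s2 * r2 ^ 3 := by gcongr
  have a4 : (r2 * (F * (C3 * (R ^ (-(k0 : ℝ)) * e)))) ^ (3/2 : ℝ) ≤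
      (216 * C3) ^ (3/2 : ℝ) * (R ^ ((4 - (k0:ℝ)) * (3/2)) * (e * (R ^ (M0 / 2) * Real.sqrt D))) := by
    have h1 : r2 * (F * (C3 * (R ^ (-(k0 : ℝ)) * e))) ≤
        216 * C3 * (R ^ (4 - (k0:ℝ)) * e) := by
      have h2 : r2 * F ≤ 216 * R ^ (4:ℝ) := by
        have h3 : (F : ℝ) ≤ 216 * R ^ 3 := by
          refine hF.trans ?_
          gcongr
          exact div_le_self hR0.le hr2'
        calc r2 * F ≤ R * (216 * R ^ 3) := by gcongr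
          _ = 216 * R ^ (4:ℝ) := by
              rw [show (4:ℝ) = ((4:ℕ):ℝ) by norm_num, Real.rpow_natCast]; ring
      calc r2 * (F * (C3 * (R ^ (-(k0 : ℝ)) * e)))
          = (r2 * F) * (C3 * (R ^ (-(k0 : ℝ)) * e)) := by ring
        _ ≤ (216 * R ^ (4:ℝ)) * (C3 * (R ^ (-(k0 : ℝ)) * e)) := by gcongr
        _ = 216 * C3 * ((R ^ (4:ℝ) * R ^ (-(k0 : ℝ))) * e) := by ring
        _ = _ := by rw [← Real.rpow_add hR0]; ring_nf
    have h4 : e ^ (3/2 : ℝ) ≤ e * (R ^ (M0 / 2) * Real.sqrt D) := by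
      have h5 : e ^ (3 / 2 : ℝ) = e * Real.sqrt e := by
        rw [show (3 / 2 : ℝ) = 1 + 1 / 2 by norm_num, Real.rpow_add_of_nonneg he (by norm_num)
          (by norm_num), Real.rpow_one, Real.sqrt_eq_rpow]
      rw [h5]
      gcongr
      refine (Real.sqrt_le_sqrt hnd).trans ?_
      rw [Real.sqrt_mul (by positivity)]
      gcongr
      rw [Real.sqrt_eq_rpow, ← Real.rpow_mul hR0.le]
      apply le_of_eq; congr 1; ring
    calc (r2 * (F * (C3 * (R ^ (-(k0 : ℝ)) * e)))) ^ (3/2 : ℝ)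
        ≤ (216 * C3 * (R ^ (4 - (k0:ℝ)) * e)) ^ (3/2 : ℝ) := by gcongr
      _ = (216 * C3) ^ (3/2 : ℝ) * (R ^ ((4 - (k0:ℝ)) * (3/2)) * e ^ (3/2 : ℝ)) := by
          rw [Real.mul_rpow (by positivity) (by positivity), Real.mul_rpow (by positivity) he,
            ← Real.rpow_mul hR0.le]
      _ ≤ _ := by gcongr
  calc s2 ^ (-q / 2) * (2 * (n + 1) ^ 2 * ((s1 * s2 * r2 ^ 3) ^ (-(1/2) : ℝ) *
        (r2 * (F * (C3 * (R ^ (-(k0 : ℝ)) * e)))) ^ (3/2 : ℝ)))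
      ≤ R ^ (|q| / 4) * (2 * ((C2 + 1) ^ 2 * R ^ (2:ℝ)) * (1 * ((216 * C3) ^ (3/2 : ℝ) *
          (R ^ ((4 - (k0:ℝ)) * (3/2)) * (e * (R ^ (M0 / 2) * Real.sqrt D)))))) := by
        gcongr
    _ = 2 * (C2 + 1) ^ 2 * (216 * C3) ^ (3/2 : ℝ) *
          ((R ^ (|q| / 4) * R ^ (2:ℝ) * R ^ ((4 - (k0:ℝ)) * (3/2)) * R ^ (M0 / 2)) *
            (e * Real.sqrt D)) := by ring
    _ ≤ 2 * (C2 + 1) ^ 2 * (216 * C3) ^ (3/2 : ℝ) * (R ^ (1:ℝ) * (e * Real.sqrt D)) := by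
        rw [← Real.rpow_add hR0, ← Real.rpow_add hR0, ← Real.rpow_add hR0]
        gcongr
        have h1 := le_abs_self M0
        have h2 := abs_nonneg M0
        have h3 := abs_nonneg q
        linarith
    _ = _ := by rw [Real.rpow_one]; ring

end Crest.Agent.R138.W323
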