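import Crest.Agent.R138.Mw3_330
import Crest.Agent.R138.PDef_654
import Crest.Agent.R138.RR5_323

/-!
# R138 / R139: MIS / ALIGN, wave half, part 4 (helper330): near and far cells of the child plates
-/

set_option autoImplicit false
set_option linter.unusedSectionVars false
set_option linter.unusedVariables false

open MeasureTheory FourierTransform
open scoped ContDiff ENNReal

namespace Crest.Agent.R138.Mis330

open Crest.Agent.R138.Defs Crest.Agent.R138.Wpk685 Crest.Agent.R138.Loc878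
open Crest.Agent.R138.W188 (tr Plate uS Plates)
open Crest.Agent.R138.Ad480
open Crest.Agent.R138.Mis535 (PB)
open Crest.Agent.R138.P654 (an Smis selQ)

/-- sum of the weights of a disjoint family far from `v`. -/
theorem wE_sum_far {κ : Type*} (J : Finset κ) {ρ ρ' X : ℝ} (hρ : 0 < ρ) (hρ' : 0 < ρ')
    (hX : 0 < X) (k : ℕ)
    (S' : κ → ℤ × ℤ → Set E2) (hm : ∀ i ∈ J, ∀ m ∈ caps ρ', MeasurableSet (S' i m))
    (hd : ∀ i ∈ J, ∀ j ∈ J, i ≠ j → ∀ m, Disjoint (S' i m) (S' j m)) (m : ℤ × ℤ) (v : E2)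
    (h : ∀ i ∈ J, ∀ m' ∈ nearS ρ ρ' m, ∀ x ∈ S' i m', X ≤ ρ * ‖v - x‖) :
    ∑ i ∈ J, wE (k + 4) ρ ρ' (S' i) m v ≤ ENNReal.ofReal (36 * cdec * (X ^ k)⁻¹) := by
  have hc := cdec_nonneg
  unfold wE
  rw [Finset.sum_comm]
  calc ∑ m' ∈ nearS ρ ρ' m, ∑ i ∈ J, ENNReal.ofReal (ρ ^ 2) *
        ∫⁻ x in S' i m', ENNReal.ofReal (wa ρ (k + 4) (v - x))
      ≤ ∑ m' ∈ nearS ρ ρ' m, ENNReal.ofReal (cdec * (X ^ k)⁻¹) := by
        refine Finset.sum_le_sum fun m' hm' => ?_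
        have hmm : ∀ i ∈ J, MeasurableSet (S' i m') := fun i hi => hm i hi m' (mem_nearS.1 hm').1
        rw [← Finset.mul_sum, ← lintegral_biUnion_finset]
        · refine int_far hρ hX k v _ (Finset.measurableSet_biUnion _ hmm) ?_
          intro x hx
          simp only [Set.mem_iUnion, exists_prop] at hx
          obtain ⟨i, hi, hxi⟩ := hx
          exact h i hi m' hm' x hxi
        · intro i hi j hj hij
          exact hd i hi j hj hij m'
        · exact hmm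
    _ = (nearS ρ ρ' m).card * ENNReal.ofReal (cdec * (X ^ k)⁻¹) := by
        rw [Finset.sum_const, nsmul_eq_mul]
    _ ≤ _ := by
        have e : ENNReal.ofReal (36 * cdec * (X ^ k)⁻¹) = 36 * ENNReal.ofReal (cdec * (X ^ k)⁻¹) := by
          rw [mul_assoc, ENNReal.ofReal_mul (by norm_num : (0:ℝ) ≤ 36), ENNReal.ofReal_ofNat]
        rw [e]
        refine mul_le_mul' ?_ le_rfl
        exact_mod_cast card_nearS hρ' m

open Classical in
theorem sum_frames (I : Finset ℕ) (z : ℕ → E2 × ℝ) (f : ℕ → ℝ≥0∞) (c : ℝ≥0∞)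
    (h : ∀ ζ ∈ I.image z, ∑ i ∈ I with z i = ζ, f i ≤ c) :
    ∑ i ∈ I, f i ≤ (I.image z).card * c := by
  rw [← Finset.sum_fiberwise_of_maps_to (t := I.image z) (g := z)
    (fun i hi => Finset.mem_image_of_mem z hi)]
  refine (Finset.sum_le_sum h).trans (le_of_eq ?_)
  rw [Finset.sum_const, nsmul_eq_mul]

section

variable {A : ℝ} {h : E2 → ℝ} {r1 dl s1 s2 : ℝ} {I : Finset ℕ} {P : ℕ → Plate}

theorem card_frames (hr1 : 0 < r1) (hdl : 0 < dl) (hdl1 : dl ≤ 1)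
    (hP : Plates A h (dl * r1) s1 s2 r1 I P) :
    (((I.image fun i => (P i).z).card : ℕ) : ℝ≥0∞) ≤ ENNReal.ofReal (216 * (dl⁻¹) ^ 3) := by
  classical
  have h1 := Crest.Agent.R138.W323.card_net (R := r1) (r := dl * r1) (by positivity)
    (by nlinarith) (I.image fun i => (P i).z) ?_ ?_
  · have e : r1 / (dl * r1) = dl⁻¹ := by field_simp
    rw [e] at h1
    rw [← ENNReal.ofReal_natCast]
    exact ENNReal.ofReal_le_ofReal h1
  · intro z hz
    obtain ⟨i, hi, rfl⟩ := Finset.mem_image.1 hz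
    exact hP.mem i hi
  · intro z hz z' hz'
    obtain ⟨i, hi, rfl⟩ := Finset.mem_image.1 hz
    obtain ⟨j, hj, rfl⟩ := Finset.mem_image.1 hz'
    exact hP.sep i hi j hj

/-- the point seen from the cell `x` in the frame `z`. -/
noncomputable def vv (h : E2 → ℝ) (ρ l : ℝ) (z : E2 × ℝ) (x : Cel) : E2 :=
  cen l x.2 - z.1 - z.2 • gradient h (cen ρ x.1)

/-- weight of the child plate `i` on the cell `x`. -/
noncomputable def wT (n : ℕ) (h : E2 → ℝ) (ρ ρ' l : ℝ) (P : ℕ → Plate) (i : ℕ) (x : Cel) : ℝ≥0∞ :=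
  wE n ρ ρ' (P i).S x.1 (vv h ρ l (P i).z x)

/-- centre of the box of the child plate at time zero. -/
noncomputable def yP (P : ℕ → Plate) (i : ℕ) : E2 := (P i).x + (P i).z.1 + (P i).z.2 • (P i).c

/-- the cell lies in the dilated box of the child plate. -/
def NB (h : E2 → ℝ) (ρ l r1 K s1 s2 : ℝ) (P : ℕ → Plate) (i : ℕ) (x : Cel) : Prop :=
  PB r1 (P i).b (K * s1) (K * s2) (P i).c (yP P i) (gradient h (cen ρ x.1)) (cen l x.2)

theorem tot_wT (hr1 : 0 < r1) (hdl : 0 < dl) (hdl1 : dl ≤ 1)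
    (hP : Plates A h (dl * r1) s1 s2 r1 I P) {ρ ρ' l : ℝ} (hρ : 0 < ρ) (hρ' : 0 < ρ') (k : ℕ)
    (x : Cel) :
    ∑ i ∈ I, wT (k + 4) h ρ ρ' l P i x ≤ ENNReal.ofReal (216 * (dl⁻¹) ^ 3 * (36 * cdec)) := by
  classical
  have hc := cdec_nonneg
  refine (sum_frames I (fun i => (P i).z) _ (ENNReal.ofReal (36 * cdec)) ?_).trans ?_
  · intro ζ _
    have h1 := wE_sum (I.filter fun i => (P i).z = ζ) hρ hρ' k (fun i => (P i).S)
      (fun i hi m _ => hP.meas i (Finset.mem_filter.1 hi).1 m)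
      (fun i hi j hj hij m => hP.disj i (Finset.mem_filter.1 hi).1 j (Finset.mem_filter.1 hj).1 hij
        ((Finset.mem_filter.1 hi).2.trans (Finset.mem_filter.1 hj).2.symm) m) x.1
      (vv h ρ l ζ x)
    refine le_trans (le_of_eq ?_) h1
    refine Finset.sum_congr rfl fun i hi => ?_
    unfold wT
    rw [(Finset.mem_filter.1 hi).2]
  · rw [ENNReal.ofReal_mul (p := 216 * (dl⁻¹) ^ 3) (by positivity)]
    exact mul_le_mul' (card_frames hr1 hdl hdl1 hP) le_rfl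

open Classical in
theorem far_wT (hr1 : 0 < r1) (hdl : 0 < dl) (hdl1 : dl ≤ 1)
    (hP : Plates A h (dl * r1) s1 s2 r1 I P) {ρ ρ' l X : ℝ} (hρ : 0 < ρ) (hρ' : 0 < ρ')
    (hX : 0 < X) (k : ℕ) (x : Cel) (J : Finset ℕ) (hJ : J ⊆ I)
    (hfar : ∀ i ∈ J, ∀ m' ∈ nearS ρ ρ' x.1, ∀ y ∈ (P i).S m', X ≤ ρ * ‖vv h ρ l (P i).z x - y‖) :
    ∑ i ∈ J, wT (k + 4) h ρ ρ' l P i x ≤
      ENNReal.ofReal (216 * (dl⁻¹) ^ 3 * (36 * cdec * (X ^ k)⁻¹)) := by
  have hc := cdec_nonneg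
  have hcard : (((J.image fun i => (P i).z).card : ℕ) : ℝ≥0∞) ≤
      ENNReal.ofReal (216 * (dl⁻¹) ^ 3) := by
    refine le_trans ?_ (card_frames hr1 hdl hdl1 hP)
    exact_mod_cast Finset.card_le_card (Finset.image_subset_image hJ)
  refine (sum_frames J (fun i => (P i).z) _ (ENNReal.ofReal (36 * cdec * (X ^ k)⁻¹)) ?_).trans ?_
  · intro ζ _
    have h1 := wE_sum_far (J.filter fun i => (P i).z = ζ) hρ hρ' hX k (fun i => (P i).S)
      (fun i hi m _ => hP.meas i (hJ (Finset.mem_filter.1 hi).1) m)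
      (fun i hi j hj hij m => hP.disj i (hJ (Finset.mem_filter.1 hi).1) j
        (hJ (Finset.mem_filter.1 hj).1) hij
        ((Finset.mem_filter.1 hi).2.trans (Finset.mem_filter.1 hj).2.symm) m) x.1
      (vv h ρ l ζ x) (fun i hi m' hm' y hy => by
        have := hfar i (Finset.mem_filter.1 hi).1 m' hm' y hy
        rwa [(Finset.mem_filter.1 hi).2] at this)
    refine le_trans (le_of_eq ?_) h1
    refine Finset.sum_congr rfl fun i hi => ?_
    unfold wT
    rw [(Finset.mem_filter.1 hi).2]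
  · rw [ENNReal.ofReal_mul (p := 216 * (dl⁻¹) ^ 3) (by positivity)]
    exact mul_le_mul' hcard le_rfl

/-- cells outside of the dilated box are far from the child plate. -/
theorem far_of_not_NB {B : ℕ → ℝ} (hh : ParB B h) (hA : 0 ≤ A) (hr1 : 1 ≤ r1) (hdl : 0 < dl)
    (hdl1 : dl ≤ 1) (hr' : 1 ≤ dl * r1) (hP : Plates A h (dl * r1) s1 s2 r1 I P)
    (hs : ∀ i : Fin 2, an (dl * r1) ≤ (![s1, s2] : Fin 2 → ℝ) i) {X K : ℝ} (hX : 0 ≤ X)
    (hK : X + 2 * A + 3 * (1 + |B 2|) ≤ K) {i : ℕ} (hi : i ∈ I) {x : Cel}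
    (hnb : ¬ NB h (an r1) (an r1 * r1) r1 K s1 s2 P i x) :
    ∀ m' ∈ nearS (an r1) (an (dl * r1)) x.1, ∀ y ∈ (P i).S m',
      X ≤ an r1 * ‖vv h (an r1) (an r1 * r1) (P i).z x - y‖ := by
  intro m' hm' y hy
  by_contra hlt
  push Not at hlt
  apply hnb
  obtain ⟨hρ, hρ1, hρ2⟩ := rp_facts hr1
  obtain ⟨hρ', hρ'1, hρ'2⟩ := rp_facts hr'
  have hbox := hP.box i hi m' hy
  have hb2 : 0 ≤ |B 2| := abs_nonneg _
  set ρ : ℝ := r1 ^ (-(1/2) : ℝ) with hρdef
  set ρ' : ℝ := (dl * r1) ^ (-(1/2) : ℝ) with hρ'def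
  have hanr : an r1 = ρ := rfl
  have hanr' : an (dl * r1) = ρ' := rfl
  rw [hanr] at hlt ⊢
  rw [hanr, hanr'] at hm'
  have hr0 : 0 < r1 := by linarith
  have hρρ : ρ ≤ ρ' := by
    rw [hρdef, hρ'def]
    exact Real.rpow_le_rpow_of_nonpos (by positivity) (by nlinarith) (by norm_num)
  have hρl : ρ * (ρ * r1) = 1 := by
    have : ρ * (ρ * r1) = ρ ^ 2 * r1 := by ring
    rw [this, hρ2, inv_mul_cancel₀ hr0.ne']
  obtain ⟨hdir, hpos⟩ := hbox
  have hs' : ∀ j : Fin 2, ρ' ≤ (![s1, s2] : Fin 2 → ℝ) j := fun j => hs j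
  -- direction
  have hnear := (mem_nearS.1 hm').2
  have hg : ‖gradient h (cen ρ x.1) - gradient h (cen ρ' m')‖ ≤ (1 + |B 2|) * (3 * ρ') :=
    (glip hh _ _).trans (mul_le_mul_of_nonneg_left (le_of_lt hnear) (by positivity))
  have hdir2 : ∀ j : Fin 2, |inner ℝ (gradient h (cen ρ x.1) - (P i).c) ((P i).b j)| ≤
      (A + 3 * (1 + |B 2|)) * (![s1, s2] : Fin 2 → ℝ) j := by
    intro j
    have e : gradient h (cen ρ x.1) - (P i).c = (gradient h (cen ρ x.1) - gradient h (cen ρ' m')) +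
        (gradient h (cen ρ' m') - (P i).c) := by abel
    rw [e, inner_add_left]
    have a1 : |inner ℝ (gradient h (cen ρ x.1) - gradient h (cen ρ' m')) ((P i).b j)| ≤
        (1 + |B 2|) * (3 * ρ') := by
      refine (abs_real_inner_le_norm _ _).trans ?_
      rw [(P i).b.orthonormal.1 j, mul_one]
      exact hg
    have a2 := hdir j
    have a3 := abs_add_le (inner ℝ (gradient h (cen ρ x.1) - gradient h (cen ρ' m')) ((P i).b j))
      (inner ℝ (gradient h (cen ρ' m') - (P i).c) ((P i).b j))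
    have a4 : (1 + |B 2|) * (3 * ρ') ≤ 3 * (1 + |B 2|) * (![s1, s2] : Fin 2 → ℝ) j := by
      have := mul_le_mul_of_nonneg_left (hs' j) (by positivity : 0 ≤ 3 * (1 + |B 2|))
      linarith
    calc _ ≤ _ := a3
      _ ≤ 3 * (1 + |B 2|) * (![s1, s2] : Fin 2 → ℝ) j + A * (![s1, s2] : Fin 2 → ℝ) j := by
          exact add_le_add (a1.trans a4) a2
      _ = _ := by ring
  -- position
  have hzm : |(P i).z.2| ≤ r1 := (hP.mem i hi).2
  have hpos2 : ∀ j : Fin 2, |inner ℝ (cen (ρ * r1) x.2 - yP P i) ((P i).b j)| ≤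
      (X + 2 * A + 3 * (1 + |B 2|)) * (![s1, s2] : Fin 2 → ℝ) j * r1 := by
    intro j
    have hsj := hs' j
    have hsj0 : 0 < (![s1, s2] : Fin 2 → ℝ) j := hρ'.trans_le hsj
    have e : cen (ρ * r1) x.2 - yP P i = (vv h ρ (ρ * r1) (P i).z x - y) + (y - (P i).x) +
        (P i).z.2 • (gradient h (cen ρ x.1) - (P i).c) := by
      unfold yP vv
      rw [smul_sub]
      abel
    rw [e, inner_add_left, inner_add_left, real_inner_smul_left]
    have a1 : |inner ℝ (vv h ρ (ρ * r1) (P i).z x - y) ((P i).b j)| ≤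
        X * (![s1, s2] : Fin 2 → ℝ) j * r1 := by
      refine (abs_real_inner_le_norm _ _).trans ?_
      rw [(P i).b.orthonormal.1 j, mul_one]
      set N : ℝ := ‖vv h ρ (ρ * r1) (P i).z x - y‖ with hN
      have h1 : N = (ρ * r1) * (ρ * N) := by
        calc N = (ρ * (ρ * r1)) * N := by rw [hρl, one_mul]
          _ = _ := by ring
      rw [h1]
      calc (ρ * r1) * (ρ * N) ≤ (ρ * r1) * X := by
            refine mul_le_mul_of_nonneg_left hlt.le (by positivity)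
        _ ≤ ((![s1, s2] : Fin 2 → ℝ) j * r1) * X := by
            refine mul_le_mul_of_nonneg_right ?_ hX
            exact mul_le_mul_of_nonneg_right (hρρ.trans hsj) hr0.le
        _ = _ := by ring
    have a2 : |inner ℝ (y - (P i).x) ((P i).b j)| ≤ A * (![s1, s2] : Fin 2 → ℝ) j * r1 := by
      refine (hpos j).trans ?_
      have : dl * r1 ≤ r1 := by nlinarith
      refine mul_le_mul_of_nonneg_left this (by positivity)
    have a3 : |(P i).z.2 * inner ℝ (gradient h (cen ρ x.1) - (P i).c) ((P i).b j)| ≤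
        (A + 3 * (1 + |B 2|)) * (![s1, s2] : Fin 2 → ℝ) j * r1 := by
      rw [abs_mul, mul_comm]
      exact mul_le_mul (hdir2 j) hzm (abs_nonneg _) (by positivity)
    have b1 := abs_add_le (inner ℝ (vv h ρ (ρ * r1) (P i).z x - y) ((P i).b j) +
      inner ℝ (y - (P i).x) ((P i).b j))
      ((P i).z.2 * inner ℝ (gradient h (cen ρ x.1) - (P i).c) ((P i).b j))
    have b2 := abs_add_le (inner ℝ (vv h ρ (ρ * r1) (P i).z x - y) ((P i).b j))
      (inner ℝ (y - (P i).x) ((P i).b j))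
    calc _ ≤ _ := b1
      _ ≤ (X * (![s1, s2] : Fin 2 → ℝ) j * r1 + A * (![s1, s2] : Fin 2 → ℝ) j * r1) +
          (A + 3 * (1 + |B 2|)) * (![s1, s2] : Fin 2 → ℝ) j * r1 := by
          exact add_le_add (b2.trans (add_le_add a1 a2)) a3
      _ = _ := by ring
  have hs1 : 0 < s1 := hρ'.trans_le (hs' 0)
  have hs2 : 0 < s2 := hρ'.trans_le (hs' 1)
  have hKA : A + 3 * (1 + |B 2|) ≤ K := by linarith
  refine ⟨?_, ?_, ?_, ?_⟩
  · exact (hdir2 0).trans (mul_le_mul_of_nonneg_right hKA hs1.le)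
  · exact (hdir2 1).trans (mul_le_mul_of_nonneg_right hKA hs2.le)
  · refine (hpos2 0).trans (mul_le_mul_of_nonneg_right ?_ hr0.le)
    exact mul_le_mul_of_nonneg_right hK hs1.le
  · refine (hpos2 1).trans (mul_le_mul_of_nonneg_right ?_ hr0.le)
    exact mul_le_mul_of_nonneg_right hK hs2.le

end

end Crest.Agent.R138.Mis330
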