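import Crest.Agent.R138.Mw4_330

/-!
# R138 / R139: MIS / ALIGN, wave half, part 5 (helper330): energy of one child plate over the cells,
dilated boxes
-/

set_option autoImplicit false
set_option linter.unusedSectionVars false
set_option linter.unusedVariables false

open MeasureTheory FourierTransform
open scoped ContDiff ENNReal

namespace Crest.Agent.R138.Mis330

open Crest.Agent.R138.Defs Crest.Agent.R138.Wpk685 Crest.Agent.R138.Loc878
open Crest.Agent.R138.W188 (tr Plate uS Plates)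
open Crest.Agent.R138.Ad480
open Crest.Agent.R138.Mis535 (PB)
open Crest.Agent.R138.P654 (an Smis selQ)

/-- the two sines agree. -/
theorem sn_eq (b b' : OrthonormalBasis (Fin 2) ℝ E2) :
    P654.sn b b' = |Mis535.sn (b 0) (b' 0)| := by
  have h0 := Mis535.norm_sq_eq (b' 0)
  have h1 := Mis535.norm_sq_eq (b' 1)
  have h2 : inner ℝ (b' 0) (b' 1) = (0 : ℝ) := b'.orthonormal.2 (by decide)
  rw [b'.orthonormal.1] at h0 h1
  rw [Mis535.inner_eq] at h2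
  unfold P654.sn Mis535.sn
  rw [← sq_eq_sq_iff_abs_eq_abs, Mis535.inner_eq]
  set u0 := (b' 0 : E2) 0
  set u1 := (b' 0 : E2) 1
  set v0 := (b' 1 : E2) 0
  set v1 := (b' 1 : E2) 1
  set a0 := (b 0 : E2) 0
  set a1 := (b 0 : E2) 1
  set L : ℝ := v1 * u0 - v0 * u1 with hL
  have e0 : v0 = -(L * u1) := by
    have : -(L * u1) = v0 * (u0 * u0 + u1 * u1) - u0 * (u0 * v0 + u1 * v1) := by rw [hL]; ring
    rw [this, h2, ← h0]; ring
  have e1 : v1 = L * u0 := by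
    have : L * u0 = v1 * (u0 * u0 + u1 * u1) - u1 * (u0 * v0 + u1 * v1) := by rw [hL]; ring
    rw [this, h2, ← h0]; ring
  have eL : L ^ 2 = 1 := by
    have : L ^ 2 = (u0 * u0 + u1 * u1) * (v0 * v0 + v1 * v1) - (u0 * v0 + u1 * v1) ^ 2 := by
      rw [hL]; ring
    rw [this, h2, ← h0, ← h1]; ring
  rw [e0, e1]
  have : (a0 * -(L * u1) + a1 * (L * u0)) ^ 2 = L ^ 2 * (a0 * u1 - a1 * u0) ^ 2 := by ring
  rw [this, eL, one_mul]

theorem Smis_eq (δ : ℝ) (b : OrthonormalBasis (Fin 2) ℝ E2) (I1 : Finset ℕ) (P1 : ℕ → Plate)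
    [DecidablePred fun a => δ < P654.sn b (P1 a).b] (m : ℤ × ℤ) :
    Smis δ b I1 P1 m = ⋃ a ∈ I1.filter (fun a => δ < P654.sn b (P1 a).b), (P1 a).S m := by
  ext y
  simp only [Smis, selQ, Set.mem_ofPred_eq, Set.mem_iUnion, Finset.mem_filter, exists_prop]
  constructor
  · rintro ⟨i, hi, h1, h2⟩
    exact ⟨i, ⟨hi, h1⟩, h2⟩
  · rintro ⟨i, ⟨hi, h1⟩, h2⟩
    exact ⟨i, hi, h1, h2⟩

theorem an_facts {r1 dl : ℝ} (hr1 : 1 ≤ r1) (hdl : 0 < dl) (hdl1 : dl ≤ 1) (hr' : 1 ≤ dl * r1) :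
    0 < an r1 ∧ an r1 ≤ 1 ∧ an r1 ^ 2 = r1⁻¹ ∧ 0 < an (dl * r1) ∧ an (dl * r1) ≤ 1 ∧
      an (dl * r1) ^ 2 = (dl * r1)⁻¹ ∧ an r1 ≤ an (dl * r1) ∧
      (an (dl * r1) / an r1) ^ 2 = dl⁻¹ := by
  obtain ⟨hρ, hρ1, hρ2⟩ := rp_facts hr1
  obtain ⟨hρ', hρ'1, hρ'2⟩ := rp_facts hr'
  refine ⟨hρ, hρ1, hρ2, hρ', hρ'1, hρ'2, ?_, ?_⟩
  · exact Real.rpow_le_rpow_of_nonpos (by positivity) (by nlinarith) (by norm_num)
  · have e1 : an r1 ^ 2 = r1⁻¹ := hρ2
    have e2 : an (dl * r1) ^ 2 = (dl * r1)⁻¹ := hρ'2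
    rw [div_pow, e1, e2]
    have : 0 < r1 := by linarith
    field_simp

open Classical in
/-- **energy of the misaligned part** of one child plate, over the cells. -/
theorem en_plate_le (B : ℕ → ℝ) (n : ℕ) : ∃ C : ℝ, 0 ≤ C ∧ ∀ h, ParB B h → ∀ (r1 dl : ℝ),
    1 ≤ r1 → 0 < dl → dl ≤ 1 → 1 ≤ dl * r1 → ∀ g : E2 → ℂ, Integrable g →
    ∀ (I1 : Finset ℕ) (P1 : ℕ → Plate) (K : ℝ), (∀ a ∈ I1, ∀ m, MeasurableSet ((P1 a).S m)) →
    (∀ a ∈ I1, ∀ a' ∈ I1, a ≠ a' → ∀ m, Disjoint ((P1 a).S m) ((P1 a').S m)) →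
    (∀ a ∈ I1, ∀ m, ∀ y ∈ (P1 a).S m, ‖y‖ ≤ K) →
    ∀ N : ℕ, K / (an r1 * r1) + 1 ≤ N → ∀ (δ : ℝ) (b : OrthonormalBasis (Fin 2) ℝ E2)
    (z : E2 × ℝ), |z.2| ≤ r1 → ∀ S' : ℤ × ℤ → Set E2,
    (∀ m ∈ caps (an (dl * r1)), MeasurableSet (S' m)) →
    en (an (dl * r1)) (tr h z (sel (an r1) g (Smis δ b I1 P1))) S' ≤ ENNReal.ofReal (C * dl⁻¹) *
      ∑ T ∈ (TI (an r1) N I1).filter (fun T => δ < P654.sn b (P1 T.1).b),
        wE n (an r1) (an (dl * r1)) S' T.2.1 (vv h (an r1) (an r1 * r1) z T.2) *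
          muE (an r1) (an r1 * r1) g P1 T := by
  obtain ⟨C, hC, h1⟩ := en_le_wE B n 1 le_rfl
  refine ⟨C * (1 + 3 / 2) ^ n, by positivity, ?_⟩
  intro h hh r1 dl hr1 hdl hdl1 hr' g hg I1 P1 K hm hd hb N hN δ b z hz S' hS'
  obtain ⟨hρ, hρ1, hρ2, hρ', hρ'1, hρ'2, hρρ, hdiv⟩ := an_facts hr1 hdl hdl1 hr'
  set ρ : ℝ := an r1 with hρdef
  set ρ' : ℝ := an (dl * r1) with hρ'def
  have hr0 : 0 < r1 := by linarith
  set l : ℝ := ρ * r1 with hl
  have hl0 : 0 < l := by positivity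
  have hρl : ρ * l = 1 := by
    have : ρ * l = ρ ^ 2 * r1 := by rw [hl]; ring
    rw [this, hρ2, inv_mul_cancel₀ hr0.ne']
  set Im : Finset ℕ := I1.filter (fun a => δ < P654.sn b (P1 a).b) with hIm
  have hSm : ∀ m, Smis δ b I1 P1 m = ⋃ a ∈ Im, (P1 a).S m := fun m => Smis_eq δ b I1 P1 m
  have hmem : ∀ a ∈ Im, a ∈ I1 := fun a ha => (Finset.mem_filter.1 ha).1
  have hmeasS : ∀ m, MeasurableSet (Smis δ b I1 P1 m) := by
    intro m
    rw [hSm]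
    exact Finset.measurableSet_biUnion _ fun a ha => hm a (hmem a ha) m
  have hBs : Bs ρ (Smis δ b I1 P1) := by
    refine ⟨fun m _ => hmeasS m, fun m _ => ?_⟩
    refine (Metric.isBounded_closedBall (x := (0 : E2)) (r := K)).subset ?_
    intro y hy
    rw [hSm] at hy
    simp only [Set.mem_iUnion, exists_prop] at hy
    obtain ⟨a, ha, hya⟩ := hy
    rw [mem_closedBall_zero_iff]
    exact hb a (hmem a ha) m y hya
  have hz1 : |z.2| * ρ ^ 2 ≤ 1 := by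
    rw [hρ2]
    rw [← div_eq_mul_inv, div_le_one hr0]
    exact hz
  refine (h1 h hh ρ ρ' hρ hρρ hρ1 g hg _ hBs z hz1 S' hS').trans ?_
  rw [hdiv]
  have key : ∑ m ∈ caps ρ, ∫⁻ y in Smis δ b I1 P1 m,
        wE n ρ ρ' S' m (y - z.1 - z.2 • gradient h (cen ρ m)) * ‖um ρ g m y‖ₑ ^ 2 ≤
      ENNReal.ofReal ((1 + 3 / 2) ^ n) *
      ∑ T ∈ (TI ρ N I1).filter (fun T => δ < P654.sn b (P1 T.1).b),
        wE n ρ ρ' S' T.2.1 (vv h ρ l z T.2) * muE ρ l g P1 T := by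
    have e1 : (TI ρ N I1).filter (fun T => δ < P654.sn b (P1 T.1).b) = TI ρ N Im := by
      ext T
      simp only [Finset.mem_filter, mem_TI, hIm]
      tauto
    rw [e1]
    have e2 : ∑ T ∈ TI ρ N Im, wE n ρ ρ' S' T.2.1 (vv h ρ l z T.2) * muE ρ l g P1 T =
        ∑ m ∈ caps ρ, ∑ a ∈ Im, ∑ k ∈ kbox N,
          wE n ρ ρ' S' m (vv h ρ l z (m, k)) * muE ρ l g P1 (a, (m, k)) := by
      unfold TI
      rw [Finset.sum_product]
      simp_rw [Finset.sum_product]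
      rw [Finset.sum_comm]
    rw [e2, Finset.mul_sum]
    refine Finset.sum_le_sum fun m _ => ?_
    rw [hSm, lintegral_biUnion_finset]
    · rw [Finset.mul_sum]
      refine Finset.sum_le_sum fun a ha => ?_
      rw [split_cells hl0 (hm a (hmem a ha) m) (hb a (hmem a ha) m) hN, Finset.mul_sum]
      refine Finset.sum_le_sum fun k _ => ?_
      have hfin : wE n ρ ρ' S' m (vv h ρ l z (m, k)) * muE ρ l g P1 (a, (m, k)) =
          ∫⁻ y in pc l ((P1 a).S m) k, wE n ρ ρ' S' m (vv h ρ l z (m, k)) * ‖um ρ g m y‖ₑ ^ 2 := by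
        rw [lintegral_const_mul _ (um_meas hg m)]
        rfl
      rw [hfin, ← lintegral_const_mul' _ _ ENNReal.ofReal_ne_top]
      refine setLIntegral_mono' (pc_meas (hm a (hmem a ha) m) k) fun y hy => ?_
      rw [← mul_assoc]
      refine mul_le_mul' ?_ le_rfl
      refine wE_shift hρ.le (by norm_num) n S' m ?_
      have hk := kk_dist hl0 y
      have hy2 : kk l y = k := hy.2
      rw [hy2] at hk
      have e3 : vv h ρ l z (m, k) - (y - z.1 - z.2 • gradient h (cen ρ m)) = -(y - cen l k) := by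
        unfold vv
        abel
      rw [e3, norm_neg]
      calc ρ * ‖y - cen l k‖ ≤ ρ * (3 / 2 * l) := mul_le_mul_of_nonneg_left hk hρ.le
        _ = 3 / 2 * (ρ * l) := by ring
        _ = 3 / 2 := by rw [hρl, mul_one]
    · intro a ha a' ha' hne
      exact hd a (hmem a ha) a' (hmem a' ha') hne m
    · exact fun a ha => hm a (hmem a ha) m
  refine (mul_le_mul' le_rfl key).trans (le_of_eq ?_)
  rw [← mul_assoc, ← ENNReal.ofReal_mul (by positivity)]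
  congr 2
  ring

theorem sum_biUnion_le' {κ τ : Type*} [DecidableEq τ] (J : Finset κ) (t : κ → Finset τ)
    (f : τ → ℝ≥0∞) : ∑ x ∈ J.biUnion t, f x ≤ ∑ j ∈ J, ∑ x ∈ t j, f x := by
  classical
  induction J using Finset.induction_on with
  | empty => simp
  | insert a s ha ih =>
    rw [Finset.biUnion_insert, Finset.sum_insert ha]
    have h1 : ∑ x ∈ t a ∪ s.biUnion t, f x ≤ ∑ x ∈ t a, f x + ∑ x ∈ s.biUnion t, f x := by
      rw [← Finset.sum_union_inter]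
      exact le_self_add
    exact h1.trans (add_le_add le_rfl ih)

open Classical in
/-- **dmax for dilated boxes**. -/
theorem dmax_dil {q : ℝ} {h : E2 → ℝ} {r : ℝ} (hr : 1 ≤ r) {g : E2 → ℂ} {I : Finset ℕ}
    {P : ℕ → Plate} (hm : ∀ a ∈ I, ∀ m, MeasurableSet ((P a).S m))
    (hd : ∀ a ∈ I, ∀ a' ∈ I, a ≠ a' → ∀ m, Disjoint ((P a).S m) ((P a').S m)) {D : ℝ} (hD : 0 ≤ D)
    (hdens : Dens q h r g (uS I P) D) (N : ℕ) (c0 : E2) (b : OrthonormalBasis (Fin 2) ℝ E2)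
    (s1 s2 : ℝ) (y0 : E2) (hs1 : an r ≤ s1) (hs2 : s1 ≤ s2) (hs3 : s2 ≤ 1) {K : ℝ} (hK : 1 ≤ K) :
    ∑ T ∈ (TI (an r) N I).filter (fun T => PB r b (K * s1) (K * s2) c0 y0
        (gradient h (cen (an r) T.2.1)) (cen (an r * r) T.2.2)), muE (an r) (an r * r) g P T ≤
    ENNReal.ofReal ((2 * K + 3) ^ 4 * 49 * D * s2 ^ q * (s1 * s2 * r ^ 2)) := by
  obtain ⟨hρ, hρ1, hρ2⟩ := rp_facts hr
  have hr0 : 0 < r := by linarith
  have hρ : 0 < an r := hρ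
  have hs10 : 0 < s1 := hρ.trans_le hs1
  have hs20 : 0 < s2 := hs10.trans_le hs2
  set s : Fin 2 → ℝ := ![s1, s2] with hsdef
  have hs0 : ∀ i, 0 < s i := by
    intro i
    fin_cases i
    · exact hs10
    · exact hs20
  have hs : ∀ i, r ^ (-(1/2) : ℝ) ≤ s i ∧ s i ≤ 1 := by
    intro i
    fin_cases i
    · exact ⟨hs1, hs2.trans hs3⟩
    · exact ⟨hs1.trans hs2, hs3⟩
  set J : Finset (ℤ × ℤ) := Finset.Icc (-⌈K⌉) ⌈K⌉ ×ˢ Finset.Icc (-⌈K⌉) ⌈K⌉ with hJ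
  set cj : ℤ × ℤ → E2 := fun j => c0 + sh b ![2 * (j : ℤ × ℤ).1 * s 0, 2 * j.2 * s 1] with hcj
  set yj : ℤ × ℤ → E2 := fun j => y0 + sh b ![2 * (j : ℤ × ℤ).1 * (s 0 * r), 2 * j.2 * (s 1 * r)]
    with hyj
  have hcov : (TI (an r) N I).filter (fun T => PB r b (K * s1) (K * s2) c0 y0
        (gradient h (cen (an r) T.2.1)) (cen (an r * r) T.2.2)) ⊆
      (J ×ˢ J).biUnion (fun j => (TI (an r) N I).filter (fun T => PB r b (s 0) (s 1) (cj j.1)
        (yj j.2) (gradient h (cen (an r) T.2.1)) (cen (an r * r) T.2.2))) := by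
    intro T hT
    rw [Finset.mem_filter] at hT
    obtain ⟨hT1, q1, q2, q3, q4⟩ := hT
    obtain ⟨j, hj, hj2⟩ := near_shift hK b hs0 (gradient h (cen (an r) T.2.1) - c0) (by
      intro i
      fin_cases i
      · exact q1
      · exact q2)
    obtain ⟨j', hj', hj'2⟩ := near_shift hK b (s := fun i => s i * r)
      (fun i => mul_pos (hs0 i) hr0) (cen (an r * r) T.2.2 - y0) (by
      intro i
      fin_cases i
      · have : K * s1 * r = K * (s1 * r) := by ring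
        simpa [hsdef, this] using q3
      · have : K * s2 * r = K * (s2 * r) := by ring
        simpa [hsdef, this] using q4)
    rw [Finset.mem_biUnion]
    refine ⟨(j, j'), Finset.mem_product.2 ⟨hj, hj'⟩, Finset.mem_filter.2 ⟨hT1, ?_⟩⟩
    have e1 : gradient h (cen (an r) T.2.1) - cj j = gradient h (cen (an r) T.2.1) - c0 -
        sh b ![2 * (j : ℤ × ℤ).1 * s 0, 2 * j.2 * s 1] := by
      rw [hcj]; exact sub_add_eq_sub_sub _ _ _
    have e2 : cen (an r * r) T.2.2 - yj j' = cen (an r * r) T.2.2 - y0 -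
        sh b ![2 * (j' : ℤ × ℤ).1 * (s 0 * r), 2 * j'.2 * (s 1 * r)] := by
      rw [hyj]; exact sub_add_eq_sub_sub _ _ _
    refine ⟨?_, ?_, ?_, ?_⟩
    · rw [e1]; exact hj2 0
    · rw [e1]; exact hj2 1
    · rw [e2]; exact hj'2 0
    · rw [e2]; exact hj'2 1
  have hmax : max (s 0) (s 1) = s2 := by
    simp [hsdef, hs2]
  have hJc : ((J ×ˢ J).card : ℝ≥0∞) ≤ ENNReal.ofReal ((2 * K + 3) ^ 4) := by
    rw [← ENNReal.ofReal_natCast]
    refine ENNReal.ofReal_le_ofReal ?_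
    have hc : (⌈K⌉ : ℝ) < K + 1 := Int.ceil_lt_add_one K
    have hc0 : (0 : ℝ) ≤ ⌈K⌉ := by
      have := Int.le_ceil K
      linarith
    have h1 : ((Finset.Icc (-⌈K⌉) ⌈K⌉).card : ℝ) = 2 * (⌈K⌉ : ℝ) + 1 := by
      rw [Int.card_Icc]
      have h2 : (0 : ℤ) ≤ ⌈K⌉ + 1 - -⌈K⌉ := by
        have : (0:ℤ) ≤ ⌈K⌉ := by exact_mod_cast hc0
        omega
      have h3 : ((⌈K⌉ + 1 - -⌈K⌉).toNat : ℝ) = ((⌈K⌉ + 1 - -⌈K⌉ : ℤ) : ℝ) := by
        exact_mod_cast congrArg (fun x : ℤ => (x : ℝ)) (Int.toNat_of_nonneg h2)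
      rw [h3]
      push_cast
      ring
    rw [hJ, Finset.card_product, Finset.card_product]
    push_cast
    rw [h1]
    calc (2 * (⌈K⌉ : ℝ) + 1) * (2 * (⌈K⌉ : ℝ) + 1) * ((2 * (⌈K⌉ : ℝ) + 1) * (2 * (⌈K⌉ : ℝ) + 1))
        = (2 * (⌈K⌉ : ℝ) + 1) ^ 4 := by ring
      _ ≤ (2 * K + 3) ^ 4 := pow_le_pow_left₀ (by positivity) (by linarith) 4
  calc _ ≤ ∑ T ∈ (J ×ˢ J).biUnion (fun j => (TI (an r) N I).filter (fun T => PB r b (s 0) (s 1)
        (cj j.1) (yj j.2) (gradient h (cen (an r) T.2.1)) (cen (an r * r) T.2.2))),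
        muE (an r) (an r * r) g P T := Finset.sum_le_sum_of_subset hcov
    _ ≤ ∑ j ∈ J ×ˢ J, ∑ T ∈ (TI (an r) N I).filter (fun T => PB r b (s 0) (s 1)
        (cj j.1) (yj j.2) (gradient h (cen (an r) T.2.1)) (cen (an r * r) T.2.2)),
        muE (an r) (an r * r) g P T := sum_biUnion_le' _ _ _
    _ ≤ ∑ j ∈ J ×ˢ J, ENNReal.ofReal (49 * D * (max (s 0) (s 1)) ^ q * (s 0 * s 1 * r ^ 2)) :=
        Finset.sum_le_sum fun j _ => dmax_cells hr hm hd hD hdens N (cj j.1) b s (yj j.2) hs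
    _ ≤ _ := by
        rw [Finset.sum_const, nsmul_eq_mul, hmax]
        refine (mul_le_mul' hJc le_rfl).trans (le_of_eq ?_)
        rw [← ENNReal.ofReal_mul (by positivity)]
        congr 1
        simp only [hsdef, Matrix.cons_val_zero, Matrix.cons_val_one]
        ring

end Crest.Agent.R138.Mis330
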