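import Crest.Agent.R138.Mw5_330
import Crest.Agent.R138.Mis_535

/-!
# R138 / R139: MIS / ALIGN, wave half, part 6 (helper330): the cells of a parent class as weighted
tubes
-/

set_option autoImplicit false
set_option linter.unusedSectionVars false
set_option linter.unusedVariables false

open MeasureTheory FourierTransform
open scoped ContDiff ENNReal

namespace Crest.Agent.R138.Mis330

open Crest.Agent.R138.Defs Crest.Agent.R138.Wpk685 Crest.Agent.R138.Loc878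
open Crest.Agent.R138.W188 (tr Plate uS Plates)
open Crest.Agent.R138.Ad480
open Crest.Agent.R138.Mis535 (PB)
open Crest.Agent.R138.P654 (an Smis selQ Par)

theorem caps_norm' {ρ : ℝ} (hρ : 0 < ρ) (hρ1 : ρ ≤ 1) {m : ℤ × ℤ} (hm : m ∈ caps ρ) :
    ‖cen ρ m‖ ≤ 8 := by
  unfold caps at hm
  rw [Finset.mem_product, Finset.mem_Icc, Finset.mem_Icc] at hm
  obtain ⟨⟨a1, a2⟩, ⟨b1, b2⟩⟩ := hm
  have hc : (⌈2 / ρ⌉ : ℝ) < 2 / ρ + 1 := Int.ceil_lt_add_one _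
  have key : ∀ k : ℤ, -⌈2 / ρ⌉ - 1 ≤ k → k ≤ ⌈2 / ρ⌉ + 1 → |ρ * (k:ℝ)| ≤ 4 := by
    intro k h1 h2
    have h1' : (-(⌈2 / ρ⌉ : ℝ)) - 1 ≤ k := by exact_mod_cast h1
    have h2' : (k:ℝ) ≤ (⌈2 / ρ⌉ : ℝ) + 1 := by exact_mod_cast h2
    have h3 : ρ * (2 / ρ) = 2 := by field_simp
    rw [abs_le]
    constructor
    · have := mul_le_mul_of_nonneg_left (show -(2 / ρ + 2) ≤ (k:ℝ) by linarith) hρ.le
      nlinarith
    · have := mul_le_mul_of_nonneg_left (show (k:ℝ) ≤ 2 / ρ + 2 by linarith) hρ.le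
      nlinarith
  have h1 := key m.1 a1 a2
  have h2 := key m.2 b1 b2
  unfold cen
  rw [EuclideanSpace.norm_eq, Fin.sum_univ_two]
  refine Real.sqrt_le_iff.2 ⟨by norm_num, ?_⟩
  simp only [Real.norm_eq_abs, sq_abs]
  have e1 := sq_le_sq' (abs_le.1 h1).1 (abs_le.1 h1).2
  have e2 := sq_le_sq' (abs_le.1 h2).1 (abs_le.1 h2).2
  show (ρ * (m.1:ℝ)) ^ 2 + (ρ * (m.2:ℝ)) ^ 2 ≤ 8 ^ 2
  linarith

theorem grad_zero {h : E2 → ℝ} (h1 : fderiv ℝ h 0 = 0) : gradient h 0 = 0 := by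
  unfold gradient
  rw [h1]
  exact map_zero _

theorem grad_caps {B : ℕ → ℝ} {h : E2 → ℝ} (hh : ParB B h) (h1 : fderiv ℝ h 0 = 0) {ρ : ℝ}
    (hρ : 0 < ρ) (hρ1 : ρ ≤ 1) {m : ℤ × ℤ} (hm : m ∈ caps ρ) :
    ‖gradient h (cen ρ m)‖ ≤ 8 * (1 + |B 2|) := by
  have h2 := glip hh (cen ρ m) 0
  rw [grad_zero h1, sub_zero, sub_zero] at h2
  have h3 := caps_norm' hρ hρ1 hm
  have h4 : 0 ≤ 1 + |B 2| := by positivity
  nlinarith

theorem muE_zero {ρ l : ℝ} {g : E2 → ℂ} {P : ℕ → Plate} {T : ℕ × Cel}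
    (h : ¬ (pc l ((P T.1).S T.2.1) T.2.2).Nonempty) : muE ρ l g P T = 0 := by
  rw [Set.not_nonempty_iff_eq_empty] at h
  unfold muE
  rw [h]
  simp

theorem mu_zero {ρ l : ℝ} {g : E2 → ℂ} {P : ℕ → Plate} {T : ℕ × Cel}
    (h : ¬ (pc l ((P T.1).S T.2.1) T.2.2).Nonempty) : mu ρ l g P T = 0 := by
  unfold mu
  rw [muE_zero h]
  simp

/-- number of cells in one direction. -/
noncomputable def Nc (A r1 : ℝ) : ℕ := ⌈A * r1 / (an r1 * r1)⌉₊ + 1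

theorem Nc_le (A r1 : ℝ) : A * r1 / (an r1 * r1) + 1 ≤ Nc A r1 := by
  unfold Nc
  push_cast
  have := Nat.le_ceil (A * r1 / (an r1 * r1))
  linarith

open Classical in
/-- the nonempty cells. -/
noncomputable def Ic (A r1 : ℝ) (I1 : Finset ℕ) (P1 : ℕ → Plate) : Finset (ℕ × Cel) :=
  (TI (an r1) (Nc A r1) I1).filter fun T => (pc (an r1 * r1) ((P1 T.1).S T.2.1) T.2.2).Nonempty

section par

variable {B : ℕ → ℝ} {q A c0 : ℝ} {h : E2 → ℝ} {g : E2 → ℂ} {r1 s1' s2' D : ℝ} {I1 : Finset ℕ}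
  {P1 : ℕ → Plate}

theorem par_bd (hp : Par q A c0 h g r1 s1' s2' D I1 P1) :
    ∀ a ∈ I1, ∀ m, ∀ y ∈ (P1 a).S m, ‖y‖ ≤ A * r1 := by
  intro a ha m y hy
  have := hp.bd m (Set.mem_biUnion ha hy)
  rwa [mem_closedBall_zero_iff] at this

theorem mem_Ic {T : ℕ × Cel} (hT : T ∈ Ic A r1 I1 P1) : T.1 ∈ I1 ∧ T.2.1 ∈ caps (an r1) ∧
    ∃ y ∈ (P1 T.1).S T.2.1, kk (an r1 * r1) y = T.2.2 := by
  classical
  obtain ⟨h1, y, hy1, hy2⟩ := Finset.mem_filter.1 hT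
  exact ⟨(mem_TI.1 h1).1, (mem_TI.1 h1).2.1, y, hy1, hy2⟩

theorem Ic_sub : Ic A r1 I1 P1 ⊆ TI (an r1) (Nc A r1) I1 := by
  classical
  exact Finset.filter_subset _ _

theorem mem_Ic_of {T : ℕ × Cel} (hT : T ∈ TI (an r1) (Nc A r1) I1)
    (hne : (pc (an r1 * r1) ((P1 T.1).S T.2.1) T.2.2).Nonempty) : T ∈ Ic A r1 I1 P1 := by
  classical
  unfold Ic
  exact Finset.mem_filter.2 ⟨hT, hne⟩

theorem sum_Ic (p : ℕ × Cel → Prop) [DecidablePred p] :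
    ∑ T ∈ (Ic A r1 I1 P1).filter p, mu (an r1) (an r1 * r1) g P1 T =
      ∑ T ∈ (TI (an r1) (Nc A r1) I1).filter p, mu (an r1) (an r1 * r1) g P1 T := by
  refine Finset.sum_subset (Finset.filter_subset_filter _ Ic_sub) ?_
  intro T hT hT2
  refine mu_zero fun hne => hT2 ?_
  rw [Finset.mem_filter] at hT ⊢
  exact ⟨mem_Ic_of hT.1 hne, hT.2⟩

theorem sum_mu (hr1 : 1 ≤ r1) (hp : Par q A c0 h g r1 s1' s2' D I1 P1) (F : Finset (ℕ × Cel))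
    (hF : F ⊆ TI (an r1) (Nc A r1) I1) :
    ENNReal.ofReal (∑ T ∈ F, mu (an r1) (an r1 * r1) g P1 T) =
      ∑ T ∈ F, muE (an r1) (an r1 * r1) g P1 T := by
  obtain ⟨hρ, hρ1, hρ2⟩ := rp_facts hr1
  rw [ENNReal.ofReal_sum_of_nonneg fun T _ => mu_nonneg _ _ _ _ _]
  exact Finset.sum_congr rfl fun T hT => ofReal_mu hρ hρ1 hp.gi hp.g2 P1 (mem_TI.1 (hF hT)).2.1

/-- total mass. -/
theorem tot_mu (hr1 : 1 ≤ r1) (hp : Par q A c0 h g r1 s1' s2' D I1 P1) :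
    ENNReal.ofReal (∑ T ∈ Ic A r1 I1 P1, mu (an r1) (an r1 * r1) g P1 T) =
      en (an r1) g (uS I1 P1) := by
  classical
  obtain ⟨hρ, hρ1, hρ2⟩ := rp_facts hr1
  have hr0 : 0 < r1 := by linarith
  have hl0 : 0 < an r1 * r1 := mul_pos hρ hr0
  have h1 := sum_Ic (A := A) (r1 := r1) (I1 := I1) (P1 := P1) (g := g) (fun _ => True)
  rw [Finset.filter_true, Finset.filter_true] at h1
  rw [h1, sum_mu hr1 hp _ (le_refl _)]
  exact mass_all hl0 hp.meas hp.disj (par_bd hp) (Nc_le A r1)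

/-- velocities. -/
theorem Ic_vel (hh : ParB B h) (h1 : fderiv ℝ h 0 = 0) (hr1 : 1 ≤ r1) {T : ℕ × Cel}
    (hT : T ∈ Ic A r1 I1 P1) : ‖gradient h (cen (an r1) T.2.1)‖ ≤ 8 * (1 + |B 2|) := by
  obtain ⟨hρ, hρ1, hρ2⟩ := rp_facts hr1
  exact grad_caps hh h1 hρ hρ1 (mem_Ic hT).2.1

theorem l_le (hr1 : 1 ≤ r1) : an r1 * r1 ≤ r1 := by
  obtain ⟨hρ, hρ1, hρ2⟩ := rp_facts hr1
  have hr0 : 0 < r1 := by linarith
  calc an r1 * r1 ≤ 1 * r1 := mul_le_mul_of_nonneg_right hρ1 hr0.le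
    _ = r1 := one_mul _

/-- positions. -/
theorem Ic_pos (hr1 : 1 ≤ r1) (hp : Par q A c0 h g r1 s1' s2' D I1 P1) {T : ℕ × Cel}
    (hT : T ∈ Ic A r1 I1 P1) : ‖cen (an r1 * r1) T.2.2‖ ≤ (A + 3 / 2) * r1 := by
  obtain ⟨hρ, hρ1, hρ2⟩ := rp_facts hr1
  have hr0 : 0 < r1 := by linarith
  have hl0 : 0 < an r1 * r1 := mul_pos hρ hr0
  obtain ⟨h1, h2, y, hy, hk⟩ := mem_Ic hT
  have h3 := par_bd hp _ h1 _ y hy
  have h4 := kk_dist hl0 y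
  rw [hk] at h4
  have h5 : ‖cen (an r1 * r1) T.2.2‖ ≤ ‖y‖ + ‖y - cen (an r1 * r1) T.2.2‖ := by
    have : cen (an r1 * r1) T.2.2 = y - (y - cen (an r1 * r1) T.2.2) := by abel
    conv_lhs => rw [this]
    exact norm_sub_le _ _
  have h6 := l_le hr1
  linarith

/-- cells lie in the box of their plate. -/
theorem Ic_box (hA : 0 ≤ A) (hr1 : 1 ≤ r1) (hp : Par q A c0 h g r1 s1' s2' D I1 P1) {T : ℕ × Cel}
    (hT : T ∈ Ic A r1 I1 P1) :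
    PB r1 (P1 T.1).b ((A + 3 / 2) * s1') ((A + 3 / 2) * s2') (P1 T.1).c (P1 T.1).x
      (gradient h (cen (an r1) T.2.1)) (cen (an r1 * r1) T.2.2) := by
  obtain ⟨hρ, hρ1, hρ2⟩ := rp_facts hr1
  have hr0 : 0 < r1 := by linarith
  have hl0 : 0 < an r1 * r1 := mul_pos hρ hr0
  obtain ⟨h1, h2, y, hy, hk⟩ := mem_Ic hT
  obtain ⟨q1, q2⟩ := hp.box _ h1 _ hy
  have h4 := kk_dist hl0 y
  rw [hk] at h4
  have hs1 : an r1 ≤ s1' := hp.sd.lo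
  have hs2 : s1' ≤ s2' := hp.sd.le
  have hs10 : 0 < s1' := lt_of_lt_of_le hρ hs1
  have hs20 : 0 < s2' := hs10.trans_le hs2
  have pos : ∀ j : Fin 2, |inner ℝ (cen (an r1 * r1) T.2.2 - (P1 T.1).x) ((P1 T.1).b j)| ≤
      (A + 3 / 2) * (![s1', s2'] : Fin 2 → ℝ) j * r1 := by
    intro j
    have e : cen (an r1 * r1) T.2.2 - (P1 T.1).x = -(y - cen (an r1 * r1) T.2.2) +
        (y - (P1 T.1).x) := by abel
    rw [e, inner_add_left]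
    have a1 : |inner ℝ (-(y - cen (an r1 * r1) T.2.2)) ((P1 T.1).b j)| ≤ 3 / 2 * (an r1 * r1) := by
      refine (abs_real_inner_le_norm _ _).trans ?_
      rw [(P1 T.1).b.orthonormal.1 j, mul_one, norm_neg]
      exact h4
    have a2 := q2 j
    have a3 : an r1 ≤ (![s1', s2'] : Fin 2 → ℝ) j := by
      fin_cases j
      · exact hs1
      · exact hs1.trans hs2
    have a4 : 3 / 2 * (an r1 * r1) ≤ 3 / 2 * ((![s1', s2'] : Fin 2 → ℝ) j * r1) :=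
      mul_le_mul_of_nonneg_left (mul_le_mul_of_nonneg_right a3 hr0.le) (by norm_num)
    calc _ ≤ _ := abs_add_le _ _
      _ ≤ 3 / 2 * ((![s1', s2'] : Fin 2 → ℝ) j * r1) + A * (![s1', s2'] : Fin 2 → ℝ) j * r1 :=
        add_le_add (a1.trans a4) a2
      _ = _ := by ring
  refine ⟨?_, ?_, ?_, ?_⟩
  · refine (q1 0).trans ?_
    show A * s1' ≤ (A + 3 / 2) * s1'
    nlinarith
  · refine (q1 1).trans ?_
    show A * s2' ≤ (A + 3 / 2) * s2'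
    nlinarith
  · exact pos 0
  · exact pos 1

open Classical in
/-- density of the cells. -/
theorem Ic_dens (hr1 : 1 ≤ r1) (hp : Par q A c0 h g r1 s1' s2' D I1 P1)
    (b : OrthonormalBasis (Fin 2) ℝ E2) (s1 s2 : ℝ) (c y0 : E2) (h1 : an r1 ≤ s1) (h1' : s1 ≤ 1)
    (h2 : an r1 ≤ s2) (h2' : s2 ≤ 1) :
    ∑ T ∈ Ic A r1 I1 P1 with PB r1 b s1 s2 c y0 (gradient h (cen (an r1) T.2.1))
        (cen (an r1 * r1) T.2.2), mu (an r1) (an r1 * r1) g P1 T ≤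
      49 * D * (max s1 s2) ^ q * (s1 * s2 * r1 ^ 2) := by
  obtain ⟨hρ, hρ1, hρ2⟩ := rp_facts hr1
  have hρ : 0 < an r1 := hρ
  have p1 : 0 < s1 := hρ.trans_le h1
  have p2 : 0 < s2 := hρ.trans_le h2
  have pm : 0 < max s1 s2 := lt_max_of_lt_left p1
  have hD := hp.D0
  rw [sum_Ic]
  have h3 := dmax_cells hr1 hp.meas hp.disj hp.D0 hp.dens (Nc A r1) c b ![s1, s2] y0 (by
    intro i
    fin_cases i
    · exact ⟨h1, h1'⟩
    · exact ⟨h2, h2'⟩)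
  simp only [Matrix.cons_val_zero, Matrix.cons_val_one] at h3
  refine (ENNReal.ofReal_le_ofReal_iff ?_).1 ?_
  · have : 0 ≤ (max s1 s2) ^ q := Real.rpow_nonneg pm.le q
    positivity
  · rw [sum_mu hr1 hp _ (Finset.filter_subset _ _)]
    exact h3

/-- mass of a plate. -/
theorem Ic_plate (hr1 : 1 ≤ r1) (hp : Par q A c0 h g r1 s1' s2' D I1 P1) {a : ℕ} (ha : a ∈ I1)
    [DecidablePred fun T : ℕ × Cel => T.1 = a] :
    c0 * D * (s2' ^ q * (s1' * s2' * r1 ^ 2)) ≤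
      ∑ T ∈ (Ic A r1 I1 P1).filter (fun T => T.1 = a), mu (an r1) (an r1 * r1) g P1 T := by
  obtain ⟨hρ, hρ1, hρ2⟩ := rp_facts hr1
  have hr0 : 0 < r1 := by linarith
  have hl0 : 0 < an r1 * r1 := mul_pos hρ hr0
  rw [sum_Ic]
  have hnn : 0 ≤ ∑ T ∈ (TI (an r1) (Nc A r1) I1).filter (fun T => T.1 = a),
      mu (an r1) (an r1 * r1) g P1 T := Finset.sum_nonneg fun T _ => mu_nonneg _ _ _ _ _
  refine (ENNReal.ofReal_le_ofReal_iff hnn).1 ?_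
  rw [sum_mu hr1 hp _ (Finset.filter_subset _ _)]
  refine (hp.dense a ha).trans (le_of_eq ?_)
  have e : (TI (an r1) (Nc A r1) I1).filter (fun T => T.1 = a) =
      ({a} : Finset ℕ) ×ˢ (caps (an r1) ×ˢ kbox (Nc A r1)) := by
    ext T
    rw [Finset.mem_filter, mem_TI, Finset.mem_product, Finset.mem_product, Finset.mem_singleton]
    constructor
    · rintro ⟨⟨_, h2, h3⟩, h4⟩
      exact ⟨h4, h2, h3⟩
    · rintro ⟨h4, h2, h3⟩
      exact ⟨⟨h4 ▸ ha, h2, h3⟩, h4⟩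
  rw [e, Finset.sum_product, Finset.sum_singleton]
  exact (mass_plate hl0 (hp.meas a ha) (par_bd hp a ha) (Nc_le A r1)).symm

end par

end Crest.Agent.R138.Mis330
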