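import Crest.Agent.R138.Mw6_330

/-!
# R138 / R139: MIS / ALIGN, wave half, part 7 (helper330): the normalised incidences, energies of the
child plates
-/

set_option autoImplicit false
set_option linter.unusedSectionVars false
set_option linter.unusedVariables false

open MeasureTheory FourierTransform
open scoped ContDiff ENNReal

namespace Crest.Agent.R138.Mis330

open Crest.Agent.R138.Defs Crest.Agent.R138.Wpk685 Crest.Agent.R138.Loc878
open Crest.Agent.R138.W188 (tr Plate uS Plates)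
open Crest.Agent.R138.Ad480
open Crest.Agent.R138.Mis535 (PB)
open Crest.Agent.R138.P654 (an Smis selQ Par)

open Classical in
/-- **normalised incidence** of the child plate `i` and the cell `T`: misaligned and near. -/
noncomputable def om (n : ℕ) (δ : ℝ) (h : E2 → ℝ) (r1 dl s1 s2 K : ℝ) (P1 P : ℕ → Plate) (i : ℕ)
    (T : ℕ × Cel) : ℝ :=
  if δ < P654.sn (P i).b (P1 T.1).b ∧ NB h (an r1) (an r1 * r1) r1 K s1 s2 P i T.2 then
    (wT n h (an r1) (an (dl * r1)) (an r1 * r1) P i T.2).toReal / (36 * cdec + 1) else 0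

open Classical in
/-- far energy. -/
noncomputable def fw (n : ℕ) (h : E2 → ℝ) (g : E2 → ℂ) (A r1 dl s1 s2 K : ℝ) (I1 : Finset ℕ)
    (P1 P : ℕ → Plate) (i : ℕ) : ℝ≥0∞ :=
  ∑ T ∈ (TI (an r1) (Nc A r1) I1).filter
      (fun T => ¬ NB h (an r1) (an r1 * r1) r1 K s1 s2 P i T.2),
    wT n h (an r1) (an (dl * r1)) (an r1 * r1) P i T.2 * muE (an r1) (an r1 * r1) g P1 T

theorem c1_pos : 0 < 36 * cdec + 1 := by
  have := cdec_nonneg
  positivity

section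

variable {B : ℕ → ℝ} {q A c0 : ℝ} {h : E2 → ℝ} {g : E2 → ℂ} {r1 dl s1 s2 s1' s2' D K δ : ℝ}
  {I1 : Finset ℕ} {P1 : ℕ → Plate} {I : Finset ℕ} {P : ℕ → Plate} {k : ℕ}

theorem om_nonneg (n : ℕ) (i : ℕ) (T : ℕ × Cel) : 0 ≤ om n δ h r1 dl s1 s2 K P1 P i T := by
  unfold om
  split_ifs
  · exact div_nonneg ENNReal.toReal_nonneg c1_pos.le
  · exact le_rfl

theorem om_le (n : ℕ) (i : ℕ) (T : ℕ × Cel) : om n δ h r1 dl s1 s2 K P1 P i T ≤
    (wT n h (an r1) (an (dl * r1)) (an r1 * r1) P i T.2).toReal / (36 * cdec + 1) := by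
  unfold om
  split_ifs
  · exact le_rfl
  · exact div_nonneg ENNReal.toReal_nonneg c1_pos.le

theorem wT_le (hρ : 0 < an r1) (hρ' : 0 < an (dl * r1)) (hP : Plates A h (dl * r1) s1 s2 r1 I P)
    {i : ℕ} (hi : i ∈ I) (x : Cel) :
    wT (k + 4) h (an r1) (an (dl * r1)) (an r1 * r1) P i x ≤ ENNReal.ofReal (36 * cdec) :=
  wE_le hρ hρ' k _ (fun m _ => hP.meas i hi m) x.1 _

theorem wT_fin (hρ : 0 < an r1) (hρ' : 0 < an (dl * r1)) (hP : Plates A h (dl * r1) s1 s2 r1 I P)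
    {i : ℕ} (hi : i ∈ I) (x : Cel) :
    wT (k + 4) h (an r1) (an (dl * r1)) (an r1 * r1) P i x ≠ ⊤ :=
  ne_top_of_le_ne_top ENNReal.ofReal_ne_top (wT_le hρ hρ' hP hi x)

theorem om_le_one (hρ : 0 < an r1) (hρ' : 0 < an (dl * r1))
    (hP : Plates A h (dl * r1) s1 s2 r1 I P) {i : ℕ} (hi : i ∈ I) (T : ℕ × Cel) :
    om (k + 4) δ h r1 dl s1 s2 K P1 P i T ≤ 1 := by
  have hc := cdec_nonneg
  refine (om_le _ i T).trans ?_
  rw [div_le_one c1_pos]
  have h1 := ENNReal.toReal_mono ENNReal.ofReal_ne_top (wT_le (k := k) hρ hρ' hP hi T.2)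
  rw [ENNReal.toReal_ofReal (by positivity)] at h1
  linarith

theorem sum_om (hr1 : 0 < r1) (hdl : 0 < dl) (hdl1 : dl ≤ 1) (hρ : 0 < an r1)
    (hρ' : 0 < an (dl * r1)) (hP : Plates A h (dl * r1) s1 s2 r1 I P) (T : ℕ × Cel) :
    ∑ i ∈ I, om (k + 4) δ h r1 dl s1 s2 K P1 P i T ≤ 216 * (dl⁻¹) ^ 3 := by
  have hc := cdec_nonneg
  have hc1 := c1_pos
  calc ∑ i ∈ I, om (k + 4) δ h r1 dl s1 s2 K P1 P i T
      ≤ ∑ i ∈ I, (wT (k + 4) h (an r1) (an (dl * r1)) (an r1 * r1) P i T.2).toReal /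
          (36 * cdec + 1) := Finset.sum_le_sum fun i _ => om_le _ i T
    _ = (∑ i ∈ I, wT (k + 4) h (an r1) (an (dl * r1)) (an r1 * r1) P i T.2).toReal /
          (36 * cdec + 1) := by
        rw [← Finset.sum_div, ENNReal.toReal_sum fun i hi => wT_fin hρ hρ' hP hi T.2]
    _ ≤ (216 * (dl⁻¹) ^ 3 * (36 * cdec)) / (36 * cdec + 1) := by
        refine div_le_div_of_nonneg_right ?_ hc1.le
        have h1 := ENNReal.toReal_mono ENNReal.ofReal_ne_top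
          (tot_wT (l := an r1 * r1) hr1 hdl hdl1 hP hρ hρ' k T.2)
        rwa [ENNReal.toReal_ofReal (by positivity)] at h1
    _ ≤ _ := by
        rw [div_le_iff₀ hc1]
        have : 0 ≤ 216 * (dl⁻¹) ^ 3 := by positivity
        nlinarith

theorem om_ne (n : ℕ) {i : ℕ} {T : ℕ × Cel} (h0 : om n δ h r1 dl s1 s2 K P1 P i T ≠ 0) :
    δ < P654.sn (P i).b (P1 T.1).b ∧ NB h (an r1) (an r1 * r1) r1 K s1 s2 P i T.2 := by
  unfold om at h0
  split_ifs at h0 with h1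
  · exact h1
  · exact absurd rfl h0

open Classical in
/-- near energy through `om`. -/
theorem near_eq (hr1 : 1 ≤ r1) (hρ' : 0 < an (dl * r1))
    (hp : Par q A c0 h g r1 s1' s2' D I1 P1) (hP : Plates A h (dl * r1) s1 s2 r1 I P) {i : ℕ}
    (hi : i ∈ I) :
    ∑ T ∈ (TI (an r1) (Nc A r1) I1).filter (fun T => δ < P654.sn (P i).b (P1 T.1).b ∧
        NB h (an r1) (an r1 * r1) r1 K s1 s2 P i T.2),
      wT (k + 4) h (an r1) (an (dl * r1)) (an r1 * r1) P i T.2 *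
        muE (an r1) (an r1 * r1) g P1 T =
    ENNReal.ofReal ((36 * cdec + 1) * ∑ T ∈ Ic A r1 I1 P1,
      om (k + 4) δ h r1 dl s1 s2 K P1 P i T * mu (an r1) (an r1 * r1) g P1 T) := by
  obtain ⟨hρ, hρ1, hρ2⟩ := rp_facts hr1
  have hρ : 0 < an r1 := hρ
  have hc1 := c1_pos
  have e1 : ∑ T ∈ Ic A r1 I1 P1,
      om (k + 4) δ h r1 dl s1 s2 K P1 P i T * mu (an r1) (an r1 * r1) g P1 T =
      ∑ T ∈ TI (an r1) (Nc A r1) I1,
      om (k + 4) δ h r1 dl s1 s2 K P1 P i T * mu (an r1) (an r1 * r1) g P1 T := by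
    refine Finset.sum_subset Ic_sub fun T hT hT2 => ?_
    rw [mu_zero fun hne => hT2 (mem_Ic_of hT hne), mul_zero]
  rw [e1, Finset.mul_sum, ENNReal.ofReal_sum_of_nonneg fun T _ =>
    mul_nonneg hc1.le (mul_nonneg (om_nonneg _ _ _) (mu_nonneg _ _ _ _ _)), Finset.sum_filter]
  refine Finset.sum_congr rfl fun T hT => ?_
  unfold om
  split_ifs with h1
  · have e2 : (36 * cdec + 1) * ((wT (k + 4) h (an r1) (an (dl * r1)) (an r1 * r1) P i T.2).toReal /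
        (36 * cdec + 1) * mu (an r1) (an r1 * r1) g P1 T) =
        (wT (k + 4) h (an r1) (an (dl * r1)) (an r1 * r1) P i T.2).toReal *
          mu (an r1) (an r1 * r1) g P1 T := by
      field_simp
    rw [e2, ENNReal.ofReal_mul ENNReal.toReal_nonneg,
      ENNReal.ofReal_toReal (wT_fin hρ hρ' hP hi T.2),
      ofReal_mu hρ hρ1 hp.gi hp.g2 P1 (mem_TI.1 hT).2.1]
  · simp

open Classical in
/-- total far energy. -/
theorem sum_fw (hB : ParB B h) (hA : 0 ≤ A) (hr1 : 1 ≤ r1) (hdl : 0 < dl) (hdl1 : dl ≤ 1)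
    (hr' : 1 ≤ dl * r1) (hp : Par q A c0 h g r1 s1' s2' D I1 P1)
    (hP : Plates A h (dl * r1) s1 s2 r1 I P)
    (hs : ∀ i : Fin 2, an (dl * r1) ≤ (![s1, s2] : Fin 2 → ℝ) i) {X : ℝ} (hX : 0 < X)
    (hK : X + 2 * A + 3 * (1 + |B 2|) ≤ K) (k : ℕ) :
    ∑ i ∈ I, fw (k + 4) h g A r1 dl s1 s2 K I1 P1 P i ≤
      ENNReal.ofReal (216 * (dl⁻¹) ^ 3 * (36 * cdec * (X ^ k)⁻¹)) * en (an r1) g (uS I1 P1) := by
  obtain ⟨hρ, hρ1, hρ2, hρ', hρ'1, hρ'2, hρρ, hdiv⟩ := an_facts hr1 hdl hdl1 hr'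
  have hr0 : 0 < r1 := by linarith
  have hl0 : 0 < an r1 * r1 := mul_pos hρ hr0
  unfold fw
  simp_rw [Finset.sum_filter]
  rw [Finset.sum_comm]
  rw [← mass_all hl0 hp.meas hp.disj (par_bd hp) (Nc_le A r1), Finset.mul_sum]
  refine Finset.sum_le_sum fun T _ => ?_
  rw [← Finset.sum_filter, ← Finset.sum_mul]
  refine mul_le_mul' ?_ le_rfl
  refine far_wT (l := an r1 * r1) hr0 hdl hdl1 hP hρ hρ' hX k T.2 _ (Finset.filter_subset _ _) ?_
  intro i hi m' hm' y hy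
  obtain ⟨hi1, hi2⟩ := Finset.mem_filter.1 hi
  exact far_of_not_NB hB hA hr1 hdl hdl1 hr' hP hs hX.le hK hi1 hi2 m' hm' y hy

/-- **energy of one child plate.** -/
theorem e_le (B : ℕ → ℝ) (k : ℕ) : ∃ C : ℝ, 0 ≤ C ∧ ∀ (h : E2 → ℝ), ParB B h →
    ∀ (q A c0 : ℝ) (g : E2 → ℂ) (r1 dl s1 s2 s1' s2' D K δ : ℝ) (I1 : Finset ℕ) (P1 : ℕ → Plate)
    (I : Finset ℕ) (P : ℕ → Plate), 1 ≤ r1 → 0 < dl → dl ≤ 1 → 1 ≤ dl * r1 →
    Par q A c0 h g r1 s1' s2' D I1 P1 → Plates A h (dl * r1) s1 s2 r1 I P →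
    P654.IsMis δ h g dl r1 I1 P1 I P → ∀ i ∈ I,
    en (an (dl * r1)) (tr h (P i).z (sel (an r1) g (uS I1 P1))) (P i).S ≤
      ENNReal.ofReal (C * dl⁻¹) * (ENNReal.ofReal ((36 * cdec + 1) * ∑ T ∈ Ic A r1 I1 P1,
        om (k + 4) δ h r1 dl s1 s2 K P1 P i T * mu (an r1) (an r1 * r1) g P1 T) +
        fw (k + 4) h g A r1 dl s1 s2 K I1 P1 P i) := by
  classical
  obtain ⟨C, hC, h1⟩ := en_plate_le B (k + 4)
  refine ⟨4 * C, by positivity, ?_⟩
  intro h hB q A c0 g r1 dl s1 s2 s1' s2' D K δ I1 P1 I P hr1 hdl hdl1 hr' hp hP hmis i hi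
  obtain ⟨hρ, hρ1, hρ2, hρ', hρ'1, hρ'2, hρρ, hdiv⟩ := an_facts hr1 hdl hdl1 hr'
  have h2 := h1 h hB r1 dl hr1 hdl hdl1 hr' g hp.gi I1 P1 (A * r1) hp.meas hp.disj (par_bd hp)
    (Nc A r1) (Nc_le A r1) δ (P i).b (P i).z (hP.mem i hi).2 (P i).S
    (fun m _ => hP.meas i hi m)
  have h3 : en (an (dl * r1)) (tr h (P i).z (sel (an r1) g (uS I1 P1))) (P i).S ≤
      ENNReal.ofReal 4 *
        en (an (dl * r1)) (tr h (P i).z (sel (an r1) g (Smis δ (P i).b I1 P1))) (P i).S := by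
    unfold en
    rw [Finset.mul_sum]
    refine Finset.sum_le_sum fun m _ => ?_
    rw [← lintegral_const_mul' _ _ ENNReal.ofReal_ne_top]
    refine setLIntegral_mono' (hP.meas i hi m) fun y hy => ?_
    have h4 := hmis i hi m y hy
    rw [← ofReal_norm, ← ofReal_norm, ← ENNReal.ofReal_pow (norm_nonneg _),
      ← ENNReal.ofReal_pow (norm_nonneg _), ← ENNReal.ofReal_mul (by norm_num)]
    refine ENNReal.ofReal_le_ofReal ?_
    calc _ ≤ (2 * ‖um (an (dl * r1)) (tr h (P i).z (sel (an r1) g (Smis δ (P i).b I1 P1))) m y‖) ^ 2 :=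
          pow_le_pow_left₀ (norm_nonneg _) h4 2
      _ = _ := by ring
  refine h3.trans ((mul_le_mul' le_rfl h2).trans ?_)
  rw [← mul_assoc, ← ENNReal.ofReal_mul (by norm_num), ← mul_assoc]
  refine mul_le_mul' le_rfl ?_
  have h5 : ∀ x : ℕ × Cel, wE (k + 4) (an r1) (an (dl * r1)) (P i).S x.2.1
      (vv h (an r1) (an r1 * r1) (P i).z x.2) =
      wT (k + 4) h (an r1) (an (dl * r1)) (an r1 * r1) P i x.2 := fun x => rfl
  simp_rw [h5]
  rw [← near_eq hr1 hρ' hp hP hi]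
  unfold fw
  rw [← Finset.sum_filter_add_sum_filter_not ((TI (an r1) (Nc A r1) I1).filter
    (fun T => δ < P654.sn (P i).b (P1 T.1).b))
    (fun T => NB h (an r1) (an r1 * r1) r1 K s1 s2 P i T.2)]
  refine add_le_add (le_of_eq ?_) ?_
  · rw [Finset.filter_filter]
  · rw [Finset.filter_filter]
    refine Finset.sum_le_sum_of_subset ?_
    intro T hT
    rw [Finset.mem_filter] at hT ⊢
    exact ⟨hT.1, hT.2.2⟩

end

end Crest.Agent.R138.Mis330
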