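import Crest.Agent.R138.Mw7_330

/-!
# R138 / R139: MIS / ALIGN, wave half, part 8 (helper330): value of the child plates = near + far,
tails
-/

set_option autoImplicit false
set_option linter.unusedSectionVars false
set_option linter.unusedVariables false

open MeasureTheory FourierTransform
open scoped ContDiff ENNReal

namespace Crest.Agent.R138.Mis330

open Crest.Agent.R138.Defs Crest.Agent.R138.Wpk685 Crest.Agent.R138.Loc878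
open Crest.Agent.R138.W188 (tr Plate uS Plates val)
open Crest.Agent.R138.Ad480
open Crest.Agent.R138.Mis535 (PB)
open Crest.Agent.R138.P654 (an Smis selQ Par)

theorem rpow_32 (x : ℝ≥0∞) : x ^ (3/2 : ℝ) = x * x ^ (1/2 : ℝ) := by
  have : (3/2 : ℝ) = 1 + 1/2 := by norm_num
  rw [this, ENNReal.rpow_add_of_nonneg _ _ (by norm_num) (by norm_num), ENNReal.rpow_one]

theorem sum_rpow_le {κ : Type*} (J : Finset κ) (f : κ → ℝ≥0∞) :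
    ∑ j ∈ J, f j ^ (3/2 : ℝ) ≤ (∑ j ∈ J, f j) ^ (3/2 : ℝ) := by
  rw [rpow_32 (∑ j ∈ J, f j), Finset.sum_mul]
  refine Finset.sum_le_sum fun j hj => ?_
  rw [rpow_32]
  refine mul_le_mul' le_rfl (ENNReal.rpow_le_rpow ?_ (by norm_num))
  exact Finset.single_le_sum (f := f) (fun _ _ => zero_le) hj

/-- one term of `val`. -/
theorem val_term {r s1 s2 : ℝ} (hr : 0 < r) (hs1 : 0 < s1) (hs2 : 0 < s2) (e : ℝ≥0∞) :
    ENNReal.ofReal ((s1 * s2 * r ^ 3) ^ (-(1/2) : ℝ)) * (ENNReal.ofReal r * e) ^ (3 / 2 : ℝ) =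
      ENNReal.ofReal ((s1 * s2) ^ (-(1/2) : ℝ)) * e ^ (3/2 : ℝ) := by
  rw [ENNReal.mul_rpow_of_nonneg _ _ (by norm_num : (0:ℝ) ≤ 3/2), ENNReal.ofReal_rpow_of_pos hr,
    ← mul_assoc, ← ENNReal.ofReal_mul (by positivity)]
  congr 2
  rw [Real.mul_rpow (by positivity) (by positivity), mul_assoc]
  have h1 : (r ^ 3) ^ (-(1/2) : ℝ) * r ^ (3/2 : ℝ) = 1 := by
    rw [← Real.rpow_natCast r 3, ← Real.rpow_mul hr.le, ← Real.rpow_add hr]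
    norm_num
  rw [h1, mul_one]

/-- power `3/2` of near + far. -/
theorem pow_split {e a f : ℝ≥0∞} {K1 : ℝ} (hK1 : 0 ≤ K1) (h : e ≤ ENNReal.ofReal K1 * (a + f)) :
    e ^ (3/2 : ℝ) ≤ ENNReal.ofReal (2 * K1 ^ (3/2 : ℝ)) * (a ^ (3/2 : ℝ) + f ^ (3/2 : ℝ)) := by
  refine (ENNReal.rpow_le_rpow h (by norm_num : (0:ℝ) ≤ 3/2)).trans ?_
  rw [ENNReal.mul_rpow_of_nonneg _ _ (by norm_num : (0:ℝ) ≤ 3/2),
    ENNReal.ofReal_rpow_of_nonneg hK1 (by norm_num : (0:ℝ) ≤ 3/2), mul_comm 2 (K1 ^ (3/2 : ℝ)),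
    ENNReal.ofReal_mul (by positivity), mul_assoc]
  refine mul_le_mul' le_rfl ?_
  refine (ENNReal.rpow_add_le_mul_rpow_add_rpow a f (by norm_num : (1:ℝ) ≤ 3/2)).trans ?_
  refine mul_le_mul' ?_ le_rfl
  rw [ENNReal.ofReal_ofNat]
  calc (2 : ℝ≥0∞) ^ ((3/2 : ℝ) - 1) ≤ 2 ^ (1 : ℝ) :=
        ENNReal.rpow_le_rpow_of_exponent_le (by norm_num) (by norm_num)
    _ = 2 := ENNReal.rpow_one 2

/-- **value of the child plates = near + far.** -/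
theorem val_le (B : ℕ → ℝ) (k : ℕ) : ∃ C : ℝ, 0 ≤ C ∧ ∀ (h : E2 → ℝ), ParB B h →
    ∀ (q A c0 : ℝ) (g : E2 → ℂ) (r1 dl s1 s2 s1' s2' D K δ : ℝ) (I1 : Finset ℕ) (P1 : ℕ → Plate)
    (I : Finset ℕ) (P : ℕ → Plate), 1 ≤ r1 → 0 < dl → dl ≤ 1 → 1 ≤ dl * r1 → 0 < s1 → 0 < s2 →
    Par q A c0 h g r1 s1' s2' D I1 P1 → Plates A h (dl * r1) s1 s2 r1 I P →
    P654.IsMis δ h g dl r1 I1 P1 I P →
    val h (sel (an r1) g (uS I1 P1)) (dl * r1) s1 s2 I P ≤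
      ENNReal.ofReal (C * (dl⁻¹) ^ (3/2 : ℝ) * (s1 * s2) ^ (-(1/2) : ℝ)) *
        (ENNReal.ofReal (∑ i ∈ I, (∑ T ∈ Ic A r1 I1 P1,
          om (k + 4) δ h r1 dl s1 s2 K P1 P i T * mu (an r1) (an r1 * r1) g P1 T) ^ (3/2 : ℝ)) +
        (∑ i ∈ I, fw (k + 4) h g A r1 dl s1 s2 K I1 P1 P i) ^ (3/2 : ℝ)) := by
  obtain ⟨C, hC, h1⟩ := e_le B k
  have hc1 := c1_pos
  have hcd := cdec_nonneg
  refine ⟨2 * C ^ (3/2 : ℝ) * (36 * cdec + 1) ^ (3/2 : ℝ), by positivity, ?_⟩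
  intro h hB q A c0 g r1 dl s1 s2 s1' s2' D K δ I1 P1 I P hr1 hdl hdl1 hr' hs1 hs2 hp hP hmis
  have hr0 : 0 < dl * r1 := by linarith
  set nn : ℕ → ℝ := fun i => ∑ T ∈ Ic A r1 I1 P1,
    om (k + 4) δ h r1 dl s1 s2 K P1 P i T * mu (an r1) (an r1 * r1) g P1 T with hnn
  have hnn0 : ∀ i, 0 ≤ nn i := fun i =>
    Finset.sum_nonneg fun T _ => mul_nonneg (om_nonneg _ _ _) (mu_nonneg _ _ _ _ _)
  set ff : ℕ → ℝ≥0∞ := fun i => fw (k + 4) h g A r1 dl s1 s2 K I1 P1 P i with hff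
  have hterm : ∀ i ∈ I, (en (an (dl * r1)) (tr h (P i).z (sel (an r1) g (uS I1 P1))) (P i).S) ^
      (3/2 : ℝ) ≤ ENNReal.ofReal (2 * (C * dl⁻¹) ^ (3/2 : ℝ) * (36 * cdec + 1) ^ (3/2 : ℝ)) *
        (ENNReal.ofReal (nn i ^ (3/2 : ℝ)) + ff i ^ (3/2 : ℝ)) := by
    intro i hi
    have h2 := h1 h hB q A c0 g r1 dl s1 s2 s1' s2' D K δ I1 P1 I P hr1 hdl hdl1 hr' hp hP hmis i hi
    refine (pow_split (by positivity) h2).trans ?_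
    rw [ENNReal.ofReal_mul (p := 2 * (C * dl⁻¹) ^ (3/2 : ℝ)) (by positivity), mul_assoc]
    refine mul_le_mul' le_rfl ?_
    rw [mul_add]
    refine add_le_add (le_of_eq ?_) ?_
    · rw [ENNReal.ofReal_rpow_of_nonneg (mul_nonneg hc1.le (hnn0 i)) (by norm_num),
        ← ENNReal.ofReal_mul (by positivity), Real.mul_rpow hc1.le (hnn0 i)]
    · have h3 : (1 : ℝ≥0∞) ≤ ENNReal.ofReal ((36 * cdec + 1) ^ (3/2 : ℝ)) := by
        rw [← ENNReal.ofReal_one]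
        refine ENNReal.ofReal_le_ofReal ?_
        exact Real.one_le_rpow (by linarith) (by norm_num)
      calc ff i ^ (3/2 : ℝ) = 1 * ff i ^ (3/2 : ℝ) := (one_mul _).symm
        _ ≤ _ := mul_le_mul' h3 le_rfl
  unfold val
  calc ∑ i ∈ I, ENNReal.ofReal ((s1 * s2 * (dl * r1) ^ 3) ^ (-(1/2) : ℝ)) *
        (ENNReal.ofReal (dl * r1) * en ((dl * r1) ^ (-(1/2) : ℝ))
          (tr h (P i).z (sel (an r1) g (uS I1 P1))) (P i).S) ^ (3 / 2 : ℝ)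
      = ∑ i ∈ I, ENNReal.ofReal ((s1 * s2) ^ (-(1/2) : ℝ)) *
        (en (an (dl * r1)) (tr h (P i).z (sel (an r1) g (uS I1 P1))) (P i).S) ^ (3/2 : ℝ) :=
        Finset.sum_congr rfl fun i _ => val_term hr0 hs1 hs2 _
    _ ≤ ∑ i ∈ I, ENNReal.ofReal ((s1 * s2) ^ (-(1/2) : ℝ)) *
        (ENNReal.ofReal (2 * (C * dl⁻¹) ^ (3/2 : ℝ) * (36 * cdec + 1) ^ (3/2 : ℝ)) *
        (ENNReal.ofReal (nn i ^ (3/2 : ℝ)) + ff i ^ (3/2 : ℝ))) :=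
        Finset.sum_le_sum fun i hi => mul_le_mul' le_rfl (hterm i hi)
    _ = ENNReal.ofReal (2 * C ^ (3/2 : ℝ) * (36 * cdec + 1) ^ (3/2 : ℝ) * (dl⁻¹) ^ (3/2 : ℝ) *
          (s1 * s2) ^ (-(1/2) : ℝ)) *
        (ENNReal.ofReal (∑ i ∈ I, nn i ^ (3/2 : ℝ)) + ∑ i ∈ I, ff i ^ (3/2 : ℝ)) := by
        rw [← Finset.mul_sum, ← Finset.mul_sum, ← mul_assoc, ← ENNReal.ofReal_mul (by positivity),
          Finset.sum_add_distrib, ENNReal.ofReal_sum_of_nonneg fun i _ =>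
            Real.rpow_nonneg (hnn0 i) _]
        congr 2
        rw [Real.mul_rpow hC (by positivity)]
        ring
    _ ≤ _ := mul_le_mul' le_rfl (add_le_add le_rfl (sum_rpow_le I ff))

/-- real inequality for the tail. -/
theorem tail_real {q r1 dl s1 s2 Y c C1 C3 : ℝ} {M : ℕ} (hq : 0 ≤ q) (hq1 : q ≤ 1) (hr1 : 1 ≤ r1)
    (hdl : 0 < dl) (hdl1 : dl ≤ 1) (hr' : 1 ≤ dl * r1) (hY : 1 ≤ Y) (h1 : an r1 ≤ s1)
    (h2 : an r1 ≤ s2) (hc : 0 ≤ c) (hC1 : 0 ≤ C1) (hC3 : 0 ≤ C3) :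
    s2 ^ (-q / 2) * (C1 * (dl⁻¹) ^ (3/2 : ℝ) * (s1 * s2) ^ (-(1/2) : ℝ)) *
      ((216 * (dl⁻¹) ^ 3 * (c * (Y ^ M)⁻¹)) * C3) ^ (3/2 : ℝ) ≤
    C1 * (216 * c * C3 * (1 + 216 * c * C3)) * r1 ^ (20 : ℕ) * (Y ^ M)⁻¹ := by
  obtain ⟨hρ, hρ1, hρ2⟩ := rp_facts hr1
  have hρ : 0 < an r1 := hρ
  have hr0 : 0 < r1 := by linarith
  have p1 : 0 < s1 := hρ.trans_le h1
  have p2 : 0 < s2 := hρ.trans_le h2
  have hdi : 1 ≤ dl⁻¹ := (one_le_inv₀ hdl).2 hdl1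
  have hdr : dl⁻¹ ≤ r1 := by
    rw [inv_le_iff_one_le_mul₀ hdl]
    linarith
  have hYM : 1 ≤ Y ^ M := one_le_pow₀ hY
  have hYi : (Y ^ M)⁻¹ ≤ 1 := inv_le_one_of_one_le₀ hYM
  have hYi0 : 0 < (Y ^ M)⁻¹ := by positivity
  -- s2 factor
  have b1 : s2 ^ (-q / 2) ≤ r1 := by
    calc s2 ^ (-q / 2) ≤ (an r1) ^ (-q / 2) :=
          Real.rpow_le_rpow_of_nonpos hρ h2 (by linarith)
      _ = r1 ^ (q / 4) := by
          show (r1 ^ (-(1/2) : ℝ)) ^ (-q / 2) = _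
          rw [← Real.rpow_mul hr0.le]
          congr 1
          ring
      _ ≤ r1 ^ (1 : ℝ) := Real.rpow_le_rpow_of_exponent_le hr1 (by linarith)
      _ = r1 := Real.rpow_one r1
  have b2 : (s1 * s2) ^ (-(1/2) : ℝ) ≤ r1 := by
    calc (s1 * s2) ^ (-(1/2) : ℝ) ≤ (an r1 * an r1) ^ (-(1/2) : ℝ) :=
          Real.rpow_le_rpow_of_nonpos (by positivity) (mul_le_mul h1 h2 hρ.le p1.le) (by norm_num)
      _ = r1 ^ (1/2 : ℝ) := by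
          show (r1 ^ (-(1/2) : ℝ) * r1 ^ (-(1/2) : ℝ)) ^ (-(1/2) : ℝ) = _
          rw [← Real.rpow_add hr0, ← Real.rpow_mul hr0.le]
          norm_num
      _ ≤ r1 ^ (1 : ℝ) := Real.rpow_le_rpow_of_exponent_le hr1 (by norm_num)
      _ = r1 := Real.rpow_one r1
  have b3 : (dl⁻¹) ^ (3/2 : ℝ) ≤ r1 ^ 2 := by
    calc (dl⁻¹) ^ (3/2 : ℝ) ≤ (dl⁻¹) ^ (2 : ℝ) :=
          Real.rpow_le_rpow_of_exponent_le hdi (by norm_num)
      _ = (dl⁻¹) ^ 2 := by norm_num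
      _ ≤ r1 ^ 2 := pow_le_pow_left₀ (by positivity) hdr 2
  set t : ℝ := (216 * (dl⁻¹) ^ 3 * (c * (Y ^ M)⁻¹)) * C3 with ht
  have ht0 : 0 ≤ t := by positivity
  set c' : ℝ := 216 * c * C3 with hc'
  have hc'0 : 0 ≤ c' := by positivity
  have t1 : t = c' * (dl⁻¹) ^ 3 * (Y ^ M)⁻¹ := by rw [ht, hc']; ring
  have t2 : t ≤ c' * r1 ^ 3 * (Y ^ M)⁻¹ := by
    rw [t1]
    have : (dl⁻¹) ^ 3 ≤ r1 ^ 3 := pow_le_pow_left₀ (by positivity) hdr 3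
    gcongr
  have t3 : t ≤ c' * r1 ^ 3 := t2.trans (mul_le_of_le_one_right (by positivity) hYi)
  have hr3 : 1 ≤ r1 ^ 3 := one_le_pow₀ hr1
  have t4 : t ^ (1/2 : ℝ) ≤ (1 + c') * r1 ^ 3 := by
    have h5 : t ^ (1/2 : ℝ) ≤ 1 + t := by
      rcases le_total t 1 with h6 | h6
      · exact (Real.rpow_le_one ht0 h6 (by norm_num)).trans (by linarith)
      · calc t ^ (1/2 : ℝ) ≤ t ^ (1 : ℝ) := Real.rpow_le_rpow_of_exponent_le h6 (by norm_num)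
          _ = t := Real.rpow_one t
          _ ≤ _ := by linarith
    nlinarith
  have t5 : t ^ (3/2 : ℝ) ≤ c' * (1 + c') * r1 ^ 6 * (Y ^ M)⁻¹ := by
    have e : t ^ (3/2 : ℝ) = t * t ^ (1/2 : ℝ) := by
      have : (3/2 : ℝ) = 1 + 1/2 := by norm_num
      rw [this, Real.rpow_add_of_nonneg ht0 (by norm_num) (by norm_num), Real.rpow_one]
    rw [e]
    calc t * t ^ (1/2 : ℝ) ≤ (c' * r1 ^ 3 * (Y ^ M)⁻¹) * ((1 + c') * r1 ^ 3) :=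
          mul_le_mul t2 t4 (Real.rpow_nonneg ht0 _) (by positivity)
      _ = _ := by ring
  have p3 : 0 ≤ s2 ^ (-q / 2) := Real.rpow_nonneg p2.le _
  have p4 : 0 ≤ (s1 * s2) ^ (-(1/2) : ℝ) := by positivity
  have p5 : 0 ≤ (dl⁻¹) ^ (3/2 : ℝ) := by positivity
  calc s2 ^ (-q / 2) * (C1 * (dl⁻¹) ^ (3/2 : ℝ) * (s1 * s2) ^ (-(1/2) : ℝ)) * t ^ (3/2 : ℝ)
      ≤ r1 * (C1 * r1 ^ 2 * r1) * (c' * (1 + c') * r1 ^ 6 * (Y ^ M)⁻¹) := by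
        gcongr
    _ = C1 * (c' * (1 + c')) * r1 ^ 10 * (Y ^ M)⁻¹ := by ring
    _ ≤ C1 * (c' * (1 + c')) * r1 ^ 20 * (Y ^ M)⁻¹ := by
        have : r1 ^ 10 ≤ r1 ^ 20 := pow_le_pow_right₀ hr1 (by norm_num)
        gcongr
    _ = _ := by rw [hc']

end Crest.Agent.R138.Mis330
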