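import Crest.Agent.R138.Mw8_330
import Crest.Agent.R138.Mis2_535

/-!
# R138 / R139: MIS / ALIGN, wave half, part 9 (helper330): `P654.MIS` from the finite real part
-/

set_option autoImplicit false
set_option linter.unusedSectionVars false
set_option linter.unusedVariables false

open MeasureTheory FourierTransform
open scoped ContDiff ENNReal

namespace Crest.Agent.R138.Mis330

open Crest.Agent.R138.Defs Crest.Agent.R138.Wpk685 Crest.Agent.R138.Loc878
open Crest.Agent.R138.W188 (tr Plate uS Plates val)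
open Crest.Agent.R138.Ad480
open Crest.Agent.R138.Mis535 (PB)
open Crest.Agent.R138.P654 (an Smis selQ Par)

theorem lint_En {g : E2 → ℂ} (hg : MemLp g 2) :
    ∫⁻ ξ, ‖g ξ‖ₑ ^ 2 = ENNReal.ofReal (W188.En g) := by
  unfold W188.En
  rw [ofReal_integral_eq_lintegral_ofReal]
  · refine lintegral_congr fun ξ => ?_
    rw [← ofReal_norm, ENNReal.ofReal_pow (norm_nonneg _)]
  · exact hg.integrable_norm_pow (by norm_num)
  · exact Filter.Eventually.of_forall fun ξ => by positivity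

set_option maxHeartbeats 2000000 in
/-- **MIS** (PDef_654). -/
theorem mis (hKM : ∀ V : ℝ, Tub70.KM32 V) (B : ℕ → ℝ) {q : ℝ} (hq : 0 < q) (hq1 : q ≤ 1) :
    P654.MIS B q := by
  classical
  intro A hA
  have hB2 : 0 ≤ |B 2| := abs_nonneg _
  set A1 : ℝ := A + 3 / 2 with hA1
  set V : ℝ := 8 * (1 + |B 2|) + A1 with hV
  obtain ⟨G, hG, hE⟩ := Mis535.mis_E (hKM V) hq (show 1 ≤ A1 by linarith)
  refine ⟨1, G, one_pos, le_rfl, hG, ?_⟩
  intro ε hε
  obtain ⟨C2, G', hC2, hG', hE⟩ := hE ε hε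
  refine ⟨G', hG', ?_⟩
  intro M
  obtain ⟨C1, hC1, hval⟩ := val_le B M
  obtain ⟨C3, hC3, hen⟩ := en_le
  have hcd := cdec_nonneg
  set k1 : ℝ := 2 * A + 3 * (1 + |B 2|) with hk1
  have hk10 : 0 ≤ k1 := by rw [hk1]; positivity
  set Ca : ℝ := C1 * (C2 * 216 * (49 * (1 + k1)) ^ G' * 7) with hCa
  set Cb : ℝ := C1 * (216 * (36 * cdec) * C3 * (1 + 216 * (36 * cdec) * C3)) with hCb
  have hCa0 : 0 ≤ Ca := by positivity
  have hCb0 : 0 ≤ Cb := by positivity
  refine ⟨Ca + Cb, by positivity, ?_⟩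
  intro c0 h g r1 dl Y Gm s1' s2' s1 s2 D I1 P1 I P hC hw' hw hmis
  have hh := hC.parB
  have hp := hC.par
  have hP := hC.pl
  have hdl := hC.dlpos
  have hdl1 := hC.dlle
  have hGm := hC.Gm1
  have hY := hC.Y1
  have hc0 := hC.c0pos
  have hc01 := hC.c0le
  have hr1G := hC.r1ge
  have hdi : 1 ≤ dl ^ (-G) := Real.one_le_rpow_of_pos_of_le_one_of_nonpos hdl hdl1 (by linarith)
  have hr1 : 1 ≤ r1 := hdi.trans hr1G
  have hr0 : 0 < r1 := by linarith
  have hr' : 1 ≤ dl * r1 := by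
    have h1 : dl⁻¹ ≤ dl ^ (-G) := by
      rw [← Real.rpow_neg_one]
      exact Real.rpow_le_rpow_of_exponent_ge hdl hdl1 (by linarith)
    have h2 := mul_le_mul_of_nonneg_left (h1.trans hr1G) hdl.le
    rwa [mul_inv_cancel₀ hdl.ne'] at h2
  obtain ⟨hρ, hρ1, hρ2, hρ', hρ'1, hρ'2, hρρ, hdiv⟩ := an_facts hr1 hdl hdl1 hr'
  have hanr : an (dl * r1) = dl ^ (-(1/2) : ℝ) * an r1 := by
    show (dl * r1) ^ (-(1/2) : ℝ) = _
    rw [Real.mul_rpow hdl.le hr0.le]
  have hs1 : an (dl * r1) ≤ s1 := hC.sd.lo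
  have hs12 : s1 ≤ s2 := hC.sd.le
  have hs2 : s2 ≤ 1 := hC.sd.hi
  have hs1' : an r1 ≤ s1' := hp.sd.lo
  have hs12' : s1' ≤ s2' := hp.sd.le
  have hs2' : s2' ≤ 1 := hp.sd.hi
  have p1 : 0 < s1 := hρ'.trans_le hs1
  have p2 : 0 < s2 := p1.trans_le hs12
  have hD := hp.D0
  set K : ℝ := Y + k1 with hK
  have hKX : Y + 2 * A + 3 * (1 + |B 2|) ≤ K := by rw [hK, hk1]; linarith
  have hAK : A1 ≤ K := by rw [hA1, hK, hk1]; linarith
  set δ : ℝ := dl ^ (1/2 : ℝ) with hδ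
  -- the finite part
  have hfin := hE r1 (an r1) dl Gm K 216 (c0 / 49) (49 * D) s1' s2' s1 s2 hr1 rfl hdl hdl1 hr1G hGm
    hAK (by norm_num) (by positivity) (by linarith) (by positivity) hs1' hs12' hs2'
    (hρρ.trans hs1) hs12 hs2 hC.thin' (by rw [← hanr]; exact hC.thin) hw'
    ((mul_le_mul_of_nonneg_left hρρ (by positivity)).trans hw)
    (ℕ × Cel) ℕ ℕ (Ic A r1 I1 P1) (fun T => gradient h (cen (an r1) T.2.1))
    (fun T => cen (an r1 * r1) T.2.2) (mu (an r1) (an r1 * r1) g P1)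
    (fun T => mu_nonneg _ _ _ _ _)
    (fun T hT => (Ic_vel hh hC.h1 hr1 hT).trans (by rw [hV]; linarith))
    (fun T hT => (Ic_pos hr1 hp hT).trans (by
      refine mul_le_mul_of_nonneg_right ?_ hr0.le
      rw [hV, hA1]
      linarith))
    (fun b t1 t2 c y0 h1 h2 h3 h4 => Ic_dens hr1 hp b t1 t2 c y0 h1 h2 h3 h4)
    (fun T => T.1) (fun a => (P1 a).b) (fun a => (P1 a).c) (fun a => (P1 a).x)
    (fun T hT => Ic_box (by linarith) hr1 hp hT)
    (fun T hT => by
      have h1 := Ic_plate (A := A) hr1 hp (a := T.1) (mem_Ic hT).1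
      have e : c0 / 49 * (49 * D) * s2' ^ q * (s1' * s2' * r1 ^ 2) =
        c0 * D * (s2' ^ q * (s1' * s2' * r1 ^ 2)) := by ring
      rw [e]
      convert h1)
    I (om (M + 4) δ h r1 dl s1 s2 K P1 P) (fun i => (P i).b) (fun i => (P i).c) (fun i => yP P i)
    (fun i _ T _ => om_nonneg _ _ _)
    (fun i hi T _ => om_le_one hρ hρ' hP hi T)
    (fun i hi T hT h0 => (om_ne _ h0).2)
    (fun i hi T hT h0 => by
      have h1 := (om_ne _ h0).1
      rw [sn_eq, Mis535.sn_comm, abs_neg] at h1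
      exact h1.le)
    (fun T hT => sum_om hr0 hdl hdl1 hρ hρ' hP T)
  have hvl := hval h hh q A c0 g r1 dl s1 s2 s1' s2' D K δ I1 P1 I P hr1 hdl hdl1 hr' p1 p2 hp hP
    hmis
  have hfar := sum_fw hh (by linarith : 0 ≤ A) hr1 hdl hdl1 hr' hp hP (by
    intro i
    fin_cases i
    · exact hs1
    · exact hs1.trans hs12) (by linarith : 0 < Y) hKX M
  set nn : ℝ := ∑ i ∈ I, (∑ T ∈ Ic A r1 I1 P1,
          om (M + 4) δ h r1 dl s1 s2 K P1 P i T * mu (an r1) (an r1 * r1) g P1 T) ^ (3/2 : ℝ)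
    with hnn
  set F : ℝ≥0∞ := ∑ i ∈ I, fw (M + 4) h g A r1 dl s1 s2 K I1 P1 P i with hF
  set μt : ℝ := ∑ T ∈ Ic A r1 I1 P1, mu (an r1) (an r1 * r1) g P1 T with hμt
  have hμt0 : 0 ≤ μt := Finset.sum_nonneg fun T _ => mu_nonneg _ _ _ _ _
  have hnn0 : 0 ≤ nn := Finset.sum_nonneg fun i _ => Real.rpow_nonneg (Finset.sum_nonneg fun T _ =>
    mul_nonneg (om_nonneg _ _ _) (mu_nonneg _ _ _ _ _)) _
  have htot : ENNReal.ofReal μt = en (an r1) g (uS I1 P1) := tot_mu hr1 hp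
  have q1 : 0 ≤ s2 ^ (-q / 2) := Real.rpow_nonneg p2.le _
  have q2 : 0 ≤ (s1 * s2) ^ (-(1/2) : ℝ) := by positivity
  have q3 : 0 ≤ (dl⁻¹) ^ (3/2 : ℝ) := by positivity
  calc ENNReal.ofReal (s2 ^ (-q / 2)) * val h (sel (an r1) g (uS I1 P1)) (dl * r1) s1 s2 I P
      ≤ ENNReal.ofReal (s2 ^ (-q / 2)) *
        (ENNReal.ofReal (C1 * (dl⁻¹) ^ (3/2 : ℝ) * (s1 * s2) ^ (-(1/2) : ℝ)) *
        (ENNReal.ofReal nn + F ^ (3/2 : ℝ))) := mul_le_mul' le_rfl hvl
    _ = ENNReal.ofReal (s2 ^ (-q / 2) * (C1 * (dl⁻¹) ^ (3/2 : ℝ) * (s1 * s2) ^ (-(1/2) : ℝ)) * nn) +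
        ENNReal.ofReal (s2 ^ (-q / 2) * (C1 * (dl⁻¹) ^ (3/2 : ℝ) * (s1 * s2) ^ (-(1/2) : ℝ))) *
          F ^ (3/2 : ℝ) := by
        rw [← mul_assoc, ← ENNReal.ofReal_mul q1, mul_add, ← ENNReal.ofReal_mul (by positivity)]
    _ ≤ ENNReal.ofReal ((Ca + Cb) * r1 ^ ε * (Y / c0) ^ G' * Gm ^ G * dl ^ (1/2 : ℝ)) *
          P654.SCo g r1 D (uS I1 P1) + P654.Tl (Ca + Cb) Y M g r1 := by
        refine add_le_add ?_ ?_
        · -- near part
          unfold P654.SCo
          rw [← htot, ← ENNReal.ofReal_mul (by positivity), ← ENNReal.ofReal_mul (by positivity)]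
          refine ENNReal.ofReal_le_ofReal ?_
          have e1 : s2 ^ (-q / 2) * (C1 * (dl⁻¹) ^ (3/2 : ℝ) * (s1 * s2) ^ (-(1/2) : ℝ)) * nn =
              C1 * (dl⁻¹) ^ (3/2 : ℝ) * (s2 ^ (-q / 2) * (s1 * s2) ^ (-(1/2) : ℝ) * nn) := by ring
          rw [e1]
          refine (mul_le_mul_of_nonneg_left hfin (by positivity)).trans ?_
          have e2 : (dl⁻¹) ^ (3/2 : ℝ) * dl ^ (2 : ℕ) = dl ^ (1/2 : ℝ) := by
            rw [Real.inv_rpow hdl.le, ← Real.rpow_neg hdl.le, ← Real.rpow_natCast dl 2,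
              ← Real.rpow_add hdl]
            norm_num
          have e3 : Real.sqrt (49 * D) = 7 * Real.sqrt D := by
            rw [Real.sqrt_mul (by norm_num)]
            congr 1
            rw [show (49 : ℝ) = 7 ^ 2 by norm_num]
            exact Real.sqrt_sq (by norm_num)
          have e4 : (K / (c0 / 49)) ^ G' ≤ (49 * (1 + k1)) ^ G' * (Y / c0) ^ G' := by
            rw [← Real.mul_rpow (by positivity) (by positivity)]
            refine Real.rpow_le_rpow (by positivity) ?_ hG'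
            have : K / (c0 / 49) = 49 * K / c0 := by field_simp
            rw [this, ← mul_div_assoc]
            refine div_le_div_of_nonneg_right ?_ hc0.le
            have h5 : k1 * 1 ≤ k1 * Y := mul_le_mul_of_nonneg_left hY hk10
            calc 49 * K = 49 * (Y + k1 * 1) := by rw [hK, mul_one]
              _ ≤ 49 * (Y + k1 * Y) := by gcongr
              _ = 49 * (1 + k1) * Y := by ring
          have hsD := Real.sqrt_nonneg D
          have hGG : 0 ≤ Gm ^ G := Real.rpow_nonneg (by linarith) _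
          have hrε : 0 ≤ r1 ^ ε := Real.rpow_nonneg hr0.le _
          have hYc : 0 ≤ (Y / c0) ^ G' := Real.rpow_nonneg (by positivity) _
          have hdh : 0 ≤ dl ^ (1/2 : ℝ) := Real.rpow_nonneg hdl.le _
          rw [e3]
          calc C1 * (dl⁻¹) ^ (3/2 : ℝ) * (C2 * 216 * r1 ^ ε * (K / (c0 / 49)) ^ G' * Gm ^ G *
                dl ^ (2 : ℕ) * (r1 * (7 * Real.sqrt D)) * μt)
              = C1 * ((dl⁻¹) ^ (3/2 : ℝ) * dl ^ (2 : ℕ)) * (C2 * 216 * r1 ^ ε *
                (K / (c0 / 49)) ^ G' * Gm ^ G * (7 * Real.sqrt D * r1) * μt) := by ring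
            _ = C1 * dl ^ (1/2 : ℝ) * (C2 * 216 * r1 ^ ε *
                (K / (c0 / 49)) ^ G' * Gm ^ G * (7 * Real.sqrt D * r1) * μt) := by rw [e2]
            _ ≤ C1 * dl ^ (1/2 : ℝ) * (C2 * 216 * r1 ^ ε *
                ((49 * (1 + k1)) ^ G' * (Y / c0) ^ G') * Gm ^ G * (7 * Real.sqrt D * r1) * μt) := by
                gcongr
            _ = Ca * r1 ^ ε * (Y / c0) ^ G' * Gm ^ G * dl ^ (1/2 : ℝ) * (r1 * Real.sqrt D * μt) := by
                rw [hCa]; ring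
            _ ≤ (Ca + Cb) * r1 ^ ε * (Y / c0) ^ G' * Gm ^ G * dl ^ (1/2 : ℝ) *
                (r1 * Real.sqrt D * μt) := by
                have : Ca ≤ Ca + Cb := by linarith
                gcongr
            _ = _ := by ring
        · -- far part
          unfold P654.Tl
          have hen1 : en (an r1) g (uS I1 P1) ≤ ENNReal.ofReal C3 * ENNReal.ofReal (W188.En g) := by
            have := hen (an r1) hρ hρ1 g hp.gi hp.g2 (uS I1 P1)
            rwa [lint_En hp.g2] at this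
          have hF1 : F ≤ ENNReal.ofReal ((216 * (dl⁻¹) ^ 3 * (36 * cdec * (Y ^ M)⁻¹)) * C3) *
              ENNReal.ofReal (W188.En g) := by
            refine hfar.trans ((mul_le_mul' le_rfl hen1).trans (le_of_eq ?_))
            rw [← mul_assoc, ← ENNReal.ofReal_mul (by positivity)]
          have hF2 : F ^ (3/2 : ℝ) ≤ ENNReal.ofReal
              (((216 * (dl⁻¹) ^ 3 * (36 * cdec * (Y ^ M)⁻¹)) * C3) ^ (3/2 : ℝ)) *
              (ENNReal.ofReal (W188.En g)) ^ (3/2 : ℝ) := by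
            refine (ENNReal.rpow_le_rpow hF1 (by norm_num : (0:ℝ) ≤ 3/2)).trans (le_of_eq ?_)
            rw [ENNReal.mul_rpow_of_nonneg _ _ (by norm_num : (0:ℝ) ≤ 3/2),
              ENNReal.ofReal_rpow_of_nonneg (by positivity) (by norm_num)]
          refine (mul_le_mul' le_rfl hF2).trans ?_
          rw [← mul_assoc, ← ENNReal.ofReal_mul (by positivity)]
          refine mul_le_mul' (ENNReal.ofReal_le_ofReal ?_) le_rfl
          refine (tail_real hq.le hq1 hr1 hdl hdl1 hr' hY (hρρ.trans hs1)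
            ((hρρ.trans hs1).trans hs12) (by positivity) hC1 hC3).trans ?_
          have hYM : 0 ≤ (Y ^ M)⁻¹ := by positivity
          calc C1 * (216 * (36 * cdec) * C3 * (1 + 216 * (36 * cdec) * C3)) * r1 ^ (20 : ℕ) *
                (Y ^ M)⁻¹ = Cb * r1 ^ (20 : ℕ) * (Y ^ M)⁻¹ := by rw [hCb]
            _ ≤ _ := by
                have : Cb ≤ Ca + Cb := by linarith
                gcongr

end Crest.Agent.R138.Mis330
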