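import Mathlib
import Crest.Agent.R138.Fac_535

/-!
# The finitary non-rotation lemma (helper877), part 1: abstract core

Two partitions `f`, `g` of a weighted family of sets `E t`; the pieces of `g` lie in sets `P k`
(grouped in cells), the pieces of `f` in sets `J k`.  If the `P k` of one cell overlap little, the
`E t` overlap little inside the pieces of `g` and (much less) inside the common pieces of `f`, `g`,
then the bad family `Sb` carries little mass.
-/

set_option autoImplicit false

namespace Crest.Agent.R138.NR877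

open MeasureTheory Finset Classical
open scoped ENNReal

theorem amgm (a s : ℝ≥0∞) (hs : s ≠ 0) (hs' : s ≠ ∞) : a ≤ s⁻¹ * a ^ 2 + s := by
  rcases le_total a s with h | h
  · exact h.trans le_add_self
  · refine le_trans ?_ le_self_add
    calc a = s⁻¹ * (s * a) := by rw [← mul_assoc, ENNReal.inv_mul_cancel hs hs', one_mul]
      _ ≤ s⁻¹ * (a * a) := by gcongr
      _ = _ := by rw [sq]

theorem le_inv_sq (a s : ℝ≥0∞) (hs : s ≠ 0) (hs' : s ≠ ∞) (h : s ≤ a) : a ≤ s⁻¹ * a ^ 2 := by
  calc a = s⁻¹ * (s * a) := by rw [← mul_assoc, ENNReal.inv_mul_cancel hs hs', one_mul]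
      _ ≤ s⁻¹ * (a * a) := by gcongr
      _ = _ := by rw [sq]

variable {X ι κ₁ κ₂ γ : Type*}

/-- multiplicity function of a subfamily -/
noncomputable def mult (T : Finset ι) (m : ι → ℝ≥0∞) (E : ι → Set X) (y : X) : ℝ≥0∞ :=
  ∑ t ∈ T, m t * (E t).indicator 1 y

theorem mult_eq_zero {T : Finset ι} {m : ι → ℝ≥0∞} {E : ι → Set X} {y : X}
    (h : ∀ t ∈ T, y ∉ E t) : mult T m E y = 0 := by
  unfold mult
  refine Finset.sum_eq_zero fun t ht => ?_
  rw [Set.indicator_of_notMem (h t ht), mul_zero]

theorem mult_mono {T T' : Finset ι} (h : T ⊆ T') (m : ι → ℝ≥0∞) (E : ι → Set X) (y : X) :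
    mult T m E y ≤ mult T' m E y :=
  Finset.sum_le_sum_of_subset h

theorem measurable_mult [MeasurableSpace X] {T : Finset ι} {m : ι → ℝ≥0∞} {E : ι → Set X}
    (hE : ∀ t ∈ T, MeasurableSet (E t)) : Measurable (mult T m E) := by
  unfold mult
  exact Finset.measurable_fun_sum T fun t ht =>
    (measurable_one.indicator (hE t ht)).const_mul _

/-- the pointwise inequality behind `core` -/
theorem core_pointwise (S2 Sb : Finset ι) (hSb : Sb ⊆ S2) (f : ι → κ₁) (g : ι → κ₂)
    (cell : κ₂ → γ) (m : ι → ℝ≥0∞) (E : ι → Set X) (P : κ₂ → Set X) (J : κ₁ → Set X)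
    (hEP : ∀ t ∈ S2, E t ⊆ P (g t)) (hEJ : ∀ t ∈ Sb, E t ⊆ J (f t)) (n0 : ℕ)
    (hcell : ∀ k ∈ Sb.image f,
      ((Sb.filter (fun t => f t = k)).image (fun t => cell (g t))).card ≤ n0)
    (s s' lam : ℝ≥0∞) (hs : s ≠ 0) (hs1 : s ≠ ∞) (hs' : s' ≠ 0) (hs1' : s' ≠ ∞)
    (hl : lam ≠ 0) (hl1 : lam ≠ ∞) (y : X) :
    mult Sb m E y ≤
      s⁻¹ * ∑ p ∈ Sb.image (fun t => (f t, g t)),
          mult (Sb.filter (fun t => (f t, g t) = p)) m E y ^ 2
      + s * (n0 * lam * ∑ k ∈ Sb.image f, (J k).indicator 1 y)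
      + s'⁻¹ * ∑ k ∈ S2.image g, mult (S2.filter (fun t => g t = k)) m E y ^ 2
      + s' * (lam⁻¹ * ∑ c ∈ (S2.image g).image cell,
          mult ((S2.image g).filter (fun k => cell k = c)) (fun _ => 1) P y ^ 2) := by
  set N : γ → ℝ≥0∞ := fun c => mult ((S2.image g).filter (fun k => cell k = c)) (fun _ => 1) P y
    with hN
  set F : κ₁ × κ₂ → ℝ≥0∞ := fun p => mult (Sb.filter (fun t => (f t, g t) = p)) m E y with hF
  set G : κ₂ → ℝ≥0∞ := fun k => mult (S2.filter (fun t => g t = k)) m E y with hG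
  -- decomposition over pairs
  have e1 : mult Sb m E y = ∑ p ∈ Sb.image (fun t => (f t, g t)), F p := by
    simp only [hF, mult]
    rw [Finset.sum_fiberwise_of_maps_to]
    intro t ht
    exact Finset.mem_image_of_mem _ ht
  have e2 : ∀ p, F p = (if N (cell p.2) ≤ lam then F p else 0)
      + (if N (cell p.2) ≤ lam then 0 else F p) := by
    intro p; split_ifs <;> simp
  have e3 : mult Sb m E y
      = ∑ p ∈ Sb.image (fun t => (f t, g t)), (if N (cell p.2) ≤ lam then F p else 0)
        + ∑ p ∈ Sb.image (fun t => (f t, g t)), (if N (cell p.2) ≤ lam then 0 else F p) := by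
    rw [e1, ← Finset.sum_add_distrib]
    exact Finset.sum_congr rfl fun p _ => e2 p
  -- support
  have hsupp : ∀ p ∈ Sb.image (fun t => (f t, g t)),
      F p ≤ s⁻¹ * F p ^ 2 + s * ((J p.1).indicator 1 y * (P p.2).indicator 1 y) := by
    intro p _
    by_cases h0 : ∀ t ∈ Sb.filter (fun t => (f t, g t) = p), y ∉ E t
    · have : F p = 0 := mult_eq_zero h0
      rw [this]; exact zero_le
    · push Not at h0
      obtain ⟨t, ht, hy⟩ := h0
      rw [Finset.mem_filter] at ht
      obtain ⟨ht1, rfl⟩ := ht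
      have h1 : y ∈ J (f t) := hEJ t ht1 hy
      have h2 : y ∈ P (g t) := hEP t (hSb ht1) hy
      rw [Set.indicator_of_mem h1, Set.indicator_of_mem h2]
      simp only [Pi.one_apply, mul_one]
      exact amgm _ _ hs hs1
  -- first part
  have hA : ∑ p ∈ Sb.image (fun t => (f t, g t)), (if N (cell p.2) ≤ lam then F p else 0)
      ≤ s⁻¹ * ∑ p ∈ Sb.image (fun t => (f t, g t)), F p ^ 2
        + s * (n0 * lam * ∑ k ∈ Sb.image f, (J k).indicator 1 y) := by
    have h1 : ∑ p ∈ Sb.image (fun t => (f t, g t)), (if N (cell p.2) ≤ lam then F p else 0)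
        ≤ ∑ p ∈ Sb.image (fun t => (f t, g t)), (s⁻¹ * F p ^ 2
          + s * ((J p.1).indicator 1 y *
            (if N (cell p.2) ≤ lam then (P p.2).indicator 1 y else 0))) := by
      refine Finset.sum_le_sum fun p hp => ?_
      split_ifs with h
      · exact hsupp p hp
      · exact zero_le
    refine h1.trans ?_
    rw [Finset.sum_add_distrib, ← Finset.mul_sum, ← Finset.mul_sum]
    gcongr
    -- sum over pairs ≤ n0 lam Σ
    have h2 : ∑ p ∈ Sb.image (fun t => (f t, g t)), (J p.1).indicator (1 : X → ℝ≥0∞) y *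
            (if N (cell p.2) ≤ lam then (P p.2).indicator 1 y else 0)
        = ∑ k ∈ Sb.image f, ∑ p ∈ (Sb.image (fun t => (f t, g t))).filter (fun p => p.1 = k),
            (J p.1).indicator (1 : X → ℝ≥0∞) y *
            (if N (cell p.2) ≤ lam then (P p.2).indicator 1 y else 0) := by
      refine (Finset.sum_fiberwise_of_maps_to (g := Prod.fst) (fun p hp => ?_) _).symm
      rw [Finset.mem_image] at hp ⊢
      obtain ⟨t, ht, rfl⟩ := hp
      exact ⟨t, ht, rfl⟩
    rw [h2, Finset.mul_sum]
    refine Finset.sum_le_sum fun k hk => ?_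
    have h3 : ∑ p ∈ (Sb.image (fun t => (f t, g t))).filter (fun p => p.1 = k),
            (J p.1).indicator (1 : X → ℝ≥0∞) y *
            (if N (cell p.2) ≤ lam then (P p.2).indicator 1 y else 0)
        = (J k).indicator (1 : X → ℝ≥0∞) y *
          ∑ p ∈ (Sb.image (fun t => (f t, g t))).filter (fun p => p.1 = k),
            (if N (cell p.2) ≤ lam then (P p.2).indicator 1 y else 0) := by
      rw [Finset.mul_sum]
      refine Finset.sum_congr rfl fun p hp => ?_
      rw [(Finset.mem_filter.1 hp).2]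
    rw [h3, mul_comm]
    gcongr
    -- Σ over k2 of pairs
    set C : Finset γ := (Sb.filter (fun t => f t = k)).image (fun t => cell (g t)) with hC
    have h4 : ∑ p ∈ (Sb.image (fun t => (f t, g t))).filter (fun p => p.1 = k),
            (if N (cell p.2) ≤ lam then (P p.2).indicator (1 : X → ℝ≥0∞) y else 0)
        ≤ ∑ c ∈ C, ∑ k2 ∈ (S2.image g).filter (fun k => cell k = c),
            (if N (cell k2) ≤ lam then (P k2).indicator (1 : X → ℝ≥0∞) y else 0) := by
      have h5 : ∑ p ∈ (Sb.image (fun t => (f t, g t))).filter (fun p => p.1 = k),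
            (if N (cell p.2) ≤ lam then (P p.2).indicator (1 : X → ℝ≥0∞) y else 0)
          = ∑ k2 ∈ ((Sb.image (fun t => (f t, g t))).filter (fun p => p.1 = k)).image Prod.snd,
            (if N (cell k2) ≤ lam then (P k2).indicator (1 : X → ℝ≥0∞) y else 0) := by
        rw [Finset.sum_image]
        intro p hp p' hp' hpp
        rw [Finset.mem_coe, Finset.mem_filter] at hp hp'
        exact Prod.ext (hp.2.trans hp'.2.symm) hpp
      rw [h5]
      rw [← Finset.sum_biUnion]
      · apply Finset.sum_le_sum_of_subset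
        intro k2 hk2
        rw [Finset.mem_image] at hk2
        obtain ⟨p, hp, rfl⟩ := hk2
        rw [Finset.mem_filter, Finset.mem_image] at hp
        obtain ⟨⟨t, ht, rfl⟩, hk'⟩ := hp
        rw [Finset.mem_biUnion]
        refine ⟨cell (g t), ?_, ?_⟩
        · rw [hC, Finset.mem_image]
          exact ⟨t, Finset.mem_filter.2 ⟨ht, hk'⟩, rfl⟩
        · rw [Finset.mem_filter]
          exact ⟨Finset.mem_image_of_mem _ (hSb ht), rfl⟩
      · intro c _ c' _ hcc
        rw [Function.onFun, Finset.disjoint_left]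
        intro x hx hx'
        exact hcc ((Finset.mem_filter.1 hx).2.symm.trans (Finset.mem_filter.1 hx').2)
    refine h4.trans ?_
    have h6 : ∀ c ∈ C, ∑ k2 ∈ (S2.image g).filter (fun k => cell k = c),
            (if N (cell k2) ≤ lam then (P k2).indicator (1 : X → ℝ≥0∞) y else 0) ≤ lam := by
      intro c _
      by_cases hc : N c ≤ lam
      · refine le_trans ?_ hc
        simp only [hN, mult, one_mul]
        refine Finset.sum_le_sum fun k2 _ => ?_
        split_ifs
        · exact le_rfl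
        · exact zero_le
      · refine le_trans (le_of_eq ?_) zero_le
        refine Finset.sum_eq_zero fun k2 hk2 => ?_
        rw [(Finset.mem_filter.1 hk2).2, if_neg hc]
    refine (Finset.sum_le_sum h6).trans ?_
    rw [Finset.sum_const, nsmul_eq_mul]
    gcongr
    exact hcell k hk
  -- second part
  have hB : ∑ p ∈ Sb.image (fun t => (f t, g t)), (if N (cell p.2) ≤ lam then 0 else F p)
      ≤ s'⁻¹ * ∑ k ∈ S2.image g, G k ^ 2
        + s' * (lam⁻¹ * ∑ c ∈ (S2.image g).image cell, N c ^ 2) := by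
    have h1 : ∑ p ∈ Sb.image (fun t => (f t, g t)), (if N (cell p.2) ≤ lam then 0 else F p)
        = ∑ t ∈ Sb, (if N (cell (g t)) ≤ lam then 0 else m t * (E t).indicator 1 y) := by
      rw [← Finset.sum_fiberwise_of_maps_to (s := Sb) (t := Sb.image (fun t => (f t, g t)))
        (g := fun t => (f t, g t)) (fun t ht => Finset.mem_image_of_mem _ ht)]
      refine Finset.sum_congr rfl fun p _ => ?_
      split_ifs with h
      · symm
        refine Finset.sum_eq_zero fun t ht => ?_
        have : cell (g t) = cell p.2 := by rw [← (Finset.mem_filter.1 ht).2]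
        rw [this, if_pos h]
      · simp only [hF, mult]
        refine Finset.sum_congr rfl fun t ht => ?_
        have : cell (g t) = cell p.2 := by rw [← (Finset.mem_filter.1 ht).2]
        rw [this, if_neg h]
    have h2 : ∑ t ∈ Sb, (if N (cell (g t)) ≤ lam then 0 else m t * (E t).indicator 1 y)
        ≤ ∑ t ∈ S2, (if N (cell (g t)) ≤ lam then 0 else m t * (E t).indicator 1 y) :=
      Finset.sum_le_sum_of_subset hSb
    have h3 : ∑ t ∈ S2, (if N (cell (g t)) ≤ lam then 0 else m t * (E t).indicator 1 y)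
        = ∑ k ∈ S2.image g, (if N (cell k) ≤ lam then 0 else G k) := by
      rw [← Finset.sum_fiberwise_of_maps_to (s := S2) (t := S2.image g)
        (g := g) (fun t ht => Finset.mem_image_of_mem _ ht)]
      refine Finset.sum_congr rfl fun k _ => ?_
      split_ifs with h
      · refine Finset.sum_eq_zero fun t ht => ?_
        rw [(Finset.mem_filter.1 ht).2, if_pos h]
      · simp only [hG, mult]
        refine Finset.sum_congr rfl fun t ht => ?_
        rw [(Finset.mem_filter.1 ht).2, if_neg h]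
    have h4 : ∀ k ∈ S2.image g, (if N (cell k) ≤ lam then 0 else G k)
        ≤ s'⁻¹ * G k ^ 2 + s' * (if N (cell k) ≤ lam then 0 else (P k).indicator 1 y) := by
      intro k _
      split_ifs with h
      · exact zero_le
      · by_cases h0 : ∀ t ∈ S2.filter (fun t => g t = k), y ∉ E t
        · have : G k = 0 := mult_eq_zero h0
          rw [this]; exact zero_le
        · push Not at h0
          obtain ⟨t, ht, hy⟩ := h0
          rw [Finset.mem_filter] at ht
          obtain ⟨ht1, rfl⟩ := ht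
          rw [Set.indicator_of_mem (hEP t ht1 hy)]
          simp only [Pi.one_apply, mul_one]
          exact amgm _ _ hs' hs1'
    rw [h1]
    refine h2.trans ?_
    rw [h3]
    refine (Finset.sum_le_sum h4).trans ?_
    rw [Finset.sum_add_distrib, ← Finset.mul_sum, ← Finset.mul_sum]
    gcongr
    rw [← Finset.sum_fiberwise_of_maps_to (s := S2.image g) (t := (S2.image g).image cell)
        (g := cell) (fun t ht => Finset.mem_image_of_mem _ ht), Finset.mul_sum]
    refine Finset.sum_le_sum fun c _ => ?_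
    by_cases hc : N c ≤ lam
    · refine le_trans (le_of_eq ?_) zero_le
      refine Finset.sum_eq_zero fun k hk => ?_
      rw [(Finset.mem_filter.1 hk).2, if_pos hc]
    · refine le_trans ?_ (le_inv_sq _ _ hl hl1 (not_le.1 hc).le)
      simp only [hN, mult, one_mul]
      refine Finset.sum_le_sum fun k2 _ => ?_
      split_ifs
      · exact zero_le
      · exact le_rfl
  rw [e3]
  calc _ ≤ (s⁻¹ * ∑ p ∈ Sb.image (fun t => (f t, g t)), F p ^ 2
        + s * (n0 * lam * ∑ k ∈ Sb.image f, (J k).indicator 1 y))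
        + (s'⁻¹ * ∑ k ∈ S2.image g, G k ^ 2
        + s' * (lam⁻¹ * ∑ c ∈ (S2.image g).image cell, N c ^ 2)) := add_le_add hA hB
    _ = _ := by ring

theorem lint4 [MeasurableSpace X] (μ : Measure X) {f1 f2 f3 f4 : X → ℝ≥0∞} (m1 : Measurable f1)
    (m2 : Measurable f2) (m3 : Measurable f3) :
    ∫⁻ y, (f1 y + f2 y + f3 y + f4 y) ∂μ
      = ∫⁻ y, f1 y ∂μ + ∫⁻ y, f2 y ∂μ + ∫⁻ y, f3 y ∂μ + ∫⁻ y, f4 y ∂μ := by
  have m12 : Measurable (fun y => f1 y + f2 y) := m1.add m2
  have m123 : Measurable (fun y => f1 y + f2 y + f3 y) := m12.add m3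
  rw [lintegral_add_left m123, lintegral_add_left m12, lintegral_add_left m1]

/-- **abstract core of the non-rotation lemma** -/
theorem core [MeasurableSpace X] (μ : Measure X) (S2 Sb : Finset ι) (hSb : Sb ⊆ S2)
    (f : ι → κ₁) (g : ι → κ₂)
    (cell : κ₂ → γ) (m : ι → ℝ≥0∞) (E : ι → Set X) (P : κ₂ → Set X) (J : κ₁ → Set X)
    (hE : ∀ t ∈ S2, MeasurableSet (E t)) (hP : ∀ k, MeasurableSet (P k))
    (hJ : ∀ k, MeasurableSet (J k))
    (hEP : ∀ t ∈ S2, E t ⊆ P (g t)) (hEJ : ∀ t ∈ Sb, E t ⊆ J (f t)) (n0 : ℕ)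
    (hcell : ∀ k ∈ Sb.image f,
      ((Sb.filter (fun t => f t = k)).image (fun t => cell (g t))).card ≤ n0)
    (s s' lam : ℝ≥0∞) (hs : s ≠ 0) (hs1 : s ≠ ∞) (hs' : s' ≠ 0) (hs1' : s' ≠ ∞)
    (hl : lam ≠ 0) (hl1 : lam ≠ ∞)
    (A Q Q' : ℝ≥0∞)
    (hslab : ∀ k ∈ S2.image g,
      ∑ k' ∈ (S2.image g).filter (fun k' => cell k' = cell k), μ (P k ∩ P k') ≤ A * μ (P k))
    (hpl : ∀ t ∈ S2,
      ∑ t' ∈ S2.filter (fun t' => g t' = g t), m t' * μ (E t ∩ E t') ≤ Q * μ (E t))
    (hint : ∀ t ∈ Sb,
      ∑ t' ∈ Sb.filter (fun t' => (f t', g t') = (f t, g t)), m t' * μ (E t ∩ E t')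
        ≤ Q' * μ (E t)) :
    ∑ t ∈ Sb, m t * μ (E t) ≤
      s⁻¹ * (Q' * ∑ t ∈ Sb, m t * μ (E t))
      + s * (n0 * lam * ∑ k ∈ Sb.image f, μ (J k))
      + s'⁻¹ * (Q * ∑ t ∈ S2, m t * μ (E t))
      + s' * (lam⁻¹ * (A * ∑ k ∈ S2.image g, μ (P k))) := by
  have hmP : ∀ c, Measurable (fun y => mult ((S2.image g).filter (fun k => cell k = c))
      (fun _ => 1) P y ^ 2) := fun c => (measurable_mult fun k _ => hP k).pow_const 2
  have hmF : ∀ p, Measurable (fun y => mult (Sb.filter (fun t => (f t, g t) = p)) m E y ^ 2) :=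
    fun p => (measurable_mult fun t ht => hE t (hSb (Finset.mem_filter.1 ht).1)).pow_const 2
  have hmG : ∀ k, Measurable (fun y => mult (S2.filter (fun t => g t = k)) m E y ^ 2) :=
    fun k => (measurable_mult fun t ht => hE t ((Finset.mem_filter.1 ht).1)).pow_const 2
  have hmJ : ∀ k, Measurable (fun y => (J k).indicator (1 : X → ℝ≥0∞) y) :=
    fun k => measurable_one.indicator (hJ k)
  have hint0 : ∀ T : Finset ι, (∀ t ∈ T, MeasurableSet (E t)) →
      ∫⁻ y, mult T m E y ∂μ = ∑ t ∈ T, m t * μ (E t) := by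
    intro T hT
    unfold mult
    rw [lintegral_finsetSum T fun t ht => (measurable_one.indicator (hT t ht)).const_mul _]
    refine Finset.sum_congr rfl fun t ht => ?_
    rw [lintegral_const_mul _ (measurable_one.indicator (hT t ht)),
      lintegral_indicator_one (hT t ht)]
  have h0 := lintegral_mono (μ := μ) (core_pointwise S2 Sb hSb f g cell m E P J hEP hEJ n0 hcell
    s s' lam hs hs1 hs' hs1' hl hl1)
  rw [hint0 Sb fun t ht => hE t (hSb ht)] at h0
  refine h0.trans ?_
  have m1 : Measurable (fun y => s⁻¹ * ∑ p ∈ Sb.image (fun t => (f t, g t)),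
          mult (Sb.filter (fun t => (f t, g t) = p)) m E y ^ 2) :=
    (Finset.measurable_fun_sum _ fun p _ => hmF p).const_mul _
  have m2 : Measurable (fun y => s * (n0 * lam * ∑ k ∈ Sb.image f,
      (J k).indicator (1 : X → ℝ≥0∞) y)) :=
    ((Finset.measurable_fun_sum _ fun k _ => hmJ k).const_mul _).const_mul _
  have m3 : Measurable (fun y => s'⁻¹ * ∑ k ∈ S2.image g,
      mult (S2.filter (fun t => g t = k)) m E y ^ 2) :=
    (Finset.measurable_fun_sum _ fun k _ => hmG k).const_mul _
  refine (lint4 μ m1 m2 m3).trans_le ?_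
  refine add_le_add (add_le_add (add_le_add ?_ ?_) ?_) ?_
  · rw [lintegral_const_mul _ (Finset.measurable_fun_sum _ fun p _ => hmF p),
      lintegral_finsetSum _ fun p _ => hmF p]
    gcongr
    have h1 : ∑ t ∈ Sb, m t * μ (E t) = ∑ p ∈ Sb.image (fun t => (f t, g t)),
        ∑ t ∈ Sb.filter (fun t => (f t, g t) = p), m t * μ (E t) := by
      rw [Finset.sum_fiberwise_of_maps_to]
      intro t ht
      exact Finset.mem_image_of_mem _ ht
    rw [h1, Finset.mul_sum]
    refine Finset.sum_le_sum fun p _ => ?_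
    refine Fac535.lintegral_sq_le μ _ m E
      (fun t ht => hE t (hSb (Finset.mem_filter.1 ht).1)) Q' fun t ht => ?_
    rw [Finset.mem_filter] at ht
    obtain ⟨ht1, rfl⟩ := ht
    exact hint t ht1
  · rw [lintegral_const_mul _ ((Finset.measurable_fun_sum _ fun k _ => hmJ k).const_mul _),
      lintegral_const_mul _ (Finset.measurable_fun_sum _ fun k _ => hmJ k),
      lintegral_finsetSum _ fun k _ => hmJ k]
    gcongr with k hk
    rw [lintegral_indicator_one (hJ k)]
  · rw [lintegral_const_mul _ (Finset.measurable_fun_sum _ fun k _ => hmG k),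
      lintegral_finsetSum _ fun k _ => hmG k]
    gcongr
    have h1 : ∑ t ∈ S2, m t * μ (E t) = ∑ k ∈ S2.image g,
        ∑ t ∈ S2.filter (fun t => g t = k), m t * μ (E t) :=
      (Finset.sum_fiberwise_of_maps_to (g := g)
        (fun t ht => Finset.mem_image_of_mem _ ht) _).symm
    rw [h1, Finset.mul_sum]
    refine Finset.sum_le_sum fun k _ => ?_
    refine Fac535.lintegral_sq_le μ _ m E
      (fun t ht => hE t (Finset.mem_filter.1 ht).1) Q fun t ht => ?_
    rw [Finset.mem_filter] at ht
    obtain ⟨ht1, rfl⟩ := ht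
    exact hpl t ht1
  · rw [lintegral_const_mul _ ((Finset.measurable_fun_sum _ fun c _ => hmP c).const_mul _),
      lintegral_const_mul _ (Finset.measurable_fun_sum _ fun c _ => hmP c),
      lintegral_finsetSum _ fun c _ => hmP c]
    gcongr
    have h1 : ∑ k ∈ S2.image g, μ (P k) = ∑ c ∈ (S2.image g).image cell,
        ∑ k ∈ (S2.image g).filter (fun k => cell k = c), μ (P k) :=
      (Finset.sum_fiberwise_of_maps_to (g := cell)
        (fun t ht => Finset.mem_image_of_mem _ ht) _).symm
    rw [h1, Finset.mul_sum]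
    refine Finset.sum_le_sum fun c _ => ?_
    have h2 := Fac535.lintegral_sq_le μ ((S2.image g).filter (fun k => cell k = c))
      (fun _ => (1 : ℝ≥0∞)) P (fun t _ => hP t) A (fun k hk => ?_)
    · simpa only [one_mul, mult] using h2
    · rw [Finset.mem_filter] at hk
      obtain ⟨hk1, rfl⟩ := hk
      simpa only [one_mul] using hslab k hk1

end Crest.Agent.R138.NR877
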