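import Mathlib
import Crest.Agent.R138.TiltU2_51

/-!
# R138, leaf L10 (helper51): `Mk → TiltCrude C`
-/

set_option autoImplicit false
set_option linter.unusedVariables false

open Finset Filter Topology

namespace Crest.Agent.R138.TiltU51

open Crest.Agent.R138.Ex926 (Base U)
open Crest.Agent.R138.Flag51 (Ln E2 cr dt InPlank Close)
open Crest.Agent.R138.Tilt51 (DMax Near close_self)
open Crest.Agent.R138.TiltG51 (c0 c0_pos)
open Crest.Agent.R138.Mk163

noncomputable section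

variable {B : Base} {I : ℕ → Finset (ℕ × ℝ)} {L : ℕ → ℕ → Ln} {lev : ℕ → ℚ → ℕ}
    {r0 A : ℕ → ℝ} {q g : ℝ} {Λ τ : ℝ → ℝ} {f : ℕ → ℚ → ℕ → ℤ → ℕ} {b : ℕ → ℚ → ℕ → Ln}
    {e : ℕ → ℚ → ℕ → E2} {w1 w2 : ℕ → ℚ → ℝ}

/-- constant of one count -/
def cq0 (q : ℝ) : ℝ := c0 0 q / (1 - 2 ^ (0 - q))

theorem cq0_nonneg (hq : 0 < q) : 0 ≤ cq0 q := by
  have hr : (2 : ℝ) ^ (0 - q) < 1 := Real.rpow_lt_one_of_one_lt_of_neg (by norm_num) (by linarith)
  have : 0 < 1 - (2:ℝ) ^ (0 - q) := by linarith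
  have := c0_pos 0 q
  unfold cq0
  positivity

open Classical in
/-- two small cells `J1`, `J2` of the big cell `J` -/
theorem pair_crude {I : Finset (ℕ × ℝ)} {L : ℕ → Ln} {i j : ℕ} (hij : i ≤ j)
    {g : ℕ → ℤ → ℕ} {b' : ℕ → Ln} {e' : ℕ → E2} {a1 a2 M1 M2 E' r0 θ : ℝ}
    (hq : 0 < q)
    (n2 : ∀ J, Near (alive I j J) L (fun _ => 1) (fun t => g t J) b' e' a1 a2 (zl j J) (rho j)
      M2 E' 0 q)
    (dm : ∀ J, DMax (alive I i J) L (fun _ => 1) (zl i J) (rho i) M1 0 q r0 (100 * rho i))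
    (ha1 : 0 < a1) (ha12 : a1 ≤ a2)
    (ha2 : a2 ≤ rho j) (hr2 : r0 ≤ a1) (hM1 : 0 < M1) (hM2 : 0 < M2)
    (hE : 0 ≤ E') {R : ℝ} (hR : R = 2 ^ (j - i)) (hθ : a1 ≤ θ * a2)
    {x0 y0 : ℕ × ℝ} (hx0 : x0 ∈ I) (hy0 : y0 ∈ I) (hxy : zc i y0.2 = zc i x0.2) :
    (((alive I j (zc j x0.2)).filter fun t => t ∈ alive I j (zc j y0.2) ∧
        θ ≤ |cr (e' (g t (zc j x0.2))) (e' (g t (zc j y0.2)))|).card : ℝ) ≤
      (cq0 q * (E' * (M1 / M2) * (3 * R) ^ (2 + q)) * (E' * (M1 / M2) * (3 * R) ^ (2 + q)) *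
        (a1 / (θ * a2)) ^ q) * ((alive I j (zc j x0.2)).card : ℝ) := by
  have hRR : rho i / rho j = R := by rw [rho_div hij, hR]
  have hR1 : 1 ≤ R := by rw [hR]; exact one_le_pow₀ (by norm_num)
  have hrj := rho_pos j
  have hri := rho_pos i
  have hRa : R * a2 ≤ rho i := by
    rw [← hRR]
    calc rho i / rho j * a2 ≤ rho i / rho j * rho j := mul_le_mul_of_nonneg_left ha2 (by positivity)
      _ = rho i := by field_simp
  have ha2p : 0 < a2 := ha1.trans_le ha12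
  have e1 : (2 : ℝ) + 0 + q = 2 + q := by ring
  have m1 := (n2 (zc j x0.2)).extend (z0 := zl i (zc i x0.2)) (M1 := M1) hrj (rho_le hij)
    (abs_zl_sub hij x0.2) ha1 ha2p hM1.le hM2
  have m2 := (n2 (zc j y0.2)).extend (z0 := zl i (zc i x0.2)) (M1 := M1) hrj (rho_le hij)
    (by rw [← hxy]; exact abs_zl_sub hij y0.2) ha1 ha2p hM1.le hM2
  rw [hRR, e1] at m1 m2
  have d1 := (dm (zc i x0.2)).subset (alive_subset hij hx0) (fun _ _ => zero_le_one)
  have hsub : alive I j (zc j y0.2) ⊆ alive I i (zc i x0.2) := by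
    rw [← hxy]; exact alive_subset hij hy0
  have d2 := (dm (zc i x0.2)).subset hsub (fun _ _ => zero_le_one)
  have hlam : 0 < 3 * R := by positivity
  have key := TiltG51.flag2 (θ := θ) (w := 3 * R * a1) m1 m2 d1 (fun _ _ => zero_le_one) d2
    (fun _ _ => zero_le_one) le_rfl hq (by positivity) le_rfl (by positivity) (by positivity)
    (mul_le_mul_of_nonneg_left ha12 hlam.le) le_rfl
    (by
      refine le_min ?_ ?_ <;> nlinarith)
    (by linarith)
    hM1.le hM1 (by positivity) (by positivity)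
    (by
      rw [max_self]
      nlinarith)
  rw [sum_const, sum_const, nsmul_eq_mul, nsmul_eq_mul, mul_one, mul_one, sub_zero, max_self] at key
  have hrat : 3 * R * a1 / (θ * (3 * R * a2)) = a1 / (θ * a2) := by
    rw [show θ * (3 * R * a2) = (3 * R) * (θ * a2) by ring, mul_div_mul_left _ _ hlam.ne']
  rw [hrat] at key
  calc (((alive I j (zc j x0.2)).filter fun t => t ∈ alive I j (zc j y0.2) ∧
        θ ≤ |cr (e' (g t (zc j x0.2))) (e' (g t (zc j y0.2)))|).card : ℝ)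
      ≤ (((alive I j (zc j x0.2)).filter fun t => ∃ t' ∈ alive I j (zc j y0.2),
          Close (L t) (L t') (3 * R * a1) (zl i (zc i x0.2)) (rho i) ∧
          θ ≤ |cr (e' (g t (zc j x0.2))) (e' (g t' (zc j y0.2)))|).card : ℝ) := by
        norm_cast
        refine card_le_card ?_
        intro t ht
        rw [mem_filter] at ht ⊢
        exact ⟨ht.1, t, ht.2.1, close_self (by positivity) _, ht.2.2⟩
    _ ≤ _ := key
    _ = _ := by unfold cq0; ring

open Classical in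
/-- all lines of one small cell -/
theorem cell_crude {I : Finset (ℕ × ℝ)} {L : ℕ → Ln} {i j : ℕ} (hij : i ≤ j)
    {g : ℕ → ℤ → ℕ} {b' : ℕ → Ln} {e' : ℕ → E2} {a1 a2 M1 M2 E' r0 θ : ℝ}
    (hq : 0 < q)
    (n2 : ∀ J, Near (alive I j J) L (fun _ => 1) (fun t => g t J) b' e' a1 a2 (zl j J) (rho j)
      M2 E' 0 q)
    (dm : ∀ J, DMax (alive I i J) L (fun _ => 1) (zl i J) (rho i) M1 0 q r0 (100 * rho i))
    (ha1 : 0 < a1) (ha12 : a1 ≤ a2)
    (ha2 : a2 ≤ rho j) (hr2 : r0 ≤ a1) (hM1 : 0 < M1) (hM2 : 0 < M2)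
    (hE : 0 ≤ E') {R : ℝ} (hR : R = 2 ^ (j - i)) (hθ : a1 ≤ θ * a2)
    {x0 : ℕ × ℝ} (hx0 : x0 ∈ I) :
    (((I.filter fun x => zc j x.2 = zc j x0.2 ∧ ∃ y ∈ I, y.1 = x.1 ∧ zc i y.2 = zc i x.2 ∧
        θ ≤ |cr (e' (g x.1 (zc j x.2))) (e' (g y.1 (zc j y.2)))|).image Prod.fst).card : ℝ) ≤
      (R * (cq0 q * (E' * (M1 / M2) * (3 * R) ^ (2 + q)) * (E' * (M1 / M2) * (3 * R) ^ (2 + q)) *
        (a1 / (θ * a2)) ^ q)) *
      (((I.filter fun x => zc j x.2 = zc j x0.2).image Prod.fst).card : ℝ) := by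
  set K : ℝ := cq0 q * (E' * (M1 / M2) * (3 * R) ^ (2 + q)) *
    (E' * (M1 / M2) * (3 * R) ^ (2 + q)) * (a1 / (θ * a2)) ^ q with hK
  set cells : Finset ℤ := (I.filter fun y => zc i y.2 = zc i x0.2).image fun y => zc j y.2
  set N1 : Finset ℕ := alive I j (zc j x0.2) with hN1
  set bad : ℤ → Finset ℕ := fun J2 => N1.filter fun t => t ∈ alive I j J2 ∧
    θ ≤ |cr (e' (g t (zc j x0.2))) (e' (g t J2))| with hbad
  have h1 : ((I.filter fun x => zc j x.2 = zc j x0.2 ∧ ∃ y ∈ I, y.1 = x.1 ∧ zc i y.2 = zc i x.2 ∧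
        θ ≤ |cr (e' (g x.1 (zc j x.2))) (e' (g y.1 (zc j y.2)))|).image Prod.fst) ⊆
      cells.biUnion bad := by
    intro t ht
    rw [mem_image] at ht
    obtain ⟨x, hx, rfl⟩ := ht
    rw [mem_filter] at hx
    obtain ⟨hxI, hxc, y, hy, hy1, hy2, hy3⟩ := hx
    rw [mem_biUnion]
    have hyi : zc i y.2 = zc i x0.2 := hy2.trans (zc_nest hij hxc)
    refine ⟨zc j y.2, mem_image.2 ⟨y, mem_filter.2 ⟨hy, hyi⟩, rfl⟩, ?_⟩
    rw [hbad, mem_filter]
    refine ⟨mem_alive.2 ⟨x, hxI, hxc, rfl⟩, mem_alive.2 ⟨y, hy, rfl, hy1⟩, ?_⟩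
    rw [hxc, hy1] at hy3
    exact hy3
  have h2 : ∀ J2 ∈ cells, ((bad J2).card : ℝ) ≤ K * (N1.card : ℝ) := by
    intro J2 hJ2
    rw [mem_image] at hJ2
    obtain ⟨y, hy, rfl⟩ := hJ2
    rw [mem_filter] at hy
    exact pair_crude hij hq n2 dm ha1 ha12 ha2 hr2 hM1 hM2 hE hR hθ hx0 hy.1 hy.2
  have hR0 : 0 ≤ R := by rw [hR]; positivity
  have ha2p : 0 < a2 := ha1.trans_le ha12
  have hθ0 : 0 < θ := by
    by_contra hc
    have : θ * a2 ≤ 0 := mul_nonpos_of_nonpos_of_nonneg (not_lt.1 hc) ha2p.le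
    linarith
  have hcq := cq0_nonneg hq
  have hK0 : 0 ≤ K := by rw [hK]; positivity
  have h3 : (cells.card : ℝ) ≤ R := by
    rw [hR]
    exact_mod_cast card_cells hij I (zc i x0.2)
  calc ((((I.filter fun x => zc j x.2 = zc j x0.2 ∧ ∃ y ∈ I, y.1 = x.1 ∧ zc i y.2 = zc i x.2 ∧
        θ ≤ |cr (e' (g x.1 (zc j x.2))) (e' (g y.1 (zc j y.2)))|).image Prod.fst).card : ℕ) : ℝ)
      ≤ ((cells.biUnion bad).card : ℝ) := by exact_mod_cast card_le_card h1
    _ ≤ ∑ J2 ∈ cells, ((bad J2).card : ℝ) := by exact_mod_cast card_biUnion_le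
    _ ≤ ∑ J2 ∈ cells, K * (N1.card : ℝ) := sum_le_sum h2
    _ = (cells.card : ℝ) * (K * N1.card) := by rw [sum_const, nsmul_eq_mul]
    _ ≤ R * (K * N1.card) := mul_le_mul_of_nonneg_right h3 (by positivity)
    _ = (R * K) * (N1.card : ℝ) := by ring
    _ = _ := rfl

set_option maxHeartbeats 1000000 in
/-- **L10 (T0)** -/
theorem tiltCrude (h : Mk B I L lev r0 A q g Λ τ f b e w1 w2) {C : ℝ} (hC : 5 + 2 * q ≤ C * q) :
    TiltCrude B I lev f e w1 w2 C := by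
  classical
  intro u v hu huv hv ε hε
  have hq := h.q0
  have hq2 := h.q2
  set η : ℝ := q * ε / 32 with hη
  have hη0 : 0 < η := by positivity
  have hηε : 32 * η = q * ε := by rw [hη]; ring
  have huvR : (u : ℝ) < v := by exact_mod_cast huv
  set D : ℝ := (v : ℝ) - u with hD
  have hD0 : 0 ≤ D := by linarith
  have hC1 : 1 ≤ C := by
    by_contra hc
    push Not at hc
    nlinarith
  refine ⟨q * ε / 2, by positivity, ?_⟩
  filter_upwards [h.near v (hu.trans huv.le) hv η hη0,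
    h.dmax u hu (huv.le.trans hv) η hη0,
    ev_dims h (hu.trans huv.le) hv, ev_R h hu huv.le hv hη0,
    ev_nu h (hu.trans huv.le) hv hη0,
    ev_amp_le h hu huv.le hv, ev_const B (cq0 q * 6561) hη0] with
    n nv dm dv hR cv hamp k1
  have P := dpos B n
  obtain ⟨dv1, dv2, dv3, dv4⟩ := dv
  obtain ⟨hij, hR2⟩ := hR
  set R : ℝ := 2 ^ (lev n v - lev n u) with hRdef
  have hR1 : 1 ≤ R := one_le_pow₀ (by norm_num)
  have wv : 0 < w2 n v := dv1.trans_le dv3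
  have hpv : 0 < prec w1 w2 n v := div_pos dv1 wv
  set θ : ℝ := prec w1 w2 n v * B.d n ^ (-(C * D) - ε) with hθ
  have hθ0 : 0 < θ := mul_pos hpv (P _)
  have hCD : 0 ≤ C * D := by positivity
  have hθw : w1 n v ≤ θ * w2 n v := by
    have h1 : 1 ≤ B.d n ^ (-(C * D) - ε) :=
      Real.one_le_rpow_of_pos_of_le_one_of_nonpos (B.pos n) (B.lt n).le (by linarith)
    have h2 : prec w1 w2 n v * w2 n v = w1 n v := by unfold prec; field_simp
    calc w1 n v = prec w1 w2 n v * w2 n v * 1 := by rw [h2, mul_one]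
      _ ≤ prec w1 w2 n v * w2 n v * B.d n ^ (-(C * D) - ε) :=
          mul_le_mul_of_nonneg_left h1 (by positivity)
      _ = θ * w2 n v := by rw [hθ]; ring
  set X : ℝ := w1 n v / (θ * w2 n v) with hX
  have hXe : X = B.d n ^ (C * D + ε) := by
    rw [hX, div_eq_iff (by positivity)]
    have h2 : prec w1 w2 n v * w2 n v = w1 n v := by unfold prec; field_simp
    calc w1 n v = prec w1 w2 n v * w2 n v := h2.symm
      _ = (B.d n ^ ((C * D + ε) + (-(C * D) - ε))) * (prec w1 w2 n v * w2 n v) := by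
          rw [show (C * D + ε) + (-(C * D) - ε) = 0 by ring, Real.rpow_zero, one_mul]
      _ = _ := by rw [dadd, hθ]; ring
  have hau := amp_pos h n u
  have hav := amp_pos h n v
  set M1 : ℝ := B.d n ^ (-η) * amp B lev A q g Λ n u with hM1
  set M2 : ℝ := amp B lev A q g Λ n v with hM2
  have hM10 : 0 < M1 := mul_pos (P _) hau
  have hMr : M1 / M2 ≤ B.d n ^ (-η) := by
    rw [div_le_iff₀ hav, hM1]
    exact mul_le_mul_of_nonneg_left hamp (P _).le
  set K : ℝ := cq0 q * (B.d n ^ (-η) * (M1 / M2) * (3 * R) ^ (2 + q)) *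
    (B.d n ^ (-η) * (M1 / M2) * (3 * R) ^ (2 + q)) * X ^ q with hK
  have hcq := cq0_nonneg hq
  have hK0 : 0 ≤ R * K := by
    have := P (-η)
    positivity
  have hcell : ∀ x0 ∈ I n, ((((I n).filter fun x => zc (lev n v) x.2 = zc (lev n v) x0.2 ∧
        ∃ y ∈ I n, y.1 = x.1 ∧ zc (lev n u) y.2 = zc (lev n u) x.2 ∧
        θ ≤ |cr (fr lev f e n v x) (fr lev f e n v y)|).image Prod.fst).card : ℝ) ≤
      (R * K) *
        ((((I n).filter fun x => zc (lev n v) x.2 = zc (lev n v) x0.2).image Prod.fst).card : ℝ) :=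
    fun x0 hx0 => cell_crude (g := fun t J => f n v t J) hij hq
      nv dm dv1 dv3 dv4 dv2 hM10 hav (P (-η)).le hRdef hθw hx0
  have hν1 := P (-(1 - (v : ℝ)) + (Λ 1 - Λ v) + η)
  have hν2 := P (-(1 - (v : ℝ)) + (Λ 1 - Λ v) - η)
  have hsum := sum_bad (I := I n) (obj := Prod.fst) (c := fun x => zc (lev n v) x.2)
    (c' := fun x => zc (lev n v) x.2)
    (bad := fun x => ∃ y ∈ I n, y.1 = x.1 ∧ zc (lev n u) y.2 = zc (lev n u) x.2 ∧
        θ ≤ |cr (fr lev f e n v x) (fr lev f e n v y)|)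
    (K := R * K) (N := 1) hK0 (fun x _ y _ hxy => hxy)
    (fun x0 hx0 => by convert hcell x0 hx0) hν2.le hν1.le
    (fun x hx => by
      have h1 : (((I n).filter fun y => zc (lev n v) y.2 = zc (lev n v) x.2).image
          fun x => zc (lev n v) x.2) ⊆ {zc (lev n v) x.2} := by
        intro J hJ
        rw [mem_image] at hJ
        obtain ⟨y, hy, rfl⟩ := hJ
        rw [mem_singleton]
        exact (mem_filter.1 hy).2
      have h2 := card_le_card h1
      rw [card_singleton] at h2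
      exact_mod_cast h2)
    (fun x hx => (cv x hx).2) (fun x hx => (cv x hx).1)
  have hfin := fin_crude (B := B) (n := n) (C := C) (D := D) (ε := ε) (η := η) (R := R) (K := K)
    (X := X) (cq := cq0 q) (Mr := M1 / M2) hq hq2 hC hD0 hη0 hR1 hR2 hXe hcq k1
    (by positivity) hMr hK
  have hνν : B.d n ^ (-(1 - (v : ℝ)) + (Λ 1 - Λ v) - η) =
      B.d n ^ (-(2 * η)) * B.d n ^ (-(1 - (v : ℝ)) + (Λ 1 - Λ v) + η) := by
    rw [← dadd]; congr 1; ring
  have hI0 : (0 : ℝ) ≤ (I n).card := Nat.cast_nonneg _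
  refine le_of_mul_le_mul_right (hsum.trans ?_) hν1
  calc B.d n ^ (-(1 - (v : ℝ)) + (Λ 1 - Λ v) - η) * 1 * (R * K) * ((I n).card : ℝ)
      = (B.d n ^ (-(2 * η)) * (R * K)) * ((I n).card : ℝ) *
          B.d n ^ (-(1 - (v : ℝ)) + (Λ 1 - Λ v) + η) := by rw [hνν]; ring
    _ ≤ B.d n ^ (q * ε / 2) * ((I n).card : ℝ) *
          B.d n ^ (-(1 - (v : ℝ)) + (Λ 1 - Λ v) + η) := by
        refine mul_le_mul_of_nonneg_right (mul_le_mul_of_nonneg_right ?_ hI0) hν1.le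
        refine hfin.trans ?_
        apply danti
        linarith

end

end Crest.Agent.R138.TiltU51
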