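import Mathlib
import Crest.Agent.R138.TiltU0_51

/-!
# R138, leaf L10 (helper51): `Mk → TiltTwo C`, `Mk → TiltCrude C`
-/

set_option autoImplicit false
set_option linter.unusedVariables false

open Finset Filter Topology

namespace Crest.Agent.R138.TiltU51

open Crest.Agent.R138.Ex926 (Base U)
open Crest.Agent.R138.Flag51 (Ln E2 cr dt InPlank Close)
open Crest.Agent.R138.Tilt51 (DMax Near close_self)
open Crest.Agent.R138.TiltG51 (c0 c0_pos)
open Crest.Agent.R138.Mk163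

noncomputable section

variable {B : Base} {I : ℕ → Finset (ℕ × ℝ)} {L : ℕ → ℕ → Ln} {lev : ℕ → ℚ → ℕ}
    {r0 A : ℕ → ℝ} {q g : ℝ} {Λ τ : ℝ → ℝ} {f : ℕ → ℚ → ℕ → ℤ → ℕ} {b : ℕ → ℚ → ℕ → Ln}
    {e : ℕ → ℚ → ℕ → E2} {w1 w2 : ℕ → ℚ → ℝ}

/-- constant of one count -/
def cq (q : ℝ) : ℝ := c0 0 q / (1 - 2 ^ (0 - q))

theorem cq_nonneg (hq : 0 < q) : 0 ≤ cq q := by
  have hr : (2 : ℝ) ^ (0 - q) < 1 := Real.rpow_lt_one_of_one_lt_of_neg (by norm_num) (by linarith)
  have : 0 < 1 - (2:ℝ) ^ (0 - q) := by linarith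
  have := c0_pos 0 q
  unfold cq
  positivity

open Classical in
/-- one stage of (T): bad lines of one small cell -/
theorem cell_two {I : Finset (ℕ × ℝ)} {L : ℕ → Ln} {i j : ℕ} (hij : i ≤ j)
    {f g : ℕ → ℤ → ℕ} {b b' : ℕ → Ln} {e e' : ℕ → E2} {w1 w2 a1 a2 M1 M2 E1 E2' r0 θ : ℝ}
    (hq : 0 < q)
    (n1 : ∀ J, Near (alive I i J) L (fun _ => 1) (fun t => f t J) b e w1 w2 (zl i J) (rho i)
      M1 E1 0 q)
    (n2 : ∀ J, Near (alive I j J) L (fun _ => 1) (fun t => g t J) b' e' a1 a2 (zl j J) (rho j)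
      M2 E2' 0 q)
    (dm : ∀ J, DMax (alive I i J) L (fun _ => 1) (zl i J) (rho i) M1 0 q r0 (100 * rho i))
    (hw1 : 0 < w1) (hw12 : w1 ≤ w2) (hw2 : w2 ≤ rho i) (ha1 : 0 < a1) (ha12 : a1 ≤ a2)
    (ha2 : a2 ≤ rho j) (hr1 : r0 ≤ w1) (hr2 : r0 ≤ a1) (hM1 : 0 < M1) (hM2 : 0 < M2)
    (hE1 : 0 ≤ E1) (hE2 : 0 ≤ E2') {R : ℝ} (hR : R = 2 ^ (j - i))
    (hθ : max w1 (3 * R * a1) ≤ θ * min w2 (3 * R * a2)) {x0 : ℕ × ℝ} (hx0 : x0 ∈ I) :
    (((I.filter fun x => zc j x.2 = zc j x0.2 ∧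
        θ ≤ |cr (e (f x.1 (zc i x.2))) (e' (g x.1 (zc j x.2)))|).image Prod.fst).card : ℝ) ≤
      (cq q * E1 * (E2' * (M1 / M2) * (3 * R) ^ (2 + q)) *
        (max w1 (3 * R * a1) / (θ * min w2 (3 * R * a2))) ^ q) *
      (((I.filter fun x => zc i x.2 = zc i x0.2).image Prod.fst).card : ℝ) := by
  have hRR : rho i / rho j = R := by rw [rho_div hij, hR]
  have hR1 : 1 ≤ R := by rw [hR]; exact one_le_pow₀ (by norm_num)
  have hrj := rho_pos j
  have hri := rho_pos i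
  have hRa : R * a2 ≤ rho i := by
    rw [← hRR]
    calc rho i / rho j * a2 ≤ rho i / rho j * rho j := mul_le_mul_of_nonneg_left ha2 (by positivity)
      _ = rho i := by field_simp
  have ha2p : 0 < a2 := ha1.trans_le ha12
  have key := TiltG51.tilt (θ := θ) (n1 (zc i x0.2)) (n2 (zc j x0.2)) (dm (zc i x0.2))
    (fun _ _ => zero_le_one) (alive_subset hij hx0) hrj (rho_le hij) (abs_zl_sub hij x0.2)
    le_rfl hq hw1 hw12 ha1 ha12
    (by
      rw [hRR]
      refine le_min hr1 (hr2.trans ?_)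
      nlinarith)
    (by
      rw [hRR]
      have : max w2 (3 * R * a2) ≤ 3 * rho i := max_le (by linarith) (by linarith)
      linarith)
    hM1 hM2 hE1 hE2 (by rw [hRR]; exact hθ)
  rw [hRR, sum_const, sum_const, nsmul_eq_mul, nsmul_eq_mul, mul_one, mul_one, sub_zero] at key
  have e1 : (2 : ℝ) + 0 + q = 2 + q := by ring
  rw [e1] at key
  have hal : (((I.filter fun x => zc i x.2 = zc i x0.2).image Prod.fst).card : ℝ) =
      ((alive I i (zc i x0.2)).card : ℝ) := rfl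
  rw [hal]
  calc (((I.filter fun x => zc j x.2 = zc j x0.2 ∧
        θ ≤ |cr (e (f x.1 (zc i x.2))) (e' (g x.1 (zc j x.2)))|).image Prod.fst).card : ℝ)
      ≤ (((alive I j (zc j x0.2)).filter fun t =>
          θ ≤ |cr (e (f t (zc i x0.2))) (e' (g t (zc j x0.2)))|).card : ℝ) := by
        norm_cast
        refine card_le_card ?_
        intro t ht
        rw [mem_image] at ht
        obtain ⟨x, hx, rfl⟩ := ht
        rw [mem_filter] at hx
        obtain ⟨hxI, hxc, hxb⟩ := hx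
        rw [mem_filter]
        refine ⟨mem_alive.2 ⟨x, hxI, hxc, rfl⟩, ?_⟩
        rw [hxc, zc_nest hij hxc] at hxb
        exact hxb
    _ ≤ _ := key
    _ = _ := by unfold cq; ring

set_option maxHeartbeats 1000000 in
/-- **L10 (T)** -/
theorem tiltTwo (h : Mk B I L lev r0 A q g Λ τ f b e w1 w2) {C : ℝ} (hC : 3 + q ≤ C * q) :
    TiltTwo B I lev τ f e w1 w2 C := by
  classical
  intro u v hu huv hv ε hε
  have hq := h.q0
  have hq2 := h.q2
  set η : ℝ := q * ε / 28 with hη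
  have hη0 : 0 < η := by positivity
  have hηε : 28 * η = q * ε := by rw [hη]; ring
  have hηε2 : 14 * η ≤ ε := by nlinarith
  have huvR : (u : ℝ) < v := by exact_mod_cast huv
  set D : ℝ := (v : ℝ) - u with hD
  have hD0 : 0 ≤ D := by linarith
  have hC1 : 1 ≤ C := by
    by_contra hc
    push Not at hc
    nlinarith
  refine ⟨q * ε / 2, by positivity, ?_⟩
  filter_upwards [h.near u hu (huv.le.trans hv) η hη0, h.near v (hu.trans huv.le) hv η hη0,
    h.dmax u hu (huv.le.trans hv) η hη0, ev_dims h hu (huv.le.trans hv),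
    ev_dims h (hu.trans huv.le) hv, ev_R h hu huv.le hv hη0, ev_tau h hu huv.le hv hη0,
    ev_nu h hu (huv.le.trans hv) hη0, ev_nu h (hu.trans huv.le) hv hη0,
    ev_amp_le h hu huv.le hv, ev_const B (cq q * 729) hη0, ev_const B 3 hη0] with
    n nu nv dm du dv hR ht cu cv hamp k1 k2
  have P := dpos B n
  obtain ⟨du1, du2, du3, du4⟩ := du
  obtain ⟨dv1, dv2, dv3, dv4⟩ := dv
  obtain ⟨hij, hR2⟩ := hR
  obtain ⟨ht1, ht2⟩ := ht
  set R : ℝ := 2 ^ (lev n v - lev n u) with hRdef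
  have hR1 : 1 ≤ R := one_le_pow₀ (by norm_num)
  have hRR : rho (lev n u) / rho (lev n v) = R := rho_div hij
  rw [hRR] at ht1 ht2
  have wu : 0 < w2 n u := du1.trans_le du3
  have wv : 0 < w2 n v := dv1.trans_le dv3
  set Pm : ℝ := max (prec w1 w2 n u) (prec w1 w2 n v) with hPm
  have hpu : 0 < prec w1 w2 n u := div_pos du1 wu
  have hPm0 : 0 < Pm := lt_max_of_lt_left hpu
  set T : ℝ := |τ u - τ v| with hT
  have hT0 : 0 ≤ T := abs_nonneg _
  set θ : ℝ := Pm * B.d n ^ (-(C * (D + T)) - ε) with hθ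
  have hθ0 : 0 < θ := mul_pos hPm0 (P _)
  set W : ℝ := min (w2 n u) (3 * R * w2 n v) with hW
  have hW0 : 0 < W := lt_min wu (by positivity)
  set V : ℝ := max (w1 n u) (3 * R * w1 n v) with hV
  have hV0 : 0 < V := lt_max_of_lt_left du1
  -- claim A
  have hA : V ≤ Pm * max (w2 n u) (3 * R * w2 n v) := by
    refine max_le ?_ ?_
    · calc w1 n u = prec w1 w2 n u * w2 n u := by unfold prec; field_simp
        _ ≤ Pm * max (w2 n u) (3 * R * w2 n v) :=
            mul_le_mul (le_max_left _ _) (le_max_left _ _) wu.le hPm0.le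
    · calc 3 * R * w1 n v = prec w1 w2 n v * (3 * R * w2 n v) := by unfold prec; field_simp
        _ ≤ Pm * max (w2 n u) (3 * R * w2 n v) :=
            mul_le_mul (le_max_right _ _) (le_max_right _ _) (by positivity) hPm0.le
  -- claim B
  set G : ℝ := B.d n ^ (-(T + η)) with hG
  have hG1 : 1 ≤ G := by
    rw [hG]
    exact Real.one_le_rpow_of_pos_of_le_one_of_nonpos (B.pos n) (B.lt n).le (by linarith)
  have hB : max (w2 n u) (3 * R * w2 n v) ≤ 3 * G * W := by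
    have hRw : 0 < R * w2 n v := by positivity
    have q1 : w2 n u ≤ 3 * G * w2 n u := by nlinarith
    have q2 : w2 n u ≤ 3 * G * (3 * R * w2 n v) := by nlinarith
    have q3 : 3 * R * w2 n v ≤ 3 * G * w2 n u := by nlinarith
    have q4 : 3 * R * w2 n v ≤ 3 * G * (3 * R * w2 n v) := by nlinarith
    rw [hW]
    rcases min_choice (w2 n u) (3 * R * w2 n v) with hm | hm
    · rw [hm]; exact max_le q1 q3
    · rw [hm]; exact max_le q2 q4
  set X : ℝ := V / (θ * W) with hX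
  have hX0 : 0 ≤ X := by positivity
  have hXle : X ≤ 3 * B.d n ^ (C * D + ε - η) := by
    rw [hX, div_le_iff₀ (by positivity)]
    have e1 : 3 * B.d n ^ (C * D + ε - η) * (θ * W) =
        Pm * (3 * B.d n ^ ((C * D + ε - η) + (-(C * (D + T)) - ε)) * W) := by
      rw [hθ, dadd]; ring
    rw [e1]
    refine hA.trans (mul_le_mul_of_nonneg_left (hB.trans ?_) hPm0.le)
    refine mul_le_mul_of_nonneg_right (mul_le_mul_of_nonneg_left ?_ (by norm_num)) hW0.le
    rw [hG]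
    apply danti
    nlinarith
  have hX1 : X ≤ 1 := by
    calc X ≤ 3 * B.d n ^ (C * D + ε - η) := hXle
      _ ≤ B.d n ^ (-η) * B.d n ^ (C * D + ε - η) := mul_le_mul_of_nonneg_right k2 (P _).le
      _ = B.d n ^ (-η + (C * D + ε - η)) := (dadd B n _ _).symm
      _ ≤ B.d n ^ (0 : ℝ) := by apply danti; nlinarith
      _ = 1 := Real.rpow_zero _
  have hθX : V ≤ θ * W := by
    rw [hX, div_le_one (by positivity)] at hX1; exact hX1
  -- the count
  have hau := amp_pos h n u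
  have hav := amp_pos h n v
  set M1 : ℝ := B.d n ^ (-η) * amp B lev A q g Λ n u with hM1
  set M2 : ℝ := amp B lev A q g Λ n v with hM2
  have hM10 : 0 < M1 := mul_pos (P _) hau
  have hMr : M1 / M2 ≤ B.d n ^ (-η) := by
    rw [div_le_iff₀ hav, hM1]
    exact mul_le_mul_of_nonneg_left hamp (P _).le
  set K : ℝ := cq q * (B.d n ^ (-η) * B.d n ^ (-η)) *
    (B.d n ^ (-η) * (M1 / M2) * (3 * R) ^ (2 + q)) * X ^ q with hK
  have hcq := cq_nonneg hq
  have hK0 : 0 ≤ K := by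
    have := P (-η)
    positivity
  have hcell : ∀ x0 ∈ I n, ((((I n).filter fun x => zc (lev n v) x.2 = zc (lev n v) x0.2 ∧
        θ ≤ |cr (fr lev f e n u x) (fr lev f e n v x)|).image Prod.fst).card : ℝ) ≤
      K * ((((I n).filter fun x => zc (lev n u) x.2 = zc (lev n u) x0.2).image Prod.fst).card : ℝ) :=
    fun x0 hx0 => cell_two (f := fun t J => f n u t J) (g := fun t J => f n v t J) hij hq
      (fun J => Near.scale (P (-η)).le (nu J)) nv dm du1 du3 du4 dv1 dv3 dv4 du2 dv2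
      hM10 hav (by have := P (-η); positivity) (P (-η)).le hRdef hθX hx0
  have hν1 := P (-(1 - (u : ℝ)) + (Λ 1 - Λ u) + η)
  have hν2 := P (-(1 - (v : ℝ)) + (Λ 1 - Λ v) - η)
  have hsum := sum_bad (I := I n) (obj := Prod.fst) (c := fun x => zc (lev n u) x.2)
    (c' := fun x => zc (lev n v) x.2) (bad := fun x => θ ≤ |cr (fr lev f e n u x) (fr lev f e n v x)|)
    (K := K) (N := R) hK0 (fun x _ y _ hxy => zc_nest hij hxy) hcell hν2.le hν1.le
    (fun x hx => by
      have := card_cells hij (I n) (zc (lev n u) x.2)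
      rw [hRdef]
      exact_mod_cast this)
    (fun x hx => (cv x hx).2) (fun x hx => (cu x hx).1)
  -- exponents
  have hfin := fin_two (B := B) (n := n) (C := C) (D := D) (ε := ε) (η := η) (R := R) (K := K)
    (X := X) (cq := cq q) (Mr := M1 / M2) hq hq2 hC hD0 hη0 hR1 hR2 hX0 hXle hcq k1
    (by positivity) hMr hK
  have hνν : B.d n ^ (-(1 - (v : ℝ)) + (Λ 1 - Λ v) - η) ≤
      B.d n ^ (-(2 * η)) * B.d n ^ (-(1 - (u : ℝ)) + (Λ 1 - Λ u) + η) := by
    rw [← dadd]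
    apply danti
    have := (h.lam u v (by exact_mod_cast hu) huvR.le (by exact_mod_cast hv)).2
    linarith
  have hI0 : (0 : ℝ) ≤ (I n).card := Nat.cast_nonneg _
  refine le_of_mul_le_mul_right (hsum.trans ?_) hν1
  calc B.d n ^ (-(1 - (v : ℝ)) + (Λ 1 - Λ v) - η) * R * K * ((I n).card : ℝ)
      = B.d n ^ (-(1 - (v : ℝ)) + (Λ 1 - Λ v) - η) * (R * K * ((I n).card : ℝ)) := by ring
    _ ≤ (B.d n ^ (-(2 * η)) * B.d n ^ (-(1 - (u : ℝ)) + (Λ 1 - Λ u) + η)) *
          (R * K * ((I n).card : ℝ)) := mul_le_mul_of_nonneg_right hνν (by positivity)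
    _ = (B.d n ^ (-(2 * η)) * R * K) * ((I n).card : ℝ) *
          B.d n ^ (-(1 - (u : ℝ)) + (Λ 1 - Λ u) + η) := by ring
    _ ≤ B.d n ^ (q * ε / 2) * ((I n).card : ℝ) *
          B.d n ^ (-(1 - (u : ℝ)) + (Λ 1 - Λ u) + η) := by
        refine mul_le_mul_of_nonneg_right (mul_le_mul_of_nonneg_right ?_ hI0) hν1.le
        refine hfin.trans ?_
        apply danti
        linarith

/-- the constant `C(q)` of both tilt lemmas -/
def Cq (q : ℝ) : ℝ := (5 + 2 * q) / q

theorem Cq_mul (hq : 0 < q) : Cq q * q = 5 + 2 * q := by unfold Cq; field_simp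

/-- **L10** -/
theorem tilts (h : Mk B I L lev r0 A q g Λ τ f b e w1 w2) :
    TiltCrude B I lev f e w1 w2 (Cq q) ∧ TiltTwo B I lev τ f e w1 w2 (Cq q) :=
  ⟨tiltCrude h (Cq_mul h.q0).ge, tiltTwo h (by rw [Cq_mul h.q0]; linarith [h.q0])⟩

end

end Crest.Agent.R138.TiltU51
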