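import Crest.Agent.R138.ArgM7_163
import Crest.Agent.R138.MkRef_774
import Crest.Agent.R138.TiltU_51

/-!
# R138, TEXT I (helper163): L14 with the landed leaves plugged in

`refine_mk` (774), `zoom` (779), `tilts` (51) are theorems; the remaining inputs of
"marked extremal sequence ⟹ natural marks" are L13 (`HExRot`) and L12 (`HRot`).
-/

set_option autoImplicit false
set_option linter.unusedVariables false

open Finset Filter Topology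

open Crest.Agent.R138.Ex926 (Base U)
open Crest.Agent.R138.Flag51 (Ln E2 cr dt InPlank)
open Crest.Agent.R138.Mk163

namespace Crest.Agent.R138.ArgM163

theorem hRef : HRef := fun B I L lev r0 A q g Λ τ f b e w1 w2 =>
  MkRef774.refine_mk B I L lev r0 A q g Λ τ f b e w1 w2

theorem hZoom : HZoom := fun B I L lev r0 A q g Λ τ f b e w1 w2 =>
  MkZoom779.zoom

theorem hTilt (q g : ℝ) : HTilt q g (TiltU51.Cq q) := fun B I L lev r0 A Λ τ f b e w1 w2 h =>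
  (TiltU51.tilts h).2

theorem hCrude (q g : ℝ) : HCrude q g (TiltU51.Cq q) := fun B I L lev r0 A Λ τ f b e w1 w2 h =>
  (TiltU51.tilts h).1

/-- natural marks, modulo L12 and L13 -/
theorem exists_nat5' (hEx : HExRot) {q g : ℝ}
    (hA : ∀ s : ℝ, 0 ≤ s → s ≤ 1 → ∃ k0 : ℝ, 0 < k0 ∧ HRot q g s k0)
    {B : Base} {I : ℕ → Finset (ℕ × ℝ)} {L : ℕ → ℕ → Ln} {lev : ℕ → ℚ → ℕ}
    {r0 A : ℕ → ℝ} {Λ τ : ℝ → ℝ} {f : ℕ → ℚ → ℕ → ℤ → ℕ} {b : ℕ → ℚ → ℕ → Ln}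
    {e : ℕ → ℚ → ℕ → E2} {w1 w2 : ℕ → ℚ → ℝ}
    (h : Mk B I L lev r0 A q g Λ τ f b e w1 w2) {κ : ℝ} (hκ : 0 < κ)
    (hτ : ∀ u v : ℚ, 0 ≤ u → u ≤ v → v ≤ 1 → κ * ((v : ℝ) - u) ≤ τ u - τ v) :
    ∃ (B' : Base) (I' : ℕ → Finset (ℕ × ℝ)) (lev' : ℕ → ℚ → ℕ) (A' : ℕ → ℝ)
      (f' : ℕ → ℚ → ℕ → ℤ → ℕ) (b' : ℕ → ℚ → ℕ → Ln) (e' : ℕ → ℚ → ℕ → E2)
      (w1' w2' : ℕ → ℚ → ℝ) (fl : ℕ → ℕ × ℝ → E2) (sc : ℕ → ℝ) (k s θ : ℝ),
      κ ≤ θ ∧ 0 ≤ s ∧ s ≤ 1 ∧ Nat5 B' I' L lev' r0 A' q g f' b' e' w1' w2' fl sc k s θ := by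
  have hq := h.q0
  have hC : 0 ≤ TiltU51.Cq q := by
    unfold TiltU51.Cq
    positivity
  exact exists_nat5 hRef hZoom hEx (hTilt q g) (hCrude q g) hA hC hC h hκ hτ

end Crest.Agent.R138.ArgM163
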