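import Crest.Agent.R138.Dim_294
import Crest.Agent.R138.Ubx_294

/-!
# R138, TEXT I (helper294): glue of NORM

`NormDims` = literal statement of 774's / 70's theorem (configurations with equal dimensions);
`norm_bd`: `NormDims` gives the hypothesis `hN` of `K294.ubx`.
-/

set_option autoImplicit false
set_option linter.unusedVariables false

open Finset

namespace Crest.Agent.R138.K294

open Crest.Agent.R138.Flag51

/-- literal statement of NORM for configurations with one dyadic pair of dimensions; `L0` = new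
resolution exponent -/
def NormDims (q0 L0 : ℝ) : Prop :=
  ∃ (M0 : ℕ) (C : ℝ), ∀ q, q0 ≤ q → q ≤ 2 → ∀ F : Cf, F.Ok q → M0 ≤ F.M → ∀ a1 a2 : ℝ,
    0 < a1 → a1 ≤ a2 →
    (∀ x ∈ F.I, (F.K (F.cl (ob F.top x))).w1 ≤ a1 ∧ a1 ≤ 2 * (F.K (F.cl (ob F.top x))).w1 ∧
      (F.K (F.cl (ob F.top x))).w2 ≤ a2 ∧ a2 ≤ 2 * (F.K (F.cl (ob F.top x))).w2) →
    -1 ≤ F.val →
    ∃ F' : Cf, F'.Ok q ∧ F'.m = F.m ∧ F'.M = F.M ∧
      (2:ℝ) ^ (-((F.m : ℝ) + L0 * F.M)) ≤ F'.r ∧ F'.I.card ≤ F.I.card ∧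
      F.val - C / F.M ≤ F'.val

/-- **NORM in the form needed by `joint_all` / `ubx`** -/
theorem norm_bd (h : ∀ q0 : ℝ, 0 < q0 → ∃ L0 : ℝ, NormDims q0 L0) :
    ∀ q0 : ℝ, 0 < q0 → ∃ L0 : ℝ, ∀ p, q0 ≤ p → p ≤ 2 → ∀ b : ℝ, 0 ≤ b → ∀ C : ℝ,
      Ps926.Bd p b L0 C → ∀ R, Ps926.Bd p b R C := by
  intro q0 hq0
  obtain ⟨L0, M1, C1, hN⟩ := h q0 hq0
  refine ⟨L0, fun p hp0 hp2 b hb C hbd R => ?_⟩
  rw [bd926] at hbd ⊢
  intro η hη
  obtain ⟨M2, h2⟩ := dims_val (max R 1) (le_max_right _ _) (min (η / 3) 1)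
    (lt_min (by linarith) one_pos)
  obtain ⟨M3, h3⟩ := hbd (η / 3) (by linarith)
  obtain ⟨M4, hM4⟩ := exists_nat_gt (3 * |C1| / η)
  refine ⟨max (max M1 M2) (max M3 M4), fun F hF hM hS => ?_⟩
  have hM1 : M1 ≤ F.M := (le_max_left _ _).trans ((le_max_left _ _).trans hM)
  have hM2 : M2 ≤ F.M := (le_max_right _ _).trans ((le_max_left _ _).trans hM)
  have hM3 : M3 ≤ F.M := (le_max_left _ _).trans ((le_max_right _ _).trans hM)
  have hM4' : M4 ≤ F.M := (le_max_right _ _).trans ((le_max_right _ _).trans hM)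
  by_contra hcon
  push Not at hcon
  obtain ⟨F', W1, W2, hF', hS', e1, e2, e3, e4, e5, e6, hK, g1, g2, g3, hv⟩ :=
    h2 p C (hq0.le.trans hp0) hp2 F hF hM2 (hS.mono (le_max_left _ _) le_rfl)
  have hr := hF.r0
  have hv1 : F.val - η / 3 ≤ F'.val := by
    have := min_le_left (η / 3) 1
    linarith
  have hv2 : -1 ≤ F'.val := by
    have := min_le_right (η / 3) 1
    linarith
  have hW1 : 0 < W1 := hr.trans_le g1
  obtain ⟨F2, hF2, f1, f2, f3, f4, f5⟩ := hN p hp0 hp2 F' hF' (by rw [e2]; exact hM1) W1 W2 hW1 g2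
    (fun x hx => by
      obtain ⟨k1, k2, -⟩ := hK (F'.cl (ob F'.top x))
      rw [k1, k2]
      exact ⟨le_rfl, by linarith, le_rfl, by linarith⟩) hv2
  have hSz : F2.Sz L0 C := by
    refine ⟨?_, ?_⟩
    · rw [half_rpow, f1, f2]; exact f3
    · rw [f2, e2]
      exact le_trans (by exact_mod_cast f4.trans (card_le_card e4)) hS.card
  have h4 := h3 F2 hF2 (by rw [f2, e2]; exact hM3) hSz
  have hMp : (1:ℝ) ≤ F.M := by exact_mod_cast hF.M1
  have h5 : C1 / (F'.M : ℝ) ≤ η / 3 := by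
    rw [e2, div_le_iff₀ (by linarith)]
    have h6 : 3 * |C1| / η < F.M := hM4.trans_le (by exact_mod_cast hM4')
    rw [div_lt_iff₀ hη] at h6
    have := le_abs_self C1
    linarith
  linarith

end Crest.Agent.R138.K294
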