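import Crest.Agent.R138.MkDef_163
import Crest.Agent.R138.ExtP_926
import Crest.Agent.R138.Nx1_638

/-!
# R138, TEXT I, L15 (helper638): asymptotics of an `Nat5`

Two-sided bounds for cell lengths, wide widths, precisions, thicknesses and the resolution.
-/

set_option autoImplicit false
set_option linter.unusedVariables false

open Finset Filter Topology

namespace Crest.Agent.R138.Nx638

open Crest.Agent.R138.Ex926
open Crest.Agent.R138.Flag51 Crest.Agent.R138.Flg101 Crest.Agent.R138.Mk163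

noncomputable section

variable {B : Base}

theorem pow_of_log {x : ℝ} {n : ℕ} : Real.exp (x * B.L n) = B.d n ^ (-x) := B.exp_eq n x

/-- a limit of logarithmic quotients gives two-sided bounds -/
theorem two_sided {a b : ℕ → ℝ} {t : ℝ} (ha : ∀ᶠ n in (U : Filter ℕ), 0 < a n)
    (hb : ∀ᶠ n in (U : Filter ℕ), 0 < b n)
    (h : Tendsto (fun n => Real.log (a n / b n) / B.L n) U (𝓝 t)) {ε : ℝ} (hε : 0 < ε) :
    ∀ᶠ n in (U : Filter ℕ), a n * B.d n ^ (t + ε) ≤ b n ∧ b n ≤ a n * B.d n ^ (t - ε) := by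
  filter_upwards [ha, hb, h.eventually (Icc_mem_nhds (show t - ε < t by linarith)
    (show t < t + ε by linarith))] with n h1 h2 h3
  have hL := B.L_pos n
  obtain ⟨h4, h5⟩ := h3
  rw [le_div_iff₀ hL] at h4
  rw [div_le_iff₀ hL] at h5
  have e1 : b n = a n * Real.exp (-Real.log (a n / b n)) := by
    rw [Real.exp_neg, Real.exp_log (by positivity)]
    field_simp
  have e2 : B.d n ^ (t + ε) = Real.exp (-((t + ε) * B.L n)) := by
    rw [← neg_mul, B.exp_eq]; simp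
  have e3 : B.d n ^ (t - ε) = Real.exp (-((t - ε) * B.L n)) := by
    rw [← neg_mul, B.exp_eq]; simp
  rw [e1, e2, e3]
  constructor
  · refine mul_le_mul_of_nonneg_left (Real.exp_le_exp.2 ?_) h1.le
    linarith
  · refine mul_le_mul_of_nonneg_left (Real.exp_le_exp.2 ?_) h1.le
    linarith

theorem ev_const (B : Base) {C : ℝ} (hC : 0 < C) {ε : ℝ} (hε : 0 < ε) :
    ∀ᶠ n in (U : Filter ℕ), C ≤ B.d n ^ (-ε) := by
  filter_upwards [B.ev_const_log (Real.log C) hε] with n hn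
  rw [← B.exp_eq, ← Real.log_le_iff_le_exp hC]
  exact hn

theorem d_pos (B : Base) (n : ℕ) (t : ℝ) : 0 < B.d n ^ t := Real.rpow_pos_of_pos (B.pos n) t

theorem d_add (B : Base) (n : ℕ) (s t : ℝ) : B.d n ^ (s + t) = B.d n ^ s * B.d n ^ t :=
  Real.rpow_add (B.pos n) s t

theorem d_anti (B : Base) (n : ℕ) {s t : ℝ} (h : s ≤ t) : B.d n ^ t ≤ B.d n ^ s :=
  Real.rpow_le_rpow_of_exponent_ge (B.pos n) (B.lt n).le h

variable {I : ℕ → Finset (ℕ × ℝ)} {L : ℕ → ℕ → Ln} {lev : ℕ → ℚ → ℕ}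
    {r0 A : ℕ → ℝ} {q g : ℝ} {Λ τ : ℝ → ℝ} {f : ℕ → ℚ → ℕ → ℤ → ℕ} {b : ℕ → ℚ → ℕ → Ln}
    {e : ℕ → ℚ → ℕ → E2} {w1 w2 : ℕ → ℚ → ℝ} {fl : ℕ → ℕ × ℝ → E2} {sc : ℕ → ℝ} {k s θ : ℝ}

theorem rho_pos (i : ℕ) : 0 < rho i := by unfold rho; positivity

section MkSec

variable (hM : Mk B I L lev r0 A q g Λ τ f b e w1 w2)
include hM

/-- ratio of cell lengths -/
theorem rho_two {u v : ℚ} (hu : 0 ≤ u) (huv : u ≤ v) (hv : v ≤ 1) {ε : ℝ} (hε : 0 < ε) :
    ∀ᶠ n in (U : Filter ℕ), rho (lev n u) * B.d n ^ ((v : ℝ) - u + ε) ≤ rho (lev n v) ∧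
      rho (lev n v) ≤ rho (lev n u) * B.d n ^ ((v : ℝ) - u - ε) := by
  refine two_sided (Eventually.of_forall fun n => rho_pos _) (Eventually.of_forall fun n => rho_pos _)
    ?_ hε
  refine (hM.lev_lim u v hu huv hv).congr fun n => ?_
  congr 1
  rw [Real.log_div (rho_pos _).ne' (rho_pos _).ne']
  unfold rho
  rw [one_div, one_div, Real.log_inv, Real.log_inv, Real.log_pow, Real.log_pow]
  ring

theorem ev_w {v : ℚ} (hv0 : 0 ≤ v) (hv : v ≤ 1) :
    ∀ᶠ n in (U : Filter ℕ), 0 < w1 n v ∧ 0 < w2 n v := by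
  filter_upwards [hM.dims v hv0 hv] with n hn
  have := hM.rpos n
  exact ⟨by linarith, by linarith⟩

/-- wide angular width of the level `1` -/
theorem w2_two {v : ℚ} (hv0 : 0 ≤ v) (hv : v ≤ 1) {ε : ℝ} (hε : 0 < ε) :
    ∀ᶠ n in (U : Filter ℕ), w2 n 1 / rho (lev n 1) * B.d n ^ (τ v + ε) ≤ w2 n v / rho (lev n v) ∧
      w2 n v / rho (lev n v) ≤ w2 n 1 / rho (lev n 1) * B.d n ^ (τ v - ε) := by
  refine two_sided ?_ ?_ ?_ hε
  · filter_upwards [ev_w hM zero_le_one le_rfl] with n hn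
    exact div_pos hn.2 (rho_pos _)
  · filter_upwards [ev_w hM hv0 hv] with n hn
    exact div_pos hn.2 (rho_pos _)
  · refine (hM.tau v hv0 hv).congr' ?_
    filter_upwards [ev_w hM hv0 hv, ev_w hM zero_le_one le_rfl] with n h1 h2
    congr 2
    have a1 := h1.2.ne'
    have a2 := h2.2.ne'
    have a3 := (rho_pos (lev n v)).ne'
    have a4 := (rho_pos (lev n 1)).ne'
    field_simp

end MkSec

section N5

variable (hN : Nat5 B I L lev r0 A q g f b e w1 w2 fl sc k s θ)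
include hN

theorem prec_two {v : ℚ} (hv0 : 0 ≤ v) (hv : v ≤ 1) {ε : ℝ} (hε : 0 < ε) :
    ∀ᶠ n in (U : Filter ℕ), sc n * B.d n ^ (k * v + ε) ≤ prec w1 w2 n v ∧
      prec w1 w2 n v ≤ sc n * B.d n ^ (k * v - ε) := by
  refine two_sided (Eventually.of_forall fun n => hN.rot.scpos n) ?_ (hN.pr v hv0 hv) hε
  filter_upwards [ev_w hN.base hv0 hv] with n hn
  exact div_pos hn.1 hn.2

/-- the scale of the flags is at most `d^-ε` -/
theorem sc_le {ε : ℝ} (hε : 0 < ε) : ∀ᶠ n in (U : Filter ℕ), sc n ≤ B.d n ^ (-ε) := by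
  filter_upwards [prec_two hN le_rfl zero_le_one hε, ev_w hN.base le_rfl zero_le_one,
    hN.base.dims 0 le_rfl zero_le_one] with n h1 h2 h3
  have h4 : prec w1 w2 n 0 ≤ 1 := (div_le_one h2.2).2 h3.2.1
  have h5 := h1.1
  have h6 : B.d n ^ (-ε) * B.d n ^ (k * ((0 : ℚ) : ℝ) + ε) = 1 := by
    rw [← d_add]; simp
  have h7 := d_pos B n (-ε)
  calc sc n = B.d n ^ (-ε) * (sc n * B.d n ^ (k * ((0 : ℚ) : ℝ) + ε)) := by
        rw [mul_left_comm, h6, mul_one]
    _ ≤ B.d n ^ (-ε) * 1 := mul_le_mul_of_nonneg_left (h5.trans h4) h7.le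
    _ = _ := mul_one _

/-- thickness of the marks -/
theorem w1_le {v : ℚ} (hv0 : 0 ≤ v) (hv : v ≤ 1) {ε : ℝ} (hε : 0 < ε) :
    ∀ᶠ n in (U : Filter ℕ), w1 n v ≤ sc n * (w2 n 1 / rho (lev n 1)) * rho (lev n 0) *
      B.d n ^ (v + θ * (1 - v) + k * v - ε) := by
  have h3 : (0 : ℝ) < ε / 3 := by positivity
  filter_upwards [prec_two hN hv0 hv h3, w2_two hN.base hv0 hv h3, rho_two hN.base le_rfl hv0 hv h3,
    ev_w hN.base hv0 hv, ev_w hN.base zero_le_one le_rfl] with n h1 h2 h3 h4 h5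
  have hsc := hN.rot.scpos n
  have r1 := rho_pos (lev n 1)
  have r2 := rho_pos (lev n v)
  have r3 := rho_pos (lev n 0)
  have e1 : w1 n v = prec w1 w2 n v * (w2 n v / rho (lev n v)) * rho (lev n v) := by
    unfold prec
    have := h4.2.ne'
    field_simp
  have e2 : B.d n ^ ((v : ℝ) + θ * (1 - v) + k * v - ε) =
      B.d n ^ (k * (v : ℝ) - ε / 3) * B.d n ^ (θ * (1 - (v : ℝ)) - ε / 3) *
        B.d n ^ ((v : ℝ) - ((0 : ℚ) : ℝ) - ε / 3) := by
    rw [← d_add, ← d_add]; congr 1; push_cast; ring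
  rw [e1, e2]
  calc prec w1 w2 n v * (w2 n v / rho (lev n v)) * rho (lev n v)
      ≤ (sc n * B.d n ^ (k * (v : ℝ) - ε / 3)) *
        (w2 n 1 / rho (lev n 1) * B.d n ^ (θ * (1 - (v : ℝ)) - ε / 3)) *
        (rho (lev n 0) * B.d n ^ ((v : ℝ) - ((0 : ℚ) : ℝ) - ε / 3)) := by
        have p1 : 0 ≤ prec w1 w2 n v := (div_pos h4.1 h4.2).le
        have p2 : 0 ≤ w2 n v / rho (lev n v) := (div_pos h4.2 r2).le
        have p3 := (d_pos B n (k * (v : ℝ) - ε / 3)).le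
        have p4 := (d_pos B n (θ * (1 - (v : ℝ)) - ε / 3)).le
        have p5 := (div_pos h5.2 r1).le
        gcongr
        · exact h1.2
        · exact h2.2
        · exact h3.2
    _ = _ := by ring

/-- resolution -/
theorem r0_le {ε : ℝ} (hε : 0 < ε) :
    ∀ᶠ n in (U : Filter ℕ), r0 n ≤ sc n * (w2 n 1 / rho (lev n 1)) * rho (lev n 0) *
      B.d n ^ (max (1 + k) θ - ε) := by
  rcases le_total (1 + k) θ with h | h
  · rw [max_eq_right h]
    filter_upwards [w1_le hN le_rfl zero_le_one hε, hN.base.dims 0 le_rfl zero_le_one] with n h1 h2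
    refine (h2.1.trans h1).trans (le_of_eq ?_)
    congr 2; push_cast; ring
  · rw [max_eq_left h]
    filter_upwards [w1_le hN zero_le_one le_rfl hε, hN.base.dims 1 zero_le_one le_rfl] with n h1 h2
    refine (h2.1.trans h1).trans (le_of_eq ?_)
    congr 2; push_cast; ring

end N5

end

end Crest.Agent.R138.Nx638
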