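import Crest.Agent.R138.Nx2_638

/-!
# R138, TEXT I, L15 (helper638): D-max for the label classes, finite form (GEO-D)
-/

set_option autoImplicit false
set_option linter.unusedVariables false

open Finset Filter Topology

namespace Crest.Agent.R138.Nx638

open Crest.Agent.R138.Ex926
open Crest.Agent.R138.Flag51 Crest.Agent.R138.Flg101 Crest.Agent.R138.Mk163
open Crest.Agent.R138.Tilt51 (DMax Near)

noncomputable section

variable {I : Finset (ℕ × ℝ)} {L : ℕ → Ln} {c : Bool} {al sc : ℝ} {fl : ℕ × ℝ → E2}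

/-- normalised incidence -/
def nx (c : Bool) (i0 : ℕ) (al sc : ℝ) (L : ℕ → Ln) (fl : ℕ × ℝ → E2) (x : ℕ × ℝ) : Inc :=
  toInc c (2 ^ i0) al sc (L x.1) (sl c (fl x)) x.2

theorem nx_z (i0 : ℕ) (x : ℕ × ℝ) : (nx c i0 al sc L fl x).z = 2 ^ i0 * x.2 := rfl

theorem zc_of_cell {i0 ic iu jc : ℕ} (h : iu ≤ i0 + ic) {x y : ℕ × ℝ}
    (hc : (nx c i0 al sc L fl y).cell ic jc = (nx c i0 al sc L fl x).cell ic jc) :
    zc iu y.2 = zc iu x.2 := by
  unfold Inc.cell at hc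
  rw [Prod.mk.injEq] at hc
  have h1 := hc.1
  rw [nx_z, nx_z, ← mul_assoc, ← mul_assoc, ← pow_add] at h1
  exact floor_nested (by omega) h1

theorem zl_le (i : ℕ) (z : ℝ) : zl i (zc i z) ≤ z := by
  unfold zl zc
  rw [div_le_iff₀ (by positivity)]
  linarith [Int.floor_le ((2 : ℝ) ^ i * z), mul_comm z ((2:ℝ) ^ i)]

theorem lt_zl (i : ℕ) (z : ℝ) : z < zl i (zc i z) + rho i := by
  unfold zl zc rho
  rw [← add_div, lt_div_iff₀ (by positivity)]
  linarith [Int.lt_floor_add_one ((2 : ℝ) ^ i * z), mul_comm z ((2:ℝ) ^ i)]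

open Classical in
/-- incidences of one line in one cell -/
theorem fib_card {iu i1 : ℕ} (hone : ∀ x ∈ I, ∀ y ∈ I, x.1 = y.1 → zc i1 x.2 = zc i1 y.2 → x = y)
    (x : ℕ × ℝ) :
    (I.filter fun y => y.1 = x.1 ∧ zc iu y.2 = zc iu x.2).card ≤ (own I iu i1 x).card := by
  unfold own
  rw [card_image_of_injOn]
  intro a ha b hb hab
  have ha' := mem_filter.1 ha
  have hb' := mem_filter.1 hb
  exact hone a ha'.1 b hb'.1 (ha'.2.1.trans hb'.2.1.symm) hab

open Classical in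
/-- **finite form of GEO-D** -/
theorem class_card {i0 iu i1 ic jc : ℕ} {p : Fin 4 → ℕ} (hal : 0 < al) (hsc : 0 < sc) (hsc1 : sc ≤ 1)
    (h0u : i0 ≤ iu) (huc : iu ≤ i0 + ic)
    (hone : ∀ x ∈ I, ∀ y ∈ I, x.1 = y.1 → zc i1 x.2 = zc i1 y.2 → x = y)
    {Nown : ℝ} (hown : ∀ y ∈ I, ((own I iu i1 y).card : ℝ) ≤ Nown)
    {x : ℕ × ℝ} (hx : x ∈ I) (hfl : dt (fl x) (fl x) = 1) (hch : Ch c (fl x)) {M q r0 : ℝ}
    (hM : DMax (alive I iu (zc iu x.2)) L (fun _ => 1) (zl iu (zc iu x.2)) (rho iu) M 0 q r0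
      (100 * rho iu)) {a1 a2 : ℝ}
    (h1 : al * sc / 2 ^ i0 * ((1 / 2) ^ p 0 + 3 * 2 ^ i0 * rho iu * (1 / 2) ^ p 1) ≤ a1)
    (h2 : 3 * (al / 2 ^ i0 * ((1 / 2) ^ p 3 + 3 * 2 ^ i0 * rho iu * (1 / 2) ^ p 2)) +
      al * sc / 2 ^ i0 * ((1 / 2) ^ p 0 + 3 * 2 ^ i0 * rho iu * (1 / 2) ^ p 1) ≤ a2)
    (hr : r0 ≤ a1) (ha : a1 ≤ a2) (hb : a2 ≤ 100 * rho iu) :
    ((I.filter fun y => (nx c i0 al sc L fl y).lab ic jc p = (nx c i0 al sc L fl x).lab ic jc p).card
      : ℝ) ≤ M * a1 ^ (1 + 0 : ℝ) * a2 ^ (1 + q) * Nown := by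
  set S := I.filter fun y => (nx c i0 al sc L fl y).lab ic jc p = (nx c i0 al sc L fl x).lab ic jc p
    with hS
  set J := zc iu x.2 with hJ
  have hH : (0:ℝ) < 2 ^ i0 := by positivity
  have hSz : ∀ y ∈ S, zc iu y.2 = J := fun y hy =>
    zc_of_cell huc (lab_eq_iff.1 (mem_filter.1 hy).2).1
  set w' := nx c i0 al sc L fl x with hw'
  set n := nrm c (w'.fQ jc * sc) with hn
  -- the corner slope is bounded
  have hf : 1 + |w'.fQ jc * sc| ≤ 3 := by
    have e1 : |sl c (fl x) / sc - w'.fQ jc| ≤ (1 / 2) ^ jc := abs_sub_fl jc _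
    have e2 : w'.fQ jc * sc = sl c (fl x) - sc * (sl c (fl x) / sc - w'.fQ jc) := by
      field_simp; ring
    have e3 : ((1:ℝ) / 2) ^ jc ≤ 1 := pow_le_one₀ (by norm_num) (by norm_num)
    rw [e2]
    have e4 := hch.sl_le hfl
    have e5 : |sc * (sl c (fl x) / sc - w'.fQ jc)| ≤ 1 := by
      rw [abs_mul, abs_of_pos hsc]
      exact mul_le_one₀ hsc1 (abs_nonneg _) (e1.trans e3)
    have e6 := abs_sub (sl c (fl x)) (sc * (sl c (fl x) / sc - w'.fQ jc))
    linarith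
  -- all lines of the class lie in one plank
  have hplank : ∀ y ∈ S, InPlank (L y.1) (L x.1) n a1 a2 (zl iu J) (rho iu) := by
    intro y hy ζ hζ
    have hlab := lab_eq_iff.1 (mem_filter.1 hy).2
    have hD : |2 ^ i0 * ζ - w'.zQ ic| ≤ 3 * 2 ^ i0 * rho iu := by
      have a1 : |2 ^ i0 * x.2 - w'.zQ ic| ≤ (1 / 2) ^ ic := abs_sub_fl ic _
      have a2 : ((1:ℝ) / 2) ^ ic ≤ 2 ^ i0 * rho iu := by
        unfold rho
        rw [one_div, inv_pow, inv_eq_one_div, mul_one_div, div_le_div_iff₀ (by positivity)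
          (by positivity), one_mul, ← pow_add]
        exact pow_le_pow_right₀ (by norm_num) huc
      have a3 : |ζ - x.2| ≤ 2 * rho iu := by
        have b1 := zl_le iu x.2
        have b2 := lt_zl iu x.2
        have b3 := abs_le.1 hζ
        rw [abs_le]
        constructor
        · linarith [b3.1]
        · linarith [b3.2, rho_pos iu]
      have a4 : 2 ^ i0 * ζ - w'.zQ ic = 2 ^ i0 * (ζ - x.2) + (2 ^ i0 * x.2 - w'.zQ ic) := by ring
      rw [a4]
      refine (abs_add_le _ _).trans ?_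
      rw [abs_mul, abs_of_pos hH]
      have := mul_le_mul_of_nonneg_left a3 hH.le
      linarith
    obtain ⟨g1, g2⟩ := G1 (c := c) (H := 2 ^ i0) (l := L y.1) (l' := L x.1) (ph := sl c (fl y))
      (ph' := sl c (fl x)) (z := y.2) (z' := x.2) (r := fun k => (1 / 2) ^ p k) hH hal hsc hlab.1
      (fun k => dist_of_floor (hlab.2 k)) hD
    refine ⟨g1.trans h1, g2.trans (le_trans ?_ h2)⟩
    refine add_le_add ?_ le_rfl
    refine mul_le_mul_of_nonneg_right hf ?_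
    have := rho_pos iu
    positivity
  have hJS : S.image Prod.fst ⊆ (alive I iu J).filter fun t =>
      InPlank (L t) (L x.1) n a1 a2 (zl iu J) (rho iu) := by
    intro t ht
    obtain ⟨y, hy, rfl⟩ := mem_image.1 ht
    refine mem_filter.2 ⟨?_, hplank y hy⟩
    exact mem_image.2 ⟨y, mem_filter.2 ⟨(mem_filter.1 hy).1, hSz y hy⟩, rfl⟩
  have hlines : ((S.image Prod.fst).card : ℝ) ≤ M * a1 ^ (1 + 0 : ℝ) * a2 ^ (1 + q) := by
    have h3 := hM (L x.1) n a1 a2 (nrm_unit _ _) hr ha hb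
    rw [sum_const, nsmul_eq_mul, mul_one] at h3
    exact le_trans (by exact_mod_cast card_le_card hJS) h3
  have hfib : ∀ t ∈ S.image Prod.fst, (((S.filter fun y => y.1 = t).card : ℕ) : ℝ) ≤ Nown := by
    intro t ht
    obtain ⟨y, hy, rfl⟩ := mem_image.1 ht
    refine le_trans ?_ (hown y (mem_filter.1 hy).1)
    have h4 : (S.filter fun y' => y'.1 = y.1) ⊆
        I.filter fun y' => y'.1 = y.1 ∧ zc iu y'.2 = zc iu y.2 := by
      intro y' hy'
      obtain ⟨h5, h6⟩ := mem_filter.1 hy'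
      exact mem_filter.2 ⟨(mem_filter.1 h5).1, h6, (hSz y' h5).trans (hSz y hy).symm⟩
    exact_mod_cast (card_le_card h4).trans (fib_card hone y)
  have hN0 : 0 ≤ Nown := (Nat.cast_nonneg _).trans (hown x hx)
  have hcount : (S.card : ℝ) ≤ ((S.image Prod.fst).card : ℝ) * Nown := by
    have h5 : (S.card : ℝ) = ∑ t ∈ S.image Prod.fst, (((S.filter fun y => y.1 = t).card : ℕ) : ℝ) := by
      rw [← Nat.cast_sum]
      congr 1
      exact card_eq_sum_card_image Prod.fst S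
    rw [h5]
    calc _ ≤ ∑ t ∈ S.image Prod.fst, Nown := sum_le_sum hfib
      _ = _ := by rw [sum_const, nsmul_eq_mul]
  exact hcount.trans (mul_le_mul_of_nonneg_right hlines hN0)

end

end Crest.Agent.R138.Nx638
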