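import Crest.Agent.R138.Nx3_638
import Crest.Agent.R138.L15Def_196

/-!
# R138, TEXT I, L15 (helper638): GEO-D
-/

set_option autoImplicit false
set_option linter.unusedVariables false

open Finset Filter Topology

namespace Crest.Agent.R138.Nx638

open Crest.Agent.R138.Ex926 (Base U flab olab Bx6 LEG QProf mem_LEG half_pow_levc_le le_half_pow_levc
  half_pow_lev_le le_half_pow_lev)
open Crest.Agent.R138.Flag51 Crest.Agent.R138.Flg101 Crest.Agent.R138.Mk163
open Crest.Agent.R138.Tilt51 (DMax Near)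
open Crest.Agent.R138.L15

noncomputable section

variable {B : Base} {I : ℕ → Finset (ℕ × ℝ)} {L : ℕ → ℕ → Ln} {lev : ℕ → ℚ → ℕ}
    {r0 A : ℕ → ℝ} {q g : ℝ} {Λ τ : ℝ → ℝ} {f : ℕ → ℚ → ℕ → ℤ → ℕ} {b : ℕ → ℚ → ℕ → Ln}
    {e : ℕ → ℚ → ℕ → E2} {w1 w2 : ℕ → ℚ → ℝ} {fl : ℕ → ℕ × ℝ → E2} {sc : ℕ → ℝ} {k s θ : ℝ}
    {c : Bool}

section N5

variable (hN : Nat5 B I L lev r0 A q g f b e w1 w2 fl sc k s θ)
include hN

theorem ev_prec {v : ℚ} (hv0 : 0 ≤ v) (hv : v ≤ 1) :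
    ∀ᶠ n in (U : Filter ℕ), 0 < prec w1 w2 n v := by
  filter_upwards [ev_w hN.base hv0 hv] with n hn
  exact div_pos hn.1 hn.2

theorem ev_sg : ∀ᶠ n in (U : Filter ℕ), 0 < sg w1 w2 n ∧ sg w1 w2 n ≤ 1 := by
  filter_upwards [ev_prec hN le_rfl zero_le_one, ev_w hN.base le_rfl zero_le_one,
    hN.base.dims 0 le_rfl zero_le_one] with n h1 h2 h3
  exact ⟨h1, (div_le_one h2.2).2 h3.2.1⟩

theorem ev_WW : ∀ᶠ n in (U : Filter ℕ), 0 < WW lev w2 n ∧ WW lev w2 n ≤ 1 := by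
  filter_upwards [ev_w hN.base zero_le_one le_rfl,
    hN.base.dims 1 zero_le_one le_rfl] with n h2 h3
  exact ⟨div_pos h2.2 (rho_pos _), (div_le_one (rho_pos _)).2 h3.2.2⟩

/-- precision relative to level `0` -/
theorem prec_sg {v : ℚ} (hv0 : 0 ≤ v) (hv : v ≤ 1) {ε : ℝ} (hε : 0 < ε) :
    ∀ᶠ n in (U : Filter ℕ), sg w1 w2 n * B.d n ^ (k * v + ε) ≤ prec w1 w2 n v ∧
      prec w1 w2 n v ≤ sg w1 w2 n * B.d n ^ (k * v - ε) := by
  refine two_sided (ev_prec hN le_rfl zero_le_one) (ev_prec hN hv0 hv) ?_ hε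
  have h1 := (hN.pr v hv0 hv).sub (hN.pr 0 le_rfl zero_le_one)
  simp only [Rat.cast_zero, mul_zero, sub_zero] at h1
  refine h1.congr' ?_
  filter_upwards [ev_prec hN le_rfl zero_le_one, ev_prec hN hv0 hv] with n h2 h3
  have h4 := hN.rot.scpos n
  rw [← sub_div, Real.log_div h4.ne' h3.ne', Real.log_div h4.ne' h2.ne',
    Real.log_div h2.ne' h3.ne']
  congr 1; ring

/-- thickness of the marks -/
theorem w1_sg {v : ℚ} (hv0 : 0 ≤ v) (hv : v ≤ 1) {ε : ℝ} (hε : 0 < ε) :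
    ∀ᶠ n in (U : Filter ℕ), w1 n v ≤ sg w1 w2 n * WW lev w2 n * rho (lev n 0) *
      B.d n ^ (v + θ * (1 - v) + k * v - ε) := by
  have h3 : (0 : ℝ) < ε / 3 := by positivity
  filter_upwards [prec_sg hN hv0 hv h3, w2_two hN.base hv0 hv h3, rho_two hN.base le_rfl hv0 hv h3,
    ev_w hN.base hv0 hv, ev_w hN.base zero_le_one le_rfl, ev_sg hN] with n h1 h2 h3 h4 h5 h6
  have r1 := rho_pos (lev n 1)
  have r2 := rho_pos (lev n v)
  have r3 := rho_pos (lev n 0)
  have e1 : w1 n v = prec w1 w2 n v * (w2 n v / rho (lev n v)) * rho (lev n v) := by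
    unfold prec
    have := h4.2.ne'
    field_simp
  have e2 : B.d n ^ ((v : ℝ) + θ * (1 - v) + k * v - ε) =
      B.d n ^ (k * (v : ℝ) - ε / 3) * B.d n ^ (θ * (1 - (v : ℝ)) - ε / 3) *
        B.d n ^ ((v : ℝ) - ((0 : ℚ) : ℝ) - ε / 3) := by
    rw [← d_add, ← d_add]; congr 1; push_cast; ring
  rw [e1, e2]
  have hs := h6.1.le
  calc prec w1 w2 n v * (w2 n v / rho (lev n v)) * rho (lev n v)
      ≤ (sg w1 w2 n * B.d n ^ (k * (v : ℝ) - ε / 3)) *
        (w2 n 1 / rho (lev n 1) * B.d n ^ (θ * (1 - (v : ℝ)) - ε / 3)) *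
        (rho (lev n 0) * B.d n ^ ((v : ℝ) - ((0 : ℚ) : ℝ) - ε / 3)) := by
        have p1 : 0 ≤ prec w1 w2 n v := (div_pos h4.1 h4.2).le
        have p2 : 0 ≤ w2 n v / rho (lev n v) := (div_pos h4.2 r2).le
        have p3 := (d_pos B n (k * (v : ℝ) - ε / 3)).le
        have p4 := (d_pos B n (θ * (1 - (v : ℝ)) - ε / 3)).le
        have p5 := (div_pos h5.2 r1).le
        gcongr
        · exact h1.2
        · exact h2.2
        · exact h3.2
    _ = _ := by unfold WW; ring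

/-- resolution -/
theorem r0_sg {ε : ℝ} (hε : 0 < ε) :
    ∀ᶠ n in (U : Filter ℕ), r0 n ≤ sg w1 w2 n * WW lev w2 n * rho (lev n 0) *
      B.d n ^ (MM k θ - ε) := by
  unfold MM
  rcases le_total (1 + k) θ with h | h
  · rw [max_eq_right h]
    filter_upwards [w1_sg hN le_rfl zero_le_one hε, hN.base.dims 0 le_rfl zero_le_one] with n h1 h2
    refine (h2.1.trans h1).trans (le_of_eq ?_)
    congr 2; push_cast; ring
  · rw [max_eq_left h]
    filter_upwards [w1_sg hN zero_le_one le_rfl hε, hN.base.dims 1 zero_le_one le_rfl] with n h1 h2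
    refine (h2.1.trans h1).trans (le_of_eq ?_)
    congr 2; push_cast; ring

/-- a rational level slightly above the real one (in the tree: coarser) -/
theorem exists_level {v δ : ℝ} (hv0 : 0 ≤ v) (hv : v ≤ 1) (hδ : 0 < δ) :
    ∃ u : ℚ, 0 ≤ u ∧ (u : ℝ) ≤ v ∧ v - δ ≤ u ∧ u ≤ 1 ∧
      ∀ᶠ n in (U : Filter ℕ), lev n 0 ≤ lev n u ∧ lev n u ≤ lev n 0 + B.levc n v := by
  rcases hv0.eq_or_lt with h | h
  · refine ⟨0, le_rfl, by push_cast; linarith, by push_cast; linarith, zero_le_one, ?_⟩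
    exact Eventually.of_forall fun n => ⟨le_rfl, Nat.le_add_right _ _⟩
  · obtain ⟨u, hu1, hu2⟩ := exists_rat_btwn (max_lt (show v - δ < v by linarith) h)
    have hu0 : (0 : ℝ) ≤ u := ((le_max_right _ _).trans hu1.le)
    have hu0' : (0 : ℚ) ≤ u := by exact_mod_cast hu0
    have hu1' : u ≤ 1 := by
      have : (u : ℝ) ≤ 1 := by linarith
      exact_mod_cast this
    refine ⟨u, hu0', hu2.le, (le_max_left _ _).trans hu1.le, hu1', ?_⟩
    have hlim := hN.base.lev_lim 0 u le_rfl hu0' hu1'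
    rw [Rat.cast_zero, sub_zero] at hlim
    filter_upwards [hN.base.lev_mono 0 u le_rfl hu0' hu1', hlim.eventually_lt_const hu2] with n h1 h2
    refine ⟨h1, ?_⟩
    have hL := B.L_pos n
    have hl2 : 0 < Real.log 2 := Real.log_pos (by norm_num)
    rw [div_lt_iff₀ hL] at h2
    have h3 : v * B.L n / Real.log 2 ≤ (B.levc n v : ℝ) := Nat.le_ceil _
    rw [div_le_iff₀ hl2] at h3
    have h4 : ((lev n u : ℝ) - lev n 0) * Real.log 2 < (B.levc n v : ℝ) * Real.log 2 := by linarith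
    have h5 := lt_of_mul_lt_mul_right h4 hl2.le
    have h6 : (lev n u : ℝ) < lev n 0 + B.levc n v := by linarith
    exact_mod_cast h6.le

end N5

open Classical in
set_option maxHeartbeats 2000000 in
/-- GEO-D for one label class -/
theorem geoD_lab (hJ : NatJ B I L lev r0 A q g f b e w1 w2 fl sc k s θ c) {v l nn r : ℝ}
    (hv0 : 0 ≤ v) (hv : v ≤ 1) (hl : 0 ≤ l) (hln : l ≤ nn) (hM : v + nn ≤ MM k θ)
    {ε : ℝ} (hε : 0 < ε) : ∀ᶠ n in (U : Filter ℕ), ∀ x ∈ I n,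
    (((I n).filter fun y =>
      (xx L lev w1 w2 fl c n y).lab (B.levc n v) (B.levc n r)
        ![B.lev n (v + nn), B.levc n nn, B.levc n l, B.lev n (v + l)] =
      (xx L lev w1 w2 fl c n x).lab (B.levc n v) (B.levc n r)
        ![B.lev n (v + nn), B.levc n nn, B.levc n l, B.lev n (v + l)]).card : ℝ) ≤
      N0 lev A q w1 w2 n * B.d n ^ (-(bex s (2 * s + g) q v l nn + ε)) := by
  have hN := hJ.nat
  have hMk := hN.base
  have hs1 : 0 ≤ s ∧ s ≤ 1 := by
    have := hMk.lam 0 1 le_rfl zero_le_one le_rfl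
    constructor <;> linarith [this.1, this.2]
  have hg := hMk.g0
  have hq0 := hMk.q0
  have hq2 := hMk.q2
  set K := 2 * s + g + 3 with hK
  have hKpos : 0 < K := by linarith
  set ε1 := ε / 24 with hε1
  have hε1pos : 0 < ε1 := by positivity
  obtain ⟨u, hu0, huv, hvu, hu1, hlev⟩ := exists_level hN hv0 hv (δ := ε / (2 * K)) (by positivity)
  have hu0r : (0:ℝ) ≤ u := by exact_mod_cast hu0
  have hu1r : (u:ℝ) ≤ 1 := by exact_mod_cast hu1
  filter_upwards [hlev, rho_two hMk le_rfl hu0 hu1 hε1pos, hMk.one, hMk.own u 1 hu0 hu1 le_rfl ε1 hε1pos,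
    hMk.dmax u hu0 hu1 ε1 hε1pos, r0_sg hN hε1pos, hMk.dims u hu0 hu1, ev_const B (by norm_num : (0:ℝ) < 28) hε1pos,
    ev_sg hN, ev_WW hN] with n h1 h2 h3 h4 h5 h6 h7 h8 h9 h10 x hx
  set ρ0 := rho (lev n 0) with hρ0
  set ρu := rho (lev n u) with hρu
  set al := WW lev w2 n with hal
  set σ := sg w1 w2 n with hσ
  have p0 : 0 < ρ0 := rho_pos _
  have pu : 0 < ρu := rho_pos _
  have pA := hMk.Apos n
  have hdn := B.pos n
  have hH : (2:ℝ) ^ (lev n 0) * ρ0 = 1 := by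
    rw [hρ0]; unfold rho; field_simp
  rw [Rat.cast_zero, sub_zero] at h2
  -- `d^v ≤ 2 ρu / ρ0`
  have hdv : B.d n ^ v * ρ0 ≤ 2 * ρu := by
    have k1 := le_half_pow_levc B n hv0
    have k2 : ((1:ℝ) / 2) ^ (B.levc n v) * ρ0 ≤ ρu := by
      rw [hρ0, hρu]; unfold rho
      rw [one_div, inv_pow, inv_eq_one_div, div_mul_div_comm, one_mul, ← pow_add]
      exact one_div_le_one_div_of_le (by positivity)
        (pow_le_pow_right₀ (by norm_num) (by omega))
    have k3 := mul_le_mul_of_nonneg_right k1 p0.le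
    linarith
  have hpl := (d_pos B n l).le
  have hpn := (d_pos B n nn).le
  have hll : B.d n ^ l ≤ 1 := Real.rpow_le_one hdn.le (B.lt n).le hl
  have hnn : B.d n ^ nn ≤ B.d n ^ l := d_anti B n hln
  -- bounds for the boxes
  have hX : ∀ t : ℝ, ((1:ℝ) / 2) ^ (B.lev n (v + t)) + 3 * 2 ^ (lev n 0) * ρu * (1 / 2) ^ (B.levc n t) ≤
      7 * (2 ^ (lev n 0) * ρu) * B.d n ^ t := by
    intro t
    have k1 := half_pow_lev_le B n (v + t)
    have k2 := half_pow_levc_le B n t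
    rw [d_add] at k1
    have k3 : B.d n ^ v ≤ 2 * (2 ^ (lev n 0) * ρu) := by
      have : B.d n ^ v = 2 ^ (lev n 0) * (B.d n ^ v * ρ0) := by
        rw [mul_left_comm, hH, mul_one]
      rw [this]
      have := mul_le_mul_of_nonneg_left hdv (by positivity : (0:ℝ) ≤ 2 ^ (lev n 0))
      linarith
    have k4 := mul_le_mul_of_nonneg_right k3 (d_pos B n t).le
    have k5 := mul_le_mul_of_nonneg_left k2 (by positivity : (0:ℝ) ≤ 3 * 2 ^ (lev n 0) * ρu)
    linarith
  have hinv : ∀ y : ℝ, y / 2 ^ (lev n 0) = y * ρ0 := by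
    intro y
    rw [div_eq_iff (by positivity), mul_assoc, mul_comm ρ0, hH, mul_one]
  have hσ0 := h9.1
  have hal0 := h10.1
  -- widths
  set a1' := 7 * (al * σ * ρu * B.d n ^ nn) with ha1'
  set a2' := 28 * (al * ρu * B.d n ^ l) with ha2'
  set a1 := max (r0 n) a1' with ha1
  set a2 := max a1 a2' with ha2
  have b1 : al * σ / 2 ^ (lev n 0) * ((1 / 2) ^ (B.lev n (v + nn)) +
      3 * 2 ^ (lev n 0) * ρu * (1 / 2) ^ (B.levc n nn)) ≤ a1' := by
    rw [hinv]
    calc _ ≤ al * σ * ρ0 * (7 * (2 ^ (lev n 0) * ρu) * B.d n ^ nn) :=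
          mul_le_mul_of_nonneg_left (hX nn) (by positivity)
      _ = (2 ^ (lev n 0) * ρ0) * (7 * (al * σ * ρu * B.d n ^ nn)) := by ring
      _ = a1' := by rw [hH, one_mul]
  have b2 : al / 2 ^ (lev n 0) * ((1 / 2) ^ (B.lev n (v + l)) +
      3 * 2 ^ (lev n 0) * ρu * (1 / 2) ^ (B.levc n l)) ≤ 7 * (al * ρu * B.d n ^ l) := by
    rw [hinv]
    calc _ ≤ al * ρ0 * (7 * (2 ^ (lev n 0) * ρu) * B.d n ^ l) :=
          mul_le_mul_of_nonneg_left (hX l) (by positivity)
      _ = (2 ^ (lev n 0) * ρ0) * (7 * (al * ρu * B.d n ^ l)) := by ring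
      _ = _ := by rw [hH, one_mul]
  have b3 : a1' ≤ 7 * (al * ρu * B.d n ^ l) := by
    rw [ha1']
    have : al * σ * ρu * B.d n ^ nn ≤ al * 1 * ρu * B.d n ^ l := by
      gcongr
      exact h9.2
    linarith
  have hmain := class_card (I := I n) (L := L n) (c := c) (al := al) (sc := σ) (fl := fl n)
    (i0 := lev n 0) (iu := lev n u) (i1 := lev n 1) (ic := B.levc n v) (jc := B.levc n r)
    (p := ![B.lev n (v + nn), B.levc n nn, B.levc n l, B.lev n (v + l)]) hal0 hσ0 h9.2 h1.1 h1.2 h3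
    (fun y hy => (h4 y hy).2) hx (hN.unit n x hx) (hJ.slope n x hx) (h5 (zc (lev n u) x.2))
    (a1 := a1) (a2 := a2) (b1.trans (le_max_right _ _))
    (by
      refine le_trans ?_ (le_max_right _ _)
      have b1' := b1.trans b3
      have b2' := b2
      simp only [Matrix.cons_val_zero, Matrix.cons_val_one, Matrix.cons_val]
      rw [ha2']
      linarith)
    (le_max_left _ _) (le_max_left _ _)
    (by
      have k1 : r0 n ≤ ρu := by rw [hρu]; linarith [h7.1, h7.2.1, h7.2.2]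
      have k2 : al * ρu * B.d n ^ l ≤ ρu := by
        calc al * ρu * B.d n ^ l ≤ 1 * ρu * 1 := by
              gcongr
              exact h10.2
          _ = ρu := by ring
      refine max_le (max_le (by linarith) ?_) ?_
      · linarith
      · rw [ha2']; linarith)
  refine hmain.trans ?_
  -- the arithmetic
  have c1 : a1 ≤ al * σ * ρ0 * B.d n ^ (u + nn - 2 * ε1) := by
    refine max_le ?_ ?_
    · refine h6.trans ?_
      have k1 : B.d n ^ (MM k θ - ε1) ≤ B.d n ^ ((u : ℝ) + nn - 2 * ε1) :=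
        d_anti B n (by linarith)
      calc σ * al * ρ0 * B.d n ^ (MM k θ - ε1) ≤ σ * al * ρ0 * B.d n ^ ((u : ℝ) + nn - 2 * ε1) :=
            mul_le_mul_of_nonneg_left k1 (by positivity)
        _ = _ := by ring
    · have k2 : B.d n ^ ((u : ℝ) + nn - 2 * ε1) = B.d n ^ (-ε1) * B.d n ^ ((u : ℝ) - ε1) * B.d n ^ nn := by
        rw [← d_add, ← d_add]; congr 1; ring
      rw [k2, ha1']
      calc 7 * (al * σ * ρu * B.d n ^ nn)
          ≤ B.d n ^ (-ε1) * (al * σ * (ρ0 * B.d n ^ ((u : ℝ) - ε1)) * B.d n ^ nn) := by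
            have k3 : (7:ℝ) ≤ B.d n ^ (-ε1) := by linarith
            have k4 := h2.2
            have k5 : al * σ * ρu * B.d n ^ nn ≤ al * σ * (ρ0 * B.d n ^ ((u : ℝ) - ε1)) * B.d n ^ nn := by
              gcongr
            exact mul_le_mul k3 k5 (by positivity) (by linarith)
        _ = _ := by ring
  have c2 : a2 ≤ al * ρ0 * B.d n ^ (u + l - 2 * ε1) := by
    refine max_le ?_ ?_
    · refine c1.trans ?_
      have k1 : B.d n ^ ((u : ℝ) + nn - 2 * ε1) ≤ B.d n ^ ((u : ℝ) + l - 2 * ε1) :=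
        d_anti B n (by linarith)
      calc al * σ * ρ0 * B.d n ^ ((u : ℝ) + nn - 2 * ε1) ≤ al * 1 * ρ0 * B.d n ^ ((u : ℝ) + l - 2 * ε1) := by
            have := (d_pos B n ((u : ℝ) + nn - 2 * ε1)).le
            gcongr
            exact h9.2
        _ = _ := by ring
    · have k2 : B.d n ^ ((u : ℝ) + l - 2 * ε1) = B.d n ^ (-ε1) * B.d n ^ ((u : ℝ) - ε1) * B.d n ^ l := by
        rw [← d_add, ← d_add]; congr 1; ring
      rw [k2, ha2']
      calc 28 * (al * ρu * B.d n ^ l)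
          ≤ B.d n ^ (-ε1) * (al * (ρ0 * B.d n ^ ((u : ℝ) - ε1)) * B.d n ^ l) := by
            have k4 := h2.2
            have k5 : al * ρu * B.d n ^ l ≤ al * (ρ0 * B.d n ^ ((u : ℝ) - ε1)) * B.d n ^ l := by
              gcongr
            exact mul_le_mul h8 k5 (by positivity) (by linarith)
        _ = _ := by ring
  have ha10 : 0 < a1 := lt_of_lt_of_le (hMk.rpos n) (le_max_left _ _)
  have ha20 : 0 < a2 := lt_of_lt_of_le ha10 (le_max_left _ _)
  have c3 : amp B lev A q g (fun v => s * v) n u ≤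
      A n * B.d n ^ (-(2 * (s * u) + g * u)) * (ρ0 ^ (-q) * B.d n ^ (-(q * (u + ε1)))) := by
    unfold amp
    refine mul_le_mul_of_nonneg_left ?_ (by have := d_pos B n (-(2 * (s * u) + g * u)); positivity)
    have k1 := h2.1
    have k2 : (ρ0 * B.d n ^ ((u:ℝ) + ε1)) ^ (-q) = ρ0 ^ (-q) * B.d n ^ (-(q * (u + ε1))) := by
      rw [Real.mul_rpow p0.le (d_pos B n _).le, ← Real.rpow_mul hdn.le]
      congr 2; ring
    rw [← k2]
    exact Real.rpow_le_rpow_of_nonpos (by have := d_pos B n ((u:ℝ) + ε1); positivity) k1 (by linarith)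
  have c4 : a1 ^ (1 + 0 : ℝ) ≤ al * σ * ρ0 * B.d n ^ (u + nn - 2 * ε1) := by
    rw [add_zero, Real.rpow_one]; exact c1
  have c5 : a2 ^ (1 + q) ≤ (al * ρ0) ^ (1 + q) * B.d n ^ ((u + l - 2 * ε1) * (1 + q)) := by
    have k1 : (al * ρ0 * B.d n ^ ((u:ℝ) + l - 2 * ε1)) ^ (1 + q) =
        (al * ρ0) ^ (1 + q) * B.d n ^ ((u + l - 2 * ε1) * (1 + q)) := by
      rw [Real.mul_rpow (by positivity) (d_pos B n _).le, ← Real.rpow_mul hdn.le]
    rw [← k1]
    exact Real.rpow_le_rpow ha20.le c2 (by linarith)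
  have hamp : 0 ≤ amp B lev A q g (fun v => s * v) n u := by
    unfold amp
    have := d_pos B n (-(2 * (s * u) + g * u))
    have := Real.rpow_pos_of_pos pu (-q)
    positivity
  have hown : (0:ℝ) ≤ B.d n ^ (-(((1 : ℚ) : ℝ) - u) + (s * ((1 : ℚ) : ℝ) - s * u) - ε1) :=
    (d_pos B n _).le
  calc B.d n ^ (-ε1) * amp B lev A q g (fun v => s * v) n u * a1 ^ (1 + 0 : ℝ) * a2 ^ (1 + q) *
        B.d n ^ (-(((1 : ℚ) : ℝ) - u) + (s * ((1 : ℚ) : ℝ) - s * u) - ε1)
      ≤ B.d n ^ (-ε1) * (A n * B.d n ^ (-(2 * (s * u) + g * u)) *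
          (ρ0 ^ (-q) * B.d n ^ (-(q * (u + ε1))))) * (al * σ * ρ0 * B.d n ^ (u + nn - 2 * ε1)) *
          ((al * ρ0) ^ (1 + q) * B.d n ^ ((u + l - 2 * ε1) * (1 + q))) *
          B.d n ^ (-(((1 : ℚ) : ℝ) - u) + (s * ((1 : ℚ) : ℝ) - s * u) - ε1) := by
        have q1 := (d_pos B n (-ε1)).le
        have q2 : 0 ≤ a1 ^ (1 + 0 : ℝ) := (Real.rpow_pos_of_pos ha10 _).le
        have q3 : 0 ≤ a2 ^ (1 + q) := (Real.rpow_pos_of_pos ha20 _).le
        have q4 := (Real.rpow_pos_of_pos (mul_pos hal0 p0) (1 + q)).le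
        have q5 := (d_pos B n (((u:ℝ) + l - 2 * ε1) * (1 + q))).le
        have q6 := (d_pos B n ((u:ℝ) + nn - 2 * ε1)).le
        gcongr
    _ = (A n * (al * al ^ (1 + q)) * σ * (ρ0 ^ (-q) * ρ0 * ρ0 ^ (1 + q))) *
        B.d n ^ (-ε1 + -(2 * (s * u) + g * u) + -(q * (u + ε1)) + (u + nn - 2 * ε1) +
          (u + l - 2 * ε1) * (1 + q) +
          (-(((1 : ℚ) : ℝ) - u) + (s * ((1 : ℚ) : ℝ) - s * u) - ε1)) := by
        rw [d_add, d_add, d_add, d_add, d_add, Real.mul_rpow hal0.le p0.le]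
        ring
    _ ≤ N0 lev A q w1 w2 n * B.d n ^ (-(bex s (2 * s + g) q v l nn + ε)) := by
        have r1 : al * al ^ (1 + q) = al ^ (2 + q) := by
          have t := Real.rpow_add hal0 1 (1 + q)
          rw [Real.rpow_one] at t
          rw [← t]; congr 1; ring
        have r2 : ρ0 ^ (-q) * ρ0 * ρ0 ^ (1 + q) = ρ0 ^ 2 := by
          rw [Real.rpow_add p0 1 q, Real.rpow_one, Real.rpow_neg p0.le]
          have := (Real.rpow_pos_of_pos p0 q).ne'
          field_simp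
        rw [r1, r2]
        have r3 : A n * al ^ (2 + q) * σ * ρ0 ^ 2 = N0 lev A q w1 w2 n := rfl
        rw [r3]
        have r4 : 0 ≤ N0 lev A q w1 w2 n := by
          rw [← r3]
          have := Real.rpow_pos_of_pos hal0 (2 + q)
          positivity
        refine mul_le_mul_of_nonneg_left (d_anti B n ?_) r4
        unfold bex
        have hd1 : K * (v - u) ≤ ε / 2 := by
          have : v - u ≤ ε / (2 * K) := by linarith
          calc K * (v - u) ≤ K * (ε / (2 * K)) := mul_le_mul_of_nonneg_left this hKpos.le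
            _ = ε / 2 := by field_simp
        have hd2 : (3 - (s + g)) * (v - u) ≤ K * (v - u) :=
          mul_le_mul_of_nonneg_right (by linarith) (by linarith)
        have hd3 : q * ε1 ≤ 2 * ε1 := mul_le_mul_of_nonneg_right hq2 hε1pos.le
        push_cast
        nlinarith

end

end Crest.Agent.R138.Nx638
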