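import Crest.Agent.R138.Nx4_638

/-!
# R138, TEXT I, L15 (helper638): GEO-D
-/

set_option autoImplicit false
set_option linter.unusedVariables false

open Finset Filter Topology

namespace Crest.Agent.R138.Nx638

open Crest.Agent.R138.Ex926 (Base U flab olab Bx6 LEG QProf mem_LEG half_pow_levc_le le_half_pow_levc
  half_pow_lev_le le_half_pow_lev)
open Crest.Agent.R138.Flag51 Crest.Agent.R138.Flg101 Crest.Agent.R138.Mk163
open Crest.Agent.R138.L15

noncomputable section

variable {B : Base} {I : ℕ → Finset (ℕ × ℝ)} {L : ℕ → ℕ → Ln} {lev : ℕ → ℚ → ℕ}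
    {r0 A : ℕ → ℝ} {q g : ℝ} {f : ℕ → ℚ → ℕ → ℤ → ℕ} {b : ℕ → ℚ → ℕ → Ln}
    {e : ℕ → ℚ → ℕ → E2} {w1 w2 : ℕ → ℚ → ℝ} {fl : ℕ → ℕ × ℝ → E2} {sc : ℕ → ℝ} {k s θ : ℝ}
    {c : Bool}

open Classical in
/-- **[GEO-D]** -/
theorem geoD : GeoD B I L lev r0 A q g f b e w1 w2 fl sc k s θ c := by
  intro hJ v l nn r hv0 hv hl hln hLEG ε hε
  have hM : v + nn ≤ MM k θ := (((mem_LEG.1 hLEG).1 0).2 : _)
  have h2 : (0:ℝ) < ε / 2 := by positivity
  filter_upwards [geoD_lab hJ hv0 hv hl hln hM (r := r) h2,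
    ev_const B (by norm_num : (0:ℝ) < 41 ^ 4) h2] with n h1 h3 x hx
  set p : Fin 4 → ℕ := ![B.lev n (v + nn), B.levc n nn, B.levc n l, B.lev n (v + l)] with hp
  set S := (I n).filter fun y =>
      (xx L lev w1 w2 fl c n y).cell (B.levc n v) (B.levc n r) =
        (xx L lev w1 w2 fl c n x).cell (B.levc n v) (B.levc n r) ∧
      ∀ i : Fin 4, |(xx L lev w1 w2 fl c n y).co (B.levc n v) (B.levc n r) i -
        (xx L lev w1 w2 fl c n x).co (B.levc n v) (B.levc n r) i| ≤
          10 * B.d n ^ (![v + nn, nn, l, v + l] i) with hS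
  set lab : ℕ × ℝ → _ := fun y => (xx L lev w1 w2 fl c n y).lab (B.levc n v) (B.levc n r) p with hlab
  set N := N0 lev A q w1 w2 n * B.d n ^ (-(bex s (2 * s + g) q v l nn + ε / 2)) with hNdef
  have hcount : (S.image lab).card ≤ 41 ^ 4 := by
    have := card_lab_le (K := fun _ => 20) S (xx L lev w1 w2 fl c n) (i := B.levc n v)
      (j := B.levc n r) (p := p) (xx L lev w1 w2 fl c n x)
      (fun t ht => (mem_filter.1 ht).2.1)
      (fun t ht i => ((mem_filter.1 ht).2.2 i).trans ?_)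
    · refine this.trans (le_of_eq ?_)
      simp
    · have k1 := le_half_pow_lev B n (add_nonneg hv0 (hl.trans hln))
      have k2 := le_half_pow_levc B n (hl.trans hln)
      have k3 := le_half_pow_levc B n hl
      have k4 := le_half_pow_lev B n (add_nonneg hv0 hl)
      have d1 := (d_pos B n (v + nn)).le
      have d4 := (d_pos B n (v + l)).le
      rw [hp]
      fin_cases i
      · show 10 * B.d n ^ (v + nn) ≤ ((20 : ℕ) : ℝ) * (1 / 2) ^ (B.lev n (v + nn))
        push_cast; linarith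
      · show 10 * B.d n ^ nn ≤ ((20 : ℕ) : ℝ) * (1 / 2) ^ (B.levc n nn)
        push_cast; linarith
      · show 10 * B.d n ^ l ≤ ((20 : ℕ) : ℝ) * (1 / 2) ^ (B.levc n l)
        push_cast; linarith
      · show 10 * B.d n ^ (v + l) ≤ ((20 : ℕ) : ℝ) * (1 / 2) ^ (B.lev n (v + l))
        push_cast; linarith
  have hN0 : 0 ≤ N := le_trans (Nat.cast_nonneg _) (h1 x hx)
  have hsum : (S.card : ℝ) ≤ 41 ^ 4 * N := by
    rw [card_eq_sum_card_image lab S]
    push_cast
    have : ∀ a ∈ S.image lab, ((S.filter fun y => lab y = a).card : ℝ) ≤ N := by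
      intro a ha
      obtain ⟨y, hy, rfl⟩ := mem_image.1 ha
      refine le_trans ?_ (h1 y (mem_filter.1 hy).1)
      exact_mod_cast card_le_card fun z hz => by
        rw [mem_filter] at hz ⊢
        exact ⟨(mem_filter.1 hz.1).1, hz.2⟩
    refine (sum_le_sum this).trans ?_
    rw [sum_const, nsmul_eq_mul]
    refine mul_le_mul_of_nonneg_right ?_ hN0
    exact_mod_cast hcount
  refine hsum.trans ?_
  have hd : B.d n ^ (-(bex s (2 * s + g) q v l nn + ε)) =
      B.d n ^ (-(ε / 2)) * B.d n ^ (-(bex s (2 * s + g) q v l nn + ε / 2)) := by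
    rw [← d_add]; congr 1; ring
  rw [hd]
  calc 41 ^ 4 * N ≤ B.d n ^ (-(ε / 2)) * N := mul_le_mul_of_nonneg_right h3 hN0
    _ = _ := by rw [hNdef]; ring

end

end Crest.Agent.R138.Nx638
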