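import Crest.Agent.R138.ExtP_926

/-!
# R138: from the profile `ν` to the lateral rate `m` (helper120)

Pure real analysis over `LEG M`: `NP` = the real-valued part of `ExtP` (with the weak resolution
hypothesis `1 + k ≤ M`, `θ ≤ M`), `W k v n l h` = all points which are used, losses, anchor,
average, the rate `m`, `(W)` and `(S)`.
-/

set_option autoImplicit false
set_option linter.unusedVariables false

open Filter Topology MeasureTheory Set
open scoped NNReal ENNReal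

namespace Crest.Agent.R138.P120

open Crest.Agent.R138.Ex926

/-- level `v`, normal exponent `k v + n`, lateral exponent `l`, additional lateral angle `h` -/
def W (k v n l h : ℝ) : Fin 6 → ℝ := ![(1 + k) * v + n, k * v + n, l + h, v + l, v, k * v]

theorem Bx6_eq (k v n l : ℝ) : Bx6 v l (k * v + n) (k * v) = W k v n l 0 := by
  funext i
  fin_cases i
  · show v + (k * v + n) = (1 + k) * v + n; ring
  · rfl
  · show l = l + 0; ring
  · rfl
  · rfl
  · rfl

theorem X6_eq (k v t : ℝ) : X6 v (k * v) t = W k v t t 0 := by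
  funext i
  fin_cases i
  · show t + v + k * v = (1 + k) * v + t; ring
  · show t + k * v = k * v + t; ring
  · show t = t + 0; ring
  · show t + v = v + t; ring
  · rfl
  · rfl

theorem W_mem {M k v n l h : ℝ} (hk : 0 ≤ k) (hv : 0 ≤ v) (hn : 0 ≤ n) (hnl : n ≤ l)
    (hh : 0 ≤ h) (h0 : (1 + k) * v + n ≤ M) (h2 : l + h ≤ M) (h3 : v + l ≤ M) :
    W k v n l h ∈ LEG M := by
  have hkv : 0 ≤ k * v := mul_nonneg hk hv
  have e0 : (1 + k) * v + n = v + k * v + n := by ring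
  rw [mem_LEG]
  refine ⟨?_, ?_, ?_, ?_, ?_⟩
  · intro a
    fin_cases a
    · show 0 ≤ (1 + k) * v + n ∧ (1 + k) * v + n ≤ M
      constructor <;> linarith
    · show 0 ≤ k * v + n ∧ k * v + n ≤ M
      constructor <;> linarith
    · show 0 ≤ l + h ∧ l + h ≤ M
      constructor <;> linarith
    · show 0 ≤ v + l ∧ v + l ≤ M
      constructor <;> linarith
    · show 0 ≤ v ∧ v ≤ M
      constructor <;> linarith
    · show 0 ≤ k * v ∧ k * v ≤ M
      constructor <;> linarith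
  · show (1 + k) * v + n ≤ (k * v + n) + v
    linarith
  · show v + l ≤ (l + h) + v
    linarith
  · show (1 + k) * v + n ≤ k * v + (v + l)
    linarith
  · show k * v + n ≤ k * v + (l + h)
    linarith

theorem W_le {k v n l h v' n' l' h' : ℝ} (hk : 0 ≤ k) (hv : v' ≤ v) (hn : k * v' + n' ≤ k * v + n)
    (h2 : l' + h' ≤ l + h) (h3 : v' + l' ≤ v + l) : W k v' n' l' h' ≤ W k v n l h := by
  intro a
  have := mul_le_mul_of_nonneg_left hv hk
  fin_cases a
  · show (1 + k) * v' + n' ≤ (1 + k) * v + n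
    nlinarith
  · exact hn
  · exact h2
  · exact h3
  · exact hv
  · exact this

theorem W_sup {k v n l h v' n' : ℝ} (hk : 0 ≤ k) (hv : v' ≤ v) (hn : k * v' + n' ≤ k * v + n)
    (hh : 0 ≤ h) : W k v n l 0 ⊔ W k v' n' l h = W k v n l h := by
  have hkv := mul_le_mul_of_nonneg_left hv hk
  funext a
  fin_cases a
  · show max ((1 + k) * v + n) ((1 + k) * v' + n') = (1 + k) * v + n
    rw [max_eq_left]; nlinarith
  · show max (k * v + n) (k * v' + n') = k * v + n
    rw [max_eq_left hn]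
  · show max (l + 0) (l + h) = l + h
    rw [max_eq_right]; linarith
  · show max (v + l) (v' + l) = v + l
    rw [max_eq_left]; linarith
  · show max v v' = v
    rw [max_eq_left hv]
  · show max (k * v) (k * v') = k * v
    rw [max_eq_left hkv]

theorem W_inf {k v n l h v' n' : ℝ} (hk : 0 ≤ k) (hv : v' ≤ v) (hn : k * v' + n' ≤ k * v + n)
    (hh : 0 ≤ h) : W k v n l 0 ⊓ W k v' n' l h = W k v' n' l 0 := by
  have hkv := mul_le_mul_of_nonneg_left hv hk
  funext a
  fin_cases a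
  · show min ((1 + k) * v + n) ((1 + k) * v' + n') = (1 + k) * v' + n'
    rw [min_eq_right]; nlinarith
  · show min (k * v + n) (k * v' + n') = k * v' + n'
    rw [min_eq_right hn]
  · show min (l + 0) (l + h) = l + 0
    rw [min_eq_left]; linarith
  · show min (v + l) (v' + l) = v' + l
    rw [min_eq_right]; linarith
  · show min v v' = v'
    rw [min_eq_right hv]
  · show min (k * v) (k * v') = k * v'
    rw [min_eq_right hkv]

/-- the real-valued part of `ExtP`, with the weak resolution hypothesis -/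
structure NP (k q s b θ c₀ M : ℝ) (ν : (Fin 6 → ℝ) → ℝ) : Prop where
  k0 : 0 < k
  q0 : 0 < q
  θ0 : 0 < θ
  M1 : 1 + k ≤ M
  M2 : θ ≤ M
  lip : ∀ p ∈ LEG M, ∀ p' ∈ LEG M, p ≤ p' → 0 ≤ ν p - ν p' ∧ ν p - ν p' ≤ ∑ a, (p' a - p a)
  submod : ∀ p ∈ LEG M, ∀ p' ∈ LEG M, p ⊓ p' ∈ LEG M →
    ν p + ν p' ≤ ν (p ⊔ p') + ν (p ⊓ p')
  dmax : ∀ v n l : ℝ, 0 ≤ v → v ≤ 1 → 0 ≤ n → n ≤ l → l ≤ n + k * v → (1 + k) * v + n ≤ M →
    ν (W k v n l 0) - (1 - s) * (1 - v) + (2 + k) * v + n + l ≤ c₀ + b * v - q * l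
  record : ∀ v : ℝ, 0 ≤ v → v ≤ 1 →
    ν (W k v (θ * (1 - v)) (θ * (1 - v)) 0) - (1 - s) * (1 - v) + (2 + k) * v + θ * (1 - v) +
      θ * (1 - v) = c₀ + b * v - q * (θ * (1 - v))

variable {k q s b θ c₀ M : ℝ} {ν : (Fin 6 → ℝ) → ℝ}

/-- `ExtP` (any version with `1 + k ≤ M`, `θ ≤ M`) gives `NP` -/
theorem NP.of_ext {own : (Fin 2 → ℝ) → ℝ} (k0 : 0 < k) (q0 : 0 < q) (θ0 : 0 < θ)
    (M1 : 1 + k ≤ M) (M2 : θ ≤ M)
    (lip : ∀ p ∈ LEG M, ∀ p' ∈ LEG M, p ≤ p' → 0 ≤ ν p - ν p' ∧ ν p - ν p' ≤ ∑ a, (p' a - p a))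
    (submod : ∀ p ∈ LEG M, ∀ p' ∈ LEG M, p ⊓ p' ∈ LEG M →
      ν p + ν p' ≤ ν (p ⊔ p') + ν (p ⊓ p'))
    (own_z : ∀ v : ℝ, 0 ≤ v → v ≤ 1 → own ![v, 0] = (1 - s) * (1 - v))
    (dmax : ∀ v l nn : ℝ, 0 ≤ v → v ≤ 1 → 0 ≤ l → l ≤ nn → nn ≤ l + k * v →
      Bx6 v l nn (k * v) ∈ LEG M →
      ν (Bx6 v l nn (k * v)) - own ![v, 0] + 2 * v + nn + l ≤ c₀ + b * v - q * l)
    (record : ∀ v : ℝ, 0 ≤ v → v ≤ 1 →
      ν (Bx6 v (θ * (1 - v)) (θ * (1 - v) + k * v) (k * v)) - own ![v, 0] + 2 * v +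
        (θ * (1 - v) + k * v) + θ * (1 - v) = c₀ + b * v - q * (θ * (1 - v))) :
    NP k q s b θ c₀ M ν where
  k0 := k0
  q0 := q0
  θ0 := θ0
  M1 := M1
  M2 := M2
  lip := lip
  submod := submod
  dmax := by
    intro v n l hv hv1 hn hnl hl h0
    have hmem : W k v n l 0 ∈ LEG M :=
      W_mem k0.le hv hn hnl le_rfl h0 (by
        have := mul_nonneg k0.le hv
        nlinarith) (by nlinarith)
    have h := dmax v l (k * v + n) hv hv1 (hn.trans hnl) (by linarith) (by linarith)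
      (by rw [Bx6_eq]; exact hmem)
    rw [Bx6_eq, own_z v hv hv1] at h
    linarith
  record := by
    intro v hv hv1
    have h := record v hv hv1
    rw [add_comm (θ * (1 - v)) (k * v), Bx6_eq, own_z v hv hv1] at h
    linarith

/-! ### losses -/

/-- the loss of lines when the lateral angle is narrowed by `h` -/
def loss (ν : (Fin 6 → ℝ) → ℝ) (k v n l h : ℝ) : ℝ := ν (W k v n l 0) - ν (W k v n l h)

theorem sum_W (k v n l h v' n' l' h' : ℝ) : ∑ a, (W k v' n' l' h' a - W k v n l h a) =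
    ((1 + k) * v' + n' - ((1 + k) * v + n)) + (k * v' + n' - (k * v + n)) +
      (l' + h' - (l + h)) + (v' + l' - (v + l)) + (v' - v) + (k * v' - k * v) := by
  rw [Fin.sum_univ_six]
  rfl

theorem NP.loss_mem (N : NP k q s b θ c₀ M ν) {v n l h : ℝ} (hv : 0 ≤ v) (hn : 0 ≤ n)
    (hnl : n ≤ l) (hh : 0 ≤ h) (h0 : (1 + k) * v + n ≤ M) (h2 : l + h ≤ M) (h3 : v + l ≤ M) :
    0 ≤ loss ν k v n l h ∧ loss ν k v n l h ≤ h := by
  have m1 : W k v n l 0 ∈ LEG M := W_mem N.k0.le hv hn hnl le_rfl h0 (by linarith) h3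
  have m2 : W k v n l h ∈ LEG M := W_mem N.k0.le hv hn hnl hh h0 h2 h3
  have := N.lip _ m1 _ m2 (W_le N.k0.le le_rfl le_rfl (by linarith) le_rfl)
  rw [sum_W] at this
  unfold loss
  constructor
  · exact this.1
  · linarith [this.2]

/-- losses are antitone in everything but the lateral angle -/
theorem NP.loss_anti (N : NP k q s b θ c₀ M ν) {v n l h v' n' : ℝ} (hv' : 0 ≤ v') (hvv : v' ≤ v)
    (hn : 0 ≤ n) (hn' : 0 ≤ n') (hnn : k * v' + n' ≤ k * v + n) (hnl : n ≤ l) (hnl' : n' ≤ l)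
    (hh : 0 ≤ h) (h0 : (1 + k) * v + n ≤ M) (h2 : l + h ≤ M) (h3 : v + l ≤ M) :
    loss ν k v n l h ≤ loss ν k v' n' l h := by
  have hv : 0 ≤ v := hv'.trans hvv
  have m1 : W k v n l 0 ∈ LEG M := W_mem N.k0.le hv hn hnl le_rfl h0 (by linarith) h3
  have h0' : (1 + k) * v' + n' ≤ M := by nlinarith
  have m2 : W k v' n' l h ∈ LEG M :=
    W_mem N.k0.le hv' hn' hnl' hh h0' h2 (by linarith)
  have m3 : W k v' n' l 0 ∈ LEG M :=
    W_mem N.k0.le hv' hn' hnl' le_rfl h0' (by linarith) (by linarith)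
  have h := N.submod _ m1 _ m2 (by rw [W_inf N.k0.le hvv hnn hh]; exact m3)
  rw [W_inf N.k0.le hvv hnn hh, W_sup N.k0.le hvv hnn hh] at h
  unfold loss
  linarith

/-- narrowing lateral angle and lateral position together costs at most `h` more -/
theorem NP.loss_low (N : NP k q s b θ c₀ M ν) {v n l h : ℝ} (hv : 0 ≤ v) (hn : 0 ≤ n)
    (hnl : n ≤ l) (hh : 0 ≤ h) (h0 : (1 + k) * v + n ≤ M) (h2 : l + h ≤ M) (h3 : v + l + h ≤ M) :
    ν (W k v n l 0) - ν (W k v n (l + h) 0) - h ≤ loss ν k v n l h := by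
  have m2 : W k v n l h ∈ LEG M := W_mem N.k0.le hv hn hnl hh h0 h2 (by linarith)
  have m3 : W k v n (l + h) 0 ∈ LEG M :=
    W_mem N.k0.le hv hn (by linarith) le_rfl h0 (by linarith) (by linarith)
  have := N.lip _ m2 _ m3 (W_le N.k0.le le_rfl le_rfl (by linarith) (by linarith))
  rw [sum_W] at this
  unfold loss
  linarith [this.2]

theorem NP.rec_le (N : NP k q s b θ c₀ M ν) {v : ℝ} (hv : 0 ≤ v) (hv1 : v ≤ 1) :
    (1 + k) * v + θ * (1 - v) ≤ M := by
  nlinarith [N.M1, N.M2]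

/-- `D`-max at the record -/
theorem NP.rec_drop (N : NP k q s b θ c₀ M ν) {v x : ℝ} (hv : 0 ≤ v) (hv1 : v ≤ 1) (hx : 0 ≤ x)
    (hxk : x ≤ k * v) : (1 + q) * x ≤ ν (W k v (θ * (1 - v)) (θ * (1 - v)) 0) -
      ν (W k v (θ * (1 - v)) (θ * (1 - v) + x) 0) := by
  have h1 := N.record v hv hv1
  have h2 := N.dmax v (θ * (1 - v)) (θ * (1 - v) + x) hv hv1
    (mul_nonneg N.θ0.le (by linarith)) (by linarith) (by linarith) (N.rec_le hv hv1)
  nlinarith

/-- the loss at the record is at least `q h` -/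
theorem NP.rec_loss (N : NP k q s b θ c₀ M ν) {v h : ℝ} (hv : 0 ≤ v) (hv1 : v ≤ 1) (hh : 0 ≤ h)
    (hhk : h ≤ k * v) : q * h ≤ loss ν k v (θ * (1 - v)) (θ * (1 - v)) h := by
  have h1 := N.rec_drop hv hv1 hh hhk
  have h2 := N.rec_le hv hv1
  have h3 : 0 ≤ θ * (1 - v) := mul_nonneg N.θ0.le (by linarith)
  have h4 := N.loss_low hv h3 le_rfl hh h2 (by linarith) (by linarith)
  linarith

theorem NP.q1 (N : NP k q s b θ c₀ M ν) : q ≤ 1 := by
  have hk := N.k0
  have h2 := N.rec_le (v := 1) (by norm_num) le_rfl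
  have h1 := N.rec_loss (v := 1) (h := k) (by norm_num) le_rfl hk.le (by linarith)
  have e : θ * (1 - 1) = 0 := by ring
  rw [e] at h1 h2
  have h4 := (N.loss_mem (v := 1) (n := 0) (l := 0) (h := k) (by norm_num) le_rfl le_rfl hk.le
    (by linarith) (by linarith [N.M1]) (by linarith [N.M1])).2
  nlinarith

/-! ### extension of `ν` -/

theorem NP.lipOn (N : NP k q s b θ c₀ M ν) : LipschitzOnWith 6 ν (LEG M) := by
  apply LipschitzOnWith.of_dist_le_mul
  intro p hp p' hp'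
  have hs := LEG.sup M p hp p' hp'
  have h1 := N.lip p hp _ hs le_sup_left
  have h2 := N.lip p' hp' _ hs le_sup_right
  have hb : ∀ a, |p a - p' a| ≤ dist p p' := fun a => by
    rw [← Real.dist_eq]; exact dist_le_pi_dist p p' a
  have e1 : ∑ a, ((p ⊔ p') a - p a) ≤ 6 * dist p p' := by
    calc ∑ a, ((p ⊔ p') a - p a) ≤ ∑ _a : Fin 6, dist p p' := by
          refine Finset.sum_le_sum fun a _ => ?_
          have := hb a
          rw [Pi.sup_apply]
          rcases le_total (p a) (p' a) with h | h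
          · rw [sup_eq_right.2 h]; rw [abs_sub_comm] at this; exact (le_abs_self _).trans this
          · rw [sup_eq_left.2 h, sub_self]; exact dist_nonneg
      _ = _ := by simp
  have e2 : ∑ a, ((p ⊔ p') a - p' a) ≤ 6 * dist p p' := by
    calc ∑ a, ((p ⊔ p') a - p' a) ≤ ∑ _a : Fin 6, dist p p' := by
          refine Finset.sum_le_sum fun a _ => ?_
          have := hb a
          rw [Pi.sup_apply]
          rcases le_total (p a) (p' a) with h | h
          · rw [sup_eq_right.2 h, sub_self]; exact dist_nonneg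
          · rw [sup_eq_left.2 h]; exact (le_abs_self _).trans this
      _ = _ := by simp
  rw [Real.dist_eq, abs_le]
  have : ((6 : ℝ≥0) : ℝ) = 6 := by norm_num
  rw [this]
  constructor <;> linarith [h1.1, h1.2, h2.1, h2.2]

theorem NP.exists_ext (N : NP k q s b θ c₀ M ν) : ∃ g : (Fin 6 → ℝ) → ℝ, LipschitzWith 6 g ∧
    ∀ p ∈ LEG M, g p = ν p := by
  obtain ⟨g, hg, he⟩ := N.lipOn.extend_real
  exact ⟨g, hg, fun p hp => (he hp).symm⟩

end Crest.Agent.R138.P120
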