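import Crest.Agent.R138.P1_120

/-!
# R138: average, anchor, sweep (helper120)
-/

set_option autoImplicit false
set_option linter.unusedVariables false

open Filter Topology MeasureTheory Set
open scoped NNReal ENNReal

namespace Crest.Agent.R138.P120

open Crest.Agent.R138.Ex926

variable {k q s b θ c₀ M : ℝ} {ν : (Fin 6 → ℝ) → ℝ}

/-- `W` is continuous in all its parameters -/
theorem continuous_W {X : Type*} [TopologicalSpace X] {fv fn fl fh : X → ℝ} (k : ℝ)
    (hv : Continuous fv) (hn : Continuous fn) (hl : Continuous fl) (hh : Continuous fh) :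
    Continuous fun x => W k (fv x) (fn x) (fl x) (fh x) := by
  refine continuous_pi fun a => ?_
  fin_cases a
  · show Continuous fun x => (1 + k) * fv x + fn x
    fun_prop
  · show Continuous fun x => k * fv x + fn x
    fun_prop
  · show Continuous fun x => fl x + fh x
    fun_prop
  · show Continuous fun x => fv x + fl x
    fun_prop
  · show Continuous fun x => fv x
    fun_prop
  · show Continuous fun x => k * fv x
    fun_prop

/-- average of the losses on the flat boxes over the record -/
theorem NP.average (N : NP k q s b θ c₀ M ν) {g : (Fin 6 → ℝ) → ℝ} (hg : Continuous g)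
    (he : ∀ p ∈ LEG M, g p = ν p) {v x h : ℝ} (hv : 0 ≤ v) (hv1 : v ≤ 1) (hx : 0 ≤ x)
    (hh : 0 < h) (hxh : x + h ≤ k * v) : h * (q * x - 2 * h) ≤
      ∫ y in (0 : ℝ)..x, loss g k v (θ * (1 - v)) (θ * (1 - v) + y) h := by
  set τ := θ * (1 - v) with hτ
  have hτ0 : 0 ≤ τ := mul_nonneg N.θ0.le (by linarith)
  have hrec := N.rec_le hv hv1
  set A : ℝ → ℝ := fun y => g (W k v τ (τ + y) 0) with hA
  have hAc : Continuous A := hg.comp (continuous_W k continuous_const continuous_const
    (by fun_prop) continuous_const)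
  have hLc : Continuous fun y => loss g k v τ (τ + y) h := by
    unfold loss
    exact (hg.comp (continuous_W k continuous_const continuous_const (by fun_prop)
      continuous_const)).sub (hg.comp (continuous_W k continuous_const continuous_const
      (by fun_prop) continuous_const))
  have hmem : ∀ y, 0 ≤ y → y ≤ k * v → W k v τ (τ + y) 0 ∈ LEG M := fun y hy hy' =>
    W_mem N.k0.le hv hτ0 (by linarith) le_rfl hrec (by nlinarith) (by nlinarith)
  -- pointwise
  have h1 : ∀ y ∈ Icc (0 : ℝ) x, A y - A (y + h) - h ≤ loss g k v τ (τ + y) h := by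
    intro y hy
    have e := N.loss_low (n := τ) (l := τ + y) hv hτ0 (by linarith [hy.1]) hh.le hrec
      (by nlinarith [hy.2]) (by nlinarith [hy.2])
    have m1 := he _ (hmem y hy.1 (by linarith [hy.2]))
    have m2 := he _ (hmem (y + h) (by linarith [hy.1]) (by linarith [hy.2]))
    have m3 : g (W k v τ (τ + y) h) = ν (W k v τ (τ + y) h) :=
      he _ (W_mem N.k0.le hv hτ0 (by linarith [hy.1]) hh.le hrec (by nlinarith [hy.2])
        (by nlinarith [hy.2]))
    have e2 : τ + (y + h) = τ + y + h := by ring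
    simp only [hA, loss]
    rw [m1, m3]
    rw [e2] at m2 ⊢
    rw [m2]
    unfold loss at e
    exact e
  -- antitone
  have hanti : ∀ y y', 0 ≤ y → y ≤ y' → y' ≤ k * v → A y' ≤ A y := by
    intro y y' hy hyy hy'
    have := (N.lip _ (hmem y hy (hyy.trans hy')) _ (hmem y' (hy.trans hyy) hy')
      (W_le N.k0.le le_rfl le_rfl (by linarith) (by linarith))).1
    simp only [hA]
    rw [he _ (hmem y hy (hyy.trans hy')), he _ (hmem y' (hy.trans hyy) hy')]
    linarith
  have hdrop : (1 + q) * x ≤ A 0 - A x := by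
    have := N.rec_drop hv hv1 hx (by linarith)
    simp only [hA]
    rw [he _ (hmem 0 le_rfl (by linarith)), he _ (hmem x hx (by linarith)), add_zero]
    exact this
  have hA0 : A 0 - A h ≤ 2 * h := by
    have := (N.lip _ (hmem 0 le_rfl (by linarith)) _ (hmem h hh.le (by linarith))
      (W_le N.k0.le le_rfl le_rfl (by linarith) (by linarith))).2
    rw [sum_W] at this
    simp only [hA]
    rw [he _ (hmem 0 le_rfl (by linarith)), he _ (hmem h hh.le (by linarith))]
    linarith
  have ii : ∀ a c, IntervalIntegrable A volume a c := fun a c => hAc.intervalIntegrable a c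
  have h2 : ∫ y in (0 : ℝ)..x, (A y - A (y + h) - h) ≤
      ∫ y in (0 : ℝ)..x, loss g k v τ (τ + y) h :=
    intervalIntegral.integral_mono_on hx
      (by apply Continuous.intervalIntegrable; fun_prop) (hLc.intervalIntegrable _ _) h1
  have h3 : ∫ y in (0 : ℝ)..x, (A y - A (y + h) - h) =
      (∫ y in (0 : ℝ)..h, A y) - (∫ y in x..(x + h), A y) - x * h := by
    rw [intervalIntegral.integral_sub, intervalIntegral.integral_sub,
      intervalIntegral.integral_comp_add_right (fun y => A y) h]
    · have e1 := intervalIntegral.integral_add_adjacent_intervals (ii 0 h) (ii h (x + h))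
      have e2 := intervalIntegral.integral_add_adjacent_intervals (ii 0 x) (ii x (x + h))
      rw [zero_add, intervalIntegral.integral_const, smul_eq_mul, sub_zero]
      linarith
    · exact ii 0 x
    · apply Continuous.intervalIntegrable; fun_prop
    · apply Continuous.intervalIntegrable; fun_prop
    · exact intervalIntegrable_const
  have h4 : h * A h ≤ ∫ y in (0 : ℝ)..h, A y := by
    have := intervalIntegral.integral_mono_on (μ := volume) hh.le
      (intervalIntegrable_const (c := A h)) (ii 0 h)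
      (fun y hy => hanti y h hy.1 hy.2 (by linarith))
    rw [intervalIntegral.integral_const, smul_eq_mul, sub_zero] at this
    exact this
  have h5 : (∫ y in x..(x + h), A y) ≤ h * A x := by
    have := intervalIntegral.integral_mono_on (μ := volume) (by linarith : x ≤ x + h)
      (ii x (x + h)) (intervalIntegrable_const (c := A x))
      (fun y hy => hanti x y hx hy.1 (by linarith [hy.2]))
    rw [intervalIntegral.integral_const, smul_eq_mul, add_sub_cancel_left] at this
    exact this
  nlinarith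

/-! ### the rate `m` -/

/-- lateral rate at the natural point `(v, t)` -/
noncomputable def mT (ν : (Fin 6 → ℝ) → ℝ) (k v t : ℝ) : ℝ :=
  (limsup (fun j : ℕ => ENNReal.ofReal
    (min 1 (((j : ℝ) + 1) * loss ν k v t t (1 / ((j : ℝ) + 1))))) atTop).toReal

theorem mT_aux_le (ν : (Fin 6 → ℝ) → ℝ) (k v t : ℝ) :
    limsup (fun j : ℕ => ENNReal.ofReal
    (min 1 (((j : ℝ) + 1) * loss ν k v t t (1 / ((j : ℝ) + 1))))) atTop ≤ 1 := by
  refine limsup_le_of_le (h := Eventually.of_forall fun j => ?_)
  calc _ ≤ ENNReal.ofReal 1 := ENNReal.ofReal_le_ofReal (min_le_left _ _)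
    _ = 1 := ENNReal.ofReal_one

theorem mT_nonneg (ν : (Fin 6 → ℝ) → ℝ) (k v t : ℝ) : 0 ≤ mT ν k v t := ENNReal.toReal_nonneg

theorem mT_le_one (ν : (Fin 6 → ℝ) → ℝ) (k v t : ℝ) : mT ν k v t ≤ 1 := by
  have := ENNReal.toReal_mono ENNReal.one_ne_top (mT_aux_le ν k v t)
  simpa [mT] using this

/-- the honest limit, if it exists, is `m` -/
theorem mT_eq_of_tendsto {v t r : ℝ} (hr0 : 0 ≤ r) (hr1 : r ≤ 1)
    (h : Tendsto (fun j : ℕ => ((j : ℝ) + 1) * loss ν k v t t (1 / ((j : ℝ) + 1))) atTop (𝓝 r)) :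
    mT ν k v t = r := by
  unfold mT
  have h1 : Tendsto (fun j : ℕ => ENNReal.ofReal
      (min 1 (((j : ℝ) + 1) * loss ν k v t t (1 / ((j : ℝ) + 1))))) atTop (𝓝 (ENNReal.ofReal r)) := by
    refine ENNReal.tendsto_ofReal ?_
    have := (tendsto_const_nhds (x := (1 : ℝ))).min h
    rwa [min_eq_right hr1] at this
  rw [h1.limsup_eq, ENNReal.toReal_ofReal hr0]

theorem one_div_succ_tendsto : Tendsto (fun j : ℕ => 1 / ((j : ℝ) + 1)) atTop (𝓝 0) :=
  tendsto_one_div_add_atTop_nhds_zero_nat

theorem ev_small {δ : ℝ} (hδ : 0 < δ) : ∀ᶠ j : ℕ in atTop, 1 / ((j : ℝ) + 1) < δ :=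
  one_div_succ_tendsto.eventually (gt_mem_nhds hδ)

/-- monotonicity of `m` under eventual comparison of losses -/
theorem mT_mono {ν ν' : (Fin 6 → ℝ) → ℝ} {k v t v' t' : ℝ}
    (h : ∀ᶠ j : ℕ in atTop, loss ν k v t t (1 / ((j : ℝ) + 1)) ≤
      loss ν' k v' t' t' (1 / ((j : ℝ) + 1))) : mT ν k v t ≤ mT ν' k v' t' := by
  refine ENNReal.toReal_mono ((mT_aux_le ν' k v' t').trans_lt ENNReal.one_lt_top).ne ?_
  refine limsup_le_limsup ?_
  filter_upwards [h] with j hj
  refine ENNReal.ofReal_le_ofReal (min_le_min_left _ ?_)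
  exact mul_le_mul_of_nonneg_left hj (by positivity)

/-- the domain -/
def Dom (M k : ℝ) : Set (ℝ × ℝ) := {x | 0 < x.1 ∧ x.1 < 1 ∧ 0 < x.2 ∧ (1 + k) * x.1 + x.2 < M}

theorem NP.mT_anti (N : NP k q s b θ c₀ M ν) {v v' t : ℝ} (hv' : 0 < v') (hvv : v' ≤ v)
    (ht : 0 < t) (h : (1 + k) * v + t < M) : mT ν k v t ≤ mT ν k v' t := by
  have hk := N.k0
  have hv : 0 < v := hv'.trans_le hvv
  have hkv : 0 < k * v := mul_pos hk hv
  refine mT_mono ?_
  filter_upwards [ev_small (δ := (1 + k) * v) (by nlinarith)] with j hj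
  have hj0 : 0 < 1 / ((j : ℝ) + 1) := by positivity
  exact N.loss_anti hv'.le hvv ht.le ht.le (by nlinarith) le_rfl le_rfl hj0.le h.le
    (by linarith) (by linarith)

/-- (W): below the record `m ≥ q` everywhere -/
theorem NP.mT_wide (N : NP k q s b θ c₀ M ν) {v t : ℝ} (hv : 0 < v) (ht : 0 < t)
    (htv : t < θ * (1 - v)) : q ≤ mT ν k v t := by
  have hk := N.k0
  have hθ := N.θ0
  -- the record level of height `t`
  set v1 := 1 - t / θ with hv1
  have e1 : θ * (1 - v1) = t := by rw [hv1]; field_simp; ring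
  have hvv : v < v1 := by
    have : θ * (1 - v1) < θ * (1 - v) := by rw [e1]; exact htv
    nlinarith
  have hv11 : v1 ≤ 1 := by
    have : 0 < t / θ := div_pos ht hθ
    linarith
  have hv10 : 0 < v1 := hv.trans hvv
  have hrec := N.rec_le hv10.le hv11
  rw [e1] at hrec
  have hkv : 0 < k * v1 := mul_pos hk hv10
  have key : ∀ᶠ j : ℕ in atTop, q * (1 / ((j : ℝ) + 1)) ≤ loss ν k v t t (1 / ((j : ℝ) + 1)) := by
    filter_upwards [ev_small hkv] with j hj
    have hj0 : 0 < 1 / ((j : ℝ) + 1) := by positivity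
    have h1 := N.rec_loss hv10.le hv11 hj0.le hj.le
    rw [e1] at h1
    exact h1.trans (N.loss_anti hv.le hvv.le ht.le ht.le (by nlinarith) le_rfl le_rfl hj0.le
      hrec (by nlinarith) (by nlinarith))
  have h2 : ENNReal.ofReal q ≤ limsup (fun j : ℕ => ENNReal.ofReal
    (min 1 (((j : ℝ) + 1) * loss ν k v t t (1 / ((j : ℝ) + 1))))) atTop := by
    refine le_limsup_of_frequently_le (Eventually.frequently ?_)
    filter_upwards [key] with j hj
    refine ENNReal.ofReal_le_ofReal (le_min N.q1 ?_)
    have hj1 : (0 : ℝ) < (j : ℝ) + 1 := by positivity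
    have := mul_le_mul_of_nonneg_left hj hj1.le
    calc q = ((j : ℝ) + 1) * (q * (1 / ((j : ℝ) + 1))) := by field_simp
      _ ≤ _ := this
  have h3 := ENNReal.toReal_mono ((mT_aux_le ν k v t).trans_lt ENNReal.one_lt_top).ne h2
  rwa [ENNReal.toReal_ofReal N.q0.le] at h3

end Crest.Agent.R138.P120
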