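import Crest.Agent.R138.P2_120

/-!
# R138: the sweep integral (S) and good heights above the record (helper120)
-/

set_option autoImplicit false
set_option linter.unusedVariables false

open Filter Topology MeasureTheory Set
open scoped NNReal ENNReal

namespace Crest.Agent.R138.P120

open Crest.Agent.R138.Ex926

variable {k q s b θ c₀ M : ℝ} {ν : (Fin 6 → ℝ) → ℝ}

/-- clipped quotients -/
noncomputable def cq (g : (Fin 6 → ℝ) → ℝ) (k v t : ℝ) (j : ℕ) : ℝ≥0∞ :=
  ENNReal.ofReal (min 1 (((j : ℝ) + 1) * loss g k v t t (1 / ((j : ℝ) + 1))))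

theorem cq_le (g : (Fin 6 → ℝ) → ℝ) (k v t : ℝ) (j : ℕ) : cq g k v t j ≤ 1 :=
  calc _ ≤ ENNReal.ofReal 1 := ENNReal.ofReal_le_ofReal (min_le_left _ _)
    _ = 1 := ENNReal.ofReal_one

theorem measurable_cq {g : (Fin 6 → ℝ) → ℝ} (hg : Continuous g) {X : Type*} [TopologicalSpace X]
    [MeasurableSpace X] [OpensMeasurableSpace X] {fv ft : X → ℝ} (hv : Continuous fv)
    (ht : Continuous ft) (k : ℝ) (j : ℕ) : Measurable fun x => cq g k (fv x) (ft x) j := by
  have : Continuous fun x => cq g k (fv x) (ft x) j := by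
    unfold cq loss
    refine ENNReal.continuous_ofReal.comp (continuous_const.min (continuous_const.mul ?_))
    exact (hg.comp (continuous_W k hv ht ht continuous_const)).sub
      (hg.comp (continuous_W k hv ht ht continuous_const))
  exact this.measurable

theorem mT_eq (ν : (Fin 6 → ℝ) → ℝ) (k v t : ℝ) :
    mT ν k v t = (limsup (fun j => cq ν k v t j) atTop).toReal := rfl

theorem NP.mT_ext (N : NP k q s b θ c₀ M ν) {g : (Fin 6 → ℝ) → ℝ}
    (he : ∀ p ∈ LEG M, g p = ν p) {v t : ℝ} (hv : 0 < v) (ht : 0 < t)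
    (h : (1 + k) * v + t < M) : mT ν k v t = mT g k v t := by
  have hk := N.k0
  have hkv : 0 < k * v := mul_pos hk hv
  have key : ∀ᶠ j : ℕ in atTop, loss ν k v t t (1 / ((j : ℝ) + 1)) =
      loss g k v t t (1 / ((j : ℝ) + 1)) := by
    filter_upwards [ev_small (δ := (1 + k) * v) (by nlinarith)] with j hj
    have hj0 : 0 < 1 / ((j : ℝ) + 1) := by positivity
    unfold loss
    rw [he _ (W_mem hk.le hv.le ht.le le_rfl le_rfl h.le (by linarith) (by linarith)),
      he _ (W_mem hk.le hv.le ht.le le_rfl hj0.le h.le (by linarith) (by linarith))]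
  exact le_antisymm (mT_mono (key.mono fun j hj => hj.le)) (mT_mono (key.mono fun j hj => hj.ge))

/-- (S), 630's form: along the line of slope `-1/k` from a record point the average of `m` is at
least `q` -/
theorem NP.sweep (N : NP k q s b θ c₀ M ν) {v0 x : ℝ} (hv0 : 0 < v0) (hv1 : v0 ≤ 1) (hx : 0 < x)
    (hxk : x < k * v0) :
    q * x ≤ ∫ y in (0 : ℝ)..x, mT ν k (v0 - y / k) (θ * (1 - v0) + y) := by
  obtain ⟨g, hgl, he⟩ := N.exists_ext
  have hg := hgl.continuous
  have hk := N.k0
  set τ := θ * (1 - v0) with hτ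
  have hτ0 : 0 ≤ τ := mul_nonneg N.θ0.le (by linarith)
  have hrec := N.rec_le hv0.le hv1
  set F : ℕ → ℝ → ℝ≥0∞ := fun j y => cq g k (v0 - y / k) (τ + y) j with hF
  have hFm : ∀ j, Measurable (F j) := fun j =>
    measurable_cq hg (by fun_prop) (by fun_prop) k j
  set G : ℝ → ℝ≥0∞ := fun y => limsup (fun j => F j y) atTop with hG
  have hGm : Measurable G := Measurable.limsup hFm
  have hG1 : ∀ y, G y ≤ 1 := fun y => mT_aux_le g k _ _
  -- natural points of the line are in the domain
  have hnat : ∀ y, 0 < y → y ≤ x → 0 < v0 - y / k ∧ 0 < τ + y ∧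
      (1 + k) * (v0 - y / k) + (τ + y) < M := by
    intro y hy hyx
    have h1 : y / k < v0 := by rw [div_lt_iff₀ hk]; linarith
    have h2 : (1 + k) * (v0 - y / k) + (τ + y) = (1 + k) * v0 + τ - y / k := by
      field_simp; ring
    have h3 : 0 < y / k := div_pos hy hk
    exact ⟨by linarith, by linarith, by rw [h2]; linarith⟩
  have e0 : ∫ y in (0 : ℝ)..x, mT ν k (v0 - y / k) (τ + y) = ∫ y in Ioc 0 x, (G y).toReal := by
    rw [intervalIntegral.integral_of_le hx.le]
    refine setIntegral_congr_fun measurableSet_Ioc fun y hy => ?_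
    obtain ⟨a1, a2, a3⟩ := hnat y hy.1 hy.2
    show mT ν k (v0 - y / k) (τ + y) = (G y).toReal
    rw [N.mT_ext he a1 a2 a3]
    rfl
  have e1 : ∫ y in Ioc 0 x, (G y).toReal = (∫⁻ y in Ioc 0 x, G y).toReal := by
    rw [integral_toReal hGm.aemeasurable]
    exact Eventually.of_forall fun y => (hG1 y).trans_lt ENNReal.one_lt_top
  have hfin : (∫⁻ y in Ioc 0 x, G y) ≠ ⊤ := by
    have : (∫⁻ y in Ioc 0 x, G y) ≤ ∫⁻ y in Ioc 0 x, 1 := lintegral_mono fun y => hG1 y
    refine (this.trans_lt ?_).ne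
    simp
  have e2 : limsup (fun j => ∫⁻ y in Ioc 0 x, F j y) atTop ≤ ∫⁻ y in Ioc 0 x, G y := by
    refine limsup_lintegral_le (fun _ => 1) hFm (fun j => ?_) ?_
    · exact Eventually.of_forall fun y => cq_le _ _ _ _ _
    · simp
  -- lower bound of the integrals
  have e3 : ∀ᶠ j : ℕ in atTop, ENNReal.ofReal (q * x - 2 * (1 / ((j : ℝ) + 1))) ≤
      ∫⁻ y in Ioc 0 x, F j y := by
    filter_upwards [ev_small (δ := k * v0 - x) (by linarith),
      ev_small (δ := v0) hv0] with j hj hj'
    set h := 1 / ((j : ℝ) + 1) with hh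
    have hh0 : 0 < h := by positivity
    have hj1 : ((j : ℝ) + 1) * h = 1 := by rw [hh]; field_simp
    have hj2 : (0 : ℝ) < (j : ℝ) + 1 := by positivity
    have hav := N.average hg he (x := x) hv0.le hv1 hx.le hh0 (by linarith)
    rw [← hτ] at hav
    -- the flat losses
    set Lf : ℝ → ℝ := fun y => loss g k v0 τ (τ + y) h with hLf
    have hLc : Continuous Lf := by
      simp only [hLf]
      unfold loss
      exact (hg.comp (continuous_W k continuous_const continuous_const (by fun_prop)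
        continuous_const)).sub (hg.comp (continuous_W k continuous_const continuous_const
        (by fun_prop) continuous_const))
    have hflat : ∀ y, 0 < y → y ≤ x → 0 ≤ Lf y ∧ Lf y ≤ h ∧
        Lf y ≤ loss g k (v0 - y / k) (τ + y) (τ + y) h := by
      intro y hy hyx
      obtain ⟨a1, a2, a3⟩ := hnat y hy hyx
      have hdiv : 0 < y / k := div_pos hy hk
      have b0 : τ + y + h ≤ M := by nlinarith
      have b1 : v0 + (τ + y) ≤ M := by nlinarith
      have m1 := he _ (W_mem (k := k) (v := v0) (n := τ) (l := τ + y) (h := 0) hk.le hv0.le hτ0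
        (by linarith) le_rfl hrec (by linarith) b1)
      have m2 := he _ (W_mem (k := k) (v := v0) (n := τ) (l := τ + y) (h := h) hk.le hv0.le hτ0
        (by linarith) hh0.le hrec b0 b1)
      have m3 := he _ (W_mem (k := k) (v := v0 - y / k) (n := τ + y) (l := τ + y) (h := 0) hk.le
        a1.le a2.le le_rfl le_rfl a3.le (by linarith) (by linarith))
      have m4 := he _ (W_mem (k := k) (v := v0 - y / k) (n := τ + y) (l := τ + y) (h := h) hk.le
        a1.le a2.le le_rfl hh0.le a3.le b0 (by linarith))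
      have c1 := N.loss_mem (v := v0) (n := τ) (l := τ + y) (h := h) hv0.le hτ0 (by linarith)
        hh0.le hrec b0 b1
      have c2 := N.loss_anti (v := v0) (n := τ) (l := τ + y) (h := h) (v' := v0 - y / k)
        (n' := τ + y) a1.le (by linarith) hτ0 a2.le (by
          have : k * (v0 - y / k) = k * v0 - y := by field_simp
          rw [this]; linarith) (by linarith) le_rfl hh0.le hrec b0 b1
      simp only [hLf]
      unfold loss at c1 c2 ⊢
      rw [m1, m2, m3, m4]
      exact ⟨c1.1, c1.2, c2⟩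
    have f1 : ∀ y ∈ Ioc 0 x, ENNReal.ofReal (((j : ℝ) + 1) * Lf y) ≤ F j y := by
      intro y hy
      obtain ⟨c0, c1, c2⟩ := hflat y hy.1 hy.2
      refine ENNReal.ofReal_le_ofReal (le_min ?_ ?_)
      · calc ((j : ℝ) + 1) * Lf y ≤ ((j : ℝ) + 1) * h := mul_le_mul_of_nonneg_left c1 hj2.le
          _ = 1 := hj1
      · exact mul_le_mul_of_nonneg_left c2 hj2.le
    have f2 : ∫⁻ y in Ioc 0 x, ENNReal.ofReal (((j : ℝ) + 1) * Lf y) ≤ ∫⁻ y in Ioc 0 x, F j y :=
      setLIntegral_mono' measurableSet_Ioc f1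
    have f3 : ENNReal.ofReal (∫ y in Ioc 0 x, ((j : ℝ) + 1) * Lf y) =
        ∫⁻ y in Ioc 0 x, ENNReal.ofReal (((j : ℝ) + 1) * Lf y) := by
      rw [ofReal_integral_eq_lintegral_ofReal]
      · have : Continuous fun y => ((j : ℝ) + 1) * Lf y := by fun_prop
        exact this.integrableOn_Ioc
      · rw [EventuallyLE, ae_restrict_iff' measurableSet_Ioc]
        exact Eventually.of_forall fun y hy =>
          mul_nonneg hj2.le (hflat y hy.1 hy.2).1
    refine le_trans ?_ (f3 ▸ f2)
    refine ENNReal.ofReal_le_ofReal ?_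
    rw [integral_const_mul, ← intervalIntegral.integral_of_le hx.le]
    have := mul_le_mul_of_nonneg_left hav hj2.le
    have e5 : ((j : ℝ) + 1) * (h * (q * x - 2 * h)) = q * x - 2 * h := by
      rw [← mul_assoc, hj1, one_mul]
    rw [e5] at this
    exact this
  have e4 : ENNReal.ofReal (q * x) ≤ limsup (fun j => ∫⁻ y in Ioc 0 x, F j y) atTop := by
    have t1 : Tendsto (fun j : ℕ => ENNReal.ofReal (q * x - 2 * (1 / ((j : ℝ) + 1)))) atTop
        (𝓝 (ENNReal.ofReal (q * x))) := by
      refine ENNReal.tendsto_ofReal ?_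
      have := (tendsto_const_nhds (x := q * x)).sub
        (one_div_succ_tendsto.const_mul (2 : ℝ))
      simpa using this
    rw [← t1.limsup_eq]
    exact limsup_le_limsup e3
  have e5 := ENNReal.toReal_mono hfin (e4.trans e2)
  rw [ENNReal.toReal_ofReal (mul_nonneg N.q0.le hx.le)] at e5
  rw [e0, e1]
  exact e5

/-! ### a global measurable version -/

/-- global version of `m`: measurable and antitone in `v` -/
noncomputable def mG (ν : (Fin 6 → ℝ) → ℝ) (k M v t : ℝ) : ℝ := by
  classical
  exact if v ≤ 0 then 1 else if 0 < t ∧ (1 + k) * v + t < M then mT ν k v t else 0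

theorem mG_eq {ν : (Fin 6 → ℝ) → ℝ} {k M v t : ℝ} (hv : 0 < v) (ht : 0 < t)
    (h : (1 + k) * v + t < M) : mG ν k M v t = mT ν k v t := by
  unfold mG
  rw [if_neg hv.not_ge, if_pos ⟨ht, h⟩]

theorem mG_mem (ν : (Fin 6 → ℝ) → ℝ) (k M v t : ℝ) : 0 ≤ mG ν k M v t ∧ mG ν k M v t ≤ 1 := by
  unfold mG
  split_ifs
  · norm_num
  · exact ⟨mT_nonneg _ _ _ _, mT_le_one _ _ _ _⟩
  · norm_num

theorem NP.mG_anti (N : NP k q s b θ c₀ M ν) (t : ℝ) : Antitone fun v => mG ν k M v t := by
  intro v' v hvv
  show mG ν k M v t ≤ mG ν k M v' t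
  by_cases h0 : v' ≤ 0
  · have : mG ν k M v' t = 1 := by unfold mG; rw [if_pos h0]
    rw [this]
    exact (mG_mem _ _ _ _ _).2
  · push Not at h0
    by_cases h1 : 0 < t ∧ (1 + k) * v + t < M
    · have hk := N.k0
      rw [mG_eq (h0.trans_le hvv) h1.1 h1.2, mG_eq h0 h1.1 (by nlinarith [h1.2])]
      exact N.mT_anti h0 hvv h1.1 h1.2
    · have : mG ν k M v t = 0 := by
        unfold mG
        rw [if_neg (h0.trans_le hvv).not_ge, if_neg h1]
      rw [this]
      exact (mG_mem _ _ _ _ _).1

theorem NP.mG_measurable (N : NP k q s b θ c₀ M ν) :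
    Measurable fun x : ℝ × ℝ => mG ν k M x.1 x.2 := by
  classical
  obtain ⟨g, hgl, he⟩ := N.exists_ext
  have e : (fun x : ℝ × ℝ => mG ν k M x.1 x.2) = fun x : ℝ × ℝ =>
      if x.1 ≤ 0 then (1 : ℝ) else if 0 < x.2 ∧ (1 + k) * x.1 + x.2 < M then
        (limsup (fun j => cq g k x.1 x.2 j) atTop).toReal else 0 := by
    funext x
    unfold mG
    split_ifs with h1 h2
    · rfl
    · push Not at h1
      rw [N.mT_ext he h1 h2.1 h2.2]
      rfl
    · rfl
  rw [e]
  refine Measurable.ite ?_ measurable_const (Measurable.ite ?_ ?_ measurable_const)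
  · exact (isClosed_le continuous_fst continuous_const).measurableSet
  · refine IsOpen.measurableSet ?_
    exact (isOpen_lt continuous_const continuous_snd).inter
      (isOpen_lt (by fun_prop : Continuous fun x : ℝ × ℝ => (1 + k) * x.1 + x.2)
        continuous_const)
  · refine Measurable.ennreal_toReal (Measurable.limsup fun j => ?_)
    exact measurable_cq hgl.continuous continuous_fst continuous_snd k j

/-! ### good heights above the record -/

/-- if `θ < k`: for almost every height the rate just above the record is at least `q` -/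
theorem NP.above (N : NP k q s b θ c₀ M ν) (hθk : θ < k) :
    ∀ᵐ t : ℝ, t ∈ Ioo 0 θ → ∀ c < q, ∃ v, 1 - t / θ < v ∧ v < 1 ∧ (1 + k) * v + t < M ∧
      c < mT ν k v t := by
  have hk := N.k0
  have hθ := N.θ0
  -- `φ t = sup of m` over the levels above the record
  set φ : ℕ → ℝ → ℝ := fun i t => mG ν k M (1 - t / θ + 1 / ((i : ℝ) + 1)) t with hφ
  set Φ : ℝ → ℝ := fun t => ⨆ i, φ i t with hΦ
  have hφm : ∀ i, Measurable (φ i) := fun i => by
    have : Measurable fun t : ℝ => ((1 - t / θ + 1 / ((i : ℝ) + 1), t) : ℝ × ℝ) := by fun_prop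
    exact N.mG_measurable.comp this
  have hΦm : Measurable Φ := Measurable.iSup hφm
  have hbdd : ∀ t, BddAbove (range fun i => φ i t) := fun t =>
    ⟨1, by rintro _ ⟨i, rfl⟩; exact (mG_mem _ _ _ _ _).2⟩
  have hΦ01 : ∀ t, 0 ≤ Φ t ∧ Φ t ≤ 1 := fun t =>
    ⟨(mG_mem _ _ _ _ _).1.trans (le_ciSup (hbdd t) 0), ciSup_le fun i => (mG_mem _ _ _ _ _).2⟩
  have hle : ∀ t v, 1 - t / θ < v → mG ν k M v t ≤ Φ t := by
    intro t v hv
    obtain ⟨i, hi⟩ := exists_nat_one_div_lt (sub_pos.2 hv)
    refine le_trans ?_ (le_ciSup (hbdd t) i)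
    exact N.mG_anti t (by linarith)
  have hloc : LocallyIntegrable Φ volume := by
    refine (locallyIntegrable_const (1 : ℝ)).mono hΦm.aestronglyMeasurable ?_
    refine Eventually.of_forall fun t => ?_
    rw [Real.norm_eq_abs, abs_of_nonneg (hΦ01 t).1, norm_one]
    exact (hΦ01 t).2
  have hi : ∀ a c, IntervalIntegrable Φ volume a c := fun a c =>
    (hloc.integrableOn_isCompact isCompact_uIcc).mono_set uIoc_subset_uIcc |>
      fun h => intervalIntegrable_iff.2 h
  -- average of `Φ`
  have havg : ∀ t ∈ Ioo 0 θ, ∀ x, 0 < x → x < k * (1 - t / θ) →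
      q * x ≤ ∫ y in t..(t + x), Φ y := by
    intro t ht x hx hxk
    have h1 : t / θ < 1 := by rw [div_lt_one hθ]; exact ht.2
    have h0 : 0 < t / θ := div_pos ht.1 hθ
    have hs := N.sweep (v0 := 1 - t / θ) (x := x) (by linarith) (by linarith) hx hxk
    have e1 : θ * (1 - (1 - t / θ)) = t := by field_simp; ring
    rw [e1] at hs
    refine hs.trans ?_
    have e2 : ∫ y in t..(t + x), Φ y = ∫ y in (0 : ℝ)..x, Φ (t + y) := by
      rw [intervalIntegral.integral_comp_add_left (fun y => Φ y) t, add_zero]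
    rw [e2, intervalIntegral.integral_of_le hx.le, intervalIntegral.integral_of_le hx.le]
    have hnat : ∀ y ∈ Ioc 0 x, mT ν k (1 - t / θ - y / k) (t + y) ≤ Φ (t + y) := by
      intro y hy
      have h2 : y / k < 1 - t / θ := by rw [div_lt_iff₀ hk]; nlinarith [hy.2]
      have h3 : 0 < y / k := div_pos hy.1 hk
      have hrec := N.rec_le (v := 1 - t / θ) (by linarith) (by linarith)
      rw [e1] at hrec
      have h4 : (1 + k) * (1 - t / θ - y / k) + (t + y) =
          (1 + k) * (1 - t / θ) + t - y / k := by field_simp; ring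
      rw [← mG_eq (M := M) (by linarith) (by linarith [ht.1, hy.1]) (by rw [h4]; linarith)]
      refine hle _ _ ?_
      have h5 : (t + y) / θ = t / θ + y / θ := by ring
      have h6 : y / k < y / θ := by
        apply div_lt_div_of_pos_left hy.1 hθ hθk
      linarith
    refine setIntegral_mono_on ?_ ?_ measurableSet_Ioc hnat
    · -- integrability of `m` along the line
      have hc : Measurable fun y : ℝ => ((1 - t / θ - y / k, t + y) : ℝ × ℝ) := by fun_prop
      have hm : Measurable fun y : ℝ => mG ν k M (1 - t / θ - y / k) (t + y) :=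
        N.mG_measurable.comp hc
      have hI : IntegrableOn (fun y : ℝ => mG ν k M (1 - t / θ - y / k) (t + y)) (Ioc 0 x) := by
        refine Measure.integrableOn_of_bounded (M := 1) (by simp) hm.aestronglyMeasurable ?_
        refine Eventually.of_forall fun y => ?_
        rw [Real.norm_eq_abs, abs_of_nonneg (mG_mem _ _ _ _ _).1]
        exact (mG_mem _ _ _ _ _).2
      refine hI.congr_fun (fun y hy => ?_) measurableSet_Ioc
      have h2 : y / k < 1 - t / θ := by rw [div_lt_iff₀ hk]; nlinarith [hy.2]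
      have h3 : 0 < y / k := div_pos hy.1 hk
      have hrec := N.rec_le (v := 1 - t / θ) (by linarith) (by linarith)
      rw [e1] at hrec
      have h4 : (1 + k) * (1 - t / θ - y / k) + (t + y) =
          (1 + k) * (1 - t / θ) + t - y / k := by field_simp; ring
      exact mG_eq (by linarith) (by linarith [ht.1, hy.1]) (by rw [h4]; linarith)
    · have := hi t (t + x)
      have h7 : IntervalIntegrable (fun y => Φ (t + y)) volume 0 x := by
        have := (hi t (t + x)).comp_add_left t
        simpa using this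
      exact (intervalIntegrable_iff_integrableOn_Ioc_of_le hx.le).1 h7
  -- Lebesgue
  filter_upwards [_root_.LocallyIntegrable.ae_hasDerivAt_integral hloc] with t hd ht c hc
  have hq : q ≤ Φ t := by
    have hda := hd t
    by_contra hcon
    push Not at hcon
    have h1 : t / θ < 1 := by rw [div_lt_one hθ]; exact ht.2
    have hpos : 0 < k * (1 - t / θ) := mul_pos hk (by linarith)
    have hs := (hasDerivAt_iff_tendsto_slope_zero.1 hda)
    have hs' : Tendsto (fun x : ℝ => x⁻¹ • ((∫ y in t..(t + x), Φ y) - ∫ y in t..t, Φ y))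
        (𝓝[>] 0) (𝓝 (Φ t)) :=
      hs.mono_left (nhdsWithin_mono _ fun x hx => (ne_of_gt hx : x ≠ 0))
    have hev : ∀ᶠ x : ℝ in 𝓝[>] 0, q ≤ x⁻¹ • ((∫ y in t..(t + x), Φ y) - ∫ y in t..t, Φ y) := by
      filter_upwards [Ioo_mem_nhdsGT hpos] with x hx
      have := havg t ht x hx.1 hx.2
      rw [intervalIntegral.integral_same, sub_zero, smul_eq_mul, ← div_eq_inv_mul,
        le_div_iff₀ hx.1]
      exact this
    exact absurd (ge_of_tendsto hs' hev) (not_le.2 hcon)
  have h1 : t / θ < 1 := by rw [div_lt_one hθ]; exact ht.2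
  have h0 : 0 < t / θ := div_pos ht.1 hθ
  have hM := N.M1
  have hlt : (1 + k) * (1 - t / θ) + t < M := by
    have e : t = θ * (t / θ) := by field_simp
    nlinarith
  -- choose a level
  obtain ⟨i0, hi0⟩ := exists_lt_of_lt_ciSup (hc.trans_le hq : c < ⨆ i, φ i t)
  set δ := min (t / θ) ((M - ((1 + k) * (1 - t / θ) + t)) / (1 + k)) with hδ
  have hk1 : (0 : ℝ) < 1 + k := by linarith
  have hδ0 : 0 < δ := lt_min h0 (div_pos (by linarith) hk1)
  set v := 1 - t / θ + min (1 / ((i0 : ℝ) + 1)) (δ / 2) with hv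
  have hmin : 0 < min (1 / ((i0 : ℝ) + 1)) (δ / 2) := lt_min (by positivity) (by linarith)
  have hmin2 : min (1 / ((i0 : ℝ) + 1)) (δ / 2) < δ := (min_le_right _ _).trans_lt (by linarith)
  have hvM : (1 + k) * v + t < M := by
    have : (1 + k) * min (1 / ((i0 : ℝ) + 1)) (δ / 2) <
        M - ((1 + k) * (1 - t / θ) + t) := by
      calc (1 + k) * min (1 / ((i0 : ℝ) + 1)) (δ / 2) < (1 + k) * δ :=
            mul_lt_mul_of_pos_left hmin2 hk1
        _ ≤ (1 + k) * ((M - ((1 + k) * (1 - t / θ) + t)) / (1 + k)) :=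
            mul_le_mul_of_nonneg_left (min_le_right _ _) hk1.le
        _ = _ := by field_simp
    rw [hv]; nlinarith
  refine ⟨v, by linarith, ?_, hvM, ?_⟩
  · have : δ ≤ t / θ := min_le_left _ _
    linarith
  · rw [← mG_eq (M := M) (by linarith) ht.1 hvM]
    refine hi0.trans_le (N.mG_anti t ?_)
    rw [hv]
    have := min_le_left (1 / ((i0 : ℝ) + 1)) (δ / 2)
    linarith

end Crest.Agent.R138.P120
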