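import Crest.Agent.R138.P3_120
import Crest.Agent.R138.End2_615

/-!
# R138: TEXT II, everything except the a.e. table (helper120)

`NP.T2` : `NP` and the a.e. table give `b ≤ 2 s`.
`ExtP.false_of_table` : `ExtP` and the a.e. table give `False`.
-/

set_option autoImplicit false
set_option linter.unusedVariables false

open Filter Topology MeasureTheory Set
open scoped NNReal ENNReal

namespace Crest.Agent.R138.P120

open Crest.Agent.R138.Ex926 Crest.Agent.R138.End2615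

variable {k q s b θ c₀ M : ℝ} {ν : (Fin 6 → ℝ) → ℝ}

/-- log density of the natural class -/
def PP (ν : (Fin 6 → ℝ) → ℝ) (k s v t : ℝ) : ℝ :=
  ν (X6 v (k * v) t) - (1 - s) * (1 - v) + (2 + k) * v + 2 * t

/-- the a.e. table (output of the blow-up at almost every natural point) -/
def Table (ν : (Fin 6 → ℝ) → ℝ) (k s M : ℝ) : Prop :=
  ∀ᵐ x : ℝ × ℝ, x ∈ End2615.Dom M k → 0 < mT ν k x.1 x.2 →
    ∃ D : ℝ × ℝ →L[ℝ] ℝ, HasFDerivAt (fun x : ℝ × ℝ => PP ν k s x.1 x.2) D x ∧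
      (k ≠ 1 → D (1, 0) - k / 2 * D (0, 1) ≤ 2 * s) ∧
      (k = 1 → D (1, 0) - D (0, 1) ≤ s + mT ν k x.1 x.2 ∧
        (s < mT ν k x.1 x.2 → D (1, 0) ≤ 2 * s))

theorem abs_W_sub_le {k v t v' t' d : ℝ} (hk : 0 ≤ k) (hv : |v - v'| ≤ d) (ht : |t - t'| ≤ d)
    (a : Fin 6) : |W k v t t 0 a - W k v' t' t' 0 a| ≤ (2 + k) * d := by
  have hd : 0 ≤ d := (abs_nonneg _).trans hv
  rw [abs_le] at hv ht ⊢
  fin_cases a
  · show -((2 + k) * d) ≤ ((1 + k) * v + t) - ((1 + k) * v' + t') ∧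
      ((1 + k) * v + t) - ((1 + k) * v' + t') ≤ (2 + k) * d
    constructor <;> nlinarith [hv.1, hv.2, ht.1, ht.2]
  · show -((2 + k) * d) ≤ (k * v + t) - (k * v' + t') ∧
      (k * v + t) - (k * v' + t') ≤ (2 + k) * d
    constructor <;> nlinarith [hv.1, hv.2, ht.1, ht.2]
  · show -((2 + k) * d) ≤ (t + 0) - (t' + 0) ∧ (t + 0) - (t' + 0) ≤ (2 + k) * d
    constructor <;> nlinarith [hv.1, hv.2, ht.1, ht.2]
  · show -((2 + k) * d) ≤ (v + t) - (v' + t') ∧ (v + t) - (v' + t') ≤ (2 + k) * d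
    constructor <;> nlinarith [hv.1, hv.2, ht.1, ht.2]
  · show -((2 + k) * d) ≤ v - v' ∧ v - v' ≤ (2 + k) * d
    constructor <;> nlinarith [hv.1, hv.2, ht.1, ht.2]
  · show -((2 + k) * d) ≤ k * v - k * v' ∧ k * v - k * v' ≤ (2 + k) * d
    constructor <;> nlinarith [hv.1, hv.2, ht.1, ht.2]

theorem NP.PP_lip (N : NP k q s b θ c₀ M ν) : ∃ K : ℝ≥0,
    LipschitzOnWith K (fun x : ℝ × ℝ => PP ν k s x.1 x.2 - c₀) (Om M k) := by
  have hk := N.k0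
  refine ⟨⟨6 * (2 + k) + (|1 - s| + (2 + k) + 2), by positivity⟩, ?_⟩
  apply LipschitzOnWith.of_dist_le_mul
  intro x hx y hy
  have m1 : W k x.1 x.2 x.2 0 ∈ LEG M := W_mem hk.le hx.1 hx.2.2.1 le_rfl le_rfl hx.2.2.2
    (by nlinarith [hx.1, hx.2.2.1, hx.2.2.2]) (by nlinarith [hx.1, hx.2.2.1, hx.2.2.2])
  have m2 : W k y.1 y.2 y.2 0 ∈ LEG M := W_mem hk.le hy.1 hy.2.2.1 le_rfl le_rfl hy.2.2.2
    (by nlinarith [hy.1, hy.2.2.1, hy.2.2.2]) (by nlinarith [hy.1, hy.2.2.1, hy.2.2.2])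
  have hd1 : |x.1 - y.1| ≤ dist x y := by
    rw [← Real.dist_eq, Prod.dist_eq]; exact le_max_left _ _
  have hd2 : |x.2 - y.2| ≤ dist x y := by
    rw [← Real.dist_eq, Prod.dist_eq]; exact le_max_right _ _
  have h1 := N.lipOn.dist_le_mul _ m1 _ m2
  have h2 : dist (W k x.1 x.2 x.2 0) (W k y.1 y.2 y.2 0) ≤ (2 + k) * dist x y := by
    rw [dist_pi_le_iff (by positivity)]
    intro a
    rw [Real.dist_eq]
    exact abs_W_sub_le hk.le hd1 hd2 a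
  have h3 : |ν (W k x.1 x.2 x.2 0) - ν (W k y.1 y.2 y.2 0)| ≤ 6 * ((2 + k) * dist x y) := by
    rw [← Real.dist_eq]
    refine h1.trans ?_
    have : ((6 : ℝ≥0) : ℝ) = 6 := by norm_num
    rw [this]
    gcongr
  have hd0 : (0 : ℝ) ≤ dist x y := dist_nonneg
  have h4 : |(1 - s) * (x.1 - y.1)| ≤ |1 - s| * dist x y := by
    rw [abs_mul]; gcongr
  show dist (PP ν k s x.1 x.2 - c₀) (PP ν k s y.1 y.2 - c₀) ≤
    (6 * (2 + k) + (|1 - s| + (2 + k) + 2)) * dist x y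
  rw [Real.dist_eq]
  unfold PP
  rw [X6_eq, X6_eq]
  rw [abs_le] at h3 h4 hd1 hd2 ⊢
  constructor <;> nlinarith [h3.1, h3.2, h4.1, h4.2, hd1.1, hd1.2, hd2.1, hd2.2]

/-- **TEXT II without the table** -/
theorem NP.T2 (N : NP k q s b θ c₀ M ν) (hs : 0 ≤ s) (h5 : Table ν k s M) : b ≤ 2 * s := by
  have hk := N.k0
  have hθ := N.θ0
  obtain ⟨K, hK⟩ := N.PP_lip
  have hm0 : ∀ x ∈ End2615.Dom M k, mG ν k M x.1 x.2 = mT ν k x.1 x.2 := fun x hx =>
    mG_eq hx.1 hx.2.2.1 hx.2.2.2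
  refine end_lin (P := fun v t => PP ν k s v t - c₀) (m := fun v t => mG ν k M v t) hk N.q0 hs hθ
    N.M1 N.M2 hK ?_ ?_ N.mG_measurable ?_ ?_ ?_ ?_
  · -- `g ≤ 0`
    intro x hx
    have h := N.dmax x.1 x.2 x.2 hx.1 hx.2.1 hx.2.2.1 le_rfl (by nlinarith [hx.1]) hx.2.2.2
    show PP ν k s x.1 x.2 - c₀ - b * x.1 + q * x.2 ≤ 0
    unfold PP
    rw [X6_eq]
    linarith
  · -- record
    intro v hv
    have h := N.record v hv.1 hv.2
    show PP ν k s v (θ * (1 - v)) - c₀ - b * v + q * (θ * (1 - v)) = 0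
    unfold PP
    rw [X6_eq]
    linarith
  · intro t v v' _ _ hvv
    exact N.mG_anti t hvv
  · refine Eventually.of_forall fun t v hv htv => ?_
    show 0 < mG ν k M v t
    rw [hm0 _ hv]
    exact N.q0.trans_le (N.mT_wide hv.1 hv.2.2.1 htv)
  · intro hθk
    filter_upwards [N.above hθk] with t ht ht0
    obtain ⟨v, h1, h2, h3, h4⟩ := ht ht0 0 N.q0
    have h5 : t / θ < 1 := by rw [div_lt_one hθ]; exact ht0.2
    have hv0 : 0 < v := by linarith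
    have hD : (v, t) ∈ End2615.Dom M k := ⟨hv0, h2, ht0.1, h3⟩
    refine ⟨v, hD, ?_, ?_⟩
    · have : t = θ * (t / θ) := by field_simp
      nlinarith
    · show 0 < mG ν k M v t
      rw [hm0 _ hD]
      exact h4
  · filter_upwards [h5] with x hx hxD hxm
    have hxm' : 0 < mG ν k M x.1 x.2 := hxm
    rw [hm0 _ hxD] at hxm'
    obtain ⟨D, hD, hD1, hD2⟩ := hx hxD hxm'
    refine ⟨D, hD.sub_const c₀, hD1, ?_⟩
    show k = 1 → D (1, 0) - D (0, 1) ≤ s + mG ν k M x.1 x.2 ∧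
      (s < mG ν k M x.1 x.2 → D (1, 0) ≤ 2 * s)
    rw [hm0 _ hxD]
    exact hD2

/-- **TEXT II from the a.e. table** -/
theorem ExtP.false_of_table {B : Base} {ι : ℕ → Type} [∀ n, DecidableEq (ι n)]
    {I : ∀ n, Finset (ι n)} {x : ∀ n, ι n → Flg101.Inc} {line : ∀ n, ι n → ℕ}
    {own : (Fin 2 → ℝ) → ℝ} (h : ExtP B I x line ν own M s b q k θ c₀)
    (h5 : Table ν k s M) : False := by
  have N : NP k q s b θ c₀ M ν := NP.of_ext h.k0 h.q0 h.θ0 h.M0.1 h.M0.2 h.lip h.submod h.own_z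
    h.dmax h.record
  have := N.T2 h.s0 h5
  linarith [h.bs]

end Crest.Agent.R138.P120
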