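import Crest.Agent.R138.Pf_926

/-!
# R138: submodularity, zoom and coordinate boxes for profiles (helper926)
-/

set_option autoImplicit false
set_option linter.unusedSectionVars false
set_option linter.unusedVariables false

open Filter Topology MeasureTheory
open scoped NNReal

namespace Crest.Agent.R138.Ex926

section Submod

open Finset

theorem card_image_le_card_image {α β γ : Type*} [DecidableEq β] [DecidableEq γ] (A : Finset α)
    (f : α → β) (g : α → γ) (h : ∀ x ∈ A, ∀ y ∈ A, f x = f y → g x = g y) :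
    (A.image g).card ≤ (A.image f).card := by
  classical
  rcases A.eq_empty_or_nonempty with rfl | ⟨a₀, ha₀⟩
  · simp
  set φ : β → γ := fun c => if hc : ∃ x ∈ A, f x = c then g hc.choose else g a₀ with hφ
  have : A.image g ⊆ (A.image f).image φ := by
    intro c hc
    obtain ⟨x, hx, rfl⟩ := mem_image.1 hc
    refine mem_image.2 ⟨f x, mem_image_of_mem _ hx, ?_⟩
    have hex : ∃ y ∈ A, f y = f x := ⟨x, hx, rfl⟩
    simp only [hφ, dif_pos hex]
    exact h _ hex.choose_spec.1 _ hx hex.choose_spec.2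
  exact (card_le_card this).trans card_image_le

variable {B : Base} {ι κ : ℕ → Type*} [∀ n, DecidableEq (ι n)] [∀ n, DecidableEq (κ n)]

/-- general form of submodularity for four partitions: `fo` (coarse), `fp`, `fq` finer than `fo`,
`fr` determined by `fp` and `fq`. -/
theorem submod4 {I : ∀ n, Finset (ι n)} {fo fp fq fr : ∀ n, ι n → κ n} {νo νp νq νr : ℝ}
    (hI : ∀ᶠ n in (U : Filter ℕ), (I n).Nonempty)
    (ho : ∀ ε : ℝ, 0 < ε → ∀ᶠ n in (U : Filter ℕ), ∀ i ∈ I n,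
      |Real.log ((cls (I n) (fo n) i).card) / B.L n - νo| ≤ ε)
    (hp : ∀ ε : ℝ, 0 < ε → ∀ᶠ n in (U : Filter ℕ), ∀ i ∈ I n,
      |Real.log ((cls (I n) (fp n) i).card) / B.L n - νp| ≤ ε)
    (hq : ∀ ε : ℝ, 0 < ε → ∀ᶠ n in (U : Filter ℕ), ∀ i ∈ I n,
      |Real.log ((cls (I n) (fq n) i).card) / B.L n - νq| ≤ ε)
    (hr : ∀ ε : ℝ, 0 < ε → ∀ᶠ n in (U : Filter ℕ), ∀ i ∈ I n,
      |Real.log ((cls (I n) (fr n) i).card) / B.L n - νr| ≤ ε)
    (hpo : ∀ᶠ n in (U : Filter ℕ), ∀ i ∈ I n, ∀ i' ∈ I n, fp n i = fp n i' → fo n i = fo n i')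
    (hqo : ∀ᶠ n in (U : Filter ℕ), ∀ i ∈ I n, ∀ i' ∈ I n, fq n i = fq n i' → fo n i = fo n i')
    (hrq : ∀ᶠ n in (U : Filter ℕ), ∀ i ∈ I n, ∀ i' ∈ I n, fp n i = fp n i' → fq n i = fq n i' →
      fr n i = fr n i') :
    νp + νq ≤ νr + νo := by
  refine le_of_forall_pos_le_add fun ε hε => ?_
  obtain ⟨n, h0, h1, h2, h3, h4, h5, h6, h7⟩ := (hI.and ((ho (ε / 4) (by positivity)).and
    ((hp (ε / 4) (by positivity)).and ((hq (ε / 4) (by positivity)).and
    ((hr (ε / 4) (by positivity)).and (hpo.and (hqo.and hrq))))))).exists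
  obtain ⟨i, hi⟩ := h0
  have hL := B.L_pos n
  set A := cls (I n) (fo n) i with hA
  set A2 := cls (I n) (fq n) i with hA2
  have hA2A : A2 ⊆ A := fun x hx => by
    obtain ⟨x1, x2⟩ := mem_cls.1 hx
    exact mem_cls.2 ⟨x1, h6 x x1 i hi x2⟩
  -- (1) `e^{(νp-ε/4)L} * #(A.image fp) ≤ |A|`
  have c1 : Real.exp ((νp - ε / 4) * B.L n) * ((A.image (fp n)).card : ℝ) ≤ A.card := by
    have hc := count_mul_le A (fun _ => (1 : ℝ)) (fun _ _ => zero_le_one) (fp n)
      (m := Real.exp ((νp - ε / 4) * B.L n)) (fun x hx => by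
        rw [sum_const, nsmul_eq_mul, mul_one]
        obtain ⟨x1, x2⟩ := mem_cls.1 hx
        have e1 : cls A (fp n) x = cls (I n) (fp n) x := by
          ext y
          constructor
          · intro hy
            obtain ⟨y1, y2⟩ := mem_cls.1 hy
            exact mem_cls.2 ⟨(mem_cls.1 y1).1, y2⟩
          · intro hy
            obtain ⟨y1, y2⟩ := mem_cls.1 hy
            exact mem_cls.2 ⟨mem_cls.2 ⟨y1, (h5 y y1 x x1 y2).trans x2⟩, y2⟩
        rw [e1]
        have h8 := (abs_le.1 (h2 x x1)).1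
        have h9 : (1 : ℝ) ≤ (cls (I n) (fp n) x).card := cls_card_pos x1
        rw [← Real.le_log_iff_exp_le (by linarith), ← le_div_iff₀ hL]
        linarith)
    simpa using hc
  -- (2) `|A2| ≤ #(A2.image fr) * e^{(νr+ε/4)L}`
  have c2 : (A2.card : ℝ) ≤ Real.exp ((νr + ε / 4) * B.L n) * ((A2.image (fr n)).card : ℝ) := by
    have hc := le_count_mul A2 (fun _ => (1 : ℝ)) (fr n)
      (m := Real.exp ((νr + ε / 4) * B.L n)) (fun x hx => by
        rw [sum_const, nsmul_eq_mul, mul_one]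
        obtain ⟨x1, x2⟩ := mem_cls.1 hx
        have e1 : ((cls A2 (fr n) x).card : ℝ) ≤ (cls (I n) (fr n) x).card := by
          exact_mod_cast card_le_card (cls_mono (cls_subset _ _ _) _ _)
        refine e1.trans ?_
        have h8 := (abs_le.1 (h4 x x1)).2
        have h9 : (1 : ℝ) ≤ (cls (I n) (fr n) x).card := cls_card_pos x1
        rw [← Real.log_le_iff_le_exp (by linarith), ← div_le_iff₀ hL]
        linarith)
    simpa using hc
  -- (3) compare the counts
  have c3 : ((A2.image (fr n)).card : ℝ) ≤ ((A.image (fp n)).card : ℝ) := by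
    have e1 : (A2.image (fr n)).card ≤ (A2.image (fp n)).card :=
      card_image_le_card_image A2 (fp n) (fr n) fun x hx y hy hxy => by
        obtain ⟨x1, x2⟩ := mem_cls.1 hx
        obtain ⟨y1, y2⟩ := mem_cls.1 hy
        exact h7 x x1 y y1 hxy (x2.trans y2.symm)
    have e2 : (A2.image (fp n)).card ≤ (A.image (fp n)).card :=
      card_le_card (image_subset_image hA2A)
    exact_mod_cast e1.trans e2
  -- logarithms
  have a1 : (1 : ℝ) ≤ A.card := cls_card_pos hi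
  have a2 : (1 : ℝ) ≤ A2.card := cls_card_pos hi
  have h8 := (abs_le.1 (h1 i hi)).2
  have h9 := (abs_le.1 (h3 i hi)).1
  have d1 : Real.log A.card ≤ (νo + ε / 4) * B.L n := by
    rw [← div_le_iff₀ hL]; linarith
  have d2 : (νq - ε / 4) * B.L n ≤ Real.log A2.card := by
    rw [← le_div_iff₀ hL]; linarith
  have e0 : Real.exp ((νq - ε / 4) * B.L n) ≤ A2.card := by
    rwa [← Real.le_log_iff_exp_le (by linarith)]
  have e1 : (A.card : ℝ) ≤ Real.exp ((νo + ε / 4) * B.L n) := by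
    rwa [← Real.log_le_iff_le_exp (by linarith)]
  have e2 : Real.exp ((νp - ε / 4) * B.L n) * Real.exp ((νq - ε / 4) * B.L n) ≤
      Real.exp ((νr + ε / 4) * B.L n) * Real.exp ((νo + ε / 4) * B.L n) := by
    calc Real.exp ((νp - ε / 4) * B.L n) * Real.exp ((νq - ε / 4) * B.L n)
        ≤ Real.exp ((νp - ε / 4) * B.L n) *
          (Real.exp ((νr + ε / 4) * B.L n) * ((A.image (fp n)).card : ℝ)) := by
          refine mul_le_mul_of_nonneg_left (e0.trans (c2.trans ?_)) (Real.exp_pos _).le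
          exact mul_le_mul_of_nonneg_left c3 (Real.exp_pos _).le
      _ = Real.exp ((νr + ε / 4) * B.L n) *
          (Real.exp ((νp - ε / 4) * B.L n) * ((A.image (fp n)).card : ℝ)) := by ring
      _ ≤ Real.exp ((νr + ε / 4) * B.L n) * Real.exp ((νo + ε / 4) * B.L n) :=
          mul_le_mul_of_nonneg_left (c1.trans e1) (Real.exp_pos _).le
  rw [← Real.exp_add, ← Real.exp_add, Real.exp_le_exp] at e2
  have e3 : (νp + νq - ε / 2) * B.L n ≤ (νr + νo + ε / 2) * B.L n := by nlinarith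
  have := le_of_mul_le_mul_right e3 hL
  linarith

variable {m : ℕ}

/-- join property: the partition at `p ⊔ q` is determined by those at `p` and `q`. -/
def PJoin (I : ∀ n, Finset (ι n)) (f : ∀ n, (Fin m → ℝ) → ι n → κ n) (P : Set (Fin m → ℝ)) : Prop :=
  ∀ᶠ n in (U : Filter ℕ), ∀ p ∈ P, ∀ q ∈ P, ∀ i ∈ I n, ∀ i' ∈ I n, f n p i = f n p i' →
    f n q i = f n q i' → f n (p ⊔ q) i = f n (p ⊔ q) i'

/-- **Supermodularity of the profile** (i.e. submodularity of the entropy `-ν`). -/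
theorem IsProfile.submod {I : ∀ n, Finset (ι n)} {f : ∀ n, (Fin m → ℝ) → ι n → κ n} {K : ℝ}
    {a b : Fin m → ℝ} {ν : (Fin m → ℝ) → ℝ} (hI : ∀ᶠ n in (U : Filter ℕ), (I n).Nonempty)
    (hν : IsProfile B I f (Set.Icc a b) ν) (hf : PFam B I f K (Set.Icc a b))
    (hj : PJoin I f (Set.Icc a b)) {p q : Fin m → ℝ} (hp : p ∈ Set.Icc a b)
    (hq : q ∈ Set.Icc a b) : ν p + ν q ≤ ν (p ⊔ q) + ν (p ⊓ q) := by
  have hsup : p ⊔ q ∈ Set.Icc a b := ⟨hp.1.trans le_sup_left, sup_le hp.2 hq.2⟩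
  have hinf : p ⊓ q ∈ Set.Icc a b := ⟨le_inf hp.1 hq.1, inf_le_left.trans hp.2⟩
  refine submod4 (B := B) (I := I) (fo := fun n => f n (p ⊓ q)) (fp := fun n => f n p)
    (fq := fun n => f n q) (fr := fun n => f n (p ⊔ q)) hI
    (fun ε hε => (hν ε hε).mono fun n hn => hn _ hinf)
    (fun ε hε => (hν ε hε).mono fun n hn => hn _ hp)
    (fun ε hε => (hν ε hε).mono fun n hn => hn _ hq)
    (fun ε hε => (hν ε hε).mono fun n hn => hn _ hsup) ?_ ?_ ?_
  · exact hf.nest.mono fun n hn i hi i' hi' h => hn _ hinf _ hp inf_le_left i hi i' hi' h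
  · exact hf.nest.mono fun n hn i hi i' hi' h => hn _ hinf _ hq inf_le_right i hi i' hi' h
  · exact hj.mono fun n hn i hi i' hi' h h' => hn _ hp _ hq i hi i' hi' h h'

/-- the family restricted to a subset. -/
theorem PFam.mono {I I' : ∀ n, Finset (ι n)} {f : ∀ n, (Fin m → ℝ) → ι n → κ n} {K : ℝ}
    {P P' : Set (Fin m → ℝ)} (h : PFam B I f K P) (hI : ∀ᶠ n in (U : Filter ℕ), I' n ⊆ I n)
    (hP : P' ⊆ P) : PFam B I' f K P' where
  nest := by
    filter_upwards [h.nest, hI] with n h1 h2 p hp p' hp' hpp i hi i' hi'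
    exact h1 p (hP hp) p' (hP hp') hpp i (h2 hi) i' (h2 hi')
  child := fun ε hε => by
    filter_upwards [h.child ε hε, hI] with n h1 h2 p hp p' hp' hpp i hi
    refine le_trans ?_ (h1 p (hP hp) p' (hP hp') hpp i (h2 hi))
    exact_mod_cast card_le_card (image_subset_image (cls_mono h2 _ _))

theorem PJoin.mono {I I' : ∀ n, Finset (ι n)} {f : ∀ n, (Fin m → ℝ) → ι n → κ n}
    {P P' : Set (Fin m → ℝ)} (h : PJoin I f P) (hI : ∀ᶠ n in (U : Filter ℕ), I' n ⊆ I n)
    (hP : P' ⊆ P) : PJoin I' f P' := by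
  filter_upwards [h, hI] with n h1 h2 p hp q hq i hi i' hi'
  exact h1 p (hP hp) q (hP hq) i (h2 hi) i' (h2 hi')

end Submod

/-! ### zoom for sets of functions -/

/-- **The zoom lemma for sets of functions** (uniform convergence as hypothesis). -/
theorem exists_zoom_set {E : Type*} [NormedAddCommGroup E] [NormedSpace ℝ E]
    {x₀ : E} {r : ℝ} (hr : 0 < r) (Φ : ℕ → ℕ → Set (E → ℝ)) (ψ : ℕ → E → ℝ) (ψ' : ℕ → E →L[ℝ] ℝ)
    (hΦ : ∀ j, ∀ ε : ℝ, 0 < ε → ∀ᶠ n in (U : Filter ℕ), ∀ φ ∈ Φ j n,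
      ∀ x ∈ Metric.closedBall x₀ r, |φ x - ψ j x| ≤ ε)
    (hd : ∀ j, HasFDerivAt (ψ j) (ψ' j) x₀) :
    ∃ k : ℕ → ℕ, Tendsto k U atTop ∧ ∀ k' : ℕ → ℕ, Tendsto k' U atTop →
      (∀ᶠ n in (U : Filter ℕ), k' n ≤ k n) → ∀ (j : ℕ) (C ε : ℝ), 0 < ε →
        ∀ᶠ n in (U : Filter ℕ), ∀ φ ∈ Φ j n, ∀ v : E, ‖v‖ ≤ C →
          |(φ (x₀ + (1 / ((k' n : ℝ) + 1)) • v) - φ x₀) / (1 / ((k' n : ℝ) + 1)) - ψ' j v| ≤ ε := by
  obtain ⟨k, hk, hk2⟩ := exists_diag
    (fun m n => ∀ j ≤ m, ∀ φ ∈ Φ j n, ∀ x ∈ Metric.closedBall x₀ r,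
      |φ x - ψ j x| ≤ 1 / ((m : ℝ) + 1) ^ 2) (by
    intro m
    have : ∀ᶠ n in (U : Filter ℕ), ∀ j ∈ Finset.range (m + 1), ∀ φ ∈ Φ j n,
        ∀ x ∈ Metric.closedBall x₀ r, |φ x - ψ j x| ≤ 1 / ((m : ℝ) + 1) ^ 2 := by
      rw [Filter.eventually_all_finset]
      intro j _
      exact hΦ j _ (by positivity)
    filter_upwards [this] with n hn j hj
    exact hn j (Finset.mem_range.2 (Nat.lt_succ_of_le hj)))
  refine ⟨k, hk, fun k' hk' hle j C ε hε => ?_⟩
  set C' : ℝ := max C 1 with hC'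
  have hC'p : 0 < C' := lt_of_lt_of_le one_pos (le_max_right _ _)
  have hdj := (hd j).isLittleO
  rw [Asymptotics.isLittleO_iff] at hdj
  have hdj2 := hdj (c := ε / (2 * C')) (by positivity)
  rw [Metric.eventually_nhds_iff] at hdj2
  obtain ⟨ρ, hρ, hdj3⟩ := hdj2
  have hw : Tendsto (fun n => 1 / ((k' n : ℝ) + 1)) U (𝓝 0) :=
    tendsto_one_div_add_atTop_nhds_zero_nat.comp hk'
  have hmin : 0 < min (ε / 4) (min r ρ / (2 * C')) := by
    have : 0 < min r ρ := lt_min hr hρ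
    positivity
  have hw2 := hw.eventually_lt_const hmin
  have hj2 : ∀ᶠ n in (U : Filter ℕ), j ≤ k' n := hk'.eventually_ge_atTop j
  filter_upwards [hk2, hle, hw2, hj2] with n h1 h2 h3 h4 φ hφ v hv
  set w : ℝ := 1 / ((k' n : ℝ) + 1) with hwdef
  have hwp : 0 < w := by positivity
  have hv' : ‖v‖ ≤ C' := hv.trans (le_max_left _ _)
  have hw4 : w ≤ ε / 4 := (h3.trans_le (min_le_left _ _)).le
  have hw5 : w < min r ρ / (2 * C') := h3.trans_le (min_le_right _ _)
  have hwv : ‖w • v‖ < min r ρ := by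
    rw [norm_smul, Real.norm_of_nonneg hwp.le]
    have hm : 0 < min r ρ := lt_min hr hρ
    calc w * ‖v‖ ≤ w * C' := by gcongr
      _ ≤ (min r ρ / (2 * C')) * C' := by gcongr
      _ = min r ρ / 2 := by field_simp
      _ < min r ρ := by linarith
  have hx : x₀ + w • v ∈ Metric.closedBall x₀ r := by
    rw [Metric.mem_closedBall, dist_eq_norm]
    simpa using (hwv.le.trans (min_le_left _ _))
  have hx0 : x₀ ∈ Metric.closedBall x₀ r := Metric.mem_closedBall_self hr.le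
  have a1 := h1 (k' n) h2 j h4 φ hφ _ hx
  have a2 := h1 (k' n) h2 j h4 φ hφ _ hx0
  have hww : 1 / ((k' n : ℝ) + 1) ^ 2 = w ^ 2 := by rw [hwdef, one_div_pow]
  rw [hww] at a1 a2
  have a3 := hdj3 (y := x₀ + w • v) (by
    rw [dist_eq_norm]; simpa using (hwv.trans_le (min_le_right _ _)))
  have hsub : x₀ + w • v - x₀ = w • v := by abel
  rw [hsub, Real.norm_eq_abs, norm_smul, Real.norm_of_nonneg hwp.le, map_smul, smul_eq_mul] at a3
  have a4 : |ψ j (x₀ + w • v) - ψ j x₀ - w * ψ' j v| ≤ w * (ε / 2) := by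
    refine a3.trans ?_
    calc ε / (2 * C') * (w * ‖v‖) ≤ ε / (2 * C') * (w * C') := by gcongr
      _ = w * (ε / 2) := by field_simp
  have key : |φ (x₀ + w • v) - φ x₀ - w * ψ' j v| ≤ 2 * w ^ 2 + w * (ε / 2) := by
    have : φ (x₀ + w • v) - φ x₀ - w * ψ' j v =
        (φ (x₀ + w • v) - ψ j (x₀ + w • v)) + -(φ x₀ - ψ j x₀) +
          (ψ j (x₀ + w • v) - ψ j x₀ - w * ψ' j v) := by ring
    rw [this]
    refine (abs_add_three _ _ _).trans ?_
    rw [abs_neg]
    linarith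
  have : (φ (x₀ + w • v) - φ x₀) / w - ψ' j v =
      (φ (x₀ + w • v) - φ x₀ - w * ψ' j v) / w := by
    field_simp
  rw [this, abs_div, abs_of_pos hwp, div_le_iff₀ hwp]
  refine key.trans ?_
  nlinarith

section ZoomProfile

open Finset

variable {B : Base} {ι : ℕ → Type*} [∀ n, DecidableEq (ι n)]

/-- **Zoom for profiles.** Countably many profiles `ν j` (of the same sets `I n`, w.r.t. families
`f j`), all differentiable at the interior point `x₀`; countably many sub-polynomial losses. For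
every sufficiently slow `k'` and `w = 1/(k'+1)` there is a new base `d' = d^w` in which the losses
are still sub-polynomial and the class sizes satisfy
`|cls (x₀ + w v)| = |cls x₀| * d'^(-(ν' j v) + o(1))`, uniformly for `|v| ≤ C` and over ALL `i`. -/
theorem exists_zoom_profile {V : Type*} [NormedAddCommGroup V] [NormedSpace ℝ V]
    {κ : ℕ → ℕ → Type*} [∀ j n, DecidableEq (κ j n)] {x₀ : V} {r : ℝ} (hr : 0 < r)
    (I : ∀ n, Finset (ι n)) (f : ∀ j n, V → ι n → κ j n) (ν : ℕ → V → ℝ) (ν' : ℕ → V →L[ℝ] ℝ)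
    (hν : ∀ j, IsProfile B I (f j) (Metric.closedBall x₀ r) (ν j))
    (hd : ∀ j, HasFDerivAt (ν j) (ν' j) x₀) (s : ℕ → ℕ → ℝ) (hs : ∀ i, B.Sub (s i)) :
    ∃ k : ℕ → ℕ, Tendsto k U atTop ∧ ∀ k' : ℕ → ℕ, Tendsto k' U atTop →
      (∀ᶠ n in (U : Filter ℕ), k' n ≤ k n) → ∃ B' : Base,
        (∀ n, B'.d n = B.d n ^ (1 / ((k' n : ℝ) + 1))) ∧
        (∀ n, B'.L n = 1 / ((k' n : ℝ) + 1) * B.L n) ∧
        (∀ i, B'.Sub (s i)) ∧
        ∀ (j : ℕ) (C ε : ℝ), 0 < ε → ∀ᶠ n in (U : Filter ℕ), ∀ v : V, ‖v‖ ≤ C → ∀ i ∈ I n,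
          |(Real.log ((cls (I n) (f j n (x₀ + (1 / ((k' n : ℝ) + 1)) • v)) i).card) -
            Real.log ((cls (I n) (f j n x₀) i).card)) / B'.L n - ν' j v| ≤ ε := by
  obtain ⟨k₁, hk₁, hk₁'⟩ := exists_zoom_set hr
    (fun j n => {φ | ∃ i ∈ I n, φ = fun p => Real.log ((cls (I n) (f j n p) i).card) / B.L n})
    ν ν' (by
      intro j ε hε
      filter_upwards [hν j ε hε] with n hn φ hφ x hx
      obtain ⟨i, hi, rfl⟩ := hφ
      exact hn x hx i hi) hd
  obtain ⟨k₂, hk₂, hk₂'⟩ := exists_speed B (fun i n => B.lg (s i) n)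
    (fun i => (Base.Sub.iff.1 (hs i)).2)
  refine ⟨fun n => min (k₁ n) (k₂ n), exists_min_speed hk₁ hk₂, fun k' hk' hle => ?_⟩
  obtain ⟨hL, hS⟩ := hk₂' k' hk' (hle.mono fun n hn => hn.trans (min_le_right _ _))
  have hz := hk₁' k' hk' (hle.mono fun n hn => hn.trans (min_le_left _ _))
  have hw : ∀ n, (0 : ℝ) < 1 / ((k' n : ℝ) + 1) := fun n => by positivity
  refine ⟨B.chg (fun n => 1 / ((k' n : ℝ) + 1)) hw hL, fun n => rfl, fun n => Base.chg_L _ hw hL n,
    fun i => ?_, fun j C ε hε => ?_⟩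
  · rw [Base.Sub.iff]
    refine ⟨(hs i).1.pos, (hS i).congr fun n => ?_⟩
    rw [Base.chg_lg]
  · filter_upwards [hz j C ε hε] with n hn v hv i hi
    have h1 := hn _ ⟨i, hi, rfl⟩ v hv
    rw [Base.chg_L]
    have hL0 := B.L_pos n
    have hw0 := hw n
    convert h1 using 3
    field_simp

end ZoomProfile

/-! ### coordinate boxes -/

section Coord

open Finset

variable {m : ℕ}

/-- dyadic cell of level `K j` in the coordinate `j` -/
noncomputable def dcell (K : Fin m → ℕ) (x : Fin m → ℝ) : Fin m → ℤ :=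
  fun j => ⌊x j * 2 ^ (K j)⌋

theorem dcell_coarse {K K' : Fin m → ℕ} (h : K ≤ K') (x : Fin m → ℝ) (j : Fin m) :
    dcell K x j = dcell K' x j / (2 ^ (K' j - K j) : ℕ) := by
  simp only [dcell]
  have h0 : K j ≤ K' j := h j
  have h1 : K' j = K j + (K' j - K j) := by omega
  rw [← Int.floor_div_natCast]
  congr 1
  push_cast
  rw [eq_div_iff (by positivity), mul_assoc, ← pow_add, ← h1]

theorem dcell_nest {K K' : Fin m → ℕ} (h : K ≤ K') {x y : Fin m → ℝ} (he : dcell K' x = dcell K' y) :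
    dcell K x = dcell K y := by
  funext j
  rw [dcell_coarse h, dcell_coarse h, he]

theorem dcell_sup {K K' : Fin m → ℕ} {x y : Fin m → ℝ} (h : dcell K x = dcell K y)
    (h' : dcell K' x = dcell K' y) : dcell (K ⊔ K') x = dcell (K ⊔ K') y := by
  funext j
  rcases le_total (K j) (K' j) with hj | hj
  · have := congrFun h' j
    simp only [dcell, Pi.sup_apply, sup_eq_right.2 hj] at this ⊢
    exact this
  · have := congrFun h j
    simp only [dcell, Pi.sup_apply, sup_eq_left.2 hj] at this ⊢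
    exact this

/-- number of sub-cells of a cell -/
theorem card_dcell_le {α : Type*} [DecidableEq α] {K K' : Fin m → ℕ} (h : K ≤ K')
    (A : Finset α) (x : α → Fin m → ℝ) (hA : ∀ i ∈ A, ∀ i' ∈ A, dcell K (x i) = dcell K (x i')) :
    (A.image fun i => dcell K' (x i)).card ≤ 2 ^ ∑ j, (K' j - K j) := by
  classical
  rcases A.eq_empty_or_nonempty with rfl | ⟨i₀, hi₀⟩
  · simp
  set z : Fin m → ℤ := dcell K (x i₀) with hz
  set T : Finset (Fin m → ℤ) := Fintype.piFinset fun j =>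
    Finset.Ico (z j * (2 ^ (K' j - K j) : ℕ)) ((z j + 1) * (2 ^ (K' j - K j) : ℕ)) with hT
  have hsub : (A.image fun i => dcell K' (x i)) ⊆ T := by
    intro c hc
    obtain ⟨i, hi, rfl⟩ := mem_image.1 hc
    rw [hT, Fintype.mem_piFinset]
    intro j
    have h1 : dcell K' (x i) j / (2 ^ (K' j - K j) : ℕ) = z j := by
      rw [← dcell_coarse h, hA i hi i₀ hi₀]
    have h2 : (0 : ℤ) < (2 ^ (K' j - K j) : ℕ) := by positivity
    rw [Finset.mem_Ico]
    constructor
    · rw [← h1]; exact Int.ediv_mul_le _ h2.ne'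
    · rw [← h1]; exact Int.lt_ediv_add_one_mul_self _ h2
  refine (card_le_card hsub).trans (le_of_eq ?_)
  rw [hT, Fintype.card_piFinset]
  rw [← Finset.prod_pow_eq_pow_sum]
  refine prod_congr rfl fun j _ => ?_
  rw [Int.card_Ico]
  have : (z j + 1) * ((2 ^ (K' j - K j) : ℕ) : ℤ) - z j * ((2 ^ (K' j - K j) : ℕ) : ℤ) =
      ((2 ^ (K' j - K j) : ℕ) : ℤ) := by ring
  rw [this, Int.toNat_natCast]

/-- dyadic level of the scale `d ^ t` -/
noncomputable def Base.lev (B : Base) (n : ℕ) (t : ℝ) : ℕ := ⌊t * B.L n / Real.log 2⌋₊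

theorem Base.lev_mono (B : Base) (n : ℕ) : Monotone (B.lev n) := by
  intro s t h
  refine Nat.floor_le_floor ?_
  have h1 := B.L_pos n
  have h2 : 0 < Real.log 2 := Real.log_pos (by norm_num)
  gcongr

theorem Base.pow_lev_le (B : Base) (n : ℕ) {t : ℝ} (ht : 0 ≤ t) :
    (2 : ℝ) ^ (B.lev n t) ≤ B.d n ^ (-t) := by
  have h1 := B.L_pos n
  have h2 : 0 < Real.log 2 := Real.log_pos (by norm_num)
  have h3 : ((B.lev n t : ℕ) : ℝ) ≤ t * B.L n / Real.log 2 := Nat.floor_le (by positivity)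
  have h4 : ((B.lev n t : ℕ) : ℝ) * Real.log 2 ≤ t * B.L n := by
    rwa [le_div_iff₀ h2] at h3
  have h5 : B.d n ^ (-t) = Real.exp (t * B.L n) := by
    rw [Real.rpow_def_of_pos (B.pos n)]; congr 1; simp only [Base.L]; ring
  rw [h5, ← Real.rpow_natCast, Real.rpow_def_of_pos (by norm_num)]
  exact Real.exp_le_exp.2 (by linarith)

theorem Base.lt_pow_lev (B : Base) (n : ℕ) (t : ℝ) :
    B.d n ^ (-t) < 2 ^ (B.lev n t + 1) := by
  have h1 := B.L_pos n
  have h2 : 0 < Real.log 2 := Real.log_pos (by norm_num)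
  have h3 : t * B.L n / Real.log 2 < ((B.lev n t : ℕ) : ℝ) + 1 := Nat.lt_floor_add_one _
  have h4 : t * B.L n < (((B.lev n t : ℕ) : ℝ) + 1) * Real.log 2 := by
    rwa [div_lt_iff₀ h2] at h3
  have h5 : B.d n ^ (-t) = Real.exp (t * B.L n) := by
    rw [Real.rpow_def_of_pos (B.pos n)]; congr 1; simp only [Base.L]; ring
  rw [h5]
  have h6 : (2 : ℝ) ^ (B.lev n t + 1) = Real.exp ((((B.lev n t : ℕ) : ℝ) + 1) * Real.log 2) := by
    rw [← Real.rpow_natCast, Real.rpow_def_of_pos (by norm_num)]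
    congr 1; push_cast; ring
  rw [h6]
  exact Real.exp_lt_exp.2 h4

variable (B : Base) {ι γ : ℕ → Type*} [∀ n, DecidableEq (ι n)] [∀ n, DecidableEq (γ n)]

/-- the coordinate family: label `g` and dyadic cells of side `≈ d ^ p j` of the coordinates `x`. -/
noncomputable def cfam (g : ∀ n, ι n → γ n) (x : ∀ n, ι n → Fin m → ℝ) (n : ℕ) (p : Fin m → ℝ)
    (i : ι n) : γ n × (Fin m → ℤ) :=
  (g n i, dcell (fun j => B.lev n (p j)) (x n i))

theorem cfam_PFam (I : ∀ n, Finset (ι n)) (g : ∀ n, ι n → γ n) (x : ∀ n, ι n → Fin m → ℝ)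
    (a b : Fin m → ℝ) (ha : ∀ j, 0 ≤ a j) :
    PFam B I (cfam B g x) (m : ℝ) (Set.Icc a b) where
  nest := Eventually.of_forall fun n p hp p' hp' hpp i _ i' _ h => by
    simp only [cfam, Prod.mk.injEq] at h ⊢
    exact ⟨h.1, dcell_nest (fun j => B.lev_mono n (hpp j)) h.2⟩
  child := fun ε hε => by
    have h2log : ∀ᶠ n in (U : Filter ℕ), (m : ℝ) * Real.log 2 ≤ ε * B.L n := by
      filter_upwards [B.ev_L_ge (m * Real.log 2 / ε)] with n hn
      rw [div_le_iff₀ hε] at hn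
      linarith
    filter_upwards [h2log] with n hn p hp p' hp' hpp i hi
    set K : Fin m → ℕ := fun j => B.lev n (p j) with hK
    set K' : Fin m → ℕ := fun j => B.lev n (p' j) with hK'
    have hKK : K ≤ K' := fun j => B.lev_mono n (hpp j)
    have h1 : ((cls (I n) (cfam B g x n p) i).image (cfam B g x n p')).card ≤
        ((cls (I n) (cfam B g x n p) i).image fun i => dcell K' (x n i)).card := by
      refine card_image_le_card_image _ _ _ fun u hu v hv huv => ?_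
      have hu2 := (mem_cls.1 hu).2
      have hv2 := (mem_cls.1 hv).2
      simp only [cfam, Prod.mk.injEq] at hu2 hv2 ⊢
      exact ⟨hu2.1.trans hv2.1.symm, huv⟩
    have h2 := card_dcell_le (m := m) hKK (cls (I n) (cfam B g x n p) i) (x n) (by
      intro u hu v hv
      have hu2 := (mem_cls.1 hu).2
      have hv2 := (mem_cls.1 hv).2
      simp only [cfam, Prod.mk.injEq] at hu2 hv2
      exact hu2.2.trans hv2.2.symm)
    have h3 : (((cls (I n) (cfam B g x n p) i).image (cfam B g x n p')).card : ℝ) ≤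
        2 ^ ∑ j, (K' j - K j) := by exact_mod_cast h1.trans h2
    refine h3.trans ?_
    have hL := B.L_pos n
    have hl2 : 0 < Real.log 2 := Real.log_pos (by norm_num)
    have h5 : ∀ t : ℝ, B.d n ^ (-t) = Real.exp (t * B.L n) := by
      intro t
      rw [Real.rpow_def_of_pos (B.pos n)]; congr 1; simp only [Base.L]; ring
    rw [h5, ← Real.rpow_natCast, Real.rpow_def_of_pos (by norm_num)]
    refine Real.exp_le_exp.2 ?_
    have h6 : ∀ j, ((K' j - K j : ℕ) : ℝ) * Real.log 2 ≤ ‖p' - p‖ * B.L n + Real.log 2 := by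
      intro j
      have e1 : ((K' j - K j : ℕ) : ℝ) = (K' j : ℝ) - K j := by
        rw [Nat.cast_sub (hKK j)]
      have p0 : 0 ≤ p' j := (ha j).trans (hp'.1 j)
      have e2 : ((K' j : ℕ) : ℝ) ≤ p' j * B.L n / Real.log 2 := Nat.floor_le (by positivity)
      have e3 : p j * B.L n / Real.log 2 < ((K j : ℕ) : ℝ) + 1 := Nat.lt_floor_add_one _
      rw [le_div_iff₀ hl2] at e2
      rw [div_lt_iff₀ hl2] at e3
      have e4 : p' j - p j ≤ ‖p' - p‖ := by
        have := norm_le_pi_norm (p' - p) j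
        rw [Pi.sub_apply, Real.norm_eq_abs] at this
        exact (le_abs_self _).trans this
      rw [e1]
      nlinarith
    push_cast
    rw [mul_comm, Finset.sum_mul]
    calc ∑ j, ((K' j - K j : ℕ) : ℝ) * Real.log 2 ≤ ∑ _j : Fin m, (‖p' - p‖ * B.L n + Real.log 2) :=
          sum_le_sum fun j _ => h6 j
      _ = m * (‖p' - p‖ * B.L n) + m * Real.log 2 := by
          rw [sum_const, card_univ, Fintype.card_fin, nsmul_eq_mul]; ring
      _ ≤ (m * ‖p' - p‖ + ε) * B.L n := by linarith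

theorem cfam_PJoin (I : ∀ n, Finset (ι n)) (g : ∀ n, ι n → γ n) (x : ∀ n, ι n → Fin m → ℝ)
    (P : Set (Fin m → ℝ)) : PJoin I (cfam B g x) P :=
  Eventually.of_forall fun n p hp q hq i _ i' _ h h' => by
    simp only [cfam, Prod.mk.injEq] at h h' ⊢
    refine ⟨h.1, ?_⟩
    have e : (fun j => B.lev n ((p ⊔ q) j)) = (fun j => B.lev n (p j)) ⊔ fun j => B.lev n (q j) := by
      funext j
      simp only [Pi.sup_apply]
      exact (B.lev_mono n).map_sup _ _
    rw [e]
    exact dcell_sup h.2 h'.2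

end Coord

end Crest.Agent.R138.Ex926
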