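import Mathlib

/-! # R138: Kaufman type estimates (double counting), all forms (helper187)

* `pairs_le`      : abstract pair kernel with classes;
* `kaufman_abs`   : exponent form for an abstract "distance" and an abstract relation `close`;
* `kaufman`       : planar, multi-scale, no exponents (projections `n + t z * c`);
* `kaufman_energy`, `kaufman_delta` : planar exponent forms;
* `kaufman_labels`: any labels, any relation: Cauchy-Schwarz. -/

set_option autoImplicit false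

namespace Crest.Agent.R138.Pl187

open Finset Real

section

variable {ι κ β : Type*}

/-- **abstract pair kernel**. -/
theorem pairs_le (I' : Finset ι) (w : ι → ℝ) (J : Finset κ) (v : κ → ℝ)
    (close : κ → ι → ι → Prop) [∀ z i j, Decidable (close z i j)] (G : ι → ι → ℝ)
    (hw : ∀ i ∈ I', 0 ≤ w i)
    (hg : ∀ i ∈ I', ∀ j ∈ I', ∑ z ∈ J with close z i j, v z ≤ G i j) :
    ∑ z ∈ J, v z * ∑ i ∈ I', ∑ j ∈ I' with close z i j, w i * w j
      ≤ ∑ i ∈ I', w i * ∑ j ∈ I', w j * G i j := by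
  classical
  have h1 : ∑ z ∈ J, v z * ∑ i ∈ I', ∑ j ∈ I' with close z i j, w i * w j =
      ∑ i ∈ I', w i * ∑ j ∈ I', w j * ∑ z ∈ J with close z i j, v z := by
    simp_rw [Finset.sum_filter, Finset.mul_sum]
    rw [Finset.sum_comm]
    refine Finset.sum_congr rfl fun i _ => ?_
    rw [Finset.sum_comm]
    refine Finset.sum_congr rfl fun j _ => ?_
    refine Finset.sum_congr rfl fun z _ => ?_
    split_ifs <;> ring
  rw [h1]
  refine Finset.sum_le_sum fun i hi => mul_le_mul_of_nonneg_left ?_ (hw i hi)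
  exact Finset.sum_le_sum fun j hj => mul_le_mul_of_nonneg_left (hg i hi j hj) (hw j hj)

/-- classes: `∑_j w_j G_ij ≤ ∑_k f_k g_k` -/
theorem sum_classes_le (I' : Finset ι) (w : ι → ℝ) (L : ℕ) (cls : ι → ℕ) (f g : ℕ → ℝ) (G : ι → ℝ)
    (hw : ∀ j ∈ I', 0 ≤ w j) (hg0 : ∀ k ≤ L, 0 ≤ g k)
    (hcls : ∀ j ∈ I', 0 < G j → cls j ≤ L)
    (hf : ∀ k ≤ L, ∑ j ∈ I' with cls j = k, w j ≤ f k)
    (hG : ∀ j ∈ I', 0 < G j → G j ≤ g (cls j)) :
    ∑ j ∈ I', w j * G j ≤ ∑ k ∈ Finset.range (L + 1), f k * g k := by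
  classical
  have h1 : ∑ j ∈ I', w j * G j ≤ ∑ j ∈ I' with cls j ≤ L, w j * g (cls j) := by
    rw [Finset.sum_filter]
    refine Finset.sum_le_sum fun j hj => ?_
    by_cases h0 : 0 < G j
    · rw [if_pos (hcls j hj h0)]
      exact mul_le_mul_of_nonneg_left (hG j hj h0) (hw j hj)
    · push Not at h0
      refine (mul_nonpos_of_nonneg_of_nonpos (hw j hj) h0).trans ?_
      split_ifs with h
      · exact mul_nonneg (hw j hj) (hg0 _ h)
      · exact le_rfl
  refine h1.trans ?_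
  have h2 : ∑ j ∈ I' with cls j ≤ L, w j * g (cls j) =
      ∑ k ∈ Finset.range (L + 1), ∑ j ∈ (I'.filter fun j => cls j ≤ L) with cls j = k,
        w j * g (cls j) := by
    refine (Finset.sum_fiberwise_of_maps_to (fun j hj => ?_) _).symm
    rw [Finset.mem_range]
    have := (Finset.mem_filter.1 hj).2
    omega
  rw [h2]
  refine Finset.sum_le_sum fun k hk => ?_
  have hkL : k ≤ L := by
    have := Finset.mem_range.1 hk
    omega
  have h3 : ∑ j ∈ (I'.filter fun j => cls j ≤ L) with cls j = k, w j * g (cls j) =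
      (∑ j ∈ I' with cls j = k, w j) * g k := by
    rw [Finset.filter_filter, Finset.sum_mul]
    refine Finset.sum_congr ?_ ?_
    · ext j
      simp only [Finset.mem_filter]
      constructor
      · rintro ⟨h4, h5, h6⟩; exact ⟨h4, h6⟩
      · rintro ⟨h4, h6⟩; exact ⟨h4, by omega, h6⟩
    · intro j hj
      rw [(Finset.mem_filter.1 hj).2]
  rw [h3]
  exact mul_le_mul_of_nonneg_right (hf k hkL) (hg0 k hkL)

/-- dyadic level of a number `1 ≤ x` -/
theorem exists_lvl {x : ℝ} (hx : 1 ≤ x) : ∃ m : ℕ, (2 : ℝ) ^ m ≤ x ∧ x < (2 : ℝ) ^ (m + 1) :=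
  exists_nat_pow_near hx (by norm_num)

/-- **Kaufman, abstract exponent form.** `D` = distance of the objects, `close z i j` = the objects
have the same image at `z`. -/
theorem kaufman_abs (I' : Finset ι) (w : ι → ℝ) (J : Finset κ) (v : κ → ℝ) (D : ι → ι → ℝ)
    (close : κ → ι → ι → Prop) [∀ z i j, Decidable (close z i j)] (δ A B α σ K : ℝ)
    (hδ : 0 < δ) (hδK : δ ≤ K) (hA : 0 ≤ A) (hB : 0 ≤ B) (hα : 0 ≤ α) (hσ : 0 ≤ σ) (hK : 1 ≤ K)
    (hw : ∀ i ∈ I', 0 ≤ w i) (hv : ∀ z ∈ J, 0 ≤ v z)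
    (hf : ∀ r, δ ≤ r → r ≤ K → ∀ i ∈ I', ∑ j ∈ I' with D i j ≤ r, w j ≤ A * r ^ α * ∑ i ∈ I', w i)
    (hD : ∀ i ∈ I', ∀ j ∈ I', ∀ z ∈ J, close z i j → D i j ≤ K)
    (hg : ∀ i ∈ I', ∀ j ∈ I', ∑ z ∈ J with close z i j, v z ≤
      B * (δ / max δ (D i j)) ^ σ * ∑ z ∈ J, v z) :
    ∑ z ∈ J, v z * ∑ i ∈ I', ∑ j ∈ I' with close z i j, w i * w j
      ≤ (2 * K) ^ α * (1 + 2 * log (K / δ)) * A * B * δ ^ (min α σ) *
        ((∑ i ∈ I', w i) ^ 2 * ∑ z ∈ J, v z) := by
  classical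
  set W := ∑ i ∈ I', w i with hW
  set V := ∑ z ∈ J, v z with hV
  have hW0 : 0 ≤ W := Finset.sum_nonneg hw
  have hV0 : 0 ≤ V := Finset.sum_nonneg hv
  have hK0 : 0 < K := lt_of_lt_of_le one_pos hK
  -- the level of a pair
  have hx : ∀ i j, 1 ≤ max δ (D i j) / δ := fun i j => by
    rw [le_div_iff₀ hδ, one_mul]; exact le_max_left _ _
  choose m hm1 hm2 using fun i j => exists_lvl (hx i j)
  set L : ℕ := ⌊log (K / δ) / log 2⌋₊ with hL
  have hKδ : 1 ≤ K / δ := by rw [le_div_iff₀ hδ, one_mul]; exact hδK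
  have hlog2 : 0 < log 2 := Real.log_pos (by norm_num)
  have hL1 : (L : ℝ) ≤ 2 * log (K / δ) := by
    have h1 : (L : ℝ) ≤ log (K / δ) / log 2 :=
      Nat.floor_le (div_nonneg (Real.log_nonneg hKδ) hlog2.le)
    refine h1.trans ?_
    rw [div_le_iff₀ hlog2]
    have h2 : (0.6931471803 : ℝ) < log 2 := Real.log_two_gt_d9
    nlinarith [Real.log_nonneg hKδ]
  have hmL : ∀ i j, D i j ≤ K → m i j ≤ L := by
    intro i j hij
    refine Nat.le_floor ?_
    rw [le_div_iff₀ hlog2]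
    have h1 : (2 : ℝ) ^ m i j ≤ K / δ :=
      (hm1 i j).trans (div_le_div_of_nonneg_right (max_le hδK hij) hδ.le)
    have h2 := Real.log_le_log (by positivity) h1
    rwa [Real.log_pow] at h2
  have h2L : (2 : ℝ) ^ L ≤ K / δ := by
    have h1 : (L : ℝ) * log 2 ≤ log (K / δ) := by
      rw [← le_div_iff₀ hlog2]
      exact Nat.floor_le (div_nonneg (Real.log_nonneg hKδ) hlog2.le)
    rw [← Real.log_pow] at h1
    exact (Real.log_le_log_iff (by positivity) (by positivity)).1 h1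
  set f : ℕ → ℝ := fun k => A * (2 ^ (k + 1) * δ) ^ α * W with hf'
  set g : ℕ → ℝ := fun k => B * ((1 / 2 : ℝ) ^ k) ^ σ * V with hg'
  have key : ∀ i ∈ I', ∑ j ∈ I', w j * (∑ z ∈ J with close z i j, v z) ≤
      ∑ k ∈ Finset.range (L + 1), f k * g k := by
    intro i hi
    have hclose : ∀ j ∈ I', 0 < ∑ z ∈ J with close z i j, v z → D i j ≤ K := by
      intro j hj hpos
      obtain ⟨z, hz, -⟩ := Finset.exists_ne_zero_of_sum_ne_zero hpos.ne'
      obtain ⟨hz1, hz2⟩ := Finset.mem_filter.1 hz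
      exact hD i hi j hj z hz1 hz2
    refine sum_classes_le I' w L (fun j => if D i j ≤ K then m i j else L + 1) f g
      (fun j => ∑ z ∈ J with close z i j, v z) hw (fun k _ => by positivity) ?_ ?_ ?_
    · intro j hj hpos
      have := hclose j hj hpos
      rw [if_pos this]
      exact hmL i j this
    · intro k hk
      have h1 : δ ≤ min (2 ^ (k + 1) * δ) K := by
        refine le_min ?_ hδK
        have : (1 : ℝ) ≤ 2 ^ (k + 1) := one_le_pow₀ (by norm_num)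
        nlinarith
      have hle : min (2 ^ (k + 1) * δ) K ≤ 2 ^ (k + 1) * δ := min_le_left _ _
      have hpos : 0 < min (2 ^ (k + 1) * δ) K := hδ.trans_le h1
      refine le_trans ?_ ((hf (min (2 ^ (k + 1) * δ) K) h1 (min_le_right _ _) i hi).trans ?_)
      · refine Finset.sum_le_sum_of_subset_of_nonneg ?_ fun j hj _ => hw j (Finset.mem_filter.1 hj).1
        intro j hj
        obtain ⟨hj1, hj2⟩ := Finset.mem_filter.1 hj
        refine Finset.mem_filter.2 ⟨hj1, ?_⟩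
        by_cases hDK : D i j ≤ K
        · rw [if_pos hDK] at hj2
          have h2 := hm2 i j
          rw [hj2, div_lt_iff₀ hδ] at h2
          exact le_min ((le_max_right _ _).trans h2.le) hDK
        · rw [if_neg hDK] at hj2
          omega
      · refine mul_le_mul_of_nonneg_right (mul_le_mul_of_nonneg_left ?_ hA) hW0
        exact Real.rpow_le_rpow hpos.le hle hα
    · intro j hj hpos
      have hDK := hclose j hj hpos
      rw [if_pos hDK]
      refine (hg i hi j hj).trans ?_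
      refine mul_le_mul_of_nonneg_right (mul_le_mul_of_nonneg_left ?_ hB) hV0
      refine Real.rpow_le_rpow (by positivity) ?_ hσ
      have h1 := hm1 i j
      rw [le_div_iff₀ hδ] at h1
      rw [div_le_iff₀ (by positivity)]
      calc δ = (1 / 2 : ℝ) ^ m i j * (2 ^ m i j * δ) := by
            rw [← mul_assoc, ← mul_pow]; norm_num
        _ ≤ _ := mul_le_mul_of_nonneg_left h1 (by positivity)
  -- one class
  have hclass : ∀ k ∈ Finset.range (L + 1), f k * g k ≤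
      (2 * K) ^ α * A * B * δ ^ (min α σ) * (W * V) := by
    intro k hk
    have hkL : k ≤ L := by
      have := Finset.mem_range.1 hk
      omega
    have hk2 : (2 : ℝ) ^ k ≤ K / δ := (pow_le_pow_right₀ (by norm_num) hkL).trans h2L
    rw [le_div_iff₀ hδ] at hk2
    have e1 : f k * g k = A * B * ((2 ^ (k + 1) * δ) ^ α * ((1 / 2 : ℝ) ^ k) ^ σ) * (W * V) := by
      rw [hf', hg']; ring
    rw [e1]
    have hWV : 0 ≤ W * V := mul_nonneg hW0 hV0
    have e2 : (2 ^ (k + 1) * δ) ^ α * ((1 / 2 : ℝ) ^ k) ^ σ ≤ (2 * K) ^ α * δ ^ (min α σ) := by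
      have h2k : (0 : ℝ) < 2 ^ k := by positivity
      have e3 : ((1 / 2 : ℝ) ^ k) ^ σ = (2 ^ k * δ) ^ (-σ) * δ ^ σ := by
        rw [Real.mul_rpow h2k.le hδ.le, Real.rpow_neg h2k.le, Real.rpow_neg hδ.le, one_div, inv_pow,
          Real.inv_rpow h2k.le]
        have : δ ^ σ ≠ 0 := (Real.rpow_pos_of_pos hδ _).ne'
        field_simp
      have e4 : (2 ^ (k + 1) * δ : ℝ) = 2 * (2 ^ k * δ) := by rw [pow_succ]; ring
      have hx0 : 0 < (2 : ℝ) ^ k * δ := by positivity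
      have hx1 : δ ≤ 2 ^ k * δ := by
        have : (1 : ℝ) ≤ 2 ^ k := one_le_pow₀ (by norm_num)
        nlinarith
      rw [e3, e4, Real.mul_rpow (by norm_num) hx0.le, Real.mul_rpow (by norm_num) hK0.le]
      have e5 : 2 ^ α * (2 ^ k * δ) ^ α * ((2 ^ k * δ) ^ (-σ) * δ ^ σ) =
          2 ^ α * ((2 ^ k * δ) ^ (α - σ) * δ ^ σ) := by
        have : (2 ^ k * δ : ℝ) ^ (α - σ) = (2 ^ k * δ) ^ α * (2 ^ k * δ) ^ (-σ) := by
          rw [← Real.rpow_add hx0]; congr 1
        rw [this]; ring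
      rw [e5, mul_assoc]
      refine mul_le_mul_of_nonneg_left ?_ (by positivity)
      rcases le_total σ α with h | h
      · rw [min_eq_right h]
        refine mul_le_mul_of_nonneg_right ?_ (Real.rpow_nonneg hδ.le _)
        calc (2 ^ k * δ : ℝ) ^ (α - σ) ≤ K ^ (α - σ) :=
              Real.rpow_le_rpow hx0.le hk2 (by linarith)
          _ ≤ K ^ α := Real.rpow_le_rpow_of_exponent_le hK (by linarith)
      · rw [min_eq_left h]
        have h3 : (2 ^ k * δ : ℝ) ^ (α - σ) ≤ δ ^ (α - σ) := by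
          have : α - σ = -(σ - α) := by ring
          rw [this, Real.rpow_neg hx0.le, Real.rpow_neg hδ.le]
          exact inv_anti₀ (Real.rpow_pos_of_pos hδ _) (Real.rpow_le_rpow hδ.le hx1 (by linarith))
        calc (2 ^ k * δ : ℝ) ^ (α - σ) * δ ^ σ ≤ δ ^ (α - σ) * δ ^ σ :=
              mul_le_mul_of_nonneg_right h3 (Real.rpow_nonneg hδ.le _)
          _ = 1 * δ ^ α := by rw [← Real.rpow_add hδ, one_mul]; congr 1; ring
          _ ≤ K ^ α * δ ^ α :=
              mul_le_mul_of_nonneg_right (Real.one_le_rpow hK hα) (Real.rpow_nonneg hδ.le _)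
    calc A * B * ((2 ^ (k + 1) * δ) ^ α * ((1 / 2 : ℝ) ^ k) ^ σ) * (W * V)
        ≤ A * B * ((2 * K) ^ α * δ ^ (min α σ)) * (W * V) :=
          mul_le_mul_of_nonneg_right (mul_le_mul_of_nonneg_left e2 (mul_nonneg hA hB)) hWV
      _ = _ := by ring
  refine (pairs_le I' w J v close (fun i j => ∑ z ∈ J with close z i j, v z) hw
    (fun i _ j _ => le_rfl)).trans ?_
  set T : ℝ := (2 * K) ^ α * A * B * δ ^ (min α σ) * (W * V) with hT
  have hT0 : 0 ≤ T := by positivity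
  have h1 : ∀ i ∈ I', w i * ∑ j ∈ I', w j * (∑ z ∈ J with close z i j, v z) ≤
      w i * ((L + 1) * T) := by
    intro i hi
    refine mul_le_mul_of_nonneg_left ((key i hi).trans ?_) (hw i hi)
    refine (Finset.sum_le_sum hclass).trans ?_
    rw [Finset.sum_const, Finset.card_range, nsmul_eq_mul]
    push_cast
    exact le_rfl
  refine (Finset.sum_le_sum h1).trans ?_
  rw [← Finset.sum_mul, ← hW]
  calc W * ((L + 1) * T) ≤ W * ((1 + 2 * log (K / δ)) * T) := by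
        refine mul_le_mul_of_nonneg_left (mul_le_mul_of_nonneg_right ?_ hT0) hW0
        linarith
    _ = _ := by rw [hT]; ring

/-- **Kaufman, planar, energy form.** -/
theorem kaufman_energy (I' : Finset ι) (w n c : ι → ℝ) (J : Finset κ) (v t : κ → ℝ)
    (δ A B α σ : ℝ) (hδ : 0 < δ) (hδ1 : δ ≤ 1) (hA : 1 ≤ A) (hB : 1 ≤ B) (hα : 0 ≤ α) (hσ : 0 ≤ σ)
    (hw : ∀ i ∈ I', 0 ≤ w i) (hv : ∀ z ∈ J, 0 ≤ v z) (hc : ∀ i ∈ I', |c i| ≤ 1)
    (ht : ∀ z ∈ J, |t z| ≤ 1)
    (hf : ∀ r, δ ≤ r → r ≤ 1 → ∀ i ∈ I', ∑ j ∈ I' with |n j - n i| ≤ r ∧ |c j - c i| ≤ r, w j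
      ≤ A * r ^ α * ∑ i ∈ I', w i)
    (hg : ∀ r, δ ≤ r → r ≤ 1 → ∀ z ∈ J, ∑ z' ∈ J with |t z' - t z| ≤ r, v z' ≤ B * r ^ σ * ∑ z ∈ J, v z) :
    ∑ z ∈ J, v z * ∑ i ∈ I', ∑ j ∈ I' with |(n i - n j) + t z * (c i - c j)| ≤ δ, w i * w j
      ≤ 6 ^ α * 4 ^ σ * (1 + 2 * log (3 / δ)) * A * B * δ ^ (min α σ) *
        ((∑ i ∈ I', w i) ^ 2 * ∑ z ∈ J, v z) := by
  classical
  set W := ∑ i ∈ I', w i with hW
  set V := ∑ z ∈ J, v z with hV
  have hW0 : 0 ≤ W := Finset.sum_nonneg hw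
  have hV0 : 0 ≤ V := Finset.sum_nonneg hv
  have h := kaufman_abs I' w J v (fun i j => max |n j - n i| |c j - c i|)
    (fun z i j => |(n i - n j) + t z * (c i - c j)| ≤ δ) δ A (4 ^ σ * B) α σ 3 hδ (by linarith)
    (by linarith) (by positivity) hα hσ (by norm_num) hw hv ?_ ?_ ?_
  · refine h.trans (le_of_eq ?_)
    norm_num
    ring
  · intro r hr1 hr3 i hi
    by_cases hr : r ≤ 1
    · refine le_trans (le_of_eq ?_) (hf r hr1 hr i hi)
      refine Finset.sum_congr ?_ fun _ _ => rfl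
      ext j
      simp only [Finset.mem_filter, max_le_iff]
    · push Not at hr
      have h1 : ∑ j ∈ I' with max |n j - n i| |c j - c i| ≤ r, w j ≤ W :=
        Finset.sum_le_sum_of_subset_of_nonneg (Finset.filter_subset _ _) fun j hj _ => hw j hj
      refine h1.trans ?_
      have h2 : 1 ≤ r ^ α := Real.one_le_rpow hr.le hα
      have h3 : 1 ≤ A * r ^ α := by nlinarith
      calc W = 1 * W := (one_mul _).symm
        _ ≤ A * r ^ α * W := mul_le_mul_of_nonneg_right h3 hW0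
  · intro i hi j hj z hz hcl
    have h1 := hc i hi
    have h2 := hc j hj
    have h3 := ht z hz
    rw [abs_le] at h1 h2 hcl
    have h4 : |c j - c i| ≤ 2 := by rw [abs_le]; constructor <;> linarith [h1.1, h1.2, h2.1, h2.2]
    have h5 : |t z * (c i - c j)| ≤ 2 := by
      rw [abs_mul, abs_sub_comm (c i)]
      calc |t z| * |c j - c i| ≤ 1 * 2 := mul_le_mul h3 h4 (abs_nonneg _) (by norm_num)
        _ = 2 := by norm_num
    rw [abs_le] at h5
    refine max_le ?_ (by linarith)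
    rw [abs_le]
    constructor <;> linarith [h5.1, h5.2, hcl.1, hcl.2]
  · intro i hi j hj
    set D : ℝ := max |n j - n i| |c j - c i| with hDdef
    have hVle : ∑ z ∈ J with |(n i - n j) + t z * (c i - c j)| ≤ δ, v z ≤ V :=
      Finset.sum_le_sum_of_subset_of_nonneg (Finset.filter_subset _ _) fun z hz _ => hv z hz
    by_cases hDδ : D ≤ 4 * δ
    · refine hVle.trans ?_
      have h1 : (1 / 4 : ℝ) ≤ δ / max δ D := by
        have hm : 0 < max δ D := lt_max_of_lt_left hδ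
        rw [div_le_div_iff₀ (by norm_num) hm]
        have : max δ D ≤ 4 * δ := max_le (by linarith) hDδ
        linarith
      have h2 : (1 / 4 : ℝ) ^ σ ≤ (δ / max δ D) ^ σ := Real.rpow_le_rpow (by norm_num) h1 hσ
      have h3 : (4 : ℝ) ^ σ * (1 / 4) ^ σ = 1 := by
        rw [← Real.mul_rpow (by norm_num) (by norm_num)]; norm_num
      have h4 : 1 ≤ 4 ^ σ * B * (δ / max δ D) ^ σ := by
        calc (1 : ℝ) = B⁻¹ * (4 ^ σ * B * (1 / 4) ^ σ) := by
              have : B ≠ 0 := by positivity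
              have h5 : B⁻¹ * (4 ^ σ * B * (1 / 4) ^ σ) = B⁻¹ * B * (4 ^ σ * (1 / 4) ^ σ) := by ring
              rw [h5, h3, inv_mul_cancel₀ this, one_mul]
          _ ≤ 1 * (4 ^ σ * B * (1 / 4) ^ σ) := by
              refine mul_le_mul_of_nonneg_right (inv_le_one_of_one_le₀ hB) (by positivity)
          _ = 4 ^ σ * B * (1 / 4) ^ σ := one_mul _
          _ ≤ _ := mul_le_mul_of_nonneg_left h2 (by positivity)
      calc V = 1 * V := (one_mul _).symm
        _ ≤ _ := mul_le_mul_of_nonneg_right h4 hV0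
    · push Not at hDδ
      by_cases hex : ∃ z ∈ J, |(n i - n j) + t z * (c i - c j)| ≤ δ
      · obtain ⟨z₀, hz₀, hz₀c⟩ := hex
        have hcd : 3 / 4 * D ≤ |c j - c i| := by
          have h1 := ht z₀ hz₀
          have h2 : |n j - n i| ≤ δ + |c j - c i| := by
            have e : n j - n i = -((n i - n j) + t z₀ * (c i - c j)) + t z₀ * (c i - c j) := by ring
            rw [e]
            refine (abs_add_le _ _).trans ?_
            rw [abs_neg, abs_mul, abs_sub_comm (c i)]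
            have := mul_le_mul_of_nonneg_right h1 (abs_nonneg (c j - c i))
            linarith
          have h3 : D ≤ δ + |c j - c i| := max_le h2 (by linarith)
          linarith
        have hDpos : 0 < D := by linarith
        have hcpos : 0 < |c j - c i| := by linarith
        set r : ℝ := 4 * δ / D with hr
        have hr1 : r ≤ 1 := by rw [hr, div_le_one hDpos]; exact hDδ.le
        have hD3 : D ≤ 3 := by
          have h1 := hc i hi
          have h2 := hc j hj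
          have h4 : |c j - c i| ≤ 2 := by
            rw [abs_le] at h1 h2 ⊢
            constructor <;> linarith [h1.1, h1.2, h2.1, h2.2]
          linarith
        have hr0 : δ ≤ r := by
          rw [hr, le_div_iff₀ hDpos]
          nlinarith
        refine le_trans ?_ ((hg r hr0 hr1 z₀ hz₀).trans ?_)
        · refine Finset.sum_le_sum_of_subset_of_nonneg ?_ fun z hz _ => hv z (Finset.mem_filter.1 hz).1
          intro z hz
          obtain ⟨hz1, hz2⟩ := Finset.mem_filter.1 hz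
          refine Finset.mem_filter.2 ⟨hz1, ?_⟩
          have h1 : |(t z - t z₀) * (c i - c j)| ≤ 2 * δ := by
            have e : (t z - t z₀) * (c i - c j) =
                ((n i - n j) + t z * (c i - c j)) - ((n i - n j) + t z₀ * (c i - c j)) := by ring
            rw [e]
            refine (abs_sub _ _).trans ?_
            linarith
          rw [abs_mul, abs_sub_comm (c i)] at h1
          rw [hr, le_div_iff₀ hDpos]
          nlinarith [abs_nonneg (t z - t z₀)]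
        · have hmax : max δ D = D := max_eq_right (by linarith)
          rw [hmax]
          refine mul_le_mul_of_nonneg_right ?_ hV0
          have e : r = 4 * (δ / D) := by rw [hr]; ring
          rw [e, Real.mul_rpow (by norm_num) (by positivity)]
          exact le_of_eq (by ring)
      · push Not at hex
        have h0 : ∑ z ∈ J with |(n i - n j) + t z * (c i - c j)| ≤ δ, v z = 0 := by
          rw [Finset.filter_eq_empty_iff.2, Finset.sum_empty]
          intro z hz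
          have := hex z hz
          linarith
        rw [h0]
        positivity

/-- Cauchy-Schwarz over labels, arbitrary relation: if at every `z` the part `Θ z` has at most `M`
labels and equal labels imply `close`, then `lam² W² V ≤ M * pair sum`. -/
theorem kaufman_labels (I' : Finset ι) (w : ι → ℝ) (J : Finset κ) (v : κ → ℝ)
    (close : κ → ι → ι → Prop) [∀ z i j, Decidable (close z i j)]
    (hw : ∀ i ∈ I', 0 ≤ w i) (hv : ∀ z ∈ J, 0 ≤ v z)
    [DecidableEq β] (Θ : κ → Finset ι) (hΘ : ∀ z ∈ J, Θ z ⊆ I') (q : κ → ι → β)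
    (hq : ∀ z ∈ J, ∀ i ∈ Θ z, ∀ j ∈ Θ z, q z i = q z j → close z i j)
    (M lam : ℝ) (hM : 0 ≤ M) (hlam : 0 ≤ lam) (hΘM : ∀ z ∈ J, (((Θ z).image (q z)).card : ℝ) ≤ M)
    (hΘw : ∀ z ∈ J, lam * ∑ i ∈ I', w i ≤ ∑ i ∈ Θ z, w i) :
    lam ^ 2 * ((∑ i ∈ I', w i) ^ 2 * ∑ z ∈ J, v z) ≤
      M * ∑ z ∈ J, v z * ∑ i ∈ I', ∑ j ∈ I' with close z i j, w i * w j := by
  classical
  set W := ∑ i ∈ I', w i with hW
  have hW0 : 0 ≤ W := Finset.sum_nonneg hw
  have h1 : ∀ z ∈ J, v z * (lam * W) ^ 2 ≤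
      M * (v z * ∑ i ∈ I', ∑ j ∈ I' with close z i j, w i * w j) := by
    intro z hz
    have hs : ∑ i ∈ Θ z, w i = ∑ a ∈ (Θ z).image (q z), ∑ i ∈ Θ z with q z i = a, w i :=
      (Finset.sum_fiberwise_of_maps_to (fun i hi => Finset.mem_image_of_mem (q z) hi) _).symm
    have h2 : (∑ a ∈ (Θ z).image (q z), ∑ i ∈ Θ z with q z i = a, w i) ^ 2
        ≤ ((Θ z).image (q z)).card * ∑ a ∈ (Θ z).image (q z), (∑ i ∈ Θ z with q z i = a, w i) ^ 2 :=
      sq_sum_le_card_mul_sum_sq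
    have h3 : ∀ a ∈ (Θ z).image (q z), (∑ i ∈ Θ z with q z i = a, w i) ^ 2
        ≤ ∑ i ∈ Θ z with q z i = a, ∑ j ∈ I' with close z i j, w i * w j := by
      intro a _
      rw [sq, Finset.sum_mul_sum]
      refine Finset.sum_le_sum fun i hi => ?_
      obtain ⟨hi1, hi2⟩ := Finset.mem_filter.1 hi
      refine Finset.sum_le_sum_of_subset_of_nonneg ?_ ?_
      · intro j hj
        obtain ⟨hj1, hj2⟩ := Finset.mem_filter.1 hj
        exact Finset.mem_filter.2 ⟨hΘ z hz hj1, hq z hz i hi1 j hj1 (hi2.trans hj2.symm)⟩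
      · intro j hj _
        exact mul_nonneg (hw i (hΘ z hz hi1)) (hw j (Finset.mem_filter.1 hj).1)
    have h4 : ∑ a ∈ (Θ z).image (q z), ∑ i ∈ Θ z with q z i = a,
        ∑ j ∈ I' with close z i j, w i * w j = ∑ i ∈ Θ z, ∑ j ∈ I' with close z i j, w i * w j :=
      Finset.sum_fiberwise_of_maps_to (fun i hi => Finset.mem_image_of_mem (q z) hi) _
    have h5 : ∑ i ∈ Θ z, ∑ j ∈ I' with close z i j, w i * w j ≤
        ∑ i ∈ I', ∑ j ∈ I' with close z i j, w i * w j := by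
      refine Finset.sum_le_sum_of_subset_of_nonneg (hΘ z hz) fun i hi _ => ?_
      exact Finset.sum_nonneg fun j hj => mul_nonneg (hw i hi) (hw j (Finset.mem_filter.1 hj).1)
    have h6 : 0 ≤ ∑ i ∈ I', ∑ j ∈ I' with close z i j, w i * w j :=
      Finset.sum_nonneg fun i hi => Finset.sum_nonneg fun j hj =>
        mul_nonneg (hw i hi) (hw j (Finset.mem_filter.1 hj).1)
    have h7 : (lam * W) ^ 2 ≤ M * ∑ i ∈ I', ∑ j ∈ I' with close z i j, w i * w j := by
      calc (lam * W) ^ 2 ≤ (∑ i ∈ Θ z, w i) ^ 2 :=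
            pow_le_pow_left₀ (mul_nonneg hlam hW0) (hΘw z hz) 2
        _ ≤ ((Θ z).image (q z)).card * ∑ i ∈ I', ∑ j ∈ I' with close z i j, w i * w j := by
            rw [hs]
            refine h2.trans (mul_le_mul_of_nonneg_left ?_ (Nat.cast_nonneg _))
            exact (Finset.sum_le_sum h3).trans (h4.trans_le h5)
        _ ≤ _ := mul_le_mul_of_nonneg_right (hΘM z hz) h6
    calc v z * (lam * W) ^ 2 ≤ v z * (M * ∑ i ∈ I', ∑ j ∈ I' with close z i j, w i * w j) :=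
          mul_le_mul_of_nonneg_left h7 (hv z hz)
      _ = _ := by ring
  have h2 := Finset.sum_le_sum h1
  rw [← Finset.sum_mul, ← Finset.mul_sum] at h2
  calc lam ^ 2 * (W ^ 2 * ∑ z ∈ J, v z) = (∑ z ∈ J, v z) * (lam * W) ^ 2 := by ring
    _ ≤ _ := h2

/-- **Kaufman, abstract class form** -/
theorem kaufman_abs_classes (I' : Finset ι) (w : ι → ℝ) (J : Finset κ) (v : κ → ℝ) (D : ι → ι → ℝ)
    (close : κ → ι → ι → Prop) [∀ z i j, Decidable (close z i j)] (δ A B α σ K : ℝ)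
    (hδ : 0 < δ) (hδK : δ ≤ K) (hA : 0 ≤ A) (hB : 0 ≤ B) (hα : 0 ≤ α) (hσ : 0 ≤ σ) (hK : 1 ≤ K)
    (hw : ∀ i ∈ I', 0 ≤ w i) (hv : ∀ z ∈ J, 0 ≤ v z)
    (hf : ∀ r, δ ≤ r → r ≤ K → ∀ i ∈ I', ∑ j ∈ I' with D i j ≤ r, w j ≤ A * r ^ α * ∑ i ∈ I', w i)
    (hD : ∀ i ∈ I', ∀ j ∈ I', ∀ z ∈ J, close z i j → D i j ≤ K)
    (hg : ∀ i ∈ I', ∀ j ∈ I', ∑ z ∈ J with close z i j, v z ≤
      B * (δ / max δ (D i j)) ^ σ * ∑ z ∈ J, v z)
    [DecidableEq β] (Θ : κ → Finset ι) (hΘ : ∀ z ∈ J, Θ z ⊆ I') (q : κ → ι → β)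
    (hq : ∀ z ∈ J, ∀ i ∈ Θ z, ∀ j ∈ Θ z, q z i = q z j → close z i j)
    (M lam : ℝ) (hM : 0 ≤ M) (hlam : 0 ≤ lam) (hΘM : ∀ z ∈ J, (((Θ z).image (q z)).card : ℝ) ≤ M)
    (hΘw : ∀ z ∈ J, lam * ∑ i ∈ I', w i ≤ ∑ i ∈ Θ z, w i) (hW : 0 < ∑ i ∈ I', w i)
    (hV : 0 < ∑ z ∈ J, v z) :
    lam ^ 2 * δ ^ (-min α σ) ≤ (2 * K) ^ α * (1 + 2 * log (K / δ)) * A * B * M := by
  have h1 := kaufman_labels I' w J v close hw hv Θ hΘ q hq M lam hM hlam hΘM hΘw
  have h2 := kaufman_abs I' w J v D close δ A B α σ K hδ hδK hA hB hα hσ hK hw hv hf hD hg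
  have h3 := h1.trans (mul_le_mul_of_nonneg_left h2 hM)
  have hX : 0 < (∑ i ∈ I', w i) ^ 2 * ∑ z ∈ J, v z := by positivity
  have h4 : lam ^ 2 * ((∑ i ∈ I', w i) ^ 2 * ∑ z ∈ J, v z) ≤
      ((2 * K) ^ α * (1 + 2 * log (K / δ)) * A * B * M * δ ^ (min α σ)) *
        ((∑ i ∈ I', w i) ^ 2 * ∑ z ∈ J, v z) := h3.trans (le_of_eq (by ring))
  have h5 := le_of_mul_le_mul_right h4 hX
  have h6 : 0 < δ ^ (min α σ) := Real.rpow_pos_of_pos hδ _
  rw [Real.rpow_neg hδ.le, ← div_eq_mul_inv, div_le_iff₀ h6]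
  exact h5

/-- **Kaufman, planar class form, real scale** (same hypotheses as `Fal658.falconer_delta`) -/
theorem kaufman_delta (I' : Finset ι) (w n c : ι → ℝ) (J : Finset κ) (v t : κ → ℝ)
    (δ A B α σ : ℝ) (hδ : 0 < δ) (hδ1 : δ ≤ 1) (hA : 1 ≤ A) (hB : 1 ≤ B) (hα : 0 ≤ α) (hσ : 0 ≤ σ)
    (hw : ∀ i ∈ I', 0 ≤ w i) (hv : ∀ z ∈ J, 0 ≤ v z) (hc : ∀ i ∈ I', |c i| ≤ 1)
    (ht : ∀ z ∈ J, |t z| ≤ 1)
    (hf : ∀ r, δ ≤ r → r ≤ 1 → ∀ i ∈ I', ∑ j ∈ I' with |n j - n i| ≤ r ∧ |c j - c i| ≤ r, w j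
      ≤ A * r ^ α * ∑ i ∈ I', w i)
    (hg : ∀ r, δ ≤ r → r ≤ 1 → ∀ z ∈ J, ∑ z' ∈ J with |t z' - t z| ≤ r, v z' ≤ B * r ^ σ * ∑ z ∈ J, v z)
    [DecidableEq β] (Θ : κ → Finset ι) (hΘ : ∀ z ∈ J, Θ z ⊆ I') (q : κ → ι → β)
    (hq : ∀ z ∈ J, ∀ i ∈ Θ z, ∀ j ∈ Θ z, q z i = q z j → |(n i - n j) + t z * (c i - c j)| ≤ δ)
    (M lam : ℝ) (hM : 0 ≤ M) (hlam : 0 ≤ lam) (hΘM : ∀ z ∈ J, (((Θ z).image (q z)).card : ℝ) ≤ M)
    (hΘw : ∀ z ∈ J, lam * ∑ i ∈ I', w i ≤ ∑ i ∈ Θ z, w i) (hW : 0 < ∑ i ∈ I', w i)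
    (hV : 0 < ∑ z ∈ J, v z) :
    lam ^ 2 * δ ^ (-min α σ) ≤ 6 ^ α * 4 ^ σ * (1 + 2 * log (3 / δ)) * A * B * M := by
  classical
  have h1 := kaufman_labels I' w J v (fun z i j => |(n i - n j) + t z * (c i - c j)| ≤ δ) hw hv
    Θ hΘ q hq M lam hM hlam hΘM hΘw
  have h2 := kaufman_energy I' w n c J v t δ A B α σ hδ hδ1 hA hB hα hσ hw hv hc ht hf hg
  have h3 := h1.trans (mul_le_mul_of_nonneg_left h2 hM)
  have hX : 0 < (∑ i ∈ I', w i) ^ 2 * ∑ z ∈ J, v z := by positivity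
  have h4 : lam ^ 2 * ((∑ i ∈ I', w i) ^ 2 * ∑ z ∈ J, v z) ≤
      (6 ^ α * 4 ^ σ * (1 + 2 * log (3 / δ)) * A * B * M * δ ^ (min α σ)) *
        ((∑ i ∈ I', w i) ^ 2 * ∑ z ∈ J, v z) := h3.trans (le_of_eq (by ring))
  have h5 := le_of_mul_le_mul_right h4 hX
  have h6 : 0 < δ ^ (min α σ) := Real.rpow_pos_of_pos hδ _
  rw [Real.rpow_neg hδ.le, ← div_eq_mul_inv, div_le_iff₀ h6]
  exact h5

/-- **Kaufman, planar, multi-scale, no exponents**: `f k` bounds the mass of a centred box of radius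
`8 * 2^-k`, `g k` the `v`-mass of a centred interval of radius `2^-k`. -/
theorem kaufman (I' : Finset ι) (w n c : ι → ℝ) (J : Finset κ) (v t : κ → ℝ) (L : ℕ) (f g : ℕ → ℝ)
    (hw : ∀ i ∈ I', 0 ≤ w i) (hv : ∀ z ∈ J, 0 ≤ v z) (hc : ∀ i ∈ I', |c i| ≤ 1)
    (ht : ∀ z ∈ J, |t z| ≤ 1) (hg0 : ∀ k ≤ L, 0 ≤ g k)
    (hf : ∀ k ≤ L, ∀ i ∈ I', ∑ j ∈ I' with |n j - n i| ≤ 8 * (1 / 2) ^ k ∧
      |c j - c i| ≤ 8 * (1 / 2) ^ k, w j ≤ f k)
    (hg : ∀ k ≤ L, ∀ z ∈ J, ∑ z' ∈ J with |t z' - t z| ≤ (1 / 2) ^ k, v z' ≤ g k)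
    (hgV : ∑ z ∈ J, v z ≤ g 0) :
    ∑ z ∈ J, v z * ∑ i ∈ I', ∑ j ∈ I' with |(n i - n j) + t z * (c i - c j)| ≤ (1 / 2) ^ L,
      w i * w j ≤ (∑ i ∈ I', w i) * ∑ k ∈ Finset.range (L + 1), f k * g (L - k) := by
  classical
  refine (pairs_le I' w J v (fun z i j => |(n i - n j) + t z * (c i - c j)| ≤ (1 / 2) ^ L)
    (fun i j => ∑ z ∈ J with |(n i - n j) + t z * (c i - c j)| ≤ (1 / 2) ^ L, v z) hw
    (fun i _ j _ => le_rfl)).trans ?_
  rw [Finset.sum_mul]
  refine Finset.sum_le_sum fun i hi => mul_le_mul_of_nonneg_left ?_ (hw i hi)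
  -- size of a pair
  set D : ι → ℝ := fun j => max |n j - n i| |c j - c i| with hD
  -- the class: the largest `k ≤ L` with `D ≤ 8 2^-k`
  have hp : ∀ k : ℕ, (0 : ℝ) < (1 / 2) ^ k := fun k => by positivity
  let cls : ι → ℕ := fun j => if D j ≤ 8 then
    Nat.findGreatest (fun k => D j ≤ 8 * (1 / 2) ^ k) L else L + 1
  have hDcl : ∀ j ∈ I', 0 < ∑ z ∈ J with |(n i - n j) + t z * (c i - c j)| ≤ (1 / 2) ^ L, v z →
      ∃ z ∈ J, |(n i - n j) + t z * (c i - c j)| ≤ (1 / 2) ^ L := by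
    intro j hj hpos
    obtain ⟨z, hz, -⟩ := Finset.exists_ne_zero_of_sum_ne_zero hpos.ne'
    obtain ⟨hz1, hz2⟩ := Finset.mem_filter.1 hz
    exact ⟨z, hz1, hz2⟩
  have hcc : ∀ j ∈ I', |c j - c i| ≤ 2 := by
    intro j hj
    have h1 := hc i hi
    have h2 := hc j hj
    rw [abs_le] at h1 h2 ⊢
    constructor <;> linarith [h1.1, h1.2, h2.1, h2.2]
  have hDc : ∀ j ∈ I', (∃ z ∈ J, |(n i - n j) + t z * (c i - c j)| ≤ (1 / 2) ^ L) →
      D j ≤ (1 / 2) ^ L + |c j - c i| := by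
    rintro j hj ⟨z, hz, hz1⟩
    have h1 := ht z hz
    refine max_le ?_ (by linarith [hp L])
    have e : n j - n i = -((n i - n j) + t z * (c i - c j)) + t z * (c i - c j) := by ring
    rw [e]
    refine (abs_add_le _ _).trans ?_
    rw [abs_neg, abs_mul, abs_sub_comm (c i)]
    have := mul_le_mul_of_nonneg_right h1 (abs_nonneg (c j - c i))
    linarith
  have hL1 : (1 / 2 : ℝ) ^ L ≤ 1 := pow_le_one₀ (by norm_num) (by norm_num)
  have hD8 : ∀ j ∈ I', (∃ z ∈ J, |(n i - n j) + t z * (c i - c j)| ≤ (1 / 2) ^ L) → D j ≤ 8 := by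
    intro j hj h
    have h1 := hDc j hj h
    have h2 := hcc j hj
    linarith
  refine sum_classes_le I' w L cls f (fun k => g (L - k)) _ hw (fun k _ => hg0 _ (Nat.sub_le _ _))
    ?_ ?_ ?_
  · intro j hj hpos
    have := hD8 j hj (hDcl j hj hpos)
    simp only [cls, if_pos this]
    exact Nat.findGreatest_le L
  · intro k hk
    refine le_trans ?_ (hf k hk i hi)
    refine Finset.sum_le_sum_of_subset_of_nonneg ?_ fun j hj _ => hw j (Finset.mem_filter.1 hj).1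
    intro j hj
    obtain ⟨hj1, hj2⟩ := Finset.mem_filter.1 hj
    by_cases h8 : D j ≤ 8
    · simp only [cls, if_pos h8] at hj2
      have h1 : D j ≤ 8 * (1 / 2) ^ k := by
        rw [← hj2]
        exact Nat.findGreatest_spec (P := fun k => D j ≤ 8 * (1 / 2) ^ k) (Nat.zero_le L)
          (by simpa using h8)
      refine Finset.mem_filter.2 ⟨hj1, (le_max_left _ _).trans h1, (le_max_right _ _).trans h1⟩
    · simp only [cls, if_neg h8] at hj2
      omega
  · intro j hj hpos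
    obtain ⟨z₀, hz₀, hz₀c⟩ := hDcl j hj hpos
    have h8 := hD8 j hj ⟨z₀, hz₀, hz₀c⟩
    set k := cls j with hk
    have hk' : k = Nat.findGreatest (fun k => D j ≤ 8 * (1 / 2) ^ k) L := by
      simp only [hk, cls, if_pos h8]
    have hkL : k ≤ L := by rw [hk']; exact Nat.findGreatest_le L
    rcases hkL.lt_or_eq with hlt | heq
    · -- `D > 4 2^-k`
      have h1 : ¬ D j ≤ 8 * (1 / 2) ^ (k + 1) := by
        rw [hk'] at hlt ⊢
        exact Nat.findGreatest_is_greatest (P := fun k => D j ≤ 8 * (1 / 2) ^ k)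
          (Nat.lt_succ_self _) hlt
      push Not at h1
      have h2 : 4 * (1 / 2 : ℝ) ^ k < D j := by
        rw [pow_succ] at h1; linarith
      have h3 := hDc j hj ⟨z₀, hz₀, hz₀c⟩
      have h4 : (1 / 2 : ℝ) ^ L ≤ (1 / 2) ^ k := pow_le_pow_of_le_one (by norm_num) (by norm_num) hkL
      have h5 : 2 * (1 / 2 : ℝ) ^ k ≤ |c j - c i| := by linarith [hp k]
      refine le_trans ?_ (hg (L - k) (Nat.sub_le _ _) z₀ hz₀)
      refine Finset.sum_le_sum_of_subset_of_nonneg ?_ fun z hz _ => hv z (Finset.mem_filter.1 hz).1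
      intro z hz
      obtain ⟨hz1, hz2⟩ := Finset.mem_filter.1 hz
      refine Finset.mem_filter.2 ⟨hz1, ?_⟩
      have h6 : |(t z - t z₀) * (c i - c j)| ≤ 2 * (1 / 2) ^ L := by
        have e : (t z - t z₀) * (c i - c j) =
            ((n i - n j) + t z * (c i - c j)) - ((n i - n j) + t z₀ * (c i - c j)) := by ring
        rw [e]
        refine (abs_sub _ _).trans ?_
        linarith
      rw [abs_mul, abs_sub_comm (c i)] at h6
      have h7 : (1 / 2 : ℝ) ^ L = (1 / 2) ^ (L - k) * (1 / 2) ^ k := by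
        rw [← pow_add]; congr 1; omega
      have h8' : |t z - t z₀| * (2 * (1 / 2) ^ k) ≤ 2 * (1 / 2) ^ L :=
        (mul_le_mul_of_nonneg_left h5 (abs_nonneg _)).trans h6
      rw [h7] at h8'
      have h9 : |t z - t z₀| * (1 / 2) ^ k ≤ (1 / 2) ^ (L - k) * (1 / 2) ^ k := by linarith
      exact le_of_mul_le_mul_right h9 (hp k)
    · rw [heq, Nat.sub_self]
      refine le_trans ?_ hgV
      exact Finset.sum_le_sum_of_subset_of_nonneg (Finset.filter_subset _ _) fun z hz _ => hv z hz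

end

end Crest.Agent.R138.Pl187
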