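import Crest.Agent.R138.Pf2_926

/-!
# R138: countably many families with real parameters, uniform at once (helper926)
-/

set_option autoImplicit false
set_option linter.unusedSectionVars false
set_option linter.unusedVariables false

open Filter Topology MeasureTheory
open scoped NNReal

namespace Crest.Agent.R138.Ex926

open Finset

variable {B : Base} {ι : ℕ → Type*} [∀ n, DecidableEq (ι n)]

/-- **Uniformisation for countably many families with real parameters at once.** -/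
theorem exists_punif_many {J : Type*} [Countable J] [Nonempty J] {m : J → ℕ}
    {κ : J → ℕ → Type*} [∀ j n, DecidableEq (κ j n)] {I : ∀ n, Finset (ι n)}
    {f : ∀ j n, (Fin (m j) → ℝ) → ι n → κ j n} {K : J → ℝ} (hK : ∀ j, 0 ≤ K j)
    {a b : ∀ j, Fin (m j) → ℝ} (hab : ∀ j l, a j l < b j l)
    (hf : ∀ j, PFam B I (f j) (K j) (Set.Icc (a j) (b j)))
    (hI : ∀ᶠ n in (U : Filter ℕ), (I n).Nonempty) {C : ℝ} (hC : 0 ≤ C)
    (hcard : ∀ᶠ n in (U : Filter ℕ), ((I n).card : ℝ) ≤ B.d n ^ (-C)) :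
    ∃ (I' : ∀ n, Finset (ι n)) (S : ℕ → ℝ), B.Sub S ∧
      (∀ᶠ n in (U : Filter ℕ), I' n ⊆ I n ∧ (I' n).Nonempty ∧
        ((I n).card : ℝ) ≤ S n * (I' n).card ∧ 1 ≤ S n) ∧
      ∀ j, PUnif B I I' (f j) (Set.Icc (a j) (b j)) := by
  classical
  obtain ⟨e, he⟩ := exists_surjective_nat (Σ j : J, ℕ × (Fin (m j) → ℕ))
  obtain ⟨I', M, S, k, hS, hk, hev⟩ := uniform_countable B I
    (κ := fun n => Σ j : J, κ j n)
    (fun n l i => (⟨(e l).1, f (e l).1 n (gridPt (a (e l).1) (b (e l).1) (e l).2.1 (e l).2.2) i⟩ :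
      Σ j : J, κ j n)) hI hC hcard
  refine ⟨I', S, hS, hev.mono fun n hn => ⟨hn.1, hn.2.1, hn.2.2.1, hn.2.2.2.1⟩, fun j ε hε => ?_⟩
  -- the grid level
  obtain ⟨k₀, hk₀⟩ : ∃ k₀ : ℕ, K j * (‖b j - a j‖ / (k₀ + 1)) ≤ ε / 4 := by
    obtain ⟨N, hN⟩ := exists_nat_gt (K j * ‖b j - a j‖ / (ε / 4))
    refine ⟨N, ?_⟩
    rw [← mul_div_assoc, div_le_iff₀ (by positivity)]
    rw [div_lt_iff₀ (by positivity)] at hN
    nlinarith
  choose idx hidx using he
  have hG : ∀ᶠ n in (U : Filter ℕ), ∀ g ∈ Fintype.piFinset (fun _ : Fin (m j) => range (k₀ + 3)),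
      idx ⟨j, (k₀, g)⟩ ≤ k n := by
    rw [Filter.eventually_all_finset]
    intro g _
    exact hk.eventually_ge_atTop _
  have hSlog : ∀ᶠ n in (U : Filter ℕ), Real.log (S n) ≤ ε / 8 * B.L n := by
    have h1 := (Base.Sub.iff.1 hS).2
    have h2 := h1.eventually_lt_const (show (0 : ℝ) < ε / 8 by positivity)
    filter_upwards [h2] with n hn
    simp only [Base.lg] at hn
    rw [div_lt_iff₀ (B.L_pos n)] at hn
    exact hn.le
  have h2log : ∀ᶠ n in (U : Filter ℕ), 2 * Real.log 2 ≤ ε / 8 * B.L n := by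
    filter_upwards [B.ev_L_ge (2 * Real.log 2 / (ε / 8))] with n hn
    rw [div_le_iff₀ (by positivity)] at hn
    linarith
  -- the tag does not change classes
  have htag : ∀ n (A : Finset (ι n)) (l : ℕ) (g : Σ j : J, ℕ × (Fin (m j) → ℕ)) (i : ι n),
      e l = g → cls A (fun i => (⟨(e l).1, f (e l).1 n
        (gridPt (a (e l).1) (b (e l).1) (e l).2.1 (e l).2.2) i⟩ : Σ j : J, κ j n)) i =
      cls A (f g.1 n (gridPt (a g.1) (b g.1) g.2.1 g.2.2)) i := by
    intro n A l g i hg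
    subst hg
    ext y
    rw [mem_cls, mem_cls]
    simp
  filter_upwards [hev, hG, hSlog, h2log, (hf j).nest, (hf j).child (ε / 4) (by positivity)] with
    n h1 h2 h3 h4 h5 h6 p hp i hi i₀ hi₀
  obtain ⟨hsub, -, -, hS1, hMM⟩ := h1
  obtain ⟨q1, q2, q3, q4⟩ := gridPt_sandwich (hab j) k₀ hp
  set g := gridDown (a j) (b j) k₀ p with hg
  set g' : Fin (m j) → ℕ := fun l => g l + 1 with hg'
  have hgm : g ∈ Fintype.piFinset (fun _ : Fin (m j) => range (k₀ + 3)) := by
    rw [Fintype.mem_piFinset]; intro l; rw [mem_range]; have := q4 l; omega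
  have hgm' : g' ∈ Fintype.piFinset (fun _ : Fin (m j) => range (k₀ + 3)) := by
    rw [Fintype.mem_piFinset]; intro l; rw [mem_range]; have := q4 l; simp only [hg']; omega
  have hM1 := hMM (idx ⟨j, (k₀, g)⟩) (h2 g hgm)
  have hM2 := hMM (idx ⟨j, (k₀, g')⟩) (h2 g' hgm')
  simp only [htag n _ _ _ _ (hidx ⟨j, (k₀, g)⟩)] at hM1
  simp only [htag n _ _ _ _ (hidx ⟨j, (k₀, g')⟩)] at hM2
  set pm := gridPt (a j) (b j) k₀ g with hpm
  set pp := gridPt (a j) (b j) k₀ g' with hpp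
  have hpmP : pm ∈ Set.Icc (a j) (b j) := gridPt_mem (hab j) k₀ g
  have hppP : pp ∈ Set.Icc (a j) (b j) := gridPt_mem (hab j) k₀ g'
  set Mm := M n (idx ⟨j, (k₀, g)⟩) with hMm
  set Mp := M n (idx ⟨j, (k₀, g')⟩) with hMp
  have hMm1 : 1 ≤ Mm := hM1.1
  have hMp1 : 1 ≤ Mp := hM2.1
  have hSn : 0 < S n := by linarith
  have hL := B.L_pos n
  have hup : ((cls (I n) (f j n p) i).card : ℝ) ≤ 2 * Mm := by
    refine le_trans ?_ (hM1.2 i hi).2.1
    exact_mod_cast card_le_card (fun x hx => by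
      obtain ⟨x1, x2⟩ := mem_cls.1 hx
      exact mem_cls.2 ⟨x1, h5 pm hpmP p hp q1 x x1 i (hsub hi) x2⟩)
  have hlo : Mp ≤ S n * (cls (I' n) (f j n p) i₀).card := by
    refine (hM2.2 i₀ hi₀).2.2.trans (mul_le_mul_of_nonneg_left ?_ hSn.le)
    exact_mod_cast card_le_card (fun x hx => by
      obtain ⟨x1, x2⟩ := mem_cls.1 hx
      exact mem_cls.2 ⟨x1, h5 p hp pp hppP q2 x (hsub x1) i₀ (hsub hi₀) x2⟩)
  have hrel : Mm ≤ S n * (2 * Mp * B.d n ^ (-(K j * ‖pp - pm‖ + ε / 4))) := by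
    refine (hM1.2 i₀ hi₀).2.2.trans (mul_le_mul_of_nonneg_left ?_ hSn.le)
    have hc := le_count_mul (cls (I' n) (f j n pm) i₀) (fun _ => (1 : ℝ)) (f j n pp) (m := 2 * Mp)
      (fun x hx => by
        rw [sum_const, nsmul_eq_mul, mul_one]
        obtain ⟨x1, x2⟩ := mem_cls.1 hx
        refine le_trans ?_ (hM2.2 x x1).2.1
        exact_mod_cast card_le_card (fun y hy => by
          obtain ⟨y1, y2⟩ := mem_cls.1 hy
          exact mem_cls.2 ⟨hsub (mem_cls.1 y1).1, y2⟩))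
    rw [sum_const, nsmul_eq_mul, mul_one] at hc
    refine hc.trans (mul_le_mul_of_nonneg_left ?_ (by positivity))
    refine le_trans ?_ (h6 pm hpmP pp hppP (q1.trans q2) i₀ (hsub hi₀))
    exact_mod_cast card_le_card (image_subset_image (cls_mono hsub _ _))
  have hci₀ : (1 : ℝ) ≤ (cls (I' n) (f j n p) i₀).card := cls_card_pos hi₀
  have hci : (1 : ℝ) ≤ (cls (I n) (f j n p) i).card := cls_card_pos (hsub hi)
  have hd := B.pos n
  have hLd : Real.log (B.d n) = - B.L n := by simp [Base.L]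
  have hdist : K j * ‖pp - pm‖ ≤ ε / 4 := by
    refine le_trans (mul_le_mul_of_nonneg_left ?_ (hK j)) hk₀
    exact q3
  have l1 : Real.log ((cls (I n) (f j n p) i).card) ≤ Real.log 2 + Real.log Mm := by
    rw [← Real.log_mul (by norm_num) (by linarith)]
    exact Real.log_le_log (by linarith) hup
  have l2 : Real.log Mm ≤ Real.log (S n) + (Real.log 2 + Real.log Mp +
      (K j * ‖pp - pm‖ + ε / 4) * B.L n) := by
    have hdp : 0 < B.d n ^ (-(K j * ‖pp - pm‖ + ε / 4)) := Real.rpow_pos_of_pos hd _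
    have h7 := Real.log_le_log (by linarith) hrel
    rw [Real.log_mul hSn.ne' (by positivity), Real.log_mul (by positivity) hdp.ne',
      Real.log_mul (by norm_num) (by linarith), Real.log_rpow hd, hLd] at h7
    linarith
  have l3 : Real.log Mp ≤ Real.log (S n) + Real.log ((cls (I' n) (f j n p) i₀).card) := by
    rw [← Real.log_mul hSn.ne' (by linarith)]
    exact Real.log_le_log (by linarith) hlo
  have l4 : (K j * ‖pp - pm‖ + ε / 4) * B.L n ≤ (ε / 2) * B.L n :=
    mul_le_mul_of_nonneg_right (by linarith) hL.le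
  have l5 := mul_pos hε hL
  linarith

/-- a family which does not depend on the parameter. -/
theorem PFam.const {m : ℕ} {κ : ℕ → Type*} [∀ n, DecidableEq (κ n)] (B : Base)
    (I : ∀ n, Finset (ι n)) (g : ∀ n, ι n → κ n) {K : ℝ} (hK : 0 ≤ K) (P : Set (Fin m → ℝ)) :
    PFam B I (fun n _ => g n) K P where
  nest := Eventually.of_forall fun n p _ p' _ _ i _ i' _ h => h
  child := fun ε hε => Eventually.of_forall fun n p _ p' _ _ i hi => by
    have h1 : (cls (I n) (g n) i).image (g n) ⊆ {g n i} := by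
      intro c hc
      obtain ⟨y, hy, rfl⟩ := mem_image.1 hc
      rw [mem_singleton]
      exact (mem_cls.1 hy).2
    have h2 : (((cls (I n) (g n) i).image (g n)).card : ℝ) ≤ 1 := by
      exact_mod_cast card_le_card h1
    refine h2.trans ?_
    refine Real.one_le_rpow_of_pos_of_le_one_of_nonpos (B.pos n) (B.lt n).le ?_
    have : 0 ≤ K * ‖p' - p‖ := by positivity
    linarith

/-- class sizes of `I'` itself: two points of `I'` have comparable classes. -/
theorem PUnif.self {V : Type*} {κ : ℕ → Type*} [∀ n, DecidableEq (κ n)]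
    {I I' : ∀ n, Finset (ι n)} {f : ∀ n, V → ι n → κ n} {P : Set V}
    (h : PUnif B I I' f P) (hsub : ∀ᶠ n in (U : Filter ℕ), I' n ⊆ I n) :
    ∀ ε : ℝ, 0 < ε → ∀ᶠ n in (U : Filter ℕ), ∀ p ∈ P, ∀ i ∈ I' n, ∀ i₀ ∈ I' n,
      ((cls (I' n) (f n p) i).card : ℝ) ≤ B.d n ^ (-ε) * (cls (I' n) (f n p) i₀).card := by
  intro ε hε
  filter_upwards [h ε hε, hsub] with n h1 h2 p hp i hi i₀ hi₀
  have e1 := h1 p hp i hi i₀ hi₀
  have c1 : (1 : ℝ) ≤ (cls (I' n) (f n p) i).card := cls_card_pos hi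
  have c2 : (1 : ℝ) ≤ (cls (I' n) (f n p) i₀).card := cls_card_pos hi₀
  have e2 : Real.log ((cls (I' n) (f n p) i).card) ≤ Real.log ((cls (I n) (f n p) i).card) := by
    refine Real.log_le_log (by linarith) ?_
    exact_mod_cast card_le_card (cls_mono h2 _ _)
  have hLd : Real.log (B.d n) = - B.L n := by simp [Base.L]
  have hdp := Real.rpow_pos_of_pos (B.pos n) (-ε)
  rw [← Real.log_le_log_iff (by linarith) (by positivity), Real.log_mul hdp.ne' (by linarith),
    Real.log_rpow (B.pos n), hLd]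
  linarith

end Crest.Agent.R138.Ex926
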