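import Crest.Agent.R138.Qf3_926
import Crest.Agent.R138.Flg3_101
import Crest.Agent.R138.Fm_926

/-!
# R138: the configuration of one class, asymptotically (helper926)

101's `ZD.cfg` at a natural point `X6 v r t`, fat lines of relative resolution `Rp`, heights
(flagged cells) of relative levels `(R4, R5)`.

* levels: `QL`, `flab_dir`, comparison with `nat4`;
* counts of fat lines, heights, incidences; Frostman bound;
* `rawM_of_class` : `RawM` for the sequence of configurations of one class;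
* `fmodel_ident` : the exponents of every F-model inside it.
-/

set_option autoImplicit false
set_option linter.unusedSectionVars false
set_option linter.unusedVariables false

open Filter Topology MeasureTheory
open scoped NNReal

namespace Crest.Agent.R138.Ex926

open Finset Flg101 FM501

/-- the natural point with levels `v` (height), `r` (slope), `t` (lateral velocity) -/
def X6 (v r t : ℝ) : Fin 6 → ℝ := ![t + v + r, t + r, t, t + v, v, r]

/-- the direction with box part `p` and cell part `(a, b)` -/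
def dir (p : Fin 4 → ℝ) (a b : ℝ) : Fin 6 → ℝ := ![p 0, p 1, p 2, p 3, a, b]

/-- nonnegative legal directions -/
def D6 : Set (Fin 6 → ℝ) := {c | (∀ a, 0 ≤ c a) ∧ c 0 ≤ c 1 + c 4 ∧ c 3 ≤ c 2 + c 4 ∧
  c 0 ≤ c 5 + c 3 ∧ c 1 ≤ c 5 + c 2}

theorem zero_mem_D6 : (0 : Fin 6 → ℝ) ∈ D6 := by simp [D6]

theorem dir_mem_D6 {p : Fin 4 → ℝ} {a b M : ℝ} (hp : ∀ j, 0 ≤ p j ∧ p j ≤ M) (ha : M ≤ a)
    (hb : M ≤ b) : dir p a b ∈ D6 := by
  have h0 := hp 0
  have h1 := hp 1
  have h2 := hp 2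
  have h3 := hp 3
  have e0 : dir p a b 0 = p 0 := rfl
  have e1 : dir p a b 1 = p 1 := rfl
  have e2 : dir p a b 2 = p 2 := rfl
  have e3 : dir p a b 3 = p 3 := rfl
  have e4 : dir p a b 4 = a := rfl
  have e5 : dir p a b 5 = b := rfl
  refine ⟨fun i => ?_, ?_, ?_, ?_, ?_⟩
  · fin_cases i
    · exact h0.1
    · exact h1.1
    · exact h2.1
    · exact h3.1
    · show 0 ≤ a; linarith [h0.1, h0.2]
    · show 0 ≤ b; linarith [h0.1, h0.2]
  · rw [e0, e1, e4]; linarith [h0.2, h1.1]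
  · rw [e3, e2, e4]; linarith [h3.2, h2.1]
  · rw [e0, e5, e3]; linarith [h0.2, h3.1]
  · rw [e1, e5, e2]; linarith [h1.2, h2.1]

theorem dir_const_mem_D6 {R a b : ℝ} (hR : 0 ≤ R) (ha : 0 ≤ a) (hb : 0 ≤ b) :
    dir (fun _ => R) a b ∈ D6 := by
  refine ⟨fun i => ?_, ?_, ?_, ?_, ?_⟩
  · fin_cases i
    · exact hR
    · exact hR
    · exact hR
    · exact hR
    · exact ha
    · exact hb
  · show R ≤ R + a; linarith
  · show R ≤ R + a; linarith
  · show R ≤ b + R; linarith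
  · show R ≤ b + R; linarith

theorem norm_dir_le {p : Fin 4 → ℝ} {a b C : ℝ} (hp : ∀ j, |p j| ≤ C) (ha : |a| ≤ C)
    (hb : |b| ≤ C) : ‖dir p a b‖ ≤ C := by
  have hC : 0 ≤ C := (abs_nonneg _).trans ha
  refine (pi_norm_le_iff_of_nonneg hC).2 fun i => ?_
  rw [Real.norm_eq_abs]
  fin_cases i
  · exact hp 0
  · exact hp 1
  · exact hp 2
  · exact hp 3
  · exact ha
  · exact hb

theorem dir_mono {p p' : Fin 4 → ℝ} {a b a' b' : ℝ} (hp : ∀ j, p j ≤ p' j) (ha : a ≤ a')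
    (hb : b ≤ b') : dir p a b ≤ dir p' a' b' := by
  intro i
  fin_cases i
  · exact hp 0
  · exact hp 1
  · exact hp 2
  · exact hp 3
  · exact ha
  · exact hb

theorem zero_eq_dir : (0 : Fin 6 → ℝ) = dir 0 0 0 := by
  funext i; fin_cases i <;> rfl

/-- box levels at the natural point, displaced by `w p` -/
noncomputable def QL (B : Base) (n : ℕ) (v r t w : ℝ) (p : Fin 4 → ℝ) : Fin 4 → ℕ :=
  ![B.lev n (t + v + r + w * p 0), B.levc n (t + r + w * p 1), B.levc n (t + w * p 2),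
    B.lev n (t + v + w * p 3)]

theorem flab_dir (B : Base) {ι : ℕ → Type*} (x : ∀ n, ι n → Inc) (n : ℕ) (v r t w : ℝ)
    (p : Fin 4 → ℝ) (a b : ℝ) : flab B x n (X6 v r t + w • dir p a b) =
      fun i => (x n i).lab (B.levc n (v + w * a)) (B.levc n (r + w * b)) (QL B n v r t w p) := rfl

theorem QL_mono (B : Base) (n : ℕ) {v r t w : ℝ} (hw : 0 ≤ w) {p p' : Fin 4 → ℝ}
    (h : ∀ j, p j ≤ p' j) (j : Fin 4) : QL B n v r t w p j ≤ QL B n v r t w p' j := by
  have hj := fun j => mul_le_mul_of_nonneg_left (h j) hw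
  fin_cases j
  · exact B.lev_mono n (by linarith [hj 0])
  · exact B.levc_mono n (by linarith [hj 1])
  · exact B.levc_mono n (by linarith [hj 2])
  · exact B.lev_mono n (by linarith [hj 3])

/-- first four coordinates of the natural point -/
def X4 (v r t : ℝ) : Fin 4 → ℝ := ![t + v + r, t + r, t, t + v]

theorem levc_add_le (B : Base) (n : ℕ) (s t : ℝ) : B.levc n (s + t) ≤ B.levc n s + B.levc n t := by
  unfold Base.levc
  rw [Nat.ceil_le]
  push_cast
  have h1 := Nat.le_ceil (s * B.L n / Real.log 2)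
  have h2 := Nat.le_ceil (t * B.L n / Real.log 2)
  rw [add_mul, add_div]
  linarith

theorem lev_le_levc (B : Base) (n : ℕ) (t : ℝ) : B.lev n t ≤ B.levc n t := by
  unfold Base.levc Base.lev
  exact Nat.floor_le_ceil _

theorem QL_zero_le_nat4 (B : Base) (n : ℕ) (v r t w : ℝ) (j : Fin 4) :
    QL B n v r t w 0 j ≤ nat4 (B.levc n v) (B.levc n r) (B.levc n t) j := by
  fin_cases j
  · show B.lev n (t + v + r + w * 0) ≤ B.levc n t + B.levc n v + B.levc n r
    rw [mul_zero, add_zero]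
    refine (lev_le_levc B n _).trans ((levc_add_le B n _ _).trans ?_)
    have := levc_add_le B n t v
    omega
  · show B.levc n (t + r + w * 0) ≤ B.levc n t + B.levc n r
    rw [mul_zero, add_zero]
    exact levc_add_le B n _ _
  · show B.levc n (t + w * 0) ≤ B.levc n t
    rw [mul_zero, add_zero]
  · show B.lev n (t + v + w * 0) ≤ B.levc n t + B.levc n v
    rw [mul_zero, add_zero]
    exact (lev_le_levc B n _).trans (levc_add_le B n _ _)

theorem half_pow_levc_le (B : Base) (n : ℕ) (t : ℝ) : ((1 : ℝ) / 2) ^ (B.levc n t) ≤ B.d n ^ t := by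
  have h1 := B.le_pow_levc n t
  rw [one_div, inv_pow, inv_le_comm₀ (by positivity) (Real.rpow_pos_of_pos (B.pos n) _),
    ← Real.rpow_neg (B.pos n).le]
  exact h1

theorem le_half_pow_levc (B : Base) (n : ℕ) {t : ℝ} (ht : 0 ≤ t) :
    B.d n ^ t / 2 ≤ ((1 : ℝ) / 2) ^ (B.levc n t) := by
  have h1 := B.pow_levc_le n ht
  have hp := Real.rpow_pos_of_pos (B.pos n) t
  rw [one_div, inv_pow, le_inv_comm₀ (by positivity) (by positivity)]
  refine h1.trans (le_of_eq ?_)
  rw [Real.rpow_neg (B.pos n).le]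
  field_simp

theorem half_pow_lev_le (B : Base) (n : ℕ) (t : ℝ) : ((1 : ℝ) / 2) ^ (B.lev n t) ≤ 2 * B.d n ^ t := by
  have h1 := B.lt_pow_lev n t
  have hp := Real.rpow_pos_of_pos (B.pos n) t
  rw [pow_succ, Real.rpow_neg (B.pos n).le] at h1
  have h2 : (0 : ℝ) < 2 ^ (B.lev n t) := by positivity
  have h3 : ((1 : ℝ) / 2) ^ (B.lev n t) * 2 ^ (B.lev n t) = 1 := by rw [← mul_pow]; norm_num
  have h4 : (B.d n ^ t)⁻¹ * B.d n ^ t = 1 := inv_mul_cancel₀ hp.ne'
  have h5 : 1 ≤ 2 ^ (B.lev n t) * (2 * B.d n ^ t) := by nlinarith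
  have h6 : (0 : ℝ) < (1 / 2) ^ (B.lev n t) := by positivity
  nlinarith

theorem le_half_pow_lev (B : Base) (n : ℕ) {t : ℝ} (ht : 0 ≤ t) :
    B.d n ^ t ≤ ((1 : ℝ) / 2) ^ (B.lev n t) := by
  have h1 := B.pow_lev_le n ht
  have hp := Real.rpow_pos_of_pos (B.pos n) t
  rw [one_div, inv_pow, le_inv_comm₀ hp (by positivity), ← Real.rpow_neg (B.pos n).le]
  exact h1

theorem rp (B : Base) (n : ℕ) (s t : ℝ) : B.d n ^ (s + t) = B.d n ^ s * B.d n ^ t :=
  Real.rpow_add (B.pos n) s t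

/-- sides of the natural box -/
theorem half_nat4_le (B : Base) (n : ℕ) (v r t : ℝ) (j : Fin 4) :
    ((1 : ℝ) / 2) ^ (nat4 (B.levc n v) (B.levc n r) (B.levc n t) j) ≤ B.d n ^ X4 v r t j := by
  have hv := half_pow_levc_le B n v
  have hr := half_pow_levc_le B n r
  have ht := half_pow_levc_le B n t
  have pv := Real.rpow_pos_of_pos (B.pos n) v
  have pr := Real.rpow_pos_of_pos (B.pos n) r
  have pt := Real.rpow_pos_of_pos (B.pos n) t
  fin_cases j
  · show ((1 : ℝ) / 2) ^ (B.levc n t + B.levc n v + B.levc n r) ≤ B.d n ^ (t + v + r)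
    rw [pow_add, pow_add, rp, rp]; gcongr
  · show ((1 : ℝ) / 2) ^ (B.levc n t + B.levc n r) ≤ B.d n ^ (t + r)
    rw [pow_add, rp]; gcongr
  · exact ht
  · show ((1 : ℝ) / 2) ^ (B.levc n t + B.levc n v) ≤ B.d n ^ (t + v)
    rw [pow_add, rp]; gcongr

theorem le_half_nat4 (B : Base) (n : ℕ) {v r t : ℝ} (hv0 : 0 ≤ v) (hr0 : 0 ≤ r) (ht0 : 0 ≤ t)
    (j : Fin 4) :
    B.d n ^ X4 v r t j / 8 ≤ ((1 : ℝ) / 2) ^ (nat4 (B.levc n v) (B.levc n r) (B.levc n t) j) := by
  have hv := le_half_pow_levc B n hv0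
  have hr := le_half_pow_levc B n hr0
  have ht := le_half_pow_levc B n ht0
  have pv := Real.rpow_pos_of_pos (B.pos n) v
  have pr := Real.rpow_pos_of_pos (B.pos n) r
  have pt := Real.rpow_pos_of_pos (B.pos n) t
  fin_cases j
  · show B.d n ^ (t + v + r) / 8 ≤ ((1 : ℝ) / 2) ^ (B.levc n t + B.levc n v + B.levc n r)
    rw [pow_add, pow_add, rp, rp]
    calc B.d n ^ t * B.d n ^ v * B.d n ^ r / 8 = (B.d n ^ t / 2) * (B.d n ^ v / 2) *
          (B.d n ^ r / 2) := by ring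
      _ ≤ _ := by gcongr
  · show B.d n ^ (t + r) / 8 ≤ ((1 : ℝ) / 2) ^ (B.levc n t + B.levc n r)
    rw [pow_add, rp]
    calc B.d n ^ t * B.d n ^ r / 8 ≤ (B.d n ^ t / 2) * (B.d n ^ r / 2) := by
          have := mul_pos pt pr; linarith
      _ ≤ _ := by gcongr
  · show B.d n ^ t / 8 ≤ ((1 : ℝ) / 2) ^ (B.levc n t)
    linarith
  · show B.d n ^ (t + v) / 8 ≤ ((1 : ℝ) / 2) ^ (B.levc n t + B.levc n v)
    rw [pow_add, rp]
    calc B.d n ^ t * B.d n ^ v / 8 ≤ (B.d n ^ t / 2) * (B.d n ^ v / 2) := by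
          have := mul_pos pt pv; linarith
      _ ≤ _ := by gcongr

theorem le_half_QL (B : Base) (n : ℕ) {v r t w : ℝ} {p : Fin 4 → ℝ} (hv0 : 0 ≤ v) (hr0 : 0 ≤ r)
    (ht0 : 0 ≤ t) (hw : 0 ≤ w) (hp : ∀ j, 0 ≤ p j) (j : Fin 4) :
    B.d n ^ (X4 v r t j + w * p j) / 2 ≤ ((1 : ℝ) / 2) ^ (QL B n v r t w p j) := by
  have hj : ∀ j, 0 ≤ w * p j := fun j => mul_nonneg hw (hp j)
  have hpos : ∀ s : ℝ, 0 < B.d n ^ s := fun s => Real.rpow_pos_of_pos (B.pos n) s
  fin_cases j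
  · show B.d n ^ (t + v + r + w * p 0) / 2 ≤ ((1 : ℝ) / 2) ^ (B.lev n (t + v + r + w * p 0))
    have := le_half_pow_lev B n (t := t + v + r + w * p 0) (by linarith [hj 0])
    linarith [hpos (t + v + r + w * p 0)]
  · show B.d n ^ (t + r + w * p 1) / 2 ≤ ((1 : ℝ) / 2) ^ (B.levc n (t + r + w * p 1))
    exact le_half_pow_levc B n (by linarith [hj 1])
  · show B.d n ^ (t + w * p 2) / 2 ≤ ((1 : ℝ) / 2) ^ (B.levc n (t + w * p 2))
    exact le_half_pow_levc B n (by linarith [hj 2])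
  · show B.d n ^ (t + v + w * p 3) / 2 ≤ ((1 : ℝ) / 2) ^ (B.lev n (t + v + w * p 3))
    have := le_half_pow_lev B n (t := t + v + w * p 3) (by linarith [hj 3])
    linarith [hpos (t + v + w * p 3)]

theorem half_QL_le (B : Base) (n : ℕ) (v r t w : ℝ) (p : Fin 4 → ℝ) (j : Fin 4) :
    ((1 : ℝ) / 2) ^ (QL B n v r t w p j) ≤ 2 * B.d n ^ (X4 v r t j + w * p j) := by
  have hpos : ∀ s : ℝ, 0 < B.d n ^ s := fun s => Real.rpow_pos_of_pos (B.pos n) s
  fin_cases j
  · exact half_pow_lev_le B n _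
  · show ((1 : ℝ) / 2) ^ (B.levc n (t + r + w * p 1)) ≤ 2 * B.d n ^ (t + r + w * p 1)
    have := half_pow_levc_le B n (t + r + w * p 1)
    linarith [hpos (t + r + w * p 1)]
  · show ((1 : ℝ) / 2) ^ (B.levc n (t + w * p 2)) ≤ 2 * B.d n ^ (t + w * p 2)
    have := half_pow_levc_le B n (t + w * p 2)
    linarith [hpos (t + w * p 2)]
  · exact half_pow_lev_le B n _

theorem wall_QL (B : Base) (n : ℕ) {v r t w : ℝ} {p : Fin 4 → ℝ} {a b : ℝ} (hv0 : 0 ≤ v)
    (hr0 : 0 ≤ r) (ht0 : 0 ≤ t) (hw : 0 ≤ w) (hc : dir p a b ∈ D6) :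
    Wall (B.levc n (v + w * a)) (B.levc n (r + w * b)) (QL B n v r t w p) := by
  obtain ⟨h0, h1, h2, h3, h4⟩ := hc
  have e0 : ∀ i, 0 ≤ w * dir p a b i := fun i => mul_nonneg hw (h0 i)
  have hmem : X6 v r t + w • dir p a b ∈ LEG (t + v + r + ‖X6 v r t + w • dir p a b‖) := by
    rw [mem_LEG]
    refine ⟨fun i => ⟨?_, ?_⟩, ?_, ?_, ?_, ?_⟩
    · have : 0 ≤ X6 v r t i := by
        fin_cases i
        · show 0 ≤ t + v + r; positivity
        · show 0 ≤ t + r; positivity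
        · exact ht0
        · show 0 ≤ t + v; positivity
        · exact hv0
        · exact hr0
      have h := e0 i
      show 0 ≤ X6 v r t i + w * dir p a b i
      linarith
    · have := norm_le_pi_norm (X6 v r t + w • dir p a b) i
      rw [Real.norm_eq_abs] at this
      have h := le_abs_self ((X6 v r t + w • dir p a b) i)
      linarith
    · show t + v + r + w * dir p a b 0 ≤ (t + r + w * dir p a b 1) + (v + w * dir p a b 4)
      nlinarith [mul_le_mul_of_nonneg_left h1 hw]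
    · show t + v + w * dir p a b 3 ≤ (t + w * dir p a b 2) + (v + w * dir p a b 4)
      nlinarith [mul_le_mul_of_nonneg_left h2 hw]
    · show t + v + r + w * dir p a b 0 ≤ (r + w * dir p a b 5) + (t + v + w * dir p a b 3)
      nlinarith [mul_le_mul_of_nonneg_left h3 hw]
    · show t + r + w * dir p a b 1 ≤ (r + w * dir p a b 5) + (t + w * dir p a b 2)
      nlinarith [mul_le_mul_of_nonneg_left h4 hw]
  exact wall_of_LEG B n hmem

end Crest.Agent.R138.Ex926
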