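import Crest.Agent.R138.Qf4_926

/-!
# R138: the configurations of a sequence of classes are raw F-models (helper926)
-/

set_option autoImplicit false
set_option linter.unusedSectionVars false
set_option linter.unusedVariables false

open Filter Topology MeasureTheory
open scoped NNReal

namespace Crest.Agent.R138.Ex926

open Finset Flg101 FM501

variable {ι : ℕ → Type*} [∀ n, DecidableEq (ι n)]

/-- big classes at natural points, seen in the base `B' = B ^ w` -/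
structure ClsSeq (B B' : Base) (I : ∀ n, Finset (ι n)) (x : ∀ n, ι n → Inc) (v r t w : ℕ → ℝ)
    (T : ℕ → ℝ) (lam : (Fin 6 → ℝ) → ℝ) (C : ∀ n, Finset (ι n)) (s₀ : ∀ n, ι n) : Prop where
  v0 : ∀ n, 0 ≤ v n
  r0 : ∀ n, 0 ≤ r n
  t0 : ∀ n, 0 ≤ t n
  w0 : ∀ n, 0 < w n
  dd : ∀ n, B'.d n = B.d n ^ w n
  prof : ZProf B' I (fun n c => flab B x n (X6 (v n) (r n) (t n) + w n • c)) D6 T lam
  lam0 : lam 0 = 0
  Tpos : ∀ n, 0 < T n
  cls : ∀ᶠ n in (U : Filter ℕ), C n ⊆ I n ∧ s₀ n ∈ C n ∧ ∀ s ∈ C n,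
    (x n s).lab (B.levc n (v n)) (B.levc n (r n))
      (nat4 (B.levc n (v n)) (B.levc n (r n)) (B.levc n (t n))) =
    (x n (s₀ n)).lab (B.levc n (v n)) (B.levc n (r n))
      (nat4 (B.levc n (v n)) (B.levc n (r n)) (B.levc n (t n)))
  big : ∀ ε : ℝ, 0 < ε → ∀ᶠ n in (U : Filter ℕ), T n * B'.d n ^ ε ≤ ((C n).card : ℝ)

/-- the zoom data of the class at `n` -/
noncomputable def zdat (B B' : Base) (x : ∀ n, ι n → Inc) (v r t w : ℕ → ℝ)
    (C : ∀ n, Finset (ι n)) (s₀ : ∀ n, ι n) (Rp R4 R5 : ℝ) (n : ℕ) : ZD (ι n) where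
  I := C n
  x := x n
  s₀ := s₀ n
  i₀ := B.levc n (v n)
  j₀ := B.levc n (r n)
  t := B.levc n (t n)
  i₁ := B.levc n (v n + w n * R4)
  j₁ := B.levc n (r n + w n * R5)
  pr := QL B n (v n) (r n) (t n) (w n) (fun _ => Rp)
  ρ := B'.d n

section

variable {B B' : Base} {I : ∀ n, Finset (ι n)} {x : ∀ n, ι n → Inc} {v r t w T : ℕ → ℝ}
  {lam : (Fin 6 → ℝ) → ℝ} {C : ∀ n, Finset (ι n)} {s₀ : ∀ n, ι n} {Rp R4 R5 : ℝ}

theorem ClsSeq.ok (h : ClsSeq B B' I x v r t w T lam C s₀) (hRp : 0 ≤ Rp) (hR4 : 0 ≤ R4)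
    (hR5 : 0 ≤ R5) : ∀ᶠ n in (U : Filter ℕ), (zdat B B' x v r t w C s₀ Rp R4 R5 n).Ok := by
  filter_upwards [h.cls] with n h1
  have hw := (h.w0 n).le
  have hwall := wall_QL B n (h.v0 n) (h.r0 n) (h.t0 n) hw
    (dir_const_mem_D6 hRp le_rfl le_rfl : dir (fun _ => Rp) 0 0 ∈ D6)
  rw [mul_zero, add_zero, add_zero] at hwall
  exact
    { mem := h1.2.1
      cls := h1.2.2
      hi := B.levc_mono n (by nlinarith [mul_nonneg hw hR4])
      hj := B.levc_mono n (by nlinarith [mul_nonneg hw hR5])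
      wall := hwall
      ρ0 := B'.pos n }

/-- the class lies in one class of the profile at the origin -/
theorem ClsSeq.sub_cls (h : ClsSeq B B' I x v r t w T lam C s₀) : ∀ᶠ n in (U : Filter ℕ),
    s₀ n ∈ I n ∧ C n ⊆ Ex926.cls (I n) (flab B x n (X6 (v n) (r n) (t n) + w n • (0 : Fin 6 → ℝ)))
      (s₀ n) := by
  filter_upwards [h.cls] with n h1
  obtain ⟨h2, h3, h4⟩ := h1
  refine ⟨h2 h3, fun s hs => mem_cls.2 ⟨h2 hs, ?_⟩⟩
  rw [zero_eq_dir, flab_dir, mul_zero, add_zero, add_zero]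
  exact lab_nested (fun k => QL_zero_le_nat4 B n _ _ _ _ k) (h4 s hs)

theorem ClsSeq.up_count (h : ClsSeq B B' I x v r t w T lam C s₀) (M : ℝ) {ε : ℝ} (hε : 0 < ε) :
    ∀ᶠ n in (U : Filter ℕ), ∀ c ∈ D6, ‖c‖ ≤ M →
      (((C n).image (flab B x n (X6 (v n) (r n) (t n) + w n • c))).card : ℝ) ≤
        B'.d n ^ (lam c - ε) := by
  filter_upwards [h.sub_cls, h.prof.num (max M 0) ε hε] with n h1 h2 c hc hcM
  have h3 := h2 0 zero_mem_D6 (by rw [norm_zero]; exact le_max_right _ _) c hc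
    (hcM.trans (le_max_left _ _)) hc.1 (s₀ n) h1.1
  rw [h.lam0] at h3
  refine le_trans ?_ (h3.trans (le_of_eq ?_))
  · exact_mod_cast card_le_card (image_subset_image h1.2)
  · congr 1; ring

theorem ClsSeq.low_count (h : ClsSeq B B' I x v r t w T lam C s₀) (M : ℝ) {ε : ℝ} (hε : 0 < ε) :
    ∀ᶠ n in (U : Filter ℕ), ∀ c ∈ D6, ‖c‖ ≤ M →
      B'.d n ^ (lam c + ε) ≤
        (((C n).image (flab B x n (X6 (v n) (r n) (t n) + w n • c))).card : ℝ) := by
  filter_upwards [h.cls, h.prof.up M (ε / 2) (by positivity), h.big (ε / 2) (by positivity)] with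
    n h1 h2 h3 c hc hcM
  have h4 := le_count_mul (C n) (fun _ => (1 : ℝ))
    (flab B x n (X6 (v n) (r n) (t n) + w n • c)) (m := T n * B'.d n ^ (-(lam c + ε / 2)))
    (fun s hs => by
      rw [sum_const, nsmul_eq_mul, mul_one]
      refine le_trans ?_ (h2 c hc hcM s (h1.1 hs))
      exact_mod_cast card_le_card (cls_mono h1.1 _ _))
  rw [sum_const, nsmul_eq_mul, mul_one] at h4
  have hT := h.Tpos n
  have hd := Real.rpow_pos_of_pos (B'.pos n) (lam c + ε / 2)
  have h5 : T n * B'.d n ^ (ε / 2) ≤ T n * (B'.d n ^ (-(lam c + ε / 2)) *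
      (((C n).image (flab B x n (X6 (v n) (r n) (t n) + w n • c))).card : ℝ)) := by
    rw [← mul_assoc]; exact h3.trans h4
  have h6 := le_of_mul_le_mul_left h5 hT
  have h7 := mul_le_mul_of_nonneg_left h6 hd.le
  have e1 : B'.d n ^ (lam c + ε / 2) * B'.d n ^ (ε / 2) = B'.d n ^ (lam c + ε) := by
    rw [← rp]; congr 1; ring
  have e2 : B'.d n ^ (lam c + ε / 2) * (B'.d n ^ (-(lam c + ε / 2)) *
      (((C n).image (flab B x n (X6 (v n) (r n) (t n) + w n • c))).card : ℝ)) =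
      (((C n).image (flab B x n (X6 (v n) (r n) (t n) + w n • c))).card : ℝ) := by
    rw [← mul_assoc, ← rp]; simp
  rw [e1, e2] at h7
  exact h7

theorem ClsSeq.child_count (h : ClsSeq B B' I x v r t w T lam C s₀) (M : ℝ) {ε : ℝ} (hε : 0 < ε) :
    ∀ᶠ n in (U : Filter ℕ), ∀ c ∈ D6, ‖c‖ ≤ M → ∀ c' ∈ D6, ‖c'‖ ≤ M → c ≤ c' → ∀ s ∈ C n,
      (((Ex926.cls (C n) (flab B x n (X6 (v n) (r n) (t n) + w n • c)) s).image
        (flab B x n (X6 (v n) (r n) (t n) + w n • c'))).card : ℝ) ≤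
        B'.d n ^ (-(lam c - lam c' + ε)) := by
  filter_upwards [h.cls, h.prof.num M ε hε] with n h1 h2 c hc hcM c' hc' hcM' hcc s hs
  refine le_trans ?_ (h2 c hc hcM c' hc' hcM' hcc s (h1.1 hs))
  exact_mod_cast card_le_card (image_subset_image (cls_mono h1.1 _ _))

/-! ### the three cardinalities -/

theorem ClsSeq.card_L_le (h : ClsSeq B B' I x v r t w T lam C s₀) (hRp : 0 ≤ Rp) {ε : ℝ}
    (hε : 0 < ε) : ∀ᶠ n in (U : Filter ℕ),
      ((zdat B B' x v r t w C s₀ Rp R4 R5 n).cfg.L.card : ℝ) ≤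
        B'.d n ^ (lam (dir (fun _ => Rp) 0 0) - ε) := by
  filter_upwards [h.up_count Rp hε] with n h1
  have h2 := h1 (dir (fun _ => Rp) 0 0) (dir_const_mem_D6 hRp le_rfl le_rfl)
    (norm_dir_le (fun _ => (abs_of_nonneg hRp).le) (by simpa) (by simpa))
  rw [flab_dir, mul_zero, add_zero, add_zero] at h2
  rw [ZD.card_L]
  exact h2

theorem ClsSeq.card_Z_le (h : ClsSeq B B' I x v r t w T lam C s₀) (hR4 : 0 ≤ R4) (hR5 : 0 ≤ R5)
    {ε : ℝ} (hε : 0 < ε) : ∀ᶠ n in (U : Filter ℕ),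
      ((zdat B B' x v r t w C s₀ Rp R4 R5 n).cfg.Z.card : ℝ) ≤
        B'.d n ^ (lam (dir 0 R4 R5) - ε) := by
  filter_upwards [h.up_count (max R4 R5) hε] with n h1
  have h2 := h1 (dir 0 R4 R5) (dir_const_mem_D6 le_rfl hR4 hR5)
    (norm_dir_le (fun _ => by simp [hR4]) (by rw [abs_of_nonneg hR4]; exact le_max_left _ _)
      (by rw [abs_of_nonneg hR5]; exact le_max_right _ _))
  rw [flab_dir] at h2
  refine le_trans ?_ h2
  exact_mod_cast ZD.card_Z_le

theorem ClsSeq.le_card_Z (h : ClsSeq B B' I x v r t w T lam C s₀) (hRp : 0 ≤ Rp) (hR4 : 0 ≤ R4)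
    (hR5 : 0 ≤ R5) {ε : ℝ} (hε : 0 < ε) : ∀ᶠ n in (U : Filter ℕ),
      B'.d n ^ (lam (dir 0 R4 R5) + ε) ≤
        675 * ((zdat B B' x v r t w C s₀ Rp R4 R5 n).cfg.Z.card : ℝ) := by
  filter_upwards [h.low_count (max R4 R5) hε, h.ok hRp hR4 hR5, h.cls] with n h1 h3 h4
  have h2 := h1 (dir 0 R4 R5) (dir_const_mem_D6 le_rfl hR4 hR5)
    (norm_dir_le (fun _ => by simp [hR4]) (by rw [abs_of_nonneg hR4]; exact le_max_left _ _)
      (by rw [abs_of_nonneg hR5]; exact le_max_right _ _))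
  rw [flab_dir] at h2
  refine h2.trans ?_
  have hwall := wall_QL B n (h.v0 n) (h.r0 n) (h.t0 n) (h.w0 n).le
    (dir_const_mem_D6 le_rfl le_rfl le_rfl : dir (fun _ => (0 : ℝ)) 0 0 ∈ D6)
  rw [mul_zero, add_zero, add_zero] at hwall
  have := ZD.le_card_Z h3 (q := QL B n (v n) (r n) (t n) (w n) 0) hwall (fun s hs =>
    lab_nested (fun k => QL_zero_le_nat4 B n _ _ _ _ k) (h4.2.2 s hs))
  exact_mod_cast this

theorem ClsSeq.le_card_I (h : ClsSeq B B' I x v r t w T lam C s₀) (hRp : 0 ≤ Rp) (hR4 : 0 ≤ R4)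
    (hR5 : 0 ≤ R5) {ε : ℝ} (hε : 0 < ε) : ∀ᶠ n in (U : Filter ℕ),
      B'.d n ^ (lam (dir (fun _ => Rp) R4 R5) + ε) ≤
        675 * ((zdat B B' x v r t w C s₀ Rp R4 R5 n).cfg.I.card : ℝ) := by
  filter_upwards [h.low_count (max Rp (max R4 R5)) hε, h.ok hRp hR4 hR5] with n h1 h3
  have h2 := h1 (dir (fun _ => Rp) R4 R5) (dir_const_mem_D6 hRp hR4 hR5)
    (norm_dir_le (fun _ => by rw [abs_of_nonneg hRp]; exact le_max_left _ _)
      (by rw [abs_of_nonneg hR4]; exact (le_max_left _ _).trans (le_max_right _ _))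
      (by rw [abs_of_nonneg hR5]; exact (le_max_right _ _).trans (le_max_right _ _)))
  rw [flab_dir] at h2
  refine h2.trans ?_
  exact_mod_cast ZD.le_card_I h3

/-! ### the Frostman bound -/

theorem ClsSeq.hbox_le (h : ClsSeq B B' I x v r t w T lam C s₀) (hRp : 0 ≤ Rp) (hR4 : 0 ≤ R4)
    (hR5 : 0 ≤ R5) {y δ : ℝ} (hy0 : 0 ≤ y) (hyR : y ≤ R4) (hδ : 0 < δ) {ε : ℝ} (hε : 0 < ε) :
    ∀ᶠ n in (U : Filter ℕ), ∀ k ∈ (zdat B B' x v r t w C s₀ Rp R4 R5 n).cfg.Z,
      (((zdat B B' x v r t w C s₀ Rp R4 R5 n).cfg.hbox y k).card : ℝ) ≤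
        2025 * B'.d n ^ (-(lam (dir 0 (max (y - δ) 0) 0) - lam (dir 0 R4 R5) + ε)) := by
  set y' : ℝ := max (y - δ) 0 with hy'
  have hy'0 : 0 ≤ y' := le_max_right _ _
  have hy'R : y' ≤ R4 := max_le (by linarith) hR4
  filter_upwards [h.child_count (max R4 R5) hε, h.ok hRp hR4 hR5, h.cls,
    B'.ev_rpow_small hδ (c := 1 / 2) (by norm_num)] with n h1 h3 h4 h5 k hk
  set D := zdat B B' x v r t w C s₀ Rp R4 R5 n with hD
  have hw := h.w0 n
  have hM0 : |R4| ≤ max R4 R5 := by rw [abs_of_nonneg hR4]; exact le_max_left _ _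
  have hM1 : |R5| ≤ max R4 R5 := by rw [abs_of_nonneg hR5]; exact le_max_right _ _
  have hmx : 0 ≤ max R4 R5 := hR4.trans (le_max_left _ _)
  have hch := h1 (dir 0 y' 0) (dir_const_mem_D6 le_rfl hy'0 le_rfl)
    (norm_dir_le (fun _ => by simp [hR4]) (by
      rw [abs_of_nonneg hy'0]; exact hy'R.trans (le_max_left _ _)) (by rw [abs_zero]; exact hmx))
    (dir 0 R4 R5) (dir_const_mem_D6 le_rfl hR4 hR5) (norm_dir_le (fun _ => by simp [hR4]) hM0 hM1)
    (dir_mono (fun _ => le_rfl) hy'R hR5)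
  rw [flab_dir, flab_dir, mul_zero, add_zero] at hch
  set b : ℝ := B'.d n ^ (-(lam (dir 0 y' 0) - lam (dir 0 R4 R5) + ε)) with hb
  have hbpos : 0 < b := Real.rpow_pos_of_pos (B'.pos n) _
  have hwall := wall_QL B n (h.v0 n) (h.r0 n) (h.t0 n) hw.le
    (dir_const_mem_D6 le_rfl le_rfl le_rfl : dir (fun _ => (0 : ℝ)) 0 0 ∈ D6)
  rw [mul_zero, add_zero, add_zero] at hwall
  have hlev : B.levc n (v n) ≤ B.levc n (v n + w n * y') :=
    B.levc_mono n (by nlinarith [mul_nonneg hw.le hy'0])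
  have hMr : ∀ s ∈ C n, (((Ex926.cls (C n) (fun s => (x n s).cell (B.levc n (v n + w n * y'))
      (B.levc n (r n))) s).image fun s => (x n s).cell (B.levc n (v n + w n * R4))
      (B.levc n (r n + w n * R5))).card : ℝ) ≤ 675 * b := by
    intro s hs
    set A := Ex926.cls (C n) (fun s => (x n s).cell (B.levc n (v n + w n * y'))
      (B.levc n (r n))) s with hA
    have a1 : (A.image fun s => (x n s).cell (B.levc n (v n + w n * R4))
        (B.levc n (r n + w n * R5))).card ≤ (A.image fun i => (x n i).lab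
        (B.levc n (v n + w n * R4)) (B.levc n (r n + w n * R5))
        (QL B n (v n) (r n) (t n) (w n) 0)).card := by
      have : (A.image fun s => (x n s).cell (B.levc n (v n + w n * R4))
        (B.levc n (r n + w n * R5))) = (A.image fun i => (x n i).lab
        (B.levc n (v n + w n * R4)) (B.levc n (r n + w n * R5))
        (QL B n (v n) (r n) (t n) (w n) 0)).image Prod.fst := by
        rw [image_image]; rfl
      rw [this]; exact card_image_le
    have a2 : (A.image fun i => (x n i).lab (B.levc n (v n + w n * y')) (B.levc n (r n))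
        (QL B n (v n) (r n) (t n) (w n) 0)).card ≤ 675 := by
      rw [← prod_K4]
      refine card_lab_le _ (x n) (x n s) (fun s' hs' => (mem_cls.1 hs').2) (fun s' hs' j => ?_)
      obtain ⟨c1, c2⟩ := mem_cls.1 hs'
      refine co_fine_close hlev le_rfl hwall c2 ?_ j
      exact (lab_nested (fun k => QL_zero_le_nat4 B n _ _ _ _ k) (h4.2.2 s' c1)).trans
        (lab_nested (fun k => QL_zero_le_nat4 B n _ _ _ _ k) (h4.2.2 s hs)).symm
    have a3 : ((A.image fun i => (x n i).lab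
        (B.levc n (v n + w n * R4)) (B.levc n (r n + w n * R5))
        (QL B n (v n) (r n) (t n) (w n) 0)).card : ℝ) ≤ b *
        (A.image fun i => (x n i).lab (B.levc n (v n + w n * y')) (B.levc n (r n))
        (QL B n (v n) (r n) (t n) (w n) 0)).card := by
      refine Ex926.card_image_le_mul A _ _ fun s' hs' => ?_
      have c1 := (mem_cls.1 hs').1
      refine le_trans ?_ (hch s' c1)
      exact_mod_cast card_le_card (image_subset_image (cls_mono (cls_subset _ _ _) _ _))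
    have a1' : ((A.image fun s => (x n s).cell (B.levc n (v n + w n * R4))
        (B.levc n (r n + w n * R5))).card : ℝ) ≤ (A.image fun i => (x n i).lab
        (B.levc n (v n + w n * R4)) (B.levc n (r n + w n * R5))
        (QL B n (v n) (r n) (t n) (w n) 0)).card := by exact_mod_cast a1
    have a2' : ((A.image fun i => (x n i).lab (B.levc n (v n + w n * y')) (B.levc n (r n))
        (QL B n (v n) (r n) (t n) (w n) 0)).card : ℝ) ≤ 675 := by exact_mod_cast a2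
    calc _ ≤ _ := a1'
      _ ≤ _ := a3
      _ ≤ b * 675 := mul_le_mul_of_nonneg_left a2' hbpos.le
      _ = 675 * b := by ring
  have hM : ∀ s ∈ D.I, ((Ex926.cls D.I (fun s => (D.x s).cell (B.levc n (v n + w n * y')) D.j₀) s).image
      fun s => (D.x s).cell D.i₁ D.j₁).card ≤ ⌊675 * b⌋₊ := fun s hs => Nat.le_floor (hMr s hs)
  have hyy : ((1 : ℝ) / 2) ^ D.i₀ * D.ρ ^ y ≤ (1 / 2) ^ (B.levc n (v n + w n * y')) := by
    have hρ : D.ρ = B'.d n := rfl
    have hi0 : D.i₀ = B.levc n (v n) := rfl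
    rw [hρ, hi0]
    rcases le_total y δ with hyd | hyd
    · have : y' = 0 := by rw [hy']; exact max_eq_right (by linarith)
      rw [this, mul_zero, add_zero]
      have e1 : B'.d n ^ y ≤ 1 := Real.rpow_le_one (B'.pos n).le (B'.lt n).le hy0
      exact mul_le_of_le_one_right (by positivity) e1
    · have e0 : y' = y - δ := by rw [hy']; exact max_eq_left (by linarith)
      have e1 := half_pow_levc_le B n (v n)
      have e2 := le_half_pow_levc B n (t := v n + w n * y')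
        (by have := h.v0 n; nlinarith [mul_nonneg hw.le hy'0])
      refine le_trans ?_ e2
      have e3 : B.d n ^ (v n + w n * y') = B.d n ^ (v n) * B'.d n ^ y' := by
        rw [rp, h.dd n, ← Real.rpow_mul (B.pos n).le]
      have e4 : B'.d n ^ y = B'.d n ^ y' * B'.d n ^ δ := by
        rw [← rp]; congr 1; linarith
      rw [e3, e4]
      have p1 := Real.rpow_pos_of_pos (B.pos n) (v n)
      have p2 := Real.rpow_pos_of_pos (B'.pos n) y'
      have p3 := Real.rpow_pos_of_pos (B'.pos n) δ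
      calc _ ≤ B.d n ^ (v n) * (B'.d n ^ y' * (1 / 2)) := by gcongr
        _ = _ := by ring
  have := ZD.hbox_le h3 (y := y) (i := B.levc n (v n + w n * y'))
    (B.levc_mono n (by nlinarith [mul_le_mul_of_nonneg_left hy'R hw.le])) hyy hM hk
  have h6 : ((D.cfg.hbox y k).card : ℝ) ≤ (⌊675 * b⌋₊ : ℝ) * 3 := by exact_mod_cast this
  have h7 : (⌊675 * b⌋₊ : ℝ) ≤ 675 * b := Nat.floor_le (by positivity)
  linarith

/-- a trivial configuration -/
def dummyCfg (ρ : ℝ) : Cfg where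
  ρ := ρ
  L := {0}
  Z := {0}
  I := {(0, 0)}
  a _ := 0
  b _ := 0
  c _ := 0
  d _ := 0
  z _ := 0
  f _ := 0

theorem dummyCfg.bd (ρ : ℝ) : (dummyCfg ρ).Bd := by
  constructor <;> intro i hi <;> simp [dummyCfg]

open Classical in
/-- the sequence of configurations of the classes -/
noncomputable def clsCfg (B B' : Base) (x : ∀ n, ι n → Inc) (v r t w : ℕ → ℝ)
    (C : ∀ n, Finset (ι n)) (s₀ : ∀ n, ι n) (Rp R4 R5 : ℝ) (n : ℕ) : Cfg :=
  if (zdat B B' x v r t w C s₀ Rp R4 R5 n).Ok then (zdat B B' x v r t w C s₀ Rp R4 R5 n).cfg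
  else dummyCfg (B'.d n)

theorem ClsSeq.cfg_eq (h : ClsSeq B B' I x v r t w T lam C s₀) (hRp : 0 ≤ Rp) (hR4 : 0 ≤ R4)
    (hR5 : 0 ≤ R5) : ∀ᶠ n in (U : Filter ℕ), clsCfg B B' x v r t w C s₀ Rp R4 R5 n =
      (zdat B B' x v r t w C s₀ Rp R4 R5 n).cfg := by
  filter_upwards [h.ok hRp hR4 hR5] with n hn
  unfold clsCfg; rw [if_pos hn]

/-- **Raw F-model of a sequence of classes.** Hypotheses on the tangent function `lam`: separation
of (fat lines) and (heights), Frostman bound for the heights. -/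
theorem rawM_of_class (h : ClsSeq B B' I x v r t w T lam C s₀) {R σ : ℝ} (hR : 0 < R)
    (hRp : 0 ≤ Rp) (hR4 : R ≤ R4) (hR5 : 0 ≤ R5) (hσ0 : 0 ≤ σ) (hσ1 : σ ≤ 1)
    (hdens : lam (dir (fun _ => Rp) R4 R5) ≤ lam (dir (fun _ => Rp) 0 0) + lam (dir 0 R4 R5))
    (hfrost : ∀ y, 0 ≤ y → y ≤ R → lam (dir 0 y 0) ≤ -(σ * y)) :
    RawM B' (clsCfg B B' x v r t w C s₀ Rp R4 R5) σ R := by
  have hR4' : 0 ≤ R4 := hR.le.trans hR4
  have heq := h.cfg_eq hRp hR4' hR5
  refine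
    { base := fun n => ?_
      sub := fun n => ?_
      nonempty := fun n => ?_
      bd := fun n => ?_
      R_pos := hR
      σ_nonneg := hσ0
      σ_le := hσ1
      pb := ?_
      dense := fun ε hε => ?_
      frost := fun y hy0 hyR ε hε => ?_ }
  · unfold clsCfg; split_ifs <;> rfl
  · unfold clsCfg
    split_ifs with hok
    · exact ZD.sub
    · simp [dummyCfg]
  · unfold clsCfg
    split_ifs with hok
    · exact hok.nonempty
    · simp [dummyCfg]
  · unfold clsCfg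
    split_ifs with hok
    · exact hok.bd
    · exact dummyCfg.bd _
  · refine ⟨max (-(lam (dir (fun _ => Rp) 0 0) + lam (dir 0 R4 R5) - 2)) 0, le_max_right _ _, ?_⟩
    filter_upwards [heq, h.card_L_le (R4 := R4) (R5 := R5) hRp one_pos,
      h.card_Z_le (Rp := Rp) hR4' hR5 one_pos] with n h1 h2 h3
    rw [h1]
    have e1 : B'.d n ^ (lam (dir (fun _ => Rp) 0 0) - 1) * B'.d n ^ (lam (dir 0 R4 R5) - 1) =
        B'.d n ^ (lam (dir (fun _ => Rp) 0 0) + lam (dir 0 R4 R5) - 2) := by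
      rw [← rp]; congr 1; ring
    calc _ ≤ B'.d n ^ (lam (dir (fun _ => Rp) 0 0) - 1) * B'.d n ^ (lam (dir 0 R4 R5) - 1) :=
          mul_le_mul h2 h3 (Nat.cast_nonneg _) (Real.rpow_pos_of_pos (B'.pos n) _).le
      _ = B'.d n ^ (lam (dir (fun _ => Rp) 0 0) + lam (dir 0 R4 R5) - 2) := e1
      _ ≤ _ := by
        refine Real.rpow_le_rpow_of_exponent_ge (B'.pos n) (B'.lt n).le ?_
        have := le_max_left (-(lam (dir (fun _ => Rp) 0 0) + lam (dir 0 R4 R5) - 2)) 0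
        linarith
  · have hε4 : 0 < ε / 4 := by positivity
    filter_upwards [heq, h.card_L_le (R4 := R4) (R5 := R5) hRp hε4,
      h.card_Z_le (Rp := Rp) hR4' hR5 hε4, h.le_card_I hRp hR4' hR5 hε4,
      B'.ev_rpow_small hε4 (c := 1 / 675) (by norm_num)] with n h1 h2 h3 h4 h5
    rw [h1]
    have hp : ∀ s : ℝ, 0 < B'.d n ^ s := fun s => Real.rpow_pos_of_pos (B'.pos n) s
    have e1 : B'.d n ^ ε * (B'.d n ^ (lam (dir (fun _ => Rp) 0 0) - ε / 4) *
        B'.d n ^ (lam (dir 0 R4 R5) - ε / 4)) =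
        B'.d n ^ (lam (dir (fun _ => Rp) 0 0) + lam (dir 0 R4 R5) + ε / 4) * B'.d n ^ (ε / 4) := by
      rw [← rp, ← rp, ← rp]; congr 1; ring
    have e2 : B'.d n ^ (lam (dir (fun _ => Rp) 0 0) + lam (dir 0 R4 R5) + ε / 4) ≤
        B'.d n ^ (lam (dir (fun _ => Rp) R4 R5) + ε / 4) :=
      Real.rpow_le_rpow_of_exponent_ge (B'.pos n) (B'.lt n).le (by linarith)
    calc _ ≤ B'.d n ^ ε * (B'.d n ^ (lam (dir (fun _ => Rp) 0 0) - ε / 4) *
          B'.d n ^ (lam (dir 0 R4 R5) - ε / 4)) := by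
          refine mul_le_mul_of_nonneg_left ?_ (hp _).le
          exact mul_le_mul h2 h3 (Nat.cast_nonneg _) (hp _).le
      _ = _ := e1
      _ ≤ (675 * ((zdat B B' x v r t w C s₀ Rp R4 R5 n).cfg.I.card : ℝ)) * (1 / 675) := by
          refine mul_le_mul (e2.trans h4) h5 (hp _).le (by positivity)
      _ = _ := by ring
  · set δ : ℝ := ε / (4 * (σ + 1)) with hδdef
    have hδ : 0 < δ := by positivity
    have hσδ : σ * δ ≤ ε / 4 := by
      have : δ * (4 * (σ + 1)) = ε := by rw [hδdef]; field_simp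
      nlinarith
    have hε4 : 0 < ε / 8 := by positivity
    filter_upwards [heq, h.hbox_le (R5 := R5) hRp hR4' hR5 hy0 (hyR.trans hR4) hδ hε4,
      h.le_card_Z hRp hR4' hR5 hε4, B'.ev_rpow_small hε4 (c := 1 / (2025 * 675)) (by norm_num)] with
      n h1 h2 h3 h4 k hk
    rw [h1] at hk ⊢
    refine (h2 k hk).trans ?_
    set y' := max (y - δ) 0 with hy'
    have hy'0 : 0 ≤ y' := le_max_right _ _
    have hy'R : y' ≤ R := max_le (by linarith) hR.le
    have hfr := hfrost y' hy'0 hy'R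
    have hyy : y - δ ≤ y' := le_max_left _ _
    have hp : ∀ s : ℝ, 0 < B'.d n ^ s := fun s => Real.rpow_pos_of_pos (B'.pos n) s
    set Zc : ℝ := ((zdat B B' x v r t w C s₀ Rp R4 R5 n).cfg.Z.card : ℝ) with hZc
    have e1 : B'.d n ^ (-(lam (dir 0 y' 0) - lam (dir 0 R4 R5) + ε / 8)) =
        B'.d n ^ (-(lam (dir 0 y' 0)) - 3 * (ε / 8)) * B'.d n ^ (ε / 8) *
          B'.d n ^ (lam (dir 0 R4 R5) + ε / 8) := by
      rw [← rp, ← rp]; congr 1; ring
    have e2 : B'.d n ^ (-(lam (dir 0 y' 0)) - 3 * (ε / 8)) ≤ B'.d n ^ (σ * y - ε) := by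
      refine Real.rpow_le_rpow_of_exponent_ge (B'.pos n) (B'.lt n).le ?_
      have := mul_le_mul_of_nonneg_left hyy hσ0
      nlinarith
    calc 2025 * B'.d n ^ (-(lam (dir 0 y' 0) - lam (dir 0 R4 R5) + ε / 8))
        = 2025 * (B'.d n ^ (-(lam (dir 0 y' 0)) - 3 * (ε / 8)) * B'.d n ^ (ε / 8) *
          B'.d n ^ (lam (dir 0 R4 R5) + ε / 8)) := by rw [e1]
      _ ≤ 2025 * (B'.d n ^ (σ * y - ε) * (1 / (2025 * 675)) * (675 * Zc)) := by
          refine mul_le_mul_of_nonneg_left ?_ (by norm_num)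
          refine mul_le_mul (mul_le_mul e2 h4 (hp _).le (hp _).le) h3 (hp _).le ?_
          exact mul_nonneg (hp _).le (by norm_num)
      _ = B'.d n ^ (σ * y - ε) * Zc := by ring

end

end Crest.Agent.R138.Ex926
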