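import Crest.Agent.R138.Qf5_926

/-!
# R138: exponents of the F-models inside one class (helper926)

`fmodel_ident` : for every F-model `G'` inside the configurations of a sequence of classes which
keeps a sub-polynomial part of the incidences, `ν' p = lam (p; R4, R5) - lam (Rp; R4, R5)`.
-/

set_option autoImplicit false
set_option linter.unusedSectionVars false
set_option linter.unusedVariables false

open Filter Topology MeasureTheory
open scoped NNReal

namespace Crest.Agent.R138.Ex926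

open Finset Flg101 FM501

theorem SubCfg.co {G' G : Cfg} (h : SubCfg G' G) (k i : ℕ) : G'.co k i = G.co k i := by
  simp only [Cfg.co, Cfg.N, Cfg.P, Cfg.X, h.a, h.b, h.c, h.d, h.z, h.f]

theorem SubCfg.near {G' G : Cfg} (h : SubCfg G' G) (p : Fin 4 → ℝ) (k i i' : ℕ) :
    G'.near p k i i' ↔ G.near p k i i' := by
  simp only [Cfg.near, h.co, h.ρ]

theorem SubCfg.box_sub {G' G : Cfg} (h : SubCfg G' G) (p : Fin 4 → ℝ) (i k : ℕ) :
    G'.box p i k ⊆ G.box p i k := by
  intro y hy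
  simp only [Cfg.box, Cfg.slice, mem_filter] at hy ⊢
  exact ⟨⟨h.L hy.1.1, h.I hy.1.2⟩, (h.near p k i y).1 hy.2⟩

/-- two incidences in the same class of level `(i₁, j₁; q)` have near fat lines -/
theorem ZD_near {α : Type*} [DecidableEq α] {D : ZD α} (h : D.Ok) {p : Fin 4 → ℝ} {q : Fin 4 → ℕ}
    (hq : ∀ j, q j ≤ D.pr j)
    (hp : ∀ j, 9 * (1 / 2) ^ q j ≤ 8 * (1 / 2) ^ (nat4 D.i₀ D.j₀ D.t j) * D.ρ ^ p j)
    {s s' : α} (hs : s ∈ D.I) (hs' : s' ∈ D.I)
    (hlab : (D.x s').lab D.i₁ D.j₁ q = (D.x s).lab D.i₁ D.j₁ q) :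
    D.zcode (D.x s') = D.zcode (D.x s) ∧
      D.cfg.near p (D.zcode (D.x s)) (D.lcode (D.x s)) (D.lcode (D.x s')) := by
  have h3 := lab_eq_iff.1 hlab
  have hz : D.zcode (D.x s') = D.zcode (D.x s) := by unfold ZD.zcode; rw [h3.1]
  refine ⟨hz, ?_⟩
  rw [ZD.near_iff]
  intro j
  have h4 := ZD.rep_close h hs j
  have h5 := ZD.rep_close h hs' j
  rw [hz] at h5
  have h6 := dist_of_floor (h3.2 j)
  have h7 : ((1:ℝ) / 2) ^ D.pr j ≤ (1 / 2) ^ q j :=
    pow_le_pow_of_le_one (by norm_num) (by norm_num) (hq j)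
  have h8 : (K4 j : ℝ) ≤ 4 := by fin_cases j <;> simp [K4] <;> norm_num
  have h9 : (K4 j : ℝ) * (1 / 2) ^ D.pr j ≤ 4 * (1 / 2) ^ q j := by gcongr
  have h10 := hp j
  refine le_trans ?_ h10
  rw [abs_le] at *
  constructor <;> linarith [h4.1, h4.2, h5.1, h5.2, h6.1, h6.2]

variable {ι : ℕ → Type*} [∀ n, DecidableEq (ι n)]
variable {B B' : Base} {I : ∀ n, Finset (ι n)} {x : ∀ n, ι n → Inc} {v r t w T : ℕ → ℝ}
  {lam : (Fin 6 → ℝ) → ℝ} {C : ∀ n, Finset (ι n)} {s₀ : ∀ n, ι n} {Rp R4 R5 : ℝ}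

/-- comparison of sides, upper form -/
theorem ClsSeq.side_up (h : ClsSeq B B' I x v r t w T lam C s₀) {δ : ℝ} (hδ : 0 < δ) :
    ∀ᶠ n in (U : Filter ℕ), ∀ p : Fin 4 → ℝ, (∀ j, 0 ≤ p j) → ∀ j,
      ((1 : ℝ) / 2) ^ (nat4 (B.levc n (v n)) (B.levc n (r n)) (B.levc n (t n)) j) *
        B'.d n ^ p j ≤
      (1 / 2) ^ (QL B n (v n) (r n) (t n) (w n) (fun j => max (p j - δ) 0) j) := by
  filter_upwards [B'.ev_rpow_small hδ (c := 1 / 2) (by norm_num)] with n h5 p hp j
  have hw := h.w0 n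
  set p' : Fin 4 → ℝ := fun j => max (p j - δ) 0 with hp'
  rcases le_total (p j) δ with hyd | hyd
  · have e0 : p' j = 0 := by simp only [hp']; exact max_eq_right (by linarith)
    have e1 : B'.d n ^ p j ≤ 1 := Real.rpow_le_one (B'.pos n).le (B'.lt n).le (hp j)
    refine (mul_le_of_le_one_right (by positivity) e1).trans ?_
    refine pow_le_pow_of_le_one (by norm_num) (by norm_num) ?_
    refine le_trans (le_of_eq ?_) (QL_zero_le_nat4 B n (v n) (r n) (t n) (w n) j)
    revert e0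
    fin_cases j
    · intro e0; exact congrArg (fun s => B.lev n (t n + v n + r n + w n * s)) e0
    · intro e0; exact congrArg (fun s => B.levc n (t n + r n + w n * s)) e0
    · intro e0; exact congrArg (fun s => B.levc n (t n + w n * s)) e0
    · intro e0; exact congrArg (fun s => B.lev n (t n + v n + w n * s)) e0
  · have e0 : p' j = p j - δ := by simp only [hp']; exact max_eq_left (by linarith)
    have e1 := half_nat4_le B n (v n) (r n) (t n) j
    have e2 := le_half_QL B n (p := p') (h.v0 n) (h.r0 n) (h.t0 n) hw.le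
      (fun j => le_max_right _ _) j
    refine le_trans ?_ e2
    have e3 : B.d n ^ (X4 (v n) (r n) (t n) j + w n * p' j) =
        B.d n ^ (X4 (v n) (r n) (t n) j) * B'.d n ^ p' j := by
      rw [rp, h.dd n, ← Real.rpow_mul (B.pos n).le]
    have e4 : B'.d n ^ p j = B'.d n ^ p' j * B'.d n ^ δ := by
      rw [← rp, e0]; congr 1; ring
    rw [e3, e4]
    have p1 := Real.rpow_pos_of_pos (B.pos n) (X4 (v n) (r n) (t n) j)
    have p2 := Real.rpow_pos_of_pos (B'.pos n) (p' j)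
    have p3 := Real.rpow_pos_of_pos (B'.pos n) δ
    calc _ ≤ B.d n ^ (X4 (v n) (r n) (t n) j) * (B'.d n ^ p' j * (1 / 2)) := by gcongr
      _ = _ := by ring

/-- comparison of sides, lower form -/
theorem ClsSeq.side_low (h : ClsSeq B B' I x v r t w T lam C s₀) {δ : ℝ} (hδ : 0 < δ) :
    ∀ᶠ n in (U : Filter ℕ), ∀ p : Fin 4 → ℝ, (∀ j, 0 ≤ p j) → ∀ j,
      9 * ((1 : ℝ) / 2) ^ (QL B n (v n) (r n) (t n) (w n) (fun j => p j + δ) j) ≤
      8 * (1 / 2) ^ (nat4 (B.levc n (v n)) (B.levc n (r n)) (B.levc n (t n)) j) *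
        B'.d n ^ p j := by
  filter_upwards [B'.ev_rpow_small hδ (c := 1 / 18) (by norm_num)] with n h5 p hp j
  have e1 := le_half_nat4 B n (h.v0 n) (h.r0 n) (h.t0 n) j
  have e2 := half_QL_le B n (v n) (r n) (t n) (w n) (fun j => p j + δ) j
  have e3 : B.d n ^ (X4 (v n) (r n) (t n) j + w n * (p j + δ)) =
      B.d n ^ (X4 (v n) (r n) (t n) j) * (B'.d n ^ p j * B'.d n ^ δ) := by
    rw [← rp B' n, rp, h.dd n, ← Real.rpow_mul (B.pos n).le]
  rw [e3] at e2
  have p1 := Real.rpow_pos_of_pos (B.pos n) (X4 (v n) (r n) (t n) j)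
  have p2 := Real.rpow_pos_of_pos (B'.pos n) (p j)
  have p3 := Real.rpow_pos_of_pos (B'.pos n) δ
  calc 9 * ((1 : ℝ) / 2) ^ (QL B n (v n) (r n) (t n) (w n) (fun j => p j + δ) j)
      ≤ 9 * (2 * (B.d n ^ (X4 (v n) (r n) (t n) j) * (B'.d n ^ p j * B'.d n ^ δ))) := by gcongr
    _ ≤ 9 * (2 * (B.d n ^ (X4 (v n) (r n) (t n) j) * (B'.d n ^ p j * (1 / 18)))) := by gcongr
    _ = 8 * (B.d n ^ (X4 (v n) (r n) (t n) j) / 8) * B'.d n ^ p j := by ring
    _ ≤ _ := by gcongr

/-- **identification of the exponents** -/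
theorem fmodel_ident (h : ClsSeq B B' I x v r t w T lam C s₀) {R σ K : ℝ} (hR : 0 < R)
    (hRp : R < Rp) (hR4 : Rp ≤ R4) (hR5 : Rp ≤ R5) (hK : 0 ≤ K)
    (hlip : ∀ c ∈ D6, ∀ c' ∈ D6, |lam c - lam c'| ≤ K * ‖c - c'‖)
    {G' : ℕ → Cfg} {ν' : (Fin 4 → ℝ) → ℝ} {S : ℕ → ℝ} (hF : FModel B' G' σ R ν')
    (hsub : ∀ n, SubCfg (G' n) (clsCfg B B' x v r t w C s₀ Rp R4 R5 n)) (hS : B'.Sub S)
    (hcard : ∀ᶠ n in (U : Filter ℕ),
      ((clsCfg B B' x v r t w C s₀ Rp R4 R5 n).I.card : ℝ) ≤ S n * (G' n).I.card)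
    {p : Fin 4 → ℝ} (hp : ∀ j, 0 ≤ p j ∧ p j ≤ R) :
    ν' p = lam (dir p R4 R5) - lam (dir (fun _ => Rp) R4 R5) := by
  have hRp0 : 0 ≤ Rp := hR.le.trans hRp.le
  have hR40 : 0 ≤ R4 := hRp0.trans hR4
  have hR50 : 0 ≤ R5 := hRp0.trans hR5
  have heq := h.cfg_eq hRp0 hR40 hR50
  have hok := h.ok hRp0 hR40 hR50
  set Mx : ℝ := max R4 R5 with hMx
  have hMp : ∀ q : Fin 4 → ℝ, (∀ j, 0 ≤ q j ∧ q j ≤ Rp) → ‖dir q R4 R5‖ ≤ Mx := fun q hq =>
    norm_dir_le (fun j => by
      rw [abs_of_nonneg (hq j).1]; exact (hq j).2.trans (hR4.trans (le_max_left _ _)))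
      (by rw [abs_of_nonneg hR40]; exact le_max_left _ _)
      (by rw [abs_of_nonneg hR50]; exact le_max_right _ _)
  have hcI : dir (fun _ => Rp) R4 R5 ∈ D6 := dir_const_mem_D6 hRp0 hR40 hR50
  have hdn : ∀ {q : Fin 4 → ℝ} {η : ℝ}, (∀ j, |q j - p j| ≤ η) → 0 ≤ η →
      ‖dir q R4 R5 - dir p R4 R5‖ ≤ η := by
    intro q η hq hη
    refine (pi_norm_le_iff_of_nonneg hη).2 fun i => ?_
    rw [Real.norm_eq_abs]
    fin_cases i
    · exact hq 0
    · exact hq 1
    · exact hq 2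
    · exact hq 3
    · show |R4 - R4| ≤ η; simpa using hη
    · show |R5 - R5| ≤ η; simpa using hη
  have hlt : ∀ {a b : ℝ}, (∃ᶠ n in (U : Filter ℕ), B'.d n ^ a ≤ B'.d n ^ b) → b ≤ a := by
    intro a b hab
    obtain ⟨n, hn⟩ := hab.exists
    by_contra hcon
    push Not at hcon
    exact absurd hn (not_le.2 (Real.rpow_lt_rpow_of_exponent_gt (B'.pos n) (B'.lt n) hcon))
  refine le_antisymm ?_ ?_
  · -- upper bound for `ν'`
    refine le_of_forall_pos_le_add fun ε hε => ?_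
    set δ : ℝ := ε / (4 * (K + 1)) with hδdef
    have hδ : 0 < δ := by positivity
    have hKδ : K * δ ≤ ε / 4 := by
      have : δ * (4 * (K + 1)) = ε := by rw [hδdef]; field_simp
      nlinarith
    have hε4 : 0 < ε / 4 := by positivity
    set p' : Fin 4 → ℝ := fun j => max (p j - δ) 0 with hp'
    have hp'0 : ∀ j, 0 ≤ p' j ∧ p' j ≤ Rp := fun j =>
      ⟨le_max_right _ _, max_le (by linarith [(hp j).2]) hRp0⟩
    have hp'D : dir p' R4 R5 ∈ D6 := dir_mem_D6 hp'0 hR4 hR5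
    have hpD : dir p R4 R5 ∈ D6 :=
      dir_mem_D6 (fun j => ⟨(hp j).1, (hp j).2.trans hRp.le⟩) hR4 hR5
    have hl := hlip _ hp'D _ hpD
    have hn : ‖dir p' R4 R5 - dir p R4 R5‖ ≤ δ := hdn (fun j => by
      simp only [hp']
      rcases le_total (p j - δ) 0 with h1 | h1
      · rw [max_eq_right h1, zero_sub, abs_neg, abs_of_nonneg (hp j).1]; linarith
      · rw [max_eq_left h1]; rw [abs_le]; constructor <;> linarith) hδ.le
    have hl2 := (abs_le.1 hl).2
    have hl3 := mul_le_mul_of_nonneg_left hn hK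
    have hfreq : ∀ᶠ n in (U : Filter ℕ), B'.d n ^ (-ν' p + ε / 4) ≤
        B'.d n ^ (-(lam (dir p' R4 R5) - lam (dir (fun _ => Rp) R4 R5) + ε / 4) - ε / 4) := by
      filter_upwards [heq, hok, h.child_count Mx hε4, h.side_up hδ, hF.unif p hp (ε / 4) hε4,
        B'.ev_rpow_small hε4 (c := 1 / (675 * 433125)) (by norm_num)] with n h1 h2 h3 h4 h5 h6
      obtain ⟨⟨l, k⟩, hlk⟩ := hF.nonempty n
      have a1 := (h5 l k hlk).1
      have hlk' : (l, k) ∈ (zdat B B' x v r t w C s₀ Rp R4 R5 n).cfg.I := by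
        rw [← h1]; exact (hsub n).I hlk
      set b : ℝ := B'.d n ^ (-(lam (dir p' R4 R5) - lam (dir (fun _ => Rp) R4 R5) + ε / 4)) with hb
      have hbpos : 0 < b := Real.rpow_pos_of_pos (B'.pos n) _
      have a2 := ZD.box_le h2 (p := p) (q := QL B n (v n) (r n) (t n) (w n) p')
        (fun j => QL_mono B n (h.w0 n).le (fun j => (hp'0 j).2) j)
        (fun j => h4 p (fun j => (hp j).1) j) (M := ⌊b⌋₊) (fun s hs => by
          refine Nat.le_floor ?_
          have := h3 (dir p' R4 R5) hp'D (hMp p' hp'0) (dir (fun _ => Rp) R4 R5) hcI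
            (hMp _ fun _ => ⟨hRp0, le_rfl⟩) (dir_mono (fun j => (hp'0 j).2) le_rfl le_rfl) s hs
          rw [flab_dir, flab_dir] at this
          exact this) hlk'
      have a3 : (((G' n).box p l k).card : ℝ) ≤ 675 * (b * 433125) := by
        have e1 : (((G' n).box p l k).card : ℝ) ≤
            ((zdat B B' x v r t w C s₀ Rp R4 R5 n).cfg.box p l k).card := by
          rw [← h1]; exact_mod_cast card_le_card ((hsub n).box_sub p l k)
        have e2 : (((zdat B B' x v r t w C s₀ Rp R4 R5 n).cfg.box p l k).card : ℝ) ≤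
            675 * ((⌊b⌋₊ : ℝ) * 433125) := by exact_mod_cast a2
        have e3 : (⌊b⌋₊ : ℝ) ≤ b := Nat.floor_le hbpos.le
        linarith
      refine a1.trans (a3.trans ?_)
      have p4 := Real.rpow_pos_of_pos (B'.pos n) (ε / 4)
      have e4 : B'.d n ^ (-(lam (dir p' R4 R5) - lam (dir (fun _ => Rp) R4 R5) + ε / 4) - ε / 4) *
          B'.d n ^ (ε / 4) = b := by rw [hb, ← rp]; congr 1; ring
      have p5 := Real.rpow_pos_of_pos (B'.pos n)
        (-(lam (dir p' R4 R5) - lam (dir (fun _ => Rp) R4 R5) + ε / 4) - ε / 4)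
      calc 675 * (b * 433125) = b * (675 * 433125) := by ring
        _ = B'.d n ^ (-(lam (dir p' R4 R5) - lam (dir (fun _ => Rp) R4 R5) + ε / 4) - ε / 4) *
            (B'.d n ^ (ε / 4) * (675 * 433125)) := by rw [← e4]; ring
        _ ≤ B'.d n ^ (-(lam (dir p' R4 R5) - lam (dir (fun _ => Rp) R4 R5) + ε / 4) - ε / 4) *
            (1 / (675 * 433125) * (675 * 433125)) := by gcongr
        _ = _ := by norm_num
    have := hlt hfreq.frequently
    linarith
  · -- lower bound for `ν'`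
    refine le_of_forall_pos_le_add fun ε hε => ?_
    set δ : ℝ := min (ε / (4 * (K + 1))) (Rp - R) with hδdef
    have hδ : 0 < δ := lt_min (by positivity) (by linarith)
    have hKδ : K * δ ≤ ε / 4 := by
      have h1 : δ ≤ ε / (4 * (K + 1)) := min_le_left _ _
      rw [le_div_iff₀ (by positivity)] at h1
      nlinarith
    have hδR : δ ≤ Rp - R := min_le_right _ _
    have hε4 : 0 < ε / 8 := by positivity
    set p' : Fin 4 → ℝ := fun j => p j + δ with hp'
    have hp'0 : ∀ j, 0 ≤ p' j ∧ p' j ≤ Rp := fun j => by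
      simp only [hp']; exact ⟨by linarith [(hp j).1], by linarith [(hp j).2]⟩
    have hp'D : dir p' R4 R5 ∈ D6 := dir_mem_D6 hp'0 hR4 hR5
    have hpD : dir p R4 R5 ∈ D6 :=
      dir_mem_D6 (fun j => ⟨(hp j).1, (hp j).2.trans hRp.le⟩) hR4 hR5
    have hl := hlip _ hp'D _ hpD
    have hn : ‖dir p' R4 R5 - dir p R4 R5‖ ≤ δ := hdn (fun j => by
      simp only [hp', add_sub_cancel_left]; rw [abs_of_pos hδ]) hδ.le
    have hl2 := (abs_le.1 hl).1
    have hl3 := mul_le_mul_of_nonneg_left hn hK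
    have hfreq : ∀ᶠ n in (U : Filter ℕ),
        B'.d n ^ (lam (dir (fun _ => Rp) R4 R5) + ε / 8) ≤
        B'.d n ^ (-ν' p + lam (dir p' R4 R5) - 4 * (ε / 8)) := by
      filter_upwards [heq, hok, h.up_count Mx hε4, h.side_low hδ, hF.unif p hp (ε / 8) hε4,
        B'.ev_rpow_small hε4 (c := 1 / 675) (by norm_num), h.le_card_I hRp0 hR40 hR50 hε4, hcard,
        hS.ev_le hε4] with n h1 h2 h3 h4 h5 h6 h7 h8 h9
      set D := zdat B B' x v r t w C s₀ Rp R4 R5 n with hD
      have hGI : ∀ π ∈ (G' n).I, ∃ s ∈ C n, D.lcode (D.x s) = π.1 ∧ D.zcode (D.x s) = π.2 := by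
        intro π hπ
        have : π ∈ D.cfg.I := by rw [← h1]; exact (hsub n).I hπ
        exact ZD.mem_I.1 this
      have hne : ∃ s : ι n, s ∈ C n := ⟨_, h2.mem⟩
      classical
      set sel : ℕ × ℕ → ι n := fun π => if hh : π ∈ (G' n).I then (hGI π hh).choose else hne.choose
        with hsel
      have hselp : ∀ π ∈ (G' n).I, sel π ∈ C n ∧ D.lcode (D.x (sel π)) = π.1 ∧
          D.zcode (D.x (sel π)) = π.2 := by
        intro π hπ
        simp only [hsel, dif_pos hπ]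
        exact (hGI π hπ).choose_spec
      set F : ℕ × ℕ → (ℤ × ℤ) × (Fin 4 → ℤ) := fun π => (D.x (sel π)).lab D.i₁ D.j₁
        (QL B n (v n) (r n) (t n) (w n) p') with hFdef
      -- fibres are boxes
      have hfib : ∀ π ∈ (G' n).I, ((Ex926.cls (G' n).I F π).card : ℝ) ≤ B'.d n ^ (-ν' p - ε / 8) := by
        intro π hπ
        have b1 := (h5 π.1 π.2 hπ).2
        refine le_trans ?_ b1
        have hinj : Set.InjOn Prod.fst (Ex926.cls (G' n).I F π : Set (ℕ × ℕ)) := by
          intro a ha b hb hab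
          have ha' := mem_cls.1 (mem_coe.1 ha)
          have hb' := mem_cls.1 (mem_coe.1 hb)
          have c1 := (ZD_near h2 (p := p) (q := QL B n (v n) (r n) (t n) (w n) p')
            (fun j => QL_mono B n (h.w0 n).le (fun j => (hp'0 j).2) j)
            (fun j => h4 p (fun j => (hp j).1) j) (hselp π hπ).1 (hselp a ha'.1).1 ha'.2).1
          have c2 := (ZD_near h2 (p := p) (q := QL B n (v n) (r n) (t n) (w n) p')
            (fun j => QL_mono B n (h.w0 n).le (fun j => (hp'0 j).2) j)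
            (fun j => h4 p (fun j => (hp j).1) j) (hselp π hπ).1 (hselp b hb'.1).1 hb'.2).1
          rw [(hselp a ha'.1).2.2] at c1
          rw [(hselp b hb'.1).2.2] at c2
          exact Prod.ext hab (c1.trans c2.symm)
        have hsubs : (Ex926.cls (G' n).I F π).image Prod.fst ⊆ (G' n).box p π.1 π.2 := by
          intro l hl
          obtain ⟨a, ha, rfl⟩ := mem_image.1 hl
          have ha' := mem_cls.1 ha
          have c1 := ZD_near h2 (p := p) (q := QL B n (v n) (r n) (t n) (w n) p')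
            (fun j => QL_mono B n (h.w0 n).le (fun j => (hp'0 j).2) j)
            (fun j => h4 p (fun j => (hp j).1) j) (hselp π hπ).1 (hselp a ha'.1).1 ha'.2
          rw [(hselp a ha'.1).2.1, (hselp a ha'.1).2.2, (hselp π hπ).2.1, (hselp π hπ).2.2] at c1
          have hmem := mem_product.1 (hF.sub n ha'.1)
          simp only [Cfg.box, Cfg.slice, mem_filter]
          refine ⟨⟨hmem.1, ?_⟩, ?_⟩
          · rw [← c1.1]; exact ha'.1
          · rw [(hsub n).near, h1]; exact c1.2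
        have := card_le_card hsubs
        rw [card_image_of_injOn hinj] at this
        exact_mod_cast this
      have hcnt := le_count_mul (G' n).I (fun _ => (1 : ℝ)) F (m := B'.d n ^ (-ν' p - ε / 8))
        (fun π hπ => by rw [sum_const, nsmul_eq_mul, mul_one]; exact hfib π hπ)
      rw [sum_const, nsmul_eq_mul, mul_one] at hcnt
      have himg : (((G' n).I.image F).card : ℝ) ≤ B'.d n ^ (lam (dir p' R4 R5) - ε / 8) := by
        have c1 := h3 (dir p' R4 R5) hp'D (hMp p' hp'0)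
        rw [flab_dir] at c1
        refine le_trans ?_ c1
        have : (G' n).I.image F ⊆ (C n).image (fun i => (x n i).lab (B.levc n (v n + w n * R4))
            (B.levc n (r n + w n * R5)) (QL B n (v n) (r n) (t n) (w n) p')) := by
          intro y hy
          obtain ⟨π, hπ, rfl⟩ := mem_image.1 hy
          exact mem_image.2 ⟨sel π, (hselp π hπ).1, rfl⟩
        exact_mod_cast card_le_card this
      have hpos : ∀ s : ℝ, 0 < B'.d n ^ s := fun s => Real.rpow_pos_of_pos (B'.pos n) s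
      rw [h1] at h8
      have hSn : S n ≤ B'.d n ^ (-(ε / 8)) := by
        rw [← B'.exp_eq, ← Real.log_le_iff_le_exp h9.1]; exact h9.2
      calc B'.d n ^ (lam (dir (fun _ => Rp) R4 R5) + ε / 8) ≤ 675 * (D.cfg.I.card : ℝ) := h7
        _ ≤ 675 * (S n * (G' n).I.card) := by gcongr
        _ ≤ 675 * (B'.d n ^ (-(ε / 8)) * (B'.d n ^ (-ν' p - ε / 8) *
            B'.d n ^ (lam (dir p' R4 R5) - ε / 8))) := by
            refine mul_le_mul_of_nonneg_left ?_ (by norm_num)
            refine mul_le_mul hSn (hcnt.trans ?_) (Nat.cast_nonneg _) (hpos _).le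
            exact mul_le_mul_of_nonneg_left himg (hpos _).le
        _ = 675 * (B'.d n ^ (ε / 8) * B'.d n ^ (-ν' p + lam (dir p' R4 R5) - 4 * (ε / 8))) := by
            rw [← rp, ← rp, ← rp]; congr 2; ring
        _ ≤ 675 * (1 / 675 * B'.d n ^ (-ν' p + lam (dir p' R4 R5) - 4 * (ε / 8))) := by
            refine mul_le_mul_of_nonneg_left ?_ (by norm_num)
            exact mul_le_mul_of_nonneg_right h6 (hpos _).le
        _ = _ := by ring
    have := hlt hfreq.frequently
    linarith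

end Crest.Agent.R138.Ex926
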