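import Crest.Agent.R138.RR2_323

/-!
# R138 wave side: re-rooting (helper323), part 3: plate systems
-/

set_option autoImplicit false

open MeasureTheory FourierTransform
open scoped ContDiff ENNReal

namespace Crest.Agent.R138.W323

open Crest.Agent.R138.Defs Crest.Agent.R138.Bil882 Crest.Agent.R138.W188
open Crest.Agent.R138.Wpk685

/-- contribution of one plate. -/
noncomputable def tm (h : E2 → ℝ) (g : E2 → ℂ) (r s1 s2 : ℝ) (p : Plate) : ℝ≥0∞ :=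
  ENNReal.ofReal ((s1 * s2 * r ^ 3) ^ (-(1/2) : ℝ)) *
    (ENNReal.ofReal r * en (r ^ (-(1/2) : ℝ)) (tr h p.z g) p.S) ^ (3 / 2 : ℝ)

theorem val_eq (h : E2 → ℝ) (g : E2 → ℂ) (r s1 s2 : ℝ) (I : Finset ℕ) (P : ℕ → Plate) :
    val h g r s1 s2 I P = ∑ i ∈ I, tm h g r s1 s2 (P i) := rfl

/-- plate systems with arbitrary index set. -/
structure PlG {κ : Type*} (A : ℝ) (h : E2 → ℝ) (r s1 s2 R : ℝ) (s : Finset κ) (Q : κ → Plate) :
    Prop where
  mem : ∀ i ∈ s, (Q i).z ∈ cyl R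
  sep : ∀ i ∈ s, ∀ j ∈ s, (Q i).z = (Q j).z ∨
    r ≤ ‖(Q i).z.1 - (Q j).z.1‖ ∨ r ≤ |(Q i).z.2 - (Q j).z.2|
  x : ∀ i ∈ s, ‖(Q i).x‖ ≤ A * r
  meas : ∀ i ∈ s, ∀ m, MeasurableSet ((Q i).S m)
  box : ∀ i ∈ s, ∀ m, (Q i).S m ⊆ pbox h r (Q i).c (Q i).b (fun k => A * (![s1, s2] k)) (Q i).x m
  disj : ∀ i ∈ s, ∀ j ∈ s, i ≠ j → (Q i).z = (Q j).z → ∀ m, Disjoint ((Q i).S m) ((Q j).S m)

theorem _root_.Crest.Agent.R138.W188.Plates.plG {A : ℝ} {h : E2 → ℝ} {r s1 s2 R : ℝ}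
    {I : Finset ℕ} {P : ℕ → Plate} (hP : Plates A h r s1 s2 R I P) : PlG A h r s1 s2 R I P :=
  ⟨hP.mem, hP.sep, hP.x, hP.meas, hP.box, hP.disj⟩

theorem PlG.le_SIG {κ : Type*} {A : ℝ} {h : E2 → ℝ} {r s1 s2 R : ℝ} {s : Finset κ}
    {Q : κ → Plate} (hQ : PlG A h r s1 s2 R s Q) (g : E2 → ℂ) :
    ∑ i ∈ s, tm h g r s1 s2 (Q i) ≤ SIG A r s1 s2 h g R := by
  classical
  rcases s.eq_empty_or_nonempty with hs | ⟨i0, hi0⟩
  · rw [hs, Finset.sum_empty]; exact zero_le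
  set n := s.card with hn
  set e := s.equivFin with he
  set P : ℕ → Plate := fun j => if hj : j < n then Q (e.symm ⟨j, hj⟩) else Q i0 with hPdef
  have hPe : ∀ j (hj : j < n), P j = Q (e.symm ⟨j, hj⟩) := fun j hj => by
    simp only [hPdef, dif_pos hj]
  have key : ∀ j ∈ Finset.range n, ∃ i : s, P j = Q i ∧ (e i : ℕ) = j := by
    intro j hj
    have hj' := Finset.mem_range.1 hj
    exact ⟨e.symm ⟨j, hj'⟩, hPe j hj', by simp⟩
  have hPl : Plates A h r s1 s2 R (Finset.range n) P := by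
    refine ⟨fun j hj => ?_, fun j hj j' hj' => ?_, fun j hj => ?_, fun j hj m => ?_,
      fun j hj m => ?_, fun j hj j' hj' hne hz m => ?_⟩
    · obtain ⟨i, h1, -⟩ := key j hj; rw [h1]; exact hQ.mem i i.2
    · obtain ⟨i, h1, -⟩ := key j hj
      obtain ⟨i', h1', -⟩ := key j' hj'
      rw [h1, h1']; exact hQ.sep i i.2 i' i'.2
    · obtain ⟨i, h1, -⟩ := key j hj; rw [h1]; exact hQ.x i i.2
    · obtain ⟨i, h1, -⟩ := key j hj; rw [h1]; exact hQ.meas i i.2 m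
    · obtain ⟨i, h1, -⟩ := key j hj; rw [h1]; exact hQ.box i i.2 m
    · obtain ⟨i, h1, h2⟩ := key j hj
      obtain ⟨i', h1', h2'⟩ := key j' hj'
      rw [h1, h1'] at hz ⊢
      refine hQ.disj i i.2 i' i'.2 (fun hii => hne ?_) hz m
      have : i = i' := Subtype.ext hii
      rw [← h2, ← h2', this]
  have hval : ∑ i ∈ s, tm h g r s1 s2 (Q i) = val h g r s1 s2 (Finset.range n) P := by
    rw [val_eq, Finset.sum_range, ← Finset.sum_coe_sort s]
    refine Fintype.sum_equiv e _ _ fun i => ?_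
    rw [hPe _ (e i).2]
    simp
  rw [hval]
  unfold SIG
  exact le_iSup_of_le (Finset.range n) (le_iSup_of_le P (le_iSup_of_le hPl le_rfl))

/-- shifting the frames. -/
def shift (z : E2 × ℝ) (p : Plate) : Plate := { p with z := p.z - z }

theorem PlG.shift {κ : Type*} {A : ℝ} {h : E2 → ℝ} {r s1 s2 R R' : ℝ} {s : Finset κ}
    {Q : κ → Plate} (hQ : PlG A h r s1 s2 R s Q) {t : Finset κ} (ht : t ⊆ s) (z : E2 × ℝ)
    (hz : ∀ i ∈ t, (Q i).z - z ∈ cyl R') : PlG A h r s1 s2 R' t (fun i => shift z (Q i)) := by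
  refine ⟨hz, fun i hi j hj => ?_, fun i hi => hQ.x i (ht hi), fun i hi => hQ.meas i (ht hi),
    fun i hi => hQ.box i (ht hi), fun i hi j hj hne hzz m => ?_⟩
  · rcases hQ.sep i (ht hi) j (ht hj) with h1 | h1 | h1
    · left; simp only [W323.shift, h1]
    · right; left
      simpa [W323.shift] using h1
    · right; right
      simpa [W323.shift] using h1
  · refine hQ.disj i (ht hi) j (ht hj) hne ?_ m
    simpa [W323.shift] using hzz

theorem tm_shift (h : E2 → ℝ) (g : E2 → ℂ) (r s1 s2 : ℝ) (z : E2 × ℝ) (p : Plate) :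
    tm h (tr h z g) r s1 s2 (shift z p) = tm h g r s1 s2 p := by
  unfold tm shift
  simp only
  rw [tr_add, sub_add_cancel]

/-- positions of the packets of a plate. -/
theorem pos_le {A : ℝ} {h : E2 → ℝ} {r s1 s2 : ℝ} {c : E2} {b : OrthonormalBasis (Fin 2) ℝ E2}
    {x : E2} {m : ℤ × ℤ} (hA : 0 ≤ A) (hr : 0 ≤ r) (h1 : s1 ≤ 1) (h2 : s2 ≤ 1)
    (hx : ‖x‖ ≤ A * r) {y : E2} (hy : y ∈ pbox h r c b (fun k => A * (![s1, s2] k)) x m) :
    ‖y‖ ≤ 3 * A * r := by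
  have hk : ∀ k : Fin 2, |inner ℝ (y - x) (b k)| ≤ A * r := by
    intro k
    refine (hy.2 k).trans ?_
    have : (![s1, s2] k) ≤ 1 := by
      fin_cases k <;> simp [h1, h2]
    have h3 : A * (![s1, s2] k) ≤ A * 1 := by gcongr
    nlinarith
  have h3 : ‖y - x‖ ^ 2 ≤ (2 * (A * r)) ^ 2 := by
    rw [← b.sum_sq_norm_inner_right (y - x), Fin.sum_univ_two, Real.norm_eq_abs, Real.norm_eq_abs,
      real_inner_comm, real_inner_comm (y - x)]
    have e0 := pow_le_pow_left₀ (abs_nonneg _) (hk 0) 2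
    have e1 := pow_le_pow_left₀ (abs_nonneg _) (hk 1) 2
    nlinarith [sq_nonneg (A * r)]
  have h4 : ‖y - x‖ ≤ 2 * (A * r) := le_of_sq_le_sq h3 (by positivity)
  calc ‖y‖ = ‖(y - x) + x‖ := by rw [sub_add_cancel]
    _ ≤ ‖y - x‖ + ‖x‖ := norm_add_le _ _
    _ ≤ 3 * A * r := by linarith

end Crest.Agent.R138.W323
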