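import Crest.Agent.R138.RR3_323

/-!
# R138 wave side: re-rooting (helper323), part 4: the core inequality
-/

set_option autoImplicit false

open MeasureTheory FourierTransform
open scoped ContDiff ENNReal

namespace Crest.Agent.R138.W323

open Crest.Agent.R138.Defs Crest.Agent.R138.Bil882 Crest.Agent.R138.W188
open Crest.Agent.R138.Wpk685

theorem sum_rpow_le {κ : Type*} (s : Finset κ) (a : κ → ℝ≥0∞) {p : ℝ} (hp : 1 ≤ p) :
    ∑ i ∈ s, a i ^ p ≤ (∑ i ∈ s, a i) ^ p := by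
  classical
  induction s using Finset.induction_on with
  | empty => simp
  | insert i s hi ih =>
    rw [Finset.sum_insert hi, Finset.sum_insert hi]
    refine le_trans ?_ (ENNReal.add_rpow_le_rpow_add _ _ hp)
    gcongr

/-- union of plate systems with different (separated) frames. -/
theorem sum_val_le_SIG {A : ℝ} {h : E2 → ℝ} {r s1 s2 R : ℝ} (Z : Finset (E2 × ℝ))
    (hsep : ∀ z ∈ Z, ∀ z' ∈ Z, z = z' ∨ r ≤ ‖z.1 - z'.1‖ ∨ r ≤ |z.2 - z'.2|)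
    (I : E2 × ℝ → Finset ℕ) (P : E2 × ℝ → ℕ → Plate)
    (hP : ∀ z ∈ Z, Plates A h r s1 s2 R (I z) (P z)) (hz : ∀ z ∈ Z, ∀ i ∈ I z, (P z i).z = z)
    (g : E2 → ℂ) : ∑ z ∈ Z, val h g r s1 s2 (I z) (P z) ≤ SIG A r s1 s2 h g R := by
  have hQ : PlG A h r s1 s2 R (Z.sigma I) (fun j => P j.1 j.2) := by
    refine ⟨fun j hj => ?_, fun j hj j' hj' => ?_, fun j hj => ?_, fun j hj m => ?_,
      fun j hj m => ?_, fun j hj j' hj' hne hzz m => ?_⟩
    · obtain ⟨h1, h2⟩ := Finset.mem_sigma.1 hj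
      exact (hP _ h1).mem _ h2
    · obtain ⟨h1, h2⟩ := Finset.mem_sigma.1 hj
      obtain ⟨h1', h2'⟩ := Finset.mem_sigma.1 hj'
      simp only [hz _ h1 _ h2, hz _ h1' _ h2']
      exact hsep _ h1 _ h1'
    · obtain ⟨h1, h2⟩ := Finset.mem_sigma.1 hj
      exact (hP _ h1).x _ h2
    · obtain ⟨h1, h2⟩ := Finset.mem_sigma.1 hj
      exact (hP _ h1).meas _ h2 m
    · obtain ⟨h1, h2⟩ := Finset.mem_sigma.1 hj
      exact (hP _ h1).box _ h2 m
    · obtain ⟨h1, h2⟩ := Finset.mem_sigma.1 hj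
      obtain ⟨h1', h2'⟩ := Finset.mem_sigma.1 hj'
      simp only [hz _ h1 _ h2, hz _ h1' _ h2'] at hzz
      obtain ⟨z, i⟩ := j
      obtain ⟨z', i'⟩ := j'
      simp only at hzz h1 h2 h1' h2' ⊢
      subst hzz
      refine (hP _ h1).disj i h2 i' h2' (fun hii => hne (by rw [hii])) ?_ m
      rw [hz _ h1 _ h2, hz _ h1 _ h2']
  have := hQ.le_SIG g
  rw [Finset.sum_sigma] at this
  exact this

/-- the contribution of one plate, decomposed. -/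
theorem tm_sum_le {h : E2 → ℝ} (hh : Continuous h) {r s1 s2 : ℝ} (p : Plate) (z : E2 × ℝ)
    {g : E2 → ℂ} (Λ : Finset ℕ) (G : ℕ → E2 → ℂ) (e : E2 → ℂ) (hG : ∀ k ∈ Λ, Gd (G k))
    (he : Gd e) (hdec : tr h z g = fun ξ => ∑ k ∈ Λ, G k ξ + e ξ) :
    tm h g r s1 s2 p ≤ 2 * ((Λ.card : ℝ≥0∞) + 1) ^ 2 *
      (∑ k ∈ Λ, tm h (G k) r s1 s2 (shift z p) + tm h e r s1 s2 (shift z p)) := by
  rw [← tm_shift h g r s1 s2 z p, hdec]
  unfold tm
  rw [tr_sum]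
  have h1 := en_sum (ρ := r ^ (-(1/2) : ℝ)) Λ (G := fun k => tr h (shift z p).z (G k))
    (e := tr h (shift z p).z e) (fun k hk => (W323.Gd.tr hh (hG k hk) _).int) (W323.Gd.tr hh he _).int
    (shift z p).S
  calc ENNReal.ofReal ((s1 * s2 * r ^ 3) ^ (-(1/2) : ℝ)) * (ENNReal.ofReal r *
        en (r ^ (-(1/2) : ℝ)) (fun ξ => ∑ k ∈ Λ, tr h (shift z p).z (G k) ξ +
          tr h (shift z p).z e ξ) (shift z p).S) ^ (3 / 2 : ℝ)
      ≤ ENNReal.ofReal ((s1 * s2 * r ^ 3) ^ (-(1/2) : ℝ)) * (ENNReal.ofReal r *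
        (((Λ.card : ℝ≥0∞) + 1) * (∑ k ∈ Λ, en (r ^ (-(1/2) : ℝ)) (tr h (shift z p).z (G k))
          (shift z p).S + en (r ^ (-(1/2) : ℝ)) (tr h (shift z p).z e) (shift z p).S))) ^
            (3 / 2 : ℝ) := by
        gcongr
    _ ≤ ENNReal.ofReal ((s1 * s2 * r ^ 3) ^ (-(1/2) : ℝ)) *
        (2 * ((Λ.card : ℝ≥0∞) + 1) ^ 2 * (∑ k ∈ Λ, (ENNReal.ofReal r *
          en (r ^ (-(1/2) : ℝ)) (tr h (shift z p).z (G k)) (shift z p).S) ^ (3 / 2 : ℝ) +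
            (ENNReal.ofReal r * en (r ^ (-(1/2) : ℝ)) (tr h (shift z p).z e) (shift z p).S) ^
              (3 / 2 : ℝ))) := by
        gcongr
        exact pow32_sum _ _ _ _
    _ = _ := by
        rw [mul_left_comm]
        congr 1
        rw [mul_add, Finset.mul_sum]

/-- the core inequality of re-rooting. -/
theorem rr_core {A : ℝ} {h : E2 → ℝ} (hh : Continuous h) (hA : 0 ≤ A) {R r1 r2 s1 s2 : ℝ}
    (hr2 : 0 ≤ r2) (hs1 : s1 ≤ 1) (hs2 : s2 ≤ 1) {g : E2 → ℂ} (Z : Finset (E2 × ℝ))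
    (ζ : E2 × ℝ → E2 × ℝ) (hζ : ∀ p ∈ cyl R, ζ p ∈ Z ∧ p - ζ p ∈ cyl r1) (Λ : Finset ℕ)
    (G : E2 × ℝ → ℕ → E2 → ℂ) (e : E2 × ℝ → E2 → ℂ) (hG : ∀ z ∈ Z, ∀ k ∈ Λ, Gd (G z k))
    (he : ∀ z ∈ Z, Gd (e z)) (hdec : ∀ z ∈ Z, tr h z g = fun ξ => ∑ k ∈ Λ, G z k ξ + e z ξ)
    (W : ℝ≥0∞) (hW : ∀ z ∈ Z, ∀ z' ∈ cyl r1, en (r2 ^ (-(1/2) : ℝ)) (tr h z' (e z))
      (fun _ => Metric.closedBall 0 (3 * A * r2)) ≤ W)
    (I : Finset ℕ) (P : ℕ → Plate) (hP : Plates A h r2 s1 s2 R I P) (F : ℕ)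
    (hF : ∀ s : Finset (E2 × ℝ), (∀ z ∈ s, z ∈ cyl R) → (∀ z ∈ s, ∀ z' ∈ s, z = z' ∨
      r2 ≤ ‖z.1 - z'.1‖ ∨ r2 ≤ |z.2 - z'.2|) → s.card ≤ F) :
    val h g r2 s1 s2 I P ≤ 2 * ((Λ.card : ℝ≥0∞) + 1) ^ 2 *
      (∑ z ∈ Z, ∑ k ∈ Λ, SIG A r2 s1 s2 h (G z k) r1 +
        ENNReal.ofReal ((s1 * s2 * r2 ^ 3) ^ (-(1/2) : ℝ)) *
          (ENNReal.ofReal r2 * ((F : ℝ≥0∞) * W)) ^ (3 / 2 : ℝ)) := by
  classical
  have hPG := hP.plG
  set z : ℕ → E2 × ℝ := fun i => (P i).z with hz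
  have hmem : ∀ i ∈ I, ζ (z i) ∈ Z := fun i hi => (hζ _ (hP.mem i hi)).1
  have step : val h g r2 s1 s2 I P ≤ 2 * ((Λ.card : ℝ≥0∞) + 1) ^ 2 *
      (∑ i ∈ I, ∑ k ∈ Λ, tm h (G (ζ (z i)) k) r2 s1 s2 (shift (ζ (z i)) (P i)) +
        ∑ i ∈ I, tm h (e (ζ (z i))) r2 s1 s2 (shift (ζ (z i)) (P i))) := by
    rw [val_eq, ← Finset.sum_add_distrib, Finset.mul_sum]
    refine Finset.sum_le_sum fun i hi => ?_
    exact tm_sum_le hh (P i) (ζ (z i)) Λ _ _ (fun k hk => hG _ (hmem i hi) k hk)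
      (he _ (hmem i hi)) (hdec _ (hmem i hi))
  refine step.trans ?_
  gcongr
  · -- main part
    rw [← Finset.sum_fiberwise_of_maps_to hmem]
    refine Finset.sum_le_sum fun y hy => ?_
    rw [Finset.sum_comm]
    refine Finset.sum_le_sum fun k hk => ?_
    have h1 : ∑ i ∈ I with ζ (z i) = y, tm h (G (ζ (z i)) k) r2 s1 s2 (shift (ζ (z i)) (P i)) =
        ∑ i ∈ I with ζ (z i) = y, tm h (G y k) r2 s1 s2 (shift y (P i)) := by
      refine Finset.sum_congr rfl fun i hi => ?_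
      rw [(Finset.mem_filter.1 hi).2]
    rw [h1]
    refine (hPG.shift (Finset.filter_subset _ I) y (R' := r1) fun i hi => ?_).le_SIG _
    obtain ⟨hi1, hi2⟩ := Finset.mem_filter.1 hi
    have := (hζ _ (hP.mem i hi1)).2
    rwa [show ζ (P i).z = y from hi2] at this
  · -- rest
    unfold tm
    rw [← Finset.mul_sum]
    gcongr
    refine (sum_rpow_le I _ (by norm_num)).trans ?_
    rw [← Finset.mul_sum]
    gcongr
    rw [← Finset.sum_fiberwise_of_maps_to (s := I) (t := I.image z)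
      (g := z) (fun i hi => Finset.mem_image_of_mem z hi)]
    have h2 : ∀ y ∈ I.image z, ∑ i ∈ I with z i = y, en (r2 ^ (-(1/2) : ℝ))
        (tr h (shift (ζ (z i)) (P i)).z (e (ζ (z i)))) (shift (ζ (z i)) (P i)).S ≤ W := by
      intro y hy
      obtain ⟨i0, hi0, rfl⟩ := Finset.mem_image.1 hy
      have hy0 := hζ _ (hP.mem i0 hi0)
      have h3 : ∑ i ∈ I with z i = z i0, en (r2 ^ (-(1/2) : ℝ))
          (tr h (shift (ζ (z i)) (P i)).z (e (ζ (z i)))) (shift (ζ (z i)) (P i)).S =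
          ∑ i ∈ I with z i = z i0, en (r2 ^ (-(1/2) : ℝ))
            (tr h (z i0 - ζ (z i0)) (e (ζ (z i0)))) (P i).S := by
        refine Finset.sum_congr rfl fun i hi => ?_
        have e1 : z i = z i0 := (Finset.mem_filter.1 hi).2
        have e2 : (P i).z = z i0 := e1
        unfold shift
        simp only [e1, e2]
      rw [h3]
      refine (en_union _ (fun i => (P i).S) (fun _ => Metric.closedBall 0 (3 * A * r2))
        (fun i hi m => ?_) (fun i hi j hj hne m => ?_) (fun i hi m y hy => ?_)).trans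
        (hW _ hy0.1 _ hy0.2)
      · exact hP.meas i (Finset.mem_filter.1 hi).1 m
      · obtain ⟨hi1, hi2⟩ := Finset.mem_filter.1 hi
        obtain ⟨hj1, hj2⟩ := Finset.mem_filter.1 hj
        exact hP.disj i hi1 j hj1 hne (hi2.trans hj2.symm) m
      · obtain ⟨hi1, hi2⟩ := Finset.mem_filter.1 hi
        rw [mem_closedBall_zero_iff]
        exact pos_le hA hr2 hs1 hs2 (hP.x i hi1) (hP.box i hi1 m hy)
    refine (Finset.sum_le_sum h2).trans ?_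
    rw [Finset.sum_const, nsmul_eq_mul]
    gcongr
    refine hF _ (fun y hy => ?_) (fun y hy y' hy' => ?_)
    · obtain ⟨i, hi, rfl⟩ := Finset.mem_image.1 hy
      exact hP.mem i hi
    · obtain ⟨i, hi, rfl⟩ := Finset.mem_image.1 hy
      obtain ⟨j, hj, rfl⟩ := Finset.mem_image.1 hy'
      exact hP.sep i hi j hj

end Crest.Agent.R138.W323
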