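import Crest.Agent.R138.RR5_323

/-!
# R138 wave side: re-rooting (helper323), part 6: **A3** from **DEC**
-/

set_option autoImplicit false

open MeasureTheory FourierTransform
open scoped ContDiff ENNReal

namespace Crest.Agent.R138.W323

open Crest.Agent.R138.Defs Crest.Agent.R138.Bil882 Crest.Agent.R138.W188
open Crest.Agent.R138.Wpk685
open Crest.Agent.R138.T774 (haar3 cyl_eq finrank3)

theorem const_le {K X : ℝ≥0∞} {Y c Q : ℝ} (hY0 : 0 ≤ Y) (hK : K + 1 ≤ ENNReal.ofReal Y)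
    (hc : c ≤ Y) :
    2 * (K + 1) ^ 2 * K * (ENNReal.ofReal Q * (ENNReal.ofReal c * X)) ≤
      ENNReal.ofReal (2 * Y ^ 4 * Q) * X := by
  calc 2 * (K + 1) ^ 2 * K * (ENNReal.ofReal Q * (ENNReal.ofReal c * X))
      ≤ 2 * ENNReal.ofReal Y ^ 2 * ENNReal.ofReal Y *
          (ENNReal.ofReal Q * (ENNReal.ofReal Y * X)) := by
        gcongr
        exact le_self_add.trans hK
    _ = ENNReal.ofReal (2 * Y ^ 4 * Q) * X := by
        rw [ENNReal.ofReal_mul (p := 2 * Y ^ 4) (by positivity), ENNReal.ofReal_mul (by norm_num),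
          ENNReal.ofReal_pow hY0, ENNReal.ofReal_ofNat]
        ring

set_option maxHeartbeats 1000000 in
/-- **A3** from **DEC**. -/
theorem A3n_of_DEC {B : ℕ → ℝ} {q A : ℝ} {Na0 : ℕ} (hA : 1 ≤ A) (H : DEC B q A Na0) :
    A3n B q (SIG A) Na0 A := by
  intro ε hε Na M0
  set ε' : ℝ := min ε 1 / 4 with hε'
  have hε'0 : 0 < ε' := by rw [hε']; have := lt_min hε one_pos; positivity
  have hε'1 : ε' ≤ 1 := by
    rw [hε']; have := min_le_right ε 1; linarith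
  have hε'4 : 4 * ε' ≤ ε := by
    rw [hε']; have := min_le_left ε 1; linarith
  set k0 : ℕ := ⌈10 + |q| + |M0|⌉₊ with hk0
  have hk0' : 10 + |q| + |M0| ≤ k0 := Nat.le_ceil _
  obtain ⟨C2, hC2, HD⟩ := H ε' hε'0 Na M0 (k0 + 1)
  obtain ⟨C1, hC1, Hen⟩ := exists_en_le B (4 * (k0 + 1))
  set C3 : ℝ := C1 * (64 * C2 ^ 2 + C2) with hC3
  have hC3' : 0 ≤ C3 := by rw [hC3]; positivity
  refine ⟨max (2 * (C2 + 1) ^ 4) (2 * (C2 + 1) ^ 2 * (216 * C3) ^ (3/2 : ℝ)),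
    le_max_of_le_left (by positivity), ?_⟩
  set C : ℝ := max (2 * (C2 + 1) ^ 4) (2 * (C2 + 1) ^ 2 * (216 * C3) ^ (3/2 : ℝ)) with hC
  intro h g R D hSt r1 r2 s1 s2 hr2 h21 hr1R hSd Q hQ hF
  have hR : 1 ≤ R := hSt.R1
  have hR0 : 0 < R := by linarith
  have hr2' : 1 ≤ r2 := (Real.one_le_rpow hR (by norm_num)).trans hr2
  have hr20 : 0 < r2 := by linarith
  have h21' : r2 ≤ r1 := by nlinarith
  have hr1 : R ^ (1/2 : ℝ) ≤ r1 := hr2.trans h21'
  have hr10 : 0 < r1 := by linarith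
  have hhc : Continuous h := hSt.par.1.continuous
  have hs2 : s2 ≤ 1 := hSd.hi
  have hs1 : s1 ≤ 1 := hSd.le.trans hs2
  have hEn : 0 ≤ En g := integral_nonneg fun ξ => by positivity
  obtain ⟨Λ, s, hcard, hSdΛ, HD⟩ := HD R r1 hR hr1 hr1R
  obtain ⟨Z, hZ1, hZ2, hZ3, hZ4⟩ := exists_net hr10 hr1R
  haveI : Inhabited Plate := ⟨⟨0, 0, EuclideanSpace.basisFun (Fin 2) ℝ, 0, fun _ => ∅⟩⟩
  have HD' := fun z : E2 × ℝ => fun hz : z ∈ cyl R => HD h g D hSt z hz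
  choose! G D' rest I P hdec hSt' hPl hSS hrm hrb hrs hrE hrt using HD'
  choose! ζ hζ1 hζ2 using hZ3
  have hGd : ∀ z ∈ Z, ∀ k ∈ Λ, Gd (G z k) := fun z hz k hk =>
    W323.St.gd (hSt' z (hZ1 z hz) k hk) (by norm_num)
  have hGe : ∀ z ∈ Z, Gd (rest z) := fun z hz =>
    ⟨hrm z (hZ1 z hz), hrb z (hZ1 z hz), hrs z (hZ1 z hz)⟩
  -- the rest
  set ρ : ℝ := r2 ^ (-(1/2) : ℝ) with hρ
  have hρ0 : 0 < ρ := by rw [hρ]; positivity
  have hρ1 : ρ ≤ 1 := Real.rpow_le_one_of_one_le_of_nonpos hr2' (by norm_num)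
  set W : ℝ := C3 * (R ^ (-(k0 : ℝ)) * En g) with hWdef
  have hW : ∀ z ∈ Z, ∀ z' ∈ cyl r1, en ρ (tr h z' (rest z))
      (fun _ => Metric.closedBall 0 (3 * A * r2)) ≤ ENNReal.ofReal W := by
    intro z hz z' hz'
    have h1 := Hen h hSt.par ρ (3 * A * r2) hρ0 hρ1 (tr h z' (rest z))
      (W323.Gd.tr hhc (hGe z hz) z') (fun _ => Metric.closedBall 0 (3 * A * r2))
      (fun _ _ => Metric.isClosed_closedBall.measurableSet) (fun _ _ y hy => by simpa using hy)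
    refine h1.trans ?_
    have h2 := WE_bw_le (4 * (k0 + 1)) (ρ := ρ) (a := 3 * A * r2) (d := r1)
      (β := C2 * R ^ (-((k0 + 1 : ℕ) : ℝ)) * Real.sqrt (En g)) hρ0.le (by positivity) hr10.le
      (by positivity) (W323.Gd.tr hhc (hGe z hz) z') (fun x hx => by
        rw [fourierInv_tr]
        refine hrt z (hZ1 z hz) (x + z'.1, z'.2) ?_ ?_
        · have h3 : ‖x + z'.1‖ ≤ ‖x‖ + ‖z'.1‖ := norm_add_le _ _
          have h4 : ‖z'.1‖ ≤ r1 := hz'.1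
          simp only
          nlinarith
        · have h4 : |z'.2| ≤ r1 := hz'.2
          simp only
          linarith)
    refine (mul_le_mul' le_rfl h2).trans ?_
    rw [← ENNReal.ofReal_mul hC1]
    refine ENNReal.ofReal_le_ofReal ?_
    rw [En_tr]
    have h5 := rest_W (C1 := C1) (C2 := C2) (R := R) (r1 := r1) (r2 := r2) (ρ := ρ) (A := A)
      (e := En g) (e' := En (rest z))
      (β := C2 * R ^ (-((k0 + 1 : ℕ) : ℝ)) * Real.sqrt (En g)) (ε' := ε') (k0 := k0)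
      hC1 hC2 hR hA hr2 h21 hr1R hρ hEn hε'1 rfl (hrE z (hZ1 z hz))
    rw [hWdef, hC3]
    exact h5
  -- the core
  set F : ℕ := ⌊216 * (R / r2) ^ 3⌋₊ with hFdef
  have hFc : (F : ℝ) ≤ 216 * (R / r2) ^ 3 := Nat.floor_le (by positivity)
  have hcore : SIG A r2 s1 s2 h g R ≤ 2 * ((Λ.card : ℝ≥0∞) + 1) ^ 2 *
      (∑ z ∈ Z, ∑ k ∈ Λ, SIG A r2 s1 s2 h (G z k) r1 +
        ENNReal.ofReal ((s1 * s2 * r2 ^ 3) ^ (-(1/2) : ℝ)) *
          (ENNReal.ofReal r2 * ((F : ℝ≥0∞) * ENNReal.ofReal W)) ^ (3 / 2 : ℝ)) := by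
    unfold SIG
    refine iSup_le fun I => iSup_le fun P => iSup_le fun hP => ?_
    refine rr_core (Z := Z) (ζ := ζ) hhc (by linarith) hr20.le hs1 hs2 (fun p hp => ⟨hζ1 p hp, hζ2 p hp⟩)
      Λ G rest hGd hGe (fun z hz => funext fun ξ => hdec z (hZ1 z hz) ξ) (ENNReal.ofReal W) hW I P
      hP F (fun t ht1 ht2 => ?_)
    refine Nat.le_floor ?_
    exact card_net hr20 (h21'.trans hr1R) t ht1 ht2
  -- constants
  have hcard' : ((Λ.card : ℝ≥0∞) + 1) ≤ ENNReal.ofReal ((C2 + 1) * R ^ ε') := by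
    have h1 : (1:ℝ) ≤ R ^ ε' := Real.one_le_rpow hR hε'0.le
    rw [← ENNReal.ofReal_natCast, ← ENNReal.ofReal_one,
      ← ENNReal.ofReal_add (Nat.cast_nonneg _) zero_le_one]
    refine ENNReal.ofReal_le_ofReal ?_
    nlinarith
  obtain ⟨Y, hY⟩ : ∃ Y : ℝ, Y = (C2 + 1) * R ^ ε' := ⟨_, rfl⟩
  rw [← hY] at hcard'
  have hY0 : 0 ≤ Y := by rw [hY]; positivity
  have hY4 : 2 * Y ^ 4 ≤ C * R ^ ε := by
    calc 2 * Y ^ 4 = 2 * (C2 + 1) ^ 4 * R ^ (4 * ε') := by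
          rw [hY, mul_pow, ← Real.rpow_natCast (R ^ ε') 4, ← Real.rpow_mul hR0.le]
          push_cast
          ring_nf
      _ ≤ C * R ^ ε := by
          gcongr
          exact le_max_left _ _
  -- the maximal label
  have hmain : ∃ s1' s2', Sd r1 s1' s2' ∧
      ENNReal.ofReal (s2 ^ (-q / 2)) * (2 * ((Λ.card : ℝ≥0∞) + 1) ^ 2 *
        ∑ z ∈ Z, ∑ k ∈ Λ, SIG A r2 s1 s2 h (G z k) r1) ≤
      ENNReal.ofReal (C * R ^ ε * Q) *
        (ENNReal.ofReal (s2' ^ (-q / 2)) * SIG A r1 s1' s2' h g R) := by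
    rcases Λ.eq_empty_or_nonempty with hΛ | hΛ
    · refine ⟨1, 1, ⟨Real.rpow_le_one_of_one_le_of_nonpos (by linarith) (by norm_num),
        le_rfl, le_rfl⟩, ?_⟩
      rw [hΛ]
      simp
    · obtain ⟨k1, hk1, hmax⟩ := Finset.exists_max_image Λ (fun k =>
        ENNReal.ofReal ((s k).2 ^ (-q / 2)) * SIG A r1 (s k).1 (s k).2 h g R) hΛ
      refine ⟨(s k1).1, (s k1).2, hSdΛ k1 hk1, ?_⟩
      set X := ENNReal.ofReal ((s k1).2 ^ (-q / 2)) * SIG A r1 (s k1).1 (s k1).2 h g R with hX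
      have h1 : ∀ z ∈ Z, ∀ k ∈ Λ, ENNReal.ofReal (s2 ^ (-q / 2)) *
          SIG A r2 s1 s2 h (G z k) r1 ≤ ENNReal.ofReal Q *
          (ENNReal.ofReal (C2 * R ^ ε') * (ENNReal.ofReal ((s k).2 ^ (-q / 2)) *
            val h g r1 (s k).1 (s k).2 (I z k) (P z k))) := by
        intro z hz k hk
        refine (hF _ _ (hSt' z (hZ1 z hz) k hk)).trans ?_
        rw [ENNReal.ofReal_mul (by linarith)]
        gcongr
        exact hSS z (hZ1 z hz) k hk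
      have h2 : ∀ k ∈ Λ, ∑ z ∈ Z, ENNReal.ofReal (s2 ^ (-q / 2)) *
          SIG A r2 s1 s2 h (G z k) r1 ≤ ENNReal.ofReal Q * (ENNReal.ofReal (C2 * R ^ ε') * X) := by
        intro k hk
        refine (Finset.sum_le_sum fun z hz => h1 z hz k hk).trans ?_
        rw [← Finset.mul_sum, ← Finset.mul_sum, ← Finset.mul_sum]
        gcongr
        refine le_trans ?_ (hmax k hk)
        gcongr
        exact sum_val_le_SIG Z hZ2 (fun z => I z k) (fun z => P z k)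
          (fun z hz => (hPl z (hZ1 z hz) k hk).1) (fun z hz => (hPl z (hZ1 z hz) k hk).2) g
      calc ENNReal.ofReal (s2 ^ (-q / 2)) * (2 * ((Λ.card : ℝ≥0∞) + 1) ^ 2 *
            ∑ z ∈ Z, ∑ k ∈ Λ, SIG A r2 s1 s2 h (G z k) r1)
          = 2 * ((Λ.card : ℝ≥0∞) + 1) ^ 2 * ∑ k ∈ Λ, ∑ z ∈ Z,
              ENNReal.ofReal (s2 ^ (-q / 2)) * SIG A r2 s1 s2 h (G z k) r1 := by
            rw [mul_left_comm, Finset.mul_sum, Finset.sum_comm]
            congr 1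
            refine Finset.sum_congr rfl fun z _ => ?_
            rw [Finset.mul_sum]
        _ ≤ 2 * ((Λ.card : ℝ≥0∞) + 1) ^ 2 * ∑ k ∈ Λ,
              ENNReal.ofReal Q * (ENNReal.ofReal (C2 * R ^ ε') * X) := by
            gcongr with k hk
            exact h2 k hk
        _ = 2 * ((Λ.card : ℝ≥0∞) + 1) ^ 2 * (Λ.card : ℝ≥0∞) *
              (ENNReal.ofReal Q * (ENNReal.ofReal (C2 * R ^ ε') * X)) := by
            rw [Finset.sum_const, nsmul_eq_mul]; ring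
        _ ≤ ENNReal.ofReal (2 * Y ^ 4 * Q) * X := by
            refine const_le hY0 hcard' ?_
            rw [hY]
            gcongr
            linarith
        _ ≤ ENNReal.ofReal (C * R ^ ε * Q) * X := by
            refine mul_le_mul' (ENNReal.ofReal_le_ofReal ?_) le_rfl
            exact mul_le_mul_of_nonneg_right hY4 (by linarith)
  obtain ⟨s1', s2', hSd', hmain⟩ := hmain
  refine ⟨s1', s2', hSd', ?_⟩
  calc ENNReal.ofReal (s2 ^ (-q / 2)) * SIG A r2 s1 s2 h g R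
      ≤ ENNReal.ofReal (s2 ^ (-q / 2)) * (2 * ((Λ.card : ℝ≥0∞) + 1) ^ 2 *
        (∑ z ∈ Z, ∑ k ∈ Λ, SIG A r2 s1 s2 h (G z k) r1 +
          ENNReal.ofReal ((s1 * s2 * r2 ^ 3) ^ (-(1/2) : ℝ)) *
            (ENNReal.ofReal r2 * ((F : ℝ≥0∞) * ENNReal.ofReal W)) ^ (3 / 2 : ℝ))) := by
        gcongr
    _ = ENNReal.ofReal (s2 ^ (-q / 2)) * (2 * ((Λ.card : ℝ≥0∞) + 1) ^ 2 *
          ∑ z ∈ Z, ∑ k ∈ Λ, SIG A r2 s1 s2 h (G z k) r1) +
        ENNReal.ofReal (s2 ^ (-q / 2)) * (ENNReal.ofReal (2 * ((Λ.card : ℝ) + 1) ^ 2) *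
          (ENNReal.ofReal ((s1 * s2 * r2 ^ 3) ^ (-(1/2) : ℝ)) *
            (ENNReal.ofReal r2 * ((F : ℝ≥0∞) * ENNReal.ofReal W)) ^ (3 / 2 : ℝ))) := by
        rw [mul_add, mul_add]
        congr 3
        rw [ENNReal.ofReal_mul (by norm_num), ENNReal.ofReal_pow (by positivity),
          ENNReal.ofReal_add (Nat.cast_nonneg _) zero_le_one, ENNReal.ofReal_natCast,
          ENNReal.ofReal_one, ENNReal.ofReal_ofNat]
    _ ≤ _ := by
        gcongr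
        refine (rest_total hC2 hC3' hR hr2 (h21'.trans hr1R) hSd hEn hε'1 (Nat.cast_nonneg _)
          hcard hFc hSt.nd hk0').trans ?_
        refine ENNReal.ofReal_le_ofReal ?_
        have h1 : 0 ≤ R * En g * Real.sqrt D := by positivity
        have h2 : 2 * (C2 + 1) ^ 2 * (216 * C3) ^ (3/2 : ℝ) ≤ C := le_max_right _ _
        unfold SS
        nlinarith

end Crest.Agent.R138.W323
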