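import Mathlib
import Crest.Agent.R138.LmA2_335

/-!
# R138, Lemma A, affine transfer, rotated form (helper335)

`rectE_lam`, `rect` : a thin slab of a box in an orthonormal frame `E` lies in one honest rectangle.
-/

set_option autoImplicit false
set_option linter.unusedVariables false

namespace Crest.Agent.R138.LmA2

open Crest.Agent.R138.Flag51

/-- coordinates in the frame `E`. -/
noncomputable def frm (E x : E2) : E2 := !₂[cr E x, dt x E]

theorem frm_zero (E x : E2) : frm E x 0 = cr E x := by simp [frm]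

theorem frm_one (E x : E2) : frm E x 1 = dt x E := by simp [frm]

theorem dt_frm {E : E2} (hE : dt E E = 1) (x e : E2) : dt (frm E x) e = dt x (frm E e) := by
  unfold dt at *
  rw [frm_zero, frm_one, frm_zero, frm_one]
  unfold cr dt
  ring

theorem cr_frm {E : E2} (hE : dt E E = 1) (x e : E2) : cr e (frm E x) = -cr (frm E e) x := by
  unfold dt at hE
  unfold cr
  rw [frm_zero, frm_one, frm_zero, frm_one]
  unfold cr dt
  ring

theorem frm_unit {E e : E2} (hE : dt E E = 1) (he : dt e e = 1) :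
    dt (frm E e) (frm E e) = 1 := by
  unfold dt at *
  rw [frm_zero, frm_one]
  unfold cr dt
  have : (E 0 * e 1 - E 1 * e 0) * (E 0 * e 1 - E 1 * e 0) +
      (e 0 * E 0 + e 1 * E 1) * (e 0 * E 0 + e 1 * E 1) =
      (E 0 * E 0 + E 1 * E 1) * (e 0 * e 0 + e 1 * e 1) := by ring
  rw [this, hE, he, mul_one]

/-- thin slab of a box in the orthonormal frame `E` -/
theorem rectE_lam {E : E2} {A B δ n1 n2 : ℝ} (hE : dt E E = 1) (hB : 0 < B) (hAB : B ≤ A)
    (hδ : 0 < δ) (hδ1 : δ ≤ 1) (hn : n1 ^ 2 + n2 ^ 2 = 1) :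
    ∃ (e : E2) (a1 a2 : ℝ), dt e e = 1 ∧ δ * B / 3 ≤ a1 ∧ a1 ≤ a2 ∧ a2 ≤ 36 * A ∧
      a1 * a2 ≤ 12 * (δ * A * B) ∧
      ∀ (lam : ℝ) (x : E2), 0 ≤ lam → |cr E x| ≤ lam * A → |dt x E| ≤ lam * B →
        |n1 * (cr E x / A) + n2 * (dt x E / B)| ≤ lam * δ →
        |dt x e| ≤ lam * a1 ∧ |cr e x| ≤ lam * a2 := by
  obtain ⟨e, a1, a2, hee, hlo, h12, hup, hprod, key⟩ :=
    slab_rect (A := A) (B := B) (δ := δ) (θ := 0) (n1 := n1) (n2 := n2) hB hAB hδ hδ1
      (by simp) hn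
  refine ⟨frm E e, a1, a2, frm_unit hE hee, hlo, h12, hup, hprod, ?_⟩
  intro lam x hlam h1 h2 h3
  have := key lam (frm E x) hlam (by rw [frm_zero]; exact h1)
    (by rw [frm_zero, frm_one, zero_mul, sub_zero]; exact h2)
    (by rw [frm_zero, frm_one, zero_mul, sub_zero]; exact h3)
  rw [dt_frm hE, cr_frm hE, abs_neg] at this
  exact this

/-- **861's `rect`** -/
theorem rect {E : E2} {A B δ n1 n2 : ℝ} (hE : dt E E = 1) (hB : 0 < B) (hAB : B ≤ A)
    (hδ : 0 < δ) (hδ2 : δ ≤ 2) (hn : n1 ^ 2 + n2 ^ 2 = 1) :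
    ∃ (e : E2) (a1 a2 : ℝ), dt e e = 1 ∧ B * δ ≤ a1 ∧ a1 ≤ a2 ∧ a2 ≤ 216 * A ∧
      a1 * a2 ≤ 216 * (δ * A * B) ∧
      ∀ x : E2, |cr E x| ≤ A → |dt x E| ≤ B →
        |n1 * (cr E x / A) + n2 * (dt x E / B)| ≤ δ → |dt x e| ≤ a1 ∧ |cr e x| ≤ a2 := by
  have hA : 0 < A := lt_of_lt_of_le hB hAB
  obtain ⟨e, a1, a2, hee, hlo, h12, hup, hprod, key⟩ :=
    rectE_lam (A := A) (B := B) (δ := δ / 2) (n1 := n1) (n2 := n2) hE hB hAB
      (by linarith) (by linarith) hn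
  have ha1 : 0 < a1 := lt_of_lt_of_le (by positivity) hlo
  have ha2 : 0 < a2 := lt_of_lt_of_le ha1 h12
  refine ⟨e, 6 * a1, 6 * a2, hee, by nlinarith, by linarith, by linarith, by nlinarith, ?_⟩
  intro x h1 h2 h3
  have := key 2 x (by norm_num) (by linarith [abs_nonneg (cr E x)]) (by linarith [abs_nonneg (dt x E)])
    (by linarith)
  constructor
  · linarith [this.1]
  · linarith [this.2]

/-- the same with a factor `lam` and `0 < δ ≤ 2`. -/
theorem rect_lam {E : E2} {A B δ n1 n2 : ℝ} (hE : dt E E = 1) (hB : 0 < B) (hAB : B ≤ A)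
    (hδ : 0 < δ) (hδ2 : δ ≤ 2) (hn : n1 ^ 2 + n2 ^ 2 = 1) :
    ∃ (e : E2) (a1 a2 : ℝ), dt e e = 1 ∧ B * δ ≤ a1 ∧ a1 ≤ a2 ∧ a2 ≤ 216 * A ∧
      a1 * a2 ≤ 216 * (δ * A * B) ∧
      ∀ (lam : ℝ) (x : E2), 0 ≤ lam → |cr E x| ≤ lam * A → |dt x E| ≤ lam * B →
        |n1 * (cr E x / A) + n2 * (dt x E / B)| ≤ lam * δ →
        |dt x e| ≤ lam * a1 ∧ |cr e x| ≤ lam * a2 := by
  have hA : 0 < A := lt_of_lt_of_le hB hAB
  obtain ⟨e, a1, a2, hee, hlo, h12, hup, hprod, key⟩ :=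
    rectE_lam (A := A) (B := B) (δ := δ / 2) (n1 := n1) (n2 := n2) hE hB hAB
      (by linarith) (by linarith) hn
  have ha1 : 0 < a1 := lt_of_lt_of_le (by positivity) hlo
  have ha2 : 0 < a2 := lt_of_lt_of_le ha1 h12
  refine ⟨e, 6 * a1, 6 * a2, hee, by nlinarith, by linarith, by linarith, by nlinarith, ?_⟩
  intro lam x hlam h1 h2 h3
  have := key (2 * lam) x (by positivity) (by nlinarith) (by nlinarith) (by nlinarith)
  constructor
  · nlinarith [this.1]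
  · nlinarith [this.2]

end Crest.Agent.R138.LmA2
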