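import Crest.Agent.R138.Defs_665

/-! # W6 (parabolic rescaling), part 1: phases, classes `Par`, `ParB`, gradients, rotations
(helper574) -/

set_option autoImplicit false

open MeasureTheory
open scoped ContDiff

namespace Crest.Agent.R138.Resc574

open Crest.Agent.R138.Defs

/-- Parabolic rescaling of the phase about `ξ0` with ratio `l`. -/
noncomputable def hR (h : E2 → ℝ) (ξ0 : E2) (l : ℝ) (η : E2) : ℝ :=
  (l ^ 2)⁻¹ * (h (ξ0 + l • η) - h ξ0 - l * inner ℝ (gradient h ξ0) η)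

/-- The defining identity, solved for `h`. -/
theorem h_eq (h : E2 → ℝ) (ξ0 : E2) {l : ℝ} (hl : l ≠ 0) (η : E2) :
    h (ξ0 + l • η) = h ξ0 + l * inner ℝ (gradient h ξ0) η + l ^ 2 * hR h ξ0 l η := by
  unfold hR; field_simp; ring

theorem hR_zero (h : E2 → ℝ) (ξ0 : E2) (l : ℝ) : hR h ξ0 l 0 = 0 := by
  simp [hR]

/-- the perturbation `h - ‖·‖²/2`. -/
noncomputable def pt (h : E2 → ℝ) (ξ : E2) : ℝ := h ξ - ‖ξ‖ ^ 2 / 2

theorem contDiff_pt {h : E2 → ℝ} (hh : ContDiff ℝ ∞ h) : ContDiff ℝ ∞ (pt h) :=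
  hh.sub ((contDiff_norm_sq ℝ).div_const 2)

theorem contDiff_hR {h : E2 → ℝ} (hh : ContDiff ℝ ∞ h) (ξ0 : E2) (l : ℝ) :
    ContDiff ℝ ∞ (hR h ξ0 l) := by
  unfold hR
  refine contDiff_const.mul (((hh.comp (contDiff_const.add (contDiff_id.const_smul l))).sub
    contDiff_const).sub (contDiff_const.mul (contDiff_const.inner ℝ contDiff_id)))

/-- iterated derivatives of an affine function vanish from order two on. -/
theorem iter_affine (c : ℝ) (L : E2 →L[ℝ] ℝ) {k : ℕ} (hk : 2 ≤ k) (η : E2) :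
    iteratedFDeriv ℝ k (fun η => c + L η) η = 0 := by
  obtain ⟨j, rfl⟩ := Nat.exists_eq_add_of_le hk
  have e : fderiv ℝ (fun η : E2 => c + L η) = fun _ => L := by
    ext1 x
    exact ((L.hasFDerivAt (x := x)).const_add c).fderiv
  have h1 : ‖iteratedFDeriv ℝ (j + 1) (fderiv ℝ (fun η : E2 => c + L η)) η‖ = 0 := by
    rw [e, iteratedFDeriv_const_of_ne (by omega)]; simp
  rw [norm_iteratedFDeriv_fderiv] at h1
  have : 2 + j = j + 1 + 1 := by omega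
  rw [this]
  exact norm_eq_zero.1 h1

/-- the perturbation of the rescaled phase: rescaled perturbation plus an affine function. -/
theorem pt_hR (h : E2 → ℝ) (ξ0 : E2) {l : ℝ} (hl : l ≠ 0) (η : E2) :
    pt (hR h ξ0 l) η = (l ^ 2)⁻¹ • pt h (ξ0 + l • η) +
      (((l ^ 2)⁻¹ * (‖ξ0‖ ^ 2 / 2 - h ξ0)) +
        ((l ^ 2)⁻¹ * l) • (innerSL ℝ ξ0 - innerSL ℝ (gradient h ξ0)) η) := by
  have h1 : ‖ξ0 + l • η‖ ^ 2 = ‖ξ0‖ ^ 2 + 2 * (l * inner ℝ ξ0 η) + l ^ 2 * ‖η‖ ^ 2 := by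
    rw [norm_add_sq_real, real_inner_smul_right, norm_smul, mul_pow, Real.norm_eq_abs, sq_abs]
  simp only [pt, hR, h1, smul_eq_mul, sub_apply, innerSL_apply_apply]
  field_simp
  ring

/-- derivatives of the perturbation of the rescaled phase. -/
theorem norm_iter_pt_hR {h : E2 → ℝ} (hh : ContDiff ℝ ∞ h) (ξ0 : E2) {l : ℝ} (hl : 0 < l)
    {k : ℕ} (hk : 2 ≤ k) (η : E2) :
    ‖iteratedFDeriv ℝ k (pt (hR h ξ0 l)) η‖ ≤
      l ^ (k - 2) * ‖iteratedFDeriv ℝ k (pt h) (ξ0 + l • η)‖ := by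
  have hk' : (k : WithTop ℕ∞) ≤ ∞ := by exact_mod_cast le_top
  set L : E2 →L[ℝ] ℝ := ((l ^ 2)⁻¹ * l) • (innerSL ℝ ξ0 - innerSL ℝ (gradient h ξ0)) with hL
  set A : E2 →L[ℝ] E2 := l • ContinuousLinearMap.id ℝ E2 with hA
  have hq : ContDiff ℝ ∞ (fun ζ => pt h (ξ0 + ζ)) :=
    (contDiff_pt hh).comp (contDiff_const.add contDiff_id)
  have e : pt (hR h ξ0 l) = fun η => (l ^ 2)⁻¹ • ((fun ζ => pt h (ξ0 + ζ)) ∘ A) η +
      (((l ^ 2)⁻¹ * (‖ξ0‖ ^ 2 / 2 - h ξ0)) + L η) := by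
    funext η
    rw [pt_hR h ξ0 hl.ne']
    simp [A, L]
  have c1 : ContDiff ℝ ∞ (fun η => (l ^ 2)⁻¹ • ((fun ζ => pt h (ξ0 + ζ)) ∘ A) η) :=
    (hq.comp A.contDiff).const_smul _
  have c2 : ContDiff ℝ ∞ (fun η => ((l ^ 2)⁻¹ * (‖ξ0‖ ^ 2 / 2 - h ξ0)) + L η) :=
    contDiff_const.add L.contDiff
  rw [e, fun_iteratedFDeriv_add_apply (c1.of_le hk').contDiffAt (c2.of_le hk').contDiffAt,
    iter_affine _ L hk, add_zero,
    iteratedFDeriv_const_smul_apply' ((hq.comp A.contDiff).of_le hk').contDiffAt,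
    A.iteratedFDeriv_comp_right hq η hk', norm_smul]
  have h2 : iteratedFDeriv ℝ k (fun ζ => pt h (ξ0 + ζ)) (A η) =
      iteratedFDeriv ℝ k (pt h) (ξ0 + l • η) := by
    rw [iteratedFDeriv_comp_add_left]
    simp [A]
  have h3 : ‖(iteratedFDeriv ℝ k (fun ζ => pt h (ξ0 + ζ)) (A η)).compContinuousLinearMap
      fun _ => A‖ ≤ ‖iteratedFDeriv ℝ k (pt h) (ξ0 + l • η)‖ * l ^ k := by
    refine (ContinuousMultilinearMap.norm_compContinuousLinearMap_le _ _).trans ?_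
    rw [h2, Finset.prod_const, Finset.card_univ, Fintype.card_fin]
    gcongr
    rw [hA, norm_smul, Real.norm_of_nonneg hl.le]
    calc l * ‖ContinuousLinearMap.id ℝ E2‖ ≤ l * 1 := by
          gcongr
          exact ContinuousLinearMap.norm_id_le
      _ = l := mul_one l
  have h4 : ‖(l ^ 2)⁻¹‖ = (l ^ 2)⁻¹ := Real.norm_of_nonneg (by positivity)
  rw [h4]
  calc (l ^ 2)⁻¹ * ‖(iteratedFDeriv ℝ k (fun ζ => pt h (ξ0 + ζ)) (A η)).compContinuousLinearMap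
        fun _ => A‖ ≤ (l ^ 2)⁻¹ * (‖iteratedFDeriv ℝ k (pt h) (ξ0 + l • η)‖ * l ^ k) := by gcongr
    _ = l ^ (k - 2) * ‖iteratedFDeriv ℝ k (pt h) (ξ0 + l • η)‖ := by
      obtain ⟨j, rfl⟩ := Nat.exists_eq_add_of_le hk
      rw [Nat.add_sub_cancel_left, pow_add]
      field_simp

/-- `Par` is closed under parabolic rescaling. -/
theorem par_hR {c0 : ℝ} {K : ℕ} {h : E2 → ℝ} (H : Par c0 K h) (ξ0 : E2) {l : ℝ} (hl : 0 < l)
    (hl1 : l ≤ 1) : Par c0 K (hR h ξ0 l) := by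
  refine ⟨contDiff_hR H.1 ξ0 l, fun k hk hkK η => ?_⟩
  refine (norm_iter_pt_hR H.1 ξ0 hl hk η).trans ?_
  have h1 : l ^ (k - 2) ≤ 1 := pow_le_one₀ hl.le hl1
  calc l ^ (k - 2) * ‖iteratedFDeriv ℝ k (pt h) (ξ0 + l • η)‖
      ≤ 1 * ‖iteratedFDeriv ℝ k (pt h) (ξ0 + l • η)‖ := by gcongr
    _ = ‖iteratedFDeriv ℝ k (pt h) (ξ0 + l • η)‖ := one_mul _
    _ ≤ c0 := H.2 k hk hkK _

/-- `ParB` is closed under parabolic rescaling. -/
theorem parB_hR {B : ℕ → ℝ} {h : E2 → ℝ} (H : ParB B h) (ξ0 : E2) {l : ℝ} (hl : 0 < l)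
    (hl1 : l ≤ 1) : ParB B (hR h ξ0 l) := by
  refine ⟨contDiff_hR H.1 ξ0 l, fun k hk η => ?_⟩
  refine (norm_iter_pt_hR H.1 ξ0 hl hk η).trans ?_
  have h1 : l ^ (k - 2) ≤ 1 := pow_le_one₀ hl.le hl1
  calc l ^ (k - 2) * ‖iteratedFDeriv ℝ k (pt h) (ξ0 + l • η)‖
      ≤ 1 * ‖iteratedFDeriv ℝ k (pt h) (ξ0 + l • η)‖ := by gcongr
    _ = ‖iteratedFDeriv ℝ k (pt h) (ξ0 + l • η)‖ := one_mul _
    _ ≤ B k := H.2 k hk _

/-! ### gradients -/

theorem gradient_hR {h : E2 → ℝ} (hh : Differentiable ℝ h) (ξ0 : E2) {l : ℝ} (hl : l ≠ 0)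
    (η : E2) : gradient (hR h ξ0 l) η = l⁻¹ • (gradient h (ξ0 + l • η) - gradient h ξ0) := by
  refine HasGradientAt.gradient ?_
  rw [hasGradientAt_iff_hasFDerivAt]
  have h1 : HasFDerivAt (fun η : E2 => h (ξ0 + l • η))
      ((fderiv ℝ h (ξ0 + l • η)).comp (l • ContinuousLinearMap.id ℝ E2)) η := by
    refine (hh (ξ0 + l • η)).hasFDerivAt.comp η ?_
    exact ((hasFDerivAt_id η).const_smul l).const_add ξ0
  have h2 : HasFDerivAt (fun η : E2 => inner ℝ (gradient h ξ0) η) (innerSL ℝ (gradient h ξ0)) η :=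
    (innerSL ℝ (gradient h ξ0)).hasFDerivAt
  have h3 := (((h1.sub_const (h ξ0)).sub (h2.const_mul l)).const_mul ((l ^ 2)⁻¹))
  refine h3.congr_fderiv ?_
  ext v
  simp only [smul_apply, sub_apply,
    ContinuousLinearMap.comp_apply, ContinuousLinearMap.id_apply, smul_eq_mul, map_smul,
    innerSL_apply_apply, InnerProductSpace.toDual_apply_apply, inner_sub_left,
    inner_gradient_left]
  field_simp

theorem gradient_hR_zero {h : E2 → ℝ} (hh : Differentiable ℝ h) (ξ0 : E2) {l : ℝ} (hl : l ≠ 0) :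
    gradient (hR h ξ0 l) 0 = 0 := by
  rw [gradient_hR hh ξ0 hl]; simp

/-- rescalings compose. -/
theorem hR_hR {h : E2 → ℝ} (hh : Differentiable ℝ h) (ξ0 η0 : E2) {l m : ℝ} (hl : l ≠ 0)
    (hm : m ≠ 0) : hR (hR h ξ0 l) η0 m = hR h (ξ0 + l • η0) (l * m) := by
  funext ζ
  have e1 : ξ0 + l • (η0 + m • ζ) = (ξ0 + l • η0) + (l * m) • ζ := by
    rw [smul_add, smul_smul, add_assoc]
  have e2 := gradient_hR hh ξ0 hl η0
  unfold hR at e2 ⊢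
  rw [e2, e1, inner_smul_left, inner_sub_left, inner_add_right, inner_smul_right]
  simp only [conj_trivial]
  field_simp
  ring

/-! ### rotations -/

theorem contDiff_rot {h : E2 → ℝ} (hh : ContDiff ℝ ∞ h) (U : E2 ≃ₗᵢ[ℝ] E2) :
    ContDiff ℝ ∞ (h ∘ U) := hh.comp U.contDiff

theorem pt_rot (h : E2 → ℝ) (U : E2 ≃ₗᵢ[ℝ] E2) : pt (h ∘ U) = pt h ∘ U := by
  funext ξ; simp [pt]

theorem par_rot {c0 : ℝ} {K : ℕ} {h : E2 → ℝ} (H : Par c0 K h) (U : E2 ≃ₗᵢ[ℝ] E2) :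
    Par c0 K (h ∘ U) := by
  refine ⟨contDiff_rot H.1 U, fun k hk hkK ξ => ?_⟩
  change ‖iteratedFDeriv ℝ k (pt (h ∘ U)) ξ‖ ≤ c0
  rw [pt_rot, U.norm_iteratedFDeriv_comp_right]
  exact H.2 k hk hkK _

theorem parB_rot {B : ℕ → ℝ} {h : E2 → ℝ} (H : ParB B h) (U : E2 ≃ₗᵢ[ℝ] E2) :
    ParB B (h ∘ U) := by
  refine ⟨contDiff_rot H.1 U, fun k hk ξ => ?_⟩
  change ‖iteratedFDeriv ℝ k (pt (h ∘ U)) ξ‖ ≤ B k
  rw [pt_rot, U.norm_iteratedFDeriv_comp_right]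
  exact H.2 k hk _

theorem gradient_rot {h : E2 → ℝ} (hh : Differentiable ℝ h) (U : E2 ≃ₗᵢ[ℝ] E2) (ξ : E2) :
    gradient (h ∘ U) ξ = U.symm (gradient h (U ξ)) := by
  refine HasGradientAt.gradient ?_
  rw [hasGradientAt_iff_hasFDerivAt]
  have h1 : HasFDerivAt (h ∘ U) ((fderiv ℝ h (U ξ)).comp (U.toContinuousLinearEquiv : E2 →L[ℝ] E2)) ξ :=
    (hh (U ξ)).hasFDerivAt.comp ξ U.toContinuousLinearEquiv.hasFDerivAt
  refine h1.congr_fderiv ?_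
  ext v
  simp only [ContinuousLinearMap.comp_apply, InnerProductSpace.toDual_apply_apply]
  rw [U.symm.inner_map_eq_flip, LinearIsometryEquiv.symm_symm, inner_gradient_left]
  rfl

/-- adding an affine function to the phase does not change the classes. -/
theorem pt_affine (h : E2 → ℝ) (c : ℝ) (v : E2) :
    pt (fun ξ => h ξ + (c + inner ℝ v ξ)) = fun ξ => pt h ξ + (c + innerSL ℝ v ξ) := by
  funext ξ; simp only [pt, innerSL_apply_apply]; ring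

theorem norm_iter_affine {h : E2 → ℝ} (hh : ContDiff ℝ ∞ h) (c : ℝ) (v : E2) {k : ℕ}
    (hk : 2 ≤ k) (ξ : E2) :
    iteratedFDeriv ℝ k (pt fun ξ => h ξ + (c + inner ℝ v ξ)) ξ = iteratedFDeriv ℝ k (pt h) ξ := by
  have hk' : (k : WithTop ℕ∞) ≤ ∞ := by exact_mod_cast le_top
  rw [pt_affine, fun_iteratedFDeriv_add_apply ((contDiff_pt hh).of_le hk').contDiffAt
    ((contDiff_const.add (innerSL ℝ v).contDiff).of_le hk').contDiffAt, iter_affine _ _ hk,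
    add_zero]

theorem parB_affine {B : ℕ → ℝ} {h : E2 → ℝ} (H : ParB B h) (c : ℝ) (v : E2) :
    ParB B (fun ξ => h ξ + (c + inner ℝ v ξ)) := by
  refine ⟨H.1.add (contDiff_const.add (contDiff_const.inner ℝ contDiff_id)), fun k hk ξ => ?_⟩
  change ‖iteratedFDeriv ℝ k (pt fun ξ => h ξ + (c + inner ℝ v ξ)) ξ‖ ≤ B k
  rw [norm_iter_affine H.1 c v hk]
  exact H.2 k hk ξ

theorem par_affine {c0 : ℝ} {K : ℕ} {h : E2 → ℝ} (H : Par c0 K h) (c : ℝ) (v : E2) :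
    Par c0 K (fun ξ => h ξ + (c + inner ℝ v ξ)) := by
  refine ⟨H.1.add (contDiff_const.add (contDiff_const.inner ℝ contDiff_id)), fun k hk hkK ξ => ?_⟩
  change ‖iteratedFDeriv ℝ k (pt fun ξ => h ξ + (c + inner ℝ v ξ)) ξ‖ ≤ c0
  rw [norm_iter_affine H.1 c v hk]
  exact H.2 k hk hkK ξ

theorem parB_par {B : ℕ → ℝ} {h : E2 → ℝ} (H : ParB B h) {c0 : ℝ} {K : ℕ}
    (hB : ∀ k, 2 ≤ k → k ≤ K → B k ≤ c0) : Par c0 K h :=
  ⟨H.1, fun k hk hkK ξ => (H.2 k hk ξ).trans (hB k hk hkK)⟩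

end Crest.Agent.R138.Resc574
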