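import Crest.Agent.R138.Resc1_574

/-! # W6 (parabolic rescaling), part 2: identities for `ext`, change of variables, planks, cylinders
(helper574) -/

set_option autoImplicit false

open MeasureTheory
open scoped ContDiff ENNReal

namespace Crest.Agent.R138.Resc574

open Crest.Agent.R138.Defs

/-! ### the character -/

theorem ee_add (s t : ℝ) : ee (s + t) = ee s * ee t := by
  simp only [ee, ← Complex.exp_add]
  congr 1
  push_cast
  ring

theorem ee_zero : ee 0 = 1 := by simp [ee]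

theorem norm_ee (t : ℝ) : ‖ee t‖ = 1 := by
  rw [ee, Complex.norm_exp_ofReal_mul_I]

theorem ee_neg_mul (t : ℝ) : ee (-t) * ee t = 1 := by
  rw [← ee_add, neg_add_cancel, ee_zero]

theorem continuous_ee : Continuous ee := by unfold ee; fun_prop

/-! ### identities for `ext` -/

/-- translation in physical space = modulation of the amplitude. -/
theorem ext_mod (h : E2 → ℝ) (g : E2 → ℂ) (x x0 : E2) (t t0 : ℝ) :
    ext h (fun ξ => g ξ * ee (inner ℝ x0 ξ + t0 * h ξ)) x t = ext h g (x0 + x) (t0 + t) := by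
  unfold ext
  congr 1
  funext ξ
  rw [mul_assoc, ← ee_add]
  congr 2
  rw [inner_add_left]
  ring

/-- translation of the phase and of the amplitude. -/
theorem ext_shift (h : E2 → ℝ) (g : E2 → ℂ) (ξ0 x : E2) (t : ℝ) :
    ext h g x t = ee (inner ℝ x ξ0) *
      ext (fun η => h (ξ0 + η)) (fun η => g (ξ0 + η)) x t := by
  unfold ext
  rw [← integral_const_mul]
  rw [← integral_add_left_eq_self (fun ξ => g ξ * ee (inner ℝ x ξ + t * h ξ)) ξ0]
  congr 1
  funext η
  rw [inner_add_right, add_assoc, ee_add]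
  ring

/-- adding an affine function to the phase. -/
theorem ext_affine (h : E2 → ℝ) (g : E2 → ℂ) (c : ℝ) (v x : E2) (t : ℝ) :
    ext (fun ξ => h ξ + (c + inner ℝ v ξ)) g x t = ee (t * c) * ext h g (x + t • v) t := by
  unfold ext
  rw [← integral_const_mul]
  congr 1
  funext ξ
  have : inner ℝ x ξ + t * (h ξ + (c + inner ℝ v ξ)) =
      t * c + (inner ℝ (x + t • v) ξ + t * h ξ) := by
    rw [inner_add_left, inner_smul_left]; simp only [conj_trivial]; ring
  rw [this, ee_add]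
  ring

/-- the change of variables in physical space attached to the rescaling. -/
noncomputable def Ph (v : E2) (l : ℝ) (p : E2 × ℝ) : E2 × ℝ := (l • (p.1 + p.2 • v), l ^ 2 * p.2)

/-- **the rescaling identity**. -/
theorem ext_resc (h : E2 → ℝ) (g : E2 → ℂ) (ξ0 : E2) {l : ℝ} (hl : 0 < l) (x : E2) (t : ℝ) :
    ext h g x t = ((l ^ 2 : ℝ) : ℂ) * ee (inner ℝ x ξ0 + t * h ξ0) *
      ext (hR h ξ0 l) (fun η => g (ξ0 + l • η)) (l • (x + t • gradient h ξ0)) (l ^ 2 * t) := by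
  have h1 : ext h g x t = ((l ^ 2 : ℝ) : ℂ) *
      ∫ η : E2, g (ξ0 + l • η) * ee (inner ℝ x (ξ0 + l • η) + t * h (ξ0 + l • η)) := by
    have e := Measure.integral_comp_smul_of_nonneg (volume : Measure E2)
      (fun η => g (ξ0 + η) * ee (inner ℝ x (ξ0 + η) + t * h (ξ0 + η))) l (hR := hl.le)
    rw [integral_add_left_eq_self (fun ξ => g ξ * ee (inner ℝ x ξ + t * h ξ)) ξ0] at e
    rw [e]
    simp only [finrank_euclideanSpace, Fintype.card_fin]
    unfold ext
    rw [Complex.real_smul, ← mul_assoc, ← Complex.ofReal_mul, mul_inv_cancel₀ (by positivity)]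
    simp
  rw [h1, mul_assoc]
  congr 1
  unfold ext
  rw [← integral_const_mul]
  congr 1
  funext η
  have e : inner ℝ x (ξ0 + l • η) + t * h (ξ0 + l • η) = (inner ℝ x ξ0 + t * h ξ0) +
      (inner ℝ (l • (x + t • gradient h ξ0)) η + l ^ 2 * t * hR h ξ0 l η) := by
    rw [h_eq h ξ0 hl.ne' η]
    simp only [inner_add_right, inner_smul_right, inner_smul_left, inner_add_left, conj_trivial]
    ring
  rw [e, ee_add]
  ring

/-- norm form of the rescaling identity. -/
theorem norm_ext_resc (h : E2 → ℝ) (g : E2 → ℂ) (ξ0 : E2) {l : ℝ} (hl : 0 < l) (p : E2 × ℝ) :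
    ‖ext h g p.1 p.2‖ = l ^ 2 * ‖ext (hR h ξ0 l) (fun η => g (ξ0 + l • η))
      (Ph (gradient h ξ0) l p).1 (Ph (gradient h ξ0) l p).2‖ := by
  rw [ext_resc h g ξ0 hl, norm_mul, norm_mul, norm_ee, mul_one, Complex.norm_real,
    Real.norm_of_nonneg (by positivity)]
  rfl

theorem enorm_ext_resc (h : E2 → ℝ) (g : E2 → ℂ) (ξ0 : E2) {l : ℝ} (hl : 0 < l) (p : E2 × ℝ) :
    ‖ext h g p.1 p.2‖ₑ = ENNReal.ofReal (l ^ 2) * ‖ext (hR h ξ0 l) (fun η => g (ξ0 + l • η))
      (Ph (gradient h ξ0) l p).1 (Ph (gradient h ξ0) l p).2‖ₑ := by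
  rw [← ofReal_norm, ← ofReal_norm, norm_ext_resc h g ξ0 hl,
    ENNReal.ofReal_mul (by positivity)]

/-! ### the map `Ph` as a measurable equivalence, measure factor `l^4` -/

theorem Ph_inj_aux (v : E2) {l : ℝ} (hl : l ≠ 0) (p : E2 × ℝ) :
    ((l⁻¹ • (Ph v l p).1 - ((l ^ 2)⁻¹ * (Ph v l p).2) • v, (l ^ 2)⁻¹ * (Ph v l p).2) : E2 × ℝ)
      = p := by
  have h1 : (l ^ 2)⁻¹ * (l ^ 2 * p.2) = p.2 := by field_simp
  refine Prod.ext ?_ ?_
  · simp only [Ph, h1, smul_smul, inv_mul_cancel₀ hl, one_smul, add_sub_cancel_right]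
  · simp only [Ph, h1]

theorem Ph_surj_aux (v : E2) {l : ℝ} (hl : l ≠ 0) (q : E2 × ℝ) :
    Ph v l (l⁻¹ • q.1 - ((l ^ 2)⁻¹ * q.2) • v, (l ^ 2)⁻¹ * q.2) = q := by
  refine Prod.ext ?_ ?_
  · simp only [Ph, sub_add_cancel, smul_smul, mul_inv_cancel₀ hl, one_smul]
  · simp only [Ph]; field_simp

/-- `Ph` as a homeomorphism. -/
noncomputable def PhH (v : E2) (l : ℝ) (hl : l ≠ 0) : (E2 × ℝ) ≃ₜ (E2 × ℝ) where
  toFun := Ph v l
  invFun q := (l⁻¹ • q.1 - ((l ^ 2)⁻¹ * q.2) • v, (l ^ 2)⁻¹ * q.2)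
  left_inv p := Ph_inj_aux v hl p
  right_inv q := Ph_surj_aux v hl q
  continuous_toFun := by unfold Ph; fun_prop
  continuous_invFun := by fun_prop

@[simp] theorem PhH_apply (v : E2) (l : ℝ) (hl : l ≠ 0) (p : E2 × ℝ) : PhH v l hl p = Ph v l p :=
  rfl

/-- the shear is measure preserving. -/
theorem mp_shear (v : E2) : MeasurePreserving (fun p : E2 × ℝ => (p.1 + p.2 • v, p.2))
    (volume : Measure (E2 × ℝ)) volume := by
  have h1 : MeasurePreserving (fun p : ℝ × E2 => (p.1, p.2 + p.1 • v))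
      ((volume : Measure ℝ).prod (volume : Measure E2)) (volume.prod volume) := by
    refine (MeasurePreserving.id _).skew_product (g := fun (a : ℝ) (c : E2) => c + a • v) ?_ ?_
    · exact (continuous_snd.add (continuous_fst.smul continuous_const)).measurable
    · exact Filter.Eventually.of_forall fun a => (measurePreserving_add_right _ _).map_eq
  have h2 := (Measure.measurePreserving_swap (μ := (volume : Measure ℝ))
    (ν := (volume : Measure E2))).comp (h1.comp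
      (Measure.measurePreserving_swap (μ := (volume : Measure E2)) (ν := (volume : Measure ℝ))))
  exact h2

theorem map_scale {l : ℝ} (hl : 0 < l) :
    Measure.map (fun p : E2 × ℝ => (l • p.1, l ^ 2 * p.2)) (volume : Measure (E2 × ℝ)) =
      ENNReal.ofReal ((l ^ 4)⁻¹) • volume := by
  have h1 : Measure.map (fun x : E2 => l • x) volume = ENNReal.ofReal ((l ^ 2)⁻¹) • volume := by
    rw [Measure.map_addHaar_smul _ hl.ne', abs_of_nonneg (by positivity)]
    simp
  have h2 : Measure.map (fun t : ℝ => l ^ 2 * t) volume =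
      ENNReal.ofReal ((l ^ 2)⁻¹) • volume := by
    have := Measure.map_addHaar_smul (volume : Measure ℝ) (r := l ^ 2) (by positivity)
    simp only [smul_eq_mul, Module.finrank_self, pow_one] at this
    rw [this, abs_of_nonneg (by positivity)]
  have h3 : (fun p : E2 × ℝ => (l • p.1, l ^ 2 * p.2)) =
      Prod.map (fun x : E2 => l • x) (fun t : ℝ => l ^ 2 * t) := rfl
  rw [h3, Measure.volume_eq_prod, ← Measure.map_prod_map _ _ (by fun_prop) (by fun_prop), h1, h2,
    Measure.prod_smul_left, Measure.prod_smul_right, smul_smul,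
    ← ENNReal.ofReal_mul (by positivity)]
  congr 2
  field_simp

theorem map_Ph (v : E2) {l : ℝ} (hl : 0 < l) :
    Measure.map (Ph v l) (volume : Measure (E2 × ℝ)) = ENNReal.ofReal ((l ^ 4)⁻¹) • volume := by
  have e : Ph v l = (fun p : E2 × ℝ => (l • p.1, l ^ 2 * p.2)) ∘
      (fun p : E2 × ℝ => (p.1 + p.2 • v, p.2)) := rfl
  rw [e, ← Measure.map_map (by fun_prop) (mp_shear v).measurable, (mp_shear v).map_eq,
    map_scale hl]

/-- change of variables for arbitrary functions. -/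
theorem lintegral_Ph (v : E2) {l : ℝ} (hl : 0 < l) (F : E2 × ℝ → ℝ≥0∞) :
    ∫⁻ p, F (Ph v l p) = ENNReal.ofReal ((l ^ 4)⁻¹) * ∫⁻ q, F q := by
  have h1 := lintegral_map_equiv F (PhH v l hl.ne').toMeasurableEquiv (μ := volume)
  have h2 : Measure.map ((PhH v l hl.ne').toMeasurableEquiv) (volume : Measure (E2 × ℝ)) =
      ENNReal.ofReal ((l ^ 4)⁻¹) • volume := map_Ph v hl
  rw [h2, lintegral_smul_measure] at h1
  exact h1.symm

/-- change of variables on a set (preimage form). -/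
theorem setLIntegral_Ph (v : E2) {l : ℝ} (hl : 0 < l) {A : Set (E2 × ℝ)} (hA : MeasurableSet A)
    (F : E2 × ℝ → ℝ≥0∞) :
    ∫⁻ p in Ph v l ⁻¹' A, F (Ph v l p) = ENNReal.ofReal ((l ^ 4)⁻¹) * ∫⁻ q in A, F q := by
  have hm : Measurable (Ph v l) := (PhH v l hl.ne').continuous.measurable
  rw [← lintegral_indicator (hm hA), ← lintegral_indicator hA,
    ← lintegral_Ph v hl (A.indicator F)]
  rfl

/-- energy / power integrals of `ext` over preimages. -/
theorem lintegral_ext_resc (h : E2 → ℝ) (g : E2 → ℂ) (ξ0 : E2) {l : ℝ} (hl : 0 < l)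
    {A : Set (E2 × ℝ)} (hA : MeasurableSet A) (k : ℕ) :
    ∫⁻ p in Ph (gradient h ξ0) l ⁻¹' A, ‖ext h g p.1 p.2‖ₑ ^ k =
      ENNReal.ofReal (l ^ (2 * k) * (l ^ 4)⁻¹) *
        ∫⁻ q in A, ‖ext (hR h ξ0 l) (fun η => g (ξ0 + l • η)) q.1 q.2‖ₑ ^ k := by
  have h1 : ∀ p : E2 × ℝ, ‖ext h g p.1 p.2‖ₑ ^ k = ENNReal.ofReal (l ^ (2 * k)) *
      (fun q : E2 × ℝ => ‖ext (hR h ξ0 l) (fun η => g (ξ0 + l • η)) q.1 q.2‖ₑ ^ k)
        (Ph (gradient h ξ0) l p) := by
    intro p
    rw [enorm_ext_resc h g ξ0 hl p, mul_pow, ← ENNReal.ofReal_pow (by positivity), ← pow_mul]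
  simp_rw [h1]
  rw [lintegral_const_mul' _ _ ENNReal.ofReal_ne_top]
  have h2 := setLIntegral_Ph (gradient h ξ0) hl hA
    (fun q : E2 × ℝ => ‖ext (hR h ξ0 l) (fun η => g (ξ0 + l • η)) q.1 q.2‖ₑ ^ k)
  rw [h2, ← mul_assoc, ← ENNReal.ofReal_mul (by positivity)]

/-! ### planks, cylinders, cut-offs -/

/-- **planks**: `Ph` maps planks to planks exactly. -/
theorem mem_plank_Ph (v c : E2) (b : OrthonormalBasis (Fin 2) ℝ E2) (s : Fin 2 → ℝ) (R : ℝ)
    (x0 : E2) (t0 : ℝ) {l : ℝ} (hl : 0 < l) (p : E2 × ℝ) :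
    Ph v l p ∈ plank (l⁻¹ • (c - v)) b (fun i => s i / l) (l ^ 2 * R) (Ph v l (x0, t0)).1
      (Ph v l (x0, t0)).2 ↔ p ∈ plank c b s R x0 t0 := by
  have e1 : (Ph v l p).2 - (Ph v l (x0, t0)).2 = l ^ 2 * (p.2 - t0) := by
    simp only [Ph]; ring
  have e2 : (Ph v l p).1 - (Ph v l (x0, t0)).1 + (l ^ 2 * (p.2 - t0)) •
      (l⁻¹ • (c - v)) = l • (p.1 - x0 + (p.2 - t0) • c) := by
    have : l ^ 2 * (p.2 - t0) * l⁻¹ = l * (p.2 - t0) := by field_simp
    simp only [Ph, smul_smul, this]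
    simp only [smul_sub, smul_add, sub_smul, mul_smul]
    module
  simp only [plank, Set.mem_ofPred_eq, e1, e2, abs_mul, abs_of_pos (pow_pos hl 2),
    inner_smul_left, conj_trivial, abs_of_pos hl]
  refine and_congr ?_ (forall_congr' fun i => ?_)
  · exact mul_le_mul_iff_right₀ (by positivity)
  · have : s i / l * (l ^ 2 * R) = l * (s i * R) := by field_simp
    rw [this]
    exact mul_le_mul_iff_right₀ hl

theorem preimage_plank (v c : E2) (b : OrthonormalBasis (Fin 2) ℝ E2) (s : Fin 2 → ℝ) (R : ℝ)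
    (x0 : E2) (t0 : ℝ) {l : ℝ} (hl : 0 < l) :
    Ph v l ⁻¹' plank (l⁻¹ • (c - v)) b (fun i => s i / l) (l ^ 2 * R) (Ph v l (x0, t0)).1
      (Ph v l (x0, t0)).2 = plank c b s R x0 t0 :=
  Set.ext fun p => mem_plank_Ph v c b s R x0 t0 hl p

/-- the same, starting from a plank in the rescaled space. -/
theorem preimage_plank' (v c' : E2) (b : OrthonormalBasis (Fin 2) ℝ E2) (s' : Fin 2 → ℝ) (R : ℝ)
    (q : E2 × ℝ) {l : ℝ} (hl : 0 < l) :
    Ph v l ⁻¹' plank c' b s' (l ^ 2 * R) q.1 q.2 =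
      plank (v + l • c') b (fun i => l * s' i) R ((PhH v l hl.ne').symm q).1
        ((PhH v l hl.ne').symm q).2 := by
  have h1 := preimage_plank v (v + l • c') b (fun i => l * s' i) R
    ((PhH v l hl.ne').symm q).1 ((PhH v l hl.ne').symm q).2 hl
  have e1 : l⁻¹ • (v + l • c' - v) = c' := by
    rw [add_sub_cancel_left, smul_smul, inv_mul_cancel₀ hl.ne', one_smul]
  have e2 : (fun i => l * s' i / l) = s' := by
    funext i; field_simp
  have e3 : Ph v l (((PhH v l hl.ne').symm q).1, ((PhH v l hl.ne').symm q).2) = q := by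
    change PhH v l hl.ne' ((PhH v l hl.ne').symm q) = q
    exact (PhH v l hl.ne').apply_symm_apply q
  rw [e1, e2, e3] at h1
  exact h1

theorem isClosed_plank (c : E2) (b : OrthonormalBasis (Fin 2) ℝ E2) (s : Fin 2 → ℝ) (R : ℝ)
    (x0 : E2) (t0 : ℝ) : IsClosed (plank c b s R x0 t0) := by
  have : plank c b s R x0 t0 = {p : E2 × ℝ | |p.2 - t0| ≤ R} ∩
      ⋂ i, {p | |inner ℝ (p.1 - x0 + (p.2 - t0) • c) (b i)| ≤ s i * R} := by
    ext p; simp [plank]
  rw [this]
  refine (isClosed_le (by fun_prop) continuous_const).inter (isClosed_iInter fun i => ?_)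
  exact isClosed_le (by fun_prop) continuous_const

theorem measurableSet_plank (c : E2) (b : OrthonormalBasis (Fin 2) ℝ E2) (s : Fin 2 → ℝ) (R : ℝ)
    (x0 : E2) (t0 : ℝ) : MeasurableSet (plank c b s R x0 t0) :=
  (isClosed_plank c b s R x0 t0).measurableSet

/-- the cylinder goes into a long cylinder. -/
theorem Ph_mem_of_cyl (v : E2) {l R : ℝ} (hl : 0 < l) {p : E2 × ℝ} (hp : p ∈ cyl R) :
    ‖(Ph v l p).1‖ ≤ l * ((1 + ‖v‖) * R) ∧ |(Ph v l p).2| ≤ l ^ 2 * R := by
  obtain ⟨h1, h2⟩ := hp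
  constructor
  · simp only [Ph, norm_smul, Real.norm_of_nonneg hl.le]
    gcongr
    calc ‖p.1 + p.2 • v‖ ≤ ‖p.1‖ + ‖p.2 • v‖ := norm_add_le _ _
      _ ≤ R + R * ‖v‖ := by
        rw [norm_smul, Real.norm_eq_abs]
        gcongr
      _ = (1 + ‖v‖) * R := by ring
  · simp only [Ph, abs_mul, abs_of_pos (pow_pos hl 2)]
    gcongr

/-- the inverse image of a cylinder centred at the origin. -/
theorem cyl_of_Ph (v : E2) {l R : ℝ} (hl : 0 < l) {p : E2 × ℝ} (h1 : ‖(Ph v l p).1‖ ≤ l ^ 2 * R)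
    (h2 : |(Ph v l p).2| ≤ l ^ 2 * R) : ‖p.1 + p.2 • v‖ ≤ l * R ∧ |p.2| ≤ R := by
  simp only [Ph, norm_smul, Real.norm_of_nonneg hl.le, abs_mul, abs_of_pos (pow_pos hl 2)] at h1 h2
  constructor
  · have : l * ‖p.1 + p.2 • v‖ ≤ l * (l * R) := by linarith [h1, show l ^ 2 * R = l * (l * R) by ring]
    exact le_of_mul_le_mul_left this hl
  · exact le_of_mul_le_mul_left h2 (by positivity)

/-- **cut-offs**. -/
theorem chi_resc {h : E2 → ℝ} (hh : Differentiable ℝ h) (ξ0 c : E2)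
    (b : OrthonormalBasis (Fin 2) ℝ E2) (s : Fin 2 → ℝ) (ψ : E2 → ℂ) {l : ℝ} (hl : l ≠ 0)
    (η : E2) :
    chi (hR h ξ0 l) (l⁻¹ • (c - gradient h ξ0)) b (fun i => s i / l) ψ η =
      chi h c b s ψ (ξ0 + l • η) := by
  unfold chi
  congr 1
  congr 1
  funext i
  rw [gradient_hR hh ξ0 hl, ← smul_sub, sub_sub_sub_cancel_right, inner_smul_left]
  simp only [conj_trivial]
  field_simp

/-- the same, starting from a cut-off in the rescaled space. -/
theorem chi_resc' {h : E2 → ℝ} (hh : Differentiable ℝ h) (ξ0 c' : E2)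
    (b : OrthonormalBasis (Fin 2) ℝ E2) (s' : Fin 2 → ℝ) (ψ : E2 → ℂ) {l : ℝ} (hl : l ≠ 0)
    (η : E2) :
    chi (hR h ξ0 l) c' b s' ψ η =
      chi h (gradient h ξ0 + l • c') b (fun i => l * s' i) ψ (ξ0 + l • η) := by
  rw [← chi_resc hh ξ0 _ b _ ψ hl η]
  congr 1
  · rw [add_sub_cancel_left, smul_smul, inv_mul_cancel₀ hl, one_smul]
  · funext i; field_simp

end Crest.Agent.R138.Resc574
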