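import Crest.Agent.R138.Resc2_574

/-! # W6 (parabolic rescaling), part 3: box bounds under rescaling, modulation, rotation, affine
changes of the phase (helper574) -/

set_option autoImplicit false

open MeasureTheory
open scoped ContDiff ENNReal

namespace Crest.Agent.R138.Resc574

open Crest.Agent.R138.Defs

/-- the box bound for planks with base points in `S`. -/
def BoxOn (N : ℕ) (h : E2 → ℝ) (g : E2 → ℂ) (R D : ℝ) (S : Set (E2 × ℝ)) : Prop :=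
  ∀ (c : E2) (b : OrthonormalBasis (Fin 2) ℝ E2) (s : Fin 2 → ℝ),
    (∀ i, R ^ (-(1/2) : ℝ) ≤ s i ∧ s i ≤ 1) → ∀ ψ, Adm N ψ → ∀ p0 : E2 × ℝ, p0 ∈ S →
      ∫⁻ p in plank c b s R p0.1 p0.2, ‖ext h (fun ξ => g ξ * chi h c b s ψ ξ) p.1 p.2‖ₑ ^ 2 ≤
        ENNReal.ofReal (D * (s 0 * s 1 * R ^ 3))

theorem boxBound_iff (N : ℕ) (h : E2 → ℝ) (g : E2 → ℂ) (R D : ℝ) :
    BoxBound N h g R D ↔ BoxOn N h g R D {p | ‖p.1‖ ≤ 4 * R ∧ |p.2| ≤ 4 * R} := by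
  constructor
  · intro H c b s hs ψ hψ p0 hp
    exact H c b s hs ψ hψ p0.1 p0.2 hp.1 hp.2
  · intro H c b s hs ψ hψ x0 t0 h1 h2
    exact H c b s hs ψ hψ (x0, t0) ⟨h1, h2⟩

theorem BoxOn.mono {N : ℕ} {h : E2 → ℝ} {g : E2 → ℂ} {R D : ℝ} {S S' : Set (E2 × ℝ)}
    (H : BoxOn N h g R D S) (hS : S' ⊆ S) : BoxOn N h g R D S' :=
  fun c b s hs ψ hψ p0 hp => H c b s hs ψ hψ p0 (hS hp)

theorem BoxOn.mono_D {N : ℕ} {h : E2 → ℝ} {g : E2 → ℂ} {R D D' : ℝ} {S : Set (E2 × ℝ)}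
    (hR : 0 ≤ R) (H : BoxOn N h g R D S) (hD : D ≤ D') : BoxOn N h g R D' S := by
  intro c b s hs ψ hψ p0 hp
  refine (H c b s hs ψ hψ p0 hp).trans (ENNReal.ofReal_le_ofReal ?_)
  have h0 : 0 ≤ s 0 := (Real.rpow_nonneg hR _).trans (hs 0).1
  have h1 : 0 ≤ s 1 := (Real.rpow_nonneg hR _).trans (hs 1).1
  gcongr

/-! ### rescaling -/

/-- **box bounds under parabolic rescaling**. -/
theorem BoxOn.resc {N : ℕ} {h : E2 → ℝ} (hh : Differentiable ℝ h) {g : E2 → ℂ} {R D : ℝ}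
    {S : Set (E2 × ℝ)} (hR0 : 0 < R) (H : BoxOn N h g R D S) (ξ0 : E2) {l : ℝ} (hl : 0 < l)
    (hl1 : l ≤ 1) :
    BoxOn N (hR h ξ0 l) (fun η => g (ξ0 + l • η)) (l ^ 2 * R) (D * (l ^ 4)⁻¹)
      (Ph (gradient h ξ0) l '' S) := by
  rintro c' b s' hs ψ hψ q ⟨p0, hp0, rfl⟩
  set v := gradient h ξ0 with hv
  have hA := measurableSet_plank c' b s' (l ^ 2 * R) (Ph v l p0).1 (Ph v l p0).2
  have h1 := lintegral_ext_resc h (fun ξ => g ξ * chi h (v + l • c') b (fun i => l * s' i) ψ ξ) ξ0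
    hl hA 2
  have h2 : (fun η => g (ξ0 + l • η) * chi (hR h ξ0 l) c' b s' ψ η) =
      fun η => (fun ξ => g ξ * chi h (v + l • c') b (fun i => l * s' i) ψ ξ) (ξ0 + l • η) := by
    funext η
    rw [chi_resc' hh ξ0 c' b s' ψ hl.ne' η]
  have h3 : l ^ (2 * 2) * (l ^ 4)⁻¹ = 1 := mul_inv_cancel₀ (by positivity)
  rw [h3, ENNReal.ofReal_one, one_mul] at h1
  rw [h2, ← h1, preimage_plank' v c' b s' R (Ph v l p0) hl]
  have h4 : (PhH v l hl.ne').symm (Ph v l p0) = p0 := (PhH v l hl.ne').symm_apply_apply p0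
  rw [h4]
  have h5 : (l ^ 2 * R) ^ (-(1/2) : ℝ) = l⁻¹ * R ^ (-(1/2) : ℝ) := by
    rw [Real.mul_rpow (by positivity) hR0.le]
    congr 1
    rw [← Real.rpow_natCast l 2, ← Real.rpow_mul hl.le, ← Real.rpow_neg_one]
    norm_num
  refine (H (v + l • c') b (fun i => l * s' i) (fun i => ⟨?_, ?_⟩) ψ hψ p0 hp0).trans ?_
  · have := (hs i).1
    rw [h5] at this
    calc R ^ (-(1/2) : ℝ) = l * (l⁻¹ * R ^ (-(1/2) : ℝ)) := by field_simp
      _ ≤ l * s' i := by gcongr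
  · have h6 : 0 ≤ s' i := (Real.rpow_nonneg (by positivity) _).trans (hs i).1
    calc l * s' i ≤ 1 * 1 := mul_le_mul hl1 (hs i).2 h6 zero_le_one
      _ = 1 := one_mul 1
  · refine ENNReal.ofReal_le_ofReal (le_of_eq ?_)
    field_simp

/-- L² norm of the rescaled amplitude. -/
theorem integral_sq_resc (g : E2 → ℂ) (ξ0 : E2) {l : ℝ} (hl : 0 < l) :
    ∫ η, ‖g (ξ0 + l • η)‖ ^ 2 = (l ^ 2)⁻¹ * ∫ ξ, ‖g ξ‖ ^ 2 := by
  have e := Measure.integral_comp_smul_of_nonneg (volume : Measure E2)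
    (fun η => ‖g (ξ0 + η)‖ ^ 2) l (hR := hl.le)
  rw [integral_add_left_eq_self (fun ξ => ‖g ξ‖ ^ 2) ξ0] at e
  rw [e]
  simp only [finrank_euclideanSpace, Fintype.card_fin, smul_eq_mul]

theorem lintegral_sq_resc (g : E2 → ℂ) (ξ0 : E2) {l : ℝ} (hl : 0 < l) :
    ∫⁻ η, ‖g (ξ0 + l • η)‖ₑ ^ 2 = ENNReal.ofReal ((l ^ 2)⁻¹) * ∫⁻ ξ, ‖g ξ‖ₑ ^ 2 := by
  have h1 := lintegral_map_equiv (fun η => ‖g (ξ0 + η)‖ₑ ^ 2)
    (Homeomorph.smulOfNeZero l hl.ne' : E2 ≃ₜ E2).toMeasurableEquiv (μ := (volume : Measure E2))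
  have h2 : Measure.map ((Homeomorph.smulOfNeZero l hl.ne' : E2 ≃ₜ E2).toMeasurableEquiv)
      (volume : Measure E2) = ENNReal.ofReal ((l ^ 2)⁻¹) • volume := by
    have := Measure.map_addHaar_smul (volume : Measure E2) hl.ne'
    rw [abs_of_nonneg (by positivity)] at this
    simp only [finrank_euclideanSpace, Fintype.card_fin] at this
    exact this
  rw [h2, lintegral_smul_measure, smul_eq_mul,
    lintegral_add_left_eq_self (fun ξ => ‖g ξ‖ₑ ^ 2) ξ0] at h1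
  exact h1.symm

/-- support of the rescaled amplitude. -/
theorem supp_resc {g : E2 → ℂ} {ξ0 : E2} {l r : ℝ} (hl : 0 < l)
    (hg : ∀ ξ, l * r < ‖ξ - ξ0‖ → g ξ = 0) : ∀ η, r < ‖η‖ → g (ξ0 + l • η) = 0 := by
  intro η hη
  apply hg
  rw [add_sub_cancel_left, norm_smul, Real.norm_of_nonneg hl.le]
  gcongr

/-- the `L³` integral under rescaling: `∫_{Ph⁻¹ A} |ext h g|³ = l² ∫_A |ext hR g~|³`. -/
theorem lintegral_cube_resc (h : E2 → ℝ) (g : E2 → ℂ) (ξ0 : E2) {l : ℝ} (hl : 0 < l)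
    {A : Set (E2 × ℝ)} (hA : MeasurableSet A) :
    ∫⁻ p in Ph (gradient h ξ0) l ⁻¹' A, ‖ext h g p.1 p.2‖ₑ ^ 3 = ENNReal.ofReal (l ^ 2) *
        ∫⁻ q in A, ‖ext (hR h ξ0 l) (fun η => g (ξ0 + l • η)) q.1 q.2‖ₑ ^ 3 := by
  rw [lintegral_ext_resc h g ξ0 hl hA 3]
  congr 2
  field_simp

/-- the `L²` integral under rescaling: `∫_{Ph⁻¹ A} |ext h g|² = ∫_A |ext hR g~|²`. -/
theorem lintegral_sq_ext_resc (h : E2 → ℝ) (g : E2 → ℂ) (ξ0 : E2) {l : ℝ} (hl : 0 < l)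
    {A : Set (E2 × ℝ)} (hA : MeasurableSet A) :
    ∫⁻ p in Ph (gradient h ξ0) l ⁻¹' A, ‖ext h g p.1 p.2‖ₑ ^ 2 =
        ∫⁻ q in A, ‖ext (hR h ξ0 l) (fun η => g (ξ0 + l • η)) q.1 q.2‖ₑ ^ 2 := by
  rw [lintegral_ext_resc h g ξ0 hl hA 2]
  have h3 : l ^ (2 * 2) * (l ^ 4)⁻¹ = 1 := mul_inv_cancel₀ (by positivity)
  rw [h3, ENNReal.ofReal_one, one_mul]

/-! ### modulation = translation in physical space -/

/-- the modulated amplitude. -/
noncomputable def md (h : E2 → ℝ) (p0 : E2 × ℝ) (g : E2 → ℂ) (ξ : E2) : ℂ :=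
  g ξ * ee (inner ℝ p0.1 ξ + p0.2 * h ξ)

theorem ext_md (h : E2 → ℝ) (g : E2 → ℂ) (p0 : E2 × ℝ) (x : E2) (t : ℝ) :
    ext h (md h p0 g) x t = ext h g (p0.1 + x) (p0.2 + t) := ext_mod h g x p0.1 t p0.2

theorem norm_md (h : E2 → ℝ) (g : E2 → ℂ) (p0 : E2 × ℝ) (ξ : E2) : ‖md h p0 g ξ‖ = ‖g ξ‖ := by
  rw [md, norm_mul, norm_ee, mul_one]

theorem enorm_md (h : E2 → ℝ) (g : E2 → ℂ) (p0 : E2 × ℝ) (ξ : E2) :
    ‖md h p0 g ξ‖ₑ = ‖g ξ‖ₑ := by
  rw [← ofReal_norm, ← ofReal_norm, norm_md]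

theorem measurable_md {h : E2 → ℝ} (hh : Continuous h) {g : E2 → ℂ} (hg : Measurable g)
    (p0 : E2 × ℝ) : Measurable (md h p0 g) := by
  unfold md
  have : Continuous fun ξ : E2 => ee (inner ℝ p0.1 ξ + p0.2 * h ξ) :=
    continuous_ee.comp (by fun_prop)
  exact hg.mul this.measurable

theorem md_eq_zero {h : E2 → ℝ} {g : E2 → ℂ} (p0 : E2 × ℝ) {ξ : E2} (hξ : g ξ = 0) :
    md h p0 g ξ = 0 := by simp [md, hξ]

theorem md_mul (h : E2 → ℝ) (g χ : E2 → ℂ) (p0 : E2 × ℝ) (ξ : E2) :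
    md h p0 g ξ * χ ξ = md h p0 (fun ξ => g ξ * χ ξ) ξ := by
  simp only [md]; ring

/-- integrals of the modulated wave = integrals over translates. -/
theorem lintegral_md (h : E2 → ℝ) (g : E2 → ℂ) (p0 : E2 × ℝ) {A : Set (E2 × ℝ)}
    (hA : MeasurableSet A) (k : ℕ) :
    ∫⁻ p in A, ‖ext h (md h p0 g) p.1 p.2‖ₑ ^ k =
      ∫⁻ p in (fun q => -p0 + q) ⁻¹' A, ‖ext h g p.1 p.2‖ₑ ^ k := by
  have hm : Measurable fun q : E2 × ℝ => -p0 + q := by fun_prop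
  haveI : (volume : Measure (E2 × ℝ)).IsAddLeftInvariant :=
    inferInstanceAs ((volume : Measure E2).prod (volume : Measure ℝ)).IsAddLeftInvariant
  rw [← lintegral_indicator hA, ← lintegral_indicator (hm hA)]
  rw [← lintegral_add_left_eq_self _ (-p0)]
  refine lintegral_congr fun q => ?_
  by_cases hq : -p0 + q ∈ A
  · rw [Set.indicator_of_mem hq, Set.indicator_of_mem (by exact hq), ext_md]
    simp
  · rw [Set.indicator_of_notMem hq, Set.indicator_of_notMem (by exact hq)]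

theorem plank_translate (c : E2) (b : OrthonormalBasis (Fin 2) ℝ E2) (s : Fin 2 → ℝ) (R : ℝ)
    (p1 p0 : E2 × ℝ) :
    (fun q => -p0 + q) ⁻¹' plank c b s R p1.1 p1.2 = plank c b s R (p0 + p1).1 (p0 + p1).2 := by
  ext q
  simp only [plank, Set.mem_preimage, Set.mem_ofPred_eq, Prod.fst_add, Prod.snd_add, Prod.fst_neg,
    Prod.snd_neg]
  have e1 : -p0.2 + q.2 - p1.2 = q.2 - (p0.2 + p1.2) := by ring
  have e2 : -p0.1 + q.1 - p1.1 = q.1 - (p0.1 + p1.1) := by abel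
  rw [e1, e2]

/-- box bounds under modulation. -/
theorem BoxOn.md {N : ℕ} {h : E2 → ℝ} {g : E2 → ℂ} {R D : ℝ} {S : Set (E2 × ℝ)}
    (H : BoxOn N h g R D S) (p0 : E2 × ℝ) :
    BoxOn N h (md h p0 g) R D ((fun q => p0 + q) ⁻¹' S) := by
  intro c b s hs ψ hψ p1 hp1
  have e : (fun ξ => Resc574.md h p0 g ξ * chi h c b s ψ ξ) =
      Resc574.md h p0 (fun ξ => g ξ * chi h c b s ψ ξ) := by
    funext ξ; exact md_mul h g _ p0 ξ
  rw [e, lintegral_md h _ p0 (measurableSet_plank _ _ _ _ _ _) 2, plank_translate]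
  exact H c b s hs ψ hψ (p0 + p1) hp1

/-! ### rotations -/

theorem ext_rot (h : E2 → ℝ) (g : E2 → ℂ) (U : E2 ≃ₗᵢ[ℝ] E2) (x : E2) (t : ℝ) :
    ext (h ∘ U) (g ∘ U) x t = ext h g (U x) t := by
  unfold ext
  rw [← U.measurePreserving.integral_comp U.toMeasurableEquiv.measurableEmbedding
    (fun ξ => g ξ * ee (inner ℝ (U x) ξ + t * h ξ))]
  congr 1
  funext ξ
  simp [U.inner_map_map]

/-- the rotation of physical space. -/
noncomputable def rt (U : E2 ≃ₗᵢ[ℝ] E2) (p : E2 × ℝ) : E2 × ℝ := (U p.1, p.2)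

theorem mp_rt (U : E2 ≃ₗᵢ[ℝ] E2) : MeasurePreserving (rt U) (volume : Measure (E2 × ℝ)) volume :=
  U.measurePreserving.prod (MeasurePreserving.id _)

theorem chi_rot {h : E2 → ℝ} (hh : Differentiable ℝ h) (U : E2 ≃ₗᵢ[ℝ] E2) (c : E2)
    (b : OrthonormalBasis (Fin 2) ℝ E2) (s : Fin 2 → ℝ) (ψ : E2 → ℂ) (ξ : E2) :
    chi (h ∘ U) (U.symm c) (b.map U.symm) s ψ ξ = chi h c b s ψ (U ξ) := by
  unfold chi
  congr 2
  funext i
  rw [gradient_rot hh U, ← map_sub, OrthonormalBasis.map_apply, U.symm.inner_map_map]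

theorem preimage_plank_rot (U : E2 ≃ₗᵢ[ℝ] E2) (c : E2) (b : OrthonormalBasis (Fin 2) ℝ E2)
    (s : Fin 2 → ℝ) (R : ℝ) (x0 : E2) (t0 : ℝ) :
    rt U ⁻¹' plank c b s R x0 t0 = plank (U.symm c) (b.map U.symm) s R (U.symm x0) t0 := by
  ext p
  simp only [plank, rt, Set.mem_preimage, Set.mem_ofPred_eq]
  have : ∀ i, inner ℝ (p.1 - U.symm x0 + (p.2 - t0) • U.symm c) ((b.map U.symm) i) =
      inner ℝ (U p.1 - x0 + (p.2 - t0) • c) (b i) := by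
    intro i
    rw [OrthonormalBasis.map_apply, ← U.inner_map_map]
    simp
  simp only [this]

theorem lintegral_rot (h : E2 → ℝ) (g : E2 → ℂ) (U : E2 ≃ₗᵢ[ℝ] E2) (A : Set (E2 × ℝ))
    (k : ℕ) :
    ∫⁻ p in rt U ⁻¹' A, ‖ext (h ∘ U) (g ∘ U) p.1 p.2‖ₑ ^ k =
      ∫⁻ p in A, ‖ext h g p.1 p.2‖ₑ ^ k := by
  have hemb : MeasurableEmbedding (rt U) :=
    (MeasurableEquiv.prodCongr U.toMeasurableEquiv (MeasurableEquiv.refl ℝ)).measurableEmbedding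
  rw [← (mp_rt U).setLIntegral_comp_preimage_emb hemb (fun p => ‖ext h g p.1 p.2‖ₑ ^ k) A]
  refine lintegral_congr fun p => ?_
  rw [ext_rot]
  rfl

/-- box bounds under rotations. -/
theorem BoxOn.rot {N : ℕ} {h : E2 → ℝ} (hh : Differentiable ℝ h) {g : E2 → ℂ} {R D : ℝ}
    {S : Set (E2 × ℝ)} (H : BoxOn N h g R D S) (U : E2 ≃ₗᵢ[ℝ] E2) :
    BoxOn N (h ∘ U) (g ∘ U) R D (rt U ⁻¹' S) := by
  intro c b s hs ψ hψ p0 hp0
  have hc : c = U.symm (U c) := by simp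
  have hb : b = (b.map U).map U.symm := by
    refine DFunLike.ext _ _ fun i => ?_
    simp
  have e : (fun ξ => (g ∘ U) ξ * chi (h ∘ U) c b s ψ ξ) =
      (fun ξ => g ξ * chi h (U c) (b.map U) s ψ ξ) ∘ U := by
    funext ξ
    simp only [Function.comp_apply]
    rw [← chi_rot hh U (U c) (b.map U) s ψ ξ, ← hc, ← hb]
  have hpl : plank c b s R p0.1 p0.2 = rt U ⁻¹' plank (U c) (b.map U) s R (U p0.1) p0.2 := by
    rw [preimage_plank_rot, ← hc, ← hb]; simp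
  rw [e, hpl, lintegral_rot h _ U _ 2]
  exact H (U c) (b.map U) s hs ψ hψ (rt U p0) hp0

/-! ### affine changes of the phase -/

theorem gradient_affine {h : E2 → ℝ} (hh : Differentiable ℝ h) (a : ℝ) (v ξ : E2) :
    gradient (fun ξ => h ξ + (a + inner ℝ v ξ)) ξ = gradient h ξ + v := by
  refine HasGradientAt.gradient ?_
  rw [hasGradientAt_iff_hasFDerivAt]
  have h2 : HasFDerivAt (fun η : E2 => a + inner ℝ v η) (innerSL ℝ v) ξ :=
    (innerSL ℝ v).hasFDerivAt.const_add a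
  refine ((hh ξ).hasFDerivAt.add h2).congr_fderiv ?_
  ext w
  simp only [add_apply, innerSL_apply_apply, InnerProductSpace.toDual_apply_apply,
    inner_add_left, inner_gradient_left]

theorem chi_affine {h : E2 → ℝ} (hh : Differentiable ℝ h) (a : ℝ) (v c : E2)
    (b : OrthonormalBasis (Fin 2) ℝ E2) (s : Fin 2 → ℝ) (ψ : E2 → ℂ) (ξ : E2) :
    chi (fun ξ => h ξ + (a + inner ℝ v ξ)) (c + v) b s ψ ξ = chi h c b s ψ ξ := by
  unfold chi
  congr 2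
  funext i
  rw [gradient_affine hh, add_sub_add_right_eq_sub]

/-- the shear of physical space. -/
def shr (v : E2) (p : E2 × ℝ) : E2 × ℝ := (p.1 + p.2 • v, p.2)

theorem preimage_plank_shr (v c : E2) (b : OrthonormalBasis (Fin 2) ℝ E2) (s : Fin 2 → ℝ)
    (R : ℝ) (p0 : E2 × ℝ) :
    shr v ⁻¹' plank c b s R (shr v p0).1 (shr v p0).2 = plank (c + v) b s R p0.1 p0.2 := by
  ext p
  simp only [plank, shr, Set.mem_preimage, Set.mem_ofPred_eq]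
  have : p.1 + p.2 • v - (p0.1 + p0.2 • v) + (p.2 - p0.2) • c =
      p.1 - p0.1 + (p.2 - p0.2) • (c + v) := by module
  rw [this]

theorem lintegral_affine (h : E2 → ℝ) (g : E2 → ℂ) (a : ℝ) (v : E2) (A : Set (E2 × ℝ))
    (k : ℕ) : ∫⁻ p in shr v ⁻¹' A, ‖ext (fun ξ => h ξ + (a + inner ℝ v ξ)) g p.1 p.2‖ₑ ^ k =
      ∫⁻ p in A, ‖ext h g p.1 p.2‖ₑ ^ k := by
  have hm : MeasurePreserving (shr v) (volume : Measure (E2 × ℝ)) volume := mp_shear v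
  have hemb : MeasurableEmbedding (shr v) := by
    have : shr v = Ph v 1 := by
      funext p; simp [shr, Ph]
    rw [this]
    exact (PhH v 1 one_ne_zero).toMeasurableEquiv.measurableEmbedding
  rw [← hm.setLIntegral_comp_preimage_emb hemb (fun p => ‖ext h g p.1 p.2‖ₑ ^ k) A]
  refine lintegral_congr fun p => ?_
  rw [ext_affine, ← ofReal_norm, norm_mul, norm_ee, one_mul, ofReal_norm]
  rfl

/-- box bounds under affine changes of the phase. -/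
theorem BoxOn.affine {N : ℕ} {h : E2 → ℝ} (hh : Differentiable ℝ h) {g : E2 → ℂ} {R D : ℝ}
    {S : Set (E2 × ℝ)} (H : BoxOn N h g R D S) (a : ℝ) (v : E2) :
    BoxOn N (fun ξ => h ξ + (a + inner ℝ v ξ)) g R D (shr v ⁻¹' S) := by
  intro c b s hs ψ hψ p0 hp0
  have hc : c = (c - v) + v := by abel
  have e : (fun ξ => g ξ * chi (fun ξ => h ξ + (a + inner ℝ v ξ)) c b s ψ ξ) =
      fun ξ => g ξ * chi h (c - v) b s ψ ξ := by
    funext ξ
    rw [← chi_affine hh a v (c - v), ← hc]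
  have hpl : plank c b s R p0.1 p0.2 = shr v ⁻¹' plank (c - v) b s R (shr v p0).1 (shr v p0).2 := by
    rw [preimage_plank_shr, ← hc]
  rw [e, hpl, lintegral_affine]
  exact H (c - v) b s hs ψ hψ (shr v p0) hp0

end Crest.Agent.R138.Resc574
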