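import Crest.Agent.R138.RsDef_134
import Mathlib.Analysis.Calculus.LineDeriv.IntegrationByParts
import Mathlib.MeasureTheory.Measure.Lebesgue.VolumeOfBalls
import Mathlib.Analysis.Calculus.MeanValue
import Mathlib.Analysis.InnerProductSpace.Calculus

/-!
Item 2 of doc 1587: one integration by parts (`ibp_bound`) and the decay of oscillatory integrals
with phase in the class `Par`.
-/

set_option autoImplicit false
set_option maxSynthPendingDepth 3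

namespace Crest.Agent.R138.Rs134

open MeasureTheory Set Metric
open scoped ContDiff RealInnerProductSpace ENNReal

/-- One integration by parts in the direction `v`. -/
theorem ibp_bound {a : E2 → ℂ} {φ : E2 → ℝ} {v : E2} {r μ ν A0 A1 : ℝ}
    (ha : ContDiff ℝ 1 a) (hφ : ContDiff ℝ 2 φ) (hμ : 0 < μ)
    (hsupp : ∀ ξ, r < ‖ξ‖ → a ξ = 0)
    (hlow : ∀ ξ, ‖ξ‖ ≤ r → μ ≤ |fderiv ℝ φ ξ v|)
    (hA0 : ∀ ξ, ‖a ξ‖ ≤ A0) (hA1 : ∀ ξ, ‖fderiv ℝ a ξ v‖ ≤ A1)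
    (hν : ∀ ξ, ‖ξ‖ ≤ r → |fderiv ℝ (fun η => fderiv ℝ φ η v) ξ v| ≤ ν) :
    ‖∫ ξ, a ξ * ee (φ ξ)‖ ≤ (A1 / μ + A0 * ν / μ ^ 2) * (volume (closedBall (0 : E2) r)).toReal := by
  classical
  set D : E2 → ℝ := fun η => fderiv ℝ φ η v with hD
  have hDc : ContDiff ℝ 1 D := by
    have h1 : ContDiff ℝ 1 (fderiv ℝ φ) := hφ.fderiv_right (m := 1) (by norm_num)
    exact h1.clm_apply contDiff_const
  have hDne : ∀ ξ, ‖ξ‖ ≤ r → D ξ ≠ 0 := by
    intro ξ hξ h0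
    have := hlow ξ hξ
    change μ ≤ |D ξ| at this
    rw [h0, abs_zero] at this
    linarith
  set b : E2 → ℂ := fun ξ => a ξ * ((D ξ : ℝ) : ℂ)⁻¹ with hb
  have hout : ∀ ξ, r < ‖ξ‖ → a =ᶠ[nhds ξ] 0 := by
    intro ξ hξ
    have : {η : E2 | r < ‖η‖} ∈ nhds ξ := (isOpen_lt continuous_const continuous_norm).mem_nhds hξ
    filter_upwards [this] with η hη using hsupp η hη
  have hbout : ∀ ξ, r < ‖ξ‖ → b =ᶠ[nhds ξ] 0 := by
    intro ξ hξ
    filter_upwards [hout ξ hξ] with η hη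
    simp [hb, hη]
  have hbc : ContDiff ℝ 1 b := by
    rw [contDiff_iff_contDiffAt]
    intro ξ
    by_cases hξ : ‖ξ‖ ≤ r
    · have h1 : ContDiffAt ℝ 1 (fun η => ((D η : ℝ) : ℂ)) ξ :=
        (Complex.ofRealCLM.contDiff.comp hDc).contDiffAt
      exact ha.contDiffAt.mul (h1.inv (by exact_mod_cast hDne ξ hξ))
    · exact (contDiffAt_const (c := (0 : ℂ))).congr_of_eventuallyEq (hbout ξ (not_le.mp hξ))
  have hec : ContDiff ℝ 1 (fun ξ => ee (φ ξ)) := contDiff_ee.comp (hφ.of_le (by norm_num))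
  have hbcomp : HasCompactSupport b := by
    refine HasCompactSupport.intro (isCompact_closedBall (0 : E2) r) ?_
    intro ξ hξ
    have : r < ‖ξ‖ := by simpa [mem_closedBall, dist_zero_right] using hξ
    exact (hbout ξ this).self_of_nhds
  have hdb : Continuous (fun ξ => fderiv ℝ b ξ v) :=
    (hbc.continuous_fderiv (by norm_num)).clm_apply continuous_const
  have hde : Continuous (fun ξ => fderiv ℝ (fun ξ => ee (φ ξ)) ξ v) :=
    (hec.continuous_fderiv (by norm_num)).clm_apply continuous_const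
  have hdbcomp : HasCompactSupport (fun ξ => fderiv ℝ b ξ v) := by
    have := hbcomp.fderiv (𝕜 := ℝ)
    exact this.comp_left (g := fun L : E2 →L[ℝ] ℂ => L v) rfl
  have key := integral_mul_fderiv_eq_neg_fderiv_mul_of_integrable (𝕜 := ℂ) (μ := (volume : Measure E2))
    (f := b) (g := fun ξ => ee (φ ξ)) (v := v)
    ((hdb.mul hec.continuous).integrable_of_hasCompactSupport (hdbcomp.mul_right))
    ((hbc.continuous.mul hde).integrable_of_hasCompactSupport (hbcomp.mul_right))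
    ((hbc.continuous.mul hec.continuous).integrable_of_hasCompactSupport (hbcomp.mul_right))
    (fun ξ _ => (hbc.differentiable (by norm_num)) ξ)
    (fun ξ _ => (hec.differentiable (by norm_num)) ξ)
  have hfd : ∀ ξ, fderiv ℝ (fun ξ => ee (φ ξ)) ξ v
      = ((2 * Real.pi : ℝ) * Complex.I) * ee (φ ξ) * ((D ξ : ℝ) : ℂ) := by
    intro ξ
    have h1 : HasFDerivAt φ (fderiv ℝ φ ξ) ξ :=
      ((hφ.differentiable (by norm_num)) ξ).hasFDerivAt
    have h2 := (hasDerivAt_ee (φ ξ)).hasFDerivAt.comp ξ h1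
    have h3 := h2.fderiv
    change fderiv ℝ (ee ∘ φ) ξ v = _
    rw [h3]
    simp [hD, mul_comm]
  have hleft : ∀ ξ, b ξ * fderiv ℝ (fun ξ => ee (φ ξ)) ξ v
      = ((2 * Real.pi : ℝ) * Complex.I) * (a ξ * ee (φ ξ)) := by
    intro ξ
    rw [hfd]
    by_cases hξ : ‖ξ‖ ≤ r
    · have : ((D ξ : ℝ) : ℂ) ≠ 0 := by exact_mod_cast hDne ξ hξ
      simp only [hb]
      field_simp
    · have : a ξ = 0 := hsupp ξ (not_le.mp hξ)
      simp [hb, this]
  simp_rw [hleft] at key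
  rw [integral_const_mul] at key
  have hnorm : (2 * Real.pi) * ‖∫ ξ, a ξ * ee (φ ξ)‖ = ‖∫ ξ, fderiv ℝ b ξ v * ee (φ ξ)‖ := by
    have := congrArg norm key
    rw [norm_neg, norm_mul, norm_mul, Complex.norm_I, mul_one, Complex.norm_real,
      Real.norm_of_nonneg (by positivity)] at this
    exact this
  have hder : ∀ ξ, ‖fderiv ℝ b ξ v‖ ≤ (closedBall (0 : E2) r).indicator
      (fun _ => A1 / μ + A0 * ν / μ ^ 2) ξ := by
    intro ξ
    by_cases hξ : ‖ξ‖ ≤ r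
    · rw [indicator_of_mem (by simpa [mem_closedBall, dist_zero_right] using hξ)]
      have hDξ := hDne ξ hξ
      have hDC : ((D ξ : ℝ) : ℂ) ≠ 0 := by exact_mod_cast hDξ
      have hDat : HasFDerivAt D (fderiv ℝ D ξ) ξ :=
        ((hDc.differentiable (by norm_num)) ξ).hasFDerivAt
      have hinv : HasFDerivAt (fun η => (D η)⁻¹) (-(D ξ ^ 2)⁻¹ • fderiv ℝ D ξ) ξ := by
        exact (hasDerivAt_inv hDξ).comp_hasFDerivAt ξ hDat
      have hinvC : HasFDerivAt (fun η => ((D η : ℝ) : ℂ)⁻¹)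
          (Complex.ofRealCLM.comp (-(D ξ ^ 2)⁻¹ • fderiv ℝ D ξ)) ξ := by
        have := Complex.ofRealCLM.hasFDerivAt.comp ξ hinv
        have h2 : (fun η => ((D η : ℝ) : ℂ)⁻¹) = Complex.ofRealCLM ∘ fun η => (D η)⁻¹ := by
          funext η; simp
        rw [h2]; exact this
      have haat : HasFDerivAt a (fderiv ℝ a ξ) ξ := ((ha.differentiable (by norm_num)) ξ).hasFDerivAt
      have hmul := (haat.mul hinvC).fderiv
      have hval : fderiv ℝ b ξ v = a ξ * ((-(D ξ ^ 2)⁻¹ * fderiv ℝ D ξ v : ℝ) : ℂ)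
          + ((D ξ : ℝ) : ℂ)⁻¹ * fderiv ℝ a ξ v := by
        change fderiv ℝ (a * fun η => ((D η : ℝ) : ℂ)⁻¹) ξ v = _
        rw [hmul]
        simp
      rw [hval]
      have hμD : μ ≤ |D ξ| := hlow ξ hξ
      have hνD : |fderiv ℝ D ξ v| ≤ ν := hν ξ hξ
      have e1 : ‖a ξ * ((-(D ξ ^ 2)⁻¹ * fderiv ℝ D ξ v : ℝ) : ℂ)‖ ≤ A0 * ν / μ ^ 2 := by
        rw [norm_mul, Complex.norm_real, Real.norm_eq_abs, abs_mul, abs_neg, abs_inv, abs_pow,
          mul_div_assoc]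
        have hA00 : 0 ≤ A0 := (norm_nonneg _).trans (hA0 ξ)
        have hν0 : 0 ≤ ν := (abs_nonneg _).trans hνD
        apply mul_le_mul (hA0 ξ) _ (by positivity) hA00
        rw [div_eq_inv_mul]
        apply mul_le_mul _ hνD (abs_nonneg _) (by positivity)
        exact inv_anti₀ (by positivity) (pow_le_pow_left₀ hμ.le hμD 2)
      have e2 : ‖((D ξ : ℝ) : ℂ)⁻¹ * fderiv ℝ a ξ v‖ ≤ A1 / μ := by
        rw [norm_mul, norm_inv, Complex.norm_real, Real.norm_eq_abs, div_eq_inv_mul]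
        apply mul_le_mul _ (hA1 ξ) (norm_nonneg _) (by positivity)
        exact inv_anti₀ hμ hμD
      calc _ ≤ _ := norm_add_le _ _
        _ ≤ A0 * ν / μ ^ 2 + A1 / μ := add_le_add e1 e2
        _ = _ := add_comm _ _
    · have hξ' := not_le.mp hξ
      rw [indicator_of_notMem (by simpa [mem_closedBall, dist_zero_right] using hξ')]
      have : fderiv ℝ b ξ = 0 := by
        rw [(hbout ξ hξ').fderiv_eq]; simp
      rw [this]; simp
  have hint : ‖∫ ξ, fderiv ℝ b ξ v * ee (φ ξ)‖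
      ≤ (A1 / μ + A0 * ν / μ ^ 2) * (volume (closedBall (0 : E2) r)).toReal := by
    calc ‖∫ ξ, fderiv ℝ b ξ v * ee (φ ξ)‖ ≤ ∫ ξ, ‖fderiv ℝ b ξ v * ee (φ ξ)‖ :=
          norm_integral_le_integral_norm _
      _ ≤ ∫ ξ, (closedBall (0 : E2) r).indicator (fun _ => A1 / μ + A0 * ν / μ ^ 2) ξ := by
          apply integral_mono_of_nonneg
          · exact Filter.Eventually.of_forall fun ξ => norm_nonneg _
          · exact (integrable_indicator_iff measurableSet_closedBall).2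
              (integrableOn_const measure_closedBall_lt_top.ne)
          · exact Filter.Eventually.of_forall fun ξ => by
              simp only [norm_mul_ee]; exact hder ξ
      _ = _ := by
          rw [integral_indicator_const _ measurableSet_closedBall]
          simp [Measure.real, mul_comm]
  have h2pi : (1 : ℝ) ≤ 2 * Real.pi := by
    have := Real.two_le_pi; linarith
  calc ‖∫ ξ, a ξ * ee (φ ξ)‖ ≤ (2 * Real.pi) * ‖∫ ξ, a ξ * ee (φ ξ)‖ :=
        le_mul_of_one_le_left (norm_nonneg _) h2pi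
    _ = _ := hnorm
    _ ≤ _ := hint

/-! ### The class `Par` -/

/-- The perturbation `h - ‖·‖²/2`. -/
noncomputable def pk (h : E2 → ℝ) (ξ : E2) : ℝ := h ξ - ‖ξ‖ ^ 2 / 2

theorem Par.contDiff_pk {c0 : ℝ} {K : ℕ} {h : E2 → ℝ} (hP : Par c0 K h) : ContDiff ℝ ∞ (pk h) := by
  unfold pk; exact hP.smooth.sub ((contDiff_norm_sq ℝ).div_const 2)

theorem Par.pk2 {c0 : ℝ} {K : ℕ} {h : E2 → ℝ} (hP : Par c0 K h) (hK : 2 ≤ K) (ξ : E2) :
    ‖fderiv ℝ (fderiv ℝ (pk h)) ξ‖ ≤ c0 := by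
  have := hP.close 2 le_rfl hK ξ
  rw [← norm_iteratedFDeriv_one, norm_iteratedFDeriv_fderiv]
  exact this

theorem Par.pk3 {c0 : ℝ} {K : ℕ} {h : E2 → ℝ} (hP : Par c0 K h) (hK : 3 ≤ K) (ξ : E2) :
    ‖fderiv ℝ (fderiv ℝ (fderiv ℝ (pk h))) ξ‖ ≤ c0 := by
  have := hP.close 3 (by norm_num) hK ξ
  rw [← norm_iteratedFDeriv_one, norm_iteratedFDeriv_fderiv, norm_iteratedFDeriv_fderiv]
  exact this

theorem Par.c0_nonneg {c0 : ℝ} {K : ℕ} {h : E2 → ℝ} (hP : Par c0 K h) (hK : 2 ≤ K) : 0 ≤ c0 :=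
  (norm_nonneg (fderiv ℝ (fderiv ℝ (pk h)) 0)).trans (hP.pk2 hK 0)

theorem Par.lip1 {c0 : ℝ} {K : ℕ} {h : E2 → ℝ} (hP : Par c0 K h) (hK : 2 ≤ K) (ξ η : E2) :
    ‖fderiv ℝ (pk h) η - fderiv ℝ (pk h) ξ‖ ≤ c0 * ‖η - ξ‖ := by
  have hd : Differentiable ℝ (fderiv ℝ (pk h)) :=
    (hP.contDiff_pk.fderiv_right (m := 1) (WithTop.coe_le_coe.2 le_top)).differentiable (by norm_num)
  exact Convex.norm_image_sub_le_of_norm_fderiv_le (𝕜 := ℝ) (s := univ) (fun x _ => hd x)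
    (fun x _ => hP.pk2 hK x) convex_univ (mem_univ _) (mem_univ _)

theorem Par.lip2 {c0 : ℝ} {K : ℕ} {h : E2 → ℝ} (hP : Par c0 K h) (hK : 3 ≤ K) (ξ η : E2) :
    ‖fderiv ℝ (fderiv ℝ (pk h)) η - fderiv ℝ (fderiv ℝ (pk h)) ξ‖ ≤ c0 * ‖η - ξ‖ := by
  have h1 : ContDiff ℝ 2 (fderiv ℝ (pk h)) := hP.contDiff_pk.fderiv_right (m := 2) (WithTop.coe_le_coe.2 le_top)
  have hd : Differentiable ℝ (fderiv ℝ (fderiv ℝ (pk h))) :=
    (h1.fderiv_right (m := 1) (by norm_num)).differentiable (by norm_num)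
  exact Convex.norm_image_sub_le_of_norm_fderiv_le (𝕜 := ℝ) (s := univ) (fun x _ => hd x)
    (fun x _ => hP.pk3 hK x) convex_univ (mem_univ _) (mem_univ _)

theorem h_eq_pk (h : E2 → ℝ) (ξ : E2) : h ξ = ‖ξ‖ ^ 2 / 2 + pk h ξ := by unfold pk; ring

theorem Par.fderiv_h {c0 : ℝ} {K : ℕ} {h : E2 → ℝ} (hP : Par c0 K h) (ξ : E2) :
    HasFDerivAt h (innerSL ℝ ξ + fderiv ℝ (pk h) ξ) ξ := by
  have h1 : HasFDerivAt (fun η : E2 => ‖η‖ ^ 2 / 2) (innerSL ℝ ξ) ξ := by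
    have := (hasStrictFDerivAt_norm_sq ξ).hasFDerivAt.const_mul (1 / 2 : ℝ)
    have e1 : (fun η : E2 => ‖η‖ ^ 2 / 2) = fun y => 1 / 2 * ‖y‖ ^ 2 := by funext η; ring
    have e2 : (innerSL ℝ ξ) = (1 / 2 : ℝ) • 2 • innerSL ℝ ξ := by ext v; simp
    rw [e1, e2]
    exact this
  have h2 : HasFDerivAt (pk h) (fderiv ℝ (pk h) ξ) ξ :=
    ((hP.contDiff_pk.differentiable (by norm_num)) ξ).hasFDerivAt
  have h3 := h1.add h2
  have : (fun η : E2 => ‖η‖ ^ 2 / 2) + pk h = h := by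
    funext η; simp [pk]
  rwa [this] at h3

theorem Par.fderiv_pk_zero {c0 : ℝ} {K : ℕ} {h : E2 → ℝ} (hP : Par c0 K h) :
    fderiv ℝ (pk h) 0 = 0 := by
  have h1 := (hP.fderiv_h 0).fderiv
  rw [hP.grad] at h1
  simpa using h1.symm

theorem Par.norm_fderiv_pk_le {c0 : ℝ} {K : ℕ} {h : E2 → ℝ} (hP : Par c0 K h) (hK : 2 ≤ K) (ξ : E2) :
    ‖fderiv ℝ (pk h) ξ‖ ≤ c0 * ‖ξ‖ := by
  have := hP.lip1 hK 0 ξ
  rwa [hP.fderiv_pk_zero, sub_zero, sub_zero] at this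

theorem ph_diff_eq (h : E2 → ℝ) (x : E2) (t : ℝ) (u w : E2) :
    ph h x t w - ph h x t (w + u)
      = (-⟪x, u⟫ - t * ‖u‖ ^ 2 / 2) - t * ⟪u, w⟫ + t * (pk h w - pk h (w + u)) := by
  unfold ph
  rw [h_eq_pk h w, h_eq_pk h (w + u), inner_add_right, norm_add_sq_real, real_inner_comm w u]
  ring

end Crest.Agent.R138.Rs134
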