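import Crest.Agent.R138.Rs1_134

/-!
Item 2 of doc 1587: decay of oscillatory integrals over graphs in the class `Par`.
-/

set_option autoImplicit false
set_option maxSynthPendingDepth 3

namespace Crest.Agent.R138.Rs134

open MeasureTheory Set Metric
open scoped ContDiff RealInnerProductSpace ENNReal

/-- Area of the disc of radius three. -/
noncomputable def V3 : ℝ := (volume (closedBall (0 : E2) 3)).toReal

theorem V3_nonneg : 0 ≤ V3 := ENNReal.toReal_nonneg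

theorem Par.contDiff_ph {c0 : ℝ} {K : ℕ} {h : E2 → ℝ} (hP : Par c0 K h) (x : E2) (t : ℝ) :
    ContDiff ℝ ∞ (ph h x t) := by
  unfold ph
  exact (contDiff_const.inner ℝ contDiff_id).add (contDiff_const.mul hP.smooth)

theorem Par.hasFDerivAt_ph {c0 : ℝ} {K : ℕ} {h : E2 → ℝ} (hP : Par c0 K h) (x : E2) (t : ℝ) (ξ : E2) :
    HasFDerivAt (ph h x t) (innerSL ℝ x + t • (innerSL ℝ ξ + fderiv ℝ (pk h) ξ)) ξ := by
  have h1 : HasFDerivAt (fun η : E2 => ⟪x, η⟫) (innerSL ℝ x) ξ := (innerSL ℝ x).hasFDerivAt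
  have h2 := (hP.fderiv_h ξ).const_mul t
  exact h1.add h2

theorem Par.hasFDerivAt_dpk {c0 : ℝ} {K : ℕ} {h : E2 → ℝ} (hP : Par c0 K h) (ξ v : E2) :
    HasFDerivAt (fun η => fderiv ℝ (pk h) η v)
      ((fderiv ℝ (fderiv ℝ (pk h)) ξ).flip v) ξ := by
  have hd : HasFDerivAt (fderiv ℝ (pk h)) (fderiv ℝ (fderiv ℝ (pk h)) ξ) ξ :=
    ((hP.contDiff_pk.fderiv_right (m := 1) (WithTop.coe_le_coe.2 le_top)).differentiable
      (by norm_num) ξ).hasFDerivAt
  have := hd.clm_apply (hasFDerivAt_const v ξ)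
  simpa using this

/-- Decay when the spatial frequency dominates. -/
theorem decay_x {c0 : ℝ} {K : ℕ} {h : E2 → ℝ} (hP : Par c0 K h) (hK : 2 ≤ K) (hc : c0 ≤ 1 / 4)
    {a : E2 → ℂ} {A : ℝ} (ha : ContDiff ℝ 1 a) (hs : ∀ ξ, 3 < ‖ξ‖ → a ξ = 0)
    (hA0 : ∀ ξ, ‖a ξ‖ ≤ A) (hA1 : ∀ ξ, ‖fderiv ℝ a ξ‖ ≤ A) {x : E2} {t : ℝ}
    (hx0 : 0 < ‖x‖) (hx : 8 * |t| ≤ ‖x‖) :
    ‖ext h a x t‖ ≤ 3 * A / ‖x‖ * V3 := by
  have hA : 0 ≤ A := (norm_nonneg _).trans (hA0 0)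
  have hc0 := hP.c0_nonneg hK
  have hD : ∀ ξ, fderiv ℝ (ph h x t) ξ x = ‖x‖ ^ 2 + t * (⟪ξ, x⟫ + fderiv ℝ (pk h) ξ x) := by
    intro ξ
    rw [(hP.hasFDerivAt_ph x t ξ).fderiv]
    simp
    ring
  have hD2 : ∀ ξ, fderiv ℝ (fun η => fderiv ℝ (ph h x t) η x) ξ x
      = t * (‖x‖ ^ 2 + fderiv ℝ (fderiv ℝ (pk h)) ξ x x) := by
    intro ξ
    have e : (fun η => fderiv ℝ (ph h x t) η x)
        = fun η => ‖x‖ ^ 2 + t * (⟪η, x⟫ + fderiv ℝ (pk h) η x) := funext hD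
    rw [e]
    have h1 : HasFDerivAt (fun η : E2 => ⟪η, x⟫) (innerSL ℝ x) ξ := by
      have := (innerSL ℝ x).hasFDerivAt (x := ξ)
      refine this.congr_of_eventuallyEq (Filter.Eventually.of_forall fun η => ?_)
      simp [real_inner_comm]
    have h2 := ((h1.add (hP.hasFDerivAt_dpk ξ x)).const_mul t).const_add (‖x‖ ^ 2)
    have h3 := h2.fderiv
    change fderiv ℝ (fun η => ‖x‖ ^ 2 + t * (⟪η, x⟫ + fderiv ℝ (pk h) η x)) ξ x = _
    erw [h3]
    simp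
    ring
  have key := ibp_bound (a := a) (φ := ph h x t) (v := x) (r := 3) (μ := ‖x‖ ^ 2 / 2)
    (ν := ‖x‖ ^ 3 / 4) (A0 := A) (A1 := A * ‖x‖) ha
    ((hP.contDiff_ph x t).of_le (WithTop.coe_le_coe.2 le_top)) (by positivity) hs ?_ hA0 ?_ ?_
  · change ‖ext h a x t‖ ≤ _ at key
    refine key.trans (le_of_eq ?_)
    rw [V3]
    congr 1
    field_simp
    ring
  · intro ξ hξ
    rw [hD]
    have h1 : |⟪ξ, x⟫| ≤ 3 * ‖x‖ := (abs_real_inner_le_norm ξ x).trans (by gcongr)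
    have h2 : |fderiv ℝ (pk h) ξ x| ≤ (3 / 4) * ‖x‖ := by
      calc |fderiv ℝ (pk h) ξ x| ≤ ‖fderiv ℝ (pk h) ξ‖ * ‖x‖ := by
            rw [← Real.norm_eq_abs]; exact (fderiv ℝ (pk h) ξ).le_opNorm x
        _ ≤ (c0 * ‖ξ‖) * ‖x‖ := by gcongr; exact hP.norm_fderiv_pk_le hK ξ
        _ ≤ (1 / 4 * 3) * ‖x‖ := by gcongr
        _ = _ := by ring
    have h3 : |t * (⟪ξ, x⟫ + fderiv ℝ (pk h) ξ x)| ≤ (‖x‖ / 8) * (15 / 4 * ‖x‖) := by
      rw [abs_mul]
      apply mul_le_mul (by linarith) _ (abs_nonneg _) (by positivity)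
      exact (abs_add_le _ _).trans (by linarith)
    have h4 := neg_abs_le (t * (⟪ξ, x⟫ + fderiv ℝ (pk h) ξ x))
    refine le_trans ?_ (le_abs_self _)
    nlinarith [sq_nonneg ‖x‖]
  · intro ξ
    calc ‖fderiv ℝ a ξ x‖ ≤ ‖fderiv ℝ a ξ‖ * ‖x‖ := (fderiv ℝ a ξ).le_opNorm x
      _ ≤ A * ‖x‖ := by gcongr; exact hA1 ξ
  · intro ξ _
    rw [hD2, abs_mul]
    have h2 : |fderiv ℝ (fderiv ℝ (pk h)) ξ x x| ≤ 1 / 4 * ‖x‖ * ‖x‖ := by
      calc |fderiv ℝ (fderiv ℝ (pk h)) ξ x x| ≤ ‖fderiv ℝ (fderiv ℝ (pk h)) ξ‖ * ‖x‖ * ‖x‖ := by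
            rw [← Real.norm_eq_abs]; exact (fderiv ℝ (fderiv ℝ (pk h)) ξ).le_opNorm₂ x x
        _ ≤ 1 / 4 * ‖x‖ * ‖x‖ := by gcongr; exact (hP.pk2 hK ξ).trans hc
    calc |t| * |‖x‖ ^ 2 + fderiv ℝ (fderiv ℝ (pk h)) ξ x x|
        ≤ (‖x‖ / 8) * (‖x‖ ^ 2 + 1 / 4 * ‖x‖ * ‖x‖) := by
          apply mul_le_mul (by linarith) _ (abs_nonneg _) (by positivity)
          refine (abs_add_le _ _).trans ?_
          rw [abs_of_nonneg (by positivity)]
          linarith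
      _ ≤ ‖x‖ ^ 3 / 4 := by nlinarith [pow_pos hx0 3]

theorem shiftD {F : Type*} [NormedAddCommGroup F] [NormedSpace ℝ F] {f : E2 → F} {f' : E2 →L[ℝ] F}
    {w u : E2} (hf : HasFDerivAt f f' (w + u)) : HasFDerivAt (fun w => f (w + u)) f' w := by
  have h1 : HasFDerivAt (fun w : E2 => w + u) (ContinuousLinearMap.id ℝ E2) w :=
    (hasFDerivAt_id w).add_const u
  exact hf.comp w h1

/-- The correlation integral. -/
noncomputable def corr (h : E2 → ℝ) (a : E2 → ℂ) (x : E2) (t : ℝ) (u : E2) : ℂ :=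
  ∫ w, (a w * (starRingEnd ℂ) (a (w + u))) * ee (ph h x t w - ph h x t (w + u))

theorem corr_bound {c0 : ℝ} {K : ℕ} {h : E2 → ℝ} (hP : Par c0 K h) (hK : 3 ≤ K) (hc : c0 ≤ 1 / 4)
    {a : E2 → ℂ} {A : ℝ} (ha : ContDiff ℝ 1 a) (hs : ∀ ξ, 3 < ‖ξ‖ → a ξ = 0)
    (hA0 : ∀ ξ, ‖a ξ‖ ≤ A) (hA1 : ∀ ξ, ‖fderiv ℝ a ξ‖ ≤ A) (x : E2) {t : ℝ} {u : E2}
    (ht : t ≠ 0) (hu : u ≠ 0) :
    ‖corr h a x t u‖ ≤ 4 * A ^ 2 / (|t| * ‖u‖) * V3 := by
  have hA : 0 ≤ A := (norm_nonneg _).trans (hA0 0)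
  have hc0 := hP.c0_nonneg (by omega)
  have htp : 0 < |t| := abs_pos.2 ht
  have hup : 0 < ‖u‖ := norm_pos_iff.2 hu
  set φ : E2 → ℝ := fun w => ph h x t w - ph h x t (w + u) with hφ
  have hφe : φ = fun w => (-⟪x, u⟫ - t * ‖u‖ ^ 2 / 2) - t * ⟪u, w⟫
      + t * (pk h w - pk h (w + u)) := funext fun w => ph_diff_eq h x t u w
  have hpkd : ∀ w, HasFDerivAt (pk h) (fderiv ℝ (pk h) w) w := fun w =>
    ((hP.contDiff_pk.differentiable (by norm_num)) w).hasFDerivAt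
  have hpks : ∀ w, HasFDerivAt (fun w => pk h (w + u)) (fderiv ℝ (pk h) (w + u)) w := fun w =>
    shiftD (hpkd (w + u))
  have hfd : ∀ w, HasFDerivAt φ (-(t • innerSL ℝ u)
      + t • (fderiv ℝ (pk h) w - fderiv ℝ (pk h) (w + u))) w := by
    intro w
    rw [hφe]
    have h1 : HasFDerivAt (fun w : E2 => (-⟪x, u⟫ - t * ‖u‖ ^ 2 / 2) - t * ⟪u, w⟫)
        (-(t • innerSL ℝ u)) w :=
      ((innerSL ℝ u).hasFDerivAt.const_mul t).const_sub _
    have h2 : HasFDerivAt (fun w => t * (pk h w - pk h (w + u)))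
        (t • (fderiv ℝ (pk h) w - fderiv ℝ (pk h) (w + u))) w :=
      ((hpkd w).sub (hpks w)).const_mul t
    exact h1.add h2
  have hD : ∀ w, fderiv ℝ φ w u = -(t * ‖u‖ ^ 2)
      + t * (fderiv ℝ (pk h) w u - fderiv ℝ (pk h) (w + u) u) := by
    intro w
    rw [(hfd w).fderiv]
    simp
  have hD2 : ∀ w, fderiv ℝ (fun η => fderiv ℝ φ η u) w u
      = t * (fderiv ℝ (fderiv ℝ (pk h)) w u u - fderiv ℝ (fderiv ℝ (pk h)) (w + u) u u) := by
    intro w
    have e : (fun η => fderiv ℝ φ η u) = fun w => -(t * ‖u‖ ^ 2)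
      + t * (fderiv ℝ (pk h) w u - fderiv ℝ (pk h) (w + u) u) := funext hD
    rw [e]
    have h1 := hP.hasFDerivAt_dpk w u
    have h2 : HasFDerivAt (fun η => fderiv ℝ (pk h) (η + u) u)
        ((fderiv ℝ (fderiv ℝ (pk h)) (w + u)).flip u) w :=
      shiftD (hP.hasFDerivAt_dpk (w + u) u)
    have h3 : HasFDerivAt (fun w => -(t * ‖u‖ ^ 2)
      + t * (fderiv ℝ (pk h) w u - fderiv ℝ (pk h) (w + u) u))
        (t • ((fderiv ℝ (fderiv ℝ (pk h)) w).flip u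
          - (fderiv ℝ (fderiv ℝ (pk h)) (w + u)).flip u)) w :=
      ((h1.sub h2).const_mul t).const_add _
    rw [h3.fderiv]
    simp
  have hφc : ContDiff ℝ 2 φ := by
    have h1 := (hP.contDiff_ph x t)
    have h2 : ContDiff ℝ ∞ (fun w => ph h x t (w + u)) :=
      h1.comp (contDiff_id.add contDiff_const)
    exact (h1.sub h2).of_le (WithTop.coe_le_coe.2 le_top)
  have hac : ContDiff ℝ 1 (fun w => a w * (starRingEnd ℂ) (a (w + u))) := by
    have h2 : ContDiff ℝ 1 (fun w => a (w + u)) := ha.comp (contDiff_id.add contDiff_const)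
    exact ha.mul (Complex.conjCLE.contDiff.comp h2)
  have key := ibp_bound (a := fun w => a w * (starRingEnd ℂ) (a (w + u))) (φ := φ) (v := u) (r := 3)
    (μ := 3 / 4 * |t| * ‖u‖ ^ 2) (ν := 1 / 4 * |t| * ‖u‖ ^ 3) (A0 := A ^ 2)
    (A1 := 2 * A ^ 2 * ‖u‖) hac hφc (by positivity) ?_ ?_ ?_ ?_ ?_
  · change ‖corr h a x t u‖ ≤ _ at key
    refine key.trans ?_
    rw [V3]
    apply mul_le_mul_of_nonneg_right _ ENNReal.toReal_nonneg
    have e1 : 2 * A ^ 2 * ‖u‖ / (3 / 4 * |t| * ‖u‖ ^ 2) = (8 / 3) * (A ^ 2 / (|t| * ‖u‖)) := by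
      field_simp; ring
    have e2 : A ^ 2 * (1 / 4 * |t| * ‖u‖ ^ 3) / (3 / 4 * |t| * ‖u‖ ^ 2) ^ 2
        = (4 / 9) * (A ^ 2 / (|t| * ‖u‖)) := by
      field_simp; ring
    rw [e1, e2]
    have : 0 ≤ A ^ 2 / (|t| * ‖u‖) := by positivity
    have e3 : 4 * A ^ 2 / (|t| * ‖u‖) = 4 * (A ^ 2 / (|t| * ‖u‖)) := by ring
    rw [e3]
    linarith
  · intro ξ hξ; simp [hs ξ hξ]
  · intro w _
    rw [hD]
    have h1 : |fderiv ℝ (pk h) w u - fderiv ℝ (pk h) (w + u) u| ≤ 1 / 4 * ‖u‖ ^ 2 := by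
      have h2 := hP.lip1 (by omega) w (w + u)
      rw [add_sub_cancel_left] at h2
      calc |fderiv ℝ (pk h) w u - fderiv ℝ (pk h) (w + u) u|
          = ‖(fderiv ℝ (pk h) (w + u) - fderiv ℝ (pk h) w) u‖ := by
            rw [← Real.norm_eq_abs, ← norm_neg]; simp
        _ ≤ ‖fderiv ℝ (pk h) (w + u) - fderiv ℝ (pk h) w‖ * ‖u‖ :=
            (fderiv ℝ (pk h) (w + u) - fderiv ℝ (pk h) w).le_opNorm u
        _ ≤ (1 / 4 * ‖u‖) * ‖u‖ := by
            gcongr; exact h2.trans (by gcongr)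
        _ = _ := by ring
    have h3 : -(t * ‖u‖ ^ 2) + t * (fderiv ℝ (pk h) w u - fderiv ℝ (pk h) (w + u) u)
        = -(t * (‖u‖ ^ 2 - (fderiv ℝ (pk h) w u - fderiv ℝ (pk h) (w + u) u))) := by ring
    rw [h3, abs_neg, abs_mul, mul_comm (3 / 4 : ℝ) |t|, mul_assoc]
    apply mul_le_mul_of_nonneg_left _ htp.le
    refine le_trans ?_ (le_abs_self _)
    have := (abs_le.1 h1).2
    linarith
  · intro w
    rw [norm_mul, RCLike.norm_conj, sq]
    exact mul_le_mul (hA0 _) (hA0 _) (norm_nonneg _) hA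
  · intro w
    have had : HasFDerivAt a (fderiv ℝ a w) w := ((ha.differentiable (by norm_num)) w).hasFDerivAt
    have had2 : HasFDerivAt (fun w => a (w + u)) (fderiv ℝ a (w + u)) w :=
      shiftD ((ha.differentiable (by norm_num)) (w + u)).hasFDerivAt
    have had3 : HasFDerivAt (fun w => (starRingEnd ℂ) (a (w + u)))
        ((Complex.conjCLE : ℂ →L[ℝ] ℂ).comp (fderiv ℝ a (w + u))) w :=
      (Complex.conjCLE : ℂ →L[ℝ] ℂ).hasFDerivAt.comp w had2
    have h1 := (had.mul had3).fderiv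
    have h1' : fderiv ℝ (fun w => a w * (starRingEnd ℂ) (a (w + u))) w u
        = a w * (starRingEnd ℂ) (fderiv ℝ a (w + u) u)
          + (starRingEnd ℂ) (a (w + u)) * fderiv ℝ a w u := by
      change fderiv ℝ (a * fun w => (starRingEnd ℂ) (a (w + u))) w u = _
      rw [h1]; simp
    rw [h1']
    have b1 : ‖fderiv ℝ a (w + u) u‖ ≤ A * ‖u‖ :=
      ((fderiv ℝ a (w + u)).le_opNorm u).trans (by gcongr; exact hA1 _)
    have b2 : ‖fderiv ℝ a w u‖ ≤ A * ‖u‖ :=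
      ((fderiv ℝ a w).le_opNorm u).trans (by gcongr; exact hA1 _)
    refine (norm_add_le _ _).trans ?_
    rw [norm_mul, norm_mul, RCLike.norm_conj, RCLike.norm_conj]
    have c1 : ‖a w‖ * ‖fderiv ℝ a (w + u) u‖ ≤ A * (A * ‖u‖) :=
      mul_le_mul (hA0 _) b1 (norm_nonneg _) hA
    have c2 : ‖a (w + u)‖ * ‖fderiv ℝ a w u‖ ≤ A * (A * ‖u‖) :=
      mul_le_mul (hA0 _) b2 (norm_nonneg _) hA
    calc _ ≤ A * (A * ‖u‖) + A * (A * ‖u‖) := add_le_add c1 c2
      _ = _ := by ring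
  · intro w _
    rw [hD2, abs_mul]
    have h2 := hP.lip2 hK w (w + u)
    rw [add_sub_cancel_left] at h2
    have h3 : |fderiv ℝ (fderiv ℝ (pk h)) w u u - fderiv ℝ (fderiv ℝ (pk h)) (w + u) u u|
        ≤ 1 / 4 * ‖u‖ ^ 3 := by
      calc |fderiv ℝ (fderiv ℝ (pk h)) w u u - fderiv ℝ (fderiv ℝ (pk h)) (w + u) u u|
          = ‖(fderiv ℝ (fderiv ℝ (pk h)) (w + u) - fderiv ℝ (fderiv ℝ (pk h)) w) u u‖ := by
            rw [← Real.norm_eq_abs, ← norm_neg]; simp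
        _ ≤ ‖fderiv ℝ (fderiv ℝ (pk h)) (w + u) - fderiv ℝ (fderiv ℝ (pk h)) w‖ * ‖u‖ * ‖u‖ :=
            (fderiv ℝ (fderiv ℝ (pk h)) (w + u) - fderiv ℝ (fderiv ℝ (pk h)) w).le_opNorm₂ u u
        _ ≤ (1 / 4 * ‖u‖) * ‖u‖ * ‖u‖ := by
            gcongr; exact h2.trans (by gcongr)
        _ = _ := by ring
    calc |t| * _ ≤ |t| * (1 / 4 * ‖u‖ ^ 3) := by gcongr
      _ = _ := by ring


theorem corr_eq_zero {h : E2 → ℝ} {a : E2 → ℂ} (hs : ∀ ξ, 3 < ‖ξ‖ → a ξ = 0) (x : E2) (t : ℝ)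
    {u : E2} (hu : 6 < ‖u‖) : corr h a x t u = 0 := by
  unfold corr
  have : ∀ w, a w * (starRingEnd ℂ) (a (w + u)) = 0 := by
    intro w
    by_cases hw : 3 < ‖w‖
    · simp [hs w hw]
    · have : 3 < ‖w + u‖ := by
        have h1 : ‖u‖ ≤ ‖w + u‖ + ‖w‖ := by
          calc ‖u‖ = ‖(w + u) - w‖ := by rw [add_sub_cancel_left]
            _ ≤ _ := norm_sub_le _ _
        linarith [not_lt.1 hw]
      simp [hs _ this]
  simp [this]

theorem integral_support_bound {F : E2 → ℂ} {B : ℝ} (hB : ∀ w, ‖F w‖ ≤ B)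
    (hs : ∀ ξ, 3 < ‖ξ‖ → F ξ = 0) : ‖∫ w, F w‖ ≤ B * V3 := by
  have hB0 : 0 ≤ B := (norm_nonneg _).trans (hB 0)
  calc ‖∫ w, F w‖ ≤ ∫ w, ‖F w‖ := norm_integral_le_integral_norm _
    _ ≤ ∫ w, (closedBall (0 : E2) 3).indicator (fun _ => B) w := by
        apply integral_mono_of_nonneg
        · exact Filter.Eventually.of_forall fun _ => norm_nonneg _
        · exact (integrable_indicator_iff measurableSet_closedBall).2
            (integrableOn_const measure_closedBall_lt_top.ne)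
        · refine Filter.Eventually.of_forall fun w => ?_
          by_cases hw : 3 < ‖w‖
          · simp only [hs w hw, norm_zero]
            exact indicator_nonneg (fun _ _ => hB0) w
          · simp only [indicator_of_mem (show w ∈ closedBall (0 : E2) 3 by
              simpa [mem_closedBall, dist_zero_right] using not_lt.1 hw)]
            exact hB w
    _ = B * V3 := by
        rw [integral_indicator_const _ measurableSet_closedBall]
        simp [Measure.real, V3, mul_comm]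

theorem corr_trivial {h : E2 → ℝ} {a : E2 → ℂ} {A : ℝ} (hs : ∀ ξ, 3 < ‖ξ‖ → a ξ = 0)
    (hA0 : ∀ ξ, ‖a ξ‖ ≤ A) (x : E2) (t : ℝ) (u : E2) : ‖corr h a x t u‖ ≤ A ^ 2 * V3 := by
  have hA : 0 ≤ A := (norm_nonneg _).trans (hA0 0)
  apply integral_support_bound
  · intro w
    rw [norm_mul_ee, norm_mul, RCLike.norm_conj, sq]
    exact mul_le_mul (hA0 _) (hA0 _) (norm_nonneg _) hA
  · intro ξ hξ; simp [hs ξ hξ]

theorem ext_mul_conj {c0 : ℝ} {K : ℕ} {h : E2 → ℝ} (hP : Par c0 K h)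
    {a : E2 → ℂ} (ha : Continuous a) (hs : ∀ ξ, 3 < ‖ξ‖ → a ξ = 0) (x : E2) (t : ℝ) :
    ext h a x t * (starRingEnd ℂ) (ext h a x t) = ∫ u, corr h a x t u := by
  have hph : Continuous (ph h x t) := continuous_ph hP.smooth.continuous x t
  set G : E2 → E2 → ℂ := fun w w' => (a w * (starRingEnd ℂ) (a w')) * ee (ph h x t w - ph h x t w')
    with hG
  have hGc : Continuous (Function.uncurry fun w u => G w (w + u)) := by
    have h1 : Continuous fun p : E2 × E2 => a p.1 := ha.comp continuous_fst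
    have h2 : Continuous fun p : E2 × E2 => (starRingEnd ℂ) (a (p.1 + p.2)) :=
      Complex.continuous_conj.comp (ha.comp (continuous_fst.add continuous_snd))
    have h3 : Continuous fun p : E2 × E2 => ee (ph h x t p.1 - ph h x t (p.1 + p.2)) :=
      continuous_ee.comp ((hph.comp continuous_fst).sub
        (hph.comp (continuous_fst.add continuous_snd)))
    exact (h1.mul h2).mul h3
  have hGs : HasCompactSupport (Function.uncurry fun w u => G w (w + u)) := by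
    refine HasCompactSupport.intro
      ((isCompact_closedBall (0 : E2) 3).prod (isCompact_closedBall (0 : E2) 6)) ?_
    rintro ⟨w, u⟩ hwu
    simp only [Function.uncurry_apply_pair, hG]
    by_cases hw : 3 < ‖w‖
    · simp [hs w hw]
    · have h6 : 6 < ‖u‖ := by
        by_contra h6
        apply hwu
        simp only [mem_prod, mem_closedBall, dist_zero_right]
        exact ⟨not_lt.1 hw, not_lt.1 h6⟩
      have : 3 < ‖w + u‖ := by
        have h1 : ‖u‖ ≤ ‖w + u‖ + ‖w‖ := by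
          calc ‖u‖ = ‖(w + u) - w‖ := by rw [add_sub_cancel_left]
            _ ≤ _ := norm_sub_le _ _
        linarith [not_lt.1 hw]
      simp [hs _ this]
  have hGi : Integrable (Function.uncurry fun w u => G w (w + u)) (volume.prod volume) := by
    have := hGc.integrable_of_hasCompactSupport (μ := (volume : Measure (E2 × E2))) hGs
    exact this
  have step1 : ext h a x t * (starRingEnd ℂ) (ext h a x t) = ∫ w, ∫ w', G w w' := by
    have hc : (starRingEnd ℂ) (ext h a x t) = ∫ w', (starRingEnd ℂ) (a w' * ee (ph h x t w')) := by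
      unfold ext; exact integral_conj.symm
    rw [hc]
    conv_lhs => rw [ext, ← integral_mul_const]
    congr 1; funext w
    rw [← integral_const_mul]
    congr 1; funext w'
    simp only [hG, map_mul]
    rw [ee_sub]; ring
  rw [step1]
  have step2 : (fun w => ∫ w', G w w') = fun w => ∫ u, G w (w + u) := by
    funext w
    exact (integral_add_left_eq_self (G w) w).symm
  rw [step2, integral_integral_swap hGi]
  rfl

end Crest.Agent.R138.Rs134
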