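import Crest.Agent.R138.Rs4_134

/-!
Assembly of the weak type estimates `WTOut h` from the sparse lemma `SparseOut h` and the covering
lemma `CoverOut` (Tao's epsilon removal; item 5 of doc 1587).
-/

set_option autoImplicit false
set_option maxSynthPendingDepth 3

namespace Crest.Agent.R138.Rs134

open MeasureTheory Set Metric
open scoped ContDiff RealInnerProductSpace ENNReal

theorem sparse_finset {h : E2 → ℝ} {C1 ε C C2 : ℝ} (hC1 : 1 ≤ C1) (hε : 0 < ε) (hC : 1 ≤ C)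
    (hC2 : 1 ≤ C2)
    (H : ∀ (M : ℕ) (R : ℝ) (x : Fin M → E2 × ℝ), 1 ≤ R →
      (∀ i j, i ≠ j → C2 * (R * M) ^ C1 ≤ ‖x i - x j‖) →
      ∀ g : E2 → ℂ, Measurable g → (∀ ξ, ‖g ξ‖ ≤ 1) → (∀ ξ, 1 / 2 < ‖ξ‖ → g ξ = 0) →
        ∑ i, ∫⁻ p in cyl (x i).1 (x i).2 R, ‖ext h g p.1 p.2‖ₑ ^ 3 ≤
          ENNReal.ofReal (C * (R * M) ^ ε) * ∫⁻ ξ, ‖g ξ‖ₑ ^ 2)
    {g : E2 → ℂ} (hg : Good g) (F : Finset (E2 × ℝ)) (r n : ℝ) (hr : 1 ≤ r)
    (hn : (F.card : ℝ) ≤ n)
    (hsep : ∀ x ∈ F, ∀ y ∈ F, x ≠ y → C2 * (r * n) ^ C1 ≤ dist x y) :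
    ∑ x ∈ F, ∫⁻ p in closedBall x r, ‖ext h g p.1 p.2‖ₑ ^ 3 ≤
      ENNReal.ofReal (C * (r * n) ^ ε) * ∫⁻ ξ, ‖g ξ‖ₑ ^ 2 := by
  set e := F.equivFin with he
  have hM0 : (0 : ℝ) ≤ F.card := Nat.cast_nonneg _
  have hr0 : (0 : ℝ) ≤ r := zero_le_one.trans hr
  have h1 : ∑ x ∈ F, ∫⁻ p in closedBall x r, ‖ext h g p.1 p.2‖ₑ ^ 3 =
      ∑ i : Fin F.card, ∫⁻ p in cyl ((e.symm i : F) : E2 × ℝ).1 ((e.symm i : F) : E2 × ℝ).2 r,
        ‖ext h g p.1 p.2‖ₑ ^ 3 := by
    rw [← Finset.sum_coe_sort]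
    refine Fintype.sum_equiv e _ _ fun x => ?_
    rw [Equiv.symm_apply_apply, cyl_eq]
  rw [h1]
  refine (H F.card r (fun i => ((e.symm i : F) : E2 × ℝ)) hr ?_ g hg.meas hg.le_one hg.supp).trans ?_
  · intro i j hij
    have hne : ((e.symm i : F) : E2 × ℝ) ≠ ((e.symm j : F) : E2 × ℝ) := by
      intro hcon
      exact hij (e.symm.injective (Subtype.ext hcon))
    have h2 := hsep _ (e.symm i).2 _ (e.symm j).2 hne
    rw [dist_eq_norm] at h2
    refine le_trans ?_ h2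
    have : (r * F.card) ^ C1 ≤ (r * n) ^ C1 := by
      apply Real.rpow_le_rpow (by positivity) _ (by linarith)
      gcongr
    exact mul_le_mul_of_nonneg_left this (by linarith)
  · gcongr

theorem main_cover {h : E2 → ℝ} (hS : SparseOut h) (hCov : CoverOut) {η : ℝ} (hη : 0 < η) :
    ∃ C' : ℝ, 1 ≤ C' ∧ ∀ Z : Finset (E2 × ℝ), Z.Nonempty → ∀ g : E2 → ℂ, Good g →
      ∫⁻ p in ⋃ z ∈ Z, closedBall z 1, ‖ext h g p.1 p.2‖ₑ ^ 3 ≤
        ENNReal.ofReal (C' * (Z.card : ℝ) ^ η) * ∫⁻ ξ, ‖g ξ‖ₑ ^ 2 := by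
  obtain ⟨C1, hC1, hS⟩ := hS
  obtain ⟨N, hN⟩ := exists_nat_ge (max 1 (2 / η))
  have hN1 : 1 ≤ N := by exact_mod_cast (le_max_left _ _).trans hN
  have hN1' : (1 : ℝ) ≤ N := by exact_mod_cast hN1
  have hN2 : 2 / η ≤ N := (le_max_right _ _).trans hN
  have hNη : 1 / (N : ℝ) ≤ η / 2 := by
    rw [div_le_iff₀ (by linarith)]
    rw [div_le_iff₀ hη] at hN2
    linarith
  obtain ⟨A, hA, hCov⟩ := hCov N C1 hN1 (by linarith)
  set ε : ℝ := η / (2 * (A + 1)) with hεdef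
  have hε : 0 < ε := by positivity
  have hAε : (A + 1) * ε = η / 2 := by
    rw [hεdef]; field_simp
  obtain ⟨C, C2, hC, hC2, hS⟩ := hS ε hε
  obtain ⟨B, hB, hCov⟩ := hCov C2 hC2
  have hB0 : (0 : ℝ) < B := by linarith
  refine ⟨B * (C * B ^ ε), ?_, ?_⟩
  · have : 1 ≤ B ^ ε := Real.one_le_rpow hB hε.le
    nlinarith [mul_le_mul hC this zero_le_one (by linarith)]
  intro Z hZ g hg
  obtain ⟨J, r, F, hJ, hr, hF, hsep, hcov⟩ := hCov Z hZ
  have hn1 : (1 : ℝ) ≤ Z.card := by exact_mod_cast hZ.card_pos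
  have hn0 : (0 : ℝ) < Z.card := by linarith
  have hsub : (⋃ z ∈ Z, closedBall z 1) ⊆ ⋃ j : Fin J, ⋃ x ∈ F j, closedBall x (r j) := by
    intro p hp
    simp only [mem_iUnion, exists_prop] at hp ⊢
    obtain ⟨z, hz, hpz⟩ := hp
    obtain ⟨j, x, hx, hd⟩ := hcov z hz
    refine ⟨j, x, hx, ?_⟩
    rw [mem_closedBall] at hpz ⊢
    linarith [dist_triangle p z x]
  calc ∫⁻ p in ⋃ z ∈ Z, closedBall z 1, ‖ext h g p.1 p.2‖ₑ ^ 3
      ≤ ∫⁻ p in ⋃ j : Fin J, ⋃ x ∈ F j, closedBall x (r j), ‖ext h g p.1 p.2‖ₑ ^ 3 :=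
        lintegral_mono_set hsub
    _ ≤ ∑' j : Fin J, ∫⁻ p in ⋃ x ∈ F j, closedBall x (r j), ‖ext h g p.1 p.2‖ₑ ^ 3 :=
        lintegral_iUnion_le _ _
    _ = ∑ j : Fin J, ∫⁻ p in ⋃ x ∈ F j, closedBall x (r j), ‖ext h g p.1 p.2‖ₑ ^ 3 :=
        tsum_fintype _
    _ ≤ ∑ j : Fin J, ENNReal.ofReal (C * B ^ ε * (Z.card : ℝ) ^ (η / 2)) * ∫⁻ ξ, ‖g ξ‖ₑ ^ 2 := by
        apply Finset.sum_le_sum
        intro j _
        have hcard : ((F j).card : ℝ) ≤ Z.card := by exact_mod_cast Finset.card_le_card (hF j)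
        have h1 : ∫⁻ p in ⋃ x ∈ F j, closedBall x (r j), ‖ext h g p.1 p.2‖ₑ ^ 3 ≤
            ∑ x ∈ F j, ∫⁻ p in closedBall x (r j), ‖ext h g p.1 p.2‖ₑ ^ 3 := by
          have h0 : (⋃ x ∈ F j, closedBall x (r j)) = ⋃ x : F j, closedBall (x : E2 × ℝ) (r j) := by
            ext p; simp
          rw [h0]
          refine (lintegral_iUnion_le _ _).trans (le_of_eq ?_)
          rw [tsum_fintype, Finset.sum_coe_sort (F j)
            (fun x => ∫⁻ p in closedBall x (r j), ‖ext h g p.1 p.2‖ₑ ^ 3)]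
        refine h1.trans ((sparse_finset hC1 hε hC hC2 hS hg (F j) (r j) Z.card (hr j).1 hcard
          (hsep j)).trans ?_)
        gcongr ENNReal.ofReal ?_ * _
        rw [mul_assoc]
        gcongr
        calc (r j * (Z.card : ℝ)) ^ ε ≤ (B * (Z.card : ℝ) ^ A * (Z.card : ℝ)) ^ ε := by
              apply Real.rpow_le_rpow _ _ hε.le
              · have := (hr j).1; positivity
              · exact mul_le_mul_of_nonneg_right (hr j).2 hn0.le
          _ = B ^ ε * (Z.card : ℝ) ^ (η / 2) := by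
              rw [mul_assoc, ← Real.rpow_add_one hn0.ne', Real.mul_rpow hB0.le (by positivity),
                ← Real.rpow_mul hn0.le, hAε]
    _ = (J : ℝ≥0∞) * (ENNReal.ofReal (C * B ^ ε * (Z.card : ℝ) ^ (η / 2)) * ∫⁻ ξ, ‖g ξ‖ₑ ^ 2) := by
        rw [Finset.sum_const, Finset.card_univ, Fintype.card_fin, nsmul_eq_mul]
    _ ≤ ENNReal.ofReal (B * (Z.card : ℝ) ^ (η / 2)) *
          (ENNReal.ofReal (C * B ^ ε * (Z.card : ℝ) ^ (η / 2)) * ∫⁻ ξ, ‖g ξ‖ₑ ^ 2) := by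
        gcongr
        rw [← ENNReal.ofReal_natCast]
        apply ENNReal.ofReal_le_ofReal
        refine hJ.trans ?_
        gcongr
    _ = ENNReal.ofReal (B * (C * B ^ ε) * (Z.card : ℝ) ^ η) * ∫⁻ ξ, ‖g ξ‖ₑ ^ 2 := by
        rw [← mul_assoc, ← ENNReal.ofReal_mul (by positivity)]
        congr 2
        have : (Z.card : ℝ) ^ η = (Z.card : ℝ) ^ (η / 2) * (Z.card : ℝ) ^ (η / 2) := by
          rw [← Real.rpow_add hn0]; congr 1; ring
        rw [this]; ring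

/-- On a small ball around a point of the level set the extension stays large. -/
theorem Good.half {c0 : ℝ} {K : ℕ} {h : E2 → ℝ} (hP : Par c0 K h) (hK : 2 ≤ K) (hc : c0 ≤ 1)
    {g : E2 → ℂ} (hg : Good g) {l : ℝ} {z p : E2 × ℝ} (hz : l < ‖ext h g z.1 z.2‖)
    (hp : p ∈ closedBall z (l / 10)) : l / 2 < ‖ext h g p.1 p.2‖ := by
  have h1 := hg.lip hP hK hc z p
  rw [mem_closedBall, dist_comm] at hp
  have h2 := norm_sub_norm_le (ext h g z.1 z.2) (ext h g p.1 p.2)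
  linarith

/-- `1`-separated subsets of the level set are small. -/
theorem card_le {h : E2 → ℝ} {c0 : ℝ} {K : ℕ} (hP : Par c0 K h) (hK : 2 ≤ K) (hc : c0 ≤ 1)
    (hS : SparseOut h) (hCov : CoverOut) :
    ∃ D : ℝ, 1 ≤ D ∧ ∀ g : E2 → ℂ, Good g → ∀ l : ℝ, 0 < l → l ≤ 1 → ∀ Z : Finset (E2 × ℝ),
      (∀ z ∈ Z, l < ‖ext h g z.1 z.2‖) → (∀ x ∈ Z, ∀ y ∈ Z, x ≠ y → 1 ≤ dist x y) →
      (Z.card : ℝ) ≤ D * l ^ (-12 : ℝ) := by
  obtain ⟨C', hC', H⟩ := main_cover hS hCov (η := 1 / 2) (by norm_num)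
  refine ⟨(C' * 4000) ^ 2, by nlinarith, ?_⟩
  intro g hg l hl hl1 Z hZ hsep
  rcases Z.eq_empty_or_nonempty with rfl | hne
  · simp only [Finset.card_empty, Nat.cast_zero]; positivity
  have hn1 : (1 : ℝ) ≤ Z.card := by exact_mod_cast hne.card_pos
  have hn0 : (0 : ℝ) < Z.card := by linarith
  have h1 := H Z hne g hg
  have h2 : (∫⁻ ξ, ‖g ξ‖ₑ ^ 2) ≤ 1 := hg.lintegral_le_one
  have h3 : ENNReal.ofReal (Z.card * ((l / 2) ^ 3 * (2 * Real.pi * (l / 10) ^ 3))) ≤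
      ∫⁻ p in ⋃ z ∈ Z, closedBall z 1, ‖ext h g p.1 p.2‖ₑ ^ 3 := by
    have hsub : (⋃ z ∈ Z, closedBall z (l / 10)) ⊆ ⋃ z ∈ Z, closedBall z 1 := by
      refine iUnion₂_mono fun z _ => closedBall_subset_closedBall (by linarith)
    refine le_trans ?_ (lintegral_mono_set hsub)
    rw [lintegral_biUnion_finset]
    · have h4 : ∀ z ∈ Z, ENNReal.ofReal ((l / 2) ^ 3 * (2 * Real.pi * (l / 10) ^ 3)) ≤
          ∫⁻ p in closedBall z (l / 10), ‖ext h g p.1 p.2‖ₑ ^ 3 := by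
        intro z hz
        calc ENNReal.ofReal ((l / 2) ^ 3 * (2 * Real.pi * (l / 10) ^ 3))
            = ENNReal.ofReal ((l / 2) ^ 3) * volume (closedBall z (l / 10)) := by
              rw [ENNReal.ofReal_mul (by positivity), ← cyl_eq, volume_cyl _ _ (by positivity)]
          _ = ∫⁻ p in closedBall z (l / 10), ENNReal.ofReal ((l / 2) ^ 3) := by
              rw [setLIntegral_const]
          _ ≤ ∫⁻ p in closedBall z (l / 10), ‖ext h g p.1 p.2‖ₑ ^ 3 := by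
              apply setLIntegral_mono' measurableSet_closedBall
              intro p hp
              rw [← ofReal_norm, ENNReal.ofReal_pow (by positivity)]
              gcongr
              exact (hg.half hP hK hc (hZ z hz) hp).le
      calc ENNReal.ofReal (Z.card * ((l / 2) ^ 3 * (2 * Real.pi * (l / 10) ^ 3)))
          = ∑ z ∈ Z, ENNReal.ofReal ((l / 2) ^ 3 * (2 * Real.pi * (l / 10) ^ 3)) := by
            rw [Finset.sum_const, nsmul_eq_mul, ENNReal.ofReal_mul (by positivity),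
              ENNReal.ofReal_natCast]
        _ ≤ _ := Finset.sum_le_sum h4
    · intro x hx y hy hxy
      have hd := hsep x hx y hy hxy
      exact closedBall_disjoint_closedBall (by linarith)
    · intro z _; exact measurableSet_closedBall
  have h5 : ENNReal.ofReal (Z.card * ((l / 2) ^ 3 * (2 * Real.pi * (l / 10) ^ 3))) ≤
      ENNReal.ofReal (C' * (Z.card : ℝ) ^ (1 / 2 : ℝ)) := by
    refine h3.trans (h1.trans ?_)
    calc ENNReal.ofReal (C' * (Z.card : ℝ) ^ (1 / 2 : ℝ)) * ∫⁻ ξ, ‖g ξ‖ₑ ^ 2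
        ≤ ENNReal.ofReal (C' * (Z.card : ℝ) ^ (1 / 2 : ℝ)) * 1 := by gcongr
      _ = _ := mul_one _
  rw [ENNReal.ofReal_le_ofReal_iff (by positivity)] at h5
  set s : ℝ := (Z.card : ℝ) ^ (1 / 2 : ℝ) with hs
  have hs0 : 0 < s := by positivity
  have hss : s ^ 2 = Z.card := by
    rw [hs, ← Real.rpow_natCast, ← Real.rpow_mul hn0.le]; norm_num
  rw [← hss] at h5 ⊢
  have h6 : s * l ^ 6 ≤ C' * 4000 := by
    have h7 : s * (s * (l ^ 6 * (Real.pi / 4000))) ≤ s * C' := by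
      calc s * (s * (l ^ 6 * (Real.pi / 4000)))
          = s ^ 2 * ((l / 2) ^ 3 * (2 * Real.pi * (l / 10) ^ 3)) := by ring
        _ ≤ C' * s := h5
        _ = s * C' := mul_comm _ _
    have h8 := le_of_mul_le_mul_left h7 hs0
    have h9 : s * l ^ 6 * 1 ≤ s * l ^ 6 * Real.pi := by
      apply mul_le_mul_of_nonneg_left _ (by positivity)
      linarith [Real.pi_gt_three]
    have h10 : s * (l ^ 6 * (Real.pi / 4000)) = s * l ^ 6 * Real.pi / 4000 := by ring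
    rw [h10, div_le_iff₀ (by norm_num)] at h8
    linarith
  have h11 : l ^ (-12 : ℝ) = 1 / (l ^ 6) ^ 2 := by
    rw [Real.rpow_neg hl.le, ← pow_mul, one_div]
    congr 1
    exact_mod_cast Real.rpow_natCast l 12
  rw [h11, mul_one_div, le_div_iff₀ (by positivity), ← mul_pow]
  exact pow_le_pow_left₀ (by positivity) h6 2

/-- **Assembly of the weak type estimates.** -/
theorem wt_of {h : E2 → ℝ} {c0 : ℝ} {K : ℕ} (hP : Par c0 K h) (hK : 2 ≤ K) (hc : c0 ≤ 1)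
    (hS : SparseOut h) (hCov : CoverOut) : WTOut h := by
  obtain ⟨D, hD, hcard⟩ := card_le hP hK hc hS hCov
  intro q hq
  obtain ⟨C', hC', H⟩ := main_cover hS hCov (η := (q - 3) / 12) (by linarith)
  set η : ℝ := (q - 3) / 12 with hηdef
  have hη : 0 < η := by rw [hηdef]; linarith
  refine ⟨C' * D ^ η, by positivity, ?_⟩
  intro g hgm hg1 hg2 l hl
  have hg : Good g := ⟨hgm, hg1, hg2⟩
  rcases le_or_gt 1 l with hl1 | hl1
  · have : {p : E2 × ℝ | l < ‖ext h g p.1 p.2‖} = ∅ := by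
      ext p
      simp only [Set.mem_ofPred_eq, mem_empty_iff_false, iff_false, not_lt]
      exact (hg.norm_ext_le h p.1 p.2).trans hl1
    rw [this, measure_empty]; exact zero_le
  set E : Set (E2 × ℝ) := {p : E2 × ℝ | l < ‖ext h g p.1 p.2‖} with hE
  rcases E.eq_empty_or_nonempty with hE0 | ⟨p0, hp0⟩
  · rw [hE0, measure_empty]; exact zero_le
  -- a maximal separated set
  let P : ℕ → Prop := fun n => ∃ Z : Finset (E2 × ℝ), Z.card = n ∧ (∀ z ∈ Z, l < ‖ext h g z.1 z.2‖) ∧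
    (∀ x ∈ Z, ∀ y ∈ Z, x ≠ y → 1 ≤ dist x y)
  obtain ⟨m, hm⟩ := exists_nat_ge (D * l ^ (-12 : ℝ))
  have hPm : ∀ n, P n → n ≤ m := by
    rintro n ⟨Z, rfl, h1, h2⟩
    exact_mod_cast (hcard g hg l hl hl1.le Z h1 h2).trans hm
  have hP1 : P 1 := ⟨{p0}, Finset.card_singleton _, by
    intro z hz
    rw [Finset.mem_singleton] at hz
    rw [hz]; exact hp0, by
    intro x hx y hy hxy
    rw [Finset.mem_singleton] at hx hy
    exact absurd (hx.trans hy.symm) hxy⟩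
  classical
  obtain ⟨Z, hZc, hZ1, hZ2⟩ : P (Nat.findGreatest P m) := Nat.findGreatest_spec (hPm 1 hP1) hP1
  have hmax : ∀ n, P n → n ≤ Z.card := by
    intro n hn
    rw [hZc]
    exact Nat.le_findGreatest (hPm n hn) hn
  have hne : Z.Nonempty := by
    rw [← Finset.card_pos]; exact hmax 1 hP1
  have hcover : E ⊆ ⋃ z ∈ Z, closedBall z 1 := by
    intro p hp
    by_contra hcon
    simp only [mem_iUnion, exists_prop, not_exists, not_and, mem_closedBall, not_le] at hcon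
    have hpZ : p ∉ Z := by
      intro hpZ
      have := hcon p hpZ
      rw [dist_self] at this
      linarith
    have h1 : P (insert p Z).card := by
      refine ⟨insert p Z, rfl, ?_, ?_⟩
      · intro z hz
        rcases Finset.mem_insert.1 hz with rfl | hz
        · exact hp
        · exact hZ1 z hz
      · intro x hx y hy hxy
        rcases Finset.mem_insert.1 hx with hx | hx
        · rcases Finset.mem_insert.1 hy with hy | hy
          · exact absurd (hx.trans hy.symm) hxy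
          · rw [hx]; exact (hcon y hy).le
        · rcases Finset.mem_insert.1 hy with hy | hy
          · rw [dist_comm, hy]; exact (hcon x hx).le
          · exact hZ2 x hx y hy hxy
    have h2 := hmax _ h1
    rw [Finset.card_insert_of_notMem hpZ] at h2
    omega
  have hEm : MeasurableSet E :=
    (isOpen_lt continuous_const (hg.continuous_ext hP hK hc).norm).measurableSet
  have hn1 : (1 : ℝ) ≤ Z.card := by exact_mod_cast hne.card_pos
  have h1 : ENNReal.ofReal (l ^ 3) * volume E ≤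
      ENNReal.ofReal (C' * (Z.card : ℝ) ^ η) * ∫⁻ ξ, ‖g ξ‖ₑ ^ 2 := by
    calc ENNReal.ofReal (l ^ 3) * volume E = ∫⁻ p in E, ENNReal.ofReal (l ^ 3) := by
          rw [setLIntegral_const]
      _ ≤ ∫⁻ p in E, ‖ext h g p.1 p.2‖ₑ ^ 3 := by
          apply setLIntegral_mono' hEm
          intro p hp
          rw [← ofReal_norm, ENNReal.ofReal_pow hl.le]
          gcongr
          exact (show l < _ from hp).le
      _ ≤ ∫⁻ p in ⋃ z ∈ Z, closedBall z 1, ‖ext h g p.1 p.2‖ₑ ^ 3 := lintegral_mono_set hcover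
      _ ≤ _ := H Z hne g hg
  have h2 : (Z.card : ℝ) ^ η ≤ D ^ η * l ^ (-12 * η) := by
    calc (Z.card : ℝ) ^ η ≤ (D * l ^ (-12 : ℝ)) ^ η := by
          apply Real.rpow_le_rpow (by positivity) (hcard g hg l hl hl1.le Z hZ1 hZ2) hη.le
      _ = _ := by
          rw [Real.mul_rpow (by positivity) (by positivity), ← Real.rpow_mul hl.le]
  have h3 : volume E = ENNReal.ofReal (l ^ (-3 : ℝ)) * (ENNReal.ofReal (l ^ 3) * volume E) := by
    rw [← mul_assoc, ← ENNReal.ofReal_mul (by positivity)]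
    have : l ^ (-3 : ℝ) * l ^ 3 = 1 := by
      rw [← Real.rpow_natCast l 3, ← Real.rpow_add hl]; norm_num
    rw [this, ENNReal.ofReal_one, one_mul]
  rw [h3]
  calc ENNReal.ofReal (l ^ (-3 : ℝ)) * (ENNReal.ofReal (l ^ 3) * volume E)
      ≤ ENNReal.ofReal (l ^ (-3 : ℝ)) *
          (ENNReal.ofReal (C' * (D ^ η * l ^ (-12 * η))) * ∫⁻ ξ, ‖g ξ‖ₑ ^ 2) := by
        refine mul_le_mul_right (h1.trans ?_) _
        refine mul_le_mul_left ?_ _
        apply ENNReal.ofReal_le_ofReal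
        exact mul_le_mul_of_nonneg_left h2 (by linarith)
    _ = ENNReal.ofReal (C' * D ^ η * l ^ (-q)) * ∫⁻ ξ, ‖g ξ‖ₑ ^ 2 := by
        rw [← mul_assoc, ← ENNReal.ofReal_mul (by positivity)]
        congr 2
        have : l ^ (-q) = l ^ (-3 : ℝ) * l ^ (-12 * η) := by
          rw [← Real.rpow_add hl]; congr 1; rw [hηdef]; ring
        rw [this]; ring

end Crest.Agent.R138.Rs134
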