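import Crest.Agent.R138.Rs5_134
import Crest.Agent.R138.Bk2_57
import Crest.Agent.R138.Bk3_57

/-!
Glue: `SparseOut h` gives the strong type estimates for the extension operator of the graph of `h`.
-/

set_option autoImplicit false
set_option maxSynthPendingDepth 3

namespace Crest.Agent.R138.Rs134

open MeasureTheory Set Metric
open scoped ContDiff RealInnerProductSpace ENNReal

theorem coverOut : CoverOut := fun N C1 hN hC1 => Bk57.cover (E2 × ℝ) N C1 hN hC1

/-- Strong type `(p, p)` for every `p > 3`, from the sparse lemma. -/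
theorem strong_of_sparse {h : E2 → ℝ} {c0 : ℝ} {K : ℕ} (hP : Par c0 K h) (hK : 2 ≤ K) (hc : c0 ≤ 1)
    (hS : SparseOut h) (p : ℝ) (hp : 3 < p) :
    ∃ C : ℝ, ∀ g : E2 → ℂ, Measurable g → (∀ ξ, 1 / 2 < ‖ξ‖ → g ξ = 0) →
      eLpNorm (fun z : E2 × ℝ => ext h g z.1 z.2) (ENNReal.ofReal p) volume ≤
        ENNReal.ofReal C * eLpNorm g (ENNReal.ofReal p) volume := by
  refine Bk57.strong_of_weak hP.smooth.continuous ?_ p hp
  intro q hq
  obtain ⟨C, _, hC⟩ := wt_of hP hK hc hS coverOut q hq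
  exact ⟨C, hC⟩

end Crest.Agent.R138.Rs134
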