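import Crest.Agent.R138.Sh9_200

/-!
R138, outer shell (10): the single-scale bound for every `1 ≤ p ≤ ∞` and Schwartz `f`.
-/

set_option autoImplicit false

open MeasureTheory FourierTransform LineDeriv Set Filter
open scoped ContDiff Real SchwartzMap ENNReal Convolution Topology ComplexConjugate

namespace Crest.Agent.R138.Sh200

open Fr665 (cv)

/-- the critical exponent. -/
noncomputable def αp (p : ℝ≥0∞) : ℝ := max (3 * |(p⁻¹).toReal - 1 / 2| - 1 / 2) 0

theorem αp_nonneg (p : ℝ≥0∞) : 0 ≤ αp p := le_max_right _ _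

theorem αp_of_real {p : ℝ} (hp : 0 < p) :
    αp (ENNReal.ofReal p) = max (3 * |1 / p - 1 / 2| - 1 / 2) 0 := by
  unfold αp
  rw [← ENNReal.ofReal_inv_of_pos hp, ENNReal.toReal_ofReal (by positivity), one_div p]

/-- the single-scale estimate. -/
def Single (φ : ℝ → ℝ) (p : ℝ≥0∞) : Prop :=
  ∀ ε : ℝ, 0 < ε → ∃ C : ℝ, 0 < C ∧ ∀ R : ℝ, 1 ≤ R → ∀ f : 𝓢(V, ℂ),
    eLpNorm (cv (KR φ R) f) p volume
      ≤ ENNReal.ofReal (C * R ^ (αp p + ε)) * eLpNorm f p volume

theorem bm_schwartz (f : 𝓢(V, ℂ)) : BM (f : V → ℂ) :=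
  ⟨f.continuous.measurable, SchwartzMap.seminorm ℝ 0 0 f, fun x =>
    SchwartzMap.norm_le_seminorm ℝ f x⟩

theorem single_ge_two (h3 : C3) {φ : ℝ → ℝ} (hφ : ContDiff ℝ ∞ φ) (hφ' : HasCompactSupport φ)
    {p : ℝ} (hp : 2 ≤ p) : Single φ (ENNReal.ofReal p) := by
  intro ε hε
  have hp0 : 0 < p := by linarith
  obtain ⟨C, hC, hS⟩ := family_of_C3 h3 hφ hφ' hp (mul_pos hp0 hε)
  refine ⟨C ^ (1 / p), by positivity, fun R hR f => ?_⟩
  have hR0 : 0 < R := by linarith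
  have h1 := hS R hR f (bm_schwartz f)
  rw [lint_eq_eLpNorm hp0, lint_eq_eLpNorm hp0] at h1
  have h2 := ENNReal.rpow_le_rpow h1 (by positivity : 0 ≤ 1 / p)
  rw [ENNReal.mul_rpow_of_nonneg _ _ (by positivity), ← ENNReal.rpow_mul, ← ENNReal.rpow_mul,
    mul_one_div_cancel hp0.ne', ENNReal.rpow_one, ENNReal.rpow_one,
    ENNReal.ofReal_rpow_of_nonneg (by positivity) (by positivity)] at h2
  refine h2.trans (le_of_eq ?_)
  congr 2
  rw [Real.mul_rpow hC.le (by positivity), ← Real.rpow_mul hR0.le]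
  congr 2
  rw [αp_of_real hp0]
  have e1 : |1 / p - 1 / 2| = 1 / 2 - 1 / p := by
    rw [abs_sub_comm, abs_of_nonneg]
    rw [sub_nonneg]
    exact one_div_le_one_div_of_le two_pos hp
  have e2 : 3 * (1 / 2 - 1 / p) - 1 / 2 = (p - 3) * (1 / p) := by field_simp; ring
  rw [e1, e2, add_mul, max_mul_of_nonneg _ _ (by positivity : 0 ≤ 1 / p), zero_mul]
  congr 1
  field_simp

theorem single_top {φ : ℝ → ℝ} (hφ : ContDiff ℝ ∞ φ) (hφ' : HasCompactSupport φ) :
    Single φ ⊤ := by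
  intro ε hε
  obtain ⟨A, hA, hKA⟩ := kernel_L1 hφ hφ'
  refine ⟨A, hA, fun R hR f => ?_⟩
  have hR0 : 0 < R := by linarith
  have hKm : Measurable (KR φ R) := (continuous_KR hφ hφ' hR).measurable
  have hα : αp ⊤ = 1 := by
    unfold αp
    rw [ENNReal.inv_top, ENNReal.toReal_zero]
    norm_num
  rw [hα, eLpNorm_exponent_top, eLpNorm_exponent_top]
  have h1 : ∀ x, ‖cv (KR φ R) f x‖ₑ ≤ ENNReal.ofReal (A * R) * eLpNormEssSup f volume := by
    intro x
    refine (Fr665.enorm_cv_le (KR φ R) f x).trans ?_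
    unfold Fr665.acv
    calc ∫⁻ y, ‖KR φ R (x - y)‖ₑ * ‖f y‖ₑ
        ≤ ∫⁻ y, ‖KR φ R (x - y)‖ₑ * eLpNormEssSup f volume := by
          apply lintegral_mono_ae
          filter_upwards [enorm_ae_le_eLpNormEssSup (f : V → ℂ) (volume : Measure V)] with y hy
          gcongr
      _ = (∫⁻ y, ‖KR φ R y‖ₑ) * eLpNormEssSup f volume := by
          rw [lintegral_mul_const _ (by fun_prop), Fr665.lint_sub]
      _ ≤ _ := by gcongr; exact hKA R hR
  refine (eLpNormEssSup_le_of_ae_enorm_bound (Filter.Eventually.of_forall h1)).trans ?_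
  gcongr
  calc R = R ^ (1:ℝ) := (Real.rpow_one R).symm
    _ ≤ R ^ (1 + ε) := Real.rpow_le_rpow_of_exponent_le hR (by linarith)

theorem single_one {φ : ℝ → ℝ} (hφ : ContDiff ℝ ∞ φ) (hφ' : HasCompactSupport φ) :
    Single φ 1 := by
  intro ε hε
  obtain ⟨A, hA, hKA⟩ := kernel_L1 hφ hφ'
  refine ⟨A, hA, fun R hR f => ?_⟩
  have hR0 : 0 < R := by linarith
  have hKm : Measurable (KR φ R) := (continuous_KR hφ hφ' hR).measurable
  have hα : αp 1 = 1 := by
    unfold αp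
    norm_num
  rw [hα, eLpNorm_one_eq_lintegral_enorm, eLpNorm_one_eq_lintegral_enorm]
  have h1 := Fr665.lint_cv_rpow hKm f.continuous.measurable (le_refl (1:ℝ))
  simp only [ENNReal.rpow_one] at h1
  refine h1.trans ?_
  gcongr
  refine (hKA R hR).trans (ENNReal.ofReal_le_ofReal ?_)
  gcongr
  calc R = R ^ (1:ℝ) := (Real.rpow_one R).symm
    _ ≤ R ^ (1 + ε) := Real.rpow_le_rpow_of_exponent_le hR (by linarith)

theorem single_lt_two (h3 : C3) {φ : ℝ → ℝ} (hφ : ContDiff ℝ ∞ φ) (hφ' : HasCompactSupport φ)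
    {p : ℝ} (hp1 : 1 < p) (hp : p < 2) : Single φ (ENNReal.ofReal p) := by
  intro ε hε
  have hp0 : 0 < p := by linarith
  set q := p.conjExponent with hq
  have hpq : p.HolderConjugate q := Real.HolderConjugate.conjExponent hp1
  have hq0 : 0 < q := hpq.symm.pos
  have hq2 : 2 ≤ q := by
    have h1 := hpq.inv_add_inv_eq_one
    have h2 : 1 / 2 < p⁻¹ := by
      rw [one_div]; exact inv_strictAnti₀ hp0 hp
    have h3 : q⁻¹ ≤ 2⁻¹ := by
      rw [← one_div 2]; linarith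
    exact (inv_le_inv₀ hq0 two_pos).mp h3
  obtain ⟨C, hC, hS⟩ := family_of_C3 h3 hφ hφ' hq2 (mul_pos hq0 hε)
  obtain ⟨A, hA, hKA⟩ := kernel_L1 hφ hφ'
  refine ⟨C ^ (1 / q), by positivity, fun R hR f => ?_⟩
  have hR0 : 0 < R := by linarith
  have hKm : Measurable (KR φ R) := (continuous_KR hφ hφ' hR).measurable
  have hKi := integrable_KR hφ hφ' hR
  obtain ⟨D, hD⟩ := (bm_schwartz f).bdd
  have hfin : ∫⁻ x, ENNReal.ofReal (‖cv (KR φ R) f x‖ ^ p) ≠ ⊤ := by
    rw [lint_eq_eLpNorm hp0]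
    apply ENNReal.rpow_ne_top_of_nonneg hp0.le
    have e : cv (KR φ R) f = SchwartzMap.convolution (ContinuousLinearMap.mul ℂ ℂ)
        (kS hφ hφ' hR) f := by
      funext x; rw [conv_eq]
    rw [e]
    exact (SchwartzMap.eLpNorm_lt_top _ _ _).ne
  have h1 := dual_bound hKi hKm (fun x => KR_neg φ R x) hpq (hS R hR) f.continuous.measurable
    f.integrable (fun x => norm_cv_le hKm (hKA R hR) (by positivity) hD x) hfin
  rw [lint_eq_eLpNorm hp0, lint_eq_eLpNorm hp0, ← ENNReal.rpow_mul, ← ENNReal.rpow_mul,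
    mul_one_div_cancel hp0.ne', ENNReal.rpow_one, ENNReal.rpow_one,
    ENNReal.ofReal_rpow_of_nonneg (by positivity) (by positivity)] at h1
  refine h1.trans (le_of_eq ?_)
  congr 2
  rw [Real.mul_rpow hC.le (by positivity), ← Real.rpow_mul hR0.le]
  congr 2
  rw [αp_of_real hp0]
  have e1 : |1 / p - 1 / 2| = 1 / 2 - 1 / q := by
    have h5 := hpq.inv_add_inv_eq_one
    rw [← one_div, ← one_div] at h5
    have h6 : 1 / 2 < 1 / p := one_div_lt_one_div_of_lt hp0 hp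
    rw [abs_of_nonneg (by linarith)]
    linarith
  have e2 : 3 * (1 / 2 - 1 / q) - 1 / 2 = (q - 3) * (1 / q) := by field_simp; ring
  rw [e1, e2, add_mul, max_mul_of_nonneg _ _ (by positivity : 0 ≤ 1 / q), zero_mul]
  congr 1
  field_simp

theorem single_all (h3 : C3) {φ : ℝ → ℝ} (hφ : ContDiff ℝ ∞ φ) (hφ' : HasCompactSupport φ)
    {p : ℝ≥0∞} (hp : 1 ≤ p) : Single φ p := by
  rcases eq_or_ne p ⊤ with rfl | hptop
  · exact single_top hφ hφ'
  have e : p = ENNReal.ofReal p.toReal := (ENNReal.ofReal_toReal hptop).symm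
  have hp1 : 1 ≤ p.toReal := by
    have := ENNReal.toReal_mono hptop hp
    simpa using this
  rw [e]
  rcases eq_or_lt_of_le hp1 with h | h
  · rw [← h, ENNReal.ofReal_one]
    exact single_one hφ hφ'
  · by_cases h2 : 2 ≤ p.toReal
    · exact single_ge_two h3 hφ hφ' h2
    · exact single_lt_two h3 hφ hφ' h (not_le.mp h2)

end Crest.Agent.R138.Sh200
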