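import Mathlib

/-!
R138, outer shell (1): one-dimensional integrals and Tonelli lemmas used by the two
Marcinkiewicz arguments.
-/

set_option autoImplicit false

namespace Crest.Agent.R138.Sh200

open MeasureTheory Set
open scoped ENNReal NNReal

theorem lint_Ioo_rpow {q b : ℝ} (hq : -1 < q) (hb : 0 ≤ b) :
    ∫⁻ t in Ioo 0 b, ENNReal.ofReal (t ^ q) = ENNReal.ofReal (b ^ (q + 1) / (q + 1)) := by
  rw [← ofReal_integral_eq_lintegral_ofReal]
  · congr 1
    rw [← integral_Ioc_eq_integral_Ioo, ← intervalIntegral.integral_of_le hb,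
      integral_rpow (Or.inl hq)]
    rw [Real.zero_rpow (by linarith), sub_zero]
  · have h := (intervalIntegral.intervalIntegrable_rpow' (a := 0) (b := b) hq).1
    exact h.mono_set Ioo_subset_Ioc_self
  · filter_upwards [ae_restrict_mem measurableSet_Ioo] with t ht using Real.rpow_nonneg ht.1.le _

theorem lint_Ioi_rpow {q b : ℝ} (hq : q < -1) (hb : 0 < b) :
    ∫⁻ t in Ioi b, ENNReal.ofReal (t ^ q) = ENNReal.ofReal (b ^ (q + 1) / (-(q + 1))) := by
  rw [← ofReal_integral_eq_lintegral_ofReal]
  · congr 1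
    rw [integral_Ioi_rpow_of_lt hq hb, div_neg, neg_div]
  · exact integrableOn_Ioi_rpow_of_lt hq hb
  · filter_upwards [ae_restrict_mem measurableSet_Ioi] with t ht using
      Real.rpow_nonneg (hb.trans ht).le _

variable {α : Type*} [MeasurableSpace α] {μ : Measure α} [SFinite μ]

/-- Tonelli, upper truncation. -/
theorem tonelli_gt {g : α → ℝ} (hg : Measurable g) (hg0 : ∀ x, 0 ≤ g x) {G : α → ℝ≥0∞}
    (hG : Measurable G) {q a : ℝ} (hq : -1 < q) (ha : 0 < a) :
    ∫⁻ t in Ioi (0:ℝ), ENNReal.ofReal (t ^ q) * ∫⁻ x in {x | a * t < g x}, G x ∂μ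
      = ∫⁻ x, G x * ENNReal.ofReal ((g x / a) ^ (q + 1) / (q + 1)) ∂μ := by
  have hm : Measurable (fun z : ℝ × α => ENNReal.ofReal (z.1 ^ q) *
      ({z : ℝ × α | a * z.1 < g z.2}.indicator (fun z => G z.2) z)) := by
    apply Measurable.mul
    · exact ENNReal.measurable_ofReal.comp ((measurable_fst).pow_const q)
    · apply Measurable.indicator (hG.comp measurable_snd)
      exact measurableSet_lt (measurable_const.mul measurable_fst) (hg.comp measurable_snd)
  have e1 : ∀ t : ℝ, ENNReal.ofReal (t ^ q) * ∫⁻ x in {x | a * t < g x}, G x ∂μ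
      = ∫⁻ x, ENNReal.ofReal (t ^ q) *
        ({z : ℝ × α | a * z.1 < g z.2}.indicator (fun z => G z.2) (t, x)) ∂μ := by
    intro t
    rw [lintegral_const_mul]
    · congr 1
      rw [← lintegral_indicator (measurableSet_lt measurable_const hg)]
      rfl
    · exact (Measurable.indicator hG (measurableSet_lt (measurable_const (a := a * t)) hg) :)
  simp_rw [e1]
  rw [lintegral_lintegral_swap (f := fun t x => ENNReal.ofReal (t ^ q) *
        ({z : ℝ × α | a * z.1 < g z.2}.indicator (fun z => G z.2) (t, x))) hm.aemeasurable]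
  refine lintegral_congr fun x => ?_
  have e2 : ∀ t : ℝ, t ∈ Ioi (0:ℝ) → ENNReal.ofReal (t ^ q) *
      ({z : ℝ × α | a * z.1 < g z.2}.indicator (fun z => G z.2) (t, x))
      = (Ioo 0 (g x / a)).indicator (fun t => G x * ENNReal.ofReal (t ^ q)) t := by
    intro t ht
    by_cases h : a * t < g x
    · have h1 : t ∈ Ioo 0 (g x / a) := ⟨ht, by rw [lt_div_iff₀ ha]; linarith⟩
      rw [indicator_of_mem h1, indicator_of_mem (by exact h), mul_comm]
    · have h1 : t ∉ Ioo 0 (g x / a) := by
        intro h2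
        apply h
        have := h2.2
        rw [lt_div_iff₀ ha] at this
        linarith
      rw [indicator_of_notMem h1, indicator_of_notMem (by exact h), mul_zero]
  rw [setLIntegral_congr_fun measurableSet_Ioi e2, lintegral_indicator measurableSet_Ioo,
    Measure.restrict_restrict measurableSet_Ioo]
  have e3 : Ioo (0:ℝ) (g x / a) ∩ Ioi 0 = Ioo 0 (g x / a) := by
    apply inter_eq_left.mpr
    intro t ht
    exact ht.1
  rw [e3, lintegral_const_mul _ (by
    exact ENNReal.measurable_ofReal.comp (measurable_id.pow_const q)),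
    lint_Ioo_rpow hq (div_nonneg (hg0 x) ha.le)]

/-- Tonelli, lower truncation. -/
theorem tonelli_le {g : α → ℝ} (hg : Measurable g) (hg0 : ∀ x, 0 ≤ g x) {G : α → ℝ≥0∞}
    (hG : Measurable G) (hG0 : ∀ x, g x = 0 → G x = 0) {q : ℝ} (hq : q < -1) :
    ∫⁻ t in Ioi (0:ℝ), ENNReal.ofReal (t ^ q) * ∫⁻ x in {x | g x ≤ t}, G x ∂μ
      = ∫⁻ x, G x * ENNReal.ofReal ((g x) ^ (q + 1) / (-(q + 1))) ∂μ := by
  have hm : Measurable (fun z : ℝ × α => ENNReal.ofReal (z.1 ^ q) *
      ({z : ℝ × α | g z.2 ≤ z.1}.indicator (fun z => G z.2) z)) := by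
    apply Measurable.mul
    · exact ENNReal.measurable_ofReal.comp ((measurable_fst).pow_const q)
    · apply Measurable.indicator (hG.comp measurable_snd)
      exact measurableSet_le (hg.comp measurable_snd) measurable_fst
  have e1 : ∀ t : ℝ, ENNReal.ofReal (t ^ q) * ∫⁻ x in {x | g x ≤ t}, G x ∂μ
      = ∫⁻ x, ENNReal.ofReal (t ^ q) *
        ({z : ℝ × α | g z.2 ≤ z.1}.indicator (fun z => G z.2) (t, x)) ∂μ := by
    intro t
    rw [lintegral_const_mul]
    · congr 1
      rw [← lintegral_indicator (measurableSet_le hg measurable_const)]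
      rfl
    · exact (Measurable.indicator hG (measurableSet_le hg (measurable_const (a := t))) :)
  simp_rw [e1]
  rw [lintegral_lintegral_swap (f := fun t x => ENNReal.ofReal (t ^ q) *
        ({z : ℝ × α | g z.2 ≤ z.1}.indicator (fun z => G z.2) (t, x))) hm.aemeasurable]
  refine lintegral_congr fun x => ?_
  rcases eq_or_lt_of_le (hg0 x) with h0 | h0
  · have : G x = 0 := hG0 x h0.symm
    rw [this, zero_mul]
    rw [lintegral_congr (g := fun _ => 0)]
    · simp
    · intro t
      by_cases h : g x ≤ t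
      · rw [indicator_of_mem (by exact h), this, mul_zero]
      · rw [indicator_of_notMem (by exact h), mul_zero]
  have e2 : ∀ t : ℝ, t ∈ Ioi (0:ℝ) → ENNReal.ofReal (t ^ q) *
      ({z : ℝ × α | g z.2 ≤ z.1}.indicator (fun z => G z.2) (t, x))
      = (Ici (g x)).indicator (fun t => G x * ENNReal.ofReal (t ^ q)) t := by
    intro t ht
    by_cases h : g x ≤ t
    · rw [indicator_of_mem (by exact h), indicator_of_mem (by exact h), mul_comm]
    · rw [indicator_of_notMem (by exact h), indicator_of_notMem (by exact h), mul_zero]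
  rw [setLIntegral_congr_fun measurableSet_Ioi e2, lintegral_indicator measurableSet_Ici,
    Measure.restrict_restrict measurableSet_Ici]
  have e3 : Ici (g x) ∩ Ioi 0 = Ici (g x) := by
    apply inter_eq_left.mpr
    intro t ht
    exact h0.trans_le ht
  rw [e3, lintegral_const_mul _ (by
    exact ENNReal.measurable_ofReal.comp (measurable_id.pow_const q)),
    setLIntegral_congr Ioi_ae_eq_Ici.symm, lint_Ioi_rpow hq h0]

end Crest.Agent.R138.Sh200
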