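import Crest.Agent.R138.Sh1_200

/-!
R138, outer shell (2): Marcinkiewicz interpolation from a restricted `L³` bound and a trivial
`L^∞` bound, for `p > 3`.
-/

set_option autoImplicit false

namespace Crest.Agent.R138.Sh200

open MeasureTheory Set
open scoped ENNReal NNReal

variable {α : Type*} [MeasurableSpace α]

/-- bounded measurable functions. -/
structure BM (f : α → ℂ) : Prop where
  meas : Measurable f
  bdd : ∃ C : ℝ, ∀ x, ‖f x‖ ≤ C

theorem BM.add {f g : α → ℂ} (hf : BM f) (hg : BM g) : BM (f + g) := by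
  obtain ⟨C, hC⟩ := hf.bdd
  obtain ⟨D, hD⟩ := hg.bdd
  exact ⟨hf.meas.add hg.meas, C + D, fun x => (norm_add_le _ _).trans (add_le_add (hC x) (hD x))⟩

theorem BM.smul {f : α → ℂ} (hf : BM f) (c : ℂ) : BM (c • f) := by
  obtain ⟨C, hC⟩ := hf.bdd
  refine ⟨hf.meas.const_smul c, ‖c‖ * C, fun x => ?_⟩
  rw [Pi.smul_apply, norm_smul]
  exact mul_le_mul_of_nonneg_left (hC x) (norm_nonneg _)

theorem BM.zero : BM (0 : α → ℂ) := ⟨measurable_const, 0, fun x => by simp⟩

theorem BM.indicator {f : α → ℂ} (hf : BM f) {s : Set α} (hs : MeasurableSet s) :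
    BM (s.indicator f) := by
  obtain ⟨C, hC⟩ := hf.bdd
  refine ⟨hf.meas.indicator hs, C, fun x => ?_⟩
  by_cases h : x ∈ s
  · rw [indicator_of_mem h]; exact hC x
  · rw [indicator_of_notMem h, norm_zero]; exact (norm_nonneg _).trans (hC x)

theorem BM.sum {ι : Type*} {f : ι → α → ℂ} (s : Finset ι) (hf : ∀ i ∈ s, BM (f i)) :
    BM (∑ i ∈ s, f i) := by
  classical
  induction s using Finset.induction_on with
  | empty => simpa using BM.zero
  | insert a s ha ih =>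
    rw [Finset.sum_insert ha]
    exact (hf a (Finset.mem_insert_self a s)).add
      (ih fun i hi => hf i (Finset.mem_insert_of_mem hi))

/-- a linear operator on bounded measurable functions with a sup bound and a restricted
`L³` bound. -/
structure Op (μ : Measure α) (T : (α → ℂ) → (α → ℂ)) (A B : ℝ) : Prop where
  add : ∀ f g, BM f → BM g → ∀ x, T (f + g) x = T f x + T g x
  smul : ∀ (c : ℂ) f, BM f → ∀ x, T (c • f) x = c * T f x
  meas : ∀ f, BM f → Measurable (T f)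
  sup : ∀ f (C : ℝ), Measurable f → (∀ x, ‖f x‖ ≤ C) → ∀ x, ‖T f x‖ ≤ A * C
  res : ∀ Ω, MeasurableSet Ω → μ Ω ≠ ∞ → ∀ f, Measurable f →
    (∀ x, ‖f x‖ ≤ Ω.indicator (fun _ => (1:ℝ)) x) →
    ∫⁻ x, ENNReal.ofReal (‖T f x‖ ^ (3:ℝ)) ∂μ ≤ ENNReal.ofReal B * μ Ω

namespace Op

variable {μ : Measure α} {T : (α → ℂ) → (α → ℂ)} {A B : ℝ}

theorem map_zero (hT : Op μ T A B) (x : α) : T 0 x = 0 := by
  have := hT.smul 0 0 BM.zero x
  simpa using this

theorem map_sum (hT : Op μ T A B) {ι : Type*} {f : ι → α → ℂ} (s : Finset ι)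
    (hf : ∀ i ∈ s, BM (f i)) (x : α) : T (∑ i ∈ s, f i) x = ∑ i ∈ s, T (f i) x := by
  classical
  induction s using Finset.induction_on with
  | empty => simpa using hT.map_zero x
  | insert a s ha ih =>
    rw [Finset.sum_insert ha, Finset.sum_insert ha,
      hT.add _ _ (hf a (Finset.mem_insert_self a s))
        (BM.sum s fun i hi => hf i (Finset.mem_insert_of_mem hi)),
      ih fun i hi => hf i (Finset.mem_insert_of_mem hi)]

/-- the restricted bound, scaled. -/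
theorem res_scale (hT : Op μ T A B) {Ω : Set α} (hΩ : MeasurableSet Ω) (hf0 : μ Ω ≠ ∞)
    {f : α → ℂ} (hf : Measurable f) {c : ℝ} (hc : 0 < c)
    (h : ∀ x, ‖f x‖ ≤ Ω.indicator (fun _ => c) x) :
    ∫⁻ x, ENNReal.ofReal (‖T f x‖ ^ (3:ℝ)) ∂μ
      ≤ ENNReal.ofReal (B * c ^ (3:ℝ)) * μ Ω := by
  have hbm : BM f := by
    refine ⟨hf, c, fun x => (h x).trans ?_⟩
    by_cases hx : x ∈ Ω
    · rw [indicator_of_mem hx]
    · rw [indicator_of_notMem hx]; exact hc.le
  have hcc : (c:ℂ) ≠ 0 := by exact_mod_cast hc.ne'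
  set g : α → ℂ := (c:ℂ)⁻¹ • f with hg
  have hgm : BM g := hbm.smul _
  have hfg : f = (c:ℂ) • g := by
    rw [hg, smul_smul, mul_inv_cancel₀ hcc, one_smul]
  have h1 : ∀ x, ‖g x‖ ≤ Ω.indicator (fun _ => (1:ℝ)) x := by
    intro x
    rw [hg, Pi.smul_apply, norm_smul, norm_inv, Complex.norm_real, Real.norm_of_nonneg hc.le]
    have h2 := h x
    by_cases hx : x ∈ Ω
    · rw [indicator_of_mem hx] at h2 ⊢
      rw [inv_mul_le_iff₀ hc, mul_one]; exact h2
    · rw [indicator_of_notMem hx] at h2 ⊢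
      have : ‖f x‖ = 0 := le_antisymm h2 (norm_nonneg _)
      rw [this, mul_zero]
  have h2 := hT.res Ω hΩ hf0 g hgm.meas h1
  have h3 : ∀ x, ENNReal.ofReal (‖T f x‖ ^ (3:ℝ))
      = ENNReal.ofReal (c ^ (3:ℝ)) * ENNReal.ofReal (‖T g x‖ ^ (3:ℝ)) := by
    intro x
    rw [hfg, hT.smul _ _ hgm, norm_mul, Complex.norm_real, Real.norm_of_nonneg hc.le,
      Real.mul_rpow hc.le (norm_nonneg _), ENNReal.ofReal_mul (by positivity)]
  simp_rw [h3]
  rw [lintegral_const_mul _ ((hT.meas g hgm).norm.pow_const _).ennreal_ofReal]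
  calc ENNReal.ofReal (c ^ (3:ℝ)) * ∫⁻ x, ENNReal.ofReal (‖T g x‖ ^ (3:ℝ)) ∂μ
      ≤ ENNReal.ofReal (c ^ (3:ℝ)) * (ENNReal.ofReal B * μ Ω) := by gcongr
    _ = ENNReal.ofReal (B * c ^ (3:ℝ)) * μ Ω := by
        rw [← mul_assoc, ← ENNReal.ofReal_mul (by positivity), mul_comm B]

end Op

/-- weighted power mean, exponent 3. -/
theorem pow3_sum_le {N : ℕ} (a : ℕ → ℝ) (ha : ∀ i, 0 ≤ a i) {η : ℝ} (hη : 0 < η) :
    (∑ i ∈ Finset.range N, a i) ^ (3:ℝ)
      ≤ (1 - 2 ^ (-η))⁻¹ ^ (2:ℝ) * ∑ i ∈ Finset.range N, (2:ℝ) ^ (2 * η * i) * (a i) ^ (3:ℝ) := by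
  rcases Nat.eq_zero_or_pos N with hN | hN
  · subst hN; simp
  set u : ℕ → ℝ := fun i => (2:ℝ) ^ (-(η * i)) with hu
  have hu0 : ∀ i, 0 < u i := fun i => by positivity
  set W := ∑ i ∈ Finset.range N, u i with hW
  have hW0 : 0 < W := Finset.sum_pos (fun i _ => hu0 i) (Finset.nonempty_range_iff.mpr hN.ne')
  have hr1 : (2:ℝ) ^ (-η) < 1 := Real.rpow_lt_one_of_one_lt_of_neg (by norm_num) (by linarith)
  have hr0 : 0 < (2:ℝ) ^ (-η) := by positivity
  have hWle : W ≤ (1 - 2 ^ (-η))⁻¹ := by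
    have h1 : ∀ i, u i = ((2:ℝ) ^ (-η)) ^ i := by
      intro i
      show (2:ℝ) ^ (-(η * i)) = ((2:ℝ) ^ (-η)) ^ i
      rw [← Real.rpow_natCast, ← Real.rpow_mul (by norm_num)]
      congr 1; ring
    rw [hW]
    simp_rw [h1]
    rw [geom_sum_eq hr1.ne]
    rw [← neg_sub, ← neg_sub (1:ℝ), neg_div_neg_eq, div_eq_mul_inv]
    have : (1 - ((2:ℝ) ^ (-η)) ^ N) ≤ 1 := by
      have := pow_pos hr0 N
      linarith
    have h2 : 0 < (1 - (2:ℝ) ^ (-η))⁻¹ := inv_pos.mpr (by linarith)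
    nlinarith
  have key := Real.rpow_arith_mean_le_arith_mean_rpow (Finset.range N) (fun i => u i / W)
    (fun i => a i / u i) (fun i _ => (div_pos (hu0 i) hW0).le)
    (by rw [← Finset.sum_div, ← hW, div_self hW0.ne'])
    (fun i _ => div_nonneg (ha i) (hu0 i).le) (p := (3:ℝ)) (by norm_num)
  have e1 : ∑ i ∈ Finset.range N, u i / W * (a i / u i) = (∑ i ∈ Finset.range N, a i) / W := by
    rw [Finset.sum_div]
    refine Finset.sum_congr rfl fun i _ => ?_
    have := hu0 i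
    field_simp
  have e2 : ∀ i, u i / W * (a i / u i) ^ (3:ℝ) = W⁻¹ * ((2:ℝ) ^ (2 * η * i) * (a i) ^ (3:ℝ)) := by
    intro i
    rw [Real.div_rpow (ha i) (hu0 i).le]
    have h3 : (u i) ^ (3:ℝ) = (u i) ^ 3 := by
      exact_mod_cast Real.rpow_natCast (u i) 3
    have h4 : (2:ℝ) ^ (2 * η * i) = ((u i) ^ 2)⁻¹ := by
      show (2:ℝ) ^ (2 * η * i) = (((2:ℝ) ^ (-(η * i))) ^ 2)⁻¹
      rw [← Real.rpow_natCast ((2:ℝ) ^ (-(η * i))), ← Real.rpow_mul (by norm_num),
        ← Real.rpow_neg (by norm_num)]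
      congr 1; push_cast; ring
    rw [h3, h4]
    have := hu0 i
    field_simp
  rw [e1] at key
  have key2 : ((∑ i ∈ Finset.range N, a i) / W) ^ (3:ℝ)
      ≤ W⁻¹ * ∑ i ∈ Finset.range N, ((2:ℝ) ^ (2 * η * i) * (a i) ^ (3:ℝ)) := by
    rw [Finset.mul_sum]
    refine key.trans (le_of_eq (Finset.sum_congr rfl fun i _ => e2 i))
  rw [Real.div_rpow (Finset.sum_nonneg fun i _ => ha i) hW0.le] at key2
  have h3 : W ^ (3:ℝ) = W ^ 3 := by exact_mod_cast Real.rpow_natCast W 3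
  rw [h3, div_le_iff₀ (by positivity)] at key2
  refine key2.trans ?_
  have hS : 0 ≤ ∑ i ∈ Finset.range N, ((2:ℝ) ^ (2 * η * i) * (a i) ^ (3:ℝ)) :=
    Finset.sum_nonneg fun i _ => mul_nonneg (by positivity) (Real.rpow_nonneg (ha i) _)
  have e3 : W⁻¹ * (∑ i ∈ Finset.range N, ((2:ℝ) ^ (2 * η * i) * (a i) ^ (3:ℝ))) * W ^ 3
      = W ^ 2 * ∑ i ∈ Finset.range N, ((2:ℝ) ^ (2 * η * i) * (a i) ^ (3:ℝ)) := by
    field_simp
  rw [e3]
  refine mul_le_mul_of_nonneg_right ?_ hS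
  have h5 : (1 - (2:ℝ) ^ (-η))⁻¹ ^ (2:ℝ) = (1 - (2:ℝ) ^ (-η))⁻¹ ^ 2 := by
    exact_mod_cast Real.rpow_natCast _ 2
  rw [h5]
  gcongr

/-- the constant of the power-mean inequality. -/
noncomputable def cη (η : ℝ) : ℝ := 8 * (1 - 2 ^ (-η))⁻¹ ^ (2:ℝ)

namespace Op

variable {μ : Measure α} {T : (α → ℂ) → (α → ℂ)} {A B : ℝ}

/-- strong `L³` bound of the image of the large part. -/
theorem large (hT : Op μ T A B) (hB : 0 ≤ B) {f : α → ℂ} (hf : BM f) {s : ℝ} (hs : 0 < s)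
    (hfin : μ {x | s < ‖f x‖} ≠ ∞) {η : ℝ} (hη : 0 < η) :
    ∫⁻ x, ENNReal.ofReal (‖T ({x | s < ‖f x‖}.indicator f) x‖ ^ (3:ℝ)) ∂μ
      ≤ ENNReal.ofReal (cη η * B * s ^ (-(2 * η)))
        * ∫⁻ x in {x | s < ‖f x‖}, ENNReal.ofReal (‖f x‖ ^ (3 + 2 * η)) ∂μ := by
  obtain ⟨C, hC⟩ := hf.bdd
  obtain ⟨N, hN⟩ := pow_unbounded_of_one_lt (C / s) (one_lt_two (α := ℝ))
  have hN' : C < 2 ^ N * s := by rwa [div_lt_iff₀ hs] at hN
  set Ω : ℕ → Set α := fun i => {x | 2 ^ i * s < ‖f x‖ ∧ ‖f x‖ ≤ 2 ^ (i + 1) * s} with hΩ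
  have hΩm : ∀ i, MeasurableSet (Ω i) := fun i =>
    (measurableSet_lt measurable_const hf.meas.norm).inter
      (measurableSet_le hf.meas.norm measurable_const)
  have hΩd : Pairwise (Function.onFun Disjoint Ω) := by
    intro i j hij
    rw [Function.onFun, Set.disjoint_left]
    rintro x ⟨h1, h2⟩ ⟨h3, h4⟩
    rcases lt_or_gt_of_ne hij with h | h
    · have : (2:ℝ) ^ (i + 1) * s ≤ 2 ^ j * s := by
        gcongr
        · norm_num
        · exact h
      linarith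
    · have : (2:ℝ) ^ (j + 1) * s ≤ 2 ^ i * s := by
        gcongr
        · norm_num
        · exact h
      linarith
  have hsub : ∀ i, Ω i ⊆ {x | s < ‖f x‖} := by
    rintro i x ⟨h1, _⟩
    have : (1:ℝ) ≤ 2 ^ i := one_le_pow₀ (by norm_num)
    show s < ‖f x‖
    nlinarith
  have hdec : {x | s < ‖f x‖}.indicator f = ∑ i ∈ Finset.range N, (Ω i).indicator f := by
    funext x
    rw [Finset.sum_apply]
    by_cases hx : s < ‖f x‖
    · rw [indicator_of_mem (by exact hx)]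
      -- find the level
      have hex : ∃ n : ℕ, ‖f x‖ ≤ 2 ^ (n + 1) * s := by
        refine ⟨N, (hC x).trans (hN'.le.trans ?_)⟩
        gcongr
        · norm_num
        · exact Nat.le_succ N
      classical
      set n := Nat.find hex with hn
      have h1 : ‖f x‖ ≤ 2 ^ (n + 1) * s := Nat.find_spec hex
      have h2 : 2 ^ n * s < ‖f x‖ := by
        rcases Nat.eq_zero_or_pos n with h0 | h0
        · rw [h0]; simpa using hx
        · have := Nat.find_min hex (m := n - 1) (by omega)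
          rw [not_le, Nat.sub_add_cancel h0] at this
          exact this
      have h3 : n < N := by
        by_contra hcon
        push Not at hcon
        have : (2:ℝ) ^ N * s ≤ 2 ^ n * s := by
          gcongr
          norm_num
        have := hC x
        linarith
      rw [Finset.sum_eq_single n]
      · rw [indicator_of_mem (show x ∈ Ω n from ⟨h2, h1⟩)]
      · intro j _ hj
        apply indicator_of_notMem
        intro hxj
        exact (Set.disjoint_left.mp (hΩd hj) hxj) ⟨h2, h1⟩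
      · intro h
        exact absurd (Finset.mem_range.mpr h3) h
    · rw [indicator_of_notMem (by exact hx)]
      symm
      apply Finset.sum_eq_zero
      intro i _
      apply indicator_of_notMem
      intro hxi
      exact hx (hsub i hxi)
  have hbm : ∀ i, BM ((Ω i).indicator f) := fun i => hf.indicator (hΩm i)
  have hTsum : ∀ x, ‖T ({x | s < ‖f x‖}.indicator f) x‖
      ≤ ∑ i ∈ Finset.range N, ‖T ((Ω i).indicator f) x‖ := by
    intro x
    rw [hdec, hT.map_sum _ (fun i _ => hbm i)]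
    exact norm_sum_le _ _
  have hW : 0 ≤ (1 - (2:ℝ) ^ (-η))⁻¹ ^ (2:ℝ) := by
    have hr1 : (2:ℝ) ^ (-η) < 1 := Real.rpow_lt_one_of_one_lt_of_neg (by norm_num) (by linarith)
    have : 0 < (1 - (2:ℝ) ^ (-η))⁻¹ := inv_pos.mpr (by linarith)
    positivity
  set W2 : ℝ := (1 - (2:ℝ) ^ (-η))⁻¹ ^ (2:ℝ) with hW2
  have hptw : ∀ x, ENNReal.ofReal (‖T ({x | s < ‖f x‖}.indicator f) x‖ ^ (3:ℝ))
      ≤ ∑ i ∈ Finset.range N, ENNReal.ofReal (W2 * (2:ℝ) ^ (2 * η * i))
          * ENNReal.ofReal (‖T ((Ω i).indicator f) x‖ ^ (3:ℝ)) := by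
    intro x
    have h1 := pow3_sum_le (N := N) (fun i => ‖T ((Ω i).indicator f) x‖)
      (fun i => norm_nonneg _) hη
    rw [← hW2] at h1
    have h2 : ‖T ({x | s < ‖f x‖}.indicator f) x‖ ^ (3:ℝ)
        ≤ (∑ i ∈ Finset.range N, ‖T ((Ω i).indicator f) x‖) ^ (3:ℝ) := by
      gcongr
      exact hTsum x
    refine (ENNReal.ofReal_le_ofReal (h2.trans h1)).trans ?_
    rw [Finset.mul_sum, ENNReal.ofReal_sum_of_nonneg]
    · refine Finset.sum_le_sum fun i _ => le_of_eq ?_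
      rw [← ENNReal.ofReal_mul (by positivity)]
      congr 1; ring
    · intro i _
      positivity
  have hTm : ∀ i, Measurable fun x => ENNReal.ofReal (‖T ((Ω i).indicator f) x‖ ^ (3:ℝ)) :=
    fun i => ENNReal.measurable_ofReal.comp ((hT.meas _ (hbm i)).norm.pow_const _)
  calc ∫⁻ x, ENNReal.ofReal (‖T ({x | s < ‖f x‖}.indicator f) x‖ ^ (3:ℝ)) ∂μ
      ≤ ∫⁻ x, ∑ i ∈ Finset.range N, ENNReal.ofReal (W2 * (2:ℝ) ^ (2 * η * i))
          * ENNReal.ofReal (‖T ((Ω i).indicator f) x‖ ^ (3:ℝ)) ∂μ := lintegral_mono hptw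
    _ = ∑ i ∈ Finset.range N, ENNReal.ofReal (W2 * (2:ℝ) ^ (2 * η * i))
          * ∫⁻ x, ENNReal.ofReal (‖T ((Ω i).indicator f) x‖ ^ (3:ℝ)) ∂μ := by
        rw [lintegral_finsetSum]
        · refine Finset.sum_congr rfl fun i _ => ?_
          rw [lintegral_const_mul _ (hTm i)]
        · intro i _
          exact (hTm i).const_mul _
    _ ≤ ∑ i ∈ Finset.range N, ENNReal.ofReal (cη η * B * s ^ (-(2 * η)))
          * ∫⁻ x in Ω i, ENNReal.ofReal (‖f x‖ ^ (3 + 2 * η)) ∂μ := by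
        refine Finset.sum_le_sum fun i _ => ?_
        have hc : 0 < (2:ℝ) ^ (i + 1) * s := by positivity
        have hfin' : μ (Ω i) ≠ ∞ := ne_top_of_le_ne_top hfin (measure_mono (hsub i))
        have h1 := hT.res_scale (hΩm i) hfin' (hbm i).meas hc (by
          intro x
          by_cases hx : x ∈ Ω i
          · rw [indicator_of_mem hx, indicator_of_mem hx]; exact hx.2
          · rw [indicator_of_notMem hx, indicator_of_notMem hx, norm_zero])
        refine (mul_le_mul_right h1 _).trans ?_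
        rw [← mul_assoc, ← ENNReal.ofReal_mul (by positivity)]
        -- compare the measure with the integral
        have h2 : ENNReal.ofReal ((2 ^ i * s) ^ (3 + 2 * η)) * μ (Ω i)
            ≤ ∫⁻ x in Ω i, ENNReal.ofReal (‖f x‖ ^ (3 + 2 * η)) ∂μ := by
          rw [← setLIntegral_const]
          refine setLIntegral_mono' (hΩm i) fun x hx => ENNReal.ofReal_le_ofReal ?_
          exact Real.rpow_le_rpow (by positivity) hx.1.le (by linarith)
        refine le_trans (le_of_eq ?_) (mul_le_mul_right h2 _)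
        rw [← mul_assoc (ENNReal.ofReal (cη η * B * s ^ (-(2 * η)))), ← ENNReal.ofReal_mul (by
          unfold cη; positivity)]
        congr 2
        have e1 : (2 ^ i * s : ℝ) ^ (3 + 2 * η)
            = (2:ℝ) ^ (2 * η * i) * (2 ^ i) ^ 3 * s ^ 3 * s ^ (2 * η) := by
          rw [Real.mul_rpow (by positivity) hs.le, Real.rpow_add (by positivity),
            Real.rpow_add hs]
          have e2 : ((2:ℝ) ^ i) ^ (3:ℝ) = ((2:ℝ) ^ i) ^ 3 := by
            rw [← Real.rpow_natCast]; norm_num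
          have e3 : s ^ (3:ℝ) = s ^ 3 := by rw [← Real.rpow_natCast]; norm_num
          have e4 : ((2:ℝ) ^ i) ^ (2 * η) = (2:ℝ) ^ (2 * η * i) := by
            rw [← Real.rpow_natCast, ← Real.rpow_mul (by norm_num)]
            congr 1; ring
          rw [e2, e3, e4]; ring
        have e5 : ((2:ℝ) ^ (i + 1) * s) ^ (3:ℝ) = 8 * (2 ^ i) ^ 3 * s ^ 3 := by
          have : ((2:ℝ) ^ (i + 1) * s) ^ (3:ℝ) = ((2:ℝ) ^ (i + 1) * s) ^ 3 := by
            rw [← Real.rpow_natCast]; norm_num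
          rw [this, pow_succ]; ring
        have e6 : s ^ (-(2 * η)) * s ^ (2 * η) = 1 := by
          rw [← Real.rpow_add hs]; simp
        rw [e1, e5]
        unfold cη
        rw [← hW2]
        calc W2 * 2 ^ (2 * η * ↑i) * (B * (8 * (2 ^ i) ^ 3 * s ^ 3))
            = (8 * W2) * B * (s ^ (-(2 * η)) * s ^ (2 * η))
                * ((2:ℝ) ^ (2 * η * i) * (2 ^ i) ^ 3 * s ^ 3) := by rw [e6]; ring
          _ = _ := by ring
    _ = ENNReal.ofReal (cη η * B * s ^ (-(2 * η)))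
          * ∫⁻ x in ⋃ i ∈ Finset.range N, Ω i, ENNReal.ofReal (‖f x‖ ^ (3 + 2 * η)) ∂μ := by
        rw [lintegral_biUnion_finset (fun i _ j _ hij => hΩd hij) (fun i _ => hΩm i),
          Finset.mul_sum]
    _ ≤ _ := by
        gcongr
        exact Set.iUnion₂_subset fun i _ => hsub i

/-- Marcinkiewicz, `p > 3`. -/
theorem marc_gt [SFinite μ] (hT : Op μ T A B) (hA : 0 < A) (hB : 0 ≤ B) {p : ℝ} (hp : 3 < p)
    {f : α → ℂ} (hf : BM f) (hfp : ∫⁻ x, ENNReal.ofReal (‖f x‖ ^ p) ∂μ ≠ ∞) :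
    ∫⁻ x, ENNReal.ofReal (‖T f x‖ ^ p) ∂μ
      ≤ ENNReal.ofReal ((8 * p * cη ((p - 3) / 4) * 2 ^ (p - 3) / ((p - 3) / 2)) * B * A ^ (p - 3))
        * ∫⁻ x, ENNReal.ofReal (‖f x‖ ^ p) ∂μ := by
  have hp0 : 0 < p := by linarith
  set η := (p - 3) / 4 with hη
  have hη0 : 0 < η := by rw [hη]; linarith
  have hcη : 0 ≤ cη η := by
    unfold cη
    have hr1 : (2:ℝ) ^ (-η) < 1 := Real.rpow_lt_one_of_one_lt_of_neg (by norm_num) (by linarith)
    have : 0 < (1 - (2:ℝ) ^ (-η))⁻¹ := inv_pos.mpr (by linarith)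
    positivity
  have hfin : ∀ s : ℝ, 0 < s → μ {x | s < ‖f x‖} ≠ ∞ := by
    intro s hs
    have h1 : ENNReal.ofReal (s ^ p) * μ {x | ENNReal.ofReal (s ^ p) ≤ ENNReal.ofReal (‖f x‖ ^ p)}
        ≤ ∫⁻ x, ENNReal.ofReal (‖f x‖ ^ p) ∂μ :=
      mul_meas_ge_le_lintegral (ENNReal.measurable_ofReal.comp (hf.meas.norm.pow_const p)) _
    have h2 : {x | s < ‖f x‖} ⊆ {x | ENNReal.ofReal (s ^ p) ≤ ENNReal.ofReal (‖f x‖ ^ p)} := by
      intro x hx
      exact ENNReal.ofReal_le_ofReal (Real.rpow_le_rpow hs.le (le_of_lt hx) hp0.le)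
    refine ne_top_of_le_ne_top ?_ (measure_mono h2)
    intro htop
    rw [htop] at h1
    have h3 : ENNReal.ofReal (s ^ p) ≠ 0 := by
      rw [Ne, ENNReal.ofReal_eq_zero, not_le]; positivity
    rw [ENNReal.mul_top h3] at h1
    exact hfp (top_le_iff.mp h1)
  -- layer cake
  rw [lintegral_rpow_eq_lintegral_meas_lt_mul μ (Filter.Eventually.of_forall fun x => norm_nonneg _)
    (hT.meas f hf).norm.aemeasurable hp0]
  have hlev : ∀ t ∈ Ioi (0:ℝ), μ {x | t < ‖T f x‖} * ENNReal.ofReal (t ^ (p - 1))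
      ≤ ENNReal.ofReal (8 * cη η * B * (2 * A) ^ (2 * η)) *
        (ENNReal.ofReal (t ^ (p - 4 - 2 * η)) *
          ∫⁻ x in {x | (2 * A)⁻¹ * t < ‖f x‖}, ENNReal.ofReal (‖f x‖ ^ (3 + 2 * η)) ∂μ) := by
    intro t ht
    have ht0 : 0 < t := ht
    set s := (2 * A)⁻¹ * t with hs
    have hs0 : 0 < s := by positivity
    have hsmall : BM ({x | ‖f x‖ ≤ s}.indicator f) :=
      hf.indicator (measurableSet_le hf.meas.norm measurable_const)
    have hlarge : BM ({x | s < ‖f x‖}.indicator f) :=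
      hf.indicator (measurableSet_lt measurable_const hf.meas.norm)
    have hsplit : f = {x | s < ‖f x‖}.indicator f + {x | ‖f x‖ ≤ s}.indicator f := by
      funext x
      rw [Pi.add_apply]
      by_cases hx : s < ‖f x‖
      · rw [indicator_of_mem (by exact hx), indicator_of_notMem (by simpa using hx), add_zero]
      · rw [indicator_of_notMem (by exact hx), indicator_of_mem (by simpa using hx), zero_add]
    have hTs : ∀ x, ‖T ({x | ‖f x‖ ≤ s}.indicator f) x‖ ≤ t / 2 := by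
      intro x
      have := hT.sup _ s hsmall.meas (by
        intro x
        by_cases hx : ‖f x‖ ≤ s
        · rw [indicator_of_mem (by exact hx)]; exact hx
        · rw [indicator_of_notMem (by exact hx), norm_zero]; exact hs0.le) x
      refine this.trans (le_of_eq ?_)
      rw [hs]; field_simp
    have hsub : {x | t < ‖T f x‖} ⊆ {x | ENNReal.ofReal ((t / 2) ^ (3:ℝ))
        ≤ ENNReal.ofReal (‖T ({x | s < ‖f x‖}.indicator f) x‖ ^ (3:ℝ))} := by
      intro x hx
      have h1 : T f x = T ({x | s < ‖f x‖}.indicator f) x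
          + T ({x | ‖f x‖ ≤ s}.indicator f) x := by
        conv_lhs => rw [hsplit]
        exact hT.add _ _ hlarge hsmall x
      have h2 : ‖T f x‖ ≤ ‖T ({x | s < ‖f x‖}.indicator f) x‖ + t / 2 := by
        rw [h1]
        exact (norm_add_le _ _).trans (by linarith [hTs x])
      have h3 : t < ‖T f x‖ := hx
      refine ENNReal.ofReal_le_ofReal (Real.rpow_le_rpow (by positivity) ?_ (by norm_num))
      linarith
    have hmk := mul_meas_ge_le_lintegral (μ := μ) (f := fun x =>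
      ENNReal.ofReal (‖T ({x | s < ‖f x‖}.indicator f) x‖ ^ (3:ℝ)))
      (ENNReal.measurable_ofReal.comp ((hT.meas _ hlarge).norm.pow_const _))
      (ENNReal.ofReal ((t / 2) ^ (3:ℝ)))
    have hlg := hT.large hB hf hs0 (hfin s hs0) hη0
    have h4 : ENNReal.ofReal ((t / 2) ^ (3:ℝ)) * μ {x | t < ‖T f x‖}
        ≤ ENNReal.ofReal (cη η * B * s ^ (-(2 * η)))
        * ∫⁻ x in {x | s < ‖f x‖}, ENNReal.ofReal (‖f x‖ ^ (3 + 2 * η)) ∂μ :=
      (mul_le_mul_right (measure_mono hsub) _).trans (hmk.trans hlg)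
    set I := ∫⁻ x in {x | s < ‖f x‖}, ENNReal.ofReal (‖f x‖ ^ (3 + 2 * η)) ∂μ with hI
    have h5 : ENNReal.ofReal (t ^ (p - 1)) = ENNReal.ofReal (8 * t ^ (p - 4)) *
        ENNReal.ofReal ((t / 2) ^ (3:ℝ)) := by
      rw [← ENNReal.ofReal_mul (by positivity)]
      congr 1
      have e1 : (t / 2) ^ (3:ℝ) = t ^ (3:ℝ) / 8 := by
        rw [Real.div_rpow ht0.le (by norm_num)]
        norm_num
      rw [e1]
      have e2 : t ^ (p - 1) = t ^ (p - 4) * t ^ (3:ℝ) := by
        rw [← Real.rpow_add ht0]; congr 1; ring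
      rw [e2]; ring
    calc μ {x | t < ‖T f x‖} * ENNReal.ofReal (t ^ (p - 1))
        = ENNReal.ofReal (8 * t ^ (p - 4)) *
          (ENNReal.ofReal ((t / 2) ^ (3:ℝ)) * μ {x | t < ‖T f x‖}) := by
          rw [h5]; ring
      _ ≤ ENNReal.ofReal (8 * t ^ (p - 4)) * (ENNReal.ofReal (cη η * B * s ^ (-(2 * η))) * I) := by
          gcongr
      _ = ENNReal.ofReal (8 * cη η * B * (2 * A) ^ (2 * η)) *
            (ENNReal.ofReal (t ^ (p - 4 - 2 * η)) * I) := by
          rw [← mul_assoc, ← mul_assoc, ← ENNReal.ofReal_mul (by positivity),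
            ← ENNReal.ofReal_mul (by positivity)]
          congr 2
          have e3 : s ^ (-(2 * η)) = (2 * A) ^ (2 * η) * t ^ (-(2 * η)) := by
            rw [hs, Real.mul_rpow (by positivity) ht0.le, Real.inv_rpow (by positivity),
              Real.rpow_neg (by positivity), inv_inv]
          have e4 : t ^ (p - 4 - 2 * η) = t ^ (p - 4) * t ^ (-(2 * η)) := by
            rw [← Real.rpow_add ht0]; congr 1
          rw [e3, e4]; ring
  calc ENNReal.ofReal p * ∫⁻ t in Ioi (0:ℝ), μ {x | t < ‖T f x‖} * ENNReal.ofReal (t ^ (p - 1))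
      ≤ ENNReal.ofReal p * ∫⁻ t in Ioi (0:ℝ), ENNReal.ofReal (8 * cη η * B * (2 * A) ^ (2 * η)) *
        (ENNReal.ofReal (t ^ (p - 4 - 2 * η)) *
          ∫⁻ x in {x | (2 * A)⁻¹ * t < ‖f x‖}, ENNReal.ofReal (‖f x‖ ^ (3 + 2 * η)) ∂μ) := by
        gcongr ENNReal.ofReal p * ?_
        exact setLIntegral_mono' measurableSet_Ioi hlev
    _ = ENNReal.ofReal p * (ENNReal.ofReal (8 * cη η * B * (2 * A) ^ (2 * η)) *
          ∫⁻ x, ENNReal.ofReal (‖f x‖ ^ (3 + 2 * η)) *
            ENNReal.ofReal ((‖f x‖ / (2 * A)⁻¹) ^ (p - 4 - 2 * η + 1) / (p - 4 - 2 * η + 1)) ∂μ) := by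
        rw [lintegral_const_mul', tonelli_gt (g := fun x => ‖f x‖) hf.meas.norm
          (fun x => norm_nonneg _) (hf.meas.norm.pow_const _).ennreal_ofReal
          (by rw [hη]; linarith) (by positivity)]
        exact ENNReal.ofReal_ne_top
    _ = _ := by
        have hq : p - 4 - 2 * η + 1 = (p - 3) / 2 := by rw [hη]; ring
        rw [hq]
        have hpt : ∀ x, ENNReal.ofReal (‖f x‖ ^ (3 + 2 * η)) *
            ENNReal.ofReal ((‖f x‖ / (2 * A)⁻¹) ^ ((p - 3) / 2) / ((p - 3) / 2))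
            = ENNReal.ofReal ((2 * A) ^ ((p - 3) / 2) / ((p - 3) / 2)) *
              ENNReal.ofReal (‖f x‖ ^ p) := by
          intro x
          have hq0 : 0 < (p - 3) / 2 := by linarith
          rw [← ENNReal.ofReal_mul (by positivity), ← ENNReal.ofReal_mul (by positivity)]
          congr 1
          rw [div_inv_eq_mul, Real.mul_rpow (norm_nonneg _) (by positivity)]
          have e1 : ‖f x‖ ^ p = ‖f x‖ ^ (3 + 2 * η) * ‖f x‖ ^ ((p - 3) / 2) := by
            rcases eq_or_lt_of_le (norm_nonneg (f x)) with h0 | h0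
            · rw [← h0, Real.zero_rpow hp0.ne', Real.zero_rpow (by positivity), zero_mul]
            · rw [← Real.rpow_add h0]; congr 1; rw [hη]; ring
          rw [e1]; ring
        simp_rw [hpt]
        rw [lintegral_const_mul' _ _ ENNReal.ofReal_ne_top, ← mul_assoc, ← mul_assoc,
          ← ENNReal.ofReal_mul (by positivity), ← ENNReal.ofReal_mul (by positivity)]
        congr 2
        have e2 : (2 * A) ^ (2 * η) * (2 * A) ^ ((p - 3) / 2) = 2 ^ (p - 3) * A ^ (p - 3) := by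
          rw [← Real.rpow_add (by positivity), ← Real.mul_rpow (by norm_num) hA.le]
          congr 1; rw [hη]; ring
        calc p * (8 * cη η * B * (2 * A) ^ (2 * η)) * ((2 * A) ^ ((p - 3) / 2) / ((p - 3) / 2))
            = 8 * p * cη η * B * ((2 * A) ^ (2 * η) * (2 * A) ^ ((p - 3) / 2)) / ((p - 3) / 2) := by
              ring
          _ = _ := by rw [e2]; ring

end Op

end Crest.Agent.R138.Sh200
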