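import Crest.Agent.R138.Sh2_200

/-!
R138, outer shell (3): Marcinkiewicz interpolation between two strong bounds `L^a`, `L^b`.
-/

set_option autoImplicit false

namespace Crest.Agent.R138.Sh200

open MeasureTheory Set
open scoped ENNReal NNReal

variable {α : Type*} [MeasurableSpace α]

/-- linear on bounded measurable functions. -/
structure LinOp (T : (α → ℂ) → (α → ℂ)) : Prop where
  add : ∀ f g, BM f → BM g → ∀ x, T (f + g) x = T f x + T g x
  meas : ∀ f, BM f → Measurable (T f)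

/-- strong type bound, `∫ |T f|^p ≤ A ∫ |f|^p` for all bounded measurable `f`. -/
def Strong (μ : Measure α) (T : (α → ℂ) → (α → ℂ)) (p A : ℝ) : Prop :=
  ∀ f, BM f → ∫⁻ x, ENNReal.ofReal (‖T f x‖ ^ p) ∂μ
    ≤ ENNReal.ofReal A * ∫⁻ x, ENNReal.ofReal (‖f x‖ ^ p) ∂μ

theorem Strong.mono {μ : Measure α} {T : (α → ℂ) → (α → ℂ)} {p A A' : ℝ} (h : Strong μ T p A)
    (hA : A ≤ A') : Strong μ T p A' := fun f hf =>
  (h f hf).trans (by gcongr)

theorem Op.strong_gt {μ : Measure α} [SFinite μ] {T : (α → ℂ) → (α → ℂ)} {A B : ℝ}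
    (hT : Op μ T A B) (hA : 0 < A) (hB : 0 < B) {p : ℝ} (hp : 3 < p) :
    Strong μ T p
      ((8 * p * cη ((p - 3) / 4) * 2 ^ (p - 3) / ((p - 3) / 2)) * B * A ^ (p - 3)) := by
  intro f hf
  by_cases hfp : ∫⁻ x, ENNReal.ofReal (‖f x‖ ^ p) ∂μ = ∞
  · rw [hfp, ENNReal.mul_top]
    · exact le_top
    · rw [Ne, ENNReal.ofReal_eq_zero, not_le]
      have hcη : 0 < cη ((p - 3) / 4) := by
        unfold cη
        have hr1 : (2:ℝ) ^ (-((p - 3) / 4)) < 1 :=
          Real.rpow_lt_one_of_one_lt_of_neg (by norm_num) (by linarith)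
        have : 0 < (1 - (2:ℝ) ^ (-((p - 3) / 4)))⁻¹ := inv_pos.mpr (by linarith)
        positivity
      have h1 : 0 < (p - 3) / 2 := by linarith
      have h2 : 0 < p := by linarith
      positivity
  · exact hT.marc_gt hA hB.le hp hf hfp

/-- Chebyshev. -/
theorem cheb {μ : Measure α} {g : α → ℝ} (hg : Measurable g) (hg0 : ∀ x, 0 ≤ g x) {a t : ℝ}
    (ha : 0 < a) (ht : 0 < t) :
    μ {x | t < g x} ≤ ENNReal.ofReal (t ^ (-a)) * ∫⁻ x, ENNReal.ofReal (g x ^ a) ∂μ := by
  have h1 := mul_meas_ge_le_lintegral (μ := μ) (f := fun x => ENNReal.ofReal (g x ^ a))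
    (hg.pow_const a).ennreal_ofReal (ENNReal.ofReal (t ^ a))
  have h2 : {x | t < g x} ⊆ {x | ENNReal.ofReal (t ^ a) ≤ ENNReal.ofReal (g x ^ a)} := by
    intro x hx
    exact ENNReal.ofReal_le_ofReal (Real.rpow_le_rpow ht.le (le_of_lt hx) ha.le)
  have h3 := (mul_le_mul_right (measure_mono (μ := μ) h2) (ENNReal.ofReal (t ^ a))).trans h1
  calc μ {x | t < g x} = ENNReal.ofReal (t ^ (-a)) * (ENNReal.ofReal (t ^ a) * μ {x | t < g x}) := by
        rw [← mul_assoc, ← ENNReal.ofReal_mul (by positivity), ← Real.rpow_add ht]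
        simp
    _ ≤ _ := by gcongr

/-- Marcinkiewicz between `a < p < b`. -/
theorem marc_mid {μ : Measure α} [SFinite μ] {T : (α → ℂ) → (α → ℂ)} (hT : LinOp T)
    {a b A B p : ℝ} (ha : 0 < a) (hap : a < p) (hpb : p < b) (hA : 0 ≤ A) (hB : 0 ≤ B)
    (h1 : Strong μ T a A) (h2 : Strong μ T b B) :
    Strong μ T p (p * (2 ^ a * A / (p - a) + 2 ^ b * B / (b - p))) := by
  intro f hf
  have hp0 : 0 < p := by linarith
  have hb0 : 0 < b := by linarith
  have hpa : 0 < p - a := by linarith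
  have hbp : 0 < b - p := by linarith
  rw [lintegral_rpow_eq_lintegral_meas_lt_mul μ (Filter.Eventually.of_forall fun x => norm_nonneg _)
    (hT.meas f hf).norm.aemeasurable hp0]
  have hlev : ∀ t ∈ Ioi (0:ℝ), μ {x | t < ‖T f x‖} * ENNReal.ofReal (t ^ (p - 1))
      ≤ ENNReal.ofReal (2 ^ a * A) * (ENNReal.ofReal (t ^ (p - 1 - a)) *
          ∫⁻ x in {x | 1 * t < ‖f x‖}, ENNReal.ofReal (‖f x‖ ^ a) ∂μ)
        + ENNReal.ofReal (2 ^ b * B) * (ENNReal.ofReal (t ^ (p - 1 - b)) *
          ∫⁻ x in {x | ‖f x‖ ≤ t}, ENNReal.ofReal (‖f x‖ ^ b) ∂μ) := by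
    intro t ht
    have ht0 : 0 < t := ht
    simp only [one_mul]
    have hsmall : BM ({x | ‖f x‖ ≤ t}.indicator f) :=
      hf.indicator (measurableSet_le hf.meas.norm measurable_const)
    have hlarge : BM ({x | t < ‖f x‖}.indicator f) :=
      hf.indicator (measurableSet_lt measurable_const hf.meas.norm)
    have hsplit : f = {x | t < ‖f x‖}.indicator f + {x | ‖f x‖ ≤ t}.indicator f := by
      funext x
      rw [Pi.add_apply]
      by_cases hx : t < ‖f x‖
      · rw [indicator_of_mem (by exact hx), indicator_of_notMem (by simpa using hx), add_zero]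
      · rw [indicator_of_notMem (by exact hx), indicator_of_mem (by simpa using hx), zero_add]
    have hsub : {x | t < ‖T f x‖} ⊆ {x | t / 2 < ‖T ({x | t < ‖f x‖}.indicator f) x‖} ∪
        {x | t / 2 < ‖T ({x | ‖f x‖ ≤ t}.indicator f) x‖} := by
      intro x hx
      have h3 : T f x = T ({x | t < ‖f x‖}.indicator f) x
          + T ({x | ‖f x‖ ≤ t}.indicator f) x := by
        conv_lhs => rw [hsplit]
        exact hT.add _ _ hlarge hsmall x
      by_contra hcon
      rw [mem_union, not_or] at hcon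
      have h4 : ‖T ({x | t < ‖f x‖}.indicator f) x‖ ≤ t / 2 := not_lt.mp hcon.1
      have h5 : ‖T ({x | ‖f x‖ ≤ t}.indicator f) x‖ ≤ t / 2 := not_lt.mp hcon.2
      have h6 : t < ‖T f x‖ := hx
      rw [h3] at h6
      have := norm_add_le (T ({x | t < ‖f x‖}.indicator f) x) (T ({x | ‖f x‖ ≤ t}.indicator f) x)
      linarith
    have hmu := (measure_mono (μ := μ) hsub).trans (measure_union_le _ _)
    have hL := cheb (μ := μ) (hT.meas _ hlarge).norm (fun x => norm_nonneg _) ha (half_pos ht0)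
    have hS := cheb (μ := μ) (hT.meas _ hsmall).norm (fun x => norm_nonneg _) hb0 (half_pos ht0)
    have hL2 := h1 _ hlarge
    have hS2 := h2 _ hsmall
    have eL : ∫⁻ x, ENNReal.ofReal (‖({x | t < ‖f x‖}.indicator f) x‖ ^ a) ∂μ
        = ∫⁻ x in {x | t < ‖f x‖}, ENNReal.ofReal (‖f x‖ ^ a) ∂μ := by
      rw [← lintegral_indicator (measurableSet_lt measurable_const hf.meas.norm)]
      refine lintegral_congr fun x => ?_
      by_cases hx : t < ‖f x‖
      · rw [indicator_of_mem (by exact hx), indicator_of_mem (by exact hx)]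
      · rw [indicator_of_notMem (by exact hx), indicator_of_notMem (by exact hx), norm_zero,
          Real.zero_rpow ha.ne', ENNReal.ofReal_zero]
    have eS : ∫⁻ x, ENNReal.ofReal (‖({x | ‖f x‖ ≤ t}.indicator f) x‖ ^ b) ∂μ
        = ∫⁻ x in {x | ‖f x‖ ≤ t}, ENNReal.ofReal (‖f x‖ ^ b) ∂μ := by
      rw [← lintegral_indicator (measurableSet_le hf.meas.norm measurable_const)]
      refine lintegral_congr fun x => ?_
      by_cases hx : ‖f x‖ ≤ t
      · rw [indicator_of_mem (by exact hx), indicator_of_mem (by exact hx)]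
      · rw [indicator_of_notMem (by exact hx), indicator_of_notMem (by exact hx), norm_zero,
          Real.zero_rpow hb0.ne', ENNReal.ofReal_zero]
    rw [eL] at hL2
    rw [eS] at hS2
    set IL := ∫⁻ x in {x | t < ‖f x‖}, ENNReal.ofReal (‖f x‖ ^ a) ∂μ
    set IS := ∫⁻ x in {x | ‖f x‖ ≤ t}, ENNReal.ofReal (‖f x‖ ^ b) ∂μ
    have hpw : ∀ c : ℝ, (t / 2) ^ (-c) * t ^ (p - 1) = 2 ^ c * t ^ (p - 1 - c) := by
      intro c
      rw [Real.div_rpow ht0.le (by norm_num), Real.rpow_neg (by norm_num : (0:ℝ) ≤ 2)]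
      have : t ^ (p - 1 - c) = t ^ (p - 1) * t ^ (-c) := by
        rw [← Real.rpow_add ht0]; congr 1
      rw [this]
      have h2c : (0:ℝ) < 2 ^ c := by positivity
      field_simp
    calc μ {x | t < ‖T f x‖} * ENNReal.ofReal (t ^ (p - 1))
        ≤ (ENNReal.ofReal ((t / 2) ^ (-a)) * (ENNReal.ofReal A * IL)
            + ENNReal.ofReal ((t / 2) ^ (-b)) * (ENNReal.ofReal B * IS))
            * ENNReal.ofReal (t ^ (p - 1)) := by
          gcongr
          refine hmu.trans (add_le_add ?_ ?_)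
          · exact hL.trans (by gcongr)
          · exact hS.trans (by gcongr)
      _ = ENNReal.ofReal (2 ^ a * A) * (ENNReal.ofReal (t ^ (p - 1 - a)) * IL)
          + ENNReal.ofReal (2 ^ b * B) * (ENNReal.ofReal (t ^ (p - 1 - b)) * IS) := by
          rw [add_mul]
          congr 1
          · calc ENNReal.ofReal ((t / 2) ^ (-a)) * (ENNReal.ofReal A * IL)
                  * ENNReal.ofReal (t ^ (p - 1))
                = (ENNReal.ofReal ((t / 2) ^ (-a)) * ENNReal.ofReal (t ^ (p - 1)))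
                  * ENNReal.ofReal A * IL := by ring
              _ = (ENNReal.ofReal (2 ^ a) * ENNReal.ofReal (t ^ (p - 1 - a)))
                  * ENNReal.ofReal A * IL := by
                  rw [← ENNReal.ofReal_mul (by positivity), hpw a,
                    ENNReal.ofReal_mul (by positivity)]
              _ = _ := by
                  rw [ENNReal.ofReal_mul (by positivity)]; ring
          · calc ENNReal.ofReal ((t / 2) ^ (-b)) * (ENNReal.ofReal B * IS)
                  * ENNReal.ofReal (t ^ (p - 1))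
                = (ENNReal.ofReal ((t / 2) ^ (-b)) * ENNReal.ofReal (t ^ (p - 1)))
                  * ENNReal.ofReal B * IS := by ring
              _ = (ENNReal.ofReal (2 ^ b) * ENNReal.ofReal (t ^ (p - 1 - b)))
                  * ENNReal.ofReal B * IS := by
                  rw [← ENNReal.ofReal_mul (by positivity), hpw b,
                    ENNReal.ofReal_mul (by positivity)]
              _ = _ := by
                  rw [ENNReal.ofReal_mul (by positivity)]; ring
  have hma : Measurable fun t : ℝ => ENNReal.ofReal (t ^ (p - 1 - a)) *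
      ∫⁻ x in {x | 1 * t < ‖f x‖}, ENNReal.ofReal (‖f x‖ ^ a) ∂μ := by
    apply Measurable.mul
    · exact ENNReal.measurable_ofReal.comp (measurable_id.pow_const _)
    · apply Antitone.measurable
      intro s t hst
      apply lintegral_mono_set
      intro x hx
      have : 1 * t < ‖f x‖ := hx
      show 1 * s < ‖f x‖
      linarith
  have hn2 : ∫⁻ t in Ioi (0:ℝ), ENNReal.ofReal (2 ^ a * A) * (ENNReal.ofReal (t ^ (p - 1 - a)) *
          ∫⁻ x in {x | 1 * t < ‖f x‖}, ENNReal.ofReal (‖f x‖ ^ a) ∂μ)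
      = ENNReal.ofReal (2 ^ a * A / (p - a)) * ∫⁻ x, ENNReal.ofReal (‖f x‖ ^ p) ∂μ := by
    rw [lintegral_const_mul' _ _ ENNReal.ofReal_ne_top, tonelli_gt (g := fun x => ‖f x‖)
      hf.meas.norm (fun x => norm_nonneg _) (hf.meas.norm.pow_const _).ennreal_ofReal
      (by linarith) one_pos, ← lintegral_const_mul' _ _ ENNReal.ofReal_ne_top,
      ← lintegral_const_mul' _ _ ENNReal.ofReal_ne_top]
    refine lintegral_congr fun x => ?_
    have hq : p - 1 - a + 1 = p - a := by ring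
    rw [hq, div_one, ← ENNReal.ofReal_mul (by positivity), ← ENNReal.ofReal_mul (by positivity),
      ← ENNReal.ofReal_mul (by positivity)]
    congr 1
    have e1 : ‖f x‖ ^ p = ‖f x‖ ^ a * ‖f x‖ ^ (p - a) := by
      rcases eq_or_lt_of_le (norm_nonneg (f x)) with h0 | h0
      · rw [← h0, Real.zero_rpow hp0.ne', Real.zero_rpow ha.ne', zero_mul]
      · rw [← Real.rpow_add h0]; congr 1; ring
    rw [e1]; ring
  have hn3 : ∫⁻ t in Ioi (0:ℝ), ENNReal.ofReal (2 ^ b * B) * (ENNReal.ofReal (t ^ (p - 1 - b)) *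
          ∫⁻ x in {x | ‖f x‖ ≤ t}, ENNReal.ofReal (‖f x‖ ^ b) ∂μ)
      = ENNReal.ofReal (2 ^ b * B / (b - p)) * ∫⁻ x, ENNReal.ofReal (‖f x‖ ^ p) ∂μ := by
    rw [lintegral_const_mul' _ _ ENNReal.ofReal_ne_top, tonelli_le (g := fun x => ‖f x‖)
      hf.meas.norm (fun x => norm_nonneg _) (hf.meas.norm.pow_const _).ennreal_ofReal
      (by intro x hx; rw [hx, Real.zero_rpow hb0.ne', ENNReal.ofReal_zero])
      (by linarith), ← lintegral_const_mul' _ _ ENNReal.ofReal_ne_top,
      ← lintegral_const_mul' _ _ ENNReal.ofReal_ne_top]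
    refine lintegral_congr fun x => ?_
    have hq : p - 1 - b + 1 = -(b - p) := by ring
    rw [hq, neg_neg, ← ENNReal.ofReal_mul (by positivity), ← ENNReal.ofReal_mul (by positivity),
      ← ENNReal.ofReal_mul (by positivity)]
    congr 1
    have e1 : ‖f x‖ ^ p = ‖f x‖ ^ b * ‖f x‖ ^ (-(b - p)) := by
      rcases eq_or_lt_of_le (norm_nonneg (f x)) with h0 | h0
      · rw [← h0, Real.zero_rpow hp0.ne', Real.zero_rpow hb0.ne', zero_mul]
      · rw [← Real.rpow_add h0]; congr 1; ring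
    rw [e1]; ring
  calc ENNReal.ofReal p * ∫⁻ t in Ioi (0:ℝ), μ {x | t < ‖T f x‖} * ENNReal.ofReal (t ^ (p - 1))
      ≤ ENNReal.ofReal p * ∫⁻ t in Ioi (0:ℝ),
          (ENNReal.ofReal (2 ^ a * A) * (ENNReal.ofReal (t ^ (p - 1 - a)) *
          ∫⁻ x in {x | 1 * t < ‖f x‖}, ENNReal.ofReal (‖f x‖ ^ a) ∂μ)
        + ENNReal.ofReal (2 ^ b * B) * (ENNReal.ofReal (t ^ (p - 1 - b)) *
          ∫⁻ x in {x | ‖f x‖ ≤ t}, ENNReal.ofReal (‖f x‖ ^ b) ∂μ)) := by
        gcongr ENNReal.ofReal p * ?_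
        exact setLIntegral_mono' measurableSet_Ioi hlev
    _ = ENNReal.ofReal p * (ENNReal.ofReal (2 ^ a * A / (p - a)) *
          ∫⁻ x, ENNReal.ofReal (‖f x‖ ^ p) ∂μ
        + ENNReal.ofReal (2 ^ b * B / (b - p)) * ∫⁻ x, ENNReal.ofReal (‖f x‖ ^ p) ∂μ) := by
        rw [lintegral_add_left (hma.const_mul _), hn2, hn3]
    _ = _ := by
        rw [← add_mul, ← ENNReal.ofReal_add (by positivity) (by positivity), ← mul_assoc,
          ← ENNReal.ofReal_mul hp0.le]

end Crest.Agent.R138.Sh200
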