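import Crest.Agent.R138.ShDefs_200

/-!
R138, outer shell (5): the multiplier `mR` as a Schwartz function, its second derivatives, and the
weighted kernel identity.
-/

set_option autoImplicit false

open MeasureTheory FourierTransform LineDeriv
open scoped ContDiff Real SchwartzMap

namespace Crest.Agent.R138.Sh200

theorem contDiff_mR {φ : ℝ → ℝ} (hφ : ContDiff ℝ ∞ φ) (R : ℝ) : ContDiff ℝ ∞ (mR φ R) := by
  have h1 : ContDiff ℝ ∞ fun ξ : V => φ (R * (1 - ‖ξ‖ ^ 2)) :=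
    hφ.comp (contDiff_const.mul (contDiff_const.sub (contDiff_norm_sq ℝ)))
  exact Complex.ofRealCLM.contDiff.comp h1

/-- a bound for the support of `φ`. -/
theorem exists_supp {φ : ℝ → ℝ} (hφ : HasCompactSupport φ) :
    ∃ M : ℝ, 0 < M ∧ ∀ t, M < |t| → φ t = 0 := by
  obtain ⟨M, hM⟩ := hφ.isCompact.isBounded.subset_closedBall 0
  refine ⟨max M 1, by positivity, fun t ht => ?_⟩
  by_contra h
  have h1 : t ∈ tsupport φ := subset_tsupport _ h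
  have h2 := hM h1
  rw [mem_closedBall_zero_iff, Real.norm_eq_abs] at h2
  exact absurd (h2.trans (le_max_left _ _)) (not_le.mpr ht)

theorem mR_eq_zero {φ : ℝ → ℝ} {M : ℝ} (hM : ∀ t, M < |t| → φ t = 0) {R : ℝ} {ξ : V}
    (h : M < |R * (1 - ‖ξ‖ ^ 2)|) : mR φ R ξ = 0 := by
  unfold mR
  rw [hM _ h, Complex.ofReal_zero]

theorem norm_sq_le_of_mem {M R : ℝ} (hM : 0 < M) (hR : 1 ≤ R) {ξ : V}
    (h : |R * (1 - ‖ξ‖ ^ 2)| ≤ M) : ‖ξ‖ ^ 2 ≤ 1 + M := by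
  have h1 := (abs_le.mp h).1
  by_contra hcon
  push Not at hcon
  have : M < R * (‖ξ‖ ^ 2 - 1) := by nlinarith
  linarith

theorem hasCompactSupport_mR {φ : ℝ → ℝ} (hφ : HasCompactSupport φ) {R : ℝ} (hR : 1 ≤ R) :
    HasCompactSupport (mR φ R) := by
  obtain ⟨M, hM0, hM⟩ := exists_supp hφ
  apply HasCompactSupport.of_support_subset_isCompact
    (isCompact_closedBall (0 : V) (Real.sqrt (1 + M)))
  intro ξ hξ
  rw [mem_closedBall_zero_iff]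
  apply Real.le_sqrt_of_sq_le
  apply norm_sq_le_of_mem hM0 hR
  by_contra hcon
  exact hξ (mR_eq_zero hM (not_le.mp hcon))

/-- `mR` as a Schwartz function. -/
noncomputable def mS {φ : ℝ → ℝ} (hφ : ContDiff ℝ ∞ φ) (hφ' : HasCompactSupport φ) {R : ℝ}
    (hR : 1 ≤ R) : 𝓢(V, ℂ) :=
  (hasCompactSupport_mR hφ' hR).toSchwartzMap (contDiff_mR hφ R)

theorem mS_apply {φ : ℝ → ℝ} (hφ : ContDiff ℝ ∞ φ) (hφ' : HasCompactSupport φ) {R : ℝ}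
    (hR : 1 ≤ R) (ξ : V) : mS hφ hφ' hR ξ = mR φ R ξ := rfl

/-- the kernel as a Schwartz function. -/
noncomputable def kS {φ : ℝ → ℝ} (hφ : ContDiff ℝ ∞ φ) (hφ' : HasCompactSupport φ) {R : ℝ}
    (hR : 1 ≤ R) : 𝓢(V, ℂ) := 𝓕⁻ (mS hφ hφ' hR)

theorem kS_coe {φ : ℝ → ℝ} (hφ : ContDiff ℝ ∞ φ) (hφ' : HasCompactSupport φ) {R : ℝ}
    (hR : 1 ≤ R) : (kS hφ hφ' hR : V → ℂ) = KR φ R := by
  unfold kS KR
  rw [SchwartzMap.fourierInv_coe]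
  rfl

theorem kS_apply {φ : ℝ → ℝ} (hφ : ContDiff ℝ ∞ φ) (hφ' : HasCompactSupport φ) {R : ℝ}
    (hR : 1 ≤ R) (x : V) : kS hφ hφ' hR x = KR φ R x := by
  rw [← kS_coe hφ hφ' hR]

/-- derivative of the phase along a line. -/
theorem hasDerivAt_phase (R : ℝ) (y e : V) (t : ℝ) :
    HasDerivAt (fun t : ℝ => R * (1 - ‖y + t • e‖ ^ 2)) (-2 * R * inner ℝ (y + t • e) e) t := by
  have h1 : HasDerivAt (fun t : ℝ => y + t • e) e t := by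
    simpa using ((hasDerivAt_id t).smul_const e).const_add y
  have h2 := h1.norm_sq
  have h3 := (h2.const_sub 1).const_mul R
  refine h3.congr_deriv ?_
  ring

theorem lineDeriv_mS {φ : ℝ → ℝ} (hφ : ContDiff ℝ ∞ φ) (hφ' : HasCompactSupport φ) {R : ℝ}
    (hR : 1 ≤ R) (e y : V) : (∂_{e} (mS hφ hφ' hR)) y
      = ((deriv φ (R * (1 - ‖y‖ ^ 2)) * (-2 * R * inner ℝ y e) : ℝ) : ℂ) := by
  rw [SchwartzMap.lineDerivOp_apply]
  unfold lineDeriv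
  have h1 := hasDerivAt_phase R y e 0
  have hd : HasDerivAt φ (deriv φ (R * (1 - ‖y + (0:ℝ) • e‖ ^ 2)))
      (R * (1 - ‖y + (0:ℝ) • e‖ ^ 2)) :=
    ((hφ.differentiable (by simp)) _).hasDerivAt
  have h2 := (HasDerivAt.comp (0:ℝ) hd h1).ofReal_comp
  have h3 : (fun t : ℝ => (mS hφ hφ' hR) (y + t • e))
      = fun t : ℝ => (((φ ∘ fun t : ℝ => R * (1 - ‖y + t • e‖ ^ 2)) t : ℝ) : ℂ) := by
    funext t; rfl
  rw [h3, h2.deriv]
  simp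

theorem lineDeriv2_mS {φ : ℝ → ℝ} (hφ : ContDiff ℝ ∞ φ) (hφ' : HasCompactSupport φ) {R : ℝ}
    (hR : 1 ≤ R) (e y : V) : (∂_{e} (∂_{e} (mS hφ hφ' hR))) y
      = ((deriv (deriv φ) (R * (1 - ‖y‖ ^ 2)) * (-2 * R * inner ℝ y e) * (-2 * R * inner ℝ y e)
        + deriv φ (R * (1 - ‖y‖ ^ 2)) * (-2 * R * inner ℝ e e) : ℝ) : ℂ) := by
  rw [SchwartzMap.lineDerivOp_apply]
  unfold lineDeriv
  have h1 := hasDerivAt_phase R y e 0
  have hφ1 : ContDiff ℝ ∞ (deriv φ) := (contDiff_infty_iff_deriv.mp hφ).2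
  have hd : HasDerivAt (deriv φ) (deriv (deriv φ) (R * (1 - ‖y + (0:ℝ) • e‖ ^ 2)))
      (R * (1 - ‖y + (0:ℝ) • e‖ ^ 2)) :=
    ((hφ1.differentiable (by simp)) _).hasDerivAt
  have h2 := HasDerivAt.comp (0:ℝ) hd h1
  have h4 : HasDerivAt (fun t : ℝ => -2 * R * inner ℝ (y + t • e) e) (-2 * R * inner ℝ e e) 0 := by
    have h5 : HasDerivAt (fun t : ℝ => y + t • e) e 0 := by
      simpa using ((hasDerivAt_id (0:ℝ)).smul_const e).const_add y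
    have h6 := (h5.inner ℝ (hasDerivAt_const (0:ℝ) e)).const_mul (-2 * R)
    simpa using h6
  have h7 := (h2.mul h4).ofReal_comp
  have h3 : (fun t : ℝ => (∂_{e} (mS hφ hφ' hR)) (y + t • e))
      = fun t : ℝ => ((((deriv φ ∘ fun t : ℝ => R * (1 - ‖y + t • e‖ ^ 2)) *
          fun t : ℝ => -2 * R * inner ℝ (y + t • e) e) t : ℝ) : ℂ) := by
    funext t
    rw [lineDeriv_mS]
    rfl
  rw [h3, h7.deriv]
  simp

/-- the Schwartz function whose inverse Fourier transform is `(1 + |x|²/R²) K_R`. -/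
noncomputable def wS {φ : ℝ → ℝ} (hφ : ContDiff ℝ ∞ φ) (hφ' : HasCompactSupport φ) {R : ℝ}
    (hR : 1 ≤ R) : 𝓢(V, ℂ) :=
  mS hφ hφ' hR - ((1 / (4 * π ^ 2 * R ^ 2) : ℝ) : ℂ) •
    ∑ i : Fin 3, ∂_{EuclideanSpace.basisFun (Fin 3) ℝ i} (∂_{EuclideanSpace.basisFun (Fin 3) ℝ i}
      (mS hφ hφ' hR))

theorem wS_apply {φ : ℝ → ℝ} (hφ : ContDiff ℝ ∞ φ) (hφ' : HasCompactSupport φ) {R : ℝ}
    (hR : 1 ≤ R) (ξ : V) : wS hφ hφ' hR ξ = ((φ (R * (1 - ‖ξ‖ ^ 2))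
      - 1 / (4 * π ^ 2 * R ^ 2) * (deriv (deriv φ) (R * (1 - ‖ξ‖ ^ 2)) * (4 * R ^ 2 * ‖ξ‖ ^ 2)
        - 6 * R * deriv φ (R * (1 - ‖ξ‖ ^ 2))) : ℝ) : ℂ) := by
  unfold wS
  rw [sub_apply, smul_apply, sum_apply, mS_apply]
  simp_rw [lineDeriv2_mS]
  rw [← Complex.ofReal_sum, smul_eq_mul, ← Complex.ofReal_mul]
  unfold mR
  rw [← Complex.ofReal_sub]
  congr 1
  have h1 : ‖ξ‖ ^ 2 = ∑ i : Fin 3, (inner ℝ ξ (EuclideanSpace.basisFun (Fin 3) ℝ i)) ^ 2 := by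
    rw [OrthonormalBasis.sum_sq_inner_left]
  have h2 : ∀ i : Fin 3, inner ℝ (EuclideanSpace.basisFun (Fin 3) ℝ i)
      (EuclideanSpace.basisFun (Fin 3) ℝ i) = (1:ℝ) := by
    intro i
    rw [real_inner_self_eq_norm_sq]
    simp
  simp_rw [h2]
  rw [Finset.sum_add_distrib]
  have h3 : ∑ i : Fin 3, deriv (deriv φ) (R * (1 - ‖ξ‖ ^ 2)) *
      (-2 * R * inner ℝ ξ (EuclideanSpace.basisFun (Fin 3) ℝ i)) *
      (-2 * R * inner ℝ ξ (EuclideanSpace.basisFun (Fin 3) ℝ i))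
      = deriv (deriv φ) (R * (1 - ‖ξ‖ ^ 2)) * (4 * R ^ 2 * ‖ξ‖ ^ 2) := by
    generalize deriv (deriv φ) (R * (1 - ‖ξ‖ ^ 2)) = D
    rw [h1, Finset.mul_sum, Finset.mul_sum]
    refine Finset.sum_congr rfl fun i _ => ?_
    ring
  rw [h3, Finset.sum_const, Finset.card_univ, Fintype.card_fin]
  simp only [nsmul_eq_mul]
  push_cast
  ring

/-- weighted kernel identity. -/
theorem fourierInv_wS {φ : ℝ → ℝ} (hφ : ContDiff ℝ ∞ φ) (hφ' : HasCompactSupport φ) {R : ℝ}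
    (hR : 1 ≤ R) (x : V) :
    (𝓕⁻ (wS hφ hφ' hR)) x = (((1 + ‖x‖ ^ 2 / R ^ 2) : ℝ) : ℂ) * KR φ R x := by
  have hR0 : R ≠ 0 := by positivity
  have h1 : ∀ e : V, (𝓕⁻ (∂_{e} (∂_{e} (mS hφ hφ' hR)))) x
      = ((-(4 * π ^ 2) * (inner ℝ x e) ^ 2 : ℝ) : ℂ) * KR φ R x := by
    intro e
    have ht : (inner ℝ · e : V → ℝ).HasTemperateGrowth := by fun_prop
    rw [SchwartzMap.fourierInv_lineDerivOp_eq, SchwartzMap.fourierInv_lineDerivOp_eq,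
      smul_apply, SchwartzMap.smulLeftCLM_apply_apply ht, smul_apply,
      SchwartzMap.smulLeftCLM_apply_apply ht]
    have hk : (𝓕⁻ (mS hφ hφ' hR)) x = KR φ R x := kS_apply hφ hφ' hR x
    rw [hk]
    simp only [smul_eq_mul, Complex.real_smul]
    push_cast
    ring_nf
    rw [Complex.I_sq]
    ring
  have h2 : wS hφ hφ' hR = mS hφ hφ' hR + (-((1 / (4 * π ^ 2 * R ^ 2) : ℝ) : ℂ)) •
    ∑ i : Fin 3, ∂_{EuclideanSpace.basisFun (Fin 3) ℝ i} (∂_{EuclideanSpace.basisFun (Fin 3) ℝ i}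
      (mS hφ hφ' hR)) := by
    unfold wS
    rw [neg_smul, sub_eq_add_neg]
  rw [h2, FourierTransform.fourierInv_add, FourierTransform.fourierInv_smul,
    FourierTransform.fourierInv_sum, add_apply, smul_apply, sum_apply]
  simp_rw [h1]
  have hk : (𝓕⁻ (mS hφ hφ' hR)) x = KR φ R x := kS_apply hφ hφ' hR x
  have h3 : ‖x‖ ^ 2 = ∑ i : Fin 3, (inner ℝ x (EuclideanSpace.basisFun (Fin 3) ℝ i)) ^ 2 := by
    rw [OrthonormalBasis.sum_sq_inner_left]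
  rw [hk, ← Finset.sum_mul, ← Complex.ofReal_sum, ← Finset.mul_sum, ← h3, smul_eq_mul,
    ← mul_assoc, ← Complex.ofReal_neg, ← Complex.ofReal_mul]
  have h4 : -(1 / (4 * π ^ 2 * R ^ 2)) * (-(4 * π ^ 2) * ‖x‖ ^ 2) = ‖x‖ ^ 2 / R ^ 2 := by
    field_simp
  rw [h4]
  push_cast
  ring

end Crest.Agent.R138.Sh200
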