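import Crest.Agent.R138.Sh5_200

/-!
R138, outer shell (6): `‖K_R‖_{L¹} ≤ C R`.
-/

set_option autoImplicit false

open MeasureTheory FourierTransform LineDeriv Set
open scoped ContDiff Real SchwartzMap ENNReal

namespace Crest.Agent.R138.Sh200

/-- elementary: cubes of square roots. -/
theorem cube_sub_le {u v : ℝ} (hu : 0 ≤ u) (hv : 0 < v) (huv : u ≤ v) :
    (Real.sqrt v) ^ 3 - (Real.sqrt u) ^ 3 ≤ 3 * Real.sqrt v * (v - u) := by
  have hb : 0 < Real.sqrt v := Real.sqrt_pos.mpr hv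
  have ha : 0 ≤ Real.sqrt u := Real.sqrt_nonneg u
  have hab : Real.sqrt u ≤ Real.sqrt v := Real.sqrt_le_sqrt huv
  have e1 : (Real.sqrt v) ^ 2 = v := Real.sq_sqrt hv.le
  have e2 : (Real.sqrt u) ^ 2 = u := Real.sq_sqrt hu
  set a := Real.sqrt u
  set b := Real.sqrt v
  have h1 : b ^ 3 - a ^ 3 = (b - a) * (a ^ 2 + a * b + b ^ 2) := by ring
  have h2 : v - u = (b - a) * (b + a) := by rw [← e1, ← e2]; ring
  rw [h1, h2]
  have h3 : a ^ 2 + a * b + b ^ 2 ≤ 3 * b * (b + a) := by nlinarith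
  have h4 : 0 ≤ b - a := by linarith
  nlinarith

theorem volume_shell {M : ℝ} (hM : 0 < M) {R : ℝ} (hR : 1 ≤ R) :
    volume {ξ : V | |R * (1 - ‖ξ‖ ^ 2)| ≤ M}
      ≤ ENNReal.ofReal (8 * π * Real.sqrt (1 + M) * M / R) := by
  have hR0 : 0 < R := by linarith
  set v := 1 + M / R with hv
  set u := max (1 - M / R) 0 with hu
  have hMR : 0 < M / R := by positivity
  have hu0 : 0 ≤ u := le_max_right _ _
  have hv0 : 0 < v := by positivity
  have huv : u ≤ v := max_le (by linarith) hv0.le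
  have hvM : v ≤ 1 + M := by
    have : M / R ≤ M := div_le_self hM.le hR
    linarith
  have hvu : v - u ≤ 2 * (M / R) := by
    have : 1 - M / R ≤ u := le_max_left _ _
    linarith
  have hsub : {ξ : V | |R * (1 - ‖ξ‖ ^ 2)| ≤ M}
      ⊆ Metric.closedBall 0 (Real.sqrt v) \ Metric.ball 0 (Real.sqrt u) := by
    intro ξ hξ
    have h1 := abs_le.mp (show |R * (1 - ‖ξ‖ ^ 2)| ≤ M from hξ)
    refine ⟨?_, ?_⟩
    · rw [mem_closedBall_zero_iff]
      apply Real.le_sqrt_of_sq_le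
      rw [hv]
      have : ‖ξ‖ ^ 2 - 1 ≤ M / R := by
        rw [le_div_iff₀ hR0]; linarith [h1.1]
      linarith
    · rw [mem_ball_zero_iff, not_lt]
      rw [Real.sqrt_le_left (norm_nonneg _)]
      rw [hu]
      apply max_le _ (by positivity)
      have : 1 - ‖ξ‖ ^ 2 ≤ M / R := by
        rw [le_div_iff₀ hR0]; linarith [h1.2]
      linarith
  refine (measure_mono hsub).trans ?_
  have hsub2 : Metric.ball (0:V) (Real.sqrt u) ⊆ Metric.closedBall (0:V) (Real.sqrt v) :=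
    (Metric.ball_subset_ball (Real.sqrt_le_sqrt huv)).trans Metric.ball_subset_closedBall
  rw [measure_sdiff hsub2 measurableSet_ball.nullMeasurableSet measure_ball_lt_top.ne,
    EuclideanSpace.volume_closedBall_fin_three, EuclideanSpace.volume_ball_fin_three]
  rw [← ENNReal.ofReal_pow (Real.sqrt_nonneg _), ← ENNReal.ofReal_pow (Real.sqrt_nonneg _),
    ← ENNReal.ofReal_mul (by positivity), ← ENNReal.ofReal_mul (by positivity),
    ← ENNReal.ofReal_sub _ (by positivity)]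
  apply ENNReal.ofReal_le_ofReal
  have h1 := cube_sub_le hu0 hv0 huv
  have h2 : Real.sqrt v ≤ Real.sqrt (1 + M) := Real.sqrt_le_sqrt hvM
  have h3 : 3 * Real.sqrt v * (v - u) ≤ 3 * Real.sqrt (1 + M) * (2 * (M / R)) := by
    have h4 : 0 ≤ v - u := by linarith
    have h5 : 0 ≤ Real.sqrt (1 + M) := Real.sqrt_nonneg _
    calc 3 * Real.sqrt v * (v - u) ≤ 3 * Real.sqrt (1 + M) * (v - u) := by gcongr
      _ ≤ 3 * Real.sqrt (1 + M) * (2 * (M / R)) := by gcongr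
  calc Real.sqrt v ^ 3 * (π * 4 / 3) - Real.sqrt u ^ 3 * (π * 4 / 3)
      = (Real.sqrt v ^ 3 - Real.sqrt u ^ 3) * (π * 4 / 3) := by ring
    _ ≤ (3 * Real.sqrt (1 + M) * (2 * (M / R))) * (π * 4 / 3) := by
        have hpi := Real.pi_pos
        gcongr
        exact h1.trans h3
    _ = 8 * π * Real.sqrt (1 + M) * M / R := by ring

/-- a compactly supported continuous function is bounded. -/
theorem exists_bd {f : ℝ → ℝ} (hf : Continuous f) (hc : HasCompactSupport f) :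
    ∃ C : ℝ, 0 ≤ C ∧ ∀ t, |f t| ≤ C := by
  obtain ⟨C, hC⟩ := hf.bounded_above_of_compact_support hc
  exact ⟨C, (norm_nonneg _).trans (hC 0), fun t => hC t⟩

/-- uniform bound of `wS`. -/
theorem wS_bound {φ : ℝ → ℝ} (hφ : ContDiff ℝ ∞ φ) (hφ' : HasCompactSupport φ) :
    ∃ M C : ℝ, 0 < M ∧ 0 < C ∧ ∀ (R : ℝ) (hR : 1 ≤ R) (ξ : V),
      ‖wS hφ hφ' hR ξ‖ ≤ {ξ : V | |R * (1 - ‖ξ‖ ^ 2)| ≤ M}.indicator (fun _ => C) ξ := by
  have hφ1 : ContDiff ℝ ∞ (deriv φ) := (contDiff_infty_iff_deriv.mp hφ).2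
  have hφ2 : ContDiff ℝ ∞ (deriv (deriv φ)) := (contDiff_infty_iff_deriv.mp hφ1).2
  have hs1 : HasCompactSupport (deriv φ) := hφ'.deriv
  have hs2 : HasCompactSupport (deriv (deriv φ)) := hs1.deriv
  obtain ⟨M0, hM0, h0⟩ := exists_supp hφ'
  obtain ⟨M1, hM1, h1⟩ := exists_supp hs1
  obtain ⟨M2, hM2, h2⟩ := exists_supp hs2
  obtain ⟨C0, hC0, hb0⟩ := exists_bd hφ.continuous hφ'
  obtain ⟨C1, hC1, hb1⟩ := exists_bd hφ1.continuous hs1
  obtain ⟨C2, hC2, hb2⟩ := exists_bd hφ2.continuous hs2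
  set M := max M0 (max M1 M2) with hM
  have hMpos : 0 < M := lt_of_lt_of_le hM0 (le_max_left _ _)
  refine ⟨M, C0 + C2 * (4 * (1 + M)) + 6 * C1 + 1, hMpos, by positivity, fun R hR ξ => ?_⟩
  have hR0 : 0 < R := by linarith
  rw [wS_apply, Complex.norm_real, Real.norm_eq_abs]
  by_cases hξ : |R * (1 - ‖ξ‖ ^ 2)| ≤ M
  · rw [indicator_of_mem (show ξ ∈ {ξ : V | |R * (1 - ‖ξ‖ ^ 2)| ≤ M} from hξ)]
    have hn := norm_sq_le_of_mem hMpos hR hξ
    have e0 := hb0 (R * (1 - ‖ξ‖ ^ 2))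
    have e1 := hb1 (R * (1 - ‖ξ‖ ^ 2))
    have e2 := hb2 (R * (1 - ‖ξ‖ ^ 2))
    set a := φ (R * (1 - ‖ξ‖ ^ 2))
    set b := deriv φ (R * (1 - ‖ξ‖ ^ 2))
    set c := deriv (deriv φ) (R * (1 - ‖ξ‖ ^ 2))
    have hpi : 1 ≤ 4 * π ^ 2 := by
      have := Real.pi_gt_three
      nlinarith
    have e3 : |1 / (4 * π ^ 2 * R ^ 2) * (c * (4 * R ^ 2 * ‖ξ‖ ^ 2) - 6 * R * b)|
        ≤ C2 * (4 * (1 + M)) + 6 * C1 := by
      rw [abs_mul, abs_of_pos (by positivity)]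
      have e4 : |c * (4 * R ^ 2 * ‖ξ‖ ^ 2) - 6 * R * b|
          ≤ R ^ 2 * (C2 * (4 * (1 + M)) + 6 * C1) := by
        calc |c * (4 * R ^ 2 * ‖ξ‖ ^ 2) - 6 * R * b|
            ≤ |c * (4 * R ^ 2 * ‖ξ‖ ^ 2)| + |6 * R * b| := abs_sub _ _
          _ = |c| * (4 * R ^ 2 * ‖ξ‖ ^ 2) + 6 * R * |b| := by
              rw [abs_mul c, abs_mul (6 * R) b,
                abs_of_nonneg (by positivity : 0 ≤ 4 * R ^ 2 * ‖ξ‖ ^ 2),
                abs_of_nonneg (by positivity : 0 ≤ 6 * R)]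
          _ ≤ C2 * (4 * R ^ 2 * (1 + M)) + 6 * R ^ 2 * C1 := by
              have hRR : R ≤ R ^ 2 := by nlinarith
              gcongr
          _ = R ^ 2 * (C2 * (4 * (1 + M)) + 6 * C1) := by ring
      have e5 : 0 ≤ C2 * (4 * (1 + M)) + 6 * C1 := by positivity
      rw [one_div, inv_mul_le_iff₀ (by positivity)]
      refine e4.trans ?_
      have : R ^ 2 ≤ 4 * π ^ 2 * R ^ 2 := by nlinarith [sq_nonneg R]
      gcongr
    have := abs_sub a (1 / (4 * π ^ 2 * R ^ 2) * (c * (4 * R ^ 2 * ‖ξ‖ ^ 2) - 6 * R * b))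
    linarith
  · rw [indicator_of_notMem (show ξ ∉ {ξ : V | |R * (1 - ‖ξ‖ ^ 2)| ≤ M} from hξ)]
    push Not at hξ
    rw [h0 _ (lt_of_le_of_lt (le_max_left _ _) hξ),
      h1 _ (lt_of_le_of_lt ((le_max_left _ _).trans (le_max_right _ _)) hξ),
      h2 _ (lt_of_le_of_lt ((le_max_right _ _).trans (le_max_right _ _)) hξ)]
    simp

/-- Plancherel in `lintegral` form, inverse transform. -/
theorem lint_sq_fourierInv (f : 𝓢(V, ℂ)) :
    ∫⁻ x, ENNReal.ofReal (‖(𝓕⁻ f) x‖ ^ 2) = ∫⁻ x, ENNReal.ofReal (‖f x‖ ^ 2) := by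
  have hi : ∀ g : 𝓢(V, ℂ), Integrable (fun x => ‖g x‖ ^ 2) := fun g => by
    have := (g.memLp 2).integrable_norm_pow (by norm_num)
    simpa using this
  rw [← ofReal_integral_eq_lintegral_ofReal (hi _) (Filter.Eventually.of_forall fun x => by positivity),
    ← ofReal_integral_eq_lintegral_ofReal (hi _) (Filter.Eventually.of_forall fun x => by positivity)]
  congr 1
  have := SchwartzMap.integral_norm_sq_fourier (𝓕⁻ f)
  rw [FourierTransform.fourier_fourierInv_eq] at this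
  exact this.symm

theorem lint_weight : ∃ c : ℝ, 0 ≤ c ∧ ∀ R : ℝ, 1 ≤ R →
    ∫⁻ x : V, ENNReal.ofReal ((1 + ‖x‖ ^ 2 / R ^ 2)⁻¹) ^ (2:ℝ) = ENNReal.ofReal (R ^ 3 * c) := by
  have hint : Integrable (fun x : V => ((1:ℝ) + ‖x‖ ^ 2) ^ (-(4:ℝ) / 2)) :=
    integrable_rpow_neg_one_add_norm_sq (by simp; norm_num)
  refine ⟨∫ x : V, ((1:ℝ) + ‖x‖ ^ 2) ^ (-(4:ℝ) / 2), integral_nonneg fun x => by positivity,
    fun R hR => ?_⟩
  have hR0 : 0 < R := by linarith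
  have h1 := Measure.integral_comp_inv_smul_of_nonneg (volume : Measure V)
    (fun x : V => ((1:ℝ) + ‖x‖ ^ 2) ^ (-(4:ℝ) / 2)) hR0.le
  have h2 : Integrable (fun x : V => ((1:ℝ) + ‖R⁻¹ • x‖ ^ 2) ^ (-(4:ℝ) / 2)) :=
    hint.comp_smul (inv_ne_zero hR0.ne')
  rw [finrank_euclideanSpace_fin, smul_eq_mul] at h1
  rw [← h1, ofReal_integral_eq_lintegral_ofReal h2
    (Filter.Eventually.of_forall fun x => by positivity)]
  refine lintegral_congr fun x => ?_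
  have h3 : ‖R⁻¹ • x‖ ^ 2 = ‖x‖ ^ 2 / R ^ 2 := by
    rw [norm_smul, norm_inv, Real.norm_of_nonneg hR0.le]; field_simp
  rw [h3, ENNReal.ofReal_rpow_of_nonneg (by positivity) (by norm_num)]
  congr 1
  rw [Real.inv_rpow (by positivity), ← Real.rpow_neg (by positivity)]
  norm_num

/-- `‖K_R‖₁ ≤ C R`. -/
theorem kernel_L1 {φ : ℝ → ℝ} (hφ : ContDiff ℝ ∞ φ) (hφ' : HasCompactSupport φ) :
    ∃ A : ℝ, 0 < A ∧ ∀ R : ℝ, 1 ≤ R → ∫⁻ x, ‖KR φ R x‖ₑ ≤ ENNReal.ofReal (A * R) := by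
  obtain ⟨M, C, hM, hC, hb⟩ := wS_bound hφ hφ'
  obtain ⟨c, hc, hcw⟩ := lint_weight
  refine ⟨Real.sqrt (c * (C ^ 2 * (8 * π * Real.sqrt (1 + M) * M))) + 1, by positivity,
    fun R hR => ?_⟩
  have hR0 : 0 < R := by linarith
  -- L² bound of `wS`
  have h1 : ∫⁻ x, ENNReal.ofReal (‖wS hφ hφ' hR x‖ ^ 2)
      ≤ ENNReal.ofReal (C ^ 2 * (8 * π * Real.sqrt (1 + M) * M / R)) := by
    have hms : MeasurableSet {ξ : V | |R * (1 - ‖ξ‖ ^ 2)| ≤ M} :=
      measurableSet_le (by fun_prop) measurable_const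
    calc ∫⁻ x, ENNReal.ofReal (‖wS hφ hφ' hR x‖ ^ 2)
        ≤ ∫⁻ x, {ξ : V | |R * (1 - ‖ξ‖ ^ 2)| ≤ M}.indicator
            (fun _ => ENNReal.ofReal (C ^ 2)) x := by
          refine lintegral_mono fun x => ?_
          have := hb R hR x
          by_cases hx : x ∈ {ξ : V | |R * (1 - ‖ξ‖ ^ 2)| ≤ M}
          · rw [indicator_of_mem hx] at this ⊢
            exact ENNReal.ofReal_le_ofReal (by gcongr)
          · rw [indicator_of_notMem hx] at this ⊢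
            have h0 : ‖wS hφ hφ' hR x‖ = 0 := le_antisymm this (norm_nonneg _)
            rw [h0]; simp
      _ = ENNReal.ofReal (C ^ 2) * volume {ξ : V | |R * (1 - ‖ξ‖ ^ 2)| ≤ M} := by
          rw [lintegral_indicator hms, setLIntegral_const]
      _ ≤ ENNReal.ofReal (C ^ 2) * ENNReal.ofReal (8 * π * Real.sqrt (1 + M) * M / R) := by
          gcongr
          exact volume_shell hM hR
      _ = _ := by rw [← ENNReal.ofReal_mul (by positivity)]
  have h2 : ∫⁻ x, ENNReal.ofReal ‖(𝓕⁻ (wS hφ hφ' hR)) x‖ ^ (2:ℝ)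
      ≤ ENNReal.ofReal (C ^ 2 * (8 * π * Real.sqrt (1 + M) * M / R)) := by
    refine le_trans (le_of_eq ?_) h1
    rw [← lint_sq_fourierInv]
    refine lintegral_congr fun x => ?_
    rw [ENNReal.ofReal_rpow_of_nonneg (norm_nonneg _) (by norm_num)]
    norm_num
  have h3 := ENNReal.lintegral_mul_le_Lp_mul_Lq (volume : Measure V) Real.HolderConjugate.two_two
    (f := fun x => ENNReal.ofReal ((1 + ‖x‖ ^ 2 / R ^ 2)⁻¹))
    (g := fun x => ENNReal.ofReal ‖(𝓕⁻ (wS hφ hφ' hR)) x‖)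
    (by fun_prop) (by
      have := (𝓕⁻ (wS hφ hφ' hR)).continuous.norm.measurable.ennreal_ofReal
      exact this.aemeasurable)
  simp only [Pi.mul_apply] at h3
  have h4 : ∫⁻ x, ‖KR φ R x‖ₑ = ∫⁻ x : V, ENNReal.ofReal ((1 + ‖x‖ ^ 2 / R ^ 2)⁻¹) *
      ENNReal.ofReal ‖(𝓕⁻ (wS hφ hφ' hR)) x‖ := by
    refine lintegral_congr fun x => ?_
    rw [← ENNReal.ofReal_mul (by positivity), fourierInv_wS, norm_mul,
      Complex.norm_real, Real.norm_of_nonneg (by positivity), ← mul_assoc,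
      inv_mul_cancel₀ (by positivity), one_mul, ofReal_norm]
  rw [h4]
  refine h3.trans ?_
  rw [hcw R hR]
  calc ENNReal.ofReal (R ^ 3 * c) ^ (1 / (2:ℝ)) *
        (∫⁻ x, ENNReal.ofReal ‖(𝓕⁻ (wS hφ hφ' hR)) x‖ ^ (2:ℝ)) ^ (1 / (2:ℝ))
      ≤ ENNReal.ofReal (R ^ 3 * c) ^ (1 / (2:ℝ)) *
        (ENNReal.ofReal (C ^ 2 * (8 * π * Real.sqrt (1 + M) * M / R))) ^ (1 / (2:ℝ)) := by
        gcongr
    _ = ENNReal.ofReal (Real.sqrt (R ^ 3 * c * (C ^ 2 * (8 * π * Real.sqrt (1 + M) * M / R)))) := by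
        rw [← ENNReal.mul_rpow_of_nonneg _ _ (by norm_num), ← ENNReal.ofReal_mul (by positivity),
          ENNReal.ofReal_rpow_of_nonneg (by positivity) (by norm_num)]
        congr 1
        exact (Real.sqrt_eq_rpow _).symm
    _ ≤ _ := by
        apply ENNReal.ofReal_le_ofReal
        have h5 : R ^ 3 * c * (C ^ 2 * (8 * π * Real.sqrt (1 + M) * M / R))
            = R ^ 2 * (c * (C ^ 2 * (8 * π * Real.sqrt (1 + M) * M))) := by
          field_simp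
        rw [h5, Real.sqrt_mul (by positivity), Real.sqrt_sq hR0.le]
        nlinarith [Real.sqrt_nonneg (c * (C ^ 2 * (8 * π * Real.sqrt (1 + M) * M)))]

end Crest.Agent.R138.Sh200
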