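import Crest.Agent.R138.Sh7_200

/-!
R138, outer shell (8): `L²` bound on bounded functions by density, `Op` from `(C3)`, and the
resulting family bound for every `2 ≤ p < ∞`.
-/

set_option autoImplicit false

open MeasureTheory FourierTransform LineDeriv Set Filter
open scoped ContDiff Real SchwartzMap ENNReal Convolution Topology

namespace Crest.Agent.R138.Sh200

open Fr665 (cv)

theorem lint_eq_eLpNorm {p : ℝ} (hp : 0 < p) (g : V → ℂ) :
    ∫⁻ x, ENNReal.ofReal (‖g x‖ ^ p) = (eLpNorm g (ENNReal.ofReal p) volume) ^ p := by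
  rw [eLpNorm_eq_lintegral_rpow_enorm_toReal (by simpa using hp) ENNReal.ofReal_ne_top,
    ENNReal.toReal_ofReal hp.le, ← ENNReal.rpow_mul, one_div_mul_cancel hp.ne', ENNReal.rpow_one]
  refine lintegral_congr fun x => ?_
  rw [← ofReal_norm, ENNReal.ofReal_rpow_of_nonneg (norm_nonneg _) hp.le]

/-- pointwise Cauchy–Schwarz for the convolution. -/
theorem enorm_cv_sub_le {K f g : V → ℂ} (hK : Measurable K) (hf : Measurable f)
    (hg : Measurable g) (hKf : ∀ x, Integrable (fun y => K (x - y) * f y))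
    (hKg : ∀ x, Integrable (fun y => K (x - y) * g y)) (x : V) :
    ‖cv K f x - cv K g x‖ₑ ≤ eLpNorm K 2 volume * eLpNorm (f - g) 2 volume := by
  unfold Fr665.cv
  rw [← integral_sub (hKf x) (hKg x)]
  have h1 : ‖∫ y, (K (x - y) * f y - K (x - y) * g y)‖ₑ
      ≤ ∫⁻ y, ‖K (x - y)‖ₑ * ‖(f - g) y‖ₑ := by
    refine (enorm_integral_le_lintegral_enorm _).trans_eq ?_
    refine lintegral_congr fun y => ?_
    rw [← mul_sub, enorm_mul]
    rfl
  refine h1.trans ?_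
  have h2 := ENNReal.lintegral_mul_le_Lp_mul_Lq (volume : Measure V) Real.HolderConjugate.two_two
    (f := fun y => ‖K (x - y)‖ₑ) (g := fun y => ‖(f - g) y‖ₑ)
    (by fun_prop) (by exact (hf.sub hg).enorm.aemeasurable)
  simp only [Pi.mul_apply] at h2
  refine h2.trans (le_of_eq ?_)
  have h3 : ∀ h : V → ℂ, (∫⁻ y, ‖h y‖ₑ ^ (2:ℝ)) ^ (1 / (2:ℝ)) = eLpNorm h 2 volume := by
    intro h
    rw [eLpNorm_eq_lintegral_rpow_enorm_toReal (by norm_num) (by norm_num)]
    simp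
  rw [h3 (f - g), ← h3 K]
  congr 2
  exact lintegral_sub_left_eq_self (μ := (volume : Measure V)) (fun y => ‖K y‖ₑ ^ (2:ℝ)) x

theorem l2_eLpNorm_schwartz {φ : ℝ → ℝ} (hφ : ContDiff ℝ ∞ φ) (hφ' : HasCompactSupport φ) {C : ℝ}
    (hC : ∀ t, |φ t| ≤ C) {R : ℝ} (hR : 1 ≤ R) (g : 𝓢(V, ℂ)) :
    eLpNorm (cv (KR φ R) g) 2 volume ≤ ENNReal.ofReal C * eLpNorm g 2 volume := by
  have hC0 : 0 ≤ C := (abs_nonneg _).trans (hC 0)
  have h1 := l2_schwartz hφ hφ' hC hR g
  have e : ∀ h : V → ℂ, ∫⁻ x, ENNReal.ofReal (‖h x‖ ^ 2) = (eLpNorm h 2 volume) ^ (2:ℝ) := by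
    intro h
    have := lint_eq_eLpNorm (p := 2) two_pos h
    rw [ENNReal.ofReal_ofNat] at this
    rw [← this]
    refine lintegral_congr fun x => ?_
    norm_num
  rw [e, e, show ENNReal.ofReal (C ^ 2) = (ENNReal.ofReal C) ^ (2:ℝ) by
    rw [ENNReal.ofReal_rpow_of_nonneg hC0 (by norm_num)]; norm_num,
    ← ENNReal.mul_rpow_of_nonneg _ _ (by norm_num)] at h1
  exact (ENNReal.rpow_le_rpow_iff (by norm_num : (0:ℝ) < 2)).mp h1

theorem l2_eLpNorm {φ : ℝ → ℝ} (hφ : ContDiff ℝ ∞ φ) (hφ' : HasCompactSupport φ) {C : ℝ}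
    (hC : ∀ t, |φ t| ≤ C) {R : ℝ} (hR : 1 ≤ R) {f : V → ℂ} (hf : BM f) (hf2 : MemLp f 2 volume) :
    eLpNorm (cv (KR φ R) f) 2 volume ≤ ENNReal.ofReal C * eLpNorm f 2 volume := by
  have hC0 : 0 ≤ C := (abs_nonneg _).trans (hC 0)
  have hKi := integrable_KR hφ hφ' hR
  have hKm : Measurable (KR φ R) := (continuous_KR hφ hφ' hR).measurable
  have hK2 : eLpNorm (KR φ R) 2 volume ≠ ⊤ := by
    rw [← kS_coe hφ hφ' hR]
    exact ((kS hφ hφ' hR).eLpNorm_lt_top 2 volume).ne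
  have hex : ∀ n : ℕ, ∃ G : V → ℂ, BM G ∧ eLpNorm (f - G) 2 volume
      ≤ ENNReal.ofReal (1 / ((n:ℝ) + 1)) ∧
      eLpNorm (cv (KR φ R) G) 2 volume ≤ ENNReal.ofReal C * eLpNorm G 2 volume := by
    intro n
    obtain ⟨g, hg1, hg2, hg3⟩ := MemLp.exist_eLpNorm_sub_le (p := 2) (by norm_num) (by norm_num) hf2
      (ε := 1 / ((n:ℝ) + 1)) (by positivity)
    obtain ⟨B, hB⟩ := hg2.continuous.bounded_above_of_compact_support hg1
    exact ⟨g, ⟨hg2.continuous.measurable, B, hB⟩, hg3,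
      l2_eLpNorm_schwartz hφ hφ' hC hR (hg1.toSchwartzMap hg2)⟩
  choose g hbg hg hg2 using hex
  have hlim0 : Tendsto (fun n : ℕ => ENNReal.ofReal (1 / ((n:ℝ) + 1))) atTop (𝓝 0) := by
    have := ENNReal.tendsto_ofReal tendsto_one_div_add_atTop_nhds_zero_nat
    simpa using this
  have hpt : ∀ x, Tendsto (fun n => cv (KR φ R) (g n) x) atTop (𝓝 (cv (KR φ R) f x)) := by
    intro x
    rw [tendsto_iff_edist_tendsto_0]
    have h1 : Tendsto (fun n : ℕ => eLpNorm (KR φ R) 2 volume * ENNReal.ofReal (1 / ((n:ℝ) + 1)))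
        atTop (𝓝 0) := by
      have := ENNReal.Tendsto.const_mul hlim0 (Or.inr hK2)
      simpa using this
    refine tendsto_of_tendsto_of_tendsto_of_le_of_le tendsto_const_nhds h1 (fun n => bot_le)
      (fun n => ?_)
    rw [edist_comm, edist_eq_enorm_sub]
    refine (enorm_cv_sub_le hKm hf.meas (hbg n).meas (fun x => integrable_cv hKi hf x)
      (fun x => integrable_cv hKi (hbg n) x) x).trans ?_
    gcongr
    exact hg n
  have h1 := Lp.eLpNorm_lim_le_liminf_eLpNorm (μ := (volume : Measure V)) (p := 2)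
    (f := fun n => cv (KR φ R) (g n))
    (fun n => (measurable_cv hKm (hbg n).meas).aestronglyMeasurable) (cv (KR φ R) f)
    (Filter.Eventually.of_forall hpt)
  refine h1.trans ?_
  have h2 : ∀ n, eLpNorm (cv (KR φ R) (g n)) 2 volume
      ≤ ENNReal.ofReal C * (eLpNorm f 2 volume + ENNReal.ofReal (1 / ((n:ℝ) + 1))) := by
    intro n
    refine (hg2 n).trans ?_
    gcongr
    calc eLpNorm (g n) 2 volume = eLpNorm (f - (f - g n)) 2 volume := by
          congr 1; funext x; simp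
      _ ≤ eLpNorm f 2 volume + eLpNorm (f - g n) 2 volume :=
          eLpNorm_sub_le hf.meas.aestronglyMeasurable
            (hf.meas.sub (hbg n).meas).aestronglyMeasurable (by norm_num)
      _ ≤ _ := by gcongr; exact hg n
  have h3 : Tendsto (fun n : ℕ => ENNReal.ofReal C *
      (eLpNorm f 2 volume + ENNReal.ofReal (1 / ((n:ℝ) + 1)))) atTop
      (𝓝 (ENNReal.ofReal C * eLpNorm f 2 volume)) := by
    have h4 := (tendsto_const_nhds (x := eLpNorm f 2 (volume : Measure V))).add hlim0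
    rw [add_zero] at h4
    exact ENNReal.Tendsto.const_mul h4 (Or.inr ENNReal.ofReal_ne_top)
  rw [← h3.liminf_eq]
  exact liminf_le_liminf (Filter.Eventually.of_forall h2)

theorem strong_two {φ : ℝ → ℝ} (hφ : ContDiff ℝ ∞ φ) (hφ' : HasCompactSupport φ) {C : ℝ}
    (hC0 : 0 < C) (hC : ∀ t, |φ t| ≤ C) {R : ℝ} (hR : 1 ≤ R) :
    Strong volume (cv (KR φ R)) 2 (C ^ (2:ℝ)) := by
  intro f hf
  have e : ∀ h : V → ℂ, ∫⁻ x, ENNReal.ofReal (‖h x‖ ^ (2:ℝ)) = (eLpNorm h 2 volume) ^ (2:ℝ) := by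
    intro h
    have := lint_eq_eLpNorm (p := 2) two_pos h
    rwa [ENNReal.ofReal_ofNat] at this
  rw [e, e]
  by_cases htop : eLpNorm f 2 volume = ⊤
  · rw [htop, ENNReal.top_rpow_of_pos (by norm_num), ENNReal.mul_top]
    · exact le_top
    · rw [Ne, ENNReal.ofReal_eq_zero, not_le]; positivity
  · have h1 := l2_eLpNorm hφ hφ' hC hR hf ⟨hf.meas.aestronglyMeasurable, lt_top_iff_ne_top.mpr htop⟩
    rw [← ENNReal.ofReal_rpow_of_nonneg hC0.le (by norm_num),
      ← ENNReal.mul_rpow_of_nonneg _ _ (by norm_num)]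
    exact ENNReal.rpow_le_rpow h1 (by norm_num)

/-- the family bound for `2 ≤ p < ∞`, from `(C3)`. -/
theorem family_of_C3 (h3 : C3) {φ : ℝ → ℝ} (hφ : ContDiff ℝ ∞ φ) (hφ' : HasCompactSupport φ)
    {p : ℝ} (hp : 2 ≤ p) {ε : ℝ} (hε : 0 < ε) :
    ∃ C : ℝ, 0 < C ∧ ∀ R : ℝ, 1 ≤ R →
      Strong volume (cv (KR φ R)) p (C * R ^ (max (p - 3) 0 + ε)) := by
  obtain ⟨C0, hC0, hb0⟩ := exists_bd hφ.continuous hφ'
  obtain ⟨A, hA, hKA⟩ := kernel_L1 hφ hφ'
  refine interp_family (fun R => cv (KR φ R)) (M := (C0 + 1) ^ (2:ℝ)) (A := A) (by positivity) hA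
    (fun R hR => strong_two hφ hφ' (by positivity) (fun t => (hb0 t).trans (by linarith)) hR)
    ?_ hp hε
  intro ε hε
  obtain ⟨B, hB⟩ := h3 φ hφ hφ' ε hε
  refine ⟨max B 1, by positivity, fun R hR => ?_⟩
  have hR0 : 0 < R := by linarith
  have hKi := integrable_KR hφ hφ' hR
  have hKm : Measurable (KR φ R) := (continuous_KR hφ hφ' hR).measurable
  refine ⟨fun f g hf hg x => cv_add hKi hf hg x, fun c f _ x => cv_smul _ c f x,
    fun f hf => measurable_cv hKm hf.meas,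
    fun f C _ hC x => norm_cv_le hKm (hKA R hR) (by positivity) hC x, ?_⟩
  intro Ω hΩ hfin f hf hle
  refine (hB R hR Ω hΩ hfin f hf hle).trans ?_
  gcongr
  exact le_max_left _ _

end Crest.Agent.R138.Sh200
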