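import Crest.Agent.R138.Sh8_200

/-!
R138, outer shell (9): duality `p ↔ p'`.
-/

set_option autoImplicit false

open MeasureTheory FourierTransform LineDeriv Set Filter
open scoped ContDiff Real SchwartzMap ENNReal Convolution Topology ComplexConjugate

namespace Crest.Agent.R138.Sh200

open Fr665 (cv)

theorem KR_neg (φ : ℝ → ℝ) (R : ℝ) (x : V) : KR φ R (-x) = KR φ R x := by
  unfold KR
  have h : (fun ξ => mR φ R (-ξ)) = mR φ R := by
    funext ξ
    simp [mR, norm_neg]
  rw [Real.fourierInv_eq_fourier_neg, neg_neg, Real.fourierInv_eq_fourier_comp_neg, h]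

theorem dual_identity {K : V → ℂ} (hK : Integrable K) (heven : ∀ x, K (-x) = K x)
    {f g : V → ℂ} (hfi : Integrable f) (hg : BM g) :
    ∫ x, cv K f x * g x = ∫ y, f y * cv K g y := by
  obtain ⟨C, hC⟩ := hg.bdd
  have h0 : Integrable (fun p : V × V => f p.2 * K (p.1 - p.2)) (volume.prod volume) :=
    hfi.convolution_integrand (ContinuousLinearMap.mul ℂ ℂ) hK
  have h1 : Integrable (fun p : V × V => (f p.2 * K (p.1 - p.2)) * g p.1)
      (volume.prod volume) := by
    refine h0.mul_bdd (c := C) ?_ (Filter.Eventually.of_forall fun p => hC p.1)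
    exact (hg.meas.comp measurable_fst).aestronglyMeasurable
  have h2 : ∫ x, cv K f x * g x = ∫ x, ∫ y, (f y * K (x - y)) * g x := by
    congr 1
    funext x
    unfold Fr665.cv
    rw [← integral_mul_const]
    congr 1
    funext y
    ring
  rw [h2, integral_integral_swap h1]
  congr 1
  funext y
  unfold Fr665.cv
  rw [← integral_const_mul]
  congr 1
  funext x
  rw [← heven (y - x), neg_sub]
  ring

theorem dual_bound {K : V → ℂ} (hK : Integrable K) (hKm : Measurable K)
    (heven : ∀ x, K (-x) = K x) {p q : ℝ} (hpq : p.HolderConjugate q) {B : ℝ}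
    (hS : Strong volume (cv K) q B) {f : V → ℂ} (hf : Measurable f) (hfi : Integrable f)
    {D : ℝ} (hD : ∀ x, ‖cv K f x‖ ≤ D)
    (hfin : ∫⁻ x, ENNReal.ofReal (‖cv K f x‖ ^ p) ≠ ⊤) :
    (∫⁻ x, ENNReal.ofReal (‖cv K f x‖ ^ p)) ^ (1 / p)
      ≤ ENNReal.ofReal B ^ (1 / q) * (∫⁻ x, ENNReal.ofReal (‖f x‖ ^ p)) ^ (1 / p) := by
  set F := cv K f with hF
  have hFm : Measurable F := measurable_cv hKm hf
  set I := ∫⁻ x, ENNReal.ofReal (‖F x‖ ^ p) with hI
  have hp1 : 1 < p := hpq.lt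
  have hp0 : 0 < p := hpq.pos
  have hq0 : 0 < q := hpq.symm.pos
  have hD0 : 0 ≤ D := (norm_nonneg _).trans (hD 0)
  rcases eq_or_ne I 0 with hI0 | hI0
  · rw [hI0, ENNReal.zero_rpow_of_pos (by positivity)]
    exact bot_le
  set g : V → ℂ := fun x => conj (F x) * ((‖F x‖ ^ (p - 2) : ℝ) : ℂ) with hg
  have hgn : ∀ x, ‖g x‖ = ‖F x‖ ^ (p - 1) := by
    intro x
    rw [hg]
    simp only [norm_mul, RCLike.norm_conj, Complex.norm_real]
    rw [Real.norm_of_nonneg (Real.rpow_nonneg (norm_nonneg _) _)]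
    rcases eq_or_lt_of_le (norm_nonneg (F x)) with h0 | h0
    · rw [← h0, zero_mul, Real.zero_rpow (by linarith)]
    · nth_rw 1 [← Real.rpow_one ‖F x‖]
      rw [← Real.rpow_add h0]
      congr 1; ring
  have hgm : Measurable g := by
    rw [hg]
    apply Measurable.mul
    · exact Complex.continuous_conj.measurable.comp hFm
    · exact Complex.measurable_ofReal.comp (hFm.norm.pow_const _)
  have hgb : BM g := by
    refine ⟨hgm, D ^ (p - 1), fun x => ?_⟩
    rw [hgn]
    exact Real.rpow_le_rpow (norm_nonneg _) (hD x) (by linarith)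
  have hFg : ∀ x, F x * g x = ((‖F x‖ ^ p : ℝ) : ℂ) := by
    intro x
    rw [hg]
    simp only
    rw [← mul_assoc, Complex.mul_conj, ← Complex.ofReal_mul, Complex.normSq_eq_norm_sq]
    congr 1
    rcases eq_or_lt_of_le (norm_nonneg (F x)) with h0 | h0
    · rw [← h0, Real.zero_rpow hp0.ne']; simp
    · rw [← Real.rpow_natCast, ← Real.rpow_add h0]
      congr 1; push_cast; ring
  have hint : Integrable (fun x => ‖F x‖ ^ p) := by
    refine ⟨(hFm.norm.pow_const p).aestronglyMeasurable, ?_⟩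
    rw [hasFiniteIntegral_iff_ofReal (Filter.Eventually.of_forall fun x =>
      Real.rpow_nonneg (norm_nonneg _) _)]
    exact lt_top_iff_ne_top.mpr hfin
  have e1 : I = ‖∫ x, F x * g x‖ₑ := by
    simp_rw [hFg]
    rw [integral_complex_ofReal, ← ofReal_norm, Complex.norm_real, Real.norm_of_nonneg
      (integral_nonneg fun x => Real.rpow_nonneg (norm_nonneg _) _),
      ofReal_integral_eq_lintegral_ofReal hint
      (Filter.Eventually.of_forall fun x => Real.rpow_nonneg (norm_nonneg _) _)]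
  have e2 : I ≤ ∫⁻ y, ‖f y‖ₑ * ‖cv K g y‖ₑ := by
    rw [e1, hF, dual_identity hK heven hfi hgb]
    refine (enorm_integral_le_lintegral_enorm _).trans_eq ?_
    refine lintegral_congr fun y => ?_
    rw [enorm_mul]
  have e3 := ENNReal.lintegral_mul_le_Lp_mul_Lq (volume : Measure V) hpq
    (f := fun y => ‖f y‖ₑ) (g := fun y => ‖cv K g y‖ₑ)
    hf.enorm.aemeasurable (measurable_cv hKm hgm).enorm.aemeasurable
  simp only [Pi.mul_apply] at e3
  have conv : ∀ (r : ℝ) (_ : 0 < r) (h : V → ℂ),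
      ∫⁻ x, ‖h x‖ₑ ^ r = ∫⁻ x, ENNReal.ofReal (‖h x‖ ^ r) := by
    intro r hr h
    refine lintegral_congr fun x => ?_
    rw [← ofReal_norm, ENNReal.ofReal_rpow_of_nonneg (norm_nonneg _) hr.le]
  rw [conv p hp0, conv q hq0] at e3
  have e4 := hS g hgb
  have e5 : ∫⁻ x, ENNReal.ofReal (‖g x‖ ^ q) = I := by
    rw [hI]
    refine lintegral_congr fun x => ?_
    rw [hgn, ← Real.rpow_mul (norm_nonneg _)]
    congr 2
    have := hpq.sub_one_mul_conj
    exact this
  rw [e5] at e4
  have e6 : I ≤ (∫⁻ x, ENNReal.ofReal (‖f x‖ ^ p)) ^ (1 / p)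
      * (ENNReal.ofReal B ^ (1 / q) * I ^ (1 / q)) := by
    refine (e2.trans e3).trans ?_
    rw [← ENNReal.mul_rpow_of_nonneg _ _ (by positivity)]
    gcongr
  have e7 : I = I ^ (1 / p) * I ^ (1 / q) := by
    rw [← ENNReal.rpow_add _ _ hI0 hfin]
    have : 1 / p + 1 / q = 1 := by
      have := hpq.inv_add_inv_eq_one
      simpa [one_div] using this
    rw [this, ENNReal.rpow_one]
  have e8 : I ^ (1 / p) * I ^ (1 / q)
      ≤ (ENNReal.ofReal B ^ (1 / q) * (∫⁻ x, ENNReal.ofReal (‖f x‖ ^ p)) ^ (1 / p))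
        * I ^ (1 / q) := by
    rw [← e7]
    refine e6.trans (le_of_eq ?_)
    ring
  have hq1 : I ^ (1 / q) ≠ 0 := by
    rw [Ne, ENNReal.rpow_eq_zero_iff]
    push Not
    exact ⟨fun h => absurd h hI0, fun h => absurd h hfin⟩
  have hq2 : I ^ (1 / q) ≠ ⊤ := ENNReal.rpow_ne_top_of_nonneg (by positivity) hfin
  exact (ENNReal.mul_le_mul_iff_left hq1 hq2).mp e8

end Crest.Agent.R138.Sh200
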