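import Crest.Agent.R138.Sup2_882
import Crest.Agent.R138.Low1_448

/-!
# R138 / R139, wave side (helper858): SUPM, part 1

Plates with an anisotropic local energy: one plate.
-/

set_option autoImplicit false

open MeasureTheory FourierTransform
open scoped ContDiff ENNReal

namespace Crest.Agent.R138.Sm858

open Crest.Agent.R138.Defs Crest.Agent.R138.Wf448
open Crest.Agent.R138.Ker858 (rect volume_rect)
open Crest.Agent.R138.Sup882 (iso U en se dw_iso measurable_U kap kap_pos volume_ball_E2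
  measurableSet_rect holder_R norm_iso_apply)
open Crest.Agent.R138.Low448 (fr norm_fr_sq)

/-! ### integrals of the anisotropic weight -/

theorem lint_1d {u : ℝ} (hu : 0 < u) :
    ∫⁻ x : ℝ, ENNReal.ofReal ((1 + (x / u) ^ 2)⁻¹) = ENNReal.ofReal (Real.pi * u) := by
  have hi : Integrable fun x : ℝ => (1 + (x / u) ^ 2)⁻¹ :=
    integrable_inv_one_add_sq.comp_div hu.ne'
  rw [← ofReal_integral_eq_lintegral_ofReal hi (Filter.Eventually.of_forall fun x => by positivity)]
  congr 1
  have h := MeasureTheory.Measure.integral_comp_div (fun x : ℝ => (1 + x ^ 2)⁻¹) u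
  rw [h, integral_univ_inv_one_add_sq, abs_of_pos hu, smul_eq_mul, mul_comm]

theorem lint_frame (b : OrthonormalBasis (Fin 2) ℝ E2) {f g : ℝ → ℝ≥0∞} (hf : Measurable f)
    (hg : Measurable g) :
    ∫⁻ x : E2, f (inner ℝ x (b 0)) * g (inner ℝ x (b 1)) = (∫⁻ s, f s) * ∫⁻ s, g s := by
  have hm : Measurable fun y : Fin 2 → ℝ => f (y 0) * g (y 1) :=
    (hf.comp (measurable_pi_apply 0)).mul (hg.comp (measurable_pi_apply 1))
  have hm2 : Measurable fun y : E2 => f (y 0) * g (y 1) := by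
    have := hm.comp (PiLp.volume_preserving_ofLp (Fin 2)).measurable
    exact this
  have h1 : ∫⁻ x : E2, f (inner ℝ x (b 0)) * g (inner ℝ x (b 1)) =
      ∫⁻ y : E2, f (y 0) * g (y 1) := by
    rw [← b.measurePreserving_repr.lintegral_comp hm2]
    refine lintegral_congr fun x => ?_
    rw [b.repr_apply_apply, b.repr_apply_apply, real_inner_comm x (b 0), real_inner_comm x (b 1)]
  have h2 : ∫⁻ y : E2, f (y 0) * g (y 1) = ∫⁻ y : Fin 2 → ℝ, f (y 0) * g (y 1) :=
    (PiLp.volume_preserving_ofLp (Fin 2)).lintegral_comp hm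
  have h3 : ∫⁻ y : Fin 2 → ℝ, f (y 0) * g (y 1) = ∫⁻ p : ℝ × ℝ, f p.1 * g p.2 :=
    (volume_preserving_finTwoArrow ℝ).lintegral_comp
      (f := fun p : ℝ × ℝ => f p.1 * g p.2) ((hf.comp measurable_fst).mul (hg.comp measurable_snd))
  rw [h1, h2, h3, Measure.volume_eq_prod, lintegral_prod_mul hf.aemeasurable hg.aemeasurable]

theorem dw_fr (n : ℕ) (b : OrthonormalBasis (Fin 2) ℝ E2) (u w : ℝ) (x : E2) :
    dw n (fr b ![u, w]) x =
      ((1 + ((inner ℝ x (b 0) / u) ^ 2 + (inner ℝ x (b 1) / w) ^ 2)) ^ n)⁻¹ := by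
  unfold dw gw
  rw [norm_fr_sq]
  simp only [Matrix.cons_val_zero, Matrix.cons_val_one, Matrix.cons_val_fin_one]

theorem dw_le_prod (n : ℕ) (hn : 2 ≤ n) (b : OrthonormalBasis (Fin 2) ℝ E2) (u w : ℝ) (x : E2) :
    dw n (fr b ![u, w]) x ≤
      (1 + (inner ℝ x (b 0) / u) ^ 2)⁻¹ * (1 + (inner ℝ x (b 1) / w) ^ 2)⁻¹ := by
  rw [dw_fr, ← mul_inv]
  set α := (inner ℝ x (b 0) / u) ^ 2 with hα
  set β := (inner ℝ x (b 1) / w) ^ 2 with hβ
  have hα0 : 0 ≤ α := sq_nonneg _
  have hβ0 : 0 ≤ β := sq_nonneg _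
  refine inv_anti₀ (by positivity) ?_
  calc (1 + α) * (1 + β) ≤ (1 + (α + β)) ^ 2 := by nlinarith [mul_nonneg hα0 hβ0]
    _ ≤ (1 + (α + β)) ^ n := pow_le_pow_right₀ (by linarith) hn

theorem lint_dw (n : ℕ) (hn : 2 ≤ n) (b : OrthonormalBasis (Fin 2) ℝ E2) {u w : ℝ} (hu : 0 < u)
    (hw : 0 < w) (c : E2) :
    ∫⁻ x, ENNReal.ofReal (dw n (fr b ![u, w]) (c - x)) ≤
      ENNReal.ofReal (Real.pi ^ 2 * (u * w)) := by
  rw [lintegral_sub_left_eq_self (fun x => ENNReal.ofReal (dw n (fr b ![u, w]) x)) c]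
  calc ∫⁻ x, ENNReal.ofReal (dw n (fr b ![u, w]) x)
      ≤ ∫⁻ x : E2, ENNReal.ofReal ((1 + (inner ℝ x (b 0) / u) ^ 2)⁻¹) *
          ENNReal.ofReal ((1 + (inner ℝ x (b 1) / w) ^ 2)⁻¹) := by
        refine lintegral_mono fun x => ?_
        rw [← ENNReal.ofReal_mul (by positivity)]
        exact ENNReal.ofReal_le_ofReal (dw_le_prod n hn b u w x)
    _ = (∫⁻ s : ℝ, ENNReal.ofReal ((1 + (s / u) ^ 2)⁻¹)) *
          ∫⁻ s : ℝ, ENNReal.ofReal ((1 + (s / w) ^ 2)⁻¹) := by
        refine lint_frame b (f := fun s => ENNReal.ofReal ((1 + (s / u) ^ 2)⁻¹))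
          (g := fun s => ENNReal.ofReal ((1 + (s / w) ^ 2)⁻¹)) ?_ ?_
        · fun_prop
        · fun_prop
    _ = _ := by
        have hpi := Real.pi_pos
        rw [lint_1d hu, lint_1d hw, ← ENNReal.ofReal_mul (by positivity)]
        congr 1; ring

theorem norm_div_le_fr (b : OrthonormalBasis (Fin 2) ℝ E2) {u w : ℝ} (hu : 0 < u) (huw : u ≤ w)
    (x : E2) : ‖x‖ / w ≤ ‖fr b ![u, w] x‖ := by
  have hw : 0 < w := hu.trans_le huw
  refine le_of_sq_le_sq ?_ (norm_nonneg _)
  rw [norm_fr_sq, div_pow, Low448.norm_sq_eq b x]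
  simp only [Matrix.cons_val_zero, Matrix.cons_val_one, Matrix.cons_val_fin_one]
  rw [add_div, div_pow, div_pow]
  gcongr

/-- **a box is replaced by a ball** for slowly varying densities. -/
theorem box_ball (N : ℕ) {K : ℝ} (hK : 0 ≤ K) (b : OrthonormalBasis (Fin 2) ℝ E2) {u w : ℝ}
    (hu : 0 < u) (huw : u ≤ w) (H : E2 → ℝ≥0∞) (hH : Measurable H)
    (hs : ∀ x x', H x ≤ ENNReal.ofReal (K * (1 + ‖x - x'‖ / w) ^ N) * H x') (c : E2) :
    ∫⁻ x, ENNReal.ofReal (dw (N + 2) (fr b ![u, w]) (c - x)) * H x ≤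
      ENNReal.ofReal (K * 5 ^ N * Real.pi ^ 2 / kap * (u / w)) *
        ∫⁻ x in Metric.closedBall c w, H x := by
  have hw : 0 < w := hu.trans_le huw
  have hκ := kap_pos
  have hpi := Real.pi_pos
  set L := ∫⁻ x, ENNReal.ofReal (dw (N + 2) (fr b ![u, w]) (c - x)) * H x with hL
  have h1 : ∀ x' ∈ Metric.closedBall c w,
      L ≤ ENNReal.ofReal (K * 5 ^ N * (Real.pi ^ 2 * (u * w))) * H x' := by
    intro x' hx'
    rw [mem_closedBall_iff_norm] at hx'
    calc L ≤ ∫⁻ x, ENNReal.ofReal (K * 5 ^ N) * H x' *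
          ENNReal.ofReal (dw 2 (fr b ![u, w]) (c - x)) := by
          refine lintegral_mono fun x => ?_
          refine (mul_le_mul' le_rfl (hs x x')).trans ?_
          rw [← mul_assoc, ← ENNReal.ofReal_mul (dw_pos _ _ _).le, mul_right_comm,
            ← ENNReal.ofReal_mul (by positivity)]
          refine mul_le_mul' (ENNReal.ofReal_le_ofReal ?_) le_rfl
          set q := ‖fr b ![u, w] (c - x)‖ with hq
          have hq0 : 0 ≤ q := norm_nonneg _
          have h2 : ‖x - x'‖ / w ≤ q + 1 := by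
            have h3 := norm_div_le_fr b hu huw (c - x)
            have h4 : ‖x - x'‖ ≤ ‖c - x‖ + ‖x' - c‖ := by
              calc ‖x - x'‖ = ‖(c - x) + (x' - c)‖ := by rw [← norm_neg]; congr 1; abel
                _ ≤ _ := norm_add_le _ _
            calc ‖x - x'‖ / w ≤ (‖c - x‖ + w) / w := by gcongr; linarith
              _ = ‖c - x‖ / w + 1 := by field_simp
              _ ≤ q + 1 := by linarith
          have h5 : dw (N + 2) (fr b ![u, w]) (c - x) = ((1 + q ^ 2) ^ (N + 2))⁻¹ := rfl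
          have h6 : dw 2 (fr b ![u, w]) (c - x) = ((1 + q ^ 2) ^ 2)⁻¹ := rfl
          rw [h5, h6]
          have h7 : (1 + ‖x - x'‖ / w) ^ N ≤ 5 ^ N * (1 + q ^ 2) ^ N := by
            rw [← mul_pow]
            gcongr
            nlinarith [sq_nonneg (q - 1)]
          have h8 : ((1 + q ^ 2) ^ (N + 2))⁻¹ * (K * (5 ^ N * (1 + q ^ 2) ^ N)) =
              K * 5 ^ N * ((1 + q ^ 2) ^ 2)⁻¹ := by
            rw [pow_add]
            have h9 : (1 + q ^ 2) ^ N ≠ 0 := by positivity
            have h10 : (1 + q ^ 2) ^ 2 ≠ 0 := by positivity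
            field_simp
          rw [← h8]
          gcongr
      _ = ENNReal.ofReal (K * 5 ^ N) * H x' *
          ∫⁻ x, ENNReal.ofReal (dw 2 (fr b ![u, w]) (c - x)) := by
          refine lintegral_const_mul _ ?_
          exact ((continuous_dw 2 (fr b ![u, w])).comp
            (continuous_const.sub continuous_id)).measurable.ennreal_ofReal
      _ ≤ ENNReal.ofReal (K * 5 ^ N) * H x' * ENNReal.ofReal (Real.pi ^ 2 * (u * w)) := by
          gcongr
          exact lint_dw 2 le_rfl b hu hw c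
      _ = _ := by
          rw [mul_right_comm, ← ENNReal.ofReal_mul (by positivity)]
  have h2 : ENNReal.ofReal (kap * w ^ 2) * L ≤
      ENNReal.ofReal (K * 5 ^ N * (Real.pi ^ 2 * (u * w))) * ∫⁻ x in Metric.closedBall c w, H x := by
    calc ENNReal.ofReal (kap * w ^ 2) * L = ∫⁻ _x in Metric.closedBall c w, L := by
          rw [setLIntegral_const, volume_ball_E2 _ hw.le, mul_comm]
      _ ≤ ∫⁻ x in Metric.closedBall c w,
          ENNReal.ofReal (K * 5 ^ N * (Real.pi ^ 2 * (u * w))) * H x :=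
          setLIntegral_mono' Metric.isClosed_closedBall.measurableSet h1
      _ = _ := by rw [lintegral_const_mul _ hH]
  have h3 : ENNReal.ofReal (kap * w ^ 2) ≠ 0 := by
    rw [Ne, ENNReal.ofReal_eq_zero, not_le]; positivity
  calc L = (ENNReal.ofReal (kap * w ^ 2))⁻¹ * (ENNReal.ofReal (kap * w ^ 2) * L) := by
        rw [← mul_assoc, ENNReal.inv_mul_cancel h3 ENNReal.ofReal_ne_top, one_mul]
    _ ≤ (ENNReal.ofReal (kap * w ^ 2))⁻¹ *
      (ENNReal.ofReal (K * 5 ^ N * (Real.pi ^ 2 * (u * w))) *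
        ∫⁻ x in Metric.closedBall c w, H x) := by gcongr
    _ = _ := by
        rw [← mul_assoc, ← ENNReal.ofReal_inv_of_pos (by positivity),
          ← ENNReal.ofReal_mul (by positivity)]
        congr 2
        field_simp

/-! ### one plate -/

/-- the local energy of a selection, general weight. -/
noncomputable def seT (n : ℕ) (T : E2 →L[ℝ] E2) {M : Type} [Fintype M] (a : M → E2 → ℂ)
    (v : M → E2) (g : E2 → ℂ) (S : M → Set E2) (x : E2) (t : ℝ) : ℝ≥0∞ :=
  ∑ m, ∫⁻ y in S m, ENNReal.ofReal (dw n T (y - (x + t • v m))) * U (a m) g y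

/-- the energy of a selection. -/
noncomputable def en1 {M : Type} [Fintype M] (a : M → E2 → ℂ) (g : E2 → ℂ) (S : M → Set E2) :
    ℝ≥0∞ := ∑ m, ∫⁻ y in S m, U (a m) g y

theorem en_eq1 {M I : Type} [Fintype M] (a : M → E2 → ℂ) (g : E2 → ℂ) (S : I → M → Set E2)
    (i : I) : en a g S i = en1 a g (S i) := rfl

theorem se_eq1 (n : ℕ) (w : ℝ) {M I : Type} [Fintype M] (a : M → E2 → ℂ) (v : M → E2)
    (g : E2 → ℂ) (S : I → M → Set E2) (i : I) (x : E2) (t : ℝ) :
    se n w a v g S i x t = seT n (iso w) a v g (S i) x t := rfl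

theorem measurable_dwT (n : ℕ) (T : E2 →L[ℝ] E2) (u : E2) :
    Measurable fun p : E2 × E2 => ENNReal.ofReal (dw n T (p.2 - (p.1 + u))) :=
  ((continuous_dw n T).comp
    (continuous_snd.sub (continuous_fst.add continuous_const))).measurable.ennreal_ofReal

theorem measurable_dwU (n : ℕ) (T : E2 →L[ℝ] E2) (u : E2) {a : E2 → ℂ} (hs : ContDiff ℝ ∞ a)
    (hc : HasCompactSupport a) {g : E2 → ℂ} (hg : Integrable g) :
    Measurable fun p : E2 × E2 => ENNReal.ofReal (dw n T (p.2 - (p.1 + u))) * U a g p.2 :=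
  (measurable_dwT n T u).mul ((measurable_U hs hc hg).comp measurable_snd)

theorem measurable_seT (n : ℕ) (T : E2 →L[ℝ] E2) {M : Type} [Fintype M] {a : M → E2 → ℂ}
    (v : M → E2) {g : E2 → ℂ} (S : M → Set E2) (t : ℝ) (hs : ∀ m, ContDiff ℝ ∞ (a m))
    (hc : ∀ m, HasCompactSupport (a m)) (hg : Integrable g) :
    Measurable fun x => seT n T a v g S x t := by
  unfold seT
  refine Finset.measurable_fun_sum _ fun m _ => ?_
  exact (measurable_dwU n T (t • v m) (hs m) (hc m) hg).lintegral_prod_right'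

/-- upper bound of the total local energy. -/
theorem int_seT_le (n : ℕ) (hn : 2 ≤ n) (b : OrthonormalBasis (Fin 2) ℝ E2) {u w : ℝ} (hu : 0 < u)
    (hw : 0 < w) {M : Type} [Fintype M] {a : M → E2 → ℂ} {v : M → E2} {g : E2 → ℂ}
    {S : M → Set E2} (hS : ∀ m, MeasurableSet (S m)) (hs : ∀ m, ContDiff ℝ ∞ (a m))
    (hc : ∀ m, HasCompactSupport (a m)) (hg : Integrable g) (t : ℝ) :
    ∫⁻ x, seT n (fr b ![u, w]) a v g S x t ≤
      ENNReal.ofReal (Real.pi ^ 2 * (u * w)) * en1 a g S := by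
  unfold seT en1
  rw [lintegral_finsetSum, Finset.mul_sum]
  · refine Finset.sum_le_sum fun m _ => ?_
    rw [lintegral_lintegral_swap (measurable_dwU n _ (t • v m) (hs m) (hc m) hg).aemeasurable,
      ← lintegral_const_mul' _ _ ENNReal.ofReal_ne_top]
    refine setLIntegral_mono' (hS m) fun y _ => ?_
    have hmx : Measurable fun x => ENNReal.ofReal (dw n (fr b ![u, w]) (y - (x + t • v m))) :=
      ((continuous_dw n (fr b ![u, w])).comp
        (continuous_const.sub (continuous_id.add continuous_const))).measurable.ennreal_ofReal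
    rw [lintegral_mul_const _ hmx]
    refine mul_le_mul_left ?_ _
    have h := lint_dw n hn b hu hw (y - t • v m)
    refine le_trans (le_of_eq (lintegral_congr fun x => ?_)) h
    congr 2
    abel
  · intro m _
    exact (measurable_dwU n _ (t • v m) (hs m) (hc m) hg).lintegral_prod_right'

/-- lower bound of the total local energy on the plate. -/
theorem int_seT_ge (n : ℕ) {A r u w : ℝ} (hr : 0 < r) (hu : 0 < u) (hw : 0 < w)
    {M : Type} [Fintype M] {a : M → E2 → ℂ} {v : M → E2} {c : E2}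
    {b : OrthonormalBasis (Fin 2) ℝ E2} {s : Fin 2 → ℝ} {x0 : E2} {S : M → Set E2}
    (hS : ∀ m, MeasurableSet (S m))
    (hdir : ∀ m, (S m).Nonempty → ∀ j, |inner ℝ (v m - c) (b j)| ≤ A * s j)
    (hpos : ∀ m, ∀ y ∈ S m, ∀ j, |inner ℝ (y - x0) (b j)| ≤ A * (s j * r))
    (hus : u ≤ s 0 * r) (hws : w ≤ s 1 * r)
    {g : E2 → ℂ} (hs : ∀ m, ContDiff ℝ ∞ (a m)) (hc : ∀ m, HasCompactSupport (a m))
    (hg : Integrable g) (t : ℝ) (ht : |t| ≤ r) :
    ENNReal.ofReal ((3 ^ n)⁻¹ * (4 * (u * w))) * en1 a g S ≤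
      ∫⁻ x in rect (x0 - t • c) b (fun j => s j * r) (2 + 2 * A),
        seT n (fr b ![u, w]) a v g S x t := by
  set R := rect (x0 - t • c) b (fun j => s j * r) (2 + 2 * A) with hR
  have hsj : ∀ j : Fin 2, ![u, w] j ≤ s j * r := by
    intro j; fin_cases j <;> simp [hus, hws]
  have hsj0 : ∀ j : Fin 2, 0 < ![u, w] j := by
    intro j; fin_cases j <;> simp [hu, hw]
  unfold seT en1
  rw [lintegral_finsetSum, Finset.mul_sum]
  · refine Finset.sum_le_sum fun m _ => ?_
    rw [lintegral_lintegral_swap (measurable_dwU n _ (t • v m) (hs m) (hc m) hg).aemeasurable,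
      ← lintegral_const_mul' _ _ ENNReal.ofReal_ne_top]
    refine setLIntegral_mono' (hS m) fun y hy => ?_
    have hmx : Measurable fun x => ENNReal.ofReal (dw n (fr b ![u, w]) (y - (x + t • v m))) :=
      ((continuous_dw n (fr b ![u, w])).comp
        (continuous_const.sub (continuous_id.add continuous_const))).measurable.ennreal_ofReal
    rw [lintegral_mul_const _ hmx]
    refine mul_le_mul_left ?_ _
    have hsub : rect (y - t • v m) b ![u, w] 1 ⊆ R := by
      intro x hx j
      have e : x - (x0 - t • c) = (x - (y - t • v m)) + (y - x0) - t • (v m - c) := by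
        rw [smul_sub]; abel
      have hb1 := hx j
      rw [one_mul] at hb1
      have hb2 := hpos m y hy j
      have hb3 := hdir m ⟨y, hy⟩ j
      have hwl := hsj j
      have hwl0 := hsj0 j
      have hb4 : |t| * |inner ℝ (v m - c) (b j)| ≤ A * (s j * r) := by
        calc |t| * |inner ℝ (v m - c) (b j)| ≤ r * (A * s j) :=
              mul_le_mul ht hb3 (abs_nonneg _) hr.le
          _ = _ := by ring
      rw [e, inner_sub_left, inner_add_left, inner_smul_left]
      simp only [conj_trivial]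
      have h2 := abs_sub (inner ℝ (x - (y - t • v m)) (b j) + inner ℝ (y - x0) (b j))
        (t * inner ℝ (v m - c) (b j))
      have h3 := abs_add_le (inner ℝ (x - (y - t • v m)) (b j)) (inner ℝ (y - x0) (b j))
      rw [abs_mul] at h2
      calc _ ≤ _ := h2
        _ ≤ ![u, w] j + A * (s j * r) + A * (s j * r) := by linarith
        _ < (2 + 2 * A) * (s j * r) := by nlinarith
    have hm1 : MeasurableSet (rect (y - t • v m) b ![u, w] 1) := measurableSet_rect _ _ _ _
    calc ENNReal.ofReal ((3 ^ n)⁻¹ * (4 * (u * w)))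
        = ∫⁻ _x in rect (y - t • v m) b ![u, w] 1, ENNReal.ofReal ((3 ^ n)⁻¹) := by
          rw [setLIntegral_const, volume_rect, Fin.prod_univ_two]
          simp only [Matrix.cons_val_zero, Matrix.cons_val_one, Matrix.cons_val_fin_one]
          rw [← ENNReal.ofReal_mul (by positivity), ← ENNReal.ofReal_mul (by positivity)]
          congr 1; ring
      _ ≤ ∫⁻ x in rect (y - t • v m) b ![u, w] 1,
            ENNReal.ofReal (dw n (fr b ![u, w]) (y - (x + t • v m))) := by
          refine setLIntegral_mono' hm1 fun x hx => ?_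
          refine ENNReal.ofReal_le_ofReal ?_
          rw [dw_fr]
          have e1 : y - (x + t • v m) = -(x - (y - t • v m)) := by abel
          rw [e1, inner_neg_left, inner_neg_left, neg_div, neg_div, neg_sq, neg_sq]
          have h0 := hx 0
          have h1 := hx 1
          simp only [Matrix.cons_val_zero, Matrix.cons_val_one, Matrix.cons_val_fin_one,
            one_mul] at h0 h1
          have h2 : (inner ℝ (x - (y - t • v m)) (b 0) / u) ^ 2 ≤ 1 := by
            rw [sq_le_one_iff_abs_le_one, abs_div, abs_of_pos hu, div_le_one hu]; exact h0.le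
          have h3 : (inner ℝ (x - (y - t • v m)) (b 1) / w) ^ 2 ≤ 1 := by
            rw [sq_le_one_iff_abs_le_one, abs_div, abs_of_pos hw, div_le_one hw]; exact h1.le
          gcongr
          linarith
      _ ≤ _ := lintegral_mono_set hsub
  · intro m _
    exact (measurable_dwU n _ (t • v m) (hs m) (hc m) hg).lintegral_prod_right'

end Crest.Agent.R138.Sm858
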