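import Crest.Agent.R138.Sm1_858

/-!
# R138 / R139, wave side (helper858): SUPM, part 2

One plate (Hölder and the multiplicity bound), one frame.
-/

set_option autoImplicit false

open MeasureTheory FourierTransform
open scoped ContDiff ENNReal

namespace Crest.Agent.R138.Sm858

open Crest.Agent.R138.Defs Crest.Agent.R138.Wf448
open Crest.Agent.R138.Ker858 (rect volume_rect)
open Crest.Agent.R138.Sup882 (iso U en se dw_iso measurable_U kap kap_pos volume_ball_E2
  measurableSet_rect holder_R norm_iso_apply)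
open Crest.Agent.R138.Low448 (fr norm_fr_sq)

/-- the box is replaced by the ball for a selection. -/
theorem seT_ball (N : ℕ) {K : ℝ} (hK : 0 ≤ K) (b : OrthonormalBasis (Fin 2) ℝ E2) {u w : ℝ}
    (hu : 0 < u) (huw : u ≤ w)
    {M : Type} [Fintype M] {a : M → E2 → ℂ} {v : M → E2} {g : E2 → ℂ} {S : M → Set E2}
    (hS : ∀ m, MeasurableSet (S m)) (hs : ∀ m, ContDiff ℝ ∞ (a m))
    (hc : ∀ m, HasCompactSupport (a m)) (hg : Integrable g) (t : ℝ)
    (H : E2 → ℝ≥0∞) (hH : Measurable H)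
    (hsl : ∀ x x', H x ≤ ENNReal.ofReal (K * (1 + ‖x - x'‖ / w) ^ N) * H x')
    (T' : Set E2)
    (hsub : ∀ m, ∀ y ∈ S m, Metric.closedBall (y - t • v m) w ⊆ T') :
    ∫⁻ x, seT (N + 2) (fr b ![u, w]) a v g S x t * H x ≤
      ENNReal.ofReal (K * 5 ^ N * Real.pi ^ 2 / kap * (u / w) * 2 ^ N) *
        ∫⁻ x in T', seT N (iso w) a v g S x t * H x := by
  have hw : 0 < w := hu.trans_le huw
  have hκ := kap_pos
  have hpi := Real.pi_pos
  set C0 : ℝ := K * 5 ^ N * Real.pi ^ 2 / kap * (u / w) with hC0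
  have hC00 : 0 ≤ C0 := by positivity
  have hmH : ∀ (n : ℕ) (T : E2 →L[ℝ] E2) (m : M), Measurable fun p : E2 × E2 =>
      ENNReal.ofReal (dw n T (p.2 - (p.1 + t • v m))) * U (a m) g p.2 * H p.1 := fun n T m =>
    (measurable_dwU n T (t • v m) (hs m) (hc m) hg).mul (hH.comp measurable_fst)
  have hexp : ∀ (n : ℕ) (T : E2 →L[ℝ] E2) (μ : Measure E2) [SFinite μ],
      ∫⁻ x, seT n T a v g S x t * H x ∂μ = ∑ m, ∫⁻ y in S m, ∫⁻ x,
        ENNReal.ofReal (dw n T (y - (x + t • v m))) * U (a m) g y * H x ∂μ := by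
    intro n T μ _
    unfold seT
    simp_rw [Finset.sum_mul]
    rw [lintegral_finsetSum]
    · refine Finset.sum_congr rfl fun m _ => ?_
      have h0 := lintegral_lintegral_swap (μ := μ) (ν := volume.restrict (S m))
        (f := fun x y => ENNReal.ofReal (dw n T (y - (x + t • v m))) * U (a m) g y * H x)
        (hmH n T m).aemeasurable
      rw [← h0]
      refine lintegral_congr fun x => ?_
      exact (lintegral_mul_const (H x) ((measurable_dwU n T (t • v m) (hs m) (hc m) hg).comp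
        (measurable_prodMk_left (x := x)))).symm
    · intro m _
      exact ((measurable_dwU n T (t • v m) (hs m) (hc m) hg).lintegral_prod_right').mul hH
  rw [hexp, hexp, Finset.mul_sum]
  refine Finset.sum_le_sum fun m _ => ?_
  rw [← lintegral_const_mul' _ _ ENNReal.ofReal_ne_top]
  refine setLIntegral_mono' (hS m) fun y hy => ?_
  have h1 := box_ball N hK b hu huw H hH hsl (y - t • v m)
  calc ∫⁻ x, ENNReal.ofReal (dw (N + 2) (fr b ![u, w]) (y - (x + t • v m))) * U (a m) g y * H x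
      = U (a m) g y *
        ∫⁻ x, ENNReal.ofReal (dw (N + 2) (fr b ![u, w]) ((y - t • v m) - x)) * H x := by
        rw [← lintegral_const_mul]
        · refine lintegral_congr fun x => ?_
          rw [show y - (x + t • v m) = (y - t • v m) - x by abel]
          ring
        · exact (((continuous_dw (N + 2) (fr b ![u, w])).comp
            (continuous_const.sub continuous_id)).measurable.ennreal_ofReal).mul hH
    _ ≤ U (a m) g y * (ENNReal.ofReal C0 * ∫⁻ x in Metric.closedBall (y - t • v m) w, H x) := by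
        gcongr
    _ ≤ U (a m) g y * (ENNReal.ofReal C0 * ∫⁻ x in Metric.closedBall (y - t • v m) w,
          ENNReal.ofReal (2 ^ N) * (ENNReal.ofReal (dw N (iso w) (y - (x + t • v m))) * H x)) := by
        gcongr U (a m) g y * (ENNReal.ofReal C0 * ?_)
        refine setLIntegral_mono' Metric.isClosed_closedBall.measurableSet fun x hx => ?_
        rw [← mul_assoc, ← ENNReal.ofReal_mul (by positivity)]
        refine le_mul_of_one_le_left zero_le ?_
        rw [← ENNReal.ofReal_one]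
        refine ENNReal.ofReal_le_ofReal ?_
        rw [mem_closedBall_iff_norm] at hx
        rw [dw_iso hw]
        have h4 : ‖y - (x + t • v m)‖ ≤ w := by
          rw [show y - (x + t • v m) = -(x - (y - t • v m)) by abel, norm_neg]; exact hx
        have h5 : ‖y - (x + t • v m)‖ / w ≤ 1 := by rw [div_le_one hw]; exact h4
        have h6 : (‖y - (x + t • v m)‖ / w) ^ 2 ≤ 1 := pow_le_one₀ (by positivity) h5
        have h7 : (1 + (‖y - (x + t • v m)‖ / w) ^ 2) ^ N ≤ 2 ^ N := by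
          gcongr
          linarith
        rw [← div_eq_mul_inv, one_le_div (by positivity)]
        exact h7
    _ ≤ U (a m) g y * (ENNReal.ofReal C0 * ∫⁻ x in T',
          ENNReal.ofReal (2 ^ N) * (ENNReal.ofReal (dw N (iso w) (y - (x + t • v m))) * H x)) := by
        gcongr U (a m) g y * (ENNReal.ofReal C0 * ?_)
        exact lintegral_mono_set (hsub m y hy)
    _ = _ := by
        have hmm : Measurable fun x => ENNReal.ofReal (dw N (iso w) (y - (x + t • v m))) * H x :=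
          (((continuous_dw N (iso w)).comp
            (continuous_const.sub (continuous_id.add continuous_const))).measurable.ennreal_ofReal).mul hH
        rw [lintegral_const_mul _ hmm, ENNReal.ofReal_mul hC00]
        have e : ∫⁻ x in T', ENNReal.ofReal (dw N (iso w) (y - (x + t • v m))) * U (a m) g y * H x
            = U (a m) g y * ∫⁻ x in T', ENNReal.ofReal (dw N (iso w) (y - (x + t • v m))) * H x := by
          rw [← lintegral_const_mul _ hmm]
          refine lintegral_congr fun x => ?_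
          ring
        rw [e]
        ring

theorem rpow_three_half (x : ℝ≥0∞) : x ^ (3 / 2 : ℝ) = x * x ^ (1 / 2 : ℝ) := by
  rw [show (3 / 2 : ℝ) = 1 + 1 / 2 by norm_num,
    ENNReal.rpow_add_of_nonneg _ _ zero_le_one (by norm_num), ENNReal.rpow_one]

theorem ofReal_half {x : ℝ} (hx : 0 ≤ x) :
    ENNReal.ofReal x ^ (1 / 2 : ℝ) = ENNReal.ofReal (x ^ (1 / 2 : ℝ)) :=
  ENNReal.ofReal_rpow_of_nonneg hx (by norm_num)

/-- **one plate at one time.** -/
theorem one_plate (n : ℕ) {A r u w : ℝ} (hA : 0 ≤ A) (hr : 0 < r) (hu : 0 < u) (hw : 0 < w)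
    {M : Type} [Fintype M] {a : M → E2 → ℂ} {v : M → E2} {c : E2}
    {b : OrthonormalBasis (Fin 2) ℝ E2} {s : Fin 2 → ℝ} {x0 : E2} {S : M → Set E2}
    (hS : ∀ m, MeasurableSet (S m))
    (hdir : ∀ m, (S m).Nonempty → ∀ j, |inner ℝ (v m - c) (b j)| ≤ A * s j)
    (hpos : ∀ m, ∀ y ∈ S m, ∀ j, |inner ℝ (y - x0) (b j)| ≤ A * (s j * r))
    (hus : u ≤ s 0 * r) (hws : w ≤ s 1 * r) (hs0 : ∀ j, 0 < s j)
    {g : E2 → ℂ} (hs : ∀ m, ContDiff ℝ ∞ (a m)) (hc : ∀ m, HasCompactSupport (a m))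
    (hg : Integrable g) (t : ℝ) (ht : |t| ≤ r) (G : E2 → ℝ≥0∞) (hG : Measurable G)
    {Mu τ : ℝ} (hMu : 0 ≤ Mu) (hτ : 0 ≤ τ)
    (hH : ∀ x ∈ rect (x0 - t • c) b (fun j => s j * r) (2 + 2 * A),
      seT n (fr b ![u, w]) a v g S x t ≤
        ENNReal.ofReal (u * w) * (ENNReal.ofReal Mu * G x + ENNReal.ofReal τ)) :
    ENNReal.ofReal ((s 0 * s 1 * r ^ 2) ^ (-(1/2) : ℝ)) * en1 a g S ^ (3 / 2 : ℝ) ≤
      ENNReal.ofReal (4 * (1 + A) * ((3 ^ n)⁻¹ * 4) ^ (-(3 / 2) : ℝ) * (u * w)⁻¹) *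
        (ENNReal.ofReal (Mu ^ (1 / 2 : ℝ)) *
            (∫⁻ x, seT n (fr b ![u, w]) a v g S x t * G x ^ (1 / 2 : ℝ)) +
          ENNReal.ofReal (τ ^ (1 / 2 : ℝ)) * ∫⁻ x, seT n (fr b ![u, w]) a v g S x t) := by
  have hs00 := hs0 0
  have hs01 := hs0 1
  have hq : 0 < s 0 * s 1 * r ^ 2 := by positivity
  set q : ℝ := s 0 * s 1 * r ^ 2 with hqdef
  set c0 : ℝ := (3 ^ n)⁻¹ * 4 with hc0
  have hc00 : 0 < c0 := by positivity
  have huw : 0 < u * w := by positivity
  set f : E2 → ℝ≥0∞ := fun x => seT n (fr b ![u, w]) a v g S x t with hf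
  have hfm : Measurable f := measurable_seT n _ v S t hs hc hg
  have h1 := int_seT_ge (a := a) n hr hu hw hS hdir hpos hus hws hs hc hg t ht
  set R := rect (x0 - t • c) b (fun j => s j * r) (2 + 2 * A) with hRdef
  have h2 := holder_R (volume.restrict R) f hfm.aemeasurable
  have hvol : (volume.restrict R) Set.univ = ENNReal.ofReal (16 * (1 + A) ^ 2 * q) := by
    rw [Measure.restrict_apply_univ, hRdef, volume_rect, Fin.prod_univ_two,
      ← ENNReal.ofReal_mul (by positivity)]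
    congr 1; rw [hqdef]; ring
  rw [hvol] at h2
  set X := ENNReal.ofReal (Mu ^ (1 / 2 : ℝ)) * (∫⁻ x, f x * G x ^ (1 / 2 : ℝ)) +
    ENNReal.ofReal (τ ^ (1 / 2 : ℝ)) * ∫⁻ x, f x with hX
  have h3 : ∫⁻ x in R, f x ^ (3 / 2 : ℝ) ≤ ENNReal.ofReal ((u * w) ^ (1 / 2 : ℝ)) * X := by
    calc ∫⁻ x in R, f x ^ (3 / 2 : ℝ)
        ≤ ∫⁻ x in R, ENNReal.ofReal ((u * w) ^ (1 / 2 : ℝ)) *
            (ENNReal.ofReal (Mu ^ (1 / 2 : ℝ)) * (f x * G x ^ (1 / 2 : ℝ)) +
              ENNReal.ofReal (τ ^ (1 / 2 : ℝ)) * f x) := by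
          refine setLIntegral_mono' (measurableSet_rect _ _ _ _) fun x hx => ?_
          rw [rpow_three_half]
          have h4 : f x ^ (1 / 2 : ℝ) ≤ ENNReal.ofReal ((u * w) ^ (1 / 2 : ℝ)) *
              (ENNReal.ofReal (Mu ^ (1 / 2 : ℝ)) * G x ^ (1 / 2 : ℝ) +
                ENNReal.ofReal (τ ^ (1 / 2 : ℝ))) := by
            calc f x ^ (1 / 2 : ℝ)
                ≤ (ENNReal.ofReal (u * w) *
                    (ENNReal.ofReal Mu * G x + ENNReal.ofReal τ)) ^ (1 / 2 : ℝ) := by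
                  gcongr
                  exact hH x hx
              _ = ENNReal.ofReal ((u * w) ^ (1 / 2 : ℝ)) *
                    (ENNReal.ofReal Mu * G x + ENNReal.ofReal τ) ^ (1 / 2 : ℝ) := by
                  rw [ENNReal.mul_rpow_of_nonneg _ _ (by norm_num), ofReal_half huw.le]
              _ ≤ ENNReal.ofReal ((u * w) ^ (1 / 2 : ℝ)) *
                    ((ENNReal.ofReal Mu * G x) ^ (1 / 2 : ℝ) +
                      (ENNReal.ofReal τ) ^ (1 / 2 : ℝ)) := by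
                  gcongr
                  exact ENNReal.rpow_add_le_add_rpow _ _ (by norm_num) (by norm_num)
              _ = _ := by
                  rw [ENNReal.mul_rpow_of_nonneg _ _ (by norm_num), ofReal_half hMu,
                    ofReal_half hτ]
          calc f x * f x ^ (1 / 2 : ℝ) ≤ f x * (ENNReal.ofReal ((u * w) ^ (1 / 2 : ℝ)) *
              (ENNReal.ofReal (Mu ^ (1 / 2 : ℝ)) * G x ^ (1 / 2 : ℝ) +
                ENNReal.ofReal (τ ^ (1 / 2 : ℝ)))) := by gcongr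
            _ = _ := by ring
      _ ≤ ∫⁻ x, ENNReal.ofReal ((u * w) ^ (1 / 2 : ℝ)) *
            (ENNReal.ofReal (Mu ^ (1 / 2 : ℝ)) * (f x * G x ^ (1 / 2 : ℝ)) +
              ENNReal.ofReal (τ ^ (1 / 2 : ℝ)) * f x) := setLIntegral_le_lintegral _ _
      _ = _ := by
          rw [lintegral_const_mul' _ _ ENNReal.ofReal_ne_top, lintegral_add_left]
          · rw [lintegral_const_mul' _ _ ENNReal.ofReal_ne_top,
              lintegral_const_mul' _ _ ENNReal.ofReal_ne_top]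
          · exact (hfm.mul (hG.pow_const _)).const_mul _
  have h5 : ENNReal.ofReal ((c0 * (u * w)) ^ (3 / 2 : ℝ)) * en1 a g S ^ (3 / 2 : ℝ) ≤
      ENNReal.ofReal (4 * (1 + A) * q ^ (1 / 2 : ℝ) * (u * w) ^ (1 / 2 : ℝ)) * X := by
    calc ENNReal.ofReal ((c0 * (u * w)) ^ (3 / 2 : ℝ)) * en1 a g S ^ (3 / 2 : ℝ)
        = (ENNReal.ofReal ((3 ^ n)⁻¹ * (4 * (u * w))) * en1 a g S) ^ (3 / 2 : ℝ) := by
          rw [ENNReal.mul_rpow_of_nonneg _ _ (by norm_num),
            ENNReal.ofReal_rpow_of_nonneg (by positivity) (by norm_num), hc0]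
          congr 3
          ring
      _ ≤ (∫⁻ x in R, f x) ^ (3 / 2 : ℝ) := by gcongr
      _ ≤ _ := h2
      _ ≤ ENNReal.ofReal (16 * (1 + A) ^ 2 * q) ^ (1 / 2 : ℝ) *
            (ENNReal.ofReal ((u * w) ^ (1 / 2 : ℝ)) * X) := by gcongr
      _ = _ := by
          rw [ofReal_half (by positivity), ← mul_assoc, ← ENNReal.ofReal_mul (by positivity)]
          congr 2
          rw [Real.mul_rpow (by positivity) (by positivity),
            show 16 * (1 + A) ^ 2 = (4 * (1 + A)) ^ 2 by ring, ← Real.sqrt_eq_rpow,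
            Real.sqrt_sq (by positivity)]
  have h6 : q ^ (-(1/2) : ℝ) * (c0 * (u * w)) ^ (-(3/2) : ℝ) * (c0 * (u * w)) ^ (3 / 2 : ℝ) =
      q ^ (-(1/2) : ℝ) := by
    rw [mul_assoc, ← Real.rpow_add (by positivity)]
    norm_num
  have h7 : q ^ (-(1/2) : ℝ) * (c0 * (u * w)) ^ (-(3/2) : ℝ) *
      (4 * (1 + A) * q ^ (1 / 2 : ℝ) * (u * w) ^ (1 / 2 : ℝ)) =
      4 * (1 + A) * c0 ^ (-(3/2) : ℝ) * (u * w)⁻¹ := by
    have e1 : q ^ (-(1/2) : ℝ) * q ^ (1 / 2 : ℝ) = 1 := by
      rw [← Real.rpow_add hq]; norm_num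
    have e2 : (u * w) ^ (-(3/2) : ℝ) * (u * w) ^ (1 / 2 : ℝ) = (u * w)⁻¹ := by
      rw [← Real.rpow_add huw, ← Real.rpow_neg_one]; norm_num
    rw [Real.mul_rpow hc00.le huw.le]
    calc _ = 4 * (1 + A) * c0 ^ (-(3/2) : ℝ) * (q ^ (-(1/2) : ℝ) * q ^ (1 / 2 : ℝ)) *
          ((u * w) ^ (-(3/2) : ℝ) * (u * w) ^ (1 / 2 : ℝ)) := by ring
      _ = _ := by rw [e1, e2, mul_one]
  calc ENNReal.ofReal (q ^ (-(1/2) : ℝ)) * en1 a g S ^ (3 / 2 : ℝ)
      = ENNReal.ofReal (q ^ (-(1/2) : ℝ) * (c0 * (u * w)) ^ (-(3/2) : ℝ)) *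
        (ENNReal.ofReal ((c0 * (u * w)) ^ (3 / 2 : ℝ)) * en1 a g S ^ (3 / 2 : ℝ)) := by
        rw [← mul_assoc, ← ENNReal.ofReal_mul (by positivity), h6]
    _ ≤ ENNReal.ofReal (q ^ (-(1/2) : ℝ) * (c0 * (u * w)) ^ (-(3/2) : ℝ)) *
        (ENNReal.ofReal (4 * (1 + A) * q ^ (1 / 2 : ℝ) * (u * w) ^ (1 / 2 : ℝ)) * X) := by gcongr
    _ = _ := by
        rw [← mul_assoc, ← ENNReal.ofReal_mul (by positivity), h7]

end Crest.Agent.R138.Sm858
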