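import Crest.Agent.R138.Sm2_858

/-!
# R138 / R139, wave side (helper858): SUPM, part 3

One frame.
-/

set_option autoImplicit false

open MeasureTheory FourierTransform
open scoped ContDiff ENNReal

namespace Crest.Agent.R138.Sm858

open Crest.Agent.R138.Defs Crest.Agent.R138.Wf448
open Crest.Agent.R138.Ker858 (rect volume_rect)
open Crest.Agent.R138.Sup882 (iso U en se dw_iso measurable_U kap kap_pos measurableSet_rect)
open Crest.Agent.R138.Low448 (fr norm_fr_sq)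

/-- the constant of one plate. -/
noncomputable def kc (N : ℕ) (A : ℝ) : ℝ := 4 * (1 + A) * ((3 ^ (N + 2))⁻¹ * 4) ^ (-(3 / 2) : ℝ)

theorem kc_nonneg (N : ℕ) {A : ℝ} (hA : 0 ≤ A) : 0 ≤ kc N A := by unfold kc; positivity

/-- **one frame, one time.** -/
theorem slice_mult (N : ℕ) {A r u w C1 CG : ℝ} (hA : 0 ≤ A) (hr : 0 < r) (hu : 0 < u) (huw : u ≤ w)
    (hCG : 0 ≤ CG)
    {M I : Type} [Fintype M] [Fintype I] {a : M → E2 → ℂ} {v : M → E2} {c : I → E2}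
    {b : I → OrthonormalBasis (Fin 2) ℝ E2} {s : I → Fin 2 → ℝ} {x0 : I → E2}
    {S : I → M → Set E2}
    (hS : ∀ i m, MeasurableSet (S i m))
    (hdir : ∀ i m, (S i m).Nonempty → ∀ j, |inner ℝ (v m - c i) (b i j)| ≤ A * s i j)
    (hpos : ∀ i m, ∀ y ∈ S i m, ∀ j, |inner ℝ (y - x0 i) (b i j)| ≤ A * (s i j * r))
    (hus : ∀ i, u ≤ s i 0 * r) (hws : ∀ i, w ≤ s i 1 * r) (hs0 : ∀ i j, 0 < s i j)
    {g : E2 → ℂ} (hs : ∀ m, ContDiff ℝ ∞ (a m)) (hc : ∀ m, HasCompactSupport (a m))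
    (hg : Integrable g) (t : ℝ) (ht : |t| ≤ r) (G : E2 → ℝ≥0∞) (hG : Measurable G)
    {Mu τ : ℝ} (hMu : 0 ≤ Mu) (hτ : 0 ≤ τ)
    (hH : ∀ i, ∀ x ∈ rect (x0 i - t • c i) (b i) (fun j => s i j * r) (2 + 2 * A),
      seT (N + 2) (fr (b i) ![u, w]) a v g (S i) x t ≤
        ENNReal.ofReal (u * w) * (ENNReal.ofReal Mu * G x + ENNReal.ofReal τ))
    (hsl : ∀ x x', G x ≤ ENNReal.ofReal (CG * (1 + ‖x - x'‖ / w) ^ (2 * N)) * G x')
    (hsum : ∀ x, ∑ i, se N w a v g S i x t ≤ ENNReal.ofReal (C1 * w ^ 2) * G x)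
    (T' : Set E2) (hsub : ∀ i m, ∀ y ∈ S i m, Metric.closedBall (y - t • v m) w ⊆ T') :
    ∑ i, ENNReal.ofReal ((s i 0 * s i 1 * r ^ 2) ^ (-(1/2) : ℝ)) * en a g S i ^ (3 / 2 : ℝ) ≤
      ENNReal.ofReal (kc N A * (CG ^ (1 / 2 : ℝ) * 5 ^ N * Real.pi ^ 2 / kap * 2 ^ N) * C1 *
          Mu ^ (1 / 2 : ℝ)) * (∫⁻ x in T', G x ^ (3 / 2 : ℝ)) +
        ENNReal.ofReal (kc N A * Real.pi ^ 2 * τ ^ (1 / 2 : ℝ)) * ∑ i, en a g S i := by
  have hw : 0 < w := hu.trans_le huw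
  have hκ := kap_pos
  have hpi := Real.pi_pos
  have hkc := kc_nonneg N hA
  set H : E2 → ℝ≥0∞ := fun x => G x ^ (1 / 2 : ℝ) with hHdef
  have hHm : Measurable H := hG.pow_const _
  have hHs : ∀ x x', H x ≤ ENNReal.ofReal (CG ^ (1 / 2 : ℝ) * (1 + ‖x - x'‖ / w) ^ N) * H x' := by
    intro x x'
    have h1 : H x ≤ (ENNReal.ofReal (CG * (1 + ‖x - x'‖ / w) ^ (2 * N)) * G x') ^ (1 / 2 : ℝ) := by
      rw [hHdef]
      simp only
      gcongr
      exact hsl x x'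
    refine h1.trans (le_of_eq ?_)
    have h2 : 0 ≤ 1 + ‖x - x'‖ / w := by positivity
    rw [ENNReal.mul_rpow_of_nonneg _ _ (by norm_num), ofReal_half (by positivity)]
    congr 2
    rw [Real.mul_rpow hCG (by positivity)]
    congr 1
    rw [mul_comm 2 N, pow_mul, ← Real.sqrt_eq_rpow, Real.sqrt_sq (by positivity)]
  set C3 : ℝ := CG ^ (1 / 2 : ℝ) * 5 ^ N * Real.pi ^ 2 / kap * 2 ^ N with hC3
  have hC30 : 0 ≤ C3 := by positivity
  -- one plate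
  have hone : ∀ i, ENNReal.ofReal ((s i 0 * s i 1 * r ^ 2) ^ (-(1/2) : ℝ)) *
      en a g S i ^ (3 / 2 : ℝ) ≤
      ENNReal.ofReal (kc N A * C3 * Mu ^ (1 / 2 : ℝ) * (w ^ 2)⁻¹) *
        (∫⁻ x in T', se N w a v g S i x t * H x) +
      ENNReal.ofReal (kc N A * Real.pi ^ 2 * τ ^ (1 / 2 : ℝ)) * en a g S i := by
    intro i
    have h1 := one_plate (N + 2) hA hr hu hw (hS i) (hdir i) (hpos i) (hus i) (hws i) (hs0 i) hs hc
      hg t ht G hG hMu hτ (hH i)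
    have h2 := seT_ball N (by positivity : 0 ≤ CG ^ (1 / 2 : ℝ)) (b i) hu huw (a := a) (v := v)
      (hS i) hs hc hg t H hHm hHs T' (hsub i)
    have h3 := int_seT_le (N + 2) (by omega) (b i) hu hw (a := a) (v := v) (hS i) hs hc hg t
    refine h1.trans ?_
    rw [mul_add]
    refine add_le_add ?_ ?_
    · calc ENNReal.ofReal (4 * (1 + A) * ((3 ^ (N + 2))⁻¹ * 4) ^ (-(3 / 2) : ℝ) * (u * w)⁻¹) *
          (ENNReal.ofReal (Mu ^ (1 / 2 : ℝ)) *
            ∫⁻ x, seT (N + 2) (fr (b i) ![u, w]) a v g (S i) x t * G x ^ (1 / 2 : ℝ))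
          ≤ ENNReal.ofReal (kc N A * (u * w)⁻¹) * (ENNReal.ofReal (Mu ^ (1 / 2 : ℝ)) *
            (ENNReal.ofReal (CG ^ (1 / 2 : ℝ) * 5 ^ N * Real.pi ^ 2 / kap * (u / w) * 2 ^ N) *
              ∫⁻ x in T', seT N (iso w) a v g (S i) x t * H x)) := by
            gcongr ENNReal.ofReal ?_ * (ENNReal.ofReal (Mu ^ (1 / 2 : ℝ)) * ?_)
            exact le_rfl
        _ = _ := by
            rw [← mul_assoc, ← mul_assoc, ← ENNReal.ofReal_mul (by positivity),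
              ← ENNReal.ofReal_mul (by positivity)]
            congr 2
            rw [hC3]
            field_simp
    · calc ENNReal.ofReal (4 * (1 + A) * ((3 ^ (N + 2))⁻¹ * 4) ^ (-(3 / 2) : ℝ) * (u * w)⁻¹) *
          (ENNReal.ofReal (τ ^ (1 / 2 : ℝ)) *
            ∫⁻ x, seT (N + 2) (fr (b i) ![u, w]) a v g (S i) x t)
          ≤ ENNReal.ofReal (kc N A * (u * w)⁻¹) * (ENNReal.ofReal (τ ^ (1 / 2 : ℝ)) *
            (ENNReal.ofReal (Real.pi ^ 2 * (u * w)) * en1 a g (S i))) := by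
            gcongr ENNReal.ofReal ?_ * (ENNReal.ofReal (τ ^ (1 / 2 : ℝ)) * ?_)
            exact le_rfl
        _ = _ := by
            rw [← mul_assoc, ← mul_assoc, ← ENNReal.ofReal_mul (by positivity),
              ← ENNReal.ofReal_mul (by positivity), en_eq1]
            congr 2
            field_simp
  have hmse : ∀ i, Measurable fun x => se N w a v g S i x t := fun i =>
    measurable_seT N (iso w) v (S i) t hs hc hg
  calc ∑ i, ENNReal.ofReal ((s i 0 * s i 1 * r ^ 2) ^ (-(1/2) : ℝ)) * en a g S i ^ (3 / 2 : ℝ)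
      ≤ ∑ i, (ENNReal.ofReal (kc N A * C3 * Mu ^ (1 / 2 : ℝ) * (w ^ 2)⁻¹) *
        (∫⁻ x in T', se N w a v g S i x t * H x) +
      ENNReal.ofReal (kc N A * Real.pi ^ 2 * τ ^ (1 / 2 : ℝ)) * en a g S i) :=
        Finset.sum_le_sum fun i _ => hone i
    _ = ENNReal.ofReal (kc N A * C3 * Mu ^ (1 / 2 : ℝ) * (w ^ 2)⁻¹) *
        (∫⁻ x in T', (∑ i, se N w a v g S i x t) * H x) +
        ENNReal.ofReal (kc N A * Real.pi ^ 2 * τ ^ (1 / 2 : ℝ)) * ∑ i, en a g S i := by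
        rw [Finset.sum_add_distrib, ← Finset.mul_sum, ← Finset.mul_sum, ← lintegral_finsetSum]
        · congr 2
          refine lintegral_congr fun x => ?_
          rw [Finset.sum_mul]
        · intro i _
          exact (hmse i).mul hHm
    _ ≤ ENNReal.ofReal (kc N A * C3 * Mu ^ (1 / 2 : ℝ) * (w ^ 2)⁻¹) *
        (∫⁻ x in T', ENNReal.ofReal (C1 * w ^ 2) * G x ^ (3 / 2 : ℝ)) +
        ENNReal.ofReal (kc N A * Real.pi ^ 2 * τ ^ (1 / 2 : ℝ)) * ∑ i, en a g S i := by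
        refine add_le_add (mul_le_mul' le_rfl (lintegral_mono fun x => ?_)) le_rfl
        rw [rpow_three_half, ← mul_assoc]
        exact mul_le_mul' (hsum x) le_rfl
    _ = _ := by
        rw [lintegral_const_mul' _ _ ENNReal.ofReal_ne_top, ← mul_assoc,
          ← ENNReal.ofReal_mul (by positivity)]
        congr 3
        field_simp

/-- **SUPM, one frame.** -/
theorem frame_mult (N : ℕ) {A CG : ℝ} (hA : 0 ≤ A) (hCG : 0 ≤ CG) :
    ∃ C : ℝ, 0 ≤ C ∧ ∀ r w : ℝ, 1 ≤ r → r ^ (1 / 2 : ℝ) ≤ w →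
    ∀ (ι I : Type) [Fintype ι] [Fintype I] (a : ι → E2 → ℂ) (v : ι → E2),
    (∀ m, ContDiff ℝ ∞ (a m)) → (∀ m, HasCompactSupport (a m)) →
    ∀ g : E2 → ℂ, Integrable g →
    ∀ (c : I → E2) (b : I → OrthonormalBasis (Fin 2) ℝ E2) (s : I → Fin 2 → ℝ) (x0 : I → E2)
      (S : I → ι → Set E2),
    (∀ i m, MeasurableSet (S i m)) →
    (∀ i m, (S i m).Nonempty → ∀ j, |inner ℝ (v m - c i) (b i j)| ≤ A * s i j) →
    (∀ i m, ∀ y ∈ S i m, ∀ j, |inner ℝ (y - x0 i) (b i j)| ≤ A * (s i j * r)) →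
    (∀ i, r ^ (1 / 2 : ℝ) ≤ s i 0 * r) → (∀ i, w ≤ s i 1 * r) → (∀ i j, 0 < s i j) →
    ∀ T : Set (E2 × ℝ), MeasurableSet T →
    (∀ i m, ∀ y ∈ S i m, ∀ t, |t| ≤ r → ∀ x ∈ Metric.closedBall (y - t • v m) w, (x, t) ∈ T) →
    ∀ G : E2 × ℝ → ℝ≥0∞, Measurable G →
    (∀ x x' t, G (x, t) ≤ ENNReal.ofReal (CG * (1 + ‖x - x'‖ / w) ^ (2 * N)) * G (x', t)) →
    (∀ x t, |t| ≤ r → ∑ i, se N w a v g S i x t ≤ ENNReal.ofReal (CG * w ^ 2) * G (x, t)) →
    ∀ Mu τ : ℝ, 0 ≤ Mu → 0 ≤ τ →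
    (∀ i x t, |t| ≤ r → x ∈ rect (x0 i - t • c i) (b i) (fun j => s i j * r) (2 + 2 * A) →
      seT (N + 2) (fr (b i) ![r ^ (1 / 2 : ℝ), w]) a v g (S i) x t ≤
        ENNReal.ofReal (r ^ (1 / 2 : ℝ) * w) *
          (ENNReal.ofReal Mu * G (x, t) + ENNReal.ofReal τ)) →
    ∑ i, ENNReal.ofReal (r * (s i 0 * s i 1 * r ^ 2) ^ (-(1/2) : ℝ)) * en a g S i ^ (3 / 2 : ℝ) ≤
      ENNReal.ofReal (C * Mu ^ (1 / 2 : ℝ)) * (∫⁻ z in T, G z ^ (3 / 2 : ℝ)) +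
        ENNReal.ofReal (C * τ ^ (1 / 2 : ℝ)) * (ENNReal.ofReal r * ∑ i, en a g S i) := by
  have hκ := kap_pos
  have hpi := Real.pi_pos
  have hkc := kc_nonneg N hA
  set Q1 : ℝ := kc N A * (CG ^ (1 / 2 : ℝ) * 5 ^ N * Real.pi ^ 2 / kap * 2 ^ N) * CG with hQ1
  set Q2 : ℝ := kc N A * Real.pi ^ 2 with hQ2
  have hQ10 : 0 ≤ Q1 := by positivity
  have hQ20 : 0 ≤ Q2 := by positivity
  refine ⟨Q1 + 2 * Q2, by positivity, ?_⟩
  intro r w hr hw ι I _ _ a v hsm hcp g hg c b s x0 S hS hdir hpos hus hws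
    hs0 T hT hTS G hG hsl hsum Mu τ hMu hτ hH
  have hr0 : 0 < r := by linarith
  have hu0 : 0 < r ^ (1 / 2 : ℝ) := Real.rpow_pos_of_pos hr0 _
  have hw0 : 0 < w := hu0.trans_le hw
  set E := ∑ i, en a g S i with hE
  set Y := ∑ i, ENNReal.ofReal ((s i 0 * s i 1 * r ^ 2) ^ (-(1/2) : ℝ)) * en a g S i ^ (3 / 2 : ℝ)
    with hY
  have hslice : ∀ t ∈ Set.Icc (-r) r, Y ≤ ENNReal.ofReal (Q1 * Mu ^ (1 / 2 : ℝ)) *
      (∫⁻ x, T.indicator (fun z => G z ^ (3 / 2 : ℝ)) (x, t)) +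
        ENNReal.ofReal (Q2 * τ ^ (1 / 2 : ℝ)) * E := by
    intro t ht
    have ht' : |t| ≤ r := abs_le.2 ht
    have hTt : MeasurableSet ((fun x : E2 => ((x, t) : E2 × ℝ)) ⁻¹' T) :=
      hT.preimage (measurable_id.prodMk measurable_const)
    have h2 := slice_mult N hA hr0 hu0 hw (C1 := CG) (CG := CG) hCG hS hdir
      hpos hus hws hs0 hsm hcp hg t ht' (fun x => G (x, t))
      (hG.comp (measurable_id.prodMk measurable_const)) hMu hτ
      (fun i x hx => hH i x t ht' hx) (fun x x' => hsl x x' t)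
      (fun x => hsum x t ht')
      ((fun x => ((x, t) : E2 × ℝ)) ⁻¹' T) (fun i m y hy x hx => hTS i m y hy t ht' x hx)
    refine h2.trans (add_le_add (le_of_eq ?_) (le_of_eq ?_))
    · rw [← hQ1, ← lintegral_indicator hTt]
      congr 1
    · rw [← hQ2]
  have hm : Measurable (T.indicator (fun z => G z ^ (3 / 2 : ℝ))) :=
    (hG.pow_const _).indicator hT
  have hfin : ENNReal.ofReal (2 * r) * Y ≤ ENNReal.ofReal (Q1 * Mu ^ (1 / 2 : ℝ)) *
      (∫⁻ z in T, G z ^ (3 / 2 : ℝ)) +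
        ENNReal.ofReal (2 * r) * (ENNReal.ofReal (Q2 * τ ^ (1 / 2 : ℝ)) * E) := by
    calc ENNReal.ofReal (2 * r) * Y = ∫⁻ _t in Set.Icc (-r) r, Y := by
          rw [setLIntegral_const, Real.volume_Icc, mul_comm]
          congr 2; ring
      _ ≤ ∫⁻ t in Set.Icc (-r) r, (ENNReal.ofReal (Q1 * Mu ^ (1 / 2 : ℝ)) *
            (∫⁻ x, T.indicator (fun z => G z ^ (3 / 2 : ℝ)) (x, t)) +
            ENNReal.ofReal (Q2 * τ ^ (1 / 2 : ℝ)) * E) :=
          setLIntegral_mono' measurableSet_Icc hslice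
      _ = ENNReal.ofReal (Q1 * Mu ^ (1 / 2 : ℝ)) * (∫⁻ t in Set.Icc (-r) r,
            ∫⁻ x, T.indicator (fun z => G z ^ (3 / 2 : ℝ)) (x, t)) +
            ENNReal.ofReal (2 * r) * (ENNReal.ofReal (Q2 * τ ^ (1 / 2 : ℝ)) * E) := by
          rw [lintegral_add_right _ measurable_const, lintegral_const_mul' _ _ ENNReal.ofReal_ne_top,
            setLIntegral_const, Real.volume_Icc, mul_comm (ENNReal.ofReal (Q2 * _) * E)]
          congr 3; ring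
      _ ≤ ENNReal.ofReal (Q1 * Mu ^ (1 / 2 : ℝ)) * (∫⁻ t,
            ∫⁻ x, T.indicator (fun z => G z ^ (3 / 2 : ℝ)) (x, t)) +
            ENNReal.ofReal (2 * r) * (ENNReal.ofReal (Q2 * τ ^ (1 / 2 : ℝ)) * E) := by
          gcongr
          exact Measure.restrict_le_self
      _ = _ := by
          rw [← lintegral_indicator hT, Measure.volume_eq_prod, lintegral_prod_symm _ hm.aemeasurable]
  calc ∑ i, ENNReal.ofReal (r * (s i 0 * s i 1 * r ^ 2) ^ (-(1/2) : ℝ)) * en a g S i ^ (3 / 2 : ℝ)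
      = ENNReal.ofReal r * Y := by
        rw [hY, Finset.mul_sum]
        refine Finset.sum_congr rfl fun i _ => ?_
        rw [ENNReal.ofReal_mul hr0.le, mul_assoc]
    _ ≤ ENNReal.ofReal (2 * r) * Y := by
        gcongr
        linarith
    _ ≤ _ := hfin
    _ ≤ _ := by
        have e1 : ENNReal.ofReal (2 * r) * (ENNReal.ofReal (Q2 * τ ^ (1 / 2 : ℝ)) * E) =
            ENNReal.ofReal (2 * Q2 * τ ^ (1 / 2 : ℝ)) * (ENNReal.ofReal r * E) := by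
          rw [← mul_assoc, ← mul_assoc, ← ENNReal.ofReal_mul (by positivity),
            ← ENNReal.ofReal_mul (by positivity)]
          congr 2; ring
        rw [e1]
        gcongr
        · linarith
        · linarith

end Crest.Agent.R138.Sm858
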