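import Crest.Agent.R138.Sm4_858
import Crest.Agent.R138.Ad2_480

/-!
# R138 / R139, wave side (helper858): SUPM for the packet densities `Ac` (helper480)
-/

set_option autoImplicit false

open MeasureTheory FourierTransform
open scoped ContDiff ENNReal

namespace Crest.Agent.R138.Sm858

open Crest.Agent.R138.Defs Crest.Agent.R138.Wf448
open Crest.Agent.R138.Ker858 (rect)
open Crest.Agent.R138.Sup882 (iso dw_iso grad_lip)
open Crest.Agent.R138.Wpk685 (cap win cen caps um sel Bs)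
open Crest.Agent.R138.Bn759 (nearId)
open Crest.Agent.R138.W188 (Plate Plates val Sd tr)
open Crest.Agent.R138.Low448 (fr)
open Crest.Agent.R138.Ad480 (wa Ac Ad upper sum_Ad_le Ad_transport Ac_shift measurable_Ac_xt
  wa_anti dw_le_wa)
open Crest.Agent.R138.Loc878 (nearL mem_nearL)

/-- the density at a point of the frame `ζ`. -/
theorem Ac_frame (n : ℕ) (h : E2 → ℝ) (ρ : ℝ) (g : E2 → ℂ) (S : ℤ × ℤ → Set E2)
    (M : Finset (ℤ × ℤ)) (ζ : E2 × ℝ) (x : E2) (t : ℝ) :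
    Ac n h ρ g S M (ζ + (0, t)) x = Ac n h ρ g S M (0, t + ζ.2) (x + ζ.1) := by
  unfold Ac
  congr 1
  refine Finset.sum_congr rfl fun m _ => ?_
  refine lintegral_congr fun y => ?_
  congr 3
  simp only [Prod.fst_add, Prod.snd_add, add_zero, sub_zero]
  rw [add_comm t ζ.2]
  abel

theorem dw_iso_le_wa {R : ℝ} (hR : 0 < R) {n N : ℕ} (hn : n ≤ 2 * N) (v : E2) :
    dw N (iso (R ^ (1/2 : ℝ))) v ≤ 2 ^ N * wa (R ^ (-(1/2) : ℝ)) n v := by
  have hθ : 0 < R ^ (-(1/2) : ℝ) := Real.rpow_pos_of_pos hR _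
  have hw : 0 < R ^ (1/2 : ℝ) := Real.rpow_pos_of_pos hR _
  rw [dw_iso hw]
  have e : ‖v‖ / R ^ (1/2 : ℝ) = R ^ (-(1/2) : ℝ) * ‖v‖ := by
    rw [Real.rpow_neg hR.le, div_eq_inv_mul]
  rw [e]
  refine (dw_le_wa hθ.le N v).trans ?_
  gcongr
  exact wa_anti hθ.le hn v

/-- **(S)**: the local energies of disjoint selections are bounded by the density of the parent. -/
theorem S_Ac (B : ℕ → ℝ) (hB : B 2 ≤ 1 / 10) (n N : ℕ) (hn : n ≤ 2 * N) : ∃ C : ℝ, 0 ≤ C ∧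
    ∀ h, ParB B h → ∀ R r : ℝ, 1 ≤ R → 1 ≤ r → r ≤ R → ∀ f : E2 → ℂ, Integrable f →
    ∀ S : ℤ × ℤ → Set E2, Bs (R ^ (-(1/2) : ℝ)) S → ∀ ζ ∈ cyl R,
    ∀ (I : Finset ℕ) (P : ℕ → Plate), (∀ i ∈ I, ∀ m, MeasurableSet ((P i).S m)) →
    (∀ i ∈ I, ∀ j ∈ I, i ≠ j → ∀ m, Disjoint ((P i).S m) ((P j).S m)) →
    ∀ M : Finset (ℤ × ℤ), (∀ i ∈ I, ∀ m' ∈ caps (r ^ (-(1/2) : ℝ)), ((P i).S m').Nonempty →
      nearL (R ^ (-(1/2) : ℝ)) (r ^ (-(1/2) : ℝ)) m' ⊆ M) → ∀ (x : E2) (t : ℝ), |t| ≤ r →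
    ∑ i ∈ I, seP N (iso (R ^ (1/2 : ℝ))) h r (tr h ζ (sel (R ^ (-(1/2) : ℝ)) f S)) (P i).S x t ≤
      ENNReal.ofReal (C * (R ^ (1/2 : ℝ)) ^ 2) *
        Ac n h (R ^ (-(1/2) : ℝ)) f S M (0, t + ζ.2) (x + ζ.1) := by
  classical
  obtain ⟨C1, hC1, h1⟩ := upper B n 1 le_rfl
  refine ⟨2 ^ N * C1 * (1 + 33 / 10) ^ n * 36, by positivity, ?_⟩
  intro h hh R r hR hr hrR f hf S hS ζ hζ I P hmeas hdisj M hM x t ht
  have hR0 : 0 < R := by linarith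
  have hr0 : 0 < r := by linarith
  have hn2 := nearId hB hh
  set θ : ℝ := R ^ (-(1/2) : ℝ) with hθdef
  set θ' : ℝ := r ^ (-(1/2) : ℝ) with hθ'def
  set w : ℝ := R ^ (1/2 : ℝ) with hwdef
  have hθ : 0 < θ := Real.rpow_pos_of_pos hR0 _
  have hθ' : 0 < θ' := Real.rpow_pos_of_pos hr0 _
  have hw : 0 < w := Real.rpow_pos_of_pos hR0 _
  have hθ1 : θ ≤ 1 := Real.rpow_le_one_of_one_le_of_nonpos hR (by norm_num)
  have hθθ' : θ ≤ θ' := Real.rpow_le_rpow_of_nonpos hr0 hrR (by norm_num)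
  have hwθ : w * θ = 1 := by
    rw [hwdef, hθdef, ← Real.rpow_add hR0]; norm_num
  have hθr : θ * θ' * |t| ≤ 1 := by
    have e1 : θ' * r = r ^ (1/2 : ℝ) := by
      rw [hθ'def, ← Real.rpow_add_one hr0.ne']; norm_num
    have e2 : r ^ (1/2 : ℝ) ≤ w := Real.rpow_le_rpow hr0.le hrR (by norm_num)
    calc θ * θ' * |t| ≤ θ * θ' * r := by gcongr
      _ = θ * (θ' * r) := by ring
      _ = θ * r ^ (1/2 : ℝ) := by rw [e1]
      _ ≤ θ * w := by gcongr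
      _ = 1 := by rw [mul_comm]; exact hwθ
  have hζ2 : |ζ.2| * θ ^ 2 ≤ 1 := by
    have e1 : θ ^ 2 = R⁻¹ := by
      rw [hθdef, ← Real.rpow_natCast, ← Real.rpow_mul hR0.le]
      norm_num
      exact Real.rpow_neg_one R
    rw [e1]
    calc |ζ.2| * R⁻¹ ≤ R * R⁻¹ := by gcongr; exact hζ.2
      _ = 1 := mul_inv_cancel₀ hR0.ne'
  set F := tr h ζ (sel θ f S) with hF
  set T : Finset (ℤ × ℤ) := (caps θ').filter fun m' => ∃ i ∈ I, ((P i).S m').Nonempty with hT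
  set Φ : ℤ × ℤ → E2 → ℝ≥0∞ := fun m' y =>
    ENNReal.ofReal (dw N (iso w) (y - (x + t • gradient h (cen θ' m')))) * ‖um θ' F m' y‖ₑ ^ 2
    with hΦ
  -- exchange
  have hA : ∑ i ∈ I, seP N (iso w) h r F (P i).S x t ≤ ∑ m' ∈ T, ∫⁻ y, Φ m' y := by
    unfold seP
    rw [Finset.sum_comm]
    have h2 : ∀ m' ∈ caps θ', ∑ i ∈ I, ∫⁻ y in (P i).S m', Φ m' y ≤
        if m' ∈ T then ∫⁻ y, Φ m' y else 0 := by
      intro m' hm'
      split_ifs with hc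
      · have h3 := lintegral_biUnion_finset (μ := (volume : Measure E2)) (s := I)
          (t := fun i => (P i).S m') (fun i hi j hj hij => hdisj i hi j hj hij m')
          (fun i hi => hmeas i hi m') (Φ m')
        rw [← h3]
        exact setLIntegral_le_lintegral _ _
      · refine le_of_eq (Finset.sum_eq_zero fun i hi => ?_)
        have h4 : ¬ ((P i).S m').Nonempty := fun hne =>
          hc (Finset.mem_filter.2 ⟨hm', i, hi, hne⟩)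
        rw [Set.not_nonempty_iff_eq_empty] at h4
        rw [h4]; simp
    refine (Finset.sum_le_sum h2).trans (le_of_eq ?_)
    rw [← Finset.sum_filter]
    congr 1
    ext m'
    simp only [Finset.mem_filter, hT]
    tauto
  -- one cap
  have hone : ∀ m' ∈ T, ∫⁻ y, Φ m' y ≤ ENNReal.ofReal (2 ^ N * C1 * (1 + 33 / 10) ^ n * w ^ 2) *
      Ad n h θ θ' f S m' (0, t + ζ.2) (x + ζ.1) := by
    intro m' hm'
    set c : E2 := x + t • gradient h (cen θ' m') with hc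
    have h2 := h1 h hh θ θ' hθ hθθ' hθ1 f hf S hS ζ hζ2 m' c
    have h3 : ∫⁻ y, Φ m' y ≤ ENNReal.ofReal (2 ^ N) *
        ∫⁻ v, ENNReal.ofReal (wa θ n (v - c)) * ‖um θ' F m' v‖ₑ ^ 2 := by
      rw [← lintegral_const_mul' _ _ ENNReal.ofReal_ne_top]
      refine lintegral_mono fun y => ?_
      rw [hΦ]
      simp only
      rw [← mul_assoc, ← ENNReal.ofReal_mul (by positivity)]
      refine mul_le_mul' (ENNReal.ofReal_le_ofReal ?_) le_rfl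
      exact dw_iso_le_wa hR0 hn _
    have h4 : Ad n h θ θ' f S m' ζ c ≤ ENNReal.ofReal ((1 + 33 / 10) ^ n) *
        Ad n h θ θ' f S m' (0, t + ζ.2) (x + ζ.1) := by
      have h5 := Ad_transport (n := n) (h := h) (ρ := θ) (ρ' := θ') (g := f) (S := S) (δ := 0)
        (L := 11 / 10) hθ.le hθ'.le le_rfl (by norm_num) (grad_lip hn2) (m' := m') (z := ζ)
        (z' := (0, t + ζ.2)) (x := c) (x' := x + ζ.1) (by
          have e3 : ((0 : E2) + (t + ζ.2) • gradient h (cen θ' m') + (x + ζ.1)) -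
              (ζ.1 + ζ.2 • gradient h (cen θ' m') + c) = 0 := by
            rw [hc, add_smul]; abel
          show θ * ‖((0 : E2) + (t + ζ.2) • gradient h (cen θ' m') + (x + ζ.1)) -
              (ζ.1 + ζ.2 • gradient h (cen θ' m') + c)‖ ≤ 0
          rw [e3, norm_zero, mul_zero])
      refine h5.trans (mul_le_mul' (ENNReal.ofReal_le_ofReal ?_) le_rfl)
      have e4 : |(((0 : E2), t + ζ.2) : E2 × ℝ).2 - ζ.2| = |t| := by
        show |t + ζ.2 - ζ.2| = |t|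
        rw [add_sub_cancel_right]
      rw [e4]
      gcongr
      linarith
    calc ∫⁻ y, Φ m' y ≤ ENNReal.ofReal (2 ^ N) *
          ∫⁻ v, ENNReal.ofReal (wa θ n (v - c)) * ‖um θ' F m' v‖ₑ ^ 2 := h3
      _ = ENNReal.ofReal (2 ^ N * w ^ 2) * (ENNReal.ofReal (θ ^ 2) *
          ∫⁻ v, ENNReal.ofReal (wa θ n (v - c)) * ‖um θ' F m' v‖ₑ ^ 2) := by
          rw [← mul_assoc, ← ENNReal.ofReal_mul (by positivity)]
          congr 2
          have : w ^ 2 * θ ^ 2 = 1 := by rw [← mul_pow, hwθ, one_pow]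
          rw [mul_assoc, this, mul_one]
      _ ≤ ENNReal.ofReal (2 ^ N * w ^ 2) * (ENNReal.ofReal C1 *
          (ENNReal.ofReal ((1 + 33 / 10) ^ n) *
            Ad n h θ θ' f S m' (0, t + ζ.2) (x + ζ.1))) := by
          exact mul_le_mul' le_rfl (h2.trans (mul_le_mul' le_rfl h4))
      _ = _ := by
          rw [← mul_assoc, ← mul_assoc, ← ENNReal.ofReal_mul (by positivity),
            ← ENNReal.ofReal_mul (by positivity)]
          congr 2; ring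
  have hTsub : T ⊆ caps θ' := Finset.filter_subset _ _
  have hTM : ∀ m' ∈ T, nearL θ θ' m' ⊆ M := by
    intro m' hm'
    obtain ⟨h2, i, hi, hne⟩ := Finset.mem_filter.1 hm'
    exact hM i hi m' h2 hne
  calc ∑ i ∈ I, seP N (iso w) h r F (P i).S x t ≤ ∑ m' ∈ T, ∫⁻ y, Φ m' y := hA
    _ ≤ ∑ m' ∈ T, ENNReal.ofReal (2 ^ N * C1 * (1 + 33 / 10) ^ n * w ^ 2) *
      Ad n h θ θ' f S m' (0, t + ζ.2) (x + ζ.1) := Finset.sum_le_sum hone
    _ = ENNReal.ofReal (2 ^ N * C1 * (1 + 33 / 10) ^ n * w ^ 2) *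
      ∑ m' ∈ T, Ad n h θ θ' f S m' (0, t + ζ.2) (x + ζ.1) := by rw [Finset.mul_sum]
    _ ≤ ENNReal.ofReal (2 ^ N * C1 * (1 + 33 / 10) ^ n * w ^ 2) *
      (36 * Ac n h θ f S M (0, t + ζ.2) (x + ζ.1)) := by
        gcongr
        exact sum_Ad_le hθ' hTsub hTM _ _
    _ = _ := by
        have e36 : (36 : ℝ≥0∞) = ENNReal.ofReal 36 := by norm_num
        rw [e36, ← mul_assoc, ← ENNReal.ofReal_mul (by positivity)]
        congr 2; ring

/-- **SUPM for the packet densities.** -/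
theorem SUPM_Ac (B : ℕ → ℝ) (hB : B 2 ≤ 1 / 10) (A : ℝ) (hA : 1 ≤ A) (n N : ℕ) (hn : n ≤ 2 * N) :
    ∃ C : ℝ, 0 ≤ C ∧ ∀ h : E2 → ℝ, ParB B h → fderiv ℝ h 0 = 0 →
    ∀ f : E2 → ℂ, Integrable f → ∀ r s1 s2 R : ℝ, 1 ≤ r → (3 * A + 8) * r ≤ R → Sd r s1 s2 →
    R ^ (1/2 : ℝ) ≤ s2 * r →
    ∀ S : ℤ × ℤ → Set E2, Bs (R ^ (-(1/2) : ℝ)) S →
    ∀ (I : Finset ℕ) (P : ℕ → Plate), Plates A h r s1 s2 R I P →
    ∀ (κ : Type) (K : Finset κ) (lab : ℕ → κ), (∀ i ∈ I, lab i ∈ K) →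
    ∀ M : κ → Finset (ℤ × ℤ), (∀ i ∈ I, ∀ m' ∈ caps (r ^ (-(1/2) : ℝ)), ((P i).S m').Nonempty →
      nearL (R ^ (-(1/2) : ℝ)) (r ^ (-(1/2) : ℝ)) m' ⊆ M (lab i)) →
    ∀ Mu τ : ℝ, 0 ≤ Mu → 0 ≤ τ →
    (∀ i ∈ I, ∀ x t, |t| ≤ r →
      x ∈ rect ((P i).x - t • (P i).c) (P i).b (fun j => ![s1, s2] j * r) (2 + 2 * A) →
      seP (N + 2) (fr (P i).b ![r ^ (1 / 2 : ℝ), R ^ (1/2 : ℝ)]) h r
          (tr h (P i).z (sel (R ^ (-(1/2) : ℝ)) f S)) (P i).S x t ≤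
        ENNReal.ofReal (r ^ (1 / 2 : ℝ) * R ^ (1/2 : ℝ)) *
          (ENNReal.ofReal Mu * Ac n h (R ^ (-(1/2) : ℝ)) f S (M (lab i)) ((P i).z + (0, t)) x +
            ENNReal.ofReal τ)) →
    val h (sel (R ^ (-(1/2) : ℝ)) f S) r s1 s2 I P ≤
      ENNReal.ofReal (C * Mu ^ (1 / 2 : ℝ)) * (∑ k ∈ K, ∫⁻ p in cyl (2 * R),
        Ac n h (R ^ (-(1/2) : ℝ)) f S (M k) (0, p.2) p.1 ^ (3 / 2 : ℝ)) +
        ENNReal.ofReal (C * τ ^ (1 / 2 : ℝ)) * (ENNReal.ofReal r *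
          ∑ i ∈ I, Wpk685.en (r ^ (-(1/2) : ℝ))
            (tr h (P i).z (sel (R ^ (-(1/2) : ℝ)) f S)) (P i).S) := by
  classical
  obtain ⟨C1, hC1, h1⟩ := S_Ac B hB n N hn
  set CG : ℝ := C1 + 1 with hCG
  obtain ⟨C, hC, h2⟩ := SUPM B hB A hA N CG (by positivity)
  refine ⟨C, hC, ?_⟩
  intro h hh hh1 f hf r s1 s2 R hr hR hs hws S hS I P hP κ K lab hlab M hM Mu τ hMu hτ hH
  have hrR : r ≤ R := by nlinarith
  have hR1 : 1 ≤ R := hr.trans hrR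
  have hR0 : 0 < R := by linarith
  have hr0 : 0 < r := by linarith
  have hθ : 0 < R ^ (-(1/2) : ℝ) := Real.rpow_pos_of_pos hR0 _
  have hw : 0 < R ^ (1/2 : ℝ) := Real.rpow_pos_of_pos hR0 _
  have hθ1 : R ^ (-(1/2) : ℝ) ≤ 1 := Real.rpow_le_one_of_one_le_of_nonpos hR1 (by norm_num)
  have hsel : Integrable (sel (R ^ (-(1/2) : ℝ)) f S) := (Wpk685.sel_int hθ hf hS).1
  have hwr : r ^ (1 / 2 : ℝ) ≤ R ^ (1 / 2 : ℝ) := Real.rpow_le_rpow hr0.le hrR (by norm_num)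
  have hG : ∀ i ∈ I, ∀ (x : E2) (t : ℝ),
      Ac n h (R ^ (-(1/2) : ℝ)) f S (M (lab i)) ((P i).z + (0, t)) x =
      Ac n h (R ^ (-(1/2) : ℝ)) f S (M (lab i)) (0, ((x, t) + (P i).z).2) ((x, t) + (P i).z).1 :=
    fun i _ x t => Ac_frame _ _ _ _ _ _ _ _ _
  refine h2 h hh hh1 _ hsel r s1 s2 (R ^ (1 / 2 : ℝ)) R hr hR hs hwr hws I P hP κ K lab hlab
    (fun k p => Ac n h (R ^ (-(1/2) : ℝ)) f S (M k) (0, p.2) p.1) ?_ ?_ ?_ Mu τ hMu hτ ?_
  · intro k _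
    have h3 := measurable_Ac_xt (n := n) (h := h) (S := S) hθ.le hf (M k) 0
    simpa using h3
  · intro k _ x x' t
    show Ac n h (R ^ (-(1/2) : ℝ)) f S (M k) (0, t) x ≤ _ *
      Ac n h (R ^ (-(1/2) : ℝ)) f S (M k) (0, t) x'
    have h3 := Ac_shift (n := n) (h := h) (g := f) (S := S) (M := M k) (z := ((0 : E2), t))
      (z' := ((0 : E2), t)) (x := x) (x' := x') hθ.le
      (δ := ‖x - x'‖ / R ^ (1/2 : ℝ)) (by positivity) (by
        intro m _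
        rw [add_sub_add_left_eq_sub, ← norm_neg, neg_sub, Real.rpow_neg hR0.le, ← div_eq_inv_mul])
    refine h3.trans (mul_le_mul' (ENNReal.ofReal_le_ofReal ?_) le_rfl)
    have h4 : (1:ℝ) ≤ 1 + ‖x - x'‖ / R ^ (1/2 : ℝ) := by
      have : 0 ≤ ‖x - x'‖ / R ^ (1/2 : ℝ) := by positivity
      linarith
    calc (1 + ‖x - x'‖ / R ^ (1/2 : ℝ)) ^ n ≤ (1 + ‖x - x'‖ / R ^ (1/2 : ℝ)) ^ (2 * N) :=
          pow_le_pow_right₀ h4 hn
      _ ≤ CG * (1 + ‖x - x'‖ / R ^ (1/2 : ℝ)) ^ (2 * N) := by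
          refine le_mul_of_one_le_left (by positivity) ?_
          rw [hCG]; linarith
  · intro k _ ζ hζ x t ht
    have h3 := h1 h hh R r hR1 hr hrR f hf S hS ζ hζ (I.filter fun i => lab i = k ∧ (P i).z = ζ) P
      (fun i hi => hP.meas i (Finset.mem_filter.1 hi).1)
      (fun i hi j hj hij m => by
        obtain ⟨hi1, hi2⟩ := Finset.mem_filter.1 hi
        obtain ⟨hj1, hj2⟩ := Finset.mem_filter.1 hj
        exact hP.disj i hi1 j hj1 hij (hi2.2.trans hj2.2.symm) m)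
      (M k)
      (fun i hi m' hm' hne => by
        obtain ⟨hi1, hi2⟩ := Finset.mem_filter.1 hi
        have := hM i hi1 m' hm' hne
        rwa [hi2.1] at this) x t ht
    refine le_trans (le_of_eq ?_) (h3.trans ?_)
    · refine Finset.sum_congr ?_ fun i _ => rfl
      ext i
      simp only [Finset.mem_filter]
    · refine mul_le_mul' (ENNReal.ofReal_le_ofReal ?_) le_rfl
      gcongr
      rw [hCG]; linarith
  · intro i hi x t ht hx
    have h3 := hH i hi x t ht hx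
    rw [hG i hi x t] at h3
    exact h3

end Crest.Agent.R138.Sm858
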