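import Crest.Agent.R138.Sq_248

/-!
# R138, helper248: calculus of the extremiser (shape form, 829's design) and the generic level

`S` = compact set of shapes `x = (l, a)` (wide exponent, thin exponent), `φ v x` = exponent of the
maximal density of planks of level `v` and shape `x` (continuous in `x`).
`D q v = sup_{x ∈ S} (φ v x + q * x.1)`, `Arg q v` = maximisers, `lp q v` = largest `l` of a maximiser.
-/

namespace Crest.Agent.R138.Sq248

open Set Filter Topology MeasureTheory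

section shape

variable (S : Set (ℝ × ℝ)) (φ : ℝ → ℝ × ℝ → ℝ)

/-- penalised maximal density of level `v` -/
noncomputable def D (q v : ℝ) : ℝ := sSup ((fun x : ℝ × ℝ => φ v x + q * x.1) '' S)

/-- maximisers of level `v` -/
def Arg (q v : ℝ) : Set (ℝ × ℝ) := {x | x ∈ S ∧ φ v x + q * x.1 = D S φ q v}

/-- largest wide exponent of a maximiser -/
noncomputable def lp (q v : ℝ) : ℝ := sSup ((fun x : ℝ × ℝ => x.1) '' Arg S φ q v)

/-- largest thin exponent of a maximiser -/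
noncomputable def ap (q v : ℝ) : ℝ := sSup ((fun x : ℝ × ℝ => x.2) '' Arg S φ q v)

variable {S φ} (hS : IsCompact S) (hne : S.Nonempty) {q v : ℝ}

include hS in
theorem D_bddAbove (hφ : ContinuousOn (φ v) S) (q : ℝ) :
    BddAbove ((fun x : ℝ × ℝ => φ v x + q * x.1) '' S) := by
  apply (hS.image_of_continuousOn _).bddAbove
  exact hφ.add (by fun_prop)

include hS in
theorem le_D (hφ : ContinuousOn (φ v) S) {x : ℝ × ℝ} (hx : x ∈ S) (q : ℝ) :
    φ v x + q * x.1 ≤ D S φ q v :=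
  le_csSup (D_bddAbove hS hφ q) ⟨x, hx, rfl⟩

include hS hne in
theorem Arg_nonempty (hφ : ContinuousOn (φ v) S) (q : ℝ) : (Arg S φ q v).Nonempty := by
  have hc : ContinuousOn (fun x : ℝ × ℝ => φ v x + q * x.1) S := hφ.add (by fun_prop)
  obtain ⟨x, hx, h⟩ := hS.exists_sSup_image_eq hne hc
  exact ⟨x, hx, h.symm⟩

include hS hne in
theorem D_le {c : ℝ} (h : ∀ x ∈ S, φ v x + q * x.1 ≤ c) : D S φ q v ≤ c := by
  apply csSup_le (hne.image _)
  rintro _ ⟨x, hx, rfl⟩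
  exact h x hx

include hS in
theorem Arg_compact (hφ : ContinuousOn (φ v) S) (q : ℝ) : IsCompact (Arg S φ q v) := by
  have hc : ContinuousOn (fun x : ℝ × ℝ => φ v x + q * x.1) S := hφ.add (by fun_prop)
  have : Arg S φ q v = S ∩ (fun x : ℝ × ℝ => φ v x + q * x.1) ⁻¹' {D S φ q v} := by
    ext x; simp [Arg]
  rw [this]
  exact hS.of_isClosed_subset (hc.preimage_isClosed_of_isClosed hS.isClosed isClosed_singleton)
    inter_subset_left

include hS hne in
theorem lp_mem (hφ : ContinuousOn (φ v) S) (q : ℝ) : ∃ x ∈ Arg S φ q v, x.1 = lp S φ q v := by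
  obtain ⟨x, hx, h⟩ := (Arg_compact hS hφ q).exists_sSup_image_eq (Arg_nonempty hS hne hφ q)
    (continuous_fst.continuousOn)
  exact ⟨x, hx, h.symm⟩

include hS hne in
theorem ap_mem (hφ : ContinuousOn (φ v) S) (q : ℝ) : ∃ x ∈ Arg S φ q v, x.2 = ap S φ q v := by
  obtain ⟨x, hx, h⟩ := (Arg_compact hS hφ q).exists_sSup_image_eq (Arg_nonempty hS hne hφ q)
    (continuous_snd.continuousOn)
  exact ⟨x, hx, h.symm⟩

include hS in
theorem le_lp (hφ : ContinuousOn (φ v) S) {x : ℝ × ℝ} (hx : x ∈ Arg S φ q v) :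
    x.1 ≤ lp S φ q v :=
  le_csSup ((Arg_compact hS hφ q).image continuous_fst).bddAbove ⟨x, hx, rfl⟩

include hS in
theorem le_ap (hφ : ContinuousOn (φ v) S) {x : ℝ × ℝ} (hx : x ∈ Arg S φ q v) :
    x.2 ≤ ap S φ q v :=
  le_csSup ((Arg_compact hS hφ q).image continuous_snd).bddAbove ⟨x, hx, rfl⟩

include hS hne in
/-- lattice lemma (829 / 992) as hypothesis: then ONE maximiser is narrowest and thinnest -/
theorem lp_ap_mem (hφ : ContinuousOn (φ v) S)
    (hlat : ∀ x ∈ Arg S φ q v, ∀ y ∈ Arg S φ q v, (max x.1 y.1, max x.2 y.2) ∈ Arg S φ q v) :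
    (lp S φ q v, ap S φ q v) ∈ Arg S φ q v := by
  obtain ⟨x, hx, hxl⟩ := lp_mem hS hne hφ q
  obtain ⟨y, hy, hya⟩ := ap_mem hS hne hφ q
  have h := hlat x hx y hy
  have h1 : y.1 ≤ x.1 := by rw [hxl]; exact le_lp hS hφ hy
  have h2 : x.2 ≤ y.2 := by rw [hya]; exact le_ap hS hφ hx
  rwa [max_eq_left h1, max_eq_right h2, hxl, hya] at h

include hS hne in
/-- the potential is Lipschitz in the penalty -/
theorem D_lipschitz (hφ : ContinuousOn (φ v) S) {M : ℝ} (hM : ∀ x ∈ S, |x.1| ≤ M) (q q' : ℝ) :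
    |D S φ q v - D S φ q' v| ≤ M * |q - q'| := by
  have key : ∀ q q' : ℝ, D S φ q v ≤ D S φ q' v + M * |q - q'| := by
    intro q q'
    apply D_le hS hne
    intro x hx
    have h1 := le_D hS hφ hx q'
    have h2 : (q - q') * x.1 ≤ M * |q - q'| := by
      calc (q - q') * x.1 ≤ |(q - q') * x.1| := le_abs_self _
        _ = |q - q'| * |x.1| := abs_mul _ _
        _ ≤ |q - q'| * M := mul_le_mul_of_nonneg_left (hM x hx) (abs_nonneg _)
        _ = M * |q - q'| := mul_comm _ _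
    have h3 : q * x.1 = q' * x.1 + (q - q') * x.1 := by ring
    linarith
  rw [abs_le]
  constructor
  · have := key q' q
    rw [abs_sub_comm q' q] at this
    linarith
  · have := key q q'
    linarith

include hS hne in
/-- **(E5+)** for one pair of levels `u < v`: window inequality for the penalties `q + ε`, equality
at `q`, then every maximiser of the upper level `v` is wider than the narrowest maximiser of the
lower level `u` by `κ (v - u)`. -/
theorem record_sweep {u v q κ b L ε0 : ℝ} (hε0 : 0 < ε0)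
    (hφu : ContinuousOn (φ u) S) (hφv : ContinuousOn (φ v) S)
    (hwin : ∀ ε, 0 < ε → ε ≤ ε0 →
      D S φ (q + ε) v - D S φ (q + ε) u ≤ L + (b - κ * ε) * (v - u))
    (heq : L + b * (v - u) ≤ D S φ q v - D S φ q u) :
    κ * (v - u) ≤ lp S φ q u - lp S φ q v := by
  obtain ⟨x, hx, hxl⟩ := lp_mem hS hne hφv q
  -- the compact set of pairs (φ u y, y.1)
  set A : Set (ℝ × ℝ) := (fun y : ℝ × ℝ => (φ u y, y.1)) '' S with hA
  have hAc : IsCompact A := hS.image_of_continuousOn (hφu.prodMk continuous_fst.continuousOn)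
  have hAne : A.Nonempty := hne.image _
  have hD : ∀ p : ℝ, sSup ((fun y : ℝ × ℝ => y.1 + p * y.2) '' A) = D S φ p u := by
    intro p
    rw [hA, image_image]
    rfl
  obtain ⟨z, hzA, hz1, hz2⟩ := sweep_compact hAc hAne (x := (φ v x, x.1)) (q := q) (L := L)
    (b := b) (κ := κ) (h := v - u) hε0
    (by
      intro ε h1 h2
      rw [hD]
      have h3 := hwin ε h1 h2
      have h4 := le_D hS hφv hx.1 (q + ε)
      simp only
      linarith)
    (by
      rw [hD]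
      simp only
      rw [hx.2]
      linarith)
  obtain ⟨y, hyS, rfl⟩ := hzA
  have hyA : y ∈ Arg S φ q u := ⟨hyS, by rw [← hD q]; exact hz1⟩
  have := le_lp hS hφu hyA
  simp only at hz2
  rw [← hxl]
  linarith

end shape

section joint

/-- Choice of the penalty by a JOINT near-maximisation over (configuration, penalty): no
semicontinuity of `β` needed.  `G F q` = gap of the configuration `F` at the penalty `q`;
`G F q ≤ K (q2 - q)` says that the gap is `≤ 0` at `q2` and Lipschitz in `q` (one sided). -/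
theorem exists_joint {α : Type*} {G : α → ℝ → ℝ} {q0 q2 g0 K : ℝ} (h02 : q0 < q2)
    {F0 : α} (h0 : g0 ≤ G F0 q0) (hg0 : 0 < g0) (hK0 : 0 ≤ K)
    (hK : ∀ F, ∀ q, q0 ≤ q → q ≤ q2 → G F q ≤ K * (q2 - q)) :
    ∃ κ β' q1 : ℝ, 0 < κ ∧ q1 < q2 ∧ (∀ q, q ≤ q2 → g0 / 2 ≤ β' - κ * q) ∧
      (∀ F q, q0 ≤ q → q ≤ q2 → G F q ≤ β' - κ * q) ∧
      ∀ η > 0, ∃ F q, q0 ≤ q ∧ q ≤ q1 ∧ β' - κ * q - η ≤ G F q := by
  classical
  have hd : 0 < q2 - q0 := sub_pos.2 h02
  set κ : ℝ := g0 / (2 * (q2 - q0)) with hκ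
  have hκ0 : 0 < κ := by positivity
  have hκd : κ * (q2 - q0) = g0 / 2 := by rw [hκ]; field_simp
  -- the set of values of `G F q + κ q`
  set V : Set ℝ := {y | ∃ F q, q0 ≤ q ∧ q ≤ q2 ∧ y = G F q + κ * q} with hV
  have hVne : V.Nonempty := ⟨G F0 q0 + κ * q0, F0, q0, le_refl _, h02.le, rfl⟩
  have hVb : BddAbove V := by
    refine ⟨K * (q2 - q0) + κ * q2, ?_⟩
    rintro y ⟨F, q, h1, h3, rfl⟩
    have h4 := hK F q h1 h3
    have h5 : K * (q2 - q) ≤ K * (q2 - q0) := mul_le_mul_of_nonneg_left (by linarith) hK0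
    have h6 : κ * q ≤ κ * q2 := mul_le_mul_of_nonneg_left h3 hκ0.le
    linarith
  have hle : g0 + κ * q0 ≤ sSup V := by
    refine le_trans ?_ (le_csSup hVb ⟨F0, q0, le_refl _, h02.le, rfl⟩)
    linarith
  have hval : g0 / 2 + κ * q2 ≤ sSup V := by
    have : κ * q2 = κ * q0 + κ * (q2 - q0) := by ring
    rw [this, hκd]; linarith
  refine ⟨κ, sSup V, q2 - g0 / (4 * (K + 1)), hκ0, by
    have : 0 < g0 / (4 * (K + 1)) := by positivity
    linarith, ?_, ?_, ?_⟩
  · intro q hq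
    have h6 : κ * q ≤ κ * q2 := mul_le_mul_of_nonneg_left hq hκ0.le
    linarith
  · intro F q h1 h3
    have := le_csSup hVb (show G F q + κ * q ∈ V from ⟨F, q, h1, h3, rfl⟩)
    linarith
  · intro η hη
    set η' : ℝ := min η (g0 / 8) with hη'
    have hη'0 : 0 < η' := lt_min hη (by positivity)
    obtain ⟨y, ⟨F, q, h1, h3, rfl⟩, hy⟩ := exists_lt_of_lt_csSup hVne
      (show sSup V - η' < sSup V by linarith)
    refine ⟨F, q, h1, ?_, ?_⟩
    · by_contra hcon
      push Not at hcon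
      have h4 := hK F q h1 h3
      have h5 : K * (q2 - q) ≤ g0 / 4 := by
        have h6 : q2 - q ≤ g0 / (4 * (K + 1)) := by linarith
        calc K * (q2 - q) ≤ K * (g0 / (4 * (K + 1))) := mul_le_mul_of_nonneg_left h6 hK0
          _ = (g0 / 4) * (K / (K + 1)) := by field_simp
          _ ≤ (g0 / 4) * 1 := by
            apply mul_le_mul_of_nonneg_left _ (by positivity)
            rw [div_le_one (by linarith)]; linarith
          _ = g0 / 4 := by ring
      have h7 : κ * q ≤ κ * q2 := mul_le_mul_of_nonneg_left h3 hκ0.le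
      have h8 : η' ≤ g0 / 8 := min_le_right _ _
      linarith
    · have : η' ≤ η := min_le_left _ _
      linarith

end joint

section generic

/-- a monotone function on `[0,1]` is differentiable at a.e. point -/
theorem ae_hasDerivAt_of_monotoneOn {f : ℝ → ℝ} (hf : MonotoneOn f (Icc 0 1)) :
    ∀ᵐ x, x ∈ Ioo (0 : ℝ) 1 → ∃ c, HasDerivAt f c x := by
  filter_upwards [hf.ae_differentiableWithinAt_of_mem] with x hx hxI
  have h := hx (Ioo_subset_Icc_self hxI)
  exact ⟨_, (h.differentiableAt (Icc_mem_nhds hxI.1 hxI.2)).hasDerivAt⟩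

theorem ae_hasDerivAt_of_antitoneOn {f : ℝ → ℝ} (hf : AntitoneOn f (Icc 0 1)) :
    ∀ᵐ x, x ∈ Ioo (0 : ℝ) 1 → ∃ c, HasDerivAt f c x := by
  filter_upwards [ae_hasDerivAt_of_monotoneOn (f := fun x => - f x) hf.neg] with x hx hxI
  obtain ⟨c, hc⟩ := hx hxI
  refine ⟨-c, ?_⟩
  have h := hc.neg
  have e : (-fun x => -f x) = f := by funext x; simp
  rwa [e] at h

/-- slope bound at a point of differentiability -/
theorem deriv_le_of_le {f : ℝ → ℝ} {c K v0 : ℝ} (hv : v0 ∈ Ioo (0 : ℝ) 1) (hf : HasDerivAt f c v0)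
    (h : ∀ v, v0 ≤ v → v ≤ 1 → f v - f v0 ≤ K * (v - v0)) : c ≤ K := by
  have ht := (hasDerivWithinAt_iff_tendsto_slope' (by simp : v0 ∉ Ioi v0)).1
    (hf.hasDerivWithinAt (s := Ioi v0))
  apply le_of_tendsto ht
  have hmem : Ioc v0 1 ∈ 𝓝[>] v0 := Ioc_mem_nhdsGT hv.2
  filter_upwards [hmem] with x hx
  rw [slope_def_field, div_le_iff₀ (sub_pos.2 hx.1)]
  exact h x hx.1.le hx.2

theorem le_deriv_of_le {f : ℝ → ℝ} {c K v0 : ℝ} (hv : v0 ∈ Ioo (0 : ℝ) 1) (hf : HasDerivAt f c v0)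
    (h : ∀ v, v0 ≤ v → v ≤ 1 → K * (v - v0) ≤ f v - f v0) : K ≤ c := by
  have := deriv_le_of_le (f := fun x => - f x) (c := -c) (K := -K) hv hf.neg
    (fun v h1 h2 => by have := h v h1 h2; linarith)
  linarith

/-- **generic level**: own loss `Λ` (monotone, slope at most one), record `l` (drops at rate at
least `κ`), thin exponent `a` with `a - C v` antitone: at a.e. level all three have a derivative,
with the right signs. -/
theorem ae_generic {Λ l a : ℝ → ℝ} {κ C : ℝ}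
    (hΛ : MonotoneOn Λ (Icc 0 1)) (hΛ1 : ∀ u v, 0 ≤ u → u ≤ v → v ≤ 1 → Λ v - Λ u ≤ v - u)
    (hκ : 0 ≤ κ) (hl : ∀ u v, 0 ≤ u → u ≤ v → v ≤ 1 → κ * (v - u) ≤ l u - l v)
    (ha : ∀ u v, 0 ≤ u → u ≤ v → v ≤ 1 → a v - a u ≤ C * (v - u)) :
    ∀ᵐ v0, v0 ∈ Ioo (0 : ℝ) 1 → ∃ s θ a1, HasDerivAt Λ s v0 ∧ HasDerivAt l (-θ) v0 ∧
      HasDerivAt a a1 v0 ∧ 0 ≤ s ∧ s ≤ 1 ∧ κ ≤ θ ∧ a1 ≤ C := by
  have hlanti : AntitoneOn l (Icc 0 1) := by
    intro u hu v hv huv
    have := hl u v hu.1 huv hv.2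
    have h2 : 0 ≤ κ * (v - u) := mul_nonneg hκ (by linarith)
    linarith
  have hanti : AntitoneOn (fun v => a v - C * v) (Icc 0 1) := by
    intro u hu v hv huv
    have := ha u v hu.1 huv hv.2
    simp only
    linarith
  filter_upwards [ae_hasDerivAt_of_monotoneOn hΛ, ae_hasDerivAt_of_antitoneOn hlanti,
    ae_hasDerivAt_of_antitoneOn hanti] with v0 h1 h2 h3 hv
  obtain ⟨s, hs⟩ := h1 hv
  obtain ⟨t, ht⟩ := h2 hv
  obtain ⟨r, hr⟩ := h3 hv
  have hr' : HasDerivAt a (r + C) v0 := by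
    have h := hr.add ((hasDerivAt_id v0).const_mul C)
    have e : ((fun v => a v - C * v) + fun y => C * id y) = a := by funext x; simp
    rw [e, mul_one] at h
    exact h
  refine ⟨s, -t, r + C, hs, by simpa using ht, hr', ?_, ?_, ?_, ?_⟩
  · apply le_deriv_of_le hv hs
    intro v h4 h5
    have := hΛ ⟨hv.1.le, hv.2.le⟩ ⟨hv.1.le.trans h4, h5⟩ h4
    linarith
  · apply deriv_le_of_le hv hs
    intro v h4 h5
    have := hΛ1 v0 v hv.1.le h4 h5
    linarith
  · have : t ≤ -κ := by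
      apply deriv_le_of_le hv ht
      intro v h4 h5
      have := hl v0 v hv.1.le h4 h5
      linarith
    linarith
  · apply deriv_le_of_le hv hr'
    intro v h4 h5
    exact ha v0 v hv.1.le h4 h5

/-- existence of a generic level in any non-null set of levels -/
theorem exists_generic {Λ l a : ℝ → ℝ} {κ C : ℝ}
    (hΛ : MonotoneOn Λ (Icc 0 1)) (hΛ1 : ∀ u v, 0 ≤ u → u ≤ v → v ≤ 1 → Λ v - Λ u ≤ v - u)
    (hκ : 0 ≤ κ) (hl : ∀ u v, 0 ≤ u → u ≤ v → v ≤ 1 → κ * (v - u) ≤ l u - l v)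
    (ha : ∀ u v, 0 ≤ u → u ≤ v → v ≤ 1 → a v - a u ≤ C * (v - u))
    {E : Set ℝ} (hE : volume E ≠ 0) (hE1 : E ⊆ Ioo 0 1) :
    ∃ v0 ∈ E, ∃ s θ a1, HasDerivAt Λ s v0 ∧ HasDerivAt l (-θ) v0 ∧
      HasDerivAt a a1 v0 ∧ 0 ≤ s ∧ s ≤ 1 ∧ κ ≤ θ ∧ a1 ≤ C := by
  have h := ae_generic hΛ hΛ1 hκ hl ha
  by_contra hcon
  push Not at hcon
  apply hE
  have : E ⊆ {v0 | ¬ (v0 ∈ Ioo (0 : ℝ) 1 → ∃ s θ a1, HasDerivAt Λ s v0 ∧ HasDerivAt l (-θ) v0 ∧
      HasDerivAt a a1 v0 ∧ 0 ≤ s ∧ s ≤ 1 ∧ κ ≤ θ ∧ a1 ≤ C)} := by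
    intro v0 hv0 hbad
    obtain ⟨s, θ, a1, h1, h2, h3, h4, h5, h6, h7⟩ := hbad (hE1 hv0)
    have := hcon v0 hv0 s θ a1 h1 h2 h3 h4 h5 h6
    linarith
  exact measure_mono_null this h

/-- linear approximation on a whole window -/
theorem window_approx {f : ℝ → ℝ} {c v0 : ℝ} (hf : HasDerivAt f c v0) {ε : ℝ} (hε : 0 < ε) (R : ℝ) :
    ∃ h0 > 0, ∀ h, 0 < h → h ≤ h0 → ∀ x, |x| ≤ R → |f (v0 + h * x) - f v0 - c * (h * x)| ≤ ε * h := by
  have h1 := (hasDerivAt_iff_isLittleO.1 hf)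
  have hR : 0 < |R| + 1 := by positivity
  have h2 := h1.def (show 0 < ε / (|R| + 1) by positivity)
  obtain ⟨δ, hδ, hball⟩ := Metric.eventually_nhds_iff.1 h2
  refine ⟨δ / (2 * (|R| + 1)), by positivity, fun h hh hh0 x hx => ?_⟩
  have hxR : |x| ≤ |R| + 1 := hx.trans ((le_abs_self R).trans (by linarith))
  have hd : dist (v0 + h * x) v0 < δ := by
    rw [Real.dist_eq, add_sub_cancel_left, abs_mul, abs_of_pos hh]
    calc h * |x| ≤ δ / (2 * (|R| + 1)) * (|R| + 1) :=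
          mul_le_mul hh0 hxR (abs_nonneg _) (by positivity)
      _ = δ / 2 := by field_simp
      _ < δ := by linarith
  have h3 := hball hd
  rw [Real.norm_eq_abs, Real.norm_eq_abs, add_sub_cancel_left, smul_eq_mul, abs_mul h x,
    abs_of_pos hh] at h3
  calc |f (v0 + h * x) - f v0 - c * (h * x)|
      = |f (v0 + h * x) - f v0 - h * x * c| := by ring_nf
    _ ≤ ε / (|R| + 1) * (h * |x|) := h3
    _ ≤ ε / (|R| + 1) * (h * (|R| + 1)) := by
        apply mul_le_mul_of_nonneg_left _ (by positivity)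
        exact mul_le_mul_of_nonneg_left hxR hh.le
    _ = ε * h := by field_simp

end generic

end Crest.Agent.R138.Sq248
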