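import Mathlib

/-!
# R138, helper248: the choice of the penalty `q` (doc 1929, sections 0' and 1)

* `exists_qstar`      : from the signs of `β` at the two ends of `[q0,q2]` and upper semicontinuity we
  get `q`, `κ > 0` with `β q ≥ β q0 / 2 > 0` and `β (q+ε) ≤ β q - κ ε` for ALL `ε > 0`.
* `exists_qstar_of_lipschitz` : the same for a Lipschitz `β`.
* `lipschitz_sup`     : a supremum of `K`-Lipschitz functions is `K`-Lipschitz.
* `sweep_deriv`       : the right derivatives `τ` in `q` of the two potentials satisfy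
  `κ h ≤ τ u - τ v` (potentials arbitrary functions of `q`).
* `sweep_compact`     : the same for the compact sets of (log density, wide exponent).
* `sweep_near`        : quantitative version (finite families, no limits at all).
-/

namespace Crest.Agent.R138.Sq248

open Set Filter Topology

/-- Choice of the penalty.  Only upper semicontinuity of `β` on `[q0,q2]` is used. -/
theorem exists_qstar {β : ℝ → ℝ} {q0 q2 : ℝ} (h02 : q0 < q2)
    (husc : UpperSemicontinuousOn β (Icc q0 q2)) (h0 : 0 < β q0) (h2 : β q2 ≤ 0) :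
    ∃ q κ : ℝ, q0 ≤ q ∧ q < q2 ∧ 0 < κ ∧ β q0 / 2 ≤ β q ∧
      ∀ ε, 0 < ε → q + ε ≤ q2 → β (q + ε) ≤ β q - κ * ε := by
  classical
  set κ : ℝ := β q0 / (2 * (q2 - q0)) with hκ
  have hd : 0 < q2 - q0 := sub_pos.2 h02
  have hκ0 : 0 < κ := by positivity
  have hκd : κ * (q2 - q0) = β q0 / 2 := by
    rw [hκ]; field_simp
  -- the function `h = β + κ · id`
  set g : ℝ → ℝ := fun q => β q + κ * q with hg
  have hgusc : UpperSemicontinuousOn g (Icc q0 q2) := by
    apply husc.add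
    exact (continuous_const.mul continuous_id).continuousOn.upperSemicontinuousOn
  set S : Set ℝ := {q | q ∈ Icc q0 q2 ∧ g q0 ≤ g q} with hS
  have hq0S : q0 ∈ S := ⟨⟨le_refl _, h02.le⟩, le_refl _⟩
  have hbdd : BddAbove S := ⟨q2, fun q hq => hq.1.2⟩
  have hne : S.Nonempty := ⟨q0, hq0S⟩
  set q : ℝ := sSup S with hq
  have hq0 : q0 ≤ q := le_csSup hbdd hq0S
  have hq2 : q ≤ q2 := csSup_le hne (fun p hp => hp.1.2)
  have hqI : q ∈ Icc q0 q2 := ⟨hq0, hq2⟩
  -- `q ∈ S` by upper semicontinuity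
  have hgq : g q0 ≤ g q := by
    by_contra hlt
    push Not at hlt
    have := hgusc q hqI (g q0) hlt
    rw [eventually_nhdsWithin_iff] at this
    obtain ⟨δ, hδ, hball⟩ := Metric.eventually_nhds_iff.1 this
    obtain ⟨p, hpS, hp⟩ := exists_lt_of_lt_csSup hne (show q - δ < sSup S by
      rw [← hq]; linarith)
    have hpq : p ≤ q := le_csSup hbdd hpS
    have hdist : dist p q < δ := by
      rw [Real.dist_eq, abs_lt]; constructor <;> linarith
    have := hball hdist hpS.1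
    exact absurd hpS.2 (not_le.2 this)
  have hgq2 : g q2 < g q0 := by
    simp only [hg]
    have : κ * q2 = κ * q0 + κ * (q2 - q0) := by ring
    rw [this, hκd]
    linarith
  have hqlt : q < q2 := by
    rcases hq2.lt_or_eq with h | h
    · exact h
    · exfalso
      rw [h] at hgq
      exact absurd hgq (not_le.2 hgq2)
  refine ⟨q, κ, hq0, hqlt, hκ0, ?_, ?_⟩
  · have h1 : β q0 + κ * q0 ≤ β q + κ * q := hgq
    have h3 : κ * q ≤ κ * q2 := mul_le_mul_of_nonneg_left hq2 hκ0.le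
    have h4 : κ * q2 = κ * q0 + κ * (q2 - q0) := by ring
    rw [hκd] at h4
    linarith
  · intro ε hε hle
    have hmem : q + ε ∈ Icc q0 q2 := ⟨by linarith, hle⟩
    have hnot : q + ε ∉ S := fun hmem' => by
      have := le_csSup hbdd hmem'
      rw [← hq] at this
      linarith
    have hlt : g (q + ε) < g q0 := by
      by_contra hge
      push Not at hge
      exact hnot ⟨hmem, hge⟩
    have h5 : β (q + ε) + κ * (q + ε) < β q + κ * q := lt_of_lt_of_le hlt hgq
    nlinarith [h5]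

theorem exists_qstar_of_continuous {β : ℝ → ℝ} {q0 q2 : ℝ} (h02 : q0 < q2)
    (hc : ContinuousOn β (Icc q0 q2)) (h0 : 0 < β q0) (h2 : β q2 ≤ 0) :
    ∃ q κ : ℝ, q0 ≤ q ∧ q < q2 ∧ 0 < κ ∧ β q0 / 2 ≤ β q ∧
      ∀ ε, 0 < ε → q + ε ≤ q2 → β (q + ε) ≤ β q - κ * ε :=
  exists_qstar h02 hc.upperSemicontinuousOn h0 h2

theorem exists_qstar_of_lipschitz {β : ℝ → ℝ} {q0 q2 : ℝ} {K : NNReal} (h02 : q0 < q2)
    (hc : LipschitzOnWith K β (Icc q0 q2)) (h0 : 0 < β q0) (h2 : β q2 ≤ 0) :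
    ∃ q κ : ℝ, q0 ≤ q ∧ q < q2 ∧ 0 < κ ∧ β q0 / 2 ≤ β q ∧
      ∀ ε, 0 < ε → q + ε ≤ q2 → β (q + ε) ≤ β q - κ * ε :=
  exists_qstar_of_continuous h02 hc.continuousOn h0 h2

/-- A supremum of `K`-Lipschitz functions (bounded above at every point) is `K`-Lipschitz. -/
theorem lipschitz_sup {ι : Type*} [Nonempty ι] {e : ι → ℝ → ℝ} {s : Set ℝ} {K : ℝ}
    (hb : ∀ q ∈ s, BddAbove (range fun i => e i q))
    (hL : ∀ i, ∀ q ∈ s, ∀ q' ∈ s, |e i q - e i q'| ≤ K * |q - q'|) :
    ∀ q ∈ s, ∀ q' ∈ s, |(⨆ i, e i q) - (⨆ i, e i q')| ≤ K * |q - q'| := by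
  have key : ∀ q ∈ s, ∀ q' ∈ s, (⨆ i, e i q) ≤ (⨆ i, e i q') + K * |q - q'| := by
    intro q hq q' hq'
    apply ciSup_le
    intro i
    have h1 := (abs_le.1 (hL i q hq q' hq')).2
    have h2 : e i q' ≤ ⨆ i, e i q' := le_ciSup (hb q' hq') i
    linarith
  intro q hq q' hq'
  rw [abs_le]
  constructor
  · have := key q' hq' q hq
    rw [abs_sub_comm q' q] at this
    linarith
  · have := key q hq q' hq'
    linarith

/-- Step 1 of doc 1929 with right derivatives.  `Du, Dv` are the two potentials as functions of the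
penalty, `τu`, `τv` their right derivatives at `q`.  (Typical value at the upper end `v`, supremum at
the lower end `u`; both may be arbitrary functions.) -/
theorem sweep_deriv {Du Dv : ℝ → ℝ} {q τu τv L b κ h ε0 : ℝ} (hε0 : 0 < ε0)
    (hu : HasDerivWithinAt Du τu (Ioi q) q) (hv : HasDerivWithinAt Dv τv (Ioi q) q)
    (hwin : ∀ ε, 0 < ε → ε ≤ ε0 → Dv (q + ε) - Du (q + ε) ≤ L + (b - κ * ε) * h)
    (heq : L + b * h ≤ Dv q - Du q) :
    κ * h ≤ τu - τv := by
  have hd : HasDerivWithinAt (fun x => Dv x - Du x) (τv - τu) (Ioi q) q := hv.sub hu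
  have ht := (hasDerivWithinAt_iff_tendsto_slope' (by simp : q ∉ Ioi q)).1 hd
  have hle : ∀ᶠ x in 𝓝[>] q, slope (fun x => Dv x - Du x) q x ≤ -(κ * h) := by
    have hmem : Ioc q (q + ε0) ∈ 𝓝[>] q := Ioc_mem_nhdsGT (by linarith)
    filter_upwards [hmem] with x hx
    have hε : 0 < x - q := sub_pos.2 hx.1
    have h1 := hwin (x - q) hε (by linarith [hx.2])
    rw [show q + (x - q) = x by ring] at h1
    rw [slope_def_field, div_le_iff₀ hε]
    nlinarith [h1, heq]
  have := le_of_tendsto ht hle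
  linarith

/-- Step 1 of doc 1929 for the compact set `A` of pairs (log density, wide exponent) of the lower
level: every pair `x` of the upper level for which the window `[u,v]` is extremal at `q` has a
maximiser `y` of the lower level with `κ h + x.2 ≤ y.2`. -/
theorem sweep_compact {A : Set (ℝ × ℝ)} (hA : IsCompact A) (hne : A.Nonempty) {x : ℝ × ℝ}
    {q L b κ h ε0 : ℝ} (hε0 : 0 < ε0)
    (hwin : ∀ ε, 0 < ε → ε ≤ ε0 →
      (x.1 + (q + ε) * x.2) - sSup ((fun y : ℝ × ℝ => y.1 + (q + ε) * y.2) '' A)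
        ≤ L + (b - κ * ε) * h)
    (heq : L + b * h ≤ (x.1 + q * x.2) - sSup ((fun y : ℝ × ℝ => y.1 + q * y.2) '' A)) :
    ∃ y ∈ A, y.1 + q * y.2 = sSup ((fun y : ℝ × ℝ => y.1 + q * y.2) '' A) ∧
      κ * h + x.2 ≤ y.2 := by
  classical
  have hcont : ∀ p : ℝ, Continuous (fun y : ℝ × ℝ => y.1 + p * y.2) := fun p => by fun_prop
  have hbdd : ∀ p : ℝ, BddAbove ((fun y : ℝ × ℝ => y.1 + p * y.2) '' A) := fun p =>
    (hA.image (hcont p)).bddAbove
  -- maximisers for `q + ε0/(n+1)`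
  have hε : ∀ n : ℕ, 0 < ε0 / ((n : ℝ) + 1) := fun n => by positivity
  have hε' : ∀ n : ℕ, ε0 / ((n : ℝ) + 1) ≤ ε0 := fun n => by
    apply div_le_self hε0.le
    have : (0 : ℝ) ≤ n := Nat.cast_nonneg n
    linarith
  have hmax : ∀ n : ℕ, ∃ y ∈ A, sSup ((fun y : ℝ × ℝ => y.1 + (q + ε0 / ((n : ℝ) + 1)) * y.2) '' A)
      = y.1 + (q + ε0 / ((n : ℝ) + 1)) * y.2 := by
    intro n
    obtain ⟨y, hy, hys⟩ := hA.exists_sSup_image_eq hne
      (hcont (q + ε0 / ((n : ℝ) + 1))).continuousOn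
    exact ⟨y, hy, hys⟩
  choose y hyA hyS using hmax
  obtain ⟨z, hzA, φ, hφ, hlim⟩ := hA.tendsto_subseq hyA
  have hεlim : Tendsto (fun n : ℕ => ε0 / ((φ n : ℝ) + 1)) atTop (𝓝 0) := by
    have h1 : Tendsto (fun n : ℕ => ε0 / ((n : ℝ) + 1)) atTop (𝓝 0) := by
      have := tendsto_one_div_add_atTop_nhds_zero_nat (𝕜 := ℝ)
      have h2 := this.const_mul ε0
      simpa [div_eq_mul_inv] using h2
    exact h1.comp hφ.tendsto_atTop
  have hz1 : Tendsto (fun n => (y (φ n)).1) atTop (𝓝 z.1) :=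
    (continuous_fst.tendsto z).comp hlim
  have hz2 : Tendsto (fun n => (y (φ n)).2) atTop (𝓝 z.2) :=
    (continuous_snd.tendsto z).comp hlim
  refine ⟨z, hzA, ?_, ?_⟩
  · -- `z` is a maximiser at `q`
    apply le_antisymm
    · exact le_csSup (hbdd q) ⟨z, hzA, rfl⟩
    · obtain ⟨w, hwA, hwS⟩ := hA.exists_sSup_image_eq hne (hcont q).continuousOn
      have hwS' : sSup ((fun y : ℝ × ℝ => y.1 + q * y.2) '' A) = w.1 + q * w.2 := hwS
      rw [hwS']
      have hle : ∀ n : ℕ, w.1 + (q + ε0 / ((φ n : ℝ) + 1)) * w.2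
          ≤ (y (φ n)).1 + (q + ε0 / ((φ n : ℝ) + 1)) * (y (φ n)).2 := by
        intro n
        rw [← hyS (φ n)]
        exact le_csSup (hbdd _) ⟨w, hwA, rfl⟩
      have t1 : Tendsto (fun n : ℕ => w.1 + (q + ε0 / ((φ n : ℝ) + 1)) * w.2) atTop
          (𝓝 (w.1 + (q + 0) * w.2)) :=
        tendsto_const_nhds.add ((tendsto_const_nhds.add hεlim).mul_const _)
      have t2 : Tendsto (fun n : ℕ => (y (φ n)).1
          + (q + ε0 / ((φ n : ℝ) + 1)) * (y (φ n)).2) atTop (𝓝 (z.1 + (q + 0) * z.2)) :=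
        hz1.add ((tendsto_const_nhds.add hεlim).mul hz2)
      have := le_of_tendsto_of_tendsto' t1 t2 hle
      simpa using this
  · have hge : ∀ n : ℕ, κ * h + x.2 ≤ (y (φ n)).2 := by
      intro n
      set ε : ℝ := ε0 / ((φ n : ℝ) + 1) with hεdef
      have hεp : 0 < ε := hε (φ n)
      have h1 := hwin ε hεp (hε' (φ n))
      have h2 : sSup ((fun y : ℝ × ℝ => y.1 + (q + ε) * y.2) '' A)
          = (y (φ n)).1 + (q + ε) * (y (φ n)).2 := hyS (φ n)
      have h3 : (y (φ n)).1 + q * (y (φ n)).2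
          ≤ sSup ((fun y : ℝ × ℝ => y.1 + q * y.2) '' A) :=
        le_csSup (hbdd q) ⟨y (φ n), hyA (φ n), rfl⟩
      rw [h2] at h1
      have h4 : ε * (κ * h + x.2 - (y (φ n)).2) ≤ 0 := by nlinarith [h1, h3, heq]
      by_contra hcon
      push Not at hcon
      have : 0 < κ * h + x.2 - (y (φ n)).2 := by linarith
      have := mul_pos hεp this
      linarith
    exact ge_of_tendsto' hz2 hge

/-- Quantitative version: one `ε`, no limits.  `x` is a pair of the upper level, `y` an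
(approximate) maximiser for `q + ε` of the lower level, `η` the defect of extremality. -/
theorem sweep_near {x y : ℝ × ℝ} {q ε L b κ h η Dq Dqε : ℝ} (hε : 0 < ε)
    (hwin : (x.1 + (q + ε) * x.2) - Dqε ≤ L + (b - κ * ε) * h)
    (heq : L + b * h - η ≤ (x.1 + q * x.2) - Dq)
    (hy : Dqε - η ≤ y.1 + (q + ε) * y.2) (hyq : y.1 + q * y.2 ≤ Dq) :
    κ * h + x.2 - 2 * η / ε ≤ y.2 ∧ Dq - 2 * η - ε * (y.2 - x.2 - κ * h) ≤ y.1 + q * y.2 := by
  constructor
  · rw [← sub_nonneg]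
    have h1 : 0 ≤ (ε * (y.2 - x.2 - κ * h) + 2 * η) := by nlinarith
    have h2 : y.2 - (κ * h + x.2 - 2 * η / ε) = (ε * (y.2 - x.2 - κ * h) + 2 * η) / ε := by
      field_simp
      ring
    rw [h2]
    positivity
  · nlinarith

end Crest.Agent.R138.Sq248
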