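import Crest.Agent.R138.GenRoot5_639
import Crest.Agent.R138.PDef_654

/-!
# R138 wave side: the slab step for coefficient sums (helper639), part 1: local hypotheses from the
level data
-/

set_option autoImplicit false

open MeasureTheory FourierTransform
open scoped ContDiff ENNReal

namespace Crest.Agent.R138.GR639

open Crest.Agent.R138.Defs Crest.Agent.R138.Bil882 Crest.Agent.R138.W188
open Crest.Agent.R138.Wpk685 Crest.Agent.R138.W323 Crest.Agent.R138.P654 Crest.Agent.R138.Ad480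

theorem lint_biUnion_le (I : Finset ℕ) (S : ℕ → Set E2) (f : E2 → ℝ≥0∞) :
    ∫⁻ x in ⋃ i ∈ I, S i, f x ≤ ∑ i ∈ I, ∫⁻ x in S i, f x := by
  classical
  induction I using Finset.induction_on with
  | empty => simp
  | insert i s hi ih =>
    rw [Finset.set_biUnion_insert, Finset.sum_insert hi]
    exact (lintegral_union_le _ _ _).trans (add_le_add le_rfl ih)

/-- the packet energy of the union of the selections. -/
theorem en_uS_le (ρ : ℝ) (g : E2 → ℂ) (I : Finset ℕ) (P : ℕ → Plate) :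
    en ρ g (uS I P) ≤ ∑ i ∈ I, en ρ g (P i).S := by
  unfold en
  rw [Finset.sum_comm]
  refine Finset.sum_le_sum fun m _ => ?_
  exact lint_biUnion_le I (fun i => (P i).S m) _

/-- the parent class of one label in one frame. -/
theorem par_of {q A σ Cn : ℝ} {B : ℕ → ℝ} {nb M : ℕ} {h : E2 → ℝ} {g : E2 → ℂ} {R r : ℝ}
    {w : E2 × ℝ} {cls : OrthonormalBasis (Fin 2) ℝ E2 → ℤ × ℤ → E2 → ℕ}
    {Λ : Finset ℕ} {s : ℕ → ℝ × ℝ} {cl : ℕ → ℕ} {G : ℕ → E2 → ℂ} {D' : ℕ → ℝ} {rest : E2 → ℂ}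
    {I : ℕ → Finset ℕ} {P : ℕ → ℕ → Plate} {Na : ℕ} {M0 D : ℝ} (hSt : St B q Na M0 σ h g R D)
    (hσ : σ ≤ 1)
    (H : DecOut q A σ Cn B nb M h g R r w cls Λ s cl G D' rest I P) {π : ℕ} (hπ : π ∈ Λ)
    (hSd : Sd r (s π).1 (s π).2) :
    Par q A (1 / max 1 (Cn * nb)) h (tr h w g) r (s π).1 (s π).2 (D' π) (I π) (P π) := by
  have hhc : Continuous h := hSt.par.1.continuous
  have hgd : Gd (tr h w g) := W323.Gd.tr hhc (W323.St.gd hSt (by linarith)) w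
  obtain ⟨hpl, hz⟩ := H.pl π hπ
  refine ⟨hgd.int, hgd.l2, fun ξ hξ => ?_, (H.st π hπ).D0, hSd, hpl.meas, H.cp π hπ, H.bd π hπ,
    fun i hi j hj hij m => hpl.disj i hi j hj hij ((hz i hi).trans (hz j hj).symm) m, hpl.box,
    H.dens π hπ, fun i hi => ?_⟩
  · have h1 : ‖tr h w g ξ‖ = ‖g ξ‖ := norm_tr h w g ξ
    rw [hSt.supp ξ (lt_of_le_of_lt hσ hξ), norm_zero] at h1
    exact norm_eq_zero.1 h1
  · have h1 := H.dense π hπ i hi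
    have hm : 0 < max 1 (Cn * nb) := lt_max_of_lt_left one_pos
    have e1 : 1 / max 1 (Cn * nb) * D' π * ((s π).2 ^ q * ((s π).1 * (s π).2 * r ^ 2)) =
        1 / max 1 (Cn * nb) * (D' π * ((s π).2 ^ q * ((s π).1 * (s π).2 * r ^ 2))) := by ring
    rw [e1, ENNReal.ofReal_mul (by positivity)]
    refine (mul_le_mul_right h1 _).trans ?_
    rw [← mul_assoc, ← ENNReal.ofReal_mul (by positivity)]
    refine (mul_le_mul_left (ENNReal.ofReal_le_one.2 ?_) _).trans (one_mul _).le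
    rw [one_div, inv_mul_le_iff₀ hm, mul_one]
    exact le_max_right _ _

/-- **class data** of the plates of one label at level `dl * r1`, relative to the selections
`uS (I1 w) (P1 w)` of the parent label in the parent frames `w = ζ z`: density in `[a, 8a]`,
coherence count at least `p` (with `K0`) and at most `pp` (with `K`). -/
structure ClsOk (n : ℕ) (K0 K p pp : ℝ) (h : E2 → ℝ) (g : E2 → ℂ) (dl r1 : ℝ)
    (ζ : E2 × ℝ → E2 × ℝ) (I1 : E2 × ℝ → Finset ℕ) (P1 : E2 × ℝ → ℕ → Plate)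
    (Z2 : Finset (E2 × ℝ)) (I2 : E2 × ℝ → Finset ℕ) (P2 : E2 × ℝ → ℕ → Plate) : Prop where
  cls : ∃ a : ℝ, 0 ≤ a ∧ ∀ z ∈ Z2, ∀ i ∈ I2 z, ∀ m, ∀ y ∈ (P2 z i).S m,
    ENNReal.ofReal a ≤ Ad n h (an r1) (an (dl * r1)) (tr h (ζ z) g)
      (uS (I1 (ζ z)) (P1 (ζ z))) m (z - ζ z) y ∧
    Ad n h (an r1) (an (dl * r1)) (tr h (ζ z) g)
      (uS (I1 (ζ z)) (P1 (ζ z))) m (z - ζ z) y ≤ ENNReal.ofReal (8 * a) ∧
    p ≤ (pot n h (an r1) (an (dl * r1)) (an (dl * (dl * r1))) K0 (tr h (ζ z) g)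
      (uS (I1 (ζ z)) (P1 (ζ z))) (P2 z i).b (z - ζ z) m y : ℝ) ∧
    (pot n h (an r1) (an (dl * r1)) (an (dl * (dl * r1))) K (tr h (ζ z) g)
      (uS (I1 (ζ z)) (P1 (ζ z))) (P2 z i).b (z - ζ z) m y : ℝ) ≤ pp

/-- the coherence bound of a level from its class data (relative to the previous level). -/
theorem coh_of {B : ℕ → ℝ} (hC : COHu B) : ∃ d0 : ℝ, 0 < d0 ∧ d0 ≤ 1 ∧ ∀ n : ℕ, ∃ K1 : ℝ, 1 ≤ K1 ∧
    ∀ K : ℝ, K1 ≤ K → ∀ (K0 p pp : ℝ) (h : E2 → ℝ) (g : E2 → ℂ) (dl r0 Y : ℝ),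
    ParB B h → fderiv ℝ h 0 = 0 → 1 ≤ dl * r0 → 0 < dl → dl ≤ d0 → 1 ≤ Y →
    Y ≤ dl ^ (-(1/4) : ℝ) → 1 ≤ pp → ∀ (ζ : E2 × ℝ → E2 × ℝ) (I0 : E2 × ℝ → Finset ℕ)
    (P0 : E2 × ℝ → ℕ → Plate) (Z1 : Finset (E2 × ℝ)) (I1 : E2 × ℝ → Finset ℕ)
    (P1 : E2 × ℝ → ℕ → Plate),
    ClsOk n K0 K p pp h g dl r0 ζ I0 P0 Z1 I1 P1 →
    (∀ z ∈ Z1, ∀ i ∈ I0 (ζ z), ∀ m, MeasurableSet ((P0 (ζ z) i).S m)) →
    (∀ z ∈ Z1, z - ζ z ∈ cyl r0) →
    ∀ z ∈ Z1, Coh h (an (dl * r0)) (an (dl * (dl * r0))) (dl ^ (1/2 : ℝ)) Y (2 * (dl * r0)) (I1 z)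
      (P1 z) pp := by
  obtain ⟨d0, hd0, hd01, H⟩ := hC
  refine ⟨d0, hd0, hd01, fun n => ?_⟩
  obtain ⟨K1, hK1, H⟩ := H n
  refine ⟨K1, hK1, ?_⟩
  intro K hK K0 p pp h g dl r0 Y hh h1 hr0 hdl hdl0 hY hY2 hpp ζ I0 P0 Z1 I1 P1 hcls hmeas hζ z hz
  obtain ⟨a, ha, hcls⟩ := hcls.cls
  refine H K hK h hh h1 r0 dl Y a pp (tr h (ζ z) g) (uS (I0 (ζ z)) (P0 (ζ z))) (z - ζ z) (I1 z)
    (P1 z) hr0 hdl hdl0 hY hY2 (hζ z hz).2 ha hpp (fun m => ?_) (fun i hi m y hy => ?_)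
  · unfold uS
    exact Finset.measurableSet_biUnion _ fun i hi => hmeas z hz i hi m
  · obtain ⟨h2, h3, -, h4⟩ := hcls z hz i hi m y hy
    exact ⟨h2, h3, h4⟩

/-- the total tail of one slab step. -/
theorem tail_total {C1 CM R D r1 e n b K M0 Y e1 x : ℝ} {F MM : ℕ} (hC1 : 0 ≤ C1) (hCM : 0 ≤ CM)
    (hR : 1 ≤ R) (hr1 : 1 ≤ r1) (h1R : r1 ≤ R) (he : 0 ≤ e)
    (hb : 0 ≤ b) (hn0 : 0 ≤ n) (hn : n ≤ C1 * R ^ b) (hx : 0 ≤ x) (hY : R ^ e1 ≤ Y)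
    (hF : (F : ℝ) ≤ 216 * (R / r1) ^ 3)
    (hnd : e ≤ R ^ M0 * D) (hMM : 24 + |M0| + |K| + 3 * b ≤ e1 * MM) :
    ENNReal.ofReal (2 * x * (n + 1) ^ 3) * ((F : ℝ≥0∞) *
      (ENNReal.ofReal (CM * r1 ^ (20 : ℕ) * (Y ^ MM)⁻¹) * (ENNReal.ofReal e) ^ (3/2 : ℝ))) ≤
      ENNReal.ofReal (432 * (C1 + 1) ^ 3 * CM * x * (R ^ (-K) * (R * e * Real.sqrt D))) := by
  have hR0 : 0 < R := by linarith
  have hRe1 : 0 < R ^ e1 := by positivity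
  have hY0 : 0 < Y := by linarith
  rw [ENNReal.ofReal_rpow_of_nonneg he (by norm_num), ← ENNReal.ofReal_mul (by positivity),
    ← ENNReal.ofReal_natCast, ← ENNReal.ofReal_mul (Nat.cast_nonneg _),
    ← ENNReal.ofReal_mul (by positivity)]
  refine ENNReal.ofReal_le_ofReal ?_
  have a2 : (n + 1) ^ 3 ≤ (C1 + 1) ^ 3 * R ^ (3 * b) := by
    have hRb : 1 ≤ R ^ b := Real.one_le_rpow hR hb
    have h1 : n + 1 ≤ (C1 + 1) * R ^ b := by nlinarith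
    have h2 : R ^ (3 * b) = (R ^ b) ^ 3 := by
      rw [← Real.rpow_natCast (R ^ b) 3, ← Real.rpow_mul hR0.le]
      congr 1
      push_cast; ring
    rw [h2, ← mul_pow]
    gcongr
  have a3 : (F : ℝ) ≤ 216 * R ^ (3 : ℝ) := by
    rw [show (3:ℝ) = ((3:ℕ):ℝ) by norm_num, Real.rpow_natCast]
    refine hF.trans ?_
    gcongr
    exact div_le_self hR0.le hr1
  have a4 : r1 ^ (20 : ℕ) ≤ R ^ (20 : ℝ) := by
    rw [show (20:ℝ) = ((20:ℕ):ℝ) by norm_num, Real.rpow_natCast]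
    gcongr
  have a5 : (Y ^ MM)⁻¹ ≤ R ^ (-(e1 * MM)) := by
    calc (Y ^ MM)⁻¹ ≤ ((R ^ e1) ^ MM)⁻¹ := by gcongr
      _ = R ^ (-(e1 * MM)) := by
        rw [← Real.rpow_natCast, ← Real.rpow_mul hR0.le, ← Real.rpow_neg hR0.le]
  have a6 : e ^ (3/2 : ℝ) ≤ e * (R ^ (M0 / 2) * Real.sqrt D) := by
    have h5 : e ^ (3 / 2 : ℝ) = e * Real.sqrt e := by
      rw [show (3 / 2 : ℝ) = 1 + 1 / 2 by norm_num, Real.rpow_add_of_nonneg he (by norm_num)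
        (by norm_num), Real.rpow_one, Real.sqrt_eq_rpow]
    rw [h5]
    gcongr
    refine (Real.sqrt_le_sqrt hnd).trans ?_
    rw [Real.sqrt_mul (by positivity)]
    gcongr
    rw [Real.sqrt_eq_rpow, ← Real.rpow_mul hR0.le]
    apply le_of_eq; congr 1; ring
  calc 2 * x * (n + 1) ^ 3 * (F * (CM * r1 ^ (20 : ℕ) * (Y ^ MM)⁻¹ * e ^ (3/2 : ℝ)))
      ≤ 2 * x * ((C1 + 1) ^ 3 * R ^ (3 * b)) * ((216 * R ^ (3 : ℝ)) * (CM * R ^ (20 : ℝ) *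
          R ^ (-(e1 * MM)) * (e * (R ^ (M0 / 2) * Real.sqrt D)))) := by gcongr
    _ = 432 * (C1 + 1) ^ 3 * CM * x * ((R ^ (3 * b) * R ^ (3 : ℝ) * R ^ (20 : ℝ) *
          R ^ (-(e1 * MM)) * R ^ (M0 / 2)) * (e * Real.sqrt D)) := by ring
    _ ≤ 432 * (C1 + 1) ^ 3 * CM * x * (R ^ (1 - K) * (e * Real.sqrt D)) := by
        rw [← Real.rpow_add hR0, ← Real.rpow_add hR0, ← Real.rpow_add hR0, ← Real.rpow_add hR0]
        gcongr
        have h1 := le_abs_self M0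
        have h2 := abs_nonneg M0
        have h4 := le_abs_self K
        linarith
    _ = _ := by
        rw [show 1 - K = -K + 1 by ring, Real.rpow_add hR0, Real.rpow_one]; ring

end Crest.Agent.R138.GR639
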