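import Crest.Agent.R138.Gl_210
import Crest.Agent.R138.Chi_101
import Crest.Agent.R138.GenRoot5_639

/-!
# R138 / R139: WAVE side (helper210): the class functional of the slab chain

`AF Ma n K0 CE` : the auxiliary class of a phase point of the next level = the class `clsR`
(dyadic index of the density, dyadic index of the coherence count) relative to the parent selection
which dominates there.
-/

set_option autoImplicit false

open MeasureTheory FourierTransform
open scoped ENNReal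

namespace Crest.Agent.R138.Stp210

open Crest.Agent.R138.Defs Crest.Agent.R138.Bil882 Crest.Agent.R138.Wpk685 Crest.Agent.R138.W188
open Crest.Agent.R138.Gl210 Crest.Agent.R138.P654 Crest.Agent.R138.Ad480 Crest.Agent.R138.Chi101

/-- number of dyadic classes of the density. -/
noncomputable def nAR (Ma : ℕ) (R : ℝ) : ℕ := Ma * ⌈Real.logb 2 R⌉₊

/-- number of auxiliary classes. -/
noncomputable def naR (Ma : ℕ) (R : ℝ) : ℕ := 8 * ((nAR Ma R + 1) * (Nat.log 2 ⌊R⌋₊ + 1))

/-- the parent label which dominates. -/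
noncomputable def kap (h : E2 → ℝ) (L : Lev) (r' : ℝ) (z : E2 × ℝ) (m : ℤ × ℤ) (y : E2) : ℕ :=
  Dom878.argi (r' ^ (-(1/2) : ℝ)) (L.pf h z) (Finset.range L.n) m y

/-- the parent selection. -/
def uL (L : Lev) (w : E2 × ℝ) (κ : ℕ) : ℤ × ℤ → Set E2 := uS (L.I w κ) (L.P w κ)

open Classical in
/-- **the class functional**. -/
noncomputable def AF (Ma n : ℕ) (K0 CE : ℝ) : AuxF := fun h g R dl L r' z b m y =>
  if z ∈ cyl R then
    clsR (nAR Ma R) (CE * En g) K0 n h (an L.r) (an r') (an (dl * r')) (tr h (L.ζ z) g)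
      (uL L (L.ζ z) (kap h L r' z m y)) (z - L.ζ z) b m y
  else 0

/-! ### bounds -/

theorem naR_pos (Ma : ℕ) (R : ℝ) : 1 ≤ naR Ma R := by
  unfold naR
  have : 0 < (nAR Ma R + 1) * (Nat.log 2 ⌊R⌋₊ + 1) := by positivity
  omega

theorem naR_le (Ma : ℕ) (hMa : 1 ≤ Ma) {η : ℝ} (hη : 0 < η) :
    ∃ C : ℝ, ∀ R, 1 ≤ R → (naR Ma R : ℝ) ≤ C * R ^ η := by
  obtain ⟨C, hC, H⟩ := Acl101.nb_bound hη Ma
  refine ⟨8 * C, fun R hR => ?_⟩
  have h1 : ((⌊R⌋₊ : ℕ) : ℝ) ≤ R ^ Ma := by
    refine (Nat.floor_le (by linarith)).trans ?_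
    calc R = R ^ 1 := (pow_one R).symm
      _ ≤ R ^ Ma := pow_le_pow_right₀ hR hMa
  have h2 := H R ⌊R⌋₊ hR h1
  unfold naR nAR
  push_cast at h2 ⊢
  linarith

theorem log_caps {R r' : ℝ} (hr : 1 ≤ r') (hrR : r' ≤ R) :
    Nat.log 2 (caps (an r')).card + 1 ≤ 8 * (Nat.log 2 ⌊R⌋₊ + 1) := by
  have hr0 : 0 < r' := by linarith
  have h0 : 0 < an r' := Real.rpow_pos_of_pos hr0 _
  have h1 : an r' ≤ 1 := Real.rpow_le_one_of_one_le_of_nonpos hr (by norm_num)
  have h2 := Acl101.card_caps h0 h1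
  have h3 : ((an r')⁻¹) ^ 2 = r' := by
    unfold an
    rw [← Real.rpow_neg hr0.le, neg_neg, ← Real.rpow_natCast, ← Real.rpow_mul hr0.le]
    norm_num
  rw [h3] at h2
  set l := Nat.log 2 ⌊R⌋₊ with hl
  have h4 : (⌊R⌋₊ : ℕ) < 2 ^ (l + 1) := Nat.lt_pow_succ_log_self (by norm_num) _
  have h5 : R < 2 ^ (l + 1) := by
    have := Nat.lt_floor_add_one R
    have h6 : ((⌊R⌋₊ : ℕ) : ℝ) + 1 ≤ 2 ^ (l + 1) := by exact_mod_cast h4
    linarith
  have h6 : (caps (an r')).card < 2 ^ (l + 8) := by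
    have : ((caps (an r')).card : ℝ) < 2 ^ (l + 8) := by
      calc ((caps (an r')).card : ℝ) ≤ 81 * r' := h2
        _ ≤ 81 * R := by gcongr
        _ < 128 * 2 ^ (l + 1) := by
            have : (0:ℝ) < 2 ^ (l + 1) := by positivity
            linarith
        _ = 2 ^ (l + 8) := by rw [show l + 8 = (l + 1) + 7 by ring, pow_add]; norm_num; ring
    exact_mod_cast this
  have h7 : Nat.log 2 (caps (an r')).card < l + 8 := by
    rcases Nat.eq_zero_or_pos (caps (an r')).card with h | h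
    · rw [h]; simp
    · exact (Nat.log_lt_iff_lt_pow (by norm_num) h.ne').2 h6
  omega

theorem AF_lt (Ma n : ℕ) (K0 CE : ℝ) (h : E2 → ℝ) (g : E2 → ℂ) (R dl : ℝ) (L : Lev) {r' : ℝ}
    (hr : 1 ≤ r') (hrR : r' ≤ R) (z : E2 × ℝ) (b : OrthonormalBasis (Fin 2) ℝ E2) (m : ℤ × ℤ)
    (y : E2) : AF Ma n K0 CE h g R dl L r' z b m y < naR Ma R := by
  classical
  unfold AF
  split_ifs with hz
  · refine (clsR_lt _ _ _ _).trans_le ?_
    unfold naR
    calc (nAR Ma R + 1) * (Nat.log 2 (caps (an r')).card + 1)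
        ≤ (nAR Ma R + 1) * (8 * (Nat.log 2 ⌊R⌋₊ + 1)) :=
          Nat.mul_le_mul_left _ (log_caps hr hrR)
      _ = _ := by ring
  · exact naR_pos Ma R

/-! ### measurability -/

theorem measurable_sel_nat {X : Type*} [MeasurableSpace X] {κ : X → ℕ} (hκ : Measurable κ)
    {F : ℕ → X → ℕ} (hF : ∀ k, Measurable (F k)) : Measurable fun x => F (κ x) x := by
  have h1 : Measurable fun p : ℕ × X => F p.1 p.2 :=
    measurable_from_prod_countable_right (fun k => hF k)
  exact h1.comp (hκ.prodMk measurable_id)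

theorem AF_meas (Ma n : ℕ) (K0 CE : ℝ) {B : ℕ → ℝ} {q A Cn : ℝ} {Na M : ℕ} {M0 : ℝ} {h : E2 → ℝ}
    {g : E2 → ℂ} {R D dl : ℝ} (hSt : St B q Na M0 (1/2) h g R D) {L : Lev}
    (hL : LevOk q A (1/2) Cn B M h g R L) (r' : ℝ) (z : E2 × ℝ)
    (b : OrthonormalBasis (Fin 2) ℝ E2) (m : ℤ × ℤ) :
    Measurable (AF Ma n K0 CE h g R dl L r' z b m) := by
  classical
  by_cases hz : z ∈ cyl R
  · have e : AF Ma n K0 CE h g R dl L r' z b m = fun y =>
        clsR (nAR Ma R) (CE * En g) K0 n h (an L.r) (an r') (an (dl * r')) (tr h (L.ζ z) g)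
          (uL L (L.ζ z) (kap h L r' z m y)) (z - L.ζ z) b m y := by
      funext y
      unfold AF
      rw [if_pos hz]
    rw [e]
    have hhc : Continuous h := hSt.par.1.continuous
    have hg : Integrable (tr h (L.ζ z) g) :=
      (W323.Gd.tr hhc (W323.St.gd hSt (by norm_num)) _).int
    have hLr : 0 < L.r := lt_of_lt_of_le (by have := hSt.Rpos; positivity) hL.lo
    refine measurable_sel_nat (κ := kap h L r' z m)
      (F := fun k y => clsR (nAR Ma R) (CE * En g) K0 n h (an L.r) (an r') (an (dl * r'))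
        (tr h (L.ζ z) g) (uL L (L.ζ z) k) (z - L.ζ z) b m y) ?_ (fun k => ?_)
    · refine Dom878.measurable_argi (fun k hk => ?_) m
      obtain ⟨cls, hd⟩ := hL.dec (L.ζ z) (hL.near z hz).1
      have h1 := (hd.st k hk)
      obtain ⟨X, hX⟩ := h1.bdd
      exact Loc878.tr_int hhc (int_of_bdd h1.meas hX h1.supp).1 _
    · exact measurable_clsR (Real.rpow_pos_of_pos hLr _).le hg _ _ _
  · have e : AF Ma n K0 CE h g R dl L r' z b m = fun _ => 0 := by
      funext y
      unfold AF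
      rw [if_neg hz]
    rw [e]
    exact measurable_const

end Crest.Agent.R138.Stp210
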