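import Crest.Agent.R138.Wf5_448

/-!
# R138 / R139, wave side (b): superadditivity, part 1 (helper882)

General measure theoretic lemmas: superadditivity of `z ^ (3/2)`, Hölder on a slice, and the
comparison "selected packets ≤ slice of `ext h g`".
-/

set_option autoImplicit false

open MeasureTheory FourierTransform
open scoped ContDiff ENNReal

namespace Crest.Agent.R138.Sup882

open Crest.Agent.R138.Defs Crest.Agent.R138.Wf448

/-- superadditivity of `z ^ (3/2)` -/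
theorem sum_rpow_le {ι : Type*} (s : Finset ι) (a : ι → ℝ≥0∞) :
    ∑ i ∈ s, a i ^ (3 / 2 : ℝ) ≤ (∑ i ∈ s, a i) ^ (3 / 2 : ℝ) := by
  classical
  induction s using Finset.induction_on with
  | empty => simp
  | insert i s hi ih =>
    rw [Finset.sum_insert hi, Finset.sum_insert hi]
    exact (add_le_add le_rfl ih).trans (ENNReal.add_rpow_le_rpow_add _ _ (by norm_num))

/-- Hölder: `(∫_R a)^{3/2} ≤ |R|^{1/2} ∫_R a^{3/2}`. -/
theorem holder_R {X : Type*} [MeasurableSpace X] (μ : Measure X) (a : X → ℝ≥0∞)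
    (ha : AEMeasurable a μ) :
    (∫⁻ x, a x ∂μ) ^ (3 / 2 : ℝ) ≤ μ Set.univ ^ (1 / 2 : ℝ) * ∫⁻ x, a x ^ (3 / 2 : ℝ) ∂μ := by
  have h := ENNReal.lintegral_mul_le_Lp_mul_Lq μ
    (p := 3 / 2) (q := 3) ⟨by norm_num, by norm_num, by norm_num⟩
    (f := a) (g := fun _ => 1) ha aemeasurable_const
  simp only [Pi.mul_apply, mul_one, ENNReal.one_rpow, lintegral_const, one_mul] at h
  calc (∫⁻ x, a x ∂μ) ^ (3 / 2 : ℝ)
      ≤ ((∫⁻ x, a x ^ (3 / 2 : ℝ) ∂μ) ^ (1 / (3 / 2) : ℝ) * μ Set.univ ^ (1 / 3 : ℝ)) ^ (3 / 2 : ℝ) := by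
        gcongr
    _ = _ := by
        rw [ENNReal.mul_rpow_of_nonneg _ _ (by norm_num), ← ENNReal.rpow_mul, ← ENNReal.rpow_mul]
        norm_num
        rw [mul_comm]

/-- the smooth caps used by the packets -/
structure Caps (n : ℕ) (Kc L A : ℝ) (h : E2 → ℝ) (r : ℝ) {M : Type} [Fintype M]
    (a : M → E2 → ℂ) (v : M → E2) : Prop where
  smooth : ∀ m, ContDiff ℝ ∞ (a m)
  cpt : ∀ m, HasCompactSupport (a m)
  der : ∀ m, ∀ j ≤ n, ∀ ξ, ‖iteratedFDeriv ℝ j (a m) ξ‖ ≤ Kc * ((r ^ (-(1/2) : ℝ))⁻¹) ^ j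
  ov : ∀ ξ, (Set.ncard {m | ξ ∈ tsupport (a m)} : ℝ) ≤ L
  near : ∀ m ξ, a m ξ ≠ 0 → ‖gradient h ξ - v m‖ ≤ A * r ^ (-(1/2) : ℝ)

/-- the isotropic weight map -/
noncomputable def iso (w : ℝ) : E2 →L[ℝ] E2 := w⁻¹ • ContinuousLinearMap.id ℝ E2

theorem norm_iso_apply {w : ℝ} (hw : 0 < w) (x : E2) : ‖iso w x‖ = ‖x‖ / w := by
  unfold iso
  rw [smul_apply, ContinuousLinearMap.id_apply, norm_smul, norm_inv,
    Real.norm_of_nonneg hw.le, inv_mul_eq_div]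

theorem norm_iso_le {w : ℝ} (hw : 0 < w) : ‖iso w‖ ≤ w⁻¹ := by
  refine ContinuousLinearMap.opNorm_le_bound _ (by positivity) fun x => ?_
  rw [norm_iso_apply hw, div_eq_inv_mul]

theorem packet_integrable {Mx : Type} {a : E2 → ℂ} (hs : ContDiff ℝ ∞ a)
    (hc : HasCompactSupport a) {g : E2 → ℂ} (hg : Integrable g) :
    Integrable (fun ξ => a ξ * g ξ) := by
  obtain ⟨C, hC⟩ := hc.exists_bound_of_continuous hs.continuous
  exact hg.bdd_mul (c := C) hs.continuous.aestronglyMeasurable (Filter.Eventually.of_forall hC)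

theorem packet_memLp {a : E2 → ℂ} (hs : ContDiff ℝ ∞ a)
    (hc : HasCompactSupport a) {g : E2 → ℂ} (hg : MemLp g 2) :
    MemLp (fun ξ => a ξ * g ξ) 2 := by
  obtain ⟨C, hC⟩ := hc.exists_bound_of_continuous hs.continuous
  refine MemLp.of_le (hg.const_mul (C : ℂ)) (hs.continuous.aestronglyMeasurable.mul hg.1)
    (Filter.Eventually.of_forall fun ξ => ?_)
  rw [norm_mul, norm_mul]
  have : (0:ℝ) ≤ C := (norm_nonneg _).trans (hC 0)
  rw [Complex.norm_real, Real.norm_of_nonneg this]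
  gcongr
  exact hC ξ

/-- **packets at time `0` against the slice at time `t`** -/
theorem slice_ge (n : ℕ) (M Kc L A : ℝ) (hKc : 0 < Kc) (hL : 0 < L) (hA : 0 ≤ A) :
    ∃ C : ℝ, 0 ≤ C ∧ ∀ h : E2 → ℝ, ContDiff ℝ ∞ h →
    (∀ i, 2 ≤ i → i ≤ max n 2 → ∀ ξ, ‖iteratedFDeriv ℝ i h ξ‖ ≤ M) →
    ∀ r : ℝ, 1 ≤ r → ∀ (ι : Type) [Fintype ι] (a : ι → E2 → ℂ) (v : ι → E2),
    Caps n Kc L A h r a v → ∀ g : E2 → ℂ, Integrable g → MemLp g 2 →
    ∀ w : ℝ, r ^ (1 / 2 : ℝ) ≤ w → ∀ (x : E2) (t : ℝ), |t| ≤ 2 * r →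
    ∑ m, wE n (iso w) (x + t • v m) (fun ξ => a m ξ * g ξ) ≤
      ENNReal.ofReal C * wE n (iso w) x (sl h g t) := by
  obtain ⟨C1, hC1, h1⟩ := transport_far (V := E2) (W := E2) n M
  obtain ⟨C2, hC2, h2⟩ := ortho_col (V := E2) (W := E2) n
  set l : ℝ := (A + 1)⁻¹ with hl
  have hl0 : 0 < l := by positivity
  have hl1 : l ≤ 1 := by
    rw [hl]; exact inv_le_one_of_one_le₀ (by linarith)
  refine ⟨(C1 * 3 ^ (2 * n)) * (l⁻¹) ^ (2 * n) * (C2 * Kc ^ 2 * L), by positivity, ?_⟩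
  intro h hh hM r hr ι _ a v hcap g hg hg2 w hw x t ht
  have hr0 : 0 < r := by linarith
  have hrh : 0 < r ^ (1 / 2 : ℝ) := Real.rpow_pos_of_pos hr0 _
  have hw0 : 0 < w := hrh.trans_le hw
  have hinv : (r ^ (1 / 2 : ℝ))⁻¹ = r ^ (-(1/2) : ℝ) := by
    rw [← Real.rpow_neg hr0.le]
  have hA1 : ‖iso w‖ ≤ r ^ (-(1/2) : ℝ) := by
    refine (norm_iso_le hw0).trans ?_
    rw [← hinv]
    exact inv_anti₀ hrh hw
  have hρρ : r ^ (-(1/2) : ℝ) * r ^ (-(1/2) : ℝ) = r⁻¹ := by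
    rw [← Real.rpow_add hr0]
    norm_num
    exact Real.rpow_neg_one r
  -- each packet
  have step : ∀ m, wE n (iso w) (x + t • v m) (fun ξ => a m ξ * g ξ) ≤
      ENNReal.ofReal ((C1 * 3 ^ (2 * n)) * (l⁻¹) ^ (2 * n)) *
        wE n (iso w) x (sl h (fun ξ => a m ξ * g ξ) t) := by
    intro m
    have hgi := packet_integrable (Mx := ι) (hcap.smooth m) (hcap.cpt m) hg
    have hg2' := packet_memLp (hcap.smooth m) (hcap.cpt m) hg2
    have hlA : ‖l • iso w‖ ≤ r ^ (-(1/2) : ℝ) := by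
      rw [norm_smul, Real.norm_of_nonneg hl0.le]
      exact (mul_le_of_le_one_left (norm_nonneg _) hl1).trans hA1
    have hb : Bornology.IsBounded {ξ | a m ξ ≠ 0} :=
      (hcap.cpt m).isBounded.subset (subset_tsupport _)
    have hS : ∀ ξ ∈ {ξ | a m ξ ≠ 0}, ‖(l • iso w) (gradient h ξ - v m)‖ ≤ 1 / r := by
      intro ξ hξ
      rw [smul_apply, norm_smul, Real.norm_of_nonneg hl0.le]
      have h3 : ‖iso w (gradient h ξ - v m)‖ ≤ r ^ (-(1/2) : ℝ) * (A * r ^ (-(1/2) : ℝ)) :=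
        (ContinuousLinearMap.le_opNorm _ _).trans
          (mul_le_mul hA1 (hcap.near m ξ hξ) (norm_nonneg _) (by positivity))
      calc l * ‖iso w (gradient h ξ - v m)‖ ≤ l * (r ^ (-(1/2) : ℝ) * (A * r ^ (-(1/2) : ℝ))) := by
            gcongr
        _ = (l * A) * (r ^ (-(1/2) : ℝ) * r ^ (-(1/2) : ℝ)) := by ring
        _ = (l * A) * r⁻¹ := by rw [hρρ]
        _ ≤ 1 * r⁻¹ := by
            gcongr
            rw [hl, inv_mul_le_iff₀ (by positivity)]; linarith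
        _ = 1 / r := by rw [one_mul, one_div]
    have h4 := h1 (l • iso w) h hh hM r hr hlA (v m) {ξ | a m ξ ≠ 0} hb hS
      (fun ξ => a m ξ * g ξ) hgi hg2' (fun ξ hξ => left_ne_zero_of_mul hξ) x t (-t)
    rw [abs_neg, add_neg_cancel, neg_smul, sub_neg_eq_add] at h4
    have e0 : sl h (fun ξ => a m ξ * g ξ) 0 = fun ξ => a m ξ * g ξ := by
      funext ξ
      simp [sl, ee]
    rw [e0] at h4
    have hle : ∀ y, ‖(l • iso w) y‖ ≤ ‖iso w y‖ := by
      intro y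
      rw [smul_apply, norm_smul, Real.norm_of_nonneg hl0.le]
      exact mul_le_of_le_one_left (norm_nonneg _) hl1
    calc wE n (iso w) (x + t • v m) (fun ξ => a m ξ * g ξ)
        ≤ wE n (l • iso w) (x + t • v m) (fun ξ => a m ξ * g ξ) := wE_mono hle
      _ ≤ ENNReal.ofReal (C1 * (1 + |t| / r) ^ (2 * n)) *
          wE n (l • iso w) x (sl h (fun ξ => a m ξ * g ξ) t) := h4
      _ ≤ ENNReal.ofReal (C1 * 3 ^ (2 * n)) *
          (ENNReal.ofReal ((l⁻¹) ^ (2 * n)) * wE n (iso w) x (sl h (fun ξ => a m ξ * g ξ) t)) := by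
          refine mul_le_mul' (ENNReal.ofReal_le_ofReal ?_) (wE_smul_le hl0 hl1 _ _)
          gcongr
          have : |t| / r ≤ 2 := by rw [div_le_iff₀ hr0]; exact ht
          linarith
      _ = _ := by
          rw [← mul_assoc, ← ENNReal.ofReal_mul (by positivity)]
  have e1 : ∀ m, sl h (fun ξ => a m ξ * g ξ) t = fun ξ => a m ξ * sl h g t ξ := by
    intro m; funext ξ; simp only [sl]; ring
  have h5 := h2 (iso w) x (r ^ (-(1/2) : ℝ)) (Real.rpow_pos_of_pos hr0 _) hA1 ι a (sl h g t) Kc L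
    hKc hL (fun m => (hcap.cpt m).hasTemperateGrowth (hcap.smooth m)) hcap.der hcap.ov
    (integrable_sl hh.continuous hg t) (memLp_sl hh.continuous hg2 t)
  calc ∑ m, wE n (iso w) (x + t • v m) (fun ξ => a m ξ * g ξ)
      ≤ ∑ m, ENNReal.ofReal ((C1 * 3 ^ (2 * n)) * (l⁻¹) ^ (2 * n)) *
        wE n (iso w) x (sl h (fun ξ => a m ξ * g ξ) t) := Finset.sum_le_sum fun m _ => step m
    _ = ENNReal.ofReal ((C1 * 3 ^ (2 * n)) * (l⁻¹) ^ (2 * n)) *
        ∑ m, wE n (iso w) x (fun ξ => a m ξ * sl h g t ξ) := by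
        rw [Finset.mul_sum]
        exact Finset.sum_congr rfl fun m _ => by rw [e1]
    _ ≤ ENNReal.ofReal ((C1 * 3 ^ (2 * n)) * (l⁻¹) ^ (2 * n)) *
        (ENNReal.ofReal (C2 * Kc ^ 2 * L) * wE n (iso w) x (sl h g t)) := by gcongr
    _ = _ := by rw [← mul_assoc, ← ENNReal.ofReal_mul (by positivity)]

end Crest.Agent.R138.Sup882
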