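import Crest.Agent.R138.Sup2_882
import Crest.Agent.R138.Bil6_882

/-!
# R138 / R139, wave side (b): superadditivity, part 3 (helper882)

The space-time form of the superadditivity for one family of plates of length `r`.
-/

set_option autoImplicit false

open MeasureTheory FourierTransform
open scoped ContDiff ENNReal

namespace Crest.Agent.R138.Sup882

open Crest.Agent.R138.Defs Crest.Agent.R138.Wf448
open Crest.Agent.R138.Ker858 (rect volume_rect)
open Crest.Agent.R138.Bil882 (wt wt_pos measurable_wt)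

/-- the average of `|ext h g|^2` at scale `w` around `z`. -/
noncomputable def aw (N : ℕ) (w : ℝ) (h : E2 → ℝ) (g : E2 → ℂ) (z : E2 × ℝ) : ℝ≥0∞ :=
  ENNReal.ofReal ((w ^ 3)⁻¹) *
    ∫⁻ p : E2 × ℝ, ‖ext h g p.1 p.2‖ₑ ^ 2 * ENNReal.ofReal (wt N w z.1 z.2 p)

theorem continuous_ext {h : E2 → ℝ} (hh : Continuous h) {g : E2 → ℂ} (hg : Integrable g) :
    Continuous fun p : E2 × ℝ => ext h g p.1 p.2 := by
  unfold ext
  refine continuous_of_dominated (bound := fun ξ => ‖g ξ‖) ?_ ?_ hg.norm ?_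
  · intro p
    refine hg.aestronglyMeasurable.mul (Continuous.aestronglyMeasurable ?_)
    exact contDiff_ee.continuous.comp ((continuous_const.inner continuous_id).add (continuous_const.mul hh))
  · intro p
    refine Filter.Eventually.of_forall fun ξ => ?_
    rw [norm_mul, norm_ee, mul_one]
  · refine Filter.Eventually.of_forall fun ξ => ?_
    refine continuous_const.mul (contDiff_ee.continuous.comp ?_)
    exact (continuous_fst.inner continuous_const).add (continuous_snd.mul continuous_const)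

theorem measurable_wt_joint (N : ℕ) {w : ℝ} :
    Measurable fun q : (E2 × ℝ) × (E2 × ℝ) => wt N w q.1.1 q.1.2 q.2 := by
  unfold wt
  fun_prop

theorem measurable_aw (N : ℕ) (w : ℝ) {h : E2 → ℝ} (hh : Continuous h) {g : E2 → ℂ}
    (hg : Integrable g) : Measurable (aw N w h g) := by
  unfold aw
  refine Measurable.const_mul ?_ _
  have h1 : Measurable fun q : (E2 × ℝ) × (E2 × ℝ) =>
      ‖ext h g q.2.1 q.2.2‖ₑ ^ 2 * ENNReal.ofReal (wt N w q.1.1 q.1.2 q.2) := by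
    refine Measurable.mul ?_ (measurable_wt_joint N).ennreal_ofReal
    exact (((continuous_ext hh hg).measurable.comp measurable_snd).enorm).pow_const 2
  exact h1.lintegral_prod_right'

/-- the decay of the isotropic weight, moved in time. -/
theorem dw_shift {N : ℕ} {w V : ℝ} (hw : 0 < w) (_hV : 0 ≤ V) (z u : E2) (hu : ‖u‖ ≤ V * w) :
    dw N (iso w) (z + u) ≤ (2 + 2 * V ^ 2) ^ N * dw N (iso w) z := by
  rw [dw_iso hw, dw_iso hw, ← inv_pow, ← inv_pow, ← mul_pow]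
  refine pow_le_pow_left₀ (by positivity) ?_ N
  rw [← div_eq_mul_inv, inv_eq_one_div, div_le_div_iff₀ (by positivity) (by positivity), one_mul]
  have h1 : ‖z‖ / w ≤ ‖z + u‖ / w + V := by
    have h2 : ‖z‖ ≤ ‖z + u‖ + ‖u‖ := by
      calc ‖z‖ = ‖(z + u) - u‖ := by rw [add_sub_cancel_right]
        _ ≤ _ := norm_sub_le _ _
    rw [div_add' _ _ _ hw.ne', div_le_div_iff_of_pos_right hw]
    linarith
  have h3 : 0 ≤ ‖z‖ / w := by positivity
  have h4 : 0 ≤ ‖z + u‖ / w := by positivity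
  nlinarith [sq_nonneg (‖z + u‖ / w - V), mul_nonneg h4 _hV, pow_le_pow_left₀ h3 h1 2,
    mul_nonneg (sq_nonneg (‖z + u‖ / w)) (sq_nonneg V)]

theorem dw_le_wt {N : ℕ} {w : ℝ} (hw : 0 < w) (x y : E2) {t t' : ℝ} (ht : |t' - t| ≤ w) :
    dw N (iso w) (y - x) ≤ 3 ^ N * wt N w x t (y, t') := by
  rw [dw_iso hw]
  unfold wt
  simp only
  rw [← inv_pow, ← inv_pow, ← mul_pow]
  refine pow_le_pow_left₀ (by positivity) ?_ N
  rw [← div_eq_mul_inv, inv_eq_one_div, div_le_div_iff₀ (by positivity) (by positivity), one_mul]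
  have h1 : (‖y - x‖ + |t' - t|) / w ≤ ‖y - x‖ / w + 1 := by
    rw [add_div]
    have : |t' - t| / w ≤ 1 := by rw [div_le_one hw]; exact ht
    linarith
  have h3 : 0 ≤ ‖y - x‖ / w := by positivity
  nlinarith [sq_nonneg (‖y - x‖ / w - 1)]

/-- a selection at two close times. -/
theorem se_shift {N : ℕ} {w V : ℝ} (hw : 0 < w) (hV : 0 ≤ V) {M I : Type} [Fintype M]
    {a : M → E2 → ℂ} {v : M → E2} (hv : ∀ m, ‖v m‖ ≤ V)
    {g : E2 → ℂ} {S : I → M → Set E2} (i : I) (x : E2) {t t' : ℝ} (ht : |t' - t| ≤ w) :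
    se N w a v g S i x t ≤ ENNReal.ofReal ((2 + 2 * V ^ 2) ^ N) * se N w a v g S i x t' := by
  unfold se
  rw [Finset.mul_sum]
  refine Finset.sum_le_sum fun m _ => ?_
  rw [← lintegral_const_mul' _ _ ENNReal.ofReal_ne_top]
  refine lintegral_mono fun y => ?_
  rw [← mul_assoc, ← ENNReal.ofReal_mul (by positivity)]
  refine mul_le_mul_left (ENNReal.ofReal_le_ofReal ?_) _
  have e : y - (x + t • v m) = (y - (x + t' • v m)) + (t' - t) • v m := by
    rw [sub_smul]; abel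
  rw [e]
  refine dw_shift hw hV _ _ ?_
  rw [norm_smul, Real.norm_eq_abs, mul_comm]
  exact mul_le_mul (hv m) ht (abs_nonneg _) hV

/-- **selected packets against the space-time average.** -/
theorem sum_se_le_aw (N : ℕ) (M Kc L A V : ℝ) (hKc : 0 < Kc) (hL : 0 < L) (hA : 0 ≤ A) (hV : 0 ≤ V) :
    ∃ C : ℝ, 0 ≤ C ∧ ∀ h : E2 → ℝ, ContDiff ℝ ∞ h →
    (∀ i, 2 ≤ i → i ≤ max N 2 → ∀ ξ, ‖iteratedFDeriv ℝ i h ξ‖ ≤ M) →
    ∀ r : ℝ, 1 ≤ r → ∀ (ι I : Type) [Fintype ι] [Fintype I] (a : ι → E2 → ℂ) (v : ι → E2),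
    Caps N Kc L A h r a v → (∀ m, ‖v m‖ ≤ V) → ∀ g : E2 → ℂ, Integrable g → MemLp g 2 →
    ∀ w : ℝ, r ^ (1 / 2 : ℝ) ≤ w → w ≤ r →
    ∀ (c : I → E2) (b : I → OrthonormalBasis (Fin 2) ℝ E2) (s : I → Fin 2 → ℝ) (x0 : I → E2)
      (S : I → ι → Set E2), Sel A r w v c b s x0 S →
    ∀ (x : E2) (t : ℝ), |t| ≤ r →
    ∑ i, se N w a v g S i x t ≤ ENNReal.ofReal (w ^ 2) * (ENNReal.ofReal C * aw N w h g (x, t)) := by
  obtain ⟨C0, hC0, h0⟩ := slice_ge N M Kc L A hKc hL hA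
  refine ⟨(2 + 2 * V ^ 2) ^ N * C0 * 3 ^ N / 2, by positivity, ?_⟩
  intro h hh hM r hr ι I _ _ a v hcap hv g hg hg2 w hw hwr c b s x0 S hS x t ht
  have hr0 : 0 < r := by linarith
  have hw0 : 0 < w := (Real.rpow_pos_of_pos hr0 _).trans_le hw
  set X := ∑ i, se N w a v g S i x t with hX
  -- for each time close to t
  have h1 : ∀ t' ∈ Set.Icc (t - w) (t + w),
      X ≤ ENNReal.ofReal ((2 + 2 * V ^ 2) ^ N * C0 * 3 ^ N) *
        ∫⁻ y, ‖ext h g y t'‖ₑ ^ 2 * ENNReal.ofReal (wt N w x t (y, t')) := by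
    intro t' ht'
    have h2 : |t' - t| ≤ w := by
      rw [abs_le]; constructor <;> [linarith [ht'.1]; linarith [ht'.2]]
    have h3 : |t'| ≤ 2 * r := by
      have : |t'| ≤ |t' - t| + |t| := by
        calc |t'| = |(t' - t) + t| := by rw [sub_add_cancel]
          _ ≤ _ := abs_add_le _ _
      linarith
    calc X ≤ ∑ i, ENNReal.ofReal ((2 + 2 * V ^ 2) ^ N) * se N w a v g S i x t' :=
          Finset.sum_le_sum fun i _ => se_shift hw0 hV hv i x h2
      _ = ENNReal.ofReal ((2 + 2 * V ^ 2) ^ N) * ∑ i, se N w a v g S i x t' := by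
          rw [Finset.mul_sum]
      _ ≤ ENNReal.ofReal ((2 + 2 * V ^ 2) ^ N) *
          ∑ m, wE N (iso w) (x + t' • v m) (fun ξ => a m ξ * g ξ) := by
          gcongr
          exact sum_se_le N hS g x t'
      _ ≤ ENNReal.ofReal ((2 + 2 * V ^ 2) ^ N) *
          (ENNReal.ofReal C0 * wE N (iso w) x (sl h g t')) := by
          gcongr
          exact h0 h hh hM r hr ι a v hcap g hg hg2 w hw x t' h3
      _ ≤ ENNReal.ofReal ((2 + 2 * V ^ 2) ^ N) * (ENNReal.ofReal C0 *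
          (ENNReal.ofReal (3 ^ N) *
            ∫⁻ y, ‖ext h g y t'‖ₑ ^ 2 * ENNReal.ofReal (wt N w x t (y, t')))) := by
          gcongr
          rw [wE_sl, LI, ← lintegral_const_mul' _ _ ENNReal.ofReal_ne_top]
          refine lintegral_mono fun y => ?_
          rw [ENNReal.ofReal_mul (dw_pos _ _ _).le, ENNReal.ofReal_pow (norm_nonneg _), ofReal_norm,
            mul_comm (ENNReal.ofReal (dw N (iso w) (y - x))), mul_left_comm]
          gcongr
          rw [← ENNReal.ofReal_mul (by positivity)]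
          exact ENNReal.ofReal_le_ofReal (dw_le_wt hw0 x y h2)
      _ = _ := by
          rw [← mul_assoc, ← mul_assoc, ← ENNReal.ofReal_mul (by positivity),
            ← ENNReal.ofReal_mul (by positivity)]
  -- integrate in time
  have hFm : Measurable fun p : E2 × ℝ => ‖ext h g p.1 p.2‖ₑ ^ 2 * ENNReal.ofReal (wt N w x t p) :=
    ((continuous_ext hh.continuous hg).measurable.enorm.pow_const 2).mul
      (measurable_wt N w x t).ennreal_ofReal
  have h4 : ENNReal.ofReal (2 * w) * X ≤ ENNReal.ofReal ((2 + 2 * V ^ 2) ^ N * C0 * 3 ^ N) *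
      ∫⁻ p : E2 × ℝ, ‖ext h g p.1 p.2‖ₑ ^ 2 * ENNReal.ofReal (wt N w x t p) := by
    calc ENNReal.ofReal (2 * w) * X = ∫⁻ _t' in Set.Icc (t - w) (t + w), X := by
          rw [setLIntegral_const, Real.volume_Icc, mul_comm]
          congr 2; ring
      _ ≤ ∫⁻ t' in Set.Icc (t - w) (t + w),
          ENNReal.ofReal ((2 + 2 * V ^ 2) ^ N * C0 * 3 ^ N) *
          ∫⁻ y, ‖ext h g y t'‖ₑ ^ 2 * ENNReal.ofReal (wt N w x t (y, t')) :=
          setLIntegral_mono' measurableSet_Icc h1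
      _ ≤ ∫⁻ t', ENNReal.ofReal ((2 + 2 * V ^ 2) ^ N * C0 * 3 ^ N) *
          ∫⁻ y, ‖ext h g y t'‖ₑ ^ 2 * ENNReal.ofReal (wt N w x t (y, t')) :=
          setLIntegral_le_lintegral _ _
      _ = ENNReal.ofReal ((2 + 2 * V ^ 2) ^ N * C0 * 3 ^ N) *
          ∫⁻ t', ∫⁻ y, ‖ext h g y t'‖ₑ ^ 2 * ENNReal.ofReal (wt N w x t (y, t')) := by
          rw [lintegral_const_mul' _ _ ENNReal.ofReal_ne_top]
      _ = _ := by
          rw [Measure.volume_eq_prod, lintegral_prod_symm _ hFm.aemeasurable]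
  have h5 : ENNReal.ofReal (2 * w) ≠ 0 := by
    rw [Ne, ENNReal.ofReal_eq_zero, not_le]; positivity
  calc X = (ENNReal.ofReal (2 * w))⁻¹ * (ENNReal.ofReal (2 * w) * X) := by
        rw [← mul_assoc, ENNReal.inv_mul_cancel h5 ENNReal.ofReal_ne_top, one_mul]
    _ ≤ (ENNReal.ofReal (2 * w))⁻¹ * (ENNReal.ofReal ((2 + 2 * V ^ 2) ^ N * C0 * 3 ^ N) *
      ∫⁻ p : E2 × ℝ, ‖ext h g p.1 p.2‖ₑ ^ 2 * ENNReal.ofReal (wt N w x t p)) := by gcongr
    _ = _ := by
        unfold aw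
        simp only
        set J := ∫⁻ p : E2 × ℝ, ‖ext h g p.1 p.2‖ₑ ^ 2 * ENNReal.ofReal (wt N w x t p)
        have e6 : ∀ a b c : ℝ≥0∞, a * (b * (c * J)) = (a * b * c) * J := by
          intro a b c; ring
        rw [← ENNReal.ofReal_inv_of_pos (by positivity), ← mul_assoc,
          ← ENNReal.ofReal_mul (by positivity), e6,
          ← ENNReal.ofReal_mul (by positivity), ← ENNReal.ofReal_mul (by positivity)]
        congr 2
        field_simp

/-- **SUPERADDITIVITY, one frame.** -/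
theorem superadd (N : ℕ) (M Kc L A V : ℝ) (hKc : 0 < Kc) (hL : 0 < L) (hA : 0 ≤ A) (hV : 0 ≤ V) :
    ∃ C : ℝ, 0 ≤ C ∧ ∀ h : E2 → ℝ, ContDiff ℝ ∞ h →
    (∀ i, 2 ≤ i → i ≤ max N 2 → ∀ ξ, ‖iteratedFDeriv ℝ i h ξ‖ ≤ M) →
    ∀ r : ℝ, 1 ≤ r → ∀ (ι I : Type) [Fintype ι] [Fintype I] (a : ι → E2 → ℂ) (v : ι → E2),
    Caps N Kc L A h r a v → (∀ m, ‖v m‖ ≤ V) → ∀ g : E2 → ℂ, Integrable g → MemLp g 2 →
    ∀ w : ℝ, r ^ (1 / 2 : ℝ) ≤ w → w ≤ r →
    ∀ (c : I → E2) (b : I → OrthonormalBasis (Fin 2) ℝ E2) (s : I → Fin 2 → ℝ) (x0 : I → E2)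
      (S : I → ι → Set E2), Sel A r w v c b s x0 S →
    ∀ T : Set (E2 × ℝ), MeasurableSet T →
    (∀ i (x : E2) (t : ℝ), |t| ≤ r →
      x ∈ rect (x0 i - t • c i) (b i) (fun j => s i j * r) (2 + 2 * A) → (x, t) ∈ T) →
    ∑ i, ENNReal.ofReal (r * (s i 0 * s i 1 * r ^ 2) ^ (-(1/2) : ℝ)) * en a g S i ^ (3 / 2 : ℝ) ≤
      ENNReal.ofReal C * ∫⁻ z in T, aw N w h g z ^ (3 / 2 : ℝ) := by
  obtain ⟨C1, hC1, h1⟩ := sum_se_le_aw N M Kc L A V hKc hL hA hV
  have hκ := kap_pos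
  set Q : ℝ := 4 * (1 + A) * ((2 ^ N)⁻¹ * kap) ^ (-(3 / 2) : ℝ) with hQ
  have hQ0 : 0 ≤ Q := by positivity
  refine ⟨Q * C1 ^ (3 / 2 : ℝ), by positivity, ?_⟩
  intro h hh hM r hr ι I _ _ a v hcap hv g hg hg2 w hw hwr c b s x0 S hS T hT hTR
  have hr0 : 0 < r := by linarith
  have hw0 : 0 < w := (Real.rpow_pos_of_pos hr0 _).trans_le hw
  set Y := ∑ i, ENNReal.ofReal ((s i 0 * s i 1 * r ^ 2) ^ (-(1/2) : ℝ)) * en a g S i ^ (3 / 2 : ℝ)
    with hY
  have hslice : ∀ t ∈ Set.Icc (-r) r, Y ≤ ENNReal.ofReal (Q * C1 ^ (3 / 2 : ℝ)) *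
      ∫⁻ x, T.indicator (fun z => aw N w h g z ^ (3 / 2 : ℝ)) (x, t) := by
    intro t ht
    have ht' : |t| ≤ r := abs_le.2 ht
    have hTt : MeasurableSet ((fun x : E2 => ((x, t) : E2 × ℝ)) ⁻¹' T) :=
      hT.preimage (measurable_id.prodMk measurable_const)
    have h2 := slice_main N hA hr0 hw0 hS hcap.smooth hcap.cpt hg t ht'
      (fun x => ENNReal.ofReal C1 * aw N w h g (x, t))
      (fun x => h1 h hh hM r hr ι I a v hcap hv g hg hg2 w hw hwr c b s x0 S hS x t ht')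
      ((fun x => ((x, t) : E2 × ℝ)) ⁻¹' T) hTt
      (fun i x hx => hTR i x t ht' hx)
    refine h2.trans (le_of_eq ?_)
    rw [← hQ, ENNReal.ofReal_mul hQ0, mul_assoc]
    congr 1
    rw [← lintegral_indicator hTt,
      ← lintegral_const_mul' _ _ ENNReal.ofReal_ne_top]
    refine lintegral_congr fun x => ?_
    by_cases hx : (x, t) ∈ T
    · rw [Set.indicator_of_mem (show x ∈ (fun x => ((x, t) : E2 × ℝ)) ⁻¹' T from hx),
        Set.indicator_of_mem hx, ENNReal.mul_rpow_of_nonneg _ _ (by norm_num),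
        ENNReal.ofReal_rpow_of_nonneg hC1 (by norm_num)]
    · rw [Set.indicator_of_notMem (show x ∉ (fun x => ((x, t) : E2 × ℝ)) ⁻¹' T from hx),
        Set.indicator_of_notMem hx, mul_zero]
  have hm : Measurable (T.indicator (fun z => aw N w h g z ^ (3 / 2 : ℝ))) :=
    ((measurable_aw N w hh.continuous hg).pow_const _).indicator hT
  calc ∑ i, ENNReal.ofReal (r * (s i 0 * s i 1 * r ^ 2) ^ (-(1/2) : ℝ)) * en a g S i ^ (3 / 2 : ℝ)
      = ENNReal.ofReal r * Y := by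
        rw [hY, Finset.mul_sum]
        refine Finset.sum_congr rfl fun i _ => ?_
        rw [ENNReal.ofReal_mul hr0.le, mul_assoc]
    _ ≤ ENNReal.ofReal (2 * r) * Y := by
        gcongr
        linarith
    _ = ∫⁻ _t in Set.Icc (-r) r, Y := by
        rw [setLIntegral_const, Real.volume_Icc, mul_comm]
        congr 2; ring
    _ ≤ ∫⁻ t in Set.Icc (-r) r, ENNReal.ofReal (Q * C1 ^ (3 / 2 : ℝ)) *
      ∫⁻ x, T.indicator (fun z => aw N w h g z ^ (3 / 2 : ℝ)) (x, t) :=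
        setLIntegral_mono' measurableSet_Icc hslice
    _ ≤ ∫⁻ t, ENNReal.ofReal (Q * C1 ^ (3 / 2 : ℝ)) *
      ∫⁻ x, T.indicator (fun z => aw N w h g z ^ (3 / 2 : ℝ)) (x, t) :=
        setLIntegral_le_lintegral _ _
    _ = ENNReal.ofReal (Q * C1 ^ (3 / 2 : ℝ)) *
      ∫⁻ t, ∫⁻ x, T.indicator (fun z => aw N w h g z ^ (3 / 2 : ℝ)) (x, t) := by
        rw [lintegral_const_mul' _ _ ENNReal.ofReal_ne_top]
    _ = _ := by
        rw [← lintegral_indicator hT, Measure.volume_eq_prod, lintegral_prod_symm _ hm.aemeasurable]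

end Crest.Agent.R138.Sup882
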