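import Crest.Agent.R138.Sup3_882

/-!
# R138 / R139, wave side (b): superadditivity, part 4 (helper882)

Many frames and caps: `SIG ≤ C ∑ NN(g χ)`.
-/

set_option autoImplicit false

open MeasureTheory FourierTransform
open scoped ContDiff ENNReal

namespace Crest.Agent.R138.Sup882

open Crest.Agent.R138.Defs Crest.Agent.R138.Wf448
open Crest.Agent.R138.Ker858 (rect volume_rect)
open Crest.Agent.R138.Bil882 (wt wt_pos measurable_wt)

instance instHaarProd : (volume : Measure (E2 × ℝ)).IsAddHaarMeasure := by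
  rw [Measure.volume_eq_prod]
  exact Measure.prod.instIsAddHaarMeasure _ _

/-- the frame at `z`. -/
noncomputable def tr (h : E2 → ℝ) (z : E2 × ℝ) (g : E2 → ℂ) (ξ : E2) : ℂ :=
  g ξ * ee (inner ℝ z.1 ξ + z.2 * h ξ)

theorem ext_tr (h : E2 → ℝ) (z : E2 × ℝ) (g : E2 → ℂ) (x : E2) (t : ℝ) :
    ext h (tr h z g) x t = ext h g (x + z.1) (t + z.2) := by
  unfold ext tr
  refine integral_congr_ae (Filter.Eventually.of_forall fun ξ => ?_)
  simp only
  rw [mul_assoc, ← ee_add]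
  congr 2
  rw [inner_add_left]; ring

theorem tr_integrable {h : E2 → ℝ} (hh : Continuous h) (z : E2 × ℝ) {g : E2 → ℂ}
    (hg : Integrable g) : Integrable (tr h z g) := by
  unfold tr
  refine hg.mul_bdd (c := 1) ?_ (Filter.Eventually.of_forall fun ξ => (norm_ee _).le)
  exact (contDiff_ee.continuous.comp
    ((continuous_const.inner continuous_id).add (continuous_const.mul hh))).aestronglyMeasurable

theorem tr_memLp {h : E2 → ℝ} (hh : Continuous h) (z : E2 × ℝ) {g : E2 → ℂ}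
    (hg : MemLp g 2) : MemLp (tr h z g) 2 := by
  refine MemLp.of_le hg ?_ (Filter.Eventually.of_forall fun ξ => ?_)
  · exact hg.1.mul (contDiff_ee.continuous.comp
      ((continuous_const.inner continuous_id).add (continuous_const.mul hh))).aestronglyMeasurable
  · rw [tr, norm_mul, norm_ee, mul_one]

theorem aw_tr (N : ℕ) (w : ℝ) (h : E2 → ℝ) (z : E2 × ℝ) (g : E2 → ℂ) (p : E2 × ℝ) :
    aw N w h (tr h z g) p = aw N w h g (p + z) := by
  unfold aw
  congr 1
  rw [← lintegral_add_right_eq_self (fun q : E2 × ℝ =>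
    ‖ext h g q.1 q.2‖ₑ ^ 2 * ENNReal.ofReal (wt N w (p + z).1 (p + z).2 q)) z]
  refine lintegral_congr fun q => ?_
  rw [ext_tr]
  simp only [Prod.fst_add, Prod.snd_add]
  congr 2
  unfold wt
  simp only [Prod.fst_add, Prod.snd_add, add_sub_add_right_eq_sub]

/-- packing -/
theorem card_sep_le {r K : ℝ} (hr : 0 < r) (hK : 0 ≤ K) (Z : Finset (E2 × ℝ))
    (hsep : ∀ x ∈ Z, ∀ y ∈ Z, x ≠ y → r ≤ dist x y) (p : E2 × ℝ) (hp : ∀ x ∈ Z, dist x p ≤ K * r) :
    (Z.card : ℝ) ≤ (2 * K + 2) ^ 3 := by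
  classical
  have hfin : Module.finrank ℝ (E2 × ℝ) = 3 := by simp
  have hsub : (⋃ x ∈ Z, Metric.ball x (r / 2)) ⊆ Metric.ball p ((K + 1) * r) := by
    intro y hy
    simp only [Set.mem_iUnion] at hy
    obtain ⟨x, hx, hyx⟩ := hy
    rw [Metric.mem_ball] at hyx ⊢
    have := dist_triangle y x p
    have := hp x hx
    nlinarith
  have hdisj : Set.PairwiseDisjoint (↑Z) (fun x : E2 × ℝ => Metric.ball x (r / 2)) := by
    intro x hx y hy hxy
    rw [Function.onFun, Set.disjoint_left]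
    intro q hq1 hq2
    rw [Metric.mem_ball] at hq1 hq2
    have h1 := hsep x hx y hy hxy
    have h2 := dist_triangle_left x y q
    linarith
  have h1 : (volume : Measure (E2 × ℝ)) (⋃ x ∈ Z, Metric.ball x (r / 2))
      = Z.card * (ENNReal.ofReal ((r / 2) ^ 3) * volume (Metric.ball (0 : E2 × ℝ) 1)) := by
    rw [measure_biUnion_finset hdisj fun x _ => measurableSet_ball]
    have : ∀ x ∈ Z, (volume : Measure (E2 × ℝ)) (Metric.ball x (r / 2))
        = ENNReal.ofReal ((r / 2) ^ 3) * volume (Metric.ball (0 : E2 × ℝ) 1) := by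
      intro x _
      rw [Measure.addHaar_ball_of_pos _ _ (by positivity), hfin]
    rw [Finset.sum_congr rfl this, Finset.sum_const, nsmul_eq_mul]
  have h2 : (volume : Measure (E2 × ℝ)) (Metric.ball p ((K + 1) * r))
      = ENNReal.ofReal (((K + 1) * r) ^ 3) * volume (Metric.ball (0 : E2 × ℝ) 1) := by
    rw [Measure.addHaar_ball_of_pos _ _ (by positivity), hfin]
  have h3 := measure_mono (μ := (volume : Measure (E2 × ℝ))) hsub
  rw [h1, h2, ← mul_assoc] at h3
  have h4 : (volume : Measure (E2 × ℝ)) (Metric.ball (0 : E2 × ℝ) 1) ≠ 0 :=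
    (Metric.measure_ball_pos _ _ one_pos).ne'
  have h5 : (volume : Measure (E2 × ℝ)) (Metric.ball (0 : E2 × ℝ) 1) ≠ ⊤ := measure_ball_lt_top.ne
  rw [ENNReal.mul_le_mul_iff_left h4 h5] at h3
  rw [← ENNReal.ofReal_natCast, ← ENNReal.ofReal_mul (by positivity),
    ENNReal.ofReal_le_ofReal_iff (by positivity)] at h3
  have h6 : (0:ℝ) < (r / 2) ^ 3 := by positivity
  have h7 : (Z.card : ℝ) * (r / 2) ^ 3 ≤ (2 * K + 2) ^ 3 * (r / 2) ^ 3 := by
    refine h3.trans (le_of_eq ?_)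
    ring
  exact le_of_mul_le_mul_right h7 h6

/-- the region of the plates in one frame. -/
def reg (K r : ℝ) : Set (E2 × ℝ) := Metric.closedBall 0 (K * r)

theorem sum_frames {N : ℕ} {w K r R : ℝ} (hr : 0 < r) (hK : 0 ≤ K) (hR : K * r ≤ R)
    (Z : Finset (E2 × ℝ)) (hsep : ∀ x ∈ Z, ∀ y ∈ Z, x ≠ y → r ≤ dist x y)
    (hZ : ∀ x ∈ Z, x ∈ cyl R) {h : E2 → ℝ} (hh : Continuous h) {g : E2 → ℂ} (hg : Integrable g) :
    ∑ z ∈ Z, ∫⁻ p in reg K r, aw N w h (tr h z g) p ^ (3 / 2 : ℝ) ≤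
      ENNReal.ofReal ((2 * K + 2) ^ 3) * ∫⁻ p in cyl (2 * R), aw N w h g p ^ (3 / 2 : ℝ) := by
  classical
  have hm := (measurable_aw N w hh hg).pow_const (3 / 2 : ℝ)
  have hreg : MeasurableSet (reg K r) := Metric.isClosed_closedBall.measurableSet
  have hcyl : MeasurableSet (cyl (2 * R)) := by
    have : cyl (2 * R) = {p : E2 × ℝ | ‖p.1‖ ≤ 2 * R} ∩ {p | |p.2| ≤ 2 * R} := rfl
    rw [this]
    exact (isClosed_le (by fun_prop) continuous_const).measurableSet.inter
      (isClosed_le (by fun_prop) continuous_const).measurableSet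
  have e1 : ∀ z, ∫⁻ p in reg K r, aw N w h (tr h z g) p ^ (3 / 2 : ℝ)
      = ∫⁻ q, (reg K r).indicator (fun _ => (1 : ℝ≥0∞)) (q - z) * aw N w h g q ^ (3 / 2 : ℝ) := by
    intro z
    rw [← lintegral_indicator hreg, ← lintegral_add_right_eq_self
      (fun q => (reg K r).indicator (fun _ => (1 : ℝ≥0∞)) (q - z) * aw N w h g q ^ (3 / 2 : ℝ)) z]
    refine lintegral_congr fun p => ?_
    rw [add_sub_cancel_right]
    by_cases hp : p ∈ reg K r
    · rw [Set.indicator_of_mem hp, Set.indicator_of_mem hp, one_mul, aw_tr]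
    · rw [Set.indicator_of_notMem hp, Set.indicator_of_notMem hp, zero_mul]
  have hind : ∀ z, Measurable fun q : E2 × ℝ => (reg K r).indicator (fun _ => (1 : ℝ≥0∞)) (q - z) :=
    fun z => (measurable_const.indicator hreg).comp (measurable_id.sub_const z)
  simp_rw [e1]
  have hsum := lintegral_finsetSum (μ := (volume : Measure (E2 × ℝ))) Z
    (f := fun z q => (reg K r).indicator (fun _ => (1 : ℝ≥0∞)) (q - z) * aw N w h g q ^ (3 / 2 : ℝ))
    (fun z _ => (hind z).mul hm)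
  rw [← hsum, ← lintegral_const_mul _ hm, ← lintegral_indicator hcyl]
  refine lintegral_mono fun q => ?_
  rw [← Finset.sum_mul]
  by_cases hq : q ∈ cyl (2 * R)
  · rw [Set.indicator_of_mem hq]
    gcongr
    have h1 : ∑ z ∈ Z, (reg K r).indicator (fun _ => (1 : ℝ≥0∞)) (q - z)
        = ((Z.filter fun z => q - z ∈ reg K r).card : ℝ≥0∞) := by
      rw [Finset.card_filter]
      push_cast
      refine Finset.sum_congr rfl fun z _ => ?_
      by_cases hz : q - z ∈ reg K r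
      · simp [hz]
      · simp [hz]
    rw [h1, ← ENNReal.ofReal_natCast]
    refine ENNReal.ofReal_le_ofReal ?_
    refine card_sep_le hr hK _ ?_ q ?_
    · intro x hx y hy
      exact hsep x (Finset.mem_filter.1 hx).1 y (Finset.mem_filter.1 hy).1
    · intro x hx
      have := (Finset.mem_filter.1 hx).2
      rw [reg, mem_closedBall_zero_iff] at this
      rw [dist_comm, dist_eq_norm]; exact this
  · rw [Set.indicator_of_notMem hq]
    refine le_of_eq ?_
    rw [Finset.sum_eq_zero, zero_mul]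
    intro z hz
    rw [Set.indicator_of_notMem]
    intro hcon
    apply hq
    rw [reg, mem_closedBall_zero_iff, Prod.norm_def, max_le_iff] at hcon
    have hz2 := hZ z hz
    have h3 : ‖q.1‖ ≤ ‖(q - z).1‖ + ‖z.1‖ := by
      calc ‖q.1‖ = ‖(q.1 - z.1) + z.1‖ := by rw [sub_add_cancel]
        _ ≤ _ := norm_add_le _ _
    have h4 : |q.2| ≤ |(q - z).2| + |z.2| := by
      calc |q.2| = |(q.2 - z.2) + z.2| := by rw [sub_add_cancel]
        _ ≤ _ := abs_add_le _ _
    have h5 : |(q - z).2| ≤ K * r := by simpa using hcon.2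
    constructor
    · linarith [hcon.1, hz2.1]
    · linarith [hz2.2]

theorem norm_le_of_inner (b : OrthonormalBasis (Fin 2) ℝ E2) (x : E2) {l : ℝ} (hl : 0 ≤ l)
    (h : ∀ j, |inner ℝ x (b j)| ≤ l) : ‖x‖ ≤ 2 * l := by
  have h1 : ‖x‖ ^ 2 = ∑ j, (inner ℝ x (b j)) ^ 2 := (b.sum_sq_inner_right x).symm.trans (by
    refine Finset.sum_congr rfl fun j _ => ?_
    simp [real_inner_comm])
  rw [Fin.sum_univ_two] at h1
  have h2 := sq_le_sq' (abs_le.1 (h 0)).1 (abs_le.1 (h 0)).2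
  have h3 := sq_le_sq' (abs_le.1 (h 1)).1 (abs_le.1 (h 1)).2
  apply le_of_sq_le_sq _ (by positivity)
  nlinarith

/-- **SUP, abstract form**: many frames and caps. -/
theorem superadd_all (N : ℕ) (M Kc L A V X : ℝ) (hKc : 0 < Kc) (hL : 0 < L) (hA : 0 ≤ A)
    (hV : 0 ≤ V) (hX : 0 ≤ X) :
    ∃ C K0 : ℝ, 0 ≤ C ∧ 1 ≤ K0 ∧ ∀ h : E2 → ℝ, ContDiff ℝ ∞ h →
    (∀ i, 2 ≤ i → i ≤ max N 2 → ∀ ξ, ‖iteratedFDeriv ℝ i h ξ‖ ≤ M) →
    ∀ r R : ℝ, 1 ≤ r → K0 * r ≤ R →
    ∀ (ι I K : Type) [Fintype ι] [Fintype I] [Fintype K] (a : ι → E2 → ℂ) (v : ι → E2),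
    Caps N Kc L A h r a v → (∀ m, ‖v m‖ ≤ V) → ∀ g : E2 → ℂ, Integrable g → MemLp g 2 →
    ∀ w : ℝ, r ^ (1 / 2 : ℝ) ≤ w → w ≤ r →
    ∀ (z : I → E2 × ℝ) (c : I → E2) (b : I → OrthonormalBasis (Fin 2) ℝ E2) (s : I → Fin 2 → ℝ)
      (x0 : I → E2) (S : I → ι → Set E2) (κ : I → K) (χ : K → E2 → ℂ),
    (∀ i, z i ∈ cyl R) → (∀ i j, z i ≠ z j → r ≤ dist (z i) (z j)) →
    (∀ i m, MeasurableSet (S i m)) →
    (∀ m i j, i ≠ j → z i = z j → κ i = κ j → Disjoint (S i m) (S j m)) →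
    (∀ i m, (S i m).Nonempty → ∀ j, |inner ℝ (v m - c i) (b i j)| ≤ A * s i j) →
    (∀ i m, ∀ y ∈ S i m, ∀ j, |inner ℝ (y - x0 i) (b i j)| ≤ A * (s i j * r)) →
    (∀ i j, w ≤ s i j * r) → (∀ i j, s i j ≤ 1) → (∀ i, ‖x0 i‖ ≤ X * r) →
    (∀ k, Measurable (χ k)) → (∀ k, ∃ B, ∀ ξ, ‖χ k ξ‖ ≤ B) →
    (∀ i m, (S i m).Nonempty → ∀ ξ, a m ξ ≠ 0 → g ξ ≠ 0 → χ (κ i) ξ = 1) →
    ∑ i, ENNReal.ofReal (r * (s i 0 * s i 1 * r ^ 2) ^ (-(1/2) : ℝ)) *
        en a (tr h (z i) g) S i ^ (3 / 2 : ℝ) ≤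
      ENNReal.ofReal C * ∑ k, ∫⁻ p in cyl (2 * R), aw N w h (fun ξ => g ξ * χ k ξ) p ^ (3 / 2 : ℝ) := by
  classical
  obtain ⟨C1, hC1, h1⟩ := superadd N M Kc L A V hKc hL hA hV
  set K0 : ℝ := X + (V + 2 * A) + 2 * (2 + 2 * A) with hK0
  have hK01 : 1 ≤ K0 := by rw [hK0]; linarith
  refine ⟨C1 * (2 * K0 + 2) ^ 3, K0, by positivity, hK01, ?_⟩
  intro h hh hM r R hr hR ι I K _ _ _ a v hcap hv g hg hg2 w hw hwr z c b s x0 S κ χ hz hsep hmeas
    hdisj hdir hpos hwle hs1 hx0 hχm hχb hχ1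
  have hr0 : 0 < r := by linarith
  have hw0 : 0 < w := (Real.rpow_pos_of_pos hr0 _).trans_le hw
  have hs0 : ∀ i j, 0 < s i j := by
    intro i j
    have := hw0.trans_le (hwle i j)
    exact pos_of_mul_pos_left this hr0.le
  set Gk : K → E2 → ℂ := fun k ξ => g ξ * χ k ξ with hGk
  have hGi : ∀ k, Integrable (Gk k) := by
    intro k
    obtain ⟨B, hB⟩ := hχb k
    exact hg.mul_bdd (c := B) (hχm k).aestronglyMeasurable (Filter.Eventually.of_forall hB)
  have hG2 : ∀ k, MemLp (Gk k) 2 := by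
    intro k
    obtain ⟨B, hB⟩ := hχb k
    refine MemLp.of_le (hg2.const_mul (B : ℂ)) (hg2.1.mul (hχm k).aestronglyMeasurable)
      (Filter.Eventually.of_forall fun ξ => ?_)
    have hB0 : 0 ≤ B := (norm_nonneg _).trans (hB 0)
    rw [norm_mul, norm_mul, Complex.norm_real, Real.norm_of_nonneg hB0, mul_comm]
    gcongr
    exact hB ξ
  -- the energies see only the cap
  have hen : ∀ i, en a (tr h (z i) g) S i = en a (tr h (z i) (Gk (κ i))) S i := by
    intro i
    unfold en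
    refine Finset.sum_congr rfl fun m _ => ?_
    by_cases hne : (S i m).Nonempty
    · refine lintegral_congr fun y => ?_
      have e5 : (fun ξ => a m ξ * tr h (z i) g ξ) = fun ξ => a m ξ * tr h (z i) (Gk (κ i)) ξ := by
        funext ξ
        by_cases ha : a m ξ = 0
        · simp [ha]
        by_cases hg0 : g ξ = 0
        · simp [tr, hGk, hg0]
        · simp only [tr, hGk]
          rw [hχ1 i m hne ξ ha hg0, mul_one]
      unfold U
      rw [e5]
    · rw [Set.not_nonempty_iff_eq_empty] at hne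
      rw [hne]; simp
  -- one frame and one cap
  have hone : ∀ (k : K) (ζ : E2 × ℝ),
      ∑ i ∈ Finset.univ.filter (fun i => κ i = k ∧ z i = ζ),
        ENNReal.ofReal (r * (s i 0 * s i 1 * r ^ 2) ^ (-(1/2) : ℝ)) *
        en a (tr h (z i) g) S i ^ (3 / 2 : ℝ) ≤
      ENNReal.ofReal C1 * ∫⁻ p in reg K0 r, aw N w h (tr h ζ (Gk k)) p ^ (3 / 2 : ℝ) := by
    intro k ζ
    let J := {i : I // (κ i = k ∧ z i = ζ) ∧ ∃ m, (S i m).Nonempty}
    have hSel : Sel A r w v (fun i : J => c i.1) (fun i : J => b i.1) (fun i : J => s i.1)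
        (fun i : J => x0 i.1) (fun (i : J) m => S i.1 m) := by
      refine ⟨fun i m => hmeas _ _, fun m i j hij => ?_, fun i m => hdir _ _, fun i m => hpos _ _,
        fun i j => hwle _ _, fun i j => hs0 _ _⟩
      refine hdisj m i.1 j.1 (fun hc => hij (Subtype.ext hc)) ?_ ?_
      · rw [i.2.1.2, j.2.1.2]
      · rw [i.2.1.1, j.2.1.1]
    have h2 := h1 h hh hM r hr ι J a v hcap hv (tr h ζ (Gk k)) (tr_integrable hh.continuous ζ (hGi k))
      (tr_memLp hh.continuous ζ (hG2 k)) w hw hwr _ _ _ _ _ hSel (reg K0 r)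
      Metric.isClosed_closedBall.measurableSet (by
        intro i x t ht hx
        obtain ⟨m, hm⟩ := i.2.2
        rw [reg, mem_closedBall_zero_iff, Prod.norm_def, max_le_iff]
        have hc1 : ‖v m - c i.1‖ ≤ 2 * A := by
          refine norm_le_of_inner (b i.1) _ hA fun j => ?_
          refine (hdir i.1 m hm j).trans ?_
          exact mul_le_of_le_one_right hA (hs1 _ _)
        have hc2 : ‖c i.1‖ ≤ V + 2 * A := by
          calc ‖c i.1‖ = ‖v m - (v m - c i.1)‖ := by rw [sub_sub_cancel]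
            _ ≤ ‖v m‖ + ‖v m - c i.1‖ := norm_sub_le _ _
            _ ≤ _ := by linarith [hv m]
        have hx1 : ‖x - (x0 i.1 - t • c i.1)‖ ≤ 2 * ((2 + 2 * A) * r) := by
          refine norm_le_of_inner (b i.1) _ (by positivity) fun j => ?_
          refine (hx j).le.trans ?_
          gcongr
          exact mul_le_of_le_one_left hr0.le (hs1 _ _)
        constructor
        · calc ‖x‖ = ‖(x - (x0 i.1 - t • c i.1)) + x0 i.1 - t • c i.1‖ := by congr 1; abel
            _ ≤ ‖(x - (x0 i.1 - t • c i.1)) + x0 i.1‖ + ‖t • c i.1‖ := norm_sub_le _ _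
            _ ≤ (‖x - (x0 i.1 - t • c i.1)‖ + ‖x0 i.1‖) + |t| * ‖c i.1‖ := by
                rw [norm_smul, Real.norm_eq_abs]
                gcongr
                exact norm_add_le _ _
            _ ≤ (2 * ((2 + 2 * A) * r) + X * r) + r * (V + 2 * A) := by
                gcongr
                exact hx0 _
            _ = K0 * r := by rw [hK0]; ring
        · calc ‖((x, t) : E2 × ℝ).2‖ = |t| := rfl
            _ ≤ r := ht
            _ ≤ K0 * r := by nlinarith)
    refine le_trans (le_of_eq ?_) h2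
    -- compare the sums
    rw [← Finset.sum_filter_add_sum_filter_not _ (fun i => ∃ m, (S i m).Nonempty)]
    have hz0 : ∑ i ∈ (Finset.univ.filter (fun i => κ i = k ∧ z i = ζ)).filter
        (fun i => ¬ ∃ m, (S i m).Nonempty),
        ENNReal.ofReal (r * (s i 0 * s i 1 * r ^ 2) ^ (-(1/2) : ℝ)) *
        en a (tr h (z i) g) S i ^ (3 / 2 : ℝ) = 0 := by
      refine Finset.sum_eq_zero fun i hi => ?_
      have hi2 := (Finset.mem_filter.1 hi).2
      push Not at hi2
      have : en a (tr h (z i) g) S i = 0 := by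
        unfold en
        refine Finset.sum_eq_zero fun m _ => ?_
        rw [hi2 m]; simp
      rw [this, ENNReal.zero_rpow_of_pos (by norm_num), mul_zero]
    rw [hz0, add_zero]
    have hJ : ∀ f : I → ℝ≥0∞, ∑ i : J, f i.1 = ∑ i ∈ (Finset.univ.filter
        (fun i => κ i = k ∧ z i = ζ)).filter (fun i => ∃ m, (S i m).Nonempty), f i := by
      intro f
      symm
      refine Finset.sum_subtype _ ?_ f
      intro i
      simp only [Finset.mem_filter, Finset.mem_univ, true_and]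
    rw [← hJ]
    refine Finset.sum_congr rfl fun i _ => ?_
    congr 2
    rw [hen, i.2.1.1, i.2.1.2]
    rfl
  -- sum over the frames and caps
  set Z : Finset (E2 × ℝ) := Finset.univ.image z with hZ
  have hsplit : ∀ f : I → ℝ≥0∞, ∑ i, f i =
      ∑ k : K, ∑ ζ ∈ Z, ∑ i ∈ Finset.univ.filter (fun i => κ i = k ∧ z i = ζ), f i := by
    intro f
    rw [← Finset.sum_fiberwise Finset.univ κ f]
    refine Finset.sum_congr rfl fun k _ => ?_
    have h3 := Finset.sum_fiberwise_of_maps_to (s := Finset.univ.filter fun i => κ i = k) (t := Z)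
      (g := z) (fun i _ => Finset.mem_image_of_mem z (Finset.mem_univ i)) f
    rw [← h3]
    refine Finset.sum_congr rfl fun ζ _ => ?_
    rw [Finset.filter_filter]
  rw [hsplit, Finset.mul_sum]
  refine Finset.sum_le_sum fun k _ => ?_
  calc ∑ ζ ∈ Z, ∑ i ∈ Finset.univ.filter (fun i => κ i = k ∧ z i = ζ),
        ENNReal.ofReal (r * (s i 0 * s i 1 * r ^ 2) ^ (-(1/2) : ℝ)) *
        en a (tr h (z i) g) S i ^ (3 / 2 : ℝ)
      ≤ ∑ ζ ∈ Z, ENNReal.ofReal C1 *
        ∫⁻ p in reg K0 r, aw N w h (tr h ζ (Gk k)) p ^ (3 / 2 : ℝ) :=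
        Finset.sum_le_sum fun ζ _ => hone k ζ
    _ = ENNReal.ofReal C1 * ∑ ζ ∈ Z,
        ∫⁻ p in reg K0 r, aw N w h (tr h ζ (Gk k)) p ^ (3 / 2 : ℝ) := by rw [Finset.mul_sum]
    _ ≤ ENNReal.ofReal C1 * (ENNReal.ofReal ((2 * K0 + 2) ^ 3) *
        ∫⁻ p in cyl (2 * R), aw N w h (Gk k) p ^ (3 / 2 : ℝ)) := by
        gcongr
        refine sum_frames hr0 (by linarith) hR Z ?_ ?_ hh.continuous (hGi k)
        · intro x hx y hy hxy
          obtain ⟨i, -, rfl⟩ := Finset.mem_image.1 hx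
          obtain ⟨j, -, rfl⟩ := Finset.mem_image.1 hy
          exact hsep i j hxy
        · intro x hx
          obtain ⟨i, -, rfl⟩ := Finset.mem_image.1 hx
          exact hz i
    _ = _ := by rw [← mul_assoc, ← ENNReal.ofReal_mul hC1]

end Crest.Agent.R138.Sup882
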