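import Crest.Agent.R138.Ex_926

/-!
# R138: suprema of exponents are attained; transfer principle (helper926)
-/

set_option autoImplicit false

open Filter Topology

namespace Crest.Agent.R138.Ex926

/-- The base sequence of a sequence of configurations. -/
noncomputable def Base.of {α : Type*} (d : α → ℝ) (hd : ∀ a, 0 < d a ∧ d a < 1) (a : ℕ → α)
    (hl : Tendsto (fun n => d (a n)) U (𝓝 0)) : Base where
  d n := d (a n)
  pos _ := (hd _).1
  lt _ := (hd _).2
  lim0 := hl

/-- A sequence of configurations is admissible if the scale tends to `0` and each of the countably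
many conditions `P k` holds almost everywhere. -/
structure Adm {α : Type*} (d : α → ℝ) (P : ℕ → α → Prop) (a : ℕ → α) : Prop where
  lim : Tendsto (fun n => d (a n)) U (𝓝 0)
  cond : ∀ k, ∀ᶠ n in (U : Filter ℕ), P k (a n)

theorem one_div_add_one_tendsto :
    Tendsto (fun n : ℕ => 1 / ((n : ℝ) + 1)) U (𝓝 0) :=
  tendsto_one_div_add_atTop_nhds_zero_nat.mono_left U_le_atTop

/-- The supremum of a finite-level value over admissible sequences is attained
by an admissible sequence. -/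
theorem exists_isMax {α : Type*} (d : α → ℝ) (hd : ∀ a, 0 < d a) (P : ℕ → α → Prop) (v : α → ℝ)
    {C : ℝ} (hne : ∃ a, Adm d P a) (hb : ∀ a, Adm d P a → ∀ᶠ n in (U : Filter ℕ), |v (a n)| ≤ C) :
    ∃ a, Adm d P a ∧ ∃ x, |x| ≤ C ∧ Tendsto (fun n => v (a n)) U (𝓝 x) ∧
      ∀ a', Adm d P a' → ∀ y, Tendsto (fun n => v (a' n)) U (𝓝 y) → y ≤ x := by
  classical
  set S : Set ℝ := {y | ∃ a, Adm d P a ∧ Tendsto (fun n => v (a n)) U (𝓝 y)} with hS
  have hSb : ∀ y ∈ S, |y| ≤ C := by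
    rintro y ⟨a, ha, hy⟩
    have h1 : Tendsto (fun n => |v (a n)|) U (𝓝 |y|) := hy.abs
    exact le_of_tendsto h1 (hb a ha)
  have hSne : S.Nonempty := by
    obtain ⟨a, ha⟩ := hne
    obtain ⟨y, hy, -⟩ := exists_tendsto (hb a ha)
    exact ⟨y, a, ha, hy⟩
  have hBdd : BddAbove S := ⟨C, fun y hy => (abs_le.1 (hSb y hy)).2⟩
  set x := sSup S with hx
  have hap : ∀ k : ℕ, ∃ y ∈ S, x - 1 / ((k : ℝ) + 1) < y := by
    intro k
    have h0 : (0 : ℝ) < 1 / ((k : ℝ) + 1) := by positivity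
    exact exists_lt_of_lt_csSup hSne (by linarith)
  choose y hyS hy using hap
  choose a ha hay using hyS
  have hpick : ∀ k : ℕ, ∃ n, d (a k n) < 1 / ((k : ℝ) + 1) ∧ (∀ j ≤ k, P j (a k n)) ∧
      |v (a k n) - y k| < 1 / ((k : ℝ) + 1) := by
    intro k
    have h0 : (0 : ℝ) < 1 / ((k : ℝ) + 1) := by positivity
    have h1 : ∀ᶠ n in (U : Filter ℕ), d (a k n) < 1 / ((k : ℝ) + 1) :=
      (ha k).lim.eventually_lt_const h0
    have h2 : ∀ᶠ n in (U : Filter ℕ), ∀ j ∈ Finset.range (k + 1), P j (a k n) := by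
      rw [Filter.eventually_all_finset]
      intro j _
      exact (ha k).cond j
    have h3 : ∀ᶠ n in (U : Filter ℕ), |v (a k n) - y k| < 1 / ((k : ℝ) + 1) := by
      have := (Metric.tendsto_nhds.1 (hay k)) _ h0
      simpa [Real.dist_eq] using this
    obtain ⟨n, h1, h2, h3⟩ := (h1.and (h2.and h3)).exists
    exact ⟨n, h1, fun j hj => h2 j (Finset.mem_range.2 (Nat.lt_succ_of_le hj)), h3⟩
  choose m hm1 hm2 hm3 using hpick
  have hxC : |x| ≤ C := by
    rw [abs_le]
    constructor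
    · obtain ⟨z, hz⟩ := hSne
      exact (abs_le.1 (hSb z hz)).1.trans (le_csSup hBdd hz)
    · exact csSup_le hSne fun y hy => (abs_le.1 (hSb y hy)).2
  refine ⟨fun k => a k (m k), ⟨?_, ?_⟩, x, hxC, ?_, ?_⟩
  · refine squeeze_zero (fun k => (hd _).le) (fun k => (hm1 k).le) one_div_add_one_tendsto
  · intro j
    filter_upwards [ev_ge j] with k hk
    exact hm2 k j hk
  · have h1 : Tendsto y U (𝓝 x) := by
      have h2 : Tendsto (fun k : ℕ => x - 1 / ((k : ℝ) + 1)) U (𝓝 x) := by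
        have := one_div_add_one_tendsto.const_sub x
        simpa using this
      refine tendsto_of_tendsto_of_tendsto_of_le_of_le h2 tendsto_const_nhds
        (fun k => (hy k).le) (fun k => le_csSup hBdd ⟨a k, ha k, hay k⟩)
    have h3 : Tendsto (fun k => v (a k (m k)) - y k) U (𝓝 0) := by
      refine squeeze_zero_norm (fun k => ?_) one_div_add_one_tendsto
      exact (hm3 k).le
    have := h3.add h1
    simpa using this
  · intro a' ha' z hz
    exact le_csSup hBdd ⟨a', ha', hz⟩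

/-- The infimum version. -/
theorem exists_isMin {α : Type*} (d : α → ℝ) (hd : ∀ a, 0 < d a) (P : ℕ → α → Prop) (v : α → ℝ)
    {C : ℝ} (hne : ∃ a, Adm d P a) (hb : ∀ a, Adm d P a → ∀ᶠ n in (U : Filter ℕ), |v (a n)| ≤ C) :
    ∃ a, Adm d P a ∧ ∃ x, |x| ≤ C ∧ Tendsto (fun n => v (a n)) U (𝓝 x) ∧
      ∀ a', Adm d P a' → ∀ y, Tendsto (fun n => v (a' n)) U (𝓝 y) → x ≤ y := by
  obtain ⟨a, ha, x, hx, h1, h2⟩ := exists_isMax d hd P (fun b => - v b) (C := C) hne
    (by intro a ha; simpa using hb a ha)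
  refine ⟨a, ha, -x, by simpa using hx, by simpa using h1.neg, fun a' ha' y hy => ?_⟩
  have := h2 a' ha' (-y) (by simpa using hy.neg)
  linarith

/-- Adding the condition `v → x` (so that extremisers can be taken lexicographically). -/
theorem Adm.iff_and_tendsto {α : Type*} {d : α → ℝ} {P : ℕ → α → Prop} {v : α → ℝ} {x : ℝ}
    {a : ℕ → α} : Adm d (fun k b => P k b ∧ |v b - x| ≤ 1 / ((k : ℝ) + 1)) a ↔
      Adm d P a ∧ Tendsto (fun n => v (a n)) U (𝓝 x) := by
  constructor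
  · intro h
    refine ⟨⟨h.lim, fun k => (h.cond k).mono fun n hn => hn.1⟩, ?_⟩
    rw [Metric.tendsto_nhds]
    intro ε hε
    obtain ⟨k, hk⟩ := exists_nat_one_div_lt hε
    filter_upwards [h.cond k] with n hn
    rw [Real.dist_eq]
    exact lt_of_le_of_lt hn.2 hk
  · rintro ⟨h, h2⟩
    refine ⟨h.lim, fun k => ?_⟩
    have h0 : (0 : ℝ) < 1 / ((k : ℝ) + 1) := by positivity
    have h3 := (Metric.tendsto_nhds.1 h2) _ h0
    filter_upwards [h.cond k, h3] with n h4 h5
    rw [Real.dist_eq] at h5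
    exact ⟨h4, h5.le⟩

/-- **Transfer principle.** If the exponent inequality `ex (X/Y) ≤ 0` holds for every sequence of
configurations with scale tending to `0`, then `X ≤ C_ε d^{-ε} Y` for all configurations. -/
theorem transfer {α : Type*} (d : α → ℝ) (hd : ∀ a, 0 < d a ∧ d a < 1) (Q : α → Prop)
    (X Y : α → ℝ) (hY : ∀ a, Q a → 0 < Y a) {K : ℝ}
    (hK : ∀ a, Q a → X a ≤ d a ^ (-K) * Y a)
    (h : ∀ (a : ℕ → α) (hl : Tendsto (fun n => d (a n)) U (𝓝 0)), (∀ n, Q (a n)) →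
      (∀ n, 0 < X (a n)) → (Base.of d hd a hl).PB (fun n => X (a n) / Y (a n)) →
      (Base.of d hd a hl).ex (fun n => X (a n) / Y (a n)) ≤ 0) :
    ∀ ε : ℝ, 0 < ε → ∃ C : ℝ, 0 < C ∧ ∀ a, Q a → X a ≤ C * d a ^ (-ε) * Y a := by
  intro ε hε
  by_contra hcon
  push Not at hcon
  have hsel : ∀ n : ℕ, ∃ a, Q a ∧ ((n : ℝ) + 1) * d a ^ (-ε) * Y a < X a := by
    intro n
    exact hcon ((n : ℝ) + 1) (by positivity)
  choose a hQ ha using hsel
  have hrat : ∀ n : ℕ, ((n : ℝ) + 1) * d (a n) ^ (-ε) < X (a n) / Y (a n) := by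
    intro n
    rw [lt_div_iff₀ (hY _ (hQ n))]
    exact ha n
  have hup : ∀ n : ℕ, X (a n) / Y (a n) ≤ d (a n) ^ (-K) := by
    intro n
    rw [div_le_iff₀ (hY _ (hQ n))]
    exact hK _ (hQ n)
  have hXpos : ∀ n, 0 < X (a n) := by
    intro n
    refine lt_of_le_of_lt ?_ (ha n)
    have := hY _ (hQ n)
    have h2 := Real.rpow_pos_of_pos (hd (a n)).1 (-ε)
    positivity
  have hlim : Tendsto (fun n => d (a n)) U (𝓝 0) := by
    -- (n+1) < d^{-(K-ε)}
    have hKe : ∀ n : ℕ, ((n : ℝ) + 1) < d (a n) ^ (-(K - ε)) := by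
      intro n
      have h1 := lt_of_lt_of_le (hrat n) (hup n)
      have h2 := Real.rpow_pos_of_pos (hd (a n)).1 (-ε)
      have h3 : d (a n) ^ (-K) = d (a n) ^ (-(K - ε)) * d (a n) ^ (-ε) := by
        rw [← Real.rpow_add (hd (a n)).1]; congr 1; ring
      rw [h3] at h1
      exact lt_of_mul_lt_mul_right h1 h2.le
    by_cases hKE : K - ε ≤ 0
    · exfalso
      have h1 := hKe 0
      have h2 : d (a 0) ^ (-(K - ε)) ≤ 1 :=
        Real.rpow_le_one (hd _).1.le (hd _).2.le (by linarith)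
      have h3 : (1 : ℝ) ≤ ((0 : ℕ) : ℝ) + 1 := by simp
      linarith
    · push Not at hKE
      have hp : 0 < K - ε := hKE
      have hle : ∀ n : ℕ, d (a n) ≤ (1 / ((n : ℝ) + 1)) ^ (1 / (K - ε)) := by
        intro n
        have hdp := (hd (a n)).1
        have h1 := hKe n
        have h4 : d (a n) ^ (K - ε) ≤ 1 / ((n : ℝ) + 1) := by
          rw [le_div_iff₀ (by positivity)]
          have h5 : d (a n) ^ (-(K - ε)) * d (a n) ^ (K - ε) = 1 := by
            rw [← Real.rpow_add hdp]; simp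
          have h6 := Real.rpow_pos_of_pos hdp (K - ε)
          nlinarith
        calc d (a n) = (d (a n) ^ (K - ε)) ^ (1 / (K - ε)) := by
              rw [← Real.rpow_mul hdp.le]
              rw [mul_one_div_cancel hp.ne', Real.rpow_one]
          _ ≤ _ := Real.rpow_le_rpow (Real.rpow_nonneg hdp.le _) h4 (by positivity)
      have hz : Tendsto (fun n : ℕ => (1 / ((n : ℝ) + 1)) ^ (1 / (K - ε))) U (𝓝 0) := by
        have h7 : (0 : ℝ) < 1 / (K - ε) := by positivity
        have := one_div_add_one_tendsto.rpow_const (p := 1 / (K - ε)) (Or.inr h7.le)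
        rwa [Real.zero_rpow h7.ne'] at this
      exact squeeze_zero (fun n => (hd _).1.le) hle hz
  set B := Base.of d hd a hlim with hB
  have hPB : B.PB (fun n => X (a n) / Y (a n)) := by
    refine Base.PB.of_le_of_le (Base.PB.const one_pos) (Base.PB.dpow (-K)) ?_ ?_
    · refine Eventually.of_forall fun n => ?_
      have h1 := hrat n
      have h2 : 1 ≤ d (a n) ^ (-ε) :=
        Real.one_le_rpow_of_pos_of_le_one_of_nonpos (hd _).1 (hd _).2.le (by linarith)
      have h3 : (1 : ℝ) ≤ (n : ℝ) + 1 := by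
        have : (0 : ℝ) ≤ n := Nat.cast_nonneg n
        linarith
      nlinarith
    · exact Eventually.of_forall fun n => hup n
  have h1 := h a hlim hQ hXpos hPB
  have h2 : ε ≤ B.ex (fun n => X (a n) / Y (a n)) := by
    refine Base.le_ex_of_dpow hPB (Eventually.of_forall fun n => ?_)
    have h1 := hrat n
    have h3 : (1 : ℝ) ≤ (n : ℝ) + 1 := by
      have : (0 : ℝ) ≤ n := Nat.cast_nonneg n
      linarith
    have h4 := Real.rpow_pos_of_pos (hd (a n)).1 (-ε)
    change d (a n) ^ (-ε) ≤ _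
    nlinarith
  linarith

/-- The converse (trivial) direction: an inequality with `ε`-loss gives the exponent inequality. -/
theorem ex_le_of_forall_config {α : Type*} (d : α → ℝ) (hd : ∀ a, 0 < d a ∧ d a < 1)
    (Q : α → Prop) (X Y : α → ℝ)
    (h : ∀ ε : ℝ, 0 < ε → ∃ C : ℝ, ∀ a, Q a → X a ≤ C * d a ^ (-ε) * Y a)
    (a : ℕ → α) (hl : Tendsto (fun n => d (a n)) U (𝓝 0)) (hQ : ∀ᶠ n in (U : Filter ℕ), Q (a n))
    (hX : (Base.of d hd a hl).PB (fun n => X (a n))) (hY : (Base.of d hd a hl).PB (fun n => Y (a n))) :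
    (Base.of d hd a hl).ex (fun n => X (a n)) ≤ (Base.of d hd a hl).ex (fun n => Y (a n)) := by
  refine Base.ex_le_of_eps hX hY fun ε hε => ?_
  obtain ⟨C, hC⟩ := h ε hε
  refine ⟨C, ?_⟩
  filter_upwards [hQ] with n hn
  exact hC _ hn

end Crest.Agent.R138.Ex926
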