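import Crest.Agent.R138.Sys_248

/-!
# R138, helper248: `DD p 0 v` = sup over the legal shapes, record sweep

* `DD_eq` : `DD p 0 v = sup_{x ∈ KSh} (φ v x + p x.1)`.
* `sweep` : the record sweep for two levels with different compact sets of shapes.
-/

set_option autoImplicit false
set_option linter.unusedVariables false

open Filter Topology Finset

namespace Crest.Agent.R138.X248

open Crest.Agent.R138.Ex926 Crest.Agent.R138.Dp76 Crest.Agent.R138.Flag51
open Crest.Agent.R138.K294 Crest.Agent.R138.Ps926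

variable {B : Base} {m M : ℕ → ℕ} {r : ℕ → ℝ} {I J : ℕ → Finset (Ln × ℝ)}

theorem pb_kP (h : Fam B m M r I) {p : ℝ} (hp : 0 ≤ p) {v : ℝ} (hv : v ≤ 1) :
    B.PB (fun n => (kP p (m n) (lv m M n v) (r n) (B.d n ^ (0:ℝ) / 2 ^ (lv m M n v)) hp
      (h.rpos n)).Dmax (I n)) :=
  (monoF_Dmax (h.padm hp _ hv)).pb (Eventually.of_forall fun n => Subset.refl _) h.ne

/-- planks of a legal shape are penalised planks -/
theorem ph_le_DD (h : Fam B m M r I) {p : ℝ} (hp : 0 ≤ p) {v : ℝ} (hv : v ≤ 1) {x : ℝ × ℝ}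
    (hx : x ∈ KSh (Rv B m M r v)) :
    ph B m M r I v x + p * x.1 ≤ DD B p hp m M r h.rpos I 0 v := by
  obtain ⟨l, a⟩ := x
  obtain ⟨hl, hla, haR⟩ := hx
  simp only at hl hla haR ⊢
  have pb1 := pb_ph h (l := l) (a := a) hv hl (hl.trans hla)
  have pb2 := pb_kP h hp hv
  have pbw := pb_wd h hv l
  have key : ∀ᶠ n in (U : Filter ℕ), (shS B m M r v l a n).Dmax (I n) ≤
      (wd B m M r n v l * 2 ^ (lv m M n v)) ^ p *
        (kP p (m n) (lv m M n v) (r n) (B.d n ^ (0:ℝ) / 2 ^ (lv m M n v)) hp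
          (h.rpos n)).Dmax (I n) := by
    refine Eventually.of_forall fun n => ?_
    have q1 := wd_pos B m M r n v a
    have q2 := wd_pos B m M r n v l
    refine PSys.Dmax_le _ (mul_nonneg (by positivity) (PSys.Dmax_nonneg _ _)) fun K => ?_
    unfold PSys.dens
    rw [div_le_iff₀ ((shS B m M r v l a n).vol_pos K)]
    have hleg : Legal (lv m M n v) (r n)
        ⟨K.1.1, K.1.2.1, K.1.2.2, wd B m M r n v a, wd B m M r n v l⟩ :=
      ⟨K.2, r_le_wd n v a, wd_anti n v hla, wd_le h n hv hl⟩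
    have h1 := (kP p (m n) (lv m M n v) (r n) (B.d n ^ (0:ℝ) / 2 ^ (lv m M n v)) hp
      (h.rpos n)).objs_card_le_Dmax (I n) ⟨_, hleg, by
        refine le_max_of_le_left ?_
        rw [Real.rpow_zero]
        exact hleg.w2⟩
    have h2 : (((shS B m M r v l a n).objs (I n) K).card : ℝ) ≤
        (((kP p (m n) (lv m M n v) (r n) (B.d n ^ (0:ℝ) / 2 ^ (lv m M n v)) hp
      (h.rpos n)).objs (I n) ⟨_, hleg, by
        refine le_max_of_le_left ?_
        rw [Real.rpow_zero]
        exact hleg.w2⟩).card : ℝ) := by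
      refine Nat.cast_le.2 (card_le_card fun o ho => ?_)
      have ho' := (PSys.mem_objs (shS B m M r v l a n)).1 ho
      exact (PSys.mem_objs _).2 ⟨ho'.1, ho'.2.1, inPlank_short ho'.2.2⟩
    refine h2.trans (h1.trans (le_of_eq ?_))
    show _ * (cap p (lv m M n v) ⟨K.1.1, K.1.2.1, K.1.2.2, wd B m M r n v a, wd B m M r n v l⟩ *
      4 ^ (m n)) = _ * (wd B m M r n v a * wd B m M r n v l * 4 ^ (m n))
    unfold cap
    simp only
    ring
  have h3 := Base.ex_le pb1 ((pbw.rpow p).mul pb2) key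
  rw [Base.ex_mul (pbw.rpow p) pb2, Base.ex_rpow pbw, ex_wd h hv (hla.trans haR)] at h3
  unfold ph DD
  simp only
  linarith

open Classical in
theorem mem_objs294 {m' : ℕ} {I : Finset (Ln × ℝ)} {K : Plk} {o : Ln × ℤ} :
    o ∈ K294.objs m' I K ↔ (∃ x ∈ I, K294.ob m' x = o) ∧ InK m' K o := by
  unfold K294.objs
  rw [mem_filter, mem_image]

/-- the extremal shape of the penalised planks -/
theorem exists_shape (h : Fam B m M r I) {p : ℝ} (hp : 0 ≤ p) {v : ℝ} (hv : v ≤ 1) :
    ∃ x ∈ KSh (Rv B m M r v), DD B p hp m M r h.rpos I 0 v ≤ ph B m M r I v x + p * x.1 := by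
  classical
  set P : ∀ n, PSys (Ln × ℝ) := fun n => kP p (m n) (lv m M n v) (r n)
    (B.d n ^ (0:ℝ) / 2 ^ (lv m M n v)) hp (h.rpos n) with hP
  have pbD : B.PB (fun n => (P n).Dmax (I n)) := pb_kP h hp hv
  -- near-maximal planks
  have hex : ∀ n, ∃ K : Plk, Legal (lv m M n v) (r n) K ∧ (0 < (P n).Dmax (I n) →
      (P n).Dmax (I n) / 2 * (cap p (lv m M n v) K * 4 ^ (m n)) ≤
        ((K294.objs (lv m M n v) (I n) K).card : ℝ)) := by
    intro n
    by_cases hD : 0 < (P n).Dmax (I n)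
    · obtain ⟨K, hK⟩ := (P n).exists_lt_dens (I := I n) (D := (P n).Dmax (I n) / 2)
        (by linarith) (by linarith)
      refine ⟨K.1, K.2.1, fun _ => ?_⟩
      unfold PSys.dens at hK
      rw [lt_div_iff₀ ((P n).vol_pos K)] at hK
      refine hK.le.trans (Nat.cast_le.2 (card_le_card fun o ho => ?_))
      have ho' := (PSys.mem_objs (P n)).1 ho
      exact mem_objs294.2 ⟨ho'.1, ho'.2⟩
    · exact ⟨baseK (lv m M n v) (r n) (0, 0), baseK_legal (r_le_cell h n hv) _,
        fun h' => absurd h' hD⟩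
  choose K hKleg hKD using hex
  set c : ℕ → ℝ := fun n => 2 ^ (lv m M n v) with hc
  have hcp : ∀ n, 0 < c n := fun n => by simp only [hc]; positivity
  have hr1 : ∀ n, r n * c n ≤ 1 := fun n => by
    have := r_le_cell h n hv
    rwa [le_div_iff₀ (hcp n)] at this
  have w1p : ∀ n, 0 < (K n).w1 := fun n => (h.rpos n).trans_le (hKleg n).r1
  have w2p : ∀ n, 0 < (K n).w2 := fun n => (w1p n).trans_le (hKleg n).w12
  have hw1 : ∀ n, r n * c n ≤ (K n).w1 * c n := fun n =>
    mul_le_mul_of_nonneg_right (hKleg n).r1 (hcp n).le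
  have hw2 : ∀ n, (K n).w1 * c n ≤ (K n).w2 * c n := fun n =>
    mul_le_mul_of_nonneg_right (hKleg n).w12 (hcp n).le
  have hw3 : ∀ n, (K n).w2 * c n ≤ 1 := fun n => by
    have := (hKleg n).w2
    rwa [le_div_iff₀ (hcp n)] at this
  have pbr := pb_r h hv
  have pb1 : B.PB (fun n => (K n).w1 * c n) :=
    pbr.of_le_of_le (Base.PB.const one_pos) (Eventually.of_forall hw1)
      (Eventually.of_forall fun n => (hw2 n).trans (hw3 n))
  have pb2 : B.PB (fun n => (K n).w2 * c n) :=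
    pb1.of_le_of_le (Base.PB.const one_pos) (Eventually.of_forall hw2)
      (Eventually.of_forall hw3)
  set l : ℝ := - B.ex (fun n => (K n).w2 * c n) with hl
  set a : ℝ := - B.ex (fun n => (K n).w1 * c n) with ha
  have hl0 : 0 ≤ l := by
    have := Base.ex_nonpos pb2 (Eventually.of_forall hw3)
    rw [hl]; linarith
  have hla : l ≤ a := by
    have := Base.ex_le pb1 pb2 (Eventually.of_forall hw2)
    rw [hl, ha]; linarith
  have haR : a ≤ Rv B m M r v := by
    have := Base.ex_le pbr pb1 (Eventually.of_forall hw1)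
    rw [ha]; unfold Rv; linarith
  refine ⟨(l, a), ⟨hl0, hla, haR⟩, ?_⟩
  refine le_of_forall_pos_le_add fun ε hε => ?_
  -- comparison with the planks of shape (l, a)
  set δ : ℝ := ε / 6 with hδ
  have hδ0 : 0 < δ := by rw [hδ]; linarith
  have e1 : ∀ᶠ n in (U : Filter ℕ), B.d n ^ (a + δ) < (K n).w1 * c n := by
    have := Base.lt_ex_dpow pb1 (a := -(a + δ)) (by rw [ha] at *; linarith)
    simpa using this
  have e1' : ∀ᶠ n in (U : Filter ℕ), (K n).w1 * c n < B.d n ^ (a - δ) := by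
    have := Base.ex_lt_iff_dpow pb1 (a := -(a - δ)) (by rw [ha] at *; linarith)
    simpa using this
  have e2 : ∀ᶠ n in (U : Filter ℕ), B.d n ^ (l + δ) < (K n).w2 * c n := by
    have := Base.lt_ex_dpow pb2 (a := -(l + δ)) (by rw [hl] at *; linarith)
    simpa using this
  have e2' : ∀ᶠ n in (U : Filter ℕ), (K n).w2 * c n < B.d n ^ (l - δ) := by
    have := Base.ex_lt_iff_dpow pb2 (a := -(l - δ)) (by rw [hl] at *; linarith)
    simpa using this
  have pbφ := pb_ph h (l := l) (a := a) hv hl0 (hl0.trans hla)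
  have key : ∀ᶠ n in (U : Filter ℕ), (P n).Dmax (I n) * ((K n).w2 * c n) ^ p ≤
      (2 * 625 * 81 * B.d n ^ (-(6 * δ))) * (shS B m M r v l a n).Dmax (I n) := by
    filter_upwards [pbD.pos, e1, e1', e2, e2'] with n hDn f1 f1' f2 f2'
    set X := B.d n ^ (-δ) with hX
    have hX1 : (1 : ℝ) ≤ X :=
      Real.one_le_rpow_of_pos_of_le_one_of_nonpos (B.pos n) (B.lt n).le (by linarith)
    have hX0 : (0 : ℝ) < X := by linarith
    have hXn : (1 : ℝ) ≤ 3 * X := by linarith
    have hcc : 3 * X ≤ (⌈3 * X⌉₊ : ℝ) := Nat.le_ceil _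
    have q1 := wd_pos B m M r n v a
    have q2 := wd_pos B m M r n v l
    have hXmul : ∀ b : ℝ, B.d n ^ (b - δ) = X * B.d n ^ b := by
      intro b; rw [hX, ← dpow_add]; congr 1; ring
    have hXmul' : ∀ b : ℝ, B.d n ^ b = X * B.d n ^ (b + δ) := by
      intro b; rw [hX, ← dpow_add]; congr 1; ring
    -- widths of K against wd
    have g1 : (K n).w1 ≤ X * wd B m M r n v a := by
      have : (K n).w1 ≤ X * (B.d n ^ a / c n) := by
        rw [hXmul] at f1'
        rw [← mul_div_assoc, le_div_iff₀ (hcp n)]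
        exact f1'.le
      exact this.trans (mul_le_mul_of_nonneg_left (le_max_right _ _) hX0.le)
    have g2 : (K n).w2 ≤ X * wd B m M r n v l := by
      have : (K n).w2 ≤ X * (B.d n ^ l / c n) := by
        rw [hXmul] at f2'
        rw [← mul_div_assoc, le_div_iff₀ (hcp n)]
        exact f2'.le
      exact this.trans (mul_le_mul_of_nonneg_left (le_max_right _ _) hX0.le)
    have g3 : wd B m M r n v a ≤ X * (K n).w1 := by
      refine max_le ?_ ?_
      · have := (hKleg n).r1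
        nlinarith [w1p n]
      · rw [hXmul' a, mul_div_assoc]
        refine mul_le_mul_of_nonneg_left ?_ hX0.le
        rw [div_le_iff₀ (hcp n)]
        exact f1.le
    have g4 : wd B m M r n v l ≤ X * (K n).w2 := by
      refine max_le ?_ ?_
      · have := (hKleg n).r1.trans (hKleg n).w12
        nlinarith [w2p n]
      · rw [hXmul' l, mul_div_assoc]
        refine mul_le_mul_of_nonneg_left ?_ hX0.le
        rw [div_le_iff₀ (hcp n)]
        exact f2.le
    -- the covering
    have k1 := card_cover (m0 := m n) (m' := lv m M n v) q1 q2 (k := ⌈3 * X⌉₊) (j := (K n).j)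
      (l := (K n).l) (e := (K n).e) (hKleg n).unit (I := I n)
      (S := K294.objs (lv m M n v) (I n) (K n)) (fun o ho => by
        have ho' := mem_objs294.1 ho
        refine ⟨ho'.1, ho'.2.1, ?_⟩
        have h9 : InPlank o.1 (K n).l (K n).e (K n).w1 (K n).w2 (zm (lv m M n v) (K n).j)
            (zr (lv m M n v)) := ho'.2.2
        refine inPlank_mono ?_ ?_ (inPlank_long h9)
        · calc 3 * (K n).w1 ≤ 3 * (X * wd B m M r n v a) := by linarith
            _ = (3 * X) * wd B m M r n v a := by ring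
            _ ≤ _ := mul_le_mul_of_nonneg_right hcc q1.le
        · calc 3 * (K n).w2 ≤ 3 * (X * wd B m M r n v l) := by linarith
            _ = (3 * X) * wd B m M r n v l := by ring
            _ ≤ _ := mul_le_mul_of_nonneg_right hcc q2.le)
    have k2 := (hKD n hDn).trans k1
    set Dn := (P n).Dmax (I n) with hDdef
    set φn := (shP (m n) (lv m M n v) (wd B m M r n v a) (wd B m M r n v l) q1 q2).Dmax (I n)
      with hφn
    have hφ0 : 0 ≤ φn := PSys.Dmax_nonneg _ _
    have k3 : (2 * (⌈3 * X⌉₊ : ℝ) + 1) ^ 4 ≤ 625 * 81 * X ^ 4 := by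
      refine (ceil_bound hXn).trans (le_of_eq ?_)
      ring
    have k4 : wd B m M r n v a * wd B m M r n v l ≤ X ^ 2 * ((K n).w1 * (K n).w2) := by
      calc wd B m M r n v a * wd B m M r n v l ≤ (X * (K n).w1) * (X * (K n).w2) :=
            mul_le_mul g3 g4 q2.le (mul_nonneg hX0.le (w1p n).le)
        _ = _ := by ring
    have hw12 : 0 < (K n).w1 * (K n).w2 := mul_pos (w1p n) (w2p n)
    have h4 : (0 : ℝ) < 4 ^ (m n) := by positivity
    have k5 : Dn / 2 * (cap p (lv m M n v) (K n) * 4 ^ (m n)) ≤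
        (625 * 81 * X ^ 4) * (φn * (X ^ 2 * ((K n).w1 * (K n).w2) * 4 ^ (m n))) := by
      refine k2.trans ?_
      refine mul_le_mul k3 (mul_le_mul_of_nonneg_left
        (mul_le_mul_of_nonneg_right k4 h4.le) hφ0) ?_ (by positivity)
      exact mul_nonneg hφ0 (by positivity)
    have k6 : Dn / 2 * (cap p (lv m M n v) (K n) * 4 ^ (m n)) =
        (Dn * ((K n).w2 * c n) ^ p) / 2 * ((K n).w1 * (K n).w2 * 4 ^ (m n)) := by
      unfold cap
      simp only [hc]
      ring
    have k7 : (625 * 81 * X ^ 4) * (φn * (X ^ 2 * ((K n).w1 * (K n).w2) * 4 ^ (m n))) =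
        (625 * 81 * X ^ 6 * φn) * ((K n).w1 * (K n).w2 * 4 ^ (m n)) := by ring
    rw [k6, k7] at k5
    have k8 := le_of_mul_le_mul_right k5 (mul_pos hw12 h4)
    have k9 : X ^ 6 = B.d n ^ (-(6 * δ)) := by
      rw [hX, ← Real.rpow_natCast, ← Real.rpow_mul (B.pos n).le]
      congr 1
      push_cast
      ring
    rw [k9] at k8
    have k10 : (shS B m M r v l a n).Dmax (I n) = φn := rfl
    rw [k10]
    linarith
  have pbc : B.PB (fun n => (2 * 625 * 81 : ℝ) * B.d n ^ (-(6 * δ))) :=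
    (Base.PB.const (by norm_num : (0:ℝ) < 2 * 625 * 81)).mul (Base.PB.dpow (-(6 * δ)))
  have h3 := Base.ex_le (pbD.mul (pb2.rpow p)) (pbc.mul pbφ) key
  rw [Base.ex_mul pbD (pb2.rpow p), Base.ex_rpow pb2, Base.ex_mul pbc pbφ,
    Base.ex_mul (Base.PB.const (by norm_num : (0:ℝ) < 2 * 625 * 81)) (Base.PB.dpow _),
    Base.ex_const, Base.ex_dpow] at h3
  have h4 : B.ex (fun n => (K n).w2 * c n) = -l := by rw [hl]; ring
  rw [h4] at h3
  have h5 : 6 * δ = ε := by rw [hδ]; ring
  have h6 : DD B p hp m M r h.rpos I 0 v = B.ex (fun n => (P n).Dmax (I n)) := rfl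
  have h7 : ph B m M r I v (l, a) = B.ex (fun n => (shS B m M r v l a n).Dmax (I n)) := rfl
  rw [h6, h7]
  simp only
  linarith

theorem DD_eq (h : Fam B m M r I) {p : ℝ} (hp : 0 ≤ p) {v : ℝ} (hv : v ≤ 1) :
    DD B p hp m M r h.rpos I 0 v = Sq248.D (KSh (Rv B m M r v)) (ph B m M r I) p v := by
  apply le_antisymm
  · obtain ⟨x, hx, h1⟩ := exists_shape h hp hv
    exact h1.trans (Sq248.le_D (KSh_compact _) (ph_cont h hv) hx p)
  · exact Sq248.D_le (KSh_compact _) (KSh_nonempty (Rv_nonneg h hv)) fun x hx =>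
      ph_le_DD h hp hv hx

/-- stability of the penalised systems -/
theorem stable_kP (h : Fam B m M r I) {v : ℝ} (hv : v ≤ 1)
    (hS : ∀ l a : ℚ, 0 ≤ l → 0 ≤ a → StableF B (fun n J => (shS B m M r v l a n).Dmax J) I)
    {p : ℝ} (hp : 0 ≤ p) :
    StableF B (fun n J => (kP p (m n) (lv m M n v) (r n)
      (B.d n ^ (0 : ℝ) / 2 ^ (lv m M n v)) hp (h.rpos n)).Dmax J) I := by
  intro J hJ
  have hF := h.dense hJ
  have h1 : DD B p hp m M r h.rpos J 0 v = DD B p hp m M r hF.rpos J 0 v := rfl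
  show DD B p hp m M r h.rpos J 0 v = DD B p hp m M r h.rpos I 0 v
  rw [h1, DD_eq hF hp hv, DD_eq h hp hv]
  have hph : ∀ x ∈ KSh (Rv B m M r v), ph B m M r J v x = ph B m M r I v x := by
    rintro ⟨l, a⟩ ⟨h1, h2, h3⟩
    exact stable_real h hv hS h1 (h1.trans h2) J hJ
  unfold Sq248.D
  congr 1
  refine Set.image_congr fun x hx => ?_
  rw [hph x hx]

/-- record sweep, levels `u < v` with their own compact sets of shapes -/
theorem sweep {S T : Set (ℝ × ℝ)} (hS : IsCompact S) (hSne : S.Nonempty) (hT : IsCompact T)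
    (hTne : T.Nonempty) {φ : ℝ → ℝ × ℝ → ℝ} {u v q κ b L ε0 : ℝ} (hε0 : 0 < ε0)
    (hφu : ContinuousOn (φ u) S) (hφv : ContinuousOn (φ v) T)
    (hwin : ∀ ε, 0 < ε → ε ≤ ε0 →
      Sq248.D T φ (q + ε) v - Sq248.D S φ (q + ε) u ≤ L + (b - κ * ε) * (v - u))
    (heq : L + b * (v - u) ≤ Sq248.D T φ q v - Sq248.D S φ q u) :
    κ * (v - u) ≤ Sq248.lp S φ q u - Sq248.lp T φ q v := by
  obtain ⟨x, hx, hxl⟩ := Sq248.lp_mem hT hTne hφv q
  set A : Set (ℝ × ℝ) := (fun y : ℝ × ℝ => (φ u y, y.1)) '' S with hA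
  have hAc : IsCompact A := hS.image_of_continuousOn (hφu.prodMk continuous_fst.continuousOn)
  have hAne : A.Nonempty := hSne.image _
  have hD : ∀ p : ℝ, sSup ((fun y : ℝ × ℝ => y.1 + p * y.2) '' A) = Sq248.D S φ p u := by
    intro p
    rw [hA, Set.image_image]
    rfl
  obtain ⟨z, hzA, hz1, hz2⟩ := Sq248.sweep_compact hAc hAne (x := (φ v x, x.1)) (q := q) (L := L)
    (b := b) (κ := κ) (h := v - u) hε0
    (by
      intro ε h1 h2
      rw [hD]
      have h3 := hwin ε h1 h2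
      have h4 := Sq248.le_D hT hφv hx.1 (q + ε)
      simp only
      linarith)
    (by
      rw [hD]
      simp only
      rw [hx.2]
      linarith)
  obtain ⟨y, hyS, rfl⟩ := hzA
  have hyA : y ∈ Sq248.Arg S φ q u := ⟨hyS, by rw [← hD q]; exact hz1⟩
  have := Sq248.le_lp hS hφu hyA
  simp only at hz2
  rw [← hxl]
  linarith

end Crest.Agent.R138.X248
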