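import Crest.Agent.R138.XDef_248
import Crest.Agent.R138.Sq2_248

/-!
# R138, helper248: plank systems of fixed real shapes

* `wd` : widths `max r (d^l / 2^lv)`; `shS v l a` : the system of shape `(l, a)` at level `v`.
* `ph` : exponent of its maximal density; Lipschitz in the shape, stable for all real shapes if
  stable for the rational ones.
* `DD_eq` : `DD p 0 v = sup (φ v + p l)` over the compact set of legal shapes.
-/

set_option autoImplicit false
set_option linter.unusedVariables false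

open Filter Topology Finset

namespace Crest.Agent.R138.X248

open Crest.Agent.R138.Ex926 Crest.Agent.R138.Dp76 Crest.Agent.R138.Flag51
open Crest.Agent.R138.K294 Crest.Agent.R138.Ps926

/-! ### long and short cells -/

theorem rho_pos (m' : ℕ) : 0 < Mk163.rho m' := by unfold Mk163.rho; positivity

theorem zm_eq (m' : ℕ) (j : ℤ) : zm m' j = Mk163.zl m' j + zr m' := by
  unfold zm Mk163.zl zr
  rw [pow_succ]
  field_simp

theorem rho_eq (m' : ℕ) : Mk163.rho m' = 2 * zr m' := by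
  rw [two_zr]; rfl

theorem inPlank_short {t l : Ln} {e : E2} {a1 a2 : ℝ} {m' : ℕ} {j : ℤ}
    (h : InPlank t l e a1 a2 (Mk163.zl m' j) (Mk163.rho m')) :
    InPlank t l e a1 a2 (zm m' j) (zr m') := by
  intro z hz
  refine h z ?_
  rw [zm_eq] at hz
  rw [rho_eq]
  have := zr_pos m'
  rw [abs_le] at hz ⊢
  constructor <;> linarith [hz.1, hz.2]

theorem inPlank_long {t l : Ln} {e : E2} {a1 a2 : ℝ} {m' : ℕ} {j : ℤ}
    (h : InPlank t l e a1 a2 (zm m' j) (zr m')) :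
    InPlank t l e (3 * a1) (3 * a2) (Mk163.zl m' j) (Mk163.rho m') := by
  have hr := zr_pos m'
  set c := Mk163.zl m' j with hc
  set ρ := Mk163.rho m' with hρ
  have hρ2 : ρ = 2 * zr m' := rho_eq m'
  have hρ0 : 0 < ρ := rho_pos m'
  have hzm : zm m' j = c + zr m' := zm_eq m' j
  have h1 := h c (by rw [hzm, abs_le]; constructor <;> linarith)
  have h2 := h (c + ρ) (by rw [hzm, abs_le]; constructor <;> linarith)
  intro z hz
  rw [abs_le] at hz
  set s : ℝ := (z - c) / ρ with hs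
  have hs1 : -1 ≤ s := by rw [hs, le_div_iff₀ hρ0]; linarith [hz.1]
  have hs2 : s ≤ 1 := by rw [hs, div_le_one hρ0]; linarith [hz.2]
  have hz' : z = (1 - s) * c + s * (c + ρ) := by
    have : s * ρ = z - c := by rw [hs]; field_simp
    linarith
  have hd : pos t z - pos l z = (1 - s) • (pos t c - pos l c) +
      s • (pos t (c + ρ) - pos l (c + ρ)) := by
    unfold pos
    rw [hz']
    ext i
    simp only [PiLp.sub_apply, PiLp.add_apply, PiLp.smul_apply, smul_eq_mul]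
    ring
  have e1 : dt (pos t z - pos l z) e = (1 - s) * dt (pos t c - pos l c) e +
      s * dt (pos t (c + ρ) - pos l (c + ρ)) e := by
    rw [hd]; simp only [dt, PiLp.add_apply, PiLp.smul_apply, smul_eq_mul]; ring
  have e2 : cr e (pos t z - pos l z) = (1 - s) * cr e (pos t c - pos l c) +
      s * cr e (pos t (c + ρ) - pos l (c + ρ)) := by
    rw [hd]; simp only [cr, PiLp.add_apply, PiLp.smul_apply, smul_eq_mul]; ring
  have conv : ∀ {A C a : ℝ}, |A| ≤ a → |C| ≤ a → |(1 - s) * A + s * C| ≤ 3 * a := by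
    intro A C a hA hC
    have ha : 0 ≤ a := (abs_nonneg A).trans hA
    calc |(1 - s) * A + s * C| ≤ |(1 - s) * A| + |s * C| := abs_add_le _ _
      _ = (1 - s) * |A| + |s| * |C| := by
        rw [abs_mul, abs_mul, abs_of_nonneg (by linarith : 0 ≤ 1 - s)]
      _ ≤ 2 * a + 1 * a := by
        refine add_le_add (mul_le_mul (by linarith) hA (abs_nonneg _) (by norm_num)) ?_
        exact mul_le_mul (abs_le.2 ⟨hs1, hs2⟩) hC (abs_nonneg _) (by norm_num)
      _ = 3 * a := by ring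
  rw [e1, e2]
  exact ⟨conv h1.1 h2.1, conv h1.2 h2.2⟩

theorem inPlank_mono {t l : Ln} {e : E2} {a1 a2 b1 b2 z0 ρ : ℝ} (h1 : a1 ≤ b1) (h2 : a2 ≤ b2)
    (h : InPlank t l e a1 a2 z0 ρ) : InPlank t l e b1 b2 z0 ρ := fun z hz =>
  ⟨(h z hz).1.trans h1, (h z hz).2.trans h2⟩

/-! ### the covering estimate -/

open Classical in
theorem card_cover {m0 m' : ℕ} {v1 v2 : ℝ} (hv1 : 0 < v1) (hv2 : 0 < v2) {k : ℕ} {j : ℤ} {l : Ln}
    {e : E2} (he : dt e e = 1) {I : Finset (Ln × ℝ)} {S : Finset (Ln × ℤ)}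
    (hS : ∀ o ∈ S, (∃ x ∈ I, K294.ob m' x = o) ∧ o.2 = j ∧
      InPlank o.1 l e (k * v1) (k * v2) (Mk163.zl m' j) (Mk163.rho m')) :
    (S.card : ℝ) ≤ (2 * k + 1) ^ 4 *
      ((shP m0 m' v1 v2 hv1 hv2).Dmax I * (v1 * v2 * 4 ^ m0)) := by
  refine K294.cover S Prod.fst hv1 hv2 (rho_pos m') (fun o ho => (hS o ho).2.2)
    (mul_nonneg (PSys.Dmax_nonneg _ I) (by positivity)) fun t0 ht0 => ?_
  have h1 := (shP m0 m' v1 v2 hv1 hv2).objs_card_le_Dmax I ⟨(j, t0.1, e), he⟩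
  refine le_trans ?_ h1
  refine Nat.cast_le.2 (card_le_card fun o ho => ?_)
  rw [mem_filter] at ho
  exact (PSys.mem_objs (shP m0 m' v1 v2 hv1 hv2)).2 ⟨(hS o ho.1).1, (hS o ho.1).2.1, ho.2⟩

theorem Dmax_cover {m0 m' : ℕ} {w1 w2 v1 v2 : ℝ} (hw1 : 0 < w1) (hw2 : 0 < w2) (hv1 : 0 < v1)
    (hv2 : 0 < v2) {k : ℕ} (h1 : w1 ≤ k * v1) (h2 : w2 ≤ k * v2) (I : Finset (Ln × ℝ)) :
    (shP m0 m' w1 w2 hw1 hw2).Dmax I ≤ (2 * k + 1) ^ 4 * ((v1 * v2) / (w1 * w2)) *
      (shP m0 m' v1 v2 hv1 hv2).Dmax I := by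
  refine PSys.Dmax_le _ (mul_nonneg (by positivity) (PSys.Dmax_nonneg _ I)) fun K => ?_
  unfold PSys.dens
  rw [div_le_iff₀ ((shP m0 m' w1 w2 hw1 hw2).vol_pos K)]
  have h3 := card_cover (m0 := m0) (m' := m') hv1 hv2 (k := k) (j := K.1.1) (l := K.1.2.1)
    (e := K.1.2.2) K.2 (I := I) (S := (shP m0 m' w1 w2 hw1 hw2).objs I K) (fun o ho => by
      have ho' := (PSys.mem_objs (shP m0 m' w1 w2 hw1 hw2)).1 ho
      exact ⟨ho'.1, ho'.2.1, inPlank_mono h1 h2 ho'.2.2⟩)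
  refine h3.trans (le_of_eq ?_)
  show _ = _ * (w1 * w2 * 4 ^ m0)
  field_simp

/-! ### widths -/

/-- the width of exponent `l` relative to the cells of level `v`, at least `r` -/
noncomputable def wd (B : Base) (m M : ℕ → ℕ) (r : ℕ → ℝ) (n : ℕ) (v l : ℝ) : ℝ :=
  max (r n) (B.d n ^ l / 2 ^ (lv m M n v))

variable {B : Base} {m M : ℕ → ℕ} {r : ℕ → ℝ} {I J : ℕ → Finset (Ln × ℝ)}

theorem wd_pos (B : Base) (m M : ℕ → ℕ) (r : ℕ → ℝ) (n : ℕ) (v l : ℝ) : 0 < wd B m M r n v l :=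
  lt_max_of_lt_right (div_pos (dpow_pos B n l) (by positivity))

theorem r_le_wd (n : ℕ) (v l : ℝ) : r n ≤ wd B m M r n v l := le_max_left _ _

theorem wd_anti (n : ℕ) (v : ℝ) {l a : ℝ} (h : l ≤ a) : wd B m M r n v a ≤ wd B m M r n v l :=
  max_le_max (le_refl _) (div_le_div_of_nonneg_right (dpow_le B n h) (by positivity))

theorem r_le_cell (h : Fam B m M r I) (n : ℕ) {v : ℝ} (hv : v ≤ 1) :
    r n ≤ 1 / 2 ^ (lv m M n v) :=
  (h.rle n).trans
    (one_div_le_one_div_of_le (by positivity) (pow_le_pow_right₀ one_le_two (lv_le hv)))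

theorem wd_le (h : Fam B m M r I) (n : ℕ) {v l : ℝ} (hv : v ≤ 1) (hl : 0 ≤ l) :
    wd B m M r n v l ≤ 1 / 2 ^ (lv m M n v) :=
  max_le (r_le_cell h n hv) (div_le_div_of_nonneg_right (dpow_le_one B n hl) (by positivity))

theorem wd_comp (h : Fam B m M r I) (n : ℕ) {v l l' δ : ℝ} (hδ : 0 ≤ δ) (hl : l' - δ ≤ l) :
    wd B m M r n v l ≤ B.d n ^ (-δ) * wd B m M r n v l' := by
  have hr := h.rpos n
  have h1 : (1 : ℝ) ≤ B.d n ^ (-δ) :=
    Real.one_le_rpow_of_pos_of_le_one_of_nonpos (B.pos n) (B.lt n).le (by linarith)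
  refine max_le ?_ ?_
  · have h2 : r n ≤ wd B m M r n v l' := r_le_wd n v l'
    nlinarith
  · have h2 : B.d n ^ l ≤ B.d n ^ (-δ) * B.d n ^ l' := by
      rw [← dpow_add]
      exact dpow_le B n (by linarith)
    calc B.d n ^ l / 2 ^ (lv m M n v) ≤ B.d n ^ (-δ) * B.d n ^ l' / 2 ^ (lv m M n v) :=
          div_le_div_of_nonneg_right h2 (by positivity)
      _ = B.d n ^ (-δ) * (B.d n ^ l' / 2 ^ (lv m M n v)) := by ring
      _ ≤ _ := mul_le_mul_of_nonneg_left (le_max_right _ _) (dpow_pos B n _).le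

/-- the exponent of the resolution at level `v` -/
noncomputable def Rv (B : Base) (m M : ℕ → ℕ) (r : ℕ → ℝ) (v : ℝ) : ℝ :=
  - B.ex fun n => r n * 2 ^ (lv m M n v)

theorem pb_r (h : Fam B m M r I) {v : ℝ} (hv : v ≤ 1) :
    B.PB (fun n => r n * 2 ^ (lv m M n v)) := by
  obtain ⟨C, hC⟩ := h.poly
  refine Base.PB.of_bounds (C := |C|) ?_ ?_
  · filter_upwards [hC] with n hn
    refine (dpow_le B n (le_abs_self C)).trans (hn.2.trans ?_)
    exact mul_le_mul_of_nonneg_left (pow_le_pow_right₀ one_le_two le_lv) (h.rpos n).le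
  · refine Eventually.of_forall fun n => ?_
    have h1 := r_le_cell h n hv
    rw [le_div_iff₀ (by positivity)] at h1
    refine h1.trans ?_
    exact Real.one_le_rpow_of_pos_of_le_one_of_nonpos (B.pos n) (B.lt n).le
      (by have := abs_nonneg C; linarith)

theorem Rv_nonneg (h : Fam B m M r I) {v : ℝ} (hv : v ≤ 1) : 0 ≤ Rv B m M r v := by
  unfold Rv
  have := Base.ex_nonpos (pb_r h hv) (Eventually.of_forall fun n => by
    have h1 := r_le_cell h n hv
    rwa [le_div_iff₀ (by positivity)] at h1)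
  linarith

theorem wd_mul (n : ℕ) (v l : ℝ) : wd B m M r n v l * 2 ^ (lv m M n v) =
    max (r n * 2 ^ (lv m M n v)) (B.d n ^ l) := by
  unfold wd
  rw [max_mul_of_nonneg _ _ (by positivity)]
  congr 1
  field_simp

theorem pb_wd (h : Fam B m M r I) {v : ℝ} (hv : v ≤ 1) (l : ℝ) :
    B.PB (fun n => wd B m M r n v l * 2 ^ (lv m M n v)) := by
  simp only [wd_mul]
  exact (pb_r h hv).max (Base.PB.dpow l)

theorem ex_wd (h : Fam B m M r I) {v : ℝ} (hv : v ≤ 1) {l : ℝ} (hl : l ≤ Rv B m M r v) :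
    B.ex (fun n => wd B m M r n v l * 2 ^ (lv m M n v)) = -l := by
  simp only [wd_mul]
  rw [Base.ex_max (pb_r h hv) (Base.PB.dpow l), Base.ex_dpow]
  refine max_eq_right ?_
  unfold Rv at hl
  linarith

/-! ### the systems of fixed shape -/

/-- the system of shape `(l, a)` at level `v` -/
noncomputable def shS (B : Base) (m M : ℕ → ℕ) (r : ℕ → ℝ) (v l a : ℝ) (n : ℕ) : PSys (Ln × ℝ) :=
  shP (m n) (lv m M n v) (wd B m M r n v a) (wd B m M r n v l) (wd_pos B m M r n v a)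
    (wd_pos B m M r n v l)

theorem pow4 (k : ℕ) : (4 : ℝ) ^ k = 2 ^ k * 2 ^ k := by rw [← mul_pow]; norm_num

theorem padm_shS (h : Fam B m M r I) {v l a : ℝ} (hv : v ≤ 1) (hl : 0 ≤ l) (ha : 0 ≤ a) :
    PAdm B (shS B m M r v l a) I := by
  obtain ⟨C, hC⟩ := h.poly
  refine ⟨2 * |C|, ?_⟩
  filter_upwards [hC] with n hn
  obtain ⟨h1, h2⟩ := hn
  have hr := h.rpos n
  have e1 : B.d n ^ |C| ≤ r n * 2 ^ (m n) := (dpow_le B n (le_abs_self C)).trans h2
  have hp := dpow_pos B n |C|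
  refine ⟨?_, h1.trans (dpow_le B n (by
    have := le_abs_self C; have := abs_nonneg C; linarith)), fun x hx => ?_⟩
  · show B.d n ^ (2 * |C|) ≤ wd B m M r n v a * wd B m M r n v l * 4 ^ (m n)
    have e2 : B.d n ^ (2 * |C|) = B.d n ^ |C| * B.d n ^ |C| := by
      rw [← dpow_add]; congr 1; ring
    have e3 : wd B m M r n v a * wd B m M r n v l * 4 ^ (m n) =
        (wd B m M r n v a * 2 ^ (m n)) * (wd B m M r n v l * 2 ^ (m n)) := by
      rw [pow4]; ring
    rw [e2, e3]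
    have a1 : r n * 2 ^ (m n) ≤ wd B m M r n v a * 2 ^ (m n) :=
      mul_le_mul_of_nonneg_right (r_le_wd n v a) (by positivity)
    have a2 : r n * 2 ^ (m n) ≤ wd B m M r n v l * 2 ^ (m n) :=
      mul_le_mul_of_nonneg_right (r_le_wd n v l) (by positivity)
    exact mul_le_mul (e1.trans a1) (e1.trans a2) hp.le (hp.le.trans (e1.trans a1))
  · refine ⟨⟨(zc (lv m M n v) x.2, x.1, e0), dt_e0⟩, ⟨rfl, ?_⟩, ?_⟩
    · exact inPlank_self (wd_pos B m M r n v a).le (wd_pos B m M r n v l).le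
    · show wd B m M r n v a * wd B m M r n v l * 4 ^ (m n) ≤ _
      have hle : ∀ b : ℝ, 0 ≤ b → wd B m M r n v b * 2 ^ (m n) ≤ 1 := by
        intro b hb
        have a1 := wd_le h n hv hb
        rw [le_div_iff₀ (by positivity)] at a1
        refine le_trans ?_ a1
        exact mul_le_mul_of_nonneg_left (pow_le_pow_right₀ one_le_two le_lv)
          (wd_pos B m M r n v b).le
      have e3 : wd B m M r n v a * wd B m M r n v l * 4 ^ (m n) =
          (wd B m M r n v a * 2 ^ (m n)) * (wd B m M r n v l * 2 ^ (m n)) := by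
        rw [pow4]; ring
      rw [e3]
      refine (mul_le_one₀ (hle a ha)
        (mul_nonneg (wd_pos B m M r n v l).le (by positivity)) (hle l hl)).trans ?_
      exact Real.one_le_rpow_of_pos_of_le_one_of_nonpos (B.pos n) (B.lt n).le
        (by have := abs_nonneg C; linarith)

/-- exponent of the maximal density of shape `x = (l, a)` at level `v` -/
noncomputable def ph (B : Base) (m M : ℕ → ℕ) (r : ℕ → ℝ) (I : ℕ → Finset (Ln × ℝ)) (v : ℝ)
    (x : ℝ × ℝ) : ℝ := B.ex fun n => (shS B m M r v x.1 x.2 n).Dmax (I n)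

theorem pb_ph (h : Fam B m M r I) {v l a : ℝ} (hv : v ≤ 1) (hl : 0 ≤ l) (ha : 0 ≤ a) :
    B.PB (fun n => (shS B m M r v l a n).Dmax (I n)) :=
  (monoF_Dmax (padm_shS h hv hl ha)).pb (Eventually.of_forall fun n => Subset.refl _) h.ne

theorem ceil_bound {X : ℝ} (hX : 1 ≤ X) : (2 * (⌈X⌉₊ : ℝ) + 1) ^ 4 ≤ 625 * X ^ 4 := by
  have h1 := (Nat.ceil_lt_add_one (by linarith : 0 ≤ X)).le
  have h2 : 2 * (⌈X⌉₊ : ℝ) + 1 ≤ 5 * X := by linarith
  calc (2 * (⌈X⌉₊ : ℝ) + 1) ^ 4 ≤ (5 * X) ^ 4 := by gcongr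
    _ = 625 * X ^ 4 := by ring

theorem ph_le (h : Fam B m M r I) {v l a l' a' δ : ℝ} (hv : v ≤ 1) (hl : 0 ≤ l) (ha : 0 ≤ a)
    (hl' : 0 ≤ l') (ha' : 0 ≤ a') (hδ : 0 ≤ δ) (h1 : |l - l'| ≤ δ) (h2 : |a - a'| ≤ δ) :
    ph B m M r I v (l, a) ≤ ph B m M r I v (l', a') + 6 * δ := by
  rw [abs_le] at h1 h2
  have key : ∀ᶠ n in (U : Filter ℕ), (shS B m M r v l a n).Dmax (I n) ≤
      (625 * B.d n ^ (-(6 * δ))) * (shS B m M r v l' a' n).Dmax (I n) := by
    refine Eventually.of_forall fun n => ?_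
    set X := B.d n ^ (-δ) with hX
    have hX1 : (1 : ℝ) ≤ X :=
      Real.one_le_rpow_of_pos_of_le_one_of_nonpos (B.pos n) (B.lt n).le (by linarith)
    have hX0 : (0 : ℝ) < X := by linarith
    have hc : X ≤ (⌈X⌉₊ : ℝ) := Nat.le_ceil X
    have a1 := wd_comp h n (v := v) (l := a) (l' := a') hδ (by linarith)
    have a2 := wd_comp h n (v := v) (l := l) (l' := l') hδ (by linarith)
    have a3 := wd_comp h n (v := v) (l := a') (l' := a) hδ (by linarith)
    have a4 := wd_comp h n (v := v) (l := l') (l' := l) hδ (by linarith)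
    have p1 := wd_pos B m M r n v a
    have p2 := wd_pos B m M r n v l
    have p3 := wd_pos B m M r n v a'
    have p4 := wd_pos B m M r n v l'
    have b1 := Dmax_cover (m0 := m n) (m' := lv m M n v) p1 p2 p3 p4 (k := ⌈X⌉₊)
      (a1.trans (mul_le_mul_of_nonneg_right hc p3.le))
      (a2.trans (mul_le_mul_of_nonneg_right hc p4.le)) (I n)
    refine b1.trans ?_
    have hD : 0 ≤ (shS B m M r v l' a' n).Dmax (I n) := PSys.Dmax_nonneg _ _
    refine mul_le_mul_of_nonneg_right ?_ hD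
    have c1 : wd B m M r n v a' * wd B m M r n v l' / (wd B m M r n v a * wd B m M r n v l) ≤
        X * X := by
      rw [div_le_iff₀ (mul_pos p1 p2)]
      calc wd B m M r n v a' * wd B m M r n v l' ≤
            (X * wd B m M r n v a) * (X * wd B m M r n v l) :=
            mul_le_mul a3 a4 p4.le (by positivity)
        _ = _ := by ring
    have c2 : X ^ 4 * (X * X) = B.d n ^ (-(6 * δ)) := by
      have : X ^ 4 * (X * X) = X ^ 6 := by ring
      rw [this, hX, ← Real.rpow_natCast, ← Real.rpow_mul (B.pos n).le]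
      congr 1
      push_cast
      ring
    calc (2 * (⌈X⌉₊ : ℝ) + 1) ^ 4 *
          (wd B m M r n v a' * wd B m M r n v l' / (wd B m M r n v a * wd B m M r n v l)) ≤
          (625 * X ^ 4) * (X * X) :=
          mul_le_mul (ceil_bound hX1) c1 (by positivity) (by positivity)
      _ = 625 * B.d n ^ (-(6 * δ)) := by rw [← c2]; ring
  have pb1 := pb_ph h (l := l) (a := a) hv hl ha
  have pb2 := pb_ph h (l := l') (a := a') hv hl' ha'
  have h3 := Base.ex_le pb1 (((Base.PB.const (by norm_num : (0:ℝ) < 625)).mul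
    (Base.PB.dpow (-(6 * δ)))).mul pb2) key
  rw [Base.ex_mul ((Base.PB.const (by norm_num : (0:ℝ) < 625)).mul (Base.PB.dpow _)) pb2,
    Base.ex_mul (Base.PB.const (by norm_num : (0:ℝ) < 625)) (Base.PB.dpow _), Base.ex_const,
    Base.ex_dpow] at h3
  unfold ph
  simp only
  linarith

theorem ph_abs (h : Fam B m M r I) {v l a l' a' δ : ℝ} (hv : v ≤ 1) (hl : 0 ≤ l) (ha : 0 ≤ a)
    (hl' : 0 ≤ l') (ha' : 0 ≤ a') (hδ : 0 ≤ δ) (h1 : |l - l'| ≤ δ) (h2 : |a - a'| ≤ δ) :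
    |ph B m M r I v (l, a) - ph B m M r I v (l', a')| ≤ 6 * δ := by
  rw [abs_le]
  have e1 := ph_le h hv hl ha hl' ha' hδ h1 h2
  have e2 := ph_le h hv hl' ha' hl ha hδ (by rwa [abs_sub_comm]) (by rwa [abs_sub_comm])
  constructor <;> linarith

/-- stability for all rational shapes implies stability for all real shapes -/
theorem stable_real (h : Fam B m M r I) {v : ℝ} (hv : v ≤ 1)
    (hS : ∀ l a : ℚ, 0 ≤ l → 0 ≤ a → StableF B (fun n J => (shS B m M r v l a n).Dmax J) I)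
    {l a : ℝ} (hl : 0 ≤ l) (ha : 0 ≤ a) :
    StableF B (fun n J => (shS B m M r v l a n).Dmax J) I := by
  intro J hJ
  have hF := h.dense hJ
  refine eq_of_forall_dist_le fun ε hε => ?_
  set δ := ε / 12 with hδ
  have hδ0 : 0 < δ := by rw [hδ]; linarith
  obtain ⟨l', h1, h2⟩ := exists_rat_btwn (show l < l + δ by linarith)
  obtain ⟨a', h3, h4⟩ := exists_rat_btwn (show a < a + δ by linarith)
  have hl' : (0 : ℝ) ≤ l' := by linarith
  have ha' : (0 : ℝ) ≤ a' := by linarith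
  have e1 := ph_abs h hv hl ha hl' ha' hδ0.le (abs_le.2 ⟨by linarith, by linarith⟩)
    (abs_le.2 ⟨by linarith, by linarith⟩)
  have e2 := ph_abs hF hv hl ha hl' ha' hδ0.le (abs_le.2 ⟨by linarith, by linarith⟩)
    (abs_le.2 ⟨by linarith, by linarith⟩)
  have e3 : ph B m M r J v ((l' : ℝ), (a' : ℝ)) = ph B m M r I v ((l' : ℝ), (a' : ℝ)) :=
    hS l' a' (by exact_mod_cast hl') (by exact_mod_cast ha') J hJ
  rw [e3] at e2
  rw [Real.dist_eq]
  have e4 : B.ex (fun n => (shS B m M r v l a n).Dmax (J n)) = ph B m M r J v (l, a) := rfl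
  have e5 : B.ex (fun n => (shS B m M r v l a n).Dmax (I n)) = ph B m M r I v (l, a) := rfl
  rw [e4, e5]
  rw [abs_le] at e1 e2 ⊢
  constructor <;> linarith [e1.1, e1.2, e2.1, e2.2]

/-! ### the compact set of legal shapes -/

/-- legal shapes of level `v` -/
def KSh (R : ℝ) : Set (ℝ × ℝ) := {x | 0 ≤ x.1 ∧ x.1 ≤ x.2 ∧ x.2 ≤ R}

theorem KSh_compact (R : ℝ) : IsCompact (KSh R) := by
  have h1 : IsCompact (Set.Icc (0 : ℝ) R ×ˢ Set.Icc (0 : ℝ) R) := isCompact_Icc.prod isCompact_Icc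
  refine h1.of_isClosed_subset ?_ ?_
  · have e : KSh R = {x : ℝ × ℝ | 0 ≤ x.1} ∩ ({x : ℝ × ℝ | x.1 ≤ x.2} ∩ {x : ℝ × ℝ | x.2 ≤ R}) := by
      ext x; simp [KSh]
    rw [e]
    exact (isClosed_le continuous_const continuous_fst).inter
      ((isClosed_le continuous_fst continuous_snd).inter
        (isClosed_le continuous_snd continuous_const))
  · rintro x ⟨h1, h2, h3⟩
    exact ⟨⟨h1, h2.trans h3⟩, ⟨h1.trans h2, h3⟩⟩

theorem KSh_nonempty {R : ℝ} (hR : 0 ≤ R) : (KSh R).Nonempty := ⟨(0, 0), le_refl _, le_refl _, hR⟩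

theorem ph_cont (h : Fam B m M r I) {v : ℝ} (hv : v ≤ 1) :
    ContinuousOn (ph B m M r I v) (KSh (Rv B m M r v)) := by
  rw [Metric.continuousOn_iff]
  rintro ⟨l, a⟩ ⟨h1, h2, h3⟩ ε hε
  refine ⟨ε / 12, by linarith, ?_⟩
  rintro ⟨l', a'⟩ ⟨h1', h2', h3'⟩ hd
  simp only at h1 h2 h3 h1' h2' h3'
  rw [Prod.dist_eq, max_lt_iff] at hd
  simp only [Real.dist_eq] at hd ⊢
  have := ph_abs h hv h1' (h1'.trans h2') h1 (h1.trans h2) (δ := ε / 12) (by linarith)
    hd.1.le hd.2.le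
  linarith

end Crest.Agent.R138.X248
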