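import Crest.Agent.R138.End_615

/-!
# R138: TEXT II, real-analysis part, case assembly (helper615)

`tii_of_good`: the contact lemma applied at a generic record point; all cases of `(k, θ)`.
-/

set_option autoImplicit false
set_option linter.unusedVariables false

open Set Filter Topology MeasureTheory
open scoped NNReal ENNReal

namespace Crest.Agent.R138.Tii615

open Crest.Agent.R138.End615

variable {k q s c θ T : ℝ} {P m : ℝ → ℝ → ℝ} {K : ℝ≥0}

/-- the derivative along `y ↦ (v - y, t + μ y)` -/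
theorem deriv_path {g : ℝ × ℝ → ℝ} {D : ℝ × ℝ →L[ℝ] ℝ} {z : ℝ × ℝ} (h : HasFDerivAt g D z)
    (μ : ℝ) : deriv (fun y => g (z.1 - y, z.2 + μ * y)) 0 = -D (1, 0) + μ * D (0, 1) := by
  have h1 : HasDerivAt (fun y : ℝ => (z.1 - y, z.2 + μ * y)) (-1, μ) 0 := by
    have a : HasDerivAt (fun y : ℝ => z.1 - y) (-1) 0 := by
      simpa using (hasDerivAt_id (0 : ℝ)).const_sub z.1
    have b : HasDerivAt (fun y : ℝ => z.2 + μ * y) μ 0 := by
      simpa using ((hasDerivAt_id (0 : ℝ)).const_mul μ).const_add z.2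
    exact a.prodMk b
  have h2 : HasFDerivAt g D ((fun y : ℝ => (z.1 - y, z.2 + μ * y)) 0) := by simpa using h
  have h3 := h2.comp_hasDerivAt (0 : ℝ) h1
  have e : D (-1, μ) = -D (1, 0) + μ * D (0, 1) := by
    have : ((-1 : ℝ), μ) = (-1 : ℝ) • ((1 : ℝ), (0 : ℝ)) + μ • ((0 : ℝ), (1 : ℝ)) := by
      ext <;> simp
    rw [this, map_add, map_smul, map_smul]
    simp
  rw [← e]
  exact h3.deriv

/-- `g = P - c v + q t` -/
def gg (P : ℝ → ℝ → ℝ) (c q : ℝ) (x : ℝ × ℝ) : ℝ := P x.1 x.2 - c * x.1 + q * x.2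

theorem gg_fderiv {D : ℝ × ℝ →L[ℝ] ℝ} {z : ℝ × ℝ}
    (h : HasFDerivAt (fun x : ℝ × ℝ => P x.1 x.2) D z) :
    HasFDerivAt (gg P c q)
      (D - c • ContinuousLinearMap.fst ℝ ℝ ℝ + q • ContinuousLinearMap.snd ℝ ℝ ℝ) z := by
  unfold gg
  exact (h.sub ((hasFDerivAt_fst).const_mul c)).add ((hasFDerivAt_snd).const_mul q)

theorem gg_lip {Ω : Set (ℝ × ℝ)} (hP : LipschitzOnWith K (fun x : ℝ × ℝ => P x.1 x.2) Ω) :
    LipschitzOnWith (K + Real.toNNReal (|c| + |q|)) (gg P c q) Ω := by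
  refine LipschitzOnWith.of_dist_le_mul fun x hx y hy => ?_
  have h1 := hP.dist_le_mul x hx y hy
  rw [Real.dist_eq] at h1 ⊢
  have h2 : |x.1 - y.1| ≤ dist x y := by rw [← Real.dist_eq]; exact le_max_left _ _
  have h3 : |x.2 - y.2| ≤ dist x y := by rw [← Real.dist_eq]; exact le_max_right _ _
  have e : gg P c q x - gg P c q y =
      (P x.1 x.2 - P y.1 y.2) + (-c * (x.1 - y.1)) + q * (x.2 - y.2) := by
    unfold gg; ring
  rw [e]
  have e2 : ((K + Real.toNNReal (|c| + |q|) : ℝ≥0) : ℝ) = K + (|c| + |q|) := by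
    rw [NNReal.coe_add, Real.coe_toNNReal _ (by positivity)]
  rw [e2]
  calc |(P x.1 x.2 - P y.1 y.2) + (-c * (x.1 - y.1)) + q * (x.2 - y.2)|
      ≤ |P x.1 x.2 - P y.1 y.2| + |-c * (x.1 - y.1)| + |q * (x.2 - y.2)| := abs_add_three _ _ _
    _ ≤ K * dist x y + |c| * dist x y + |q| * dist x y := by
        rw [abs_mul, abs_mul, abs_neg]
        gcongr
    _ = _ := by ring

theorem deriv_gg {D : ℝ × ℝ →L[ℝ] ℝ} {z : ℝ × ℝ}
    (h : HasFDerivAt (fun x : ℝ × ℝ => P x.1 x.2) D z) (μ : ℝ) :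
    deriv (fun y => gg P c q (z.1 - y, z.2 + μ * y)) 0 =
      c + μ * q - (D (1, 0) - μ * D (0, 1)) := by
  rw [deriv_path (gg_fderiv h)]
  simp
  ring

/-- horizontal exit: where `m > s`, `g` is strictly negative -/
theorem exit (hs : 0 ≤ s) (hc : 2 * s < c)
    (hP : LipschitzOnWith K (fun x : ℝ × ℝ => P x.1 x.2) (Icc 0 1 ×ˢ Icc 0 T))
    (hle : ∀ v ∈ Icc (0 : ℝ) 1, ∀ t ∈ Icc 0 T, P v t - c * v + q * t ≤ 0)
    (hanti : ∀ t ∈ Icc 0 T, AntitoneOn (fun v => m v t) (Icc 0 1))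
    (h5 : ∀ᵐ x : ℝ × ℝ, x ∈ Ioo (0 : ℝ) 1 ×ˢ Ioo 0 T → s < m x.1 x.2 →
      ∃ D : ℝ × ℝ →L[ℝ] ℝ, HasFDerivAt (fun x : ℝ × ℝ => P x.1 x.2) D x ∧ D (1, 0) ≤ 2 * s) :
    ∀ᵐ t : ℝ, t ∈ Ioo 0 T → ∀ v ∈ Ioo (0 : ℝ) 1, s < m v t →
      P v t - c * v + q * t ≤ -(c - 2 * s) * v := by
  have h1 : ∀ᵐ t : ℝ, ∀ᵐ v : ℝ, (v, t) ∈ Ioo (0 : ℝ) 1 ×ˢ Ioo 0 T → s < m v t →
      ∃ D : ℝ × ℝ →L[ℝ] ℝ, HasFDerivAt (fun x : ℝ × ℝ => P x.1 x.2) D (v, t) ∧
        D (1, 0) ≤ 2 * s := by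
    have h0 := (Measure.measurePreserving_swap (μ := (volume : Measure ℝ))
      (ν := (volume : Measure ℝ))).quasiMeasurePreserving.ae h5
    exact Measure.ae_ae_of_ae_prod h0
  filter_upwards [h1] with t ht htT v0 hv0 hmv
  have htI : t ∈ Icc 0 T := Ioo_subset_Icc_self htT
  have hlip := gg_lip (c := c) (q := q) hP
  set K' : ℝ≥0 := K + Real.toNNReal (|c| + |q|) with hK'
  have hc' : 0 < c - 2 * s := by linarith
  have hψ : LipschitzOnWith K' (fun y => - gg P c q (y, t)) (Icc 0 v0) := by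
    refine LipschitzOnWith.of_dist_le_mul fun y hy y' hy' => ?_
    have hy1 : y ∈ Icc (0 : ℝ) 1 := ⟨hy.1, hy.2.trans hv0.2.le⟩
    have hy1' : y' ∈ Icc (0 : ℝ) 1 := ⟨hy'.1, hy'.2.trans hv0.2.le⟩
    have := hlip.dist_le_mul (y, t) ⟨hy1, htI⟩ (y', t) ⟨hy1', htI⟩
    rw [dist_neg_neg]
    refine this.trans_eq ?_
    congr 1
    rw [Prod.dist_eq]
    simp
  have h2 := lip_path (η := c - 2 * s) (W := ∅) hv0.1.le hψ MeasurableSet.empty hc'.le (by
    filter_upwards [ht] with y hy hy0 _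
    have hyI : y ∈ Ioo (0 : ℝ) 1 := ⟨hy0.1, hy0.2.trans hv0.2⟩
    have hm' : s < m y t := hmv.trans_le
      (hanti t htI (Ioo_subset_Icc_self hyI) (Ioo_subset_Icc_self hv0) hy0.2.le)
    obtain ⟨D, hD, hD2⟩ := hy ⟨hyI, htT⟩ hm'
    have h3 : HasDerivAt (fun y : ℝ => (y, t)) (1, 0) y :=
      (hasDerivAt_id y).prodMk (hasDerivAt_const y t)
    have h4 := ((gg_fderiv (c := c) (q := q) hD).comp_hasDerivAt y h3).neg
    have h5 : deriv (fun y => - gg P c q (y, t)) y = c - D (1, 0) := by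
      refine (HasDerivAt.deriv h4).trans ?_
      simp
    rw [h5]
    linarith)
  simp only [empty_inter, measure_empty, ENNReal.toReal_zero, mul_zero, sub_zero] at h2
  have h6 : gg P c q (0, t) ≤ 0 := by
    have := hle 0 ⟨le_rfl, zero_le_one⟩ t htI
    simpa [gg] using this
  have h7 : gg P c q (v0, t) = P v0 t - c * v0 + q * t := rfl
  rw [← h7]
  linarith

/-- **TII-a**: good heights (W), (B) and the a.e. table contradict `2 s < c`. -/
theorem tii_of_good (hk : 0 < k) (hq : 0 < q) (hs : 0 ≤ s) (hθ : 0 < θ) (hT : θ < T)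
    (hP : LipschitzOnWith K (fun x : ℝ × ℝ => P x.1 x.2) (Icc 0 1 ×ˢ Icc 0 T))
    (hle : ∀ v ∈ Icc (0 : ℝ) 1, ∀ t ∈ Icc 0 T, P v t - c * v + q * t ≤ 0)
    (heq : ∀ v ∈ Icc (0 : ℝ) 1, P v (θ * (1 - v)) - c * v + q * (θ * (1 - v)) = 0)
    (hm : Measurable fun x : ℝ × ℝ => m x.1 x.2)
    (hanti : ∀ t ∈ Icc 0 T, AntitoneOn (fun v => m v t) (Icc 0 1))
    (hW : ∀ᵐ t : ℝ, t ∈ Ioo 0 T → ∀ v ∈ Ioo (0 : ℝ) 1, t < θ * (1 - v) → 0 < m v t)
    (hB : θ < k → ∀ᵐ t : ℝ, t ∈ Ioo 0 θ → ∃ v ∈ Ioo (0 : ℝ) 1, θ * (1 - v) < t ∧ 0 < m v t)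
    (h5 : ∀ᵐ x : ℝ × ℝ, x ∈ Ioo (0 : ℝ) 1 ×ˢ Ioo 0 T → 0 < m x.1 x.2 →
      ∃ D : ℝ × ℝ →L[ℝ] ℝ, HasFDerivAt (fun x : ℝ × ℝ => P x.1 x.2) D x ∧
        (k ≠ 1 → D (1, 0) - k / 2 * D (0, 1) ≤ 2 * s) ∧
        (k = 1 → D (1, 0) - D (0, 1) ≤ s + m x.1 x.2 ∧ (s < m x.1 x.2 → D (1, 0) ≤ 2 * s))) :
    c ≤ 2 * s := by
  by_contra hcon
  push Not at hcon
  set g := gg P c q with hg
  set K' : ℝ≥0 := K + Real.toNNReal (|c| + |q|) with hK'
  have hlip : LipschitzOnWith K' g (Icc 0 1 ×ˢ Icc 0 T) := gg_lip hP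
  have hlip' : LipschitzOnWith K' g (Ioo 0 1 ×ˢ Ioo 0 T) :=
    hlip.mono (prod_mono Ioo_subset_Icc_self Ioo_subset_Icc_self)
  have hg0 : ∀ x ∈ Ioo (0 : ℝ) 1 ×ˢ Ioo 0 T, g x ≤ 0 := fun x hx =>
    hle x.1 (Ioo_subset_Icc_self hx.1) x.2 (Ioo_subset_Icc_self hx.2)
  -- the slope
  obtain ⟨μ, hμ0, hμk, hμ1⟩ : ∃ μ : ℝ, 0 < μ ∧ μ ≤ k ∧ ((k ≠ 1 ∧ μ = k / 2) ∨ (k = 1 ∧ μ = 1)) := by
    by_cases h : k = 1
    · exact ⟨1, one_pos, h.ge, Or.inr ⟨h, rfl⟩⟩
    · exact ⟨k / 2, by positivity, by linarith, Or.inl ⟨h, rfl⟩⟩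
  -- the good points
  set D : Set (ℝ × ℝ) := {x | x ∈ Ioo (0 : ℝ) 1 ×ˢ Ioo 0 T ∧ 0 < m x.1 x.2 ∧
    (k = 1 → m x.1 x.2 ≤ s)} with hD
  have hd : ∀ᵐ z : ℝ × ℝ, z ∈ D → c - 2 * s ≤ deriv (fun y => g (z.1 - y, z.2 + μ * y)) 0 := by
    filter_upwards [h5] with z hz hzD
    obtain ⟨hz1, hz2, hz3⟩ := hzD
    obtain ⟨L, hL, hL1, hL2⟩ := hz hz1 hz2
    rw [hg, deriv_gg hL]
    have hμq : 0 < μ * q := mul_pos hμ0 hq
    rcases hμ1 with ⟨h1, h2⟩ | ⟨h1, h2⟩
    · have := hL1 h1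
      rw [h2] at hμq ⊢
      linarith
    · have h3 := (hL2 h1).1
      have h4 := hz3 h1
      rw [h2] at hμq ⊢
      linarith
  -- the threshold near the record, `k = 1`
  have hexit : ∀ᵐ t : ℝ, t ∈ Ioo 0 T → k = 1 → ∀ v ∈ Ioo (0 : ℝ) 1, s < m v t →
      g (v, t) ≤ -(c - 2 * s) * v := by
    by_cases h : k = 1
    · have h6 := exit (m := m) (q := q) hs hcon hP hle hanti (by
        filter_upwards [h5] with x hx hxI hxm
        obtain ⟨L, hL, -, hL2⟩ := hx hxI (hs.trans_lt hxm)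
        exact ⟨L, hL, (hL2 h).2 hxm⟩)
      filter_upwards [h6] with t ht htT _
      exact ht htT
    · exact Eventually.of_forall fun t _ h' => absurd h' h
  -- bad heights of measure zero
  obtain ⟨N, hNm, hN0, hNsub⟩ : ∃ N : Set ℝ, MeasurableSet N ∧ volume N = 0 ∧ ∀ t ∉ N,
      (t ∈ Ioo 0 T → ∀ v ∈ Ioo (0 : ℝ) 1, t < θ * (1 - v) → 0 < m v t) ∧
      (t ∈ Ioo 0 T → k = 1 → ∀ v ∈ Ioo (0 : ℝ) 1, s < m v t → g (v, t) ≤ -(c - 2 * s) * v) := by
    set A : Set ℝ := {t | ¬ ((t ∈ Ioo 0 T → ∀ v ∈ Ioo (0 : ℝ) 1, t < θ * (1 - v) → 0 < m v t) ∧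
      (t ∈ Ioo 0 T → k = 1 → ∀ v ∈ Ioo (0 : ℝ) 1, s < m v t → g (v, t) ≤ -(c - 2 * s) * v))}
      with hA
    refine ⟨toMeasurable volume A, measurableSet_toMeasurable _ _, ?_, fun t ht => ?_⟩
    · rw [measure_toMeasurable]
      exact hW.and hexit
    · by_contra hcon'
      exact ht (subset_toMeasurable _ _ hcon')
  -- near the record `m ≤ s` if `k = 1`
  have hnear : ∀ v0 ∈ Ioo (0 : ℝ) 1, ∃ ρ > 0, ∀ t ∈ Ioo 0 T, t ∉ N → ∀ v ∈ Ioo (0 : ℝ) 1,
      |v - v0| < ρ → |t - θ * (1 - v0)| < ρ → k = 1 → m v t ≤ s := by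
    intro v0 hv0
    refine ⟨min (v0 / 2) ((c - 2 * s) * v0 / (2 * (K' + 1))), ?_, ?_⟩
    · have h1 := hv0.1
      have h2 : 0 < (c - 2 * s) * v0 := mul_pos (by linarith) h1
      have h3 : (0 : ℝ) < 2 * (K' + 1) := by positivity
      exact lt_min (by linarith) (div_pos h2 h3)
    · intro t htT htN v hv hvv htt hk1
      by_contra hms
      push Not at hms
      have h1 := (hNsub t htN).2 htT hk1 v hv hms
      have ht0 : θ * (1 - v0) ∈ Icc 0 T := by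
        have := hv0.1
        have := hv0.2
        constructor
        · exact mul_nonneg hθ.le (by linarith)
        · nlinarith
      have h2 := hlip.dist_le_mul (v, t) ⟨Ioo_subset_Icc_self hv, Ioo_subset_Icc_self htT⟩
        (v0, θ * (1 - v0)) ⟨Ioo_subset_Icc_self hv0, ht0⟩
      have h3 : g (v0, θ * (1 - v0)) = 0 := heq v0 (Ioo_subset_Icc_self hv0)
      rw [h3, dist_zero_right, Prod.dist_eq, Real.dist_eq, Real.dist_eq] at h2
      have h4 : max |v - v0| |t - θ * (1 - v0)| < (c - 2 * s) * v0 / (2 * (K' + 1)) :=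
        max_lt (hvv.trans_le (min_le_right _ _)) (htt.trans_le (min_le_right _ _))
      have h5 : -g (v, t) ≤ K' * max |v - v0| |t - θ * (1 - v0)| :=
        (neg_le_abs _).trans h2
      have h6 : (K' : ℝ) * max |v - v0| |t - θ * (1 - v0)| ≤
          (K' + 1) * ((c - 2 * s) * v0 / (2 * (K' + 1))) :=
        mul_le_mul (by linarith) h4.le (le_max_of_le_left (abs_nonneg _)) (by positivity)
      have h7 : ((K' : ℝ) + 1) * ((c - 2 * s) * v0 / (2 * (K' + 1))) = (c - 2 * s) * v0 / 2 := by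
        have : (0 : ℝ) < (K' : ℝ) + 1 := by positivity
        field_simp
      have h8 : v0 / 2 < v := by
        have := (abs_lt.1 (hvv.trans_le (min_le_left _ _))).1
        linarith
      have h9 : 0 < c - 2 * s := by linarith
      have h10 : (c - 2 * s) * (v0 / 2) < (c - 2 * s) * v := mul_lt_mul_of_pos_left h8 h9
      linarith
  rcases lt_or_ge θ k with hθk | hθk
  · -- near side
    have hBk := hB hθk
    set E : ℕ → Set ℝ := fun n => {t | t ∈ Ioo 0 θ ∧ 1 - t / θ + 1 / ((n : ℝ) + 1) < 1 ∧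
      0 < m (1 - t / θ + 1 / ((n : ℝ) + 1)) t} with hE
    have hEm : ∀ n, MeasurableSet (E n) := by
      intro n
      have m1 : Measurable fun t : ℝ => 1 - t / θ + 1 / ((n : ℝ) + 1) := by fun_prop
      have m2 : Measurable fun t : ℝ => ((1 - t / θ + 1 / ((n : ℝ) + 1), t) : ℝ × ℝ) := by fun_prop
      have m3 : Measurable fun t : ℝ => m (1 - t / θ + 1 / ((n : ℝ) + 1)) t := hm.comp m2
      exact measurableSet_Ioo.inter ((measurableSet_lt m1 measurable_const).inter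
        (measurableSet_lt measurable_const m3))
    have hcover : ∀ᵐ t : ℝ, t ∈ Ioo 0 θ → ∃ n, t ∈ E n := by
      filter_upwards [hBk] with t ht htI
      obtain ⟨v, hv, hv1, hv2⟩ := ht htI
      have h1 : 1 - t / θ < v := by
        have : θ * (1 - v) / θ < t / θ := by gcongr
        rw [mul_div_cancel_left₀ _ hθ.ne'] at this
        linarith
      obtain ⟨n, hn⟩ := exists_nat_one_div_lt (show 0 < v - (1 - t / θ) by linarith)
      refine ⟨n, htI, by linarith [hv.2], ?_⟩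
      have h2 : 0 < t / θ := div_pos htI.1 hθ
      have h3 : t / θ < 1 := by rw [div_lt_one hθ]; exact htI.2
      have h4 : (0 : ℝ) < 1 / ((n : ℝ) + 1) := by positivity
      refine hv2.trans_le (hanti t ⟨htI.1.le, (htI.2.trans hT).le⟩ ⟨by linarith, by linarith [hv.2]⟩
        (Ioo_subset_Icc_self hv) (by linarith))
    obtain ⟨n, hn⟩ : ∃ n, volume (E n) ≠ 0 := by
      by_contra hcon'
      push Not at hcon'
      have h1 : volume (⋃ n, E n) = 0 := measure_iUnion_null hcon'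
      have h2 : volume (Ioo 0 θ) = 0 := by
        have h3 : ∀ᵐ t : ℝ, t ∉ ⋃ n, E n := measure_eq_zero_iff_ae_notMem.1 h1
        refine measure_eq_zero_iff_ae_notMem.2 ?_
        filter_upwards [hcover, h3] with t ht ht3 htI
        exact ht3 (mem_iUnion.2 (ht htI))
      rw [Real.volume_Ioo] at h2
      simp at h2
      linarith
    -- a density point
    obtain ⟨t0, ht0E, ht0d⟩ : ∃ t0 ∈ E n, ∀ ε : ℝ, 0 < ε → ∀ᶠ h in 𝓝[>] (0 : ℝ),
        volume ((E n)ᶜ ∩ Icc t0 (t0 + h)) ≤ ENNReal.ofReal (ε * h) := by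
      by_contra hcon'
      push Not at hcon'
      apply hn
      refine measure_eq_zero_iff_ae_notMem.2 ?_
      filter_upwards [ae_right_density (hEm n)] with t ht htE
      obtain ⟨ε, hε, h1⟩ := hcon' t htE
      refine h1 ?_
      filter_upwards [ht htE ε hε] with h hh
      exact not_lt.2 hh
    have ht0I : t0 ∈ Ioo 0 θ := ht0E.1
    set v0 : ℝ := 1 - t0 / θ with hv0
    have hv0I : v0 ∈ Ioo (0 : ℝ) 1 := by
      have h1 : 0 < t0 / θ := div_pos ht0I.1 hθ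
      have h2 : t0 / θ < 1 := by rw [div_lt_one hθ]; exact ht0I.2
      exact ⟨by rw [hv0]; linarith, by rw [hv0]; linarith⟩
    have hrec : θ * (1 - v0) = t0 := by rw [hv0]; field_simp; ring
    obtain ⟨ρ, hρ, hρs⟩ := hnear v0 hv0I
    -- bad heights
    have hdens : ∀ ε : ℝ, 0 < ε → ∀ᶠ h in 𝓝[>] (0 : ℝ),
        volume (((E n)ᶜ ∪ N) ∩ Icc t0 (t0 + h)) ≤ ENNReal.ofReal (ε * h) := by
      intro ε hε
      filter_upwards [ht0d ε hε] with h hh
      rw [union_inter_distrib_right]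
      refine (measure_union_le _ _).trans ?_
      have : volume (N ∩ Icc t0 (t0 + h)) = 0 := measure_mono_null inter_subset_left hN0
      rw [this, add_zero]
      exact hh
    set N1 : ℝ := 1 / ((n : ℝ) + 1) with hN1
    have hN1p : 0 < N1 := by positivity
    set δ : ℝ := min (min ρ (ρ / μ)) (min v0 (min (θ * N1 / μ) ((T - t0) / μ))) with hδ
    have hδ0 : 0 < δ := by
      refine lt_min (lt_min hρ (div_pos hρ hμ0)) (lt_min hv0I.1 (lt_min ?_ ?_))
      · positivity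
      · exact div_pos (by linarith [ht0I.2]) hμ0
    have hδ1 : δ ≤ ρ := (min_le_left _ _).trans (min_le_left _ _)
    have hδ2 : δ ≤ ρ / μ := (min_le_left _ _).trans (min_le_right _ _)
    have hδ3 : δ ≤ v0 := (min_le_right _ _).trans (min_le_left _ _)
    have hδ4 : δ ≤ θ * N1 / μ :=
      (min_le_right _ _).trans ((min_le_right _ _).trans (min_le_left _ _))
    have hδ5 : δ ≤ (T - t0) / μ :=
      (min_le_right _ _).trans ((min_le_right _ _).trans (min_le_right _ _))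
    rw [le_div_iff₀ hμ0] at hδ2 hδ4 hδ5
    refine no_contact hlip' hg0 hv0I ⟨ht0I.1, ht0I.2.trans hT⟩
      (by rw [hg]; have := heq v0 (Ioo_subset_Icc_self hv0I); rw [hrec] at this; exact this)
      hμ0 (by linarith : 0 < c - 2 * s) hd ((hEm n).compl.union hNm) hdens hδ0 ?_
    intro y hy hyW v hv
    have hμy : 0 < μ * y := mul_pos hμ0 hy.1
    have hμy' : μ * y < δ * μ := by rw [mul_comm δ]; exact mul_lt_mul_of_pos_left hy.2 hμ0
    rw [mem_union, not_or, mem_compl_iff, not_not] at hyW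
    obtain ⟨hyE, hyN⟩ := hyW
    have htT : t0 + μ * y ∈ Ioo 0 T := ⟨by linarith [ht0I.1], by linarith⟩
    have hvI : v ∈ Ioo (0 : ℝ) 1 := ⟨by linarith [hv.1], by linarith [hv.2, hy.1, hv0I.2]⟩
    refine ⟨⟨hvI, htT⟩, ?_, ?_⟩
    · refine hyE.2.2.trans_le (hanti _ (Ioo_subset_Icc_self htT) (Ioo_subset_Icc_self hvI)
        ⟨?_, hyE.2.1.le⟩ ?_)
      · have h1 : (t0 + μ * y) / θ < 1 := by rw [div_lt_one hθ]; exact hyE.1.2
        linarith
      · have h1 : μ * y / θ < N1 := by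
          rw [div_lt_iff₀ hθ, mul_comm N1]; linarith
        have h2 : 1 - (t0 + μ * y) / θ = v0 - μ * y / θ := by rw [hv0]; ring
        rw [h2]
        linarith [hv.2, hy.1]
    · refine hρs _ htT hyN v hvI ?_ ?_
      · rw [abs_lt]
        constructor <;> linarith [hv.1, hv.2, hy.1]
      · rw [hrec, abs_lt]
        constructor <;> linarith
  · -- below the record
    set v0 : ℝ := 1 / 2 with hv0
    have hv0I : v0 ∈ Ioo (0 : ℝ) 1 := by rw [hv0]; constructor <;> norm_num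
    set t0 : ℝ := θ * (1 - v0) with ht0
    have ht0I : t0 ∈ Ioo 0 T := by
      rw [ht0, hv0]
      constructor
      · have : (0 : ℝ) < 1 - 1 / 2 := by norm_num
        positivity
      · linarith
    obtain ⟨ρ, hρ, hρs⟩ := hnear v0 hv0I
    set δ : ℝ := min (min ρ (ρ / μ)) (min v0 ((T - t0) / μ)) with hδ
    have hδ0 : 0 < δ :=
      lt_min (lt_min hρ (div_pos hρ hμ0)) (lt_min hv0I.1 (div_pos (by linarith [ht0I.2]) hμ0))
    have hδ1 : δ ≤ ρ := (min_le_left _ _).trans (min_le_left _ _)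
    have hδ2 : δ ≤ ρ / μ := (min_le_left _ _).trans (min_le_right _ _)
    have hδ3 : δ ≤ v0 := (min_le_right _ _).trans (min_le_left _ _)
    have hδ5 : δ ≤ (T - t0) / μ := (min_le_right _ _).trans (min_le_right _ _)
    rw [le_div_iff₀ hμ0] at hδ2 hδ5
    refine no_contact hlip' hg0 hv0I ht0I (heq v0 (Ioo_subset_Icc_self hv0I))
      hμ0 (by linarith : 0 < c - 2 * s) hd hNm (fun ε hε => ?_) hδ0 ?_
    · refine Eventually.of_forall fun h => ?_
      have : volume (N ∩ Icc t0 (t0 + h)) = 0 := measure_mono_null inter_subset_left hN0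
      rw [this]
      exact bot_le
    intro y hy hyN v hv
    have hμy : 0 < μ * y := mul_pos hμ0 hy.1
    have hμy' : μ * y < δ * μ := by rw [mul_comm δ]; exact mul_lt_mul_of_pos_left hy.2 hμ0
    have htT : t0 + μ * y ∈ Ioo 0 T := ⟨by linarith [ht0I.1], by linarith⟩
    have hvI : v ∈ Ioo (0 : ℝ) 1 := ⟨by linarith [hv.1], by linarith [hv.2, hy.1, hv0I.2]⟩
    refine ⟨⟨hvI, htT⟩, ?_, ?_⟩
    · refine (hNsub _ hyN).1 htT v hvI ?_
      have h1 : θ * (1 - v) > θ * (1 - v0 + y) := by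
        refine mul_lt_mul_of_pos_left ?_ hθ
        linarith [hv.2]
      have h2 : μ * y ≤ θ * y := mul_le_mul_of_nonneg_right (hμk.trans hθk) hy.1.le
      rw [ht0]
      linarith
    · refine hρs _ htT hyN v hvI ?_ ?_
      · rw [abs_lt]
        constructor <;> linarith [hv.1, hv.2, hy.1]
      · rw [← ht0, abs_lt]
        constructor <;> linarith

end Crest.Agent.R138.Tii615
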