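import Mathlib
import Crest.Agent.R138.Tilt_51

/-!
# R138: tilt lemma on a finite incidence set (helper51)

`tilt_inc`: `I` = incidences, `obj x` = the line, `c x` / `c' x` = the big / small z-cell, `f x` /
`g x` = the label of the big / small near-maximal class.  The incidences whose two frames make an
angle `≥ θ` are few.
-/

set_option autoImplicit false
set_option linter.unusedVariables false

open Finset

namespace Crest.Agent.R138.Tilt51

open Crest.Agent.R138.Flag51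

noncomputable section

/-- the constant of the tilt lemma -/
def Kt (E1 E2 M1 M2 w1 w2 a1 a2 ρ ρ' p q θ : ℝ) : ℝ :=
  2359296 * E1 * (E2 * (M1 / M2) * (3 * (ρ / ρ')) ^ (2 + p + q)) / (1 - 2 ^ (p - q)) *
    (max w1 (3 * (ρ / ρ') * a1) / (θ * min w2 (3 * (ρ / ρ') * a2))) ^ (q - p)

section

variable {ι Λ κ κ' α β : Type*} [DecidableEq Λ] [DecidableEq κ] [DecidableEq κ']
  [DecidableEq α] [DecidableEq β] {I : Finset ι} {obj : ι → Λ} {L : Λ → Ln} {c : ι → κ}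
  {c' : ι → κ'} {f : ι → α} {g : ι → β} {zc : κ → ℝ} {zc' : κ' → ℝ} {bK : α → Ln} {eK : α → E2}
  {bK' : β → Ln} {eK' : β → E2} {w1 w2 a1 a2 ρ ρ' M1 M2 E1 E2' p q r0 R0 θ : ℝ}

open Classical in
/-- one small cell -/
theorem tilt_cell
    (hcc : ∀ x ∈ I, ∀ y ∈ I, c' x = c' y → c x = c y)
    (hf : ∀ x ∈ I, ∀ y ∈ I, obj x = obj y → c x = c y → f x = f y)
    (hfc : ∀ x ∈ I, ∀ y ∈ I, f x = f y → c x = c y)
    (hg : ∀ x ∈ I, ∀ y ∈ I, obj x = obj y → c' x = c' y → g x = g y)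
    (hgc : ∀ x ∈ I, ∀ y ∈ I, g x = g y → c' x = c' y)
    (uf : ∀ x ∈ I, dt (eK (f x)) (eK (f x)) = 1)
    (ug : ∀ x ∈ I, dt (eK' (g x)) (eK' (g x)) = 1)
    (mf : ∀ x ∈ I, InPlank (L (obj x)) (bK (f x)) (eK (f x)) w1 w2 (zc (c x)) ρ)
    (mg : ∀ x ∈ I, InPlank (L (obj x)) (bK' (g x)) (eK' (g x)) a1 a2 (zc' (c' x)) ρ')
    (lf : ∀ x ∈ I, M1 * w1 ^ (1 + p) * w2 ^ (1 + q) ≤
      E1 * (((I.filter fun y => f y = f x).image obj).card : ℝ))
    (lg : ∀ x ∈ I, M2 * a1 ^ (1 + p) * a2 ^ (1 + q) ≤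
      E2' * (((I.filter fun y => g y = g x).image obj).card : ℝ))
    (dm : ∀ (k : κ) (l : Ln) (e : E2) (b1 b2 : ℝ), dt e e = 1 → r0 ≤ b1 → b1 ≤ b2 → b2 ≤ R0 →
      (((I.filter fun y => c y = k ∧ InPlank (L (obj y)) l e b1 b2 (zc k) ρ).image obj).card : ℝ) ≤
        M1 * b1 ^ (1 + p) * b2 ^ (1 + q))
    (hρ' : 0 < ρ') (hρ : ρ' ≤ ρ) (hz : ∀ x ∈ I, |zc' (c' x) - zc (c x)| ≤ ρ)
    (hp : 0 ≤ p) (hpq : p < q) (hq : q ≤ 1)
    (hw1 : 0 < w1) (hw12 : w1 ≤ w2) (ha1 : 0 < a1) (ha12 : a1 ≤ a2)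
    (hr0 : r0 ≤ min w1 (3 * (ρ / ρ') * a1)) (hR0 : 8 * max w2 (3 * (ρ / ρ') * a2) ≤ R0)
    (hM1 : 0 < M1) (hM2 : 0 < M2) (hE1 : 0 ≤ E1) (hE2 : 0 ≤ E2')
    (hθ : max w1 (3 * (ρ / ρ') * a1) ≤ θ * min w2 (3 * (ρ / ρ') * a2))
    {x0 : ι} (hx0 : x0 ∈ I) :
    (((I.filter fun x => c' x = c' x0 ∧ θ ≤ |cr (eK (f x)) (eK' (g x))|).image obj).card : ℝ) ≤
      Kt E1 E2' M1 M2 w1 w2 a1 a2 ρ ρ' p q θ *
        (((I.filter fun x => c x = c x0).image obj).card : ℝ) := by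
  classical
  set k := c x0 with hk
  set k' := c' x0 with hk'
  -- the label functions on lines
  let F : Λ → α := fun T => if h : ∃ x ∈ I, c x = k ∧ obj x = T then f h.choose else f x0
  let G : Λ → β := fun T => if h : ∃ x ∈ I, c' x = k' ∧ obj x = T then g h.choose else g x0
  have hF : ∀ x ∈ I, c x = k → F (obj x) = f x := by
    intro x hx hc
    have h : ∃ y ∈ I, c y = k ∧ obj y = obj x := ⟨x, hx, hc, rfl⟩
    have h1 : F (obj x) = f h.choose := dif_pos h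
    obtain ⟨h2, h3, h4⟩ := h.choose_spec
    rw [h1]
    exact hf _ h2 _ hx h4 (h3.trans hc.symm)
  have hG : ∀ x ∈ I, c' x = k' → G (obj x) = g x := by
    intro x hx hc
    have h : ∃ y ∈ I, c' y = k' ∧ obj y = obj x := ⟨x, hx, hc, rfl⟩
    have h1 : G (obj x) = g h.choose := dif_pos h
    obtain ⟨h2, h3, h4⟩ := h.choose_spec
    rw [h1]
    exact hg _ h2 _ hx h4 (h3.trans hc.symm)
  have hck : ∀ x ∈ I, c' x = k' → c x = k := fun x hx h => hcc x hx x0 hx0 h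
  set S1 : Finset Λ := (I.filter fun x => c x = k).image obj with hS1
  set S2 : Finset Λ := (I.filter fun x => c' x = k').image obj with hS2
  have hS : S2 ⊆ S1 := by
    intro T hT
    rw [hS2, mem_image] at hT
    obtain ⟨x, hx, rfl⟩ := hT
    rw [mem_filter] at hx
    rw [hS1, mem_image]
    exact ⟨x, mem_filter.2 ⟨hx.1, hck x hx.1 hx.2⟩, rfl⟩
  have n1 : Near S1 L (fun _ => 1) F bK eK w1 w2 (zc k) ρ M1 E1 p q := by
    refine ⟨?_, ?_, ?_⟩
    · intro T hT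
      rw [hS1, mem_image] at hT
      obtain ⟨x, hx, rfl⟩ := hT
      rw [mem_filter] at hx
      rw [hF x hx.1 hx.2]; exact uf x hx.1
    · intro T hT
      rw [hS1, mem_image] at hT
      obtain ⟨x, hx, rfl⟩ := hT
      rw [mem_filter] at hx
      rw [hF x hx.1 hx.2]
      have := mf x hx.1
      rwa [hx.2] at this
    · intro T hT
      rw [hS1, mem_image] at hT
      obtain ⟨x, hx, rfl⟩ := hT
      rw [mem_filter] at hx
      refine (lf x hx.1).trans (mul_le_mul_of_nonneg_left ?_ hE1)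
      rw [sum_const, nsmul_eq_mul, mul_one]
      norm_cast
      refine card_le_card ?_
      intro T hT
      rw [mem_image] at hT
      obtain ⟨y, hy, rfl⟩ := hT
      rw [mem_filter] at hy
      have hcy : c y = k := (hfc y hy.1 x hx.1 hy.2).trans hx.2
      rw [filter_congr_decidable]
      refine mem_filter.2 ⟨mem_image_of_mem _ (mem_filter.2 ⟨hy.1, hcy⟩), ?_⟩
      rw [hF y hy.1 hcy, hF x hx.1 hx.2]
      exact hy.2
  have n2 : Near S2 L (fun _ => 1) G bK' eK' a1 a2 (zc' k') ρ' M2 E2' p q := by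
    refine ⟨?_, ?_, ?_⟩
    · intro T hT
      rw [hS2, mem_image] at hT
      obtain ⟨x, hx, rfl⟩ := hT
      rw [mem_filter] at hx
      rw [hG x hx.1 hx.2]; exact ug x hx.1
    · intro T hT
      rw [hS2, mem_image] at hT
      obtain ⟨x, hx, rfl⟩ := hT
      rw [mem_filter] at hx
      rw [hG x hx.1 hx.2]
      have := mg x hx.1
      rwa [hx.2] at this
    · intro T hT
      rw [hS2, mem_image] at hT
      obtain ⟨x, hx, rfl⟩ := hT
      rw [mem_filter] at hx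
      refine (lg x hx.1).trans (mul_le_mul_of_nonneg_left ?_ hE2)
      rw [sum_const, nsmul_eq_mul, mul_one]
      norm_cast
      refine card_le_card ?_
      intro T hT
      rw [mem_image] at hT
      obtain ⟨y, hy, rfl⟩ := hT
      rw [mem_filter] at hy
      have hcy : c' y = k' := (hgc y hy.1 x hx.1 hy.2).trans hx.2
      rw [filter_congr_decidable]
      refine mem_filter.2 ⟨mem_image_of_mem _ (mem_filter.2 ⟨hy.1, hcy⟩), ?_⟩
      rw [hG y hy.1 hcy, hG x hx.1 hx.2]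
      exact hy.2
  have d1 : DMax S1 L (fun _ => 1) (zc k) ρ M1 p q r0 R0 := by
    intro l e b1 b2 he h1 h2 h3
    refine le_trans ?_ (dm k l e b1 b2 he h1 h2 h3)
    rw [sum_const, nsmul_eq_mul, mul_one]
    norm_cast
    refine card_le_card ?_
    intro T hT
    rw [mem_filter, hS1, mem_image] at hT
    obtain ⟨⟨x, hx, rfl⟩, hpl⟩ := hT
    rw [mem_filter] at hx
    exact mem_image_of_mem _ (mem_filter.2 ⟨hx.1, hx.2, hpl⟩)
  have key := tilt n1 n2 d1 (fun _ _ => zero_le_one) hS hρ' hρ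
    (by have := hz x0 hx0; exact this) hp hpq hq hw1 hw12 ha1 ha12 hr0 hR0 hM1 hM2 hE1 hE2 hθ
  rw [sum_const, sum_const, nsmul_eq_mul, nsmul_eq_mul, mul_one, mul_one] at key
  refine le_trans ?_ key
  norm_cast
  refine card_le_card ?_
  intro T hT
  rw [mem_image] at hT
  obtain ⟨x, hx, rfl⟩ := hT
  rw [mem_filter] at hx
  obtain ⟨hxI, hxc, hxb⟩ := hx
  rw [mem_filter, hF x hxI (hck x hxI hxc), hG x hxI hxc]
  exact ⟨mem_image_of_mem _ (mem_filter.2 ⟨hxI, hxc⟩), hxb⟩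

theorem Kt_nonneg (hρ' : 0 < ρ') (hρ : ρ' ≤ ρ) (hpq : p < q)
    (hw1 : 0 < w1) (hw12 : w1 ≤ w2) (ha1 : 0 < a1) (ha12 : a1 ≤ a2)
    (hM1 : 0 < M1) (hM2 : 0 < M2) (hE1 : 0 ≤ E1) (hE2 : 0 ≤ E2')
    (hθ : max w1 (3 * (ρ / ρ') * a1) ≤ θ * min w2 (3 * (ρ / ρ') * a2)) :
    0 ≤ Kt E1 E2' M1 M2 w1 w2 a1 a2 ρ ρ' p q θ := by
  have hr : (2 : ℝ) ^ (p - q) < 1 := Real.rpow_lt_one_of_one_lt_of_neg (by norm_num) (by linarith)
  have hden : 0 < 1 - (2:ℝ) ^ (p - q) := by linarith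
  have hρ0 : 0 < ρ := hρ'.trans_le hρ
  have hx : 0 < max w1 (3 * (ρ / ρ') * a1) := lt_max_of_lt_left hw1
  have h1 : 0 < θ * min w2 (3 * (ρ / ρ') * a2) := hx.trans_le hθ
  unfold Kt
  positivity

open Classical in
/-- **TILT LEMMA on a finite incidence set.** -/
theorem tilt_inc
    (hcc : ∀ x ∈ I, ∀ y ∈ I, c' x = c' y → c x = c y)
    (hf : ∀ x ∈ I, ∀ y ∈ I, obj x = obj y → c x = c y → f x = f y)
    (hfc : ∀ x ∈ I, ∀ y ∈ I, f x = f y → c x = c y)
    (hg : ∀ x ∈ I, ∀ y ∈ I, obj x = obj y → c' x = c' y → g x = g y)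
    (hgc : ∀ x ∈ I, ∀ y ∈ I, g x = g y → c' x = c' y)
    (uf : ∀ x ∈ I, dt (eK (f x)) (eK (f x)) = 1)
    (ug : ∀ x ∈ I, dt (eK' (g x)) (eK' (g x)) = 1)
    (mf : ∀ x ∈ I, InPlank (L (obj x)) (bK (f x)) (eK (f x)) w1 w2 (zc (c x)) ρ)
    (mg : ∀ x ∈ I, InPlank (L (obj x)) (bK' (g x)) (eK' (g x)) a1 a2 (zc' (c' x)) ρ')
    (lf : ∀ x ∈ I, M1 * w1 ^ (1 + p) * w2 ^ (1 + q) ≤
      E1 * (((I.filter fun y => f y = f x).image obj).card : ℝ))
    (lg : ∀ x ∈ I, M2 * a1 ^ (1 + p) * a2 ^ (1 + q) ≤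
      E2' * (((I.filter fun y => g y = g x).image obj).card : ℝ))
    (dm : ∀ (k : κ) (l : Ln) (e : E2) (b1 b2 : ℝ), dt e e = 1 → r0 ≤ b1 → b1 ≤ b2 → b2 ≤ R0 →
      (((I.filter fun y => c y = k ∧ InPlank (L (obj y)) l e b1 b2 (zc k) ρ).image obj).card : ℝ) ≤
        M1 * b1 ^ (1 + p) * b2 ^ (1 + q))
    (hρ' : 0 < ρ') (hρ : ρ' ≤ ρ) (hz : ∀ x ∈ I, |zc' (c' x) - zc (c x)| ≤ ρ)
    (hp : 0 ≤ p) (hpq : p < q) (hq : q ≤ 1)
    (hw1 : 0 < w1) (hw12 : w1 ≤ w2) (ha1 : 0 < a1) (ha12 : a1 ≤ a2)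
    (hr0 : r0 ≤ min w1 (3 * (ρ / ρ') * a1)) (hR0 : 8 * max w2 (3 * (ρ / ρ') * a2) ≤ R0)
    (hM1 : 0 < M1) (hM2 : 0 < M2) (hE1 : 0 ≤ E1) (hE2 : 0 ≤ E2')
    (hθ : max w1 (3 * (ρ / ρ') * a1) ≤ θ * min w2 (3 * (ρ / ρ') * a2))
    {N ν1 ν2 : ℝ} (hν2 : 0 ≤ ν2) (hν1 : 0 ≤ ν1)
    (hN : ∀ x ∈ I, (((I.filter fun y => c y = c x).image c').card : ℝ) ≤ N)
    (hup : ∀ x ∈ I, ((I.filter fun y => obj y = obj x ∧ c' y = c' x).card : ℝ) ≤ ν2)
    (hlo : ∀ x ∈ I, ν1 ≤ ((I.filter fun y => obj y = obj x ∧ c y = c x).card : ℝ)) :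
    ((I.filter fun x => θ ≤ |cr (eK (f x)) (eK' (g x))|).card : ℝ) * ν1 ≤
      ν2 * N * Kt E1 E2' M1 M2 w1 w2 a1 a2 ρ ρ' p q θ * I.card := by
  classical
  set K := Kt E1 E2' M1 M2 w1 w2 a1 a2 ρ ρ' p q θ with hK
  have hK0 : 0 ≤ K := Kt_nonneg hρ' hρ hpq hw1 hw12 ha1 ha12 hM1 hM2 hE1 hE2 hθ
  rcases I.eq_empty_or_nonempty with hE | ⟨x00, hx00⟩
  · rw [hE]; simp
  have hN0 : 0 ≤ N := le_trans (by positivity) (hN x00 hx00)
  set bad : ι → Prop := fun x => θ ≤ |cr (eK (f x)) (eK' (g x))| with hbad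
  -- number of lines alive in a big cell
  set s1 : κ → ℝ := fun k => (((I.filter fun x => c x = k).image obj).card : ℝ) with hs1
  -- big cell of a small cell
  let kk : κ' → κ := fun k' => if h : ∃ x ∈ I, c' x = k' then c h.choose else c x00
  have hkk : ∀ x ∈ I, kk (c' x) = c x := by
    intro x hx
    have h : ∃ y ∈ I, c' y = c' x := ⟨x, hx, rfl⟩
    have h1 : kk (c' x) = c h.choose := dif_pos h
    obtain ⟨h2, h3⟩ := h.choose_spec
    rw [h1]
    exact hcc _ h2 _ hx h3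
  -- step A
  have hA : ((I.filter bad).card : ℝ) ≤ ∑ k' ∈ I.image c', ν2 * (K * s1 (kk k')) := by
    have h1 : ((I.filter bad).card : ℝ) =
        ∑ k' ∈ I.image c', (((I.filter bad).filter fun x => c' x = k').card : ℝ) := by
      rw [← Nat.cast_sum]
      congr 1
      exact card_eq_sum_card_fiberwise fun x hx => by
        rw [mem_coe, mem_filter] at hx
        exact mem_image_of_mem _ hx.1
    rw [h1]
    refine sum_le_sum fun k' hk' => ?_
    rw [mem_image] at hk'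
    obtain ⟨x0, hx0, rfl⟩ := hk'
    rw [hkk x0 hx0]
    have h2 := tilt_cell hcc hf hfc hg hgc uf ug mf mg lf lg dm hρ' hρ hz hp hpq hq hw1 hw12 ha1
      ha12 hr0 hR0 hM1 hM2 hE1 hE2 hθ hx0
    have h3 : (((I.filter bad).filter fun x => c' x = c' x0).card : ℝ) ≤
        ν2 * (((I.filter fun x => c' x = c' x0 ∧ bad x).image obj).card : ℝ) := by
      set A := (I.filter bad).filter fun x => c' x = c' x0 with hA
      have hAe : A = I.filter fun x => c' x = c' x0 ∧ bad x := by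
        ext x; simp only [hA, mem_filter]; tauto
      rw [← hAe]
      have h4 : (A.card : ℝ) = ∑ T ∈ A.image obj, ((A.filter fun x => obj x = T).card : ℝ) := by
        rw [← Nat.cast_sum]
        congr 1
        exact card_eq_sum_card_fiberwise fun x hx => mem_image_of_mem _ hx
      rw [h4]
      have h5 : ∀ T ∈ A.image obj, ((A.filter fun x => obj x = T).card : ℝ) ≤ ν2 := by
        intro T hT
        rw [mem_image] at hT
        obtain ⟨x, hx, rfl⟩ := hT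
        rw [hAe, mem_filter] at hx
        refine le_trans ?_ (hup x hx.1)
        norm_cast
        refine card_le_card ?_
        intro y hy
        rw [mem_filter, hAe, mem_filter] at hy
        rw [mem_filter]
        exact ⟨hy.1.1, hy.2, hy.1.2.1.trans hx.2.1.symm⟩
      calc ∑ T ∈ A.image obj, ((A.filter fun x => obj x = T).card : ℝ)
          ≤ ∑ T ∈ A.image obj, ν2 := sum_le_sum h5
        _ = ν2 * ((A.image obj).card : ℝ) := by rw [sum_const, nsmul_eq_mul]; ring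
    exact h3.trans (mul_le_mul_of_nonneg_left h2 hν2)
  -- step C
  have hC : ∑ k' ∈ I.image c', s1 (kk k') ≤ N * ∑ k ∈ I.image c, s1 k := by
    have h1 : ∑ k' ∈ I.image c', s1 (kk k') =
        ∑ k ∈ I.image c, ∑ k' ∈ (I.image c').filter (fun k' => kk k' = k), s1 (kk k') := by
      rw [Finset.sum_fiberwise_of_maps_to]
      intro k' hk'
      rw [mem_image] at hk'
      obtain ⟨x, hx, rfl⟩ := hk'
      rw [hkk x hx]
      exact mem_image_of_mem _ hx
    rw [h1, mul_sum]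
    refine sum_le_sum fun k hk => ?_
    rw [mem_image] at hk
    obtain ⟨x, hx, rfl⟩ := hk
    have h2 : ∑ k' ∈ (I.image c').filter (fun k' => kk k' = c x), s1 (kk k') =
        (((I.image c').filter (fun k' => kk k' = c x)).card : ℝ) * s1 (c x) := by
      rw [← nsmul_eq_mul, ← sum_const]
      refine sum_congr rfl fun k' hk' => ?_
      rw [(mem_filter.1 hk').2]
    rw [h2]
    refine mul_le_mul_of_nonneg_right ?_ (by rw [hs1]; positivity)
    refine le_trans ?_ (hN x hx)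
    norm_cast
    refine card_le_card ?_
    intro k' hk'
    rw [mem_filter, mem_image] at hk'
    obtain ⟨⟨y, hy, rfl⟩, h3⟩ := hk'
    rw [hkk y hy] at h3
    exact mem_image_of_mem _ (mem_filter.2 ⟨hy, h3⟩)
  -- step D
  have hD : ν1 * ∑ k ∈ I.image c, s1 k ≤ (I.card : ℝ) := by
    have h1 : (I.card : ℝ) = ∑ k ∈ I.image c, ((I.filter fun x => c x = k).card : ℝ) := by
      rw [← Nat.cast_sum]
      congr 1
      exact card_eq_sum_card_fiberwise fun x hx => mem_image_of_mem _ hx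
    rw [h1, mul_sum]
    refine sum_le_sum fun k hk => ?_
    set A := I.filter fun x => c x = k with hA
    have h4 : (A.card : ℝ) = ∑ T ∈ A.image obj, ((A.filter fun x => obj x = T).card : ℝ) := by
      rw [← Nat.cast_sum]
      congr 1
      exact card_eq_sum_card_fiberwise fun x hx => mem_image_of_mem _ hx
    rw [h4]
    have h5 : ∀ T ∈ A.image obj, ν1 ≤ ((A.filter fun x => obj x = T).card : ℝ) := by
      intro T hT
      rw [mem_image] at hT
      obtain ⟨x, hx, rfl⟩ := hT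
      rw [hA, mem_filter] at hx
      refine (hlo x hx.1).trans ?_
      norm_cast
      refine card_le_card ?_
      intro y hy
      rw [mem_filter] at hy
      rw [mem_filter, hA, mem_filter]
      exact ⟨⟨hy.1, hy.2.2.trans hx.2⟩, hy.2.1⟩
    calc ν1 * s1 k = ∑ T ∈ A.image obj, ν1 := by
          rw [sum_const, nsmul_eq_mul]; simp only [hs1]; ring
      _ ≤ _ := sum_le_sum h5
  calc ((I.filter bad).card : ℝ) * ν1
      ≤ (∑ k' ∈ I.image c', ν2 * (K * s1 (kk k'))) * ν1 := mul_le_mul_of_nonneg_right hA hν1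
    _ = ν2 * K * (∑ k' ∈ I.image c', s1 (kk k')) * ν1 := by
        rw [mul_sum]; congr 1; refine sum_congr rfl fun _ _ => by ring
    _ ≤ ν2 * K * (N * ∑ k ∈ I.image c, s1 k) * ν1 := by
        refine mul_le_mul_of_nonneg_right (mul_le_mul_of_nonneg_left hC ?_) hν1
        exact mul_nonneg hν2 hK0
    _ = ν2 * N * K * (ν1 * ∑ k ∈ I.image c, s1 k) := by ring
    _ ≤ ν2 * N * K * I.card := by
        refine mul_le_mul_of_nonneg_left hD ?_
        positivity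

end

end

end Crest.Agent.R138.Tilt51
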