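import Mathlib
import Crest.Agent.R138.Flag_51

/-!
# R138: tilt lemma between adjacent levels and chain of flags (helper345)

Doc 1933, Steps 1 and 2.  One cell `(z0, ρ)` (a cell of the finer level), one weighted family `S`
of lines alive there, two assignments of planks `f` (planks of the coarse level, restricted to the
cell) and `g` (planks of the fine level).  `PMax M q`: every plank over the cell carries mass at
most `M a1 a2^(1+q)` (penalised maximality, no restriction on the shape).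
-/

set_option autoImplicit false
set_option linter.unusedVariables false

open Finset

namespace Crest.Agent.R138.Tilt345

open Crest.Agent.R138.Flag51

noncomputable section

/-! ### planks -/

theorem InPlank.mono {t l : Ln} {e : E2} {a1 a2 b1 b2 z0 ρ : ℝ} (h : InPlank t l e a1 a2 z0 ρ)
    (h1 : a1 ≤ b1) (h2 : a2 ≤ b2) : InPlank t l e b1 b2 z0 ρ := fun z hz =>
  ⟨(h z hz).1.trans h1, (h z hz).2.trans h2⟩

/-- restriction of a plank to a sub-cell -/
theorem InPlank.sub {t l : Ln} {e : E2} {a1 a2 z0 ρ z1 ρ1 : ℝ} (h : InPlank t l e a1 a2 z0 ρ)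
    (hs : |z1 - z0| + ρ1 ≤ ρ) : InPlank t l e a1 a2 z1 ρ1 := by
  intro z hz
  refine h z ?_
  have : z - z0 = (z - z1) + (z1 - z0) := by ring
  rw [this]
  exact (abs_add_le _ _).trans (by linarith)

theorem Close.refl {t : Ln} {w z0 ρ : ℝ} (hw : 0 ≤ w) : Close t t w z0 ρ := by
  intro z _ e _
  rw [sub_self]
  simpa [dt] using hw

/-! ### angles -/

theorem cr_comm (x y : E2) : cr x y = -cr y x := by simp only [cr]; ring

/-- `|sin(α+β)| ≤ |sin α| + |sin β|` -/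
theorem cr_triangle {e e' e'' : E2} (h : dt e e = 1) (h' : dt e' e' = 1) (h'' : dt e'' e'' = 1) :
    |cr e e''| ≤ |cr e e'| + |cr e' e''| := by
  have h1 := cr_of (e := e) h' e''
  rw [h1]
  refine (abs_add_le _ _).trans ?_
  rw [abs_mul, abs_mul]
  have a1 : |dt e'' e'| ≤ 1 := abs_dt_le_one h'' h'
  have a2 : |dt e e'| ≤ 1 := abs_dt_le_one h h'
  have b1 : |cr e e'| * |dt e'' e'| ≤ |cr e e'| * 1 :=
    mul_le_mul_of_nonneg_left a1 (abs_nonneg _)
  have b2 : |dt e e'| * |cr e' e''| ≤ 1 * |cr e' e''| :=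
    mul_le_mul_of_nonneg_right a2 (abs_nonneg _)
  linarith

/-- chain of unit vectors: the angles add -/
theorem cr_chain (e : ℕ → E2) (h : ∀ i, dt (e i) (e i) = 1) (θ : ℕ → ℝ) (J : ℕ)
    (hθ : ∀ i < J, |cr (e i) (e (i + 1))| ≤ θ i) : |cr (e 0) (e J)| ≤ ∑ i ∈ range J, θ i := by
  induction J with
  | zero => simp [cr, mul_comm]
  | succ J ih =>
    rw [sum_range_succ]
    refine (cr_triangle (h 0) (h J) (h (J + 1))).trans ?_
    exact add_le_add (ih fun i hi => hθ i (Nat.lt_succ_of_lt hi)) (hθ J (Nat.lt_succ_self J))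

/-- chain with a uniform bound -/
theorem cr_chain_le (e : ℕ → E2) (h : ∀ i, dt (e i) (e i) = 1) {θ : ℝ} (J : ℕ)
    (hθ : ∀ i < J, |cr (e i) (e (i + 1))| ≤ θ) : |cr (e 0) (e J)| ≤ J * θ := by
  have := cr_chain e h (fun _ => θ) J hθ
  simpa using this

/-! ### plank systems -/

open Classical in
/-- penalised maximality over the cell `(z0, ρ)` for planks with `w1 ≤ a1 ≤ a2`:
mass at most `M a1 a2^(1+q)`. -/
def PMax {ι : Type*} (S : Finset ι) (L : ι → Ln) (m : ι → ℝ) (w1 z0 ρ M q : ℝ) : Prop :=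
  ∀ (l : Ln) (e : E2) (a1 a2 : ℝ), dt e e = 1 → w1 ≤ a1 → a1 ≤ a2 →
    ∑ t ∈ S with InPlank (L t) l e a1 a2 z0 ρ, m t ≤ M * a1 * a2 ^ (1 + q)

open Classical in
theorem PMax.sub {ι : Type*} {S S' : Finset ι} {L : ι → Ln} {m : ι → ℝ} {w1 w1' z0 ρ M q : ℝ}
    (h : PMax S L m w1 z0 ρ M q) (hS : S' ⊆ S) (hm : ∀ t ∈ S, 0 ≤ m t) (hw : w1 ≤ w1') :
    PMax S' L m w1' z0 ρ M q := by
  intro l e a1 a2 he h1 h12
  refine le_trans ?_ (h l e a1 a2 he (hw.trans h1) h12)
  exact sum_le_sum_of_subset_of_nonneg (filter_subset_filter _ hS)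
    fun t ht _ => hm t (mem_filter.1 ht).1

open Classical in
/-- an assignment `f` of planks with widths at most `(w1, w2)`; every used plank carries at least
`A` (assigned mass) -/
structure Assign {ι α : Type*} (S : Finset ι) (L : ι → Ln) (m : ι → ℝ) (f : ι → α) (b : α → Ln)
    (e : α → E2) (w1 w2 z0 ρ A : ℝ) : Prop where
  unit : ∀ t ∈ S, dt (e (f t)) (e (f t)) = 1
  mem : ∀ t ∈ S, InPlank (L t) (b (f t)) (e (f t)) w1 w2 z0 ρ
  low : ∀ t ∈ S, A ≤ ∑ s ∈ S with f s = f t, m s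

variable {ι α β : Type*} {S : Finset ι} {L : ι → Ln} {m : ι → ℝ} {f : ι → α} {b : α → Ln}
  {e : α → E2} {g : ι → β} {b' : β → Ln} {e' : β → E2} {w1 w2 w1' w2' z0 ρ A A' M q : ℝ}

theorem Assign.mono (h : Assign S L m f b e w1 w2 z0 ρ A) (h1 : w1 ≤ w1') (h2 : w2 ≤ w2')
    (hA : A' ≤ A) : Assign S L m f b e w1' w2' z0 ρ A' :=
  ⟨h.unit, fun t ht => InPlank.mono (h.mem t ht) h1 h2, fun t ht => hA.trans (h.low t ht)⟩

/-- an assignment over a cell is an assignment over every sub-cell -/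
theorem Assign.subcell (h : Assign S L m f b e w1 w2 z0 ρ A) {z1 ρ1 : ℝ}
    (hs : |z1 - z0| + ρ1 ≤ ρ) : Assign S L m f b e w1 w2 z1 ρ1 A :=
  ⟨h.unit, fun t ht => InPlank.sub (h.mem t ht) hs, h.low⟩

open Classical in
/-- penalised maximality gives helper51's system with `B = M w1 w2^(1+q) / A` -/
theorem Assign.sys (h : Assign S L m f b e w1 w2 z0 ρ A) (hm : ∀ t ∈ S, 0 ≤ m t)
    (hM : PMax S L m w1 z0 ρ M q) (hM0 : 0 ≤ M) (hw1 : 0 < w1) (hw2 : 0 < w2) (hA : 0 < A) :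
    Sys S L m f b e w1 w2 z0 ρ A (M * w1 * w2 ^ (1 + q) / A) q := by
  refine ⟨hm, h.unit, h.mem, h.low, ?_⟩
  intro l e1 a1 a2 he1 h1 h12 _
  refine (hM l e1 a1 a2 he1 h1 h12).trans (le_of_eq ?_)
  have ha2 : 0 < a2 := hw1.trans_le (h1.trans h12)
  rw [Real.div_rpow ha2.le hw2.le]
  have : (0 : ℝ) < w2 ^ (1 + q) := by positivity
  field_simp

open Classical in
/-- **TILT LEMMA** (one step).  `S` = the lines alive in a fine cell, with penalised maximality over
that cell; `f` = planks of the coarse level restricted to the cell, `g` = planks of the fine level,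
all of widths at most `(w1, w2)`, with at least `A` resp. `A'` assigned lines.  The lines whose two
planks make an angle `≥ θ` have mass at most
`36864 (M w1 w2^(1+q))² / (A A') / (1 - 2^(-q)) * (w1 / (θ w2))^q` times the total mass. -/
theorem tilt_step (h : Assign S L m f b e w1 w2 z0 ρ A) (h' : Assign S L m g b' e' w1 w2 z0 ρ A')
    (hm : ∀ t ∈ S, 0 ≤ m t) (hM : PMax S L m w1 z0 ρ M q) (hM0 : 0 ≤ M) (hw1 : 0 < w1)
    (hw12 : w1 ≤ w2) (hq0 : 0 < q) (hq : q ≤ 1) (hA : 0 < A) (hA' : 0 < A') {θ : ℝ}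
    (hθ : w1 ≤ θ * w2) :
    ∑ t ∈ S with θ ≤ |cr (e (f t)) (e' (g t))|, m t ≤
      36864 * (M * w1 * w2 ^ (1 + q)) ^ 2 / (A * A') / (1 - 2 ^ (-q)) * (w1 / (θ * w2)) ^ q *
        ∑ t ∈ S, m t := by
  have hw2 : 0 < w2 := hw1.trans_le hw12
  have s1 := h.sys hm hM hM0 hw1 hw2 hA
  have s2 := h'.sys hm hM hM0 hw1 hw2 hA'
  have hB : 0 ≤ M * w1 * w2 ^ (1 + q) / A := by positivity
  have hB' : 0 ≤ M * w1 * w2 ^ (1 + q) / A' := by positivity
  have key := flag s1 s2 hw1 hw12 hq0 hq hA.le hA' hB hB' hθ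
  have h3 : ∑ t ∈ S with θ ≤ |cr (e (f t)) (e' (g t))|, m t
      ≤ ∑ t ∈ S with ∃ t' ∈ S, Close (L t) (L t') w1 z0 ρ ∧ θ ≤ |cr (e (f t)) (e' (g t'))|, m t := by
    refine sum_le_sum_of_subset_of_nonneg ?_ fun t ht _ => hm t (mem_filter.1 ht).1
    intro t ht
    rw [mem_filter] at ht ⊢
    exact ⟨ht.1, t, ht.1, Close.refl hw1.le, ht.2⟩
  refine h3.trans (key.trans (le_of_eq ?_))
  field_simp

open Classical in
/-- **TILT LEMMA**, exponent form: if `M w1 w2^(1+q) ≤ D A` and `≤ D A'` (`D = d^(-C w)`), then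
outside a part of relative mass `κ` the angle is at most
`(36864 D² / ((1 - 2^(-q)) κ))^(1/q) * (w1 / w2)`. -/
theorem tilt_step' (h : Assign S L m f b e w1 w2 z0 ρ A) (h' : Assign S L m g b' e' w1 w2 z0 ρ A')
    (hm : ∀ t ∈ S, 0 ≤ m t) (hM : PMax S L m w1 z0 ρ M q) (hM0 : 0 ≤ M) (hw1 : 0 < w1)
    (hw12 : w1 ≤ w2) (hq0 : 0 < q) (hq : q ≤ 1) (hA : 0 < A) (hA' : 0 < A') {D κ : ℝ}
    (hD1 : 1 ≤ D) (hD : M * w1 * w2 ^ (1 + q) ≤ D * A) (hD' : M * w1 * w2 ^ (1 + q) ≤ D * A')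
    (hκ : 0 < κ) (hκ1 : κ ≤ 1) :
    ∑ t ∈ S with (36864 * D ^ 2 / ((1 - 2 ^ (-q)) * κ)) ^ (1 / q) * (w1 / w2)
        ≤ |cr (e (f t)) (e' (g t))|, m t ≤ κ * ∑ t ∈ S, m t := by
  have hw2 : 0 < w2 := hw1.trans_le hw12
  have hr : (2 : ℝ) ^ (-q) < 1 := Real.rpow_lt_one_of_one_lt_of_neg (by norm_num) (by linarith)
  have hr0 : 0 < (2 : ℝ) ^ (-q) := by positivity
  have hr1 : 0 < 1 - (2 : ℝ) ^ (-q) := by linarith
  set X : ℝ := 36864 * D ^ 2 / ((1 - 2 ^ (-q)) * κ) with hX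
  have hX1 : 1 ≤ X := by
    rw [hX, le_div_iff₀ (by positivity)]
    have : (1 - (2 : ℝ) ^ (-q)) * κ ≤ 1 := by nlinarith
    nlinarith [one_le_pow₀ hD1 (n := 2)]
  have hX0 : 0 < X := by linarith
  set θ : ℝ := X ^ (1 / q) * (w1 / w2) with hθdef
  have hXq : 1 ≤ X ^ (1 / q) := Real.one_le_rpow hX1 (by positivity)
  have hθw : θ * w2 = X ^ (1 / q) * w1 := by rw [hθdef]; field_simp
  have hθ : w1 ≤ θ * w2 := by rw [hθw]; nlinarith
  have hsum : 0 ≤ ∑ t ∈ S, m t := sum_nonneg hm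
  refine (tilt_step h h' hm hM hM0 hw1 hw12 hq0 hq hA hA' hθ).trans ?_
  refine mul_le_mul_of_nonneg_right ?_ hsum
  have e1 : (w1 / (θ * w2)) ^ q = X⁻¹ := by
    rw [hθw]
    have : w1 / (X ^ (1 / q) * w1) = (X ^ (1 / q))⁻¹ := by field_simp
    rw [this, Real.inv_rpow (by positivity), ← Real.rpow_mul hX0.le,
      one_div_mul_cancel hq0.ne', Real.rpow_one]
  rw [e1]
  have hMw : 0 ≤ M * w1 * w2 ^ (1 + q) := by positivity
  have h4 : (M * w1 * w2 ^ (1 + q)) ^ 2 / (A * A') ≤ D ^ 2 := by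
    rw [div_le_iff₀ (by positivity)]
    calc (M * w1 * w2 ^ (1 + q)) ^ 2
        = (M * w1 * w2 ^ (1 + q)) * (M * w1 * w2 ^ (1 + q)) := by ring
      _ ≤ (D * A) * (D * A') := mul_le_mul hD hD' hMw (by positivity)
      _ = D ^ 2 * (A * A') := by ring
  have h5 : 36864 * (M * w1 * w2 ^ (1 + q)) ^ 2 / (A * A') / (1 - 2 ^ (-q)) * X⁻¹
      = 36864 * ((M * w1 * w2 ^ (1 + q)) ^ 2 / (A * A')) / (1 - 2 ^ (-q)) * X⁻¹ := by ring
  rw [h5]
  have h6 : 36864 * ((M * w1 * w2 ^ (1 + q)) ^ 2 / (A * A')) / (1 - 2 ^ (-q)) * X⁻¹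
      ≤ 36864 * D ^ 2 / (1 - 2 ^ (-q)) * X⁻¹ := by
    refine mul_le_mul_of_nonneg_right ?_ (by positivity)
    exact div_le_div_of_nonneg_right (by linarith) hr1.le
  refine h6.trans (le_of_eq ?_)
  rw [hX]
  have : D ≠ 0 := by linarith
  field_simp

/-! ### chain of levels -/

open Classical in
/-- **CHAIN**: `J` steps, one incidence set `S` (deep incidences), planes `e i t` of the plank of
level `i` at the incidence `t`; if each step is bad on mass at most `κ`, then outside mass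
`J κ` the first and the last plane make an angle at most `J θ` (`θ` = the largest one-step
angle): the one-step losses enter the maximum, they do not accumulate. -/
theorem tilt_chain (hm : ∀ t ∈ S, 0 ≤ m t) (e : ℕ → ι → E2) (h1 : ∀ i, ∀ t ∈ S, dt (e i t) (e i t) = 1)
    (J : ℕ) {θ κ : ℝ} (hstep : ∀ i < J,
      ∑ t ∈ S with θ < |cr (e i t) (e (i + 1) t)|, m t ≤ κ) :
    ∑ t ∈ S with J * θ < |cr (e 0 t) (e J t)|, m t ≤ J * κ := by
  have hsub : (S.filter fun t => J * θ < |cr (e 0 t) (e J t)|) ⊆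
      (range J).biUnion fun i => S.filter fun t => θ < |cr (e i t) (e (i + 1) t)| := by
    intro t ht
    rw [mem_filter] at ht
    by_contra hcon
    simp only [mem_biUnion, mem_range, mem_filter, not_exists, not_and, not_lt] at hcon
    have key : |cr (e 0 t) (e J t)| ≤ J * θ := by
      -- replace the vectors outside by unit vectors: they are all unit on `S`
      exact cr_chain_le (fun i => e i t) (fun i => h1 i t ht.1) J
        (fun i hi => hcon i hi ht.1)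
    exact absurd ht.2 (not_lt.2 key)
  refine (sum_le_sum_of_subset_of_nonneg hsub ?_).trans ?_
  · intro t ht _
    rw [mem_biUnion] at ht
    obtain ⟨i, _, hi⟩ := ht
    exact hm t (mem_filter.1 hi).1
  refine (sum_biUnion_le' (range J) _ m ?_).trans ?_
  · intro i _ t ht
    exact hm t (mem_filter.1 ht).1
  calc ∑ i ∈ range J, ∑ t ∈ S with θ < |cr (e i t) (e (i + 1) t)|, m t
      ≤ ∑ i ∈ range J, κ := sum_le_sum fun i hi => hstep i (mem_range.1 hi)
    _ = J * κ := by rw [sum_const, card_range, nsmul_eq_mul]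

end

end Crest.Agent.R138.Tilt345
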