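import Crest.Agent.R138.StepSk1_639

/-!
# R138 wave side: the tails of one slab step are negligible (helper101)
-/

set_option autoImplicit false

open MeasureTheory FourierTransform
open scoped ContDiff ENNReal

namespace Crest.Agent.R138.Tl101

open Crest.Agent.R138.Defs Crest.Agent.R138.Bil882 Crest.Agent.R138.W188
open Crest.Agent.R138.Wpk685 Crest.Agent.R138.W323 Crest.Agent.R138.P654 Crest.Agent.R138.Ad480
open Crest.Agent.R138.GR639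

/-- real form. -/
theorem real_le {e M0 T C R D r1 E F : ℝ} {M : ℕ} (hC : 0 ≤ C) (hR : 1 ≤ R)
    (h1 : 1 ≤ r1) (h1R : r1 ≤ R) (hE : 0 ≤ E)
    (hF : F ≤ 216 * (R / r1) ^ 3)
    (hnd : E ≤ R ^ M0 * D) (hM : 23 + |M0| + |T| ≤ e * M) :
    F * (C * r1 ^ (20 : ℕ) * ((R ^ e) ^ M)⁻¹ * E ^ (3/2 : ℝ)) ≤
      216 * C * R ^ (-T) * (R * E * Real.sqrt D) := by
  have hR0 : 0 < R := by linarith
  have hr0 : 0 < r1 := by linarith
  have a3 : F * r1 ^ (20 : ℕ) ≤ 216 * R ^ (20 : ℝ) := by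
    have hx : F * r1 ^ (20 : ℕ) ≤ 216 * (R / r1) ^ 3 * r1 ^ (20 : ℕ) := by gcongr
    refine hx.trans ?_
    rw [show (20:ℝ) = ((20:ℕ):ℝ) by norm_num, Real.rpow_natCast]
    have e1 : 216 * (R / r1) ^ 3 * r1 ^ 20 = 216 * (R ^ 3 * r1 ^ 17) := by
      field_simp
    rw [e1]
    have e2 : R ^ 20 = R ^ 3 * R ^ 17 := by ring
    rw [e2]
    gcongr
  have a5 : ((R ^ e) ^ M)⁻¹ = R ^ (-(e * M)) := by
    rw [← Real.rpow_natCast, ← Real.rpow_mul hR0.le, ← Real.rpow_neg hR0.le]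
  have a6 : E ^ (3/2 : ℝ) ≤ E * (R ^ (M0 / 2) * Real.sqrt D) := by
    have h5 : E ^ (3 / 2 : ℝ) = E * Real.sqrt E := by
      rw [show (3 / 2 : ℝ) = 1 + 1 / 2 by norm_num, Real.rpow_add_of_nonneg hE (by norm_num)
        (by norm_num), Real.rpow_one, Real.sqrt_eq_rpow]
    rw [h5]
    gcongr
    refine (Real.sqrt_le_sqrt hnd).trans ?_
    rw [Real.sqrt_mul (by positivity)]
    gcongr
    rw [Real.sqrt_eq_rpow, ← Real.rpow_mul hR0.le]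
    apply le_of_eq; congr 1; ring
  rw [a5]
  calc F * (C * r1 ^ (20 : ℕ) * R ^ (-(e * M)) * E ^ (3/2 : ℝ))
      = (F * r1 ^ (20 : ℕ)) * (C * R ^ (-(e * M)) * E ^ (3/2 : ℝ)) := by ring
    _ ≤ (216 * R ^ (20 : ℝ)) * (C * R ^ (-(e * M)) * (E * (R ^ (M0 / 2) * Real.sqrt D))) := by
        gcongr
    _ = 216 * C * ((R ^ (20 : ℝ) * R ^ (-(e * M)) * R ^ (M0 / 2)) * (E * Real.sqrt D)) := by ring
    _ ≤ 216 * C * (R ^ (1 - T) * (E * Real.sqrt D)) := by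
        rw [← Real.rpow_add hR0, ← Real.rpow_add hR0]
        gcongr
        have h1 := le_abs_self M0
        have h2 := abs_nonneg M0
        have h4 := le_abs_self T
        have h5 := abs_nonneg T
        linarith
    _ = _ := by
        rw [show 1 - T = -T + 1 by ring, Real.rpow_add hR0, Real.rpow_one]; ring

/-- a net of frames times the tail is negligible; `M` is chosen before the constant `C`. -/
theorem sk_card (e M0 T : ℝ) (he : 0 < e) : ∃ M : ℕ, ∀ C : ℝ, 0 ≤ C → ∃ C' : ℝ, 0 ≤ C' ∧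
    ∀ {B : ℕ → ℝ} {q : ℝ} {Na : ℕ} {σ : ℝ} {h : E2 → ℝ} {g : E2 → ℂ} {R D : ℝ},
      St B q Na M0 σ h g R D → ∀ r1 : ℝ, R ^ (1/2 : ℝ) ≤ r1 → r1 ≤ R →
      ∀ Z : Finset (E2 × ℝ), (∀ z ∈ Z, z ∈ cyl R) → (∀ z ∈ Z, ∀ z' ∈ Z, Sep r1 z z') →
      ∀ w : E2 × ℝ, (Z.card : ℝ≥0∞) * Tl C (R ^ e) M (tr h w g) r1 ≤
        ENNReal.ofReal (C' * R ^ (-T) * SS g R D) := by
  refine ⟨⌈(23 + |M0| + |T|) / e⌉₊, fun C hC => ⟨216 * C, by positivity, ?_⟩⟩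
  intro B q Na σ h g R D hSt r1 hr1 hr1R Z hZ hZs w
  have hR : 1 ≤ R := hSt.R1
  have h1 : 1 ≤ r1 := (Real.one_le_rpow hR (by norm_num)).trans hr1
  have hM : 23 + |M0| + |T| ≤ e * (⌈(23 + |M0| + |T|) / e⌉₊ : ℕ) := by
    have h1 : (23 + |M0| + |T|) / e ≤ (⌈(23 + |M0| + |T|) / e⌉₊ : ℕ) := Nat.le_ceil _
    rw [div_le_iff₀ he] at h1
    rw [mul_comm e]
    exact h1
  have hEn : 0 ≤ En g := integral_nonneg fun ξ => by positivity
  have hcard := card_net (by linarith) hr1R Z hZ hZs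
  have e3 : En (tr h w g) = En g := En_tr h w g
  have key := real_le (e := e) (M0 := M0) (T := T) (C := C) (R := R) (D := D) (r1 := r1)
    (E := En g) (F := Z.card) hC hR h1 hr1R hEn hcard hSt.nd hM
  unfold Tl
  rw [e3, ENNReal.ofReal_rpow_of_nonneg hEn (by norm_num), ← ENNReal.ofReal_mul (by positivity),
    ← ENNReal.ofReal_natCast, ← ENNReal.ofReal_mul (Nat.cast_nonneg _)]
  exact ENNReal.ofReal_le_ofReal key

/-- the same as a sum over the frames. -/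
theorem sum_tl (e M0 T : ℝ) (he : 0 < e) : ∃ M : ℕ, ∀ C : ℝ, 0 ≤ C → ∃ C' : ℝ, 0 ≤ C' ∧
    ∀ {B : ℕ → ℝ} {q : ℝ} {Na : ℕ} {σ : ℝ} {h : E2 → ℝ} {g : E2 → ℂ} {R D : ℝ},
      St B q Na M0 σ h g R D → ∀ r1 : ℝ, R ^ (1/2 : ℝ) ≤ r1 → r1 ≤ R →
      ∀ Z : Finset (E2 × ℝ), (∀ z ∈ Z, z ∈ cyl R) → (∀ z ∈ Z, ∀ z' ∈ Z, Sep r1 z z') →
      ∑ w ∈ Z, Tl C (R ^ e) M (tr h w g) r1 ≤ ENNReal.ofReal (C' * R ^ (-T) * SS g R D) := by
  obtain ⟨M, H⟩ := sk_card e M0 T he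
  refine ⟨M, fun C hC => ?_⟩
  obtain ⟨C', hC', H⟩ := H C hC
  refine ⟨C', hC', ?_⟩
  intro B q Na σ h g R D hSt r1 hr1 hr1R Z hZ hZs
  have h1 : ∀ w ∈ Z, Tl C (R ^ e) M (tr h w g) r1 = Tl C (R ^ e) M (tr h 0 g) r1 := fun w _ => by
    unfold Tl; rw [En_tr, En_tr]
  rw [Finset.sum_congr rfl h1, Finset.sum_const, nsmul_eq_mul]
  exact H hSt r1 hr1 hr1R Z hZ hZs 0

/-- the tail times the number of frames; `M` is chosen before the constant `C`. -/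
theorem tl_le (e M0 T : ℝ) (he : 0 < e) : ∃ M : ℕ, ∀ C : ℝ, 0 ≤ C → ∃ C' : ℝ, 0 ≤ C' ∧
    ∀ {B : ℕ → ℝ} {q : ℝ} {Na : ℕ} {σ : ℝ} {h : E2 → ℝ} {g : E2 → ℂ} {R D : ℝ},
      St B q Na M0 σ h g R D → ∀ r1 : ℝ, R ^ (1/2 : ℝ) ≤ r1 → r1 ≤ R →
      ∀ w : E2 × ℝ, (216 * ENNReal.ofReal ((R / r1) ^ 3)) * Tl C (R ^ e) M (tr h w g) r1 ≤
        ENNReal.ofReal (C' * R ^ (-T) * SS g R D) := by
  refine ⟨⌈(23 + |M0| + |T|) / e⌉₊, fun C hC => ⟨216 * C, by positivity, ?_⟩⟩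
  intro B q Na σ h g R D hSt r1 hr1 hr1R w
  have hR : 1 ≤ R := hSt.R1
  have h1 : 1 ≤ r1 := (Real.one_le_rpow hR (by norm_num)).trans hr1
  have hM : 23 + |M0| + |T| ≤ e * (⌈(23 + |M0| + |T|) / e⌉₊ : ℕ) := by
    have h1 : (23 + |M0| + |T|) / e ≤ (⌈(23 + |M0| + |T|) / e⌉₊ : ℕ) := Nat.le_ceil _
    rw [div_le_iff₀ he] at h1
    rw [mul_comm e]
    exact h1
  have hEn : 0 ≤ En g := integral_nonneg fun ξ => by positivity
  have e3 : En (tr h w g) = En g := En_tr h w g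
  have key := real_le (e := e) (M0 := M0) (T := T) (C := C) (R := R) (D := D) (r1 := r1)
    (E := En g) (F := 216 * (R / r1) ^ 3) hC hR h1 hr1R hEn le_rfl hSt.nd hM
  unfold Tl
  rw [e3, ENNReal.ofReal_rpow_of_nonneg hEn (by norm_num), ← ENNReal.ofReal_mul (by positivity),
    show (216 : ℝ≥0∞) = ENNReal.ofReal 216 by norm_num, ← ENNReal.ofReal_mul (by norm_num),
    ← ENNReal.ofReal_mul (by positivity)]
  exact ENNReal.ofReal_le_ofReal key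

end Crest.Agent.R138.Tl101
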