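import Crest.Agent.R138.Fin_665
import Crest.Agent.R138.Br2_134
import Crest.Agent.R138.Gr5_63
import Crest.Agent.R138.GrW3_294

/-!
# R138 / R139: top of the chain (helper630)

`S0189` and `S0190` from the local estimate `Defs.EBn`; `Tub70.KM32` from `GrW294.KMseq`.
-/

set_option autoImplicit false

open FourierTransform MeasureTheory
open scoped ENNReal

namespace Crest.Agent.R138.Top630

open Crest.Agent.R138

/-- **S0189** from `EBn`. -/
theorem s0189 (h : Defs.EBn) (p : ℝ≥0∞) (hp : 1 ≤ p)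
    (δ : ℝ) (hδ : max (3 * abs ((p⁻¹).toReal - 1 / 2) - 1 / 2) 0 < δ) :
    ∃ C : ℝ, ∀ f : SchwartzMap (EuclideanSpace ℝ (Fin 3)) ℂ,
      MeasureTheory.eLpNorm
          (𝓕⁻ (fun ξ : EuclideanSpace ℝ (Fin 3) => ((max (1 - ‖ξ‖ ^ 2) 0) ^ δ : ℝ) • 𝓕 (⇑f) ξ)) p
          MeasureTheory.volume ≤
        ENNReal.ofReal C * MeasureTheory.eLpNorm (⇑f) p MeasureTheory.volume :=
  Fq665.S0189_of_EBn h p hp δ hδ

/-- **S0190** from `EBn`. -/
theorem s0190 (h : Defs.EBn)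
    (S : Set (EuclideanSpace ℝ (Fin 3))) (hS : Crest.AnalysisR.Surface3.IsCompactCurvedSurface S)
    (p : ℝ) (hp : 3 < p) :
    ∃ C : ℝ, ∀ f : EuclideanSpace ℝ (Fin 3) → ℂ,
      MeasureTheory.eLpNorm (Crest.AnalysisR.Surface3.extension S f) (ENNReal.ofReal p)
          MeasureTheory.volume ≤
        ENNReal.ofReal C * MeasureTheory.eLpNorm f (ENNReal.ofReal p) (μHE[2].restrict S) :=
  Rs134.S0190_of_EBn h S hS p hp

/-- **KM32** from `KMseq`. -/
theorem km32 (h : GrW294.KMseq) (V : ℝ) : Tub70.KM32 V :=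
  Gr63.km32_of_gridW (GrW294.gridW_of_KMseq h) V

end Crest.Agent.R138.Top630
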