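import Crest.Agent.R138.Wpk2_685
import Crest.Agent.R138.F4_858
import Crest.Agent.R138.Bil6_882

/-!
# R138 / R139, wave side (helper323): trivial bounds of doc 1812

`NN` is bounded by `R (∫ |g|^2)^{3/2}`.
-/

set_option autoImplicit false

open MeasureTheory FourierTransform
open scoped ContDiff ENNReal

namespace Crest.Agent.R138.W323

open Crest.Agent.R138.Defs (E2 ee ext cyl ParB)
open Crest.Agent.R138.Bil882 (wt wt_pos measurable_wt)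

/-! ### the weight -/

theorem wt_le_prod {N : ℕ} (hN : 8 ≤ N) {w : ℝ} (hw : 0 < w) (x0 : E2) (t0 : ℝ) (p : E2 × ℝ) :
    wt N w x0 t0 p ≤ ((1 + ‖p.1 - x0‖ / w) ^ 4)⁻¹ * ((1 + |p.2 - t0| / w) ^ 4)⁻¹ := by
  unfold wt
  rw [← mul_inv]
  refine inv_anti₀ (by positivity) ?_
  rw [add_div]
  set a := ‖p.1 - x0‖ / w
  set b := |p.2 - t0| / w
  have ha : 0 ≤ a := by positivity
  have hb : 0 ≤ b := by positivity
  calc (1 + a) ^ 4 * (1 + b) ^ 4 = ((1 + a) * (1 + b)) ^ 4 := by ring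
    _ ≤ ((1 + (a + b)) ^ 2) ^ 4 := by gcongr; nlinarith [mul_nonneg ha hb]
    _ = (1 + (a + b)) ^ 8 := by ring
    _ ≤ (1 + (a + b)) ^ N := pow_le_pow_right₀ (by linarith) hN

section scale

variable {V : Type*} [NormedAddCommGroup V] [InnerProductSpace ℝ V] [FiniteDimensional ℝ V]
  [MeasurableSpace V] [BorelSpace V]

theorem lintegral_smul_sub (f : V → ℝ≥0∞) (z : V) {l : ℝ} (hl : 0 < l) :
    ∫⁻ x, f (l • (x - z)) =
      ENNReal.ofReal ((l ^ (Module.finrank ℝ V))⁻¹) * ∫⁻ y, f y := by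
  have h1 : ∫⁻ x, f (l • (x - z)) = ∫⁻ x, f (l • x) :=
    lintegral_sub_right_eq_self (fun x => f (l • x)) z
  rw [h1]
  have h2 : ∫⁻ z, f (l • z) = ∫⁻ y, f y ∂(Measure.map (fun z : V => l • z) volume) := by
    have he : MeasurableEmbedding (fun z : V => l • z) :=
      (Homeomorph.smulOfNeZero l hl.ne').measurableEmbedding
    rw [he.lintegral_map]
  rw [h2, Measure.map_addHaar_smul volume hl.ne', lintegral_smul_measure]
  congr 2
  rw [abs_of_pos (by positivity)]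

theorem exists_J4 (hd : Module.finrank ℝ V < 4) : ∃ C : ℝ, 0 < C ∧ ∀ (w : ℝ) (_ : 0 < w) (x0 : V),
    ∫⁻ x : V, ENNReal.ofReal (((1 + ‖x - x0‖ / w) ^ 4)⁻¹) ≤
      ENNReal.ofReal (C * w ^ (Module.finrank ℝ V)) := by
  have hfin : ∫⁻ x : V, ENNReal.ofReal (((1 + ‖x‖) ^ 4)⁻¹) < ⊤ := by
    have := finite_integral_one_add_norm (E := V) (μ := volume) (r := 4)
      (by exact_mod_cast hd)
    refine lt_of_le_of_lt (lintegral_mono fun x => ENNReal.ofReal_le_ofReal (le_of_eq ?_)) this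
    rw [Real.rpow_neg (by positivity)]
    norm_num
  set J := (∫⁻ x : V, ENNReal.ofReal (((1 + ‖x‖) ^ 4)⁻¹)).toReal with hJ
  have hJe : ∫⁻ x : V, ENNReal.ofReal (((1 + ‖x‖) ^ 4)⁻¹) = ENNReal.ofReal J :=
    (ENNReal.ofReal_toReal hfin.ne).symm
  refine ⟨J + 1, by positivity, fun w hw x0 => ?_⟩
  have hl : (0 : ℝ) < w⁻¹ := by positivity
  have e1 : ∫⁻ x : V, ENNReal.ofReal (((1 + ‖x - x0‖ / w) ^ 4)⁻¹) =
      ∫⁻ x : V, (fun y : V => ENNReal.ofReal (((1 + ‖y‖) ^ 4)⁻¹)) (w⁻¹ • (x - x0)) := by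
    refine lintegral_congr fun x => ?_
    simp only [norm_smul, norm_inv, Real.norm_eq_abs, abs_of_pos hw]
    rw [div_eq_inv_mul]
  rw [e1, lintegral_smul_sub (fun y : V => ENNReal.ofReal (((1 + ‖y‖) ^ 4)⁻¹)) x0 hl, hJe, ← ENNReal.ofReal_mul (by positivity)]
  refine ENNReal.ofReal_le_ofReal ?_
  have : ((w⁻¹) ^ (Module.finrank ℝ V))⁻¹ = w ^ (Module.finrank ℝ V) := by
    rw [inv_pow, inv_inv]
  rw [this, mul_comm]
  have hw' : 0 ≤ w ^ (Module.finrank ℝ V) := by positivity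
  nlinarith

end scale

theorem exists_J : ∃ C : ℝ, 0 < C ∧
    (∀ (w : ℝ) (_ : 0 < w) (x0 : E2),
      ∫⁻ x : E2, ENNReal.ofReal (((1 + ‖x - x0‖ / w) ^ 4)⁻¹) ≤ ENNReal.ofReal (C * w ^ 2)) ∧
    (∀ (w : ℝ) (_ : 0 < w) (t0 : ℝ),
      ∫⁻ t : ℝ, ENNReal.ofReal (((1 + |t - t0| / w) ^ 4)⁻¹) ≤ ENNReal.ofReal (C * w)) := by
  obtain ⟨C1, h1, H1⟩ := exists_J4 (V := E2) (by simp)
  obtain ⟨C2, h2, H2⟩ := exists_J4 (V := ℝ) (by simp)
  refine ⟨C1 + C2, by positivity, fun w hw x0 => ?_, fun w hw t0 => ?_⟩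
  · refine (H1 w hw x0).trans (ENNReal.ofReal_le_ofReal ?_)
    simp only [finrank_euclideanSpace, Fintype.card_fin]
    gcongr; linarith
  · have := H2 w hw t0
    simp only [Real.norm_eq_abs] at this
    refine this.trans (ENNReal.ofReal_le_ofReal ?_)
    simp only [Module.finrank_self, pow_one]
    gcongr; linarith

/-! ### the sup bound -/

theorem volume_ball_le : volume (Metric.closedBall (0 : E2) 1) ≤ 4 := by
  rw [EuclideanSpace.volume_closedBall_fin_two]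
  simp only [ENNReal.ofReal_one, one_pow, one_mul]
  rw [show (4 : ℝ≥0∞) = ENNReal.ofReal 4 by norm_num]
  exact (le_of_eq rfl).trans (ENNReal.ofReal_le_ofReal Real.pi_le_four)

theorem lintegral_enorm_sq_le {g : E2 → ℂ} (hg : Measurable g) (hs : ∀ ξ, 1 < ‖ξ‖ → g ξ = 0) :
    (∫⁻ ξ, ‖g ξ‖ₑ) ^ 2 ≤ 4 * ∫⁻ ξ, ‖g ξ‖ₑ ^ 2 := by
  set B := Metric.closedBall (0 : E2) 1
  have hB : MeasurableSet B := Metric.isClosed_closedBall.measurableSet
  have e1 : ∫⁻ ξ, ‖g ξ‖ₑ = ∫⁻ ξ in B, ‖g ξ‖ₑ := by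
    rw [← lintegral_indicator hB]
    refine lintegral_congr fun ξ => ?_
    by_cases h : ξ ∈ B
    · rw [Set.indicator_of_mem h]
    · rw [Set.indicator_of_notMem h, hs ξ (by simpa [B] using h), enorm_zero]
  have h1 : (∫⁻ ξ in B, ‖g ξ‖ₑ) ≤
      (∫⁻ ξ in B, ‖g ξ‖ₑ ^ 2) ^ (1 / 2 : ℝ) * (volume B) ^ (1 / 2 : ℝ) := by
    have := ENNReal.lintegral_mul_le_Lp_mul_Lq (volume.restrict B)
      (p := 2) (q := 2) (by constructor <;> norm_num)
      (f := fun ξ => ‖g ξ‖ₑ) (g := fun _ => 1) hg.enorm.aemeasurable aemeasurable_const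
    simpa using this
  rw [e1]
  calc (∫⁻ ξ in B, ‖g ξ‖ₑ) ^ 2
      ≤ ((∫⁻ ξ in B, ‖g ξ‖ₑ ^ 2) ^ (1 / 2 : ℝ) * (volume B) ^ (1 / 2 : ℝ)) ^ 2 := by gcongr
    _ = (∫⁻ ξ in B, ‖g ξ‖ₑ ^ 2) * volume B := by
        rw [mul_pow, ← ENNReal.rpow_natCast, ← ENNReal.rpow_natCast, ← ENNReal.rpow_mul,
          ← ENNReal.rpow_mul]
        norm_num
    _ ≤ (∫⁻ ξ, ‖g ξ‖ₑ ^ 2) * 4 := by
        gcongr
        · exact Measure.restrict_le_self
        · exact volume_ball_le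
    _ = 4 * ∫⁻ ξ, ‖g ξ‖ₑ ^ 2 := mul_comm _ _

theorem enorm_ext_le (h : E2 → ℝ) (g : E2 → ℂ) (x : E2) (t : ℝ) :
    ‖ext h g x t‖ₑ ≤ ∫⁻ ξ, ‖g ξ‖ₑ := by
  unfold ext
  refine (enorm_integral_le_lintegral_enorm _).trans (lintegral_mono fun ξ => ?_)
  rw [enorm_mul]
  have : ‖ee (inner ℝ x ξ + t * h ξ)‖ₑ = 1 := by
    rw [← ofReal_norm]
    have : ‖ee (inner ℝ x ξ + t * h ξ)‖ = 1 := by
      unfold ee; exact Complex.norm_exp_ofReal_mul_I _
    rw [this]; simp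
  rw [this, mul_one]

theorem enorm_ext_sq_le {h : E2 → ℝ} {g : E2 → ℂ} (hg : Measurable g)
    (hs : ∀ ξ, 1 < ‖ξ‖ → g ξ = 0) (x : E2) (t : ℝ) :
    ‖ext h g x t‖ₑ ^ 2 ≤ 4 * ∫⁻ ξ, ‖g ξ‖ₑ ^ 2 :=
  (pow_le_pow_left' (enorm_ext_le h g x t) 2).trans (lintegral_enorm_sq_le hg hs)

/-! ### the trivial bound for `NN` -/

/-- the averaged density at the ball `z`. -/
noncomputable def av (N : ℕ) (h : E2 → ℝ) (g : E2 → ℂ) (w : ℝ) (z : E2 × ℝ) : ℝ≥0∞ :=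
  ENNReal.ofReal (w⁻¹ ^ 3) * ∫⁻ p : E2 × ℝ, ‖ext h g p.1 p.2‖ₑ ^ 2 *
    ENNReal.ofReal (wt N w z.1 z.2 p)

theorem exists_lint_wt : ∃ C : ℝ, 0 < C ∧ ∀ (N : ℕ) (_ : 8 ≤ N) (w : ℝ) (_ : 0 < w) (z : E2 × ℝ),
    ∫⁻ p : E2 × ℝ, ENNReal.ofReal (wt N w z.1 z.2 p) ≤ ENNReal.ofReal (C * w ^ 3) := by
  obtain ⟨C, hC, H1, H2⟩ := exists_J
  refine ⟨C ^ 2, by positivity, fun N hN w hw z => ?_⟩
  have m1 : Measurable fun x : E2 => ENNReal.ofReal (((1 + ‖x - z.1‖ / w) ^ 4)⁻¹) := by fun_prop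
  have m2 : Measurable fun t : ℝ => ENNReal.ofReal (((1 + |t - z.2| / w) ^ 4)⁻¹) := by fun_prop
  calc ∫⁻ p : E2 × ℝ, ENNReal.ofReal (wt N w z.1 z.2 p)
      ≤ ∫⁻ p : E2 × ℝ, ENNReal.ofReal (((1 + ‖p.1 - z.1‖ / w) ^ 4)⁻¹) *
          ENNReal.ofReal (((1 + |p.2 - z.2| / w) ^ 4)⁻¹) := by
        refine lintegral_mono fun p => ?_
        rw [← ENNReal.ofReal_mul (by positivity)]
        exact ENNReal.ofReal_le_ofReal (wt_le_prod hN hw _ _ _)
    _ = (∫⁻ x : E2, ENNReal.ofReal (((1 + ‖x - z.1‖ / w) ^ 4)⁻¹)) *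
          ∫⁻ t : ℝ, ENNReal.ofReal (((1 + |t - z.2| / w) ^ 4)⁻¹) := by
        rw [Measure.volume_eq_prod, lintegral_prod_mul m1.aemeasurable m2.aemeasurable]
    _ ≤ ENNReal.ofReal (C * w ^ 2) * ENNReal.ofReal (C * w) := by
        gcongr
        · exact H1 w hw _
        · exact H2 w hw _
    _ = ENNReal.ofReal (C ^ 2 * w ^ 3) := by
        rw [← ENNReal.ofReal_mul (by positivity)]; congr 1; ring

theorem exists_av_le : ∃ C : ℝ, 0 < C ∧ ∀ (N : ℕ) (_ : 8 ≤ N) (h : E2 → ℝ) (g : E2 → ℂ)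
    (_ : Measurable g) (_ : ∀ ξ, 1 < ‖ξ‖ → g ξ = 0) (w : ℝ) (_ : 0 < w) (z : E2 × ℝ),
    av N h g w z ≤ ENNReal.ofReal C * ∫⁻ ξ, ‖g ξ‖ₑ ^ 2 := by
  obtain ⟨C, hC, H⟩ := exists_lint_wt
  refine ⟨4 * C, by positivity, fun N hN h g hg hs w hw z => ?_⟩
  unfold av
  calc ENNReal.ofReal (w⁻¹ ^ 3) * ∫⁻ p : E2 × ℝ, ‖ext h g p.1 p.2‖ₑ ^ 2 *
        ENNReal.ofReal (wt N w z.1 z.2 p)
      ≤ ENNReal.ofReal (w⁻¹ ^ 3) * ∫⁻ p : E2 × ℝ, (4 * ∫⁻ ξ, ‖g ξ‖ₑ ^ 2) *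
        ENNReal.ofReal (wt N w z.1 z.2 p) := by
        gcongr with p
        exact enorm_ext_sq_le hg hs _ _
    _ = ENNReal.ofReal (w⁻¹ ^ 3) * ((4 * ∫⁻ ξ, ‖g ξ‖ₑ ^ 2) *
          ∫⁻ p : E2 × ℝ, ENNReal.ofReal (wt N w z.1 z.2 p)) := by
        rw [lintegral_const_mul _ (measurable_wt N w z.1 z.2).ennreal_ofReal]
    _ ≤ ENNReal.ofReal (w⁻¹ ^ 3) * ((4 * ∫⁻ ξ, ‖g ξ‖ₑ ^ 2) * ENNReal.ofReal (C * w ^ 3)) := by
        gcongr
        exact H N hN w hw z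
    _ = ENNReal.ofReal (4 * C) * ∫⁻ ξ, ‖g ξ‖ₑ ^ 2 := by
        have e : ENNReal.ofReal (4 * C) =
            ENNReal.ofReal (w⁻¹ ^ 3) * (4 * ENNReal.ofReal (C * w ^ 3)) := by
          rw [show (4 : ℝ≥0∞) = ENNReal.ofReal 4 by norm_num,
            ← ENNReal.ofReal_mul (by positivity), ← ENNReal.ofReal_mul (by positivity)]
          congr 1; field_simp
        rw [e]; ring

/-- energy count. -/
theorem exists_lint_av_le : ∃ C : ℝ, 0 < C ∧ ∀ (N : ℕ) (_ : 8 ≤ N) (h : E2 → ℝ)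
    (_ : Continuous h) (g : E2 → ℂ)
    (_ : Measurable g) (_ : ∃ M : ℝ, ∀ ξ, ‖g ξ‖ ≤ M) (_ : ∀ ξ, 1 < ‖ξ‖ → g ξ = 0) (w R : ℝ)
    (_ : 0 < w) (_ : 0 ≤ R),
    ∫⁻ z in cyl R, av N h g w z ≤ ENNReal.ofReal (C * R) * ∫⁻ ξ, ‖g ξ‖ₑ ^ 2 := by
  obtain ⟨C, hC, H1, H2⟩ := exists_J
  refine ⟨2 * C ^ 2, by positivity, fun N hN h hh g hg hb hs w R hw hR => ?_⟩
  obtain ⟨M, hM⟩ := hb
  have hs' : ∀ ξ, ξ ∉ Metric.closedBall (0 : E2) 1 → g ξ = 0 := fun ξ hξ =>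
    hs ξ (by simpa using hξ)
  have hfin : volume (Metric.closedBall (0 : E2) 1) < ⊤ :=
    lt_of_le_of_lt volume_ball_le (by norm_num)
  have hLp : ∀ p : ℝ≥0∞, MemLp g p := fun p =>
    F4x858.memLp_of_bdd hg hM hfin Metric.isClosed_closedBall.measurableSet hs' p
  have h1 : Integrable g := memLp_one_iff_integrable.1 (hLp 1)
  have hF : Continuous fun p : E2 × ℝ => ext h g p.1 p.2 := F4x858.continuous_ext hh h1
  have hFm : Measurable fun p : E2 × ℝ => ‖ext h g p.1 p.2‖ₑ ^ 2 := (hF.measurable.enorm).pow_const 2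
  have hslice : ∀ t, ∫⁻ x, ‖ext h g x t‖ₑ ^ 2 = ∫⁻ ξ, ‖g ξ‖ₑ ^ 2 := F4x858.slice hh h1 (hLp 2)
  set E := ∫⁻ ξ, ‖g ξ‖ₑ ^ 2 with hE
  set q : ℝ → ℝ → ℝ≥0∞ := fun t0 t => ENNReal.ofReal (((1 + |t - t0| / w) ^ 4)⁻¹) with hq
  have hqm : Measurable (Function.uncurry q) := by
    simp only [hq, Function.uncurry_def]; fun_prop
  set S : Set (E2 × ℝ) := Set.univ ×ˢ Set.Icc (-R) R with hS
  have hcyl : cyl R ⊆ S := by
    intro z hz
    exact ⟨Set.mem_univ _, abs_le.1 hz.2⟩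
  have hwm : Measurable fun zp : (E2 × ℝ) × (E2 × ℝ) =>
      ENNReal.ofReal (wt N w zp.1.1 zp.1.2 zp.2) := by
    unfold wt; fun_prop
  calc ∫⁻ z in cyl R, av N h g w z
      ≤ ∫⁻ z in S, av N h g w z := lintegral_mono_set hcyl
    _ = ENNReal.ofReal (w⁻¹ ^ 3) * ∫⁻ z in S, ∫⁻ p : E2 × ℝ, ‖ext h g p.1 p.2‖ₑ ^ 2 *
          ENNReal.ofReal (wt N w z.1 z.2 p) := by
        unfold av
        rw [lintegral_const_mul']
        exact ENNReal.ofReal_ne_top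
    _ = ENNReal.ofReal (w⁻¹ ^ 3) * ∫⁻ p : E2 × ℝ, ∫⁻ z in S, ‖ext h g p.1 p.2‖ₑ ^ 2 *
          ENNReal.ofReal (wt N w z.1 z.2 p) := by
        congr 1
        refine lintegral_lintegral_swap ?_
        refine Measurable.aemeasurable ?_
        exact (hFm.comp measurable_snd).mul hwm
    _ = ENNReal.ofReal (w⁻¹ ^ 3) * ∫⁻ p : E2 × ℝ, ‖ext h g p.1 p.2‖ₑ ^ 2 * ∫⁻ z in S,
          ENNReal.ofReal (wt N w z.1 z.2 p) := by
        congr 1
        refine lintegral_congr fun p => ?_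
        rw [lintegral_const_mul']
        exact ENNReal.pow_ne_top enorm_ne_top
    _ ≤ ENNReal.ofReal (w⁻¹ ^ 3) * ∫⁻ p : E2 × ℝ, ‖ext h g p.1 p.2‖ₑ ^ 2 *
          (ENNReal.ofReal (C * w ^ 2) * ∫⁻ t0 in Set.Icc (-R) R, q t0 p.2) := by
        gcongr with p
        calc ∫⁻ z in S, ENNReal.ofReal (wt N w z.1 z.2 p)
            ≤ ∫⁻ z in S, ENNReal.ofReal (((1 + ‖z.1 - p.1‖ / w) ^ 4)⁻¹) * q z.2 p.2 := by
              refine lintegral_mono fun z => ?_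
              simp only [hq]
              rw [← ENNReal.ofReal_mul (by positivity), norm_sub_rev]
              exact ENNReal.ofReal_le_ofReal (wt_le_prod hN hw _ _ _)
          _ = (∫⁻ x : E2, ENNReal.ofReal (((1 + ‖x - p.1‖ / w) ^ 4)⁻¹)) *
                ∫⁻ t0 in Set.Icc (-R) R, q t0 p.2 := by
              rw [hS, Measure.volume_eq_prod, ← Measure.prod_restrict, Measure.restrict_univ]
              refine lintegral_prod_mul (f := fun x : E2 =>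
                ENNReal.ofReal (((1 + ‖x - p.1‖ / w) ^ 4)⁻¹)) (g := fun t0 => q t0 p.2) ?_ ?_
              · exact Measurable.aemeasurable (by fun_prop)
              · exact (hqm.comp (measurable_id.prodMk measurable_const)).aemeasurable
          _ ≤ _ := by
              gcongr
              exact H1 w hw _
    _ = ENNReal.ofReal (w⁻¹ ^ 3) * ∫⁻ t : ℝ, ∫⁻ x : E2, ‖ext h g x t‖ₑ ^ 2 *
          (ENNReal.ofReal (C * w ^ 2) * ∫⁻ t0 in Set.Icc (-R) R, q t0 t) := by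
        congr 1
        have hm : Measurable fun t : ℝ => ∫⁻ t0 in Set.Icc (-R) R, q t0 t :=
          Measurable.lintegral_prod_left hqm
        rw [Measure.volume_eq_prod]
        exact lintegral_prod_symm _ (hFm.mul (measurable_const.mul
          (hm.comp measurable_snd))).aemeasurable
    _ = ENNReal.ofReal (w⁻¹ ^ 3) * (E * (ENNReal.ofReal (C * w ^ 2) *
          ∫⁻ t : ℝ, ∫⁻ t0 in Set.Icc (-R) R, q t0 t)) := by
        congr 1
        have hm : Measurable fun t : ℝ => ∫⁻ t0 in Set.Icc (-R) R, q t0 t :=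
          Measurable.lintegral_prod_left hqm
        have : ∀ t : ℝ, ∫⁻ x : E2, ‖ext h g x t‖ₑ ^ 2 *
            (ENNReal.ofReal (C * w ^ 2) * ∫⁻ t0 in Set.Icc (-R) R, q t0 t) =
            E * (ENNReal.ofReal (C * w ^ 2) * ∫⁻ t0 in Set.Icc (-R) R, q t0 t) := by
          intro t
          rw [lintegral_mul_const, hslice]
          exact ((hF.comp (continuous_id.prodMk continuous_const)).measurable.enorm).pow_const 2
        simp_rw [this]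
        rw [lintegral_const_mul _ (hm.const_mul _), lintegral_const_mul _ hm]
    _ = ENNReal.ofReal (w⁻¹ ^ 3) * (E * (ENNReal.ofReal (C * w ^ 2) *
          ∫⁻ t0 in Set.Icc (-R) R, ∫⁻ t : ℝ, q t0 t)) := by
        congr 3
        refine lintegral_lintegral_swap ?_
        exact (hqm.comp measurable_swap).aemeasurable
    _ ≤ ENNReal.ofReal (w⁻¹ ^ 3) * (E * (ENNReal.ofReal (C * w ^ 2) *
          ∫⁻ t0 in Set.Icc (-R) R, ENNReal.ofReal (C * w))) := by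
        gcongr with t0
        exact H2 w hw t0
    _ = ENNReal.ofReal (2 * C ^ 2 * R) * E := by
        rw [lintegral_const, Measure.restrict_apply MeasurableSet.univ, Set.univ_inter,
          Real.volume_Icc]
        have e : ENNReal.ofReal (2 * C ^ 2 * R) = ENNReal.ofReal (w⁻¹ ^ 3) *
            (ENNReal.ofReal (C * w ^ 2) * (ENNReal.ofReal (C * w) *
              ENNReal.ofReal (R - -R))) := by
          rw [← ENNReal.ofReal_mul (by positivity), ← ENNReal.ofReal_mul (by positivity),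
            ← ENNReal.ofReal_mul (by positivity)]
          congr 1; field_simp; ring
        rw [e]; ring

/-- **(TRIV1)** without any hypothesis on densities. -/
theorem exists_triv1 : ∃ C : ℝ, 0 < C ∧ ∀ (N : ℕ) (_ : 8 ≤ N) (h : E2 → ℝ)
    (_ : Continuous h) (g : E2 → ℂ)
    (_ : Measurable g) (_ : ∃ M : ℝ, ∀ ξ, ‖g ξ‖ ≤ M) (_ : ∀ ξ, 1 < ‖ξ‖ → g ξ = 0) (w R : ℝ)
    (_ : 0 < w) (_ : 0 ≤ R),
    ∫⁻ z in cyl R, av N h g w z ^ (3 / 2 : ℝ) ≤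
      ENNReal.ofReal (C * R) * (∫⁻ ξ, ‖g ξ‖ₑ ^ 2) ^ (3 / 2 : ℝ) := by
  obtain ⟨C1, hC1, H1⟩ := exists_av_le
  obtain ⟨C2, hC2, H2⟩ := exists_lint_av_le
  refine ⟨C1 ^ (1 / 2 : ℝ) * C2, by positivity, fun N hN h hh g hg hb hs w R hw hR => ?_⟩
  set E := ∫⁻ ξ, ‖g ξ‖ₑ ^ 2 with hE
  calc ∫⁻ z in cyl R, av N h g w z ^ (3 / 2 : ℝ)
      ≤ ∫⁻ z in cyl R, (ENNReal.ofReal C1 * E) ^ (1 / 2 : ℝ) * av N h g w z := by
        refine lintegral_mono fun z => ?_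
        rw [show (3 / 2 : ℝ) = 1 / 2 + 1 by norm_num,
          ENNReal.rpow_add_of_nonneg _ _ (by norm_num) (by norm_num), ENNReal.rpow_one]
        gcongr
        exact H1 N hN h g hg hs w hw z
    _ = (ENNReal.ofReal C1 * E) ^ (1 / 2 : ℝ) * ∫⁻ z in cyl R, av N h g w z := by
        rw [lintegral_const_mul'']
        refine Measurable.aemeasurable ?_
        unfold av
        refine measurable_const.mul ?_
        refine Measurable.lintegral_prod_right' (f := fun zp : (E2 × ℝ) × (E2 × ℝ) =>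
          ‖ext h g zp.2.1 zp.2.2‖ₑ ^ 2 * ENNReal.ofReal (wt N w zp.1.1 zp.1.2 zp.2)) ?_
        obtain ⟨M, hM⟩ := hb
        have hs' : ∀ ξ, ξ ∉ Metric.closedBall (0 : E2) 1 → g ξ = 0 := fun ξ hξ =>
          hs ξ (by simpa using hξ)
        have hfin : volume (Metric.closedBall (0 : E2) 1) < ⊤ :=
          lt_of_le_of_lt volume_ball_le (by norm_num)
        have h1 : Integrable g := memLp_one_iff_integrable.1
          (F4x858.memLp_of_bdd hg hM hfin Metric.isClosed_closedBall.measurableSet hs' 1)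
        have hF : Continuous fun p : E2 × ℝ => ext h g p.1 p.2 := F4x858.continuous_ext hh h1
        refine ((hF.measurable.comp measurable_snd).enorm.pow_const 2).mul ?_
        unfold wt; fun_prop
    _ ≤ (ENNReal.ofReal C1 * E) ^ (1 / 2 : ℝ) * (ENNReal.ofReal (C2 * R) * E) := by
        gcongr
        exact H2 N hN h hh g hg hb hs w R hw hR
    _ = ENNReal.ofReal (C1 ^ (1 / 2 : ℝ) * C2 * R) * E ^ (3 / 2 : ℝ) := by
        rw [show (3 / 2 : ℝ) = 1 / 2 + 1 by norm_num,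
          ENNReal.rpow_add_of_nonneg _ _ (by norm_num) (by norm_num), ENNReal.rpow_one,
          ENNReal.mul_rpow_of_nonneg _ _ (by norm_num), mul_assoc (C1 ^ (1 / 2 : ℝ)),
          ENNReal.ofReal_mul (p := C1 ^ (1 / 2 : ℝ)) (by positivity),
          ENNReal.ofReal_rpow_of_pos hC1]
        ring

end Crest.Agent.R138.W323
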