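import Mathlib
import Crest.Agent.R138.Zoom_926

/-!
# R138, K2d: the transport lemma (integration of the a.e. window inequalities)

Pure real analysis.  `P (τ, t)` is Lipschitz on the triangle `0 ≤ τ, 0 ≤ t, τ + t ≤ T`; at almost
every point either (outside `B`) the derivative of `P` in the direction `(1, m' τ)` or (inside `B`)
the derivative in the direction `(1, 0)` is at most `G' τ`; `B` is closed under decreasing `τ`.
Then `P (T, 0) ≤ sup_t P (0, t) + G T - G 0`.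
-/

set_option autoImplicit false

open MeasureTheory Set Filter Topology
open scoped NNReal

namespace Crest.Agent.R138.Trp196

open Crest.Agent.R138.Ex926

/-- closed triangle -/
def Om (T : ℝ) : Set (ℝ × ℝ) := {x | 0 ≤ x.1 ∧ 0 ≤ x.2 ∧ x.1 + x.2 ≤ T}

/-- open triangle -/
def Oi (T : ℝ) : Set (ℝ × ℝ) := {x | 0 < x.1 ∧ 0 < x.2 ∧ x.1 + x.2 < T}

theorem isOpen_Oi (T : ℝ) : IsOpen (Oi T) := by
  have h1 : IsOpen {x : ℝ × ℝ | 0 < x.1} := isOpen_lt continuous_const continuous_fst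
  have h2 : IsOpen {x : ℝ × ℝ | 0 < x.2} := isOpen_lt continuous_const continuous_snd
  have h3 : IsOpen {x : ℝ × ℝ | x.1 + x.2 < T} :=
    isOpen_lt (continuous_fst.add continuous_snd) continuous_const
  have h : Oi T = {x : ℝ × ℝ | 0 < x.1} ∩ ({x : ℝ × ℝ | 0 < x.2} ∩ {x : ℝ × ℝ | x.1 + x.2 < T}) := by
    ext x; simp [Oi]
  rw [h]
  exact h1.inter (h2.inter h3)

theorem Oi_subset (T : ℝ) : Oi T ⊆ Om T := fun _ hx => ⟨hx.1.le, hx.2.1.le, hx.2.2.le⟩

theorem ae_shear {m : ℝ → ℝ} (hm : Measurable m) {R : ℝ × ℝ → Prop}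
    (h : ∀ᵐ x : ℝ × ℝ, R x) : ∀ᵐ c : ℝ, ∀ᵐ τ : ℝ, R (τ, m τ + c) := by
  have h1 : MeasurePreserving (fun p : ℝ × ℝ => (p.1, m p.1 + p.2))
      ((volume : Measure ℝ).prod (volume : Measure ℝ))
      ((volume : Measure ℝ).prod (volume : Measure ℝ)) := by
    refine MeasurePreserving.skew_product (MeasurePreserving.id volume)
      (g := fun a c => m a + c) ?_ ?_
    · exact (hm.comp measurable_fst).add measurable_snd
    · filter_upwards with a
      exact map_add_left_eq_self _ _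
  have h2 : MeasurePreserving (Prod.swap : ℝ × ℝ → ℝ × ℝ)
      ((volume : Measure ℝ).prod (volume : Measure ℝ))
      ((volume : Measure ℝ).prod (volume : Measure ℝ)) := Measure.measurePreserving_swap
  rw [Measure.volume_eq_prod] at h
  have h3 := (h1.comp h2).quasiMeasurePreserving.ae h
  exact Measure.ae_ae_of_ae_prod h3

/-- integration along a Lipschitz graph -/
theorem along {T : ℝ} {K KG Kq : ℝ≥0} {P : ℝ × ℝ → ℝ} (hP : LipschitzOnWith K P (Om T))
    {G q : ℝ → ℝ} (hG : LipschitzWith KG G) (hq : LipschitzWith Kq q) {a b : ℝ} (hab : a ≤ b)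
    (hin : ∀ τ ∈ Icc a b, (τ, q τ) ∈ Om T)
    (h : ∀ᵐ τ : ℝ, τ ∈ Ioo a b → DifferentiableAt ℝ q τ → DifferentiableAt ℝ G τ →
      DifferentiableAt ℝ P (τ, q τ) ∧ fderiv ℝ P (τ, q τ) (1, deriv q τ) ≤ deriv G τ) :
    P (b, q b) - P (a, q a) ≤ G b - G a := by
  have hf : LipschitzOnWith (K * max 1 Kq) (fun τ => P (τ, q τ)) (Icc a b) :=
    hP.comp (LipschitzWith.prodMk LipschitzWith.id hq).lipschitzOnWith hin
  refine sub_le_sub_of_ae_deriv_le (K := max (K * max 1 Kq) KG) (f := fun τ => P (τ, q τ)) hab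
    (hf.weaken (le_max_left _ _)) (hG.lipschitzOnWith.weaken (le_max_right _ _)) ?_
  filter_upwards [h, hq.ae_differentiableAt] with τ h1 hqd h2 h3 h4
  obtain ⟨h5, h6⟩ := h1 h2 hqd h4
  have h7 : HasDerivAt (fun τ : ℝ => (τ, q τ)) ((1 : ℝ), deriv q τ) τ :=
    (hasDerivAt_id τ).prodMk hqd.hasDerivAt
  have h8 : HasDerivAt (fun τ => P (τ, q τ)) (fderiv ℝ P (τ, q τ) (1, deriv q τ)) τ :=
    h5.hasFDerivAt.comp_hasDerivAt τ h7
  rw [h8.deriv]
  exact h6

/-- the pointwise statement -/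
def Q (T : ℝ) (P : ℝ × ℝ → ℝ) (G m : ℝ → ℝ) (B : Set (ℝ × ℝ)) (x : ℝ × ℝ) : Prop :=
  x ∈ Oi T → DifferentiableAt ℝ P x ∧ (DifferentiableAt ℝ G x.1 →
    (x ∉ B → DifferentiableAt ℝ m x.1 → fderiv ℝ P x (1, deriv m x.1) ≤ deriv G x.1) ∧
    (x ∈ B → fderiv ℝ P x (1, 0) ≤ deriv G x.1))

theorem core {T : ℝ} {K KG : ℝ≥0} {P : ℝ × ℝ → ℝ} (hP : LipschitzOnWith K P (Om T))
    {G m : ℝ → ℝ} (hG : LipschitzWith KG G) (hm : LipschitzWith 1 m)
    {B : Set (ℝ × ℝ)} (hB : ∀ τ τ' t : ℝ, 0 < τ' → τ' ≤ τ → (τ, t) ∈ B → (τ', t) ∈ B)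
    {M : ℝ} (h0 : ∀ t, 0 ≤ t → t ≤ T → P (0, t) ≤ M)
    {τ₁ c : ℝ} (hτ₁ : 0 ≤ τ₁) (hin : ∀ τ ∈ Icc 0 τ₁, 0 < m τ + c ∧ τ + (m τ + c) < T)
    (hp : ∀ᵐ τ : ℝ, Q T P G m B (τ, m τ + c))
    (hg : ∀ᵐ τ : ℝ, ∀ᵐ τ' : ℝ, Q T P G m B (τ', m τ + c)) :
    P (τ₁, m τ₁ + c) ≤ M + (G τ₁ - G 0) := by
  set q : ℝ → ℝ := fun τ => m τ + c with hqdef
  have hq : LipschitzWith 1 q := by
    intro x y
    simpa [hqdef, edist_add_right] using hm x y
  have hqin : ∀ τ ∈ Icc 0 τ₁, (τ, q τ) ∈ Om T := fun τ hτ =>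
    ⟨hτ.1, (hin τ hτ).1.le, (hin τ hτ).2.le⟩
  -- the part after the last good point of `B`
  have hA : ∀ a, 0 ≤ a → a ≤ τ₁ → (∀ᵐ τ : ℝ, τ ∈ Ioo a τ₁ → (τ, q τ) ∉ B) →
      P (τ₁, q τ₁) - P (a, q a) ≤ G τ₁ - G a := by
    intro a ha haτ hnB
    refine along hP hG hq haτ (fun τ hτ => hqin τ ⟨ha.trans hτ.1, hτ.2⟩) ?_
    filter_upwards [hp, hnB] with τ h1 h2 h3 h4 h5
    have hI : τ ∈ Icc 0 τ₁ := ⟨ha.trans h3.1.le, h3.2.le⟩
    obtain ⟨h6, h7⟩ := h1 ⟨lt_of_le_of_lt ha h3.1, (hin τ hI).1, (hin τ hI).2⟩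
    refine ⟨h6, ?_⟩
    have hmd : DifferentiableAt ℝ m τ := by
      have := h4.sub_const c
      simpa [hqdef] using this
    have hd : deriv q τ = deriv m τ := by
      simp [hqdef]
    rw [hd]
    exact (h7 h5).1 (h2 h3) hmd
  set S : Set ℝ := {τ | τ ∈ Icc 0 τ₁ ∧ (τ, q τ) ∈ B ∧ ∀ᵐ τ' : ℝ, Q T P G m B (τ', q τ)} with hS
  -- points of `S`
  have hSP : ∀ τ ∈ S, P (τ, q τ) ≤ M + (G τ - G 0) := by
    intro τ hτ
    obtain ⟨h1, h2, h3⟩ := hτ
    have h4 : P (τ, q τ) - P (0, q τ) ≤ G τ - G 0 := by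
      refine along hP hG (q := fun _ => q τ) (LipschitzWith.const (q τ)) h1.1 ?_ ?_
      · intro τ' hτ'
        exact ⟨hτ'.1, (hin τ h1).1.le, by
          have := (hin τ h1).2
          have := hτ'.2
          simp only
          linarith⟩
      · filter_upwards [h3] with τ' h5 h6 _ h8
        have h9 : (τ', q τ) ∈ Oi T := ⟨h6.1, (hin τ h1).1, by
          have := (hin τ h1).2
          have := h6.2
          simp only
          linarith⟩
        obtain ⟨h10, h11⟩ := h5 h9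
        refine ⟨h10, ?_⟩
        have h12 : deriv (fun _ : ℝ => q τ) τ' = 0 := by simp
        rw [h12]
        exact (h11 h8).2 (hB τ τ' (q τ) h6.1 h6.2.le h2)
    have h5 : P (0, q τ) ≤ M := h0 _ (hin τ h1).1.le (by
      have := (hin τ h1).2
      have := h1.1
      linarith)
    linarith
  by_cases hne : S.Nonempty
  · have hbdd : BddAbove S := ⟨τ₁, fun τ hτ => hτ.1.2⟩
    set a := sSup S with ha
    have ha1 : a ≤ τ₁ := csSup_le hne fun τ hτ => hτ.1.2
    have ha0 : 0 ≤ a := by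
      obtain ⟨τ, hτ⟩ := hne
      exact hτ.1.1.trans (le_csSup hbdd hτ)
    -- the inequality at `a` by continuity
    have hcont : ContinuousOn (fun τ => P (τ, q τ)) (Icc 0 τ₁) :=
      (hP.comp (LipschitzWith.prodMk LipschitzWith.id hq).lipschitzOnWith hqin).continuousOn
    have haS : P (a, q a) ≤ M + (G a - G 0) := by
      have hcl : a ∈ closure S := csSup_mem_closure hne hbdd
      have hSsub : S ⊆ Icc 0 τ₁ := fun τ hτ => hτ.1
      have haI : a ∈ Icc 0 τ₁ := ⟨ha0, ha1⟩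
      have hc1 : Tendsto (fun τ => P (τ, q τ)) (𝓝[S] a) (𝓝 (P (a, q a))) :=
        (hcont a haI).mono_left (nhdsWithin_mono a hSsub)
      have hc2 : Tendsto (fun τ => M + (G τ - G 0)) (𝓝[S] a) (𝓝 (M + (G a - G 0))) := by
        have : Continuous fun τ => M + (G τ - G 0) :=
          continuous_const.add (hG.continuous.sub continuous_const)
        exact this.continuousAt.continuousWithinAt
      have : (𝓝[S] a).NeBot := mem_closure_iff_nhdsWithin_neBot.1 hcl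
      refine le_of_tendsto_of_tendsto hc1 hc2 ?_
      filter_upwards [self_mem_nhdsWithin] with τ hτ using hSP τ hτ
    have h1 := hA a ha0 ha1 (by
      filter_upwards [hg] with τ h2 h3 h4
      have h5 : τ ∈ S := ⟨⟨ha0.trans h3.1.le, h3.2.le⟩, h4, h2⟩
      exact absurd (le_csSup hbdd h5) (not_le.2 h3.1))
    linarith
  · have h1 := hA 0 le_rfl hτ₁ (by
      filter_upwards [hg] with τ h2 h3 h4
      exact hne ⟨τ, ⟨h3.1.le, h3.2.le⟩, h4, h2⟩)
    have h2 : P (0, q 0) ≤ M := by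
      have h3 := hin 0 ⟨le_rfl, hτ₁⟩
      exact h0 _ h3.1.le (by linarith [h3.2])
    linarith

/-- **Transport lemma** (K2d). -/
theorem transport {T : ℝ} (hT : 0 ≤ T) {K KG : ℝ≥0} {P : ℝ × ℝ → ℝ}
    (hP : LipschitzOnWith K P (Om T)) {G m : ℝ → ℝ} (hG : LipschitzWith KG G)
    (hm : LipschitzWith 1 m) (hanti : Antitone m) (hmT : m T = 0)
    (B : Set (ℝ × ℝ)) (hB : ∀ τ τ' t : ℝ, 0 < τ' → τ' ≤ τ → (τ, t) ∈ B → (τ', t) ∈ B)
    (h : ∀ᵐ x : ℝ × ℝ, x ∈ Oi T → DifferentiableAt ℝ P x → DifferentiableAt ℝ G x.1 →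
      (x ∉ B → DifferentiableAt ℝ m x.1 → fderiv ℝ P x (1, deriv m x.1) ≤ deriv G x.1) ∧
      (x ∈ B → fderiv ℝ P x (1, 0) ≤ deriv G x.1))
    {M : ℝ} (h0 : ∀ t, 0 ≤ t → t ≤ T → P (0, t) ≤ M) :
    P (T, 0) ≤ M + (G T - G 0) := by
  -- the full pointwise statement a.e.
  have hQ : ∀ᵐ x : ℝ × ℝ, Q T P G m B x := by
    have hr := (hP.mono (Oi_subset T)).ae_differentiableWithinAt_of_mem (μ := volume)
    filter_upwards [h, hr] with x h1 h2 h3
    have h4 : DifferentiableAt ℝ P x := (h2 h3).differentiableAt ((isOpen_Oi T).mem_nhds h3)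
    exact ⟨h4, h1 h3 h4⟩
  have hp : ∀ᵐ c : ℝ, ∀ᵐ τ : ℝ, Q T P G m B (τ, m τ + c) :=
    ae_shear hm.continuous.measurable hQ
  have hg0 : ∀ᵐ t : ℝ, ∀ᵐ τ' : ℝ, Q T P G m B (τ', t) := by
    have := ae_shear (m := fun _ => 0) measurable_const hQ
    simpa using this
  have hg : ∀ᵐ c : ℝ, ∀ᵐ τ : ℝ, ∀ᵐ τ' : ℝ, Q T P G m B (τ', m τ + c) := by
    have h1 : ∀ᵐ x : ℝ × ℝ, ∀ᵐ τ' : ℝ, Q T P G m B (τ', x.2) := by
      rw [Measure.volume_eq_prod]
      exact Measure.quasiMeasurePreserving_snd.ae hg0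
    exact ae_shear (m := m) hm.continuous.measurable h1
  -- the inequality on the path at every `τ₁ < T`
  have hpath : ∀ τ₁, 0 ≤ τ₁ → τ₁ < T → P (τ₁, m τ₁) ≤ M + (G τ₁ - G 0) := by
    intro τ₁ h1 h2
    have hlip : ∀ τ τ' : ℝ, τ ≤ τ' → m τ - m τ' ≤ τ' - τ := by
      intro τ τ' hτ
      have := hm.dist_le_mul τ τ'
      rw [Real.dist_eq, Real.dist_eq] at this
      simp only [NNReal.coe_one, one_mul] at this
      have h3 : |τ - τ'| = τ' - τ := by rw [abs_sub_comm, abs_of_nonneg (by linarith)]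
      rw [h3] at this
      exact (le_abs_self _).trans this
    -- admissible shifts
    obtain ⟨J, hJo, hJ0, hJ⟩ : ∃ J : Set ℝ, IsOpen J ∧ (0 : ℝ) ∈ closure J ∧ ∀ c ∈ J,
        ∀ τ ∈ Icc 0 τ₁, 0 < m τ + c ∧ τ + (m τ + c) < T := by
      have hmn : 0 ≤ m τ₁ := by rw [← hmT]; exact hanti h2.le
      have hD : τ₁ + m τ₁ ≤ T := by
        have := hlip τ₁ T h2.le
        rw [hmT] at this
        linarith
      rcases lt_or_eq_of_le hmn with h3 | h3
      · refine ⟨Ioo (- m τ₁) 0, isOpen_Ioo, ?_, ?_⟩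
        · rw [closure_Ioo (by linarith)]
          exact ⟨by linarith, le_rfl⟩
        · intro c hc τ hτ
          have h4 : m τ₁ ≤ m τ := hanti hτ.2
          have h5 := hlip τ τ₁ hτ.2
          constructor
          · linarith [hc.1]
          · linarith [hc.2]
      · refine ⟨Ioo 0 (T - τ₁), isOpen_Ioo, ?_, ?_⟩
        · rw [closure_Ioo (by linarith)]
          exact ⟨le_rfl, by linarith⟩
        · intro c hc τ hτ
          have h4 : m τ₁ ≤ m τ := hanti hτ.2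
          have h5 := hlip τ τ₁ hτ.2
          constructor
          · linarith [hc.1]
          · linarith [hc.2]
    -- the inequality for almost all shifts, then for all by continuity
    have hae : ∀ᵐ c : ℝ, c ∈ J → P (τ₁, m τ₁ + c) ≤ M + (G τ₁ - G 0) := by
      filter_upwards [hp, hg] with c h3 h4 h5
      exact core hP hG hm hB h0 h1 (hJ c h5) h3 h4
    set A : Set ℝ := {c | c ∈ J ∧ P (τ₁, m τ₁ + c) ≤ M + (G τ₁ - G 0)} with hA
    have hdense : (0 : ℝ) ∈ closure A := by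
      have hd : Dense {c : ℝ | c ∈ J → P (τ₁, m τ₁ + c) ≤ M + (G τ₁ - G 0)} :=
        Measure.dense_of_ae hae
      have h3 : J ⊆ closure A := by
        intro c hc
        rw [mem_closure_iff]
        intro o ho hco
        obtain ⟨c', hc'1, hc'2⟩ := hd.inter_open_nonempty (o ∩ J) (ho.inter hJo) ⟨c, hco, hc⟩
        exact ⟨c', hc'1.1, hc'1.2, hc'2 hc'1.2⟩
      exact closure_minimal h3 isClosed_closure hJ0
    have : (𝓝[A] (0 : ℝ)).NeBot := mem_closure_iff_nhdsWithin_neBot.1 hdense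
    have hcont : Tendsto (fun c => P (τ₁, m τ₁ + c)) (𝓝[A] 0) (𝓝 (P (τ₁, m τ₁))) := by
      have h3 : ContinuousOn P (Om T) := hP.continuousOn
      have hmem : (τ₁, m τ₁) ∈ Om T := by
        refine ⟨h1, ?_, ?_⟩
        · simp only
          rw [← hmT]; exact hanti h2.le
        · have := hlip τ₁ T h2.le
          rw [hmT] at this
          simp only
          linarith
      have h4 : Tendsto (fun c : ℝ => (τ₁, m τ₁ + c)) (𝓝[A] 0) (𝓝[Om T] (τ₁, m τ₁)) := by
        refine tendsto_nhdsWithin_iff.2 ⟨?_, ?_⟩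
        · have h5 : Continuous fun c : ℝ => (τ₁, m τ₁ + c) := by fun_prop
          have h6 := h5.tendsto 0
          simp only [add_zero] at h6
          exact h6.mono_left nhdsWithin_le_nhds
        · filter_upwards [self_mem_nhdsWithin] with c hc
          have h5 := hJ c hc.1 τ₁ ⟨h1, le_rfl⟩
          exact ⟨h1, h5.1.le, h5.2.le⟩
      exact (h3 _ hmem).tendsto.comp h4
    refine le_of_tendsto hcont ?_
    filter_upwards [self_mem_nhdsWithin] with c hc using hc.2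
  -- let `τ₁ → T`
  rcases lt_or_eq_of_le hT with hT0 | hT0
  · have hcont : Tendsto (fun τ => P (τ, m τ)) (𝓝[<] T) (𝓝 (P (T, m T))) := by
      have h3 : ContinuousOn P (Om T) := hP.continuousOn
      have hmem : (T, m T) ∈ Om T := ⟨hT, by simp only; rw [hmT], by simp only; rw [hmT]; linarith⟩
      have h4 : Tendsto (fun τ : ℝ => (τ, m τ)) (𝓝[<] T) (𝓝[Om T] (T, m T)) := by
        refine tendsto_nhdsWithin_iff.2 ⟨?_, ?_⟩
        · have h5 : Continuous fun τ : ℝ => (τ, m τ) := continuous_id.prodMk hm.continuous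
          exact (h5.tendsto T).mono_left nhdsWithin_le_nhds
        · have h6 : ∀ᶠ τ in 𝓝[<] T, τ ∈ Ioo 0 T := Ioo_mem_nhdsLT hT0
          filter_upwards [h6] with τ hτ
          have hlip := hm.dist_le_mul τ T
          rw [Real.dist_eq, Real.dist_eq, hmT] at hlip
          simp only [NNReal.coe_one, one_mul, sub_zero] at hlip
          have h7 : |τ - T| = T - τ := by rw [abs_sub_comm, abs_of_nonneg (by linarith [hτ.2])]
          rw [h7] at hlip
          refine ⟨hτ.1.le, ?_, ?_⟩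
          · simp only
            rw [← hmT]; exact hanti hτ.2.le
          · simp only
            linarith [le_abs_self (m τ)]
      exact (h3 _ hmem).tendsto.comp h4
    rw [hmT] at hcont
    have hc2 : Tendsto (fun τ => M + (G τ - G 0)) (𝓝[<] T) (𝓝 (M + (G T - G 0))) := by
      have : Continuous fun τ => M + (G τ - G 0) :=
        continuous_const.add (hG.continuous.sub continuous_const)
      exact this.continuousAt.continuousWithinAt
    refine le_of_tendsto_of_tendsto hcont hc2 ?_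
    filter_upwards [Ioo_mem_nhdsLT hT0] with τ hτ using hpath τ hτ.1.le hτ.2
  · rw [← hT0]
    simpa using h0 0 le_rfl (by rw [← hT0])

/-- the backward path with slope `μ` -/
noncomputable def path (μ : ℝ → ℝ) (T τ : ℝ) : ℝ := ∫ s in τ..T, μ s

section path

variable {μ : ℝ → ℝ} {T : ℝ}

theorem intervalIntegrable_mu (hμ : Measurable μ) (h0 : ∀ s, 0 ≤ μ s) (h1 : ∀ s, μ s ≤ 1)
    (a b : ℝ) : IntervalIntegrable μ volume a b := by
  refine (intervalIntegrable_const (c := (1 : ℝ))).mono_fun hμ.aestronglyMeasurable ?_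
  filter_upwards with s
  rw [Real.norm_of_nonneg (h0 s), norm_one]
  exact h1 s

theorem path_sub (hμ : Measurable μ) (h0 : ∀ s, 0 ≤ μ s) (h1 : ∀ s, μ s ≤ 1) (a b : ℝ) :
    path μ T a - path μ T b = ∫ s in a..b, μ s := by
  unfold path
  rw [intervalIntegral.integral_interval_sub_interval_comm
    (intervalIntegrable_mu hμ h0 h1 _ _) (intervalIntegrable_mu hμ h0 h1 _ _)
    (intervalIntegrable_mu hμ h0 h1 _ _)]
  simp

theorem path_nonneg_sub (hμ : Measurable μ) (h0 : ∀ s, 0 ≤ μ s) (h1 : ∀ s, μ s ≤ 1) {a b : ℝ}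
    (hab : a ≤ b) : 0 ≤ path μ T a - path μ T b ∧ path μ T a - path μ T b ≤ b - a := by
  rw [path_sub hμ h0 h1]
  constructor
  · exact intervalIntegral.integral_nonneg hab fun s _ => h0 s
  · have h := intervalIntegral.integral_mono_on hab (intervalIntegrable_mu hμ h0 h1 a b)
      (intervalIntegrable_const (c := (1 : ℝ))) (fun s _ => h1 s)
    simpa using h

theorem path_antitone (hμ : Measurable μ) (h0 : ∀ s, 0 ≤ μ s) (h1 : ∀ s, μ s ≤ 1) :
    Antitone (path μ T) := fun _ _ hab => by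
  have := (path_nonneg_sub (T := T) hμ h0 h1 hab).1
  linarith

theorem path_lipschitz (hμ : Measurable μ) (h0 : ∀ s, 0 ≤ μ s) (h1 : ∀ s, μ s ≤ 1) :
    LipschitzWith 1 (path μ T) := by
  refine LipschitzWith.of_dist_le_mul fun a b => ?_
  rw [NNReal.coe_one, one_mul, Real.dist_eq, Real.dist_eq]
  rcases le_total a b with hab | hab
  · have := path_nonneg_sub (T := T) hμ h0 h1 hab
    rw [abs_of_nonneg this.1, abs_sub_comm, abs_of_nonneg (by linarith)]
    exact this.2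
  · have := path_nonneg_sub (T := T) hμ h0 h1 hab
    rw [abs_sub_comm, abs_of_nonneg this.1, abs_of_nonneg (by linarith)]
    exact this.2

theorem path_end : path μ T T = 0 := by simp [path]

theorem path_ae_deriv (hμ : Measurable μ) (h0 : ∀ s, 0 ≤ μ s) (h1 : ∀ s, μ s ≤ 1) :
    ∀ᵐ τ : ℝ, deriv (path μ T) τ = - μ τ := by
  have hli : LocallyIntegrable μ volume := by
    refine (locallyIntegrable_const (1 : ℝ)).mono hμ.aestronglyMeasurable ?_
    filter_upwards with s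
    rw [Real.norm_of_nonneg (h0 s), norm_one]
    exact h1 s
  filter_upwards [_root_.LocallyIntegrable.ae_hasDerivAt_integral hli] with τ hτ
  have h2 : HasDerivAt (fun x => ∫ s in T..x, μ s) (μ τ) τ := hτ T
  have h3 : path μ T = fun x => - ∫ s in T..x, μ s := by
    funext x
    rw [path, intervalIntegral.integral_symm]
  rw [h3]
  exact h2.neg.deriv

/-- **Transport lemma, with the slope `μ` given.** -/
theorem transport_mu (hT : 0 ≤ T) {K KG : ℝ≥0} {P : ℝ × ℝ → ℝ}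
    (hP : LipschitzOnWith K P (Om T)) {G : ℝ → ℝ} (hG : LipschitzWith KG G)
    (hμ : Measurable μ) (h0 : ∀ s, 0 ≤ μ s) (h1 : ∀ s, μ s ≤ 1)
    (B : Set (ℝ × ℝ)) (hB : ∀ τ τ' t : ℝ, 0 < τ' → τ' ≤ τ → (τ, t) ∈ B → (τ', t) ∈ B)
    (h : ∀ᵐ x : ℝ × ℝ, x ∈ Oi T → DifferentiableAt ℝ P x → DifferentiableAt ℝ G x.1 →
      (x ∉ B → fderiv ℝ P x (1, 0) - μ x.1 * fderiv ℝ P x (0, 1) ≤ deriv G x.1) ∧
      (x ∈ B → fderiv ℝ P x (1, 0) ≤ deriv G x.1))
    {M : ℝ} (hM : ∀ t, 0 ≤ t → t ≤ T → P (0, t) ≤ M) :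
    P (T, 0) ≤ M + (G T - G 0) := by
  refine transport hT hP hG (path_lipschitz (T := T) hμ h0 h1) (path_antitone hμ h0 h1) path_end B
    hB ?_ hM
  have hd : ∀ᵐ x : ℝ × ℝ, deriv (path μ T) x.1 = - μ x.1 := by
    rw [Measure.volume_eq_prod]
    exact Measure.quasiMeasurePreserving_fst.ae (path_ae_deriv (T := T) hμ h0 h1)
  filter_upwards [h, hd] with x h2 h3 h4 h5 h6
  obtain ⟨h7, h8⟩ := h2 h4 h5 h6
  refine ⟨fun h9 _ => ?_, h8⟩
  have h10 := h7 h9
  rw [h3]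
  have h11 : ((1 : ℝ), - μ x.1) = ((1 : ℝ), (0 : ℝ)) + (- μ x.1) • ((0 : ℝ), (1 : ℝ)) := by
    ext <;> simp
  rw [h11, map_add, map_smul, smul_eq_mul]
  linarith

end path

end Crest.Agent.R138.Trp196
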