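import Mathlib
import Crest.Agent.R138.Trp_196

/-!
# R138, K2d: the transport lemma on general monotone regions, two slopes

Region `0 ≤ τ ≤ T, 0 ≤ t ≤ U τ` (`U` continuous, antitone, `U T = 0`, `U > 0` before `T`): the KM
side has `U τ = T - τ`, the wave side `U = (1 - v)/2 + ρ(T) - ρ`.
Outside `B` the derivative of `P` along `(1, m₁')`, inside `B` the derivative along `(1, m₂')` is at
most `G'`; `B` is closed backwards along the `m₂`-curves (`m₂ = 0`: horizontal lines).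
-/

set_option autoImplicit false

open MeasureTheory Set Filter Topology
open scoped NNReal

namespace Crest.Agent.R138.Trp196

open Crest.Agent.R138.Ex926

/-- the closed region under the graph of `U` -/
def Dm (U : ℝ → ℝ) (T : ℝ) : Set (ℝ × ℝ) := {x | 0 ≤ x.1 ∧ x.1 ≤ T ∧ 0 ≤ x.2 ∧ x.2 ≤ U x.1}

/-- the open region under the graph of `U` -/
def Di (U : ℝ → ℝ) (T : ℝ) : Set (ℝ × ℝ) := {x | 0 < x.1 ∧ x.1 < T ∧ 0 < x.2 ∧ x.2 < U x.1}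

theorem isOpen_Di {U : ℝ → ℝ} (hU : Continuous U) (T : ℝ) : IsOpen (Di U T) := by
  have h1 : IsOpen {x : ℝ × ℝ | 0 < x.1} := isOpen_lt continuous_const continuous_fst
  have h2 : IsOpen {x : ℝ × ℝ | x.1 < T} := isOpen_lt continuous_fst continuous_const
  have h3 : IsOpen {x : ℝ × ℝ | 0 < x.2} := isOpen_lt continuous_const continuous_snd
  have h4 : IsOpen {x : ℝ × ℝ | x.2 < U x.1} :=
    isOpen_lt continuous_snd (hU.comp continuous_fst)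
  have h : Di U T = {x : ℝ × ℝ | 0 < x.1} ∩ ({x : ℝ × ℝ | x.1 < T} ∩
      ({x : ℝ × ℝ | 0 < x.2} ∩ {x : ℝ × ℝ | x.2 < U x.1})) := by
    ext x; simp [Di]
  rw [h]
  exact h1.inter (h2.inter (h3.inter h4))

theorem Di_subset (U : ℝ → ℝ) (T : ℝ) : Di U T ⊆ Dm U T := fun _ hx =>
  ⟨hx.1.le, hx.2.1.le, hx.2.2.1.le, hx.2.2.2.le⟩

/-- integration along a Lipschitz graph, any region -/
theorem along_gen {Ω : Set (ℝ × ℝ)} {K KG Kq : ℝ≥0} {P : ℝ × ℝ → ℝ} (hP : LipschitzOnWith K P Ω)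
    {G q : ℝ → ℝ} (hG : LipschitzWith KG G) (hq : LipschitzWith Kq q) {a b : ℝ} (hab : a ≤ b)
    (hin : ∀ τ ∈ Icc a b, (τ, q τ) ∈ Ω)
    (h : ∀ᵐ τ : ℝ, τ ∈ Ioo a b → DifferentiableAt ℝ q τ → DifferentiableAt ℝ G τ →
      DifferentiableAt ℝ P (τ, q τ) ∧ fderiv ℝ P (τ, q τ) (1, deriv q τ) ≤ deriv G τ) :
    P (b, q b) - P (a, q a) ≤ G b - G a := by
  have hf : LipschitzOnWith (K * max 1 Kq) (fun τ => P (τ, q τ)) (Icc a b) :=
    hP.comp (LipschitzWith.prodMk LipschitzWith.id hq).lipschitzOnWith hin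
  refine sub_le_sub_of_ae_deriv_le (K := max (K * max 1 Kq) KG) (f := fun τ => P (τ, q τ)) hab
    (hf.weaken (le_max_left _ _)) (hG.lipschitzOnWith.weaken (le_max_right _ _)) ?_
  filter_upwards [h, hq.ae_differentiableAt] with τ h1 hqd h2 h3 h4
  obtain ⟨h5, h6⟩ := h1 h2 hqd h4
  have h7 : HasDerivAt (fun τ : ℝ => (τ, q τ)) ((1 : ℝ), deriv q τ) τ :=
    (hasDerivAt_id τ).prodMk hqd.hasDerivAt
  have h8 : HasDerivAt (fun τ => P (τ, q τ)) (fderiv ℝ P (τ, q τ) (1, deriv q τ)) τ :=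
    h5.hasFDerivAt.comp_hasDerivAt τ h7
  rw [h8.deriv]
  exact h6

/-- the pointwise statement, two slopes -/
def Q2 (D : Set (ℝ × ℝ)) (P : ℝ × ℝ → ℝ) (G m₁ m₂ : ℝ → ℝ) (B : Set (ℝ × ℝ))
    (x : ℝ × ℝ) : Prop :=
  x ∈ D → DifferentiableAt ℝ P x ∧ (DifferentiableAt ℝ G x.1 →
    (x ∉ B → DifferentiableAt ℝ m₁ x.1 → fderiv ℝ P x (1, deriv m₁ x.1) ≤ deriv G x.1) ∧
    (x ∈ B → DifferentiableAt ℝ m₂ x.1 → fderiv ℝ P x (1, deriv m₂ x.1) ≤ deriv G x.1))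

theorem core2 {U : ℝ → ℝ} {T : ℝ} {K KG K₁ K₂ : ℝ≥0} {P : ℝ × ℝ → ℝ}
    (hP : LipschitzOnWith K P (Dm U T))
    {G m₁ m₂ : ℝ → ℝ} (hG : LipschitzWith KG G) (hm₁ : LipschitzWith K₁ m₁)
    (hm₂ : LipschitzWith K₂ m₂) (hanti₂ : AntitoneOn m₂ (Icc 0 T))
    (hU₂ : ∀ τ τ', 0 ≤ τ → τ ≤ τ' → τ' ≤ T → m₂ τ - m₂ τ' ≤ U τ - U τ')
    {B : Set (ℝ × ℝ)}
    (hB : ∀ τ τ' t : ℝ, 0 < τ' → τ' ≤ τ → τ < T → (τ, t) ∈ B → (τ', t + (m₂ τ' - m₂ τ)) ∈ B)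
    {M : ℝ} (h0 : ∀ t, 0 ≤ t → t ≤ U 0 → P (0, t) ≤ M)
    {τ₁ c : ℝ} (hτ₁ : 0 ≤ τ₁) (hτ₁T : τ₁ < T)
    (hin : ∀ τ ∈ Icc 0 τ₁, 0 < m₁ τ + c ∧ m₁ τ + c < U τ)
    (hp : ∀ᵐ τ : ℝ, Q2 (Di U T) P G m₁ m₂ B (τ, m₁ τ + c))
    (hg : ∀ᵐ τ : ℝ, ∀ᵐ τ' : ℝ, Q2 (Di U T) P G m₁ m₂ B (τ', m₂ τ' + (m₁ τ - m₂ τ + c))) :
    P (τ₁, m₁ τ₁ + c) ≤ M + (G τ₁ - G 0) := by
  set q : ℝ → ℝ := fun τ => m₁ τ + c with hqdef
  have hq : LipschitzWith K₁ q := by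
    intro x y
    simpa [hqdef, edist_add_right] using hm₁ x y
  have hqin : ∀ τ ∈ Icc 0 τ₁, (τ, q τ) ∈ Dm U T := fun τ hτ =>
    ⟨hτ.1, hτ.2.trans hτ₁T.le, (hin τ hτ).1.le, (hin τ hτ).2.le⟩
  -- the part after the last good point of `B`
  have hA : ∀ a, 0 ≤ a → a ≤ τ₁ → (∀ᵐ τ : ℝ, τ ∈ Ioo a τ₁ → (τ, q τ) ∉ B) →
      P (τ₁, q τ₁) - P (a, q a) ≤ G τ₁ - G a := by
    intro a ha haτ hnB
    refine along_gen hP hG hq haτ (fun τ hτ => hqin τ ⟨ha.trans hτ.1, hτ.2⟩) ?_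
    filter_upwards [hp, hnB] with τ h1 h2 h3 h4 h5
    have hI : τ ∈ Icc 0 τ₁ := ⟨ha.trans h3.1.le, h3.2.le⟩
    obtain ⟨h6, h7⟩ := h1 ⟨lt_of_le_of_lt ha h3.1, h3.2.trans hτ₁T, (hin τ hI).1, (hin τ hI).2⟩
    refine ⟨h6, ?_⟩
    have hmd : DifferentiableAt ℝ m₁ τ := by
      have := h4.sub_const c
      simpa [hqdef] using this
    have hd : deriv q τ = deriv m₁ τ := by
      simp [hqdef]
    rw [hd]
    exact (h7 h5).1 (h2 h3) hmd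
  set S : Set ℝ := {τ | τ ∈ Icc 0 τ₁ ∧ (τ, q τ) ∈ B ∧
    ∀ᵐ τ' : ℝ, Q2 (Di U T) P G m₁ m₂ B (τ', m₂ τ' + (m₁ τ - m₂ τ + c))} with hS
  -- points of `S`
  have hSP : ∀ τ ∈ S, P (τ, q τ) ≤ M + (G τ - G 0) := by
    intro τ hτ
    obtain ⟨h1, h2, h3⟩ := hτ
    set r : ℝ → ℝ := fun τ' => m₂ τ' + (m₁ τ - m₂ τ + c) with hrdef
    have hr : LipschitzWith K₂ r := by
      intro x y
      simpa [hrdef, edist_add_right] using hm₂ x y
    have hrτ : r τ = q τ := by simp only [hrdef, hqdef]; ring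
    have hτT : τ ≤ T := h1.2.trans hτ₁T.le
    have hrin : ∀ τ' ∈ Icc 0 τ, 0 < r τ' ∧ r τ' < U τ' := by
      intro τ' hτ'
      have h5 := hanti₂ ⟨hτ'.1, hτ'.2.trans hτT⟩ ⟨h1.1, hτT⟩ hτ'.2
      have h6 := hU₂ τ' τ hτ'.1 hτ'.2 hτT
      have h7 := hin τ h1
      simp only [hrdef]
      constructor <;> linarith
    have h4 : P (τ, r τ) - P (0, r 0) ≤ G τ - G 0 := by
      refine along_gen hP hG hr h1.1 ?_ ?_
      · intro τ' hτ'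
        exact ⟨hτ'.1, hτ'.2.trans hτT, (hrin τ' hτ').1.le, (hrin τ' hτ').2.le⟩
      · filter_upwards [h3] with τ' h5 h6 h7 h8
        have hI : τ' ∈ Icc 0 τ := ⟨h6.1.le, h6.2.le⟩
        have h9 : (τ', r τ') ∈ Di U T :=
          ⟨h6.1, h6.2.trans_le hτT, (hrin τ' hI).1, (hrin τ' hI).2⟩
        obtain ⟨h10, h11⟩ := h5 h9
        refine ⟨h10, ?_⟩
        have hmd : DifferentiableAt ℝ m₂ τ' := by
          have := h7.sub_const (m₁ τ - m₂ τ + c)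
          simpa [hrdef] using this
        have hd : deriv r τ' = deriv m₂ τ' := by
          simp [hrdef]
        rw [hd]
        refine (h11 h8).2 ?_ hmd
        have h12 := hB τ τ' (q τ) h6.1 h6.2.le (lt_of_le_of_lt h1.2 hτ₁T) h2
        have h13 : q τ + (m₂ τ' - m₂ τ) = r τ' := by simp only [hrdef, hqdef]; ring
        rw [h13] at h12
        exact h12
    have h5 : P (0, r 0) ≤ M := by
      have := hrin 0 ⟨le_rfl, h1.1⟩
      exact h0 _ this.1.le this.2.le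
    rw [hrτ] at h4
    linarith
  by_cases hne : S.Nonempty
  · have hbdd : BddAbove S := ⟨τ₁, fun τ hτ => hτ.1.2⟩
    set a := sSup S with ha
    have ha1 : a ≤ τ₁ := csSup_le hne fun τ hτ => hτ.1.2
    have ha0 : 0 ≤ a := by
      obtain ⟨τ, hτ⟩ := hne
      exact hτ.1.1.trans (le_csSup hbdd hτ)
    -- the inequality at `a` by continuity
    have hcont : ContinuousOn (fun τ => P (τ, q τ)) (Icc 0 τ₁) :=
      (hP.comp (LipschitzWith.prodMk LipschitzWith.id hq).lipschitzOnWith hqin).continuousOn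
    have haS : P (a, q a) ≤ M + (G a - G 0) := by
      have hcl : a ∈ closure S := csSup_mem_closure hne hbdd
      have hSsub : S ⊆ Icc 0 τ₁ := fun τ hτ => hτ.1
      have haI : a ∈ Icc 0 τ₁ := ⟨ha0, ha1⟩
      have hc1 : Tendsto (fun τ => P (τ, q τ)) (𝓝[S] a) (𝓝 (P (a, q a))) :=
        (hcont a haI).mono_left (nhdsWithin_mono a hSsub)
      have hc2 : Tendsto (fun τ => M + (G τ - G 0)) (𝓝[S] a) (𝓝 (M + (G a - G 0))) := by
        have : Continuous fun τ => M + (G τ - G 0) :=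
          continuous_const.add (hG.continuous.sub continuous_const)
        exact this.continuousAt.continuousWithinAt
      have : (𝓝[S] a).NeBot := mem_closure_iff_nhdsWithin_neBot.1 hcl
      refine le_of_tendsto_of_tendsto hc1 hc2 ?_
      filter_upwards [self_mem_nhdsWithin] with τ hτ using hSP τ hτ
    have h1 := hA a ha0 ha1 (by
      filter_upwards [hg] with τ h2 h3 h4
      have h5 : τ ∈ S := ⟨⟨ha0.trans h3.1.le, h3.2.le⟩, h4, h2⟩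
      exact absurd (le_csSup hbdd h5) (not_le.2 h3.1))
    linarith
  · have h1 := hA 0 le_rfl hτ₁ (by
      filter_upwards [hg] with τ h2 h3 h4
      exact hne ⟨τ, ⟨h3.1.le, h3.2.le⟩, h4, h2⟩)
    have h2 : P (0, q 0) ≤ M := by
      have h3 := hin 0 ⟨le_rfl, hτ₁⟩
      exact h0 _ h3.1.le h3.2.le
    linarith

/-- **Transport lemma on a general monotone region with two slopes.** -/
theorem transport_gen {U : ℝ → ℝ} {T : ℝ} (hT : 0 ≤ T) (hU : Continuous U)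
    (hUT : U T = 0) (hUpos : ∀ τ, 0 ≤ τ → τ < T → 0 < U τ)
    {K KG K₁ K₂ : ℝ≥0} {P : ℝ × ℝ → ℝ}
    (hP : LipschitzOnWith K P (Dm U T)) {G m₁ m₂ : ℝ → ℝ} (hG : LipschitzWith KG G)
    (hm₁ : LipschitzWith K₁ m₁) (hm₂ : LipschitzWith K₂ m₂)
    (hanti₁ : AntitoneOn m₁ (Icc 0 T)) (hanti₂ : AntitoneOn m₂ (Icc 0 T)) (hmT : m₁ T = 0)
    (hU₁ : ∀ τ τ', 0 ≤ τ → τ ≤ τ' → τ' ≤ T → m₁ τ - m₁ τ' ≤ U τ - U τ')
    (hU₂ : ∀ τ τ', 0 ≤ τ → τ ≤ τ' → τ' ≤ T → m₂ τ - m₂ τ' ≤ U τ - U τ')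
    (B : Set (ℝ × ℝ))
    (hB : ∀ τ τ' t : ℝ, 0 < τ' → τ' ≤ τ → τ < T → (τ, t) ∈ B → (τ', t + (m₂ τ' - m₂ τ)) ∈ B)
    (h : ∀ᵐ x : ℝ × ℝ, x ∈ Di U T → DifferentiableAt ℝ P x → DifferentiableAt ℝ G x.1 →
      (x ∉ B → DifferentiableAt ℝ m₁ x.1 → fderiv ℝ P x (1, deriv m₁ x.1) ≤ deriv G x.1) ∧
      (x ∈ B → DifferentiableAt ℝ m₂ x.1 → fderiv ℝ P x (1, deriv m₂ x.1) ≤ deriv G x.1))
    {M : ℝ} (h0 : ∀ t, 0 ≤ t → t ≤ U 0 → P (0, t) ≤ M) :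
    P (T, 0) ≤ M + (G T - G 0) := by
  -- the full pointwise statement a.e.
  have hQ : ∀ᵐ x : ℝ × ℝ, Q2 (Di U T) P G m₁ m₂ B x := by
    have hr := (hP.mono (Di_subset U T)).ae_differentiableWithinAt_of_mem (μ := volume)
    filter_upwards [h, hr] with x h1 h2 h3
    have h4 : DifferentiableAt ℝ P x := (h2 h3).differentiableAt ((isOpen_Di hU T).mem_nhds h3)
    exact ⟨h4, h1 h3 h4⟩
  have hp : ∀ᵐ c : ℝ, ∀ᵐ τ : ℝ, Q2 (Di U T) P G m₁ m₂ B (τ, m₁ τ + c) :=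
    ae_shear hm₁.continuous.measurable hQ
  have hg0 : ∀ᵐ c : ℝ, ∀ᵐ τ' : ℝ, Q2 (Di U T) P G m₁ m₂ B (τ', m₂ τ' + c) :=
    ae_shear hm₂.continuous.measurable hQ
  have hg : ∀ᵐ c : ℝ, ∀ᵐ τ : ℝ, ∀ᵐ τ' : ℝ,
      Q2 (Di U T) P G m₁ m₂ B (τ', m₂ τ' + (m₁ τ - m₂ τ + c)) := by
    have h1 : ∀ᵐ x : ℝ × ℝ, ∀ᵐ τ' : ℝ, Q2 (Di U T) P G m₁ m₂ B (τ', m₂ τ' + x.2) := by
      rw [Measure.volume_eq_prod]
      exact Measure.quasiMeasurePreserving_snd.ae hg0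
    exact ae_shear (m := fun τ => m₁ τ - m₂ τ)
      (hm₁.continuous.measurable.sub hm₂.continuous.measurable) h1
  have hmpos : ∀ τ, 0 ≤ τ → τ ≤ T → 0 ≤ m₁ τ := fun τ h1 h2 => by
    rw [← hmT]; exact hanti₁ ⟨h1, h2⟩ ⟨hT, le_rfl⟩ h2
  have hmU : ∀ τ, 0 ≤ τ → τ ≤ T → m₁ τ ≤ U τ := fun τ h1 h2 => by
    have := hU₁ τ T h1 h2 le_rfl
    rw [hmT, hUT] at this
    linarith
  -- the inequality on the path at every `τ₁ < T`
  have hpath : ∀ τ₁, 0 ≤ τ₁ → τ₁ < T → P (τ₁, m₁ τ₁) ≤ M + (G τ₁ - G 0) := by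
    intro τ₁ h1 h2
    -- admissible shifts
    obtain ⟨J, hJo, hJ0, hJ⟩ : ∃ J : Set ℝ, IsOpen J ∧ (0 : ℝ) ∈ closure J ∧ ∀ c ∈ J,
        ∀ τ ∈ Icc 0 τ₁, 0 < m₁ τ + c ∧ m₁ τ + c < U τ := by
      rcases lt_or_eq_of_le (hmpos τ₁ h1 h2.le) with h3 | h3
      · refine ⟨Ioo (- m₁ τ₁) 0, isOpen_Ioo, ?_, ?_⟩
        · rw [closure_Ioo (by linarith)]
          exact ⟨by linarith, le_rfl⟩
        · intro c hc τ hτ
          have h4 : m₁ τ₁ ≤ m₁ τ := hanti₁ ⟨hτ.1, hτ.2.trans h2.le⟩ ⟨h1, h2.le⟩ hτ.2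
          have h5 := hmU τ hτ.1 (hτ.2.trans h2.le)
          constructor
          · linarith [hc.1]
          · linarith [hc.2]
      · have hUp := hUpos τ₁ h1 h2
        refine ⟨Ioo 0 (U τ₁), isOpen_Ioo, ?_, ?_⟩
        · rw [closure_Ioo (by linarith)]
          exact ⟨le_rfl, by linarith⟩
        · intro c hc τ hτ
          have h4 : m₁ τ₁ ≤ m₁ τ := hanti₁ ⟨hτ.1, hτ.2.trans h2.le⟩ ⟨h1, h2.le⟩ hτ.2
          have h5 := hU₁ τ τ₁ hτ.1 hτ.2 h2.le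
          constructor
          · linarith [hc.1]
          · linarith [hc.2]
    -- the inequality for almost all shifts, then for all by continuity
    have hae : ∀ᵐ c : ℝ, c ∈ J → P (τ₁, m₁ τ₁ + c) ≤ M + (G τ₁ - G 0) := by
      filter_upwards [hp, hg] with c h3 h4 h5
      exact core2 hP hG hm₁ hm₂ hanti₂ hU₂ hB h0 h1 h2 (hJ c h5) h3 h4
    set A : Set ℝ := {c | c ∈ J ∧ P (τ₁, m₁ τ₁ + c) ≤ M + (G τ₁ - G 0)} with hA
    have hdense : (0 : ℝ) ∈ closure A := by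
      have hd : Dense {c : ℝ | c ∈ J → P (τ₁, m₁ τ₁ + c) ≤ M + (G τ₁ - G 0)} :=
        Measure.dense_of_ae hae
      have h3 : J ⊆ closure A := by
        intro c hc
        rw [mem_closure_iff]
        intro o ho hco
        obtain ⟨c', hc'1, hc'2⟩ := hd.inter_open_nonempty (o ∩ J) (ho.inter hJo) ⟨c, hco, hc⟩
        exact ⟨c', hc'1.1, hc'1.2, hc'2 hc'1.2⟩
      exact closure_minimal h3 isClosed_closure hJ0
    have : (𝓝[A] (0 : ℝ)).NeBot := mem_closure_iff_nhdsWithin_neBot.1 hdense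
    have hcont : Tendsto (fun c => P (τ₁, m₁ τ₁ + c)) (𝓝[A] 0) (𝓝 (P (τ₁, m₁ τ₁))) := by
      have h3 : ContinuousOn P (Dm U T) := hP.continuousOn
      have hmem : (τ₁, m₁ τ₁) ∈ Dm U T :=
        ⟨h1, h2.le, hmpos τ₁ h1 h2.le, hmU τ₁ h1 h2.le⟩
      have h4 : Tendsto (fun c : ℝ => (τ₁, m₁ τ₁ + c)) (𝓝[A] 0) (𝓝[Dm U T] (τ₁, m₁ τ₁)) := by
        refine tendsto_nhdsWithin_iff.2 ⟨?_, ?_⟩
        · have h5 : Continuous fun c : ℝ => (τ₁, m₁ τ₁ + c) := by fun_prop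
          have h6 := h5.tendsto 0
          simp only [add_zero] at h6
          exact h6.mono_left nhdsWithin_le_nhds
        · filter_upwards [self_mem_nhdsWithin] with c hc
          have h5 := hJ c hc.1 τ₁ ⟨h1, le_rfl⟩
          exact ⟨h1, h2.le, h5.1.le, h5.2.le⟩
      exact (h3 _ hmem).tendsto.comp h4
    refine le_of_tendsto hcont ?_
    filter_upwards [self_mem_nhdsWithin] with c hc using hc.2
  -- let `τ₁ → T`
  rcases lt_or_eq_of_le hT with hT0 | hT0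
  · have hcont : Tendsto (fun τ => P (τ, m₁ τ)) (𝓝[<] T) (𝓝 (P (T, m₁ T))) := by
      have h3 : ContinuousOn P (Dm U T) := hP.continuousOn
      have hmem : (T, m₁ T) ∈ Dm U T := ⟨hT, le_rfl, hmpos T hT le_rfl, hmU T hT le_rfl⟩
      have h4 : Tendsto (fun τ : ℝ => (τ, m₁ τ)) (𝓝[<] T) (𝓝[Dm U T] (T, m₁ T)) := by
        refine tendsto_nhdsWithin_iff.2 ⟨?_, ?_⟩
        · have h5 : Continuous fun τ : ℝ => (τ, m₁ τ) := continuous_id.prodMk hm₁.continuous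
          exact (h5.tendsto T).mono_left nhdsWithin_le_nhds
        · have h6 : ∀ᶠ τ in 𝓝[<] T, τ ∈ Ioo 0 T := Ioo_mem_nhdsLT hT0
          filter_upwards [h6] with τ hτ
          exact ⟨hτ.1.le, hτ.2.le, hmpos τ hτ.1.le hτ.2.le, hmU τ hτ.1.le hτ.2.le⟩
      exact (h3 _ hmem).tendsto.comp h4
    rw [hmT] at hcont
    have hc2 : Tendsto (fun τ => M + (G τ - G 0)) (𝓝[<] T) (𝓝 (M + (G T - G 0))) := by
      have : Continuous fun τ => M + (G τ - G 0) :=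
        continuous_const.add (hG.continuous.sub continuous_const)
      exact this.continuousAt.continuousWithinAt
    refine le_of_tendsto_of_tendsto hcont hc2 ?_
    filter_upwards [Ioo_mem_nhdsLT hT0] with τ hτ using hpath τ hτ.1.le hτ.2
  · have h1 : (0 : ℝ) ≤ U 0 := by
      have h2 := hUT
      rw [← hT0] at h2
      exact h2.symm.le
    rw [← hT0]
    simpa using h0 0 le_rfl h1

/-- **Transport lemma on a general monotone region**, horizontal lines inside `B`, slope `μ`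
outside `B`. -/
theorem transport_gen_mu {U : ℝ → ℝ} {T : ℝ} (hT : 0 ≤ T) (hU : Continuous U)
    (hUa : AntitoneOn U (Icc 0 T))
    (hUT : U T = 0) (hUpos : ∀ τ, 0 ≤ τ → τ < T → 0 < U τ)
    {K KG : ℝ≥0} {P : ℝ × ℝ → ℝ}
    (hP : LipschitzOnWith K P (Dm U T)) {G μ : ℝ → ℝ} (hG : LipschitzWith KG G)
    (hμ : Measurable μ) (hμ0 : ∀ s, 0 ≤ μ s) (hμ1 : ∀ s, μ s ≤ 1)
    (hμU : ∀ τ τ', 0 ≤ τ → τ ≤ τ' → τ' ≤ T → ∫ s in τ..τ', μ s ≤ U τ - U τ')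
    (B : Set (ℝ × ℝ)) (hB : ∀ τ τ' t : ℝ, 0 < τ' → τ' ≤ τ → τ < T → (τ, t) ∈ B → (τ', t) ∈ B)
    (h : ∀ᵐ x : ℝ × ℝ, x ∈ Di U T → DifferentiableAt ℝ P x → DifferentiableAt ℝ G x.1 →
      (x ∉ B → fderiv ℝ P x (1, 0) - μ x.1 * fderiv ℝ P x (0, 1) ≤ deriv G x.1) ∧
      (x ∈ B → fderiv ℝ P x (1, 0) ≤ deriv G x.1))
    {M : ℝ} (h0 : ∀ t, 0 ≤ t → t ≤ U 0 → P (0, t) ≤ M) :
    P (T, 0) ≤ M + (G T - G 0) := by
  refine transport_gen (m₁ := path μ T) (m₂ := fun _ => 0) (K₂ := 0) hT hU hUT hUpos hP hG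
    (path_lipschitz (T := T) hμ hμ0 hμ1) (LipschitzWith.const 0)
    ((path_antitone hμ hμ0 hμ1).antitoneOn _) (fun _ _ _ _ _ => le_rfl) path_end ?_ ?_ B ?_ ?_ h0
  · intro τ τ' h1 h2 h3
    rw [path_sub hμ hμ0 hμ1]
    exact hμU τ τ' h1 h2 h3
  · intro τ τ' h1 h2 h3
    have := hUa ⟨h1, h2.trans h3⟩ ⟨h1.trans h2, h3⟩ h2
    simpa using this
  · intro τ τ' t h1 h2 h3 h4
    simpa using hB τ τ' t h1 h2 h3 h4
  · have hd : ∀ᵐ x : ℝ × ℝ, deriv (path μ T) x.1 = - μ x.1 := by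
      rw [Measure.volume_eq_prod]
      exact Measure.quasiMeasurePreserving_fst.ae (path_ae_deriv (T := T) hμ hμ0 hμ1)
    filter_upwards [h, hd] with x h2 h3 h4 h5 h6
    obtain ⟨h7, h8⟩ := h2 h4 h5 h6
    refine ⟨fun h9 _ => ?_, fun h9 _ => ?_⟩
    · have h10 := h7 h9
      rw [h3]
      have h11 : ((1 : ℝ), - μ x.1) = ((1 : ℝ), (0 : ℝ)) + (- μ x.1) • ((0 : ℝ), (1 : ℝ)) := by
        ext <;> simp
      rw [h11, map_add, map_smul, smul_eq_mul]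
      linarith
    · simpa using h8 h9

/-- on a monotone region separate Lipschitz bounds give a joint Lipschitz bound -/
theorem lipschitzOn_of_separate {U : ℝ → ℝ} {T : ℝ} (hUa : AntitoneOn U (Icc 0 T))
    {P : ℝ × ℝ → ℝ} {C₁ C₂ : ℝ} (hC₁ : 0 ≤ C₁) (hC₂ : 0 ≤ C₂)
    (h1 : ∀ τ τ' t, (τ, t) ∈ Dm U T → (τ', t) ∈ Dm U T → |P (τ, t) - P (τ', t)| ≤ C₁ * |τ - τ'|)
    (h2 : ∀ τ t t', (τ, t) ∈ Dm U T → (τ, t') ∈ Dm U T → |P (τ, t) - P (τ, t')| ≤ C₂ * |t - t'|) :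
    LipschitzOnWith (C₁ + C₂).toNNReal P (Dm U T) := by
  have key : ∀ x ∈ Dm U T, ∀ y ∈ Dm U T, x.1 ≤ y.1 →
      |P x - P y| ≤ C₁ * |x.1 - y.1| + C₂ * |x.2 - y.2| := by
    intro x hx y hy hxy
    -- the corner `(x.1, y.2)` lies in the region
    have hz : ((x.1, y.2) : ℝ × ℝ) ∈ Dm U T :=
      ⟨hx.1, hx.2.1, hy.2.2.1, hy.2.2.2.trans (hUa ⟨hx.1, hx.2.1⟩ ⟨hy.1, hy.2.1⟩ hxy)⟩
    have h3 := h2 x.1 x.2 y.2 hx hz
    have h4 := h1 x.1 y.1 y.2 hz hy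
    have h5 : |P x - P y| ≤ |P (x.1, x.2) - P (x.1, y.2)| + |P (x.1, y.2) - P (y.1, y.2)| := by
      have := abs_add_le (P (x.1, x.2) - P (x.1, y.2)) (P (x.1, y.2) - P (y.1, y.2))
      simpa using this
    linarith
  have key2 : ∀ x ∈ Dm U T, ∀ y ∈ Dm U T,
      |P x - P y| ≤ C₁ * |x.1 - y.1| + C₂ * |x.2 - y.2| := by
    intro x hx y hy
    rcases le_total x.1 y.1 with h | h
    · exact key x hx y hy h
    · have := key y hy x hx h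
      rw [abs_sub_comm (P x), abs_sub_comm x.1, abs_sub_comm x.2]
      exact this
  refine LipschitzOnWith.of_dist_le_mul fun x hx y hy => ?_
  rw [Real.coe_toNNReal _ (by linarith), Real.dist_eq, Prod.dist_eq]
  have h3 := key2 x hx y hy
  have h4 : |x.1 - y.1| ≤ max (dist x.1 y.1) (dist x.2 y.2) := by
    rw [Real.dist_eq, Real.dist_eq]; exact le_max_left _ _
  have h5 : |x.2 - y.2| ≤ max (dist x.1 y.1) (dist x.2 y.2) := by
    rw [Real.dist_eq, Real.dist_eq]; exact le_max_right _ _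
  nlinarith [mul_le_mul_of_nonneg_left h4 hC₁, mul_le_mul_of_nonneg_left h5 hC₂]

end Crest.Agent.R138.Trp196
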