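import Mathlib

/-!
# The transport lemma (helper535)

A Lipschitz function `P` on the triangle `{0 ≤ τ, 0 ≤ t, τ + t ≤ T}` satisfying a.e. one of the two
differential inequalities `P_τ - μ(τ) P_t ≤ c(τ)` (outside `B`), `P_τ ≤ c(τ)` (inside `B`), where
`B` is closed under decreasing `τ`, satisfies `P (T, 0) ≤ sup P (0, ·) + ∫ c`.
-/

set_option autoImplicit false

namespace Crest.Agent.R138.Tsp535

open MeasureTheory Set Filter Topology
open scoped NNReal ENNReal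

/-- integration of an a.e. differential inequality for a Lipschitz function. -/
theorem sub_le_integral {f c : ℝ → ℝ} {K : ℝ≥0} {a b : ℝ} (hab : a ≤ b)
    (hf : LipschitzOnWith K f (Icc a b)) (hc : IntervalIntegrable c volume a b)
    (h : ∀ᵐ x, x ∈ Ioo a b → DifferentiableAt ℝ f x → deriv f x ≤ c x) :
    f b - f a ≤ ∫ x in a..b, c x := by
  have huIcc : uIcc a b = Icc a b := uIcc_of_le hab
  have hf' : AbsolutelyContinuousOnInterval f a b :=
    LipschitzOnWith.absolutelyContinuousOnInterval (K := K) (by rwa [huIcc])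
  rw [← hf'.integral_deriv_eq_sub]
  have hdf : ∀ᵐ x, x ∈ Icc a b → DifferentiableWithinAt ℝ f (Icc a b) x :=
    hf.ae_differentiableWithinAt_of_mem
  refine intervalIntegral.integral_mono_ae_restrict hab hf'.intervalIntegrable_deriv hc ?_
  rw [EventuallyLE, ae_restrict_iff' measurableSet_Icc]
  have hne : ∀ᵐ x : ℝ, x ≠ a ∧ x ≠ b := by
    have h1 : ∀ᵐ x : ℝ, x ≠ a := by simp [ae_iff]
    have h2 : ∀ᵐ x : ℝ, x ≠ b := by simp [ae_iff]
    filter_upwards [h1, h2] with x h1 h2 using ⟨h1, h2⟩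
  filter_upwards [h, hdf, hne] with x h1 h2 h4 hx
  have hxo : x ∈ Ioo a b := ⟨lt_of_le_of_ne hx.1 (Ne.symm h4.1), lt_of_le_of_ne hx.2 h4.2⟩
  exact h1 hxo ((h2 hx).differentiableAt (Icc_mem_nhds hxo.1 hxo.2))

/-- a nonincreasing function maps sets where its derivative is negative to sets of positive
outer measure. -/
theorem null_of_image_null {h : ℝ → ℝ} (hc : Continuous h) (hmono : Antitone h) (S : Set ℝ)
    (hd : ∀ τ ∈ S, DifferentiableAt ℝ h τ ∧ deriv h τ < 0) (hN : volume (h '' S) = 0) :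
    volume S = 0 := by
  set N : Set ℝ := toMeasurable volume (h '' S) with hNdef
  have hNm : MeasurableSet N := measurableSet_toMeasurable _ _
  have hN0 : volume N = 0 := by rw [hNdef, measure_toMeasurable, hN]
  set S' : Set ℝ := ({τ | DifferentiableAt ℝ h τ} ∩ {τ | deriv h τ < 0}) ∩ h ⁻¹' N with hS'
  have hS'm : MeasurableSet S' := by
    refine ((measurableSet_of_differentiableAt ℝ h).inter ?_).inter (hc.measurable hNm)
    exact measurableSet_lt (measurable_deriv h) measurable_const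
  have hSS' : S ⊆ S' := fun τ hτ =>
    ⟨hd τ hτ, subset_toMeasurable _ _ (mem_image_of_mem h hτ)⟩
  have hinj : InjOn h S' := by
    have key : ∀ x ∈ S', ∀ y ∈ S', x < y → h x ≠ h y := by
      intro x hx y _ hxy heq
      have hconst : ∀ z ∈ Icc x y, h z = h x := by
        intro z hz
        apply le_antisymm (hmono hz.1)
        rw [heq]
        exact hmono hz.2
      have h1 : HasDerivWithinAt h (deriv h x) (Icc x y) x := hx.1.1.hasDerivAt.hasDerivWithinAt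
      have h2 : HasDerivWithinAt h 0 (Icc x y) x := by
        refine (hasDerivWithinAt_const x (Icc x y) (h x)).congr ?_ rfl
        intro z hz
        exact hconst z hz
      have h3 := (uniqueDiffOn_Icc hxy x (left_mem_Icc.2 hxy.le)).eq_deriv _ h1 h2
      have h4 : deriv h x < 0 := hx.1.2
      linarith
    intro x hx y hy hxy
    rcases lt_trichotomy x y with h1 | h1 | h1
    · exact absurd hxy (key x hx y hy h1)
    · exact h1
    · exact absurd hxy.symm (key y hy x hx h1)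
  have himg : volume (h '' S') = 0 := by
    apply measure_mono_null _ hN0
    rintro _ ⟨τ, hτ, rfl⟩
    exact hτ.2
  have harea := lintegral_image_eq_lintegral_abs_deriv_mul hS'm
    (fun x hx => (hx.1.1.hasDerivAt (f := h)).hasDerivWithinAt) hinj (fun _ => (1 : ℝ≥0∞))
  rw [setLIntegral_one, himg] at harea
  have h5 : ∀ᵐ τ ∂(volume.restrict S'), ENNReal.ofReal |deriv h τ| * 1 = 0 := by
    have hmeas : Measurable fun τ => ENNReal.ofReal |deriv h τ| * 1 :=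
      ((measurable_deriv h).abs.ennreal_ofReal).mul_const _
    exact (lintegral_eq_zero_iff hmeas).1 harea.symm
  rw [ae_restrict_iff' hS'm] at h5
  have h6 : ∀ᵐ τ, τ ∉ S' := by
    filter_upwards [h5] with τ hτ hmem
    have := hτ hmem
    rw [mul_one, ENNReal.ofReal_eq_zero] at this
    have h7 : deriv h τ < 0 := hmem.1.2
    have h8 : 0 < |deriv h τ| := abs_pos.2 h7.ne
    linarith
  have h7 : volume S' = 0 := by
    rw [ae_iff] at h6
    simpa using h6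
  exact measure_mono_null hSS' h7

/-- the height function of the backward path. -/
noncomputable def ht (μ : ℝ → ℝ) (T' : ℝ) (τ : ℝ) : ℝ := ∫ s in τ..T', μ s

section
variable {μ : ℝ → ℝ} (hμm : Measurable μ) (hμ0 : ∀ s, 0 ≤ μ s) (hμ1 : ∀ s, μ s ≤ 1)
include hμm hμ0 hμ1

theorem mu_locInt : LocallyIntegrable μ volume := by
  have h : LocallyIntegrable (fun _ : ℝ => (1 : ℝ)) volume := locallyIntegrable_const _
  refine h.mono hμm.aestronglyMeasurable ?_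
  filter_upwards with s
  rw [Real.norm_eq_abs, abs_of_nonneg (hμ0 s), norm_one]
  exact hμ1 s

theorem mu_intInt (a b : ℝ) : IntervalIntegrable μ volume a b :=
  intervalIntegrable_iff.mpr <|
    ((mu_locInt hμm hμ0 hμ1).integrableOn_isCompact isCompact_uIcc).mono_set uIoc_subset_uIcc

theorem ht_sub (T' a b : ℝ) : ht μ T' a - ht μ T' b = ∫ s in a..b, μ s := by
  unfold ht
  rw [sub_eq_iff_eq_add]
  exact (intervalIntegral.integral_add_adjacent_intervals (mu_intInt hμm hμ0 hμ1 _ _)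
    (mu_intInt hμm hμ0 hμ1 _ _)).symm

theorem ht_sub_nonneg {T' a b : ℝ} (hab : a ≤ b) : 0 ≤ ht μ T' a - ht μ T' b := by
  rw [ht_sub hμm hμ0 hμ1]
  exact intervalIntegral.integral_nonneg hab fun s _ => hμ0 s

theorem ht_sub_le {T' a b : ℝ} (hab : a ≤ b) : ht μ T' a - ht μ T' b ≤ b - a := by
  rw [ht_sub hμm hμ0 hμ1]
  calc ∫ s in a..b, μ s ≤ ∫ _ in a..b, (1 : ℝ) :=
        intervalIntegral.integral_mono_on hab (mu_intInt hμm hμ0 hμ1 _ _)
          intervalIntegrable_const fun s _ => hμ1 s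
    _ = b - a := by simp

theorem ht_antitone (T' : ℝ) : Antitone (ht μ T') := fun a b hab => by
  linarith [ht_sub_nonneg hμm hμ0 hμ1 (T' := T') hab]

theorem ht_lipschitz (T' : ℝ) : LipschitzWith 1 (ht μ T') := by
  refine LipschitzWith.of_dist_le_mul fun a b => ?_
  rw [NNReal.coe_one, one_mul, Real.dist_eq, Real.dist_eq]
  rcases le_total a b with hab | hab
  · rw [abs_of_nonneg (ht_sub_nonneg hμm hμ0 hμ1 hab), abs_of_nonpos (by linarith)]
    linarith [ht_sub_le hμm hμ0 hμ1 (T' := T') hab]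
  · rw [abs_of_nonpos (by linarith [ht_sub_nonneg hμm hμ0 hμ1 (T' := T') hab]),
      abs_of_nonneg (by linarith)]
    linarith [ht_sub_le hμm hμ0 hμ1 (T' := T') hab]

omit hμm hμ0 hμ1 in
theorem ht_self (T' : ℝ) : ht μ T' T' = 0 := by simp [ht]

theorem ht_hasDerivAt (T' : ℝ) : ∀ᵐ τ, HasDerivAt (ht μ T') (-μ τ) τ := by
  filter_upwards [LocallyIntegrable.ae_hasDerivAt_integral (mu_locInt hμm hμ0 hμ1)] with τ hτ
  have h1 := (hτ T').neg
  have e : ht μ T' = fun x => -∫ t in T'..x, μ t := by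
    funext x
    rw [ht, intervalIntegral.integral_symm]
  rw [e]
  exact h1

/-- the shear `(τ, x) ↦ (τ, x + ht τ)` preserves Lebesgue measure. -/
theorem shear_preserving (T' : ℝ) :
    MeasurePreserving (fun p : ℝ × ℝ => (p.1, p.2 + ht μ T' p.1)) volume volume := by
  have hc : Continuous (ht μ T') := (ht_lipschitz hμm hμ0 hμ1 T').continuous
  exact (MeasurePreserving.id (volume : Measure ℝ)).skew_product
    (g := fun τ x => x + ht μ T' τ) (by fun_prop)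
    (Eventually.of_forall fun τ => (measurePreserving_add_right volume (ht μ T' τ)).map_eq)

end

/-- the pointwise property. -/
def Good (Q : ℝ × ℝ → ℝ) (μ c : ℝ → ℝ) (B : Set (ℝ × ℝ)) (T : ℝ) (q : ℝ × ℝ) : Prop :=
  0 < q.1 → 0 < q.2 → q.1 + q.2 < T → DifferentiableAt ℝ Q q ∧
    (q ∈ B → fderiv ℝ Q q (1, 0) ≤ c q.1) ∧
    (q ∉ B → fderiv ℝ Q q (1, 0) - μ q.1 * fderiv ℝ Q q (0, 1) ≤ c q.1)

/-- Fubini on horizontal lines. -/
theorem ae_ae_swap {p : ℝ × ℝ → Prop} (h : ∀ᵐ q : ℝ × ℝ, p q) :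
    ∀ᵐ t : ℝ, ∀ᵐ τ : ℝ, p (τ, t) := by
  have h1 : ∀ᵐ q : ℝ × ℝ ∂((volume : Measure ℝ).prod volume), p q := h
  have h2 : ∀ᵐ q : ℝ × ℝ ∂((volume : Measure ℝ).prod volume), p q.swap :=
    (Measure.measurePreserving_swap (μ := (volume : Measure ℝ))
      (ν := (volume : Measure ℝ))).quasiMeasurePreserving.ae h1
  exact Measure.ae_ae_of_ae_prod h2

section
variable {μ c : ℝ → ℝ} (hμm : Measurable μ) (hμ0 : ∀ s, 0 ≤ μ s) (hμ1 : ∀ s, μ s ≤ 1)
  (hcm : Measurable c) {M : ℝ} (hcM : ∀ s, |c s| ≤ M)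
  {Q : ℝ × ℝ → ℝ} {K : ℝ≥0} (hQ : LipschitzWith K Q) {B : Set (ℝ × ℝ)}
  (hB : ∀ τ τ' t, (τ, t) ∈ B → τ' ≤ τ → (τ', t) ∈ B) {T : ℝ}

theorem c_intInt (hcm : Measurable c) (hcM : ∀ s, |c s| ≤ M) (a b : ℝ) :
    IntervalIntegrable c volume a b := by
  have h : IntervalIntegrable (fun _ : ℝ => M) volume a b := intervalIntegrable_const
  refine h.mono_fun hcm.aestronglyMeasurable ?_
  filter_upwards with s
  rw [Real.norm_eq_abs, Real.norm_eq_abs]
  exact (hcM s).trans (le_abs_self M)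

include hcm hcM hQ

/-- horizontal run. -/
theorem hor_run {τ₂ t : ℝ} (hτ₂ : 0 ≤ τ₂) (ht0 : 0 < t) (htT : τ₂ + t ≤ T)
    (hgood : ∀ᵐ τ, Good Q μ c B T (τ, t)) (hmem : ∀ τ, τ ≤ τ₂ → (τ, t) ∈ B) :
    Q (τ₂, t) - Q (0, t) ≤ ∫ s in (0:ℝ)..τ₂, c s := by
  have hl : LipschitzWith K (fun τ => Q (τ, t)) := by
    have := hQ.comp (LipschitzWith.prodMk_right (α := ℝ) (β := ℝ) t)
    simpa [Function.comp_def] using this
  refine sub_le_integral (f := fun τ => Q (τ, t)) hτ₂ hl.lipschitzOnWith (c_intInt hcm hcM _ _) ?_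
  filter_upwards [hgood] with τ hτ hmemτ _
  obtain ⟨hd, hb, _⟩ := hτ hmemτ.1 ht0 (by simp only; linarith [hmemτ.2])
  have h1 : HasDerivAt (fun τ : ℝ => (τ, t)) ((1 : ℝ), (0 : ℝ)) τ :=
    (hasDerivAt_id τ).prodMk (hasDerivAt_const τ t)
  have h2 := hd.hasFDerivAt.comp_hasDerivAt τ h1
  have h3 : deriv (fun τ => Q (τ, t)) τ = fderiv ℝ Q (τ, t) (1, 0) := h2.deriv
  rw [h3]
  exact hb (hmem τ hmemτ.2.le)

include hμm hμ0 hμ1

/-- run along the path, on a stretch where the path is outside `B` or `μ = 0`. -/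
theorem path_run {T' a x : ℝ} (ha : 0 ≤ a) (hx : 0 < x) (hxT : T' + x < T)
    {b : ℝ} (hab : a ≤ b) (hbT : b ≤ T')
    (hgood : ∀ᵐ τ, Good Q μ c B T (τ, x + ht μ T' τ))
    (hmem : ∀ᵐ τ, τ ∈ Ioo a b → (τ, x + ht μ T' τ) ∈ B → μ τ = 0) :
    Q (b, x + ht μ T' b) - Q (a, x + ht μ T' a) ≤ ∫ s in a..b, c s := by
  have hl0 : LipschitzWith 1 (fun τ => (τ, x + ht μ T' τ)) := by
    have h1 : LipschitzWith 1 (fun τ => x + ht μ T' τ) := by
      refine LipschitzWith.of_dist_le_mul fun u v => ?_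
      rw [dist_add_left]
      exact (ht_lipschitz hμm hμ0 hμ1 T').dist_le_mul u v
    have := LipschitzWith.id.prodMk h1
    simpa using this
  have hl : LipschitzWith K (fun τ => Q (τ, x + ht μ T' τ)) := by
    have := hQ.comp hl0
    simpa [Function.comp_def] using this
  refine sub_le_integral (f := fun τ => Q (τ, x + ht μ T' τ)) hab hl.lipschitzOnWith
    (c_intInt hcm hcM _ _) ?_
  filter_upwards [hgood, hmem, ht_hasDerivAt hμm hμ0 hμ1 T'] with τ hτ hm hd' hmemτ _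
  have hτT' : τ ≤ T' := hmemτ.2.le.trans hbT
  have hh0 : 0 ≤ ht μ T' τ := by
    have := ht_sub_nonneg hμm hμ0 hμ1 (T' := T') hτT'
    rw [ht_self] at this
    linarith
  have hh1 : ht μ T' τ ≤ T' - τ := by
    have := ht_sub_le hμm hμ0 hμ1 (T' := T') hτT'
    rw [ht_self] at this
    linarith
  obtain ⟨hd, hb, hnb⟩ := hτ (lt_of_le_of_lt ha hmemτ.1) (by simp only; linarith)
    (by simp only; linarith)
  have h1 : HasDerivAt (fun τ : ℝ => (τ, x + ht μ T' τ)) ((1 : ℝ), (-μ τ : ℝ)) τ :=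
    (hasDerivAt_id τ).prodMk (hd'.const_add x)
  have h2 := hd.hasFDerivAt.comp_hasDerivAt τ h1
  have h3 : deriv (fun τ => Q (τ, x + ht μ T' τ)) τ
      = fderiv ℝ Q (τ, x + ht μ T' τ) (1, -μ τ) := h2.deriv
  rw [h3]
  have h4 : fderiv ℝ Q (τ, x + ht μ T' τ) (1, -μ τ)
      = fderiv ℝ Q (τ, x + ht μ T' τ) (1, 0) - μ τ * fderiv ℝ Q (τ, x + ht μ T' τ) (0, 1) := by
    have e : ((1 : ℝ), (-μ τ : ℝ)) = (1, 0) - μ τ • ((0 : ℝ), (1 : ℝ)) := by
      ext <;> simp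
    rw [e, map_sub, map_smul, smul_eq_mul]
  rw [h4]
  by_cases hmB : (τ, x + ht μ T' τ) ∈ B
  · rw [hm hmemτ hmB, zero_mul, sub_zero]
    exact hb hmB
  · exact hnb hmB

include hB in
/-- the bound from a point `(T', x)` of the open triangle whose path and horizontal lines are
generic. -/
theorem path_bound {T' x S : ℝ} (hT' : 0 < T') (hx : 0 < x) (hxT : T' + x < T)
    (hgood : ∀ᵐ τ, Good Q μ c B T (τ, x + ht μ T' τ))
    (hhor : ∀ᵐ t : ℝ, ∀ᵐ τ : ℝ, Good Q μ c B T (τ, t))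
    (hS : ∀ t, 0 ≤ t → t ≤ T → Q (0, t) ≤ S) :
    Q (T', x) ≤ S + ∫ s in (0:ℝ)..T', c s := by
  -- the bad set on the path
  set E : Set ℝ := {τ | τ ∈ Icc 0 T' ∧ (τ, x + ht μ T' τ) ∈ B ∧ μ τ ≠ 0} with hE
  have hh0 : ∀ τ, τ ≤ T' → 0 ≤ ht μ T' τ := by
    intro τ hτ
    have := ht_sub_nonneg hμm hμ0 hμ1 (T' := T') hτ
    rw [ht_self] at this
    linarith
  have hh1 : ∀ τ, τ ≤ T' → ht μ T' τ ≤ T' - τ := by
    intro τ hτ
    have := ht_sub_le hμm hμ0 hμ1 (T' := T') hτ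
    rw [ht_self] at this
    linarith
  have hM : 0 ≤ M := (abs_nonneg _).trans (hcM 0)
  -- run from `T'` down to `a` when the bad set above `a` is null
  have hrun : ∀ a, 0 ≤ a → a ≤ T' → volume (E ∩ Ioo a T') = 0 →
      Q (T', x) ≤ Q (a, x + ht μ T' a) + ∫ s in a..T', c s := by
    intro a ha0 haT hnull
    have h1 := path_run hμm hμ0 hμ1 hcm hcM hQ (T' := T') (a := a) (b := T') ha0 hx hxT haT le_rfl
      hgood ?_
    · rw [ht_self, add_zero] at h1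
      linarith
    · have h2 : ∀ᵐ τ, τ ∉ E ∩ Ioo a T' := measure_eq_zero_iff_ae_notMem.1 hnull
      filter_upwards [h2] with τ hτ hmem hmB
      by_contra hne
      exact hτ ⟨⟨⟨ha0.trans hmem.1.le, hmem.2.le⟩, hmB, hne⟩, hmem⟩
  by_cases hnull : volume E = 0
  · have h1 := hrun 0 le_rfl hT'.le (measure_mono_null inter_subset_left hnull)
    have h2 := hS (x + ht μ T' 0) (by linarith [hh0 0 hT'.le]) (by linarith [hh1 0 hT'.le])
    linarith
  -- last scale at which the bad set has positive measure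
  set A : Set ℝ := {τ | τ ∈ Icc 0 T' ∧ 0 < volume (E ∩ Icc τ T')} with hA
  have hA0 : (0 : ℝ) ∈ A := by
    refine ⟨⟨le_rfl, hT'.le⟩, ?_⟩
    have e : E ∩ Icc 0 T' = E := inter_eq_left.2 fun τ hτ => hτ.1
    rw [e]
    exact pos_iff_ne_zero.2 hnull
  have hAb : BddAbove A := ⟨T', fun τ hτ => hτ.1.2⟩
  set τ₁ := sSup A with hτ₁
  have hτ₁0 : 0 ≤ τ₁ := le_csSup hAb hA0
  have hτ₁T : τ₁ ≤ T' := csSup_le ⟨0, hA0⟩ fun τ hτ => hτ.1.2
  have habove : volume (E ∩ Ioo τ₁ T') = 0 := by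
    have hsub : E ∩ Ioo τ₁ T' ⊆ ⋃ n : ℕ, E ∩ Icc (τ₁ + 1 / ((n : ℝ) + 1)) T' := by
      rintro τ ⟨hτE, hτ1, hτ2⟩
      obtain ⟨n, hn⟩ := exists_nat_one_div_lt (sub_pos.2 hτ1)
      exact mem_iUnion.2 ⟨n, hτE, by linarith, hτ2.le⟩
    refine measure_mono_null hsub (measure_iUnion_null fun n => ?_)
    by_contra hne
    have hn : (0 : ℝ) < 1 / ((n : ℝ) + 1) := by positivity
    by_cases hle : τ₁ + 1 / ((n : ℝ) + 1) ≤ T'
    · have : τ₁ + 1 / ((n : ℝ) + 1) ∈ A :=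
        ⟨⟨by linarith, hle⟩, pos_iff_ne_zero.2 hne⟩
      linarith [le_csSup hAb this]
    · rw [Icc_eq_empty hle, inter_empty, measure_empty] at hne
      exact hne rfl
  have h1 := hrun τ₁ hτ₁0 hτ₁T habove
  refine le_of_forall_pos_le_add fun ε hε => ?_
  -- a good height close to `τ₁`
  set δ : ℝ := ε / ((K : ℝ) + M + 1) with hδ
  have hKM : 0 < (K : ℝ) + M + 1 := by positivity
  have hδ0 : 0 < δ := div_pos hε hKM
  obtain ⟨a, haA, haτ⟩ := exists_lt_of_lt_csSup ⟨0, hA0⟩ (show τ₁ - δ < sSup A by linarith)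
  have haτ₁ : a ≤ τ₁ := le_csSup hAb haA
  have hposE : volume (E ∩ Icc a τ₁) ≠ 0 := by
    intro h0
    have hsub : E ∩ Icc a T' ⊆ (E ∩ Icc a τ₁) ∪ (E ∩ Ioo τ₁ T') ∪ {T'} := by
      rintro τ ⟨hτE, hτa, hτT⟩
      rcases le_or_gt τ τ₁ with h2 | h2
      · exact Or.inl (Or.inl ⟨hτE, hτa, h2⟩)
      · rcases lt_or_eq_of_le hτT with h3 | h3
        · exact Or.inl (Or.inr ⟨hτE, h2, h3⟩)
        · exact Or.inr h3
    have : volume (E ∩ Icc a T') = 0 := by
      refine measure_mono_null hsub ?_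
      rw [measure_union_null_iff, measure_union_null_iff]
      exact ⟨⟨h0, habove⟩, by simp⟩
    exact haA.2.ne' this
  obtain ⟨τ₂, hτ₂E, hτ₂good⟩ : ∃ τ₂ ∈ E ∩ Icc a τ₁,
      ∀ᵐ τ : ℝ, Good Q μ c B T (τ, x + ht μ T' τ₂) := by
    by_contra hcon
    apply hposE
    set D : Set ℝ := {τ | HasDerivAt (ht μ T') (-μ τ) τ} with hD
    have hDae : volume Dᶜ = 0 := by
      have := ht_hasDerivAt hμm hμ0 hμ1 T'
      rwa [ae_iff] at this
    have hS1 : volume ((E ∩ Icc a τ₁) ∩ D) = 0 := by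
      refine null_of_image_null (ht_lipschitz hμm hμ0 hμ1 T').continuous
        (ht_antitone hμm hμ0 hμ1 T') _ ?_ ?_
      · rintro τ ⟨⟨hτE, _⟩, hτD⟩
        have h3 : HasDerivAt (ht μ T') (-μ τ) τ := hτD
        refine ⟨h3.differentiableAt, ?_⟩
        rw [h3.deriv]
        have : 0 < μ τ := lt_of_le_of_ne (hμ0 τ) (Ne.symm hτE.2.2)
        linarith
      · have hbad : volume {t : ℝ | ¬ ∀ᵐ τ : ℝ, Good Q μ c B T (τ, t)} = 0 := by
          rwa [ae_iff] at hhor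
        have hsub : ht μ T' '' ((E ∩ Icc a τ₁) ∩ D)
            ⊆ (fun y => x + y) ⁻¹' {t : ℝ | ¬ ∀ᵐ τ : ℝ, Good Q μ c B T (τ, t)} := by
          rintro _ ⟨τ, ⟨hτE, _⟩, rfl⟩
          exact fun h => hcon ⟨τ, hτE, h⟩
        refine measure_mono_null hsub ?_
        exact (measurePreserving_add_left volume x).quasiMeasurePreserving.preimage_null hbad
    have hsub2 : E ∩ Icc a τ₁ ⊆ ((E ∩ Icc a τ₁) ∩ D) ∪ Dᶜ := by
      intro τ hτ
      by_cases h : τ ∈ D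
      · exact Or.inl ⟨hτ, h⟩
      · exact Or.inr h
    exact measure_mono_null hsub2 (measure_union_null hS1 hDae)
  obtain ⟨⟨⟨hτ₂0, hτ₂T⟩, hτ₂B, _⟩, hτ₂a, hτ₂τ₁⟩ := hτ₂E
  have h2 := hor_run (τ₂ := τ₂) (t := x + ht μ T' τ₂) hcm hcM hQ hτ₂0
    (by linarith [hh0 τ₂ hτ₂T]) (by linarith [hh1 τ₂ hτ₂T]) hτ₂good
    (fun τ hτ => hB _ _ _ hτ₂B hτ)
  have h3 := hS (x + ht μ T' τ₂) (by linarith [hh0 τ₂ hτ₂T]) (by linarith [hh1 τ₂ hτ₂T])
  have h4 : Q (τ₁, x + ht μ T' τ₁) ≤ Q (τ₂, x + ht μ T' τ₂) + K * δ := by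
    have h5 := hQ.dist_le_mul (τ₁, x + ht μ T' τ₁) (τ₂, x + ht μ T' τ₂)
    have h6 : dist ((τ₁, x + ht μ T' τ₁) : ℝ × ℝ) (τ₂, x + ht μ T' τ₂) ≤ δ := by
      rw [Prod.dist_eq]
      apply max_le
      · rw [Real.dist_eq, abs_le]; constructor <;> linarith
      · rw [dist_add_left]
        have := (ht_lipschitz hμm hμ0 hμ1 T').dist_le_mul τ₁ τ₂
        rw [NNReal.coe_one, one_mul] at this
        refine this.trans ?_
        rw [Real.dist_eq, abs_le]; constructor <;> linarith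
    have h7 := mul_le_mul_of_nonneg_left h6 K.coe_nonneg
    rw [Real.dist_eq] at h5
    linarith [le_abs_self (Q (τ₁, x + ht μ T' τ₁) - Q (τ₂, x + ht μ T' τ₂))]
  have h8 : ∫ s in (0:ℝ)..T', c s = (∫ s in (0:ℝ)..τ₂, c s) + (∫ s in τ₂..τ₁, c s)
      + ∫ s in τ₁..T', c s := by
    rw [intervalIntegral.integral_add_adjacent_intervals (c_intInt hcm hcM _ _)
      (c_intInt hcm hcM _ _), intervalIntegral.integral_add_adjacent_intervals
      (c_intInt hcm hcM _ _) (c_intInt hcm hcM _ _)]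
  have h9 : |∫ s in τ₂..τ₁, c s| ≤ M * δ := by
    have h10 := intervalIntegral.norm_integral_le_of_norm_le_const (a := τ₂) (b := τ₁) (C := M)
      (f := c) (fun s _ => by rw [Real.norm_eq_abs]; exact hcM s)
    rw [Real.norm_eq_abs] at h10
    refine h10.trans (mul_le_mul_of_nonneg_left ?_ hM)
    rw [abs_of_nonneg (by linarith)]
    linarith
  have h11 : (K : ℝ) * δ + M * δ ≤ ε := by
    have : ((K : ℝ) + M + 1) * δ = ε := by rw [hδ]; field_simp
    nlinarith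
  have h12 := neg_abs_le (∫ s in τ₂..τ₁, c s)
  linarith

end

/-- **Transport lemma** on the triangle, globally Lipschitz version. -/
theorem transport_global {T : ℝ} (hT : 0 ≤ T) {μ c : ℝ → ℝ} (hμm : Measurable μ)
    (hμ0 : ∀ s, 0 ≤ μ s) (hμ1 : ∀ s, μ s ≤ 1) (hcm : Measurable c) {M : ℝ} (hcM : ∀ s, |c s| ≤ M)
    {Q : ℝ × ℝ → ℝ} {K : ℝ≥0} (hQ : LipschitzWith K Q) {B : Set (ℝ × ℝ)}
    (hB : ∀ τ τ' t, (τ, t) ∈ B → τ' ≤ τ → (τ', t) ∈ B)
    (hgood : ∀ᵐ q : ℝ × ℝ, Good Q μ c B T q) {S : ℝ}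
    (hS : ∀ t, 0 ≤ t → t ≤ T → Q (0, t) ≤ S) :
    Q (T, 0) ≤ S + ∫ s in (0:ℝ)..T, c s := by
  have hM : 0 ≤ M := (abs_nonneg _).trans (hcM 0)
  rcases hT.eq_or_lt with rfl | hT
  · simpa using hS 0 le_rfl le_rfl
  refine le_of_forall_pos_le_add fun ε hε => ?_
  set δ : ℝ := min (ε / (2 * (K : ℝ) + M + 1)) (T / 2) with hδ
  have hKM : 0 < 2 * (K : ℝ) + M + 1 := by positivity
  have hδ0 : 0 < δ := lt_min (div_pos hε hKM) (by linarith)
  have hδT : δ ≤ T / 2 := min_le_right _ _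
  set T' : ℝ := T - δ with hT'
  have hT'0 : 0 < T' := by linarith
  have hhor := ae_ae_swap hgood
  have hsh : ∀ᵐ x : ℝ, ∀ᵐ τ : ℝ, Good Q μ c B T (τ, x + ht μ T' τ) := by
    have h1 := (shear_preserving hμm hμ0 hμ1 T').quasiMeasurePreserving.ae hgood
    exact ae_ae_swap h1
  obtain ⟨x, hx, hxg⟩ : ∃ x ∈ Ioo (0:ℝ) δ, ∀ᵐ τ : ℝ, Good Q μ c B T (τ, x + ht μ T' τ) := by
    by_contra hcon
    rw [ae_iff] at hsh
    have h2 : volume (Ioo (0:ℝ) δ) = 0 :=
      measure_mono_null (fun x hx h => hcon ⟨x, hx, h⟩) hsh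
    rw [Real.volume_Ioo, sub_zero, ENNReal.ofReal_eq_zero] at h2
    linarith
  have h3 := path_bound hμm hμ0 hμ1 hcm hcM hQ hB hT'0 hx.1 (by linarith [hx.2]) hxg hhor hS
  have h4 : Q (T, 0) ≤ Q (T', x) + K * δ := by
    have h5 := hQ.dist_le_mul (T, 0) (T', x)
    have h6 : dist ((T, 0) : ℝ × ℝ) (T', x) ≤ δ := by
      rw [Prod.dist_eq]
      apply max_le
      · rw [Real.dist_eq, abs_le]; constructor <;> linarith
      · rw [Real.dist_eq, abs_le]; constructor <;> linarith [hx.1, hx.2]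
    have h7 := mul_le_mul_of_nonneg_left h6 K.coe_nonneg
    rw [Real.dist_eq] at h5
    linarith [le_abs_self (Q (T, 0) - Q (T', x))]
  have h8 : ∫ s in (0:ℝ)..T, c s = (∫ s in (0:ℝ)..T', c s) + ∫ s in T'..T, c s := by
    rw [intervalIntegral.integral_add_adjacent_intervals (c_intInt hcm hcM _ _)
      (c_intInt hcm hcM _ _)]
  have h9 : |∫ s in T'..T, c s| ≤ M * δ := by
    have h10 := intervalIntegral.norm_integral_le_of_norm_le_const (a := T') (b := T) (C := M)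
      (f := c) (fun s _ => by rw [Real.norm_eq_abs]; exact hcM s)
    rw [Real.norm_eq_abs] at h10
    refine h10.trans (mul_le_mul_of_nonneg_left ?_ hM)
    rw [abs_of_nonneg (by linarith)]
    linarith
  have h11 : (K : ℝ) * δ + M * δ ≤ ε := by
    have h12 : δ ≤ ε / (2 * (K : ℝ) + M + 1) := min_le_left _ _
    rw [le_div_iff₀ hKM] at h12
    nlinarith [K.coe_nonneg]
  have h12 := neg_abs_le (∫ s in T'..T, c s)
  linarith

/-- the closed triangle. -/
def tri (T : ℝ) : Set (ℝ × ℝ) := {q | 0 ≤ q.1 ∧ 0 ≤ q.2 ∧ q.1 + q.2 ≤ T}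

/-- **Transport lemma**: `P` Lipschitz on the triangle only; at almost every point of the open
triangle every total derivative `L` of `P` satisfies one of the two inequalities. -/
theorem transport {T : ℝ} (hT : 0 ≤ T) {μ c : ℝ → ℝ} (hμm : Measurable μ)
    (hμ0 : ∀ s, 0 ≤ μ s) (hμ1 : ∀ s, μ s ≤ 1) (hcm : Measurable c) {M : ℝ} (hcM : ∀ s, |c s| ≤ M)
    {P : ℝ × ℝ → ℝ} {K : ℝ≥0} (hP : LipschitzOnWith K P (tri T)) {B : Set (ℝ × ℝ)}
    (hB : ∀ τ τ' t, (τ, t) ∈ B → τ' ≤ τ → (τ', t) ∈ B)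
    (hae : ∀ᵐ q : ℝ × ℝ, 0 < q.1 → 0 < q.2 → q.1 + q.2 < T → ∀ L : ℝ × ℝ →L[ℝ] ℝ,
      HasFDerivAt P L q → (q ∈ B → L (1, 0) ≤ c q.1) ∧
        (q ∉ B → L (1, 0) - μ q.1 * L (0, 1) ≤ c q.1)) {S : ℝ}
    (hS : ∀ t, 0 ≤ t → t ≤ T → P (0, t) ≤ S) :
    P (T, 0) ≤ S + ∫ s in (0:ℝ)..T, c s := by
  obtain ⟨Q, hQ, hPQ⟩ := hP.extend_real
  have hopen : IsOpen {q : ℝ × ℝ | 0 < q.1 ∧ 0 < q.2 ∧ q.1 + q.2 < T} := by
    have h1 : IsOpen {q : ℝ × ℝ | 0 < q.1} := isOpen_lt continuous_const (by fun_prop)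
    have h2 : IsOpen {q : ℝ × ℝ | 0 < q.2} := isOpen_lt continuous_const (by fun_prop)
    have h3 : IsOpen {q : ℝ × ℝ | q.1 + q.2 < T} := isOpen_lt (by fun_prop) continuous_const
    exact h1.inter (h2.inter h3)
  have hgood : ∀ᵐ q : ℝ × ℝ, Good Q μ c B T q := by
    filter_upwards [hae, hQ.ae_differentiableAt] with q hq hd h1 h2 h3
    have he : P =ᶠ[𝓝 q] Q := by
      filter_upwards [hopen.mem_nhds ⟨h1, h2, h3⟩] with q' hq'
      exact hPQ ⟨hq'.1.le, hq'.2.1.le, hq'.2.2.le⟩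
    have hP' : HasFDerivAt P (fderiv ℝ Q q) q := hd.hasFDerivAt.congr_of_eventuallyEq he
    exact ⟨hd, hq h1 h2 h3 _ hP'⟩
  have h := transport_global hT hμm hμ0 hμ1 hcm hcM hQ hB hgood (S := S) (fun t h0 h1 => by
    rw [← hPQ (show ((0 : ℝ), t) ∈ tri T from ⟨le_rfl, h0, by simpa using h1⟩)]
    exact hS t h0 h1)
  rwa [← hPQ (show (T, (0 : ℝ)) ∈ tri T from ⟨hT, le_rfl, by simp⟩)] at h

end Crest.Agent.R138.Tsp535
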