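import Mathlib
import Crest.Agent.R138.Defs_665

/-!
# R138 / R139: discrete wave packets, part 1 (helper685): uniform kernel bound for caps.
-/

set_option autoImplicit false

open MeasureTheory FourierTransform
open scoped ContDiff

namespace Crest.Agent.R138.Wpk685

open Crest.Agent.R138.Defs

/-! ### the character -/

theorem norm_ee (t : ℝ) : ‖ee t‖ = 1 := by
  unfold ee
  exact Complex.norm_exp_ofReal_mul_I _

theorem ee_add (s t : ℝ) : ee (s + t) = ee s * ee t := by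
  unfold ee
  rw [← Complex.exp_add]
  congr 1
  push_cast
  ring

theorem ee_zero : ee 0 = 1 := by simp [ee]

theorem contDiff_ee : ContDiff ℝ ∞ ee := by
  unfold ee
  have h1 : ContDiff ℝ ∞ fun t : ℝ => ((2 * Real.pi * t : ℝ) : ℂ) :=
    Complex.ofRealCLM.contDiff.comp (contDiff_const.mul contDiff_id)
  exact (h1.mul contDiff_const).cexp

theorem continuous_ee : Continuous ee := contDiff_ee.continuous

theorem hasDerivAt_ee_mul (s u : ℝ) :
    HasDerivAt (fun u => ee (s * u)) ((2 * Real.pi * s : ℝ) * Complex.I * ee (s * u)) u := by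
  unfold ee
  have h1 : HasDerivAt (fun u : ℝ => (((2 * Real.pi * (s * u) : ℝ) : ℂ) * Complex.I))
      ((2 * Real.pi * s : ℝ) * Complex.I) u := by
    have h2 : HasDerivAt (fun u : ℝ => 2 * Real.pi * (s * u)) (2 * Real.pi * s) u := by
      have := ((hasDerivAt_id u).const_mul s).const_mul (2 * Real.pi)
      simpa [mul_assoc] using this
    exact h2.ofReal_comp.mul_const _
  have := h1.cexp
  convert this using 1
  ring

theorem iteratedDeriv_ee_mul (s : ℝ) (j : ℕ) :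
    iteratedDeriv j (fun u => ee (s * u)) = fun u => ((2 * Real.pi * s : ℝ) * Complex.I) ^ j *
      ee (s * u) := by
  induction j with
  | zero => simp
  | succ j ih =>
    rw [iteratedDeriv_succ, ih]
    ext u
    rw [deriv_const_mul _ (hasDerivAt_ee_mul s u).differentiableAt, (hasDerivAt_ee_mul s u).deriv]
    ring

theorem norm_iteratedFDeriv_ee_mul (s : ℝ) (j : ℕ) (u : ℝ) :
    ‖iteratedFDeriv ℝ j (fun u => ee (s * u)) u‖ = (2 * Real.pi * |s|) ^ j := by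
  rw [norm_iteratedFDeriv_eq_norm_iteratedDeriv, iteratedDeriv_ee_mul]
  simp only [norm_mul, norm_pow, norm_ee, mul_one, Complex.norm_I, Complex.norm_real,
    Real.norm_eq_abs, abs_two, abs_of_pos Real.pi_pos]

/-! ### decay of Fourier transforms of compactly supported smooth functions -/

theorem fourierInv_eq_int (f : E2 → ℂ) (y : E2) : 𝓕⁻ f y = ∫ ζ, f ζ * ee (inner ℝ y ζ) := by
  rw [Real.fourierInv_eq']
  congr 1
  ext ζ
  rw [smul_eq_mul, mul_comm, real_inner_comm]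
  unfold ee
  push_cast
  ring_nf

theorem fourier_decay (N : ℕ) : ∃ C : ℝ, 0 < C ∧ ∀ (f : E2 → ℂ) (A : ℝ), ContDiff ℝ N f →
    (∀ ζ, 3 < ‖ζ‖ → f ζ = 0) → (∀ j ≤ N, ∀ ζ, ‖iteratedFDeriv ℝ j f ζ‖ ≤ A) → ∀ y,
      (1 + ‖y‖) ^ N * ‖∫ ζ, f ζ * ee (inner ℝ y ζ)‖ ≤ C * A := by
  set v : ℝ := (volume (Metric.closedBall (0 : E2) 3)).toReal with hv
  have hv0 : 0 ≤ v := ENNReal.toReal_nonneg
  refine ⟨2 ^ N * (2 ^ N + 2 ^ N) * ((N + 1) * v + 1), by positivity, ?_⟩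
  intro f A hf hs hA y
  have hA0 : 0 ≤ A := (norm_nonneg _).trans (hA 0 (Nat.zero_le _) 0)
  have hts : tsupport f ⊆ Metric.closedBall 0 3 := by
    apply closure_minimal _ Metric.isClosed_closedBall
    intro x hx
    by_contra hx'
    apply hx
    exact hs x (by simpa using hx')
  have hcs : HasCompactSupport f :=
    HasCompactSupport.of_support_subset_isCompact (isCompact_closedBall (0 : E2) 3)
      ((subset_tsupport f).trans hts)
  have hint : ∀ n ≤ N, ∫ ζ, ‖iteratedFDeriv ℝ n f ζ‖ ≤ A * v := by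
    intro n hn
    have h1 : ∀ ζ, ‖iteratedFDeriv ℝ n f ζ‖ ≤
        (Metric.closedBall (0 : E2) 3).indicator (fun _ => A) ζ := by
      intro ζ
      by_cases hζ : ζ ∈ Metric.closedBall (0 : E2) 3
      · rw [Set.indicator_of_mem hζ]; exact hA n hn ζ
      · rw [Set.indicator_of_notMem hζ]
        have : ζ ∉ Function.support (iteratedFDeriv ℝ n f) := fun h =>
          hζ (hts (support_iteratedFDeriv_subset n h))
        rw [Function.notMem_support] at this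
        simp [this]
    calc ∫ ζ, ‖iteratedFDeriv ℝ n f ζ‖ ≤
          ∫ ζ, (Metric.closedBall (0 : E2) 3).indicator (fun _ => A) ζ := by
          apply integral_mono_of_nonneg (Filter.Eventually.of_forall fun ζ => norm_nonneg _) _
            (Filter.Eventually.of_forall h1)
          rw [integrable_indicator_iff Metric.isClosed_closedBall.measurableSet]
          exact integrableOn_const (hs := (isCompact_closedBall (0 : E2) 3).measure_lt_top.ne)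
      _ = A * v := by
          rw [integral_indicator Metric.isClosed_closedBall.measurableSet, setIntegral_const]
          simp [Measure.real, hv, mul_comm]
  have hI : ∀ (k n : ℕ), (k : ℕ∞) ≤ 0 → (n : ℕ∞) ≤ N →
      Integrable (fun v : E2 ↦ ‖v‖ ^ k * ‖iteratedFDeriv ℝ n f v‖) := by
    intro k n hk hn
    have hk0 : k = 0 := by simpa using hk
    subst hk0
    simp only [pow_zero, one_mul]
    have hcont : Continuous (iteratedFDeriv ℝ n f) :=
      hf.continuous_iteratedFDeriv (by exact_mod_cast hn)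
    exact (hcont.integrable_of_hasCompactSupport (hcs.iteratedFDeriv n)).norm
  have key : ∀ n ≤ N, ‖y‖ ^ n * ‖𝓕⁻ f y‖ ≤ 2 ^ N * ((N + 1) * (A * v)) := by
    intro n hn
    have h1 := Real.pow_mul_norm_iteratedFDeriv_fourier_le (K := 0) (N := N) (f := f)
      hf hI (k := 0) (n := n) (by simp) (by exact_mod_cast hn) (-y)
    rw [norm_neg, norm_iteratedFDeriv_zero, ← Real.fourierInv_eq_fourier_neg] at h1
    refine h1.trans ?_
    have h2 : ∑ p ∈ Finset.range (0 + 1) ×ˢ Finset.range (n + 1),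
        ∫ v : E2, ‖v‖ ^ p.1 * ‖iteratedFDeriv ℝ p.2 f v‖ ≤ (n + 1) * (A * v) := by
      rw [Finset.sum_product]
      simp only [zero_add, Finset.range_one, Finset.sum_singleton, pow_zero, one_mul]
      calc _ ≤ ∑ _p ∈ Finset.range (n + 1), A * v := by
            apply Finset.sum_le_sum
            intro p hp
            exact hint p ((Nat.lt_succ_iff.1 (Finset.mem_range.1 hp)).trans hn)
        _ = _ := by simp
    have h3 : (0:ℝ) ≤ A * v := by positivity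
    calc (2 * Real.pi) ^ 0 * (2 * ((0:ℕ):ℝ) + 2) ^ n * ∑ p ∈ Finset.range (0 + 1) ×ˢ
          Finset.range (n + 1), ∫ v : E2, ‖v‖ ^ p.1 * ‖iteratedFDeriv ℝ p.2 f v‖
        ≤ (2 * Real.pi) ^ 0 * (2 * ((0:ℕ):ℝ) + 2) ^ n * ((n + 1) * (A * v)) := by
          gcongr
      _ = 2 ^ n * ((n + 1) * (A * v)) := by simp
      _ ≤ 2 ^ N * ((N + 1) * (A * v)) := by
          have : (n:ℝ) ≤ N := by exact_mod_cast hn
          have h4 : (2:ℝ) ^ n ≤ 2 ^ N := pow_le_pow_right₀ (by norm_num) hn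
          gcongr
  rw [← fourierInv_eq_int]
  have h5 : (1 + ‖y‖) ^ N ≤ 2 ^ N * (1 + ‖y‖ ^ N) := by
    rcases Nat.eq_zero_or_pos N with h0 | h0
    · subst h0; simp
    · have := add_pow_le (zero_le_one) (norm_nonneg y) N
      calc (1 + ‖y‖) ^ N ≤ 2 ^ (N - 1) * (1 ^ N + ‖y‖ ^ N) := this
        _ ≤ 2 ^ N * (1 ^ N + ‖y‖ ^ N) := by
            gcongr
            · norm_num
            · omega
        _ = _ := by simp
  have k0 := key 0 (Nat.zero_le _)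
  have kN := key N le_rfl
  rw [pow_zero, one_mul] at k0
  calc (1 + ‖y‖) ^ N * ‖𝓕⁻ f y‖ ≤ 2 ^ N * (1 + ‖y‖ ^ N) * ‖𝓕⁻ f y‖ := by gcongr
    _ = 2 ^ N * (‖𝓕⁻ f y‖ + ‖y‖ ^ N * ‖𝓕⁻ f y‖) := by ring
    _ ≤ 2 ^ N * (2 ^ N * ((N + 1) * (A * v)) + 2 ^ N * ((N + 1) * (A * v))) := by gcongr
    _ = 2 ^ N * (2 ^ N + 2 ^ N) * ((N + 1) * v) * A := by ring
    _ ≤ 2 ^ N * (2 ^ N + 2 ^ N) * ((N + 1) * v + 1) * A := by
        gcongr
        linarith

/-! ### the rescaled phase -/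

/-- the parabolically rescaled phase. -/
noncomputable def rph (h : E2 → ℝ) (ξ0 : E2) (l : ℝ) (ζ : E2) : ℝ :=
  (l ^ 2)⁻¹ * (h (ξ0 + l • ζ) - h ξ0 - l * inner ℝ (gradient h ξ0) ζ)

theorem ext_phase (h : E2 → ℝ) (ξ0 : E2) {l : ℝ} (hl : l ≠ 0) (ζ x : E2) (t : ℝ) :
    inner ℝ x (ξ0 + l • ζ) + t * h (ξ0 + l • ζ) =
      (inner ℝ x ξ0 + t * h ξ0) + (t * l ^ 2 * rph h ξ0 l ζ +
        inner ℝ (l • (x + t • gradient h ξ0)) ζ) := by
  have h1 : l ^ 2 * rph h ξ0 l ζ = h (ξ0 + l • ζ) - h ξ0 - l * inner ℝ (gradient h ξ0) ζ := by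
    unfold rph
    rw [mul_inv_cancel_left₀ (pow_ne_zero 2 hl)]
  rw [mul_assoc, h1]
  simp only [inner_add_right, inner_add_left, inner_smul_right, inner_smul_left, conj_trivial]
  ring

theorem fderiv_half_sq : fderiv ℝ (fun ξ : E2 => ‖ξ‖ ^ 2 / 2) = fun ξ => innerSL ℝ ξ := by
  ext1 ξ
  have h1 : HasFDerivAt (fun ξ : E2 => ‖ξ‖ ^ 2) (2 • (innerSL ℝ ξ)) ξ :=
    (hasStrictFDerivAt_norm_sq ξ).hasFDerivAt
  have h2 := h1.mul_const ((2:ℝ)⁻¹)
  have h3 : (fun ξ : E2 => ‖ξ‖ ^ 2 / 2) = fun ξ : E2 => ‖ξ‖ ^ 2 * (2:ℝ)⁻¹ := by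
    ext; ring
  rw [h3, h2.fderiv]
  ext v
  simp

theorem norm_half_sq_le (k : ℕ) (hk : 2 ≤ k) (ξ : E2) :
    ‖iteratedFDeriv ℝ k (fun ξ : E2 => ‖ξ‖ ^ 2 / 2) ξ‖ ≤ 1 := by
  obtain ⟨j, rfl⟩ : ∃ j, k = j + 1 + 1 := ⟨k - 2, by omega⟩
  rw [← norm_iteratedFDeriv_fderiv, fderiv_half_sq]
  have h1 : (fun ξ : E2 => innerSL ℝ ξ) = (innerSL ℝ : E2 →L[ℝ] E2 →L[ℝ] ℝ) := rfl
  rw [h1, ← norm_iteratedFDeriv_fderiv]
  have h2 : fderiv ℝ (⇑(innerSL ℝ : E2 →L[ℝ] E2 →L[ℝ] ℝ)) = fun _ => innerSL ℝ := by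
    ext1 x; exact (innerSL ℝ : E2 →L[ℝ] E2 →L[ℝ] ℝ).fderiv
  rw [h2]
  rcases Nat.eq_zero_or_pos j with h0 | h0
  · subst h0
    rw [norm_iteratedFDeriv_zero]
    exact norm_innerSL_le ℝ
  · rw [iteratedFDeriv_const_of_ne (by omega)]
    simp

theorem norm_phase_le {B : ℕ → ℝ} {h : E2 → ℝ} (hh : ParB B h) (k : ℕ) (hk : 2 ≤ k) (ξ : E2) :
    ‖iteratedFDeriv ℝ k h ξ‖ ≤ 1 + B k := by
  have h0 : ContDiff ℝ ∞ (fun ξ : E2 => ‖ξ‖ ^ 2 / 2) := (contDiff_norm_sq ℝ).div_const 2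
  have h1 : h = (fun ξ : E2 => ‖ξ‖ ^ 2 / 2) + fun ξ => h ξ - ‖ξ‖ ^ 2 / 2 := by
    ext ξ; simp
  rw [h1, iteratedFDeriv_add_apply]
  · exact (norm_add_le _ _).trans (add_le_add (norm_half_sq_le k hk ξ) (hh.2 k hk ξ))
  · exact (h0.of_le (mod_cast le_top)).contDiffAt
  · exact ((hh.1.sub h0).of_le (mod_cast le_top)).contDiffAt

theorem contDiff_rph {h : E2 → ℝ} (hh : ContDiff ℝ ∞ h) (ξ0 : E2) (l : ℝ) :
    ContDiff ℝ ∞ (rph h ξ0 l) := by
  unfold rph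
  have h1 : ContDiff ℝ ∞ fun ζ : E2 => h (ξ0 + l • ζ) :=
    hh.comp (contDiff_const.add (contDiff_id.const_smul l))
  have h2 : ContDiff ℝ ∞ fun ζ : E2 => inner ℝ (gradient h ξ0) ζ :=
    contDiff_const.inner ℝ contDiff_id
  exact contDiff_const.mul ((h1.sub contDiff_const).sub (contDiff_const.mul h2))

theorem fderiv_rph {h : E2 → ℝ} (hh : ContDiff ℝ ∞ h) (ξ0 : E2) {l : ℝ} (hl : l ≠ 0) (ζ : E2) :
    fderiv ℝ (rph h ξ0 l) ζ = l⁻¹ • (fderiv ℝ h (ξ0 + l • ζ) - fderiv ℝ h ξ0) := by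
  have hd : Differentiable ℝ h := hh.differentiable (by simp)
  have h1 : HasFDerivAt (fun ζ : E2 => h (ξ0 + l • ζ)) (l • fderiv ℝ h (ξ0 + l • ζ)) ζ := by
    have h2 : HasFDerivAt (fun ζ : E2 => ξ0 + l • ζ) (l • ContinuousLinearMap.id ℝ E2) ζ :=
      ((hasFDerivAt_id ζ).const_smul l).const_add ξ0
    have h3 := (hd (ξ0 + l • ζ)).hasFDerivAt.comp ζ h2
    refine h3.congr_fderiv ?_
    ext v
    simp
  have h4 : HasFDerivAt (fun ζ : E2 => inner ℝ (gradient h ξ0) ζ) (fderiv ℝ h ξ0) ζ := by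
    have h5 : fderiv ℝ h ξ0 = innerSL ℝ (gradient h ξ0) := by
      ext v
      simp [gradient]
    rw [h5]
    exact (innerSL ℝ (gradient h ξ0)).hasFDerivAt
  have h6 := ((h1.sub_const (h ξ0)).sub (h4.const_mul l)).const_mul ((l ^ 2)⁻¹)
  have h7 : HasFDerivAt (rph h ξ0 l) ((l ^ 2)⁻¹ • (l • fderiv ℝ h (ξ0 + l • ζ) -
      l • fderiv ℝ h ξ0)) ζ := h6
  rw [h7.fderiv, ← smul_sub, smul_smul]
  congr 1
  field_simp

theorem norm_iteratedFDeriv_rph_le {B : ℕ → ℝ} {h : E2 → ℝ} (hh : ParB B h) (ξ0 : E2) {l : ℝ}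
    (hl : 0 < l) (hl1 : l ≤ 1) (k : ℕ) (hk : 2 ≤ k) (ζ : E2) :
    ‖iteratedFDeriv ℝ k (rph h ξ0 l) ζ‖ ≤ 1 + B k := by
  obtain ⟨j, rfl⟩ : ∃ j, k = j + 1 + 1 := ⟨k - 2, by omega⟩
  have hB : 0 ≤ 1 + B (j + 1 + 1) := (norm_nonneg _).trans (norm_phase_le hh (j + 1 + 1) hk ζ)
  rw [← norm_iteratedFDeriv_fderiv]
  have h1 : fderiv ℝ (rph h ξ0 l) = fun ζ => l⁻¹ • (fderiv ℝ h (ξ0 + l • ζ) - fderiv ℝ h ξ0) := by
    ext1 ζ; exact fderiv_rph hh.1 ξ0 hl.ne' ζ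
  have hfd : ContDiff ℝ ∞ (fderiv ℝ h) := hh.1.fderiv_right (m := ∞) (by simp)
  set G : E2 → (E2 →L[ℝ] ℝ) := fun ζ => fderiv ℝ h (ξ0 + ζ) with hG
  have hGc : ContDiff ℝ ∞ G := hfd.comp (contDiff_const.add contDiff_id)
  have hGl : ContDiff ℝ ∞ (fun ζ : E2 => G (l • ζ)) := hGc.comp (contDiff_id.const_smul l)
  have h2 : (fun ζ : E2 => l⁻¹ • (fderiv ℝ h (ξ0 + l • ζ) - fderiv ℝ h ξ0)) =
      l⁻¹ • ((fun ζ : E2 => G (l • ζ)) - fun _ => fderiv ℝ h ξ0) := by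
    ext1 ζ; simp [hG]
  rw [h1, h2, iteratedFDeriv_const_smul_apply, iteratedFDeriv_sub_apply]
  · rw [iteratedFDeriv_const_of_ne (by omega)]
    rw [iteratedFDeriv_comp_const_smul l (hGc.of_le (mod_cast le_top))]
    simp only [Pi.zero_apply, sub_zero]
    rw [norm_smul, norm_smul, norm_pow, norm_inv, Real.norm_eq_abs, abs_of_pos hl]
    have h3 : ‖iteratedFDeriv ℝ (j + 1) G (l • ζ)‖ ≤ 1 + B (j + 1 + 1) := by
      rw [hG, iteratedFDeriv_comp_add_left, norm_iteratedFDeriv_fderiv]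
      exact norm_phase_le hh _ hk _
    calc l⁻¹ * (l ^ (j + 1) * ‖iteratedFDeriv ℝ (j + 1) G (l • ζ)‖)
        = l ^ j * ‖iteratedFDeriv ℝ (j + 1) G (l • ζ)‖ := by
          field_simp
          ring
      _ ≤ 1 * (1 + B (j + 1 + 1)) := by
          gcongr
          exact pow_le_one₀ hl.le hl1
      _ = _ := one_mul _
  · exact (hGl.of_le (mod_cast le_top)).contDiffAt
  · exact contDiffAt_const
  · exact ((hGl.sub contDiff_const).of_le (mod_cast le_top)).contDiffAt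

theorem norm_fderiv_rph_le {B : ℕ → ℝ} {h : E2 → ℝ} (hh : ParB B h) (ξ0 : E2) {l : ℝ}
    (hl : 0 < l) (hl1 : l ≤ 1) (ζ : E2) :
    ‖fderiv ℝ (rph h ξ0 l) ζ‖ ≤ (1 + B 2) * ‖ζ‖ := by
  have h0 : fderiv ℝ (rph h ξ0 l) 0 = 0 := by
    rw [fderiv_rph hh.1 ξ0 hl.ne']
    simp
  have hfd : ContDiff ℝ ∞ (fderiv ℝ (rph h ξ0 l)) :=
    (contDiff_rph hh.1 ξ0 l).fderiv_right (m := ∞) (by simp)
  have h1 : ∀ z ∈ (Set.univ : Set E2), ‖fderiv ℝ (fderiv ℝ (rph h ξ0 l)) z‖ ≤ 1 + B 2 := by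
    intro z _
    have h2 := norm_iteratedFDeriv_rph_le hh ξ0 hl hl1 2 le_rfl z
    rw [← norm_iteratedFDeriv_fderiv, ← norm_iteratedFDeriv_fderiv, norm_iteratedFDeriv_zero] at h2
    exact h2
  have h3 := convex_univ.norm_image_sub_le_of_norm_fderiv_le (𝕜 := ℝ)
    (fun x _ => (hfd.differentiable (by simp)) x) h1 (Set.mem_univ (0 : E2)) (Set.mem_univ ζ)
  rwa [h0, sub_zero, sub_zero] at h3

/-! ### the uniform kernel bound -/

/-- the profile whose Fourier transform is the kernel of a rescaled cap. -/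
noncomputable def prof (a : E2 → ℂ) (h : E2 → ℝ) (ξ0 : E2) (l s : ℝ) (ζ : E2) : ℂ :=
  a ζ * ee (s * rph h ξ0 l ζ)

theorem contDiff_prof {a : E2 → ℂ} (ha : ContDiff ℝ ∞ a) {h : E2 → ℝ} (hh : ContDiff ℝ ∞ h)
    (ξ0 : E2) (l s : ℝ) : ContDiff ℝ ∞ (prof a h ξ0 l s) :=
  ha.mul (contDiff_ee.comp (contDiff_const.mul (contDiff_rph hh ξ0 l)))

theorem norm_iteratedFDeriv_prof_le (B : ℕ → ℝ) (N : ℕ) {a : E2 → ℂ} (ha : ContDiff ℝ ∞ a)
    (has : ∀ ζ, 3 < ‖ζ‖ → a ζ = 0) : ∃ C : ℝ, 0 ≤ C ∧ ∀ h, ParB B h → ∀ (ξ0 : E2) (l s : ℝ),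
      0 < l → l ≤ 1 → |s| ≤ 1 → ∀ j ≤ N, ∀ ζ, ‖iteratedFDeriv ℝ j (prof a h ξ0 l s) ζ‖ ≤ C := by
  have hts : tsupport a ⊆ Metric.closedBall 0 3 := by
    apply closure_minimal _ Metric.isClosed_closedBall
    intro x hx
    by_contra hx'
    apply hx
    exact has x (by simpa using hx')
  have hcs : HasCompactSupport a :=
    HasCompactSupport.of_support_subset_isCompact (isCompact_closedBall (0 : E2) 3)
      ((subset_tsupport a).trans hts)
  have hbd : ∀ j : ℕ, ∃ C : ℝ, ∀ ζ, ‖iteratedFDeriv ℝ j a ζ‖ ≤ C := by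
    intro j
    have hc : Continuous (iteratedFDeriv ℝ j a) := ha.continuous_iteratedFDeriv (mod_cast le_top)
    obtain ⟨C, hC⟩ := (hcs.iteratedFDeriv j).exists_bound_of_continuous hc
    exact ⟨C, hC⟩
  choose Ca hCa using hbd
  have hCa0 : ∀ j, 0 ≤ Ca j := fun j => (norm_nonneg _).trans (hCa j 0)
  set D : ℝ := 1 + 3 * ∑ k ∈ Finset.range (N + 3), (1 + |B k|) with hD
  have hDsum : ∀ k < N + 3, 3 * (1 + |B k|) ≤ D - 1 := by
    intro k hk
    have : 1 + |B k| ≤ ∑ k ∈ Finset.range (N + 3), (1 + |B k|) :=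
      Finset.single_le_sum (f := fun k => 1 + |B k|) (fun i _ => by positivity)
        (Finset.mem_range.2 hk)
    rw [hD]; linarith
  have hD1 : 1 ≤ D := by
    have := hDsum 0 (by omega)
    have h2 : 0 ≤ |B 0| := abs_nonneg _
    linarith
  set E : ℝ := (2 * Real.pi) ^ N with hE
  have hpi : 1 ≤ 2 * Real.pi := by linarith [Real.pi_gt_three]
  have hE1 : 1 ≤ E := one_le_pow₀ hpi
  refine ⟨∑ j ∈ Finset.range (N + 1), ∑ i ∈ Finset.range (j + 1),
    (j.choose i : ℝ) * Ca i * ((j - i).factorial * E * D ^ (j - i)), ?_, ?_⟩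
  · apply Finset.sum_nonneg; intro j _
    apply Finset.sum_nonneg; intro i _
    have := hCa0 i
    positivity
  intro h hh ξ0 l s hl hl1 hs j hj ζ
  have hr : ContDiff ℝ ∞ (rph h ξ0 l) := contDiff_rph hh.1 ξ0 l
  have he : ContDiff ℝ ∞ (fun u => ee (s * u)) := contDiff_ee.comp (contDiff_const.mul contDiff_id)
  -- derivatives of the exponential on the ball
  have hexp : ∀ i ≤ N, ‖ζ‖ ≤ 3 → ‖iteratedFDeriv ℝ i (fun ζ => ee (s * rph h ξ0 l ζ)) ζ‖ ≤
      i.factorial * E * D ^ i := by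
    intro i hi hζ
    have := norm_iteratedFDeriv_comp_le (g := fun u => ee (s * u)) (f := rph h ξ0 l) (n := i)
      (N := ∞) he hr (mod_cast le_top) ζ (C := E) (D := D) ?_ ?_
    · exact this
    · intro m hm
      rw [norm_iteratedFDeriv_ee_mul]
      calc (2 * Real.pi * |s|) ^ m ≤ (2 * Real.pi * 1) ^ m := by gcongr
        _ = (2 * Real.pi) ^ m := by ring
        _ ≤ (2 * Real.pi) ^ N := pow_le_pow_right₀ hpi (hm.trans hi)
    · intro m hm1 hm
      rcases Nat.lt_or_ge m 2 with h2 | h2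
      · obtain rfl : m = 1 := by omega
        have h3 := norm_fderiv_rph_le hh ξ0 hl hl1 ζ
        rw [← norm_iteratedFDeriv_zero (𝕜 := ℝ) (f := fderiv ℝ (rph h ξ0 l)),
          norm_iteratedFDeriv_fderiv] at h3
        have h4 := hDsum 2 (by omega)
        have h5 : B 2 ≤ |B 2| := le_abs_self _
        have h6 : 0 ≤ 1 + B 2 := (norm_nonneg _).trans (norm_phase_le hh 2 le_rfl 0)
        calc _ ≤ (1 + B 2) * ‖ζ‖ := h3
          _ ≤ (1 + B 2) * 3 := by gcongr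
          _ ≤ D ^ 1 := by rw [pow_one]; linarith
      · have h3 := norm_iteratedFDeriv_rph_le hh ξ0 hl hl1 m h2 ζ
        have h4 := hDsum m (by omega)
        have h5 : B m ≤ |B m| := le_abs_self _
        have h6 : 0 ≤ |B m| := abs_nonneg _
        calc _ ≤ 1 + B m := h3
          _ ≤ D := by linarith
          _ ≤ D ^ m := le_self_pow₀ hD1 (by omega)
  by_cases hζ : ‖ζ‖ ≤ 3
  · have h1 := norm_iteratedFDeriv_mul_le (𝕜 := ℝ) (N := ∞) ha (he.comp hr) ζ (n := j)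
      (mod_cast le_top)
    have h2 : ‖iteratedFDeriv ℝ j (prof a h ξ0 l s) ζ‖ ≤ ∑ i ∈ Finset.range (j + 1),
        (j.choose i : ℝ) * Ca i * ((j - i).factorial * E * D ^ (j - i)) := by
      refine h1.trans (Finset.sum_le_sum fun i hi => ?_)
      have hi' := Finset.mem_range.1 hi
      have h3 := hexp (j - i) (by omega) hζ
      have h4 := hCa i ζ
      have h5 : 0 ≤ Ca i := hCa0 i
      have h6 : ‖iteratedFDeriv ℝ (j - i) ((fun u => ee (s * u)) ∘ rph h ξ0 l) ζ‖ ≤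
          (j - i).factorial * E * D ^ (j - i) := h3
      gcongr
    refine h2.trans ?_
    exact Finset.single_le_sum (f := fun j => ∑ i ∈ Finset.range (j + 1),
        (j.choose i : ℝ) * Ca i * ((j - i).factorial * E * D ^ (j - i)))
      (fun j _ => Finset.sum_nonneg fun i _ => by have := hCa0 i; positivity)
      (Finset.mem_range.2 (Nat.lt_succ_of_le hj))
  · have hz : iteratedFDeriv ℝ j (prof a h ξ0 l s) ζ = 0 := by
      have h1 : ζ ∉ tsupport (prof a h ξ0 l s) := by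
        intro hmem
        have hsub : tsupport (prof a h ξ0 l s) ⊆ tsupport a := by
          apply closure_mono
          intro x hx hx'
          apply hx
          simp [prof, hx']
        exact hζ (by simpa using hts (hsub hmem))
      have h2 : ζ ∉ Function.support (iteratedFDeriv ℝ j (prof a h ξ0 l s)) := fun h =>
        h1 (support_iteratedFDeriv_subset j h)
      simpa using h2
    rw [hz, norm_zero]
    apply Finset.sum_nonneg; intro j _
    apply Finset.sum_nonneg; intro i _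
    have := hCa0 i
    positivity

/-- **kernel of an isotropic cap**, uniform in the phase, the cap, its position and the time. -/
theorem kernel_bound (B : ℕ → ℝ) (N : ℕ) {a : E2 → ℂ} (ha : ContDiff ℝ ∞ a)
    (has : ∀ ζ, 3 < ‖ζ‖ → a ζ = 0) : ∃ C : ℝ, 0 < C ∧ ∀ h, ParB B h → ∀ (ξ0 : E2) (l t : ℝ),
      0 < l → l ≤ 1 → |t| * l ^ 2 ≤ 1 → ∀ x : E2,
        (1 + l * ‖x + t • gradient h ξ0‖) ^ N *
          ‖∫ ξ, a (l⁻¹ • (ξ - ξ0)) * ee (inner ℝ x ξ + t * h ξ)‖ ≤ C * l ^ 2 := by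
  obtain ⟨C1, hC1, h1⟩ := fourier_decay N
  obtain ⟨C2, hC2, h2⟩ := norm_iteratedFDeriv_prof_le B N ha has
  refine ⟨C1 * (C2 + 1), by positivity, ?_⟩
  intro h hh ξ0 l t hl hl1 ht x
  have hs : |t * l ^ 2| ≤ 1 := by rw [abs_mul, abs_of_nonneg (by positivity : (0:ℝ) ≤ l ^ 2)]; exact ht
  have hp := contDiff_prof ha hh.1 ξ0 l (t * l ^ 2)
  have hps : ∀ ζ, 3 < ‖ζ‖ → prof a h ξ0 l (t * l ^ 2) ζ = 0 := by
    intro ζ hζ; simp [prof, has ζ hζ]
  have h3 := h1 (prof a h ξ0 l (t * l ^ 2)) C2 (hp.of_le (mod_cast le_top)) hps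
    (h2 h hh ξ0 l _ hl hl1 hs) (l • (x + t • gradient h ξ0))
  rw [norm_smul, Real.norm_eq_abs, abs_of_pos hl] at h3
  -- change of variables
  have h4 : ∫ ξ, a (l⁻¹ • (ξ - ξ0)) * ee (inner ℝ x ξ + t * h ξ) =
      ((l ^ 2 : ℝ) : ℂ) * (ee (inner ℝ x ξ0 + t * h ξ0) *
        ∫ ζ, prof a h ξ0 l (t * l ^ 2) ζ * ee (inner ℝ (l • (x + t • gradient h ξ0)) ζ)) := by
    have h5 : ∫ ξ, a (l⁻¹ • (ξ - ξ0)) * ee (inner ℝ x ξ + t * h ξ) =
        ∫ η, a (l⁻¹ • η) * ee (inner ℝ x (ξ0 + η) + t * h (ξ0 + η)) := by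
      rw [← integral_add_left_eq_self (μ := volume) _ ξ0]
      simp
    have h6 : ∫ η, a (l⁻¹ • η) * ee (inner ℝ x (ξ0 + η) + t * h (ξ0 + η)) =
        ∫ η, (fun ζ => a ζ * ee (inner ℝ x (ξ0 + l • ζ) + t * h (ξ0 + l • ζ))) (l⁻¹ • η) := by
      congr 1; ext η
      simp only [smul_smul, mul_inv_cancel₀ hl.ne', one_smul]
    rw [h5, h6]
    have h7 := Measure.integral_comp_inv_smul_of_nonneg (volume : Measure E2)
      (fun ζ => a ζ * ee (inner ℝ x (ξ0 + l • ζ) + t * h (ξ0 + l • ζ))) hl.le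
    refine h7.trans ?_
    have hfr : Module.finrank ℝ E2 = 2 := by simp
    rw [hfr, Complex.real_smul, ← integral_const_mul (ee (inner ℝ x ξ0 + t * h ξ0))]
    congr 2
    ext ζ
    rw [ext_phase h ξ0 hl.ne', ee_add (inner ℝ x ξ0 + t * h ξ0),
      ee_add (t * l ^ 2 * rph h ξ0 l ζ), prof]
    ring
  rw [h4, norm_mul, norm_mul, norm_ee, one_mul, Complex.norm_real, Real.norm_eq_abs,
    abs_of_nonneg (by positivity : (0:ℝ) ≤ l ^ 2)]
  calc _ = l ^ 2 * ((1 + l * ‖x + t • gradient h ξ0‖) ^ N * ‖∫ ζ, prof a h ξ0 l (t * l ^ 2) ζ *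
        ee (inner ℝ (l • (x + t • gradient h ξ0)) ζ)‖) := by ring
    _ ≤ l ^ 2 * (C1 * C2) := by gcongr
    _ ≤ C1 * (C2 + 1) * l ^ 2 := by
        have : 0 ≤ C1 * l ^ 2 := by positivity
        nlinarith

end Crest.Agent.R138.Wpk685
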