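import Mathlib
import Crest.Agent.R138.Tub2_70
import Crest.Agent.R138.Wf2_448
import Crest.Agent.R138.Wpk1_685

/-! Dictionary waves -> weighted tubes, part 4: isotropic caps of size `l ≥ R^{-1/2}`, multipliers
for weights at scale `w = l R`. -/

set_option autoImplicit false

open MeasureTheory FourierTransform
open scoped ENNReal ContDiff

namespace Crest.Agent.R138.Tub70

open Crest.Agent.R138.Defs (ParB ee ext)
open Crest.Agent.R138.Wpk685
open Crest.Agent.R138.Wf448 (Nn wE dw decayL LI adj)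

/-- derivatives of the profile for large times. -/
theorem norm_iteratedFDeriv_prof_le' (B : ℕ → ℝ) (N : ℕ) {a : E2 → ℂ} (ha : ContDiff ℝ ∞ a)
    (has : ∀ ζ, 3 < ‖ζ‖ → a ζ = 0) : ∃ C : ℝ, 0 ≤ C ∧ ∀ h, ParB B h → ∀ (ξ0 : E2) (l s L : ℝ),
      0 < l → l ≤ 1 → 1 ≤ L → |s| ≤ L → ∀ j ≤ N, ∀ ζ,
        ‖iteratedFDeriv ℝ j (prof a h ξ0 l s) ζ‖ ≤ C * L ^ j := by
  have hts : tsupport a ⊆ Metric.closedBall 0 3 := by
    apply closure_minimal _ Metric.isClosed_closedBall
    intro x hx
    by_contra hx'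
    apply hx
    exact has x (by simpa using hx')
  have hcs : HasCompactSupport a :=
    HasCompactSupport.of_support_subset_isCompact (isCompact_closedBall (0 : E2) 3)
      ((subset_tsupport a).trans hts)
  have hbd : ∀ j : ℕ, ∃ C : ℝ, ∀ ζ, ‖iteratedFDeriv ℝ j a ζ‖ ≤ C := by
    intro j
    have hc : Continuous (iteratedFDeriv ℝ j a) := ha.continuous_iteratedFDeriv (mod_cast le_top)
    obtain ⟨C, hC⟩ := (hcs.iteratedFDeriv j).exists_bound_of_continuous hc
    exact ⟨C, hC⟩
  choose Ca hCa using hbd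
  have hCa0 : ∀ j, 0 ≤ Ca j := fun j => (norm_nonneg _).trans (hCa j 0)
  set D : ℝ := 1 + 3 * ∑ k ∈ Finset.range (N + 3), (1 + |B k|) with hD
  have hDsum : ∀ k < N + 3, 3 * (1 + |B k|) ≤ D - 1 := by
    intro k hk
    have : 1 + |B k| ≤ ∑ k ∈ Finset.range (N + 3), (1 + |B k|) :=
      Finset.single_le_sum (f := fun k => 1 + |B k|) (fun i _ => by positivity)
        (Finset.mem_range.2 hk)
    rw [hD]; linarith
  have hD1 : 1 ≤ D := by
    have := hDsum 0 (by omega)
    have h2 : 0 ≤ |B 0| := abs_nonneg _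
    linarith
  set E : ℝ := (2 * Real.pi) ^ N with hE
  have hpi : 1 ≤ 2 * Real.pi := by linarith [Real.pi_gt_three]
  have hE1 : 1 ≤ E := one_le_pow₀ hpi
  refine ⟨∑ j ∈ Finset.range (N + 1), ∑ i ∈ Finset.range (j + 1),
    (j.choose i : ℝ) * Ca i * ((j - i).factorial * E * D ^ (j - i)), ?_, ?_⟩
  · apply Finset.sum_nonneg; intro j _
    apply Finset.sum_nonneg; intro i _
    have := hCa0 i
    positivity
  intro h hh ξ0 l s L hl hl1 hL hs j hj ζ
  have hL0 : 0 < L := by linarith
  have hr : ContDiff ℝ ∞ (fun ζ => L * rph h ξ0 l ζ) :=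
    contDiff_const.mul (contDiff_rph hh.1 ξ0 l)
  have he : ContDiff ℝ ∞ (fun u => ee ((s / L) * u)) :=
    contDiff_ee.comp (contDiff_const.mul contDiff_id)
  have hee : (fun ζ => ee (s * rph h ξ0 l ζ)) = (fun u => ee ((s / L) * u)) ∘
      (fun ζ => L * rph h ξ0 l ζ) := by
    funext ζ
    simp only [Function.comp]
    congr 1
    field_simp
  have hnorm : ∀ m, ∀ ζ, ‖iteratedFDeriv ℝ m (fun ζ => L * rph h ξ0 l ζ) ζ‖ =
      L * ‖iteratedFDeriv ℝ m (rph h ξ0 l) ζ‖ := by
    intro m ζ
    have e : (fun ζ => L * rph h ξ0 l ζ) = L • rph h ξ0 l := by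
      funext ζ; simp
    rw [e, iteratedFDeriv_const_smul_apply, norm_smul, Real.norm_eq_abs, abs_of_pos hL0]
    exact ((contDiff_rph hh.1 ξ0 l).of_le (mod_cast le_top)).contDiffAt
  -- derivatives of the exponential on the ball
  have hexp : ∀ i ≤ N, ‖ζ‖ ≤ 3 → ‖iteratedFDeriv ℝ i (fun ζ => ee (s * rph h ξ0 l ζ)) ζ‖ ≤
      i.factorial * E * (L * D) ^ i := by
    intro i hi hζ
    rw [hee]
    have := norm_iteratedFDeriv_comp_le (g := fun u => ee ((s / L) * u))
      (f := fun ζ => L * rph h ξ0 l ζ) (n := i)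
      (N := ∞) he hr (mod_cast le_top) ζ (C := E) (D := L * D) ?_ ?_
    · exact this
    · intro m hm
      rw [norm_iteratedFDeriv_ee_mul]
      have hs1 : |s / L| ≤ 1 := by
        rw [abs_div, abs_of_pos hL0, div_le_one hL0]; exact hs
      calc (2 * Real.pi * |s / L|) ^ m ≤ (2 * Real.pi * 1) ^ m := by gcongr
        _ = (2 * Real.pi) ^ m := by ring
        _ ≤ (2 * Real.pi) ^ N := pow_le_pow_right₀ hpi (hm.trans hi)
    · intro m hm1 hm
      have hLD : 1 ≤ L * D := one_le_mul_of_one_le_of_one_le hL hD1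
      rw [hnorm]
      rcases Nat.lt_or_ge m 2 with h2 | h2
      · obtain rfl : m = 1 := by omega
        have h3 := norm_fderiv_rph_le hh ξ0 hl hl1 ζ
        rw [← norm_iteratedFDeriv_zero (𝕜 := ℝ) (f := fderiv ℝ (rph h ξ0 l)),
          norm_iteratedFDeriv_fderiv] at h3
        have h4 := hDsum 2 (by omega)
        have h5 : B 2 ≤ |B 2| := le_abs_self _
        have h6 : 0 ≤ 1 + B 2 := (norm_nonneg _).trans (norm_phase_le hh 2 le_rfl 0)
        calc _ ≤ L * ((1 + B 2) * ‖ζ‖) := by gcongr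
          _ ≤ L * ((1 + B 2) * 3) := by gcongr
          _ ≤ (L * D) ^ 1 := by
            rw [pow_one]
            gcongr
            linarith
      · have h3 := norm_iteratedFDeriv_rph_le hh ξ0 hl hl1 m h2 ζ
        have h4 := hDsum m (by omega)
        have h5 : B m ≤ |B m| := le_abs_self _
        have h6 : 0 ≤ |B m| := abs_nonneg _
        calc _ ≤ L * (1 + B m) := by gcongr
          _ ≤ L * D := by gcongr; linarith
          _ ≤ (L * D) ^ m := le_self_pow₀ hLD (by omega)
  by_cases hζ : ‖ζ‖ ≤ 3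
  · have hcd : ContDiff ℝ ∞ (fun ζ => ee (s * rph h ξ0 l ζ)) :=
      contDiff_ee.comp (contDiff_const.mul (contDiff_rph hh.1 ξ0 l))
    have h1 := norm_iteratedFDeriv_mul_le (𝕜 := ℝ) (N := ∞) ha hcd ζ (n := j)
      (mod_cast le_top)
    have h2 : ‖iteratedFDeriv ℝ j (prof a h ξ0 l s) ζ‖ ≤ ∑ i ∈ Finset.range (j + 1),
        (j.choose i : ℝ) * Ca i * ((j - i).factorial * E * D ^ (j - i)) * L ^ j := by
      refine h1.trans (Finset.sum_le_sum fun i hi => ?_)
      have hi' := Finset.mem_range.1 hi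
      have h3 := hexp (j - i) (by omega) hζ
      have h4 := hCa i ζ
      have h5 : 0 ≤ Ca i := hCa0 i
      have h7 : (j - i).factorial * E * (L * D) ^ (j - i) ≤
          (j - i).factorial * E * D ^ (j - i) * L ^ j := by
        rw [mul_pow]
        have : L ^ (j - i) ≤ L ^ j := pow_le_pow_right₀ hL (by omega)
        calc _ = (j - i).factorial * E * D ^ (j - i) * L ^ (j - i) := by ring
          _ ≤ _ := by gcongr
      calc (j.choose i : ℝ) * ‖iteratedFDeriv ℝ i a ζ‖ *
            ‖iteratedFDeriv ℝ (j - i) (fun ζ => ee (s * rph h ξ0 l ζ)) ζ‖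
          ≤ (j.choose i : ℝ) * Ca i * ((j - i).factorial * E * D ^ (j - i) * L ^ j) := by
            gcongr
            exact h3.trans h7
        _ = _ := by ring
    refine h2.trans ?_
    rw [← Finset.sum_mul]
    gcongr
    exact Finset.single_le_sum (f := fun j => ∑ i ∈ Finset.range (j + 1),
        (j.choose i : ℝ) * Ca i * ((j - i).factorial * E * D ^ (j - i)))
      (fun j _ => Finset.sum_nonneg fun i _ => by have := hCa0 i; positivity)
      (Finset.mem_range.2 (Nat.lt_succ_of_le hj))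
  · have hz : iteratedFDeriv ℝ j (prof a h ξ0 l s) ζ = 0 := by
      have h1 : ζ ∉ tsupport (prof a h ξ0 l s) := by
        intro hmem
        have hsub : tsupport (prof a h ξ0 l s) ⊆ tsupport a := by
          apply closure_mono
          intro x hx hx'
          apply hx
          simp [prof, hx']
        exact hζ (by simpa using hts (hsub hmem))
      have h2 : ζ ∉ Function.support (iteratedFDeriv ℝ j (prof a h ξ0 l s)) := fun h =>
        h1 (support_iteratedFDeriv_subset j h)
      simpa using h2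
    rw [hz, norm_zero]
    refine mul_nonneg ?_ (by positivity)
    apply Finset.sum_nonneg; intro j _
    apply Finset.sum_nonneg; intro i _
    have := hCa0 i
    positivity

end Crest.Agent.R138.Tub70
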