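import Mathlib
import Crest.Agent.R138.Tub4_70

/-! Dictionary waves -> weighted tubes, part 5: transport, orthogonality and Bessel inequality for
isotropic caps. -/

set_option autoImplicit false

open MeasureTheory FourierTransform
open scoped ENNReal ContDiff

namespace Crest.Agent.R138.Tub70

open Crest.Agent.R138.Defs (ParB ee ext)
open Crest.Agent.R138.Wpk685
open Crest.Agent.R138.Wf448 (Nn wE dw decayL LI adj)

/-- the multiplier of a cap of size `l` around `ξ0`. -/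
noncomputable def capm (a : E2 → ℂ) (h : E2 → ℝ) (ξ0 : E2) (l s : ℝ) (ξ : E2) : ℂ :=
  prof a h ξ0 l s (l⁻¹ • (ξ - ξ0))

/-- the map `x ↦ x / w`. -/
noncomputable def sc (w : ℝ) : E2 →L[ℝ] E2 := w⁻¹ • ContinuousLinearMap.id ℝ E2

theorem norm_adj_sc_le {w : ℝ} (hw : 0 < w) : ‖adj (sc w)‖ ≤ w⁻¹ := by
  rw [adj, LinearIsometryEquiv.norm_map]
  unfold sc
  rw [norm_smul, norm_inv, Real.norm_eq_abs, abs_of_pos hw]
  have := ContinuousLinearMap.norm_id_le (𝕜 := ℝ) (E := E2)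
  have h0 : 0 < w⁻¹ := by positivity
  nlinarith

theorem dw_eq_pw {w : ℝ} (hw : 0 < w) (n : ℕ) (c x : E2) : dw n (sc w) (x - c) = pw w n c x := by
  unfold dw Crest.Agent.R138.Wf448.gw pw sc
  simp only [smul_apply, ContinuousLinearMap.id_apply, norm_smul, norm_inv,
    Real.norm_eq_abs, abs_of_pos hw]
  rw [inv_mul_eq_div]

theorem wE_eq {w : ℝ} (hw : 0 < w) (n : ℕ) (c : E2) (G : E2 → ℂ) :
    wE n (sc w) c G = En w n (𝓕⁻ G) c := by
  unfold wE LI En
  apply lintegral_congr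
  intro x
  show ENNReal.ofReal (dw n (sc w) (x - c) * ‖𝓕⁻ G x‖ ^ 2) = _
  rw [dw_eq_pw hw, ENNReal.ofReal_mul (pw_pos w n c x).le, mul_comm]
  congr 1
  rw [ENNReal.ofReal_pow (norm_nonneg _), ofReal_norm]

theorem contDiff_capm {a : E2 → ℂ} (ha : ContDiff ℝ ∞ a) {h : E2 → ℝ} (hh : ContDiff ℝ ∞ h)
    (ξ0 : E2) (l s : ℝ) : ContDiff ℝ ∞ (capm a h ξ0 l s) :=
  (contDiff_prof ha hh ξ0 l s).comp ((contDiff_id.sub contDiff_const).const_smul l⁻¹)

theorem capm_eq_zero {a : E2 → ℂ} (has : ∀ ζ, 3 < ‖ζ‖ → a ζ = 0) (h : E2 → ℝ) (ξ0 : E2) {l : ℝ}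
    (hl : 0 < l) (s : ℝ) {ξ : E2} (hξ : 3 * l < ‖ξ - ξ0‖) : capm a h ξ0 l s ξ = 0 := by
  unfold capm prof
  rw [has, zero_mul]
  rw [norm_smul, norm_inv, Real.norm_eq_abs, abs_of_pos hl, inv_mul_eq_div, lt_div_iff₀ hl]
  exact hξ

theorem temperate_capm {a : E2 → ℂ} (ha : ContDiff ℝ ∞ a) (has : ∀ ζ, 3 < ‖ζ‖ → a ζ = 0)
    {h : E2 → ℝ} (hh : ContDiff ℝ ∞ h) (ξ0 : E2) {l : ℝ} (hl : 0 < l) (s : ℝ) :
    (capm a h ξ0 l s).HasTemperateGrowth := by
  have hc : HasCompactSupport (capm a h ξ0 l s) := by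
    apply HasCompactSupport.of_support_subset_isCompact (isCompact_closedBall ξ0 (3 * l))
    intro x hx
    by_contra hx'
    apply hx
    apply capm_eq_zero has h ξ0 hl s
    simpa [dist_eq_norm] using hx'
  have := (hc.toSchwartzMap (contDiff_capm ha hh ξ0 l s)).hasTemperateGrowth
  exact this

/-- the scaled derivatives of the multipliers. -/
theorem Nn_capm_le (B : ℕ → ℝ) (N : ℕ) {a : E2 → ℂ} (ha : ContDiff ℝ ∞ a)
    (has : ∀ ζ, 3 < ‖ζ‖ → a ζ = 0) : ∃ C : ℝ, 0 ≤ C ∧ ∀ h, ParB B h → ∀ (ξ0 : E2) (l s w : ℝ),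
      0 < l → l ≤ 1 → 0 < w → 1 ≤ w * l → |s| ≤ 4 * (w * l) → ∀ j ≤ N, ∀ ξ,
        Nn (sc w) j (capm a h ξ0 l s) ξ ≤ C ∧ (3 * l < ‖ξ - ξ0‖ → Nn (sc w) j (capm a h ξ0 l s) ξ = 0) := by
  obtain ⟨C, hC, H⟩ := norm_iteratedFDeriv_prof_le' B N ha has
  refine ⟨C * 4 ^ N, by positivity, ?_⟩
  intro h hh ξ0 l s w hl hl1 hw hwl hs j hj ξ
  have hcd := contDiff_prof ha hh.1 ξ0 l s
  have key : ‖iteratedFDeriv ℝ j (capm a h ξ0 l s) ξ‖ =
      l⁻¹ ^ j * ‖iteratedFDeriv ℝ j (prof a h ξ0 l s) (l⁻¹ • (ξ - ξ0))‖ := by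
    have e2 := iteratedFDeriv_comp_sub (𝕜 := ℝ) (f := fun z => prof a h ξ0 l s (l⁻¹ • z)) j ξ0 ξ
    have e3 := iteratedFDeriv_comp_const_smul (𝕜 := ℝ) (i := j) l⁻¹
      (hcd.of_le (mod_cast le_top) : ContDiff ℝ j (prof a h ξ0 l s))
    have e1 : iteratedFDeriv ℝ j (capm a h ξ0 l s) ξ =
        l⁻¹ ^ j • iteratedFDeriv ℝ j (prof a h ξ0 l s) (l⁻¹ • (ξ - ξ0)) := by
      have e4 : capm a h ξ0 l s = fun z => prof a h ξ0 l s (l⁻¹ • (z - ξ0)) := rfl
      rw [e4, e2, e3]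
    rw [e1, norm_smul, norm_pow, norm_inv, Real.norm_eq_abs, abs_of_pos hl]
  constructor
  · unfold Nn
    have h1 := (iteratedFDeriv ℝ j (capm a h ξ0 l s) ξ).norm_compContinuousLinearMap_le
      (fun _ => adj (sc w))
    refine h1.trans ?_
    rw [Finset.prod_const, Finset.card_univ, Fintype.card_fin, key]
    have h2 := H h hh ξ0 l s (4 * (w * l)) hl hl1 (by linarith) hs j hj (l⁻¹ • (ξ - ξ0))
    calc l⁻¹ ^ j * ‖iteratedFDeriv ℝ j (prof a h ξ0 l s) (l⁻¹ • (ξ - ξ0))‖ * ‖adj (sc w)‖ ^ j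
        ≤ l⁻¹ ^ j * (C * (4 * (w * l)) ^ j) * w⁻¹ ^ j := by
          gcongr
          exact norm_adj_sc_le hw
      _ = C * 4 ^ j := by
          rw [mul_pow, mul_pow, inv_pow, inv_pow]
          field_simp
      _ ≤ C * 4 ^ N := by
          gcongr
          norm_num
  · intro hξ
    have hz : iteratedFDeriv ℝ j (capm a h ξ0 l s) ξ = 0 := by
      have h1 : ξ ∉ tsupport (capm a h ξ0 l s) := by
        intro hmem
        have hsub : tsupport (capm a h ξ0 l s) ⊆ Metric.closedBall ξ0 (3 * l) := by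
          apply closure_minimal _ Metric.isClosed_closedBall
          intro x hx
          by_contra hx'
          apply hx
          apply capm_eq_zero has h ξ0 hl s
          simpa [dist_eq_norm] using hx'
        have := hsub hmem
        rw [mem_closedBall_iff_norm] at this
        linarith
      have h2 : ξ ∉ Function.support (iteratedFDeriv ℝ j (capm a h ξ0 l s)) := fun h' =>
        h1 (support_iteratedFDeriv_subset j h')
      simpa using h2
    unfold Nn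
    rw [hz]
    have : ((0 : ContinuousMultilinearMap ℝ (fun _ : Fin j => E2) ℂ).compContinuousLinearMap
        fun _ => adj (sc w)) = 0 := by ext; simp
    rw [this, norm_zero]

end Crest.Agent.R138.Tub70
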