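import Mathlib
import Crest.Agent.R138.Tub5_70

/-! Dictionary waves -> weighted tubes, part 6: the three facts on isotropic caps. -/

set_option autoImplicit false

open MeasureTheory FourierTransform
open scoped ENNReal ContDiff

namespace Crest.Agent.R138.Tub70

open Crest.Agent.R138.Defs (ParB ee ext)
open Crest.Agent.R138.Wpk685
open Crest.Agent.R138.Wf448 (Nn wE dw decayL LI adj)

/-- bounded measurable functions supported in the unit ball. -/
structure Gd (g : E2 → ℂ) : Prop where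
  meas : Measurable g
  bdd : ∃ M : ℝ, ∀ ξ, ‖g ξ‖ ≤ M
  supp : ∀ ξ, 1 < ‖ξ‖ → g ξ = 0

theorem Gd.eq_indicator {g : E2 → ℂ} (hg : Gd g) :
    g = (Metric.closedBall (0 : E2) 1).indicator g := by
  funext ξ
  by_cases h : ξ ∈ Metric.closedBall (0 : E2) 1
  · rw [Set.indicator_of_mem h]
  · rw [Set.indicator_of_notMem h, hg.supp]
    simpa using h

theorem Gd.memLp {g : E2 → ℂ} (hg : Gd g) (p : ℝ≥0∞) : MemLp g p := by
  obtain ⟨M, hM⟩ := hg.bdd
  rw [hg.eq_indicator, memLp_indicator_iff_restrict Metric.isClosed_closedBall.measurableSet]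
  have : IsFiniteMeasure ((volume : Measure E2).restrict (Metric.closedBall 0 1)) := by
    constructor
    rw [Measure.restrict_apply_univ]
    exact (isCompact_closedBall (0 : E2) 1).measure_lt_top
  exact MemLp.of_bound hg.meas.aestronglyMeasurable M (Filter.Eventually.of_forall hM)

theorem Gd.integrable {g : E2 → ℂ} (hg : Gd g) : Integrable g :=
  memLp_one_iff_integrable.mp (hg.memLp 1)

theorem Gd.mul {g m : E2 → ℂ} (hg : Gd g) (hm : Measurable m) {M : ℝ} (hM : ∀ ξ, ‖m ξ‖ ≤ M) :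
    Gd (fun ξ => m ξ * g ξ) := by
  obtain ⟨M', hM'⟩ := hg.bdd
  refine ⟨hm.mul hg.meas, ⟨M * M', fun ξ => ?_⟩, fun ξ hξ => by simp [hg.supp ξ hξ]⟩
  rw [norm_mul]
  have h0 := norm_nonneg (m ξ)
  have h1 := norm_nonneg (g ξ)
  have h2 := hM ξ
  have h3 := hM' ξ
  gcongr
  linarith

theorem Gd.mul' {g m : E2 → ℂ} (hg : Gd g) (hm : Measurable m) {M : ℝ} (hM : ∀ ξ, ‖m ξ‖ ≤ M) :
    Gd (fun ξ => g ξ * m ξ) := by
  have := hg.mul hm hM
  simpa only [mul_comm] using this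

theorem Gd.ee {g : E2 → ℂ} (hg : Gd g) {h : E2 → ℝ} (hh : Continuous h) (t : ℝ) :
    Gd (fun ξ => g ξ * ee (t * h ξ)) :=
  hg.mul' (continuous_ee.comp (continuous_const.mul hh)).measurable
    (fun _ => (norm_ee _).le)

theorem ext_eq (h : E2 → ℝ) (g : E2 → ℂ) (x : E2) (t : ℝ) :
    ext h g x t = 𝓕⁻ (fun ξ => g ξ * ee (t * h ξ)) x := by
  rw [fourierInv_eq_int]
  unfold ext
  congr 1
  funext ξ
  rw [ee_add]
  ring

theorem phase_eq (h : E2 → ℝ) (ξ0 : E2) {l : ℝ} (hl : l ≠ 0) (ξ : E2) :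
    h ξ = h ξ0 + inner ℝ (gradient h ξ0) (ξ - ξ0) + l ^ 2 * rph h ξ0 l (l⁻¹ • (ξ - ξ0)) := by
  unfold rph
  rw [mul_inv_cancel_left₀ (pow_ne_zero 2 hl), smul_smul, mul_inv_cancel₀ hl, one_smul,
    inner_smul_right, mul_inv_cancel_left₀ hl]
  have : ξ0 + (ξ - ξ0) = ξ := by abel
  rw [this]
  ring

/-- transport of a cap. -/
theorem ext_transport (h : E2 → ℝ) (ξ0 : E2) {l : ℝ} (hl : l ≠ 0) {a b : E2 → ℂ}
    (hab : ∀ ζ, a ζ ≠ 0 → b ζ = 1) (g : E2 → ℂ) (t t' : ℝ) (y : E2) :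
    ‖ext h (fun ξ => capm a h ξ0 l 0 ξ * g ξ) y t'‖ =
      ‖𝓕⁻ (fun ξ => capm b h ξ0 l ((t' - t) * l ^ 2) ξ *
        (capm a h ξ0 l 0 ξ * g ξ * ee (t * h ξ))) (y + (t' - t) • gradient h ξ0)‖ := by
  have key : ext h (fun ξ => capm a h ξ0 l 0 ξ * g ξ) y t' =
      ee ((t' - t) * (h ξ0 - inner ℝ (gradient h ξ0) ξ0)) *
      𝓕⁻ (fun ξ => capm b h ξ0 l ((t' - t) * l ^ 2) ξ *
        (capm a h ξ0 l 0 ξ * g ξ * ee (t * h ξ))) (y + (t' - t) • gradient h ξ0) := by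
    rw [fourierInv_eq_int]
    unfold ext
    rw [← integral_const_mul]
    congr 1
    funext ξ
    by_cases ha : a (l⁻¹ • (ξ - ξ0)) = 0
    · have h0 : capm a h ξ0 l 0 ξ = 0 := by simp [capm, prof, ha]
      have h1 : ∀ z1 z2 z3 z4 : ℂ, capm a h ξ0 l 0 ξ * z1 * z2 =
          z3 * (z4 * (capm a h ξ0 l 0 ξ * g ξ * ee (t * h ξ)) * ee (inner ℝ
            (y + (t' - t) • gradient h ξ0) ξ)) := by
        intro z1 z2 z3 z4
        rw [h0]; simp
      exact h1 _ _ _ _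
    · have hb := hab _ ha
      have e1 : capm b h ξ0 l ((t' - t) * l ^ 2) ξ =
          ee ((t' - t) * l ^ 2 * rph h ξ0 l (l⁻¹ • (ξ - ξ0))) := by
        simp [capm, prof, hb]
      rw [e1]
      have e2 : inner ℝ y ξ + t' * h ξ =
          ((t' - t) * (h ξ0 - inner ℝ (gradient h ξ0) ξ0)) +
          (((t' - t) * l ^ 2 * rph h ξ0 l (l⁻¹ • (ξ - ξ0))) +
            (t * h ξ + inner ℝ (y + (t' - t) • gradient h ξ0) ξ)) := by
        have e3 := phase_eq h ξ0 hl ξ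
        have e4 : t' * h ξ = t * h ξ + (t' - t) * h ξ := by ring
        rw [e4]
        nth_rewrite 2 [e3]
        rw [inner_add_left, inner_smul_left, inner_sub_right]
        simp only [conj_trivial]
        ring
      rw [e2, ee_add, ee_add, ee_add]
      ring
  rw [key, norm_mul, norm_ee, one_mul]

theorem En_translate {w : ℝ} (n : ℕ) (f : E2 → ℂ) (v x : E2) :
    En w n (fun y => f (y + v)) x = En w n f (x + v) := by
  unfold En
  have := lintegral_add_right_eq_self (μ := (volume : Measure E2))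
    (fun y => ‖f y‖ₑ ^ 2 * ENNReal.ofReal (pw w n (x + v) y)) v
  rw [← this]
  apply lintegral_congr
  intro y
  rw [pw_add]

theorem En_congr {w : ℝ} (n : ℕ) {f f' : E2 → ℂ} (h : ∀ y, ‖f y‖ = ‖f' y‖) (x : E2) :
    En w n f x = En w n f' x := by
  unfold En
  apply lintegral_congr
  intro y
  have : ‖f y‖ₑ = ‖f' y‖ₑ := by
    rw [← ofReal_norm, ← ofReal_norm, h]
  rw [this]

theorem norm_capm_le {a : E2 → ℂ} {A : ℝ} (hA : ∀ ζ, ‖a ζ‖ ≤ A) (h : E2 → ℝ) (ξ0 : E2) (l s : ℝ)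
    (ξ : E2) : ‖capm a h ξ0 l s ξ‖ ≤ A := by
  unfold capm prof
  rw [norm_mul, norm_ee, mul_one]
  exact hA _

/-- **transport** (W4 for isotropic caps). -/
theorem transp_cap (B : ℕ → ℝ) (n : ℕ) {a b : E2 → ℂ} (ha : ContDiff ℝ ∞ a) (hb : ContDiff ℝ ∞ b)
    {A : ℝ} (haA : ∀ ζ, ‖a ζ‖ ≤ A)
    (hbs : ∀ ζ, 3 < ‖ζ‖ → b ζ = 0) (hab : ∀ ζ, a ζ ≠ 0 → b ζ = 1) : ∃ C : ℝ, 0 ≤ C ∧
    ∀ h, ParB B h → ∀ g, Gd g → ∀ (ξ0 : E2) (l w : ℝ), 0 < l → l ≤ 1 → 0 < w → 1 ≤ w * l →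
      ∀ t t' : ℝ, |t' - t| * l ≤ 4 * w → ∀ x : E2,
        En w n (fun y => ext h (fun ξ => capm a h ξ0 l 0 ξ * g ξ) y t') x ≤
          ENNReal.ofReal C * En w n (fun y => ext h (fun ξ => capm a h ξ0 l 0 ξ * g ξ) y t)
            (x + (t' - t) • gradient h ξ0) := by
  obtain ⟨C1, hC1, H1⟩ := decayL (V := E2) (W := E2) n
  obtain ⟨C2, hC2, H2⟩ := Nn_capm_le B n hb hbs
  refine ⟨C1 * (C2 + 1) ^ 2, by positivity, ?_⟩
  intro h hh g hg ξ0 l w hl hl1 hw hwl t t' htt x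
  have hcont : Continuous (capm a h ξ0 l 0) := (contDiff_capm ha hh.1 ξ0 l 0).continuous
  have hG : Gd (fun ξ => capm a h ξ0 l 0 ξ * g ξ) :=
    hg.mul hcont.measurable (norm_capm_le haA h ξ0 l 0)
  have hF : Gd (fun ξ => capm a h ξ0 l 0 ξ * g ξ * ee (t * h ξ)) := hG.ee hh.1.continuous t
  rw [En_congr n (ext_transport h ξ0 hl.ne' hab g t t') x,
    En_translate n (fun y => 𝓕⁻ (fun ξ => capm b h ξ0 l ((t' - t) * l ^ 2) ξ *
        (capm a h ξ0 l 0 ξ * g ξ * ee (t * h ξ))) y)]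
  have key := H1 (sc w) (x + (t' - t) • gradient h ξ0) (Fin 1) (Fin 1)
    (fun _ _ => capm b h ξ0 l ((t' - t) * l ^ 2))
    (fun _ ξ => capm a h ξ0 l 0 ξ * g ξ * ee (t * h ξ)) (C2 + 1) (by positivity)
    (fun _ _ => temperate_capm hb hbs hh.1 ξ0 hl _)
    (fun _ => hF.integrable) (fun _ => hF.memLp 2) ?_
  · simp only [Finset.univ_unique, Finset.sum_singleton, wE_eq hw] at key
    refine key.trans (le_of_eq ?_)
    congr 1
    apply En_congr
    intro y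
    rw [ext_eq]
  · intro j hj ξ
    simp only [Finset.univ_unique, Finset.sum_singleton]
    have hs : |(t' - t) * l ^ 2| ≤ 4 * (w * l) := by
      rw [abs_mul, abs_of_pos (by positivity : (0:ℝ) < l ^ 2)]
      nlinarith
    have := (H2 h hh ξ0 l _ w hl hl1 hw hwl hs j hj ξ).1
    have h0 : 0 ≤ Nn (sc w) j (capm b h ξ0 l ((t' - t) * l ^ 2)) ξ := norm_nonneg _
    gcongr
    linarith


/-- the overlap of the caps. -/
def Overlap {ι : Type} [Fintype ι] (ξ0 : ι → E2) (l M : ℝ) : Prop :=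
  ∀ (ξ : E2) [DecidablePred fun i => ‖ξ - ξ0 i‖ ≤ 3 * l],
    ∑ i, (if ‖ξ - ξ0 i‖ ≤ 3 * l then (1 : ℝ) else 0) ≤ M

theorem Overlap.nonneg {ι : Type} [Fintype ι] {ξ0 : ι → E2} {l M : ℝ} (h : Overlap ξ0 l M) :
    0 ≤ M := by
  classical
  refine le_trans ?_ (h 0)
  exact Finset.sum_nonneg fun i _ => by split_ifs <;> norm_num

theorem sum_Nn_sq_le {ι : Type} [Fintype ι] {ξ0 : ι → E2} {l M C : ℝ} (hM : Overlap ξ0 l M)
    {N : ι → ℝ} (ξ : E2) (hN0 : ∀ i, 0 ≤ N i) (hN : ∀ i, N i ≤ C)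
    (hz : ∀ i, 3 * l < ‖ξ - ξ0 i‖ → N i = 0) (hC : 0 ≤ C) :
    ∑ i, N i ^ 2 ≤ ((C + 1) * Real.sqrt (M + 1)) ^ 2 := by
  classical
  have h1 : ∀ i, N i ^ 2 ≤ (C + 1) ^ 2 * (if ‖ξ - ξ0 i‖ ≤ 3 * l then (1 : ℝ) else 0) := by
    intro i
    split_ifs with h
    · rw [mul_one]
      have := hN0 i
      have := hN i
      gcongr
      linarith
    · rw [hz i (not_le.mp h)]; simp
  refine (Finset.sum_le_sum fun i _ => h1 i).trans ?_
  rw [← Finset.mul_sum, mul_pow, Real.sq_sqrt (by linarith [hM.nonneg])]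
  have := hM ξ
  gcongr
  linarith

/-- **local orthogonality** of isotropic caps. -/
theorem ortho_caps (B : ℕ → ℝ) (n : ℕ) {a b : E2 → ℂ} (ha : ContDiff ℝ ∞ a) (hb : ContDiff ℝ ∞ b)
    {A : ℝ} (haA : ∀ ζ, ‖a ζ‖ ≤ A)
    (hbs : ∀ ζ, 3 < ‖ζ‖ → b ζ = 0) (hab : ∀ ζ, a ζ ≠ 0 → b ζ = 1) : ∃ C : ℝ, 0 ≤ C ∧
    ∀ h, ParB B h → ∀ (ι : Type) [Fintype ι] (ξ0 : ι → E2) (g : ι → E2 → ℂ), (∀ i, Gd (g i)) →
      ∀ (l w M : ℝ), 0 < l → l ≤ 1 → 0 < w → 1 ≤ w * l → Overlap ξ0 l M → ∀ (t : ℝ) (x : E2),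
        En w n (fun y => ∑ i, ext h (fun ξ => capm a h (ξ0 i) l 0 ξ * g i ξ) y t) x ≤
          ENNReal.ofReal (C * (M + 1)) *
            ∑ i, En w n (fun y => ext h (fun ξ => capm a h (ξ0 i) l 0 ξ * g i ξ) y t) x := by
  obtain ⟨C1, hC1, H1⟩ := decayL (V := E2) (W := E2) n
  obtain ⟨C2, hC2, H2⟩ := Nn_capm_le B n hb hbs
  refine ⟨C1 * (C2 + 1) ^ 2, by positivity, ?_⟩
  intro h hh ι _ ξ0 g hg l w M hl hl1 hw hwl hM t x
  have hM0 := hM.nonneg
  have hF : ∀ i, Gd (fun ξ => capm a h (ξ0 i) l 0 ξ * g i ξ * ee (t * h ξ)) := fun i =>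
    ((hg i).mul (contDiff_capm ha hh.1 (ξ0 i) l 0).continuous.measurable
      (norm_capm_le haA h (ξ0 i) l 0)).ee hh.1.continuous t
  have key := H1 (sc w) x ι (Fin 1)
    (fun _ i => capm b h (ξ0 i) l 0)
    (fun i ξ => capm a h (ξ0 i) l 0 ξ * g i ξ * ee (t * h ξ)) ((C2 + 1) * Real.sqrt (M + 1))
    (by positivity)
    (fun _ i => temperate_capm hb hbs hh.1 (ξ0 i) hl _)
    (fun i => (hF i).integrable) (fun i => (hF i).memLp 2) ?_
  · simp only [Finset.univ_unique, Finset.sum_singleton, wE_eq hw] at key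
    have e1 : En w n (fun y => ∑ i, ext h (fun ξ => capm a h (ξ0 i) l 0 ξ * g i ξ) y t) x =
        En w n (𝓕⁻ fun ξ => ∑ i, capm b h (ξ0 i) l 0 ξ *
          (capm a h (ξ0 i) l 0 ξ * g i ξ * ee (t * h ξ))) x := by
      apply En_congr
      intro y
      congr 1
      rw [fourierInv_eq_int]
      simp only [Finset.sum_mul]
      rw [integral_finsetSum]
      · apply Finset.sum_congr rfl
        intro i _
        rw [ext_eq, fourierInv_eq_int]
        congr 1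
        funext ξ
        by_cases ha0 : a (l⁻¹ • (ξ - ξ0 i)) = 0
        · have h0 : capm a h (ξ0 i) l 0 ξ = 0 := by simp [capm, prof, ha0]
          have h1 : ∀ z1 z2 z3 : ℂ, capm a h (ξ0 i) l 0 ξ * z1 * z2 * z3 =
              capm b h (ξ0 i) l 0 ξ * (capm a h (ξ0 i) l 0 ξ * z1 * z2) * z3 := by
            intro z1 z2 z3
            rw [h0]; simp
          exact h1 _ _ _
        · have h0 : capm b h (ξ0 i) l 0 ξ = 1 := by
            simp [capm, prof, hab _ ha0, ee_zero]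
          have h1 : ∀ z1 z2 z3 : ℂ, capm a h (ξ0 i) l 0 ξ * z1 * z2 * z3 =
              capm b h (ξ0 i) l 0 ξ * (capm a h (ξ0 i) l 0 ξ * z1 * z2) * z3 := by
            intro z1 z2 z3
            rw [h0]; simp
          exact h1 _ _ _
      · intro i _
        obtain ⟨Cb, hCb⟩ : ∃ Cb : ℝ, ∀ ξ, ‖capm b h (ξ0 i) l 0 ξ‖ ≤ Cb := by
          refine ⟨C2, fun ξ => ?_⟩
          have := (H2 h hh (ξ0 i) l 0 w hl hl1 hw hwl (by simp; positivity) 0 (Nat.zero_le _) ξ).1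
          rwa [Crest.Agent.R138.Wf448.Nn_zero] at this
        have hG := (hF i).mul (contDiff_capm hb hh.1 (ξ0 i) l 0).continuous.measurable hCb
        exact (hG.mul' (m := fun ξ => ee (inner ℝ y ξ))
          (continuous_ee.comp (continuous_const.inner continuous_id)).measurable
          (fun _ => (norm_ee _).le)).integrable
    rw [e1]
    refine key.trans (le_of_eq ?_)
    congr 1
    · rw [mul_pow, Real.sq_sqrt (by linarith)]
      congr 1; ring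
    · apply Finset.sum_congr rfl
      intro i _
      apply En_congr
      intro y
      rw [ext_eq]
  · intro j hj ξ
    simp only [Finset.univ_unique, Finset.sum_singleton]
    exact sum_Nn_sq_le hM ξ (fun i => norm_nonneg _)
      (fun i => (H2 h hh (ξ0 i) l 0 w hl hl1 hw hwl (by simp; positivity) j hj ξ).1)
      (fun i => (H2 h hh (ξ0 i) l 0 w hl hl1 hw hwl (by simp; positivity) j hj ξ).2) hC2

/-- **Bessel inequality** for isotropic caps. -/
theorem bessel_caps (B : ℕ → ℝ) (n : ℕ) {a : E2 → ℂ} (ha : ContDiff ℝ ∞ a)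
    (has : ∀ ζ, 3 < ‖ζ‖ → a ζ = 0) : ∃ C : ℝ, 0 ≤ C ∧
    ∀ h, ParB B h → ∀ (ι : Type) [Fintype ι] (ξ0 : ι → E2) (g : E2 → ℂ), Gd g →
      ∀ (l w M : ℝ), 0 < l → l ≤ 1 → 0 < w → 1 ≤ w * l → Overlap ξ0 l M → ∀ (t : ℝ) (x : E2),
        ∑ i, En w n (fun y => ext h (fun ξ => capm a h (ξ0 i) l 0 ξ * g ξ) y t) x ≤
          ENNReal.ofReal (C * (M + 1)) * En w n (fun y => ext h g y t) x := by
  obtain ⟨C1, hC1, H1⟩ := decayL (V := E2) (W := E2) n
  obtain ⟨C2, hC2, H2⟩ := Nn_capm_le B n ha has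
  refine ⟨C1 * (C2 + 1) ^ 2, by positivity, ?_⟩
  intro h hh ι _ ξ0 g hg l w M hl hl1 hw hwl hM t x
  have hM0 := hM.nonneg
  have hF : Gd (fun ξ => g ξ * ee (t * h ξ)) := hg.ee hh.1.continuous t
  have key := H1 (sc w) x (Fin 1) ι
    (fun i _ => capm a h (ξ0 i) l 0)
    (fun _ ξ => g ξ * ee (t * h ξ)) ((C2 + 1) * Real.sqrt (M + 1))
    (by positivity)
    (fun i _ => temperate_capm ha has hh.1 (ξ0 i) hl _)
    (fun i => hF.integrable) (fun i => hF.memLp 2) ?_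
  · simp only [Finset.univ_unique, Finset.sum_singleton, wE_eq hw] at key
    have e1 : ∀ i, En w n (fun y => ext h (fun ξ => capm a h (ξ0 i) l 0 ξ * g ξ) y t) x =
        En w n (𝓕⁻ fun ξ => capm a h (ξ0 i) l 0 ξ * (g ξ * ee (t * h ξ))) x := by
      intro i
      apply En_congr
      intro y
      rw [ext_eq]
      simp only [mul_assoc]
    simp only [e1]
    refine key.trans (le_of_eq ?_)
    congr 1
    · rw [mul_pow, Real.sq_sqrt (by linarith)]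
      congr 1; ring
    · apply En_congr
      intro y
      rw [ext_eq]
  · intro j hj ξ
    simp only [Finset.univ_unique, Finset.sum_singleton]
    exact sum_Nn_sq_le hM ξ (fun i => norm_nonneg _)
      (fun i => (H2 h hh (ξ0 i) l 0 w hl hl1 hw hwl (by simp; positivity) j hj ξ).1)
      (fun i => (H2 h hh (ξ0 i) l 0 w hl hl1 hw hwl (by simp; positivity) j hj ξ).2) hC2

end Crest.Agent.R138.Tub70
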