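import Mathlib
import Crest.Agent.R138.Tub6_70

/-! Dictionary waves -> weighted tubes, part 7: the lattice partition of unity and the pieces. -/

set_option autoImplicit false

open MeasureTheory FourierTransform
open scoped ENNReal ContDiff

namespace Crest.Agent.R138.Tub70

open Crest.Agent.R138.Defs (ParB ee ext)
open Crest.Agent.R138.Wpk685

/-- the one-dimensional profile. -/
noncomputable def ph (t : ℝ) : ℝ := Real.smoothTransition (t + 1) - Real.smoothTransition t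

theorem ph_nonneg (t : ℝ) : 0 ≤ ph t := by
  unfold ph
  rcases le_total t 0 with h | h
  · rw [Real.smoothTransition.zero_of_nonpos h, sub_zero]
    exact Real.smoothTransition.nonneg _
  · rw [Real.smoothTransition.one_of_one_le (by linarith)]
    linarith [Real.smoothTransition.le_one t]

theorem ph_le_one (t : ℝ) : ph t ≤ 1 := by
  unfold ph
  linarith [Real.smoothTransition.le_one (t + 1), Real.smoothTransition.nonneg t]

theorem ph_zero {t : ℝ} (h : 1 ≤ |t|) : ph t = 0 := by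
  unfold ph
  rcases le_abs'.mp h with h | h
  · rw [Real.smoothTransition.zero_of_nonpos (by linarith),
      Real.smoothTransition.zero_of_nonpos (by linarith), sub_zero]
  · rw [Real.smoothTransition.one_of_one_le (by linarith),
      Real.smoothTransition.one_of_one_le (by linarith), sub_self]

theorem contDiff_ph : ContDiff ℝ ∞ ph := by
  unfold ph
  exact (Real.smoothTransition.contDiff.comp (contDiff_id.add contDiff_const)).sub
    Real.smoothTransition.contDiff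

theorem sum_ph (M : ℕ) {t : ℝ} (ht : |t| ≤ M) :
    ∑ k ∈ Finset.Icc (-(M : ℤ)) M, ph (t - k) = 1 := by
  have key : ∀ m : ℕ, ∑ k ∈ Finset.Ico (-(M : ℤ)) (-(M : ℤ) + m), ph (t - k) =
      Real.smoothTransition (t + M + 1) - Real.smoothTransition (t + M + 1 - m) := by
    intro m
    induction m with
    | zero => simp
    | succ m ih =>
      have e : Finset.Ico (-(M : ℤ)) (-(M : ℤ) + (m + 1 : ℕ)) =
          insert (-(M : ℤ) + m) (Finset.Ico (-(M : ℤ)) (-(M : ℤ) + m)) := by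
        ext x
        simp only [Finset.mem_Ico, Finset.mem_insert]
        push_cast
        omega
      rw [e, Finset.sum_insert (by simp), ih]
      unfold ph
      push_cast
      have e1 : t - (-(M : ℝ) + m) + 1 = t + M + 1 - m := by ring
      have e2 : t - (-(M : ℝ) + m) = t + M + 1 - (m + 1) := by ring
      rw [e1, e2]
      ring
  have e : Finset.Icc (-(M : ℤ)) M = Finset.Ico (-(M : ℤ)) (-(M : ℤ) + (2 * M + 1 : ℕ)) := by
    ext x
    simp only [Finset.mem_Icc, Finset.mem_Ico]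
    push_cast
    omega
  rw [e, key]
  have h := abs_le.mp ht
  rw [Real.smoothTransition.one_of_one_le (by linarith),
    Real.smoothTransition.zero_of_nonpos (by push_cast; linarith), sub_zero]

/-- the two-dimensional profile. -/
noncomputable def aa (ζ : E2) : ℂ := ((ph (ζ 0) * ph (ζ 1) : ℝ) : ℂ)

theorem contDiff_aa : ContDiff ℝ ∞ aa := by
  unfold aa
  have h : ∀ i : Fin 2, ContDiff ℝ ∞ (fun ζ : E2 => ζ i) := fun i =>
    (EuclideanSpace.proj (𝕜 := ℝ) i).contDiff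
  exact Complex.ofRealCLM.contDiff.comp ((contDiff_ph.comp (h 0)).mul (contDiff_ph.comp (h 1)))

theorem norm_aa_le (ζ : E2) : ‖aa ζ‖ ≤ 1 := by
  unfold aa
  rw [Complex.norm_real, Real.norm_eq_abs,
    abs_of_nonneg (mul_nonneg (ph_nonneg _) (ph_nonneg _))]
  exact mul_le_one₀ (ph_le_one _) (ph_nonneg _) (ph_le_one _)

theorem aa_zero {ζ : E2} (h : 3/2 < ‖ζ‖) : aa ζ = 0 := by
  unfold aa
  have : 1 ≤ |ζ 0| ∨ 1 ≤ |ζ 1| := by
    by_contra hc
    push Not at hc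
    have h1 : ‖ζ‖ ^ 2 = ζ 0 ^ 2 + ζ 1 ^ 2 := by
      rw [EuclideanSpace.norm_sq_eq]
      simp [Fin.sum_univ_two, sq_abs]
    have h2 : ζ 0 ^ 2 < 1 := by rw [← sq_abs]; nlinarith [abs_nonneg (ζ 0)]
    have h3 : ζ 1 ^ 2 < 1 := by rw [← sq_abs]; nlinarith [abs_nonneg (ζ 1)]
    nlinarith
  rcases this with h | h
  · simp [ph_zero h]
  · simp [ph_zero h]

/-- the set of the lattice points. -/
noncomputable def Sl (M : ℕ) : Finset (ℤ × ℤ) :=
  Finset.Icc (-(M : ℤ)) M ×ˢ Finset.Icc (-(M : ℤ)) M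

theorem sum_aa (M : ℕ) {ζ : E2} (h0 : |ζ 0| ≤ M) (h1 : |ζ 1| ≤ M) :
    ∑ k ∈ Sl M, aa (ζ - Lat 1 k) = 1 := by
  unfold Sl aa
  rw [← Complex.ofReal_sum, Finset.sum_product]
  have : ∀ x ∈ Finset.Icc (-(M : ℤ)) M, ∑ y ∈ Finset.Icc (-(M : ℤ)) M,
      ph ((ζ - Lat 1 (x, y)) 0) * ph ((ζ - Lat 1 (x, y)) 1) = ph (ζ 0 - x) := by
    intro x _
    simp only [PiLp.sub_apply, Lat_zero_coord, Lat_one_coord, one_mul]
    rw [← Finset.mul_sum, sum_ph M h1, mul_one]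
  rw [Finset.sum_congr rfl this, sum_ph M h0]
  simp

/-- the fat profile. -/
noncomputable def bb : E2 → ℂ := fun ζ =>
  (((⟨3/2, 3, by norm_num, by norm_num⟩ : ContDiffBump (0 : E2)) ζ : ℝ) : ℂ)

theorem contDiff_bb : ContDiff ℝ ∞ bb := by
  unfold bb
  exact Complex.ofRealCLM.contDiff.comp (ContDiffBump.contDiff _)

theorem bb_one {ζ : E2} (h : ‖ζ‖ ≤ 3/2) : bb ζ = 1 := by
  unfold bb
  rw [ContDiffBump.one_of_mem_closedBall]
  · simp
  · simpa using h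

theorem bb_zero (ζ : E2) (h : 3 < ‖ζ‖) : bb ζ = 0 := by
  unfold bb
  rw [ContDiffBump.zero_of_le_dist]
  · simp
  · simpa using h.le

theorem bb_of_aa (ζ : E2) (h : aa ζ ≠ 0) : bb ζ = 1 := by
  apply bb_one
  by_contra hc
  exact h (aa_zero (not_le.mp hc))

theorem aa_zero3 (ζ : E2) (h : 3 < ‖ζ‖) : aa ζ = 0 := aa_zero (by linarith)

/-- the number of caps. -/
noncomputable def Ml (l : ℝ) : ℕ := ⌈l⁻¹⌉₊

theorem norm_Lat_le {l : ℝ} (hl : 0 < l) (hl1 : l ≤ 1) {k : ℤ × ℤ} (hk : k ∈ Sl (Ml l)) :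
    ‖Lat l k‖ ≤ 3 := by
  have hM : (Ml l : ℝ) ≤ l⁻¹ + 1 := (Nat.ceil_lt_add_one (by positivity)).le
  have hlM : l * (Ml l : ℝ) ≤ 2 := by
    calc l * (Ml l : ℝ) ≤ l * (l⁻¹ + 1) := by gcongr
      _ = 1 + l := by field_simp
      _ ≤ 2 := by linarith
  unfold Sl at hk
  rw [Finset.mem_product, Finset.mem_Icc, Finset.mem_Icc] at hk
  obtain ⟨⟨h1, h2⟩, h3, h4⟩ := hk
  have g1 : |(k.1 : ℝ)| ≤ Ml l := abs_le.mpr ⟨by exact_mod_cast h1, by exact_mod_cast h2⟩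
  have g2 : |(k.2 : ℝ)| ≤ Ml l := abs_le.mpr ⟨by exact_mod_cast h3, by exact_mod_cast h4⟩
  have h5 : ‖Lat l k‖ ^ 2 = (l * k.1) ^ 2 + (l * k.2) ^ 2 := by
    rw [EuclideanSpace.norm_sq_eq]
    simp [Fin.sum_univ_two, sq_abs]
  have h6 : |l * k.1| ≤ 2 := by
    rw [abs_mul, abs_of_pos hl]
    exact (mul_le_mul_of_nonneg_left g1 hl.le).trans hlM
  have h7 : |l * k.2| ≤ 2 := by
    rw [abs_mul, abs_of_pos hl]
    exact (mul_le_mul_of_nonneg_left g2 hl.le).trans hlM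
  have h8 : (l * k.1) ^ 2 ≤ 4 := by rw [← sq_abs]; nlinarith [abs_nonneg (l * (k.1 : ℝ))]
  have h9 : (l * k.2) ^ 2 ≤ 4 := by rw [← sq_abs]; nlinarith [abs_nonneg (l * (k.2 : ℝ))]
  nlinarith [norm_nonneg (Lat l k)]

/-- the cap function. -/
noncomputable def cp (l : ℝ) (k : ℤ × ℤ) (ξ : E2) : ℂ := aa (l⁻¹ • (ξ - Lat l k))

theorem capm_aa (h : E2 → ℝ) (l : ℝ) (k : ℤ × ℤ) (ξ : E2) :
    capm aa h (Lat l k) l 0 ξ = cp l k ξ := by
  unfold capm prof cp
  rw [zero_mul, ee_zero, mul_one]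

theorem Lat_smul (r w : ℝ) (k : ℤ × ℤ) : r • Lat w k = Lat (r * w) k := by
  ext i; fin_cases i <;> simp [Lat, mul_assoc]

theorem sum_cp {l : ℝ} (hl : 0 < l) {ξ : E2} (hξ : ‖ξ‖ ≤ 1) : ∑ k ∈ Sl (Ml l), cp l k ξ = 1 := by
  have hc : ∀ i : Fin 2, |ξ i| ≤ 1 := by
    intro i
    have := PiLp.norm_apply_le ξ i
    rw [Real.norm_eq_abs] at this
    linarith
  have hM : l⁻¹ ≤ (Ml l : ℝ) := Nat.le_ceil _
  have hc' : ∀ i : Fin 2, |(l⁻¹ • ξ) i| ≤ (Ml l : ℝ) := by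
    intro i
    simp only [PiLp.smul_apply, smul_eq_mul]
    rw [abs_mul, abs_of_pos (by positivity : (0:ℝ) < l⁻¹)]
    have h1 : 0 < l⁻¹ := by positivity
    have := hc i
    nlinarith [abs_nonneg (ξ i)]
  rw [← sum_aa (Ml l) (ζ := l⁻¹ • ξ) (hc' 0) (hc' 1)]
  apply Finset.sum_congr rfl
  intro k _
  unfold cp
  rw [smul_sub, Lat_smul, inv_mul_cancel₀ hl.ne']

/-- the overlap constant. -/
noncomputable def OV : ℝ := 400 * LS.toReal

theorem OV_nonneg : 0 ≤ OV := by unfold OV; positivity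

theorem sum_near_le {l : ℝ} (hl : 0 < l) (S : Finset (ℤ × ℤ)) (ξ : E2)
    [DecidablePred fun k : ℤ × ℤ => ‖ξ - Lat l k‖ ≤ 3 * l] :
    ∑ k ∈ S, (if ‖ξ - Lat l k‖ ≤ 3 * l then (1 : ℝ) else 0) ≤ OV := by
  have h1 : ∀ k ∈ S, (if ‖ξ - Lat l k‖ ≤ 3 * l then (1 : ℝ) else 0) ≤ 100 * pw l 2 (Lat l k) ξ := by
    intro k _
    split_ifs with h
    · unfold pw
      have h2 : ‖ξ - Lat l k‖ / l ≤ 3 := by rw [div_le_iff₀ hl]; exact h
      have h3 : (‖ξ - Lat l k‖ / l) ^ 2 ≤ 9 := by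
        have : 0 ≤ ‖ξ - Lat l k‖ / l := by positivity
        nlinarith
      have h4 : (1 + (‖ξ - Lat l k‖ / l) ^ 2) ^ 2 ≤ 100 := by
        have : 0 ≤ (‖ξ - Lat l k‖ / l) ^ 2 := by positivity
        nlinarith
      rw [le_mul_inv_iff₀ (by positivity)]
      linarith
    · have := pw_pos l 2 (Lat l k) ξ
      positivity
  refine (Finset.sum_le_sum h1).trans ?_
  rw [← Finset.mul_sum]
  have h2 : ∑ k ∈ S, pw l 2 (Lat l k) ξ ≤ 4 * LS.toReal := by
    have h3 : ∑ k ∈ S, ENNReal.ofReal (pw l 2 (Lat l k) ξ) ≤ 4 * LS :=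
      (ENNReal.sum_le_tsum S).trans (tsum_pw_le hl le_rfl ξ)
    rw [← ENNReal.ofReal_sum_of_nonneg (fun k _ => (pw_pos _ _ _ _).le)] at h3
    have h4 : ENNReal.ofReal (∑ k ∈ S, pw l 2 (Lat l k) ξ) ≤ ENNReal.ofReal (4 * LS.toReal) := by
      refine h3.trans (le_of_eq ?_)
      rw [ENNReal.ofReal_mul (by norm_num), ENNReal.ofReal_toReal LS_ne_top]
      norm_num
    exact (ENNReal.ofReal_le_ofReal_iff (by positivity)).mp h4
  unfold OV
  linarith

theorem overlap_lat {l : ℝ} (hl : 0 < l) (S : Finset (ℤ × ℤ)) :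
    Overlap (ι := {k // k ∈ S}) (fun k => Lat l k.1) l OV := by
  intro ξ _
  have : DecidablePred fun k : ℤ × ℤ => ‖ξ - Lat l k‖ ≤ 3 * l := Classical.decPred _
  have h := sum_near_le hl S ξ
  refine le_trans (le_of_eq ?_) h
  rw [← Finset.sum_coe_sort S]
  apply Finset.sum_congr rfl
  intro k _
  by_cases hk : ‖ξ - Lat l k.1‖ ≤ 3 * l
  · rw [if_pos hk, if_pos hk]
  · rw [if_neg hk, if_neg hk]

end Crest.Agent.R138.Tub70
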