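import Mathlib
import Crest.Agent.R138.Tub7_70
import Crest.Agent.R138.Fq2_665

/-! Dictionary waves -> weighted tubes, part 8: the pieces of a wave. -/

set_option autoImplicit false

open MeasureTheory FourierTransform
open scoped ENNReal ContDiff

namespace Crest.Agent.R138.Tub70

open Crest.Agent.R138.Defs (ParB ee ext plank)
open Crest.Agent.R138.Wpk685

/-- the piece of the wave carried by the cap `k`. -/
noncomputable def pc (h : E2 → ℝ) (g : E2 → ℂ) (l : ℝ) (k : ℤ × ℤ) (x : E2) (t : ℝ) : ℂ :=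
  ext h (fun ξ => cp l k ξ * g ξ) x t

theorem pc_eq (h : E2 → ℝ) (g : E2 → ℂ) (l : ℝ) (k : ℤ × ℤ) (x : E2) (t : ℝ) :
    pc h g l k x t = ext h (fun ξ => capm aa h (Lat l k) l 0 ξ * g ξ) x t := by
  unfold pc
  simp only [capm_aa]

theorem transp_lat (B : ℕ → ℝ) (n : ℕ) : ∃ C : ℝ, 0 ≤ C ∧ ∀ h, ParB B h → ∀ g, Gd g →
    ∀ w R : ℝ, 0 < w → w ≤ R → R ≤ w ^ 2 → ∀ S : Finset (ℤ × ℤ),
      Transp w R n (ENNReal.ofReal C) S (pc h g (w / R)) (fun k => gradient h (Lat (w / R) k)) := by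
  obtain ⟨C, hC, H⟩ := transp_cap B n contDiff_aa contDiff_bb norm_aa_le bb_zero bb_of_aa
  refine ⟨C, hC, ?_⟩
  intro h hh g hg w R hw hwR hRw S k _ t t' ht ht' x
  have hR : 0 < R := hw.trans_le hwR
  have h1 : 1 ≤ w * (w / R) := by
    rw [← mul_div_assoc, le_div_iff₀ hR, one_mul, ← sq]; exact hRw
  have h2 : |t' - t| * (w / R) ≤ 4 * w := by
    have h3 : |t' - t| ≤ 4 * R := by
      have := abs_sub t' t
      linarith
    calc |t' - t| * (w / R) ≤ 4 * R * (w / R) := by gcongr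
      _ = 4 * w := by field_simp
  have := H h hh g hg (Lat (w / R) k) (w / R) w (by positivity) ((div_le_one hR).mpr hwR) hw h1
    t t' h2 x
  simp only [pc_eq]
  exact this

theorem continuous_cp (l : ℝ) (k : ℤ × ℤ) : Continuous (cp l k) := by
  have h1 : Continuous fun ξ : E2 => l⁻¹ • (ξ - Lat l k) := by fun_prop
  exact contDiff_aa.continuous.comp h1

theorem norm_cp_le (l : ℝ) (k : ℤ × ℤ) (ξ : E2) : ‖cp l k ξ‖ ≤ 1 := norm_aa_le _

theorem Gd.cp {g : E2 → ℂ} (hg : Gd g) (l : ℝ) (k : ℤ × ℤ) : Gd (fun ξ => Tub70.cp l k ξ * g ξ) :=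
  hg.mul (continuous_cp l k).measurable (norm_cp_le l k)

theorem Gd.int_ee {g : E2 → ℂ} (hg : Gd g) {h : E2 → ℝ} (hh : Continuous h) (x : E2) (t : ℝ) :
    Integrable (fun ξ => g ξ * Defs.ee (inner ℝ x ξ + t * h ξ)) := by
  have hc : Continuous fun ξ : E2 => (inner ℝ x ξ + t * h ξ : ℝ) := by fun_prop
  have hm : Measurable fun ξ : E2 => Defs.ee (inner ℝ x ξ + t * h ξ) :=
    (continuous_ee.comp hc).measurable
  exact (hg.mul' hm (M := 1) (fun _ => (norm_ee _).le)).integrable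

theorem sum_pc {h : E2 → ℝ} (hh : Continuous h) {g : E2 → ℂ} (hg : Gd g) {l : ℝ} (hl : 0 < l)
    (x : E2) (t : ℝ) : ∑ k ∈ Sl (Ml l), pc h g l k x t = ext h g x t := by
  unfold pc ext
  rw [← integral_finsetSum]
  · apply integral_congr_ae
    apply Filter.Eventually.of_forall
    intro ξ
    simp only
    by_cases hξ : ‖ξ‖ ≤ 1
    · rw [← Finset.sum_mul, ← Finset.sum_mul, sum_cp hl hξ, one_mul]
    · rw [hg.supp ξ (not_le.mp hξ)]
      simp
  · intro k _
    exact (hg.cp l k).int_ee hh x t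

theorem ortho_lat (B : ℕ → ℝ) (n : ℕ) : ∃ C : ℝ, 0 ≤ C ∧ ∀ h, ParB B h → ∀ g, Gd g →
    ∀ w R : ℝ, 0 < w → w ≤ R → R ≤ w ^ 2 →
      Ortho w R n (ENNReal.ofReal C) (Sl (Ml (w / R))) (pc h g (w / R)) (ext h g) := by
  obtain ⟨C, hC, H⟩ := ortho_caps B n contDiff_aa contDiff_bb norm_aa_le bb_zero bb_of_aa
  have hO := OV_nonneg
  refine ⟨C * (OV + 1), by positivity, ?_⟩
  intro h hh g hg w R hw hwR hRw t ht x
  have hR : 0 < R := hw.trans_le hwR
  have hl : 0 < w / R := by positivity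
  have h1 : 1 ≤ w * (w / R) := by
    rw [← mul_div_assoc, le_div_iff₀ hR, one_mul, ← sq]; exact hRw
  have := H h hh {k // k ∈ Sl (Ml (w / R))} (fun k => Lat (w / R) k.1) (fun _ => g) (fun _ => hg)
    (w / R) w OV hl ((div_le_one hR).mpr hwR) hw h1 (overlap_lat hl _) t x
  simp only [← pc_eq] at this
  have e1 : ∀ y, ∑ k : {k // k ∈ Sl (Ml (w / R))}, pc h g (w / R) k.1 y t = ext h g y t := by
    intro y
    rw [Finset.sum_coe_sort (Sl (Ml (w / R))) (fun k => pc h g (w / R) k y t)]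
    exact sum_pc hh.1.continuous hg hl y t
  simp only [e1] at this
  rw [Finset.sum_coe_sort (Sl (Ml (w / R))) (fun k => En w n (fun y => pc h g (w / R) k y t) x)]
    at this
  exact this

theorem bessel_lat (B : ℕ → ℝ) (n : ℕ) : ∃ C : ℝ, 0 ≤ C ∧ ∀ h, ParB B h →
    ∀ w R : ℝ, 0 < w → w ≤ R → R ≤ w ^ 2 → ∀ (S : Finset (ℤ × ℤ)) (g G : E2 → ℂ), Gd G →
      (∀ k ∈ S, ∀ ξ, cp (w / R) k ξ * g ξ = cp (w / R) k ξ * G ξ) →
      Bessel w R n (ENNReal.ofReal C) S (pc h g (w / R)) (ext h G) := by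
  obtain ⟨C, hC, H⟩ := bessel_caps B n contDiff_aa aa_zero3
  have hO := OV_nonneg
  refine ⟨C * (OV + 1), by positivity, ?_⟩
  intro h hh w R hw hwR hRw S g G hG hgG t ht x
  have hR : 0 < R := hw.trans_le hwR
  have hl : 0 < w / R := by positivity
  have h1 : 1 ≤ w * (w / R) := by
    rw [← mul_div_assoc, le_div_iff₀ hR, one_mul, ← sq]; exact hRw
  have := H h hh {k // k ∈ S} (fun k => Lat (w / R) k.1) G hG
    (w / R) w OV hl ((div_le_one hR).mpr hwR) hw h1 (overlap_lat hl _) t x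
  simp only [← pc_eq] at this
  rw [Finset.sum_coe_sort S (fun k => En w n (fun y => pc h G (w / R) k y t) x)] at this
  refine le_trans (le_of_eq ?_) this
  apply Finset.sum_congr rfl
  intro k hk
  congr 1
  funext y
  unfold pc
  congr 1
  funext ξ
  exact hgG k hk ξ

/-- Plancherel at a fixed time. -/
theorem planch_ext {h : E2 → ℝ} (hh : Continuous h) {g : E2 → ℂ} (hg : Gd g) (t : ℝ) :
    ∫⁻ x, ‖ext h g x t‖ₑ ^ 2 = ∫⁻ ξ, ‖g ξ‖ₑ ^ 2 := by
  have hG := hg.ee hh t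
  have e : ∀ x, ext h g x t = 𝓕⁻ (fun ξ => g ξ * ee (t * h ξ)) x := fun x => ext_eq h g x t
  simp only [e]
  rw [Fq665.plancherel_inv hG.integrable (hG.memLp 2)]
  apply lintegral_congr
  intro ξ
  congr 1
  rw [enorm_mul]
  have : ‖ee (t * h ξ)‖ₑ = 1 := by
    rw [← ofReal_norm, norm_ee]; simp
  rw [this, mul_one]

theorem continuous_ext {h : E2 → ℝ} (hh : Continuous h) {g : E2 → ℂ} (hg : Gd g) :
    Continuous fun p : E2 × ℝ => ext h g p.1 p.2 := by
  unfold ext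
  apply continuous_of_dominated (bound := fun ξ => ‖g ξ‖)
  · intro p
    exact (hg.int_ee hh p.1 p.2).aestronglyMeasurable
  · intro p
    apply Filter.Eventually.of_forall
    intro ξ
    rw [norm_mul, norm_ee, mul_one]
  · exact hg.integrable.norm
  · apply Filter.Eventually.of_forall
    intro ξ
    apply continuous_const.mul
    apply continuous_ee.comp
    exact (continuous_fst.inner continuous_const).add (continuous_snd.mul continuous_const)

/-- the energies of the pieces. -/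
theorem sum_energy_le {h : E2 → ℝ} (hh : Continuous h) {g : E2 → ℂ} (hg : Gd g) {l : ℝ}
    (hl : 0 < l) (S : Finset (ℤ × ℤ)) (t : ℝ) :
    ∑ k ∈ S, ∫⁻ x, ‖pc h g l k x t‖ₑ ^ 2 ≤ ENNReal.ofReal OV * ∫⁻ ξ, ‖g ξ‖ₑ ^ 2 := by
  unfold pc
  have e : ∀ k, ∫⁻ x, ‖ext h (fun ξ => cp l k ξ * g ξ) x t‖ₑ ^ 2 =
      ∫⁻ ξ, ‖cp l k ξ * g ξ‖ₑ ^ 2 := fun k => planch_ext hh (hg.cp l k) t
  simp only [e]
  rw [← lintegral_finsetSum _ (fun k _ => ((hg.cp l k).meas.enorm.pow_const 2)),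
    ← lintegral_const_mul' _ _ ENNReal.ofReal_ne_top]
  apply lintegral_mono
  intro ξ
  simp only [enorm_mul, mul_pow]
  rw [← Finset.sum_mul]
  gcongr
  have : DecidablePred fun k : ℤ × ℤ => ‖ξ - Lat l k‖ ≤ 3 * l := Classical.decPred _
  calc ∑ k ∈ S, ‖cp l k ξ‖ₑ ^ 2
      ≤ ∑ k ∈ S, ENNReal.ofReal (if ‖ξ - Lat l k‖ ≤ 3 * l then (1 : ℝ) else 0) := by
        apply Finset.sum_le_sum
        intro k _
        split_ifs with hk
        · rw [← ofReal_norm, ← ENNReal.ofReal_pow (norm_nonneg _)]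
          apply ENNReal.ofReal_le_ofReal
          have h1 : ‖cp l k ξ‖ ≤ 1 := norm_aa_le _
          nlinarith [norm_nonneg (cp l k ξ)]
        · have h1 : cp l k ξ = 0 := by
            apply aa_zero3
            rw [norm_smul, norm_inv, Real.norm_eq_abs, abs_of_pos hl, inv_mul_eq_div,
              lt_div_iff₀ hl]
            exact not_le.mp hk
          rw [h1]; simp
    _ = ENNReal.ofReal (∑ k ∈ S, (if ‖ξ - Lat l k‖ ≤ 3 * l then (1 : ℝ) else 0)) := by
        rw [ENNReal.ofReal_sum_of_nonneg]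
        intro k _
        split_ifs <;> norm_num
    _ ≤ _ := ENNReal.ofReal_le_ofReal (sum_near_le hl S ξ)

/-- (b): the total weight. -/
theorem sum_wgt_le {h : E2 → ℝ} (hh : Continuous h) {g : E2 → ℂ} (hg : Gd g) {w l : ℝ}
    (hw : 0 < w) (hl : 0 < l) {n : ℕ} (hn : 2 ≤ n) (S Y : Finset (ℤ × ℤ)) :
    ∑ k ∈ S, ∑ y ∈ Y, wgt w n (pc h g l) k y ≤
      4 * LS * (ENNReal.ofReal OV * ∫⁻ ξ, ‖g ξ‖ₑ ^ 2) := by
  calc ∑ k ∈ S, ∑ y ∈ Y, wgt w n (pc h g l) k y
      ≤ ∑ k ∈ S, 4 * LS * ∫⁻ x, ‖pc h g l k x 0‖ₑ ^ 2 := by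
        apply Finset.sum_le_sum
        intro k _
        unfold wgt En
        have hm : Measurable fun x : E2 => ‖pc h g l k x 0‖ₑ ^ 2 := by
          have : Measurable fun x : E2 => pc h g l k x 0 :=
            ((continuous_ext hh (hg.cp l k)).comp (Continuous.prodMk_left 0)).measurable
          exact this.enorm.pow_const 2
        have e1 : ∑ y ∈ Y, ∫⁻ x, ‖pc h g l k x 0‖ₑ ^ 2 * ENNReal.ofReal (pw w n (Lat w y) x) =
            ∫⁻ x, ∑ y ∈ Y, ‖pc h g l k x 0‖ₑ ^ 2 * ENNReal.ofReal (pw w n (Lat w y) x) := by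
          rw [lintegral_finsetSum]
          intro y _
          exact hm.mul (continuous_pw w n _).measurable.ennreal_ofReal
        refine (le_of_eq e1).trans ?_
        rw [← lintegral_const_mul _ hm]
        apply lintegral_mono
        intro x
        simp only
        rw [← Finset.mul_sum, mul_comm]
        gcongr
        exact (ENNReal.sum_le_tsum Y).trans (tsum_pw_le hw hn x)
    _ = 4 * LS * ∑ k ∈ S, ∫⁻ x, ‖pc h g l k x 0‖ₑ ^ 2 := by rw [Finset.mul_sum]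
    _ ≤ _ := by
        gcongr
        exact sum_energy_le hh hg hl S 0

end Crest.Agent.R138.Tub70
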