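import Mathlib
import Crest.Agent.R138.Tub8_70
import Crest.Agent.R138.Loc_665

/-! Dictionary waves -> weighted tubes, part 9: the box bound gives the density of the tubes. -/

set_option autoImplicit false

open MeasureTheory FourierTransform
open scoped ENNReal ContDiff

namespace Crest.Agent.R138.Tub70

open Crest.Agent.R138.Defs (ParB ee ext plank Adm chi BoxBoundL)
open Crest.Agent.R138.Wpk685

theorem ParB.B2_nonneg {B : ℕ → ℝ} {h : E2 → ℝ} (hh : ParB B h) : 0 ≤ B 2 :=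
  (norm_nonneg _).trans (hh.2 2 le_rfl 0)

/-- the gradient is Lipschitz. -/
theorem gradient_lip2 {B : ℕ → ℝ} {h : E2 → ℝ} (hh : ParB B h) (x y : E2) :
    ‖gradient h x - gradient h y‖ ≤ (1 + B 2) * ‖x - y‖ := by
  have hf : Differentiable ℝ (fderiv ℝ h) :=
    (hh.1.fderiv_right (m := (⊤ : ℕ∞)) (by exact_mod_cast le_rfl)).differentiable (by simp)
  have h1 : ∀ z, ‖fderiv ℝ (fderiv ℝ h) z‖ ≤ 1 + B 2 := by
    intro z
    have := norm_phase_le hh 2 le_rfl z
    rw [← norm_iteratedFDeriv_fderiv, norm_iteratedFDeriv_one] at this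
    exact this
  have h2 := Convex.norm_image_sub_le_of_norm_fderiv_le (f := fderiv ℝ h) (C := 1 + B 2)
    (s := Set.univ) (fun z _ => hf z) (fun z _ => h1 z) convex_univ (Set.mem_univ y) (Set.mem_univ x)
  have h3 : gradient h x - gradient h y =
      (InnerProductSpace.toDual ℝ E2).symm (fderiv ℝ h x - fderiv ℝ h y) := by
    simp [gradient, map_sub]
  rw [h3, LinearIsometryEquiv.norm_map]
  exact h2

theorem continuous_gradient {h : E2 → ℝ} (hh : ContDiff ℝ ∞ h) : Continuous (gradient h) := by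
  unfold gradient
  exact (LinearIsometryEquiv.continuous _).comp (hh.continuous_fderiv (by simp))

/-! ### the bump -/

/-- the plateau function: `1` on `|t| ≤ 3/2`, `0` for `|t| ≥ 2`. -/
noncomputable def bp (t : ℝ) : ℝ :=
  Real.smoothTransition (2 * (t + 2)) * Real.smoothTransition (2 * (2 - t))

theorem bp_one {t : ℝ} (h : |t| ≤ 3/2) : bp t = 1 := by
  have := abs_le.mp h
  unfold bp
  rw [Real.smoothTransition.one_of_one_le (by linarith),
    Real.smoothTransition.one_of_one_le (by linarith), mul_one]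

theorem bp_zero {t : ℝ} (h : 2 < |t|) : bp t = 0 := by
  unfold bp
  rcases lt_abs.mp h with h | h
  · rw [Real.smoothTransition.zero_of_nonpos (x := 2 * (2 - t)) (by linarith), mul_zero]
  · rw [Real.smoothTransition.zero_of_nonpos (x := 2 * (t + 2)) (by linarith), zero_mul]

theorem bp_nonneg (t : ℝ) : 0 ≤ bp t :=
  mul_nonneg (Real.smoothTransition.nonneg _) (Real.smoothTransition.nonneg _)

theorem bp_le_one (t : ℝ) : bp t ≤ 1 :=
  mul_le_one₀ (Real.smoothTransition.le_one _) (Real.smoothTransition.nonneg _)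
    (Real.smoothTransition.le_one _)

theorem contDiff_bp : ContDiff ℝ ∞ bp := by
  unfold bp
  have h1 : ContDiff ℝ ∞ fun t : ℝ => 2 * (t + 2) := by fun_prop
  have h2 : ContDiff ℝ ∞ fun t : ℝ => 2 * (2 - t) := by fun_prop
  exact (Real.smoothTransition.contDiff.comp h1).mul (Real.smoothTransition.contDiff.comp h2)

theorem exists_adm (N : ℕ) : ∃ κ : ℝ, 0 < κ ∧ ∃ ψ : E2 → ℂ, Adm N ψ ∧
    (∀ y, (∀ i, |y i| ≤ 3/2) → ψ y = κ) ∧ (∀ y, ‖ψ y‖ ≤ κ) := by
  set f : E2 → ℂ := fun y => ((bp (y 0) * bp (y 1) : ℝ) : ℂ) with hf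
  have hc : ∀ i : Fin 2, ContDiff ℝ ∞ (fun ζ : E2 => ζ i) := fun i =>
    (EuclideanSpace.proj (𝕜 := ℝ) i).contDiff
  have hfs : ContDiff ℝ ∞ f :=
    Complex.ofRealCLM.contDiff.comp ((contDiff_bp.comp (hc 0)).mul (contDiff_bp.comp (hc 1)))
  have hf2 : ∀ y, f y ≠ 0 → ∀ i, |y i| ≤ 2 := by
    intro y hy i
    by_contra hcon
    apply hy
    rw [hf]
    have h0 : bp (y i) = 0 := bp_zero (not_le.mp hcon)
    have h1 : bp (y 0) * bp (y 1) = 0 := by
      fin_cases i
      · exact mul_eq_zero_of_left h0 _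
      · exact mul_eq_zero_of_right _ h0
    simp only [h1, Complex.ofReal_zero]
  have hf1 : ∀ y, ‖f y‖ ≤ 1 := by
    intro y
    rw [hf, Complex.norm_real, Real.norm_eq_abs, abs_of_nonneg (mul_nonneg (bp_nonneg _) (bp_nonneg _))]
    exact mul_le_one₀ (bp_le_one _) (bp_nonneg _) (bp_le_one _)
  have hcs : HasCompactSupport f := by
    apply HasCompactSupport.of_support_subset_isCompact (isCompact_closedBall (0 : E2) 4)
    intro y hy
    have h0 := hf2 y hy 0
    have h1 := hf2 y hy 1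
    have h2 : ‖y‖ ^ 2 = y 0 ^ 2 + y 1 ^ 2 := by
      rw [EuclideanSpace.norm_sq_eq]
      simp [Fin.sum_univ_two, sq_abs]
    have h3 : y 0 ^ 2 ≤ 4 := by rw [← sq_abs]; nlinarith [abs_nonneg (y 0)]
    have h4 : y 1 ^ 2 ≤ 4 := by rw [← sq_abs]; nlinarith [abs_nonneg (y 1)]
    rw [mem_closedBall_zero_iff]
    nlinarith [norm_nonneg y]
  have hbd : ∀ j : ℕ, ∃ C : ℝ, ∀ ζ, ‖iteratedFDeriv ℝ j f ζ‖ ≤ C := by
    intro j
    have hc : Continuous (iteratedFDeriv ℝ j f) := hfs.continuous_iteratedFDeriv (mod_cast le_top)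
    exact (hcs.iteratedFDeriv j).exists_bound_of_continuous hc
  choose C hC using hbd
  have hC0 : ∀ j, 0 ≤ C j := fun j => (norm_nonneg _).trans (hC j 0)
  set A : ℝ := 1 + ∑ j ∈ Finset.range (N + 1), C j with hA
  have hA1 : 1 ≤ A := by
    have : 0 ≤ ∑ j ∈ Finset.range (N + 1), C j := Finset.sum_nonneg fun j _ => hC0 j
    linarith
  have hCA : ∀ j ≤ N, C j ≤ A := by
    intro j hj
    have : C j ≤ ∑ j ∈ Finset.range (N + 1), C j :=
      Finset.single_le_sum (f := C) (fun i _ => hC0 i) (Finset.mem_range.2 (by omega))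
    linarith
  refine ⟨A⁻¹, by positivity, fun y => (A⁻¹ : ℝ) • f y, ⟨hfs.const_smul _, ?_, ?_⟩, ?_, ?_⟩
  · intro y hy
    apply hf2
    intro h0
    apply hy
    simp [h0]
  · intro j hj y
    have e : (fun y => (A⁻¹ : ℝ) • f y) = (A⁻¹ : ℝ) • f := rfl
    rw [e, iteratedFDeriv_const_smul_apply, norm_smul, norm_inv, Real.norm_eq_abs,
      abs_of_pos (by linarith), inv_mul_le_iff₀ (by linarith), mul_one]
    · exact (hC j y).trans (hCA j hj)
    · exact (hfs.of_le (mod_cast le_top)).contDiffAt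
  · intro y hy
    simp only [hf, bp_one (hy 0), bp_one (hy 1)]
    simp
  · intro y
    rw [norm_smul, norm_inv, Real.norm_eq_abs, abs_of_pos (by linarith)]
    have := hf1 y
    have h0 : 0 < A⁻¹ := by positivity
    nlinarith

/-! ### covering a plank by smaller planks -/

theorem exists_shift {u S : ℝ} (hu : |u| ≤ 2 * S) : ∃ i : Fin 3, |u - ![-1, 0, 1] i * S| ≤ S := by
  have := abs_le.mp hu
  rcases le_total u (-S) with h | h
  · refine ⟨0, ?_⟩
    simp only [Matrix.cons_val_zero]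
    rw [abs_le]; constructor <;> linarith
  · rcases le_total u S with h' | h'
    · refine ⟨1, ?_⟩
      simp only [Matrix.cons_val_one, Matrix.cons_val_zero]
      rw [abs_le]; constructor <;> linarith
    · refine ⟨2, ?_⟩
      simp only [Matrix.cons_val]
      rw [abs_le]; constructor <;> linarith

/-- the shifted base points. -/
noncomputable def shf (b : OrthonormalBasis (Fin 2) ℝ E2) (s : Fin 2 → ℝ) (R : ℝ) (z : E2)
    (i : Fin 3 × Fin 3) : E2 :=
  z + (((![-1, 0, 1] : Fin 3 → ℝ) i.1 * (s 0 * R)) • b 0 + ((![-1, 0, 1] : Fin 3 → ℝ) i.2 * (s 1 * R)) • b 1)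

theorem norm_shf_le (b : OrthonormalBasis (Fin 2) ℝ E2) {s : Fin 2 → ℝ} (hs : ∀ i, 0 ≤ s i ∧ s i ≤ 1)
    {R : ℝ} (hR : 0 ≤ R) (z : E2) (i : Fin 3 × Fin 3) : ‖shf b s R z i‖ ≤ ‖z‖ + 2 * R := by
  have he : ∀ i : Fin 3, |(![-1, 0, 1] : Fin 3 → ℝ) i| ≤ 1 := by
    intro i; fin_cases i <;> simp
  have h1 : ∀ (i : Fin 3) (j : Fin 2), ‖((![-1, 0, 1] : Fin 3 → ℝ) i * (s j * R)) • b j‖ ≤ R := by
    intro i j
    rw [norm_smul, b.norm_eq_one, mul_one, Real.norm_eq_abs, abs_mul,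
      abs_of_nonneg (mul_nonneg (hs j).1 hR)]
    calc _ ≤ 1 * (1 * R) := by
          have := he i
          have h2 := (hs j).2
          have h3 := (hs j).1
          gcongr
      _ = R := by ring
  unfold shf
  calc _ ≤ ‖z‖ + ‖_ + _‖ := norm_add_le _ _
    _ ≤ ‖z‖ + (R + R) := by
        gcongr
        exact (norm_add_le _ _).trans (add_le_add (h1 i.1 0) (h1 i.2 1))
    _ = _ := by ring

theorem plank_cover {c : E2} (b : OrthonormalBasis (Fin 2) ℝ E2) {s s' : Fin 2 → ℝ} {R : ℝ}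
    (hR : 0 ≤ R) (hs : ∀ i, s' i ≤ 2 * s i) (z : E2) (t0 : ℝ) (f : E2 × ℝ → ℝ≥0∞) :
    ∫⁻ p in plank c b s' R z t0, f p ≤
      ∑ i : Fin 3 × Fin 3, ∫⁻ p in plank c b s R (shf b s R z i) t0, f p := by
  have hsub : plank c b s' R z t0 ⊆ ⋃ i : Fin 3 × Fin 3, plank c b s R (shf b s R z i) t0 := by
    intro p hp
    obtain ⟨hp1, hp2⟩ := hp
    have h0 : |inner ℝ (p.1 - z + (p.2 - t0) • c) (b 0)| ≤ 2 * (s 0 * R) :=
      (hp2 0).trans (by have := hs 0; nlinarith)
    have h1 : |inner ℝ (p.1 - z + (p.2 - t0) • c) (b 1)| ≤ 2 * (s 1 * R) :=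
      (hp2 1).trans (by have := hs 1; nlinarith)
    obtain ⟨i0, hi0⟩ := exists_shift h0
    obtain ⟨i1, hi1⟩ := exists_shift h1
    rw [Set.mem_iUnion]
    refine ⟨(i0, i1), hp1, ?_⟩
    have hb00 : inner ℝ (b 0) (b 0) = (1 : ℝ) := by simp
    have hb11 : inner ℝ (b 1) (b 1) = (1 : ℝ) := by simp
    have hb01 : inner ℝ (b 0) (b 1) = (0 : ℝ) := b.orthonormal.2 (by decide)
    have hb10 : inner ℝ (b 1) (b 0) = (0 : ℝ) := b.orthonormal.2 (by decide)
    have e : p.1 - shf b s R z (i0, i1) + (p.2 - t0) • c = (p.1 - z + (p.2 - t0) • c) -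
        (((![-1, 0, 1] : Fin 3 → ℝ) i0 * (s 0 * R)) • b 0 +
          ((![-1, 0, 1] : Fin 3 → ℝ) i1 * (s 1 * R)) • b 1) := by
      unfold shf; abel
    intro j
    rw [e, inner_sub_left]
    have e2 : inner ℝ (((![-1, 0, 1] : Fin 3 → ℝ) i0 * (s 0 * R)) • b 0 +
          ((![-1, 0, 1] : Fin 3 → ℝ) i1 * (s 1 * R)) • b 1) (b j) =
          ((![-1, 0, 1] : Fin 3 → ℝ) i0 * (s 0 * R)) * inner ℝ (b 0) (b j) +
          ((![-1, 0, 1] : Fin 3 → ℝ) i1 * (s 1 * R)) * inner ℝ (b 1) (b j) := by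
      rw [inner_add_left, inner_smul_left, inner_smul_left]
      simp only [conj_trivial]
    rw [e2]
    fin_cases j
    · simp only [Fin.zero_eta]
      rw [hb00, hb10, mul_one, mul_zero, add_zero]
      exact hi0
    · simp only [Fin.mk_one]
      rw [hb01, hb11, mul_one, mul_zero]
      simp only [zero_add]
      exact hi1
  calc _ ≤ ∫⁻ p in ⋃ i : Fin 3 × Fin 3, plank c b s R (shf b s R z i) t0, f p :=
        lintegral_mono_set hsub
    _ ≤ ∑' i : Fin 3 × Fin 3, ∫⁻ p in plank c b s R (shf b s R z i) t0, f p :=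
        lintegral_iUnion_le _ _
    _ = _ := tsum_fintype _

/-- the trivial bound. -/
theorem plank_trivial {h : E2 → ℝ} (hh : Continuous h) {G : E2 → ℂ} (hG : Gd G) {R : ℝ}
    (c0 : E2) (b : OrthonormalBasis (Fin 2) ℝ E2) (s : Fin 2 → ℝ) (z : E2) :
    ∫⁻ p in plank c0 b s R z 0, ‖ext h G p.1 p.2‖ₑ ^ 2 ≤
      ENNReal.ofReal (2 * R) * ∫⁻ ξ, ‖G ξ‖ₑ ^ 2 := by
  classical
  have hf : Measurable fun p : E2 × ℝ => ‖ext h G p.1 p.2‖ₑ ^ 2 :=
    (continuous_ext hh hG).measurable.enorm.pow_const 2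
  have h1 := lintegral_plank (R := R) (c0 := c0) b s z 0 hf
  rw [add_zero] at h1
  rw [← h1]
  calc _ ≤ ∫⁻ _ in Set.Icc (-R) R, ∫⁻ ξ, ‖G ξ‖ₑ ^ 2 := by
        apply lintegral_mono
        intro t
        simp only
        rw [← planch_ext hh hG t]
        apply lintegral_mono
        intro x
        simp only
        split_ifs
        · exact le_rfl
        · exact bot_le
    _ = _ := by
        rw [setLIntegral_const, Real.volume_Icc, mul_comm]
        congr 2; ring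

end Crest.Agent.R138.Tub70
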