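import Mathlib
import Crest.Agent.R138.Tub9_70

/-! Dictionary waves -> weighted tubes, part 10: (c), the density of the tubes in a plank. -/

set_option autoImplicit false

open MeasureTheory FourierTransform
open scoped ENNReal ContDiff

namespace Crest.Agent.R138.Tub70

open Crest.Agent.R138.Defs (ParB ee ext plank Adm chi BoxBoundL)
open Crest.Agent.R138.Wpk685

theorem norm_le_of_inner {b : OrthonormalBasis (Fin 2) ℝ E2} {z : E2} {r : ℝ} (hr : 0 ≤ r)
    (h : ∀ j, |inner ℝ z (b j)| ≤ r) : ‖z‖ ≤ 2 * r := by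
  have h1 := b.sum_sq_inner_left z
  rw [Fin.sum_univ_two] at h1
  have h2 : ∀ j, inner ℝ z (b j) ^ 2 ≤ r ^ 2 := fun j => by
    rw [← sq_abs]
    have := h j
    have h0 := abs_nonneg (inner ℝ z (b j))
    gcongr
  have h3 := h2 0
  have h4 := h2 1
  nlinarith [norm_nonneg z]

/-- the energy of the localised wave on a plank. -/
theorem plank_loc {N : ℕ} {h : E2 → ℝ} {g : E2 → ℂ} {L0 R D : ℝ} (hR : 0 < R)
    (hbox : BoxBoundL L0 N h g R D) {κ : ℝ} (hκ : 0 < κ) {ψ : E2 → ℂ} (hψ : Adm N ψ)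
    (c0 : E2) (b : OrthonormalBasis (Fin 2) ℝ E2) {s s' : Fin 2 → ℝ}
    (hs : ∀ i, R ^ (-(1/2) : ℝ) ≤ s i ∧ s i ≤ 1) (hs' : ∀ i, s' i ≤ 2 * s i)
    {z : E2} (hz : ‖z‖ + 2 * R ≤ L0 * R) (hL0 : 0 ≤ L0) :
    ∫⁻ p in plank c0 b s' R z 0,
      ‖ext h (fun ξ => (κ⁻¹ : ℂ) * (g ξ * chi h c0 b s ψ ξ)) p.1 p.2‖ₑ ^ 2 ≤
        ENNReal.ofReal (9 * (κ⁻¹) ^ 2 * (D * (s 0 * s 1 * R ^ 3))) := by
  have e1 : ∀ x t, ext h (fun ξ => (κ⁻¹ : ℂ) * (g ξ * chi h c0 b s ψ ξ)) x t =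
      (κ⁻¹ : ℂ) * ext h (fun ξ => g ξ * chi h c0 b s ψ ξ) x t := by
    intro x t
    unfold ext
    rw [← integral_const_mul]
    congr 1
    funext ξ
    ring
  have e2 : ∀ p : E2 × ℝ, ‖ext h (fun ξ => (κ⁻¹ : ℂ) * (g ξ * chi h c0 b s ψ ξ)) p.1 p.2‖ₑ ^ 2 =
      ENNReal.ofReal ((κ⁻¹) ^ 2) * ‖ext h (fun ξ => g ξ * chi h c0 b s ψ ξ) p.1 p.2‖ₑ ^ 2 := by
    intro p
    rw [e1, enorm_mul, mul_pow]
    congr 1
    rw [← ofReal_norm, ← ENNReal.ofReal_pow (norm_nonneg _)]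
    congr 2
    rw [norm_inv, Complex.norm_real, Real.norm_eq_abs, abs_of_pos hκ]
  simp only [e2]
  rw [lintegral_const_mul' _ _ ENNReal.ofReal_ne_top]
  have hs0 : ∀ i, 0 ≤ s i ∧ s i ≤ 1 := fun i =>
    ⟨(Real.rpow_nonneg hR.le _).trans (hs i).1, (hs i).2⟩
  calc _ ≤ ENNReal.ofReal ((κ⁻¹) ^ 2) * ∑ i : Fin 3 × Fin 3,
        ∫⁻ p in plank c0 b s R (shf b s R z i) 0,
          ‖ext h (fun ξ => g ξ * chi h c0 b s ψ ξ) p.1 p.2‖ₑ ^ 2 := by
        gcongr
        exact plank_cover b hR.le hs' z 0 _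
    _ ≤ ENNReal.ofReal ((κ⁻¹) ^ 2) * ∑ i : Fin 3 × Fin 3,
          ENNReal.ofReal (D * (s 0 * s 1 * R ^ 3)) := by
        gcongr with i _
        apply hbox c0 b s hs ψ hψ
        · exact (norm_shf_le b hs0 hR.le z i).trans hz
        · rw [abs_zero]; positivity
    _ = _ := by
        rw [Finset.sum_const, Finset.card_univ, Fintype.card_prod, Fintype.card_fin, nsmul_eq_mul]
        rw [ENNReal.ofReal_mul (by positivity : (0:ℝ) ≤ 9 * (κ⁻¹) ^ 2),
          ENNReal.ofReal_mul (by norm_num : (0:ℝ) ≤ 9)]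
        push_cast
        norm_num
        ring

/-- the lattice sum splits into near and far translates. -/
theorem tsum_split {w R : ℝ} (hw : 0 < w) (hR : 0 < R) {n : ℕ} (hn : 2 ≤ n)
    {I : ℤ × ℤ → ℝ≥0∞} {A A' : ℝ≥0∞} (h1 : ∀ v, ‖Lat w v‖ ≤ R → I v ≤ A) (h2 : ∀ v, I v ≤ A') :
    ∑' v : ℤ × ℤ, ENNReal.ofReal (pw w n (Lat w v) 0) * I v ≤
      4 * LS * (A + ENNReal.ofReal ((w / R) ^ (2 * (n - 2))) * A') := by
  classical
  calc ∑' v : ℤ × ℤ, ENNReal.ofReal (pw w n (Lat w v) 0) * I v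
      ≤ ∑' v : ℤ × ℤ, (ENNReal.ofReal (pw w n (Lat w v) 0) * A +
          (if R ≤ ‖Lat w v‖ then ENNReal.ofReal (pw w n (Lat w v) 0) else 0) * A') := by
        apply ENNReal.tsum_le_tsum
        intro v
        split_ifs with h
        · rw [← mul_add]
          gcongr
          exact (h2 v).trans le_add_self
        · rw [zero_mul, add_zero]
          gcongr
          exact h1 v (not_le.mp h).le
    _ = (∑' v : ℤ × ℤ, ENNReal.ofReal (pw w n (Lat w v) 0)) * A +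
          (∑' v : ℤ × ℤ, (if R ≤ ‖Lat w v‖ then ENNReal.ofReal (pw w n (Lat w v) 0) else 0)) * A' := by
        rw [ENNReal.tsum_add, ENNReal.tsum_mul_right, ENNReal.tsum_mul_right]
    _ ≤ 4 * LS * A + ENNReal.ofReal ((w / R) ^ (2 * (n - 2))) * (4 * LS) * A' := by
        gcongr
        · exact tsum_pw_le hw hn 0
        · exact tsum_pw_tail hw hR hn
    _ = _ := by ring

theorem cp_ne_zero {l : ℝ} (hl : 0 < l) {k : ℤ × ℤ} {ξ : E2} (h : cp l k ξ ≠ 0) :
    ‖ξ - Lat l k‖ ≤ 3/2 * l := by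
  by_contra hc
  apply h
  apply aa_zero
  rw [norm_smul, norm_inv, Real.norm_eq_abs, abs_of_pos hl, inv_mul_eq_div, lt_div_iff₀ hl]
  exact not_le.mp hc

/-- (c): **density of the tubes in a plank**. -/
theorem tubes_plank (B : ℕ → ℝ) {n : ℕ} (hn : 2 ≤ n) (N : ℕ) {V1 : ℝ} (hV1 : 0 ≤ V1) :
    ∃ C : ℝ, 0 ≤ C ∧ ∀ h, ParB B h → ∀ g, Gd g → ∀ w R : ℝ, 0 < w → R ≤ w ^ 2 →
      3 * (1 + B 2) * w ≤ R → 1 ≤ R → ∀ D : ℝ, 0 ≤ D → BoxBoundL (V1 + 5) N h g R D →
      ∀ (b : OrthonormalBasis (Fin 2) ℝ E2) (s : Fin 2 → ℝ) (x0 c0 : E2),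
        (∀ j, w / R ≤ s j ∧ s j ≤ 1) → ∀ P : Finset ((ℤ × ℤ) × (ℤ × ℤ)),
          (∀ p ∈ P, ‖Lat w p.2‖ ≤ V1 * R) →
          (∀ p ∈ P, ∀ t : ℝ, |t| ≤ R → sl c0 b (fun i => s i * R) x0 t
            (Lat w p.2 - t • gradient h (Lat (w / R) p.1))) →
          ∑ p ∈ P, wgt w n (pc h g (w / R)) p.1 p.2 ≤
            ENNReal.ofReal C * (ENNReal.ofReal (D * (s 0 * s 1 * R ^ 2)) +
              ENNReal.ofReal ((w / R) ^ (2 * (n - 2))) * ∫⁻ ξ, ‖g ξ‖ₑ ^ 2) := by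
  obtain ⟨CT, hCT, HT⟩ := transp_lat B n
  obtain ⟨CB, hCB, HB⟩ := bessel_lat B n
  obtain ⟨κ, hκ, ψ, hψ, hψ1, hψ2⟩ := exists_adm N
  set lam : ℝ := 2 + |B 2| with hlam
  have hlam0 : 0 < lam := by positivity
  set C1 : ℝ := 9 * (κ⁻¹) ^ 2 * lam ^ 2 + 1 with hC1
  refine ⟨CT * (4 ^ n * (CB * (4 ^ n * (4 * LS.toReal * C1)))), by positivity, ?_⟩
  intro h hh g hg w R hw hRw hwR hR1 D hD hbox b s x0 c0 hs P hPy hP
  classical
  have hR : 0 < R := by linarith
  have hB2 : 0 ≤ B 2 := ParB.B2_nonneg hh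
  have hlamB : lam = 2 + B 2 := by rw [hlam, abs_of_nonneg hB2]
  have hwR1 : w ≤ R := by nlinarith
  have hl : 0 < w / R := by positivity
  rcases P.eq_empty_or_nonempty with hPe | ⟨p0, hp0⟩
  · rw [hPe]; simp
  -- the base point
  have hx0 : ‖x0‖ ≤ (V1 + 2) * R := by
    have h1 : ∀ j, |inner ℝ (Lat w p0.2 - x0) (b j)| ≤ R := by
      intro j
      have h2 := hP p0 hp0 0 (by simpa using hR.le) j
      simp only [zero_smul, sub_zero, add_zero] at h2
      have h3 := (hs j).2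
      nlinarith
    have h2 := norm_le_of_inner hR.le h1
    have h3 := hPy p0 hp0
    calc ‖x0‖ = ‖Lat w p0.2 - (Lat w p0.2 - x0)‖ := by congr 1; abel
      _ ≤ ‖Lat w p0.2‖ + ‖Lat w p0.2 - x0‖ := norm_sub_le _ _
      _ ≤ (V1 + 2) * R := by linarith
  -- velocities
  have hvel : ∀ p ∈ P, ∀ j, |inner ℝ (gradient h (Lat (w / R) p.1) - c0) (b j)| ≤ s j := by
    intro p hp j
    have h1 := hP p hp R (by rw [abs_of_pos hR]) j
    have h2 := hP p hp (-R) (by rw [abs_neg, abs_of_pos hR]) j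
    set c := gradient h (Lat (w / R) p.1) with hc
    have e : inner ℝ (c - c0) (b j) * (2 * R) =
        inner ℝ (Lat w p.2 - (-R) • c - x0 + (-R) • c0) (b j) -
        inner ℝ (Lat w p.2 - R • c - x0 + R • c0) (b j) := by
      rw [← inner_sub_left]
      have : Lat w p.2 - (-R) • c - x0 + (-R) • c0 - (Lat w p.2 - R • c - x0 + R • c0) =
          (2 * R) • (c - c0) := by
        rw [smul_sub, neg_smul, neg_smul, two_mul, add_smul, add_smul]
        abel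
      rw [this, inner_smul_left]
      simp only [conj_trivial]
      ring
    have h3 : |inner ℝ (c - c0) (b j) * (2 * R)| ≤ 2 * (s j * R) := by
      rw [e]
      have := abs_sub (inner ℝ (Lat w p.2 - (-R) • c - x0 + (-R) • c0) (b j))
        (inner ℝ (Lat w p.2 - R • c - x0 + R • c0) (b j))
      simp only at h1 h2
      linarith
    rw [abs_mul, abs_of_pos (by positivity : (0:ℝ) < 2 * R)] at h3
    have h4 : |inner ℝ (c - c0) (b j)| * (2 * R) ≤ s j * (2 * R) := by linarith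
    exact le_of_mul_le_mul_right h4 (by positivity)
  -- the enlarged widths
  set s2 : Fin 2 → ℝ := fun j => min (lam * s j) 1 with hs2
  have hsj0 : ∀ j, 0 < s j := fun j => hl.trans_le (hs j).1
  have hs2R : ∀ i, R ^ (-(1/2) : ℝ) ≤ s2 i ∧ s2 i ≤ 1 := by
    intro i
    refine ⟨le_min ?_ ?_, min_le_right _ _⟩
    · have h1 : R ^ (-(1/2) : ℝ) ≤ w / R := by
        rw [le_div_iff₀ hR]
        have h2 : R ^ (-(1/2) : ℝ) * R = Real.sqrt R := by
          rw [Real.sqrt_eq_rpow]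
          nth_rewrite 2 [← Real.rpow_one R]
          rw [← Real.rpow_add hR]
          norm_num
        rw [h2]
        exact (Real.sqrt_le_sqrt hRw).trans (by rw [Real.sqrt_sq hw.le])
      have h2 := (hs i).1
      have h3 := hsj0 i
      have h4 : s i ≤ lam * s i := by nlinarith
      linarith
    · exact Real.rpow_le_one_of_one_le_of_nonpos hR1 (by norm_num)
  have hs2le : ∀ j, s2 j ≤ lam * s j := fun j => min_le_left _ _
  have hs20 : ∀ j, 0 < s2 j := fun j => lt_min (mul_pos hlam0 (hsj0 j)) one_pos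
  have hl3 : 3 * (1 + B 2) * (w / R) ≤ 1 := by
    rw [← mul_div_assoc, div_le_one hR]; exact hwR
  set s1 : Fin 2 → ℝ := fun j => s j + 2 * (w / R) with hs1
  have hs12 : ∀ j, s1 j ≤ 2 * s2 j := by
    intro j
    have h1 := (hs j).1
    have h2 := (hs j).2
    rcases le_total (lam * s j) 1 with h3 | h3
    · rw [hs2]
      simp only [min_eq_left h3, hs1]
      rw [hlamB]
      nlinarith [hsj0 j, mul_nonneg hB2 (hsj0 j).le]
    · rw [hs2]
      simp only [min_eq_right h3, hs1]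
      nlinarith [mul_nonneg hB2 hl.le]
  -- the localised function
  set χ : E2 → ℂ := chi h c0 b s2 ψ with hχ
  set G : E2 → ℂ := fun ξ => (κ⁻¹ : ℂ) * (g ξ * χ ξ) with hG
  have hχc : Continuous χ := by
    rw [hχ]
    unfold chi
    apply hψ.1.continuous.comp
    apply (PiLp.continuous_toLp 2 _).comp
    apply continuous_pi
    intro i
    exact (((continuous_gradient hh.1).sub continuous_const).inner continuous_const).div_const _
  have hχn : ∀ ξ, ‖χ ξ‖ ≤ κ := fun ξ => hψ2 _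
  have hGG : ∀ ξ, G ξ = g ξ * ((κ⁻¹ : ℂ) * χ ξ) := fun ξ => by rw [hG]; ring
  have hmn : ∀ ξ, ‖(κ⁻¹ : ℂ) * χ ξ‖ ≤ 1 := by
    intro ξ
    rw [norm_mul, norm_inv, Complex.norm_real, Real.norm_eq_abs, abs_of_pos hκ,
      inv_mul_le_iff₀ hκ, mul_one]
    exact hχn ξ
  have hGgd : Gd G := by
    have := hg.mul' (m := fun ξ => (κ⁻¹ : ℂ) * χ ξ) (continuous_const.mul hχc).measurable
      (M := 1) hmn
    have e : G = fun ξ => g ξ * ((κ⁻¹ : ℂ) * χ ξ) := funext hGG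
    rw [e]; exact this
  -- on the caps of P
  have hcap : ∀ k ∈ P.image Prod.fst, ∀ ξ, cp (w / R) k ξ * g ξ = cp (w / R) k ξ * G ξ := by
    intro k hk ξ
    rw [Finset.mem_image] at hk
    obtain ⟨p, hp, rfl⟩ := hk
    by_cases hcpz : cp (w / R) p.1 ξ = 0
    · rw [hcpz]; simp
    · have h1 := cp_ne_zero hl hcpz
      have h2 : χ ξ = κ := by
        rw [hχ]
        unfold chi
        apply hψ1
        intro i
        show |inner ℝ (gradient h ξ - c0) (b i) / s2 i| ≤ 3/2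
        rw [abs_div, abs_of_pos (hs20 i), div_le_iff₀ (hs20 i)]
        have h3 : |inner ℝ (gradient h ξ - gradient h (Lat (w / R) p.1)) (b i)| ≤
            (1 + B 2) * (3/2 * (w / R)) := by
          calc _ ≤ ‖gradient h ξ - gradient h (Lat (w / R) p.1)‖ * ‖b i‖ :=
                abs_real_inner_le_norm _ _
            _ ≤ _ := by
                rw [b.norm_eq_one, mul_one]
                refine (gradient_lip2 hh _ _).trans ?_
                gcongr
        have h4 := hvel p hp i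
        have h5 : |inner ℝ (gradient h ξ - c0) (b i)| ≤ (1 + B 2) * (3/2 * (w / R)) + s i := by
          have e : gradient h ξ - c0 = (gradient h ξ - gradient h (Lat (w / R) p.1)) +
              (gradient h (Lat (w / R) p.1) - c0) := by abel
          rw [e, inner_add_left]
          exact (abs_add_le _ _).trans (add_le_add h3 h4)
        refine h5.trans ?_
        have h6 := (hs i).1
        have h7 := (hs i).2
        rcases le_total (lam * s i) 1 with h8 | h8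
        · rw [hs2]
          simp only [min_eq_left h8]
          rw [hlamB]
          nlinarith [mul_nonneg hB2 (sub_nonneg.mpr h6)]
        · rw [hs2]
          simp only [min_eq_right h8]
          nlinarith
      rw [hGG, h2]
      have hκc : (κ : ℂ) ≠ 0 := by exact_mod_cast hκ.ne'
      rw [inv_mul_cancel₀ hκc, mul_one]
  -- the main inequality
  have hmain := plank_sum_le (w := w) (R := R) hw hR (n := n) (C := ENNReal.ofReal CT)
    (C' := ENNReal.ofReal CB) ENNReal.ofReal_ne_top ENNReal.ofReal_ne_top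
    (S := P.image Prod.fst) (u := pc h g (w / R)) (c := fun k => gradient h (Lat (w / R) k))
    (U := ext h G) (HT h hh g hg w R hw hwR1 hRw _) (c0 := c0) b (s := s) (s' := s1)
    (fun i => by rw [hs1]; simp only; rw [add_mul]; field_simp; exact le_rfl) (x0 := x0) P
    (continuous_ext hh.1.continuous hGgd).measurable
    (fun p hp => Finset.mem_image_of_mem _ hp) hP (HB h hh w R hw hwR1 hRw _ g G hGgd hcap)
  have hI1 : ∀ v : ℤ × ℤ, ‖Lat w v‖ ≤ R →
      ∫⁻ p in plank c0 b s1 R (x0 + Lat w v) 0, ‖ext h G p.1 p.2‖ₑ ^ 2 ≤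
        ENNReal.ofReal (2 * R) * ENNReal.ofReal (C1 * (D * (s 0 * s 1 * R ^ 2))) := by
    intro v hv
    have h1 : ‖x0 + Lat w v‖ + 2 * R ≤ (V1 + 5) * R := by
      have := norm_add_le x0 (Lat w v)
      linarith
    refine (plank_loc hR hbox hκ hψ c0 b hs2R hs12 h1 (by linarith)).trans ?_
    rw [← ENNReal.ofReal_mul (by positivity)]
    apply ENNReal.ofReal_le_ofReal
    have h2 : s2 0 * s2 1 ≤ lam ^ 2 * (s 0 * s 1) := by
      calc s2 0 * s2 1 ≤ (lam * s 0) * (lam * s 1) :=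
            mul_le_mul (hs2le 0) (hs2le 1) (hs20 1).le (mul_pos hlam0 (hsj0 0)).le
        _ = _ := by ring
    calc 9 * κ⁻¹ ^ 2 * (D * (s2 0 * s2 1 * R ^ 3))
        ≤ 9 * κ⁻¹ ^ 2 * (D * (lam ^ 2 * (s 0 * s 1) * R ^ 3)) := by gcongr
      _ = (9 * κ⁻¹ ^ 2 * lam ^ 2) * (D * (s 0 * s 1 * R ^ 3)) := by ring
      _ ≤ (2 * C1) * (D * (s 0 * s 1 * R ^ 3)) := by
          have h3 : 0 ≤ D * (s 0 * s 1 * R ^ 3) := by
            have := hsj0 0
            have := hsj0 1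
            positivity
          apply mul_le_mul_of_nonneg_right _ h3
          rw [hC1]
          nlinarith [sq_nonneg (κ⁻¹ * lam)]
      _ = _ := by ring
  have hI2 : ∀ v : ℤ × ℤ,
      ∫⁻ p in plank c0 b s1 R (x0 + Lat w v) 0, ‖ext h G p.1 p.2‖ₑ ^ 2 ≤
        ENNReal.ofReal (2 * R) * ∫⁻ ξ, ‖g ξ‖ₑ ^ 2 := by
    intro v
    refine (plank_trivial hh.1.continuous hGgd c0 b s1 _).trans ?_
    gcongr with ξ
    rw [hGG, enorm_mul]
    have : ‖(κ⁻¹ : ℂ) * χ ξ‖ₑ ≤ 1 := by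
      rw [← ofReal_norm, ENNReal.ofReal_le_one]
      exact hmn ξ
    calc _ ≤ ‖g ξ‖ₑ * 1 := by gcongr
      _ = _ := mul_one _
  have hsplit := tsum_split hw hR hn hI1 hI2
  have hfin : ENNReal.ofReal (2 * R) * ∑ p ∈ P, wgt w n (pc h g (w / R)) p.1 p.2 ≤
      ENNReal.ofReal (2 * R) * (ENNReal.ofReal CT * (4 ^ n * (ENNReal.ofReal CB * (4 ^ n *
        (4 * LS * (ENNReal.ofReal (C1 * (D * (s 0 * s 1 * R ^ 2))) +
          ENNReal.ofReal ((w / R) ^ (2 * (n - 2))) * ∫⁻ ξ, ‖g ξ‖ₑ ^ 2)))))) := by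
    refine hmain.trans ?_
    calc _ ≤ ENNReal.ofReal CT * (4 ^ n * (ENNReal.ofReal CB * (4 ^ n *
          (4 * LS * (ENNReal.ofReal (2 * R) * ENNReal.ofReal (C1 * (D * (s 0 * s 1 * R ^ 2))) +
          ENNReal.ofReal ((w / R) ^ (2 * (n - 2))) *
            (ENNReal.ofReal (2 * R) * ∫⁻ ξ, ‖g ξ‖ₑ ^ 2)))))) := by
          gcongr
      _ = _ := by ring
  have h2R : ENNReal.ofReal (2 * R) ≠ 0 := by
    rw [ne_eq, ENNReal.ofReal_eq_zero, not_le]; positivity
  have hfin2 := (ENNReal.mul_le_mul_iff_right h2R ENNReal.ofReal_ne_top).mp hfin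
  refine hfin2.trans ?_
  have hC1p : 1 ≤ C1 := by
    rw [hC1]
    have : 0 ≤ 9 * κ⁻¹ ^ 2 * lam ^ 2 := by positivity
    linarith
  have hLS : LS = ENNReal.ofReal LS.toReal := (ENNReal.ofReal_toReal LS_ne_top).symm
  have h4n : (4 : ℝ≥0∞) ^ n = ENNReal.ofReal (4 ^ n) := by
    rw [ENNReal.ofReal_pow (by norm_num)]; norm_num
  have hlast : ENNReal.ofReal (C1 * (D * (s 0 * s 1 * R ^ 2))) +
      ENNReal.ofReal ((w / R) ^ (2 * (n - 2))) * ∫⁻ ξ, ‖g ξ‖ₑ ^ 2 ≤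
      ENNReal.ofReal C1 * (ENNReal.ofReal (D * (s 0 * s 1 * R ^ 2)) +
          ENNReal.ofReal ((w / R) ^ (2 * (n - 2))) * ∫⁻ ξ, ‖g ξ‖ₑ ^ 2) := by
    rw [mul_add]
    apply add_le_add
    · rw [ENNReal.ofReal_mul (by linarith)]
    · have h1 : (1 : ℝ≥0∞) ≤ ENNReal.ofReal C1 := by rw [ENNReal.one_le_ofReal]; exact hC1p
      exact le_mul_of_one_le_left' h1
  calc _ ≤ ENNReal.ofReal CT * (4 ^ n * (ENNReal.ofReal CB * (4 ^ n *
        (4 * LS * (ENNReal.ofReal C1 * (ENNReal.ofReal (D * (s 0 * s 1 * R ^ 2)) +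
          ENNReal.ofReal ((w / R) ^ (2 * (n - 2))) * ∫⁻ ξ, ‖g ξ‖ₑ ^ 2)))))) := by
        gcongr
    _ = _ := by
        rw [ENNReal.ofReal_mul hCT, ENNReal.ofReal_mul (by positivity : (0:ℝ) ≤ 4 ^ n),
          ENNReal.ofReal_mul hCB, ENNReal.ofReal_mul (by positivity : (0:ℝ) ≤ 4 ^ n),
          ENNReal.ofReal_mul (by positivity : (0:ℝ) ≤ 4 * LS.toReal),
          ENNReal.ofReal_mul (by norm_num : (0:ℝ) ≤ 4), ← hLS, ← h4n]
        have : ENNReal.ofReal 4 = 4 := by norm_num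
        rw [this]
        ring

end Crest.Agent.R138.Tub70
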