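import Mathlib
import Crest.Agent.R138.TubA_70
import Crest.Agent.R138.Tub3_70

/-! Dictionary waves -> weighted tubes, part 11: **wave_KM** (W7'): the averages of a wave at
scale `w ≥ R^{1/2}` are controlled by Kakeya. -/

set_option autoImplicit false

open MeasureTheory FourierTransform
open scoped ENNReal ContDiff

namespace Crest.Agent.R138.Tub70

open Crest.Agent.R138.Defs (ParB ee ext plank Adm chi BoxBoundL)
open Crest.Agent.R138.Wpk685

theorem Gd.lint_sq {g : E2 → ℂ} (hg : Gd g) :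
    ∫⁻ ξ, ‖g ξ‖ₑ ^ 2 = ENNReal.ofReal (∫ ξ, ‖g ξ‖ ^ 2) := by
  rw [ofReal_integral_eq_lintegral_ofReal]
  · apply lintegral_congr
    intro ξ
    rw [ENNReal.ofReal_pow (norm_nonneg _), ofReal_norm]
  · exact (hg.memLp 2).integrable_norm_pow (by norm_num)
  · exact Filter.Eventually.of_forall fun _ => by positivity

theorem Transp.mono {w R : ℝ} {n : ℕ} {C C' : ℝ≥0∞} (hC : C ≤ C') {κ : Type*} {S : Finset κ}
    {u : κ → E2 → ℝ → ℂ} {c : κ → E2} (h : Transp w R n C S u c) : Transp w R n C' S u c := by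
  intro k hk t t' ht ht' x
  exact (h k hk t t' ht ht' x).trans (by gcongr)

theorem Ortho.mono {w R : ℝ} {n : ℕ} {C C' : ℝ≥0∞} (hC : C ≤ C') {κ : Type*} {S : Finset κ}
    {u : κ → E2 → ℝ → ℂ} {U : E2 → ℝ → ℂ} (h : Ortho w R n C S u U) : Ortho w R n C' S u U := by
  intro t ht x
  exact (h t ht x).trans (by gcongr)

/-- the averages of the wave at scale `w`. -/
noncomputable def Av (w : ℝ) (n : ℕ) (U : E2 → ℝ → ℂ) (x : E2) (t : ℝ) : ℝ≥0∞ :=
  ⨆ t' : {t' : ℝ // |t' - t| ≤ w}, ENNReal.ofReal ((w ^ 2)⁻¹) * En w n (fun y => U y t'.1) x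

/-- the lattice points of the ball of radius `r`. -/
noncomputable def Yr (w r : ℝ) : Finset (ℤ × ℤ) := by
  classical exact (Sl ⌈r / w⌉₊).filter (fun y => ‖Lat w y‖ ≤ r)

theorem mem_Yr {w r : ℝ} (hw : 0 < w) {y : ℤ × ℤ} : y ∈ Yr w r ↔ ‖Lat w y‖ ≤ r := by
  classical
  unfold Yr
  rw [Finset.mem_filter]
  refine ⟨fun h => h.2, fun h => ⟨?_, h⟩⟩
  unfold Sl
  rw [Finset.mem_product, Finset.mem_Icc, Finset.mem_Icc]
  have hc : ∀ i : Fin 2, |(Lat w y) i| ≤ r := by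
    intro i
    have := PiLp.norm_apply_le (Lat w y) i
    rw [Real.norm_eq_abs] at this
    linarith
  have h0 := hc 0
  have h1 := hc 1
  rw [Lat_zero_coord, abs_mul, abs_of_pos hw] at h0
  rw [Lat_one_coord, abs_mul, abs_of_pos hw] at h1
  have hM : r / w ≤ (⌈r / w⌉₊ : ℝ) := Nat.le_ceil _
  have h0' : |(y.1 : ℝ)| ≤ (⌈r / w⌉₊ : ℝ) := by
    refine le_trans ?_ hM
    rw [le_div_iff₀ hw]; linarith
  have h1' : |(y.2 : ℝ)| ≤ (⌈r / w⌉₊ : ℝ) := by
    refine le_trans ?_ hM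
    rw [le_div_iff₀ hw]; linarith
  have a0 := abs_le.mp h0'
  have a1 := abs_le.mp h1'
  refine ⟨⟨?_, ?_⟩, ?_, ?_⟩
  · exact_mod_cast a0.1
  · exact_mod_cast a0.2
  · exact_mod_cast a1.1
  · exact_mod_cast a1.2

/-- the wave is dominated by its tubes. -/
theorem Av_le_tubes (B : ℕ → ℝ) (n : ℕ) {V : ℝ} (hV : 0 ≤ V) : ∃ A : ℝ, 0 < A ∧ ∀ h, ParB B h →
    (∀ ξ, ‖ξ‖ ≤ 3 → ‖gradient h ξ‖ ≤ V) → ∀ g, Gd g → ∀ w R : ℝ, 0 < w → w ≤ R → R ≤ w ^ 2 →
      ∀ (x : E2) (t : ℝ), ‖x‖ ≤ R → |t| ≤ R → Av w n (ext h g) x t ≤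
        ENNReal.ofReal (A * (w ^ 2)⁻¹) * ∑ p ∈ Sl (Ml (w / R)) ×ˢ Yr w ((V + 2) * R),
          (open Classical in if ‖x - Lat w p.2 + t • gradient h (Lat (w / R) p.1)‖ ≤ w then
            wgt w n (pc h g (w / R)) p.1 p.2 else 0) := by
  classical
  obtain ⟨CT, hCT, HT⟩ := transp_lat B n
  obtain ⟨CO, hCO, HO⟩ := ortho_lat B n
  set C0 : ℝ := CT + CO + 1 with hC0
  have hC0p : 0 < C0 := by positivity
  refine ⟨C0 * (C0 * (2 * (1 + (V + 1) ^ 2)) ^ n), by positivity, ?_⟩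
  intro h hh hVh g hg w R hw hwR hRw x t hx ht
  have hR : 0 < R := hw.trans_le hwR
  have hl : 0 < w / R := by positivity
  have hl1 : w / R ≤ 1 := (div_le_one hR).mpr hwR
  have hT := (HT h hh g hg w R hw hwR hRw (Sl (Ml (w / R)))).mono
    (ENNReal.ofReal_le_ofReal (by linarith : CT ≤ C0))
  have hO := (HO h hh g hg w R hw hwR hRw).mono
    (ENNReal.ofReal_le_ofReal (by linarith : CO ≤ C0))
  have hc : ∀ k ∈ Sl (Ml (w / R)), ‖gradient h (Lat (w / R) k)‖ ≤ V := fun k hk =>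
    hVh _ (norm_Lat_le hl hl1 hk)
  have hsum : ∑ k ∈ Sl (Ml (w / R)), wgt w n (pc h g (w / R)) k
      (nr w (x + t • gradient h (Lat (w / R) k))) ≤
      ∑ p ∈ Sl (Ml (w / R)) ×ˢ Yr w ((V + 2) * R),
          (if ‖x - Lat w p.2 + t • gradient h (Lat (w / R) p.1)‖ ≤ w then
            wgt w n (pc h g (w / R)) p.1 p.2 else 0) := by
    rw [Finset.sum_product]
    apply Finset.sum_le_sum
    intro k hk
    have h1 := norm_sub_nr hw (x + t • gradient h (Lat (w / R) k))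
    have hmem : nr w (x + t • gradient h (Lat (w / R) k)) ∈ Yr w ((V + 2) * R) := by
      rw [mem_Yr hw]
      have h2 : ‖x + t • gradient h (Lat (w / R) k)‖ ≤ R + R * V := by
        refine (norm_add_le _ _).trans ?_
        rw [norm_smul, Real.norm_eq_abs]
        have := hc k hk
        gcongr
      have h3 : Lat w (nr w (x + t • gradient h (Lat (w / R) k))) =
          (x + t • gradient h (Lat (w / R) k)) - (x + t • gradient h (Lat (w / R) k) -
            Lat w (nr w (x + t • gradient h (Lat (w / R) k)))) := by abel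
      rw [h3]
      refine (norm_sub_le _ _).trans ?_
      linarith
    have h4 : ‖x - Lat w (nr w (x + t • gradient h (Lat (w / R) k))) +
        t • gradient h (Lat (w / R) k)‖ ≤ w := by
      convert h1 using 2
      abel
    calc _ = (if ‖x - Lat w (nr w (x + t • gradient h (Lat (w / R) k))) +
        t • gradient h (Lat (w / R) k)‖ ≤ w then
            wgt w n (pc h g (w / R)) k (nr w (x + t • gradient h (Lat (w / R) k))) else 0) := by
          rw [if_pos h4]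
      _ ≤ _ := Finset.single_le_sum (f := fun y => if ‖x - Lat w y +
        t • gradient h (Lat (w / R) k)‖ ≤ w then
            wgt w n (pc h g (w / R)) k y else 0) (fun _ _ => bot_le) hmem
  unfold Av
  apply iSup_le
  rintro ⟨t', ht'⟩
  have key := point_le hw hwR hT hO hc ht ht' x
  calc _ ≤ ENNReal.ofReal ((w ^ 2)⁻¹) * (ENNReal.ofReal C0 * (ENNReal.ofReal C0 *
        (ENNReal.ofReal ((2 * (1 + (V + 1) ^ 2)) ^ n) *
        ∑ p ∈ Sl (Ml (w / R)) ×ˢ Yr w ((V + 2) * R),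
          (if ‖x - Lat w p.2 + t • gradient h (Lat (w / R) p.1)‖ ≤ w then
            wgt w n (pc h g (w / R)) p.1 p.2 else 0)))) := by
        gcongr
        refine key.trans ?_
        gcongr
    _ = _ := by
        rw [ENNReal.ofReal_mul (by positivity), ENNReal.ofReal_mul hC0p.le,
          ENNReal.ofReal_mul hC0p.le]
        ring

theorem wgt_ne_top {h : E2 → ℝ} (hh : Continuous h) {g : E2 → ℂ} (hg : Gd g) {w l : ℝ}
    (hw : 0 < w) (hl : 0 < l) {n : ℕ} (hn : 2 ≤ n) (k y : ℤ × ℤ) :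
    wgt w n (pc h g l) k y ≠ ⊤ := by
  have h1 := sum_wgt_le hh hg hw hl hn {k} {y}
  simp only [Finset.sum_singleton] at h1
  refine ne_top_of_le_ne_top ?_ h1
  rw [hg.lint_sq]
  exact ENNReal.mul_ne_top (ENNReal.mul_ne_top (by norm_num) LS_ne_top)
    (ENNReal.mul_ne_top ENNReal.ofReal_ne_top ENNReal.ofReal_ne_top)

theorem Av_le_trivial {h : E2 → ℝ} (hh : Continuous h) {g : E2 → ℂ} (hg : Gd g) {w : ℝ}
    (hw : 1 ≤ w) (n : ℕ) (x : E2) (t : ℝ) :
    Av w n (ext h g) x t ≤ ENNReal.ofReal (∫ ξ, ‖g ξ‖ ^ 2) := by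
  unfold Av
  apply iSup_le
  rintro ⟨t', ht'⟩
  simp only
  have h1 : En w n (fun y => ext h g y t') x ≤ ENNReal.ofReal (∫ ξ, ‖g ξ‖ ^ 2) := by
    rw [← hg.lint_sq, ← planch_ext hh hg t']
    unfold En
    apply lintegral_mono
    intro y
    simp only
    have : ENNReal.ofReal (pw w n x y) ≤ 1 := by
      rw [ENNReal.ofReal_le_one]; exact pw_le_one _ _ _ _
    calc _ ≤ ‖ext h g y t'‖ₑ ^ 2 * 1 := by gcongr
      _ = _ := mul_one _
  calc _ ≤ 1 * ENNReal.ofReal (∫ ξ, ‖g ξ‖ ^ 2) := by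
        gcongr
        rw [ENNReal.ofReal_le_one]
        apply inv_le_one_of_one_le₀
        exact one_le_pow₀ hw
    _ = _ := one_mul _

end Crest.Agent.R138.Tub70
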