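import Mathlib
import Crest.Agent.R138.TubB_70

/-! Dictionary waves -> weighted tubes, part 12: assembly. -/

set_option autoImplicit false

open MeasureTheory FourierTransform
open scoped ENNReal ContDiff

namespace Crest.Agent.R138.Tub70

open Crest.Agent.R138.Defs (ParB ee ext plank Adm chi BoxBoundL)
open Crest.Agent.R138.Wpk685

theorem volume_ball_le {R : ℝ} (hR : 0 ≤ R) :
    (volume : Measure E2) {x : E2 | ‖x‖ ≤ R} ≤ ENNReal.ofReal (4 * R ^ 2) := by
  have e : {x : E2 | ‖x‖ ≤ R} = Metric.closedBall 0 R := by ext; simp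
  rw [e, EuclideanSpace.volume_closedBall_fin_two _ _ ]
  rw [← ENNReal.ofReal_pow hR, ← ENNReal.ofReal_mul (by positivity)]
  apply ENNReal.ofReal_le_ofReal
  nlinarith [Real.pi_lt_four, sq_nonneg R]

/-- the trivial bound for small `R`. -/
theorem wave_trivial {h : E2 → ℝ} (hh : Continuous h) {g : E2 → ℂ} (hg : Gd g) {w R K D R0 : ℝ}
    (hw : 1 ≤ w) (hR : 1 ≤ R) (hK : 0 ≤ K) (hD : 0 ≤ D) (hR0 : R ≤ R0) (n : ℕ) :
    ∫⁻ t in Set.Icc (-R) R, ∫⁻ x in {x : E2 | ‖x‖ ≤ R}, Av w n (ext h g) x t ^ (3/2 : ℝ) ≤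
      ENNReal.ofReal (8 * R0 ^ (2 + K / 2) * (R * ∫ ξ, ‖g ξ‖ ^ 2) *
        Real.sqrt (D + R ^ (-K) * ∫ ξ, ‖g ξ‖ ^ 2)) := by
  set E : ℝ := ∫ ξ, ‖g ξ‖ ^ 2 with hE
  have hE0 : 0 ≤ E := integral_nonneg fun _ => by positivity
  have hR' : 0 < R := by linarith
  calc ∫⁻ t in Set.Icc (-R) R, ∫⁻ x in {x : E2 | ‖x‖ ≤ R}, Av w n (ext h g) x t ^ (3/2 : ℝ)
      ≤ ∫⁻ _ in Set.Icc (-R) R, ∫⁻ _ in {x : E2 | ‖x‖ ≤ R}, ENNReal.ofReal E ^ (3/2 : ℝ) := by
        apply lintegral_mono
        intro t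
        apply lintegral_mono
        intro x
        simp only
        gcongr
        exact Av_le_trivial hh hg hw n x t
    _ = ENNReal.ofReal E ^ (3/2 : ℝ) * (volume : Measure E2) {x : E2 | ‖x‖ ≤ R} *
          ENNReal.ofReal (2 * R) := by
        rw [setLIntegral_const, setLIntegral_const, Real.volume_Icc]
        congr 2; ring
    _ ≤ ENNReal.ofReal (E ^ (3/2 : ℝ)) * ENNReal.ofReal (4 * R ^ 2) * ENNReal.ofReal (2 * R) := by
        rw [ENNReal.ofReal_rpow_of_nonneg hE0 (by norm_num)]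
        gcongr
        exact volume_ball_le hR'.le
    _ = ENNReal.ofReal (E ^ (3/2 : ℝ) * (4 * R ^ 2) * (2 * R)) := by
        rw [← ENNReal.ofReal_mul (by positivity), ← ENNReal.ofReal_mul (by positivity)]
    _ ≤ _ := by
        apply ENNReal.ofReal_le_ofReal
        have h1 : E ^ (3/2 : ℝ) = E * Real.sqrt E := by
          rw [Real.sqrt_eq_rpow]
          rcases hE0.eq_or_lt with h0 | h0
          · rw [← h0, Real.zero_rpow (by norm_num), zero_mul]
          · nth_rewrite 2 [← Real.rpow_one E]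
            rw [← Real.rpow_add h0]
            norm_num
        have h2 : Real.sqrt E ≤ R ^ (K / 2) * Real.sqrt (D + R ^ (-K) * E) := by
          have h3 : R ^ (K / 2) = Real.sqrt (R ^ K) := by
            rw [Real.sqrt_eq_rpow, ← Real.rpow_mul hR'.le]
            congr 1; ring
          rw [h3, ← Real.sqrt_mul (by positivity)]
          apply Real.sqrt_le_sqrt
          have h4 : R ^ K * (R ^ (-K) * E) = E := by
            rw [← mul_assoc, ← Real.rpow_add hR']
            simp
          rw [mul_add, h4]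
          have : 0 ≤ R ^ K * D := by positivity
          linarith
        have h5 : R ^ 2 * R ^ (K / 2) ≤ R0 ^ (2 + K / 2) := by
          have : R ^ 2 * R ^ (K / 2) = R ^ (2 + K / 2) := by
            rw [Real.rpow_add hR']
            norm_num
          rw [this]
          apply Real.rpow_le_rpow hR'.le hR0
          positivity
        rw [h1]
        have h6 : 0 ≤ Real.sqrt (D + R ^ (-K) * E) := Real.sqrt_nonneg _
        calc E * Real.sqrt E * (4 * R ^ 2) * (2 * R)
            ≤ E * (R ^ (K / 2) * Real.sqrt (D + R ^ (-K) * E)) * (4 * R ^ 2) * (2 * R) := by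
              gcongr
          _ = 8 * (R ^ 2 * R ^ (K / 2)) * (R * E) * Real.sqrt (D + R ^ (-K) * E) := by ring
          _ ≤ _ := by gcongr

set_option maxHeartbeats 1600000 in
/-- **W7'**: the averages of a wave at scale `R^{1/2} ≤ w ≤ R^{1-ε}` are controlled by Kakeya. -/
theorem wave_KM {V : ℝ} (hV : 0 ≤ V) (hKM : KM32 (V + 2)) (B : ℕ → ℝ) {ε : ℝ} (hε : 0 < ε)
    {K : ℝ} (hK : 0 ≤ K) {n : ℕ} (hn : 2 ≤ n) (hnK : K ≤ 2 * ε * ((n : ℝ) - 2)) (N : ℕ) :
    ∃ C : ℝ, 0 ≤ C ∧ ∀ h, ParB B h → (∀ ξ, ‖ξ‖ ≤ 3 → ‖gradient h ξ‖ ≤ V) →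
      ∀ g : E2 → ℂ, Measurable g → (∃ M : ℝ, ∀ ξ, ‖g ξ‖ ≤ M) → (∀ ξ, 1 < ‖ξ‖ → g ξ = 0) →
      ∀ w R : ℝ, 1 ≤ R → 0 < w → R ≤ w ^ 2 → w ≤ R ^ (1 - ε) →
      ∀ D : ℝ, 0 ≤ D → BoxBoundL (V + 7) N h g R D →
        ∫⁻ t in Set.Icc (-R) R, ∫⁻ x in {x : E2 | ‖x‖ ≤ R}, Av w n (ext h g) x t ^ (3/2 : ℝ) ≤
          ENNReal.ofReal (C * R ^ ε * (R * ∫ ξ, ‖g ξ‖ ^ 2) *
            Real.sqrt (D + R ^ (-K) * ∫ ξ, ‖g ξ‖ ^ 2)) := by
  classical
  obtain ⟨A, hA, HA⟩ := Av_le_tubes B n hV
  obtain ⟨CP, hCP, HP⟩ := tubes_plank B hn N (V1 := V + 2) (by linarith)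
  obtain ⟨CK, hCK, HK⟩ := tubes_KM hKM (2 * ε) (by positivity)
  set m : ℝ := 3 * (1 + |B 2|) with hm
  have hm1 : 1 ≤ m := by have := abs_nonneg (B 2); rw [hm]; linarith
  set R0 : ℝ := m ^ (1 / ε) with hR0
  have hR0p : 0 ≤ R0 := by positivity
  set LL : ℝ := 4 * LS.toReal * OV with hLL
  have hLL0 : 0 ≤ LL := by have := OV_nonneg; positivity
  refine ⟨8 * R0 ^ (2 + K / 2) + CK * Real.sqrt (A * CP) * (A * LL), by positivity, ?_⟩
  intro h hh hVh g hgm hgb hgs w R hR hw hRw hwR D hD hbox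
  have hg : Gd g := ⟨hgm, hgb, hgs⟩
  set E : ℝ := ∫ ξ, ‖g ξ‖ ^ 2 with hE
  have hE0 : 0 ≤ E := integral_nonneg fun _ => by positivity
  have hR' : 0 < R := by linarith
  have hw1 : 1 ≤ w := by nlinarith
  have hB2 : 0 ≤ B 2 := ParB.B2_nonneg hh
  have hmB : m = 3 * (1 + B 2) := by rw [hm, abs_of_nonneg hB2]
  have hRe : 1 ≤ R ^ ε := Real.one_le_rpow hR hε.le
  have hX0 : 0 ≤ Real.sqrt (D + R ^ (-K) * E) := Real.sqrt_nonneg _
  by_cases hcase : R ≤ R0
  · refine (wave_trivial hh.1.continuous hg hw1 hR hK hD hcase n).trans ?_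
    apply ENNReal.ofReal_le_ofReal
    have h1 : 8 * R0 ^ (2 + K / 2) ≤
        (8 * R0 ^ (2 + K / 2) + CK * Real.sqrt (A * CP) * (A * LL)) * R ^ ε := by
      have h2 : 0 ≤ CK * Real.sqrt (A * CP) * (A * LL) := by positivity
      have h3 : 0 ≤ 8 * R0 ^ (2 + K / 2) := by positivity
      nlinarith
    gcongr
  · push Not at hcase
    -- `m w ≤ R`
    have hmw : m * w ≤ R := by
      have h1 : m ≤ R ^ ε := by
        have h2 : m = R0 ^ ε := by
          rw [hR0, ← Real.rpow_mul (by linarith)]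
          rw [one_div_mul_cancel hε.ne', Real.rpow_one]
        rw [h2]
        exact Real.rpow_le_rpow hR0p hcase.le hε.le
      calc m * w ≤ R ^ ε * R ^ (1 - ε) := by gcongr
        _ = R := by rw [← Real.rpow_add hR']; simp
    have hwR1 : w ≤ R := by nlinarith
    have hl : 0 < w / R := by positivity
    have hl1 : w / R ≤ 1 := (div_le_one hR').mpr hwR1
    have hwRle : w / R ≤ R ^ (-ε) := by
      rw [div_le_iff₀ hR']
      calc w ≤ R ^ (1 - ε) := hwR
        _ = R ^ (-ε) * R := by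
            nth_rewrite 3 [← Real.rpow_one R]
            rw [← Real.rpow_add hR']
            congr 1; ring
    have htail : (w / R) ^ (2 * (n - 2)) ≤ R ^ (-K) := by
      calc (w / R) ^ (2 * (n - 2)) ≤ (R ^ (-ε)) ^ (2 * (n - 2)) := by gcongr
        _ = R ^ (-ε * ((2 * (n - 2) : ℕ) : ℝ)) := by
            rw [Real.rpow_mul hR'.le, Real.rpow_natCast]
        _ ≤ R ^ (-K) := by
            apply Real.rpow_le_rpow_of_exponent_le hR
            push_cast [Nat.cast_sub hn]
            linarith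
    set S := Sl (Ml (w / R)) with hS
    set Y := Yr w ((V + 2) * R) with hY
    set T := S ×ˢ Y with hT
    set u := pc h g (w / R) with hu
    have hc : ∀ k ∈ S, ‖gradient h (Lat (w / R) k)‖ ≤ V := fun k hk =>
      hVh _ (norm_Lat_le hl hl1 hk)
    have hfin : ∀ p : (ℤ × ℤ) × (ℤ × ℤ), wgt w n u p.1 p.2 ≠ ⊤ := fun p =>
      wgt_ne_top hh.1.continuous hg hw hl hn _ _
    set a : {p // p ∈ T} → ℝ := fun p => A * (w ^ 2)⁻¹ * (wgt w n u p.1.1 p.1.2).toReal with ha
    have ha0 : ∀ i, 0 ≤ a i := fun i => by rw [ha]; positivity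
    have haw : ∀ i, a i * w ^ 2 = A * (wgt w n u i.1.1 i.1.2).toReal := fun i => by
      rw [ha]; field_simp
    set Δ : ℝ := (A * CP) * (D + R ^ (-K) * E) with hΔ
    have hΔ0 : 0 ≤ Δ := by positivity
    have hplank : ∀ (b : OrthonormalBasis (Fin 2) ℝ E2) (s : Fin 2 → ℝ) (x0 c0 : E2),
        (∀ j, w / R ≤ s j ∧ s j ≤ 1) →
          ∑ i : {p // p ∈ T}, (if ∀ t : ℝ, |t| ≤ R → sl c0 b (fun i => s i * R) x0 t
            (Lat w i.1.2 - t • gradient h (Lat (w / R) i.1.1)) then
            a i * w ^ 2 else 0) ≤ Δ * (s 0 * s 1 * R ^ 2) := by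
        intro b s x0 c0 hs
        set Pr : (ℤ × ℤ) × (ℤ × ℤ) → Prop := fun p => ∀ t : ℝ, |t| ≤ R →
          sl c0 b (fun i => s i * R) x0 t (Lat w p.2 - t • gradient h (Lat (w / R) p.1)) with hPr
        have e1 : ∑ i : {p // p ∈ T}, (if ∀ t : ℝ, |t| ≤ R →
            sl c0 b (fun i => s i * R) x0 t
              (Lat w i.1.2 - t • gradient h (Lat (w / R) i.1.1)) then a i * w ^ 2 else 0) =
            ∑ p ∈ T.filter Pr, A * (wgt w n u p.1 p.2).toReal := by
          rw [Finset.sum_filter, ← Finset.sum_coe_sort T]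
          apply Finset.sum_congr rfl
          intro i _
          rw [haw]
        rw [e1, ← Finset.mul_sum, ← ENNReal.toReal_sum (fun p _ => hfin p)]
        have h1 := HP h hh g hg w R hw hRw (by rw [← hmB]; exact hmw) hR D hD
          (by have e : V + 2 + 5 = V + 7 := by ring
              rw [e]; exact hbox) b s x0 c0 hs (T.filter Pr)
          (fun p hp => by
            have := (Finset.mem_product.mp (Finset.mem_filter.mp hp).1).2
            rw [hY, mem_Yr hw] at this
            exact this)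
          (fun p hp => (Finset.mem_filter.mp hp).2)
        have hs01 : 1 ≤ s 0 * s 1 * R ^ 2 := by
          have h2 := (hs 0).1
          have h3 := (hs 1).1
          have h2' := hl.trans_le h2
          calc 1 ≤ w ^ 2 := one_le_pow₀ hw1
            _ = (w / R) * (w / R) * R ^ 2 := by field_simp
            _ ≤ s 0 * s 1 * R ^ 2 := by gcongr
        have h2 : ∑ p ∈ T.filter Pr, wgt w n u p.1 p.2 ≤
            ENNReal.ofReal (CP * ((D + R ^ (-K) * E) * (s 0 * s 1 * R ^ 2))) := by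
          refine h1.trans ?_
          rw [hg.lint_sq, ← ENNReal.ofReal_mul (by positivity), ← ENNReal.ofReal_add _ _,
            ← ENNReal.ofReal_mul hCP]
          · apply ENNReal.ofReal_le_ofReal
            have h3 : (w / R) ^ (2 * (n - 2)) * E ≤ R ^ (-K) * E * (s 0 * s 1 * R ^ 2) := by
              calc (w / R) ^ (2 * (n - 2)) * E ≤ R ^ (-K) * E := by gcongr
                _ = R ^ (-K) * E * 1 := by ring
                _ ≤ _ := by gcongr
            gcongr
            rw [add_mul]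
            gcongr
          · have := hl.trans_le (hs 0).1
            have := hl.trans_le (hs 1).1
            positivity
          · positivity
        have h4 : 0 ≤ CP * ((D + R ^ (-K) * E) * (s 0 * s 1 * R ^ 2)) := by
          have : 0 ≤ s 0 * s 1 * R ^ 2 := by linarith
          positivity
        calc A * (∑ p ∈ T.filter Pr, wgt w n u p.1 p.2).toReal
            ≤ A * (CP * ((D + R ^ (-K) * E) * (s 0 * s 1 * R ^ 2))) := by
              gcongr
              exact ENNReal.toReal_le_of_le_ofReal h4 h2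
          _ = _ := by rw [hΔ]; ring
    have hdom : ∀ (x : E2) (t : ℝ), ‖x‖ ≤ R → |t| ≤ R → Av w n (ext h g) x t ≤
        ∑ i : {p // p ∈ T}, (if ‖x - Lat w i.1.2 + t • gradient h (Lat (w / R) i.1.1)‖ ≤ w then
          ENNReal.ofReal (a i) else 0) := by
        intro x t hx ht
        refine (HA h hh hVh g hg w R hw hwR1 hRw x t hx ht).trans (le_of_eq ?_)
        rw [Finset.mul_sum, ← Finset.sum_coe_sort (S ×ˢ Y)]
        apply Finset.sum_congr rfl
        intro i _
        split_ifs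
        · rw [ha]
          simp only
          have e3 : ENNReal.ofReal (A * (w ^ 2)⁻¹ * (wgt w n u i.1.1 i.1.2).toReal) =
              ENNReal.ofReal (A * (w ^ 2)⁻¹) * wgt w n u i.1.1 i.1.2 := by
            rw [ENNReal.ofReal_mul (by positivity), ENNReal.ofReal_toReal (hfin i.1)]
          exact e3.symm
        · rw [mul_zero]
    have key := HK w R hw hwR1 {p // p ∈ T} (fun p => Lat w p.1.2)
      (fun p => gradient h (Lat (w / R) p.1.1)) a ha0
      (fun p => by
        have := (Finset.mem_product.mp p.2).2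
        rw [hY, mem_Yr hw] at this
        exact this)
      (fun p => (hc _ (Finset.mem_product.mp p.2).1).trans (by linarith)) Δ hΔ0 hplank
      (fun x t => Av w n (ext h g) x t) hdom
    refine key.trans ?_
    apply ENNReal.ofReal_le_ofReal
    -- the total weight
    have hW : ∑ i, a i * w ^ 2 ≤ A * (LL * E) := by
      have e1 : ∑ i, a i * w ^ 2 = A * (∑ p ∈ T, wgt w n u p.1 p.2).toReal := by
        rw [ENNReal.toReal_sum (fun p _ => hfin p), Finset.mul_sum,
          ← Finset.sum_coe_sort T (fun p => A * (wgt w n u p.1 p.2).toReal)]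
        apply Finset.sum_congr rfl
        intro i _
        rw [haw]
      rw [e1]
      gcongr
      apply ENNReal.toReal_le_of_le_ofReal (by positivity)
      have h1 := sum_wgt_le hh.1.continuous hg hw hl hn S Y
      rw [← Finset.sum_product' S Y (fun k y => wgt w n (pc h g (w / R)) k y)] at h1
      refine h1.trans (le_of_eq ?_)
      rw [hg.lint_sq, hLL, ENNReal.ofReal_mul (by have := OV_nonneg; positivity),
        ENNReal.ofReal_mul (by positivity), ENNReal.ofReal_mul (by norm_num),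
        ENNReal.ofReal_toReal LS_ne_top]
      norm_num
      ring
    have hpow : (w / R) ^ (-(2 * ε)) ≤ R ^ ε := by
      have h1 : R ^ (-(1/2) : ℝ) ≤ w / R := by
        rw [le_div_iff₀ hR']
        have h2 : R ^ (-(1/2) : ℝ) * R = Real.sqrt R := by
          rw [Real.sqrt_eq_rpow]
          nth_rewrite 2 [← Real.rpow_one R]
          rw [← Real.rpow_add hR']
          norm_num
        rw [h2]
        exact (Real.sqrt_le_sqrt hRw).trans (by rw [Real.sqrt_sq hw.le])
      calc (w / R) ^ (-(2 * ε)) ≤ (R ^ (-(1/2) : ℝ)) ^ (-(2 * ε)) := by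
            apply Real.rpow_le_rpow_of_nonpos (by positivity) h1 (by linarith)
        _ = R ^ ε := by
            rw [← Real.rpow_mul hR'.le]
            congr 1; ring
    have hsq : Real.sqrt Δ = Real.sqrt (A * CP) * Real.sqrt (D + R ^ (-K) * E) := by
      rw [hΔ, Real.sqrt_mul (by positivity)]
    rw [hsq]
    have hW0 : 0 ≤ ∑ i, a i * w ^ 2 := Finset.sum_nonneg fun i _ => by
      have := ha0 i; positivity
    calc CK * (w / R) ^ (-(2 * ε)) * (Real.sqrt (A * CP) * Real.sqrt (D + R ^ (-K) * E)) *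
          (R * ∑ i, a i * w ^ 2)
        ≤ CK * R ^ ε * (Real.sqrt (A * CP) * Real.sqrt (D + R ^ (-K) * E)) *
          (R * (A * (LL * E))) := by gcongr
      _ = (CK * Real.sqrt (A * CP) * (A * LL)) * R ^ ε * (R * E) *
          Real.sqrt (D + R ^ (-K) * E) := by ring
      _ ≤ _ := by
          have h8 : 0 ≤ 8 * R0 ^ (2 + K / 2) := by positivity
          have h9 : CK * Real.sqrt (A * CP) * (A * LL) ≤
            8 * R0 ^ (2 + K / 2) + CK * Real.sqrt (A * CP) * (A * LL) := by linarith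
          gcongr

end Crest.Agent.R138.Tub70
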