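import Mathlib
import Crest.Agent.R138.TubC_70
import Crest.Agent.R138.T12_774
import Crest.Agent.R138.Tr1_323

/-! KMw (WDef_188) from `KM32`, part 1: localisation, slices against space-time averages. -/

set_option autoImplicit false

open MeasureTheory FourierTransform
open scoped ENNReal ContDiff

namespace Crest.Agent.R138.Tub70

open Crest.Agent.R138.Defs (ParB ee ext plank Adm chi BoxBoundL cyl)
open Crest.Agent.R138.Wpk685
open Crest.Agent.R138.W188 (St KMw NN SS PBox tr)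
open Crest.Agent.R138.Bil882 (wt wt_pos measurable_wt)

attribute [local instance] Crest.Agent.R138.T774.haar3

/-- slice average. -/
noncomputable def sa (w : ℝ) (n : ℕ) (U : E2 → ℝ → ℂ) (p : E2 × ℝ) : ℝ≥0∞ :=
  ENNReal.ofReal ((w ^ 2)⁻¹) * En w n (fun y => U y p.2) p.1

theorem sa_le_Av {w : ℝ} (hw : 0 ≤ w) (n : ℕ) (U : E2 → ℝ → ℂ) (x : E2) (t : ℝ) :
    sa w n U (x, t) ≤ Av w n U x t := by
  unfold sa Av
  exact le_iSup_of_le (⟨t, by simpa using hw⟩ : {t' : ℝ // |t' - t| ≤ w}) le_rfl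

theorem measurable_sa {U : E2 → ℝ → ℂ} (hU : Measurable fun p : E2 × ℝ => U p.1 p.2) (w : ℝ)
    (n : ℕ) : Measurable (sa w n U) := by
  unfold sa En
  refine Measurable.const_mul ?_ _
  apply Measurable.lintegral_prod_right' (f := fun q : (E2 × ℝ) × E2 =>
    ‖U q.2 q.1.2‖ₑ ^ 2 * ENNReal.ofReal (pw w n q.1.1 q.2))
  refine Measurable.mul ?_ (Measurable.ennreal_ofReal ?_)
  · have h1 : Measurable fun q : (E2 × ℝ) × E2 => (q.2, q.1.2) := by fun_prop
    exact (hU.comp h1).enorm.pow_const 2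
  · unfold pw
    fun_prop

theorem ext_tr (h : E2 → ℝ) (z : E2 × ℝ) (g : E2 → ℂ) (x : E2) (t : ℝ) :
    ext h (tr h z g) x t = ext h g (x + z.1) (t + z.2) := by
  unfold ext tr
  congr 1
  funext ξ
  rw [mul_assoc, ← ee_add]
  congr 2
  rw [inner_add_left]
  ring

theorem tr_mul (h : E2 → ℝ) (z : E2 × ℝ) (g χ : E2 → ℂ) :
    (fun ξ => tr h z g ξ * χ ξ) = tr h z (fun ξ => g ξ * χ ξ) := by
  funext ξ
  unfold tr
  ring

theorem sa_tr (h : E2 → ℝ) (z : E2 × ℝ) (g : E2 → ℂ) (w : ℝ) (n : ℕ) (p : E2 × ℝ) :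
    sa w n (ext h (tr h z g)) p = sa w n (ext h g) (p + z) := by
  unfold sa
  congr 1
  have e : (fun y => ext h (tr h z g) y p.2) =
      fun y => (fun y' => ext h g y' (p.2 + z.2)) (y + z.1) := by
    funext y
    rw [ext_tr]
  rw [e, En_translate n (fun y' => ext h g y' (p.2 + z.2)) z.1 p.1]
  rfl

theorem Gd.tr {g : E2 → ℂ} (hg : Gd g) {h : E2 → ℝ} (hh : Continuous h) (z : E2 × ℝ) :
    Gd (W188.tr h z g) := by
  have hc : Continuous fun ξ : E2 => (inner ℝ z.1 ξ + z.2 * h ξ : ℝ) := by fun_prop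
  have hm : Measurable fun ξ : E2 => Defs.ee (inner ℝ z.1 ξ + z.2 * h ξ) :=
    (continuous_ee.comp hc).measurable
  exact hg.mul' hm (M := 1) (fun _ => (norm_ee _).le)

theorem En_tr (h : E2 → ℝ) (z : E2 × ℝ) (g : E2 → ℂ) :
    ∫ ξ, ‖W188.tr h z g ξ‖ ^ 2 = ∫ ξ, ‖g ξ‖ ^ 2 := by
  congr 1
  funext ξ
  unfold W188.tr
  rw [norm_mul, norm_ee, mul_one]

theorem cyl_eq_prod (R : ℝ) : cyl R = {x : E2 | ‖x‖ ≤ R} ×ˢ Set.Icc (-R) R := by
  ext p
  simp only [cyl, Set.mem_ofPred_eq, Set.mem_prod, Set.mem_Icc, abs_le]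

theorem lintegral_cyl {f : E2 × ℝ → ℝ≥0∞} (hf : Measurable f) (R : ℝ) :
    ∫⁻ p in cyl R, f p = ∫⁻ t in Set.Icc (-R) R, ∫⁻ x in {x : E2 | ‖x‖ ≤ R}, f (x, t) := by
  rw [cyl_eq_prod, Measure.volume_eq_prod, ← Measure.prod_restrict, lintegral_prod_symm]
  exact hf.aemeasurable

theorem plank_shift {c : E2} (b : OrthonormalBasis (Fin 2) ℝ E2) (s : Fin 2 → ℝ) (R : ℝ) (x0 : E2)
    (t0 : ℝ) (z : E2 × ℝ) (f : E2 × ℝ → ℝ≥0∞) (_ : Measurable f) :
    ∫⁻ p in plank c b s R x0 t0, f (p + z) = ∫⁻ p in plank c b s R (x0 + z.1) (t0 + z.2), f p := by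
  have hcl : ∀ (x0 : E2) (t0 : ℝ), MeasurableSet (plank c b s R x0 t0) := by
    intro x0 t0
    apply IsClosed.measurableSet
    have : plank c b s R x0 t0 = {p : E2 × ℝ | |p.2 - t0| ≤ R} ∩
        ⋂ i, {p : E2 × ℝ | |inner ℝ (p.1 - x0 + (p.2 - t0) • c) (b i)| ≤ s i * R} := by
      ext p; simp [plank]
    rw [this]
    apply IsClosed.inter
    · exact isClosed_le (by fun_prop) continuous_const
    · apply isClosed_iInter
      intro i
      exact isClosed_le (by fun_prop) continuous_const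
  rw [← lintegral_indicator (hcl _ _), ← lintegral_indicator (hcl _ _)]
  rw [← lintegral_add_right_eq_self ((plank c b s R (x0 + z.1) (t0 + z.2)).indicator f) z]
  apply lintegral_congr
  intro p
  by_cases hp : p ∈ plank c b s R x0 t0
  · have hp' : p + z ∈ plank c b s R (x0 + z.1) (t0 + z.2) := by
      refine ⟨?_, fun i => ?_⟩
      · have := hp.1
        simp only [Prod.snd_add, add_sub_add_right_eq_sub]; exact this
      · have := hp.2 i
        simp only [Prod.fst_add, Prod.snd_add, add_sub_add_right_eq_sub]; exact this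
    rw [Set.indicator_of_mem hp, Set.indicator_of_mem hp']
  · have hp' : p + z ∉ plank c b s R (x0 + z.1) (t0 + z.2) := by
      intro hq
      apply hp
      refine ⟨?_, fun i => ?_⟩
      · have := hq.1
        simp only [Prod.snd_add, add_sub_add_right_eq_sub] at this; exact this
      · have := hq.2 i
        simp only [Prod.fst_add, Prod.snd_add, add_sub_add_right_eq_sub] at this; exact this
    rw [Set.indicator_of_notMem hp, Set.indicator_of_notMem hp']

/-- the box bound passes to a smaller scale (with a constant). -/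
theorem box_local {q : ℝ} (hq : 0 ≤ q) {Na : ℕ} {h : E2 → ℝ} (hh : Continuous h) {g : E2 → ℂ}
    (hg : Gd g) {R D L L0 r : ℝ} (hgrad : Continuous (gradient h)) (hD : 0 ≤ D)
    (hbox : PBox q Na h g R D) (hr : 1 ≤ r) (hL : 1 ≤ L) (hRL : R = L * r) (hL0 : L0 ≤ L)
    {z : E2 × ℝ} (hz : z ∈ cyl (3 * R)) :
    BoxBoundL L0 Na h (W188.tr h z g) r (L ^ 3 * D) := by
  intro c b s hs ψ hψ x0 t0 hx0 ht0
  have hr0 : 0 < r := by linarith
  have hR : r ≤ R := by rw [hRL]; nlinarith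
  have hR0 : 0 < R := by linarith
  obtain ⟨hz1, hz2⟩ := hz
  have hs0 : ∀ i, 0 < s i := fun i => (Real.rpow_pos_of_pos hr0 _).trans_le (hs i).1
  have hL0R : L0 * r ≤ R := by rw [hRL]; gcongr
  have hχc : Continuous (chi h c b s ψ) := by
    unfold chi
    apply hψ.1.continuous.comp
    apply (PiLp.continuous_toLp 2 _).comp
    apply continuous_pi
    intro i
    exact ((hgrad.sub continuous_const).inner continuous_const).div_const _
  have hχb : ∀ ξ, ‖chi h c b s ψ ξ‖ ≤ 1 := by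
    intro ξ
    have := hψ.2.2 0 (Nat.zero_le _) (WithLp.toLp 2 fun i => inner ℝ (gradient h ξ - c) (b i) / s i)
    rw [norm_iteratedFDeriv_zero] at this
    exact this
  have hgχ : Gd (fun ξ => g ξ * chi h c b s ψ ξ) := hg.mul' hχc.measurable hχb
  have e1 : (fun ξ => W188.tr h z g ξ * chi h c b s ψ ξ) =
      W188.tr h z (fun ξ => g ξ * chi h c b s ψ ξ) := tr_mul _ _ _ _
  rw [e1]
  have hm : Measurable fun p : E2 × ℝ => ‖ext h (fun ξ => g ξ * chi h c b s ψ ξ) p.1 p.2‖ₑ ^ 2 :=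
    (continuous_ext hh hgχ).measurable.enorm.pow_const 2
  calc ∫⁻ p in plank c b s r x0 t0,
        ‖ext h (W188.tr h z (fun ξ => g ξ * chi h c b s ψ ξ)) p.1 p.2‖ₑ ^ 2
      = ∫⁻ p in plank c b s r x0 t0,
        (fun p : E2 × ℝ => ‖ext h (fun ξ => g ξ * chi h c b s ψ ξ) p.1 p.2‖ₑ ^ 2) (p + z) := by
        apply lintegral_congr
        intro p
        rw [ext_tr]
        rfl
    _ = ∫⁻ p in plank c b s r (x0 + z.1) (t0 + z.2),
        ‖ext h (fun ξ => g ξ * chi h c b s ψ ξ) p.1 p.2‖ₑ ^ 2 := plank_shift b s r x0 t0 z _ hm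
    _ ≤ ∫⁻ p in plank c b s R (x0 + z.1) (t0 + z.2),
        ‖ext h (fun ξ => g ξ * chi h c b s ψ ξ) p.1 p.2‖ₑ ^ 2 := by
        apply lintegral_mono_set
        rintro p ⟨hp1, hp2⟩
        refine ⟨hp1.trans hR, fun i => (hp2 i).trans ?_⟩
        have := hs0 i
        gcongr
    _ ≤ ENNReal.ofReal (D * (max (s 0) (s 1)) ^ q * (s 0 * s 1 * R ^ 3)) := by
        apply hbox c b s _ ψ hψ
        · calc ‖x0 + z.1‖ ≤ ‖x0‖ + ‖z.1‖ := norm_add_le _ _
            _ ≤ 4 * R := by linarith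
        · calc |t0 + z.2| ≤ |t0| + |z.2| := abs_add_le _ _
            _ ≤ 4 * R := by linarith
        · intro i
          refine ⟨le_trans ?_ (hs i).1, (hs i).2⟩
          exact Real.rpow_le_rpow_of_nonpos hr0 hR (by norm_num)
    _ ≤ ENNReal.ofReal (L ^ 3 * D * (s 0 * s 1 * r ^ 3)) := by
        apply ENNReal.ofReal_le_ofReal
        have h1 : (max (s 0) (s 1)) ^ q ≤ 1 :=
          Real.rpow_le_one ((hs0 0).le.trans (le_max_left _ _)) (max_le (hs 0).2 (hs 1).2) hq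
        have h2 : 0 ≤ s 0 * s 1 * R ^ 3 := by
          have := hs0 0
          have := hs0 1
          positivity
        calc D * (max (s 0) (s 1)) ^ q * (s 0 * s 1 * R ^ 3)
            ≤ D * 1 * (s 0 * s 1 * R ^ 3) := by gcongr
          _ = _ := by rw [hRL]; ring

/-- velocities of normalised phases. -/
theorem gradient_le {B : ℕ → ℝ} {h : E2 → ℝ} (hh : ParB B h) (h1 : fderiv ℝ h 0 = 0) (ξ : E2)
    (hξ : ‖ξ‖ ≤ 3) : ‖gradient h ξ‖ ≤ 3 * (1 + |B 2|) := by
  have h0 : gradient h 0 = 0 := by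
    unfold gradient; rw [h1, map_zero]
  have h2 := gradient_lip2 hh ξ 0
  rw [h0, sub_zero, sub_zero] at h2
  have h3 : 0 ≤ B 2 := ParB.B2_nonneg hh
  rw [abs_of_nonneg h3]
  nlinarith [norm_nonneg ξ]

end Crest.Agent.R138.Tub70
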