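import Mathlib
import Crest.Agent.R138.TubD_70

/-! KMw (WDef_188) from `KM32`, part 2: covering and averaging in time. -/

set_option autoImplicit false

open MeasureTheory FourierTransform
open scoped ENNReal ContDiff

namespace Crest.Agent.R138.Tub70

open Crest.Agent.R138.Defs (ParB ee ext plank Adm chi BoxBoundL cyl)
open Crest.Agent.R138.Wpk685
open Crest.Agent.R138.W188 (St KMw NN SS PBox tr)
open Crest.Agent.R138.Bil882 (wt wt_pos measurable_wt)

attribute [local instance] Crest.Agent.R138.T774.haar3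

/-- centres of the small cylinders. -/
noncomputable def zc (r : ℝ) (i : (ℤ × ℤ) × ℤ) : E2 × ℝ := (Lat r i.1, r * i.2)

/-- the set of the centres. -/
noncomputable def Ic (r R : ℝ) (M : ℕ) : Finset ((ℤ × ℤ) × ℤ) := by
  classical exact (Sl M ×ˢ Finset.Icc (-(M : ℤ)) M).filter (fun i => zc r i ∈ cyl (3 * R))

theorem card_Ic_le (r R : ℝ) (M : ℕ) : ((Ic r R M).card : ℝ) ≤ (2 * M + 1) ^ 3 := by
  classical
  have h1 : (Ic r R M).card ≤ (Sl M ×ˢ Finset.Icc (-(M : ℤ)) M).card := by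
    unfold Ic
    exact Finset.card_filter_le _ _
  have h2 : (Finset.Icc (-(M : ℤ)) M).card = 2 * M + 1 := by
    rw [Int.card_Icc]; omega
  have h3 : (Sl M ×ˢ Finset.Icc (-(M : ℤ)) M).card = (2 * M + 1) ^ 3 := by
    unfold Sl
    rw [Finset.card_product, Finset.card_product, h2]
    ring
  rw [h3] at h1
  exact_mod_cast h1

theorem mem_Ic {r R : ℝ} {M : ℕ} {i : (ℤ × ℤ) × ℤ} (h : i ∈ Ic r R M) : zc r i ∈ cyl (3 * R) := by
  classical
  unfold Ic at h
  exact (Finset.mem_filter.mp h).2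

theorem exists_cell {r R : ℝ} (hr : 0 < r) (hrR : r ≤ R) {M : ℕ} (hM : 3 * (R / r) ≤ M)
    {p : E2 × ℝ} (hp : p ∈ cyl (2 * R)) : ∃ i ∈ Ic r R M, p - zc r i ∈ cyl r := by
  classical
  obtain ⟨hp1, hp2⟩ := hp
  have hRr : 1 ≤ R / r := (one_le_div hr).mpr hrR
  have hround : ∀ t : ℝ, |t| ≤ 2 * R → |((round (t / r) : ℤ) : ℝ)| ≤ M ∧
      |t - r * (round (t / r) : ℤ)| ≤ r / 2 := by
    intro t ht
    have h1 := abs_sub_round (t / r)
    have h2 : |t / r| ≤ 2 * (R / r) := by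
      rw [abs_div, abs_of_pos hr, ← mul_div_assoc]
      gcongr
    constructor
    · have h3 : |((round (t / r) : ℤ) : ℝ)| ≤ |t / r| + |t / r - (round (t / r) : ℤ)| := by
        have e : ((round (t / r) : ℤ) : ℝ) = t / r - (t / r - (round (t / r) : ℤ)) := by ring
        nth_rewrite 1 [e]
        exact abs_sub _ _
      linarith
    · have e : t - r * (round (t / r) : ℤ) = r * (t / r - (round (t / r) : ℤ)) := by
        field_simp
      rw [e, abs_mul, abs_of_pos hr]
      nlinarith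
  have hc : ∀ i : Fin 2, |p.1 i| ≤ 2 * R := by
    intro i
    have := PiLp.norm_apply_le p.1 i
    rw [Real.norm_eq_abs] at this
    linarith
  have h0 := hround _ (hc 0)
  have h1 := hround _ (hc 1)
  have h2 := hround _ hp2
  have hnr := norm_sub_nr hr p.1
  refine ⟨(nr r p.1, round (p.2 / r)), ?_, ?_⟩
  · unfold Ic
    rw [Finset.mem_filter]
    refine ⟨?_, ?_⟩
    · unfold Sl nr
      rw [Finset.mem_product, Finset.mem_product, Finset.mem_Icc, Finset.mem_Icc, Finset.mem_Icc]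
      have a0 := abs_le.mp h0.1
      have a1 := abs_le.mp h1.1
      have a2 := abs_le.mp h2.1
      refine ⟨⟨⟨?_, ?_⟩, ?_, ?_⟩, ?_, ?_⟩
      · exact_mod_cast a0.1
      · exact_mod_cast a0.2
      · exact_mod_cast a1.1
      · exact_mod_cast a1.2
      · exact_mod_cast a2.1
      · exact_mod_cast a2.2
    · refine ⟨?_, ?_⟩
      · show ‖Lat r (nr r p.1)‖ ≤ 3 * R
        have e : Lat r (nr r p.1) = p.1 - (p.1 - Lat r (nr r p.1)) := by abel
        rw [e]
        refine (norm_sub_le _ _).trans ?_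
        linarith
      · show |r * ((round (p.2 / r) : ℤ) : ℝ)| ≤ 3 * R
        have e : r * ((round (p.2 / r) : ℤ) : ℝ) =
          p.2 - (p.2 - r * ((round (p.2 / r) : ℤ) : ℝ)) := by ring
        rw [e]
        refine (abs_sub _ _).trans ?_
        linarith [h2.2]
  · refine ⟨?_, ?_⟩
    · exact hnr
    · show |p.2 - r * ((round (p.2 / r) : ℤ) : ℝ)| ≤ r
      linarith [h2.2]

theorem measurableSet_cyl (R : ℝ) : MeasurableSet (cyl R) := T774.measurableSet_cyl R

theorem cover_cyl {r R : ℝ} (hr : 0 < r) (hrR : r ≤ R) {M : ℕ} (hM : 3 * (R / r) ≤ M)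
    (f : E2 × ℝ → ℝ≥0∞) :
    ∫⁻ p in cyl (2 * R), f p ≤ ∑ i ∈ Ic r R M, ∫⁻ p in cyl r, f (p + zc r i) := by
  have e : ∀ i, ∫⁻ p in cyl r, f (p + zc r i) = ∫⁻ p in {p | p - zc r i ∈ cyl r}, f p := by
    intro i
    have hms : MeasurableSet {p : E2 × ℝ | p - zc r i ∈ cyl r} :=
      (measurable_id.sub_const (zc r i)) (measurableSet_cyl r)
    rw [← lintegral_indicator (measurableSet_cyl r), ← lintegral_indicator hms,
      ← lintegral_add_right_eq_self ({p : E2 × ℝ | p - zc r i ∈ cyl r}.indicator f) (zc r i)]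
    apply lintegral_congr
    intro p
    by_cases hp : p ∈ cyl r
    · have hp' : p + zc r i ∈ {p : E2 × ℝ | p - zc r i ∈ cyl r} := by
        simpa using hp
      rw [Set.indicator_of_mem hp, Set.indicator_of_mem hp']
    · have hp' : p + zc r i ∉ {p : E2 × ℝ | p - zc r i ∈ cyl r} := by
        simpa using hp
      rw [Set.indicator_of_notMem hp, Set.indicator_of_notMem hp']
  simp only [e]
  have hsub : cyl (2 * R) ⊆ ⋃ i : {i // i ∈ Ic r R M}, {p | p - zc r i.1 ∈ cyl r} := by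
    intro p hp
    obtain ⟨i, hi, hpi⟩ := exists_cell hr hrR hM hp
    rw [Set.mem_iUnion]
    exact ⟨⟨i, hi⟩, hpi⟩
  calc ∫⁻ p in cyl (2 * R), f p
      ≤ ∫⁻ p in ⋃ i : {i // i ∈ Ic r R M}, {p | p - zc r i.1 ∈ cyl r}, f p :=
        lintegral_mono_set hsub
    _ ≤ ∑' i : {i // i ∈ Ic r R M}, ∫⁻ p in {p | p - zc r i.1 ∈ cyl r}, f p :=
        lintegral_iUnion_le _ _
    _ = ∑ i ∈ Ic r R M, ∫⁻ p in {p | p - zc r i ∈ cyl r}, f p := by
        rw [tsum_fintype, Finset.sum_coe_sort (Ic r R M)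
          (fun i => ∫⁻ p in {p | p - zc r i ∈ cyl r}, f p)]

/-! ### averaging in time -/

/-- Jensen for a weight. -/
theorem jensen32 {μ : Measure ℝ} {k f : ℝ → ℝ≥0∞} (hk : AEMeasurable k μ) (hf : AEMeasurable f μ) :
    (∫⁻ τ, k τ * f τ ∂μ) ^ (3/2 : ℝ) ≤ (∫⁻ τ, k τ ∂μ) ^ (1/2 : ℝ) *
      ∫⁻ τ, k τ * f τ ^ (3/2 : ℝ) ∂μ := by
  have h1 := ENNReal.lintegral_mul_norm_pow_le (μ := μ) (f := k)
    (g := fun τ => k τ * f τ ^ (3/2 : ℝ)) hk (hk.mul (hf.pow_const _)) (p := 1/3) (q := 2/3)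
    (by norm_num) (by norm_num) (by norm_num)
  have e1 : ∀ τ, k τ ^ (1/3 : ℝ) * (k τ * f τ ^ (3/2 : ℝ)) ^ (2/3 : ℝ) = k τ * f τ := by
    intro τ
    rw [ENNReal.mul_rpow_of_nonneg _ _ (by norm_num), ← mul_assoc,
      ← ENNReal.rpow_add_of_nonneg _ _ (by norm_num) (by norm_num), ← ENNReal.rpow_mul]
    norm_num
  simp only [e1] at h1
  calc (∫⁻ τ, k τ * f τ ∂μ) ^ (3/2 : ℝ)
      ≤ ((∫⁻ τ, k τ ∂μ) ^ (1/3 : ℝ) * (∫⁻ τ, k τ * f τ ^ (3/2 : ℝ) ∂μ) ^ (2/3 : ℝ)) ^ (3/2 : ℝ) := by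
        gcongr
    _ = _ := by
        rw [ENNReal.mul_rpow_of_nonneg _ _ (by norm_num), ← ENNReal.rpow_mul, ← ENNReal.rpow_mul]
        norm_num

/-- time averages over `|τ| ≤ R`. -/
theorem time_avg {R : ℝ} {k : ℝ → ℝ≥0∞} (hk : Measurable k) {A : ℝ≥0∞}
    (hA : ∫⁻ τ, k τ ≤ A) {f : E2 × ℝ → ℝ≥0∞} (hf : Measurable f) :
    ∫⁻ z in cyl R, (∫⁻ τ in Set.Icc (-R) R, k τ * f (z.1, z.2 + τ)) ^ (3/2 : ℝ) ≤
      A ^ (3/2 : ℝ) * ∫⁻ z in cyl (2 * R), f z ^ (3/2 : ℝ) := by
  have hshift : Measurable fun q : (E2 × ℝ) × ℝ => f (q.1.1, q.1.2 + q.2) :=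
    hf.comp (by fun_prop)
  calc ∫⁻ z in cyl R, (∫⁻ τ in Set.Icc (-R) R, k τ * f (z.1, z.2 + τ)) ^ (3/2 : ℝ)
      ≤ ∫⁻ z in cyl R, A ^ (1/2 : ℝ) *
          ∫⁻ τ in Set.Icc (-R) R, k τ * f (z.1, z.2 + τ) ^ (3/2 : ℝ) := by
        apply lintegral_mono
        intro z
        simp only
        have hfz : Measurable fun τ : ℝ => f (z.1, z.2 + τ) := hf.comp (by fun_prop)
        refine (jensen32 hk.aemeasurable hfz.aemeasurable).trans ?_
        refine mul_le_mul' ?_ le_rfl
        gcongr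
        exact (setLIntegral_le_lintegral _ _).trans hA
    _ = A ^ (1/2 : ℝ) * ∫⁻ τ in Set.Icc (-R) R, k τ *
          ∫⁻ z in cyl R, f (z.1, z.2 + τ) ^ (3/2 : ℝ) := by
        rw [lintegral_const_mul]
        · congr 1
          rw [lintegral_lintegral_swap]
          · apply lintegral_congr
            intro τ
            rw [lintegral_const_mul]
            exact (hf.comp (by fun_prop : Measurable fun z : E2 × ℝ => (z.1, z.2 + τ))).pow_const _
          · apply Measurable.aemeasurable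
            exact (hk.comp measurable_snd).mul (hshift.pow_const _)
        · apply Measurable.lintegral_prod_right'
            (f := fun q : (E2 × ℝ) × ℝ => k q.2 * f (q.1.1, q.1.2 + q.2) ^ (3/2 : ℝ))
          exact (hk.comp measurable_snd).mul (hshift.pow_const _)
    _ ≤ A ^ (1/2 : ℝ) * ∫⁻ τ in Set.Icc (-R) R, k τ *
          ∫⁻ z in cyl (2 * R), f z ^ (3/2 : ℝ) := by
        refine mul_le_mul' le_rfl ?_
        apply setLIntegral_mono' measurableSet_Icc
        intro τ hτ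
        refine mul_le_mul' le_rfl ?_
        have e : ∀ z : E2 × ℝ, (z.1, z.2 + τ) = z + (0, τ) := by
          intro z; ext <;> simp
        simp only [e]
        rw [← lintegral_indicator (measurableSet_cyl R), ← lintegral_indicator (measurableSet_cyl _),
          ← lintegral_add_right_eq_self ((cyl (2 * R)).indicator fun z => f z ^ (3/2 : ℝ))
            ((0, τ) : E2 × ℝ)]
        apply lintegral_mono
        intro z
        by_cases hz : z ∈ cyl R
        · have hz' : z + (0, τ) ∈ cyl (2 * R) := by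
            obtain ⟨h1, h2⟩ := hz
            have h3 := abs_le.mpr hτ
            have hR0 : 0 ≤ R := (norm_nonneg _).trans h1
            refine ⟨?_, ?_⟩
            · simp only [Prod.fst_add, add_zero]; linarith
            · simp only [Prod.snd_add]
              exact (abs_add_le _ _).trans (by linarith)
          simp only
          rw [Set.indicator_of_mem hz, Set.indicator_of_mem hz']
        · simp only
          rw [Set.indicator_of_notMem hz]
          exact bot_le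
    _ = A ^ (1/2 : ℝ) * ((∫⁻ τ in Set.Icc (-R) R, k τ) * ∫⁻ z in cyl (2 * R), f z ^ (3/2 : ℝ)) := by
        rw [lintegral_mul_const _ hk]
    _ ≤ A ^ (1/2 : ℝ) * (A * ∫⁻ z in cyl (2 * R), f z ^ (3/2 : ℝ)) := by
        gcongr
        exact (setLIntegral_le_lintegral _ _).trans hA
    _ = _ := by
        rw [← mul_assoc]
        congr 1
        nth_rewrite 2 [← ENNReal.rpow_one A]
        rw [← ENNReal.rpow_add_of_nonneg _ _ (by norm_num) (by norm_num)]
        norm_num

end Crest.Agent.R138.Tub70
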