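import Mathlib
import Crest.Agent.R138.TubE_70

/-! KMw (WDef_188) from `KM32`, part 3: assembly. -/

set_option autoImplicit false

open MeasureTheory FourierTransform
open scoped ENNReal ContDiff

namespace Crest.Agent.R138.Tub70

open Crest.Agent.R138.Defs (ParB ee ext plank Adm chi BoxBoundL cyl)
open Crest.Agent.R138.Wpk685
open Crest.Agent.R138.W188 (St KMw NN SS PBox tr)
open Crest.Agent.R138.Bil882 (wt wt_pos measurable_wt)

attribute [local instance] Crest.Agent.R138.T774.haar3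

theorem wt_le_pw (n : ℕ) {w : ℝ} (hw : 0 < w) (x0 : E2) (t0 : ℝ) (p : E2 × ℝ) :
    wt (4 * n) w x0 t0 p ≤ pw w n x0 p.1 * ((1 + |p.2 - t0| / w) ^ (2 * n))⁻¹ := by
  unfold wt pw
  rw [← mul_inv]
  refine inv_anti₀ (by positivity) ?_
  rw [add_div]
  set a := ‖p.1 - x0‖ / w
  set b := |p.2 - t0| / w
  have ha : 0 ≤ a := by positivity
  have hb : 0 ≤ b := by positivity
  calc (1 + a ^ 2) ^ n * (1 + b) ^ (2 * n) ≤ ((1 + a) ^ 2) ^ n * (1 + b) ^ (2 * n) := by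
        gcongr; nlinarith
    _ = ((1 + a) * (1 + b)) ^ (2 * n) := by rw [← pow_mul, mul_pow]
    _ ≤ ((1 + (a + b)) ^ 2) ^ (2 * n) := by gcongr; nlinarith [mul_nonneg ha hb]
    _ = (1 + (a + b)) ^ (4 * n) := by rw [← pow_mul]; congr 1; ring

/-- the kernel in time. -/
noncomputable def kk (w : ℝ) (n : ℕ) (τ : ℝ) : ℝ≥0∞ :=
  ENNReal.ofReal (w⁻¹ * ((1 + |τ| / w) ^ (2 * n))⁻¹)

theorem measurable_kk (w : ℝ) (n : ℕ) : Measurable (kk w n) := by
  unfold kk; fun_prop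

theorem avg_le {w : ℝ} (hw : 0 < w) (n : ℕ) {U : E2 → ℝ → ℂ}
    (hU : Measurable fun p : E2 × ℝ => U p.1 p.2) (z : E2 × ℝ) :
    ENNReal.ofReal ((w ^ 3)⁻¹) *
      ∫⁻ p : E2 × ℝ, ‖U p.1 p.2‖ₑ ^ 2 * ENNReal.ofReal (wt (4 * n) w z.1 z.2 p) ≤
      ∫⁻ τ, kk w n τ * sa w n U (z.1, z.2 + τ) := by
  set b : ℝ → ℝ := fun t => ((1 + |t - z.2| / w) ^ (2 * n))⁻¹ with hb
  have hb0 : ∀ t, 0 ≤ b t := fun t => by rw [hb]; positivity
  have hm : Measurable fun p : E2 × ℝ => ‖U p.1 p.2‖ₑ ^ 2 * ENNReal.ofReal (pw w n z.1 p.1) *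
      ENNReal.ofReal (b p.2) := by
    refine Measurable.mul (Measurable.mul (hU.enorm.pow_const 2) ?_) ?_
    · unfold pw; fun_prop
    · rw [hb]; fun_prop
  calc _ ≤ ENNReal.ofReal ((w ^ 3)⁻¹) *
        ∫⁻ p : E2 × ℝ, ‖U p.1 p.2‖ₑ ^ 2 * ENNReal.ofReal (pw w n z.1 p.1) *
          ENNReal.ofReal (b p.2) := by
        refine mul_le_mul' le_rfl (lintegral_mono fun p => ?_)
        simp only
        rw [mul_assoc]
        refine mul_le_mul' le_rfl ?_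
        rw [← ENNReal.ofReal_mul (pw_pos _ _ _ _).le]
        exact ENNReal.ofReal_le_ofReal (wt_le_pw n hw _ _ _)
    _ = ENNReal.ofReal ((w ^ 3)⁻¹) * ∫⁻ t : ℝ, ∫⁻ y : E2, ‖U y t‖ₑ ^ 2 *
          ENNReal.ofReal (pw w n z.1 y) * ENNReal.ofReal (b t) := by
        rw [Measure.volume_eq_prod, lintegral_prod_symm _ hm.aemeasurable]
    _ = ENNReal.ofReal ((w ^ 3)⁻¹) * ∫⁻ t : ℝ, En w n (fun y => U y t) z.1 *
          ENNReal.ofReal (b t) := by
        congr 1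
        apply lintegral_congr
        intro t
        rw [lintegral_mul_const' _ _ ENNReal.ofReal_ne_top]
        rfl
    _ = ∫⁻ t : ℝ, ENNReal.ofReal ((w ^ 3)⁻¹) * (En w n (fun y => U y t) z.1 *
          ENNReal.ofReal (b t)) := by
        rw [lintegral_const_mul' _ _ ENNReal.ofReal_ne_top]
    _ = ∫⁻ τ : ℝ, ENNReal.ofReal ((w ^ 3)⁻¹) * (En w n (fun y => U y (z.2 + τ)) z.1 *
          ENNReal.ofReal (b (z.2 + τ))) := by
        rw [lintegral_add_left_eq_self (fun t => ENNReal.ofReal ((w ^ 3)⁻¹) *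
          (En w n (fun y => U y t) z.1 * ENNReal.ofReal (b t))) z.2]
    _ = _ := by
        apply lintegral_congr
        intro τ
        unfold kk sa
        simp only
        have e : b (z.2 + τ) = ((1 + |τ| / w) ^ (2 * n))⁻¹ := by
          rw [hb]; simp
        rw [e, ENNReal.ofReal_mul (by positivity)]
        have e3 : ENNReal.ofReal ((w ^ 3)⁻¹) = ENNReal.ofReal w⁻¹ * ENNReal.ofReal ((w ^ 2)⁻¹) := by
          rw [← ENNReal.ofReal_mul (by positivity)]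
          congr 1
          field_simp
        rw [e3]
        ring

theorem kk_le {w : ℝ} (hw : 0 < w) {n : ℕ} (hn : 2 ≤ n) (τ : ℝ) :
    kk w n τ ≤ ENNReal.ofReal w⁻¹ * ENNReal.ofReal (((1 + |τ - 0| / w) ^ 4)⁻¹) := by
  unfold kk
  rw [ENNReal.ofReal_mul (by positivity), sub_zero]
  gcongr
  · have : 0 ≤ |τ| / w := by positivity
    linarith
  · omega

theorem kk_tail {w R : ℝ} (hw : 0 < w) (hR : 0 < R) {n : ℕ} (hn : 2 ≤ n) {τ : ℝ} (hτ : R < |τ|) :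
    kk w n τ ≤ ENNReal.ofReal ((w / R) ^ (2 * n - 4)) *
      (ENNReal.ofReal w⁻¹ * ENNReal.ofReal (((1 + |τ - 0| / w) ^ 4)⁻¹)) := by
  unfold kk
  rw [sub_zero, ← ENNReal.ofReal_mul (by positivity), ← ENNReal.ofReal_mul (by positivity)]
  apply ENNReal.ofReal_le_ofReal
  have h1 : R / w ≤ 1 + |τ| / w := by
    have : R / w ≤ |τ| / w := by gcongr
    linarith
  have h2 : ((1 + |τ| / w) ^ (2 * n - 4))⁻¹ ≤ (w / R) ^ (2 * n - 4) := by
    rw [← inv_pow]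
    apply pow_le_pow_left₀ (by positivity)
    rw [inv_le_comm₀ (by positivity) (by positivity), inv_div]
    exact h1
  have h3 : ((1 + |τ| / w) ^ (2 * n))⁻¹ = ((1 + |τ| / w) ^ (2 * n - 4))⁻¹ * ((1 + |τ| / w) ^ 4)⁻¹ := by
    rw [← mul_inv, ← pow_add]
    congr 2
    omega
  rw [h3]
  calc w⁻¹ * (((1 + |τ| / w) ^ (2 * n - 4))⁻¹ * ((1 + |τ| / w) ^ 4)⁻¹)
      = ((1 + |τ| / w) ^ (2 * n - 4))⁻¹ * (w⁻¹ * ((1 + |τ| / w) ^ 4)⁻¹) := by ring
    _ ≤ _ := by gcongr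

/-- local estimate. -/
theorem local_est (B : ℕ → ℝ) {q : ℝ} (hq : 0 ≤ q) (hKM : KM32 (3 * (1 + |B 2|) + 2))
    {ε : ℝ} (hε : 0 < ε) {M1 : ℝ} (hM1 : 0 ≤ M1) {n : ℕ} (hn : 2 ≤ n)
    (hnε : M1 ≤ ε * ((n : ℝ) - 2)) (Na : ℕ) {L : ℝ} (hL : 1 ≤ L) (hLV : 3 * (1 + |B 2|) + 7 ≤ L) :
    ∃ C : ℝ, 0 ≤ C ∧ ∀ h g R D w r, ParB B h → fderiv ℝ h 0 = 0 → Gd g → 0 ≤ D →
      PBox q Na h g R D → ∫ ξ, ‖g ξ‖ ^ 2 ≤ R ^ M1 * D → 1 ≤ r → R = L * r → 0 < w → r ≤ w ^ 2 →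
      w ≤ r ^ (1 - ε / 2) → ∀ z ∈ cyl (3 * R),
        ∫⁻ p in cyl r, sa w n (ext h g) (p + z) ^ (3/2 : ℝ) ≤
          ENNReal.ofReal (C * R ^ ε * (R * (∫ ξ, ‖g ξ‖ ^ 2) * Real.sqrt D)) := by
  obtain ⟨C1, hC1, H1⟩ := wave_KM (V := 3 * (1 + |B 2|)) (by positivity) hKM B (ε := ε / 2)
    (by positivity) hM1 hn (by linarith) Na
  refine ⟨C1 * Real.sqrt (L ^ 3 + L ^ M1), by positivity, ?_⟩
  intro h g R D w r hh h1 hg hD hbox hnd hr hRL hw hrw hwr z hz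
  set E : ℝ := ∫ ξ, ‖g ξ‖ ^ 2 with hE
  have hE0 : 0 ≤ E := integral_nonneg fun _ => by positivity
  have hr0 : 0 < r := by linarith
  have hrR : r ≤ R := by rw [hRL]; nlinarith
  have hR1 : 1 ≤ R := hr.trans hrR
  have hgz := hg.tr hh.1.continuous z
  have hEz : ∫ ξ, ‖tr h z g ξ‖ ^ 2 = E := En_tr h z g
  have hb := box_local hq hh.1.continuous hg (continuous_gradient hh.1) hD hbox hr hL hRL hLV hz
  have hU := continuous_ext hh.1.continuous hgz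
  have key := H1 h hh (gradient_le hh h1) (tr h z g) hgz.meas hgz.bdd hgz.supp w r hr hw hrw hwr
    (L ^ 3 * D) (by positivity) hb
  rw [hEz] at key
  calc ∫⁻ p in cyl r, sa w n (ext h g) (p + z) ^ (3/2 : ℝ)
      = ∫⁻ p in cyl r, sa w n (ext h (tr h z g)) p ^ (3/2 : ℝ) := by
        simp only [sa_tr]
    _ = ∫⁻ t in Set.Icc (-r) r, ∫⁻ x in {x : E2 | ‖x‖ ≤ r},
          sa w n (ext h (tr h z g)) (x, t) ^ (3/2 : ℝ) :=
        lintegral_cyl ((measurable_sa hU.measurable w n).pow_const _) r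
    _ ≤ ∫⁻ t in Set.Icc (-r) r, ∫⁻ x in {x : E2 | ‖x‖ ≤ r},
          Av w n (ext h (tr h z g)) x t ^ (3/2 : ℝ) := by
        gcongr with t x
        exact sa_le_Av hw.le n _ x t
    _ ≤ _ := key
    _ ≤ _ := by
        apply ENNReal.ofReal_le_ofReal
        have h2 : L ^ 3 * D + r ^ (-M1) * E ≤ (L ^ 3 + L ^ M1) * D := by
          have h3 : r ^ (-M1) * E ≤ L ^ M1 * D := by
            calc r ^ (-M1) * E ≤ r ^ (-M1) * (R ^ M1 * D) := by gcongr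
              _ = L ^ M1 * D := by
                rw [hRL, Real.mul_rpow (by linarith) hr0.le, Real.rpow_neg hr0.le]
                have : r ^ M1 ≠ 0 := (Real.rpow_pos_of_pos hr0 _).ne'
                field_simp
          linarith
        have h4 : Real.sqrt (L ^ 3 * D + r ^ (-M1) * E) ≤
            Real.sqrt (L ^ 3 + L ^ M1) * Real.sqrt D := by
          rw [← Real.sqrt_mul (by positivity)]
          exact Real.sqrt_le_sqrt h2
        have h5 : r ^ (ε / 2) ≤ R ^ ε := by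
          calc r ^ (ε / 2) ≤ R ^ (ε / 2) := Real.rpow_le_rpow hr0.le hrR (by positivity)
            _ ≤ R ^ ε := Real.rpow_le_rpow_of_exponent_le hR1 (by linarith)
        calc C1 * r ^ (ε / 2) * (r * E) * Real.sqrt (L ^ 3 * D + r ^ (-M1) * E)
            ≤ C1 * R ^ ε * (R * E) * (Real.sqrt (L ^ 3 + L ^ M1) * Real.sqrt D) := by gcongr
          _ = _ := by ring

end Crest.Agent.R138.Tub70
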