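import Mathlib
import Crest.Agent.R138.TubF_70

/-! **KMw** (WDef_188) from `KM32`. -/

set_option autoImplicit false

open MeasureTheory FourierTransform
open scoped ENNReal ContDiff

namespace Crest.Agent.R138.Tub70

open Crest.Agent.R138.Defs (ParB ee ext plank Adm chi BoxBoundL cyl)
open Crest.Agent.R138.Wpk685
open Crest.Agent.R138.W188 (St KMw NN SS PBox tr)
open Crest.Agent.R138.Bil882 (wt wt_pos measurable_wt)

attribute [local instance] Crest.Agent.R138.T774.haar3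

/-- the part near in time. -/
theorem near_est {B : ℕ → ℝ} {q : ℝ} (hq : 0 ≤ q) (hKM : KM32 (3 * (1 + |B 2|) + 2))
    {ε : ℝ} (hε : 0 < ε) {M1 : ℝ} (hM1 : 0 ≤ M1) {n : ℕ} (hn : 2 ≤ n)
    (hnε : M1 ≤ ε * ((n : ℝ) - 2)) (Na : ℕ) {L : ℝ} (hL : 1 ≤ L) (hLV : 3 * (1 + |B 2|) + 7 ≤ L) :
    ∃ C : ℝ, 0 ≤ C ∧ ∀ h g R D w, ParB B h → fderiv ℝ h 0 = 0 → Gd g → 0 ≤ D →
      PBox q Na h g R D → ∫ ξ, ‖g ξ‖ ^ 2 ≤ R ^ M1 * D → L ≤ R → 0 < w → R ≤ w ^ 2 →
      w ≤ (R / L) ^ (1 - ε / 2) →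
        ∫⁻ z in cyl R, (∫⁻ τ in Set.Icc (-R) R, kk w n τ * sa w n (ext h g) (z.1, z.2 + τ)) ^
          (3/2 : ℝ) ≤ ENNReal.ofReal (C * R ^ ε * (R * (∫ ξ, ‖g ξ‖ ^ 2) * Real.sqrt D)) := by
  obtain ⟨C1, hC1, H1⟩ := local_est B hq hKM hε hM1 hn hnε Na hL hLV
  obtain ⟨CJ, hCJ, -, HJ⟩ := W323.exists_J
  set M : ℕ := ⌈3 * L⌉₊ with hM
  refine ⟨CJ ^ (3/2 : ℝ) * ((2 * M + 1) ^ 3 * C1), by positivity, ?_⟩
  intro h g R D w hh h1 hg hD hbox hnd hLR hw hRw hwr
  set E : ℝ := ∫ ξ, ‖g ξ‖ ^ 2 with hE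
  have hE0 : 0 ≤ E := integral_nonneg fun _ => by positivity
  have hL0 : 0 < L := by linarith
  have hR0 : 0 < R := by linarith
  have hr1 : 1 ≤ R / L := (one_le_div hL0).mpr hLR
  have hrR : R / L ≤ R := div_le_self hR0.le hL
  have hRL : R = L * (R / L) := by field_simp
  have hm : Measurable (sa w n (ext h g)) :=
    measurable_sa (continuous_ext hh.1.continuous hg).measurable w n
  have hkk : ∫⁻ τ, kk w n τ ≤ ENNReal.ofReal CJ := by
    calc ∫⁻ τ, kk w n τ ≤ ∫⁻ τ, ENNReal.ofReal w⁻¹ * ENNReal.ofReal (((1 + |τ - 0| / w) ^ 4)⁻¹) :=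
          lintegral_mono fun τ => kk_le hw hn τ
      _ = ENNReal.ofReal w⁻¹ * ∫⁻ τ, ENNReal.ofReal (((1 + |τ - 0| / w) ^ 4)⁻¹) := by
          rw [lintegral_const_mul' _ _ ENNReal.ofReal_ne_top]
      _ ≤ ENNReal.ofReal w⁻¹ * ENNReal.ofReal (CJ * w) := by
          gcongr
          exact HJ w hw 0
      _ = ENNReal.ofReal CJ := by
          rw [← ENNReal.ofReal_mul (by positivity)]
          congr 1
          field_simp
  have hX0 : 0 ≤ C1 * R ^ ε * (R * E * Real.sqrt D) := by positivity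
  refine (time_avg (measurable_kk w n) hkk hm).trans ?_
  have hMM : 3 * (R / (R / L)) ≤ M := by
    have : R / (R / L) = L := by field_simp
    rw [this]
    exact Nat.le_ceil _
  calc ENNReal.ofReal CJ ^ (3/2 : ℝ) * ∫⁻ z in cyl (2 * R), sa w n (ext h g) z ^ (3/2 : ℝ)
      ≤ ENNReal.ofReal CJ ^ (3/2 : ℝ) * ∑ i ∈ Ic (R / L) R M,
          ∫⁻ p in cyl (R / L), sa w n (ext h g) (p + zc (R / L) i) ^ (3/2 : ℝ) := by
        gcongr
        exact cover_cyl (by linarith) hrR hMM (fun z => sa w n (ext h g) z ^ (3/2 : ℝ))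
    _ ≤ ENNReal.ofReal CJ ^ (3/2 : ℝ) * ∑ i ∈ Ic (R / L) R M,
          ENNReal.ofReal (C1 * R ^ ε * (R * E * Real.sqrt D)) := by
        gcongr with i hi
        exact H1 h g R D w (R / L) hh h1 hg hD hbox hnd hr1 hRL hw (hrR.trans hRw) hwr _ (mem_Ic hi)
    _ = ENNReal.ofReal (CJ ^ (3/2 : ℝ) * ((Ic (R / L) R M).card *
          (C1 * R ^ ε * (R * E * Real.sqrt D)))) := by
        rw [Finset.sum_const, nsmul_eq_mul, ENNReal.ofReal_rpow_of_nonneg hCJ.le (by norm_num),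
          ENNReal.ofReal_mul (p := CJ ^ (3/2 : ℝ)) (by positivity),
          ENNReal.ofReal_mul (p := ((Ic (R / L) R M).card : ℝ)) (Nat.cast_nonneg _),
          ENNReal.ofReal_natCast]
    _ ≤ _ := by
        apply ENNReal.ofReal_le_ofReal
        calc CJ ^ (3/2 : ℝ) * ((Ic (R / L) R M).card * (C1 * R ^ ε * (R * E * Real.sqrt D)))
            ≤ CJ ^ (3/2 : ℝ) * ((2 * M + 1) ^ 3 * (C1 * R ^ ε * (R * E * Real.sqrt D))) := by
              gcongr
              exact card_Ic_le _ _ _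
          _ = _ := by ring

/-- the part far in time. -/
theorem far_est : ∃ C : ℝ, 0 ≤ C ∧ ∀ (n : ℕ), 2 ≤ n → ∀ (h : E2 → ℝ) (g : E2 → ℂ) (R D w M1 ε : ℝ),
    Continuous h → Gd g → 0 ≤ D → 0 ≤ M1 → 0 < ε → M1 + 1 ≤ ε * ((n : ℝ) - 2) →
      ∫ ξ, ‖g ξ‖ ^ 2 ≤ R ^ M1 * D → 1 ≤ R → 1 ≤ w → w ≤ R ^ (1 - ε) →
        ∫⁻ z in cyl R, (∫⁻ τ in (Set.Icc (-R) R)ᶜ, kk w n τ * sa w n (ext h g) (z.1, z.2 + τ)) ^
          (3/2 : ℝ) ≤ ENNReal.ofReal (C * (R * (∫ ξ, ‖g ξ‖ ^ 2) * Real.sqrt D)) := by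
  obtain ⟨CJ, hCJ, -, HJ⟩ := W323.exists_J
  obtain ⟨Cv, hCv, Hv⟩ := T774.volume_cyl
  refine ⟨Cv * CJ ^ (3/2 : ℝ), by positivity, ?_⟩
  intro n hn h g R D w M1 ε hh hg hD hM1 hε hnε hnd hR1 hw1 hwR
  set E : ℝ := ∫ ξ, ‖g ξ‖ ^ 2 with hE
  have hE0 : 0 ≤ E := integral_nonneg fun _ => by positivity
  have hR0 : 0 < R := by linarith
  have hw : 0 < w := by linarith
  set τ0 : ℝ := (w / R) ^ (2 * n - 4) with hτ0
  have hτ00 : 0 ≤ τ0 := by positivity
  have hpt : ∀ z : E2 × ℝ, ∫⁻ τ in (Set.Icc (-R) R)ᶜ, kk w n τ * sa w n (ext h g) (z.1, z.2 + τ) ≤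
      ENNReal.ofReal (τ0 * CJ * E) := by
    intro z
    calc ∫⁻ τ in (Set.Icc (-R) R)ᶜ, kk w n τ * sa w n (ext h g) (z.1, z.2 + τ)
        ≤ ∫⁻ τ in (Set.Icc (-R) R)ᶜ, (ENNReal.ofReal τ0 *
            (ENNReal.ofReal w⁻¹ * ENNReal.ofReal (((1 + |τ - 0| / w) ^ 4)⁻¹))) *
              ENNReal.ofReal E := by
          apply setLIntegral_mono' measurableSet_Icc.compl
          intro τ hτ
          have hτR : R < |τ| := by
            by_contra hcon
            exact hτ (abs_le.mp (not_lt.mp hcon))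
          gcongr
          · exact kk_tail hw hR0 hn hτR
          · exact (sa_le_Av hw.le n _ _ _).trans (Av_le_trivial hh hg hw1 n _ _)
      _ ≤ ∫⁻ τ, (ENNReal.ofReal τ0 *
            (ENNReal.ofReal w⁻¹ * ENNReal.ofReal (((1 + |τ - 0| / w) ^ 4)⁻¹))) *
              ENNReal.ofReal E := setLIntegral_le_lintegral _ _
      _ = (ENNReal.ofReal τ0 * (ENNReal.ofReal w⁻¹ *
            ∫⁻ τ, ENNReal.ofReal (((1 + |τ - 0| / w) ^ 4)⁻¹))) * ENNReal.ofReal E := by
          rw [lintegral_mul_const' _ _ ENNReal.ofReal_ne_top,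
            lintegral_const_mul' _ _ ENNReal.ofReal_ne_top,
            lintegral_const_mul' _ _ ENNReal.ofReal_ne_top]
      _ ≤ (ENNReal.ofReal τ0 * (ENNReal.ofReal w⁻¹ * ENNReal.ofReal (CJ * w))) *
            ENNReal.ofReal E := by
          gcongr
          exact HJ w hw 0
      _ = _ := by
          rw [← ENNReal.ofReal_mul (by positivity), ← ENNReal.ofReal_mul (by positivity),
            ← ENNReal.ofReal_mul (by positivity)]
          congr 1
          field_simp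
  calc ∫⁻ z in cyl R, (∫⁻ τ in (Set.Icc (-R) R)ᶜ, kk w n τ *
          sa w n (ext h g) (z.1, z.2 + τ)) ^ (3/2 : ℝ)
      ≤ ∫⁻ _ in cyl R, ENNReal.ofReal (τ0 * CJ * E) ^ (3/2 : ℝ) := by
        apply lintegral_mono
        intro z
        simp only
        gcongr
        exact hpt z
    _ = ENNReal.ofReal (τ0 * CJ * E) ^ (3/2 : ℝ) * volume (cyl R) := by
        rw [setLIntegral_const]
    _ ≤ ENNReal.ofReal (τ0 * CJ * E) ^ (3/2 : ℝ) * ENNReal.ofReal (Cv * R ^ 3) := by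
        gcongr
        exact Hv R hR0.le
    _ = ENNReal.ofReal ((τ0 * CJ * E) ^ (3/2 : ℝ) * (Cv * R ^ 3)) := by
        rw [ENNReal.ofReal_rpow_of_nonneg (by positivity) (by norm_num),
          ← ENNReal.ofReal_mul (by positivity)]
    _ ≤ _ := by
        apply ENNReal.ofReal_le_ofReal
        have hE32 : E ^ (3/2 : ℝ) = E * Real.sqrt E := by
          rw [show (3 / 2 : ℝ) = 1 + 1 / 2 by norm_num, Real.rpow_add_of_nonneg hE0 (by norm_num)
            (by norm_num), Real.rpow_one, Real.sqrt_eq_rpow]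
        have hsE : Real.sqrt E ≤ R ^ (M1 / 2) * Real.sqrt D := by
          have h3 : R ^ (M1 / 2) = Real.sqrt (R ^ M1) := by
            rw [Real.sqrt_eq_rpow, ← Real.rpow_mul hR0.le]
            congr 1; ring
          rw [h3, ← Real.sqrt_mul (by positivity)]
          exact Real.sqrt_le_sqrt hnd
        have hwRle : w / R ≤ R ^ (-ε) := by
          rw [div_le_iff₀ hR0]
          calc w ≤ R ^ (1 - ε) := hwR
            _ = R ^ (-ε) * R := by
                nth_rewrite 3 [← Real.rpow_one R]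
                rw [← Real.rpow_add hR0]
                congr 1; ring
        have hτle : τ0 ≤ R ^ (-(2 * (M1 + 1))) := by
          calc τ0 ≤ (R ^ (-ε)) ^ (2 * n - 4) := by rw [hτ0]; gcongr
            _ = R ^ (-ε * ((2 * n - 4 : ℕ) : ℝ)) := by
                rw [Real.rpow_mul hR0.le, Real.rpow_natCast]
            _ ≤ _ := by
                apply Real.rpow_le_rpow_of_exponent_le hR1
                have : ((2 * n - 4 : ℕ) : ℝ) = 2 * ((n : ℝ) - 2) := by
                  rw [Nat.cast_sub (by omega)]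
                  push_cast; ring
                rw [this]
                linarith
        have hτ32 : τ0 ^ (3/2 : ℝ) ≤ R ^ (-(3 * (M1 + 1))) := by
          calc τ0 ^ (3/2 : ℝ) ≤ (R ^ (-(2 * (M1 + 1)))) ^ (3/2 : ℝ) := by gcongr
            _ = _ := by
                rw [← Real.rpow_mul hR0.le]
                congr 1; ring
        have hpow : R ^ (-(3 * (M1 + 1))) * R ^ (M1 / 2) * R ^ 3 ≤ R := by
          calc R ^ (-(3 * (M1 + 1))) * R ^ (M1 / 2) * R ^ 3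
              = R ^ (-(3 * (M1 + 1)) + M1 / 2 + 3) := by
                rw [Real.rpow_add hR0, Real.rpow_add hR0]
                norm_num
            _ ≤ R ^ (1 : ℝ) := by
                apply Real.rpow_le_rpow_of_exponent_le hR1
                linarith
            _ = R := Real.rpow_one R
        calc (τ0 * CJ * E) ^ (3/2 : ℝ) * (Cv * R ^ 3)
            = τ0 ^ (3/2 : ℝ) * CJ ^ (3/2 : ℝ) * (E * Real.sqrt E) * (Cv * R ^ 3) := by
              rw [Real.mul_rpow (by positivity) hE0, Real.mul_rpow hτ00 hCJ.le, hE32]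
          _ ≤ R ^ (-(3 * (M1 + 1))) * CJ ^ (3/2 : ℝ) * (E * (R ^ (M1 / 2) * Real.sqrt D)) *
                (Cv * R ^ 3) := by gcongr
          _ = (Cv * CJ ^ (3/2 : ℝ) * (E * Real.sqrt D)) *
                (R ^ (-(3 * (M1 + 1))) * R ^ (M1 / 2) * R ^ 3) := by ring
          _ ≤ (Cv * CJ ^ (3/2 : ℝ) * (E * Real.sqrt D)) * R := by gcongr
          _ = _ := by ring

/-- **KMw** (WDef_188) from `KM32`. -/
theorem KMw_of_KM32 (B : ℕ → ℝ) {q : ℝ} (hq : 0 ≤ q) (hKM : KM32 (3 * (1 + |B 2|) + 2)) :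
    KMw B q := by
  intro ε hε Na M0
  set L : ℝ := 3 * (1 + |B 2|) + 7 with hLdef
  have hL : 1 ≤ L := by have := abs_nonneg (B 2); rw [hLdef]; linarith
  have hL0 : 0 < L := by linarith
  set M1 : ℝ := max M0 0 with hM1def
  have hM1 : 0 ≤ M1 := le_max_right _ _
  set n : ℕ := 2 + ⌈(M1 + 1) / ε⌉₊ with hndef
  have hn : 2 ≤ n := by omega
  have hnε : M1 + 1 ≤ ε * ((n : ℝ) - 2) := by
    have h1 : (M1 + 1) / ε ≤ (⌈(M1 + 1) / ε⌉₊ : ℝ) := Nat.le_ceil _
    have h2 : (n : ℝ) - 2 = (⌈(M1 + 1) / ε⌉₊ : ℝ) := by rw [hndef]; push_cast; ring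
    rw [h2]
    rw [div_le_iff₀ hε] at h1
    linarith
  obtain ⟨C1, hC1, H1⟩ := near_est (B := B) hq hKM hε hM1 hn (by linarith) Na hL le_rfl
  obtain ⟨C2, hC2, H2⟩ := far_est
  obtain ⟨Ct, hCt, Ht⟩ := W323.exists_triv1'
  set R0 : ℝ := L * L ^ (2 / ε) with hR0def
  have hR0p : 0 ≤ R0 := by positivity
  refine ⟨4 * n, Ct * R0 ^ (M1 / 2) + (2 : ℝ) ^ (1/2 : ℝ) * (C1 + C2), by positivity, ?_⟩
  intro h g R D w hst hw1 hw2
  have hR1 := hst.R1
  have hR : 0 < R := by linarith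
  have hg : Gd g := ⟨hst.meas, hst.bdd, hst.supp⟩
  set E : ℝ := ∫ ξ, ‖g ξ‖ ^ 2 with hE
  have hE0 : 0 ≤ E := integral_nonneg fun _ => by positivity
  have hD := hst.D0
  have hnd : E ≤ R ^ M1 * D := by
    refine hst.nd.trans ?_
    gcongr
    exact le_max_left _ _
  have hRhalf : 1 ≤ R ^ (1/2 : ℝ) := Real.one_le_rpow hR1 (by norm_num)
  have hw11 : 1 ≤ w := hRhalf.trans hw1
  have hw0 : 0 < w := by linarith
  have hRw : R ≤ w ^ 2 := by
    calc R = (R ^ (1/2 : ℝ)) ^ 2 := by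
          rw [← Real.rpow_natCast, ← Real.rpow_mul hR.le]; norm_num
      _ ≤ w ^ 2 := by gcongr
  have hRε : 1 ≤ R ^ ε := Real.one_le_rpow hR1 hε.le
  have hSS : SS g R D = R * E * Real.sqrt D := rfl
  have hSS0 : 0 ≤ R * E * Real.sqrt D := by positivity
  by_cases hcase : R ≤ R0
  · have hndK : W188.En g ≤ (R0 ^ (M1 / 2)) ^ 2 * D := by
      have e : (R0 ^ (M1 / 2)) ^ 2 = R0 ^ M1 := by
        rw [← Real.rpow_natCast, ← Real.rpow_mul hR0p]
        congr 1; push_cast; ring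
      rw [e]
      refine hnd.trans ?_
      gcongr
    refine (Ht (4 * n) (by omega) h hst.par.1.continuous g hst.meas hst.bdd hst.supp w R D
      (R0 ^ (M1 / 2)) hw0 hR.le (by positivity) hD hndK).trans ?_
    apply ENNReal.ofReal_le_ofReal
    rw [hSS]
    have h1 : Ct * R0 ^ (M1 / 2) ≤
        (Ct * R0 ^ (M1 / 2) + (2 : ℝ) ^ (1/2 : ℝ) * (C1 + C2)) * R ^ ε := by
      have h2 : 0 ≤ (2 : ℝ) ^ (1/2 : ℝ) * (C1 + C2) := by positivity
      have h3 : 0 ≤ Ct * R0 ^ (M1 / 2) := by positivity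
      nlinarith
    gcongr
  · push Not at hcase
    have hLe1 : 1 ≤ L ^ (2 / ε) := Real.one_le_rpow hL (by positivity)
    have hLR : L ≤ R := by
      have : L ≤ R0 := by rw [hR0def]; nlinarith
      linarith
    have hwr : w ≤ (R / L) ^ (1 - ε / 2) := by
      have hr0 : 0 < R / L := by positivity
      have h1 : L ^ (2 / ε) ≤ R / L := by
        rw [le_div_iff₀ hL0]
        rw [hR0def] at hcase
        linarith
      have h2 : L ≤ (R / L) ^ (ε / 2) := by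
        calc L = (L ^ (2 / ε)) ^ (ε / 2) := by
              rw [← Real.rpow_mul hL0.le]
              have : 2 / ε * (ε / 2) = 1 := by field_simp
              rw [this, Real.rpow_one]
          _ ≤ _ := by gcongr
      calc w ≤ R ^ (1 - ε) := hw2
        _ = (L * (R / L)) ^ (1 - ε) := by congr 1; field_simp
        _ = L ^ (1 - ε) * (R / L) ^ (1 - ε) := Real.mul_rpow hL0.le hr0.le
        _ ≤ L ^ (1 : ℝ) * (R / L) ^ (1 - ε) := by
            gcongr
            linarith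
        _ = L * (R / L) ^ (1 - ε) := by rw [Real.rpow_one]
        _ ≤ (R / L) ^ (ε / 2) * (R / L) ^ (1 - ε) := by gcongr
        _ = _ := by
            rw [← Real.rpow_add hr0]
            congr 1; ring
    have hm : Measurable (sa w n (ext h g)) :=
      measurable_sa (continuous_ext hst.par.1.continuous hg).measurable w n
    unfold NN
    have hpt : ∀ z : E2 × ℝ, (ENNReal.ofReal ((w ^ 3)⁻¹) * ∫⁻ p : E2 × ℝ,
        ‖ext h g p.1 p.2‖ₑ ^ 2 * ENNReal.ofReal (wt (4 * n) w z.1 z.2 p)) ^ (3 / 2 : ℝ) ≤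
        (2 : ℝ≥0∞) ^ ((3/2 : ℝ) - 1) *
        ((∫⁻ τ in Set.Icc (-R) R, kk w n τ * sa w n (ext h g) (z.1, z.2 + τ)) ^ (3/2 : ℝ) +
        (∫⁻ τ in (Set.Icc (-R) R)ᶜ, kk w n τ * sa w n (ext h g) (z.1, z.2 + τ)) ^ (3/2 : ℝ)) := by
      intro z
      refine le_trans ?_ (ENNReal.rpow_add_le_mul_rpow_add_rpow _ _ (by norm_num))
      gcongr
      rw [lintegral_add_compl _ measurableSet_Icc]
      exact avg_le hw0 n (continuous_ext hst.par.1.continuous hg).measurable z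
    have hmX : ∀ S : Set ℝ, Measurable fun z : E2 × ℝ =>
        (∫⁻ τ in S, kk w n τ * sa w n (ext h g) (z.1, z.2 + τ)) ^ (3/2 : ℝ) := by
      intro S
      refine Measurable.pow_const ?_ _
      apply Measurable.lintegral_prod_right'
        (f := fun q : (E2 × ℝ) × ℝ => kk w n q.2 * sa w n (ext h g) (q.1.1, q.1.2 + q.2))
      exact ((measurable_kk w n).comp measurable_snd).mul (hm.comp (by fun_prop))
    calc _ ≤ ∫⁻ z in cyl R, (2 : ℝ≥0∞) ^ ((3/2 : ℝ) - 1) *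
        ((∫⁻ τ in Set.Icc (-R) R, kk w n τ * sa w n (ext h g) (z.1, z.2 + τ)) ^ (3/2 : ℝ) +
        (∫⁻ τ in (Set.Icc (-R) R)ᶜ, kk w n τ * sa w n (ext h g) (z.1, z.2 + τ)) ^ (3/2 : ℝ)) :=
          lintegral_mono hpt
      _ = (2 : ℝ≥0∞) ^ ((3/2 : ℝ) - 1) * ((∫⁻ z in cyl R,
        (∫⁻ τ in Set.Icc (-R) R, kk w n τ * sa w n (ext h g) (z.1, z.2 + τ)) ^ (3/2 : ℝ)) +
        ∫⁻ z in cyl R,
        (∫⁻ τ in (Set.Icc (-R) R)ᶜ, kk w n τ * sa w n (ext h g) (z.1, z.2 + τ)) ^ (3/2 : ℝ)) := by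
          rw [lintegral_const_mul' _ _ (ENNReal.rpow_ne_top_of_nonneg (by norm_num) (by norm_num)),
            lintegral_add_left (hmX (Set.Icc (-R) R))]
      _ ≤ (2 : ℝ≥0∞) ^ ((3/2 : ℝ) - 1) * (ENNReal.ofReal (C1 * R ^ ε * (R * E * Real.sqrt D)) +
            ENNReal.ofReal (C2 * (R * E * Real.sqrt D))) := by
          refine mul_le_mul' le_rfl (add_le_add ?_ ?_)
          · exact H1 h g R D w hst.par hst.h1 hg hD hst.box hnd hLR hw0 hRw hwr
          · exact H2 n hn h g R D w M1 ε hst.par.1.continuous hg hD hM1 hε hnε hnd hR1 hw11 hw2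
      _ = ENNReal.ofReal ((2 : ℝ) ^ ((3/2 : ℝ) - 1) * (C1 * R ^ ε * (R * E * Real.sqrt D) +
            C2 * (R * E * Real.sqrt D))) := by
          rw [← ENNReal.ofReal_add (by positivity) (by positivity),
            ENNReal.ofReal_mul (by positivity),
            ← ENNReal.ofReal_rpow_of_pos (by norm_num : (0:ℝ) < 2)]
          norm_num
      _ ≤ _ := by
          apply ENNReal.ofReal_le_ofReal
          rw [hSS]
          have h1 : C2 * (R * E * Real.sqrt D) ≤ C2 * R ^ ε * (R * E * Real.sqrt D) := by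
            have : C2 ≤ C2 * R ^ ε := by nlinarith
            gcongr
          have h2 : (2 : ℝ) ^ ((3/2 : ℝ) - 1) = (2 : ℝ) ^ (1/2 : ℝ) := by norm_num
          rw [h2]
          calc (2 : ℝ) ^ (1/2 : ℝ) * (C1 * R ^ ε * (R * E * Real.sqrt D) +
                C2 * (R * E * Real.sqrt D))
              ≤ (2 : ℝ) ^ (1/2 : ℝ) * (C1 * R ^ ε * (R * E * Real.sqrt D) +
                C2 * R ^ ε * (R * E * Real.sqrt D)) := by gcongr
            _ = ((2 : ℝ) ^ (1/2 : ℝ) * (C1 + C2)) * R ^ ε * (R * E * Real.sqrt D) := by ring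
            _ ≤ _ := by
              have h3 : 0 ≤ Ct * R0 ^ (M1 / 2) := by positivity
              have h4 : (2 : ℝ) ^ (1/2 : ℝ) * (C1 + C2) ≤
                Ct * R0 ^ (M1 / 2) + (2 : ℝ) ^ (1/2 : ℝ) * (C1 + C2) := by linarith
              gcongr

end Crest.Agent.R138.Tub70
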