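import Crest.Agent.R138.RR5_323
import Crest.Agent.R138.Tri_323
import Crest.Agent.R138.Wpk5_685

/-!
# R138 wave side: TRIV2 (helper323), part 1: energy count over separated frames
-/

set_option autoImplicit false

open MeasureTheory FourierTransform
open scoped ContDiff ENNReal

namespace Crest.Agent.R138.W323

open Crest.Agent.R138.Defs Crest.Agent.R138.Bil882 Crest.Agent.R138.W188
open Crest.Agent.R138.Wpk685
open Crest.Agent.R138.Wf448 (sl)
open Crest.Agent.R138.T774 (haar3 cyl_eq finrank3)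

attribute [local instance] haar3

/-- separated frames are rarely close. -/
theorem exists_count : ∃ C : ℝ, 0 ≤ C ∧ ∀ (r : ℝ), 0 < r → ∀ Fr : Finset (E2 × ℝ),
    (∀ z ∈ Fr, ∀ z' ∈ Fr, Sep r z z') → ∀ (y : E2) (τ : ℝ),
    ∑ f ∈ Fr, (if |τ - f.2| ≤ r then ENNReal.ofReal (((1 + ‖y - f.1‖ / r) ^ 4)⁻¹) else 0) ≤
      ENNReal.ofReal C := by
  obtain ⟨J, hJ, HJ, -⟩ := exists_J
  set v : ℝ≥0∞ := volume (Metric.ball (0 : E2 × ℝ) 1) with hv
  have hvfin : v < ⊤ := measure_ball_lt_top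
  have hvpos : 0 < v := Metric.measure_ball_pos _ _ one_pos
  have hvr : 0 < v.toReal := ENNReal.toReal_pos hvpos.ne' hvfin.ne
  refine ⟨512 * J / v.toReal, by positivity, fun r hr Fr hs y τ => ?_⟩
  set φ : E2 × ℝ → ℝ≥0∞ := fun p => ENNReal.ofReal (((1 + ‖p.1 - y‖ / r) ^ 4)⁻¹) *
    (Set.Icc (τ - 2 * r) (τ + 2 * r)).indicator (fun _ => 1) p.2 with hφ
  have m1 : Measurable fun x : E2 => ENNReal.ofReal (((1 + ‖x - y‖ / r) ^ 4)⁻¹) := by fun_prop
  have m2 : Measurable fun t : ℝ => (Set.Icc (τ - 2 * r) (τ + 2 * r)).indicator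
      (fun _ => (1 : ℝ≥0∞)) t := measurable_const.indicator measurableSet_Icc
  have hint : ∫⁻ p, φ p ≤ ENNReal.ofReal (J * r ^ 2) * ENNReal.ofReal (4 * r) := by
    rw [hφ, Measure.volume_eq_prod, lintegral_prod_mul m1.aemeasurable m2.aemeasurable]
    gcongr
    · exact HJ r hr y
    · rw [lintegral_indicator_const measurableSet_Icc, one_mul, Real.volume_Icc]
      apply ENNReal.ofReal_le_ofReal
      linarith
  have hdisj : (Fr : Set (E2 × ℝ)).PairwiseDisjoint fun z => Metric.ball z (r / 2) := by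
    intro z hz z' hz' hne
    refine Metric.ball_disjoint_ball ?_
    have h1 : r ≤ dist z z' := by
      rcases hs z hz z' hz' with h | h | h
      · exact absurd h hne
      · rw [Prod.dist_eq, dist_eq_norm]; exact h.trans (le_max_left _ _)
      · rw [Prod.dist_eq, Real.dist_eq]; exact h.trans (le_max_right _ _)
    linarith
  have hpt : ∀ f ∈ Fr, (if |τ - f.2| ≤ r then ENNReal.ofReal (((1 + ‖y - f.1‖ / r) ^ 4)⁻¹) else 0) *
      (ENNReal.ofReal ((r / 2) ^ 3) * v) ≤ 16 * ∫⁻ p in Metric.ball f (r / 2), φ p := by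
    intro f _
    split_ifs with hf
    · have hvol : volume (Metric.ball f (r / 2)) = ENNReal.ofReal ((r / 2) ^ 3) * v := by
        rw [Measure.addHaar_ball _ _ (by positivity), finrank3]
      rw [← hvol, ← setLIntegral_const, ← lintegral_const_mul' _ _ (by norm_num)]
      refine setLIntegral_mono' measurableSet_ball fun p hp => ?_
      rw [Metric.mem_ball, Prod.dist_eq, max_lt_iff, dist_eq_norm, Real.dist_eq] at hp
      have h2 : p.2 ∈ Set.Icc (τ - 2 * r) (τ + 2 * r) := by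
        have a1 := abs_lt.1 hp.2
        have a2 := abs_le.1 hf
        constructor <;> linarith [a1.1, a1.2, a2.1, a2.2]
      rw [hφ]
      simp only [Set.indicator_of_mem h2, mul_one]
      rw [show (16 : ℝ≥0∞) = ENNReal.ofReal 16 by norm_num, ← ENNReal.ofReal_mul (by norm_num)]
      refine ENNReal.ofReal_le_ofReal ?_
      have h3 : 1 + ‖p.1 - y‖ / r ≤ 2 * (1 + ‖y - f.1‖ / r) := by
        have h4 : ‖p.1 - y‖ ≤ ‖p.1 - f.1‖ + ‖y - f.1‖ := by
          have : p.1 - y = (p.1 - f.1) - (y - f.1) := by abel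
          rw [this]; exact norm_sub_le _ _
        have h5 : ‖p.1 - y‖ / r ≤ 1 / 2 + ‖y - f.1‖ / r := by
          rw [div_le_iff₀ hr, add_mul, div_mul_cancel₀ _ hr.ne']
          linarith [hp.1]
        have h6 : 0 ≤ ‖y - f.1‖ / r := by positivity
        linarith
      rw [inv_eq_one_div, div_le_iff₀ (by positivity), ← div_eq_mul_inv,
        div_mul_eq_mul_div, le_div_iff₀ (by positivity), one_mul]
      calc (1 + ‖p.1 - y‖ / r) ^ 4 ≤ (2 * (1 + ‖y - f.1‖ / r)) ^ 4 := by gcongr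
        _ = 16 * (1 + ‖y - f.1‖ / r) ^ 4 := by ring
    · rw [zero_mul]; exact zero_le
  have hsum := Finset.sum_le_sum hpt
  rw [← Finset.sum_mul, ← Finset.mul_sum,
    ← lintegral_biUnion_finset hdisj (fun _ _ => measurableSet_ball)] at hsum
  have hfin := hsum.trans (mul_le_mul' le_rfl (setLIntegral_le_lintegral _ _))
  have hfin' := hfin.trans (mul_le_mul' le_rfl hint)
  have hne : ENNReal.ofReal ((r / 2) ^ 3) * v ≠ 0 :=
    mul_ne_zero (by simpa using (by positivity : 0 < (r / 2) ^ 3)) hvpos.ne'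
  have hnt : ENNReal.ofReal ((r / 2) ^ 3) * v ≠ ⊤ := ENNReal.mul_ne_top ENNReal.ofReal_ne_top hvfin.ne
  rw [← ENNReal.mul_le_mul_iff_left hne hnt]
  refine hfin'.trans (le_of_eq ?_)
  rw [show v = ENNReal.ofReal v.toReal from (ENNReal.ofReal_toReal hvfin.ne).symm,
    show (16 : ℝ≥0∞) = ENNReal.ofReal 16 by norm_num,
    ENNReal.toReal_ofReal hvr.le,
    ← ENNReal.ofReal_mul (by positivity), ← ENNReal.ofReal_mul (by positivity),
    ← ENNReal.ofReal_mul (by positivity), ← ENNReal.ofReal_mul (by positivity)]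
  congr 1
  field_simp
  ring

/-- comparison of the weight of `thmB` with the spatial weight of scale `r`. -/
theorem bw_le_scale {r a A' : ℝ} (hr : 1 ≤ r) (ha : 0 ≤ a) (haA : a ≤ A' * r) (y : E2) :
    bw 4 (r ^ (-(1/2) : ℝ)) a y ≤ (1 + A') ^ 4 * ((1 + ‖y‖ / r) ^ 4)⁻¹ := by
  have hr0 : 0 < r := by linarith
  have hA' : 0 ≤ A' := by
    by_contra h
    push Not at h
    nlinarith
  set ρ : ℝ := r ^ (-(1/2) : ℝ) with hρ
  have hρr : 1 / r ≤ ρ := by
    rw [hρ, one_div, ← Real.rpow_neg_one]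
    exact Real.rpow_le_rpow_of_exponent_le hr (by norm_num)
  set b : ℝ := max 0 (‖y‖ - a) with hb
  have hb0 : 0 ≤ b := le_max_left _ _
  have h1 : 1 + ‖y‖ / r ≤ (1 + A') * (1 + ρ * b) := by
    have h2 : ‖y‖ ≤ b + A' * r := by
      have := le_max_right 0 (‖y‖ - a)
      linarith
    have h3 : ‖y‖ / r ≤ b * (1 / r) + A' := by
      rw [div_le_iff₀ hr0, add_mul]
      have : b * (1 / r) * r = b := by field_simp
      rw [this]; exact h2
    have h4 : b * (1 / r) ≤ ρ * b := by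
      rw [mul_comm]; gcongr
    have h5 : 0 ≤ A' * (ρ * b) := by
      have : 0 ≤ ρ := by rw [hρ]; positivity
      positivity
    linarith
  have hp : 0 < 1 + ρ * b := by
    have : 0 ≤ ρ := by rw [hρ]; positivity
    positivity
  unfold bw
  rw [← hb, inv_eq_one_div, div_le_iff₀ (by positivity), ← div_eq_mul_inv, div_mul_eq_mul_div,
    le_div_iff₀ (by positivity), one_mul, ← mul_pow]
  gcongr

theorem norm_cen_le {ρ : ℝ} (hρ : 0 < ρ) (hρ1 : ρ ≤ 1) {m : ℤ × ℤ} (hm : m ∈ caps ρ) :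
    ‖cen ρ m‖ ≤ 6 := by
  have hc : ∀ i : ℤ, -⌈2 / ρ⌉ - 1 ≤ i → i ≤ ⌈2 / ρ⌉ + 1 → |ρ * (i : ℝ)| ≤ 4 := by
    intro i h1 h2
    have h3 : ((⌈2 / ρ⌉ : ℤ) : ℝ) ≤ 2 / ρ + 1 := (Int.ceil_lt_add_one _).le
    have h4 : |(i : ℝ)| ≤ 2 / ρ + 2 := by
      rw [abs_le]
      have h1' : ((-⌈2 / ρ⌉ - 1 : ℤ) : ℝ) ≤ i := by exact_mod_cast h1
      have h2' : (i : ℝ) ≤ ((⌈2 / ρ⌉ + 1 : ℤ) : ℝ) := by exact_mod_cast h2
      push_cast at h1' h2'
      constructor <;> linarith
    rw [abs_mul, abs_of_pos hρ]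
    calc ρ * |(i : ℝ)| ≤ ρ * (2 / ρ + 2) := by gcongr
      _ = 2 + 2 * ρ := by field_simp
      _ ≤ 4 := by linarith
  unfold caps at hm
  obtain ⟨h0, h1⟩ := Finset.mem_product.1 hm
  rw [Finset.mem_Icc] at h0 h1
  have e0 := hc m.1 h0.1 h0.2
  have e1 := hc m.2 h1.1 h1.2
  have h2 : ‖cen ρ m‖ ^ 2 ≤ 6 ^ 2 := by
    rw [EuclideanSpace.norm_sq_eq]
    simp only [Fin.sum_univ_two, Real.norm_eq_abs, cen_zero, cen_one]
    have a0 := abs_nonneg (ρ * (m.1 : ℝ))
    have a1 := abs_nonneg (ρ * (m.2 : ℝ))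
    nlinarith
  exact le_of_sq_le_sq h2 (by norm_num)

end Crest.Agent.R138.W323
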