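import Crest.Agent.R138.Tv1_323

/-!
# R138 wave side: TRIV2 (helper323), part 2: energy count of a plate system
-/

set_option autoImplicit false

open MeasureTheory FourierTransform
open scoped ContDiff ENNReal

namespace Crest.Agent.R138.W323

open Crest.Agent.R138.Defs Crest.Agent.R138.Bil882 Crest.Agent.R138.W188
open Crest.Agent.R138.Wpk685
open Crest.Agent.R138.Wf448 (sl)
open Crest.Agent.R138.T774 (haar3 cyl_eq finrank3)

/-- energy of one frame at the time `t`, `|t| ≤ r`. -/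
theorem exists_frame (B : ℕ → ℝ) (a0 : ℝ) (ha0 : 0 ≤ a0) : ∃ C : ℝ, 0 ≤ C ∧ ∀ h, ParB B h →
    fderiv ℝ h 0 = 0 → ∀ r : ℝ, 1 ≤ r → ∀ g : E2 → ℂ, Gd g → ∀ (f : E2 × ℝ) (τ : ℝ),
    |τ - f.2| ≤ r →
    en (r ^ (-(1/2) : ℝ)) (tr h f g) (fun _ => Metric.closedBall 0 (a0 * r)) ≤
      ENNReal.ofReal C * ∫⁻ y : E2, ENNReal.ofReal (((1 + ‖y - f.1‖ / r) ^ 4)⁻¹) *
        ‖ext h g y τ‖ₑ ^ 2 := by
  obtain ⟨C, hC, H⟩ := thmB B 4 1 le_rfl
  set G : ℝ := 6 * (1 + |B 2|) with hG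
  have hG0 : 0 ≤ G := by rw [hG]; positivity
  refine ⟨C * (1 + (a0 + G)) ^ 4, by positivity, fun h hh h1 r hr g hg f τ hτ => ?_⟩
  have hr0 : 0 < r := by linarith
  have hhc : Continuous h := hh.1.continuous
  set ρ : ℝ := r ^ (-(1/2) : ℝ) with hρ
  have hρ0 : 0 < ρ := by rw [hρ]; positivity
  have hρ1 : ρ ≤ 1 := Real.rpow_le_one_of_one_le_of_nonpos hr (by norm_num)
  have hρ2 : ρ ^ 2 = r⁻¹ := by
    rw [hρ, ← Real.rpow_natCast, ← Real.rpow_mul hr0.le, ← Real.rpow_neg_one]; norm_num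
  set a : ℝ := (a0 + G) * r with ha
  have ha' : 0 ≤ a := by rw [ha]; positivity
  set t : ℝ := τ - f.2 with ht
  have htρ : |t| * ρ ^ 2 ≤ 1 := by
    rw [hρ2, ← div_eq_mul_inv, div_le_one hr0]; exact hτ
  have hGd := W323.Gd.tr hhc hg f
  have h2 := H h hh ρ 1 (bw 4 ρ a) hρ0 hρ1 (bw_sv 4 hρ0.le a) (caps ρ) (tr h f g) hGd.int hGd.l2 t htρ
  rw [one_pow, mul_one] at h2
  have h3 : en ρ (tr h f g) (fun _ => Metric.closedBall 0 (a0 * r)) ≤ ∑ m ∈ caps ρ, ∫⁻ y,
      ENNReal.ofReal (bw 4 ρ a (y - t • gradient h (cen ρ m))) * ‖um ρ (tr h f g) m y‖ₑ ^ 2 := by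
    unfold en
    refine Finset.sum_le_sum fun m hm => ?_
    rw [← lintegral_indicator Metric.isClosed_closedBall.measurableSet]
    refine lintegral_mono fun y => ?_
    dsimp only
    by_cases hy : y ∈ Metric.closedBall (0 : E2) (a0 * r)
    · rw [Set.indicator_of_mem hy, bw_one 4 ρ, ENNReal.ofReal_one, one_mul]
      have h4 : ‖gradient h (cen ρ m)‖ ≤ G := by
        refine (grad_le hh h1 _).trans ?_
        rw [hG, mul_comm]
        gcongr
        exact norm_cen_le hρ0 hρ1 hm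
      have h5 : ‖t • gradient h (cen ρ m)‖ ≤ r * G := by
        rw [norm_smul, Real.norm_eq_abs]
        gcongr
      have h6 : ‖y‖ ≤ a0 * r := by simpa using hy
      calc ‖y - t • gradient h (cen ρ m)‖ ≤ ‖y‖ + ‖t • gradient h (cen ρ m)‖ := norm_sub_le _ _
        _ ≤ a := by rw [ha]; nlinarith
    · rw [Set.indicator_of_notMem hy]
      exact zero_le
  refine h3.trans (h2.trans ?_)
  rw [ENNReal.ofReal_mul hC, mul_assoc]
  refine mul_le_mul' le_rfl ?_
  unfold WE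
  have h7 : sl h (tr h f g) t = tr h (f.1, τ) g := by
    rw [sl_eq_tr, tr_add]
    congr 1
    ext
    · simp
    · simp [ht]
  rw [h7]
  have h8 : ∫⁻ x, ENNReal.ofReal (bw 4 ρ a x) * ‖𝓕⁻ (tr h (f.1, τ) g) x‖ₑ ^ 2 =
      ∫⁻ y, ENNReal.ofReal (bw 4 ρ a (y - f.1)) * ‖ext h g y τ‖ₑ ^ 2 := by
    rw [← lintegral_add_right_eq_self (fun y => ENNReal.ofReal (bw 4 ρ a (y - f.1)) *
      ‖ext h g y τ‖ₑ ^ 2) f.1]
    refine lintegral_congr fun x => ?_
    rw [fourierInv_tr, add_sub_cancel_right]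
  rw [h8, ← lintegral_const_mul' _ _ ENNReal.ofReal_ne_top]
  refine lintegral_mono fun y => ?_
  dsimp only
  rw [← mul_assoc, ← ENNReal.ofReal_mul (by positivity)]
  gcongr
  exact bw_le_scale hr ha' (le_of_eq ha) _

/-- **energy count**: the energies of separated frames add up. -/
theorem exists_frames (B : ℕ → ℝ) (a0 : ℝ) (ha0 : 0 ≤ a0) : ∃ C : ℝ, 0 ≤ C ∧ ∀ h, ParB B h →
    fderiv ℝ h 0 = 0 → ∀ r R : ℝ, 1 ≤ r → r ≤ R → ∀ g : E2 → ℂ, Gd g → ∀ Fr : Finset (E2 × ℝ),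
    (∀ z ∈ Fr, z ∈ cyl R) → (∀ z ∈ Fr, ∀ z' ∈ Fr, Sep r z z') →
    ∑ f ∈ Fr, ENNReal.ofReal r * en (r ^ (-(1/2) : ℝ)) (tr h f g)
      (fun _ => Metric.closedBall 0 (a0 * r)) ≤ ENNReal.ofReal (C * R * En g) := by
  obtain ⟨C1, hC1, H1⟩ := exists_frame B a0 ha0
  obtain ⟨C2, hC2, H2⟩ := exists_count
  refine ⟨2 * C1 * C2, by positivity, fun h hh h1 r R hr hrR g hg Fr hFr hsep => ?_⟩
  have hr0 : 0 < r := by linarith
  have hR0 : 0 < R := by linarith
  have hhc : Continuous h := hh.1.continuous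
  have hEn : 0 ≤ En g := integral_nonneg fun ξ => by positivity
  have hF : Continuous fun p : E2 × ℝ => ext h g p.1 p.2 := F4x858.continuous_ext hhc hg.int
  set w : E2 × ℝ → ℝ → E2 → ℝ≥0∞ := fun f τ y =>
    if |τ - f.2| ≤ r then ENNReal.ofReal (((1 + ‖y - f.1‖ / r) ^ 4)⁻¹) else 0 with hw
  have hFy : ∀ τ, Measurable fun y => ‖ext h g y τ‖ₑ ^ 2 := fun τ =>
    ((hF.comp (continuous_id.prodMk continuous_const)).measurable.enorm).pow_const 2
  have hwy : ∀ f τ, Measurable (w f τ) := by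
    intro f τ
    simp only [hw]
    by_cases hτ : |τ - f.2| ≤ r
    · simp only [hτ, if_true]; fun_prop
    · simp only [hτ, if_false]; exact measurable_const
  -- one frame
  have hone : ∀ f ∈ Fr, 2 * (ENNReal.ofReal r * en (r ^ (-(1/2) : ℝ)) (tr h f g)
      (fun _ => Metric.closedBall 0 (a0 * r))) ≤ ∫⁻ τ in Set.Icc (-(2 * R)) (2 * R),
        ENNReal.ofReal C1 * ∫⁻ y, w f τ y * ‖ext h g y τ‖ₑ ^ 2 := by
    intro f hf
    have hf2 : |f.2| ≤ R := (hFr f hf).2
    set E := en (r ^ (-(1/2) : ℝ)) (tr h f g) (fun _ => Metric.closedBall 0 (a0 * r)) with hE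
    have e1 : 2 * (ENNReal.ofReal r * E) = ∫⁻ τ in Set.Icc (f.2 - r) (f.2 + r), E := by
      rw [lintegral_const, Measure.restrict_apply MeasurableSet.univ, Set.univ_inter,
        Real.volume_Icc, show f.2 + r - (f.2 - r) = 2 * r by ring,
        ENNReal.ofReal_mul (by norm_num), ENNReal.ofReal_ofNat]
      ring
    rw [e1]
    calc ∫⁻ τ in Set.Icc (f.2 - r) (f.2 + r), E
        ≤ ∫⁻ τ in Set.Icc (f.2 - r) (f.2 + r),
            ENNReal.ofReal C1 * ∫⁻ y, w f τ y * ‖ext h g y τ‖ₑ ^ 2 := by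
          refine setLIntegral_mono' measurableSet_Icc fun τ hτ => ?_
          have hτ' : |τ - f.2| ≤ r := by
            rw [abs_le]; constructor <;> linarith [hτ.1, hτ.2]
          have := H1 h hh h1 r hr g hg f τ hτ'
          simp only [hw, hτ', if_true]
          exact this
      _ ≤ _ := by
          refine lintegral_mono_set fun τ hτ => ?_
          have a1 := abs_le.1 hf2
          constructor <;> linarith [hτ.1, hτ.2, a1.1, a1.2]
  have hsum : 2 * ∑ f ∈ Fr, ENNReal.ofReal r * en (r ^ (-(1/2) : ℝ)) (tr h f g)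
      (fun _ => Metric.closedBall 0 (a0 * r)) ≤ ENNReal.ofReal (4 * C1 * C2 * R * En g) := by
    rw [Finset.mul_sum]
    refine (Finset.sum_le_sum hone).trans ?_
    calc ∑ f ∈ Fr, ∫⁻ τ in Set.Icc (-(2 * R)) (2 * R),
          ENNReal.ofReal C1 * ∫⁻ y, w f τ y * ‖ext h g y τ‖ₑ ^ 2
        ≤ ∫⁻ τ in Set.Icc (-(2 * R)) (2 * R), ∑ f ∈ Fr,
          ENNReal.ofReal C1 * ∫⁻ y, w f τ y * ‖ext h g y τ‖ₑ ^ 2 := by
          rw [lintegral_finsetSum']
          intro f _
          refine Measurable.aemeasurable ?_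
          refine Measurable.const_mul ?_ _
          have hmw : Measurable fun p : ℝ × E2 => w f p.1 p.2 * ‖ext h g p.2 p.1‖ₑ ^ 2 := by
            refine Measurable.mul ?_ ?_
            · simp only [hw]
              refine Measurable.ite ?_ ?_ measurable_const
              · exact measurableSet_le (by fun_prop) measurable_const
              · fun_prop
            · exact ((hF.comp (continuous_snd.prodMk continuous_fst)).measurable.enorm).pow_const 2
          exact Measurable.lintegral_prod_right' hmw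
      _ ≤ ∫⁻ τ in Set.Icc (-(2 * R)) (2 * R),
            ENNReal.ofReal C1 * (ENNReal.ofReal C2 * ENNReal.ofReal (En g)) := by
          refine lintegral_mono fun τ => ?_
          dsimp only
          rw [← Finset.mul_sum]
          gcongr
          have hmm : ∀ f ∈ Fr, Measurable fun y => w f τ y * ‖ext h g y τ‖ₑ ^ 2 :=
            fun f _ => (hwy f τ).mul (hFy τ)
          rw [← lintegral_finsetSum Fr hmm]
          calc ∫⁻ y, ∑ f ∈ Fr, w f τ y * ‖ext h g y τ‖ₑ ^ 2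
              ≤ ∫⁻ y, ENNReal.ofReal C2 * ‖ext h g y τ‖ₑ ^ 2 := by
                refine lintegral_mono fun y => ?_
                dsimp only
                rw [← Finset.sum_mul]
                gcongr
                exact H2 r hr0 Fr hsep y τ
            _ = ENNReal.ofReal C2 * ENNReal.ofReal (En g) := by
                rw [lintegral_const_mul _ (hFy τ), F4x858.slice hhc hg.int hg.l2 τ,
                  En_eq_lint hg]
      _ = ENNReal.ofReal (4 * C1 * C2 * R * En g) := by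
          rw [lintegral_const, Measure.restrict_apply MeasurableSet.univ, Set.univ_inter,
            Real.volume_Icc, ← ENNReal.ofReal_mul hC2, ← ENNReal.ofReal_mul hC1,
            ← ENNReal.ofReal_mul (by positivity)]
          congr 1; ring
  have h2 : (2 : ℝ≥0∞) * ∑ f ∈ Fr, ENNReal.ofReal r * en (r ^ (-(1/2) : ℝ)) (tr h f g)
      (fun _ => Metric.closedBall 0 (a0 * r)) ≤ 2 * ENNReal.ofReal (2 * C1 * C2 * R * En g) := by
    refine hsum.trans (le_of_eq ?_)
    rw [show (2 : ℝ≥0∞) = ENNReal.ofReal 2 by norm_num, ← ENNReal.ofReal_mul (by norm_num)]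
    congr 1; ring
  exact (ENNReal.mul_le_mul_iff_right (by norm_num) (by norm_num)).1 h2

/-- energy count for a plate system. -/
theorem exists_plates_energy (B : ℕ → ℝ) (A : ℝ) (hA : 0 ≤ A) : ∃ C : ℝ, 0 ≤ C ∧ ∀ h, ParB B h →
    fderiv ℝ h 0 = 0 → ∀ r R : ℝ, 1 ≤ r → r ≤ R → ∀ g : E2 → ℂ, Gd g → ∀ s1 s2 : ℝ, s1 ≤ 1 →
    s2 ≤ 1 → ∀ (I : Finset ℕ) (P : ℕ → Plate), Plates A h r s1 s2 R I P →
    ∑ i ∈ I, ENNReal.ofReal r * en (r ^ (-(1/2) : ℝ)) (tr h (P i).z g) (P i).S ≤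
      ENNReal.ofReal (C * R * En g) := by
  classical
  obtain ⟨C, hC, H⟩ := exists_frames B (3 * A) (by positivity)
  refine ⟨C, hC, fun h hh h1 r R hr hrR g hg s1 s2 hs1 hs2 I P hP => ?_⟩
  have hr0 : 0 < r := by linarith
  have h2 := H h hh h1 r R hr hrR g hg (I.image fun i => (P i).z) ?_ ?_
  · refine le_trans ?_ h2
    rw [← Finset.sum_fiberwise_of_maps_to (s := I) (t := I.image fun i => (P i).z)
      (g := fun i => (P i).z) (fun i hi => Finset.mem_image_of_mem _ hi)]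
    refine Finset.sum_le_sum fun y hy => ?_
    rw [← Finset.mul_sum]
    gcongr
    have h3 : ∑ i ∈ I with (P i).z = y, en (r ^ (-(1/2) : ℝ)) (tr h (P i).z g) (P i).S =
        ∑ i ∈ I with (P i).z = y, en (r ^ (-(1/2) : ℝ)) (tr h y g) (P i).S := by
      refine Finset.sum_congr rfl fun i hi => ?_
      rw [(Finset.mem_filter.1 hi).2]
    rw [h3]
    refine en_union _ (fun i => (P i).S) (fun _ => Metric.closedBall 0 (3 * A * r))
      (fun i hi m => ?_) (fun i hi j hj hne m => ?_) (fun i hi m y hy => ?_)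
    · exact hP.meas i (Finset.mem_filter.1 hi).1 m
    · obtain ⟨hi1, hi2⟩ := Finset.mem_filter.1 hi
      obtain ⟨hj1, hj2⟩ := Finset.mem_filter.1 hj
      exact hP.disj i hi1 j hj1 hne (hi2.trans hj2.symm) m
    · obtain ⟨hi1, hi2⟩ := Finset.mem_filter.1 hi
      rw [mem_closedBall_zero_iff]
      exact pos_le hA hr0.le hs1 hs2 (hP.x i hi1) (hP.box i hi1 m hy)
  · intro y hy
    obtain ⟨i, hi, rfl⟩ := Finset.mem_image.1 hy
    exact hP.mem i hi
  · intro y hy y' hy'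
    obtain ⟨i, hi, rfl⟩ := Finset.mem_image.1 hy
    obtain ⟨j, hj, rfl⟩ := Finset.mem_image.1 hy'
    exact hP.sep i hi j hj

end Crest.Agent.R138.W323
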