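import Crest.Agent.R138.FM_501
import Crest.Agent.R138.Tw0_829

/-!
# R138: Kaufman's inequality for F-models (helper829)

* `exists_le_of_ev`: finite sums of powers of the base;
* `nu_anti`, `nu_lip`: the counting exponent of an `FModel` is antitone and `1`-Lipschitz;
* `kauf_gen`, `kauf_N`, `kauf_X`: Kaufman;
* `TW0_proof : TW0`.
-/

set_option autoImplicit false
set_option linter.unusedVariables false

open Filter Topology Finset

namespace Crest.Agent.R138.Tw829

open Crest.Agent.R138.Ex926 Crest.Agent.R138.FM501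

/-! ### powers of the base -/

variable {B : Base} {G : ℕ → Cfg} {σ R : ℝ} {ν : (Fin 4 → ℝ) → ℝ}

theorem tendsto_rpow_zero (B : Base) {t : ℝ} (ht : 0 < t) :
    Tendsto (fun n => B.d n ^ t) U (𝓝 0) := by
  have := B.lim0.rpow_const (p := t) (Or.inr ht.le)
  simpa [Real.zero_rpow ht.ne'] using this

theorem ev_rpow_lt (B : Base) {t c : ℝ} (ht : 0 < t) (hc : 0 < c) :
    ∀ᶠ n in (U : Filter ℕ), B.d n ^ t < c :=
  (tendsto_rpow_zero B ht).eventually (gt_mem_nhds hc)

/-- constants are absorbed -/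
theorem ev_const_le (B : Base) {t : ℝ} (ht : 0 < t) (C : ℝ) :
    ∀ᶠ n in (U : Filter ℕ), C ≤ B.d n ^ (-t) := by
  have hC : 0 < 1 / (|C| + 1) := by positivity
  filter_upwards [ev_rpow_lt B ht hC] with n hn
  have hd := B.pos n
  rw [Real.rpow_neg hd.le]
  have h1 : 0 < B.d n ^ t := Real.rpow_pos_of_pos hd t
  rw [lt_div_iff₀ (by positivity)] at hn
  calc C ≤ |C| + 1 := by linarith [le_abs_self C]
    _ ≤ (B.d n ^ t)⁻¹ := by
        rw [le_inv_comm₀ (by positivity) h1, ← one_div, le_div_iff₀ (by positivity)]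
        exact hn.le

theorem rpow_anti (B : Base) (n : ℕ) {s t : ℝ} (h : s ≤ t) : B.d n ^ t ≤ B.d n ^ s :=
  Real.rpow_le_rpow_of_exponent_ge (B.pos n) (B.lt n).le h

theorem rpow_add' (B : Base) (n : ℕ) (s t : ℝ) : B.d n ^ (s + t) = B.d n ^ s * B.d n ^ t :=
  Real.rpow_add (B.pos n) s t

/-- the basic comparison of exponents -/
theorem exists_le_of_ev (B : Base) (J : ℕ) (β : ℕ → ℝ) (α C C0 : ℝ)
    (h : ∀ ε : ℝ, 0 < ε → ∀ᶠ n in (U : Filter ℕ),
      B.d n ^ (α + C * ε) ≤ C0 * ∑ j ∈ range (J + 1), B.d n ^ (β j - C * ε)) :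
    ∃ j ≤ J, β j ≤ α := by
  by_contra hcon
  push Not at hcon
  obtain ⟨g, hg, hgj⟩ : ∃ g : ℝ, 0 < g ∧ ∀ j ≤ J, α + g ≤ β j := by
    have hne : (range (J + 1)).Nonempty := Finset.nonempty_range_iff.2 (by omega)
    refine ⟨(range (J + 1)).inf' hne (fun j => β j - α), ?_, ?_⟩
    · refine (Finset.lt_inf'_iff hne).2 ?_
      intro j hj
      have := hcon j (by simpa [Nat.lt_succ_iff] using hj)
      linarith
    · intro j hj
      have := Finset.inf'_le (s := range (J + 1)) (fun j => β j - α)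
        (b := j) (by simpa [Nat.lt_succ_iff] using hj)
      linarith
  set D := |C| + 1 with hD
  have hDpos : 0 < D := by positivity
  set ε := g / (4 * D) with hε
  have hεpos : 0 < ε := by positivity
  have hCε : |C| * ε ≤ g / 4 := by
    have : |C| * ε ≤ D * ε := mul_le_mul_of_nonneg_right (by simp [hD]) hεpos.le
    have h2 : D * ε = g / 4 := by rw [hε]; field_simp
    linarith
  have hCε' := abs_le.1 (le_of_eq (abs_mul C ε))
  have habs : |C * ε| ≤ g / 4 := by rw [abs_mul, abs_of_pos hεpos]; exact hCε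
  rw [abs_le] at habs
  have h1 := ev_rpow_lt B (t := g / 2) (c := 1 / ((|C0| + 1) * (J + 1))) (by linarith)
    (by positivity)
  obtain ⟨n, hn1, hn2⟩ := ((h ε hεpos).and h1).exists
  have hd := B.pos n
  have h3 : ∑ j ∈ range (J + 1), B.d n ^ (β j - C * ε)
      ≤ (J + 1) * B.d n ^ (α + g - g / 4) := by
    calc _ ≤ ∑ j ∈ range (J + 1), B.d n ^ (α + g - g / 4) := by
          refine Finset.sum_le_sum fun j hj => rpow_anti B n ?_
          have := hgj j (by simpa [Nat.lt_succ_iff] using hj)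
          linarith [habs.2]
      _ = _ := by simp
  have h4 : B.d n ^ (α + g / 4) ≤ B.d n ^ (α + C * ε) := rpow_anti B n (by linarith [habs.2])
  have hs0 : 0 ≤ ∑ j ∈ range (J + 1), B.d n ^ (β j - C * ε) :=
    Finset.sum_nonneg fun j _ => (Real.rpow_pos_of_pos hd _).le
  have h5 : C0 * ∑ j ∈ range (J + 1), B.d n ^ (β j - C * ε)
      ≤ (|C0| + 1) * ((J + 1) * B.d n ^ (α + g - g / 4)) := by
    calc _ ≤ (|C0| + 1) * ∑ j ∈ range (J + 1), B.d n ^ (β j - C * ε) :=
          mul_le_mul_of_nonneg_right (by linarith [le_abs_self C0]) hs0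
      _ ≤ _ := mul_le_mul_of_nonneg_left h3 (by positivity)
  have h6 : B.d n ^ (α + g - g / 4) = B.d n ^ (α + g / 4) * B.d n ^ (g / 2) := by
    rw [← rpow_add']; congr 1; ring
  have h7 : B.d n ^ (α + g / 4) ≤ (|C0| + 1) * ((J + 1) * (B.d n ^ (α + g / 4) * B.d n ^ (g / 2))) := by
    rw [← h6]
    exact h4.trans (hn1.trans h5)
  have h8 : 0 < B.d n ^ (α + g / 4) := Real.rpow_pos_of_pos hd _
  rw [lt_div_iff₀ (by positivity)] at hn2
  have h9 : B.d n ^ (α + g / 4) * 1 ≤ B.d n ^ (α + g / 4) *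
      (B.d n ^ (g / 2) * ((|C0| + 1) * (J + 1))) := by
    calc _ = B.d n ^ (α + g / 4) := mul_one _
      _ ≤ _ := h7
      _ = _ := by ring
  have h10 := le_of_mul_le_mul_left h9 h8
  linarith

/-! ### elementary facts on `Cfg` -/

theorem Bd.X_le {G : Cfg} (h : G.Bd) {i k : ℕ} (hi : i ∈ G.L) (hk : k ∈ G.Z) :
    |G.X i k| ≤ 1 / 4 := by
  have h1 := h.a i hi
  have h2 := h.c i hi
  have h3 := h.z k hk
  have h4 : |G.c i * G.z k| ≤ 1 / 8 := by
    rw [abs_mul]
    calc |G.c i| * |G.z k| ≤ (1 / 8) * 1 := mul_le_mul h2 h3 (abs_nonneg _) (by norm_num)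
      _ = _ := by norm_num
  unfold Cfg.X
  rw [abs_le] at *
  constructor <;> linarith [h1.1, h1.2, h4.1, h4.2]

theorem Bd.N_le {G : Cfg} (h : G.Bd) {i k : ℕ} (hi : i ∈ G.L) (hk : k ∈ G.Z) :
    |G.N i k| ≤ 1 / 2 := by
  have h1 := h.b i hi
  have h2 := h.d i hi
  have h3 := h.z k hk
  have h4 : |G.d i * G.z k| ≤ 1 / 8 := by
    rw [abs_mul]
    calc |G.d i| * |G.z k| ≤ (1 / 8) * 1 := mul_le_mul h2 h3 (abs_nonneg _) (by norm_num)
      _ = _ := by norm_num
  have h5 : |G.f k * G.X i k| ≤ 1 / 4 := by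
    rw [abs_mul]
    calc |G.f k| * |G.X i k| ≤ 1 * (1 / 4) :=
          mul_le_mul (h.f k hk) (Bd.X_le h hi hk) (abs_nonneg _) (by norm_num)
      _ = _ := by norm_num
  unfold Cfg.N
  rw [abs_le] at *
  constructor <;> linarith [h1.1, h1.2, h4.1, h4.2, h5.1, h5.2]

theorem Bd.P_le {G : Cfg} (h : G.Bd) {i k : ℕ} (hi : i ∈ G.L) (hk : k ∈ G.Z) :
    |G.P i k| ≤ 1 / 4 := by
  have h1 := h.d i hi
  have h2 := h.c i hi
  have h5 : |G.f k * G.c i| ≤ 1 / 8 := by
    rw [abs_mul]
    calc |G.f k| * |G.c i| ≤ 1 * (1 / 8) :=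
          mul_le_mul (h.f k hk) h2 (abs_nonneg _) (by norm_num)
      _ = _ := by norm_num
  unfold Cfg.P
  rw [abs_le] at *
  constructor <;> linarith [h1.1, h1.2, h5.1, h5.2]

theorem Bd.co_le {G : Cfg} (h : G.Bd) {i k : ℕ} (hi : i ∈ G.L) (hk : k ∈ G.Z) (j : Fin 4) :
    |G.co k i j| ≤ 1 / 2 := by
  fin_cases j
  · exact Bd.N_le h hi hk
  · exact (Bd.P_le h hi hk).trans (by norm_num)
  · exact (h.c i hi).trans (by norm_num)
  · exact (Bd.X_le h hi hk).trans (by norm_num)

theorem Bd.co_sub_le {G : Cfg} (h : G.Bd) {i i' k : ℕ} (hi : i ∈ G.L) (hi' : i' ∈ G.L)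
    (hk : k ∈ G.Z) (j : Fin 4) : |G.co k i' j - G.co k i j| ≤ 1 := by
  have h1 := Bd.co_le h hi hk j
  have h2 := Bd.co_le h hi' hk j
  rw [abs_le] at *
  constructor <;> linarith [h1.1, h1.2, h2.1, h2.2]

theorem mem_slice {G : Cfg} {i k : ℕ} : i ∈ G.slice k ↔ i ∈ G.L ∧ (i, k) ∈ G.I := by
  simp [Cfg.slice]

theorem mem_box {G : Cfg} {p : Fin 4 → ℝ} {i i' k : ℕ} :
    i' ∈ G.box p i k ↔ i' ∈ G.slice k ∧ ∀ j, |G.co k i' j - G.co k i j| ≤ G.ρ ^ p j := by
  classical
  unfold Cfg.box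
  rw [Finset.mem_filter]
  rfl

theorem box_subset_slice {G : Cfg} {p : Fin 4 → ℝ} {i k : ℕ} : G.box p i k ⊆ G.slice k :=
  fun _ h => (mem_box.1 h).1

theorem box_zero {G : Cfg} (h : G.Bd) {i k : ℕ} (hi : i ∈ G.L) (hk : k ∈ G.Z) :
    G.box 0 i k = G.slice k := by
  apply Finset.Subset.antisymm box_subset_slice
  intro i' hi'
  rw [mem_box]
  refine ⟨hi', fun j => ?_⟩
  simp only [Pi.zero_apply, Real.rpow_zero]
  exact Bd.co_sub_le h hi (mem_slice.1 hi').1 hk j

/-- covering a box by smaller boxes -/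
theorem box_cover {G : Cfg} (hρ : 0 < G.ρ) (hρ1 : G.ρ ≤ 1) {p p' : Fin 4 → ℝ}
    (hpp : ∀ j, p j ≤ p' j) {i k : ℕ} {Mx : ℝ} (hM0 : 0 ≤ Mx)
    (hM : ∀ i' ∈ G.slice k, ((G.box p' i' k).card : ℝ) ≤ Mx) :
    ((G.box p i k).card : ℝ) ≤ 256 * G.ρ ^ (∑ j, (p j - p' j)) * Mx := by
  classical
  set cell : ℕ → (Fin 4 → ℤ) := fun i' j => ⌊G.co k i' j / G.ρ ^ p' j⌋ with hcell
  have hpow : ∀ t : ℝ, 0 < G.ρ ^ t := fun t => Real.rpow_pos_of_pos hρ t
  have h1 : (G.box p i k).card ≤ ∑ c ∈ (G.box p i k).image cell,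
      ((G.box p i k).filter fun i' => cell i' = c).card := by
    rw [← Finset.card_eq_sum_card_fiberwise (f := cell) (s := G.box p i k)
      (t := (G.box p i k).image cell) (fun i hi => Finset.mem_image_of_mem _ hi)]
  have h2 : ∀ c ∈ (G.box p i k).image cell,
      (((G.box p i k).filter fun i' => cell i' = c).card : ℝ) ≤ Mx := by
    intro c hc
    obtain ⟨i1, hi1, hi1c⟩ := Finset.mem_image.1 hc
    refine le_trans ?_ (hM i1 (box_subset_slice hi1))
    have : ((G.box p i k).filter fun i' => cell i' = c) ⊆ G.box p' i1 k := by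
      intro i' hi'
      obtain ⟨a1, a2⟩ := Finset.mem_filter.1 hi'
      rw [mem_box]
      refine ⟨box_subset_slice a1, fun j => ?_⟩
      have e1 : cell i' j = cell i1 j := by rw [a2, hi1c]
      simp only [hcell] at e1
      have l1 := Int.floor_le (G.co k i' j / G.ρ ^ p' j)
      have l2 := Int.lt_floor_add_one (G.co k i' j / G.ρ ^ p' j)
      have l3 := Int.floor_le (G.co k i1 j / G.ρ ^ p' j)
      have l4 := Int.lt_floor_add_one (G.co k i1 j / G.ρ ^ p' j)
      rw [e1] at l1 l2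
      have h5 : |G.co k i' j / G.ρ ^ p' j - G.co k i1 j / G.ρ ^ p' j| ≤ 1 := by
        rw [abs_le]; constructor <;> linarith
      rw [← sub_div, abs_div, abs_of_pos (hpow _), div_le_one (hpow _)] at h5
      exact h5
    exact_mod_cast Finset.card_le_card this
  have h3 : ((G.box p i k).card : ℝ) ≤ ((G.box p i k).image cell).card * Mx := by
    calc ((G.box p i k).card : ℝ) ≤ ∑ c ∈ (G.box p i k).image cell,
      (((G.box p i k).filter fun i' => cell i' = c).card : ℝ) := by exact_mod_cast h1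
      _ ≤ ∑ c ∈ (G.box p i k).image cell, Mx := Finset.sum_le_sum h2
      _ = _ := by simp
  have h4 : (((G.box p i k).image cell).card : ℝ) ≤ 256 * G.ρ ^ (∑ j, (p j - p' j)) := by
    set T : Finset (Fin 4 → ℤ) := Fintype.piFinset fun j =>
      Finset.Icc ⌊(G.co k i j - G.ρ ^ p j) / G.ρ ^ p' j⌋ ⌊(G.co k i j + G.ρ ^ p j) / G.ρ ^ p' j⌋
      with hT
    have hsub : (G.box p i k).image cell ⊆ T := by
      intro c hc
      obtain ⟨i1, hi1, rfl⟩ := Finset.mem_image.1 hc
      rw [hT, Fintype.mem_piFinset]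
      intro j
      have h := (mem_box.1 hi1).2 j
      rw [abs_le] at h
      rw [Finset.mem_Icc]
      constructor
      · apply Int.floor_le_floor
        exact (div_le_div_iff_of_pos_right (hpow _)).2 (by linarith [h.1])
      · apply Int.floor_le_floor
        exact (div_le_div_iff_of_pos_right (hpow _)).2 (by linarith [h.2])
    have h5 : (T.card : ℝ) ≤ ∏ j : Fin 4, (4 * G.ρ ^ (p j - p' j)) := by
      rw [hT, Fintype.card_piFinset, Nat.cast_prod]
      refine Finset.prod_le_prod (fun j _ => Nat.cast_nonneg _) fun j _ => ?_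
      rw [Int.card_Icc]
      set u := (G.co k i j - G.ρ ^ p j) / G.ρ ^ p' j
      set v := (G.co k i j + G.ρ ^ p j) / G.ρ ^ p' j
      have huv : v - u = 2 * G.ρ ^ (p j - p' j) := by
        simp only [u, v]
        rw [Real.rpow_sub hρ]
        field_simp
        ring
      have h6 : (1 : ℝ) ≤ G.ρ ^ (p j - p' j) :=
        Real.one_le_rpow_of_pos_of_le_one_of_nonpos hρ hρ1 (by linarith [hpp j])
      have h7 : ((⌊v⌋ + 1 - ⌊u⌋ : ℤ) : ℝ) ≤ v - u + 2 := by
        push_cast
        linarith [Int.floor_le v, Int.lt_floor_add_one u]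
      have h8 : ((⌊v⌋ + 1 - ⌊u⌋).toNat : ℝ) ≤ 2 * G.ρ ^ (p j - p' j) + 2 := by
        rcases le_total 0 (⌊v⌋ + 1 - ⌊u⌋) with h | h
        · have : (((⌊v⌋ + 1 - ⌊u⌋).toNat : ℤ) : ℝ) = ((⌊v⌋ + 1 - ⌊u⌋ : ℤ) : ℝ) := by
            rw [Int.toNat_of_nonneg h]
          have h9 : ((⌊v⌋ + 1 - ⌊u⌋).toNat : ℝ) = ((⌊v⌋ + 1 - ⌊u⌋ : ℤ) : ℝ) := by
            rw [← this]; norm_cast
          rw [h9]; linarith
        · rw [Int.toNat_of_nonpos h]
          simp only [Nat.cast_zero]
          have := hpow (p j - p' j)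
          linarith
      linarith
    calc (((G.box p i k).image cell).card : ℝ) ≤ T.card := by
          exact_mod_cast Finset.card_le_card hsub
      _ ≤ ∏ j : Fin 4, (4 * G.ρ ^ (p j - p' j)) := h5
      _ = 256 * G.ρ ^ (∑ j, (p j - p' j)) := by
          rw [Finset.prod_mul_distrib, ← Real.rpow_sum_of_pos hρ]
          simp
          norm_num
  calc ((G.box p i k).card : ℝ) ≤ ((G.box p i k).image cell).card * Mx := h3
    _ ≤ _ := mul_le_mul_of_nonneg_right h4 hM0

/-! ### the counting exponent of an F-model -/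

theorem FM.ρpos (H : FModel B G σ R ν) (n : ℕ) : 0 < (G n).ρ := by rw [H.base]; exact B.pos n

theorem FM.exI (H : FModel B G σ R ν) (n : ℕ) :
    ∃ i k, (i, k) ∈ (G n).I ∧ i ∈ (G n).L ∧ k ∈ (G n).Z := by
  obtain ⟨⟨i, k⟩, h⟩ := H.nonempty n
  have := H.sub n h
  rw [Finset.mem_product] at this
  exact ⟨i, k, h, this.1, this.2⟩

theorem FM.mem_of_I (H : FModel B G σ R ν) {n i k : ℕ} (h : (i, k) ∈ (G n).I) :
    i ∈ (G n).L ∧ k ∈ (G n).Z := by
  have := H.sub n h
  rw [Finset.mem_product] at this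
  exact this

theorem FM.box_anti (H : FModel B G σ R ν) (n : ℕ) {p p' : Fin 4 → ℝ} (hpp : ∀ j, p j ≤ p' j)
    (i k : ℕ) : (G n).box p' i k ⊆ (G n).box p i k := by
  intro i' hi'
  rw [mem_box] at hi' ⊢
  refine ⟨hi'.1, fun j => (hi'.2 j).trans ?_⟩
  rw [H.base]
  exact rpow_anti B n (hpp j)

theorem nu_anti (H : FModel B G σ R ν) {p p' : Fin 4 → ℝ} (hp : ∀ j, 0 ≤ p j)
    (hpp : ∀ j, p j ≤ p' j) (hp' : ∀ j, p' j ≤ R) : ν p' ≤ ν p := by
  have hp1 : ∀ j, 0 ≤ p j ∧ p j ≤ R := fun j => ⟨hp j, (hpp j).trans (hp' j)⟩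
  have hp2 : ∀ j, 0 ≤ p' j ∧ p' j ≤ R := fun j => ⟨(hp j).trans (hpp j), hp' j⟩
  obtain ⟨j, hj, h⟩ := exists_le_of_ev B 0 (fun _ => - ν p) (- ν p') 1 1 (by
    intro ε hε
    filter_upwards [H.unif p hp1 ε hε, H.unif p' hp2 ε hε] with n h1 h2
    obtain ⟨i, k, hik, hi, hk⟩ := FM.exI H n
    simp only [zero_add, range_one, sum_singleton, one_mul]
    calc B.d n ^ (-ν p' + ε) ≤ (((G n).box p' i k).card : ℝ) := (h2 i k hik).1
      _ ≤ (((G n).box p i k).card : ℝ) := by
          exact_mod_cast Finset.card_le_card (FM.box_anti H n hpp i k)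
      _ ≤ _ := (h1 i k hik).2)
  linarith

theorem nu_lip (H : FModel B G σ R ν) {p p' : Fin 4 → ℝ} (hp : ∀ j, 0 ≤ p j)
    (hpp : ∀ j, p j ≤ p' j) (hp' : ∀ j, p' j ≤ R) : ν p ≤ ν p' + ∑ j, (p' j - p j) := by
  have hp1 : ∀ j, 0 ≤ p j ∧ p j ≤ R := fun j => ⟨hp j, (hpp j).trans (hp' j)⟩
  have hp2 : ∀ j, 0 ≤ p' j ∧ p' j ≤ R := fun j => ⟨(hp j).trans (hpp j), hp' j⟩
  obtain ⟨j, hj, h⟩ := exists_le_of_ev B 0 (fun _ => ∑ j, (p j - p' j) - ν p') (- ν p) 1 256 (by
    intro ε hε
    filter_upwards [H.unif p hp1 ε hε, H.unif p' hp2 ε hε] with n h1 h2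
    obtain ⟨i, k, hik, hi, hk⟩ := FM.exI H n
    simp only [zero_add, range_one, sum_singleton, one_mul]
    calc B.d n ^ (-ν p + ε) ≤ (((G n).box p i k).card : ℝ) := (h1 i k hik).1
      _ ≤ 256 * (G n).ρ ^ (∑ j, (p j - p' j)) * B.d n ^ (-ν p' - ε) := by
          refine box_cover (FM.ρpos H n) (by rw [H.base]; exact (B.lt n).le) hpp
            (Real.rpow_pos_of_pos (B.pos n) _).le ?_
          intro i' hi'
          exact (h2 i' k (mem_slice.1 hi').2).2
      _ = _ := by
          rw [H.base, mul_assoc, ← rpow_add']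
          congr 2
          ring)
  have h2 : ∑ j, (p' j - p j) = - ∑ j, (p j - p' j) := by
    rw [← Finset.sum_neg_distrib]
    exact Finset.sum_congr rfl fun j _ => by ring
  rw [h2]
  linarith

theorem slice_card_le (H : FModel B G σ R ν) {ε : ℝ} (hε : 0 < ε) :
    ∀ᶠ n in (U : Filter ℕ), ∀ k ∈ (G n).Z,
      (((G n).slice k).card : ℝ) ≤ B.d n ^ (-ν 0 - ε) := by
  filter_upwards [H.unif 0 (fun j => ⟨le_rfl, H.R_pos.le⟩) ε hε] with n h k hk
  rcases ((G n).slice k).eq_empty_or_nonempty with h0 | ⟨i, hi⟩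
  · rw [h0]
    simpa using (Real.rpow_pos_of_pos (B.pos n) _).le
  · rw [← box_zero (H.bd n) (mem_slice.1 hi).1 hk]
    exact (h i k (mem_slice.1 hi).2).2

/-! ### Kaufman -/

/-- the scale `x * j / J` -/
noncomputable def sc (x : ℝ) (J j : ℕ) : ℝ := x * j / J

theorem sc_zero (x : ℝ) (J : ℕ) : sc x J 0 = 0 := by simp [sc]

theorem sc_top (x : ℝ) {J : ℕ} (hJ : 0 < J) : sc x J J = x := by
  unfold sc
  have : (J : ℝ) ≠ 0 := by exact_mod_cast hJ.ne'
  field_simp

theorem sc_nonneg {x : ℝ} (hx : 0 ≤ x) (J j : ℕ) : 0 ≤ sc x J j := by unfold sc; positivity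

theorem sc_le {x : ℝ} (hx : 0 ≤ x) {J j : ℕ} (hJ : 0 < J) (hj : j ≤ J) : sc x J j ≤ x := by
  unfold sc
  have h1 : (0 : ℝ) < J := by exact_mod_cast hJ
  rw [div_le_iff₀ h1]
  have h2 : (j : ℝ) ≤ J := by exact_mod_cast hj
  exact mul_le_mul_of_nonneg_left h2 hx

theorem sc_succ (x : ℝ) {J : ℕ} (hJ : 0 < J) (j : ℕ) : sc x J (j + 1) = sc x J j + x / J := by
  unfold sc
  have : (J : ℝ) ≠ 0 := by exact_mod_cast hJ.ne'
  push_cast
  field_simp

/-- the exponents of the pair boxes -/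
noncomputable def pp (pS : Fin 4 → ℝ) (jF jV : Fin 4) (t : ℝ) : Fin 4 → ℝ :=
  fun c => if c = jF ∨ c = jV then t else pS c

/-- **Kaufman's inequality for F-models**, general fibre and functional.
Fibre = box of exponents `pS` at height `k0`, functional `co · · jF`, velocity `co · · jV`. -/
theorem kauf_gen (H : FModel B G σ R ν) {x : ℝ} (hx : 0 < x) (hxR : x ≤ R) {J : ℕ} (hJ : 0 < J)
    (pS : Fin 4 → ℝ) (hpS : ∀ j, 0 ≤ pS j ∧ pS j ≤ R) (jF jV : Fin 4)
    (hpF : pS jF = 0) (hpV : pS jV = 0) (Ce : ℝ) (hCe : 0 ≤ Ce)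
    (herr : ∀ n, ∀ k0 ∈ (G n).Z, ∀ k ∈ (G n).Z, ∀ i ∈ (G n).L, ∀ i' ∈ (G n).L,
      (∀ j, |(G n).co k0 i' j - (G n).co k0 i j| ≤ 2 * B.d n ^ pS j) →
      |(G n).co k i jF - (G n).co k i' jF - (((G n).co k0 i jF - (G n).co k0 i' jF)
        + ((G n).z k - (G n).z k0) * ((G n).co k0 i jV - (G n).co k0 i' jV))|
        ≤ Ce * B.d n ^ x) :
    ∃ j ≤ J, ν pS - ν (pp pS jF jV (sc x J j)) + σ * (x - sc x J (j + 1))
      ≤ ν 0 - ν (Pi.single jF x) := by
  classical
  have hR := H.R_pos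
  have hσ0 := H.σ_nonneg
  have hσ1 := H.σ_le
  set q : ℕ → Fin 4 → ℝ := fun j => pp pS jF jV (sc x J j) with hq
  have hq01 : ∀ j ≤ J, ∀ c, 0 ≤ q j c ∧ q j c ≤ R := by
    intro j hj c
    simp only [hq, pp]
    split_ifs
    · exact ⟨sc_nonneg hx.le J j, (sc_le hx.le hJ hj).trans hxR⟩
    · exact hpS c
  set pe : Fin 4 → ℝ := Pi.single jF x with hpe
  have hpe01 : ∀ c, 0 ≤ pe c ∧ pe c ≤ R := by
    intro c
    simp only [hpe]
    by_cases h : c = jF
    · subst h; simp [hx.le, hxR]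
    · simp [Pi.single_eq_of_ne h, hR.le]
  obtain ⟨j, hj, h⟩ := exists_le_of_ev B J
    (fun j => -ν 0 + ν pe - ν (q j) + σ * (x - sc x J (j + 1))) (- ν pS) 9 3 (by
    intro ε hε
    -- the shrunk exponents
    set qe : ℕ → Fin 4 → ℝ := fun j c => max (q j c - ε) 0 with hqe
    have hqe01 : ∀ j ≤ J, ∀ c, 0 ≤ qe j c ∧ qe j c ≤ R := by
      intro j hj c
      refine ⟨le_max_right _ _, ?_⟩
      simp only [hqe]
      exact max_le (by linarith [(hq01 j hj c).2]) hR.le
    have hνq : ∀ j ≤ J, ν (qe j) ≤ ν (q j) + 4 * ε := by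
      intro j hj
      have h1 : ∀ c, qe j c ≤ q j c := by
        intro c
        simp only [hqe]
        exact max_le (by linarith) (hq01 j hj c).1
      have h2 := nu_lip H (fun c => (hqe01 j hj c).1) h1 (fun c => (hq01 j hj c).2)
      have h3 : ∑ c, (q j c - qe j c) ≤ ∑ c : Fin 4, ε := by
        refine Finset.sum_le_sum fun c _ => ?_
        simp only [hqe]
        linarith [le_max_left (q j c - ε) 0]
      have h4 : ∑ c : Fin 4, ε = 4 * ε := by simp
      linarith
    have ev1 : ∀ᶠ n in (U : Filter ℕ), ∀ j ∈ range (J + 1), ∀ i k, (i, k) ∈ (G n).I →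
        B.d n ^ (-ν (qe j) + ε) ≤ (((G n).box (qe j) i k).card : ℝ) ∧
        (((G n).box (qe j) i k).card : ℝ) ≤ B.d n ^ (-ν (qe j) - ε) := by
      rw [Filter.eventually_all_finset]
      intro j hj
      exact H.unif _ (hqe01 j (by simpa [Nat.lt_succ_iff] using hj)) ε hε
    have ev2 : ∀ᶠ n in (U : Filter ℕ), ∀ j ∈ range J, ∀ k ∈ (G n).Z,
        ((((G n).Z.filter fun k' =>
          |(G n).z k' - (G n).z k| ≤ B.d n ^ max (x - sc x J (j + 1) - ε) 0).card : ℝ))
          ≤ B.d n ^ (σ * max (x - sc x J (j + 1) - ε) 0 - ε) * ((G n).Z.card : ℝ) := by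
      rw [Filter.eventually_all_finset]
      intro j hj
      have hj' : j + 1 ≤ J := by simpa using hj
      have h1 := H.frost (max (x - sc x J (j + 1) - ε) 0) (le_max_right _ _)
        (max_le (by linarith [sc_nonneg hx.le J (j + 1)]) hR.le) ε hε
      filter_upwards [h1] with n h1 k hk
      have := h1 k hk
      unfold Cfg.hbox at this
      rw [H.base] at this
      convert this
    filter_upwards [ev1, ev2, H.unif pS hpS ε hε, H.unif pe hpe01 ε hε, slice_card_le H hε,
      H.line ε hε, ev_const_le B hε (2 + 4 * (1 + Ce))] with n h1 h2 h3 h4 h5 h6 h7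
    obtain ⟨i0, k0, hik0, hi0, hk0⟩ := FM.exI H n
    have hd := B.pos n
    have hpow : ∀ t : ℝ, 0 < B.d n ^ t := fun t => Real.rpow_pos_of_pos hd t
    set S := (G n).box pS i0 k0 with hS
    have hSL : ∀ i ∈ S, i ∈ (G n).L := fun i hi => (mem_slice.1 (box_subset_slice hi)).1
    have hSI : ∀ i ∈ S, (i, k0) ∈ (G n).I := fun i hi => (mem_slice.1 (box_subset_slice hi)).2
    have hScard := (h3 i0 k0 hik0).1
    have hSn : S.Nonempty := by
      rw [← Finset.card_pos]
      have : (0 : ℝ) < (S.card : ℝ) := lt_of_lt_of_le (hpow _) hScard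
      exact_mod_cast this
    have hZn : (G n).Z.Nonempty := ⟨k0, hk0⟩
    have hSco : ∀ i ∈ S, ∀ i' ∈ S, ∀ j, |(G n).co k0 i' j - (G n).co k0 i j| ≤ 2 * B.d n ^ pS j := by
      intro i hi i' hi' j
      have a1 := (mem_box.1 hi).2 j
      have a2 := (mem_box.1 hi').2 j
      rw [H.base] at a1 a2
      rw [abs_le] at a1 a2 ⊢
      constructor <;> linarith [a1.1, a1.2, a2.1, a2.2]
    have key := kaufman_abs S (G n).Z (G n).z (fun i k => (i, k) ∈ (G n).I)
      (fun i k => (G n).co k i jF) (fun i => (G n).co k0 i jF) (fun i => (G n).co k0 i jV)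
      ((G n).z k0) (B.d n ^ x) (Ce * B.d n ^ x) (3 * B.d n ^ (-ν 0 + ν pe - 2 * ε)) (B.d n ^ ε) J
      (fun j => B.d n ^ sc x J j) (fun j => B.d n ^ (-ν (q j) - 5 * ε))
      (fun j => B.d n ^ (σ * (x - sc x J (j + 1)) - 2 * ε))
      (hpow _) (mul_nonneg hCe (hpow _).le) (by positivity) (hpow _).le hSn hZn
      (by
        intro k hk
        have a1 := (H.bd n).z k hk
        have a2 := (H.bd n).z k0 hk0
        rw [abs_le] at *
        constructor <;> linarith [a1.1, a1.2, a2.1, a2.2])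
      (by
        intro k hk i hi i' hi'
        exact herr n k0 hk0 k hk i (hSL i hi) i' (hSL i' hi') (hSco i hi i' hi'))
      (by
        intro k hk
        have a1 : (((S.filter fun i => (i, k) ∈ (G n).I).image
            fun i => ⌊(G n).co k i jF / B.d n ^ x⌋).card : ℝ)
            ≤ ((((G n).slice k).image fun i => ⌊(G n).co k i jF / B.d n ^ x⌋).card : ℝ) := by
          have : ((S.filter fun i => (i, k) ∈ (G n).I).image
            fun i => ⌊(G n).co k i jF / B.d n ^ x⌋) ⊆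
            (((G n).slice k).image fun i => ⌊(G n).co k i jF / B.d n ^ x⌋) := by
            apply Finset.image_subset_image
            intro i hi
            obtain ⟨b1, b2⟩ := Finset.mem_filter.1 hi
            exact mem_slice.2 ⟨hSL i b1, b2⟩
          exact_mod_cast Finset.card_le_card this
        have a2 := cells_le ((G n).slice k) (fun i => (G n).co k i jF) (B.d n ^ x)
          (B.d n ^ (-ν pe + ε)) (hpow _) (by
            intro i hi
            refine (h4 i k (mem_slice.1 hi).2).1.trans ?_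
            have : (G n).box pe i k ⊆ ((G n).slice k).filter fun i' =>
                |(G n).co k i' jF - (G n).co k i jF| ≤ B.d n ^ x := by
              intro i' hi'
              rw [mem_box] at hi'
              rw [Finset.mem_filter]
              refine ⟨hi'.1, ?_⟩
              have := hi'.2 jF
              rw [H.base] at this
              simpa [hpe] using this
            exact_mod_cast Finset.card_le_card this)
        refine a1.trans ?_
        have a3 : (B.d n ^ (-ν pe + ε)) * ((((G n).slice k).image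
            fun i => ⌊(G n).co k i jF / B.d n ^ x⌋).card : ℝ)
            ≤ (B.d n ^ (-ν pe + ε)) * (3 * B.d n ^ (-ν 0 + ν pe - 2 * ε)) := by
          calc _ = ((((G n).slice k).image
            fun i => ⌊(G n).co k i jF / B.d n ^ x⌋).card : ℝ) * (B.d n ^ (-ν pe + ε)) := mul_comm _ _
            _ ≤ 3 * (((G n).slice k).card : ℝ) := a2
            _ ≤ 3 * B.d n ^ (-ν 0 - ε) := by linarith [h5 k hk]
            _ = 3 * (B.d n ^ (-ν pe + ε) * B.d n ^ (-ν 0 + ν pe - 2 * ε)) := by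
                rw [← rpow_add']; congr 2; ring
            _ = _ := by ring
        exact le_of_mul_le_mul_left a3 (hpow _))
      (by
        calc B.d n ^ ε * ((S.card : ℝ) * (G n).Z.card)
            = ∑ i ∈ S, B.d n ^ ε * ((G n).Z.card : ℝ) := by
              rw [Finset.sum_const, nsmul_eq_mul]; ring
          _ ≤ _ := by
              refine Finset.sum_le_sum fun i hi => ?_
              exact h6 i (hSL i hi))
      (fun j => hpow _)
      (by
        intro i hi i' hi'
        simp only [sc_zero, Real.rpow_zero]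
        exact Bd.co_sub_le (H.bd n) (hSL i' hi') (hSL i hi) hk0 jV)
      (fun j => (hpow _).le) (fun j => (hpow _).le)
      (by
        intro j hj i hi
        have b1 := (h1 j (by simpa [Nat.lt_succ_iff] using hj) i k0 (hSI i hi)).2
        have b2 : (S.filter fun i' => |(G n).co k0 i' jV - (G n).co k0 i jV| ≤ B.d n ^ sc x J j ∧
            |(G n).co k0 i' jF - (G n).co k0 i jF| ≤ B.d n ^ x + Ce * B.d n ^ x
              + 2 * B.d n ^ sc x J j) ⊆ (G n).box (qe j) i k0 := by
          intro i' hi'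
          obtain ⟨c1, c2, c3⟩ := Finset.mem_filter.1 hi'
          rw [mem_box]
          refine ⟨box_subset_slice c1, fun c => ?_⟩
          rw [H.base]
          have c4 := Bd.co_sub_le (H.bd n) (hSL i hi) (hSL i' c1) hk0 c
          -- a uniform bound by (2 + 4 (1 + Ce)) * d ^ q
          have c5 : |(G n).co k0 i' c - (G n).co k0 i c| ≤ (2 + 4 * (1 + Ce)) * B.d n ^ q j c := by
            by_cases hc : c = jF ∨ c = jV
            · have e1 : q j c = sc x J j := by simp only [hq, pp]; rw [if_pos hc]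
              rw [e1]
              have e2 : B.d n ^ x ≤ B.d n ^ sc x J j := rpow_anti B n (sc_le hx.le hJ hj)
              have e3 := hpow (sc x J j)
              rcases hc with rfl | rfl
              · refine c3.trans ?_
                nlinarith
              · refine c2.trans ?_
                nlinarith
            · have e1 : q j c = pS c := by simp only [hq, pp]; rw [if_neg hc]
              rw [e1]
              refine (hSco i hi i' c1 c).trans ?_
              have e3 := hpow (pS c)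
              nlinarith
          have c6 : |(G n).co k0 i' c - (G n).co k0 i c| ≤ B.d n ^ (q j c - ε) := by
            refine c5.trans ?_
            rw [sub_eq_add_neg, rpow_add', mul_comm]
            exact mul_le_mul_of_nonneg_left h7 (hpow _).le
          simp only [hqe]
          rcases le_total (q j c - ε) 0 with hle | hle
          · rw [max_eq_right hle, Real.rpow_zero]; exact c4
          · rw [max_eq_left hle]; exact c6
        calc _ ≤ (((G n).box (qe j) i k0).card : ℝ) := by exact_mod_cast Finset.card_le_card b2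
          _ ≤ B.d n ^ (-ν (qe j) - ε) := b1
          _ ≤ B.d n ^ (-ν (q j) - 5 * ε) := rpow_anti B n (by linarith [hνq j hj]))
      (by
        intro j hj k hk
        have b1 := h2 j (Finset.mem_range.2 hj) k hk
        set y := x - sc x J (j + 1) with hy
        have hy0 : 0 ≤ y := by
          have := sc_le hx.le hJ (Nat.succ_le_of_lt hj)
          simp only [hy]; linarith
        have b2 : 2 * (B.d n ^ x + Ce * B.d n ^ x) / B.d n ^ sc x J (j + 1)
            ≤ B.d n ^ (y - ε) := by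
          have : 2 * (B.d n ^ x + Ce * B.d n ^ x) / B.d n ^ sc x J (j + 1)
              = (2 * (1 + Ce)) * B.d n ^ y := by
            rw [hy, Real.rpow_sub hd]; ring
          rw [this, sub_eq_add_neg, rpow_add', mul_comm]
          refine mul_le_mul_of_nonneg_left (le_trans ?_ h7) (hpow _).le
          linarith
        rcases le_total (y - ε) 0 with hle | hle
        · have b3 : (((G n).Z.filter fun k' => |(G n).z k' - (G n).z k| ≤
              2 * (B.d n ^ x + Ce * B.d n ^ x) / B.d n ^ sc x J (j + 1)).card : ℝ)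
              ≤ (G n).Z.card := by
            exact_mod_cast Finset.card_le_card (Finset.filter_subset _ _)
          refine b3.trans ?_
          have b4 : (1 : ℝ) ≤ B.d n ^ (σ * y - 2 * ε) :=
            Real.one_le_rpow_of_pos_of_le_one_of_nonpos hd (B.lt n).le (by nlinarith)
          nlinarith [(Nat.cast_nonneg (G n).Z.card : (0:ℝ) ≤ _)]
        · rw [max_eq_left hle] at b1
          calc _ ≤ (((G n).Z.filter fun k' => |(G n).z k' - (G n).z k| ≤
              B.d n ^ (y - ε)).card : ℝ) := by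
                have : (G n).Z.filter (fun k' => |(G n).z k' - (G n).z k| ≤
                  2 * (B.d n ^ x + Ce * B.d n ^ x) / B.d n ^ sc x J (j + 1)) ⊆
                  (G n).Z.filter (fun k' => |(G n).z k' - (G n).z k| ≤ B.d n ^ (y - ε)) := by
                  intro k' hk'
                  rw [Finset.mem_filter] at hk' ⊢
                  exact ⟨hk'.1, hk'.2.trans b2⟩
                exact_mod_cast Finset.card_le_card this
            _ ≤ _ := b1
            _ ≤ _ := by
                refine mul_le_mul_of_nonneg_right (rpow_anti B n ?_) (Nat.cast_nonneg _)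
                nlinarith)
      (by
        apply Real.one_le_rpow_of_pos_of_le_one_of_nonpos hd (B.lt n).le
        rw [sc_succ x hJ, sc_top x hJ]
        have : 0 ≤ σ * (x / J) := by positivity
        nlinarith)
    -- conclusion
    have k1 : B.d n ^ (-ν pS + 3 * ε) ≤ (B.d n ^ ε) ^ 2 * (S.card : ℝ) := by
      have : B.d n ^ (-ν pS + 3 * ε) = (B.d n ^ ε) ^ 2 * B.d n ^ (-ν pS + ε) := by
        rw [sq, ← rpow_add', ← rpow_add']; congr 1; ring
      rw [this]
      exact mul_le_mul_of_nonneg_left hScard (by positivity)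
    calc B.d n ^ (-ν pS + 9 * ε) ≤ B.d n ^ (-ν pS + 3 * ε) := rpow_anti B n (by linarith)
      _ ≤ _ := k1
      _ ≤ _ := key
      _ = _ := by
          rw [mul_assoc, Finset.mul_sum]
          congr 1
          refine Finset.sum_congr rfl fun j _ => ?_
          rw [← rpow_add', ← rpow_add']
          congr 1
          ring)
  refine ⟨j, hj, ?_⟩
  linarith

theorem pp_N (x t : ℝ) : pp ![0, 0, x, x] 0 1 t = ![t, t, x, x] := by
  funext c
  fin_cases c <;> simp [pp]

theorem pp_X (t : ℝ) : pp 0 3 2 t = ![0, 0, t, t] := by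
  funext c
  fin_cases c <;> simp [pp]

theorem single_N (x : ℝ) : (Pi.single (0 : Fin 4) x : Fin 4 → ℝ) = ![x, 0, 0, 0] := by
  funext c
  fin_cases c <;> simp

theorem single_X (x : ℝ) : (Pi.single (3 : Fin 4) x : Fin 4 → ℝ) = ![0, 0, 0, x] := by
  funext c
  fin_cases c <;> simp

/-- **(K)** Kaufman for (normal position, normal velocity) in the fibre `|dC|, |dX| ≤ ρ^x` -/
theorem kauf_N (H : FModel B G σ R ν) {x : ℝ} (hx : 0 < x) (hxR : x ≤ R) {J : ℕ} (hJ : 0 < J) :
    ∃ j ≤ J, ν ![0, 0, x, x] - ν ![sc x J j, sc x J j, x, x] + σ * (x - sc x J (j + 1))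
      ≤ ν 0 - ν ![x, 0, 0, 0] := by
  have h := kauf_gen H hx hxR hJ ![0, 0, x, x] (by
      intro j
      fin_cases j <;> simp [hx.le, hxR, H.R_pos.le]) 0 1 (by simp) (by simp) 12 (by norm_num) (by
      intro n k0 hk0 k hk i hi i' hi' hco
      have hd := B.pos n
      have hpow : 0 < B.d n ^ x := Real.rpow_pos_of_pos hd x
      have c2 : |(G n).c i' - (G n).c i| ≤ 2 * B.d n ^ x := by simpa [Cfg.co] using hco 2
      have c3 : |(G n).X i' k0 - (G n).X i k0| ≤ 2 * B.d n ^ x := by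
        simpa [Cfg.co] using hco 3
      have e : (G n).co k i 0 - (G n).co k i' 0 - (((G n).co k0 i 0 - (G n).co k0 i' 0)
        + ((G n).z k - (G n).z k0) * ((G n).co k0 i 1 - (G n).co k0 i' 1))
        = ((G n).f k - (G n).f k0) * ((G n).X i' k0 - (G n).X i k0)
          + ((G n).z k - (G n).z k0) * ((G n).f k - (G n).f k0) * ((G n).c i' - (G n).c i) := by
        simp only [Cfg.co, Matrix.cons_val_zero, Matrix.cons_val_one]
        rw [Cfg.N_change (G n) i k0 k, Cfg.N_change (G n) i' k0 k]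
        ring
      rw [e]
      have f1 : |(G n).f k - (G n).f k0| ≤ 2 := by
        have a1 := (H.bd n).f k hk
        have a2 := (H.bd n).f k0 hk0
        rw [abs_le] at *
        constructor <;> linarith [a1.1, a1.2, a2.1, a2.2]
      have f2 : |(G n).z k - (G n).z k0| ≤ 2 := by
        have a1 := (H.bd n).z k hk
        have a2 := (H.bd n).z k0 hk0
        rw [abs_le] at *
        constructor <;> linarith [a1.1, a1.2, a2.1, a2.2]
      refine (abs_add_le _ _).trans ?_
      rw [abs_mul, abs_mul, abs_mul]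
      have g1 : |(G n).f k - (G n).f k0| * |(G n).X i' k0 - (G n).X i k0| ≤ 2 * (2 * B.d n ^ x) :=
        mul_le_mul f1 c3 (abs_nonneg _) (by norm_num)
      have g2 : |(G n).z k - (G n).z k0| * |(G n).f k - (G n).f k0| ≤ 2 * 2 :=
        mul_le_mul f2 f1 (abs_nonneg _) (by norm_num)
      have g3 : |(G n).z k - (G n).z k0| * |(G n).f k - (G n).f k0| * |(G n).c i' - (G n).c i|
          ≤ 2 * 2 * (2 * B.d n ^ x) := mul_le_mul g2 c2 (abs_nonneg _) (by norm_num)
      linarith)
  simpa only [pp_N, single_N] using h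

/-- **(F)** Kaufman for (lateral position, lateral velocity) -/
theorem kauf_X (H : FModel B G σ R ν) {x : ℝ} (hx : 0 < x) (hxR : x ≤ R) {J : ℕ} (hJ : 0 < J) :
    ∃ j ≤ J, ν 0 - ν ![0, 0, sc x J j, sc x J j] + σ * (x - sc x J (j + 1))
      ≤ ν 0 - ν ![0, 0, 0, x] := by
  have h := kauf_gen H hx hxR hJ 0 (by
      intro j
      simp [H.R_pos.le]) 3 2 (by simp) (by simp) 0 (by norm_num) (by
      intro n k0 hk0 k hk i hi i' hi' hco
      have e : (G n).co k i 3 - (G n).co k i' 3 - (((G n).co k0 i 3 - (G n).co k0 i' 3)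
        + ((G n).z k - (G n).z k0) * ((G n).co k0 i 2 - (G n).co k0 i' 2)) = 0 := by
        have e3 : ∀ k i, (G n).co k i 3 = (G n).X i k := fun k i => by simp [Cfg.co]
        have e2 : ∀ k i, (G n).co k i 2 = (G n).c i := fun k i => by simp [Cfg.co]
        rw [e3, e3, e3, e3, e2, e2, Cfg.X_change (G n) i k0 k, Cfg.X_change (G n) i' k0 k]
        ring
      rw [e]
      simp)
  simpa only [pp_X, single_X] using h

/-! ### exact forms (compactness) -/

/-- two-sided Lipschitz bound -/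
theorem nu_dist (H : FModel B G σ R ν) {p p' : Fin 4 → ℝ} (hp : ∀ j, 0 ≤ p j ∧ p j ≤ R)
    (hp' : ∀ j, 0 ≤ p' j ∧ p' j ≤ R) : |ν p - ν p'| ≤ ∑ j, |p j - p' j| := by
  -- compare both with the pointwise maximum
  set r : Fin 4 → ℝ := fun j => max (p j) (p' j) with hr
  have hrR : ∀ j, r j ≤ R := fun j => max_le (hp j).2 (hp' j).2
  have a1 := nu_lip H (p := p) (p' := r) (fun j => (hp j).1) (fun j => le_max_left _ _) hrR
  have a2 := nu_lip H (p := p') (p' := r) (fun j => (hp' j).1) (fun j => le_max_right _ _) hrR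
  have b1 := nu_anti H (p := p) (p' := r) (fun j => (hp j).1) (fun j => le_max_left _ _) hrR
  have b2 := nu_anti H (p := p') (p' := r) (fun j => (hp' j).1) (fun j => le_max_right _ _) hrR
  have c1 : ∑ j, (r j - p j) ≤ ∑ j, |p j - p' j| := by
    refine Finset.sum_le_sum fun j _ => ?_
    simp only [hr]
    rcases le_total (p j) (p' j) with h | h
    · rw [max_eq_right h, abs_sub_comm, abs_of_nonneg (by linarith)]
    · rw [max_eq_left h]; simp
  have c2 : ∑ j, (r j - p' j) ≤ ∑ j, |p j - p' j| := by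
    refine Finset.sum_le_sum fun j _ => ?_
    simp only [hr]
    rcases le_total (p j) (p' j) with h | h
    · rw [max_eq_right h]; simp
    · rw [max_eq_left h, abs_of_nonneg (by linarith)]
  rw [abs_le]
  constructor <;> linarith

theorem pp01 {x : ℝ} (hxR : x ≤ R) (pS : Fin 4 → ℝ) (hpS : ∀ j, 0 ≤ pS j ∧ pS j ≤ R)
    (jF jV : Fin 4) {t : ℝ} (ht : t ∈ Set.Icc 0 x) (c : Fin 4) :
    0 ≤ pp pS jF jV t c ∧ pp pS jF jV t c ≤ R := by
  simp only [pp]
  split_ifs
  · exact ⟨ht.1, ht.2.trans hxR⟩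
  · exact hpS c

/-- `kauf_gen` with the minimum over `[0, x]` -/
theorem kauf_gen_exact (H : FModel B G σ R ν) {x : ℝ} (hx : 0 < x) (hxR : x ≤ R)
    (pS : Fin 4 → ℝ) (hpS : ∀ j, 0 ≤ pS j ∧ pS j ≤ R) (jF jV : Fin 4) (α : ℝ)
    (h : ∀ J : ℕ, 0 < J → ∃ j ≤ J, ν pS - ν (pp pS jF jV (sc x J j)) +
      σ * (x - sc x J (j + 1)) ≤ α) :
    ∃ t ∈ Set.Icc 0 x, ν pS - ν (pp pS jF jV t) + σ * (x - t) ≤ α := by
  have hcont : ContinuousOn (fun t => ν pS - ν (pp pS jF jV t) + σ * (x - t)) (Set.Icc 0 x) := by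
    have h1 : ContinuousOn (fun t => ν (pp pS jF jV t)) (Set.Icc 0 x) := by
      have : LipschitzOnWith 4 (fun t => ν (pp pS jF jV t)) (Set.Icc 0 x) := by
        refine LipschitzOnWith.of_dist_le_mul fun s hs t ht => ?_
        rw [Real.dist_eq, Real.dist_eq]
        refine (nu_dist H (pp01 hxR pS hpS jF jV hs) (pp01 hxR pS hpS jF jV ht)).trans ?_
        calc ∑ j, |pp pS jF jV s j - pp pS jF jV t j| ≤ ∑ _j : Fin 4, |s - t| := by
              refine Finset.sum_le_sum fun c _ => ?_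
              simp only [pp]
              split_ifs
              · exact le_rfl
              · simp
          _ = _ := by simp
      exact this.continuousOn
    have h2 : ContinuousOn (fun t : ℝ => σ * (x - t)) (Set.Icc 0 x) := by fun_prop
    exact (continuousOn_const.sub h1).add h2
  obtain ⟨t, ht, hmin⟩ := isCompact_Icc.exists_isMinOn (Set.nonempty_Icc.2 hx.le) hcont
  refine ⟨t, ht, ?_⟩
  refine le_of_forall_pos_le_add fun e he => ?_
  obtain ⟨J, hJ⟩ := exists_nat_gt (σ * x / e)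
  have hσ := H.σ_nonneg
  have hJpos : 0 < J := by
    have : 0 ≤ σ * x / e := by positivity
    have h2 : (0 : ℝ) < J := lt_of_le_of_lt this hJ
    exact_mod_cast h2
  have hJr : (0 : ℝ) < J := by exact_mod_cast hJpos
  obtain ⟨j, hj, h1⟩ := h J hJpos
  have h2 : sc x J j ∈ Set.Icc 0 x := ⟨sc_nonneg hx.le J j, sc_le hx.le hJpos hj⟩
  have h3 : ν pS - ν (pp pS jF jV t) + σ * (x - t)
      ≤ ν pS - ν (pp pS jF jV (sc x J j)) + σ * (x - sc x J j) := hmin h2
  rw [sc_succ x hJpos] at h1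
  have h4 : σ * (x / J) ≤ e := by
    rw [mul_div_assoc', div_le_iff₀ hJr]
    rw [div_lt_iff₀ he] at hJ
    linarith
  nlinarith

/-- **(K)**, exact form -/
theorem kauf_N' (H : FModel B G σ R ν) {x : ℝ} (hx : 0 < x) (hxR : x ≤ R) :
    ∃ t ∈ Set.Icc 0 x, ν ![0, 0, x, x] - ν ![t, t, x, x] + σ * (x - t)
      ≤ ν 0 - ν ![x, 0, 0, 0] := by
  have h := kauf_gen_exact H hx hxR ![0, 0, x, x] (by
      intro j
      fin_cases j <;> simp [hx.le, hxR, H.R_pos.le]) 0 1 (ν 0 - ν ![x, 0, 0, 0])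
    (fun J hJ => by simpa only [pp_N] using kauf_N H hx hxR hJ)
  simpa only [pp_N] using h

/-- **(F)**, exact form -/
theorem kauf_X' (H : FModel B G σ R ν) {x : ℝ} (hx : 0 < x) (hxR : x ≤ R) :
    ∃ t ∈ Set.Icc 0 x, ν 0 - ν ![0, 0, t, t] + σ * (x - t) ≤ ν 0 - ν ![0, 0, 0, x] := by
  have h := kauf_gen_exact H hx hxR 0 (by
      intro j
      simp [H.R_pos.le]) 3 2 (ν 0 - ν ![0, 0, 0, x])
    (fun J hJ => by simpa only [pp_X] using kauf_X H hx hxR hJ)
  simpa only [pp_X] using h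

/-- **(F1)** in the half coupled case -/
theorem F1_half (H : FModel B G σ R ν) {a m : ℝ} {β : ℝ → ℝ → ℝ} (hdec : HalfCoupled ν R a m β)
    (hm : 0 < m) {x : ℝ} (hx : 0 ≤ x) (hxR : x ≤ R) : σ * x ≤ β 0 x := by
  have hR := H.R_pos
  have e1 : ∀ t ∈ Set.Icc 0 R, β 0 t = ν 0 - ν ![0, 0, 0, t] := by
    intro t ht
    rw [hdec ![0, 0, 0, t] (by intro c; fin_cases c <;> simp [ht.1, ht.2, hR.le])]
    simp
  have h0 : β 0 0 = 0 := by
    rw [e1 0 ⟨le_rfl, hR.le⟩]
    have : (![0, 0, 0, 0] : Fin 4 → ℝ) = 0 := by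
      funext c; fin_cases c <;> simp
    rw [this]; simp
  have hcont : ContinuousOn (fun t => β 0 t - σ * t) (Set.Icc 0 R) := by
    have h1 : ContinuousOn (fun t => β 0 t) (Set.Icc 0 R) := by
      have : LipschitzOnWith 1 (fun t => β 0 t) (Set.Icc 0 R) := by
        refine LipschitzOnWith.of_dist_le_mul fun s hs t ht => ?_
        rw [Real.dist_eq, Real.dist_eq, e1 s hs, e1 t ht]
        have h2 := nu_dist H (p := ![0, 0, 0, t]) (p' := ![0, 0, 0, s])
          (by intro c; fin_cases c <;> simp [ht.1, ht.2, hR.le])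
          (by intro c; fin_cases c <;> simp [hs.1, hs.2, hR.le])
        simp [Fin.sum_univ_four] at h2
        have h3 : ν 0 - ν ![0, 0, 0, s] - (ν 0 - ν ![0, 0, 0, t])
            = ν ![0, 0, 0, t] - ν ![0, 0, 0, s] := by ring
        rw [h3]
        simpa [abs_sub_comm] using h2
      exact this.continuousOn
    fun_prop
  obtain ⟨t, ht, hmin⟩ := isCompact_Icc.exists_isMinOn (Set.nonempty_Icc.2 hR.le) hcont
  have hmin' : ∀ s ∈ Set.Icc 0 R, β 0 t - σ * t ≤ β 0 s - σ * s := fun s hs => hmin hs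
  have key : 0 ≤ β 0 t - σ * t := by
    rcases ht.1.eq_or_lt with h | h
    · rw [← h, h0]; simp
    · obtain ⟨u, hu, h2⟩ := kauf_X' H h ht.2
      have huR : u ∈ Set.Icc 0 R := ⟨hu.1, hu.2.trans ht.2⟩
      rw [hdec ![0, 0, u, u] (by intro c; fin_cases c <;> simp [huR.1, huR.2, hR.le]),
        ← e1 t ht] at h2
      simp at h2
      have h3 := hmin' u huR
      have h4 : m * u ≤ 0 := by nlinarith
      have h5 : u = 0 := by
        rcases hu.1.eq_or_lt with h | h
        · exact h.symm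
        · nlinarith
      subst h5
      rw [h0] at h2
      simp at h2
      linarith
  have := hmin' x ⟨hx, hxR⟩
  linarith

/-- **(K)** in the half coupled case -/
theorem K_half (H : FModel B G σ R ν) {a m : ℝ} {β : ℝ → ℝ → ℝ} (hdec : HalfCoupled ν R a m β)
    {x : ℝ} (hx : 0 < x) (hxR : x ≤ R) :
    ∃ t ∈ Set.Icc 0 x, a * t + (β t x - β 0 x) + σ * (x - t) ≤ a * x := by
  have hR := H.R_pos
  obtain ⟨t, ht, h⟩ := kauf_N' H hx hxR
  refine ⟨t, ht, ?_⟩
  rw [hdec ![0, 0, x, x] (by intro c; fin_cases c <;> simp [hx.le, hxR, hR.le]),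
    hdec ![t, t, x, x] (by
      intro c; fin_cases c <;> simp [ht.1, ht.2.trans hxR, hx.le, hxR]),
    hdec ![x, 0, 0, 0] (by intro c; fin_cases c <;> simp [hx.le, hxR, hR.le])] at h
  simp at h
  have h0 : β 0 0 = 0 := by
    have := hdec 0 (by intro c; simp [hR.le])
    simp at this
    linarith
  rw [h0] at h
  linarith

/-! ### the decoupled case -/

/-- a linear function on `[0, x]` -/
theorem min_le_of_sc {A σ α x : ℝ} (hx : 0 < x) (hσ : 0 ≤ σ)
    (h : ∀ J : ℕ, 0 < J → ∃ j ≤ J, A * sc x J j + σ * (x - sc x J (j + 1)) ≤ α * x) :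
    min σ A ≤ α := by
  by_contra hcon
  push Not at hcon
  obtain ⟨J, hJ⟩ := exists_nat_gt (σ / (min σ A - α))
  have hgap : 0 < min σ A - α := by linarith
  have hJpos : 0 < J := by
    have : 0 ≤ σ / (min σ A - α) := by positivity
    have h2 : (0 : ℝ) < J := lt_of_le_of_lt this hJ
    exact_mod_cast h2
  have hJr : (0 : ℝ) < J := by exact_mod_cast hJpos
  obtain ⟨j, hj, h1⟩ := h J hJpos
  rw [sc_succ x hJpos] at h1
  have h2 : 0 ≤ sc x J j := sc_nonneg hx.le J j
  have h3 : sc x J j ≤ x := sc_le hx.le hJpos hj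
  have h4 : min σ A * x ≤ A * sc x J j + σ * (x - sc x J j) := by
    have a1 : min σ A * sc x J j ≤ A * sc x J j := mul_le_mul_of_nonneg_right (min_le_right _ _) h2
    have a2 : min σ A * (x - sc x J j) ≤ σ * (x - sc x J j) :=
      mul_le_mul_of_nonneg_right (min_le_left _ _) (by linarith)
    nlinarith
  have h5 : (min σ A - α) * x ≤ σ * (x / J) := by nlinarith
  rw [div_lt_iff₀ hgap] at hJ
  have h6 : σ * (x / J) < (min σ A - α) * x := by
    rw [mul_div_assoc', div_lt_iff₀ hJr]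
    nlinarith
  linarith

theorem rate_y (H : FModel B G σ R ν) {a q m y : ℝ} (hdec : Decoupled ν R a q m y)
    (hm : 0 < m) : σ ≤ y := by
  have hR := H.R_pos
  have h : min σ (m + y) ≤ y := by
    refine min_le_of_sc (x := R) hR H.σ_nonneg fun J hJ => ?_
    obtain ⟨j, hj, h⟩ := kauf_X H hR le_rfl hJ
    refine ⟨j, hj, ?_⟩
    have h1 : 0 ≤ sc R J j := sc_nonneg hR.le J j
    have h2 : sc R J j ≤ R := sc_le hR.le hJ hj
    rw [hdec ![0, 0, sc R J j, sc R J j] (by intro c; fin_cases c <;> simp [h1, h2, hR.le]),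
      hdec ![0, 0, 0, R] (by intro c; fin_cases c <;> simp [hR.le])] at h
    simp at h
    linarith
  rcases min_le_iff.1 h with h | h
  · exact h
  · linarith

/-- **(K)** decoupled, no `DMax` -/
theorem rate_a_min (H : FModel B G σ R ν) {a q m y : ℝ} (hdec : Decoupled ν R a q m y) :
    min σ (a + q) ≤ a := by
  have hR := H.R_pos
  refine min_le_of_sc (x := R) hR H.σ_nonneg fun J hJ => ?_
  obtain ⟨j, hj, h⟩ := kauf_N H hR le_rfl hJ
  refine ⟨j, hj, ?_⟩
  have h1 : 0 ≤ sc R J j := sc_nonneg hR.le J j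
  have h2 : sc R J j ≤ R := sc_le hR.le hJ hj
  rw [hdec ![sc R J j, sc R J j, R, R] (by intro c; fin_cases c <;> simp [h1, h2, hR.le]),
    hdec ![0, 0, R, R] (by intro c; fin_cases c <;> simp [hR.le]),
    hdec ![R, 0, 0, 0] (by intro c; fin_cases c <;> simp [hR.le])] at h
  simp at h
  linarith

/-- **(K)**: `q > 0 → σ ≤ a` -/
theorem rate_a_of_q (H : FModel B G σ R ν) {a q m y : ℝ} (hdec : Decoupled ν R a q m y)
    (hq : 0 < q) : σ ≤ a := by
  rcases min_le_iff.1 (rate_a_min H hdec) with h | h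
  · exact h
  · linarith

theorem rate_a (H : FModel B G σ R ν) {a q m y : ℝ} (hdec : Decoupled ν R a q m y)
    (hD : DMax ν R) : σ ≤ a ∧ 1 ≤ a + q := by
  have hR := H.R_pos
  have hq : 1 ≤ a + q := by
    have h1 := hD R 0 hR.le le_rfl le_rfl hR.le
    rw [hdec ![R, R, 0, 0] (by intro c; fin_cases c <;> simp [hR.le])] at h1
    simp at h1
    nlinarith
  refine ⟨?_, hq⟩
  have h := rate_a_min H hdec
  rcases min_le_iff.1 h with h | h
  · exact h
  · linarith [H.σ_le]

/-- **Block TW0**. -/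
theorem TW0_proof : TW0 := by
  intro B G σ R ν κ c a q m y H hκ hκR hdec hm hgr hD
  have hy := rate_y H hdec hm
  obtain ⟨ha, hq⟩ := rate_a H hdec hD
  have h1 := hgr 1 zero_le_one le_rfl
  rw [hdec ![(1 + κ) * 1, κ * 1, 0, 1] (by
    intro c
    fin_cases c <;> simp <;> first | (constructor <;> linarith) | linarith)] at h1
  simp at h1
  have h2 : κ ≤ κ * (a + q) := by nlinarith
  nlinarith

end Crest.Agent.R138.Tw829
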