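import Crest.Agent.R138.Tw1_628

/-!
# R138: F-model, the transfer principle and the twist inequalities (helper628)
-/

set_option autoImplicit false
set_option linter.unusedVariables false
set_option linter.unusedSectionVars false

open Filter Topology Finset

namespace Crest.Agent.R138.Tw628

open Crest.Agent.R138.Ex926 Crest.Agent.R138.FM501 Crest.Agent.R138.TwA501

variable {B : Base} {G : ℕ → Cfg} {σ R : ℝ} {ν : (Fin 4 → ℝ) → ℝ}

/-- a subset of a slice which is pairwise close at scale `C ρ^(p - ε)` has at most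
`ρ^(-ν p - 5 ε)` elements -/
theorem card_pw_loss (h : FModel B G σ R ν) (C : ℕ) (p : Fin 4 → ℝ)
    (hp : ∀ j, 0 ≤ p j ∧ p j ≤ R) {ε : ℝ} (hε : 0 < ε) :
    ∀ᶠ n in (U : Filter ℕ), ∀ k ∈ (G n).Z, ∀ T ⊆ (G n).slice k,
      (∀ i ∈ T, ∀ i' ∈ T, ∀ j, |(G n).co k i' j - (G n).co k i j| ≤ C * B.d n ^ (p j - ε)) →
      (T.card : ℝ) ≤ B.d n ^ (-ν p - 5 * ε) := by
  classical
  set p' : Fin 4 → ℝ := fun j => max 0 (p j - ε) with hp'
  have hp'm : ∀ j, 0 ≤ p' j ∧ p' j ≤ R := fun j =>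
    ⟨le_max_left _ _, max_le h.R_pos.le (by linarith [(hp j).2])⟩
  have hp'le : p' ≤ p := fun j => max_le (hp j).1 (by linarith)
  have hlip := nu_lip h p' p hp'm hp hp'le
  have hsum : ∑ j, (p j - p' j) ≤ 4 * ε := by
    calc ∑ j : Fin 4, (p j - p' j) ≤ ∑ j : Fin 4, ε :=
          sum_le_sum fun j _ => by
            have : p j - ε ≤ p' j := le_max_right _ _
            linarith
      _ = 4 * ε := by simp
  filter_upwards [card_pw h (C + 1) p' hp'm hε] with n hn k hk T hT hclose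
  have h1 : (T.card : ℝ) ≤ B.d n ^ (-ν p' - ε) := by
    refine hn k T hT fun i hi i' hi' j => ?_
    have h2 := hclose i hi i' hi' j
    rcases le_total 0 (p j - ε) with h3 | h3
    · have h4 : p' j = p j - ε := max_eq_right h3
      rw [h4]
      refine h2.trans ?_
      refine mul_le_mul_of_nonneg_right ?_ (dpow_pos B n _).le
      push_cast; linarith
    · have h4 : p' j = 0 := max_eq_left h3
      rw [h4, Real.rpow_zero, mul_one]
      have hi1 := (mem_slice_iff_I h).1 (hT hi)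
      have hi1' := (mem_slice_iff_I h).1 (hT hi')
      have h5 := abs_co_sub_le (h.bd n) (mem_L_of_I h hi1) (mem_L_of_I h hi1') hk j
      refine h5.trans ?_
      push_cast
      have : (0 : ℝ) ≤ C := Nat.cast_nonneg _
      linarith
  refine h1.trans (dpow_anti B n ?_)
  linarith

/-- number of cells, final form -/
theorem card_vlab' (h : FModel B G σ R ν) (p : Fin 4 → ℝ) (hp : ∀ j, 0 ≤ p j ∧ p j ≤ R)
    {ε : ℝ} (hε : 0 < ε) :
    ∀ᶠ n in (U : Filter ℕ), ∀ k ∈ (G n).Z, ∀ T ⊆ (G n).slice k,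
      ((T.image (vlab (G n) p k)).card : ℝ) ≤ B.d n ^ (-(ν 0 - ν p) - ε) := by
  filter_upwards [card_vlab h p hp (half_pos hε), card_slice_le h (half_pos hε)]
    with n h1 h2 k hk T hT
  refine (h1 k T hT).trans ?_
  have h3 : B.d n ^ (-(ν 0 - ν p) - ε) = B.d n ^ (-ν 0 - ε / 2) * B.d n ^ (ν p - ε / 2) := by
    rw [← dpow_add]; congr 1; ring
  rw [h3]
  exact mul_le_mul_of_nonneg_right (h2 k hk) (dpow_pos B n _).le

/-- the geometric hypothesis of the transfer principle: two lines of one `p`-box at height `k`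
which are `r`-near at height `k'` are `p'`-near at `k`, up to the loss `g⁻¹`. -/
def Geo (B : Base) (G : ℕ → Cfg) (C : ℕ) (p r p' : Fin 4 → ℝ) : Prop :=
  ∀ n, ∀ k ∈ (G n).Z, ∀ k' ∈ (G n).Z, 0 < |(G n).f k - (G n).f k'| →
    ∀ i ∈ (G n).L, ∀ i' ∈ (G n).L,
      (∀ j, |(G n).co k i' j - (G n).co k i j| ≤ B.d n ^ p j) →
      (∀ j, |(G n).co k' i' j - (G n).co k' i j| ≤ B.d n ^ r j) →
      ∀ j, |(G n).f k - (G n).f k'| * |(G n).co k i' j - (G n).co k i j| ≤ C * B.d n ^ p' j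

/-- **transfer principle** -/
theorem transfer (h : FModel B G σ R ν) (hT : TwistMaj B G) (p r p' : Fin 4 → ℝ)
    (hp : ∀ j, 0 ≤ p j ∧ p j ≤ R) (hr : ∀ j, 0 ≤ r j ∧ r j ≤ R) (hp' : ∀ j, 0 ≤ p' j ∧ p' j ≤ R)
    (C : ℕ) (hgeo : Geo B G C p r p') : ν p - ν p' ≤ ν 0 - ν r := by
  classical
  by_contra hcon
  push Not at hcon
  set γ := (ν p - ν p') - (ν 0 - ν r) with hγ
  have hγ0 : 0 < γ := by rw [hγ]; linarith
  set ε := γ / 8 with hε
  have hε0 : 0 < ε := by rw [hε]; linarith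
  obtain ⟨n, h1, h2, h3⟩ := ((good_cell h hT p hp hε0).and
    ((card_vlab' h r hr hε0).and (card_pw_loss h C p' hp' hε0))).exists
  obtain ⟨k, hk, k', hk', hg, S, hS, hS', hSp, hSc⟩ := h1
  have hSpos : 0 < (S.card : ℝ) := lt_of_lt_of_le (dpow_pos B n _) hSc
  have hgpos : 0 < |(G n).f k - (G n).f k'| := (dpow_pos B n _).trans hg
  -- fibres of the `r` label at `k'`
  have hfib : ∀ a ∈ S, ((S.filter fun x => vlab (G n) r k' x = vlab (G n) r k' a).card : ℝ) ≤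
      B.d n ^ (-ν p' - 5 * ε) := by
    intro a ha
    refine h3 k hk _ ((filter_subset _ _).trans hS) fun i hi i' hi' j => ?_
    rw [mem_filter] at hi hi'
    have hiI := (mem_slice_iff_I h).1 (hS hi.1)
    have hiI' := (mem_slice_iff_I h).1 (hS hi'.1)
    have g1 : ∀ j, |(G n).co k i' j - (G n).co k i j| ≤ B.d n ^ p j := fun j => by
      have := hSp i hi.1 i' hi'.1 j
      rwa [one_mul, h.base n] at this
    have g2 : ∀ j, |(G n).co k' i' j - (G n).co k' i j| ≤ B.d n ^ r j := fun j => by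
      have := vlab_close (hρ h n) (hi'.2.trans hi.2.symm) j
      rwa [h.base n] at this
    have g3 := hgeo n k hk k' hk' hgpos i (mem_L_of_I h hiI) i' (mem_L_of_I h hiI') g1 g2 j
    have g4 : B.d n ^ ε * |(G n).co k i' j - (G n).co k i j| ≤ C * B.d n ^ p' j :=
      (mul_le_mul_of_nonneg_right hg.le (abs_nonneg _)).trans g3
    have g5 : B.d n ^ p' j = B.d n ^ ε * B.d n ^ (p' j - ε) := by
      rw [← dpow_add]; congr 1; ring
    rw [g5] at g4
    have g6 : B.d n ^ ε * |(G n).co k i' j - (G n).co k i j| ≤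
        B.d n ^ ε * (C * B.d n ^ (p' j - ε)) := by linarith
    exact le_of_mul_le_mul_left g6 (dpow_pos B n _)
  have h4 := card_le_of_fibers S (vlab (G n) r k') _ hfib
  have h5 := h2 k' hk' S hS'
  have h6 : B.d n ^ (-ν p + ε) ≤ B.d n ^ (-(ν 0 - ν r) - ε) * B.d n ^ (-ν p' - 5 * ε) :=
    hSc.trans (h4.trans (mul_le_mul_of_nonneg_right h5 (dpow_pos B n _).le))
  rw [← dpow_add] at h6
  have h7 : B.d n ^ (-(ν 0 - ν r) - ε + (-ν p' - 5 * ε)) < B.d n ^ (-ν p + ε) := by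
    refine Real.rpow_lt_rpow_of_exponent_gt (B.pos n) (B.lt n) ?_
    rw [hε, hγ]; linarith
  linarith

/-! ## the geometric facts -/

theorem abs_zk_sub_le {G : Cfg} (hb : G.Bd) {k k' : ℕ} (hk : k ∈ G.Z) (hk' : k' ∈ G.Z) :
    |G.z k' - G.z k| ≤ 2 := by
  have h1 := hb.z k hk; have h2 := hb.z k' hk'
  refine (abs_sub _ _).trans ?_
  linarith

theorem abs_fk_sub_le {G : Cfg} (hb : G.Bd) {k k' : ℕ} (hk : k ∈ G.Z) (hk' : k' ∈ G.Z) :
    |G.f k' - G.f k| ≤ 2 := by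
  have h1 := hb.f k hk; have h2 := hb.f k' hk'
  refine (abs_sub _ _).trans ?_
  linarith

/-- lateral velocity is determined by the two normal velocities -/
theorem g_mul_dC {G : Cfg} (i i' k k' : ℕ) {t : ℝ} (h0 : |G.P i' k - G.P i k| ≤ t)
    (h1 : |G.P i' k' - G.P i k'| ≤ t) : |G.f k - G.f k'| * |G.c i' - G.c i| ≤ 2 * t := by
  rw [← abs_mul]
  have e : (G.f k - G.f k') * (G.c i' - G.c i) =
      (G.P i' k' - G.P i k') - (G.P i' k - G.P i k) := by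
    unfold Cfg.P; ring
  rw [e]
  refine (abs_sub _ _).trans ?_
  linarith

/-- lateral position from the two normal positions -/
theorem g_mul_dX {G : Cfg} (hb : G.Bd) (i i' k k' : ℕ) (hk : k ∈ G.Z) (hk' : k' ∈ G.Z) {t s : ℝ}
    (h0 : |G.N i' k - G.N i k| ≤ t) (h1 : |G.P i' k - G.P i k| ≤ t)
    (h2 : |G.N i' k' - G.N i k'| ≤ t) (h3 : |G.f k - G.f k'| * |G.c i' - G.c i| ≤ s) :
    |G.f k - G.f k'| * |G.X i' k - G.X i k| ≤ 4 * t + 2 * s := by
  rw [← abs_mul]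
  have e : (G.f k - G.f k') * (G.X i' k - G.X i k) =
      (G.N i' k' - G.N i k') - (G.N i' k - G.N i k) - (G.z k' - G.z k) * (G.P i' k - G.P i k)
        - (G.z k' - G.z k) * ((G.f k - G.f k') * (G.c i' - G.c i)) := by
    unfold Cfg.N Cfg.P Cfg.X; ring
  rw [e]
  have hz := abs_zk_sub_le hb hk hk'
  have g1 : |(G.z k' - G.z k) * (G.P i' k - G.P i k)| ≤ 2 * t := by
    rw [abs_mul]
    exact mul_le_mul hz h1 (abs_nonneg _) (by norm_num)
  have g2 : |(G.z k' - G.z k) * ((G.f k - G.f k') * (G.c i' - G.c i))| ≤ 2 * s := by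
    rw [abs_mul, abs_mul]
    exact mul_le_mul hz h3 (by positivity) (by norm_num)
  refine (abs_sub _ _).trans ?_
  have g3 : |G.N i' k' - G.N i k' - (G.N i' k - G.N i k) - (G.z k' - G.z k) * (G.P i' k - G.P i k)|
      ≤ t + t + 2 * t := by
    refine (abs_sub _ _).trans ?_
    have := abs_sub (G.N i' k' - G.N i k') (G.N i' k - G.N i k)
    linarith
  linarith

theorem f_mul_le_of_le {G : Cfg} (hb : G.Bd) {k k' : ℕ} (hk : k ∈ G.Z) (hk' : k' ∈ G.Z)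
    {x t : ℝ} (hx : |x| ≤ t) : |G.f k - G.f k'| * |x| ≤ 2 * t := by
  have h1 := abs_fk_sub_le hb hk' hk
  exact mul_le_mul h1 hx (abs_nonneg _) (by norm_num)

/-- (W2): fibre in the lateral position -/
theorem geo_X (h : FModel B G σ R ν) {x : ℝ} (hx : 0 ≤ x) :
    Geo B G 8 ![x, x, x, 0] ![x, 0, 0, 0] ![x, x, x, x] := by
  intro n k hk k' hk' hg i hi i' hi' h1 h2 j
  have hb := h.bd n
  have a0 := h1 0; have a1 := h1 1; have a2 := h1 2
  have b0 := h2 0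
  simp only [Cfg.co, Matrix.cons_val_zero, Matrix.cons_val_one, Matrix.cons_val] at a0 a1 a2 b0
  have hC := f_mul_le_of_le hb hk hk' a2
  have hpos := dpow_pos B n x
  have key : ∀ {y : ℝ}, |(G n).f k - (G n).f k'| * |y| ≤ 8 * B.d n ^ x →
      |(G n).f k - (G n).f k'| * |y| ≤ (8 : ℕ) * B.d n ^ x := fun h => by push_cast; exact h
  fin_cases j
  · simp only [Cfg.co, Fin.zero_eta, Fin.isValue, Matrix.cons_val_zero]
    refine key ((f_mul_le_of_le hb hk hk' a0).trans (by linarith))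
  · simp only [Cfg.co, Fin.mk_one, Fin.isValue, Matrix.cons_val_one]
    refine key ((f_mul_le_of_le hb hk hk' a1).trans (by linarith))
  · simp only [Cfg.co, Fin.reduceFinMk, Matrix.cons_val]
    refine key (hC.trans (by linarith))
  · simp only [Cfg.co, Fin.reduceFinMk, Matrix.cons_val]
    refine key ((g_mul_dX hb i i' k k' hk hk' a0 a1 b0 hC).trans (by linarith))

/-- (W3): fibre in the lateral velocity -/
theorem geo_C (h : FModel B G σ R ν) {x : ℝ} (hx : 0 ≤ x) :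
    Geo B G 8 ![x, x, 0, x] ![0, x, 0, 0] ![x, x, x, x] := by
  intro n k hk k' hk' hg i hi i' hi' h1 h2 j
  have hb := h.bd n
  have a0 := h1 0; have a1 := h1 1; have a3 := h1 3
  have b1 := h2 1
  simp only [Cfg.co, Matrix.cons_val_zero, Matrix.cons_val_one, Matrix.cons_val] at a0 a1 a3 b1
  have hC := g_mul_dC i i' k k' a1 b1
  have hpos := dpow_pos B n x
  have key : ∀ {y : ℝ}, |(G n).f k - (G n).f k'| * |y| ≤ 8 * B.d n ^ x →
      |(G n).f k - (G n).f k'| * |y| ≤ (8 : ℕ) * B.d n ^ x := fun h => by push_cast; exact h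
  fin_cases j
  · simp only [Cfg.co, Fin.zero_eta, Fin.isValue, Matrix.cons_val_zero]
    refine key ((f_mul_le_of_le hb hk hk' a0).trans (by linarith))
  · simp only [Cfg.co, Fin.mk_one, Fin.isValue, Matrix.cons_val_one]
    refine key ((f_mul_le_of_le hb hk hk' a1).trans (by linarith))
  · simp only [Cfg.co, Fin.reduceFinMk, Matrix.cons_val]
    refine key (hC.trans (by linarith))
  · simp only [Cfg.co, Fin.reduceFinMk, Matrix.cons_val]
    refine key ((f_mul_le_of_le hb hk hk' a3).trans (by linarith))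

/-- (PI): fibre in the lateral position and velocity -/
theorem geo_XC (h : FModel B G σ R ν) {x : ℝ} (hx : 0 ≤ x) :
    Geo B G 8 ![x, x, 0, 0] ![x, x, 0, 0] ![x, x, x, x] := by
  intro n k hk k' hk' hg i hi i' hi' h1 h2 j
  have hb := h.bd n
  have a0 := h1 0; have a1 := h1 1
  have b0 := h2 0; have b1 := h2 1
  simp only [Cfg.co, Matrix.cons_val_zero, Matrix.cons_val_one] at a0 a1 b0 b1
  have hC := g_mul_dC i i' k k' a1 b1
  have hpos := dpow_pos B n x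
  have key : ∀ {y : ℝ}, |(G n).f k - (G n).f k'| * |y| ≤ 8 * B.d n ^ x →
      |(G n).f k - (G n).f k'| * |y| ≤ (8 : ℕ) * B.d n ^ x := fun h => by push_cast; exact h
  fin_cases j
  · simp only [Cfg.co, Fin.zero_eta, Fin.isValue, Matrix.cons_val_zero]
    refine key ((f_mul_le_of_le hb hk hk' a0).trans (by linarith))
  · simp only [Cfg.co, Fin.mk_one, Fin.isValue, Matrix.cons_val_one]
    refine key ((f_mul_le_of_le hb hk hk' a1).trans (by linarith))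
  · simp only [Cfg.co, Fin.reduceFinMk, Matrix.cons_val]
    refine key (hC.trans (by linarith))
  · simp only [Cfg.co, Fin.reduceFinMk, Matrix.cons_val]
    refine key ((g_mul_dX hb i i' k k' hk hk' a0 a1 b0 hC).trans (by linarith))

/-! ## consequences for the counting exponents -/

theorem vec_mem {a b c d : ℝ} (ha : 0 ≤ a ∧ a ≤ R) (hb : 0 ≤ b ∧ b ≤ R) (hc : 0 ≤ c ∧ c ≤ R)
    (hd : 0 ≤ d ∧ d ≤ R) (j : Fin 4) : 0 ≤ (![a, b, c, d] : Fin 4 → ℝ) j ∧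
      (![a, b, c, d] : Fin 4 → ℝ) j ≤ R := by
  fin_cases j <;> simp [ha, hb, hc, hd]

theorem twist_X (h : FModel B G σ R ν) (hT : TwistMaj B G) {x : ℝ} (hx0 : 0 ≤ x) (hxR : x ≤ R) :
    ν ![x, x, x, 0] - ν ![x, x, x, x] ≤ ν 0 - ν ![x, 0, 0, 0] := by
  have m0 : (0 : ℝ) ≤ 0 ∧ (0 : ℝ) ≤ R := ⟨le_rfl, h.R_pos.le⟩
  have mx : 0 ≤ x ∧ x ≤ R := ⟨hx0, hxR⟩
  exact transfer h hT _ _ _ (vec_mem mx mx mx m0) (vec_mem mx m0 m0 m0) (vec_mem mx mx mx mx) 8
    (geo_X h hx0)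

theorem twist_C (h : FModel B G σ R ν) (hT : TwistMaj B G) {x : ℝ} (hx0 : 0 ≤ x) (hxR : x ≤ R) :
    ν ![x, x, 0, x] - ν ![x, x, x, x] ≤ ν 0 - ν ![0, x, 0, 0] := by
  have m0 : (0 : ℝ) ≤ 0 ∧ (0 : ℝ) ≤ R := ⟨le_rfl, h.R_pos.le⟩
  have mx : 0 ≤ x ∧ x ≤ R := ⟨hx0, hxR⟩
  exact transfer h hT _ _ _ (vec_mem mx mx m0 mx) (vec_mem m0 mx m0 m0) (vec_mem mx mx mx mx) 8
    (geo_C h hx0)

theorem twist_XC (h : FModel B G σ R ν) (hT : TwistMaj B G) {x : ℝ} (hx0 : 0 ≤ x) (hxR : x ≤ R) :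
    ν ![x, x, 0, 0] - ν ![x, x, x, x] ≤ ν 0 - ν ![x, x, 0, 0] := by
  have m0 : (0 : ℝ) ≤ 0 ∧ (0 : ℝ) ≤ R := ⟨le_rfl, h.R_pos.le⟩
  have mx : 0 ≤ x ∧ x ≤ R := ⟨hx0, hxR⟩
  exact transfer h hT _ _ _ (vec_mem mx mx m0 m0) (vec_mem mx mx m0 m0) (vec_mem mx mx mx mx) 8
    (geo_XC h hx0)

/-- decoupled case: `y ≤ a` -/
theorem y_le_a (h : FModel B G σ R ν) (hT : TwistMaj B G) {a q m y : ℝ}
    (hD : Decoupled ν R a q m y) : y ≤ a := by
  have hR := h.R_pos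
  have m0 : (0 : ℝ) ≤ 0 ∧ (0 : ℝ) ≤ R := ⟨le_rfl, hR.le⟩
  have mx : 0 ≤ R ∧ R ≤ R := ⟨hR.le, le_rfl⟩
  have h1 := twist_X h hT hR.le le_rfl
  rw [hD _ (vec_mem mx mx mx m0), hD _ (vec_mem mx mx mx mx), hD _ (vec_mem mx m0 m0 m0)] at h1
  simp only [Matrix.cons_val_zero, Matrix.cons_val_one, Matrix.cons_val] at h1
  nlinarith

/-- decoupled case: `m ≤ q` -/
theorem m_le_q (h : FModel B G σ R ν) (hT : TwistMaj B G) {a q m y : ℝ}
    (hD : Decoupled ν R a q m y) : m ≤ q := by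
  have hR := h.R_pos
  have m0 : (0 : ℝ) ≤ 0 ∧ (0 : ℝ) ≤ R := ⟨le_rfl, hR.le⟩
  have mx : 0 ≤ R ∧ R ≤ R := ⟨hR.le, le_rfl⟩
  have h1 := twist_C h hT hR.le le_rfl
  rw [hD _ (vec_mem mx mx m0 mx), hD _ (vec_mem mx mx mx mx), hD _ (vec_mem m0 mx m0 m0)] at h1
  simp only [Matrix.cons_val_zero, Matrix.cons_val_one, Matrix.cons_val] at h1
  nlinarith

/-- half coupled case: rate of the lateral position at fixed normal velocity -/
theorem half_X (h : FModel B G σ R ν) (hT : TwistMaj B G) {a m : ℝ} {β : ℝ → ℝ → ℝ}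
    (hD : HalfCoupled ν R a m β) {x : ℝ} (hx0 : 0 ≤ x) (hxR : x ≤ R) :
    β x x - β x 0 ≤ a * x := by
  have hR := h.R_pos
  have m0 : (0 : ℝ) ≤ 0 ∧ (0 : ℝ) ≤ R := ⟨le_rfl, hR.le⟩
  have mx : 0 ≤ x ∧ x ≤ R := ⟨hx0, hxR⟩
  have h1 := twist_X h hT hx0 hxR
  have h0 := hD 0 (fun j => ⟨le_rfl, hR.le⟩)
  rw [hD _ (vec_mem mx mx mx m0), hD _ (vec_mem mx mx mx mx), hD _ (vec_mem mx m0 m0 m0)] at h1
  simp only [Matrix.cons_val_zero, Matrix.cons_val_one, Matrix.cons_val, Pi.zero_apply] at h1 h0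
  linarith

/-- half coupled case: the normal velocity carries the lateral velocity -/
theorem half_C (h : FModel B G σ R ν) (hT : TwistMaj B G) {a m : ℝ} {β : ℝ → ℝ → ℝ}
    (hD : HalfCoupled ν R a m β) {x : ℝ} (hx0 : 0 ≤ x) (hxR : x ≤ R) :
    m * x ≤ β x 0 := by
  have hR := h.R_pos
  have m0 : (0 : ℝ) ≤ 0 ∧ (0 : ℝ) ≤ R := ⟨le_rfl, hR.le⟩
  have mx : 0 ≤ x ∧ x ≤ R := ⟨hx0, hxR⟩
  have h1 := twist_C h hT hx0 hxR
  have h0 := hD 0 (fun j => ⟨le_rfl, hR.le⟩)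
  rw [hD _ (vec_mem mx mx m0 mx), hD _ (vec_mem mx mx mx mx), hD _ (vec_mem m0 mx m0 m0)] at h1
  simp only [Matrix.cons_val_zero, Matrix.cons_val_one, Matrix.cons_val, Pi.zero_apply] at h1 h0
  linarith

/-- half coupled case, `(X, C)` fibre -/
theorem half_XC (h : FModel B G σ R ν) (hT : TwistMaj B G) {a m : ℝ} {β : ℝ → ℝ → ℝ}
    (hD : HalfCoupled ν R a m β) {x : ℝ} (hx0 : 0 ≤ x) (hxR : x ≤ R) :
    m * x + (β x x - β x 0) ≤ a * x + β x 0 := by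
  have hR := h.R_pos
  have m0 : (0 : ℝ) ≤ 0 ∧ (0 : ℝ) ≤ R := ⟨le_rfl, hR.le⟩
  have mx : 0 ≤ x ∧ x ≤ R := ⟨hx0, hxR⟩
  have h1 := twist_XC h hT hx0 hxR
  have h0 := hD 0 (fun j => ⟨le_rfl, hR.le⟩)
  rw [hD _ (vec_mem mx mx m0 m0), hD _ (vec_mem mx mx mx mx)] at h1
  simp only [Matrix.cons_val_zero, Matrix.cons_val_one, Matrix.cons_val, Pi.zero_apply] at h1 h0
  linarith

/-- all rates lie in `[0, 1]` (decoupled case) -/
theorem rates_mem (h : FModel B G σ R ν) {a q m y : ℝ} (hD : Decoupled ν R a q m y) :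
    (0 ≤ a ∧ a ≤ 1) ∧ (0 ≤ q ∧ q ≤ 1) ∧ (0 ≤ m ∧ m ≤ 1) ∧ (0 ≤ y ∧ y ≤ 1) := by
  have hR := h.R_pos
  have m0 : (0 : ℝ) ≤ 0 ∧ (0 : ℝ) ≤ R := ⟨le_rfl, hR.le⟩
  have mx : 0 ≤ R ∧ R ≤ R := ⟨hR.le, le_rfl⟩
  have h00 : ∀ j : Fin 4, 0 ≤ (![0, 0, 0, 0] : Fin 4 → ℝ) j ∧ (![0, 0, 0, 0] : Fin 4 → ℝ) j ≤ R :=
    vec_mem m0 m0 m0 m0
  have key : ∀ v : Fin 4 → ℝ, (∀ j, 0 ≤ v j ∧ v j ≤ R) →
      0 ≤ a * v 0 + q * v 1 + m * v 2 + y * v 3 ∧
      a * v 0 + q * v 1 + m * v 2 + y * v 3 ≤ v 0 + v 1 + v 2 + v 3 := by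
    intro v hv
    have h1 := nu_anti h ![0, 0, 0, 0] v h00 hv (fun j => by
      have := (hv j).1
      fin_cases j <;> simpa using this)
    have h2 := nu_lip h ![0, 0, 0, 0] v h00 hv (fun j => by
      have := (hv j).1
      fin_cases j <;> simpa using this)
    rw [hD _ hv, hD _ h00] at h1 h2
    simp only [Fin.sum_univ_four, Matrix.cons_val_zero, Matrix.cons_val_one, Matrix.cons_val]
      at h1 h2
    constructor <;> linarith
  have k0 := key ![R, 0, 0, 0] (vec_mem mx m0 m0 m0)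
  have k1 := key ![0, R, 0, 0] (vec_mem m0 mx m0 m0)
  have k2 := key ![0, 0, R, 0] (vec_mem m0 m0 mx m0)
  have k3 := key ![0, 0, 0, R] (vec_mem m0 m0 m0 mx)
  simp only [Matrix.cons_val_zero, Matrix.cons_val_one, Matrix.cons_val] at k0 k1 k2 k3
  refine ⟨⟨?_, ?_⟩, ⟨?_, ?_⟩, ⟨?_, ?_⟩, ⟨?_, ?_⟩⟩ <;> nlinarith

end Crest.Agent.R138.Tw628
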