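import Crest.Agent.R138.Tw1_829
import Crest.Agent.R138.FalFM2_658
import Crest.Agent.R138.Tw2_628

/-!
# R138: pointwise table of rates (helper628)

Frame independent.  `Rt σ a q m y` collects the scalar facts valid for the rates of a decoupled
F-model (829: (K), (F1); 658: (F2)); `RtTw` adds the twist facts `y ≤ a`, `m ≤ q` (628).
`cst k μ a q m y` is the cost `P_v - μ P_t` of a path of slope `μ` in natural boxes with
rotation exponent `k`.
-/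

set_option autoImplicit false
set_option linter.unusedVariables false

open Filter Topology Finset

namespace Crest.Agent.R138.Tw628

open Crest.Agent.R138.Ex926 Crest.Agent.R138.FM501 Crest.Agent.R138.TwA501

/-- scalar facts about the rates of a decoupled F-model -/
structure Rt (σ a q m y : ℝ) : Prop where
  σ0 : 0 ≤ σ
  σ1 : σ ≤ 1
  a0 : 0 ≤ a
  a1 : a ≤ 1
  q0 : 0 ≤ q
  q1 : q ≤ 1
  m0 : 0 ≤ m
  m1 : m ≤ 1
  y0 : 0 ≤ y
  y1 : y ≤ 1
  /-- (K) -/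
  K : min σ (a + q) ≤ a
  /-- (F1) -/
  F1 : 0 < m → σ ≤ y
  /-- (F2) -/
  F2 : 1 - σ < m → y = 1

/-- scalar facts about the rates of a decoupled, twisted F-model -/
structure RtTw (σ a q m y : ℝ) : Prop extends Rt σ a q m y where
  /-- (W2) -/
  W2 : y ≤ a
  /-- (W3) -/
  W3 : m ≤ q

/-- cost `P_v - μ P_t`, `P_v = (1+k)(1-a) - k q + (1-y)`, `P_t = (1-a) + (1-y) - q - m` -/
def cst (k μ a q m y : ℝ) : ℝ :=
  ((1 + k) * (1 - a) - k * q + (1 - y)) - μ * ((1 - a) + (1 - y) - q - m)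

theorem Rt.of_model {B : Base} {G : ℕ → Cfg} {σ R : ℝ} {ν : (Fin 4 → ℝ) → ℝ}
    (h : FModel B G σ R ν) {a q m y : ℝ} (hD : Decoupled ν R a q m y) : Rt σ a q m y where
  σ0 := h.σ_nonneg
  σ1 := h.σ_le
  a0 := (rates_mem h hD).1.1
  a1 := (rates_mem h hD).1.2
  q0 := (rates_mem h hD).2.1.1
  q1 := (rates_mem h hD).2.1.2
  m0 := (rates_mem h hD).2.2.1.1
  m1 := (rates_mem h hD).2.2.1.2
  y0 := (rates_mem h hD).2.2.2.1
  y1 := (rates_mem h hD).2.2.2.2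
  K := Tw829.rate_a_min h hD
  F1 := Tw829.rate_y h hD
  F2 := Fal658.y_eq_one h hD

theorem RtTw.of_model {B : Base} {G : ℕ → Cfg} {σ R : ℝ} {ν : (Fin 4 → ℝ) → ℝ}
    (h : FModel B G σ R ν) (hT : TwistMaj B G) {a q m y : ℝ} (hD : Decoupled ν R a q m y) :
    RtTw σ a q m y where
  toRt := Rt.of_model h hD
  W2 := y_le_a h hT hD
  W3 := m_le_q h hT hD

section scalar

variable {σ a q m y k μ c : ℝ}

/-! ### values of the cost -/

theorem cst_zero : cst k 0 a q m y = (1 + k) * (1 - a) - k * q + (1 - y) := by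
  unfold cst; ring

theorem cst_k : cst k k a q m y = (1 - a) + (1 - k) * (1 - y) + k * m := by
  unfold cst; ring

theorem cst_half : cst k (k / 2) a q m y =
    (1 - a) + (1 - y) + k / 2 * ((1 - a) - (1 - y)) + k / 2 * (m - q) := by
  unfold cst; ring

theorem cst_mid : cst k ((1 + k) / 2) a q m y =
    (1 + k) / 2 * ((1 - a) + m) - (k - 1) / 2 * ((1 - y) + q) := by
  unfold cst; ring

/-- the cost is affine in `μ` -/
theorem cst_affine {μ₁ μ₂ t : ℝ} : cst k ((1 - t) * μ₁ + t * μ₂) a q m y =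
    (1 - t) * cst k μ₁ a q m y + t * cst k μ₂ a q m y := by
  unfold cst; ring

theorem cst_le_of_between {μ₁ μ₂ C : ℝ} (h12 : μ₁ ≤ μ₂) (h1 : μ₁ ≤ μ) (h2 : μ ≤ μ₂)
    (hc1 : cst k μ₁ a q m y ≤ C) (hc2 : cst k μ₂ a q m y ≤ C) : cst k μ a q m y ≤ C := by
  rcases h12.eq_or_lt with h | h
  · have : μ = μ₁ := le_antisymm (h2.trans h.ge) h1
    rw [this]; exact hc1
  · set t := (μ - μ₁) / (μ₂ - μ₁) with ht
    have hpos : 0 < μ₂ - μ₁ := by linarith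
    have ht0 : 0 ≤ t := div_nonneg (by linarith) hpos.le
    have ht1 : t ≤ 1 := by rw [ht, div_le_one hpos]; linarith
    have e : μ = (1 - t) * μ₁ + t * μ₂ := by
      have : t * (μ₂ - μ₁) = μ - μ₁ := by rw [ht]; field_simp
      linarith
    rw [e, cst_affine]
    have h3 : (1 - t) * cst k μ₁ a q m y ≤ (1 - t) * C :=
      mul_le_mul_of_nonneg_left hc1 (by linarith)
    have h4 : t * cst k μ₂ a q m y ≤ t * C := mul_le_mul_of_nonneg_left hc2 ht0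
    linarith

/-! ### without twist -/

theorem Rt.lam_le (h : Rt σ a q m y) (hm : 0 < m) : 1 - y ≤ 1 - σ := by
  linarith [h.F1 hm]

theorem Rt.al_le (h : Rt σ a q m y) (hq : 0 < q) : 1 - a ≤ 1 - σ := by
  rcases min_le_iff.1 h.K with h1 | h1
  · linarith
  · linarith

/-- `D`-max in the normal direction (`1 ≤ a + q`) -/
theorem Rt.al_le_of_D (h : Rt σ a q m y) (hD : 1 ≤ a + q) : 1 - a ≤ 1 - σ := by
  rcases min_le_iff.1 h.K with h1 | h1
  · linarith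
  · linarith [h.σ1]

/-- slope `k ≤ 1`, region `0 < m ≤ 1 - σ`, `0 < q`: no twist needed -/
theorem Rt.cost_k (h : Rt σ a q m y) (hk0 : 0 ≤ k) (hk1 : k ≤ 1) (hm : 0 < m)
    (hms : m ≤ 1 - σ) (hq : 0 < q) : cst k k a q m y ≤ 2 * (1 - σ) := by
  rw [cst_k]
  have h1 := h.lam_le hm
  have h2 := h.al_le hq
  nlinarith

/-- the same with the normal `D`-max instead of `0 < q` -/
theorem Rt.cost_k_of_D (h : Rt σ a q m y) (hk0 : 0 ≤ k) (hk1 : k ≤ 1) (hm : 0 < m)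
    (hms : m ≤ 1 - σ) (hD : 1 ≤ a + q) : cst k k a q m y ≤ 2 * (1 - σ) := by
  rw [cst_k]
  have h1 := h.lam_le hm
  have h2 := h.al_le_of_D hD
  nlinarith

/-- slope `k ≤ 1`, general threshold `0 < m ≤ s`, `1 - σ ≤ s` -/
theorem Rt.cost_k_gen (h : Rt σ a q m y) {s : ℝ} (hs : 1 - σ ≤ s) (hk0 : 0 ≤ k) (hk1 : k ≤ 1)
    (hm : 0 < m) (hms : m ≤ s) (hq : 0 < q) : cst k k a q m y ≤ 2 * s := by
  rw [cst_k]
  have h1 := h.lam_le hm
  have h2 := h.al_le hq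
  nlinarith

/-- region `1 - σ < m`, `0 < q`, horizontal -/
theorem Rt.cost_zero (h : Rt σ a q m y) (hk0 : 0 ≤ k) (hk1 : k ≤ 1) (hms : 1 - σ < m)
    (hq : 0 < q) : cst k 0 a q m y ≤ (1 + k) * (1 - σ) := by
  rw [cst_zero, h.F2 hms]
  have h2 := h.al_le hq
  have h3 : 0 ≤ k * q := mul_nonneg hk0 hq.le
  nlinarith

/-- (T0) of 446: region `1 - σ < m`, normal `D`-max -/
theorem Rt.T0 (h : Rt σ a q m y) (hk0 : 0 ≤ k) (hms : 1 - σ < m) (hD : 1 ≤ a + q) :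
    cst k 0 a q m y ≤ 1 - σ := by
  rw [cst_zero, h.F2 hms]
  have h2 := h.al_le_of_D hD
  have h3 : 0 ≤ k * (a + q - 1) := mul_nonneg hk0 (by linarith)
  nlinarith

/-- (T1) of 446: `c_v - c_t ≤ α + m` -/
theorem T1 {ct : ℝ} (hk0 : 0 ≤ k) (hD : 1 ≤ a + q) (hDt : (1 - y) - m ≤ ct) :
    cst k 0 a q m y - ct ≤ (1 - a) + m := by
  rw [cst_zero]
  have h3 : 0 ≤ k * (a + q - 1) := mul_nonneg hk0 (by linarith)
  nlinarith

theorem Rt.T1' (h : Rt σ a q m y) {ct : ℝ} (hk0 : 0 ≤ k) (hD : 1 ≤ a + q)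
    (hDt : (1 - y) - m ≤ ct) (hms : m ≤ 1 - σ) : cst k 0 a q m y - ct ≤ 2 * (1 - σ) := by
  have h1 := T1 (a := a) (q := q) (m := m) (y := y) hk0 hD hDt
  have h2 := h.al_le_of_D hD
  linarith

/-- a negative bonus forces `m > 0` -/
theorem Rt.m_pos_of_ct (h : Rt σ a q m y) {ct : ℝ} (hDt : (1 - y) - m ≤ ct) (hct : ct < 0) :
    0 < m := by
  linarith [h.y1]

/-- with `0 < m`: `P_v ≤ 2 (1 - σ)` as soon as the normal `D`-max holds (TW0) -/
theorem Rt.growth_of_D (h : Rt σ a q m y) (hk0 : 0 ≤ k) (hm : 0 < m) (hD : 1 ≤ a + q) :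
    cst k 0 a q m y ≤ 2 * (1 - σ) := by
  rw [cst_zero]
  have h1 := h.lam_le hm
  have h2 := h.al_le_of_D hD
  have h3 : 0 ≤ k * (a + q - 1) := mul_nonneg hk0 (by linarith)
  nlinarith

/-! ### with twist -/

theorem RtTw.aσ (h : RtTw σ a q m y) (hm : 0 < m) : σ ≤ a := (h.F1 hm).trans h.W2

theorem RtTw.qpos (h : RtTw σ a q m y) (hm : 0 < m) : 0 < q := hm.trans_le h.W3

theorem RtTw.al_le_lam (h : RtTw σ a q m y) : 1 - a ≤ 1 - y := by linarith [h.W2]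

/-- (PI) -/
theorem RtTw.PI (h : RtTw σ a q m y) : (1 - a) + m ≤ (1 - y) + q := by linarith [h.W2, h.W3]

/-- slope `k / 2`, every `k ≥ 0`, `0 < m` -/
theorem RtTw.cost_half (h : RtTw σ a q m y) (hk0 : 0 ≤ k) (hm : 0 < m) :
    cst k (k / 2) a q m y ≤ 2 * (1 - σ) := by
  rw [cst_half]
  have h1 := h.lam_le hm
  have h2 := h.al_le_lam
  have h3 := h.W3
  nlinarith

/-- slope `k / 2`, sharper form: `α + λ` (no assumption on `m`) -/
theorem RtTw.cost_half' (h : RtTw σ a q m y) (hk0 : 0 ≤ k) :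
    cst k (k / 2) a q m y ≤ (1 - a) + (1 - y) := by
  rw [cst_half]
  have h2 := h.al_le_lam
  have h3 := h.W3
  nlinarith

/-- slope `k ≤ 1`, `0 < m ≤ s` -/
theorem RtTw.cost_k (h : RtTw σ a q m y) {s : ℝ} (hs : 1 - σ ≤ s) (hk0 : 0 ≤ k) (hk1 : k ≤ 1)
    (hm : 0 < m) (hms : m ≤ s) : cst k k a q m y ≤ 2 * s :=
  h.toRt.cost_k_gen hs hk0 hk1 hm hms (h.qpos hm)

/-- slope `(1 + k) / 2`, `k ≥ 1`, `0 < m ≤ s` -/
theorem RtTw.cost_mid (h : RtTw σ a q m y) {s : ℝ} (hs : 1 - σ ≤ s) (hk1 : 1 ≤ k)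
    (hm : 0 < m) (hms : m ≤ s) : cst k ((1 + k) / 2) a q m y ≤ 2 * s := by
  rw [cst_mid]
  have h1 := h.aσ hm
  have h2 := h.PI
  nlinarith

/-- every slope between `k / 2` and `k` (`k ≤ 1`) -/
theorem RtTw.cost_range_le_one (h : RtTw σ a q m y) {s : ℝ} (hs : 1 - σ ≤ s) (hk0 : 0 ≤ k)
    (hk1 : k ≤ 1) (hm : 0 < m) (hms : m ≤ s) (h1 : k / 2 ≤ μ) (h2 : μ ≤ k) :
    cst k μ a q m y ≤ 2 * s :=
  cst_le_of_between (by linarith) h1 h2 ((h.cost_half hk0 hm).trans (by linarith))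
    (h.cost_k hs hk0 hk1 hm hms)

/-- every slope between `k / 2` and `(1 + k) / 2` (`k ≥ 1`) -/
theorem RtTw.cost_range_ge_one (h : RtTw σ a q m y) {s : ℝ} (hs : 1 - σ ≤ s)
    (hk1 : 1 ≤ k) (hm : 0 < m) (hms : m ≤ s) (h1 : k / 2 ≤ μ) (h2 : μ ≤ (1 + k) / 2) :
    cst k μ a q m y ≤ 2 * s :=
  cst_le_of_between (by linarith) h1 h2 ((h.cost_half (by linarith) hm).trans (by linarith))
    (h.cost_mid hs hk1 hm hms)

/-- the slope `r k = k` (`k ≤ 1`), `(1 + k) / 2` (`k ≥ 1`), i.e. `min k ((1 + k) / 2)` -/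
theorem RtTw.cost_r (h : RtTw σ a q m y) {s : ℝ} (hs : 1 - σ ≤ s) (hk0 : 0 ≤ k)
    (hm : 0 < m) (hms : m ≤ s) (h1 : k / 2 ≤ μ) (h2 : μ ≤ min k ((1 + k) / 2)) :
    cst k μ a q m y ≤ 2 * s := by
  rcases le_total k 1 with hk | hk
  · exact h.cost_range_le_one hs hk0 hk hm hms h1 (h2.trans (min_le_left _ _))
  · exact h.cost_range_ge_one hs hk hm hms h1 (h2.trans (min_le_right _ _))

/-- region `1 - σ < m`: lateral positions full, `λ = α = 0`, horizontal cost `- k q ≤ 0` -/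
theorem RtTw.full (h : RtTw σ a q m y) (hms : 1 - σ < m) : y = 1 ∧ a = 1 := by
  have h1 := h.F2 hms
  exact ⟨h1, le_antisymm h.a1 (h1 ▸ h.W2)⟩

theorem RtTw.cost_zero (h : RtTw σ a q m y) (hk0 : 0 ≤ k) (hms : 1 - σ < m) :
    cst k 0 a q m y ≤ 0 := by
  obtain ⟨h1, h2⟩ := h.full hms
  rw [cst_zero, h1, h2]
  have h3 : 0 ≤ k * q := mul_nonneg hk0 h.q0
  linarith

/-- horizontal cost, no assumption on `m`: `≤ (1 - a) + (1 - y) + k (1 - a - q)` -/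
theorem RtTw.cost_zero_le (h : RtTw σ a q m y) (hk0 : 0 ≤ k) (hm : 0 < m) :
    cst k 0 a q m y ≤ 2 * (1 - σ) + k * ((1 - a) - q) := by
  rw [cst_zero]
  have h1 := h.lam_le hm
  have h2 := h.al_le_lam
  nlinarith

end scalar

/-! ### half coupled, `k = 1` -/

section half

variable {B : Base} {G : ℕ → Cfg} {σ R : ℝ} {ν : (Fin 4 → ℝ) → ℝ} {a m : ℝ} {β : ℝ → ℝ → ℝ}

/-- `0 ≤ m ≤ 1` and `0 ≤ a ≤ 1` in the half coupled case -/
theorem half_rates (h : FModel B G σ R ν) (hD : HalfCoupled ν R a m β) :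
    (0 ≤ a ∧ a ≤ 1) ∧ (0 ≤ m ∧ m ≤ 1) := by
  have hR := h.R_pos
  have m0 : (0 : ℝ) ≤ 0 ∧ (0 : ℝ) ≤ R := ⟨le_rfl, hR.le⟩
  have mx : 0 ≤ R ∧ R ≤ R := ⟨hR.le, le_rfl⟩
  have h00 : ∀ j : Fin 4, 0 ≤ (![0, 0, 0, 0] : Fin 4 → ℝ) j ∧ (![0, 0, 0, 0] : Fin 4 → ℝ) j ≤ R :=
    vec_mem m0 m0 m0 m0
  have key : ∀ v : Fin 4 → ℝ, (∀ j, 0 ≤ v j ∧ v j ≤ R) →
      0 ≤ a * v 0 + m * v 2 + (β (v 1) (v 3) - β 0 0) ∧
      a * v 0 + m * v 2 + (β (v 1) (v 3) - β 0 0) ≤ v 0 + v 1 + v 2 + v 3 := by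
    intro v hv
    have h1 := nu_anti h ![0, 0, 0, 0] v h00 hv (fun j => by
      have := (hv j).1
      fin_cases j <;> simpa using this)
    have h2 := nu_lip h ![0, 0, 0, 0] v h00 hv (fun j => by
      have := (hv j).1
      fin_cases j <;> simpa using this)
    rw [hD _ hv, hD _ h00] at h1 h2
    simp only [Fin.sum_univ_four, Matrix.cons_val_zero, Matrix.cons_val_one, Matrix.cons_val]
      at h1 h2
    constructor <;> linarith
  have k0 := key ![R, 0, 0, 0] (vec_mem mx m0 m0 m0)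
  have k2 := key ![0, 0, R, 0] (vec_mem m0 m0 mx m0)
  simp only [Matrix.cons_val_zero, Matrix.cons_val_one, Matrix.cons_val] at k0 k2
  refine ⟨⟨?_, ?_⟩, ⟨?_, ?_⟩⟩ <;> nlinarith

/-- `β` is monotone in the first variable -/
theorem half_mono (h : FModel B G σ R ν) (hD : HalfCoupled ν R a m β) {x x' y : ℝ}
    (hx : 0 ≤ x) (hxx : x ≤ x') (hx' : x' ≤ R) (hy0 : 0 ≤ y) (hyR : y ≤ R) : β x y ≤ β x' y := by
  have hR := h.R_pos
  have m0 : (0 : ℝ) ≤ 0 ∧ (0 : ℝ) ≤ R := ⟨le_rfl, hR.le⟩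
  have e1 := vec_mem (R := R) m0 ⟨hx, hxx.trans hx'⟩ m0 ⟨hy0, hyR⟩
  have e2 := vec_mem (R := R) m0 ⟨hx.trans hxx, hx'⟩ m0 ⟨hy0, hyR⟩
  have h1 := nu_anti h ![0, x, 0, y] ![0, x', 0, y] e1 e2 (fun j => by
    fin_cases j <;> simp [hxx])
  rw [hD _ e1, hD _ e2] at h1
  simp only [Matrix.cons_val_zero, Matrix.cons_val_one, Matrix.cons_val] at h1
  linarith

/-- `k = 1`, slope `1`: `P_v - P_t = (1 - a) + m`, with `P_v = 3 - 2 a - Q`,
`P_t = 2 - a - Q - m` -/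
theorem half_cost_one {Q : ℝ} : (3 - 2 * a - Q) - 1 * (2 - a - Q - m) = (1 - a) + m := by
  ring

/-- `k = 1`, slope `1`, `m ≤ s`, `σ ≤ a` (K3) -/
theorem half_cost {Q s : ℝ} (hs : 1 - σ ≤ s) (ha : σ ≤ a) (hms : m ≤ s) :
    (3 - 2 * a - Q) - 1 * (2 - a - Q - m) ≤ 2 * s := by
  linarith

/-- `k = 1`, region `1 - σ < m`, horizontal: `P_v = 3 - 2 a - Q ≤ 2 (1 - a)` -/
theorem half_cost_zero (h : FModel B G σ R ν) (hD : HalfCoupled ν R a m β) (hms : 1 - σ < m)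
    {Q x : ℝ} (hx0 : 0 < x) (hxR : x ≤ R) (hQ : β x x = Q * x) :
    3 - 2 * a - Q ≤ 2 * (1 - a) := by
  have h1 := Fal658.beta_zero_eq h hD hms x hx0.le hxR
  have h2 := half_mono h hD le_rfl hx0.le hxR hx0.le hxR
  rw [h1, hQ] at h2
  have h3 : 1 ≤ Q := by
    by_contra hcon
    push Not at hcon
    nlinarith
  linarith

/-- `k = 1`, region `1 - σ < m`, horizontal, with `σ ≤ a` -/
theorem half_cost_zero' (h : FModel B G σ R ν) (hD : HalfCoupled ν R a m β) (hms : 1 - σ < m)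
    (ha : σ ≤ a) {Q x : ℝ} (hx0 : 0 < x) (hxR : x ≤ R) (hQ : β x x = Q * x) :
    3 - 2 * a - Q ≤ 2 * (1 - σ) := by
  have := half_cost_zero h hD hms hx0 hxR hQ
  linarith

/-- the growth rate of natural boxes in the half coupled case -/
theorem half_growth (h : FModel B G σ R ν) (hD : HalfCoupled ν R a m β) {c : ℝ} (hR2 : 2 ≤ R)
    (hG : Growth ν 1 c) : β 1 1 = (3 - 2 * a - c) * 1 := by
  have h1 := hG 1 zero_le_one le_rfl
  have hR := h.R_pos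
  rw [hD ![(1 + 1) * 1, 1 * 1, 0, 1] (by
    intro j; fin_cases j <;> simp <;> linarith)] at h1
  have h0 := hD 0 (fun j => ⟨le_rfl, hR.le⟩)
  simp only [Matrix.cons_val_zero, Matrix.cons_val_one, Matrix.cons_val, Pi.zero_apply] at h1 h0
  have e : (1 : ℝ) * 1 = 1 := by norm_num
  rw [e] at h1
  have h2 : β 0 0 = 0 := by linarith
  linarith

/-- the growth rate in the decoupled case is the horizontal cost -/
theorem growth_eq (h : FModel B G σ R ν) {q y k c : ℝ} (hD : Decoupled ν R a q m y)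
    (hk0 : 0 ≤ k) (hkR : 1 + k ≤ R) (hG : Growth ν k c) : c = cst k 0 a q m y := by
  have h1 := hG 1 zero_le_one le_rfl
  rw [hD ![(1 + k) * 1, k * 1, 0, 1] (by
    intro j; fin_cases j <;> simp <;> first | (constructor <;> linarith) | linarith)] at h1
  simp only [Matrix.cons_val_zero, Matrix.cons_val_one, Matrix.cons_val] at h1
  rw [cst_zero]
  linarith

/-- normal `D`-max for the rates -/
theorem D_normal (h : FModel B G σ R ν) {q y : ℝ} (hD : Decoupled ν R a q m y) {x : ℝ}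
    (hx0 : 0 < x) (hxR : x ≤ R) (hDm : ν ![x, x, 0, 0] ≤ ν 0 - x) : 1 ≤ a + q := by
  have hR := h.R_pos
  rw [hD ![x, x, 0, 0] (by intro j; fin_cases j <;> simp [hx0.le, hxR, hR.le])] at hDm
  simp only [Matrix.cons_val_zero, Matrix.cons_val_one, Matrix.cons_val] at hDm
  by_contra hcon
  push Not at hcon
  nlinarith

/-- lateral `D`-max with bonus `ct` for the rates -/
theorem D_lateral (h : FModel B G σ R ν) {q y : ℝ} (hD : Decoupled ν R a q m y) {x ct : ℝ}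
    (hx0 : 0 < x) (hxR : x ≤ R) (hDm : ν ![0, 0, x, x] ≤ ν 0 - x + ct * x) :
    (1 - y) - m ≤ ct := by
  have hR := h.R_pos
  rw [hD ![0, 0, x, x] (by intro j; fin_cases j <;> simp [hx0.le, hxR, hR.le])] at hDm
  simp only [Matrix.cons_val_zero, Matrix.cons_val_one, Matrix.cons_val] at hDm
  by_contra hcon
  push Not at hcon
  nlinarith

end half

end Crest.Agent.R138.Tw628
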