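import Crest.Agent.R138.TwA_501

/-!
# R138: F-model, Kaufman step in exponent form, choice of a fibre, lateral Kaufman (helper501)
-/

set_option autoImplicit false
set_option linter.unusedVariables false
set_option linter.unusedSectionVars false

open Filter Topology Finset

namespace Crest.Agent.R138.TwB501

open Crest.Agent.R138.Ex926 Crest.Agent.R138.FM501 Crest.Agent.R138.TwA501

variable {B : Base} {G : ℕ → Cfg} {σ R : ℝ} {ν : (Fin 4 → ℝ) → ℝ}

open Classical in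
/-- the data of one Kaufman step at one `n` -/
structure KStep (B : Base) (G : ℕ → Cfg) (n : ℕ) (j0 : Fin 4) (y : ℝ) (J : ℕ) (x a b : ℕ → ℝ)
    (e1 e2 : ℝ) (S K : Finset ℕ) (A : ℕ → Finset ℕ) (D : ℕ → ℕ → ℝ) : Prop where
  Sne : S.Nonempty
  Kne : K.Nonempty
  sub : ∀ k ∈ K, A k ⊆ S
  inc : B.d n ^ e1 * ((S.card : ℝ) * K.card) ≤ ∑ k ∈ K, ((A k).card : ℝ)
  cells : ∀ k ∈ K, (((A k).image (clab (G n) y j0 k)).card : ℝ) ≤ B.d n ^ (-e2)
  D1 : ∀ i ∈ S, ∀ i' ∈ S, D i i' ≤ 1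
  hts : ∀ j < J, ∀ i ∈ S, ∀ i' ∈ S, B.d n ^ x (j + 1) < D i i' →
    ((K.filter fun k => |(G n).co k i j0 - (G n).co k i' j0| ≤ (G n).ρ ^ y).card : ℝ) ≤
      B.d n ^ b j * K.card
  near : ∀ j ≤ J, ∀ i ∈ S, ((S.filter fun i' => D i i' ≤ B.d n ^ x j).card : ℝ) ≤
      B.d n ^ a j * S.card

theorem kauf (h : FModel B G σ R ν) (j0 : Fin 4) (y : ℝ) (J : ℕ) (x a b : ℕ → ℝ) (e1 e2 : ℝ)
    (hx0 : x 0 = 0) (hbJ : b J = 0)
    (H : ∀ᶠ n in (U : Filter ℕ), ∃ S K A D, KStep B G n j0 y J x a b e1 e2 S K A D) :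
    ∃ j ≤ J, a j + b j ≤ 2 * e1 + e2 := by
  classical
  have key : ∀ᶠ n in (U : Filter ℕ), B.d n ^ (2 * e1 + e2) ≤
      1 * ∑ j ∈ range (J + 1), B.d n ^ (a j + b j) := by
    filter_upwards [H] with n hn
    obtain ⟨S, K, A, D, hK⟩ := hn
    have hρn := hρ h n
    have hSc : (0 : ℝ) < S.card := by exact_mod_cast card_pos.2 hK.Sne
    have hKc : (0 : ℝ) < K.card := by exact_mod_cast card_pos.2 hK.Kne
    have h1 := energy (S := S) (K := K) A hK.sub (fun k i => clab (G n) y j0 k i)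
      (fun k i i' => |(G n).co k i j0 - (G n).co k i' j0| ≤ (G n).ρ ^ y) (B.d n ^ (-e2))
      (fun k hk i hi i' hi' hl => clab_close hρn hl) hK.cells
    have h2 := pair_sum_le (S := S)
      (fun i i' => ((K.filter fun k => |(G n).co k i j0 - (G n).co k i' j0| ≤ (G n).ρ ^ y).card : ℝ))
      D (fun j => B.d n ^ x j) (fun j => B.d n ^ b j * K.card) J
      (fun j _ => by have := dpow_pos B n (b j); positivity)
      (fun i hi i' hi' => by simp only [hx0, Real.rpow_zero]; exact hK.D1 i hi i' hi')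
      (fun j hj i hi i' hi' hD => hK.hts j hj i hi i' hi' hD)
      (fun i hi i' hi' => by
        simp only [hbJ, Real.rpow_zero, one_mul]
        exact_mod_cast card_filter_le _ _)
      (fun j => B.d n ^ a j * S.card)
      (fun j hj i hi => hK.near j hj i hi)
    have hsum : ∑ j ∈ range (J + 1), B.d n ^ a j * (S.card : ℝ) * (B.d n ^ b j * K.card) =
        (S.card : ℝ) * K.card * ∑ j ∈ range (J + 1), B.d n ^ (a j + b j) := by
      rw [mul_sum]
      refine sum_congr rfl fun j _ => ?_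
      rw [dpow_add]; ring
    rw [hsum] at h2
    have h3 : (B.d n ^ e1 * ((S.card : ℝ) * K.card)) ^ 2 ≤ (K.card : ℝ) * (B.d n ^ (-e2) *
        (S.card * ((S.card : ℝ) * K.card * ∑ j ∈ range (J + 1), B.d n ^ (a j + b j)))) := by
      have h4 : (B.d n ^ e1 * ((S.card : ℝ) * K.card)) ^ 2 ≤ (∑ k ∈ K, ((A k).card : ℝ)) ^ 2 := by
        refine pow_le_pow_left₀ ?_ hK.inc 2
        have := dpow_pos B n e1
        positivity
      refine h4.trans (h1.trans ?_)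
      refine mul_le_mul_of_nonneg_left ?_ hKc.le
      exact mul_le_mul_of_nonneg_left h2 (dpow_pos B n _).le
    have h5 : (B.d n ^ e1) ^ 2 * (((S.card : ℝ) * K.card) ^ 2) ≤
        B.d n ^ (-e2) * (∑ j ∈ range (J + 1), B.d n ^ (a j + b j)) * (((S.card : ℝ) * K.card) ^ 2) := by
      calc _ = (B.d n ^ e1 * ((S.card : ℝ) * K.card)) ^ 2 := by ring
        _ ≤ _ := h3
        _ = _ := by ring
    have h6 := le_of_mul_le_mul_right h5 (by positivity)
    have h7 : B.d n ^ (2 * e1 + e2) = (B.d n ^ e1) ^ 2 * B.d n ^ e2 := by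
      rw [dpow_add, two_mul, dpow_add]; ring
    have h8 : B.d n ^ (-e2) * B.d n ^ e2 = 1 := by rw [← dpow_add]; simp
    rw [h7, one_mul]
    calc (B.d n ^ e1) ^ 2 * B.d n ^ e2
        ≤ B.d n ^ (-e2) * (∑ j ∈ range (J + 1), B.d n ^ (a j + b j)) * B.d n ^ e2 :=
          mul_le_mul_of_nonneg_right h6 (dpow_pos B n _).le
      _ = (B.d n ^ (-e2) * B.d n ^ e2) * ∑ j ∈ range (J + 1), B.d n ^ (a j + b j) := by ring
      _ = _ := by rw [h8, one_mul]
  obtain ⟨j, hj, hj2⟩ := exists_exp_le B (2 * e1 + e2) (J + 1) (fun j => a j + b j) 1 key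
  exact ⟨j, by omega, hj2⟩

/-! ## Frostman at all radii -/

open Classical in
theorem hbox_mono {G : Cfg} {x : ℝ} {k : ℕ} {r : ℝ} (h : r ≤ G.ρ ^ x) :
    (G.Z.filter fun k' => |G.z k' - G.z k| ≤ r) ⊆ G.hbox x k := by
  unfold Cfg.hbox
  intro k' hk'
  rw [mem_filter] at hk' ⊢
  exact ⟨hk'.1, hk'.2.trans h⟩

theorem Z_nonempty (h : FModel B G σ R ν) (n : ℕ) : (G n).Z.Nonempty := by
  obtain ⟨q, hq⟩ := h.nonempty n
  exact ⟨q.2, mem_Z_of_I h (i := q.1) (k := q.2) hq⟩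

open Classical in
/-- Frostman bound for centres anywhere in a set: sets of heights of diameter `≤ r`. -/
theorem frost_set (h : FModel B G σ R ν) {x : ℝ} (hx0 : 0 ≤ x) (hxR : x ≤ R) {ε : ℝ} (hε : 0 < ε) :
    ∀ᶠ n in (U : Filter ℕ), ∀ T ⊆ (G n).Z, (∀ k ∈ T, ∀ k' ∈ T, |(G n).z k' - (G n).z k| ≤ B.d n ^ x) →
      (T.card : ℝ) ≤ B.d n ^ (σ * x - ε) * (G n).Z.card := by
  filter_upwards [h.frost x hx0 hxR ε hε] with n hn T hT hd
  rcases T.eq_empty_or_nonempty with rfl | ⟨k, hk⟩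
  · simp only [card_empty, Nat.cast_zero]
    have := dpow_pos B n (σ * x - ε)
    positivity
  refine le_trans ?_ (hn k (hT hk))
  have : T ⊆ (G n).hbox x k := by
    unfold Cfg.hbox
    intro k' hk'
    rw [mem_filter, h.base n]
    exact ⟨hT hk', hd k hk k' hk'⟩
  exact_mod_cast card_le_card this

open Classical in
/-- Frostman at all radii `r ∈ [ρ^R, 1]` simultaneously. -/
theorem frost_all (h : FModel B G σ R ν) {ε : ℝ} (hε : 0 < ε) :
    ∀ᶠ n in (U : Filter ℕ), ∀ r : ℝ, B.d n ^ R ≤ r → r ≤ 1 → ∀ k ∈ (G n).Z,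
      (((G n).Z.filter fun k' => |(G n).z k' - (G n).z k| ≤ r).card : ℝ) ≤
        B.d n ^ (-ε) * r ^ σ * (G n).Z.card := by
  -- net of exponents
  obtain ⟨J, hJ⟩ : ∃ J : ℕ, 2 * R / ε < J := exists_nat_gt _
  have hR := h.R_pos
  have hJ0 : (0 : ℝ) < J := lt_of_le_of_lt (by positivity) hJ
  have hJ1 : R / J ≤ ε / 2 := by
    rw [div_le_iff₀ hJ0]
    rw [div_lt_iff₀ hε] at hJ
    linarith
  have hnet : ∀ᶠ n in (U : Filter ℕ), ∀ j ∈ range (J + 1), ∀ k ∈ (G n).Z,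
      (((G n).hbox (R * (j / J)) k).card : ℝ) ≤
        B.d n ^ (σ * (R * (j / J)) - ε / 2) * ((G n).Z.card : ℝ) := by
    rw [Filter.eventually_all_finset]
    intro j hj
    have hj1 : (j : ℝ) ≤ J := by
      have : j ≤ J := by simpa [Nat.lt_succ_iff] using hj
      exact_mod_cast this
    have h01 : (j : ℝ) / J ≤ 1 := by rw [div_le_one hJ0]; exact hj1
    refine h.frost _ (by positivity) ?_ (ε / 2) (half_pos hε)
    nlinarith
  filter_upwards [hnet] with n hn r hr0 hr1 k hk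
  have hrpos : 0 < r := (dpow_pos B n R).trans_le hr0
  -- find j with ρ^{x_{j+1}} < r ≤ ρ^{x_j} (or j = J)
  have hex : ∃ j ≤ J, r ≤ B.d n ^ (R * (j / J)) ∧ B.d n ^ (R * ((j + 1 : ℕ) / J)) ≤ r := by
    by_contra hcon
    push Not at hcon
    have hall : ∀ j ≤ J, r ≤ B.d n ^ (R * (j / J)) := by
      intro j
      induction j with
      | zero => intro _; simpa using hr1
      | succ j ih =>
        intro hj
        exact (hcon j (by omega) (ih (by omega))).le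
    have h1 := hcon J le_rfl (hall J le_rfl)
    have h2 : B.d n ^ (R * ((J + 1 : ℕ) / J)) ≤ B.d n ^ R := by
      refine dpow_anti B n ?_
      have : (1 : ℝ) ≤ ((J + 1 : ℕ) : ℝ) / J := by
        rw [le_div_iff₀ hJ0]; push_cast; linarith
      nlinarith
    linarith
  obtain ⟨j, hj, hj1, hj2⟩ := hex
  have h1 := hn j (by simp; omega) k hk
  have h2 : (((G n).Z.filter fun k' => |(G n).z k' - (G n).z k| ≤ r).card : ℝ) ≤
      (((G n).hbox (R * (j / J)) k).card : ℝ) := by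
    have : ((G n).Z.filter fun k' => |(G n).z k' - (G n).z k| ≤ r) ⊆ (G n).hbox (R * (j / J)) k :=
      hbox_mono (by rw [h.base n]; exact hj1)
    exact_mod_cast card_le_card this
  refine h2.trans (h1.trans ?_)
  refine mul_le_mul_of_nonneg_right ?_ (Nat.cast_nonneg _)
  have h3 : (B.d n ^ (R * ((j + 1 : ℕ) / J))) ^ σ ≤ r ^ σ :=
    Real.rpow_le_rpow (dpow_pos B n _).le hj2 h.σ_nonneg
  have h4 : (B.d n ^ (R * ((j + 1 : ℕ) / J))) ^ σ = B.d n ^ (R * ((j + 1 : ℕ) / J) * σ) :=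
    (Real.rpow_mul (B.pos n).le _ _).symm
  rw [h4] at h3
  calc B.d n ^ (σ * (R * (j / J)) - ε / 2)
      ≤ B.d n ^ (-ε + R * ((j + 1 : ℕ) / J) * σ) := by
        refine dpow_anti B n ?_
        have e1 : R * (((j + 1 : ℕ) : ℝ) / J) * σ = σ * (R * (j / J)) + σ * (R / J) := by
          push_cast; field_simp
        rw [e1]
        have : σ * (R / J) ≤ 1 * (ε / 2) :=
          mul_le_mul h.σ_le hJ1 (by positivity) (by norm_num)
        linarith
    _ = B.d n ^ (-ε) * B.d n ^ (R * ((j + 1 : ℕ) / J) * σ) := dpow_add B n _ _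
    _ ≤ B.d n ^ (-ε) * r ^ σ := mul_le_mul_of_nonneg_left h3 (dpow_pos B n _).le

/-! ## choice of a fibre -/

theorem near_symm {G : Cfg} {p : Fin 4 → ℝ} {k i i' : ℕ} : G.near p k i i' ↔ G.near p k i' i := by
  unfold Cfg.near
  constructor <;> intro h j <;> rw [abs_sub_comm] <;> exact h j

theorem mem_box {G : Cfg} {p : Fin 4 → ℝ} {k i i' : ℕ} :
    i' ∈ G.box p i k ↔ i' ∈ G.slice k ∧ G.near p k i i' := by
  classical
  unfold Cfg.box; rw [mem_filter]

theorem box_sub_slice {G : Cfg} {p : Fin 4 → ℝ} {k i : ℕ} : G.box p i k ⊆ G.slice k := fun x hx =>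
  (mem_box.1 hx).1

theorem slice_sub_L {G : Cfg} {k : ℕ} : G.slice k ⊆ G.L := filter_subset _ _

theorem self_mem_box (h : FModel B G σ R ν) {n : ℕ} {p : Fin 4 → ℝ} {k i : ℕ}
    (hi : i ∈ (G n).slice k) : i ∈ (G n).box p i k := by
  rw [mem_box]
  refine ⟨hi, fun j => ?_⟩
  rw [sub_self, abs_zero]
  exact (Real.rpow_pos_of_pos (hρ h n) _).le

/-- **choice of a fibre**: for every set `Z'` of heights there is an incidence `(i₀, k₀)`, `k₀ ∈ Z'`,
whose box has a `ρ^ε`-part of its incidences with `Z'`. -/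
theorem pick (h : FModel B G σ R ν) (p : Fin 4 → ℝ) (hp : ∀ j, 0 ≤ p j ∧ p j ≤ R) {ε : ℝ}
    (hε : 0 < ε) :
    ∀ᶠ n in (U : Filter ℕ), ∀ Z' ⊆ (G n).Z, Z'.Nonempty → ∃ k₀ ∈ Z', ∃ i₀ ∈ (G n).slice k₀,
      B.d n ^ ε * (((G n).box p i₀ k₀).card * Z'.card) ≤
        ∑ k ∈ Z', (((G n).box p i₀ k₀ ∩ (G n).slice k).card : ℝ) := by
  classical
  filter_upwards [h.unif p hp (ε / 8) (by positivity), h.slice (ε / 8) (by positivity),
    slice_nonempty h] with n hn hs hne Z' hZ' hZne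
  by_contra hcon
  push Not at hcon
  set I := (G n).I
  obtain ⟨q0, hq0⟩ := h.nonempty n
  have hLc : (0 : ℝ) < (G n).L.card := by
    exact_mod_cast card_pos.2 ⟨q0.1, mem_L_of_I h (i := q0.1) (k := q0.2) hq0⟩
  have hZc : (0 : ℝ) < Z'.card := by exact_mod_cast card_pos.2 hZne
  -- upper bound of the total
  set T : ℝ := ∑ k₀ ∈ Z', ∑ i₀ ∈ (G n).slice k₀, ∑ k ∈ Z',
    (((G n).box p i₀ k₀ ∩ (G n).slice k).card : ℝ) with hT
  have hup : T ≤ B.d n ^ (-ν p + 7 / 8 * ε) * (Z'.card ^ 2 * (G n).L.card) := by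
    rw [hT]
    calc ∑ k₀ ∈ Z', ∑ i₀ ∈ (G n).slice k₀, ∑ k ∈ Z',
          (((G n).box p i₀ k₀ ∩ (G n).slice k).card : ℝ)
        ≤ ∑ k₀ ∈ Z', ∑ i₀ ∈ (G n).slice k₀, B.d n ^ (-ν p + 7 / 8 * ε) * Z'.card := by
          refine sum_le_sum fun k₀ hk₀ => sum_le_sum fun i₀ hi₀ => ?_
          refine (hcon k₀ hk₀ i₀ hi₀).le.trans ?_
          have h1 := (hn i₀ k₀ ((mem_slice_iff_I h).1 hi₀)).2
          have e1 : B.d n ^ (-ν p + 7 / 8 * ε) = B.d n ^ ε * B.d n ^ (-ν p - ε / 8) := by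
            rw [← dpow_add]; congr 1; ring
          rw [e1, mul_assoc]
          refine mul_le_mul_of_nonneg_left ?_ (dpow_pos B n _).le
          exact mul_le_mul_of_nonneg_right h1 hZc.le
      _ = ∑ k₀ ∈ Z', (((G n).slice k₀).card : ℝ) * (B.d n ^ (-ν p + 7 / 8 * ε) * Z'.card) := by
          refine sum_congr rfl fun k₀ _ => ?_
          rw [sum_const, nsmul_eq_mul]
      _ ≤ ∑ k₀ ∈ Z', ((G n).L.card : ℝ) * (B.d n ^ (-ν p + 7 / 8 * ε) * Z'.card) := by
          refine sum_le_sum fun k₀ _ => ?_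
          refine mul_le_mul_of_nonneg_right ?_ (by have := dpow_pos B n (-ν p + 7 / 8 * ε); positivity)
          exact_mod_cast card_le_card slice_sub_L
      _ = _ := by rw [sum_const, nsmul_eq_mul]; ring
  -- lower bound of the total
  have hswap : T = ∑ k₀ ∈ Z', ∑ k ∈ Z', ∑ i ∈ (G n).slice k₀ ∩ (G n).slice k,
      (((G n).box p i k₀).card : ℝ) := by
    rw [hT]
    refine sum_congr rfl fun k₀ _ => ?_
    rw [sum_comm]
    refine sum_congr rfl fun k _ => ?_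
    have e1 : ∀ i₀ ∈ (G n).slice k₀, (((G n).box p i₀ k₀ ∩ (G n).slice k).card : ℝ) =
        ∑ i ∈ (G n).slice k₀ ∩ (G n).slice k, (if (G n).near p k₀ i₀ i then (1 : ℝ) else 0) := by
      intro i₀ _
      rw [← sum_filter, sum_const, nsmul_eq_mul, mul_one]
      congr 2
      ext i
      simp only [mem_inter, mem_box, mem_filter]
      tauto
    rw [sum_congr rfl e1, sum_comm]
    refine sum_congr rfl fun i hi => ?_
    rw [← sum_filter, sum_const, nsmul_eq_mul, mul_one]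
    congr 2
    ext i₀
    rw [mem_filter, mem_box, near_symm]
  have hlow : B.d n ^ (-ν p + 3 / 8 * ε) * (Z'.card ^ 2 * (G n).L.card) ≤ T := by
    rw [hswap]
    have e1 : B.d n ^ (-ν p + ε / 8) * ∑ k₀ ∈ Z', ∑ k ∈ Z',
        (((G n).slice k₀ ∩ (G n).slice k).card : ℝ) ≤
        ∑ k₀ ∈ Z', ∑ k ∈ Z', ∑ i ∈ (G n).slice k₀ ∩ (G n).slice k, (((G n).box p i k₀).card : ℝ) := by
      rw [mul_sum]
      refine sum_le_sum fun k₀ _ => ?_
      rw [mul_sum]
      refine sum_le_sum fun k _ => ?_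
      rw [mul_comm, ← nsmul_eq_mul, ← sum_const]
      refine sum_le_sum fun i hi => ?_
      exact (hn i k₀ ((mem_slice_iff_I h).1 (mem_inter.1 hi).1)).1
    refine le_trans ?_ e1
    -- Σ |slice ∩ slice| = Σ_i |hts i ∩ Z'|^2
    have e2 : ∑ k₀ ∈ Z', ∑ k ∈ Z', (((G n).slice k₀ ∩ (G n).slice k).card : ℝ) =
        ∑ i ∈ (G n).L, (((G n).hts i ∩ Z').card : ℝ) ^ 2 := by
      have e3 : ∀ k₀ ∈ Z', ∑ k ∈ Z', (((G n).slice k₀ ∩ (G n).slice k).card : ℝ) =
          ∑ i ∈ (G n).slice k₀, (((G n).hts i ∩ Z').card : ℝ) := fun k₀ _ =>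
        sum_slice_inter (G n) _ Z' slice_sub_L hZ'
      rw [sum_congr rfl e3]
      have e4 : ∀ k₀ ∈ Z', ∑ i ∈ (G n).slice k₀, (((G n).hts i ∩ Z').card : ℝ) =
          ∑ i ∈ (G n).L, (if (i, k₀) ∈ (G n).I then (((G n).hts i ∩ Z').card : ℝ) else 0) := by
        intro k₀ _
        rw [← sum_filter]; rfl
      rw [sum_congr rfl e4, sum_comm]
      refine sum_congr rfl fun i _ => ?_
      rw [← sum_filter, sum_const, nsmul_eq_mul, sq]
      congr 2
      congr 1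
      ext k
      simp only [mem_inter, mem_hts, mem_filter]
      exact ⟨fun h1 => ⟨⟨hZ' h1.1, h1.2⟩, h1.1⟩, fun h1 => ⟨h1.2, h1.1.2⟩⟩
    rw [e2]
    have e5 : (∑ i ∈ (G n).L, (((G n).hts i ∩ Z').card : ℝ)) ^ 2 ≤
        (G n).L.card * ∑ i ∈ (G n).L, (((G n).hts i ∩ Z').card : ℝ) ^ 2 :=
      sq_sum_le_card_mul_sum_sq
    have e6 : B.d n ^ (ε / 8) * (G n).L.card * Z'.card ≤
        ∑ i ∈ (G n).L, (((G n).hts i ∩ Z').card : ℝ) := by
      rw [← sum_slice_inter (G n) _ Z' subset_rfl hZ']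
      have : ∀ k ∈ Z', B.d n ^ (ε / 8) * ((G n).L.card : ℝ) ≤
          (((G n).L ∩ (G n).slice k).card : ℝ) := by
        intro k hk
        rw [inter_eq_right.2 slice_sub_L]
        exact hs k (hZ' hk)
      refine le_trans (le_of_eq ?_) (sum_le_sum this)
      rw [sum_const, nsmul_eq_mul]; ring
    have e7 : (B.d n ^ (ε / 8) * (G n).L.card * Z'.card) ^ 2 ≤
        (G n).L.card * ∑ i ∈ (G n).L, (((G n).hts i ∩ Z').card : ℝ) ^ 2 := by
      refine le_trans (pow_le_pow_left₀ ?_ e6 2) e5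
      have := dpow_pos B n (ε / 8)
      positivity
    have e8 : (B.d n ^ (ε / 8)) ^ 2 * (G n).L.card * Z'.card ^ 2 ≤
        ∑ i ∈ (G n).L, (((G n).hts i ∩ Z').card : ℝ) ^ 2 := by
      refine le_of_mul_le_mul_left ?_ hLc
      calc _ = (B.d n ^ (ε / 8) * (G n).L.card * Z'.card) ^ 2 := by ring
        _ ≤ _ := e7
    have e9 : B.d n ^ (-ν p + 3 / 8 * ε) = B.d n ^ (-ν p + ε / 8) * (B.d n ^ (ε / 8)) ^ 2 := by
      rw [sq, ← dpow_add, ← dpow_add]; congr 1; ring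
    calc B.d n ^ (-ν p + 3 / 8 * ε) * (Z'.card ^ 2 * (G n).L.card)
        = B.d n ^ (-ν p + ε / 8) * ((B.d n ^ (ε / 8)) ^ 2 * (G n).L.card * Z'.card ^ 2) := by
          rw [e9]; ring
      _ ≤ _ := mul_le_mul_of_nonneg_left e8 (dpow_pos B n _).le
  have hfin := hlow.trans hup
  have hpos : (0 : ℝ) < Z'.card ^ 2 * (G n).L.card := by positivity
  have h1 := le_of_mul_le_mul_right hfin hpos
  have h2 : B.d n ^ (-ν p + 7 / 8 * ε) < B.d n ^ (-ν p + 3 / 8 * ε) :=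
    Real.rpow_lt_rpow_of_exponent_gt (B.pos n) (B.lt n) (by linarith)
  linarith

end Crest.Agent.R138.TwB501
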