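import Mathlib

/-!
# R138: the bridge "thin pairs rotate (up to a portion `c`)" ⟹ "most pairs of heights of every fat
line rotate" (helper480)

`m`: finite family of thin lines (index type `ι`, finite set `T`, weights `w ≥ 0`) contained in ONE
fat line; `H t` = heights at which the thin line `t` is alive; `K` = heights at which the fat line is
alive (`K = ⋃ H t`); `f` = slope of the common plane at a height.

* `hthin` : on the (weighted) average over thin lines, the pairs of heights with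
  `|f k - f k'| ≤ 2 θ` have portion `≤ c`;
* `hmass` : every height carries at least `λ` times the average thin mass (uniform masses);
* `hN` : the thin lines have comparable numbers of heights (between `N` and `Λ N`).

If `c Λ² < λ²/4` then at most half of the pairs `K × K` are `θ`-close.
-/

set_option autoImplicit false
set_option linter.unusedVariables false

open Finset

namespace Crest.Agent.R138.TwBr480

variable {ι : Type*}

/-- a set of pairs with more than half of the mass contains a popular row -/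
theorem exists_row {K : Finset ℕ} (P : ℕ → ℕ → Prop) [∀ a b, Decidable (P a b)]
    (h : ((K.card : ℝ)) ^ 2 < 2 * (((K ×ˢ K).filter fun q => P q.1 q.2).card : ℝ)) :
    ∃ k ∈ K, (K.card : ℝ) < 2 * ((K.filter fun k' => P k k').card : ℝ) := by
  classical
  by_contra hcon
  push Not at hcon
  have h1 : (((K ×ˢ K).filter fun q => P q.1 q.2).card : ℝ) =
      ∑ k ∈ K, ((K.filter fun k' => P k k').card : ℝ) := by
    rw [card_filter, sum_product]
    push_cast
    refine sum_congr rfl fun k _ => ?_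
    rw [card_filter]; push_cast; rfl
  have h2 : 2 * ∑ k ∈ K, ((K.filter fun k' => P k k').card : ℝ) ≤ ∑ k ∈ K, (K.card : ℝ) := by
    rw [mul_sum]
    exact sum_le_sum hcon
  rw [h1] at h
  rw [sum_const, nsmul_eq_mul] at h2
  nlinarith

/-- **bridge**, weighted form. -/
theorem twist_bridge (T : Finset ι) (w : ι → ℝ) (hw : ∀ t ∈ T, 0 ≤ w t) (H : ι → Finset ℕ)
    (K : Finset ℕ) (hHK : ∀ t ∈ T, H t ⊆ K) (f : ℕ → ℝ) (θ c lam Lam N : ℝ)
    (hlam : 0 < lam) (hN0 : 0 < N) (hLam : 0 ≤ Lam) (hc : 0 ≤ c) (hW : 0 < ∑ t ∈ T, w t)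
    (hN : ∀ t ∈ T, N ≤ ((H t).card : ℝ) ∧ ((H t).card : ℝ) ≤ Lam * N)
    (hmass : ∀ k ∈ K, lam * (∑ t ∈ T, w t * ((H t).card : ℝ)) ≤
      (K.card : ℝ) * ∑ t ∈ T with k ∈ H t, w t)
    (hthin : ∑ t ∈ T, w t * ((((H t) ×ˢ (H t)).filter fun q => |f q.1 - f q.2| ≤ 2 * θ).card : ℝ) ≤
      c * ∑ t ∈ T, w t * ((H t).card : ℝ) ^ 2)
    (hclt : 4 * (c * Lam ^ 2) < lam ^ 2) :
    2 * (((K ×ˢ K).filter fun q => |f q.1 - f q.2| ≤ θ).card : ℝ) ≤ ((K.card : ℝ)) ^ 2 := by
  classical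
  by_contra hcon
  push Not at hcon
  obtain ⟨k0, hk0, hrow⟩ := exists_row (K := K) (fun a b => |f a - f b| ≤ θ) hcon
  set Z0 : Finset ℕ := K.filter fun k' => |f k0 - f k'| ≤ θ with hZ0
  have hKpos : (0 : ℝ) < K.card := by
    have : 0 < K.card := card_pos.2 ⟨k0, hk0⟩
    exact_mod_cast this
  set W := ∑ t ∈ T, w t with hWdef
  set S := ∑ t ∈ T, w t * ((H t).card : ℝ) with hS
  -- mass on Z0
  have hsum : ∑ t ∈ T, w t * ((H t ∩ Z0).card : ℝ) = ∑ k ∈ Z0, ∑ t ∈ T with k ∈ H t, w t := by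
    have h1 : ∀ t ∈ T, w t * ((H t ∩ Z0).card : ℝ) = ∑ k ∈ Z0, (if k ∈ H t then w t else 0) := by
      intro t _
      rw [← sum_filter, sum_const, nsmul_eq_mul, mul_comm]
      congr 2
      have : H t ∩ Z0 = Z0.filter fun k => k ∈ H t := by
        ext k; simp only [mem_inter, mem_filter]; tauto
      rw [this]
    rw [sum_congr rfl h1, sum_comm]
    refine sum_congr rfl fun k _ => ?_
    rw [sum_filter]
  have hS0 : 0 < S := by
    rw [hS]
    calc 0 < N * W := by positivity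
      _ = ∑ t ∈ T, w t * N := by rw [← sum_mul]; ring
      _ ≤ _ := sum_le_sum fun t ht => mul_le_mul_of_nonneg_left (hN t ht).1 (hw t ht)
  have hlow : lam / 2 * S ≤ ∑ t ∈ T, w t * ((H t ∩ Z0).card : ℝ) := by
    rw [hsum]
    have h1 : ∑ k ∈ Z0, (lam * S / K.card) ≤ ∑ k ∈ Z0, ∑ t ∈ T with k ∈ H t, w t := by
      refine sum_le_sum fun k hk => ?_
      have hkK : k ∈ K := (mem_filter.1 hk).1
      rw [div_le_iff₀ hKpos]
      linarith [hmass k hkK]
    refine le_trans ?_ h1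
    rw [sum_const, nsmul_eq_mul]
    have h2 : (Z0.card : ℝ) * (lam * S / K.card) = (Z0.card / K.card) * (lam * S) := by
      field_simp
    rw [h2]
    have h3 : (1 : ℝ) / 2 ≤ Z0.card / K.card := by
      rw [div_le_div_iff₀ two_pos hKpos]; linarith
    have h4 : 0 ≤ lam * S := by positivity
    nlinarith
  -- Cauchy-Schwarz
  have hCS : (∑ t ∈ T, w t * ((H t ∩ Z0).card : ℝ)) ^ 2 ≤
      W * ∑ t ∈ T, w t * ((H t ∩ Z0).card : ℝ) ^ 2 := by
    have h1 := sum_mul_sq_le_sq_mul_sq T (fun t => Real.sqrt (w t))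
      (fun t => Real.sqrt (w t) * ((H t ∩ Z0).card : ℝ))
    have h2 : ∑ t ∈ T, Real.sqrt (w t) * (Real.sqrt (w t) * ((H t ∩ Z0).card : ℝ)) =
        ∑ t ∈ T, w t * ((H t ∩ Z0).card : ℝ) := by
      refine sum_congr rfl fun t ht => ?_
      rw [← mul_assoc, Real.mul_self_sqrt (hw t ht)]
    have h3 : ∑ t ∈ T, Real.sqrt (w t) ^ 2 = W := by
      rw [hWdef]; exact sum_congr rfl fun t ht => Real.sq_sqrt (hw t ht)
    have h4 : ∑ t ∈ T, (Real.sqrt (w t) * ((H t ∩ Z0).card : ℝ)) ^ 2 =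
        ∑ t ∈ T, w t * ((H t ∩ Z0).card : ℝ) ^ 2 := by
      refine sum_congr rfl fun t ht => ?_
      rw [mul_pow, Real.sq_sqrt (hw t ht)]
    rw [h2, h3, h4] at h1
    exact h1
  -- pairs inside Z0 are bad
  have hbad : ∑ t ∈ T, w t * ((H t ∩ Z0).card : ℝ) ^ 2 ≤
      ∑ t ∈ T, w t * ((((H t) ×ˢ (H t)).filter fun q => |f q.1 - f q.2| ≤ 2 * θ).card : ℝ) := by
    refine sum_le_sum fun t ht => mul_le_mul_of_nonneg_left ?_ (hw t ht)
    have h1 : (H t ∩ Z0) ×ˢ (H t ∩ Z0) ⊆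
        ((H t) ×ˢ (H t)).filter fun q => |f q.1 - f q.2| ≤ 2 * θ := by
      intro q hq
      simp only [mem_product, mem_inter, mem_filter, hZ0] at hq ⊢
      refine ⟨⟨hq.1.1, hq.2.1⟩, ?_⟩
      have g1 := hq.1.2.2
      have g2 := hq.2.2.2
      have g3 : f q.1 - f q.2 = (f k0 - f q.2) - (f k0 - f q.1) := by ring
      rw [g3]
      exact (abs_sub _ _).trans (by linarith)
    have h2 := card_le_card h1
    rw [card_product] at h2
    have h3 : (((H t ∩ Z0).card * (H t ∩ Z0).card : ℕ) : ℝ) ≤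
      ((((H t) ×ˢ (H t)).filter fun q => |f q.1 - f q.2| ≤ 2 * θ).card : ℝ) := by exact_mod_cast h2
    push_cast at h3
    linarith [sq ((H t ∩ Z0).card : ℝ)]
  -- upper bound
  have hup : ∑ t ∈ T, w t * ((H t).card : ℝ) ^ 2 ≤ W * (Lam * N) ^ 2 := by
    rw [hWdef, sum_mul]
    refine sum_le_sum fun t ht => mul_le_mul_of_nonneg_left ?_ (hw t ht)
    exact pow_le_pow_left₀ (Nat.cast_nonneg _) (hN t ht).2 2
  have hSlow : W * N ≤ S := by
    rw [hS, hWdef, sum_mul]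
    exact sum_le_sum fun t ht => mul_le_mul_of_nonneg_left (hN t ht).1 (hw t ht)
  have h1 : (lam / 2 * S) ^ 2 ≤ W * (c * (W * (Lam * N) ^ 2)) := by
    calc (lam / 2 * S) ^ 2 ≤ (∑ t ∈ T, w t * ((H t ∩ Z0).card : ℝ)) ^ 2 :=
          pow_le_pow_left₀ (by positivity) hlow 2
      _ ≤ _ := hCS
      _ ≤ _ := by
          refine mul_le_mul_of_nonneg_left ?_ hW.le
          refine hbad.trans (hthin.trans ?_)
          exact mul_le_mul_of_nonneg_left hup hc
  have h2 : (lam / 2 * (W * N)) ^ 2 ≤ (lam / 2 * S) ^ 2 :=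
    pow_le_pow_left₀ (by positivity) (mul_le_mul_of_nonneg_left hSlow (by positivity)) 2
  have h3 : (lam ^ 2 / 4) * (W ^ 2 * N ^ 2) ≤ (c * Lam ^ 2) * (W ^ 2 * N ^ 2) := by
    have := h2.trans h1
    nlinarith
  have h4 : 0 < W ^ 2 * N ^ 2 := by positivity
  have h5 := le_of_mul_le_mul_right h3 h4
  linarith

/-- **bridge**, unweighted form. -/
theorem twist_bridge_card (T : Finset ι) (hT : T.Nonempty) (H : ι → Finset ℕ)
    (K : Finset ℕ) (hHK : ∀ t ∈ T, H t ⊆ K) (f : ℕ → ℝ) (θ c lam Lam N : ℝ)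
    (hlam : 0 < lam) (hN0 : 0 < N) (hLam : 0 ≤ Lam) (hc : 0 ≤ c)
    (hN : ∀ t ∈ T, N ≤ ((H t).card : ℝ) ∧ ((H t).card : ℝ) ≤ Lam * N)
    (hmass : ∀ k ∈ K, lam * (∑ t ∈ T, ((H t).card : ℝ)) ≤
      (K.card : ℝ) * ((T.filter fun t => k ∈ H t).card : ℝ))
    (hthin : ∑ t ∈ T, ((((H t) ×ˢ (H t)).filter fun q => |f q.1 - f q.2| ≤ 2 * θ).card : ℝ) ≤
      c * ∑ t ∈ T, ((H t).card : ℝ) ^ 2)
    (hclt : 4 * (c * Lam ^ 2) < lam ^ 2) :
    2 * (((K ×ˢ K).filter fun q => |f q.1 - f q.2| ≤ θ).card : ℝ) ≤ ((K.card : ℝ)) ^ 2 := by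
  refine twist_bridge T (fun _ => 1) (fun _ _ => zero_le_one) H K hHK f θ c lam Lam N hlam hN0
    hLam hc ?_ hN ?_ ?_ hclt
  · simp only [sum_const, nsmul_eq_mul, mul_one]
    exact_mod_cast card_pos.2 hT
  · intro k hk
    have := hmass k hk
    simpa using this
  · simpa using hthin

end Crest.Agent.R138.TwBr480
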