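import Crest.Agent.R138.TwA_501

/-!
# R138: lower bound for the normal velocity rate from the majority twist (helper480)

In the half coupled F-model (`κ = 1`): if for every line most pairs of its heights rotate
(`TwistMaj` of helper628, spelled out in the hypothesis), then `m x / 2 ≤ β x 0`.
-/

set_option autoImplicit false
set_option linter.unusedVariables false

open Filter Topology Finset

namespace Crest.Agent.R138.TwC2480

open Crest.Agent.R138.Ex926 Crest.Agent.R138.FM501 Crest.Agent.R138.TwA501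

variable {B : Base} {G : ℕ → Cfg} {σ R : ℝ} {ν : (Fin 4 → ℝ) → ℝ}

open Classical in
/-- a good pair of heights with many common lines -/
theorem exists_good_pair (h : FModel B G σ R ν)
    (hT : ∀ ε : ℝ, 0 < ε → ∀ᶠ n in (U : Filter ℕ), ∀ i ∈ (G n).L,
      2 * (((((G n).hts i) ×ˢ ((G n).hts i)).filter fun q =>
        |(G n).f q.1 - (G n).f q.2| ≤ (G n).ρ ^ ε).card : ℝ) ≤ (((G n).hts i).card : ℝ) ^ 2)
    {ε : ℝ} (hε : 0 < ε) :
    ∀ᶠ n in (U : Filter ℕ), ∃ k ∈ (G n).Z, ∃ k' ∈ (G n).Z,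
      (G n).ρ ^ ε < |(G n).f k - (G n).f k'| ∧
      B.d n ^ (3 * ε) * ((G n).L.card : ℝ) ≤ (((G n).slice k ∩ (G n).slice k').card : ℝ) := by
  filter_upwards [hT ε hε, h.line ε hε, ev_const_mul B 2 (show 2 * ε < 3 * ε by linarith)]
    with n h1 h2 h3
  obtain ⟨q0, hq0⟩ := h.nonempty n
  have hL : 0 < (G n).L.card := card_pos.2 ⟨q0.1, mem_L_of_I h (i := q0.1) (k := q0.2) hq0⟩
  have hZ : 0 < (G n).Z.card := card_pos.2 ⟨q0.2, mem_Z_of_I h (i := q0.1) (k := q0.2) hq0⟩
  by_contra hcon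
  push Not at hcon
  set Zn := (G n).Z with hZn
  set Ln := (G n).L with hLn
  -- the good triples
  have hgood : ∀ i ∈ Ln, (1 / 2 : ℝ) * (B.d n ^ ε * Zn.card) ^ 2 ≤
      ∑ q ∈ Zn ×ˢ Zn, (if (G n).ρ ^ ε < |(G n).f q.1 - (G n).f q.2| ∧
        i ∈ (G n).slice q.1 ∩ (G n).slice q.2 then (1 : ℝ) else 0) := by
    intro i hi
    have e1 := h1 i hi
    have e2 := h2 i hi
    have e3 : ∑ q ∈ Zn ×ˢ Zn, (if (G n).ρ ^ ε < |(G n).f q.1 - (G n).f q.2| ∧
        i ∈ (G n).slice q.1 ∩ (G n).slice q.2 then (1 : ℝ) else 0) =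
        (((((G n).hts i) ×ˢ ((G n).hts i)).filter fun q =>
          ¬ |(G n).f q.1 - (G n).f q.2| ≤ (G n).ρ ^ ε).card : ℝ) := by
      rw [← sum_filter, sum_const, nsmul_eq_mul, mul_one]
      congr 2
      ext q
      simp only [mem_filter, mem_product, mem_inter, mem_slice_iff_I h, mem_hts_iff_I h, not_le, hZn]
      constructor
      · rintro ⟨_, h5, h6, h7⟩; exact ⟨⟨h6, h7⟩, h5⟩
      · rintro ⟨⟨h6, h7⟩, h5⟩
        exact ⟨⟨mem_Z_of_I h h6, mem_Z_of_I h h7⟩, h5, h6, h7⟩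
    rw [e3]
    have e4 := card_filter_add_card_filter_not (s := ((G n).hts i) ×ˢ ((G n).hts i))
      (fun q : ℕ × ℕ => |(G n).f q.1 - (G n).f q.2| ≤ (G n).ρ ^ ε)
    rw [card_product] at e4
    have e5 : (((((G n).hts i) ×ˢ ((G n).hts i)).filter fun q =>
        |(G n).f q.1 - (G n).f q.2| ≤ (G n).ρ ^ ε).card : ℝ) +
        (((((G n).hts i) ×ˢ ((G n).hts i)).filter fun q =>
          ¬ |(G n).f q.1 - (G n).f q.2| ≤ (G n).ρ ^ ε).card : ℝ) =
        (((G n).hts i).card : ℝ) ^ 2 := by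
      rw [sq]; exact_mod_cast e4
    have e6 : (B.d n ^ ε * (Zn.card : ℝ)) ^ 2 ≤ (((G n).hts i).card : ℝ) ^ 2 :=
      pow_le_pow_left₀ (mul_nonneg (dpow_pos B n _).le (Nat.cast_nonneg _)) e2 2
    linarith
  have hsum : ∑ i ∈ Ln, (1 / 2 : ℝ) * (B.d n ^ ε * Zn.card) ^ 2 ≤
      ∑ q ∈ Zn ×ˢ Zn, (if (G n).ρ ^ ε < |(G n).f q.1 - (G n).f q.2| then
        ((((G n).slice q.1 ∩ (G n).slice q.2).card : ℕ) : ℝ) else 0) := by
    refine (sum_le_sum hgood).trans (le_of_eq ?_)
    rw [sum_comm]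
    refine sum_congr rfl fun q _ => ?_
    by_cases hq : (G n).ρ ^ ε < |(G n).f q.1 - (G n).f q.2|
    · simp only [hq, true_and, if_true]
      rw [← sum_filter, sum_const, nsmul_eq_mul, mul_one]
      congr 2
      ext i
      simp only [mem_filter, mem_inter, mem_slice_iff_I h, hLn]
      exact ⟨fun h5 => h5.2, fun h5 => ⟨mem_L_of_I h h5.1, h5⟩⟩
    · simp [hq]
  have hup : ∑ q ∈ Zn ×ˢ Zn, (if (G n).ρ ^ ε < |(G n).f q.1 - (G n).f q.2| then
        ((((G n).slice q.1 ∩ (G n).slice q.2).card : ℕ) : ℝ) else 0) <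
      ∑ q ∈ Zn ×ˢ Zn, (B.d n ^ (3 * ε) * (Ln.card : ℝ)) := by
    have hne : (Zn ×ˢ Zn).Nonempty := by
      have : 0 < (Zn ×ˢ Zn).card := by rw [card_product]; positivity
      exact card_pos.1 this
    refine sum_lt_sum_of_nonempty hne fun q hq => ?_
    rw [mem_product] at hq
    by_cases hq1 : (G n).ρ ^ ε < |(G n).f q.1 - (G n).f q.2|
    · rw [if_pos hq1]
      exact hcon q.1 hq.1 q.2 hq.2 hq1
    · rw [if_neg hq1]
      have := dpow_pos B n (3 * ε)
      have : (0 : ℝ) < Ln.card := by exact_mod_cast hL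
      positivity
  rw [sum_const, nsmul_eq_mul] at hsum
  rw [sum_const, nsmul_eq_mul, card_product] at hup
  have h4 := hsum.trans_lt hup
  have h5 : (B.d n ^ ε) ^ 2 = B.d n ^ (2 * ε) := by
    rw [← Real.rpow_natCast, ← Real.rpow_mul (B.pos n).le]; congr 1; push_cast; ring
  have hLc : (0 : ℝ) < Ln.card := by exact_mod_cast hL
  have hZc : (0 : ℝ) < Zn.card := by exact_mod_cast hZ
  have h6 : (Ln.card : ℝ) * (1 / 2 * (B.d n ^ ε * Zn.card) ^ 2) =
      (1 / 2 * B.d n ^ (2 * ε)) * (Ln.card * (Zn.card * Zn.card)) := by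
    rw [mul_pow, h5]; ring
  have h7 : ((Zn.card * Zn.card : ℕ) : ℝ) * (B.d n ^ (3 * ε) * Ln.card) =
      B.d n ^ (3 * ε) * (Ln.card * (Zn.card * Zn.card)) := by push_cast; ring
  rw [h6, h7] at h4
  have h8 := lt_of_mul_lt_mul_right h4 (by positivity)
  linarith

open Classical in
/-- **c₂** : `m x / 2 ≤ β x 0` for the half coupled model with majority twist. -/
theorem beta_ge (h : FModel B G σ R ν) {a m : ℝ} {β : ℝ → ℝ → ℝ} (hc : HalfCoupled ν R a m β)
    (hT : ∀ ε : ℝ, 0 < ε → ∀ᶠ n in (U : Filter ℕ), ∀ i ∈ (G n).L,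
      2 * (((((G n).hts i) ×ˢ ((G n).hts i)).filter fun q =>
        |(G n).f q.1 - (G n).f q.2| ≤ (G n).ρ ^ ε).card : ℝ) ≤ (((G n).hts i).card : ℝ) ^ 2)
    (x : ℝ) (hx0 : 0 ≤ x) (hxR : x ≤ R) : m * x / 2 ≤ β x 0 := by
  have hR := h.R_pos
  have hβ0 : β 0 0 = 0 := by
    have := hc 0 (fun j => ⟨le_rfl, hR.le⟩)
    simp only [Pi.zero_apply, mul_zero, add_zero, zero_add] at this
    linarith
  rcases hx0.eq_or_lt with rfl | hx
  · rw [hβ0]; simp
  by_contra hcon
  push Not at hcon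
  -- the exponents
  have hone1 : ν (one 1 x) = ν 0 - β x 0 := by
    have := hc (one 1 x) (one_mem hx0 hxR hR.le)
    simp only [one, Function.update_self] at this
    have e0 : Function.update (0 : Fin 4 → ℝ) 1 x 0 = 0 := by simp [Function.update_of_ne]
    have e2 : Function.update (0 : Fin 4 → ℝ) 1 x 2 = 0 := by simp [Function.update_of_ne]
    have e3 : Function.update (0 : Fin 4 → ℝ) 1 x 3 = 0 := by simp [Function.update_of_ne]
    rw [e0, e2, e3] at this
    rw [one]; linarith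
  have hone2 : ∀ y, 0 ≤ y → y ≤ R → ν (one 2 y) = ν 0 - m * y := by
    intro y hy0 hyR
    have := hc (one 2 y) (one_mem hy0 hyR hR.le)
    simp only [one, Function.update_self] at this
    have e0 : Function.update (0 : Fin 4 → ℝ) 2 y 0 = 0 := by simp [Function.update_of_ne]
    have e1 : Function.update (0 : Fin 4 → ℝ) 2 y 1 = 0 := by simp [Function.update_of_ne]
    have e3 : Function.update (0 : Fin 4 → ℝ) 2 y 3 = 0 := by simp [Function.update_of_ne]
    rw [e0, e1, e3, hβ0] at this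
    rw [one]; linarith
  -- choice of ε
  set g := m * x - 2 * β x 0 with hg
  have hgpos : 0 < g := by rw [hg]; linarith
  obtain ⟨ε, hε, hεx, hεg⟩ : ∃ ε : ℝ, 0 < ε ∧ 2 * ε ≤ x ∧ (12 + 2 * |m|) * ε < g := by
    refine ⟨min (x / 2) (g / (2 * (12 + 2 * |m|))), lt_min (by linarith) (by positivity), ?_, ?_⟩
    · linarith [min_le_left (x / 2) (g / (2 * (12 + 2 * |m|)))]
    · have h1 : (12 + 2 * |m|) * min (x / 2) (g / (2 * (12 + 2 * |m|))) ≤
          (12 + 2 * |m|) * (g / (2 * (12 + 2 * |m|))) :=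
        mul_le_mul_of_nonneg_left (min_le_right _ _) (by positivity)
      have h2 : (12 + 2 * |m|) * (g / (2 * (12 + 2 * |m|))) = g / 2 := by
        have : (12 + 2 * |m|) ≠ 0 := by positivity
        field_simp
      linarith
  set x' := x - 2 * ε with hx'
  have hx'0 : 0 ≤ x' := by rw [hx']; linarith
  have hx'R : x' ≤ R := by rw [hx']; linarith
  obtain ⟨n, ⟨k, hk, k', hk', hgood, hcommon⟩, hcells, hpw, hcL, hconst⟩ :=
    ((exists_good_pair h hT hε).and ((card_cells' h 1 x hx0 hxR hε).and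
      ((card_pw h 1 (one 2 x') (one_mem hx'0 hx'R hR.le) hε).and
        ((le_card_L h hε).and (ev_const_mul B 2 (show x' < x' + ε by linarith)))))).exists
  set A := (G n).slice k ∩ (G n).slice k' with hA
  have hρn := hρ h n
  -- labels
  set lab : ℕ → ℤ × ℤ := fun i => (clab (G n) x 1 k i, clab (G n) x 1 k' i) with hlab
  have hlabcard : ((A.image lab).card : ℝ) ≤ B.d n ^ (-(2 * β x 0) - 2 * ε) := by
    have h1 : A.image lab ⊆ (A.image (clab (G n) x 1 k)) ×ˢ (A.image (clab (G n) x 1 k')) := by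
      intro l hl
      obtain ⟨i, hi, rfl⟩ := mem_image.1 hl
      exact mem_product.2 ⟨mem_image_of_mem _ hi, mem_image_of_mem _ hi⟩
    have h2 := card_le_card h1
    rw [card_product] at h2
    have h3 := hcells k hk A inter_subset_left
    have h4 := hcells k' hk' A inter_subset_right
    have h5 : ((A.image lab).card : ℝ) ≤ ((A.image (clab (G n) x 1 k)).card : ℝ) *
      ((A.image (clab (G n) x 1 k')).card : ℝ) := by exact_mod_cast h2
    refine h5.trans ?_
    have h6 : B.d n ^ (-(2 * β x 0) - 2 * ε) =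
        B.d n ^ (-(ν 0 - ν (one 1 x)) - ε) * B.d n ^ (-(ν 0 - ν (one 1 x)) - ε) := by
      rw [← dpow_add, hone1]; congr 1; ring
    rw [h6]
    exact mul_le_mul h3 h4 (Nat.cast_nonneg _) (dpow_pos B n _).le
  -- fibres
  have hfib : ∀ a ∈ A, ((A.filter fun i => lab i = lab a).card : ℝ) ≤
      B.d n ^ (-ν (one 2 x') - ε) := by
    intro a0 ha0
    refine hpw k _ ((filter_subset _ _).trans inter_subset_left) ?_
    intro i hi i' hi' j
    rw [mem_filter] at hi hi'
    have hiI := (mem_slice_iff_I h).1 (mem_inter.1 hi.1).1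
    have hi'I := (mem_slice_iff_I h).1 (mem_inter.1 hi'.1).1
    have hgen := abs_co_sub_le (h.bd n) (mem_L_of_I h hiI) (mem_L_of_I h hi'I) hk j
    by_cases hj : j = 2
    · subst hj
      have e1 : clab (G n) x 1 k i = clab (G n) x 1 k i' := by
        have := congrArg Prod.fst (hi.2.trans hi'.2.symm); simpa [hlab] using this
      have e2 : clab (G n) x 1 k' i = clab (G n) x 1 k' i' := by
        have := congrArg Prod.snd (hi.2.trans hi'.2.symm); simpa [hlab] using this
      have c1 := clab_close hρn e1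
      have c2 := clab_close hρn e2
      have c1' : |(G n).P i k - (G n).P i' k| ≤ (G n).ρ ^ x := c1
      have c2' : |(G n).P i k' - (G n).P i' k'| ≤ (G n).ρ ^ x := c2
      have e3 : ((G n).f k - (G n).f k') * ((G n).c i' - (G n).c i) =
          ((G n).P i k - (G n).P i' k) - ((G n).P i k' - (G n).P i' k') := by
        unfold Cfg.P; ring
      have e4 : |(G n).f k - (G n).f k'| * |(G n).c i' - (G n).c i| ≤ 2 * (G n).ρ ^ x := by
        rw [← abs_mul, e3]
        exact (abs_sub _ _).trans (by linarith)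
      have hpos : 0 < (G n).ρ ^ ε := Real.rpow_pos_of_pos hρn _
      have e5 : (G n).ρ ^ ε * |(G n).c i' - (G n).c i| ≤ 2 * (G n).ρ ^ x :=
        (mul_le_mul_of_nonneg_right hgood.le (abs_nonneg _)).trans e4
      have e6 : |(G n).c i' - (G n).c i| ≤ 2 * B.d n ^ (x' + ε) := by
        have e7 : (G n).ρ ^ x = (G n).ρ ^ ε * (G n).ρ ^ (x' + ε) := by
          rw [← Real.rpow_add hρn]; congr 1; rw [hx']; ring
        rw [e7] at e5
        have e8 : (G n).ρ ^ ε * |(G n).c i' - (G n).c i| ≤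
          (G n).ρ ^ ε * (2 * (G n).ρ ^ (x' + ε)) := by linarith
        have e9 := le_of_mul_le_mul_left e8 hpos
        rwa [h.base n] at e9
      have e10 : |(G n).c i' - (G n).c i| ≤ B.d n ^ x' := e6.trans hconst
      have e11 : (G n).co k i' 2 - (G n).co k i 2 = (G n).c i' - (G n).c i := rfl
      rw [e11]
      have e12 : one 2 x' 2 = x' := by simp [one]
      rw [e12]
      simpa using e10
    · have e12 : one 2 x' j = 0 := by simp [one, Function.update_of_ne hj]
      rw [e12]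
      simpa using hgen
  have hAcard := card_le_of_fibers A lab _ hfib
  -- combine
  have h1 : B.d n ^ (3 * ε) * B.d n ^ (-ν 0 + ε) ≤
      B.d n ^ (-(2 * β x 0) - 2 * ε) * B.d n ^ (-ν (one 2 x') - ε) := by
    calc B.d n ^ (3 * ε) * B.d n ^ (-ν 0 + ε) ≤ B.d n ^ (3 * ε) * ((G n).L.card : ℝ) :=
          mul_le_mul_of_nonneg_left hcL (dpow_pos B n _).le
      _ ≤ (A.card : ℝ) := hcommon
      _ ≤ (A.image lab).card * B.d n ^ (-ν (one 2 x') - ε) := hAcard
      _ ≤ _ := mul_le_mul_of_nonneg_right hlabcard (dpow_pos B n _).le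
  rw [← dpow_add, ← dpow_add, hone2 x' hx'0 hx'R] at h1
  have h2 : -(2 * β x 0) - 2 * ε + (-(ν 0 - m * x') - ε) ≤ 3 * ε + (-ν 0 + ε) := by
    by_contra hlt
    push Not at hlt
    have := Real.rpow_lt_rpow_of_exponent_gt (B.pos n) (B.lt n) hlt
    linarith
  have h3 : m * x' ≤ 2 * β x 0 + 7 * ε := by linarith
  have h4 : m * (2 * ε) ≤ |m| * (2 * ε) := mul_le_mul_of_nonneg_right (le_abs_self m) (by linarith)
  have h5 : m * x' = m * x - m * (2 * ε) := by rw [hx']; ring
  have h6 : (12 + 2 * |m|) * ε = 12 * ε + |m| * (2 * ε) := by ring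
  linarith

end Crest.Agent.R138.TwC2480
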