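import Crest.Agent.R138.TwC_501

/-!
# R138: F-model, half coupled case: lateral Kaufman (F1), flat and sloped heavy strips (helper501)
-/

set_option autoImplicit false
set_option linter.unusedVariables false
set_option linter.unusedSectionVars false

open Filter Topology Finset

namespace Crest.Agent.R138.TwD501

open Crest.Agent.R138.Ex926 Crest.Agent.R138.FM501 Crest.Agent.R138.TwA501
open Crest.Agent.R138.TwB501 Crest.Agent.R138.TwC501

variable {B : Base} {G : ℕ → Cfg} {σ R : ℝ} {ν : (Fin 4 → ℝ) → ℝ}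

theorem le_of_mesh {v w t c K : ℝ} (h : |v| * w ≤ K * (w * t * c)) (hw : 0 < w) (ht : 0 ≤ t)
    (hc : K * c ≤ 1) : |v| ≤ t := by
  refine le_of_mul_le_mul_right ?_ hw
  calc |v| * w ≤ K * (w * t * c) := h
    _ = (K * c) * (t * w) := by ring
    _ ≤ 1 * (t * w) := mul_le_mul_of_nonneg_right hc (by positivity)
    _ = t * w := one_mul _

/-- the exponent of the number of common heights -/
noncomputable def bb (σ hh ε : ℝ) (J j : ℕ) : ℝ :=
  if j < J then σ * (((J - 1 - j : ℕ) : ℝ) * hh) - 5 * ε else 0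

theorem bb_J (σ hh ε : ℝ) (J : ℕ) : bb σ hh ε J J = 0 := by simp [bb]

theorem bb_lt {σ hh ε : ℝ} {J j : ℕ} (h : j < J) :
    bb σ hh ε J j = σ * (((J - 1 - j : ℕ) : ℝ) * hh) - 5 * ε := by simp [bb, h]

theorem castJ {J j : ℕ} (h : j < J) : ((J - 1 - j : ℕ) : ℝ) = (J : ℝ) - 1 - j := by
  have h1 : J = (J - 1 - j) + 1 + j := by omega
  have h2 : (J : ℝ) = ((J - 1 - j : ℕ) : ℝ) + 1 + j := by exact_mod_cast h1
  linarith

theorem mesh_mul (B : Base) (n : ℕ) {J j : ℕ} (h : j < J) (hh : ℝ) :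
    B.d n ^ (((J : ℝ) + 1) * hh) = B.d n ^ (((j + 1 : ℕ) : ℝ) * hh) *
      B.d n ^ (((J - 1 - j : ℕ) : ℝ) * hh) * B.d n ^ hh := by
  rw [← dpow_add, ← dpow_add, castJ h]
  congr 1
  push_cast
  ring

theorem split_card (B : Base) (n : ℕ) (x ε c : ℝ) :
    B.d n ^ (x - ε) * c = B.d n ^ (x - 2 * ε) * (B.d n ^ ε * c) := by
  have : B.d n ^ (x - ε) = B.d n ^ (x - 2 * ε) * B.d n ^ ε := by
    rw [← dpow_add]; congr 1; ring
  rw [this, mul_assoc]

theorem final_count (B : Base) (n : ℕ) {x ε Tc Zc Zc' : ℝ} (hz : 0 ≤ Zc')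
    (h2 : 2 * B.d n ^ ε ≤ 1) (hcard : B.d n ^ ε * Zc ≤ Zc') (h : Tc ≤ 2 * (B.d n ^ (x - ε) * Zc)) :
    Tc ≤ B.d n ^ (x - 5 * ε + 2 * ε) * Zc' := by
  have e1 : B.d n ^ (x - ε) = B.d n ^ ε * B.d n ^ (x - 3 * ε) * B.d n ^ ε := by
    rw [← dpow_add, ← dpow_add]; congr 1; ring
  have e2 : x - 5 * ε + 2 * ε = x - 3 * ε := by ring
  have e7 := dpow_pos B n (x - 3 * ε)
  have e8 := dpow_pos B n ε
  have hZ0 : B.d n ^ (x - 3 * ε) * (B.d n ^ ε * Zc) ≤ B.d n ^ (x - 3 * ε) * Zc' :=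
    mul_le_mul_of_nonneg_left hcard e7.le
  calc Tc ≤ 2 * (B.d n ^ (x - ε) * Zc) := h
      _ = (2 * B.d n ^ ε) * (B.d n ^ (x - 3 * ε) * (B.d n ^ ε * Zc)) := by rw [e1]; ring
      _ ≤ (2 * B.d n ^ ε) * (B.d n ^ (x - 3 * ε) * Zc') :=
          mul_le_mul_of_nonneg_left hZ0 (by positivity)
      _ ≤ 1 * (B.d n ^ (x - 3 * ε) * Zc') := mul_le_mul_of_nonneg_right h2 (by positivity)
      _ = _ := by rw [one_mul, e2]

theorem arith_end {a c σ hh ε : ℝ} {J j : ℕ} (hj : j ≤ J) (ha0 : 0 ≤ a) (haσ : a < σ) (hσ1 : σ ≤ 1)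
    (hc : 0 < c) (hJ : 16 / min (σ - a) c < (J : ℝ) + 1) (hh0 : 0 < hh) (hε0 : 0 ≤ ε)
    (hε : ε ≤ hh / 20)
    (hcond : (a + c) * ((j : ℝ) * hh) + bb σ hh ε J j ≤ a * (((J : ℝ) + 1) * hh) + 7 * ε) :
    False := by
  set κ := min (σ - a) c with hκ
  have hκ0 : 0 < κ := lt_min (by linarith) hc
  have hκ1 : κ ≤ 1 := (min_le_left _ _).trans (by linarith)
  have h1 : κ ≤ σ - a := min_le_left _ _
  have h2 : κ ≤ c := min_le_right _ _
  rw [div_lt_iff₀ hκ0] at hJ
  have hj0 : (0 : ℝ) ≤ j := Nat.cast_nonneg _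
  rcases lt_or_eq_of_le hj with hlt | rfl
  · rw [bb_lt hlt] at hcond
    have hcast := castJ hlt
    have hx0 : (0 : ℝ) ≤ ((J - 1 - j : ℕ) : ℝ) := Nat.cast_nonneg _
    set x : ℝ := ((J - 1 - j : ℕ) : ℝ) with hx
    have hJ' : (J : ℝ) = x + 1 + j := by linarith
    rw [hJ'] at hJ hcond
    have e1 : (a + c) * ((j : ℝ) * hh) + (σ * (x * hh) - 5 * ε) -
      (a * ((x + 1 + j + 1) * hh) + 7 * ε) = hh * (c * j + (σ - a) * x - 2 * a) - 12 * ε := by ring
    have e2 : hh * (c * j + (σ - a) * x - 2 * a) ≤ 12 * ε := by linarith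
    have e3 : κ * j ≤ c * j := mul_le_mul_of_nonneg_right h2 hj0
    have e4 : κ * x ≤ (σ - a) * x := mul_le_mul_of_nonneg_right h1 hx0
    have e5 : 16 - 2 * κ ≤ κ * j + κ * x := by nlinarith
    have e6 : hh * 12 ≤ hh * (c * j + (σ - a) * x - 2 * a) := by
      refine mul_le_mul_of_nonneg_left ?_ hh0.le
      linarith
    linarith
  · rw [bb_J] at hcond
    have e1 : hh * (c * j - a) ≤ 7 * ε := by nlinarith
    have e3 : κ * j ≤ c * j := mul_le_mul_of_nonneg_right h2 hj0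
    have e6 : hh * 12 ≤ hh * (c * j - a) := by
      refine mul_le_mul_of_nonneg_left ?_ hh0.le
      nlinarith
    linarith

/-! ## lateral Kaufman -/

theorem lat_step {a m : ℝ} {β : ℝ → ℝ → ℝ} (h : FModel B G σ R ν) (hc : HalfCoupled ν R a m β)
    {y : ℝ} (hy : 0 < y) (hyR : y ≤ R) {η : ℝ} (hη : 0 < η) :
    ∃ x', 0 ≤ x' ∧ x' ≤ y ∧ m * x' + β 0 x' + σ * (y - x') ≤ β 0 y + η := by
  classical
  obtain ⟨J, hJ⟩ : ∃ J : ℕ, 4 * y / η < J := exists_nat_gt _
  have hJ0 : (0 : ℝ) < (J : ℝ) + 1 := by positivity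
  set hh : ℝ := y / ((J : ℝ) + 1) with hhh
  have hh0 : 0 < hh := by positivity
  have hyh : ((J : ℝ) + 1) * hh = y := by rw [hhh]; field_simp
  have hh1 : 2 * hh ≤ η / 2 := by
    have h1 : 4 * y < η * J := by
      rw [div_lt_iff₀ hη] at hJ; linarith
    have h2 : 4 * hh * ((J : ℝ) + 1) ≤ η * ((J : ℝ) + 1) := by
      have : 4 * hh * ((J : ℝ) + 1) = 4 * y := by rw [← hyh]; ring
      rw [this]; nlinarith
    have := le_of_mul_le_mul_right h2 hJ0
    linarith
  set ε : ℝ := η / 40 with hε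
  have hε0 : 0 < ε := by positivity
  have hR := h.R_pos
  have z : (0 : ℝ) ≤ 0 ∧ (0 : ℝ) ≤ R := ⟨le_rfl, hR.le⟩
  have hxj : ∀ j ≤ J, (0 : ℝ) ≤ (j : ℝ) * hh ∧ (j : ℝ) * hh ≤ y := by
    intro j hj
    have h1 : (j : ℝ) ≤ J := by exact_mod_cast hj
    refine ⟨by positivity, ?_⟩
    rw [← hyh]
    nlinarith
  have key := kauf_box h 3 hy.le hyR J (fun j => (j : ℝ) * hh) (bb σ hh ε J) hε0 0
    (fun l => ⟨le_rfl, hR.le⟩) (fun j => ![0, 0, (j : ℝ) * hh, (j : ℝ) * hh])
    (fun j hj => mem4 (p := 0) z z ⟨(hxj j hj).1, (hxj j hj).2.trans hyR⟩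
      ⟨(hxj j hj).1, (hxj j hj).2.trans hyR⟩) 1
    (fun n k₀ i i' => max |(G n).X i k₀ - (G n).X i' k₀| |(G n).c i - (G n).c i'|)
    (by simp) (bb_J _ _ _ _) ?_
  · obtain ⟨j, hj, hj2⟩ := key
    have hx := hxj j hj
    refine ⟨(j : ℝ) * hh, hx.1, hx.2, ?_⟩
    have e1 := hc4 hc z z ⟨hx.1, hx.2.trans hyR⟩ ⟨hx.1, hx.2.trans hyR⟩
    rw [e1, hc_one3 h hc hy.le hyR] at hj2
    rcases lt_or_eq_of_le hj with hlt | rfl
    · rw [bb_lt hlt, castJ hlt] at hj2
      have e2 : σ * (y - (j : ℝ) * hh) = σ * (((J : ℝ) - 1 - j) * hh) + σ * (2 * hh) := by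
        rw [← hyh]; ring
      have e3 : σ * (2 * hh) ≤ 1 * (η / 2) := mul_le_mul h.σ_le hh1 (by positivity) (by norm_num)
      rw [e2]
      have e4 : 12 * ε ≤ η / 2 := by rw [hε]; linarith
      linarith
    · rw [bb_J] at hj2
      have e2 : σ * (y - (j : ℝ) * hh) = σ * hh := by
        rw [← hyh]; ring
      have e3 : σ * hh ≤ 1 * (η / 2) := mul_le_mul h.σ_le (by linarith) (by positivity) (by norm_num)
      rw [e2]
      have e4 : 12 * ε ≤ η / 2 := by rw [hε]; linarith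
      linarith
  · have hN : ((J + 1 : ℕ) : ℝ) * hh ≤ R := by push_cast; rw [hyh]; exact hyR
    filter_upwards [frost_mesh h hh0.le hN hε0, ev_const B 64 hh0] with n hn hc64
    have hρ1 : (G n).ρ = B.d n := h.base n
    refine ⟨(G n).Z, subset_rfl, Z_nonempty h n, fun k₀ hk₀ => ⟨(G n).Z, subset_rfl, ?_, ?_⟩⟩
    · rw [Finset.sdiff_self, card_empty, Nat.cast_zero]
      have := dpow_pos B n (2 * ε)
      positivity
    intro i₀ hi₀
    have hL : ∀ i ∈ (G n).box 0 i₀ k₀, i ∈ (G n).L := fun i hi => slice_sub_L (box_sub_slice hi)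
    refine ⟨fun i hi i' hi' => ?_, fun j hj i hi i' hi' hD l => ?_, fun j hj i hi i' hi' hD => ?_⟩
    · exact max_le (abs_co_sub_le (h.bd n) (hL i' hi') (hL i hi) hk₀ 3)
        (abs_co_sub_le (h.bd n) (hL i' hi') (hL i hi) hk₀ 2)
    · have hD2 := hD
      rw [max_le_iff, abs_sub_comm, abs_sub_comm ((G n).c i)] at hD2
      have hb := abs_co_sub_le (h.bd n) (hL i hi) (hL i' hi') hk₀
      rw [Nat.cast_one, one_mul]
      fin_cases l
      · simpa using hb 0
      · simpa using hb 1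
      · exact hD2.2
      · exact hD2.1
    · set w := B.d n ^ (((j + 1 : ℕ) : ℝ) * hh) with hw
      set t := B.d n ^ (((J - 1 - j : ℕ) : ℝ) * hh) with ht
      have hmul : B.d n ^ y = w * t * B.d n ^ hh := by
        rw [← hyh]; exact mesh_mul B n hj hh
      have hw0 : 0 < w := dpow_pos B n _
      have ht0 : 0 < t := dpow_pos B n _
      have ht1 : t ≤ 1 := dpow_le_one B n (by positivity)
      have hc0 : 0 < B.d n ^ hh := dpow_pos B n _
      have hT := hn (J - 1 - j) (by simp; omega)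
        ((G n).Z.filter fun k => |(G n).co k i 3 - (G n).co k i' 3| ≤ (G n).ρ ^ y)
        (filter_subset _ _) ?_
      · refine hT.trans ?_
        rw [bb_lt hj]
        refine mul_le_mul_of_nonneg_right (dpow_anti B n ?_) (Nat.cast_nonneg _)
        linarith
      · intro k hk k' hk'
        rw [mem_filter, hρ1] at hk hk'
        have e1 : (G n).co k i 3 - (G n).co k i' 3 = ((G n).X i k₀ - (G n).X i' k₀) +
            ((G n).z k - (G n).z k₀) * ((G n).c i - (G n).c i') := by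
          change (G n).X i k - (G n).X i' k = _
          rw [(G n).X_change i k₀ k, (G n).X_change i' k₀ k]; ring
        have e2 : (G n).co k' i 3 - (G n).co k' i' 3 = ((G n).X i k₀ - (G n).X i' k₀) +
            ((G n).z k' - (G n).z k₀) * ((G n).c i - (G n).c i') := by
          change (G n).X i k' - (G n).X i' k' = _
          rw [(G n).X_change i k₀ k', (G n).X_change i' k₀ k']; ring
        have g1 := hk.2; have g2 := hk'.2
        rw [e1] at g1; rw [e2] at g2
        have hu : |(G n).z k' - (G n).z k₀| ≤ 2 := by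
          refine (abs_sub _ _).trans ?_
          have := (h.bd n).z k' hk'.1; have := (h.bd n).z k₀ hk₀; linarith
        have g3 := root_lin g2 g1 hu hD (by
          rw [hmul]
          nlinarith [mul_le_mul_of_nonneg_left ht1 hw0.le, mul_pos hw0 ht0])
        have g4 : ((G n).z k' - (G n).z k₀) - ((G n).z k - (G n).z k₀) =
          (G n).z k' - (G n).z k := by ring
        rw [g4, hmul] at g3
        exact le_of_mesh g3 hw0 ht0.le (by linarith)

/-- **(F1)** `β(0, x) ≥ σ x`. -/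
theorem lat_kauf {a m : ℝ} {β : ℝ → ℝ → ℝ} (h : FModel B G σ R ν) (hc : HalfCoupled ν R a m β)
    (hm : 0 < m) : ∀ x, 0 ≤ x → x ≤ R → σ * x ≤ β 0 x := by
  have hR := h.R_pos
  have hσ := h.σ_nonneg
  -- infimum of `β 0 x - σ x`
  set S : Set ℝ := (fun x => β 0 x - σ * x) '' Set.Icc 0 R with hS
  have hbdd : BddBelow S := by
    refine ⟨-(σ * R), ?_⟩
    rintro _ ⟨x, hx, rfl⟩
    have h1 := hc_beta_nonneg h hc le_rfl hx.1 hR.le hx.2
    have h2 : σ * x ≤ σ * R := mul_le_mul_of_nonneg_left hx.2 hσ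
    simp only
    linarith
  have hne : S.Nonempty := ⟨_, 0, ⟨le_rfl, hR.le⟩, rfl⟩
  set i0 := sInf S with hi0
  have hinf : ∀ x, 0 ≤ x → x ≤ R → i0 ≤ β 0 x - σ * x := fun x h0 h1 =>
    csInf_le hbdd ⟨x, ⟨h0, h1⟩, rfl⟩
  have hi0' : 0 ≤ i0 := by
    by_contra hcon
    push Not at hcon
    -- choose δ
    set δ : ℝ := min (-i0 / 8) (-i0 * m / (8 * (σ + 1))) with hδ
    have hδ0 : 0 < δ := by
      refine lt_min (by linarith) (div_pos (mul_pos (by linarith) hm) (by positivity))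
    obtain ⟨v, ⟨y, hy, rfl⟩, hv⟩ := exists_lt_of_csInf_lt hne (show sInf S < i0 + δ by linarith)
    simp only at hv
    rcases hy.1.eq_or_lt with rfl | hy0
    · rw [hc_zero h hc] at hv
      have := min_le_left (-i0 / 8) (-i0 * m / (8 * (σ + 1)))
      linarith
    obtain ⟨x', hx0, hxy, hx⟩ := lat_step h hc hy0 hy.2 hδ0
    have h1 := hinf x' hx0 (hxy.trans hy.2)
    have h2 : m * x' ≤ 2 * δ := by nlinarith
    have h3 := hc_beta_nonneg h hc le_rfl hx0 hR.le (hxy.trans hy.2)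
    -- m x' + g(x') ≤ i0 + 2δ, g(x') ≥ -σ x'
    have h4 : -(σ * x') ≤ i0 + 2 * δ := by nlinarith [mul_nonneg hm.le hx0]
    have h5 : σ * x' * m ≤ 2 * δ * σ := by nlinarith
    have h6 : δ ≤ -i0 / 8 := min_le_left _ _
    have h7 : δ ≤ -i0 * m / (8 * (σ + 1)) := min_le_right _ _
    rw [le_div_iff₀ (by positivity)] at h7
    -- σ x' ≥ -i0 - 2δ ≥ -3/4 i0
    have h8 : -i0 * (3 / 4) ≤ σ * x' := by linarith
    have h9 : -i0 * (3 / 4) * m ≤ 2 * δ * σ := (mul_le_mul_of_nonneg_right h8 hm.le).trans h5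
    nlinarith
  intro x h0 h1
  have := hinf x h0 h1
  linarith

/-! ## flat strips -/

open Classical in
/-- **(H2)** the slope function is not constant up to `ρ^y` on a set of heights of portion
`ρ^(η y)` -/
theorem no_flat {a m : ℝ} {β : ℝ → ℝ → ℝ} (h : FModel B G σ R ν) (hc : HalfCoupled ν R a m β)
    (ha : a < σ) {c₂ : ℝ} (hc₂ : 0 < c₂) (hβ : ∀ x, 0 ≤ x → x ≤ R → c₂ * x ≤ β x 0) :
    ∃ η₂ : ℝ, 0 < η₂ ∧ ∀ y, 0 < y → y ≤ R → ¬ ∀ᶠ n in (U : Filter ℕ), ∃ Z' ⊆ (G n).Z,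
      Z'.Nonempty ∧ B.d n ^ (η₂ * y) * ((G n).Z.card : ℝ) ≤ Z'.card ∧
      ∀ k ∈ Z', ∀ k' ∈ Z', |(G n).f k' - (G n).f k| ≤ B.d n ^ y := by
  have hR := h.R_pos
  have ha0 := (hc_nonneg h hc).1
  have hσ0 : 0 < σ := ha0.trans_lt ha
  obtain ⟨J, hJ⟩ : ∃ J : ℕ, 16 / min (σ - a) c₂ < J := exists_nat_gt _
  have hJ0 : (0 : ℝ) < (J : ℝ) + 1 := by positivity
  refine ⟨σ / (20 * ((J : ℝ) + 1)), by positivity, fun y hy hyR Hy => ?_⟩
  set hh : ℝ := y / ((J : ℝ) + 1) with hhh
  have hh0 : 0 < hh := by positivity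
  have hyh : ((J : ℝ) + 1) * hh = y := by rw [hhh]; field_simp
  have hηy : σ / (20 * ((J : ℝ) + 1)) * y = σ * hh / 20 := by rw [hhh]; field_simp
  rw [hηy] at Hy
  set ε : ℝ := σ * hh / 20 with hε
  have hε0 : 0 < ε := by positivity
  have hε1 : ε ≤ hh / 20 := by
    rw [hε]
    have : σ * hh ≤ 1 * hh := mul_le_mul_of_nonneg_right h.σ_le hh0.le
    linarith
  have z : (0 : ℝ) ≤ 0 ∧ (0 : ℝ) ≤ R := ⟨le_rfl, hR.le⟩
  have hxj : ∀ j ≤ J, (0 : ℝ) ≤ (j : ℝ) * hh ∧ (j : ℝ) * hh ≤ y := by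
    intro j hj
    have h1 : (j : ℝ) ≤ J := by exact_mod_cast hj
    refine ⟨by positivity, ?_⟩
    rw [← hyh]
    nlinarith
  have key := kauf_box h 0 hy.le hyR J (fun j => (j : ℝ) * hh) (bb σ hh ε J) hε0 0
    (fun l => ⟨le_rfl, hR.le⟩) (fun j => ![(j : ℝ) * hh, (j : ℝ) * hh, 0, 0])
    (fun j hj => mem4 (p := 0) ⟨(hxj j hj).1, (hxj j hj).2.trans hyR⟩
      ⟨(hxj j hj).1, (hxj j hj).2.trans hyR⟩ z z) 1
    (fun n k₀ i i' => max |(G n).N i k₀ - (G n).N i' k₀| |(G n).P i k₀ - (G n).P i' k₀|)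
    (by simp) (bb_J _ _ _ _) ?_
  · obtain ⟨j, hj, hj2⟩ := key
    have hx := hxj j hj
    have e1 := hc4 hc ⟨hx.1, hx.2.trans hyR⟩ ⟨hx.1, hx.2.trans hyR⟩ z z
    rw [e1, hc_one0 h hc hy.le hyR] at hj2
    have e2 := hβ _ hx.1 (hx.2.trans hyR)
    refine arith_end hj ha0 ha h.σ_le hc₂ (by linarith) hh0 hε0.le hε1 ?_
    rw [hyh]
    linarith
  · have hN : ((J + 1 : ℕ) : ℝ) * hh ≤ R := by push_cast; rw [hyh]; exact hyR
    filter_upwards [Hy, frost_mesh h hh0.le hN hε0, ev_const B 64 hh0] with n hZ hn hc64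
    obtain ⟨Z', hZ', hne, hcard, hf⟩ := hZ
    have hρ1 : (G n).ρ = B.d n := h.base n
    refine ⟨Z', hZ', hne, fun k₀ hk₀' => ⟨Z', subset_rfl, ?_, ?_⟩⟩
    · rw [Finset.sdiff_self, card_empty, Nat.cast_zero]
      have := dpow_pos B n (2 * ε)
      positivity
    have hk₀ := hZ' hk₀'
    intro i₀ hi₀
    have hL : ∀ i ∈ (G n).box 0 i₀ k₀, i ∈ (G n).L := fun i hi => slice_sub_L (box_sub_slice hi)
    refine ⟨fun i hi i' hi' => ?_, fun j hj i hi i' hi' hD l => ?_, fun j hj i hi i' hi' hD => ?_⟩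
    · exact max_le (abs_co_sub_le (h.bd n) (hL i' hi') (hL i hi) hk₀ 0)
        (abs_co_sub_le (h.bd n) (hL i' hi') (hL i hi) hk₀ 1)
    · have hD2 := hD
      rw [max_le_iff, abs_sub_comm, abs_sub_comm ((G n).P i k₀)] at hD2
      have hb := abs_co_sub_le (h.bd n) (hL i hi) (hL i' hi') hk₀
      rw [Nat.cast_one, one_mul]
      fin_cases l
      · exact hD2.1
      · exact hD2.2
      · simpa using hb 2
      · simpa using hb 3
    · set w := B.d n ^ (((j + 1 : ℕ) : ℝ) * hh) with hw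
      set t := B.d n ^ (((J - 1 - j : ℕ) : ℝ) * hh) with ht
      have hmul : B.d n ^ y = w * t * B.d n ^ hh := by
        rw [← hyh]; exact mesh_mul B n hj hh
      have hw0 : 0 < w := dpow_pos B n _
      have ht0 : 0 < t := dpow_pos B n _
      have ht1 : t ≤ 1 := dpow_le_one B n (by positivity)
      have hc0 : 0 < B.d n ^ hh := dpow_pos B n _
      have hT := hn (J - 1 - j) (by simp; omega)
        (Z'.filter fun k => |(G n).co k i 0 - (G n).co k i' 0| ≤ (G n).ρ ^ y)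
        ((filter_subset _ _).trans hZ') ?_
      · refine hT.trans ?_
        rw [bb_lt hj]
        rw [split_card B n (σ * (((J - 1 - j : ℕ) : ℝ) * hh)) ε]
        refine mul_le_mul (dpow_anti B n (by linarith)) hcard ?_ (dpow_pos B n _).le
        have := dpow_pos B n ε
        positivity
      · have hgen : ∀ k ∈ Z', |(G n).co k i 0 - (G n).co k i' 0| ≤ B.d n ^ y →
            |((G n).N i k₀ - (G n).N i' k₀) + ((G n).z k - (G n).z k₀) *
              ((G n).P i k₀ - (G n).P i' k₀)| ≤ 4 * B.d n ^ y := by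
          intro k hk hg
          have e1 : (G n).co k i 0 - (G n).co k i' 0 = (((G n).N i k₀ - (G n).N i' k₀) +
              ((G n).z k - (G n).z k₀) * ((G n).P i k₀ - (G n).P i' k₀)) -
              (((G n).f k - (G n).f k₀) * ((G n).X i k₀ - (G n).X i' k₀) +
              ((G n).z k - (G n).z k₀) * ((G n).f k - (G n).f k₀) * ((G n).c i - (G n).c i')) := by
            change (G n).N i k - (G n).N i' k = _
            rw [(G n).N_change i k₀ k, (G n).N_change i' k₀ k]; ring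
          rw [e1] at hg
          have hu : |(G n).z k - (G n).z k₀| ≤ 2 := by
            refine (abs_sub _ _).trans ?_
            have := (h.bd n).z k (hZ' hk); have := (h.bd n).z k₀ hk₀; linarith
          have hX : |(G n).X i k₀ - (G n).X i' k₀| ≤ 1 :=
            abs_co_sub_le (h.bd n) (hL i' hi') (hL i hi) hk₀ 3
          have hC : |(G n).c i - (G n).c i'| ≤ 1 :=
            abs_co_sub_le (h.bd n) (hL i' hi') (hL i hi) hk₀ 2
          have hg0 := hf k₀ hk₀' k hk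
          have hy0 := dpow_pos B n y
          have e2 : |((G n).f k - (G n).f k₀) * ((G n).X i k₀ - (G n).X i' k₀) +
              ((G n).z k - (G n).z k₀) * ((G n).f k - (G n).f k₀) * ((G n).c i - (G n).c i')| ≤
              B.d n ^ y * 1 + 2 * B.d n ^ y * 1 := by
            refine (abs_add_le _ _).trans ?_
            rw [abs_mul, abs_mul, abs_mul]
            gcongr
          have e3 := abs_le.1 hg
          have e4 := abs_le.1 e2
          rw [abs_le]
          constructor <;> linarith [e3.1, e3.2, e4.1, e4.2]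
        intro k hk k' hk'
        rw [mem_filter, hρ1] at hk hk'
        have g1 := hgen k hk.1 hk.2
        have g2 := hgen k' hk'.1 hk'.2
        have hu : |(G n).z k' - (G n).z k₀| ≤ 2 := by
          refine (abs_sub _ _).trans ?_
          have := (h.bd n).z k' (hZ' hk'.1); have := (h.bd n).z k₀ hk₀; linarith
        have g3 := root_lin g2 g1 hu hD (by
          rw [hmul]
          nlinarith [mul_le_mul_of_nonneg_left ht1 hw0.le, mul_pos hw0 ht0])
        have g4 : ((G n).z k' - (G n).z k₀) - ((G n).z k - (G n).z k₀) =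
          (G n).z k' - (G n).z k := by ring
        rw [g4, hmul] at g3
        exact le_of_mesh (K := 32) (c := B.d n ^ hh) (w := w) (by linarith) hw0 ht0.le (by linarith)

/-! ## sloped strips -/

open Classical in
/-- **(H1)** the slope function is not affine of slope `|μ| ≥ ρ^(η y)` up to `ρ^y` on a set of
heights of portion `ρ^(η y)` -/
theorem no_slope {a m : ℝ} {β : ℝ → ℝ → ℝ} (h : FModel B G σ R ν) (hc : HalfCoupled ν R a m β)
    (ha : a < σ) (hm : 0 < m) :
    ∃ η₁ : ℝ, 0 < η₁ ∧ ∀ y, 0 < y → y ≤ R → ¬ ∀ᶠ n in (U : Filter ℕ), ∃ Z' ⊆ (G n).Z,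
      Z'.Nonempty ∧ B.d n ^ (η₁ * y) * ((G n).Z.card : ℝ) ≤ Z'.card ∧
      ∃ μ : ℝ, B.d n ^ (η₁ * y) ≤ |μ| ∧
      ∀ k ∈ Z', ∀ k' ∈ Z', |(G n).f k' - (G n).f k - μ * ((G n).z k' - (G n).z k)| ≤
        2 * B.d n ^ y := by
  have hR := h.R_pos
  have ha0 := (hc_nonneg h hc).1
  have hσ0 : 0 < σ := ha0.trans_lt ha
  obtain ⟨J, hJ⟩ : ∃ J : ℕ, 16 / min (σ - a) m < J := exists_nat_gt _
  have hJ0 : (0 : ℝ) < (J : ℝ) + 1 := by positivity
  refine ⟨σ / (20 * ((J : ℝ) + 1)), by positivity, fun y hy hyR Hy => ?_⟩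
  set hh : ℝ := y / ((J : ℝ) + 1) with hhh
  have hh0 : 0 < hh := by positivity
  have hyh : ((J : ℝ) + 1) * hh = y := by rw [hhh]; field_simp
  have hηy : σ / (20 * ((J : ℝ) + 1)) * y = σ * hh / 20 := by rw [hhh]; field_simp
  rw [hηy] at Hy
  set ε : ℝ := σ * hh / 20 with hε
  have hε0 : 0 < ε := by positivity
  have hε1 : ε ≤ hh / 20 := by
    rw [hε]
    have : σ * hh ≤ 1 * hh := mul_le_mul_of_nonneg_right h.σ_le hh0.le
    linarith
  set s1 : ℝ := hh / 5 with hs1
  have hs10 : 0 < s1 := by positivity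
  have hs1R : s1 ≤ R := by
    rw [hs1]
    have : hh ≤ y := by
      rw [hhh]; exact div_le_self hy.le (by linarith [Nat.cast_nonneg (α := ℝ) J])
    linarith
  have z : (0 : ℝ) ≤ 0 ∧ (0 : ℝ) ≤ R := ⟨le_rfl, hR.le⟩
  have yy : (0 : ℝ) ≤ y ∧ y ≤ R := ⟨hy.le, hyR⟩
  have hxj : ∀ j ≤ J, (0 : ℝ) ≤ (j : ℝ) * hh ∧ (j : ℝ) * hh ≤ y := by
    intro j hj
    have h1 : (j : ℝ) ≤ J := by exact_mod_cast hj
    refine ⟨by positivity, ?_⟩
    rw [← hyh]
    nlinarith
  have key := kauf_box h 0 hy.le hyR J (fun j => (j : ℝ) * hh) (bb σ hh ε J) hε0 ![0, y, 0, y]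
    (mem4 (p := 0) z yy z yy) (fun j => ![(j : ℝ) * hh, y, (j : ℝ) * hh, y])
    (fun j hj => mem4 (p := 0) ⟨(hxj j hj).1, (hxj j hj).2.trans hyR⟩ yy
      ⟨(hxj j hj).1, (hxj j hj).2.trans hyR⟩ yy) 2
    (fun n k₀ i i' => max |(G n).N i k₀ - (G n).N i' k₀| |(G n).c i - (G n).c i'|)
    (by simp) (bb_J _ _ _ _) ?_
  · obtain ⟨j, hj, hj2⟩ := key
    have hx := hxj j hj
    have e1 := hc4 hc ⟨hx.1, hx.2.trans hyR⟩ yy ⟨hx.1, hx.2.trans hyR⟩ yy
    have e2 := hc4 hc z yy z yy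
    rw [e1, e2, hc_one0 h hc hy.le hyR] at hj2
    refine arith_end hj ha0 ha h.σ_le hm (by linarith) hh0 hε0.le hε1 ?_
    rw [hyh]
    linarith
  · have hN : ((J + 1 : ℕ) : ℝ) * hh ≤ R := by push_cast; rw [hyh]; exact hyR
    filter_upwards [Hy, frost_mesh h hh0.le hN hε0, ev_const B 64 hh0,
      h.frost s1 hs10.le hs1R ε hε0,
      ev_const B 416 (show 0 < hh - 2 * s1 - ε by rw [hs1]; linarith),
      ev_const B 2 hε0] with n hZ hn hc64 hfr hc416 hc2
    obtain ⟨Z', hZ', hne, hcard, μ, hμ, hf⟩ := hZ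
    have hρ1 : (G n).ρ = B.d n := h.base n
    have hZ'c : (0 : ℝ) < Z'.card := by exact_mod_cast card_pos.2 hne
    refine ⟨Z', hZ', hne, fun k₀ hk₀' =>
      ⟨Z'.filter fun k => B.d n ^ s1 < |(G n).z k - (G n).z k₀|, filter_subset _ _, ?_, ?_⟩⟩
    · have hk₀ := hZ' hk₀'
      have e1 : ((Z' \ Z'.filter fun k => B.d n ^ s1 < |(G n).z k - (G n).z k₀|).card : ℝ) ≤
          (((G n).hbox s1 k₀).card : ℝ) := by
        have : (Z' \ Z'.filter fun k => B.d n ^ s1 < |(G n).z k - (G n).z k₀|) ⊆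
            (G n).hbox s1 k₀ := by
          intro k hk
          rw [Finset.mem_sdiff, mem_filter] at hk
          unfold Cfg.hbox
          rw [mem_filter, hρ1]
          refine ⟨hZ' hk.1, ?_⟩
          by_contra hcon
          exact hk.2 ⟨hk.1, not_le.1 hcon⟩
        exact_mod_cast card_le_card this
      refine e1.trans ((hfr k₀ hk₀).trans ?_)
      rw [split_card B n (σ * s1) ε]
      refine mul_le_mul (dpow_anti B n ?_) hcard ?_ (dpow_pos B n _).le
      · rw [hε, hs1]; linarith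
      · have := dpow_pos B n ε
        positivity
    have hk₀ := hZ' hk₀'
    intro i₀ hi₀
    have hL : ∀ i ∈ (G n).box ![0, y, 0, y] i₀ k₀, i ∈ (G n).L := fun i hi =>
      slice_sub_L (box_sub_slice hi)
    have hP2 : ∀ i ∈ (G n).box ![0, y, 0, y] i₀ k₀, ∀ i' ∈ (G n).box ![0, y, 0, y] i₀ k₀,
        |(G n).P i' k₀ - (G n).P i k₀| ≤ 2 * B.d n ^ y ∧
        |(G n).X i' k₀ - (G n).X i k₀| ≤ 2 * B.d n ^ y := by
      intro i hi i' hi'
      have g1 := (mem_box.1 hi).2
      have g2 := (mem_box.1 hi').2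
      have a1 := g1 1; have a2 := g2 1; have b1 := g1 3; have b2 := g2 3
      rw [hρ1] at a1 a2 b1 b2
      have a1' : |(G n).P i k₀ - (G n).P i₀ k₀| ≤ B.d n ^ y := a1
      have a2' : |(G n).P i' k₀ - (G n).P i₀ k₀| ≤ B.d n ^ y := a2
      have b1' : |(G n).X i k₀ - (G n).X i₀ k₀| ≤ B.d n ^ y := b1
      have b2' : |(G n).X i' k₀ - (G n).X i₀ k₀| ≤ B.d n ^ y := b2
      rw [abs_le] at a1' a2' b1' b2' ⊢
      rw [abs_le]
      refine ⟨⟨?_, ?_⟩, ?_, ?_⟩ <;> linarith [a1'.1, a1'.2, a2'.1, a2'.2, b1'.1, b1'.2, b2'.1, b2'.2]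
    refine ⟨fun i hi i' hi' => ?_, fun j hj i hi i' hi' hD l => ?_, fun j hj i hi i' hi' hD => ?_⟩
    · exact max_le (abs_co_sub_le (h.bd n) (hL i' hi') (hL i hi) hk₀ 0)
        (abs_co_sub_le (h.bd n) (hL i' hi') (hL i hi) hk₀ 2)
    · have hD2 := hD
      rw [max_le_iff, abs_sub_comm, abs_sub_comm ((G n).c i)] at hD2
      have hpos := dpow_pos B n ((j : ℝ) * hh)
      push_cast
      fin_cases l
      · exact hD2.1.trans (show B.d n ^ ((j : ℝ) * hh) ≤ 2 * B.d n ^ ((j : ℝ) * hh) by linarith)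
      · exact (hP2 i hi i' hi').1
      · exact hD2.2.trans (show B.d n ^ ((j : ℝ) * hh) ≤ 2 * B.d n ^ ((j : ℝ) * hh) by linarith)
      · exact (hP2 i hi i' hi').2
    · set w := B.d n ^ (((j + 1 : ℕ) : ℝ) * hh) with hw
      set t := B.d n ^ (((J - 1 - j : ℕ) : ℝ) * hh) with ht
      have hmul : B.d n ^ y = w * t * B.d n ^ hh := by
        rw [← hyh]; exact mesh_mul B n hj hh
      have hw0 : 0 < w := dpow_pos B n _
      have ht0 : 0 < t := dpow_pos B n _
      have ht1 : t ≤ 1 := dpow_le_one B n (by positivity)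
      have hc0 : 0 < B.d n ^ hh := dpow_pos B n _
      have hy0 := dpow_pos B n y
      have hs0 := dpow_pos B n s1
      have hy1 : B.d n ^ y ≤ 1 := dpow_le_one B n hy.le
      have hzz : ∀ k ∈ Z', |(G n).z k - (G n).z k₀| ≤ 2 := by
        intro k hk
        refine (abs_sub _ _).trans ?_
        have := (h.bd n).z k (hZ' hk); have := (h.bd n).z k₀ hk₀; linarith
      have hff : ∀ k ∈ Z', |(G n).f k - (G n).f k₀| ≤ 2 := by
        intro k hk
        refine (abs_sub _ _).trans ?_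
        have := (h.bd n).f k (hZ' hk); have := (h.bd n).f k₀ hk₀; linarith
      set K := Z'.filter fun k => B.d n ^ s1 < |(G n).z k - (G n).z k₀| with hK
      set T := K.filter fun k => |(G n).co k i 0 - (G n).co k i' 0| ≤ (G n).ρ ^ y with hT
      -- the quadratic inequality
      have hgen : ∀ k ∈ T, |((G n).N i k₀ - (G n).N i' k₀) - μ * ((G n).z k - (G n).z k₀) ^ 2 *
              ((G n).c i - (G n).c i')| ≤ 13 * B.d n ^ y := by
        intro k hk
        rw [hT, mem_filter, hK, mem_filter, hρ1] at hk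
        have hk1 : k ∈ Z' := hk.1.1
        have hg := hk.2
        have e1 : ((G n).N i k₀ - (G n).N i' k₀) - μ * ((G n).z k - (G n).z k₀) ^ 2 *
              ((G n).c i - (G n).c i') = ((G n).co k i 0 - (G n).co k i' 0) -
            ((G n).z k - (G n).z k₀) * ((G n).P i k₀ - (G n).P i' k₀) +
            ((G n).f k - (G n).f k₀) * ((G n).X i k₀ - (G n).X i' k₀) +
            ((G n).z k - (G n).z k₀) * ((G n).f k - (G n).f k₀ -
              μ * ((G n).z k - (G n).z k₀)) * ((G n).c i - (G n).c i') := by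
          change _ = (G n).N i k - (G n).N i' k - _ + _ + _
          rw [(G n).N_change i k₀ k, (G n).N_change i' k₀ k]; ring
        rw [e1]
        have hu := hzz k hk1
        have hg2 := hff k hk1
        have hC : |(G n).c i - (G n).c i'| ≤ 1 :=
          abs_co_sub_le (h.bd n) (hL i' hi') (hL i hi) hk₀ 2
        obtain ⟨hP, hX⟩ := hP2 i' hi' i hi
        have hfm := hf k₀ hk₀' k hk1
        calc _ ≤ |(G n).co k i 0 - (G n).co k i' 0| +
            |((G n).z k - (G n).z k₀) * ((G n).P i k₀ - (G n).P i' k₀)| +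
            |((G n).f k - (G n).f k₀) * ((G n).X i k₀ - (G n).X i' k₀)| +
            |((G n).z k - (G n).z k₀) * ((G n).f k - (G n).f k₀ -
              μ * ((G n).z k - (G n).z k₀)) * ((G n).c i - (G n).c i')| := by
              refine (abs_add_le _ _).trans (add_le_add_left ?_ _)
              refine (abs_add_le _ _).trans (add_le_add_left ?_ _)
              exact abs_sub _ _
          _ ≤ B.d n ^ y + 2 * (2 * B.d n ^ y) + 2 * (2 * B.d n ^ y) + 2 * (2 * B.d n ^ y) * 1 := by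
              rw [abs_mul, abs_mul, abs_mul, abs_mul]
              gcongr
          _ = 13 * B.d n ^ y := by ring
      -- bound for μ
      have hμM : ∀ k ∈ T, |μ| ≤ 4 * B.d n ^ (-s1) := by
        intro k hk
        rw [hT, mem_filter, hK, mem_filter] at hk
        have hk1 : k ∈ Z' := hk.1.1
        have hk2 := hk.1.2
        have hfm := hf k₀ hk₀' k hk1
        have hg2 := hff k hk1
        have e1 : |μ| * B.d n ^ s1 ≤ 4 := by
          calc |μ| * B.d n ^ s1 ≤ |μ| * |(G n).z k - (G n).z k₀| :=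
                mul_le_mul_of_nonneg_left hk2.le (abs_nonneg _)
            _ = |μ * ((G n).z k - (G n).z k₀)| := (abs_mul _ _).symm
            _ = |((G n).f k - (G n).f k₀) - ((G n).f k - (G n).f k₀ -
                μ * ((G n).z k - (G n).z k₀))| := by ring_nf
            _ ≤ |(G n).f k - (G n).f k₀| + |(G n).f k - (G n).f k₀ -
                μ * ((G n).z k - (G n).z k₀)| := abs_sub _ _
            _ ≤ 4 := by linarith
        have e2 : B.d n ^ s1 * B.d n ^ (-s1) = 1 := by rw [← dpow_add]; simp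
        calc |μ| = |μ| * B.d n ^ s1 * B.d n ^ (-s1) := by rw [mul_assoc, e2, mul_one]
          _ ≤ 4 * B.d n ^ (-s1) := mul_le_mul_of_nonneg_right e1 (dpow_pos B n _).le
      -- one sign
      have hsgn : ∀ T' ⊆ T, (∀ k ∈ T', ∀ k' ∈ T',
          (B.d n ^ s1 ≤ (G n).z k - (G n).z k₀ ∧ B.d n ^ s1 ≤ (G n).z k' - (G n).z k₀) ∨
          ((G n).z k - (G n).z k₀ ≤ -B.d n ^ s1 ∧ (G n).z k' - (G n).z k₀ ≤ -B.d n ^ s1)) →
          (T'.card : ℝ) ≤ B.d n ^ (σ * (((J - 1 - j : ℕ) : ℝ) * hh) - ε) * (G n).Z.card := by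
        intro T' hT' hs
        refine hn (J - 1 - j) (by simp; omega) T'
          (((hT'.trans (filter_subset _ _)).trans (filter_subset _ _)).trans hZ') ?_
        intro k hk k' hk'
        have hkT := hT' hk
        have hkT' := hT' hk'
        have g1 := hgen k hkT
        have g2 := hgen k' hkT'
        have hk2 : k ∈ Z' := by
          rw [hT, mem_filter, hK, mem_filter] at hkT; exact hkT.1.1
        have hk2' : k' ∈ Z' := by
          rw [hT, mem_filter, hK, mem_filter] at hkT'; exact hkT'.1.1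
        have hM1 : (1 : ℝ) ≤ 4 * B.d n ^ (-s1) := by
          have := one_le_dpow B n (show -s1 ≤ 0 by linarith)
          linarith
        have g3 := root_sq g2 g1 (hzz k' hk2') hM1 (hμM k hkT) hμ (dpow_pos B n ε) hs0
          (hs k' hk' k hk) hw0 hD (by
            rw [hmul]
            nlinarith [mul_le_mul_of_nonneg_left ht1 hw0.le, mul_pos hw0 ht0])
        have g4 : ((G n).z k' - (G n).z k₀) - ((G n).z k - (G n).z k₀) =
          (G n).z k' - (G n).z k := by ring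
        rw [g4, hmul] at g3
        refine le_of_mesh (K := 416) (c := B.d n ^ (hh - 2 * s1 - ε)) (w := w) ?_ hw0 ht0.le hc416
        have e5 : B.d n ^ (hh - 2 * s1 - ε) * (B.d n ^ ε * B.d n ^ s1) =
            B.d n ^ (-s1) * B.d n ^ hh := by
          rw [← dpow_add, ← dpow_add, ← dpow_add]; congr 1; ring
        have e6 : 0 < B.d n ^ ε * B.d n ^ s1 := mul_pos (dpow_pos B n _) (dpow_pos B n _)
        refine le_of_mul_le_mul_right ?_ e6
        calc |(G n).z k' - (G n).z k| * w * (B.d n ^ ε * B.d n ^ s1)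
            = |(G n).z k' - (G n).z k| * (B.d n ^ ε * B.d n ^ s1 * w) := by ring
          _ ≤ 8 * (4 * B.d n ^ (-s1)) * (13 * (w * t * B.d n ^ hh)) := g3
          _ = 416 * (w * t * (B.d n ^ (-s1) * B.d n ^ hh)) := by ring
          _ = 416 * (w * t * (B.d n ^ (hh - 2 * s1 - ε) * (B.d n ^ ε * B.d n ^ s1))) := by
              rw [e5]
          _ = _ := by ring
      have hTp := hsgn (T.filter fun k => (G n).z k₀ < (G n).z k) (filter_subset _ _) (by
        intro k hk k' hk'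
        rw [mem_filter, hT, mem_filter, hK, mem_filter] at hk hk'
        left
        constructor
        · have := hk.1.1.2; rw [abs_of_pos (sub_pos.2 hk.2)] at this; exact this.le
        · have := hk'.1.1.2; rw [abs_of_pos (sub_pos.2 hk'.2)] at this; exact this.le)
      have hTm := hsgn (T.filter fun k => ¬ (G n).z k₀ < (G n).z k) (filter_subset _ _) (by
        intro k hk k' hk'
        rw [mem_filter, hT, mem_filter, hK, mem_filter] at hk hk'
        right
        constructor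
        · have := hk.1.1.2
          rw [abs_of_nonpos (sub_nonpos.2 (not_lt.1 hk.2))] at this; linarith
        · have := hk'.1.1.2
          rw [abs_of_nonpos (sub_nonpos.2 (not_lt.1 hk'.2))] at this; linarith)
      have hsum : (T.card : ℝ) = (T.filter fun k => (G n).z k₀ < (G n).z k).card +
          (T.filter fun k => ¬ (G n).z k₀ < (G n).z k).card := by
        exact_mod_cast (card_filter_add_card_filter_not (s := T) _).symm
      rw [bb_lt hj]
      exact final_count B n hZ'c.le hc2 hcard (by rw [hsum]; linarith)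

end Crest.Agent.R138.TwD501
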