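import Mathlib
import Crest.Agent.R138.Fac_953
import Crest.Agent.R138.Uni_926

/-!
# R138: uniform configurations (helper210), purely finite

Incidence set `I` (unweighted), levels `v : ℕ`, at level `v` the incidences have objects
`o v : ι → O v` (e.g. a line together with the cell of the incidence at level `v`), and objects may
lie in boxes `κ v`.  Alternate greedy factoring (`Fac_953`) and uniformisation (`Uni_926`): the
result is a subset of `I` of logarithmic portion such that at every level every object has a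
labelled box of (nearly) maximal density, and all label classes have comparable masses.
-/

set_option autoImplicit false
set_option linter.unusedSectionVars false
set_option linter.unusedVariables false

open Finset

namespace Crest.Agent.R138.UConf210

open Crest.Agent.R138.Fac953 Crest.Agent.R138.Ex926

universe u w

variable {ι : Type*} [DecidableEq ι]

/-- uniformisation for labels with values in different types. -/
theorem uniformise_dep {J : Type*} [Fintype J] [DecidableEq J] {κ : J → Type*}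
    [∀ j, DecidableEq (κ j)] (I : Finset ι) (hI : I.Nonempty) (f : ∀ j, ι → κ j) {H : ℕ}
    (hH : I.card < 2 ^ (H + 1)) :
    ∃ I' ⊆ I, I'.Nonempty ∧
      (I.card : ℝ) ≤ 2 * ((H : ℝ) + 1) ^ Fintype.card J * I'.card ∧
      ∃ M : J → ℝ, (∀ j, 1 ≤ M j) ∧ ∀ j, ∀ i ∈ I',
        M j ≤ (cls I (f j) i).card ∧ ((cls I (f j) i).card : ℝ) ≤ 2 * M j ∧
        M j ≤ 2 * (Fintype.card J) * ((H : ℝ) + 1) ^ Fintype.card J * (cls I' (f j) i).card := by
  classical
  obtain ⟨I', h1, h2, h3, M, h4, h5⟩ := uniformise_card (J := J) (κ := Σ j, κ j) I hI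
    (fun j i => ⟨j, f j i⟩) hH
  have hc : ∀ (A : Finset ι) (j : J) (i : ι),
      cls A (fun i => (⟨j, f j i⟩ : Σ j, κ j)) i = cls A (f j) i := by
    intro A j i
    ext x
    simp [cls]
  refine ⟨I', h1, h2, h3, M, h4, fun j i hi => ?_⟩
  have := h5 j i hi
  rw [hc, hc] at this
  exact this

/-- the objects of level `o` in the set `A` which have the same `f`-value as `x`. -/
def objs {O : Type*} [DecidableEq O] (A : Finset ι) (o : ι → O) (f : O → ℕ) (n : ℕ) : Finset O :=
  (A.image o).filter fun x => f x = n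

theorem objs_mono {O : Type*} [DecidableEq O] {A B : Finset ι} (h : A ⊆ B) (o : ι → O) (f : O → ℕ)
    (n : ℕ) : objs A o f n ⊆ objs B o f n :=
  filter_subset_filter _ (image_subset_image h)

/-- the number of objects of `A` in the box `L`. -/
noncomputable def nIn {O κ : Type*} [DecidableEq O] (M : O → κ → Prop) (A : Finset ι) (o : ι → O)
    (L : κ) : ℕ :=
  (@Finset.filter O (fun x => M x L) (Classical.decPred _) (A.image o)).card

theorem nIn_mono {O κ : Type*} [DecidableEq O] (M : O → κ → Prop) {A B : Finset ι} (h : A ⊆ B)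
    (o : ι → O) (L : κ) : nIn M A o L ≤ nIn M B o L := by
  unfold nIn
  apply card_le_card
  intro x hx
  have h1 := (@mem_filter O (fun x => M x L) (Classical.decPred _) _ x).1 hx
  exact (@mem_filter O (fun x => M x L) (Classical.decPred _) _ x).2
    ⟨image_subset_image h h1.1, h1.2⟩

/-- the stage set of one level. -/
structure Stage {O κ Λ : Type*} [DecidableEq O] (M : O → κ → Prop) (c : κ → ℝ) (ℓ : κ → Λ)
    (o : ι → O) (I : Finset ι) (D N : ℝ) (f : O → ℕ) (K : ℕ → κ) (l : Λ) : Prop where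
  D_pos : 0 < D
  N_pos : 1 ≤ N
  mem : ∀ i ∈ I, M (o i) (K (f (o i)))
  lab : ∀ i ∈ I, ℓ (K (f (o i))) = l
  glob : ∀ L, (nIn M I o L : ℝ) ≤ 4 * D * c L
  lo : ∀ i ∈ I, D * c (K (f (o i))) ≤ (objs I o f (f (o i))).card
  hi : ∀ i ∈ I, ((objs I o f (f (o i))).card : ℝ) ≤ 2 * D * c (K (f (o i)))
  Nlo : ∀ i ∈ I, N ≤ (cls I o i).card
  Nhi : ∀ i ∈ I, ((cls I o i).card : ℝ) ≤ 2 * N

/-- one stage: dyadic pigeonholing of the object masses and greedy factoring. -/
theorem exists_stage {O κ Λ : Type*} [DecidableEq O] [Nonempty κ] [Fintype Λ]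
    (M : O → κ → Prop) (c : κ → ℝ) (c0 : ℝ) (hc0 : 0 < c0) (hc : ∀ K, c0 ≤ c K) (ℓ : κ → Λ)
    (o : ι → O) (I : Finset ι) (hI : I.Nonempty) {H : ℕ} (hH : I.card < 2 ^ (H + 1))
    (dmin dmax : ℝ) (hdmin : 0 < dmin)
    (hd0 : ∀ i ∈ I, ∃ L, M (o i) L ∧ dmin * c L ≤ 1)
    (hd1 : ∀ L, (nIn M I o L : ℝ) ≤ dmax * c L) :
    ∃ (I' : Finset ι) (D N : ℝ) (f : O → ℕ) (K : ℕ → κ) (l : Λ),
      I' ⊆ I ∧ I'.Nonempty ∧ dmin / 4 ≤ D ∧ D ≤ dmax ∧ Stage M c ℓ o I' D N f K l ∧
      (I.card : ℝ) ≤ (2 * ((H : ℝ) + 1) *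
        (Fintype.card Λ * (Real.logb 2 (dmax / dmin) + 3))) * I'.card := by
  classical
  -- step 1: dyadic pigeonholing of class sizes
  set s : ι → ℕ := fun i => Nat.log 2 (cls I o i).card with hs
  have hmaps : ∀ i ∈ I, s i ∈ range (H + 1) := by
    intro i hi
    rw [mem_range]
    have h1 : (cls I o i).card < 2 ^ (H + 1) := (card_le_card (cls_subset _ _ _)).trans_lt hH
    have h0 : (cls I o i).card ≠ 0 := by
      rw [card_ne_zero]; exact ⟨i, mem_cls.2 ⟨hi, rfl⟩⟩
    exact (Nat.log_lt_iff_lt_pow one_lt_two h0).2 h1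
  obtain ⟨k, hk, hkc⟩ := exists_le_card_fiber_of_nsmul_le_card_of_maps_to hmaps
    (by simp) (b := (I.card : ℝ) / ((H : ℝ) + 1)) (by
      rw [card_range, nsmul_eq_mul]
      push_cast
      rw [mul_div_cancel₀ _ (by positivity)])
  set I₁ := I.filter fun i => s i = k with hI₁
  have hI₁I : I₁ ⊆ I := filter_subset _ _
  have hcard1 : (I.card : ℝ) ≤ ((H : ℝ) + 1) * I₁.card := by
    rw [div_le_iff₀ (by positivity)] at hkc
    linarith
  have hIpos : (0 : ℝ) < I.card := by exact_mod_cast hI.card_pos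
  have hI₁pos : (0 : ℝ) < I₁.card := by
    by_contra h
    push Not at h
    have : ((H : ℝ) + 1) * I₁.card ≤ 0 := mul_nonpos_of_nonneg_of_nonpos (by positivity) h
    linarith
  have hI₁ne : I₁.Nonempty := by
    rw [← card_pos]; exact_mod_cast hI₁pos
  -- classes in `I₁` are the classes in `I`
  have hcls : ∀ i ∈ I₁, cls I₁ o i = cls I o i := by
    intro i hi
    refine Subset.antisymm (cls_mono hI₁I _ _) ?_
    intro x hx
    rw [mem_cls] at hx ⊢
    refine ⟨mem_filter.2 ⟨hx.1, ?_⟩, hx.2⟩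
    have h1 : s x = s i := by
      simp only [hs]
      rw [cls_congr hx.2]
    rw [h1]
    exact (mem_filter.1 hi).2
  set N : ℝ := 2 ^ k with hN
  have hNlo : ∀ i ∈ I₁, N ≤ (cls I o i).card := by
    intro i hi
    have h0 : (cls I o i).card ≠ 0 := by
      rw [card_ne_zero]; exact ⟨i, mem_cls.2 ⟨hI₁I hi, rfl⟩⟩
    have h1 : 2 ^ s i ≤ (cls I o i).card := Nat.pow_log_le_self 2 h0
    rw [(mem_filter.1 hi).2] at h1
    rw [hN]
    exact_mod_cast h1
  have hNhi : ∀ i ∈ I₁, ((cls I o i).card : ℝ) ≤ 2 * N := by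
    intro i hi
    have h1 : (cls I o i).card < 2 ^ (s i + 1) := Nat.lt_pow_succ_log_self one_lt_two _
    rw [(mem_filter.1 hi).2] at h1
    have h2 : ((cls I o i).card : ℝ) ≤ 2 ^ (k + 1) := by exact_mod_cast h1.le
    rw [pow_succ] at h2
    linarith
  -- step 2: greedy factoring of the objects
  have hAne : (I₁.image o).Nonempty := hI₁ne.image o
  obtain ⟨S, D, f, K, J, l, hSA, hSne, hD, hD1, hD2, hF, hlab, hsum⟩ :=
    exists_fac M c c0 hc0 hc (fun _ => (1 : ℝ)) (I₁.image o) hAne (fun _ _ => one_pos) dmin dmax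
      hdmin (by
        intro x hx
        obtain ⟨i, hi, rfl⟩ := mem_image.1 hx
        exact hd0 i (hI₁I hi)) (by
        intro L
        unfold wIn
        rw [sum_const, nsmul_eq_mul, mul_one]
        refine le_trans ?_ (hd1 L)
        have := nIn_mono M hI₁I o L
        unfold nIn at this ⊢
        refine le_trans (le_of_eq ?_) (Nat.cast_le.2 this)
        congr!) ℓ
  rw [sum_const, sum_const, nsmul_eq_mul, nsmul_eq_mul, mul_one, mul_one] at hsum
  set P : ℝ := Fintype.card Λ * (Real.logb 2 (dmax / dmin) + 3) with hP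
  set I' := I₁.filter fun i => o i ∈ S with hI'
  have hI'I₁ : I' ⊆ I₁ := filter_subset _ _
  have himg : I'.image o = S := by
    ext x
    constructor
    · intro hx
      obtain ⟨i, hi, rfl⟩ := mem_image.1 hx
      exact (mem_filter.1 hi).2
    · intro hx
      obtain ⟨i, hi, rfl⟩ := mem_image.1 (hSA hx)
      exact mem_image_of_mem _ (mem_filter.2 ⟨hi, hx⟩)
  have hcls' : ∀ i ∈ I', cls I' o i = cls I o i := by
    intro i hi
    rw [← hcls i (hI'I₁ hi)]
    refine Subset.antisymm (cls_mono hI'I₁ _ _) ?_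
    intro x hx
    rw [mem_cls] at hx ⊢
    refine ⟨mem_filter.2 ⟨hx.1, ?_⟩, hx.2⟩
    rw [hx.2]
    exact (mem_filter.1 hi).2
  have hI'ne : I'.Nonempty := by
    have : (I'.image o).Nonempty := by rw [himg]; exact hSne
    exact image_nonempty.1 this
  -- masses
  have hm1 : N * (S.card : ℝ) ≤ I'.card := by
    have h1 := mul_card_image_le (Subset.refl I') (fun _ => (1 : ℝ)) (fun _ _ => zero_le_one) o
      (M := N) (fun i hi => by
        rw [sum_const, nsmul_eq_mul, mul_one, hcls' i hi]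
        exact hNlo i (hI'I₁ hi))
    rw [sum_const, nsmul_eq_mul, mul_one, himg] at h1
    exact h1
  have hm2 : (I₁.card : ℝ) ≤ 2 * N * ((I₁.image o).card : ℝ) := by
    have h1 := le_count_mul I₁ (fun _ => (1 : ℝ)) o (m := 2 * N) (fun i hi => by
        rw [sum_const, nsmul_eq_mul, mul_one, hcls i hi]
        exact hNhi i hi)
    rw [sum_const, nsmul_eq_mul, mul_one] at h1
    exact h1
  have hNpos : 0 < N := by positivity
  have hPnn : 0 ≤ P := by
    by_contra h
    push Not at h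
    have h1 : (0 : ℝ) < (I₁.image o).card := by exact_mod_cast hAne.card_pos
    have h2 : P * (S.card : ℝ) ≤ 0 := mul_nonpos_of_nonpos_of_nonneg h.le (Nat.cast_nonneg _)
    linarith
  refine ⟨I', D, N, f, K, l, hI'I₁.trans hI₁I, hI'ne, hD1, hD2,
    ⟨hD, one_le_pow₀ (by norm_num), ?_, ?_, ?_, ?_, ?_, ?_, ?_⟩, ?_⟩
  · intro i hi
    exact hF.mem (o i) (mem_filter.1 hi).2
  · intro i hi
    exact hlab _ (hF.maps (o i) (mem_filter.1 hi).2)
  · intro L
    have := hF.glob L
    unfold wIn at this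
    rw [sum_const, nsmul_eq_mul, mul_one] at this
    unfold nIn
    rw [himg]
    convert this using 2
  · intro i hi
    have := hF.lo _ (hF.maps (o i) (mem_filter.1 hi).2)
    unfold wAt at this
    rw [sum_const, nsmul_eq_mul, mul_one] at this
    unfold objs
    rw [himg]
    convert this using 2
  · intro i hi
    have := (hF.hi _ (hF.maps (o i) (mem_filter.1 hi).2)).le
    unfold wAt at this
    rw [sum_const, nsmul_eq_mul, mul_one] at this
    unfold objs
    rw [himg]
    convert this using 2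
  · intro i hi
    rw [hcls' i hi]
    exact hNlo i (hI'I₁ hi)
  · intro i hi
    rw [hcls' i hi]
    exact hNhi i (hI'I₁ hi)
  · calc (I.card : ℝ) ≤ ((H : ℝ) + 1) * I₁.card := hcard1
      _ ≤ ((H : ℝ) + 1) * (2 * N * ((I₁.image o).card : ℝ)) := by gcongr
      _ ≤ ((H : ℝ) + 1) * (2 * N * (P * S.card)) := by gcongr
      _ = (2 * ((H : ℝ) + 1) * P) * (N * S.card) := by ring
      _ ≤ (2 * ((H : ℝ) + 1) * P) * I'.card := by gcongr

theorem mem_filt {ι : Type*} (p : ι → Prop) (d : DecidablePred p) (A : Finset ι) (x : ι) :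
    x ∈ @Finset.filter ι p d A ↔ x ∈ A ∧ p x := @mem_filter ι p d A x

/-- uniformisation for arbitrary equivalence relations. -/
theorem uniformise_rel {J : Type*} [Fintype J] [DecidableEq J] (I : Finset ι) (hI : I.Nonempty)
    (r : J → ι → ι → Prop) [∀ j, DecidableRel (r j)] (hr : ∀ j, Equivalence (r j)) {H : ℕ}
    (hH : I.card < 2 ^ (H + 1)) :
    ∃ I' ⊆ I, I'.Nonempty ∧
      (I.card : ℝ) ≤ 2 * ((H : ℝ) + 1) ^ Fintype.card J * I'.card ∧
      ∃ M : J → ℝ, (∀ j, 1 ≤ M j) ∧ ∀ j, ∀ i ∈ I',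
        M j ≤ (I.filter (r j i)).card ∧ ((I.filter (r j i)).card : ℝ) ≤ 2 * M j ∧
        M j ≤ 2 * (Fintype.card J) * ((H : ℝ) + 1) ^ Fintype.card J * (I'.filter (r j i)).card := by
  classical
  obtain ⟨I', h1, h2, h3, M, h4, h5⟩ := uniformise_card (J := J) (κ := Finset ι) I hI
    (fun j i => I.filter (r j i)) hH
  have hc : ∀ (A : Finset ι), A ⊆ I → ∀ (j : J) (i : ι), i ∈ I →
      cls A (fun i => I.filter (r j i)) i = A.filter (r j i) := by
    intro A hA j i hi
    ext x
    rw [mem_cls, mem_filter]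
    constructor
    · rintro ⟨hx, he⟩
      refine ⟨hx, ?_⟩
      have : x ∈ I.filter (r j x) := mem_filter.2 ⟨hA hx, (hr j).refl x⟩
      rw [he] at this
      exact (mem_filter.1 this).2
    · rintro ⟨hx, hrx⟩
      refine ⟨hx, ?_⟩
      ext y
      simp only [mem_filter]
      constructor
      · rintro ⟨hy, h⟩; exact ⟨hy, (hr j).trans hrx h⟩
      · rintro ⟨hy, h⟩; exact ⟨hy, (hr j).trans ((hr j).symm hrx) h⟩
  refine ⟨I', h1, h2, h3, M, h4, fun j i hi => ?_⟩
  have := h5 j i hi
  rw [hc I (Subset.refl _) j i (h1 hi), hc I' h1 j i (h1 hi)] at this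
  exact this

/-- all stages, one after the other. -/
theorem exists_stages (n : ℕ) {O : ℕ → Type u} {κ : ℕ → Type w} {Λ : Type*}
    [∀ v, DecidableEq (O v)] [∀ v, Nonempty (κ v)] [Fintype Λ]
    (M : ∀ v, O v → κ v → Prop) (c : ∀ v, κ v → ℝ) (c0 : ℝ) (hc0 : 0 < c0)
    (hc : ∀ v K, c0 ≤ c v K) (ℓ : ∀ v, κ v → Λ)
    (o : ∀ v, ι → O v) (I : Finset ι) (hI : I.Nonempty) {H : ℕ} (hH : I.card < 2 ^ (H + 1))
    (dmin dmax : ℝ) (hdmin : 0 < dmin)
    (hd0 : ∀ v < n, ∀ i ∈ I, ∃ L, M v (o v i) L ∧ dmin * c v L ≤ 1)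
    (hd1 : ∀ v < n, ∀ L, (nIn (M v) I (o v) L : ℝ) ≤ dmax * c v L) :
    ∃ (I' : Finset ι) (St : ℕ → Finset ι) (D N : ℕ → ℝ) (f : ∀ v, O v → ℕ)
      (K : ∀ v, ℕ → κ v) (l : ℕ → Λ),
      I' ⊆ I ∧ I'.Nonempty ∧
      (I.card : ℝ) ≤ (2 * ((H : ℝ) + 1) *
        (Fintype.card Λ * (Real.logb 2 (dmax / dmin) + 3))) ^ n * I'.card ∧
      ∀ v < n, St v ⊆ I ∧ I' ⊆ St v ∧ dmin / 4 ≤ D v ∧ D v ≤ dmax ∧
        Stage (M v) (c v) (ℓ v) (o v) (St v) (D v) (N v) (f v) (K v) (l v) := by
  classical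
  induction n with
  | zero =>
    exact ⟨I, fun _ => I, fun _ => 0, fun _ => 0, fun _ _ => 0,
      fun v _ => Classical.arbitrary (κ v), fun _ => ℓ 0 (Classical.arbitrary (κ 0)),
      Subset.refl _, hI, by simp, fun v hv => absurd hv (Nat.not_lt_zero v)⟩
  | succ n ih =>
    obtain ⟨I', St, D, N, f, K, l, h1, h2, h3, h4⟩ := ih (fun v hv => hd0 v (by omega))
      (fun v hv => hd1 v (by omega))
    obtain ⟨I'', D', N', f', K', l', g1, g2, g3, g4, g5, g6⟩ := exists_stage (M n) (c n) c0 hc0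
      (hc n) (ℓ n) (o n) I' h2 (H := H) ((card_le_card h1).trans_lt hH) dmin dmax hdmin
      (fun i hi => hd0 n (by omega) i (h1 hi)) (fun L => by
        have := nIn_mono (M n) h1 (o n) L
        exact le_trans (Nat.cast_le.2 this) (hd1 n (by omega) L))
    set P : ℝ := 2 * ((H : ℝ) + 1) * (Fintype.card Λ * (Real.logb 2 (dmax / dmin) + 3)) with hP
    have hPpos : 0 < P := by
      by_contra h
      push Not at h
      have h5 : (0 : ℝ) < I'.card := by exact_mod_cast h2.card_pos
      have h6 : P * (I''.card : ℝ) ≤ 0 := mul_nonpos_of_nonpos_of_nonneg h (Nat.cast_nonneg _)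
      linarith
    refine ⟨I'', Function.update St n I'', Function.update D n D', Function.update N n N',
      Function.update f n f', Function.update K n K', Function.update l n l', g1.trans h1, g2,
      ?_, ?_⟩
    · calc (I.card : ℝ) ≤ P ^ n * I'.card := h3
        _ ≤ P ^ n * (P * I''.card) := by gcongr
        _ = P ^ (n + 1) * I''.card := by ring
    · intro v hv
      rcases Nat.lt_succ_iff_lt_or_eq.1 hv with hv' | rfl
      · have hne : v ≠ n := by omega
        simp only [Function.update_of_ne hne]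
        obtain ⟨a1, a2, a3, a4, a5⟩ := h4 v hv'
        exact ⟨a1, g1.trans a2, a3, a4, a5⟩
      · simp only [Function.update_self]
        exact ⟨g1.trans h1, Subset.refl _, g3, g4, g5⟩

/-- a uniform configuration: at every level `v < n` every object has a labelled box of nearly
maximal density. -/
structure UConf (n : ℕ) {O : ℕ → Type u} {κ : ℕ → Type w} {Λ : Type*} [∀ v, DecidableEq (O v)]
    (M : ∀ v, O v → κ v → Prop) (c : ∀ v, κ v → ℝ) (ℓ : ∀ v, κ v → Λ) (o : ∀ v, ι → O v)
    (I : Finset ι) (θ : ℝ) (D : ℕ → ℝ) (f : ∀ v, O v → ℕ) (K : ∀ v, ℕ → κ v) (l : ℕ → Λ) :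
    Prop where
  D_pos : ∀ v < n, 0 < D v
  mem : ∀ v < n, ∀ i ∈ I, M v (o v i) (K v (f v (o v i)))
  lab : ∀ v < n, ∀ i ∈ I, ℓ v (K v (f v (o v i))) = l v
  glob : ∀ v < n, ∀ L, (nIn (M v) I (o v) L : ℝ) ≤ 4 * D v * c v L
  lo : ∀ v < n, ∀ i ∈ I, D v * c v (K v (f v (o v i))) ≤
    θ * (objs I (o v) (f v) (f v (o v i))).card
  hi : ∀ v < n, ∀ i ∈ I, ((objs I (o v) (f v) (f v (o v i))).card : ℝ) ≤
    2 * D v * c v (K v (f v (o v i)))

/-- **uniform configuration lemma.** -/
theorem exists_uconf (n : ℕ) {O : ℕ → Type u} {κ : ℕ → Type w} {Λ : Type*}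
    [∀ v, DecidableEq (O v)] [∀ v, Nonempty (κ v)] [Fintype Λ]
    (M : ∀ v, O v → κ v → Prop) (c : ∀ v, κ v → ℝ) (c0 : ℝ) (hc0 : 0 < c0)
    (hc : ∀ v K, c0 ≤ c v K) (ℓ : ∀ v, κ v → Λ)
    (hcℓ : ∀ v K K', ℓ v K = ℓ v K' → c v K ≤ 2 * c v K')
    (o : ∀ v, ι → O v) (I : Finset ι) (hI : I.Nonempty) {H : ℕ} (hH : I.card < 2 ^ (H + 1))
    (dmin dmax : ℝ) (hdmin : 0 < dmin)
    (hd0 : ∀ v < n, ∀ i ∈ I, ∃ L, M v (o v i) L ∧ dmin * c v L ≤ 1)
    (hd1 : ∀ v < n, ∀ L, (nIn (M v) I (o v) L : ℝ) ≤ dmax * c v L)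
    {J : Type*} [Fintype J] [DecidableEq J]
    (r : (∀ v, O v → ℕ) → (∀ v, ℕ → κ v) → J → ι → ι → Prop)
    [∀ f K j, DecidableRel (r f K j)] (hr : ∀ f K j, Equivalence (r f K j))
    (P Q θ : ℝ)
    (hP : P = 2 * ((H : ℝ) + 1) * (Fintype.card Λ * (Real.logb 2 (dmax / dmin) + 3)))
    (hQ : Q = ((H : ℝ) + 1) ^ (2 * n + Fintype.card J))
    (hθ : θ = 32 * P ^ n * Q ^ 2 * (2 * n + Fintype.card J)) :
    ∃ (I' : Finset ι) (D : ℕ → ℝ) (f : ∀ v, O v → ℕ) (K : ∀ v, ℕ → κ v) (l : ℕ → Λ),
      I' ⊆ I ∧ I'.Nonempty ∧ (I.card : ℝ) ≤ 2 * P ^ n * Q * I'.card ∧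
      (∀ v < n, dmin / 4 ≤ D v ∧ D v ≤ dmax) ∧
      UConf n M c ℓ o I' θ D f K l ∧
      ∃ (mb mo : ℕ → ℝ) (mr : J → ℝ),
        (∀ v < n, ∀ i ∈ I', 1 ≤ mb v ∧
          mb v ≤ 2 * (2 * n + Fintype.card J) * Q *
            (I'.filter fun i' => f v (o v i') = f v (o v i)).card ∧
          ((I'.filter fun i' => f v (o v i') = f v (o v i)).card : ℝ) ≤ 2 * mb v) ∧
        (∀ v < n, ∀ i ∈ I', 1 ≤ mo v ∧
          mo v ≤ 2 * (2 * n + Fintype.card J) * Q * (cls I' (o v) i).card ∧
          ((cls I' (o v) i).card : ℝ) ≤ 2 * mo v) ∧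
        (∀ j, ∀ i ∈ I', 1 ≤ mr j ∧
          mr j ≤ 2 * (2 * n + Fintype.card J) * Q * (I'.filter (r f K j i)).card ∧
          ((I'.filter (r f K j i)).card : ℝ) ≤ 2 * mr j) := by
  classical
  obtain ⟨I₁, St, D, N, f, K, l, h1, h2, h3, h4⟩ := exists_stages n M c c0 hc0 hc ℓ o I hI hH
    dmin dmax hdmin hd0 hd1
  rw [← hP] at h3
  -- the family of relations
  set R : Fin n ⊕ Fin n ⊕ J → ι → ι → Prop := fun j => match j with
    | Sum.inl v => fun i i' => f v (o v i') = f v (o v i)
    | Sum.inr (Sum.inl v) => fun i i' => o v i' = o v i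
    | Sum.inr (Sum.inr j) => r f K j with hR
  have hReq : ∀ j, Equivalence (R j) := by
    rintro (v | v | j)
    · exact ⟨fun _ => rfl, fun h => h.symm, fun h h' => h'.trans h⟩
    · exact ⟨fun _ => rfl, fun h => h.symm, fun h h' => h'.trans h⟩
    · exact hr f K j
  obtain ⟨I', g1, g2, g3, m, g4, g5⟩ := uniformise_rel I₁ h2 R hReq (H := H)
    ((card_le_card h1).trans_lt hH)
  have hcard : Fintype.card (Fin n ⊕ Fin n ⊕ J) = 2 * n + Fintype.card J := by
    simp [Fintype.card_sum]; ring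
  rw [hcard, ← hQ] at g3
  simp only [hcard, ← hQ] at g5
  push_cast at g5
  have hQ1 : 1 ≤ Q := by
    rw [hQ]; exact one_le_pow₀ (by have : (0 : ℝ) ≤ H := Nat.cast_nonneg _; linarith)
  have hI₁pos : (0 : ℝ) < I₁.card := by exact_mod_cast h2.card_pos
  have hPn : 0 ≤ P ^ n := by
    by_contra h
    push Not at h
    have h5 : (0 : ℝ) < I.card := by exact_mod_cast hI.card_pos
    have h6 : P ^ n * (I₁.card : ℝ) ≤ 0 := mul_nonpos_of_nonpos_of_nonneg h.le (Nat.cast_nonneg _)
    linarith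
  have htot : (I.card : ℝ) ≤ 2 * P ^ n * Q * I'.card := by
    calc (I.card : ℝ) ≤ P ^ n * I₁.card := h3
      _ ≤ P ^ n * (2 * Q * I'.card) := by gcongr
      _ = _ := by ring
  refine ⟨I', D, f, K, l, g1.trans h1, g2, htot, fun v hv => ?_, ?_, ?_⟩
  · obtain ⟨-, -, a3, a4, -⟩ := h4 v hv
    exact ⟨a3, a4⟩
  · refine ⟨fun v hv => ?_, fun v hv i hi => ?_, fun v hv i hi => ?_, fun v hv L => ?_,
      fun v hv i hi => ?_, fun v hv i hi => ?_⟩
    · exact (h4 v hv).2.2.2.2.D_pos
    · exact (h4 v hv).2.2.2.2.mem i ((h4 v hv).2.1 (g1 hi))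
    · exact (h4 v hv).2.2.2.2.lab i ((h4 v hv).2.1 (g1 hi))
    · refine le_trans ?_ ((h4 v hv).2.2.2.2.glob L)
      exact Nat.cast_le.2 (nIn_mono (M v) (g1.trans (h4 v hv).2.1) (o v) L)
    · obtain ⟨a1, a2, a3, a4, a5⟩ := h4 v hv
      have hiS : i ∈ St v := a2 (g1 hi)
      set B : ι → ℕ := fun i => f v (o v i) with hB
      have hcpos : ∀ K, 0 < c v K := fun K => hc0.trans_le (hc v K)
      have hNpos : 0 < N v := by have := a5.N_pos; linarith
      -- (a) masses of box classes in the stage set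
      have e1 : ∀ i' ∈ St v, D v * (c v (K v (B i)) / 2) * N v ≤ (cls (St v) B i').card := by
        intro i' hi'
        have b1 : c v (K v (B i)) ≤ 2 * c v (K v (B i')) :=
          hcℓ v _ _ ((a5.lab i hiS).trans (a5.lab i' hi').symm)
        have b2 := a5.lo i' hi'
        have b3 : (cls (St v) B i').image (o v) = objs (St v) (o v) (f v) (B i') := by
          ext x
          simp only [objs, mem_filter, mem_image, mem_cls, hB]
          constructor
          · rintro ⟨y, ⟨hy, he⟩, rfl⟩; exact ⟨⟨y, hy, rfl⟩, he⟩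
          · rintro ⟨⟨y, hy, rfl⟩, he⟩; exact ⟨y, ⟨hy, he⟩, rfl⟩
        have b4 : ∀ y ∈ cls (St v) B i', N v ≤
            ∑ _y' ∈ cls (cls (St v) B i') (o v) y, (1 : ℝ) := by
          intro y hy
          rw [sum_const, nsmul_eq_mul, mul_one]
          have b5 : cls (cls (St v) B i') (o v) y = cls (St v) (o v) y := by
            ext z
            simp only [mem_cls, hB]
            constructor
            · rintro ⟨⟨hz, _⟩, he⟩; exact ⟨hz, he⟩
            · rintro ⟨hz, he⟩
              refine ⟨⟨hz, ?_⟩, he⟩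
              rw [he]; exact (mem_cls.1 hy).2
          rw [b5]
          exact a5.Nlo y (mem_cls.1 hy).1
        have b6 := mul_card_image_le (Subset.refl (cls (St v) B i')) (fun _ => (1 : ℝ))
          (fun _ _ => zero_le_one) (o v) b4
        rw [b3, sum_const, nsmul_eq_mul, mul_one] at b6
        calc D v * (c v (K v (B i)) / 2) * N v ≤ D v * c v (K v (B i')) * N v := by
              have : 0 < D v := a5.D_pos
              have h7 : c v (K v (B i)) / 2 ≤ c v (K v (B i')) := by linarith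
              exact mul_le_mul_of_nonneg_right (mul_le_mul_of_nonneg_left h7 this.le) hNpos.le
          _ ≤ (objs (St v) (o v) (f v) (B i')).card * N v := by gcongr
          _ ≤ _ := by linarith
      have e2 := mul_card_image_le (Subset.refl (St v)) (fun _ => (1 : ℝ))
        (fun _ _ => zero_le_one) B (M := D v * (c v (K v (B i)) / 2) * N v) (fun i' hi' => by
          rw [sum_const, nsmul_eq_mul, mul_one]; exact e1 i' hi')
      rw [sum_const, nsmul_eq_mul, mul_one] at e2
      -- (b) box classes of the final set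
      have hj0 : ∀ (A : Finset ι) (i' : ι) (inst : DecidablePred (R (Sum.inl ⟨v, hv⟩) i')),
          @Finset.filter ι (R (Sum.inl ⟨v, hv⟩) i') inst A = cls A B i' := by
        intro A i' inst
        ext x
        simp [mem_cls, hR, hB]
      have e3 := le_count_mul I' (fun _ => (1 : ℝ)) B (m := 2 * m (Sum.inl ⟨v, hv⟩))
        (fun i' hi' => by
          rw [sum_const, nsmul_eq_mul, mul_one]
          have := (g5 (Sum.inl ⟨v, hv⟩) i' hi').2.1
          rw [hj0] at this
          exact le_trans (Nat.cast_le.2 (card_le_card (cls_mono g1 B i'))) this)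
      rw [sum_const, nsmul_eq_mul, mul_one] at e3
      have e4 : ((I'.image B).card : ℝ) ≤ ((St v).image B).card := by
        exact_mod_cast card_le_card (image_subset_image (g1.trans a2))
      have hjpos : (0 : ℝ) < ((St v).image B).card := by
        have : ((St v).image B).Nonempty := ⟨B i, mem_image_of_mem _ hiS⟩
        exact_mod_cast this.card_pos
      have hmpos : 0 < m (Sum.inl ⟨v, hv⟩) := by have := g4 (Sum.inl ⟨v, hv⟩); linarith
      have e5 : D v * (c v (K v (B i)) / 2) * N v ≤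
          4 * P ^ n * Q * m (Sum.inl ⟨v, hv⟩) := by
        have f1 : ((St v).card : ℝ) ≤ I.card := by exact_mod_cast card_le_card a1
        have f2 : D v * (c v (K v (B i)) / 2) * N v * ((St v).image B).card ≤
            4 * P ^ n * Q * m (Sum.inl ⟨v, hv⟩) * ((St v).image B).card := by
          calc D v * (c v (K v (B i)) / 2) * N v * ((St v).image B).card ≤ (St v).card := e2
            _ ≤ I.card := f1
            _ ≤ 2 * P ^ n * Q * I'.card := htot
            _ ≤ 2 * P ^ n * Q * (2 * m (Sum.inl ⟨v, hv⟩) * ((I'.image B).card : ℝ)) := by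
                gcongr
            _ ≤ 2 * P ^ n * Q * (2 * m (Sum.inl ⟨v, hv⟩) * (((St v).image B).card : ℝ)) := by
                gcongr
            _ = _ := by ring
        exact le_of_mul_le_mul_right f2 hjpos
      have e6 := (g5 (Sum.inl ⟨v, hv⟩) i hi).2.2
      rw [hj0] at e6
      -- (c) number of objects in the class of the final set
      have e7 := le_count_mul (cls I' B i) (fun _ => (1 : ℝ)) (o v) (m := 2 * N v)
        (fun i' hi' => by
          rw [sum_const, nsmul_eq_mul, mul_one]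
          have b1 : cls (cls I' B i) (o v) i' ⊆ cls (St v) (o v) i' := by
            intro z hz
            rw [mem_cls] at hz ⊢
            exact ⟨a2 (g1 (mem_cls.1 hz.1).1), hz.2⟩
          exact le_trans (Nat.cast_le.2 (card_le_card b1))
            (a5.Nhi i' (a2 (g1 (mem_cls.1 hi').1))))
      rw [sum_const, nsmul_eq_mul, mul_one] at e7
      have e8 : (cls I' B i).image (o v) = objs I' (o v) (f v) (B i) := by
        ext x
        simp only [objs, mem_filter, mem_image, mem_cls, hB]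
        constructor
        · rintro ⟨y, ⟨hy, he⟩, rfl⟩; exact ⟨⟨y, hy, rfl⟩, he⟩
        · rintro ⟨⟨y, hy, rfl⟩, he⟩; exact ⟨y, ⟨hy, he⟩, rfl⟩
      rw [e8] at e7
      have hkey : D v * c v (K v (B i)) * N v ≤
          θ * (objs I' (o v) (f v) (B i)).card * N v := by
        calc D v * c v (K v (B i)) * N v = 2 * (D v * (c v (K v (B i)) / 2) * N v) := by ring
          _ ≤ 2 * (4 * P ^ n * Q * m (Sum.inl ⟨v, hv⟩)) := by gcongr
          _ ≤ 2 * (4 * P ^ n * Q * (2 * (2 * n + Fintype.card J) * Q * (cls I' B i).card)) := by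
              gcongr
          _ ≤ 2 * (4 * P ^ n * Q * (2 * (2 * n + Fintype.card J) * Q *
                (2 * N v * (objs I' (o v) (f v) (B i)).card))) := by gcongr
          _ = θ * (objs I' (o v) (f v) (B i)).card * N v := by rw [hθ]; ring
      exact le_of_mul_le_mul_right hkey hNpos
    · obtain ⟨a1, a2, a3, a4, a5⟩ := h4 v hv
      refine le_trans ?_ (a5.hi i (a2 (g1 hi)))
      exact Nat.cast_le.2 (card_le_card (objs_mono (g1.trans a2) (o v) (f v) _))
  · refine ⟨fun v => if h : v < n then m (Sum.inl ⟨v, h⟩) else 0,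
      fun v => if h : v < n then m (Sum.inr (Sum.inl ⟨v, h⟩)) else 0,
      fun j => m (Sum.inr (Sum.inr j)), fun v hv i hi => ?_, fun v hv i hi => ?_,
      fun j i hi => ?_⟩
    · simp only [dif_pos hv]
      have h := g5 (Sum.inl ⟨v, hv⟩) i hi
      refine ⟨g4 _, ?_, le_trans (Nat.cast_le.2 (card_le_card fun x hx => ?_)) h.2.1⟩
      · refine h.2.2.trans (le_of_eq ?_)
        congr 2
        apply congrArg
        ext x
        simp [hR]
      · have hx' := (mem_filter.1 hx)
        exact (mem_filt _ _ _ x).2 ⟨g1 hx'.1, hx'.2⟩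
    · simp only [dif_pos hv]
      have h := g5 (Sum.inr (Sum.inl ⟨v, hv⟩)) i hi
      refine ⟨g4 _, ?_, le_trans (Nat.cast_le.2 (card_le_card fun x hx => ?_)) h.2.1⟩
      · refine h.2.2.trans (le_of_eq ?_)
        congr 2
        apply congrArg
        ext x
        simp [hR, cls]
      · have hx' := (mem_cls.1 hx)
        exact (mem_filt _ _ _ x).2 ⟨g1 hx'.1, hx'.2⟩
    · have h := g5 (Sum.inr (Sum.inr j)) i hi
      refine ⟨g4 _, ?_, le_trans (Nat.cast_le.2 (card_le_card fun x hx => ?_)) h.2.1⟩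
      · refine h.2.2.trans (le_of_eq ?_)
        congr 2
        apply congrArg
        ext x
        simp [hR]
      · have hx' := (mem_filter.1 hx)
        exact (mem_filt _ _ _ x).2 ⟨g1 hx'.1, hx'.2⟩

/-- **linear stability of counts**: `P`-classes of a subset `A` which keep fewer than `n` of their
`P ∨ Q`-classes carry little mass. -/
theorem card_bad_le {X Y : Type*} [DecidableEq X] [DecidableEq Y] (A : Finset ι) (p : ι → X)
    (q : ι → Y) (n : ℕ) (m : ℝ) (hm : 0 ≤ m)
    (hq : ∀ i ∈ A, ((A.filter fun i' => p i' = p i ∧ q i' = q i).card : ℝ) ≤ m) :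
    ((A.filter fun i => ((cls A p i).image q).card < n).card : ℝ) ≤
      ((A.image p).card : ℝ) * (n * m) := by
  classical
  set B := A.filter fun i => ((cls A p i).image q).card < n with hB
  have hBA : B ⊆ A := filter_subset _ _
  have h1 := le_count_mul B (fun _ => (1 : ℝ)) p (m := n * m) (fun i hi => by
    rw [sum_const, nsmul_eq_mul, mul_one]
    have h2 : cls B p i ⊆ cls A p i := cls_mono hBA p i
    have h3 := le_count_mul (cls A p i) (fun _ => (1 : ℝ)) q (m := m) (fun i' hi' => by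
      rw [sum_const, nsmul_eq_mul, mul_one]
      refine le_trans (Nat.cast_le.2 (card_le_card ?_)) (hq i' (mem_cls.1 hi').1)
      intro x hx
      rw [mem_cls, mem_cls] at hx
      rw [mem_filter]
      exact ⟨hx.1.1, hx.1.2.trans (mem_cls.1 hi').2.symm, hx.2⟩)
    rw [sum_const, nsmul_eq_mul, mul_one] at h3
    have h4 : (((cls A p i).image q).card : ℝ) ≤ n := by
      exact_mod_cast (mem_filter.1 hi).2.le
    calc ((cls B p i).card : ℝ) ≤ (cls A p i).card := by exact_mod_cast card_le_card h2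
      _ ≤ m * ((cls A p i).image q).card := h3
      _ ≤ m * n := by gcongr
      _ = n * m := by ring)
  rw [sum_const, nsmul_eq_mul, mul_one] at h1
  have h5 : ((B.image p).card : ℝ) ≤ (A.image p).card := by
    exact_mod_cast card_le_card (image_subset_image hBA)
  calc (B.card : ℝ) ≤ n * m * (B.image p).card := h1
    _ ≤ n * m * (A.image p).card := by gcongr
    _ = _ := by ring

end Crest.Agent.R138.UConf210
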