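import Crest.Agent.R138.Low4_448
import Crest.Agent.R138.Loc1_878

/-!
# R138 / R139: UPPER (F3), slab orthogonality (helper448), part 1

Strips in frequency: orthogonality on an interval of length `1/θ` in the direction `b 1`, with a
weight of arbitrary thickness `1/θ'` in the direction `b 0`; local constancy of a cap of size `θ`.
-/

set_option autoImplicit false

open MeasureTheory FourierTransform
open scoped ContDiff ENNReal InnerProductSpace

namespace Crest.Agent.R138.Up448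

open Crest.Agent.R138.Defs Crest.Agent.R138.Wpk685 Crest.Agent.R138.Wf448
  Crest.Agent.R138.Low448 Crest.Agent.R138.W188 Crest.Agent.R138.Loc878

/-- the frame of the box `(1/θ' in b 0) × (1/θ in b 1)`. -/
noncomputable def bx (b : OrthonormalBasis (Fin 2) ℝ E2) (θ' θ : ℝ) : E2 →L[ℝ] E2 :=
  fr b ![θ'⁻¹, θ⁻¹]

theorem norm_bx_sq (b : OrthonormalBasis (Fin 2) ℝ E2) (θ' θ : ℝ) (y : E2) :
    ‖bx b θ' θ y‖ ^ 2 = (θ' * inner ℝ y (b 0)) ^ 2 + (θ * inner ℝ y (b 1)) ^ 2 := by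
  unfold bx
  rw [norm_fr_sq]
  simp only [Matrix.cons_val_zero, Matrix.cons_val_one]
  rw [div_inv_eq_mul, div_inv_eq_mul, mul_comm θ', mul_comm θ]

theorem inner_adj_bx (b : OrthonormalBasis (Fin 2) ℝ E2) (θ' θ : ℝ) (y : E2) :
    inner ℝ (adj (bx b θ' θ) y) (b 1) = θ * inner ℝ y (b 1) := by
  rw [ContinuousLinearMap.adjoint_inner_left]
  unfold bx
  rw [real_inner_comm]
  have h := inner_fr b ![θ'⁻¹, θ⁻¹] (b 1)
  have e : fr b ![θ'⁻¹, θ⁻¹] (b 1) = θ • b 1 := by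
    rw [fr_apply, Fin.sum_univ_two, b.inner_eq_zero (show (0 : Fin 2) ≠ 1 by decide),
      b.inner_eq_one]
    simp
  rw [e, inner_smul_left, real_inner_comm]
  simp

theorem card_int_near (a : ℝ) (K : Finset ℤ) :
    ((K.filter fun k : ℤ => |a - k| < 4).card : ℝ) ≤ 9 := by
  have h : (K.filter fun k : ℤ => |a - k| < 4) ⊆ Finset.Icc (⌊a⌋ - 4) (⌊a⌋ + 4) := by
    intro k hk
    rw [Finset.mem_filter] at hk
    have h1 := abs_lt.1 hk.2
    have h2 := Int.floor_le a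
    have h3 := Int.lt_floor_add_one a
    rw [Finset.mem_Icc]
    constructor
    · have : (⌊a⌋ : ℝ) - 4 < k + 1 := by linarith
      have h4 : ⌊a⌋ - 4 < k + 1 := by exact_mod_cast this
      omega
    · have : (k : ℝ) < ⌊a⌋ + 1 + 4 := by linarith
      have h4 : k < ⌊a⌋ + 1 + 4 := by exact_mod_cast this
      omega
  have h2 := Finset.card_le_card h
  rw [Int.card_Icc] at h2
  have h3 : (⌊a⌋ + 4 + 1 - (⌊a⌋ - 4)).toNat = 9 := by omega
  rw [h3] at h2
  exact_mod_cast h2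

/-- **orthogonality of strips** on an interval of length `1/θ` in the direction `b 1`. -/
theorem strip_row (n : ℕ) : ∃ C : ℝ, 0 ≤ C ∧ ∀ (b : OrthonormalBasis (Fin 2) ℝ E2) (θ' θ : ℝ),
    0 < θ → ∀ (c : E2) (K : Finset ℤ) (g : ℤ → E2 → ℂ), (∀ k, Integrable (g k)) →
    (∀ k, MemLp (g k) 2) → (∀ k ∈ K, ∀ ξ, g k ξ ≠ 0 → |inner ℝ ξ (b 1) - k * θ| ≤ 3 * θ) →
    wE n (bx b θ' θ) c (fun ξ => ∑ k ∈ K, g k ξ) ≤
      ENNReal.ofReal C * ∑ k ∈ K, wE n (bx b θ' θ) c (g k) := by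
  classical
  obtain ⟨C1, hC1, h1⟩ := decayL (V := E2) (W := E2) n
  obtain ⟨K0, hK0, h2⟩ := cutoffC ℝ
  obtain ⟨χ, hχ1, hχ2, hχ3, hχ4, hχ5, hχ6⟩ := h2 (Metric.closedBall 0 3) 1 one_pos
  set M : ℝ := 1 + ∑ j ∈ Finset.range (n + 1), K0 j ^ 2 with hM
  have hM0 : 0 < M := by positivity
  refine ⟨C1 * (M * 9), by positivity, ?_⟩
  intro b θ' θ hθ c K g hg hg2 hS
  set A := bx b θ' θ with hA
  set L : E2 →L[ℝ] ℝ := θ⁻¹ • innerSL ℝ (b 1) with hL
  have hLx : ∀ ξ, L ξ = θ⁻¹ * inner ℝ ξ (b 1) := by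
    intro ξ
    rw [hL, smul_apply, innerSL_apply_apply, smul_eq_mul, real_inner_comm]
  set m : ℤ → E2 → ℂ := fun k ξ => χ (L ξ - k) with hm
  have hmT : ∀ k, (m k).HasTemperateGrowth := by
    intro k
    have h3 : (fun ξ : E2 => L ξ - (k:ℝ)).HasTemperateGrowth :=
      L.hasTemperateGrowth.sub (Function.HasTemperateGrowth.const _)
    exact hχ1.comp h3
  have hzero : ∀ x : ℝ, 4 ≤ |x| → ∀ j, iteratedFDeriv ℝ j χ x = 0 := by
    intro x hx j
    refine hχ3 j x fun hc => ?_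
    rw [Metric.mem_thickening_iff] at hc
    obtain ⟨z, hz, hz2⟩ := hc
    rw [Metric.mem_closedBall, dist_zero_right, Real.norm_eq_abs] at hz
    rw [Real.dist_eq] at hz2
    have := abs_sub_abs_le_abs_sub x z
    linarith
  have hNn : ∀ k j ξ, Nn A j (m k) ξ ≤ ‖iteratedFDeriv ℝ j χ (L ξ - k)‖ := by
    intro k j ξ
    have hχc : ContDiff ℝ j χ := hχ1.1.of_le (by exact_mod_cast le_top)
    rw [Nn_eq A ((hmT k).1.of_le (by exact_mod_cast le_top))]
    have e1 : (fun y : E2 => m k (ξ + adj A y)) =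
        (fun s : ℝ => χ ((L ξ - k) + s)) ∘ (innerSL ℝ (b 1)) := by
      funext y
      simp only [hm, Function.comp, innerSL_apply_apply]
      congr 1
      rw [map_add, hLx (adj A y), hA, inner_adj_bx, real_inner_comm (b 1) y]
      field_simp
      ring
    have h4 : ContDiff ℝ j (fun s : ℝ => χ ((L ξ - k) + s)) :=
      hχc.comp (contDiff_const.add contDiff_id)
    rw [e1, ContinuousLinearMap.iteratedFDeriv_comp_right (innerSL ℝ (b 1)) h4 0 le_rfl,
      iteratedFDeriv_comp_add_left]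
    refine (ContinuousMultilinearMap.norm_compContinuousLinearMap_le _ _).trans ?_
    rw [Finset.prod_const, Finset.card_fin, innerSL_apply_norm, b.norm_eq_one, one_pow, mul_one]
    simp
  have hb := h1 A c {k // k ∈ K} Unit (fun _ k => m k) (fun k => g k) (Real.sqrt (M * 9))
    (by positivity) (fun _ k => hmT k) (fun k => hg k) (fun k => hg2 k) ?_
  · simp only [Finset.univ_unique, Finset.sum_singleton] at hb
    have e1 : (fun ξ => ∑ k : {k // k ∈ K}, m k ξ * g k ξ) = fun ξ => ∑ k ∈ K, g k ξ := by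
      funext ξ
      rw [← Finset.sum_coe_sort K]
      refine Finset.sum_congr rfl fun k _ => ?_
      by_cases h : g k ξ = 0
      · rw [h, mul_zero]
      · have h5 := hS k k.2 ξ h
        have h6 : m k ξ = 1 := by
          refine hχ2 _ ?_
          rw [Metric.mem_closedBall, dist_zero_right, Real.norm_eq_abs, hLx]
          have e2 : θ⁻¹ * inner ℝ ξ (b 1) - ((k : ℤ) : ℝ) = (inner ℝ ξ (b 1) - (k : ℤ) * θ) / θ := by
            field_simp
          rw [e2, abs_div, abs_of_pos hθ, div_le_iff₀ hθ]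
          exact h5
        rw [h6, one_mul]
    rw [e1, Real.sq_sqrt (by positivity), Finset.sum_coe_sort K (fun k => wE n A c (g k))] at hb
    exact hb
  · intro j hj ξ
    simp only [Finset.univ_unique, Finset.sum_singleton]
    rw [Real.sq_sqrt (by positivity)]
    have e2 : ∀ k : ℤ, Nn A j (m k) ξ ^ 2 ≤ if |L ξ - k| < 4 then M else 0 := by
      intro k
      split_ifs with hk
      · have a1 : Nn A j (m k) ξ ≤ K0 j := by
          refine (hNn k j ξ).trans ((hχ5 j _).trans ?_)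
          simp
        refine (pow_le_pow_left₀ (Nn_nonneg _ _ _ _) a1 2).trans ?_
        have a2 := Finset.single_le_sum (f := fun j => K0 j ^ 2) (fun j _ => sq_nonneg _)
          (Finset.mem_range.2 (Nat.lt_succ_of_le hj))
        linarith
      · have : Nn A j (m k) ξ = 0 := by
          refine le_antisymm ((hNn k j ξ).trans ?_) (Nn_nonneg _ _ _ _)
          rw [hzero _ (not_lt.1 hk), norm_zero]
        rw [this]; norm_num
    rw [Finset.sum_coe_sort K (fun k => Nn A j (m k) ξ ^ 2)]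
    refine (Finset.sum_le_sum fun k _ => e2 k).trans ?_
    rw [← Finset.sum_filter, Finset.sum_const, nsmul_eq_mul, mul_comm]
    exact mul_le_mul_of_nonneg_left (card_int_near _ _) hM0.le

theorem lintegral_coord (b : OrthonormalBasis (Fin 2) ℝ E2) {f g : ℝ → ℝ≥0∞} (hf : Measurable f)
    (hg : Measurable g) :
    ∫⁻ x : E2, f (inner ℝ x (b 0)) * g (inner ℝ x (b 1)) = (∫⁻ s, f s) * ∫⁻ t, g t := by
  have hm : Measurable fun p : ℝ × ℝ => f p.1 * g p.2 :=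
    (hf.comp measurable_fst).mul (hg.comp measurable_snd)
  have h1 : MeasurePreserving (fun x : E2 => (inner ℝ x (b 0), inner ℝ x (b 1)))
      (volume : Measure E2) (volume : Measure (ℝ × ℝ)) := by
    have e : (fun x : E2 => (inner ℝ x (b 0), inner ℝ x (b 1))) =
        (MeasurableEquiv.finTwoArrow (α := ℝ)) ∘ (WithLp.ofLp (p := 2) (V := Fin 2 → ℝ)) ∘ b.repr := by
      funext x
      simp only [Function.comp, MeasurableEquiv.finTwoArrow_apply]
      rw [show (b.repr x).ofLp 0 = inner ℝ (b 0) x from b.repr_apply_apply x 0,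
        show (b.repr x).ofLp 1 = inner ℝ (b 1) x from b.repr_apply_apply x 1,
        real_inner_comm, real_inner_comm x (b 1)]
    rw [e]
    exact (volume_preserving_finTwoArrow ℝ).comp
      ((PiLp.volume_preserving_ofLp (Fin 2)).comp b.measurePreserving_repr)
  rw [← lintegral_prod_mul hf.aemeasurable hg.aemeasurable, ← Measure.volume_eq_prod,
    ← h1.lintegral_comp hm]

theorem lintegral_quad {θ : ℝ} (hθ : 0 < θ) :
    ∫⁻ s : ℝ, ENNReal.ofReal ((1 + (θ * s) ^ 2)⁻¹) = ENNReal.ofReal (Real.pi / θ) := by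
  have hi : Integrable (fun s : ℝ => (1 + (θ * s) ^ 2)⁻¹) :=
    integrable_inv_one_add_sq.comp_mul_left' hθ.ne'
  rw [← ofReal_integral_eq_lintegral_ofReal hi
      (Filter.Eventually.of_forall fun x => by positivity)]
  congr 1
  have h1 := Measure.integral_comp_mul_left (fun s : ℝ => (1 + s ^ 2)⁻¹) θ
  rw [h1, integral_univ_inv_one_add_sq, abs_of_pos (inv_pos.2 hθ), smul_eq_mul]
  field_simp

/-- the mass of the slab. -/
theorem lintegral_bx (b : OrthonormalBasis (Fin 2) ℝ E2) {θ' θ : ℝ} (hθ' : 0 < θ') (hθ : 0 < θ)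
    (c : E2) : ∫⁻ x : E2, ENNReal.ofReal (dw 2 (bx b θ' θ) (x - c)) ≤
      ENNReal.ofReal (Real.pi ^ 2 / (θ' * θ)) := by
  have h1 : ∫⁻ x : E2, ENNReal.ofReal (dw 2 (bx b θ' θ) (x - c)) =
      ∫⁻ x : E2, ENNReal.ofReal (dw 2 (bx b θ' θ) x) :=
    lintegral_sub_right_eq_self (fun x : E2 => ENNReal.ofReal (dw 2 (bx b θ' θ) x)) c
  rw [h1]
  calc ∫⁻ x : E2, ENNReal.ofReal (dw 2 (bx b θ' θ) x)
      ≤ ∫⁻ x : E2, ENNReal.ofReal ((1 + (θ' * inner ℝ x (b 0)) ^ 2)⁻¹) *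
          ENNReal.ofReal ((1 + (θ * inner ℝ x (b 1)) ^ 2)⁻¹) := by
        refine lintegral_mono fun x => ?_
        rw [← ENNReal.ofReal_mul (by positivity)]
        refine ENNReal.ofReal_le_ofReal ?_
        unfold dw gw
        rw [norm_bx_sq, ← mul_inv]
        refine inv_anti₀ (by positivity) ?_
        nlinarith [sq_nonneg (θ' * inner ℝ x (b 0)), sq_nonneg (θ * inner ℝ x (b 1)),
          mul_nonneg (sq_nonneg (θ' * inner ℝ x (b 0))) (sq_nonneg (θ * inner ℝ x (b 1))),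
          sq_nonneg ((θ' * inner ℝ x (b 0)) ^ 2 + (θ * inner ℝ x (b 1)) ^ 2)]
    _ = ENNReal.ofReal (Real.pi / θ') * ENNReal.ofReal (Real.pi / θ) := by
        have h2 := lintegral_coord b
          (f := fun s => ENNReal.ofReal ((1 + (θ' * s) ^ 2)⁻¹))
          (g := fun s => ENNReal.ofReal ((1 + (θ * s) ^ 2)⁻¹)) (by fun_prop) (by fun_prop)
        rw [h2, lintegral_quad hθ', lintegral_quad hθ]
    _ = _ := by
        rw [← ENNReal.ofReal_mul (by positivity)]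
        congr 1
        field_simp

/-- the scaling by `l`. -/
noncomputable def scl (l : ℝ) (hl : l ≠ 0) : E2 ≃L[ℝ] E2 :=
  ContinuousLinearEquiv.smulLeft (Units.mk0 l hl)

theorem coe_scl (l : ℝ) (hl : l ≠ 0) : (scl l hl : E2 →L[ℝ] E2) = iso l := by
  ext1 x; rfl

theorem adj_iso (l : ℝ) (η : E2) : adj (iso l) η = l • η := by
  refine ext_inner_right ℝ fun v => ?_
  rw [ContinuousLinearMap.adjoint_inner_left, iso_apply, inner_smul_right, real_inner_smul_left]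

theorem adet_iso (l : ℝ) : adet (iso l) = l ^ 2 := by
  unfold adet iso
  have e : ((l • ContinuousLinearMap.id ℝ E2 : E2 →L[ℝ] E2) : E2 →ₗ[ℝ] E2) =
      l • (LinearMap.id : E2 →ₗ[ℝ] E2) := rfl
  rw [e, LinearMap.det_smul, LinearMap.det_id, mul_one, finrank_euclideanSpace_fin,
    abs_of_nonneg (sq_nonneg l)]

theorem norm_bx_ge (b : OrthonormalBasis (Fin 2) ℝ E2) {θ' θ : ℝ} (hθ : 0 ≤ θ) (hθ' : θ ≤ θ')
    (y : E2) : ‖iso θ y‖ ≤ ‖bx b θ' θ y‖ := by
  refine le_of_sq_le_sq ?_ (norm_nonneg _)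
  rw [norm_bx_sq, iso_apply, norm_smul, mul_pow, norm_sq_eq b y, Real.norm_eq_abs, sq_abs]
  have h1 : (θ * inner ℝ y (b 0)) ^ 2 ≤ (θ' * inner ℝ y (b 0)) ^ 2 := by
    rw [mul_pow, mul_pow]
    gcongr
  nlinarith [h1]

theorem lc_pt (n : ℕ) (b : OrthonormalBasis (Fin 2) ℝ E2) {θ' θ : ℝ} (hθ : 0 < θ) (hθθ' : θ ≤ θ')
    (c x y : E2) : dw (n + 2) (bx b θ' θ) (x - c) * dw n (iso (2 * θ)) (y - x) ≤
      dw 2 (bx b θ' θ) (x - c) * (2 ^ n * dw n (iso θ) (y - c)) := by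
  have e1 : dw (n + 2) (bx b θ' θ) (x - c) =
      dw 2 (bx b θ' θ) (x - c) * dw n (bx b θ' θ) (x - c) := by
    unfold dw gw
    rw [pow_add, mul_inv, mul_comm]
  rw [e1, mul_assoc]
  refine mul_le_mul_of_nonneg_left ?_ (dw_pos _ _ _).le
  have a1 := norm_bx_ge b hθ.le hθθ' (x - c)
  have a2 : ‖iso θ (y - x)‖ ≤ ‖iso (2 * θ) (y - x)‖ := by
    rw [iso_apply, iso_apply, norm_smul, norm_smul, Real.norm_eq_abs, Real.norm_eq_abs,
      abs_of_pos hθ, abs_of_pos (by positivity : (0:ℝ) < 2 * θ)]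
    nlinarith [norm_nonneg (y - x)]
  have a3 : ‖iso θ (y - c)‖ ≤ ‖iso θ (x - c)‖ + ‖iso θ (y - x)‖ := by
    have : iso θ (y - c) = iso θ (x - c) + iso θ (y - x) := by
      rw [← map_add]; congr 1; abel
    rw [this]; exact norm_add_le _ _
  unfold dw gw
  rw [← mul_inv, ← mul_pow, ← div_eq_mul_inv, ← one_div, div_le_div_iff₀ (by positivity)
    (by positivity), one_mul, ← mul_pow]
  refine pow_le_pow_left₀ (by positivity) ?_ n
  have n1 := norm_nonneg (iso θ (x - c))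
  have n2 := norm_nonneg (iso θ (y - x))
  have n3 := norm_nonneg (iso θ (y - c))
  have q1 : ‖iso θ (x - c)‖ ^ 2 ≤ ‖bx b θ' θ (x - c)‖ ^ 2 := pow_le_pow_left₀ n1 a1 2
  have q2 : ‖iso θ (y - x)‖ ^ 2 ≤ ‖iso (2 * θ) (y - x)‖ ^ 2 := pow_le_pow_left₀ n2 a2 2
  have q3 : ‖iso θ (y - c)‖ ^ 2 ≤ 2 * (‖iso θ (x - c)‖ ^ 2 + ‖iso θ (y - x)‖ ^ 2) := by
    have := pow_le_pow_left₀ n3 a3 2
    nlinarith [sq_nonneg (‖iso θ (x - c)‖ - ‖iso θ (y - x)‖)]
  have q4 : (1 + ‖iso θ (x - c)‖ ^ 2) * (1 + ‖iso θ (y - x)‖ ^ 2) ≤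
      (1 + ‖bx b θ' θ (x - c)‖ ^ 2) * (1 + ‖iso (2 * θ) (y - x)‖ ^ 2) := by gcongr
  nlinarith [mul_nonneg (sq_nonneg ‖iso θ (x - c)‖) (sq_nonneg ‖iso θ (y - x)‖)]

/-- abstract Tonelli with a pointwise domination. -/
theorem tonelli_dom {u v : E2 → ℝ≥0∞} {k : E2 → E2 → ℝ≥0∞} {F w : E2 → ℝ≥0∞} {a b : ℝ≥0∞}
    (hu : Measurable u) (hv : Measurable v) (hk : Measurable (fun p : E2 × E2 => k p.1 p.2))
    (hF : Measurable F) (hu0 : ∀ x, u x ≠ ⊤) (ha0 : a ≠ ⊤) (hb0 : b ≠ ⊤)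
    (h : ∀ x y, u x * k x y ≤ v x * (a * w y))
    (hI : ∫⁻ x, v x ≤ b) : ∫⁻ x, u x * (∫⁻ y, k x y * F y) ≤ (b * a) * ∫⁻ y, w y * F y := by
  calc ∫⁻ x, u x * (∫⁻ y, k x y * F y) = ∫⁻ x, ∫⁻ y, u x * (k x y * F y) := by
        refine lintegral_congr fun x => ?_
        rw [lintegral_const_mul' _ _ (hu0 x)]
    _ = ∫⁻ y, ∫⁻ x, u x * (k x y * F y) := by
        rw [lintegral_lintegral_swap]
        exact ((hu.comp measurable_fst).mul (hk.mul (hF.comp measurable_snd))).aemeasurable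
    _ ≤ ∫⁻ y, ∫⁻ x, v x * (a * w y * F y) := by
        refine lintegral_mono fun y => lintegral_mono fun x => ?_
        have h2 := mul_le_mul_left (h x y) (F y)
        calc u x * (k x y * F y) = u x * k x y * F y := by ring
          _ ≤ _ := h2
          _ = _ := by ring
    _ = ∫⁻ y, (∫⁻ x, v x) * (a * w y * F y) := by
        refine lintegral_congr fun y => ?_
        rw [lintegral_mul_const _ hv]
    _ ≤ ∫⁻ y, (b * a) * (w y * F y) := by
        refine lintegral_mono fun y => ?_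
        calc (∫⁻ x, v x) * (a * w y * F y) ≤ b * (a * w y * F y) := mul_le_mul_left hI _
          _ = _ := by ring
    _ = _ := lintegral_const_mul' _ _ (ENNReal.mul_ne_top hb0 ha0)


theorem meas_dw_sub (c : E2) (k : ℕ) (A : E2 →L[ℝ] E2) : Measurable fun x : E2 => ENNReal.ofReal (dw k A (x - c)) := by
  have h : Continuous (dw k A) := continuous_dw k A
  exact (h.comp (continuous_id.sub continuous_const)).measurable.ennreal_ofReal

theorem meas_dw_sub2 (A : E2 →L[ℝ] E2) (n : ℕ) : Measurable fun p : E2 × E2 => ENNReal.ofReal (dw n A (p.2 - p.1)) := by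
  have h : Continuous (dw n A) := continuous_dw n A
  exact (h.comp (continuous_snd.sub continuous_fst)).measurable.ennreal_ofReal

/-- integration over the slab of a local average. -/
theorem slab_avg (n : ℕ) (b : OrthonormalBasis (Fin 2) ℝ E2) {θ' θ : ℝ} (hθ : 0 < θ)
    (hθθ' : θ ≤ θ') (c : E2) {F : E2 → ℝ≥0∞} (hF : Measurable F) :
    ∫⁻ x, ENNReal.ofReal (dw (n + 2) (bx b θ' θ) (x - c)) *
        (∫⁻ y, ENNReal.ofReal (dw n (iso (2 * θ)) (y - x)) * F y) ≤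
      (ENNReal.ofReal (Real.pi ^ 2 / (θ' * θ)) * ENNReal.ofReal (2 ^ n)) *
        ∫⁻ y, ENNReal.ofReal (dw n (iso θ) (y - c)) * F y := by
  have hθ' : 0 < θ' := hθ.trans_le hθθ'
  refine tonelli_dom (meas_dw_sub c (n + 2) _) (meas_dw_sub c 2 (bx b θ' θ)) (meas_dw_sub2 _ n) hF
    (fun _ => ENNReal.ofReal_ne_top) ENNReal.ofReal_ne_top ENNReal.ofReal_ne_top ?_
    (lintegral_bx b hθ' hθ c)
  intro x y
  have h1 := ENNReal.ofReal_le_ofReal (lc_pt n b hθ hθθ' c x y)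
  rw [ENNReal.ofReal_mul (dw_pos _ _ _).le, ENNReal.ofReal_mul (dw_pos _ _ _).le,
    ENNReal.ofReal_mul (by positivity : (0:ℝ) ≤ 2 ^ n)] at h1
  exact h1

/-- **local constancy**: the energy of a cap of size `θ` on the slab. -/
theorem lc (n : ℕ) : ∃ C : ℝ, 0 ≤ C ∧ ∀ (b : OrthonormalBasis (Fin 2) ℝ E2) (θ' θ : ℝ),
    0 < θ → θ ≤ θ' → ∀ (c ξ0 : E2) (f : E2 → ℂ), Integrable f →
    (∀ ξ, f ξ ≠ 0 → ‖ξ - ξ0‖ ≤ 2 * θ) →
    wE (n + 2) (bx b θ' θ) c f ≤ ENNReal.ofReal (C * (θ / θ')) * wE n (iso θ) c f := by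
  obtain ⟨C1, hC1, h1⟩ := loc_const E2 n
  refine ⟨C1 * 4 * 2 ^ n * Real.pi ^ 2, by positivity, ?_⟩
  intro b θ' θ hθ hθθ' c ξ0 f hf hs
  have hθ' : 0 < θ' := hθ.trans_le hθθ'
  have h2θ : (2 * θ) ≠ 0 := by positivity
  have key : ∀ x, ‖𝓕⁻ f x‖ₑ ^ 2 ≤ ENNReal.ofReal (C1 * (2 * θ) ^ 2) * wE n (iso (2 * θ)) x f := by
    intro x
    have h2 := h1 (scl (2 * θ) h2θ) ξ0 f hf ?_ x
    · rw [coe_scl, adet_iso] at h2
      exact h2
    · intro ξ hξ
      refine ⟨(2 * θ)⁻¹ • (ξ - ξ0), ?_, ?_⟩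
      · rw [norm_smul, norm_inv, Real.norm_eq_abs, abs_of_pos (by positivity : (0:ℝ) < 2 * θ),
          inv_mul_le_iff₀ (by positivity), mul_one]
        exact hs ξ hξ
      · rw [coe_scl, adj_iso, smul_smul, mul_inv_cancel₀ h2θ, one_smul, add_sub_cancel]
  have hm : Measurable fun x => ‖𝓕⁻ f x‖ₑ ^ 2 := measurable_nsq hf
  have h5 := slab_avg n b hθ hθθ' c hm
  simp only [wE_eq] at key ⊢
  calc ∫⁻ x, ENNReal.ofReal (dw (n + 2) (bx b θ' θ) (x - c)) * ‖𝓕⁻ f x‖ₑ ^ 2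
      ≤ ∫⁻ x, ENNReal.ofReal (C1 * (2 * θ) ^ 2) * (ENNReal.ofReal (dw (n + 2) (bx b θ' θ) (x - c)) *
          (∫⁻ y, ENNReal.ofReal (dw n (iso (2 * θ)) (y - x)) * ‖𝓕⁻ f y‖ₑ ^ 2)) := by
        refine lintegral_mono fun x => ?_
        rw [mul_left_comm]
        exact mul_le_mul_right (key x) _
    _ = ENNReal.ofReal (C1 * (2 * θ) ^ 2) * ∫⁻ x, ENNReal.ofReal (dw (n + 2) (bx b θ' θ) (x - c)) *
          (∫⁻ y, ENNReal.ofReal (dw n (iso (2 * θ)) (y - x)) * ‖𝓕⁻ f y‖ₑ ^ 2) :=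
        lintegral_const_mul' _ _ ENNReal.ofReal_ne_top
    _ ≤ ENNReal.ofReal (C1 * (2 * θ) ^ 2) * (ENNReal.ofReal (Real.pi ^ 2 / (θ' * θ)) *
          ENNReal.ofReal (2 ^ n) *
          ∫⁻ y, ENNReal.ofReal (dw n (iso θ) (y - c)) * ‖𝓕⁻ f y‖ₑ ^ 2) := mul_le_mul_right h5 _
    _ = _ := by
        rw [← mul_assoc, ← ENNReal.ofReal_mul (by positivity), ← ENNReal.ofReal_mul (by positivity)]
        congr 2
        field_simp
        ring

end Crest.Agent.R138.Up448
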