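import Crest.Agent.R138.Up1_448

/-!
# R138 / R139: UPPER (F3), slab orthogonality (helper448), part 2

`upper`: the energy of a cap of size `θ'` on a slab `(1/θ' in b 0) × (1/θ in b 1)` is at most
`(θ/θ')·ν` times its energy on the ball of radius `1/θ`, where `ν` bounds the number of active caps
of size `θ` in a strip `⟪ξ, b 1⟫ = kθ + O(θ)`.
-/

set_option autoImplicit false

open MeasureTheory FourierTransform
open scoped ContDiff ENNReal InnerProductSpace
namespace Crest.Agent.R138.Up448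

open Crest.Agent.R138.Defs Crest.Agent.R138.Wpk685 Crest.Agent.R138.Wf448
  Crest.Agent.R138.Low448 Crest.Agent.R138.W188 Crest.Agent.R138.Loc878

/-- `ortho_col` over a `Finset`. -/
theorem col_fin (n : ℕ) : ∃ C : ℝ, 0 ≤ C ∧ ∀ (A : E2 →L[ℝ] E2) (c : E2) (ρ : ℝ), 0 < ρ → ‖A‖ ≤ ρ →
    ∀ (κ : Type) (s : Finset κ) (m : κ → E2 → ℂ) (g : E2 → ℂ) (K L : ℝ), 0 < K → 0 < L →
    (∀ i ∈ s, (m i).HasTemperateGrowth) →
    (∀ i ∈ s, ∀ j ≤ n, ∀ ξ, ‖iteratedFDeriv ℝ j (m i) ξ‖ ≤ K * (ρ⁻¹) ^ j) →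
    (∀ ξ, (Set.ncard {i | i ∈ s ∧ ξ ∈ tsupport (m i)} : ℝ) ≤ L) → Integrable g → MemLp g 2 →
    ∑ i ∈ s, wE n A c (fun ξ => m i ξ * g ξ) ≤ ENNReal.ofReal (C * K ^ 2 * L) * wE n A c g := by
  obtain ⟨C1, hC1, h1⟩ := Crest.Agent.R138.Wf448.ortho_col (V := E2) (W := E2) n
  refine ⟨C1, hC1, ?_⟩
  intro A c ρ hρ hA κ s m g K L hK hL hm hmK hov hg hg2
  have h2 := h1 A c ρ hρ hA {i // i ∈ s} (fun i => m i.1) g K L hK hL
    (fun i => hm i.1 i.2) (fun i => hmK i.1 i.2) ?_ hg hg2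
  · have e2 : ∑ i : {i // i ∈ s}, wE n A c (fun ξ => m i.1 ξ * g ξ) =
        ∑ i ∈ s, wE n A c (fun ξ => m i ξ * g ξ) :=
      Finset.sum_coe_sort s (fun i => wE n A c (fun ξ => m i ξ * g ξ))
    rwa [e2] at h2
  · intro ξ
    refine le_trans ?_ (hov ξ)
    have e3 : {i | i ∈ s ∧ ξ ∈ tsupport (m i)} =
        Subtype.val '' {i : {i // i ∈ s} | ξ ∈ tsupport (m i.1)} := by
      ext i
      simp only [Set.mem_ofPred_eq, Set.mem_image, Subtype.exists, exists_and_right,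
        exists_eq_right]
      tauto
    rw [e3, Set.ncard_image_of_injective _ Subtype.val_injective]

/-- Bessel for the caps, local weight. -/
theorem caps_col (n : ℕ) : ∃ C : ℝ, 0 ≤ C ∧ ∀ (θ : ℝ), 0 < θ → ∀ (c : E2) (s : Finset (ℤ × ℤ))
    (g : E2 → ℂ), Integrable g → MemLp g 2 →
    ∑ m ∈ s, wE n (iso θ) c (fun ξ => cap win (cen θ m) θ ξ * g ξ) ≤
      ENNReal.ofReal C * wE n (iso θ) c g := by
  obtain ⟨C1, hC1, h1⟩ := col_fin n
  obtain ⟨K, hK, hwin⟩ := win_kbound n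
  refine ⟨C1 * K ^ 2 * 36, by positivity, ?_⟩
  intro θ hθ c s g hg hg2
  refine h1 (iso θ) c θ hθ (norm_iso_le hθ.le) (ℤ × ℤ) s (fun m => cap win (cen θ m) θ) g K 36 hK
    (by norm_num) (fun m _ => temperate_cap win_contDiff (fun ζ hζ => win_zero' hζ) _ hθ)
    (fun m _ j hj ξ => hwin θ θ hθ le_rfl m j hj ξ) ?_ hg hg2
  intro ξ
  have : Set.ncard {m | m ∈ s ∧ ξ ∈ tsupport (cap win (cen θ m) θ)} ≤ 36 := by
    refine card_near hθ ξ _ fun m hm => ?_
    have h2 : tsupport (cap win (cen θ m) θ) ⊆ Metric.closedBall (cen θ m) (71 / 50 * θ) := by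
      apply closure_minimal _ Metric.isClosed_closedBall
      intro x hx
      rw [Metric.mem_closedBall, dist_eq_norm]
      exact capwin_supp hθ m x hx
    have h3 := h2 hm.2
    rw [Metric.mem_closedBall, dist_eq_norm] at h3
    linarith
  exact_mod_cast this

/-- one larger window, local weight. -/
theorem cap_mult (n : ℕ) : ∃ C : ℝ, 0 ≤ C ∧ ∀ (θ θ' : ℝ), 0 < θ → θ ≤ θ' → ∀ (c : E2)
    (m' : ℤ × ℤ) (g : E2 → ℂ), Integrable g → MemLp g 2 →
    wE n (iso θ) c (fun ξ => cap win (cen θ' m') θ' ξ * g ξ) ≤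
      ENNReal.ofReal C * wE n (iso θ) c g := by
  obtain ⟨C1, hC1, h1⟩ := col_fin n
  obtain ⟨K, hK, hwin⟩ := win_kbound n
  refine ⟨C1 * K ^ 2 * 1, by positivity, ?_⟩
  intro θ θ' hθ hθ' c m' g hg hg2
  have h2 := h1 (iso θ) c θ hθ (norm_iso_le hθ.le) Unit {()} (fun _ => cap win (cen θ' m') θ') g K 1 hK
    one_pos (fun _ _ => temperate_cap win_contDiff (fun ζ hζ => win_zero' hζ) _ (hθ.trans_le hθ'))
    (fun _ _ j hj ξ => hwin θ θ' hθ hθ' m' j hj ξ) ?_ hg hg2
  · simpa using h2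
  · intro ξ
    have : (Set.ncard {i : Unit | i ∈ ({()} : Finset Unit) ∧
        ξ ∈ tsupport (cap win (cen θ' m') θ')}) ≤ 1 :=
      (Set.ncard_le_ncard (Set.subset_univ _)).trans (by simp)
    exact_mod_cast this

theorem wE_sum_sq (n : ℕ) (A : E2 →L[ℝ] E2) (c : E2) {ι : Type*} (s : Finset ι) (f : ι → E2 → ℂ)
    (hf : ∀ i ∈ s, Integrable (f i)) : wE n A c (fun ξ => ∑ i ∈ s, f i ξ) ≤
      (s.card : ℝ≥0∞) * ∑ i ∈ s, wE n A c (f i) := by
  simp only [wE_eq]
  rw [← lintegral_finsetSum']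
  · rw [← lintegral_const_mul' _ _ (ENNReal.natCast_ne_top _)]
    refine lintegral_mono fun x => ?_
    rw [← Finset.mul_sum, mul_left_comm]
    exact mul_le_mul_right (enorm_fourierInv_sum_sq s f hf x) _
  · intro i hi
    exact ((meas_dw_sub c n A).mul (measurable_nsq (hf i hi))).aemeasurable


theorem wE_split (n : ℕ) (A : E2 →L[ℝ] E2) (c : E2) {ι : Type*} (s : Finset ι) (P : ι → Prop)
    [DecidablePred P] (f : ι → E2 → ℂ) (hf : ∀ i ∈ s, Integrable (f i)) :
    wE n A c (fun ξ => ∑ i ∈ s, f i ξ) ≤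
      2 * (((s.filter P).card : ℝ≥0∞) * ∑ i ∈ s.filter P, wE n A c (f i) +
        ((s.filter fun i => ¬ P i).card : ℝ≥0∞) * ∑ i ∈ s.filter fun i => ¬ P i, wE n A c (f i)) := by
  classical
  have h1 := wE_sum_sq n A c (Finset.univ : Finset Bool)
    (fun j ξ => ∑ i ∈ s.filter (fun i => (decide (P i)) = j), f i ξ)
    (fun j _ => integrable_finsetSum _ fun i hi => hf i (Finset.mem_filter.1 hi).1)
  have e1 : (fun ξ => ∑ j : Bool, ∑ i ∈ s.filter (fun i => (decide (P i)) = j), f i ξ) =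
      fun ξ => ∑ i ∈ s, f i ξ := by
    funext ξ
    exact Finset.sum_fiberwise s _ _
  rw [e1] at h1
  refine h1.trans ?_
  simp only [Fintype.univ_bool, Finset.mem_singleton, Bool.true_eq_false, not_false_eq_true,
    Finset.card_insert_of_notMem, Finset.card_singleton, Finset.sum_insert, Finset.sum_singleton,
    decide_eq_true_eq, decide_eq_false_iff_not]
  norm_num
  gcongr
  · exact wE_sum_sq n A c _ f (fun i hi => hf i (Finset.mem_filter.1 hi).1)
  · exact wE_sum_sq n A c _ f (fun i hi => hf i (Finset.mem_filter.1 hi).1)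

/-- the strip of a cap. -/
noncomputable def stp (b : OrthonormalBasis (Fin 2) ℝ E2) (θ : ℝ) (m : ℤ × ℤ) : ℤ :=
  ⌊inner ℝ (cen θ m) (b 1) / θ⌋

theorem stp_near (b : OrthonormalBasis (Fin 2) ℝ E2) {θ : ℝ} (hθ : 0 < θ) (m : ℤ × ℤ) :
    |inner ℝ (cen θ m) (b 1) - stp b θ m * θ| ≤ θ := by
  unfold stp
  have h1 := Int.floor_le (inner ℝ (cen θ m) (b 1) / θ)
  have h2 := Int.lt_floor_add_one (inner ℝ (cen θ m) (b 1) / θ)
  rw [le_div_iff₀ hθ] at h1
  rw [div_lt_iff₀ hθ] at h2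
  rw [abs_le]
  constructor <;> nlinarith

set_option maxHeartbeats 800000 in
/-- **UPPER (F3)**: slab orthogonality with a bound `ν` for the number of active directions in a
strip. -/
theorem upper (n : ℕ) : ∃ C : ℝ, 0 ≤ C ∧ ∀ (b : OrthonormalBasis (Fin 2) ℝ E2) (θ θ' : ℝ),
    0 < θ → θ ≤ θ' → ∀ (c : E2) (G : E2 → ℂ), Integrable G → MemLp G 2 →
    (∀ ξ, 2 < ‖ξ‖ → G ξ = 0) → ∀ (m' : ℤ × ℤ) (Act : Finset (ℤ × ℤ)) (ν : ℝ),
    (∀ k : ℤ, (Set.ncard {m | m ∈ Act ∧ Near θ θ' m' m ∧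
      |inner ℝ (cen θ m) (b 1) - k * θ| ≤ 4 * θ} : ℝ) ≤ ν) →
    wE (n + 2) (bx b θ' θ) c (fun ξ => cap win (cen θ' m') θ' ξ * G ξ) ≤
      ENNReal.ofReal (C * (θ / θ')) * (ENNReal.ofReal ν *
        wE n (iso θ) c (fun ξ => cap win (cen θ' m') θ' ξ * G ξ) +
        ((caps θ).card : ℝ≥0∞) * ∑ m ∈ nearL θ θ' m' \ Act,
          wE n (iso θ) c (fun ξ => cap win (cen θ m) θ ξ * G ξ)) := by
  classical
  obtain ⟨C1, hC1, h1⟩ := strip_row (n + 2)
  obtain ⟨C2, hC2, h2⟩ := lc n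
  obtain ⟨C3, hC3, h3⟩ := caps_col n
  obtain ⟨C4, hC4, h4⟩ := cap_mult n
  refine ⟨C1 * 2 * C2 * (C3 + C4), by positivity, ?_⟩
  intro b θ θ' hθ hθθ' c G hG hG2 hGs m' Act ν hν
  have hθ' : 0 < θ' := hθ.trans_le hθθ'
  have hν0 : 0 ≤ ν := le_trans (by positivity) (hν 0)
  set F : E2 → ℂ := fun ξ => cap win (cen θ' m') θ' ξ * G ξ with hF
  have hFi : Integrable F := win_int hG m'
  have hF2 : MemLp F 2 := win_l2 hG2 m'
  set f : ℤ × ℤ → E2 → ℂ := fun m ξ => cap win (cen θ m) θ ξ * F ξ with hf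
  have hfi : ∀ m, Integrable (f m) := fun m => win_int hFi m
  have hf2 : ∀ m, MemLp (f m) 2 := fun m => win_l2 hF2 m
  set K : Finset ℤ := (nearL θ θ' m').image (stp b θ) with hK
  set s : ℤ → Finset (ℤ × ℤ) := fun k => (nearL θ θ' m').filter (fun m => stp b θ m = k) with hs
  have eF : (fun ξ => ∑ k ∈ K, ∑ m ∈ s k, f m ξ) = F := by
    funext ξ
    rw [Finset.sum_fiberwise_of_maps_to (fun m hm => Finset.mem_image_of_mem _ hm)]
    exact sum_nearL hθ hθθ' hGs m' ξ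
  have a1 := h1 b θ' θ hθ c K (fun k ξ => ∑ m ∈ s k, f m ξ)
    (fun k => integrable_finsetSum _ fun m _ => hfi m)
    (fun k => memLp_finsetSum _ fun m _ => hf2 m) ?_
  · rw [eF] at a1
    -- one strip
    have a2 : ∀ k ∈ K, wE (n + 2) (bx b θ' θ) c (fun ξ => ∑ m ∈ s k, f m ξ) ≤
        2 * (ENNReal.ofReal ν * ∑ m ∈ (s k).filter (fun m => m ∈ Act), wE (n + 2) (bx b θ' θ) c (f m) +
        ((caps θ).card : ℝ≥0∞) * ∑ m ∈ (s k).filter (fun m => ¬ m ∈ Act),
          wE (n + 2) (bx b θ' θ) c (f m)) := by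
      intro k _
      refine (wE_split (n + 2) (bx b θ' θ) c (s k) (fun m => m ∈ Act) f (fun m _ => hfi m)).trans ?_
      gcongr
      · have h5 := hν k
        have h6 : ((s k).filter (fun m => m ∈ Act)).card ≤ Set.ncard {m | m ∈ Act ∧ Near θ θ' m' m ∧
            |inner ℝ (cen θ m) (b 1) - k * θ| ≤ 4 * θ} := by
          rw [← Set.ncard_coe_finset]
          refine Set.ncard_le_ncard ?_ (Act.finite_toSet.subset fun m hm => hm.1)
          intro m hm
          simp only [Finset.coe_filter, Set.mem_ofPred_eq, hs, Finset.mem_filter] at hm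
          refine ⟨hm.2, (mem_nearL.1 hm.1.1).2, ?_⟩
          rw [← hm.1.2]
          exact (stp_near b hθ m).trans (by linarith)
        have h7 : (((s k).filter (fun m => m ∈ Act)).card : ℝ) ≤ ν :=
          le_trans (by exact_mod_cast h6) h5
        rw [← ENNReal.ofReal_natCast]
        exact ENNReal.ofReal_le_ofReal h7
      · intro m hm
        rw [Finset.mem_filter] at hm
        exact (mem_nearL.1 (Finset.mem_filter.1 hm.1).1).1
    -- sum over the strips
    have a3 : ∑ k ∈ K, wE (n + 2) (bx b θ' θ) c (fun ξ => ∑ m ∈ s k, f m ξ) ≤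
        2 * (ENNReal.ofReal ν * ∑ m ∈ (nearL θ θ' m').filter (fun m => m ∈ Act),
          wE (n + 2) (bx b θ' θ) c (f m) +
        ((caps θ).card : ℝ≥0∞) * ∑ m ∈ nearL θ θ' m' \ Act, wE (n + 2) (bx b θ' θ) c (f m)) := by
      refine (Finset.sum_le_sum a2).trans (le_of_eq ?_)
      have b1 : ∑ k ∈ K, ∑ m ∈ (s k).filter (fun m => m ∈ Act), wE (n + 2) (bx b θ' θ) c (f m) =
          ∑ m ∈ (nearL θ θ' m').filter (fun m => m ∈ Act), wE (n + 2) (bx b θ' θ) c (f m) := by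
        rw [← Finset.sum_fiberwise_of_maps_to (t := K) (g := stp b θ)
          (s := (nearL θ θ' m').filter (fun m => m ∈ Act))]
        · refine Finset.sum_congr rfl fun k _ => ?_
          refine Finset.sum_congr ?_ fun _ _ => rfl
          ext m
          simp only [hs, Finset.mem_filter]
          tauto
        · intro m hm
          exact Finset.mem_image_of_mem _ (Finset.mem_filter.1 hm).1
      have b2 : ∑ k ∈ K, ∑ m ∈ (s k).filter (fun m => ¬ m ∈ Act), wE (n + 2) (bx b θ' θ) c (f m) =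
          ∑ m ∈ nearL θ θ' m' \ Act, wE (n + 2) (bx b θ' θ) c (f m) := by
        rw [← Finset.sum_fiberwise_of_maps_to (t := K) (g := stp b θ) (s := nearL θ θ' m' \ Act)]
        · refine Finset.sum_congr rfl fun k _ => ?_
          refine Finset.sum_congr ?_ fun _ _ => rfl
          ext m
          simp only [hs, Finset.mem_filter, Finset.mem_sdiff]
          tauto
        · intro m hm
          exact Finset.mem_image_of_mem _ (Finset.mem_sdiff.1 hm).1
      rw [← Finset.mul_sum, Finset.sum_add_distrib, ← Finset.mul_sum, ← Finset.mul_sum, b1, b2]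
    -- local constancy
    have a4 : ∀ m, wE (n + 2) (bx b θ' θ) c (f m) ≤
        ENNReal.ofReal (C2 * (θ / θ')) * wE n (iso θ) c (f m) := by
      intro m
      refine h2 b θ' θ hθ hθθ' c (cen θ m) (f m) (hfi m) fun ξ hξ => ?_
      have := capwin_supp hθ m ξ (left_ne_zero_of_mul hξ)
      linarith
    have a5 : ∑ m ∈ (nearL θ θ' m').filter (fun m => m ∈ Act), wE (n + 2) (bx b θ' θ) c (f m) ≤
        ENNReal.ofReal (C2 * (θ / θ')) * (ENNReal.ofReal (C3 + C4) * wE n (iso θ) c F) := by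
      calc _ ≤ ∑ m ∈ (nearL θ θ' m').filter (fun m => m ∈ Act),
            ENNReal.ofReal (C2 * (θ / θ')) * wE n (iso θ) c (f m) :=
            Finset.sum_le_sum fun m _ => a4 m
        _ = ENNReal.ofReal (C2 * (θ / θ')) * ∑ m ∈ (nearL θ θ' m').filter (fun m => m ∈ Act),
            wE n (iso θ) c (f m) := by rw [Finset.mul_sum]
        _ ≤ ENNReal.ofReal (C2 * (θ / θ')) * (ENNReal.ofReal C3 * wE n (iso θ) c F) :=
            mul_le_mul_right (h3 θ hθ c _ F hFi hF2) _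
        _ ≤ _ := by gcongr; linarith
    have a6 : ∑ m ∈ nearL θ θ' m' \ Act, wE (n + 2) (bx b θ' θ) c (f m) ≤
        ENNReal.ofReal (C2 * (θ / θ')) * (ENNReal.ofReal (C3 + C4) * ∑ m ∈ nearL θ θ' m' \ Act,
          wE n (iso θ) c (fun ξ => cap win (cen θ m) θ ξ * G ξ)) := by
      rw [Finset.mul_sum, Finset.mul_sum]
      refine Finset.sum_le_sum fun m _ => (a4 m).trans (mul_le_mul_right ?_ _)
      have e1 : f m = fun ξ => cap win (cen θ' m') θ' ξ * (cap win (cen θ m) θ ξ * G ξ) := by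
        funext ξ
        simp only [hf, hF]
        ring
      rw [e1]
      refine (h4 θ θ' hθ hθθ' c m' _ (win_int hG m) (win_l2 hG2 m)).trans ?_
      gcongr
      linarith
    calc wE (n + 2) (bx b θ' θ) c F ≤ ENNReal.ofReal C1 *
          (2 * (ENNReal.ofReal ν * (ENNReal.ofReal (C2 * (θ / θ')) *
            (ENNReal.ofReal (C3 + C4) * wE n (iso θ) c F)) +
          ((caps θ).card : ℝ≥0∞) * (ENNReal.ofReal (C2 * (θ / θ')) *
            (ENNReal.ofReal (C3 + C4) * ∑ m ∈ nearL θ θ' m' \ Act,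
          wE n (iso θ) c (fun ξ => cap win (cen θ m) θ ξ * G ξ))))) := by
          refine a1.trans (mul_le_mul_right (a3.trans ?_) _)
          gcongr
      _ = _ := by
          have e5 : ENNReal.ofReal (C1 * 2 * C2 * (C3 + C4) * (θ / θ')) =
              ENNReal.ofReal C1 * 2 * ENNReal.ofReal (C2 * (θ / θ')) * ENNReal.ofReal (C3 + C4) := by
            have e6 : (2 : ℝ≥0∞) = ENNReal.ofReal 2 := by simp
            have hq : 0 ≤ θ / θ' := by positivity
            rw [e6, ← ENNReal.ofReal_mul hC1, ← ENNReal.ofReal_mul (by positivity),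
              ← ENNReal.ofReal_mul (by positivity)]
            congr 1
            ring
          rw [e5]
          ring
  · intro k _ ξ hξ
    obtain ⟨m, hm, hne⟩ := Finset.exists_ne_zero_of_sum_ne_zero hξ
    have h5 := capwin_supp hθ m ξ (left_ne_zero_of_mul hne)
    have h6 := stp_near b hθ m
    have h7 : stp b θ m = k := (Finset.mem_filter.1 hm).2
    rw [h7] at h6
    have h8 : |inner ℝ (ξ - cen θ m) (b 1)| ≤ ‖ξ - cen θ m‖ := by
      have := abs_real_inner_le_norm (ξ - cen θ m) (b 1)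
      rwa [b.norm_eq_one, mul_one] at this
    have e1 : inner ℝ ξ (b 1) - k * θ = inner ℝ (ξ - cen θ m) (b 1) +
        (inner ℝ (cen θ m) (b 1) - k * θ) := by
      rw [inner_sub_left]; ring
    rw [e1]
    refine (abs_add_le _ _).trans ?_
    linarith

end Crest.Agent.R138.Up448
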