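import Crest.Agent.R138.KDef_294

/-!
# R138, TEXT I (helper294): elementary bounds for the value of a configuration

* `cover2` : a plank of a deep cell is covered by few planks `(a1, a2)` of the coarse cell;
* `val_le` : `val ≤ 2 + 10 / M` for every penalty `q`;
* `val_two` : `val ≤ 13 / M` for `q = 2`;
* `Ok.up_shift`, `Ok.down_shift` : change of the penalty.
-/

set_option autoImplicit false
set_option linter.unusedVariables false

open Finset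

namespace Crest.Agent.R138.K294

open Crest.Agent.R138.Flag51

noncomputable section

theorem pos_dt (t l : Ln) (z z' : ℝ) (e : E2) :
    dt (pos t z - pos l z) e = dt (pos t z' - pos l z') e + (z - z') * dt (t.2 - l.2) e := by
  simp only [dt, pos, PiLp.sub_apply, PiLp.add_apply, PiLp.smul_apply, smul_eq_mul]; ring

theorem pos_cr (t l : Ln) (z z' : ℝ) (e : E2) :
    cr e (pos t z - pos l z) = cr e (pos t z' - pos l z') + (z - z') * cr e (t.2 - l.2) := by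
  simp only [cr, pos, PiLp.sub_apply, PiLp.add_apply, PiLp.smul_apply, smul_eq_mul]; ring

/-- velocities of the lines of a plank -/
theorem vel_le {t l : Ln} {e : E2} {w1 w2 z0 ρ : ℝ} (hρ : 0 < ρ) (h : InPlank t l e w1 w2 z0 ρ) :
    |dt (t.2 - l.2) e| ≤ w1 / ρ ∧ |cr e (t.2 - l.2)| ≤ w2 / ρ := by
  have h1 := h (z0 + ρ) (by rw [add_sub_cancel_left, abs_of_pos hρ])
  have h2 := h (z0 - ρ) (by rw [sub_sub_cancel_left, abs_neg, abs_of_pos hρ])
  have e1 := pos_dt t l (z0 + ρ) (z0 - ρ) e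
  have e2 := pos_cr t l (z0 + ρ) (z0 - ρ) e
  have e3 : z0 + ρ - (z0 - ρ) = 2 * ρ := by ring
  rw [e3] at e1 e2
  constructor
  · rw [le_div_iff₀ hρ]
    have : 2 * ρ * dt (t.2 - l.2) e = dt (pos t (z0 + ρ) - pos l (z0 + ρ)) e -
      dt (pos t (z0 - ρ) - pos l (z0 - ρ)) e := by linarith
    have h4 : |2 * ρ * dt (t.2 - l.2) e| ≤ w1 + w1 := by
      rw [this]; exact (abs_sub _ _).trans (add_le_add h1.1 h2.1)
    rw [abs_mul, abs_of_pos (by linarith : 0 < 2 * ρ)] at h4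
    linarith
  · rw [le_div_iff₀ hρ]
    have : 2 * ρ * cr e (t.2 - l.2) = cr e (pos t (z0 + ρ) - pos l (z0 + ρ)) -
      cr e (pos t (z0 - ρ) - pos l (z0 - ρ)) := by linarith
    have h4 : |2 * ρ * cr e (t.2 - l.2)| ≤ w2 + w2 := by
      rw [this]; exact (abs_sub _ _).trans (add_le_add h1.2 h2.2)
    rw [abs_mul, abs_of_pos (by linarith : 0 < 2 * ρ)] at h4
    linarith

/-- position / velocity cell of a line: positions at `z1` -/
def pcell (e : E2) (a1 a2 z1 ρ : ℝ) (t : Ln) : (ℤ × ℤ) × (ℤ × ℤ) :=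
  ((⌊dt (pos t z1) e / (a1 / 2)⌋, ⌊cr e (pos t z1) / (a2 / 2)⌋),
    (⌊dt t.2 e / (a1 / (4 * ρ))⌋, ⌊cr e t.2 / (a2 / (4 * ρ))⌋))

theorem inPlank_of_pcell {e : E2} {a1 a2 z1 z0 ρ : ℝ} (h1 : 0 < a1) (h2 : 0 < a2) (hρ : 0 < ρ)
    (hz : |z1 - z0| ≤ ρ) {t l : Ln} (h : pcell e a1 a2 z1 ρ t = pcell e a1 a2 z1 ρ l) :
    InPlank t l e a1 a2 z0 ρ := by
  unfold pcell at h
  simp only [Prod.mk.injEq] at h
  obtain ⟨⟨p1, p2⟩, v1, v2⟩ := h
  have q1 := abs_le_of_floor (by positivity) p1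
  have q2 := abs_le_of_floor (by positivity) p2
  have q3 := abs_le_of_floor (by positivity) v1
  have q4 := abs_le_of_floor (by positivity) v2
  rw [← dt_sub] at q1 q3
  rw [← cr_sub] at q2 q4
  intro z hz'
  have hzz : |z - z1| ≤ 2 * ρ := by
    have : z - z1 = (z - z0) - (z1 - z0) := by ring
    rw [this]; exact (abs_sub _ _).trans (by linarith)
  rw [pos_dt t l z z1, pos_cr t l z z1]
  constructor
  · calc |dt (pos t z1 - pos l z1) e + (z - z1) * dt (t.2 - l.2) e|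
        ≤ |dt (pos t z1 - pos l z1) e| + |(z - z1) * dt (t.2 - l.2) e| := abs_add_le _ _
      _ = |dt (pos t z1 - pos l z1) e| + |z - z1| * |dt (t.2 - l.2) e| := by rw [abs_mul]
      _ ≤ a1 / 2 + (2 * ρ) * (a1 / (4 * ρ)) := by gcongr
      _ = a1 := by field_simp; ring
  · calc |cr e (pos t z1 - pos l z1) + (z - z1) * cr e (t.2 - l.2)|
        ≤ |cr e (pos t z1 - pos l z1)| + |(z - z1) * cr e (t.2 - l.2)| := abs_add_le _ _
      _ = |cr e (pos t z1 - pos l z1)| + |z - z1| * |cr e (t.2 - l.2)| := by rw [abs_mul]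
      _ ≤ a2 / 2 + (2 * ρ) * (a2 / (4 * ρ)) := by gcongr
      _ = a2 := by field_simp; ring

open Classical in
/-- **second cover lemma**: the lines of a plank `(l, e; w1, w2)` of the cell `(z1, ρ')` are covered
by few planks `(t0, e; a1, a2)` of the larger cell `(z0, ρ)`. -/
theorem cover2 {ι : Type*} (S : Finset ι) (L : ι → Ln) {e : E2} {w1 w2 a1 a2 z1 z0 ρ' ρ : ℝ}
    (h1 : 0 < a1) (h2 : 0 < a2) (hρ : 0 < ρ) (hρ' : 0 < ρ') (hz : |z1 - z0| ≤ ρ)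
    {n1 n2 n3 n4 : ℕ} (b1 : w1 ≤ n1 * (a1 / 2)) (b2 : w2 ≤ n2 * (a2 / 2))
    (b3 : w1 / ρ' ≤ n3 * (a1 / (4 * ρ))) (b4 : w2 / ρ' ≤ n4 * (a2 / (4 * ρ))) {l : Ln}
    (hS : ∀ t ∈ S, InPlank (L t) l e w1 w2 z1 ρ') {A : ℝ} (hA0 : 0 ≤ A)
    (hA : ∀ t0 ∈ S, ((S.filter fun t => InPlank (L t) (L t0) e a1 a2 z0 ρ).card : ℝ) ≤ A) :
    (S.card : ℝ) ≤ (((2 * n1 + 1) * (2 * n2 + 1)) * ((2 * n3 + 1) * (2 * n4 + 1))) * A := by
  set g : ι → (ℤ × ℤ) × (ℤ × ℤ) := fun t => pcell e a1 a2 z1 ρ (L t) with hg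
  have c1 : (S.card : ℝ) ≤ (S.image g).card * A := by
    have : S.card = ∑ c ∈ S.image g, (S.filter fun t => g t = c).card :=
      card_eq_sum_card_image g S
    rw [this]
    push_cast
    calc ∑ c ∈ S.image g, ((S.filter fun t => g t = c).card : ℝ) ≤ ∑ c ∈ S.image g, A := by
          refine sum_le_sum fun c hc => ?_
          obtain ⟨t0, ht0, rfl⟩ := mem_image.1 hc
          refine le_trans ?_ (hA t0 ht0)
          refine Nat.cast_le.2 (card_le_card fun t ht => ?_)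
          rw [mem_filter] at ht ⊢
          exact ⟨ht.1, inPlank_of_pcell h1 h2 hρ hz ht.2⟩
      _ = (S.image g).card * A := by rw [sum_const, nsmul_eq_mul]
  set c0 := pcell e a1 a2 z1 ρ l with hc0
  have c2 : S.image g ⊆ ((Icc (c0.1.1 - n1) (c0.1.1 + n1)) ×ˢ (Icc (c0.1.2 - n2) (c0.1.2 + n2))) ×ˢ
      ((Icc (c0.2.1 - n3) (c0.2.1 + n3)) ×ˢ (Icc (c0.2.2 - n4) (c0.2.2 + n4))) := by
    intro c hc
    obtain ⟨t, ht, rfl⟩ := mem_image.1 hc
    have a := hS t ht z1 (by rw [sub_self, abs_zero]; exact hρ'.le)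
    have v := vel_le hρ' (hS t ht)
    rw [dt_sub, cr_sub] at a v
    rw [mem_product, mem_product, mem_product]
    exact ⟨⟨floor_mem_Icc (by positivity) (a.1.trans b1),
      floor_mem_Icc (by positivity) (a.2.trans b2)⟩,
      floor_mem_Icc (by positivity) (v.1.trans b3), floor_mem_Icc (by positivity) (v.2.trans b4)⟩
  have c3 : ((S.image g).card : ℝ) ≤
      ((2 * n1 + 1) * (2 * n2 + 1)) * ((2 * n3 + 1) * (2 * n4 + 1)) := by
    have := card_le_card c2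
    rw [card_product, card_product, card_product] at this
    have h5 : ∀ (x : ℤ) (n : ℕ), (Icc (x - n) (x + n)).card = 2 * n + 1 := by
      intro x n; rw [Int.card_Icc]; omega
    rw [h5, h5, h5, h5] at this
    exact_mod_cast this
  exact c1.trans (mul_le_mul_of_nonneg_right c3 hA0)

variable {q : ℝ} {F : Cf}

open Classical in
/-- the lines of the class of `x` -/
def Cf.lns (F : Cf) (x : Ln × ℝ) : Finset Ln := (F.cls x).image Prod.fst

theorem Cf.Ok.inK (h : F.Ok q) {x : Ln × ℝ} (hx : x ∈ F.I) {o : Ln × ℤ} (ho : o ∈ F.cls x) :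
    InK F.top (F.K (F.cl (ob F.top x))) o := by
  classical
  unfold Cf.cls at ho
  rw [mem_filter, mem_image] at ho
  obtain ⟨⟨y, hy, rfl⟩, hc⟩ := ho
  rw [← hc]
  exact h.mem y hy

theorem Cf.Ok.card_lns (h : F.Ok q) {x : Ln × ℝ} (hx : x ∈ F.I) :
    (F.lns x).card = (F.cls x).card := by
  classical
  unfold Cf.lns
  refine card_image_of_injOn fun a ha b hb hab => ?_
  rw [Finset.mem_coe] at ha hb
  exact Prod.ext hab ((h.inK hx ha).1.trans (h.inK hx hb).1.symm)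

theorem Cf.Ok.zc_eq (h : F.Ok q) {x : Ln × ℝ} (hx : x ∈ F.I) {o : Ln × ℤ} (ho : o ∈ F.cls x) :
    ∃ y ∈ F.I, y.1 = o.1 ∧ zc F.m y.2 = zc F.m x.2 := by
  classical
  unfold Cf.cls at ho
  rw [mem_filter, mem_image] at ho
  obtain ⟨⟨y, hy, rfl⟩, hc⟩ := ho
  exact ⟨y, hy, rfl, h.cell y hy x hx⟩

open Classical in
/-- the lines of a class in a legal plank `(a1, a2)` of the coarse cell -/
theorem Cf.Ok.lns_le (h : F.Ok q) {x : Ln × ℝ} (hx : x ∈ F.I) (t0 : Ln) {a1 a2 : ℝ}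
    (hr : F.r ≤ a1) (h12 : a1 ≤ a2) (h2 : a2 ≤ 1 / 2 ^ F.m) :
    (((F.lns x).filter fun t => InPlank t t0 (F.K (F.cl (ob F.top x))).e a1 a2
      (zm F.m (zc F.m x.2)) (zr F.m)).card : ℝ) ≤ F.D0 * (a1 * a2 * (a2 * 2 ^ F.m) ^ q) := by
  have hu := h.up ⟨zc F.m x.2, t0, (F.K (F.cl (ob F.top x))).e, a1, a2⟩
    ⟨(h.legal x hx).unit, hr, h12, h2⟩
  refine le_trans (Nat.cast_le.2 ?_) hu
  refine card_le_card_of_injOn (fun t => (t, zc F.m x.2)) (fun t ht => ?_)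
    (fun a _ b _ hab => (Prod.ext_iff.1 hab).1)
  rw [Finset.mem_coe, mem_filter] at ht
  rw [Finset.mem_coe]
  unfold objs
  rw [mem_filter, mem_image]
  obtain ⟨h1, h3⟩ := ht
  unfold Cf.lns at h1
  obtain ⟨o, ho, rfl⟩ := mem_image.1 h1
  obtain ⟨y, hy, hy1, hy2⟩ := h.zc_eq hx ho
  refine ⟨⟨y, hy, ?_⟩, rfl, h3⟩
  unfold ob
  rw [hy1, hy2]

theorem Cf.Ok.D0p (h : F.Ok q) : 0 ≤ F.D0 := by
  obtain ⟨x, hx⟩ := h.ne
  have hl := h.legal x hx
  have h1 := h.lns_le hx x.1 (a1 := F.r) (a2 := 1 / 2 ^ F.m) le_rfl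
    (h.rle.trans (one_div_le_one_div_of_le (by positivity)
      (pow_le_pow_right₀ one_le_two (Nat.le_add_right _ _)))) le_rfl
  have h2 : 0 < F.r * (1 / 2 ^ F.m) * (1 / 2 ^ F.m * 2 ^ F.m) ^ q := by
    have := h.r0
    positivity
  by_contra h3
  push Not at h3
  have := mul_neg_of_neg_of_pos h3 h2
  have h4 : (0:ℝ) ≤ _ := (Nat.cast_nonneg _).trans h1
  linarith

theorem Cf.Ok.zhyp (h : F.Ok q) {x : Ln × ℝ} (hx : x ∈ F.I) :
    |zm F.top (F.K (F.cl (ob F.top x))).j - zm F.m (zc F.m x.2)| ≤ zr F.m := by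
  have h1 : (F.K (F.cl (ob F.top x))).j = zc F.top x.2 := (h.mem x hx).1.symm
  rw [h1]
  have h2 := cell_sub (m := F.m) (m' := F.top) (Nat.le_add_right _ _) x.2
  have := zr_pos F.top
  linarith

/-- `ρ_m = 2^M ρ_top` -/
theorem zr_top (F : Cf) : zr F.m = 2 ^ F.M * zr F.top := by
  unfold zr Cf.top
  rw [show F.m + F.M + 1 = F.M + (F.m + 1) by ring, pow_add 2 F.M]
  field_simp

theorem Cf.Ok.card_le_of (h : F.Ok q) {x : Ln × ℝ} (hx : x ∈ F.I) {a1 a2 : ℝ} {n1 n2 n3 n4 : ℕ}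
    (hr : F.r ≤ a1) (h12 : a1 ≤ a2) (h2 : a2 ≤ 1 / 2 ^ F.m)
    (b1 : (F.K (F.cl (ob F.top x))).w1 ≤ n1 * (a1 / 2))
    (b2 : (F.K (F.cl (ob F.top x))).w2 ≤ n2 * (a2 / 2))
    (b3 : 2 ^ F.M * (F.K (F.cl (ob F.top x))).w1 ≤ n3 * (a1 / 4))
    (b4 : 2 ^ F.M * (F.K (F.cl (ob F.top x))).w2 ≤ n4 * (a2 / 4)) :
    ((F.cls x).card : ℝ) ≤ (((2 * n1 + 1) * (2 * n2 + 1)) * ((2 * n3 + 1) * (2 * n4 + 1))) *
      (F.D0 * (a1 * a2 * (a2 * 2 ^ F.m) ^ q)) := by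
  classical
  have ha1 : 0 < a1 := h.r0.trans_le hr
  have ha2 : 0 < a2 := ha1.trans_le h12
  have hD := h.D0p
  rw [← h.card_lns hx]
  have hz := zr_pos F.top
  have conv : ∀ {w a : ℝ} {n : ℕ}, 2 ^ F.M * w ≤ n * (a / 4) →
      w / zr F.top ≤ n * (a / (4 * zr F.m)) := by
    intro w a n hw
    rw [zr_top F, div_le_iff₀ hz]
    have e1 : (n:ℝ) * (a / (4 * (2 ^ F.M * zr F.top))) * zr F.top = (n * (a / 4)) / 2 ^ F.M := by
      field_simp
    rw [e1, le_div_iff₀ (by positivity)]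
    linarith
  refine cover2 (F.lns x) id ha1 ha2 (zr_pos F.m) hz (h.zhyp hx) b1 b2 (conv b3) (conv b4)
    (l := (F.K (F.cl (ob F.top x))).l) (e := (F.K (F.cl (ob F.top x))).e) (fun t ht => ?_)
    (by positivity) (fun t0 ht0 => ?_)
  · unfold Cf.lns at ht
    obtain ⟨o, ho, rfl⟩ := mem_image.1 ht
    exact (h.inK hx ho).2
  · exact h.lns_le hx t0 hr h12 h2

/-- the own number of cells is at most `2^M` -/
theorem Cf.Ok.nu_le (h : F.Ok q) : F.nu ≤ 2 ^ F.M := by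
  classical
  obtain ⟨x, hx⟩ := h.ne
  refine (h.own x hx).trans ?_
  unfold ownc
  have h1 : (F.I.filter fun y => ob F.m y = ob F.m x).image (ob F.top) ⊆
      (Ico (2 ^ F.M * zc F.m x.2) (2 ^ F.M * (zc F.m x.2 + 1))).image fun j => (x.1, j) := by
    intro o ho
    obtain ⟨y, hy, rfl⟩ := mem_image.1 ho
    rw [mem_filter] at hy
    obtain ⟨hyI, hyo⟩ := hy
    unfold ob at hyo
    rw [Prod.mk.injEq] at hyo
    rw [mem_image]
    refine ⟨zc F.top y.2, ?_, ?_⟩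
    · rw [← hyo.2, mem_Ico]
      unfold zc Cf.top
      have f1 := Int.floor_le ((2:ℝ) ^ F.m * y.2)
      have f2 := Int.lt_floor_add_one ((2:ℝ) ^ F.m * y.2)
      have hk : (0:ℝ) < 2 ^ F.M := by positivity
      constructor
      · rw [Int.le_floor]
        push_cast
        calc (2:ℝ) ^ F.M * ⌊(2:ℝ) ^ F.m * y.2⌋ ≤ 2 ^ F.M * (2 ^ F.m * y.2) := by gcongr
          _ = 2 ^ (F.m + F.M) * y.2 := by rw [pow_add]; ring
      · rw [Int.floor_lt]
        push_cast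
        calc (2:ℝ) ^ (F.m + F.M) * y.2 = 2 ^ F.M * (2 ^ F.m * y.2) := by rw [pow_add]; ring
          _ < 2 ^ F.M * (⌊(2:ℝ) ^ F.m * y.2⌋ + 1) := by gcongr
    · unfold ob; rw [hyo.1]
  have h2 := (card_le_card h1).trans card_image_le
  rw [Int.card_Ico] at h2
  have h3 : (2 ^ F.M * (zc F.m x.2 + 1) - 2 ^ F.M * zc F.m x.2 : ℤ) = 2 ^ F.M := by ring
  rw [h3] at h2
  have h4 : ((2:ℤ) ^ F.M).toNat = 2 ^ F.M := by
    rw [Int.toNat_pow_of_nonneg (by norm_num)]; rfl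
  rw [h4] at h2
  exact_mod_cast h2

/-- **trivial bound for `D1`** -/
theorem Cf.Ok.D1_le (h : F.Ok q) : F.D1 ≤ 729 * 4 ^ F.M * F.D0 := by
  obtain ⟨x, hx⟩ := h.ne
  have hl := h.legal x hx
  have hlow := h.low x hx
  set K := F.K (F.cl (ob F.top x)) with hK
  have hw1 : 0 < K.w1 := h.r0.trans_le hl.r1
  have hw2 : 0 < K.w2 := hw1.trans_le hl.w12
  have hM : (2:ℝ) ≤ 2 ^ F.M := by
    calc (2:ℝ) = 2 ^ 1 := by norm_num
      _ ≤ 2 ^ F.M := pow_le_pow_right₀ one_le_two h.M1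
  have hM0 : (0:ℝ) < 2 ^ F.M := by positivity
  have h1 := h.card_le_of hx (a1 := 2 ^ F.M * K.w1) (a2 := 2 ^ F.M * K.w2) (n1 := 1) (n2 := 1)
    (n3 := 4) (n4 := 4) (hl.r1.trans (by nlinarith)) (by
      exact mul_le_mul_of_nonneg_left hl.w12 hM0.le) (by
      have := mul_le_mul_of_nonneg_left hl.w2 hM0.le
      refine this.trans (le_of_eq ?_)
      unfold Cf.top; rw [pow_add]; field_simp)
    (by push_cast; rw [← hK]; nlinarith) (by push_cast; rw [← hK]; nlinarith)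
    (by push_cast; rw [← hK]; linarith) (by push_cast; rw [← hK]; linarith)
  have h2 := hlow.trans h1
  unfold cap at h2
  have e1 : (K.w2 * 2 ^ F.top) = 2 ^ F.M * K.w2 * 2 ^ F.m := by
    unfold Cf.top; rw [pow_add]; ring
  rw [e1] at h2
  set X := (2 ^ F.M * K.w2 * 2 ^ F.m) ^ q with hX
  have hX0 : 0 < X := by positivity
  have e2 : (((2 * ((1:ℕ):ℝ) + 1) * (2 * ((1:ℕ):ℝ) + 1)) * ((2 * ((4:ℕ):ℝ) + 1) *
      (2 * ((4:ℕ):ℝ) + 1))) * (F.D0 * (2 ^ F.M * K.w1 * (2 ^ F.M * K.w2) * X)) =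
      (729 * 4 ^ F.M * F.D0) * (K.w1 * K.w2 * X) := by
    have : (4:ℝ) ^ F.M = 2 ^ F.M * 2 ^ F.M := by
      rw [← mul_pow]; norm_num
    rw [this]; push_cast; ring
  rw [e2] at h2
  exact le_of_mul_le_mul_right h2 (by positivity)

theorem Cf.Ok.D0p' (h : F.Ok q) : 0 < F.D0 := by
  have h1 := h.D1p
  have h2 := h.D1_le
  have h3 : (0:ℝ) < 729 * 4 ^ F.M := by positivity
  by_contra h4
  push Not at h4
  have := mul_nonpos_of_nonneg_of_nonpos h3.le h4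
  linarith

/-- **bound of the value** -/
theorem Cf.Ok.val_le (h : F.Ok q) : F.val ≤ 2 + 10 / F.M := by
  have hM : (1:ℝ) ≤ F.M := by exact_mod_cast h.M1
  unfold Cf.val
  rw [div_le_iff₀ (by linarith)]
  have hD := h.D0p'
  have h1 : F.D1 * F.nu ^ 2 / (4 ^ F.M * F.D0) ≤ 1024 * 4 ^ F.M := by
    rw [div_le_iff₀ (by positivity)]
    have h2 : F.nu ^ 2 ≤ 4 ^ F.M := by
      have := pow_le_pow_left₀ h.nup.le h.nu_le 2
      refine this.trans (le_of_eq ?_)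
      rw [← pow_mul, mul_comm, pow_mul]; norm_num
    calc F.D1 * F.nu ^ 2 ≤ (729 * 4 ^ F.M * F.D0) * 4 ^ F.M := by
          have := h.D1_le
          gcongr
      _ ≤ 1024 * 4 ^ F.M * (4 ^ F.M * F.D0) := by
          have : (0:ℝ) < 4 ^ F.M * F.D0 * 4 ^ F.M := by positivity
          nlinarith
  have hpos : 0 < F.D1 * F.nu ^ 2 / (4 ^ F.M * F.D0) := by
    have := h.D1p; have := h.nup; positivity
  have h3 := Real.logb_le_logb_of_le one_lt_two hpos h1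
  refine h3.trans (le_of_eq ?_)
  have e1 : (1024:ℝ) * 4 ^ F.M = 2 ^ (10 + 2 * F.M) := by
    rw [pow_add, pow_mul]; norm_num
  rw [e1, Real.logb_pow, Real.logb_self_eq_one one_lt_two]
  push_cast
  field_simp
  ring

/-- **`q = 2`: the value is `≤ 0`** up to a constant -/
theorem Cf.Ok.D1_le_two (h : F.Ok 2) : F.D1 ≤ 8192 * F.D0 := by
  obtain ⟨x, hx⟩ := h.ne
  have hl := h.legal x hx
  have hlow := h.low x hx
  set K := F.K (F.cl (ob F.top x)) with hK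
  have hr := h.r0
  have hw1 : 0 < K.w1 := hr.trans_le hl.r1
  have hw2 : 0 < K.w2 := hw1.trans_le hl.w12
  have hM0 : (0:ℝ) < 2 ^ F.M := by positivity
  have hM1 : (1:ℝ) ≤ 2 ^ F.M := one_le_pow₀ one_le_two
  have hrw2 : F.r ≤ K.w2 := hl.r1.trans hl.w12
  have c1 : ∀ {y : ℝ}, 0 ≤ y → y ≤ (⌈y / F.r⌉₊ : ℝ) * F.r := by
    intro y hy
    have := Nat.le_ceil (y / F.r)
    rwa [div_le_iff₀ hr] at this
  have c2 : ∀ {y : ℝ}, 0 ≤ y → (2 * (⌈y / F.r⌉₊ : ℝ) + 1) * F.r ≤ 2 * y + 3 * F.r := by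
    intro y hy
    have h1 := Nat.ceil_lt_add_one (div_nonneg hy hr.le)
    have h2 : (⌈y / F.r⌉₊ : ℝ) * F.r ≤ (y / F.r + 1) * F.r :=
      mul_le_mul_of_nonneg_right h1.le hr.le
    have h3 : (y / F.r + 1) * F.r = y + F.r := by field_simp
    nlinarith
  have h1 := h.card_le_of hx (a1 := F.r) (a2 := F.r) (n1 := ⌈2 * K.w1 / F.r⌉₊)
    (n2 := ⌈2 * K.w2 / F.r⌉₊) (n3 := ⌈4 * (2 ^ F.M * K.w1) / F.r⌉₊)
    (n4 := ⌈4 * (2 ^ F.M * K.w2) / F.r⌉₊) le_rfl le_rfl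
    (h.rle.trans (one_div_le_one_div_of_le (by positivity)
      (pow_le_pow_right₀ one_le_two (Nat.le_add_right _ _))))
    (by have := c1 (y := 2 * K.w1) (by positivity); rw [← hK]; linarith)
    (by have := c1 (y := 2 * K.w2) (by positivity); rw [← hK]; linarith)
    (by have := c1 (y := 4 * (2 ^ F.M * K.w1)) (by positivity); rw [← hK]; linarith)
    (by have := c1 (y := 4 * (2 ^ F.M * K.w2)) (by positivity); rw [← hK]; linarith)
  have h2 := hlow.trans h1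
  have d1 := c2 (y := 2 * K.w1) (by positivity)
  have d2 := c2 (y := 2 * K.w2) (by positivity)
  have d3 := c2 (y := 4 * (2 ^ F.M * K.w1)) (by positivity)
  have d4 := c2 (y := 4 * (2 ^ F.M * K.w2)) (by positivity)
  set n1 : ℝ := (⌈2 * K.w1 / F.r⌉₊ : ℝ) with hn1
  set n2 : ℝ := (⌈2 * K.w2 / F.r⌉₊ : ℝ) with hn2
  set n3 : ℝ := (⌈4 * (2 ^ F.M * K.w1) / F.r⌉₊ : ℝ) with hn3
  set n4 : ℝ := (⌈4 * (2 ^ F.M * K.w2) / F.r⌉₊ : ℝ) with hn4
  have k1 : F.r ≤ 2 ^ F.M * K.w1 := hl.r1.trans (by nlinarith)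
  have k2 : F.r ≤ 2 ^ F.M * K.w2 := hrw2.trans (by nlinarith)
  have m1 : (2 * n1 + 1) * F.r ≤ 7 * K.w1 := by have := hl.r1; linarith
  have m2 : (2 * n2 + 1) * F.r ≤ 7 * K.w2 := by linarith
  have m3 : (2 * n3 + 1) * F.r ≤ 11 * (2 ^ F.M * K.w1) := by linarith
  have m4 : (2 * n4 + 1) * F.r ≤ 11 * (2 ^ F.M * K.w2) := by linarith
  unfold cap at h2
  rw [show (2:ℝ) = ((2:ℕ):ℝ) by norm_num] at h2
  simp only [Real.rpow_natCast] at h2
  push_cast at h2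
  have hD := h.D0p
  have p1 : 0 ≤ (2 * n1 + 1) * F.r := by positivity
  have p2 : 0 ≤ (2 * n2 + 1) * F.r := by positivity
  have p3 : 0 ≤ (2 * n3 + 1) * F.r := by positivity
  have p4 : 0 ≤ (2 * n4 + 1) * F.r := by positivity
  have h3 : F.D1 * (K.w1 * K.w2 * (K.w2 * 2 ^ F.top) ^ 2) ≤
      (((7 * K.w1) * (7 * K.w2)) * ((11 * (2 ^ F.M * K.w1)) * (11 * (2 ^ F.M * K.w2)))) *
        (F.D0 * (2 ^ F.m) ^ 2) := by
    refine h2.trans ?_
    calc (2 * n1 + 1) * (2 * n2 + 1) * ((2 * n3 + 1) * (2 * n4 + 1)) *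
          (F.D0 * (F.r * F.r * (F.r * 2 ^ F.m) ^ 2)) =
          ((((2 * n1 + 1) * F.r) * ((2 * n2 + 1) * F.r)) * (((2 * n3 + 1) * F.r) *
            ((2 * n4 + 1) * F.r))) * (F.D0 * (2 ^ F.m) ^ 2) := by ring
      _ ≤ _ := by gcongr
  have e3 : (2:ℝ) ^ F.top = 2 ^ F.M * 2 ^ F.m := by unfold Cf.top; rw [pow_add]; ring
  rw [e3] at h3
  -- divide
  have h4 : (F.D1 * K.w2) * (K.w1 * K.w2 ^ 2 * (2 ^ F.M * 2 ^ F.m) ^ 2) ≤
      (5929 * F.D0 * K.w1) * (K.w1 * K.w2 ^ 2 * (2 ^ F.M * 2 ^ F.m) ^ 2) := by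
    calc (F.D1 * K.w2) * (K.w1 * K.w2 ^ 2 * (2 ^ F.M * 2 ^ F.m) ^ 2) =
          F.D1 * (K.w1 * K.w2 * (K.w2 * (2 ^ F.M * 2 ^ F.m)) ^ 2) := by ring
      _ ≤ _ := h3
      _ = _ := by ring
  have h5 : F.D1 * K.w2 ≤ 5929 * F.D0 * K.w1 := le_of_mul_le_mul_right h4 (by positivity)
  have h6 : 5929 * F.D0 * K.w1 ≤ 5929 * F.D0 * K.w2 := by
    have := hl.w12
    gcongr
  have h7 : F.D1 ≤ 5929 * F.D0 := le_of_mul_le_mul_right (h5.trans h6) hw2
  linarith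

theorem Cf.Ok.val_two (h : F.Ok 2) : F.val ≤ 13 / F.M := by
  have hM : (1:ℝ) ≤ F.M := by exact_mod_cast h.M1
  unfold Cf.val
  rw [div_le_div_iff_of_pos_right (by linarith)]
  have hD := h.D0p'
  have h1 : F.D1 * F.nu ^ 2 / (4 ^ F.M * F.D0) ≤ 8192 := by
    rw [div_le_iff₀ (by positivity)]
    have h2 : F.nu ^ 2 ≤ 4 ^ F.M := by
      have := pow_le_pow_left₀ h.nup.le h.nu_le 2
      refine this.trans (le_of_eq ?_)
      rw [← pow_mul, mul_comm, pow_mul]; norm_num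
    calc F.D1 * F.nu ^ 2 ≤ (8192 * F.D0) * 4 ^ F.M := by
          have := h.D1_le_two
          gcongr
      _ = 8192 * (4 ^ F.M * F.D0) := by ring
  have hpos : 0 < F.D1 * F.nu ^ 2 / (4 ^ F.M * F.D0) := by
    have := h.D1p; have := h.nup; positivity
  have h3 := Real.logb_le_logb_of_le one_lt_two hpos h1
  refine h3.trans (le_of_eq ?_)
  have e1 : (8192:ℝ) = 2 ^ 13 := by norm_num
  rw [e1, Real.logb_pow, Real.logb_self_eq_one one_lt_two]
  norm_num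

end

end Crest.Agent.R138.K294
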