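import Crest.Agent.R138.W10_298

/-!
# R138 / R139, WAVE side, leaf W10 (helper298), direct (non-nested) form of 878 / 639

`T` = normalising quantity of the root, `S j` (`j0 ≤ j ≤ n`) = sums of the chain of classes.
Gains are measured relative to the root.
-/

set_option autoImplicit false

namespace Crest.Agent.R138.W298

/-- additive form with gains relative to the root. -/
theorem assembly_root_add {n j0 : ℕ} (hn : j0 + 1 ≤ n)
    {t c e γ δ κ : ℝ} (he : 0 ≤ e) (hγ : κ ≤ γ)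
    (hwide : 1 / 4 + κ ≤ ((n : ℝ) - 1 - j0) * (c / 2 - δ))
    (x : ℕ → ℝ) (s : ℕ → ℝ) (gain : ℕ → Prop)
    (hroot : x j0 ≤ t + c / 2 * j0 + e)
    (hG : ∀ j, j0 ≤ j → j < n → x (j + 1) ≤ x j + c / 2 + e)
    (hgain : ∀ j, j0 ≤ j → j ≤ n → gain j → x j ≤ t + (c / 2 * j - γ) + e)
    (hs : ∀ j, j0 ≤ j → j + 1 ≤ n → 0 ≤ s j ∧ s j ≤ 1 / 2 + e)
    (hS : ∀ j, j0 ≤ j → j + 2 ≤ n → ¬ gain j → ¬ gain (j + 1) →
      x (j + 1) ≤ x j + (δ + e) + (s j - s (j + 1)) / 2) :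
    x n ≤ t + (c / 2 * n - κ) + (n + 2) * e := by
  have hn0 : (0 : ℝ) ≤ n := Nat.cast_nonneg n
  have triv : ∀ a b : ℕ, j0 ≤ a → a ≤ b → b ≤ n → x b ≤ x a + ((b : ℝ) - a) * (c / 2 + e) := by
    intro a b' h0 hab hbn
    have := tele x (c / 2 + e) a (b' - a) (fun j h1 h2 => by
      have := hG j (by omega) (by omega)
      linarith)
    have e1 : a + (b' - a) = b' := by omega
    rw [e1, Nat.cast_sub hab] at this
    exact this
  by_cases hg : ∃ j, j0 ≤ j ∧ j ≤ n ∧ gain j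
  · obtain ⟨j, hj1, hjn, hgj⟩ := hg
    have h2 := hgain j hj1 hjn hgj
    have h3 := triv j n hj1 hjn le_rfl
    have h4 : ((n : ℝ) - j) * e ≤ n * e :=
      mul_le_mul_of_nonneg_right (by linarith [Nat.cast_nonneg (α := ℝ) j]) he
    nlinarith [h2, h3, h4]
  · push Not at hg
    obtain ⟨m, hm⟩ : ∃ m, n = j0 + m + 1 := ⟨n - 1 - j0, by omega⟩
    have h2 := tele_pot x s (δ + e) j0 m (fun j hj1 hj2 =>
        hS j hj1 (by omega) (hg j hj1 (by omega)) (hg (j + 1) (by omega) (by omega)))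
    have h3 := triv (j0 + m) n (by omega) (by omega) le_rfl
    have h4 := hs j0 le_rfl (by omega)
    have h5 := hs (j0 + m) (by omega) (by omega)
    have hbm : (n : ℝ) - 1 - j0 = m := by rw [hm]; push_cast; ring
    rw [hbm] at hwide
    push_cast at h3
    have hm0 : (0 : ℝ) ≤ m := Nat.cast_nonneg m
    have hmn : (m : ℝ) + 1 ≤ n := by rw [hm]; push_cast; linarith [Nat.cast_nonneg (α := ℝ) j0]
    have h6 : ((m : ℝ) + 1) * e ≤ n * e := mul_le_mul_of_nonneg_right hmn he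
    have h7 : (n : ℝ) = j0 + m + 1 := by rw [hm]; push_cast; ring
    nlinarith [h2, h3, h4.2, h5.1, hwide, hroot, h6, h7]

/-- number of levels. -/
theorem params_root {c1 : ℝ} (hc1 : 0 < c1) (j0 : ℕ) : ∃ n0 : ℕ, ∀ n, n0 ≤ n → j0 + 1 ≤ n ∧
    ∀ c δ : ℝ, c1 ≤ c → δ ≤ c1 / 4 → (1 / 4 + 1 / 4 : ℝ) ≤ ((n : ℝ) - 1 - j0) * (c / 2 - δ) := by
  obtain ⟨n1, hn1⟩ := exists_nat_ge (1 + j0 + 2 / c1)
  refine ⟨max n1 (j0 + 1), fun n hn => ⟨(le_max_right _ _).trans hn, fun c δ hc hδ => ?_⟩⟩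
  have hn3 : (n1 : ℝ) ≤ n := by exact_mod_cast (le_max_left _ _).trans hn
  have h1 : c1 / 4 ≤ c / 2 - δ := by linarith
  have h3 : 2 / c1 * (c1 / 4) = 1 / 2 := by field_simp; norm_num
  have h4 : 0 < 2 / c1 := by positivity
  calc (1 / 4 + 1 / 4 : ℝ) = 2 / c1 * (c1 / 4) := by rw [h3]; norm_num
    _ ≤ ((n : ℝ) - 1 - j0) * (c1 / 4) := mul_le_mul_of_nonneg_right (by linarith) (by linarith)
    _ ≤ _ := mul_le_mul_of_nonneg_left h1 (by linarith)

/-- **W10, direct form, multiplicative.** `T` = `SS` of the root; `X = 1/dl`; `E` absorbs `C R^ε`;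
`S j` = `∑_z SS` of the class of level `j` in the chain (parents by domination). -/
theorem assembly_root {c1 : ℝ} (hc1 : 0 < c1) (j0 : ℕ) : ∃ n0 : ℕ, ∀ n, n0 ≤ n →
    j0 + 1 ≤ n ∧
    ∀ c γ δ : ℝ, c1 ≤ c → δ ≤ c1 / 4 → ∀ X E T : ℝ, 1 < X → 1 ≤ E → 0 ≤ T →
    ∀ (S : ℕ → ℝ) (s : ℕ → ℝ) (gain : ℕ → Prop),
    (∀ j, j0 ≤ j → j ≤ n → 0 ≤ S j) →
    (S j0 ≤ E * X ^ (c / 2 * j0) * T) →
    (∀ j, j0 ≤ j → j < n → S (j + 1) ≤ E * X ^ (c / 2) * S j) →
    (∀ j, j0 ≤ j → j ≤ n → gain j → S j ≤ E * X ^ (c / 2 * j - γ) * T) →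
    (∀ j, j0 ≤ j → j + 1 ≤ n → 1 ≤ s j ∧ s j ≤ E * X ^ (1 / 2 : ℝ)) →
    (∀ j, j0 ≤ j → j + 2 ≤ n → ¬ gain j → ¬ gain (j + 1) →
      S (j + 1) ≤ E * X ^ δ * (s j / s (j + 1)) ^ (1 / 2 : ℝ) * S j) →
    S n ≤ E ^ (n + 2) * X ^ (c / 2 * n - min γ (1 / 4)) * T := by
  obtain ⟨n0, hpar⟩ := params_root hc1 j0
  refine ⟨n0, fun n hn => ?_⟩
  obtain ⟨hn2, hw'⟩ := hpar n hn
  refine ⟨hn2, ?_⟩
  intro c γ δ hc hδ X E T hX hE hT0 S s gain hS0 hroot hG hgain hs hS
  have hX0 : 0 < X := by linarith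
  have hE0 : 0 < E := by linarith
  have hl : 0 < Real.log X := Real.log_pos hX
  by_cases hSn : S n = 0
  · rw [hSn]
    positivity
  have hpos : ∀ m, m + j0 ≤ n → 0 < S (n - m) := by
    intro m
    induction m with
    | zero => intro _; exact lt_of_le_of_ne (hS0 n (by omega) le_rfl) (Ne.symm hSn)
    | succ m ih =>
      intro hm
      have h1 := ih (by omega)
      refine lt_of_le_of_ne (hS0 _ (by omega) (by omega)) (fun h => ?_)
      have h2 := hG (n - (m + 1)) (by omega) (by omega)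
      rw [← h, mul_zero, show n - (m + 1) + 1 = n - m by omega] at h2
      linarith
  have hpos' : ∀ j, j0 ≤ j → j ≤ n → 0 < S j := fun j hj0 hj => by
    have := hpos (n - j) (by omega)
    rwa [show n - (n - j) = j by omega] at this
  have hT : 0 < T := by
    refine lt_of_le_of_ne hT0 (fun h => ?_)
    have h1 := hpos' j0 le_rfl (by omega)
    rw [← h, mul_zero] at hroot
    linarith
  have he : 0 ≤ Real.log E / Real.log X := div_nonneg (Real.log_nonneg hE) hl.le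
  have hw := hw' c δ hc hδ
  have key := assembly_root_add (n := n) (j0 := j0) hn2 (t := Real.log T / Real.log X)
    (c := c) (e := Real.log E / Real.log X) (γ := γ) (δ := δ)
    (κ := min γ (1 / 4)) he (min_le_left _ _)
    (by have := min_le_right γ (1 / 4 : ℝ); linarith)
    (fun j => Real.log (S j) / Real.log X)
    (fun j => Real.log (s j) / Real.log X) gain
    (log_step hX hE hT (hpos' j0 le_rfl (by omega)) hroot)
    (fun j hj0' hj => log_step hX hE (hpos' j hj0' hj.le) (hpos' (j + 1) (by omega) hj)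
      (hG j hj0' hj))
    (fun j hj0' hj hg => log_step hX hE hT (hpos' j hj0' hj) (hgain j hj0' hj hg))
    (fun j h1 h2 => log_pot hX hE (hs j h1 h2).1 (hs j h1 h2).2)
    (fun j h1 h2 h3 h4 => by
      have := log_step_pot hX hE (hpos' j h1 (by omega)) (hpos' (j + 1) (by omega) (by omega))
        (lt_of_lt_of_le one_pos (hs j h1 (by omega)).1)
        (lt_of_lt_of_le one_pos (hs (j + 1) (by omega) (by omega)).1) (hS j h1 h2 h3 h4)
      linarith)
  refine exp_back hX hE hT (hpos' n (by omega) le_rfl) ?_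
  push_cast
  exact key

/-- additive form, gains relative to the root or to the parent. -/
theorem assembly_root2_add {n j0 : ℕ} (hn : j0 + 1 ≤ n)
    {t c e γ δ κ : ℝ} (he : 0 ≤ e) (hγ : κ ≤ γ)
    (hwide : 1 / 4 + κ ≤ ((n : ℝ) - 1 - j0) * (c / 2 - δ))
    (x : ℕ → ℝ) (s : ℕ → ℝ) (gain : ℕ → Prop)
    (hroot : x j0 ≤ t + c / 2 * j0 + e)
    (hG : ∀ j, j0 ≤ j → j < n → x (j + 1) ≤ x j + c / 2 + e)
    (hgain : ∀ j, j0 ≤ j → j ≤ n → gain j → x j ≤ t + (c / 2 * j - γ) + e ∨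
      ∃ i, j0 ≤ i ∧ j = i + 1 ∧ x j ≤ x i + (c / 2 - γ) + e)
    (hs : ∀ j, j0 ≤ j → j + 1 ≤ n → 0 ≤ s j ∧ s j ≤ 1 / 2 + e)
    (hS : ∀ j, j0 ≤ j → j + 2 ≤ n → ¬ gain j → ¬ gain (j + 1) →
      x (j + 1) ≤ x j + (δ + e) + (s j - s (j + 1)) / 2) :
    x n ≤ t + (c / 2 * n - κ) + (n + 2) * e := by
  have hn0 : (0 : ℝ) ≤ n := Nat.cast_nonneg n
  have triv : ∀ a b : ℕ, j0 ≤ a → a ≤ b → b ≤ n → x b ≤ x a + ((b : ℝ) - a) * (c / 2 + e) := by
    intro a b' h0 hab hbn
    have := tele x (c / 2 + e) a (b' - a) (fun j h1 h2 => by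
      have := hG j (by omega) (by omega)
      linarith)
    have e1 : a + (b' - a) = b' := by omega
    rw [e1, Nat.cast_sub hab] at this
    exact this
  by_cases hg : ∃ i, j0 ≤ i ∧ i + 1 ≤ n ∧ x (i + 1) ≤ x i + (c / 2 - γ) + e
  · obtain ⟨i, hi0, hin, hi⟩ := hg
    have h1 := triv j0 i le_rfl hi0 (by omega)
    have h2 := triv (i + 1) n (by omega) hin le_rfl
    have h3 : ((n : ℝ) - j0) * e ≤ n * e :=
      mul_le_mul_of_nonneg_right (by linarith [Nat.cast_nonneg (α := ℝ) j0]) he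
    push_cast at h2
    nlinarith [h1, h2, hi, h3, hroot]
  · refine assembly_root_add hn he hγ hwide x s gain hroot hG (fun j h1 h2 h3 => ?_) hs hS
    rcases hgain j h1 h2 h3 with h | ⟨i, hi0, rfl, hi⟩
    · exact h
    · exact absurd ⟨i, hi0, h2, hi⟩ hg

/-- **W10, direct form, multiplicative; a gain level may be a gain relative to the root (thick,
narrow) or relative to the parent (misaligned).** -/
theorem assembly_root2 {c1 : ℝ} (hc1 : 0 < c1) (j0 : ℕ) : ∃ n0 : ℕ, ∀ n, n0 ≤ n →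
    j0 + 1 ≤ n ∧
    ∀ c γ δ : ℝ, c1 ≤ c → δ ≤ c1 / 4 → ∀ X E T : ℝ, 1 < X → 1 ≤ E → 0 ≤ T →
    ∀ (S : ℕ → ℝ) (s : ℕ → ℝ) (gain : ℕ → Prop),
    (∀ j, j0 ≤ j → j ≤ n → 0 ≤ S j) →
    (S j0 ≤ E * X ^ (c / 2 * j0) * T) →
    (∀ j, j0 ≤ j → j < n → S (j + 1) ≤ E * X ^ (c / 2) * S j) →
    (∀ j, j0 ≤ j → j ≤ n → gain j → S j ≤ E * X ^ (c / 2 * j - γ) * T ∨
      ∃ i, j0 ≤ i ∧ j = i + 1 ∧ S j ≤ E * X ^ (c / 2 - γ) * S i) →
    (∀ j, j0 ≤ j → j + 1 ≤ n → 1 ≤ s j ∧ s j ≤ E * X ^ (1 / 2 : ℝ)) →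
    (∀ j, j0 ≤ j → j + 2 ≤ n → ¬ gain j → ¬ gain (j + 1) →
      S (j + 1) ≤ E * X ^ δ * (s j / s (j + 1)) ^ (1 / 2 : ℝ) * S j) →
    S n ≤ E ^ (n + 2) * X ^ (c / 2 * n - min γ (1 / 4)) * T := by
  obtain ⟨n0, hpar⟩ := params_root hc1 j0
  refine ⟨n0, fun n hn => ?_⟩
  obtain ⟨hn2, hw'⟩ := hpar n hn
  refine ⟨hn2, ?_⟩
  intro c γ δ hc hδ X E T hX hE hT0 S s gain hS0 hroot hG hgain hs hS
  have hX0 : 0 < X := by linarith
  have hE0 : 0 < E := by linarith
  have hl : 0 < Real.log X := Real.log_pos hX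
  by_cases hSn : S n = 0
  · rw [hSn]
    positivity
  have hpos : ∀ m, m + j0 ≤ n → 0 < S (n - m) := by
    intro m
    induction m with
    | zero => intro _; exact lt_of_le_of_ne (hS0 n (by omega) le_rfl) (Ne.symm hSn)
    | succ m ih =>
      intro hm
      have h1 := ih (by omega)
      refine lt_of_le_of_ne (hS0 _ (by omega) (by omega)) (fun h => ?_)
      have h2 := hG (n - (m + 1)) (by omega) (by omega)
      rw [← h, mul_zero, show n - (m + 1) + 1 = n - m by omega] at h2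
      linarith
  have hpos' : ∀ j, j0 ≤ j → j ≤ n → 0 < S j := fun j hj0 hj => by
    have := hpos (n - j) (by omega)
    rwa [show n - (n - j) = j by omega] at this
  have hT : 0 < T := by
    refine lt_of_le_of_ne hT0 (fun h => ?_)
    have h1 := hpos' j0 le_rfl (by omega)
    rw [← h, mul_zero] at hroot
    linarith
  have he : 0 ≤ Real.log E / Real.log X := div_nonneg (Real.log_nonneg hE) hl.le
  have hw := hw' c δ hc hδ
  have key := assembly_root2_add (n := n) (j0 := j0) hn2 (t := Real.log T / Real.log X)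
    (c := c) (e := Real.log E / Real.log X) (γ := γ) (δ := δ)
    (κ := min γ (1 / 4)) he (min_le_left _ _)
    (by have := min_le_right γ (1 / 4 : ℝ); linarith)
    (fun j => Real.log (S j) / Real.log X)
    (fun j => Real.log (s j) / Real.log X) gain
    (log_step hX hE hT (hpos' j0 le_rfl (by omega)) hroot)
    (fun j hj0' hj => log_step hX hE (hpos' j hj0' hj.le) (hpos' (j + 1) (by omega) hj)
      (hG j hj0' hj))
    (fun j hj0' hj hg => by
      rcases hgain j hj0' hj hg with h | ⟨i, hi0, hji, hi⟩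
      · exact Or.inl (log_step hX hE hT (hpos' j hj0' hj) h)
      · exact Or.inr ⟨i, hi0, hji,
          log_step hX hE (hpos' i hi0 (by omega)) (hpos' j hj0' hj) hi⟩)
    (fun j h1 h2 => log_pot hX hE (hs j h1 h2).1 (hs j h1 h2).2)
    (fun j h1 h2 h3 h4 => by
      have := log_step_pot hX hE (hpos' j h1 (by omega)) (hpos' (j + 1) (by omega) (by omega))
        (lt_of_lt_of_le one_pos (hs j h1 (by omega)).1)
        (lt_of_lt_of_le one_pos (hs (j + 1) (by omega) (by omega)).1) (hS j h1 h2 h3 h4)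
      linarith)
  refine exp_back hX hE hT (hpos' n (by omega) le_rfl) ?_
  push_cast
  exact key

/-- **W10, direct form with tiny terms (210's shape).** `T` = `SS` of the root, `τ` = tiny,
`X = 1/dl`, `E` = loss, `p j ∈ [1, E X^(1/2)]`, flag `good j` = label of level `j` thin and wide.
The alternative of the step (misaligned part) is a summand. -/
theorem assembly_tiny {c1 : ℝ} (hc1 : 0 < c1) (j0 : ℕ) : ∃ n0 : ℕ, ∀ M, n0 ≤ M →
    j0 + 1 ≤ M ∧
    ∀ c γ δ : ℝ, c1 ≤ c → 0 ≤ γ → 0 ≤ δ → δ ≤ c1 / 4 → ∀ X E T τ : ℝ, 1 < X → 1 ≤ E → 0 ≤ T →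
    0 ≤ τ → ∀ (S : ℕ → ℝ) (p : ℕ → ℝ) (good : ℕ → Prop),
    (∀ j, j0 ≤ j → j ≤ M → 0 ≤ S j) →
    (S j0 ≤ E * X ^ (c / 2 * j0) * T + τ) →
    (∀ j, j0 ≤ j → j < M → S (j + 1) ≤ E * X ^ (c / 2) * S j + τ) →
    (∀ j, j0 ≤ j → j ≤ M → ¬ good j → S j ≤ E * X ^ (c / 2 * j - γ) * T + τ) →
    (∀ j, j0 ≤ j → j ≤ M → 1 ≤ p j ∧ p j ≤ E * X ^ (1 / 2 : ℝ)) →
    (∀ j, j0 ≤ j → j + 1 ≤ M → good j → good (j + 1) →
      S (j + 1) ≤ E * X ^ δ * (p j / p (j + 1)) ^ (1 / 2 : ℝ) * S j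
        + E * X ^ (c / 2 - γ) * S j + τ) →
    S M ≤ (2 * E) ^ (M + 2) * X ^ (c / 2 * M - min γ (1 / 4)) *
      (T + X ^ γ * (2 * E * X) ^ (M + 1) * τ) := by
  obtain ⟨n0, H⟩ := assembly_root2 hc1 j0
  refine ⟨n0, fun M hM => ?_⟩
  obtain ⟨hM2, H⟩ := H M hM
  refine ⟨hM2, ?_⟩
  intro c γ δ hc hγ hδ0 hδ X E T τ hX hE hT hτ S p good hS0 hroot hG hgain hp hS
  have hX0 : 0 < X := by linarith
  have hE0 : 0 < E := by linarith
  have hc0 : 0 < c := by linarith
  set W : ℝ := 2 * E * X with hW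
  have hW2 : 2 ≤ W := by
    rw [hW]
    nlinarith [mul_le_mul hE hX.le (by norm_num) hE0.le]
  have hW1 : 1 ≤ W := by linarith
  have hW0 : 0 < W := by linarith
  have hWp : ∀ m : ℕ, 1 ≤ W ^ m := fun m => one_le_pow₀ hW1
  -- the modified numbers
  set S' : ℕ → ℝ := fun j => S j + W ^ (M + 1 - j) * τ with hS'
  set T' : ℝ := T + X ^ γ * W ^ (M + 1) * τ with hT'
  have hXγ : 1 ≤ X ^ γ := Real.one_le_rpow hX.le hγ
  have hT'0 : 0 ≤ T' := by positivity
  have hpw : ∀ j, j ≤ M → W ^ (M + 1 - j) * W = W ^ (M + 1 - j + 1) := fun j _ => by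
    rw [pow_succ]
  have hsucc : ∀ j, j < M → W ^ (M + 1 - j) = W * W ^ (M + 1 - (j + 1)) := fun j hj => by
    rw [show M + 1 - j = (M + 1 - (j + 1)) + 1 by omega, pow_succ, mul_comm]
  -- tiny absorbed
  have habs : ∀ j : ℕ, τ + W ^ (M + 1 - j) * τ ≤ 2 * W ^ (M + 1 - j) * τ := by
    intro j
    have := hWp (M + 1 - j)
    nlinarith
  have h2E : 1 ≤ 2 * E := by linarith
  have hle : ∀ {a b : ℝ}, a ≤ b → 0 ≤ τ → a * τ ≤ b * τ := fun h h' =>
    mul_le_mul_of_nonneg_right h h'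
  have hXc : ∀ j : ℕ, 1 ≤ X ^ (c / 2 * (j : ℝ)) := fun j =>
    Real.one_le_rpow hX.le (by positivity)
  -- powers of `W` at level `j ≤ M` against `W ^ (M+1)`
  have hWM : ∀ j, W ^ (M + 1 - j) ≤ W ^ (M + 1) := fun j =>
    pow_le_pow_right₀ hW1 (Nat.sub_le _ _)
  have key := H c γ δ hc hδ X (2 * E) T' hX h2E hT'0 S' p
    (fun j => ¬ good j ∨ ∃ i, j0 ≤ i ∧ j = i + 1 ∧ S' j ≤ 2 * E * X ^ (c / 2 - γ) * S' i)
    (fun j h1 h2 => by
      have := hS0 j h1 h2
      have := hWp (M + 1 - j)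
      simp only [hS']
      positivity)
    (by
      have h1 : W ^ (M + 1 - j0) ≤ W ^ (M + 1) := hWM j0
      have h2 := habs j0
      have h3 : 2 * W ^ (M + 1 - j0) * τ ≤ 2 * E * X ^ (c / 2 * j0) * (X ^ γ * W ^ (M + 1) * τ) := by
        have e1 : 2 * E * X ^ (c / 2 * (j0 : ℝ)) * (X ^ γ * W ^ (M + 1) * τ) =
          (2 * (E * X ^ (c / 2 * (j0 : ℝ)) * X ^ γ) * W ^ (M + 1)) * τ := by ring
        rw [e1]
        refine hle ?_ hτ
        have h4 : 1 ≤ E * X ^ (c / 2 * (j0 : ℝ)) * X ^ γ :=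
          one_le_mul_of_one_le_of_one_le (one_le_mul_of_one_le_of_one_le hE (hXc j0)) hXγ
        have h5 : 0 ≤ W ^ (M + 1) := by positivity
        nlinarith
      have h6 : 0 ≤ E * X ^ (c / 2 * (j0 : ℝ)) * T := by positivity
      simp only [hS', hT']
      nlinarith)
    (fun j h1 h2 => by
      have h3 := hG j h1 h2
      have h4 := habs (j + 1)
      have h5 : 2 * W ^ (M + 1 - (j + 1)) * τ ≤ 2 * E * X ^ (c / 2) * (W ^ (M + 1 - j) * τ) := by
        rw [hsucc j h2]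
        have e1 : 2 * E * X ^ (c / 2) * (W * W ^ (M + 1 - (j + 1)) * τ) =
          (2 * (E * X ^ (c / 2) * W) * W ^ (M + 1 - (j + 1))) * τ := by ring
        rw [e1]
        refine hle ?_ hτ
        have h4 : 1 ≤ E * X ^ (c / 2) * W :=
          one_le_mul_of_one_le_of_one_le (one_le_mul_of_one_le_of_one_le hE
            (Real.one_le_rpow hX.le (by positivity))) hW1
        have h5 : 0 ≤ W ^ (M + 1 - (j + 1)) := by positivity
        nlinarith
      have h6 : 0 ≤ E * X ^ (c / 2) * S j := mul_nonneg (by positivity) (hS0 j h1 h2.le)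
      simp only [hS']
      nlinarith)
    (fun j h1 h2 h3 => by
      rcases h3 with h3 | h3
      · left
        have h4 := hgain j h1 h2 h3
        have h5 := habs j
        have h6 : 2 * W ^ (M + 1 - j) * τ ≤
            2 * E * X ^ (c / 2 * (j : ℝ) - γ) * (X ^ γ * W ^ (M + 1) * τ) := by
          have e2 : X ^ (c / 2 * (j : ℝ) - γ) * X ^ γ = X ^ (c / 2 * (j : ℝ)) := by
            rw [← Real.rpow_add hX0]
            congr 1
            ring
          have e1 : 2 * E * X ^ (c / 2 * (j : ℝ) - γ) * (X ^ γ * W ^ (M + 1) * τ) =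
            (2 * (E * (X ^ (c / 2 * (j : ℝ) - γ) * X ^ γ)) * W ^ (M + 1)) * τ := by ring
          rw [e1, e2]
          refine hle ?_ hτ
          have h7 : 1 ≤ E * X ^ (c / 2 * (j : ℝ)) := one_le_mul_of_one_le_of_one_le hE (hXc j)
          have h8 : 0 ≤ W ^ (M + 1) := by positivity
          have h9 := hWM j
          nlinarith
        have h7 : 0 ≤ E * X ^ (c / 2 * (j : ℝ) - γ) * T := by positivity
        simp only [hS', hT']
        nlinarith
      · right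
        exact h3)
    (fun j h1 h2 => by
      obtain ⟨h3, h4⟩ := hp j h1 (by omega)
      refine ⟨h3, h4.trans ?_⟩
      have : 0 < X ^ (1 / 2 : ℝ) := by positivity
      nlinarith)
    (fun j h1 h2 h3 h4 => by
      simp only [not_or, not_not] at h3 h4
      have h5 := hS j h1 (by omega) h3.1 h4.1
      have h6 : ¬ S' (j + 1) ≤ 2 * E * X ^ (c / 2 - γ) * S' j := fun h =>
        h4.2 ⟨j, h1, rfl, h⟩
      push Not at h6
      have hpj := hp j h1 (by omega)
      have hpj1 := hp (j + 1) (by omega) (by omega)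
      have hSj := hS0 j h1 (by omega)
      set r : ℝ := (p j / p (j + 1)) ^ (1 / 2 : ℝ) with hr
      have hr0 : 0 < r := by
        have : 0 < p j := by linarith
        have : 0 < p (j + 1) := by linarith
        positivity
      -- `r ≥ 1 / (E X)`
      have hrlow : 1 ≤ E * X * r := by
        have h7 : 0 < p (j + 1) := by linarith
        have h8 : 1 / (E * X ^ (1 / 2 : ℝ)) ≤ p j / p (j + 1) :=
          div_le_div₀ (by linarith) hpj.1 h7 hpj1.2
        have h9 : (1 / (E * X ^ (1 / 2 : ℝ))) ^ (1 / 2 : ℝ) ≤ r :=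
          Real.rpow_le_rpow (by positivity) h8 (by norm_num)
        have h10 : 1 / (E * X) ≤ (1 / (E * X ^ (1 / 2 : ℝ))) ^ (1 / 2 : ℝ) := by
          have h11 : E * X ^ (1 / 2 : ℝ) ≤ (E * X) ^ (2 : ℝ) := by
            have h12 : X ^ (1 / 2 : ℝ) ≤ X := by
              calc X ^ (1 / 2 : ℝ) ≤ X ^ (1 : ℝ) :=
                    Real.rpow_le_rpow_of_exponent_le hX.le (by norm_num)
                _ = X := Real.rpow_one X
            have h13 : E * X ^ (1 / 2 : ℝ) ≤ E * X := mul_le_mul_of_nonneg_left h12 hE0.le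
            have h14 : 1 ≤ E * X := one_le_mul_of_one_le_of_one_le hE hX.le
            rw [Real.rpow_two]
            nlinarith
          have h15 : ((1 / (E * X)) ^ (2 : ℝ)) ^ (1 / 2 : ℝ) = 1 / (E * X) := by
            rw [← Real.rpow_mul (by positivity)]
            norm_num
          rw [← h15]
          refine Real.rpow_le_rpow (by positivity) ?_ (by norm_num)
          rw [Real.div_rpow (by norm_num) (by positivity), Real.one_rpow]
          exact one_div_le_one_div_of_le (by positivity) h11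
        have h16 : 1 / (E * X) ≤ r := h10.trans h9
        rw [div_le_iff₀ (by positivity)] at h16
        linarith
      have h7 := habs (j + 1)
      have hXδ : 1 ≤ X ^ δ := Real.one_le_rpow hX.le hδ0
      have h8 : 2 * W ^ (M + 1 - (j + 1)) * τ ≤ E * X ^ δ * r * (W ^ (M + 1 - j) * τ) := by
        rw [hsucc j (by omega)]
        have e1 : E * X ^ δ * r * (W * W ^ (M + 1 - (j + 1)) * τ) =
          (2 * (E * X ^ δ * (E * X * r)) * W ^ (M + 1 - (j + 1))) * τ := by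
          rw [hW]; ring
        rw [e1]
        refine hle ?_ hτ
        have h9 : 1 ≤ E * X ^ δ * (E * X * r) :=
          one_le_mul_of_one_le_of_one_le (one_le_mul_of_one_le_of_one_le hE hXδ) hrlow
        have h10 : 0 ≤ W ^ (M + 1 - (j + 1)) := by positivity
        nlinarith
      have h9 : S' (j + 1) ≤ E * X ^ δ * r * S' j + E * X ^ (c / 2 - γ) * S' j := by
        have h10 : 0 ≤ E * X ^ (c / 2 - γ) * (W ^ (M + 1 - j) * τ) := by positivity
        simp only [hS']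
        nlinarith
      have h11 : E * X ^ (c / 2 - γ) * S' j ≤ S' (j + 1) / 2 := by linarith
      linarith)
  have h1 : S M ≤ S' M := by
    simp only [hS']
    have := hWp (M + 1 - M)
    have : 0 ≤ W ^ (M + 1 - M) * τ := by positivity
    linarith
  exact h1.trans key

end Crest.Agent.R138.W298
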