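import Mathlib

/-!
# The exponent count at a boundary slab (doc 1684 of helper878, section 3)

`al` twist exponent, `kap = 1/2 + al`, `q, m ≥ 0` rates of the normal velocity and of the in-plane
velocity, `α = 1 - a`, `lam = 1 - y` normal and lateral codimension, `s = s' ≥ 0` the common
shading slope, `e ≥ 0` own slope minus union slope, `γ` the interference exponent, `D` the growth
rate of the penalised energy density on the window.
-/

set_option autoImplicit false

namespace Crest.Agent.R138.W3lp878

/-- no twist: Parseval and the trilinear bound. -/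
theorem growth_zero {α lam e γ D s : ℝ} (hγ : γ ≤ α / 2) (hbct : α + lam - e ≤ 2 * s)
    (hii : D ≤ γ + α / 2 + lam - e) : D ≤ 2 * s := by
  linarith

/-- twist exponent `al ≠ 1`. -/
theorem growth_ne_one {al q m α lam e γ D s : ℝ} (hal : 0 ≤ al) (hal1 : al ≠ 1) (hq : 0 ≤ q)
    (hlam : lam ≤ s) (hms : 0 < lam → m ≤ s) (hαl : α ≤ lam)
    (hbig : 1 < al → m - lam ≤ q - α)
    (hγq : γ ≤ q / 2) (hγα : γ ≤ α / 2)
    (hi : D ≤ γ + q / 2 + (1 / 2 + al) * m + (1 - (1 / 2 + al)) * lam - e)
    (hii : D ≤ γ + α / 2 + al * (α - q) + lam - e) : D ≤ 2 * s - e := by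
  have hαs : α ≤ s := hαl.trans hlam
  rcases le_or_gt α q with hqa | hqa
  · -- `q ≥ α`
    have : al * (α - q) ≤ 0 := mul_nonpos_of_nonneg_of_nonpos hal (by linarith)
    linarith
  · -- `q < α`
    have hlam0 : 0 < lam := by linarith
    have hm := hms hlam0
    rcases lt_or_gt_of_ne hal1 with h1 | h1
    · rcases le_or_gt (m - lam) (α - q) with hc | hc
      · rcases le_or_gt al (1 / 2) with h2 | h2
        · -- `(1/2+al) (m - lam) ≤ (1/2+al) (α - q) ≤ α - q`
          have h3 : (1 / 2 + al) * (m - lam) ≤ (1 / 2 + al) * (α - q) :=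
            mul_le_mul_of_nonneg_left hc (by linarith)
          have h4 : (1 / 2 + al) * (α - q) ≤ 1 * (α - q) :=
            mul_le_mul_of_nonneg_right (by linarith) (by linarith)
          linarith
        · rcases le_or_gt m lam with h5 | h5
          · have h3 : (1 / 2 + al) * (m - lam) ≤ 1 * (m - lam) :=
              mul_le_mul_of_nonpos_right (by linarith) (by linarith)
            linarith
          · have h3 : (al - 1 / 2) * (m - lam) ≤ (1 / 2) * (m - lam) :=
              mul_le_mul_of_nonneg_right (by linarith) (by linarith)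
            linarith
      · rcases le_or_gt al (1 / 2) with h2 | h2
        · have h3 : al * (α - q) ≤ (1 / 2) * (α - q) :=
            mul_le_mul_of_nonneg_right h2 (by linarith)
          linarith
        · have h3 : al * (α - q) ≤ 1 * (α - q) :=
            mul_le_mul_of_nonneg_right (by linarith) (by linarith)
          linarith
    · have h2 := hbig h1
      have h3 : (1 / 2 + al) * (m - lam) ≤ 1 * (m - lam) :=
        mul_le_mul_of_nonpos_right (by linarith) (by linarith)
      linarith

/-- twist exponent `al = 1`: normal velocity and lateral position are coupled, joint rate `Q`. -/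
theorem growth_one {m α e γ D s Q y : ℝ} (hQy : y ≤ Q) (hα : α ≤ s)
    (hms : s < m → y = 1) (hγα : γ ≤ α / 2)
    (hi : D ≤ γ + Q / 2 + 3 / 2 * m - 1 / 2 - e)
    (hii : D ≤ γ + 3 / 2 * α + 1 - Q - e) : D ≤ 2 * s - e := by
  rcases le_or_gt m s with hm | hm
  · rcases le_or_gt Q (1 + α - m) with h | h
    · linarith
    · linarith
  · have := hms hm
    linarith

end Crest.Agent.R138.W3lp878
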