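import Crest.Agent.R138.WDef_188

/-!
# R138 / R139: WAVE assembly, part 1 (helper188): monotonicity, extension of `LB` beyond `R^{1/2}`,
the improved end exponent.
-/

set_option autoImplicit false

open MeasureTheory FourierTransform
open scoped ContDiff ENNReal

namespace Crest.Agent.R138.W188

open Crest.Agent.R138.Defs Crest.Agent.R138.Bil882 Crest.Agent.R138.Wpk685

theorem En_nonneg (g : E2 → ℂ) : 0 ≤ En g := integral_nonneg fun _ => by positivity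

theorem SS_nonneg (g : E2 → ℂ) {R : ℝ} (hR : 0 ≤ R) (D : ℝ) : 0 ≤ SS g R D := by
  unfold SS
  have := En_nonneg g
  positivity

theorem wt_anti {N N' : ℕ} (h : N ≤ N') {K : ℝ} (hK : 0 < K) (x0 : E2) (t0 : ℝ) (p : E2 × ℝ) :
    wt N' K x0 t0 p ≤ wt N K x0 t0 p := by
  unfold wt
  apply inv_anti₀ (by positivity)
  apply pow_le_pow_right₀ _ h
  have : 0 ≤ (‖p.1 - x0‖ + |p.2 - t0|) / K := by positivity
  linarith

theorem NN_anti {N N' : ℕ} (hN : N ≤ N') (h : E2 → ℝ) (g : E2 → ℂ) {w : ℝ} (hw : 0 < w) (R : ℝ) :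
    NN N' h g w R ≤ NN N h g w R := by
  unfold NN
  apply lintegral_mono
  intro z
  dsimp only
  gcongr with p
  exact wt_anti hN hw _ _ _

theorem St.mono {B : ℕ → ℝ} {q : ℝ} {Na : ℕ} {M0 σ σ' : ℝ} {h : E2 → ℝ} {g : E2 → ℂ} {R D : ℝ}
    (H : St B q Na M0 σ h g R D) (hσ : σ ≤ σ') : St B q Na M0 σ' h g R D :=
  ⟨H.par, H.h0, H.h1, H.meas, H.bdd, fun ξ hξ => H.supp ξ (hσ.trans_lt hξ), H.R1, H.D0, H.box, H.nd⟩

theorem St.Rpos {B : ℕ → ℝ} {q : ℝ} {Na : ℕ} {M0 σ : ℝ} {h : E2 → ℝ} {g : E2 → ℂ} {R D : ℝ}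
    (H : St B q Na M0 σ h g R D) : 0 < R := lt_of_lt_of_le one_pos H.R1

theorem St.ss {B : ℕ → ℝ} {q : ℝ} {Na : ℕ} {M0 σ : ℝ} {h : E2 → ℝ} {g : E2 → ℂ} {R D : ℝ}
    (H : St B q Na M0 σ h g R D) : 0 ≤ SS g R D := SS_nonneg g H.Rpos.le D

theorem one_le_R_div {R w : ℝ} (hR : 1 ≤ R) (hw : 1 ≤ w) (hwR : w ≤ R ^ (1/2 : ℝ)) :
    1 ≤ R / w ^ 2 := by
  rw [le_div_iff₀ (by positivity), one_mul]
  calc w ^ 2 ≤ (R ^ (1/2 : ℝ)) ^ 2 := by gcongr
    _ = R := by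
      rw [← Real.rpow_natCast, ← Real.rpow_mul (by linarith)]; norm_num

theorem LB.mono {B : ℕ → ℝ} {q σ c c' : ℝ} (H : LB B q σ c) (hc : c ≤ c') : LB B q σ c' := by
  intro ε hε Na M0
  obtain ⟨N, C, hC, H'⟩ := H ε hε Na M0
  refine ⟨N, C, hC, fun h g R D w hSt hw hwR => (H' h g R D w hSt hw hwR).trans ?_⟩
  apply ENNReal.ofReal_le_ofReal
  have h1 := one_le_R_div hSt.R1 hw hwR
  have h2 := hSt.ss
  have h3 := hSt.Rpos
  gcongr

/-- elementary: absorb constants, `C * R^a ≤ C' * R^b`. -/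
theorem rpow_le_rpow_of_one_le {R a b : ℝ} (hR : 1 ≤ R) (h : a ≤ b) : R ^ a ≤ R ^ b :=
  Real.rpow_le_rpow_of_exponent_le hR h

/-- **extension of `LB`** to `1 ≤ w ≤ a R^{1/2}`. -/
theorem LBX {B : ℕ → ℝ} {q c : ℝ} (hc : 0 ≤ c) (H : LB B q 1 c) (HK : KMw B q) (HT : TRIV1 B q) :
    ∀ ε : ℝ, 0 < ε → ∀ (a : ℝ), 1 ≤ a → ∀ (Na : ℕ) (M0 : ℝ), ∃ N : ℕ, ∃ C : ℝ, 0 ≤ C ∧
      ∀ h g R D w, St B q Na M0 1 h g R D → 1 ≤ w → w ≤ a * R ^ (1/2 : ℝ) →
        NN N h g w R ≤ ENNReal.ofReal (C * R ^ ε * (max 1 (R / w ^ 2)) ^ (c / 2) * SS g R D) := by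
  intro ε hε a ha Na M0
  set ε1 : ℝ := min ε (1/4) with hε1
  have hε1p : 0 < ε1 := lt_min hε (by norm_num)
  have hε1' : ε1 ≤ 1/4 := min_le_right _ _
  have hε1'' : ε1 ≤ ε := min_le_left _ _
  obtain ⟨N1, C1, hC1, H1⟩ := H ε1 hε1p Na M0
  obtain ⟨N2, C2, hC2, H2⟩ := HK ε1 hε1p Na M0
  obtain ⟨N3, C3, hC3, H3⟩ := HT Na M0
  set K0 : ℝ := a ^ (4:ℝ) with hK0
  have hK0p : 0 < K0 := by positivity
  have hK01 : 1 ≤ K0 := Real.one_le_rpow ha (by norm_num)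
  refine ⟨max N1 (max N2 N3), C1 + C2 + C3 * K0 ^ |M0 / 2|, by positivity, ?_⟩
  intro h g R D w hSt hw hwa
  have hR := hSt.R1
  have hR0 := hSt.Rpos
  have hss := hSt.ss
  have hw0 : 0 < w := by linarith
  have hm1 : (1:ℝ) ≤ (max 1 (R / w ^ 2)) ^ (c / 2) :=
    Real.one_le_rpow (le_max_left _ _) (by positivity)
  have hRε : 1 ≤ R ^ ε := Real.one_le_rpow hR hε.le
  have hRε1 : R ^ ε1 ≤ R ^ ε := rpow_le_rpow_of_one_le hR hε1''
  rcases le_or_gt w (R ^ (1/2 : ℝ)) with h1 | h1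
  · refine (NN_anti (le_max_left _ _) h g hw0 R).trans ((H1 h g R D w hSt hw h1).trans ?_)
    apply ENNReal.ofReal_le_ofReal
    have : (R / w ^ 2) ^ (c / 2) ≤ (max 1 (R / w ^ 2)) ^ (c / 2) := by
      apply Real.rpow_le_rpow (by positivity) (le_max_right _ _) (by positivity)
    gcongr
    have : 0 ≤ C3 * K0 ^ |M0 / 2| := by positivity
    linarith
  · rcases le_or_gt w (R ^ (1 - ε1)) with h2 | h2
    · refine (NN_anti ((le_max_left _ _).trans (le_max_right _ _)) h g hw0 R).trans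
        ((H2 h g R D w hSt h1.le h2).trans ?_)
      apply ENNReal.ofReal_le_ofReal
      calc C2 * R ^ ε1 * SS g R D = C2 * R ^ ε1 * 1 * SS g R D := by ring
        _ ≤ (C1 + C2 + C3 * K0 ^ |M0 / 2|) * R ^ ε * (max 1 (R / w ^ 2)) ^ (c / 2) * SS g R D := by
          gcongr
          have : 0 ≤ C3 * K0 ^ |M0 / 2| := by positivity
          linarith
    · -- here `R ≤ K0`
      have h3 : R ^ (1/4 : ℝ) ≤ a := by
        have h4 : R ^ (1 - ε1) < a * R ^ (1/2 : ℝ) := lt_of_lt_of_le h2 hwa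
        have h5 : R ^ (3/4 : ℝ) ≤ R ^ (1 - ε1) := rpow_le_rpow_of_one_le hR (by linarith)
        have h6 : R ^ (3/4 : ℝ) = R ^ (1/4 : ℝ) * R ^ (1/2 : ℝ) := by
          rw [← Real.rpow_add hR0]; norm_num
        have h7 : R ^ (1/4 : ℝ) * R ^ (1/2 : ℝ) ≤ a * R ^ (1/2 : ℝ) := by
          rw [← h6]; linarith
        exact le_of_mul_le_mul_right h7 (by positivity)
      have h4 : R ≤ K0 := by
        calc R = (R ^ (1/4 : ℝ)) ^ (4:ℝ) := by rw [← Real.rpow_mul hR0.le]; norm_num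
          _ ≤ a ^ (4:ℝ) := by gcongr
      have h5 : R ^ (M0 / 2) ≤ K0 ^ |M0 / 2| := by
        calc R ^ (M0 / 2) ≤ R ^ |M0 / 2| := rpow_le_rpow_of_one_le hR (le_abs_self _)
          _ ≤ K0 ^ |M0 / 2| := by gcongr
      refine (NN_anti ((le_max_right _ _).trans (le_max_right _ _)) h g hw0 R).trans
        ((H3 h g R D w hSt hw).trans ?_)
      apply ENNReal.ofReal_le_ofReal
      calc C3 * R ^ (M0 / 2) * SS g R D ≤ C3 * K0 ^ |M0 / 2| * 1 * 1 * SS g R D := by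
            rw [mul_one, mul_one]; gcongr
        _ ≤ (C1 + C2 + C3 * K0 ^ |M0 / 2|) * R ^ ε * (max 1 (R / w ^ 2)) ^ (c / 2) * SS g R D := by
          gcongr
          linarith

/-- `LB` implies `END`. -/
theorem END_of_LB {B : ℕ → ℝ} {q c : ℝ} (H : LB B q 1 c) (HA : A5a B q) : END B q c := by
  intro ε hε Na M0
  obtain ⟨N, C, hC, H1⟩ := H ε hε Na M0
  obtain ⟨C', hC', H2⟩ := HA Na M0 N
  refine ⟨C' * C, by positivity, fun h g R D hSt => (H2 h g R D hSt).trans ?_⟩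
  have hR := hSt.R1
  have hR0 := hSt.Rpos
  refine (mul_le_mul_right (H1 h g R D 1 hSt le_rfl (Real.one_le_rpow hR (by norm_num))) _).trans ?_
  rw [← ENNReal.ofReal_mul hC']
  apply ENNReal.ofReal_le_ofReal
  apply le_of_eq
  have : R ^ (c / 2 + ε) = R ^ ε * R ^ (c / 2) := by rw [← Real.rpow_add hR0]; ring_nf
  rw [this]
  norm_num
  ring

/-- **Step 1**: the improved end exponent. -/
theorem END_gain {B : ℕ → ℝ} {q c1 : ℝ} (hc1 : 0 < c1) (H : ∀ c, c1 < c → LB B q 1 c)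
    (HK : KMw B q) (HT : TRIV1 B q) (HA : A5a B q) (H4 : A4 B q) :
    ∃ β : ℝ, 0 ≤ β ∧ β < c1 ∧ END B q β := by
  obtain ⟨c0, hc0, hc01, H4⟩ := H4
  obtain ⟨A, hA, H4⟩ := H4 (c1 / 16) (by positivity)
  set k : ℝ := min (1/4) (c1 / (16 * A)) with hk
  have hA0 : 0 < A := by linarith
  have hkp : 0 < k := lt_min (by norm_num) (by positivity)
  have hk4 : k ≤ 1/4 := min_le_left _ _
  have hkA : A * k ≤ c1 / 16 := by
    have : k ≤ c1 / (16 * A) := min_le_right _ _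
    calc A * k ≤ A * (c1 / (16 * A)) := by gcongr
      _ = c1 / 16 := by field_simp
  set k1 : ℝ := min (k / 2) (k * c1 / (4 * A)) with hk1
  have hk1p : 0 < k1 := lt_min (by positivity) (by positivity)
  have hk1k2 : k1 ≤ k / 2 := min_le_left _ _
  have hk1k : k1 ≤ k := by linarith
  have hk1A : A * k1 ≤ k * c1 / 4 := by
    have : k1 ≤ k * c1 / (4 * A) := min_le_right _ _
    calc A * k1 ≤ A * (k * c1 / (4 * A)) := by gcongr
      _ = k * c1 / 4 := by field_simp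
  set η : ℝ := k1 * c1 with hη
  have hηp : 0 < η := by positivity
  have hk1' : k1 ≤ 1/4 := hk1k.trans hk4
  refine ⟨c1 * (1 - k1), by
    have : 0 ≤ 1 - k1 := by linarith
    positivity, by nlinarith, ?_⟩
  intro ε hε Na M0
  set e : ℝ := ε / 4 with he
  have hep : 0 < e := by positivity
  obtain ⟨Na', M0', H5⟩ := H4 k1 k hk1p hk1k hk4 e hep Na M0
  have hLB := H (c1 + η) (by linarith)
  obtain ⟨C1, hC1, HE⟩ := END_of_LB hLB HA e hep Na' M0'
  obtain ⟨N, C2, hC2, HL⟩ := LBX (by positivity) hLB HK HT e hep (c0⁻¹ * c0 ^ (-(1/2) : ℝ))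
    (by
      have h1 : 1 ≤ c0⁻¹ := (one_le_inv₀ hc0).2 hc01
      have h2 : 1 ≤ c0 ^ (-(1/2) : ℝ) := Real.one_le_rpow_of_pos_of_le_one_of_nonpos hc0 hc01 (by norm_num)
      nlinarith) Na' M0'
  obtain ⟨C3, hC3, H6⟩ := H5 N
  refine ⟨C3 * ((C1 + 1) + (C2 + 1) + 1), by positivity, ?_⟩
  intro h g R D hSt
  have hR := hSt.R1
  have hR0 := hSt.Rpos
  have hss := hSt.ss
  set Q1 : ℝ := (C1 + 1) * R ^ ((1 - 2 * k1) * ((c1 + η) / 2 + e)) with hQ1
  set Q2 : ℝ := (C2 + 1) * R ^ ((1 - 2 * k) * ((c1 + η) / 2) + e) with hQ2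
  have hQ11 : 1 ≤ Q1 := by
    have : 1 ≤ R ^ ((1 - 2 * k1) * ((c1 + η) / 2 + e)) := Real.one_le_rpow hR (by
      have : 0 ≤ 1 - 2 * k1 := by linarith
      positivity)
    nlinarith
  have hQ21 : 1 ≤ Q2 := by
    have : 1 ≤ R ^ ((1 - 2 * k) * ((c1 + η) / 2) + e) := Real.one_le_rpow hR (by
      have : 0 ≤ 1 - 2 * k := by linarith
      positivity)
    nlinarith
  have h7 := H6 h g R D hSt Q1 Q2 hQ11 hQ21 ?_ ?_
  · refine h7.trans (ENNReal.ofReal_le_ofReal ?_)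
    have e1 : R ^ e * Q1 ≤ (C1 + 1) * R ^ (c1 * (1 - k1) / 2 + ε) := by
      rw [hQ1]
      calc R ^ e * ((C1 + 1) * R ^ ((1 - 2 * k1) * ((c1 + η) / 2 + e)))
          = (C1 + 1) * R ^ (e + (1 - 2 * k1) * ((c1 + η) / 2 + e)) := by
            rw [Real.rpow_add hR0]; ring
        _ ≤ (C1 + 1) * R ^ (c1 * (1 - k1) / 2 + ε) := by
            refine mul_le_mul_of_nonneg_left (rpow_le_rpow_of_one_le hR ?_) (by positivity)
            rw [hη, he]; nlinarith [mul_pos hk1p hk1p, mul_pos hk1p hc1, mul_pos hk1p hε]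
    have e2 : R ^ e * (R ^ (A * k1) * Q2) ≤ (C2 + 1) * R ^ (c1 * (1 - k1) / 2 + ε) := by
      rw [hQ2]
      calc R ^ e * (R ^ (A * k1) * ((C2 + 1) * R ^ ((1 - 2 * k) * ((c1 + η) / 2) + e)))
          = (C2 + 1) * R ^ (e + (A * k1 + ((1 - 2 * k) * ((c1 + η) / 2) + e))) := by
            rw [Real.rpow_add hR0 e, Real.rpow_add hR0 (A * k1)]; ring
        _ ≤ (C2 + 1) * R ^ (c1 * (1 - k1) / 2 + ε) := by
            refine mul_le_mul_of_nonneg_left (rpow_le_rpow_of_one_le hR ?_) (by positivity)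
            have : k1 * c1 ≤ k / 2 * c1 := by gcongr
            have h8 : 0 ≤ k * η := by positivity
            rw [he]
            nlinarith
    have e3 : R ^ e * R ^ (A * k + c1 / 16) ≤ 1 * R ^ (c1 * (1 - k1) / 2 + ε) := by
      rw [← Real.rpow_add hR0, one_mul]
      apply rpow_le_rpow_of_one_le hR
      rw [he]
      nlinarith
    calc C3 * R ^ e * (Q1 + R ^ (A * k1) * Q2 + R ^ (A * k + c1 / 16)) * SS g R D
        = C3 * (R ^ e * Q1 + R ^ e * (R ^ (A * k1) * Q2) + R ^ e * R ^ (A * k + c1 / 16)) *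
          SS g R D := by ring
      _ ≤ C3 * ((C1 + 1) * R ^ (c1 * (1 - k1) / 2 + ε) + (C2 + 1) * R ^ (c1 * (1 - k1) / 2 + ε) +
          1 * R ^ (c1 * (1 - k1) / 2 + ε)) * SS g R D := by gcongr
      _ = C3 * ((C1 + 1) + (C2 + 1) + 1) * R ^ (c1 * (1 - k1) / 2 + ε) * SS g R D := by ring
  · intro h' g' R' D' hSt' hR1' hR2'
    refine (HE h' g' R' D' hSt').trans (ENNReal.ofReal_le_ofReal ?_)
    have hss' := hSt'.ss
    gcongr
    have hR'0 := hSt'.Rpos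
    calc C1 * R' ^ ((c1 + η) / 2 + e) ≤ (C1 + 1) * (R ^ (1 - 2 * k1)) ^ ((c1 + η) / 2 + e) := by
          gcongr; linarith
      _ = Q1 := by rw [← Real.rpow_mul hR0.le]
  · intro h' g' R' D' w' hSt' hR1' hR2' hw1 hw2
    have hR'0 := hSt'.Rpos
    have hss' := hSt'.ss
    have hw'1 : 1 ≤ w' := (Real.one_le_rpow hR hkp.le).trans hw1
    have hwle : w' ≤ (c0⁻¹ * c0 ^ (-(1/2) : ℝ)) * R' ^ (1/2 : ℝ) := by
      have h9 : R ≤ c0⁻¹ * R' := by
        rw [le_inv_mul_iff₀ hc0]; exact hR1'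
      calc w' ≤ c0⁻¹ * R ^ k := hw2
        _ ≤ c0⁻¹ * R ^ (1/2 : ℝ) := by
            refine mul_le_mul_of_nonneg_left (rpow_le_rpow_of_one_le hR (by linarith))
              (by positivity)
        _ ≤ c0⁻¹ * (c0⁻¹ * R') ^ (1/2 : ℝ) := by gcongr
        _ = _ := by
            rw [Real.mul_rpow (by positivity) hR'0.le, Real.inv_rpow hc0.le, Real.rpow_neg hc0.le]
            ring
    refine (HL h' g' R' D' w' hSt' hw'1 hwle).trans (ENNReal.ofReal_le_ofReal ?_)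
    gcongr
    have h10 : max 1 (R' / w' ^ 2) ≤ R ^ (1 - 2 * k) := by
      apply max_le
      · exact Real.one_le_rpow hR (by linarith)
      · rw [div_le_iff₀ (by positivity)]
        calc R' ≤ R := hR2'
          _ = R ^ (1 - 2 * k) * (R ^ k) ^ 2 := by
              rw [← Real.rpow_natCast (R ^ k) 2, ← Real.rpow_mul hR0.le, ← Real.rpow_add hR0]
              norm_num
              ring_nf
              simp
          _ ≤ R ^ (1 - 2 * k) * w' ^ 2 := by gcongr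
    calc C2 * R' ^ e * max 1 (R' / w' ^ 2) ^ ((c1 + η) / 2)
        ≤ (C2 + 1) * R ^ e * (R ^ (1 - 2 * k)) ^ ((c1 + η) / 2) := by
          gcongr
          linarith
      _ = Q2 := by
          rw [hQ2, ← Real.rpow_mul hR0.le, Real.rpow_add hR0]
          ring

end Crest.Agent.R138.W188
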