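import Crest.Agent.R138.WAsm2_188
import Crest.Agent.R138.WDef2_188

/-!
# R138 / R139: WAVE assembly, part 3 (helper188): the improvement step and `LB` for all `c > 0`.
-/

set_option autoImplicit false

open MeasureTheory FourierTransform
open scoped ContDiff ENNReal

namespace Crest.Agent.R138.W188

open Crest.Agent.R138.Defs Crest.Agent.R138.Bil882 Crest.Agent.R138.Wpk685

variable {B : ℕ → ℝ} {q : ℝ} {F : ℝ → ℝ → ℝ → (E2 → ℝ) → (E2 → ℂ) → ℝ → ℝ≥0∞}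

/-- case I. -/
theorem case1 {R X w1 ν c1 η : ℝ} (hX : 1 ≤ X) (hc1 : 0 < c1) (hη : 0 < η) (hν : 0 < ν)
    (hν2 : ν ≤ 1/4) (hην : η ≤ ν * c1 / 4) (h : R / w1 ^ 2 ≤ X ^ (1/2 - ν)) :
    (max 1 (R / w1 ^ 2)) ^ ((c1 + η) / 2) ≤ X ^ (c1 / 4 - 3 * η / 4) := by
  have hX0 : 0 < X := by linarith
  have h1 : max 1 (R / w1 ^ 2) ≤ X ^ (1/2 - ν) := by
    apply max_le _ h
    exact Real.one_le_rpow hX (by linarith)
  calc (max 1 (R / w1 ^ 2)) ^ ((c1 + η) / 2) ≤ (X ^ (1/2 - ν)) ^ ((c1 + η) / 2) := by gcongr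
    _ = X ^ ((1/2 - ν) * ((c1 + η) / 2)) := by rw [← Real.rpow_mul hX0.le]
    _ ≤ X ^ (c1 / 4 - 3 * η / 4) := by
        apply rpow_le_rpow_of_one_le hX
        nlinarith

/-- case II. -/
theorem case2 {R X r s1 s2 κ c1 β η : ℝ} (hR : 1 ≤ R) (hX : 1 ≤ X) (hr : r = R * X ^ (-(1/2) : ℝ))
    (hs1 : 0 < s1) (hs2 : 0 < s2) (hf : 1 ≤ s1 ^ 2 * r) (hβ : 0 ≤ β) (hβc : β < c1)
    (hκ : κ = (c1 - β) / (8 * c1)) (hη : 0 < η) (hη2 : η ≤ (c1 - β) / 8)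
    (hY : 1 ≤ s2 ^ 2 * R) (h : s2 * (s1 * r) ≤ (s2 ^ 2 * R) ^ κ) :
    (s2 ^ 2 * R) ^ (β / 2) ≤ X ^ (c1 / 4 - 3 * η / 4) := by
  have hX0 : 0 < X := by linarith
  have hR0 : 0 < R := by linarith
  have hc1 : 0 < c1 := by linarith
  have hr0 : 0 < r := by rw [hr]; positivity
  set Y : ℝ := s2 ^ 2 * R with hYdef
  have hY0 : 0 < Y := by linarith
  have hκp : 0 < κ := by rw [hκ]; apply div_pos <;> linarith
  have hκ8 : κ ≤ 1/8 := by
    rw [hκ, div_le_iff₀ (by positivity)]; linarith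
  have hκc : κ * c1 = (c1 - β) / 8 := by rw [hκ]; field_simp
  -- `Y ^ (1 - 2κ) ≤ X ^ (1/2)`
  have h1 : Y * X ^ (-(1/2) : ℝ) ≤ Y ^ (2 * κ) := by
    calc Y * X ^ (-(1/2) : ℝ) = s2 ^ 2 * r := by rw [hYdef, hr]; ring
      _ = s2 ^ 2 * r * 1 := by ring
      _ ≤ s2 ^ 2 * r * (s1 ^ 2 * r) := by gcongr
      _ = (s2 * (s1 * r)) ^ 2 := by ring
      _ ≤ (Y ^ κ) ^ 2 := by gcongr
      _ = Y ^ (2 * κ) := by
          rw [← Real.rpow_natCast, ← Real.rpow_mul hY0.le]; norm_num; ring_nf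
  have h2 : Y ^ (1 - 2 * κ) ≤ X ^ (1/2 : ℝ) := by
    rw [Real.rpow_sub hY0, Real.rpow_one, div_le_iff₀ (by positivity)]
    have h3 : X ^ (1/2 : ℝ) * X ^ (-(1/2) : ℝ) = 1 := by
      rw [← Real.rpow_add hX0]; norm_num
    calc Y = X ^ (1/2 : ℝ) * (Y * X ^ (-(1/2) : ℝ)) := by
          rw [mul_comm Y, ← mul_assoc, h3, one_mul]
      _ ≤ X ^ (1/2 : ℝ) * Y ^ (2 * κ) := by gcongr
  have h12 : 0 < 1 - 2 * κ := by linarith
  calc Y ^ (β / 2) = (Y ^ (1 - 2 * κ)) ^ (β / (2 * (1 - 2 * κ))) := by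
        rw [← Real.rpow_mul hY0.le]; congr 1; field_simp
    _ ≤ (X ^ (1/2 : ℝ)) ^ (β / (2 * (1 - 2 * κ))) := by
        apply Real.rpow_le_rpow (by positivity) h2 (by positivity)
    _ = X ^ (β / (4 * (1 - 2 * κ))) := by
        rw [← Real.rpow_mul hX0.le]; congr 1; field_simp; ring
    _ ≤ X ^ (c1 / 4 - 3 * η / 4) := by
        apply rpow_le_rpow_of_one_le hX
        rw [div_le_iff₀ (by positivity)]
        nlinarith

/-- case III: the geometric facts needed for `W3z`. -/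
theorem case3 {R X r1 r2 s1 s2 κ ν τ A η' c3 : ℝ} (hR : 1 ≤ R) (hX : 1 ≤ X) (hXR : X ≤ R)
    (hr2 : r2 = R * X ^ (-(1/2) : ℝ)) (hr1 : r1 = R * X ^ (-(1/2) + τ))
    (hs1 : 0 < s1) (hs2 : 0 < s2) (hf : 1 ≤ s2 * s1 * r2)
    (hκ : 0 < κ) (hκ8 : κ ≤ 1/8) (hA : 1 ≤ A) (hτ : τ * A = κ / 8) (hν : 0 < ν)
    (hνη : ν ≤ τ * η') (hνκ : ν ≤ κ / 8)
    (h1 : X ^ (1/2 - ν) < R / (s1 * r2) ^ 2) (h2 : (s2 ^ 2 * R) ^ κ < s2 * (s1 * r2))
    (hc : c3⁻¹ ≤ X ^ τ) (hc3 : 0 < c3) :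
    0 < X ^ (-τ) ∧ X ^ (-τ) ≤ c3 ∧ (X ^ (-τ)) ^ (-A) ≤ r1 ∧ X ^ (-τ) * r1 = r2 ∧
      s1 ≤ (X ^ (-τ)) ^ (-η') * r2 ^ (-(1/2) : ℝ) ∧ (X ^ (-τ)) ^ (-A) * s1 ≤ s2 := by
  have hX0 : 0 < X := by linarith
  have hR0 : 0 < R := by linarith
  have hr20 : 0 < r2 := by rw [hr2]; positivity
  have hr10 : 0 < r1 := by rw [hr1]; positivity
  have hA0 : 0 < A := by linarith
  have hτ0 : 0 < τ := by
    by_contra hneg
    push Not at hneg
    nlinarith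
  have eA : (X ^ (-τ)) ^ (-A) = X ^ (κ / 8) := by
    rw [← Real.rpow_mul hX0.le]; congr 1; rw [← hτ]; ring
  have hw1 : (s1 * r2) ^ 2 < r2 * X ^ ν := by
    have h3 : X ^ (1/2 - ν) * (s1 * r2) ^ 2 < R := by
      rwa [lt_div_iff₀ (by positivity)] at h1
    have h4 : R = X ^ (1/2 - ν) * (r2 * X ^ ν) := by
      rw [hr2]
      have : X ^ (1/2 - ν) * (R * X ^ (-(1/2) : ℝ) * X ^ ν) =
          R * (X ^ (1/2 - ν) * X ^ (-(1/2) : ℝ) * X ^ ν) := by ring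
      rw [this, ← Real.rpow_add hX0, ← Real.rpow_add hX0]
      ring_nf
      simp
    have h5 : X ^ (1/2 - ν) * (s1 * r2) ^ 2 < X ^ (1/2 - ν) * (r2 * X ^ ν) := by
      rw [← h4]; exact h3
    exact lt_of_mul_lt_mul_left h5 (by positivity)
  refine ⟨by positivity, ?_, ?_, ?_, ?_, ?_⟩
  · rw [Real.rpow_neg hX0.le]
    exact inv_le_of_inv_le₀ hc3 hc
  · rw [eA, hr1]
    calc X ^ (κ / 8) ≤ X ^ (1 + (-(1/2) + τ)) := by
          apply rpow_le_rpow_of_one_le hX; linarith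
      _ = X * X ^ (-(1/2) + τ) := by rw [Real.rpow_add hX0, Real.rpow_one]
      _ ≤ R * X ^ (-(1/2) + τ) := by gcongr
  · rw [hr1, hr2]
    have : X ^ (-τ) * (R * X ^ (-(1/2) + τ)) = R * (X ^ (-τ) * X ^ (-(1/2) + τ)) := by ring
    rw [this, ← Real.rpow_add hX0]
    congr 2; ring
  · have h6 : s1 * r2 ≤ r2 ^ (1/2 : ℝ) * X ^ (ν / 2) := by
      have h7 : s1 * r2 = ((s1 * r2) ^ 2) ^ (1/2 : ℝ) := by
        rw [← Real.rpow_natCast, ← Real.rpow_mul (by positivity)]; norm_num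
      rw [h7]
      calc ((s1 * r2) ^ 2) ^ (1/2 : ℝ) ≤ (r2 * X ^ ν) ^ (1/2 : ℝ) := by gcongr
        _ = r2 ^ (1/2 : ℝ) * X ^ (ν / 2) := by
            rw [Real.mul_rpow hr20.le (by positivity), ← Real.rpow_mul hX0.le]
            congr 2; ring
    have h8 : (X ^ (-τ)) ^ (-η') = X ^ (τ * η') := by
      rw [← Real.rpow_mul hX0.le]; congr 1; ring
    have h9 : r2 ^ (-(1/2) : ℝ) * r2 = r2 ^ (1/2 : ℝ) := by
      nth_rewrite 2 [← Real.rpow_one r2]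
      rw [← Real.rpow_add hr20]; norm_num
    rw [h8]
    apply le_of_mul_le_mul_right _ hr20
    calc s1 * r2 ≤ r2 ^ (1/2 : ℝ) * X ^ (ν / 2) := h6
      _ ≤ r2 ^ (1/2 : ℝ) * X ^ (τ * η') := by
          refine mul_le_mul_of_nonneg_left (rpow_le_rpow_of_one_le hX ?_) (by positivity)
          linarith
      _ = X ^ (τ * η') * r2 ^ (-(1/2) : ℝ) * r2 := by rw [mul_assoc, h9]; ring
  · rw [eA]
    -- `Y ≥ X^(1/2 - ν)`
    have h3 : X ^ (1/2 - ν) ≤ s2 ^ 2 * R := by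
      calc X ^ (1/2 - ν) ≤ R / (s1 * r2) ^ 2 := h1.le
        _ = R / (s1 * r2) ^ 2 * 1 := by ring
        _ ≤ R / (s1 * r2) ^ 2 * (s2 * s1 * r2) ^ 2 := by
            gcongr; exact one_le_pow₀ hf
        _ = s2 ^ 2 * R := by field_simp
    have h4 : X ^ (κ / 8 + ν) ≤ s2 * (s1 * r2) := by
      calc X ^ (κ / 8 + ν) ≤ X ^ ((1/2 - ν) * κ) := by
            apply rpow_le_rpow_of_one_le hX; nlinarith
        _ = (X ^ (1/2 - ν)) ^ κ := by rw [Real.rpow_mul hX0.le]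
        _ ≤ (s2 ^ 2 * R) ^ κ := by gcongr
        _ ≤ s2 * (s1 * r2) := h2.le
    have h5 : X ^ (κ / 8) * X ^ ν ≤ s2 * (s1 * r2) := by
      rw [← Real.rpow_add hX0]; exact h4
    have h6 : X ^ (κ / 8) * (s1 * r2) ^ 2 ≤ s2 * (s1 * r2) * r2 := by
      calc X ^ (κ / 8) * (s1 * r2) ^ 2 ≤ X ^ (κ / 8) * (r2 * X ^ ν) := by gcongr
        _ = (X ^ (κ / 8) * X ^ ν) * r2 := by ring
        _ ≤ s2 * (s1 * r2) * r2 := by gcongr
    have h7 : 0 < s1 * r2 * r2 := by positivity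
    apply le_of_mul_le_mul_right _ h7
    calc X ^ (κ / 8) * s1 * (s1 * r2 * r2) = X ^ (κ / 8) * (s1 * r2) ^ 2 := by ring
      _ ≤ s2 * (s1 * r2) * r2 := h6
      _ = s2 * (s1 * r2 * r2) := by ring

/-- case III: the bound of the plate functional at level `r2`. -/
theorem phi3 {c1 κ0 κ τ ν η e c3 A η' K0 C3 CW CP : ℝ} {Na3 Na : ℕ} {M0 : ℝ}
    (hc1 : 0 < c1) (hκ0 : 0 < κ0) (hκ01 : κ0 ≤ 1) (hκp : 0 < κ) (hκ8 : κ ≤ 1/8)
    (hτp : 0 < τ) (hτ64 : τ ≤ 1/64) (hτA : τ * A = κ / 8) (hA : 1 ≤ A) (hνp : 0 < ν)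
    (hνη : ν ≤ τ * η') (hνκ : ν ≤ κ / 8) (hηp : 0 < η) (hητ : η ≤ τ * κ0 * c1 / 2)
    (hep : 0 < e) (hc3 : 0 < c3) (hC3 : 0 ≤ C3) (hCW : 0 ≤ CW) (hCP : 0 ≤ CP)
    (H3 : ∀ h g R D, St B q Na M0 (1/2) h g R D → ∀ r1 r2 s1 s2, R ^ (1/2 : ℝ) ≤ r2 →
      K0 * r2 ≤ r1 → r1 ≤ R → Sd r2 s1 s2 → ∀ Q : ℝ, 1 ≤ Q →
      (∀ g' D', St B q Na3 4 1 h g' r1 D' →
        ENNReal.ofReal (s2 ^ (-q / 2)) * F r2 s1 s2 h g' r1 ≤ ENNReal.ofReal (Q * SS g' r1 D')) →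
      ∃ s1' s2', Sd r1 s1' s2' ∧ ENNReal.ofReal (s2 ^ (-q / 2)) * F r2 s1 s2 h g R ≤
        ENNReal.ofReal (C3 * R ^ e * Q) * (ENNReal.ofReal (s2' ^ (-q / 2)) * F r1 s1' s2' h g R) +
          ENNReal.ofReal (C3 * SS g R D))
    (HW : ∀ h g R D, St B q Na3 4 1 h g R D → ∀ d s1 s2 : ℝ, 0 < d → d ≤ c3 →
      d ^ (-A) ≤ R → Sd (d * R) s1 s2 → s1 ≤ d ^ (-η') * (d * R) ^ (-(1/2) : ℝ) →
      d ^ (-A) * s1 ≤ s2 →
        ENNReal.ofReal (s2 ^ (-q / 2)) * F (d * R) s1 s2 h g R ≤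
          ENNReal.ofReal (CW * R ^ e * d ^ (-(c1 / 2 * (1 - κ0))) * SS g R D))
    {h : E2 → ℝ} {g : E2 → ℂ} {R D X r1 r2 s1 s2 : ℝ} (hSt : St B q Na M0 (1/2) h g R D)
    (hX1 : 1 ≤ X) (hXR : X ≤ R) (hr2 : r2 = R * X ^ (-(1/2) : ℝ))
    (hr1 : r1 = R * X ^ (-(1/2) + τ)) (hr2lo : R ^ (1/2 : ℝ) ≤ r2) (hr1R : r1 ≤ R)
    (hsd : Sd r2 s1 s2) (hI : X ^ (1/2 - ν) < R / (s1 * r2) ^ 2)
    (hII : (s2 ^ 2 * R) ^ κ < s2 * (s1 * r2)) (hcX : c3⁻¹ ≤ X ^ τ) (hKX : K0 ≤ X ^ τ)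
    (HP1 : ∀ s1' s2', Sd r1 s1' s2' → Ph q F r1 s1' s2' h g R ≤
      ENNReal.ofReal (CP * R ^ (2 * e) * (max 1 (R / (s1' * r1) ^ 2)) ^ ((c1 + η) / 2) *
        SS g R D)) :
    Ph q F r2 s1 s2 h g R ≤
      ENNReal.ofReal ((C3 * (CW + 1) * CP + C3) * R ^ (5 * e) * X ^ (c1 / 4 - 3 * η / 4) *
        SS g R D) := by
  have hR := hSt.R1
  have hR0 := hSt.Rpos
  have hss := hSt.ss
  have hXp : 0 < X := by linarith
  have hr20 : 0 < r2 := by rw [hr2]; positivity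
  have hr10 : 0 < r1 := by rw [hr1]; positivity
  obtain ⟨hs1, hs2⟩ := hsd.s2pos hr20
  obtain ⟨hf1, hf2⟩ := hsd.facts hr20
  obtain ⟨hd0, hdc, hdA, hdr, hds1, hds2⟩ := case3 hR hX1 hXR hr2 hr1 hs1 hs2 hf2 hκp hκ8 hA
    hτA hνp hνη hνκ hI hII hcX hc3
  have hKr : K0 * r2 ≤ r1 := by
    have : r1 = X ^ τ * r2 := by
      rw [hr1, hr2, Real.rpow_add hXp]; ring
    rw [this]; gcongr
  have hRe : 1 ≤ R ^ e := Real.one_le_rpow hR hep.le
  have hκ1 : 0 ≤ 1 - κ0 := by linarith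
  set a : ℝ := τ * (c1 / 2 * (1 - κ0)) with ha
  have ha0 : 0 ≤ a := by positivity
  have hXa : 1 ≤ X ^ a := Real.one_le_rpow hX1 ha0
  have hCW1 : 1 ≤ CW + 1 := by linarith
  obtain ⟨s1', s2', hsd', hA3⟩ := H3 h g R D hSt r1 r2 s1 s2 hr2lo hKr hr1R hsd
    ((CW + 1) * R ^ e * X ^ a)
    (by
      calc (1:ℝ) = 1 * 1 * 1 := by ring
        _ ≤ _ := by gcongr)
    (by
      intro g' D' hSt'
      have h1 := HW h g' r1 D' hSt' (X ^ (-τ)) s1 s2 hd0 hdc hdA (by rw [hdr]; exact hsd)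
        (by rw [hdr]; exact hds1) hds2
      rw [hdr] at h1
      refine h1.trans (ENNReal.ofReal_le_ofReal ?_)
      have hs' := hSt'.ss
      have e1 : (X ^ (-τ)) ^ (-(c1 / 2 * (1 - κ0))) = X ^ a := by
        rw [← Real.rpow_mul hXp.le]; congr 1; rw [ha]; ring
      rw [e1]
      have h3 : r1 ^ e ≤ R ^ e := Real.rpow_le_rpow hr10.le hr1R hep.le
      have h4 : CW * r1 ^ e ≤ (CW + 1) * R ^ e :=
        mul_le_mul (by linarith) h3 (by positivity) (by positivity)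
      exact mul_le_mul_of_nonneg_right (mul_le_mul_of_nonneg_right h4 (by positivity)) hs')
  have hP1 := HP1 s1' s2' hsd'
  obtain ⟨hs1', hs2'⟩ := hsd'.s2pos hr10
  obtain ⟨hf1', hf2'⟩ := hsd'.facts hr10
  have hce : 0 ≤ (c1 + η) / 2 := by positivity
  have hm : (max 1 (R / (s1' * r1) ^ 2)) ^ ((c1 + η) / 2) ≤ X ^ ((1/2 - τ) * ((c1 + η) / 2)) := by
    have h1 : max 1 (R / (s1' * r1) ^ 2) ≤ X ^ (1/2 - τ) := by
      apply max_le
      · exact Real.one_le_rpow hX1 (by linarith)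
      · calc R / (s1' * r1) ^ 2 = R / ((s1' ^ 2 * r1) * r1) := by congr 1; ring
          _ ≤ R / (1 * r1) := by gcongr
          _ = X ^ (1/2 - τ) := by
              rw [one_mul, hr1, div_eq_iff (by positivity)]
              have : X ^ (1/2 - τ) * (R * X ^ (-(1/2) + τ)) =
                R * (X ^ (1/2 - τ) * X ^ (-(1/2) + τ)) := by ring
              rw [this, ← Real.rpow_add hXp]
              ring_nf; simp
    calc (max 1 (R / (s1' * r1) ^ 2)) ^ ((c1 + η) / 2) ≤ (X ^ (1/2 - τ)) ^ ((c1 + η) / 2) :=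
          Real.rpow_le_rpow (by positivity) h1 hce
      _ = _ := by rw [← Real.rpow_mul hXp.le]
  refine comb (by positivity) (by positivity) (by positivity) hA3 hP1 ?_
  have hexp : X ^ a * X ^ ((1/2 - τ) * ((c1 + η) / 2)) ≤ X ^ (c1 / 4 - 3 * η / 4) := by
    rw [← Real.rpow_add hXp]
    apply rpow_le_rpow_of_one_le hX1
    have h5 : 0 ≤ τ * η := by positivity
    have h6 : a + (1/2 - τ) * ((c1 + η) / 2) =
        c1 / 4 - (τ * κ0 * c1) / 2 + η / 4 - τ * η / 2 := by rw [ha]; ring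
    rw [h6]
    have h7 : η ≤ τ * κ0 * c1 / 2 := hητ
    linarith
  have hRexp : R ^ e * R ^ e * R ^ (2 * e) ≤ R ^ (5 * e) := by
    rw [← Real.rpow_add hR0, ← Real.rpow_add hR0]
    exact rpow_le_rpow_of_one_le hR (by linarith)
  have hR5 : 1 ≤ R ^ (5 * e) := Real.one_le_rpow hR (by linarith)
  have hη4 : η ≤ c1 / 4 := by
    have : τ * κ0 ≤ 1 * 1 := mul_le_mul (by linarith) hκ01 hκ0.le (by norm_num)
    nlinarith
  have hXe : 1 ≤ X ^ (c1 / 4 - 3 * η / 4) := Real.one_le_rpow hX1 (by linarith)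
  set m1 : ℝ := (max 1 (R / (s1' * r1) ^ 2)) ^ ((c1 + η) / 2) with hm1
  set m2 : ℝ := X ^ ((1/2 - τ) * ((c1 + η) / 2)) with hm2
  set y : ℝ := X ^ (c1 / 4 - 3 * η / 4) with hy
  have hm20 : 0 ≤ m2 := by positivity
  have hy0 : 0 ≤ y := by positivity
  have t1 : C3 * R ^ e * ((CW + 1) * R ^ e * X ^ a) * (CP * R ^ (2 * e) * m1 * SS g R D) ≤
      (C3 * (CW + 1) * CP) * R ^ (5 * e) * y * SS g R D := by
    calc C3 * R ^ e * ((CW + 1) * R ^ e * X ^ a) * (CP * R ^ (2 * e) * m1 * SS g R D)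
        ≤ C3 * R ^ e * ((CW + 1) * R ^ e * X ^ a) * (CP * R ^ (2 * e) * m2 * SS g R D) := by
          gcongr
      _ = (C3 * (CW + 1) * CP) * ((R ^ e * R ^ e * R ^ (2 * e)) * (X ^ a * m2)) *
          SS g R D := by ring
      _ ≤ (C3 * (CW + 1) * CP) * (R ^ (5 * e) * y) * SS g R D := by gcongr
      _ = _ := by ring
  have t2 : C3 * SS g R D ≤ C3 * R ^ (5 * e) * y * SS g R D := by
    have : 1 ≤ R ^ (5 * e) * y := by
      calc (1:ℝ) = 1 * 1 := by ring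
        _ ≤ _ := by gcongr
    calc C3 * SS g R D = C3 * 1 * SS g R D := by ring
      _ ≤ C3 * (R ^ (5 * e) * y) * SS g R D := by gcongr
      _ = _ := by ring
  calc _ ≤ (C3 * (CW + 1) * CP) * R ^ (5 * e) * y * SS g R D +
        C3 * R ^ (5 * e) * y * SS g R D := add_le_add t1 t2
    _ = _ := by ring

/-- `r2 = R X^{-1/2}`, `r1 = R X^{-1/2+τ}`, `X = R / w²`: elementary facts. -/
theorem lvl {R w X r1 r2 τ e : ℝ} (hR : 1 ≤ R) (hw : 1 ≤ w) (hX1 : 1 ≤ X) (hX : X = R / w ^ 2)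
    (hr2 : r2 = R * X ^ (-(1/2) : ℝ)) (hr1 : r1 = R * X ^ (-(1/2) + τ)) (hτp : 0 < τ)
    (hτ64 : τ ≤ 1/64) (hep : 0 < e) (hb2 : R ^ (4 * e) < X) :
    X ≤ R ∧ R ^ (1/2 : ℝ) ≤ r2 ∧ r2 ≤ r1 ∧ r1 ≤ R ^ (1 - e) ∧ r1 ≤ R ∧ r2 / w ^ 2 = X ^ (1/2 : ℝ) ∧
      w ≤ r2 ^ (1/2 : ℝ) := by
  have hR0 : 0 < R := by linarith
  have hw0 : 0 < w := by linarith
  have hXp : 0 < X := by linarith
  have hXR : X ≤ R := by
    rw [hX]; exact div_le_self hR0.le (one_le_pow₀ hw)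
  have hRhalf : R ^ (1/2 : ℝ) = R * R ^ (-(1/2) : ℝ) := by
    nth_rewrite 2 [← Real.rpow_one R]
    rw [← Real.rpow_add hR0]; norm_num
  have hr2lo : R ^ (1/2 : ℝ) ≤ r2 := by
    rw [hRhalf, hr2]
    have : R ^ (-(1/2) : ℝ) ≤ X ^ (-(1/2) : ℝ) :=
      Real.rpow_le_rpow_of_nonpos hXp hXR (by norm_num)
    gcongr
  have hr21 : r2 ≤ r1 := by
    rw [hr1, hr2]
    refine mul_le_mul_of_nonneg_left (rpow_le_rpow_of_one_le hX1 ?_) hR0.le
    linarith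
  have hr1hi : r1 ≤ R ^ (1 - e) := by
    have h1 : R ^ (1 - e) = R * R ^ (-e) := by
      nth_rewrite 2 [← Real.rpow_one R]
      rw [← Real.rpow_add hR0]; ring_nf
    rw [h1, hr1]
    have h2 : X ^ (-(1/2) + τ) ≤ (R ^ (4 * e)) ^ (-(1/2) + τ) :=
      Real.rpow_le_rpow_of_nonpos (by positivity) hb2.le (by linarith)
    have h3 : (R ^ (4 * e)) ^ (-(1/2) + τ) ≤ R ^ (-e) := by
      rw [← Real.rpow_mul hR0.le]
      apply rpow_le_rpow_of_one_le hR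
      nlinarith
    have := h2.trans h3
    gcongr
  have hr1R : r1 ≤ R := hr1hi.trans (by
    calc R ^ (1 - e) ≤ R ^ (1:ℝ) := rpow_le_rpow_of_one_le hR (by linarith)
      _ = R := Real.rpow_one R)
  have hw2 : w ^ 2 = R * X⁻¹ := by rw [hX]; field_simp
  have hr2w : r2 / w ^ 2 = X ^ (1/2 : ℝ) := by
    rw [hw2, hr2, ← Real.rpow_neg_one X]
    rw [div_eq_iff (by positivity)]
    have : X ^ (1/2 : ℝ) * (R * X ^ (-1:ℝ)) = R * (X ^ (1/2 : ℝ) * X ^ (-1:ℝ)) := by ring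
    rw [this, ← Real.rpow_add hXp]; norm_num
  have hwr2 : w ≤ r2 ^ (1/2 : ℝ) := by
    have h1 : w ^ 2 ≤ r2 := by
      have h2 : 1 ≤ r2 / w ^ 2 := by rw [hr2w]; exact Real.one_le_rpow hX1 (by norm_num)
      rwa [le_div_iff₀ (by positivity), one_mul] at h2
    calc w = (w ^ 2) ^ (1/2 : ℝ) := by
          rw [← Real.rpow_natCast, ← Real.rpow_mul hw0.le]; norm_num
      _ ≤ r2 ^ (1/2 : ℝ) := by gcongr
  exact ⟨hXR, hr2lo, hr21, hr1hi, hr1R, hr2w, hwr2⟩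

/-- trivial case `X ≤ L`. -/
theorem small_case {CR e ε η c1 R X S L K : ℝ} (hR : 1 ≤ R) (hX1 : 1 ≤ X)
    (hη1 : η ≤ 1) (hCR : 0 ≤ CR) (hS : 0 ≤ S) (hs : X ≤ L) (hL : CR * R ^ e * L ≤ K * R ^ ε) :
    CR * R ^ e * X ^ ((c1 + η) / 2) * S ≤ K * R ^ ε * X ^ ((c1 - η) / 2) * S := by
  have hXp : 0 < X := by linarith
  have hR0 : 0 < R := by linarith
  have hXsplit : X ^ ((c1 + η) / 2) = X ^ η * X ^ ((c1 - η) / 2) := by
    rw [← Real.rpow_add hXp]; congr 1; ring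
  have h1 : X ^ η ≤ L := by
    calc X ^ η ≤ X ^ (1:ℝ) := rpow_le_rpow_of_one_le hX1 hη1
      _ = X := Real.rpow_one X
      _ ≤ L := hs
  calc CR * R ^ e * X ^ ((c1 + η) / 2) * S
      = (CR * R ^ e * X ^ η) * X ^ ((c1 - η) / 2) * S := by rw [hXsplit]; ring
    _ ≤ (CR * R ^ e * L) * X ^ ((c1 - η) / 2) * S := by gcongr
    _ ≤ (K * R ^ ε) * X ^ ((c1 - η) / 2) * S := by gcongr

/-- **the improvement step.** -/
theorem LB_improve {c1 β : ℝ} (hc1 : 0 < c1) (hβ : 0 ≤ β) (hβc : β < c1)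
    (H : ∀ c, c1 < c → LB B q 1 c) (HE : END B q β) (HK : KMw B q) (HT : TRIV1 B q)
    (H1 : A1 B q F) (H2 : A2 B q F) (H2K : A2K B q F) (H3 : A3k B q F) (H5 : A5b B q)
    (HW : W3gC B q F c1) : ∃ η : ℝ, 0 < η ∧ η ≤ c1 ∧ LB B q (1/2) (c1 - η) := by
  obtain ⟨κ0, c3, A, η', hκ0, hκ01, hc3, hc31, hA, hη', HW⟩ := HW
  obtain ⟨K0, hK0, H3⟩ := H3
  have hA0 : 0 < A := by linarith
  set κ : ℝ := (c1 - β) / (8 * c1) with hκ
  have hκp : 0 < κ := by rw [hκ]; apply div_pos <;> linarith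
  have hκ8 : κ ≤ 1/8 := by
    rw [hκ, div_le_iff₀ (by positivity)]; linarith
  set τ : ℝ := κ / (8 * A) with hτ
  have hτp : 0 < τ := by positivity
  have hτA : τ * A = κ / 8 := by rw [hτ]; field_simp
  have hτ64 : τ ≤ 1/64 := by nlinarith
  set ν : ℝ := min (τ * η') (κ / 8) with hν
  have hνp : 0 < ν := lt_min (by positivity) (by positivity)
  have hνη : ν ≤ τ * η' := min_le_left _ _
  have hνκ : ν ≤ κ / 8 := min_le_right _ _
  have hν4 : ν ≤ 1/4 := by linarith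
  set η : ℝ := min (min (ν * c1 / 4) ((c1 - β) / 8)) (min (τ * κ0 * c1 / 2) 1) with hη
  have hηp : 0 < η := lt_min (lt_min (by positivity) (by linarith)) (lt_min (by positivity) one_pos)
  have hην : η ≤ ν * c1 / 4 := (min_le_left _ _).trans (min_le_left _ _)
  have hηβ : η ≤ (c1 - β) / 8 := (min_le_left _ _).trans (min_le_right _ _)
  have hητ : η ≤ τ * κ0 * c1 / 2 := (min_le_right _ _).trans (min_le_left _ _)
  have hη1 : η ≤ 1 := (min_le_right _ _).trans (min_le_right _ _)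
  refine ⟨η, hηp, by linarith, ?_⟩
  intro ε hε Na M0
  set e : ℝ := min (ε / 8) (1/4) with he
  have hep : 0 < e := lt_min (by positivity) (by norm_num)
  have he4 : e ≤ 1/4 := min_le_right _ _
  have heε : 8 * e ≤ ε := by
    have : e ≤ ε / 8 := min_le_left _ _
    linarith
  have hLB := H (c1 + η) (by linarith)
  have hc2 : 0 ≤ c1 + η := by positivity
  obtain ⟨Na1, H1⟩ := H1 e hep
  obtain ⟨N0, H1⟩ := H1 Na M0
  obtain ⟨Na3, H3⟩ := H3 e hep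
  obtain ⟨C3, hC3, H3⟩ := H3 Na M0
  obtain ⟨CW, hCW, HW⟩ := HW e hep Na3
  obtain ⟨NL, CL, hCL, HL⟩ := hLB e hep Na1 4
  obtain ⟨NR, CR, hCR, HR⟩ := hLB e hep Na M0
  obtain ⟨CP, hCP, HP⟩ := Ph_bound hc2 hβ hLB HK HT HE H5 H2 H2K e hep Na M0
  set N : ℕ := max N0 (max NL NR) with hN
  obtain ⟨C1, hC1, H1⟩ := H1 N (le_max_left _ _)
  have hNL : NL ≤ N := (le_max_left _ _).trans (le_max_right _ _)
  have hNR : NR ≤ N := (le_max_right _ _).trans (le_max_right _ _)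
  clear_value κ τ ν η e N
  -- constants
  set X0 : ℝ := (max c3⁻¹ K0) ^ (τ⁻¹) with hX0
  have hmx : 1 ≤ max c3⁻¹ K0 := hK0.trans (le_max_right _ _)
  have hmx0 : 0 < max c3⁻¹ K0 := by linarith
  have hX01 : 1 ≤ X0 := Real.one_le_rpow hmx (by positivity)
  set K3 : ℝ := C3 * (CW + 1) * CP + C3 with hK3
  have hK30 : 0 ≤ K3 := by positivity
  have hK20 : 0 ≤ C1 * (CL + 1) * (CP + K3) + C1 := by positivity
  refine ⟨N, CR * X0 + CR + (C1 * (CL + 1) * (CP + K3) + C1), by positivity, ?_⟩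
  intro h g R D w hSt hw hwR
  have hR := hSt.R1
  have hR0 := hSt.Rpos
  have hss := hSt.ss
  have hw0 : 0 < w := by linarith
  obtain ⟨X, hX⟩ : ∃ X, X = R / w ^ 2 := ⟨_, rfl⟩
  have hX1 : 1 ≤ X := by rw [hX]; exact one_le_R_div hR hw hwR
  have hXp : 0 < X := by linarith
  have hSt1 : St B q Na M0 1 h g R D := hSt.mono (by norm_num)
  rw [← hX]
  have hRε : 1 ≤ R ^ ε := Real.one_le_rpow hR hε.le
  have hRe : 1 ≤ R ^ e := Real.one_le_rpow hR hep.le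
  have hReε : R ^ e ≤ R ^ ε := rpow_le_rpow_of_one_le hR (by linarith)
  have hHR := (NN_anti hNR h g hw0 R).trans (HR h g R D w hSt1 hw hwR)
  rw [← hX] at hHR
  -- trivial cases
  rcases le_or_gt X X0 with hs | hb
  · refine hHR.trans (ENNReal.ofReal_le_ofReal (small_case hR hX1 hη1 hCR hss hs ?_))
    calc CR * R ^ e * X0 = (CR * X0) * R ^ e := by ring
      _ ≤ (CR * X0) * R ^ ε := by gcongr
      _ ≤ _ := by gcongr; linarith
  rcases le_or_gt X (R ^ (4 * e)) with hs2 | hb2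
  · refine hHR.trans (ENNReal.ofReal_le_ofReal (small_case hR hX1 hη1 hCR hss hs2 ?_))
    have h2 : R ^ e * R ^ (4 * e) ≤ R ^ ε := by
      rw [← Real.rpow_add hR0]; exact rpow_le_rpow_of_one_le hR (by linarith)
    calc CR * R ^ e * R ^ (4 * e) = CR * (R ^ e * R ^ (4 * e)) := by ring
      _ ≤ CR * R ^ ε := by gcongr
      _ ≤ _ := by
          have : 0 ≤ CR * X0 := by positivity
          gcongr; linarith
  clear hHR
  -- main case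
  obtain ⟨r2, hr2⟩ : ∃ r, r = R * X ^ (-(1/2) : ℝ) := ⟨_, rfl⟩
  obtain ⟨r1, hr1⟩ : ∃ r, r = R * X ^ (-(1/2) + τ) := ⟨_, rfl⟩
  obtain ⟨hXR, hr2lo, hr21, hr1hi, hr1R, hr2w, hwr2⟩ :=
    lvl hR hw hX1 hX hr2 hr1 hτp hτ64 hep hb2
  have hr20 : 0 < r2 := by rw [hr2]; positivity
  have hr10 : 0 < r1 := by rw [hr1]; positivity
  have hr2hi : r2 ≤ R ^ (1 - e) := hr21.trans hr1hi
  have hr1lo : R ^ (1/2 : ℝ) ≤ r1 := hr2lo.trans hr21
  have hr2R : r2 ≤ R := hr21.trans hr1R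
  have hX4 : 1 ≤ X ^ ((c1 + η) / 4) := Real.one_le_rpow hX1 (by positivity)
  have hCL1 : 1 ≤ CL + 1 := by linarith
  -- children at level `r2`
  obtain ⟨s1, s2, hsd, hN1⟩ := H1 h g R D hSt r2 w hr2lo hr2R hw hwr2
    ((CL + 1) * R ^ e * X ^ ((c1 + η) / 4))
    (by
      calc (1:ℝ) = 1 * 1 * 1 := by ring
        _ ≤ _ := by gcongr)
    (by
      intro g' D' hSt'
      refine (NN_anti hNL h g' hw0 r2).trans ((HL h g' r2 D' w hSt' hw hwr2).trans ?_)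
      apply ENNReal.ofReal_le_ofReal
      have hs' := hSt'.ss
      have e1 : (r2 / w ^ 2) ^ ((c1 + η) / 2) = X ^ ((c1 + η) / 4) := by
        rw [hr2w, ← Real.rpow_mul hXp.le]; congr 1; ring
      rw [e1]
      have h3 : r2 ^ e ≤ R ^ e := Real.rpow_le_rpow hr20.le hr2R hep.le
      have h4 : CL * r2 ^ e ≤ (CL + 1) * R ^ e :=
        mul_le_mul (by linarith) h3 (by positivity) (by positivity)
      exact mul_le_mul_of_nonneg_right (mul_le_mul_of_nonneg_right h4 (by positivity)) hs')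
  obtain ⟨hs1, hs2⟩ := hsd.s2pos hr20
  obtain ⟨hf1, hf2⟩ := hsd.facts hr20
  have hP2 := HP h g R D hSt1 r2 s1 s2 hr2lo hr2hi hsd
  -- bound of the plate functional at level `r2`
  have hR2e : R ^ (2 * e) ≤ R ^ (5 * e) := rpow_le_rpow_of_one_le hR (by linarith)
  have hPhi : Ph q F r2 s1 s2 h g R ≤
      ENNReal.ofReal ((CP + K3) * R ^ (5 * e) * X ^ (c1 / 4 - 3 * η / 4) * SS g R D) := by
    have hXe0 : 0 ≤ X ^ (c1 / 4 - 3 * η / 4) := by positivity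
    have hCPK : CP * R ^ (2 * e) ≤ (CP + K3) * R ^ (5 * e) :=
      mul_le_mul (by linarith) hR2e (by positivity) (by positivity)
    rcases le_or_gt (R / (s1 * r2) ^ 2) (X ^ (1/2 - ν)) with hI | hI
    · refine hP2.1.trans (ENNReal.ofReal_le_ofReal ?_)
      have h1 := case1 hX1 hc1 hηp hνp hν4 hην hI
      refine mul_le_mul_of_nonneg_right ?_ hss
      exact mul_le_mul hCPK h1 (by positivity) (by positivity)
    rcases le_or_gt (s2 * (s1 * r2)) ((s2 ^ 2 * R) ^ κ) with hII | hII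
    · refine hP2.2.trans (ENNReal.ofReal_le_ofReal ?_)
      have hY : 1 ≤ s2 ^ 2 * R := by
        have := hsd.le
        calc 1 ≤ s1 ^ 2 * r2 := hf1
          _ ≤ s2 ^ 2 * R := by gcongr
      have h1 := case2 hR hX1 hr2 hs1 hs2 hf1 hβ hβc hκ hηp hηβ hY hII
      refine mul_le_mul_of_nonneg_right ?_ hss
      exact mul_le_mul hCPK h1 (by positivity) (by positivity)
    -- case III
    have hcX' : max c3⁻¹ K0 ≤ X ^ τ := by
      calc max c3⁻¹ K0 = ((max c3⁻¹ K0) ^ (τ⁻¹)) ^ τ := by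
            rw [← Real.rpow_mul hmx0.le, inv_mul_cancel₀ hτp.ne', Real.rpow_one]
        _ ≤ X ^ τ := Real.rpow_le_rpow (by positivity) hb.le hτp.le
    have h3 := phi3 (F := F) hc1 hκ0 hκ01 hκp hκ8 hτp hτ64 hτA hA hνp hνη hνκ hηp hητ hep hc3
      hC3 hCW hCP H3 HW hSt hX1 hXR hr2 hr1 hr2lo hr1R hsd hI hII
      ((le_max_left _ _).trans hcX') ((le_max_right _ _).trans hcX')
      (fun s1' s2' hsd' => (HP h g R D hSt1 r1 s1' s2' hr1lo hr1hi hsd').1)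
    refine h3.trans (ENNReal.ofReal_le_ofReal ?_)
    rw [← hK3]
    refine mul_le_mul_of_nonneg_right (mul_le_mul_of_nonneg_right
      (mul_le_mul_of_nonneg_right ?_ (by positivity)) hXe0) hss
    linarith
  refine comb (by positivity) (by positivity) (by positivity) hN1 hPhi ?_
  have hexp : X ^ ((c1 + η) / 4) * X ^ (c1 / 4 - 3 * η / 4) = X ^ ((c1 - η) / 2) := by
    rw [← Real.rpow_add hXp]; congr 1; ring
  have hRexp : R ^ e * R ^ e * R ^ (5 * e) ≤ R ^ ε := by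
    rw [← Real.rpow_add hR0, ← Real.rpow_add hR0]
    exact rpow_le_rpow_of_one_le hR (by linarith)
  have hXc : 1 ≤ X ^ ((c1 - η) / 2) := Real.one_le_rpow hX1 (by linarith)
  set y : ℝ := X ^ ((c1 - η) / 2) with hy
  have hy0 : 0 ≤ y := by positivity
  have t1 : C1 * R ^ e * ((CL + 1) * R ^ e * X ^ ((c1 + η) / 4)) *
        ((CP + K3) * R ^ (5 * e) * X ^ (c1 / 4 - 3 * η / 4) * SS g R D) ≤
      (C1 * (CL + 1) * (CP + K3)) * R ^ ε * y * SS g R D := by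
    calc C1 * R ^ e * ((CL + 1) * R ^ e * X ^ ((c1 + η) / 4)) *
          ((CP + K3) * R ^ (5 * e) * X ^ (c1 / 4 - 3 * η / 4) * SS g R D)
        = (C1 * (CL + 1) * (CP + K3)) * (R ^ e * R ^ e * R ^ (5 * e)) *
          (X ^ ((c1 + η) / 4) * X ^ (c1 / 4 - 3 * η / 4)) * SS g R D := by ring
      _ ≤ (C1 * (CL + 1) * (CP + K3)) * R ^ ε * y * SS g R D := by
          rw [hexp]; gcongr
  have t2 : C1 * SS g R D ≤ C1 * R ^ ε * y * SS g R D := by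
    have : 1 ≤ R ^ ε * y := by
      calc (1:ℝ) = 1 * 1 := by ring
        _ ≤ _ := by gcongr
    calc C1 * SS g R D = C1 * 1 * SS g R D := by ring
      _ ≤ C1 * (R ^ ε * y) * SS g R D := by gcongr
      _ = _ := by ring
  have t3 : 0 ≤ (CR * X0 + CR) * R ^ ε * y * SS g R D := by positivity
  calc _ ≤ (C1 * (CL + 1) * (CP + K3)) * R ^ ε * y * SS g R D + C1 * R ^ ε * y * SS g R D :=
        add_le_add t1 t2
    _ ≤ (C1 * (CL + 1) * (CP + K3)) * R ^ ε * y * SS g R D + C1 * R ^ ε * y * SS g R D +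
        (CR * X0 + CR) * R ^ ε * y * SS g R D := le_add_of_nonneg_right t3
    _ = _ := by ring

/-- **the wave theorem**: `LB(q,c)` for every `c > 0`. -/
theorem LB_all (HH : HALF B q) (HK : KMw B q) (HT1 : TRIV1 B q) (HT2 : TRIV2 B q F)
    (H1 : A1 B q F) (H2 : A2 B q F) (H2K : A2K B q F) (H3 : A3k B q F) (H4 : A4 B q)
    (H5a : A5a B q) (H5b : A5b B q) (HW : W3g B q F) : ∀ c : ℝ, 0 < c → LB B q 1 c := by
  set T : Set ℝ := {c | 0 ≤ c ∧ LB B q 1 c} with hT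
  have h8 : (8:ℝ) ∈ T := ⟨by norm_num, LB_start HH HK HT1 HT2 H1⟩
  have hbdd : BddBelow T := ⟨0, fun c hc => hc.1⟩
  set c1 : ℝ := sInf T with hc1
  have hc10 : 0 ≤ c1 := le_csInf ⟨8, h8⟩ fun c hc => hc.1
  have hH : ∀ c, c1 < c → LB B q 1 c := by
    intro c hc
    obtain ⟨c', hc', hcc⟩ := exists_lt_of_csInf_lt ⟨8, h8⟩ hc
    exact hc'.2.mono hcc.le
  rcases hc10.eq_or_lt with h0 | hpos
  · intro c hc
    exact hH c (by rw [← h0]; exact hc)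
  · exfalso
    obtain ⟨β, hβ, hβc, HE⟩ := END_gain hpos hH HK HT1 H5a H4
    obtain ⟨η, hη, hηc, hLB⟩ := LB_improve hpos hβ hβc hH HE HK HT1 H1 H2 H2K H3 H5b
      (HW c1 hpos hH)
    have hmem : c1 - η ∈ T := ⟨by linarith, HH _ (by linarith) hLB⟩
    have := csInf_le hbdd hmem
    linarith

end Crest.Agent.R138.W188
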