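import Crest.Agent.R138.WAsm3_188
import Crest.Agent.R138.A5a_774
import Crest.Agent.R138.Tri_323
import Crest.Agent.R138.Tub9_70
import Crest.Agent.R138.TubD_70

/-!
# R138 / R139: WAVE side, final part 1 (helper188): the degenerate case (energy much larger than the
density) and `EBn` from `LB`.
-/

set_option autoImplicit false

open MeasureTheory FourierTransform
open scoped ContDiff ENNReal

namespace Crest.Agent.R138.W188

open Crest.Agent.R138.Defs Crest.Agent.R138.Bil882 Crest.Agent.R138.Wpk685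

/-- the signs. -/
noncomputable def sgb (e : Bool) : ℝ := if e then 1 else -1

theorem exists_sgb {R t : ℝ} (ht : |t| ≤ 2 * R) : ∃ e : Bool, |t - sgb e * R| ≤ R := by
  rcases le_total 0 t with h | h
  · refine ⟨true, ?_⟩
    rw [abs_of_nonneg h] at ht
    simp only [sgb, if_true, one_mul]
    rw [abs_le]; constructor <;> linarith
  · refine ⟨false, ?_⟩
    rw [abs_of_nonpos h] at ht
    simp only [sgb, if_false, Bool.false_eq_true]
    rw [abs_le]; constructor <;> linarith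

/-- base points. -/
noncomputable def bpt (R : ℝ) (e : Bool × Bool) : E2 := WithLp.toLp 2 ![sgb e.1 * R, sgb e.2 * R]

theorem norm_bpt {R : ℝ} (hR : 0 ≤ R) (e : Bool × Bool) : ‖bpt R e‖ ≤ 2 * R := by
  have h1 : ∀ e : Bool, sgb e ^ 2 = 1 := by
    intro e; cases e <;> simp [sgb]
  have h2 : ‖bpt R e‖ ^ 2 = 2 * R ^ 2 := by
    rw [EuclideanSpace.norm_sq_eq]
    simp only [bpt, Fin.sum_univ_two, Real.norm_eq_abs, sq_abs]
    simp only [Matrix.cons_val_zero, Matrix.cons_val_one, mul_pow, h1]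
    ring
  nlinarith [norm_nonneg (bpt R e)]

/-- energy of the full wave on the cylinder of size `2R`. -/
theorem cyl_two (N : ℕ) : ∃ C : ℝ, 0 ≤ C ∧ ∀ (B : ℕ → ℝ) (h : E2 → ℝ), ParB B h → B 2 ≤ 1/2 →
    fderiv ℝ h 0 = 0 → ∀ (g : E2 → ℂ) (R D : ℝ), (∀ ξ, 1 < ‖ξ‖ → g ξ = 0) → 1 ≤ R → 0 ≤ D →
    BoxBoundL 4 N h g R D →
    ∫⁻ p in cyl (2 * R), ‖ext h g p.1 p.2‖ₑ ^ 2 ≤ ENNReal.ofReal (C * (D * R ^ 3)) := by
  obtain ⟨κ, hκ, ψ, hψ, hψ1, -⟩ := Tub70.exists_adm N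
  refine ⟨8 * κ⁻¹ ^ 2, by positivity, ?_⟩
  intro B h hh hB h1 g R D hs hR hD hbox
  have hR0 : 0 < R := by linarith
  set b : OrthonormalBasis (Fin 2) ℝ E2 := EuclideanSpace.basisFun (Fin 2) ℝ with hb
  have hgrad : ∀ ξ : E2, ‖ξ‖ ≤ 1 → ‖gradient h ξ‖ ≤ 3/2 := by
    intro ξ hξ
    have h0 : gradient h 0 = 0 := by
      unfold gradient; rw [h1, map_zero]
    have h2 := Tub70.gradient_lip2 hh ξ 0
    rw [h0, sub_zero, sub_zero] at h2
    nlinarith [norm_nonneg ξ]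
  have hchi : ∀ ξ, g ξ * chi h 0 b (fun _ => 1) ψ ξ = (κ : ℂ) * g ξ := by
    intro ξ
    rcases le_or_gt ‖ξ‖ 1 with hξ | hξ
    · have : chi h 0 b (fun _ => 1) ψ ξ = κ := by
        unfold chi
        apply hψ1
        intro i
        simp only [sub_zero, div_one]
        calc |inner ℝ (gradient h ξ) (b i)| ≤ ‖gradient h ξ‖ * ‖b i‖ := abs_real_inner_le_norm _ _
          _ = ‖gradient h ξ‖ := by rw [b.norm_eq_one, mul_one]
          _ ≤ 3/2 := hgrad ξ hξ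
      rw [this, mul_comm]
    · rw [hs ξ hξ]; simp
  have hfull : ∀ (x0 : E2) (t0 : ℝ), ‖x0‖ ≤ 4 * R → |t0| ≤ 4 * R →
      ∫⁻ p in plank 0 b (fun _ => 1) R x0 t0, ‖ext h g p.1 p.2‖ₑ ^ 2 ≤
        ENNReal.ofReal (κ⁻¹ ^ 2 * (D * R ^ 3)) := by
    intro x0 t0 hx ht
    have h2 := hbox 0 b (fun _ => 1) (fun _ => ⟨by
      apply Real.rpow_le_one_of_one_le_of_nonpos hR (by norm_num), le_rfl⟩) ψ hψ x0 t0 hx ht
    simp only [hchi] at h2
    have e1 : ∀ p : E2 × ℝ, ‖ext h g p.1 p.2‖ₑ ^ 2 = ENNReal.ofReal (κ⁻¹ ^ 2) *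
        ‖ext h (fun ξ => (κ : ℂ) * g ξ) p.1 p.2‖ₑ ^ 2 := by
      intro p
      have e2 : ext h (fun ξ => (κ : ℂ) * g ξ) p.1 p.2 = κ * ext h g p.1 p.2 := by
        unfold ext
        rw [← integral_const_mul]
        congr 1
        funext ξ
        ring
      rw [e2, enorm_mul, mul_pow, ← mul_assoc]
      have e3 : ENNReal.ofReal (κ⁻¹ ^ 2) * ‖(κ : ℂ)‖ₑ ^ 2 = 1 := by
        rw [← ofReal_norm, ← ENNReal.ofReal_pow (norm_nonneg _), ← ENNReal.ofReal_mul (by positivity),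
          Complex.norm_real, Real.norm_eq_abs, abs_of_pos hκ]
        rw [← mul_pow, inv_mul_cancel₀ hκ.ne', one_pow, ENNReal.ofReal_one]
      rw [e3, one_mul]
    simp only [e1]
    rw [lintegral_const_mul' _ _ ENNReal.ofReal_ne_top]
    refine (mul_le_mul_right h2 _).trans ?_
    rw [← ENNReal.ofReal_mul (by positivity)]
    apply ENNReal.ofReal_le_ofReal
    apply le_of_eq
    ring
  have hcov : cyl (2 * R) ⊆ ⋃ e : (Bool × Bool) × Bool,
      plank 0 b (fun _ => 1) R (bpt R e.1) (sgb e.2 * R) := by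
    rintro p ⟨hp1, hp2⟩
    have hc : ∀ i, |p.1 i| ≤ 2 * R := fun i => by
      have := (EuclideanSpace.norm_eq p.1 ▸ PiLp.norm_apply_le p.1 i)
      exact (PiLp.norm_apply_le p.1 i).trans hp1
    obtain ⟨e0, he0⟩ := exists_sgb (hc 0)
    obtain ⟨e1, he1⟩ := exists_sgb (hc 1)
    obtain ⟨e2, he2⟩ := exists_sgb hp2
    refine Set.mem_iUnion.2 ⟨((e0, e1), e2), he2, ?_⟩
    intro i
    rw [smul_zero, add_zero, one_mul]
    have e3 : inner ℝ (p.1 - bpt R (e0, e1)) (b i) = (p.1 - bpt R (e0, e1)) i := by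
      rw [real_inner_comm, hb, EuclideanSpace.basisFun_apply, EuclideanSpace.inner_single_left]
      simp
    rw [e3]
    fin_cases i
    · simpa [bpt] using he0
    · simpa [bpt] using he1
  calc ∫⁻ p in cyl (2 * R), ‖ext h g p.1 p.2‖ₑ ^ 2
      ≤ ∫⁻ p in ⋃ e : (Bool × Bool) × Bool,
          plank 0 b (fun _ => 1) R (bpt R e.1) (sgb e.2 * R), ‖ext h g p.1 p.2‖ₑ ^ 2 :=
        lintegral_mono_set hcov
    _ ≤ ∑' e : (Bool × Bool) × Bool, ∫⁻ p in
          plank 0 b (fun _ => 1) R (bpt R e.1) (sgb e.2 * R), ‖ext h g p.1 p.2‖ₑ ^ 2 :=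
        lintegral_iUnion_le _ _
    _ = ∑ e : (Bool × Bool) × Bool, ∫⁻ p in
          plank 0 b (fun _ => 1) R (bpt R e.1) (sgb e.2 * R), ‖ext h g p.1 p.2‖ₑ ^ 2 :=
        tsum_fintype _
    _ ≤ ∑ e : (Bool × Bool) × Bool, ENNReal.ofReal (κ⁻¹ ^ 2 * (D * R ^ 3)) := by
        apply Finset.sum_le_sum
        intro e _
        apply hfull
        · exact (norm_bpt hR0.le _).trans (by linarith)
        · have : |sgb e.2| = 1 := by cases e.2 <;> simp [sgb]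
          rw [abs_mul, this, one_mul, abs_of_pos hR0]; linarith
    _ = ENNReal.ofReal (8 * κ⁻¹ ^ 2 * (D * R ^ 3)) := by
        rw [Finset.sum_const]
        have : (Finset.univ : Finset ((Bool × Bool) × Bool)).card = 8 := rfl
        rw [this, nsmul_eq_mul, mul_assoc, ENNReal.ofReal_mul (p := 8) (by norm_num)]
        simp

/-- pointwise bound of the wave on `cyl R` by the density and a small multiple of the energy. -/
theorem sup_le (B : ℕ → ℝ) (hB : B 2 ≤ 1/2) (N : ℕ) : ∃ C : ℝ, 0 ≤ C ∧ ∀ (h : E2 → ℝ), ParB B h →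
    fderiv ℝ h 0 = 0 → ∀ (g : E2 → ℂ) (R D : ℝ), Measurable g → (∃ M : ℝ, ∀ ξ, ‖g ξ‖ ≤ M) →
    (∀ ξ, 1 < ‖ξ‖ → g ξ = 0) → 1 ≤ R → 0 ≤ D → BoxBoundL 4 N h g R D → ∀ z ∈ cyl R,
      ‖ext h g z.1 z.2‖ₑ ^ 2 ≤ ENNReal.ofReal (C * (D * R ^ 3 + (R ^ 4)⁻¹ * En g)) := by
  obtain ⟨C1, hC1, H1⟩ := T774.ext_sq_le B 12
  obtain ⟨C2, hC2, H2⟩ := cyl_two N
  obtain ⟨C3, hC3, H3⟩ := W323.exists_lint_wt
  refine ⟨C1 * (C2 + 4 * C3), by positivity, ?_⟩
  intro h hh h1 g R D hgm hgb hs hR hD hbox z hz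
  have hR0 : 0 < R := by linarith
  have hE : ∫⁻ ξ, ‖g ξ‖ₑ ^ 2 = ENNReal.ofReal (En g) := by
    have hm2 : MemLp g 2 := T774.integ hgm hgb hs 2
    unfold En
    rw [ofReal_integral_eq_lintegral_ofReal (hm2.integrable_norm_pow (by norm_num))
      (Filter.Eventually.of_forall fun ξ => by positivity)]
    refine lintegral_congr fun ξ => ?_
    rw [← ofReal_norm, ENNReal.ofReal_pow (norm_nonneg _)]
  have hg1 : Integrable g := memLp_one_iff_integrable.1 (T774.integ hgm hgb hs 1)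
  have hF : Continuous fun p : E2 × ℝ => ext h g p.1 p.2 := F4x858.continuous_ext hh.1.continuous hg1
  have hmc : MeasurableSet (cyl (2 * R)) := T774.measurableSet_cyl _
  -- split of the weighted integral
  have hpt : ∀ p : E2 × ℝ, ‖ext h g p.1 p.2‖ₑ ^ 2 * ENNReal.ofReal (wt 12 1 z.1 z.2 p) ≤
      (cyl (2 * R)).indicator (fun p => ‖ext h g p.1 p.2‖ₑ ^ 2) p +
        (ENNReal.ofReal ((R ^ 4)⁻¹) * (4 * ENNReal.ofReal (En g))) *
          ENNReal.ofReal (wt 8 1 z.1 z.2 p) := by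
    intro p
    by_cases hp : p ∈ cyl (2 * R)
    · rw [Set.indicator_of_mem hp]
      refine le_trans ?_ le_self_add
      have hw1 : ENNReal.ofReal (wt 12 1 z.1 z.2 p) ≤ 1 := by
        rw [← ENNReal.ofReal_one]
        apply ENNReal.ofReal_le_ofReal
        unfold wt
        apply inv_le_one_of_one_le₀
        apply one_le_pow₀
        have : 0 ≤ (‖p.1 - z.1‖ + |p.2 - z.2|) / 1 := by positivity
        linarith
      calc _ ≤ ‖ext h g p.1 p.2‖ₑ ^ 2 * 1 := by gcongr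
        _ = _ := mul_one _
    · rw [Set.indicator_of_notMem hp, zero_add]
      have hd : R ≤ ‖p.1 - z.1‖ + |p.2 - z.2| := by
        by_contra hc
        push Not at hc
        apply hp
        obtain ⟨hz1, hz2⟩ := hz
        constructor
        · have := norm_sub_norm_le p.1 z.1
          have h0 := abs_nonneg (p.2 - z.2)
          linarith
        · have := abs_sub_abs_le_abs_sub p.2 z.2
          have h0 := norm_nonneg (p.1 - z.1)
          linarith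
      have hw : wt 12 1 z.1 z.2 p ≤ (R ^ 4)⁻¹ * wt 8 1 z.1 z.2 p := by
        unfold wt
        rw [← mul_inv, div_one]
        apply inv_anti₀ (by positivity)
        set a := ‖p.1 - z.1‖ + |p.2 - z.2| with ha
        calc R ^ 4 * (1 + a) ^ 8 ≤ (1 + a) ^ 4 * (1 + a) ^ 8 := by gcongr; linarith
          _ = (1 + a) ^ 12 := by ring
      have h4 : ‖ext h g p.1 p.2‖ₑ ^ 2 ≤ 4 * ENNReal.ofReal (En g) := by
        rw [← hE]; exact W323.enorm_ext_sq_le hgm hs _ _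
      calc ‖ext h g p.1 p.2‖ₑ ^ 2 * ENNReal.ofReal (wt 12 1 z.1 z.2 p)
          ≤ (4 * ENNReal.ofReal (En g)) * ENNReal.ofReal ((R ^ 4)⁻¹ * wt 8 1 z.1 z.2 p) := by
            gcongr
        _ = _ := by
            rw [ENNReal.ofReal_mul (by positivity)]; ring
  have hmw : Measurable fun p : E2 × ℝ => ENNReal.ofReal (wt 8 1 z.1 z.2 p) :=
    (measurable_wt 8 1 z.1 z.2).ennreal_ofReal
  have hEn := En_nonneg g
  calc ‖ext h g z.1 z.2‖ₑ ^ 2 ≤ ENNReal.ofReal C1 *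
        ∫⁻ p : E2 × ℝ, ‖ext h g p.1 p.2‖ₑ ^ 2 * ENNReal.ofReal (wt 12 1 z.1 z.2 p) :=
        H1 h hh h1 g hgm hgb hs z.1 z.2
    _ ≤ ENNReal.ofReal C1 * ∫⁻ p : E2 × ℝ,
        ((cyl (2 * R)).indicator (fun p => ‖ext h g p.1 p.2‖ₑ ^ 2) p +
        (ENNReal.ofReal ((R ^ 4)⁻¹) * (4 * ENNReal.ofReal (En g))) *
          ENNReal.ofReal (wt 8 1 z.1 z.2 p)) := by
        gcongr with p
        exact hpt p
    _ = ENNReal.ofReal C1 * ((∫⁻ p in cyl (2 * R), ‖ext h g p.1 p.2‖ₑ ^ 2) +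
        (ENNReal.ofReal ((R ^ 4)⁻¹) * (4 * ENNReal.ofReal (En g))) *
          ∫⁻ p : E2 × ℝ, ENNReal.ofReal (wt 8 1 z.1 z.2 p)) := by
        rw [lintegral_add_right _ (hmw.const_mul _), lintegral_indicator hmc,
          lintegral_const_mul _ hmw]
    _ ≤ ENNReal.ofReal C1 * (ENNReal.ofReal (C2 * (D * R ^ 3)) +
        (ENNReal.ofReal ((R ^ 4)⁻¹) * (4 * ENNReal.ofReal (En g))) *
          ENNReal.ofReal (C3 * 1 ^ 3)) := by
        gcongr
        · exact H2 B h hh hB h1 g R D hs hR hD hbox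
        · exact H3 8 le_rfl 1 one_pos z
    _ = ENNReal.ofReal (C1 * (C2 * (D * R ^ 3) + (R ^ 4)⁻¹ * (4 * En g) * C3)) := by
        have e4 : (4 : ℝ≥0∞) * ENNReal.ofReal (En g) = ENNReal.ofReal (4 * En g) := by
          rw [ENNReal.ofReal_mul (by norm_num)]; norm_num
        rw [e4, ← ENNReal.ofReal_mul (by positivity), one_pow, mul_one,
          ← ENNReal.ofReal_mul (by positivity), ← ENNReal.ofReal_add (by positivity) (by positivity),
          ← ENNReal.ofReal_mul hC1]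
    _ ≤ _ := by
        apply ENNReal.ofReal_le_ofReal
        have h5 : 0 ≤ D * R ^ 3 := by positivity
        have h6 : 0 ≤ (R ^ 4)⁻¹ * En g := by positivity
        have h7 : (R ^ 4)⁻¹ * (4 * En g) * C3 = 4 * C3 * ((R ^ 4)⁻¹ * En g) := by ring
        rw [h7, mul_assoc]
        set a := D * R ^ 3
        set b := (R ^ 4)⁻¹ * En g
        have h8 : C2 * a + 4 * C3 * b ≤ (C2 + 4 * C3) * (a + b) := by
          have h9 : 0 ≤ C2 * b := by positivity
          have h10 : 0 ≤ 4 * C3 * a := by positivity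
          nlinarith
        have h11 := mul_le_mul_of_nonneg_left h8 hC1
        linarith

/-- the degenerate case: the energy is much larger than the density. -/
theorem degen (B : ℕ → ℝ) (hB : B 2 ≤ 1/2) (N : ℕ) : ∃ C : ℝ, 0 ≤ C ∧ ∀ (h : E2 → ℝ), ParB B h →
    fderiv ℝ h 0 = 0 → ∀ (g : E2 → ℂ) (R D : ℝ), Measurable g → (∃ M : ℝ, ∀ ξ, ‖g ξ‖ ≤ M) →
    (∀ ξ, 1 < ‖ξ‖ → g ξ = 0) → 1 ≤ R → 0 ≤ D → BoxBoundL 4 N h g R D → R ^ 6 * D ≤ En g →
      CC h g R ≤ ENNReal.ofReal (C * SS g R D) := by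
  obtain ⟨C1, hC1, H1⟩ := sup_le B hB N
  obtain ⟨C2, hC2, H2⟩ := cyl_two N
  refine ⟨(2 * C1) ^ (1/2 : ℝ) * (2 * C2) ^ (1/2 : ℝ), by positivity, ?_⟩
  intro h hh h1 g R D hgm hgb hs hR hD hbox hbig
  have hR0 : 0 < R := by linarith
  have hEn := En_nonneg g
  have hE : ∫⁻ ξ, ‖g ξ‖ₑ ^ 2 = ENNReal.ofReal (En g) := by
    have hm2 : MemLp g 2 := T774.integ hgm hgb hs 2
    unfold En
    rw [ofReal_integral_eq_lintegral_ofReal (hm2.integrable_norm_pow (by norm_num))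
      (Filter.Eventually.of_forall fun ξ => by positivity)]
    refine lintegral_congr fun ξ => ?_
    rw [← ofReal_norm, ENNReal.ofReal_pow (norm_nonneg _)]
  have hg1 : Integrable g := memLp_one_iff_integrable.1 (T774.integ hgm hgb hs 1)
  have hF : Continuous fun p : E2 × ℝ => ext h g p.1 p.2 := F4x858.continuous_ext hh.1.continuous hg1
  have hslice : ∀ t, ∫⁻ x, ‖ext h g x t‖ₑ ^ 2 = ∫⁻ ξ, ‖g ξ‖ₑ ^ 2 :=
    F4x858.slice hh.1.continuous hg1 (T774.integ hgm hgb hs 2)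
  -- the two bounds of the quadratic integral
  have hI1 : ∫⁻ p in cyl R, ‖ext h g p.1 p.2‖ₑ ^ 2 ≤ ENNReal.ofReal (C2 * (D * R ^ 3)) := by
    refine (lintegral_mono_set ?_).trans (H2 B h hh hB h1 g R D hs hR hD hbox)
    rintro p ⟨hp1, hp2⟩
    exact ⟨by linarith, by linarith⟩
  have hI2 : ∫⁻ p in cyl R, ‖ext h g p.1 p.2‖ₑ ^ 2 ≤ ENNReal.ofReal (2 * R * En g) := by
    rw [Tub70.lintegral_cyl (hF.measurable.enorm.pow_const 2)]
    calc ∫⁻ t in Set.Icc (-R) R, ∫⁻ x in {x : E2 | ‖x‖ ≤ R}, ‖ext h g x t‖ₑ ^ 2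
        ≤ ∫⁻ t in Set.Icc (-R) R, ENNReal.ofReal (En g) := by
          apply lintegral_mono
          intro t
          rw [← hE, ← hslice t]
          exact setLIntegral_le_lintegral _ _
      _ = ENNReal.ofReal (2 * R * En g) := by
          rw [setLIntegral_const, Real.volume_Icc, mul_comm, ← ENNReal.ofReal_mul (by linarith)]
          congr 1
          ring
  set S : ℝ := 2 * C1 * ((R ^ 2)⁻¹ * En g) with hS
  have hsup : ∀ z ∈ cyl R, ‖ext h g z.1 z.2‖ₑ ≤ ENNReal.ofReal S ^ (1/2 : ℝ) := by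
    intro z hz
    have h2 := H1 h hh h1 g R D hgm hgb hs hR hD hbox z hz
    have h3 : C1 * (D * R ^ 3 + (R ^ 4)⁻¹ * En g) ≤ S := by
      have h4 : D * R ^ 3 ≤ (R ^ 2)⁻¹ * En g := by
        rw [le_inv_mul_iff₀ (by positivity)]
        calc R ^ 2 * (D * R ^ 3) = R ^ 5 * D := by ring
          _ ≤ R ^ 6 * D := by gcongr; norm_num
          _ ≤ En g := hbig
      have h5 : (R ^ 4)⁻¹ * En g ≤ (R ^ 2)⁻¹ * En g := by
        gcongr
        norm_num
      rw [hS]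
      nlinarith
    calc ‖ext h g z.1 z.2‖ₑ = (‖ext h g z.1 z.2‖ₑ ^ 2) ^ (1/2 : ℝ) := by
          rw [← ENNReal.rpow_natCast, ← ENNReal.rpow_mul]; norm_num
      _ ≤ ENNReal.ofReal S ^ (1/2 : ℝ) := by
          apply ENNReal.rpow_le_rpow _ (by norm_num)
          exact h2.trans (ENNReal.ofReal_le_ofReal h3)
  have hS0 : 0 ≤ S := by positivity
  have hI : ∫⁻ p in cyl R, ‖ext h g p.1 p.2‖ₑ ^ 2 ≤
      ENNReal.ofReal ((2 * C2) ^ (1/2 : ℝ) * (R ^ 2 * (En g ^ (1/2 : ℝ) * Real.sqrt D))) := by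
    set I : ℝ≥0∞ := ∫⁻ p in cyl R, ‖ext h g p.1 p.2‖ₑ ^ 2 with hIdef
    calc I = I ^ (1/2 : ℝ) * I ^ (1/2 : ℝ) := by
          rw [← ENNReal.rpow_add_of_nonneg _ _ (by norm_num) (by norm_num)]; norm_num
      _ ≤ ENNReal.ofReal (C2 * (D * R ^ 3)) ^ (1/2 : ℝ) * ENNReal.ofReal (2 * R * En g) ^ (1/2 : ℝ) := by
          gcongr
      _ = ENNReal.ofReal ((C2 * (D * R ^ 3)) ^ (1/2 : ℝ) * (2 * R * En g) ^ (1/2 : ℝ)) := by
          rw [ENNReal.ofReal_rpow_of_nonneg (by positivity) (by norm_num),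
            ENNReal.ofReal_rpow_of_nonneg (by positivity) (by norm_num),
            ← ENNReal.ofReal_mul (by positivity)]
      _ = _ := by
          congr 1
          rw [← Real.mul_rpow (by positivity) (by positivity), Real.sqrt_eq_rpow]
          have : C2 * (D * R ^ 3) * (2 * R * En g) = (2 * C2) * ((R ^ 2) ^ 2 * (En g * D)) := by ring
          rw [this, Real.mul_rpow (x := 2 * C2) (by positivity) (by positivity),
            Real.mul_rpow (x := (R ^ 2) ^ 2) (by positivity) (by positivity), Real.mul_rpow hEn hD,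
            ← Real.rpow_natCast (R ^ 2) 2, ← Real.rpow_mul (by positivity)]
          norm_num
  unfold CC
  calc ∫⁻ p in cyl R, ‖ext h g p.1 p.2‖ₑ ^ 3
      ≤ ∫⁻ p in cyl R, ENNReal.ofReal S ^ (1/2 : ℝ) * ‖ext h g p.1 p.2‖ₑ ^ 2 := by
        apply setLIntegral_mono' (T774.measurableSet_cyl R)
        intro p hp
        calc ‖ext h g p.1 p.2‖ₑ ^ 3 = ‖ext h g p.1 p.2‖ₑ * ‖ext h g p.1 p.2‖ₑ ^ 2 := by ring
          _ ≤ _ := by gcongr; exact hsup p hp
    _ = ENNReal.ofReal S ^ (1/2 : ℝ) * ∫⁻ p in cyl R, ‖ext h g p.1 p.2‖ₑ ^ 2 := by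
        rw [lintegral_const_mul']
        exact ENNReal.rpow_ne_top_of_nonneg (by norm_num) ENNReal.ofReal_ne_top
    _ ≤ ENNReal.ofReal S ^ (1/2 : ℝ) *
        ENNReal.ofReal ((2 * C2) ^ (1/2 : ℝ) * (R ^ 2 * (En g ^ (1/2 : ℝ) * Real.sqrt D))) := by
        gcongr
    _ = ENNReal.ofReal (S ^ (1/2 : ℝ) *
        ((2 * C2) ^ (1/2 : ℝ) * (R ^ 2 * (En g ^ (1/2 : ℝ) * Real.sqrt D)))) := by
        rw [ENNReal.ofReal_rpow_of_nonneg hS0 (by norm_num), ← ENNReal.ofReal_mul (by positivity)]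
    _ = _ := by
        congr 1
        rw [hS, Real.mul_rpow (by positivity) (by positivity), Real.mul_rpow (by positivity) hEn,
          Real.inv_rpow (by positivity), ← Real.rpow_natCast R 2, ← Real.rpow_mul hR0.le]
        unfold SS
        have e5 : En g ^ (1/2 : ℝ) * En g ^ (1/2 : ℝ) = En g := by
          rw [← Real.sqrt_eq_rpow]; exact Real.mul_self_sqrt hEn
        have e6 : R ^ (((2:ℕ):ℝ) * (1/2)) = R := by norm_num
        rw [e6]
        have e7 : R ^ ((2:ℕ):ℝ) = R * R := by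
          rw [Real.rpow_natCast]; ring
        rw [e7]
        calc (2 * C1) ^ (1/2 : ℝ) * (R⁻¹ * En g ^ (1/2 : ℝ)) *
            ((2 * C2) ^ (1/2 : ℝ) * (R * R * (En g ^ (1/2 : ℝ) * Real.sqrt D)))
            = (2 * C1) ^ (1/2 : ℝ) * (2 * C2) ^ (1/2 : ℝ) * ((R⁻¹ * R) * R *
              (En g ^ (1/2 : ℝ) * En g ^ (1/2 : ℝ)) * Real.sqrt D) := by ring
          _ = _ := by rw [e5, inv_mul_cancel₀ hR0.ne', one_mul]

theorem PBox_of_BoxBoundL {N : ℕ} {h : E2 → ℝ} {g : E2 → ℂ} {R D q : ℝ} (hq : 0 ≤ q) (hR : 1 ≤ R)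
    (hD : 0 ≤ D) (hbox : BoxBoundL 4 N h g R D) : PBox q N h g R (D * R ^ (q / 2)) := by
  intro c b s hs ψ hψ x0 t0 hx ht
  refine (hbox c b s hs ψ hψ x0 t0 hx ht).trans (ENNReal.ofReal_le_ofReal ?_)
  have hR0 : 0 < R := by linarith
  have hs0 : ∀ i, 0 < s i := fun i => lt_of_lt_of_le (by positivity) (hs i).1
  have h0 := hs0 0
  have h1 := hs0 1
  have h2 : R ^ (-(q / 2)) ≤ (max (s 0) (s 1)) ^ q := by
    calc R ^ (-(q / 2)) = (R ^ (-(1/2) : ℝ)) ^ q := by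
          rw [← Real.rpow_mul hR0.le]; congr 1; ring
      _ ≤ (max (s 0) (s 1)) ^ q :=
          Real.rpow_le_rpow (by positivity) ((hs 0).1.trans (le_max_left _ _)) hq
  have h3 : 1 ≤ R ^ (q / 2) * (max (s 0) (s 1)) ^ q := by
    calc (1:ℝ) = R ^ (q / 2) * R ^ (-(q / 2)) := by rw [← Real.rpow_add hR0]; simp
      _ ≤ _ := by gcongr
  calc D * (s 0 * s 1 * R ^ 3) = D * 1 * (s 0 * s 1 * R ^ 3) := by ring
    _ ≤ D * (R ^ (q / 2) * (max (s 0) (s 1)) ^ q) * (s 0 * s 1 * R ^ 3) := by gcongr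
    _ = _ := by ring

/-- **`EBn` from `LB`.** -/
theorem EBn_of_LB {c0 : ℝ} (hc0 : 0 < c0) (K0 : ℕ)
    (H : ∀ B : ℕ → ℝ, (∀ k, 0 ≤ B k) → (∀ k, 2 ≤ k → k ≤ K0 → B k ≤ c0) → B 2 ≤ 1/10 →
      ∀ q : ℝ, 0 < q → q ≤ 1 → ∀ c : ℝ, 0 < c → LB B q 1 c) : EBn := by
  refine ⟨min c0 (1/10), lt_min hc0 (by norm_num), max K0 2, 4, ?_⟩
  intro B0 hB0 ε hε N
  set B : ℕ → ℝ := fun k => max (B0 k) 0 with hB
  have hBk : ∀ k, 2 ≤ k → k ≤ K0 → B k ≤ c0 := fun k hk hk' =>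
    max_le ((hB0 k hk (hk'.trans (le_max_left _ _))).trans (min_le_left _ _)) hc0.le
  have hB2 : B 2 ≤ 1/10 :=
    max_le ((hB0 2 le_rfl (le_max_right _ _)).trans (min_le_right _ _)) (by norm_num)
  set q : ℝ := min 1 ε with hq
  have hq0 : 0 < q := lt_min one_pos hε
  have hqε : q ≤ ε := min_le_right _ _
  have hLB := H B (fun k => le_max_right _ _) hBk hB2 q hq0 (min_le_left _ _) (ε / 2) (by positivity)
  obtain ⟨C1, hC1, HE⟩ := END_of_LB hLB (T774.A5a_holds B q) (ε / 4) (by positivity) N 6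
  obtain ⟨C2, hC2, HD⟩ := degen B (by linarith) N
  refine ⟨C1 + C2, by positivity, ?_⟩
  intro h hh0 h00 h10 R D hR hD g hgm hgb hgs hbox
  have hR0 : 0 < R := by linarith
  have hh : ParB B h := ⟨hh0.1, fun k hk ξ => (hh0.2 k hk ξ).trans (le_max_left _ _)⟩
  have hss : 0 ≤ SS g R D := SS_nonneg g hR0.le D
  have hRε : 1 ≤ R ^ ε := Real.one_le_rpow hR hε.le
  have hgoal : ∀ X : ℝ, X ≤ (C1 + C2) * R ^ ε * SS g R D →
      CC h g R ≤ ENNReal.ofReal X →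
      ∫⁻ p in cyl R, ‖ext h g p.1 p.2‖ₑ ^ 3 ≤
          ENNReal.ofReal ((C1 + C2) * R ^ ε * (R * ∫ ξ, ‖g ξ‖ ^ 2) * Real.sqrt D) := by
    intro X hX hCC
    refine hCC.trans (ENNReal.ofReal_le_ofReal (hX.trans (le_of_eq ?_)))
    unfold SS En
    ring
  rcases le_or_gt (En g) (R ^ (6:ℝ) * (D * R ^ (q / 2))) with hnd | hnd
  · have hSt : St B q N 6 1 h g R (D * R ^ (q / 2)) :=
      ⟨hh, h00, h10, hgm, hgb, hgs, hR, by positivity, PBox_of_BoxBoundL hq0.le hR hD hbox, hnd⟩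
    refine hgoal _ ?_ (HE h g R _ hSt)
    have e1 : SS g R (D * R ^ (q / 2)) = SS g R D * R ^ (q / 4) := by
      unfold SS
      rw [Real.sqrt_mul hD]
      have : Real.sqrt (R ^ (q / 2)) = R ^ (q / 4) := by
        rw [Real.sqrt_eq_rpow, ← Real.rpow_mul hR0.le]; congr 1; ring
      rw [this]; ring
    rw [e1]
    calc C1 * R ^ (ε / 2 / 2 + ε / 4) * (SS g R D * R ^ (q / 4))
        = C1 * (R ^ (ε / 2 / 2 + ε / 4) * R ^ (q / 4)) * SS g R D := by ring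
      _ ≤ (C1 + C2) * R ^ ε * SS g R D := by
          have h1 : R ^ (ε / 2 / 2 + ε / 4) * R ^ (q / 4) ≤ R ^ ε := by
            rw [← Real.rpow_add hR0]
            exact rpow_le_rpow_of_one_le hR (by linarith)
          gcongr
          linarith
  · refine hgoal _ ?_ (HD h hh h10 g R D hgm hgb hgs hR hD hbox ?_)
    · calc C2 * SS g R D = C2 * 1 * SS g R D := by ring
        _ ≤ (C1 + C2) * R ^ ε * SS g R D := by gcongr; linarith
    · have h1 : 1 ≤ R ^ (q / 2) := Real.one_le_rpow hR (by positivity)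
      calc R ^ 6 * D = R ^ (6:ℝ) * (D * 1) := by
            rw [mul_one]; congr 1; norm_cast
        _ ≤ R ^ (6:ℝ) * (D * R ^ (q / 2)) := by gcongr
        _ ≤ En g := hnd.le

end Crest.Agent.R138.W188
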