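import Mathlib

/-!
# R138 / R139, W0: the F-side foundation, part 1 (helper448)

Fourier multipliers on `L²` spaces with polynomial weights, from Leibniz and Plancherel (growing
weights) and duality (decaying weights). `A : V →L[ℝ] W` is any linear map, the weight is
`dw n A x = ((1 + ‖A x‖²) ^ n)⁻¹`, the hypothesis on the multipliers is
`∑ k i, ‖D^j m_{k i}(ξ) ∘ (A†, …, A†)‖² ≤ B²` for `j ≤ n`.
Main results: `growth`, `decay` (for Schwartz functions).
-/

set_option autoImplicit false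
set_option linter.unusedSectionVars false

open MeasureTheory FourierTransform SchwartzMap LineDeriv
open scoped ContDiff SchwartzMap ENNReal ComplexInnerProductSpace

namespace Crest.Agent.R138.Wf448

variable {V : Type*} [NormedAddCommGroup V] [InnerProductSpace ℝ V] [FiniteDimensional ℝ V]
  [MeasurableSpace V] [BorelSpace V]
variable {W : Type*} [NormedAddCommGroup W] [InnerProductSpace ℝ W] [FiniteDimensional ℝ W]

/-- lower integral of a nonnegative real function. -/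
noncomputable def LI (F : V → ℝ) : ℝ≥0∞ := ∫⁻ x, ENNReal.ofReal (F x)

theorem planch (f : 𝓢(V, ℂ)) : LI (fun x => ‖𝓕⁻ f x‖ ^ 2) = LI (fun x => ‖f x‖ ^ 2) := by
  have h := SchwartzMap.integral_norm_sq_fourier (𝓕⁻ f)
  rw [FourierTransform.fourier_fourierInv_eq] at h
  have i1 : Integrable (fun x => ‖f x‖ ^ 2) := (f.memLp 2).integrable_norm_pow (by norm_num)
  have i2 : Integrable (fun x => ‖(𝓕⁻ f) x‖ ^ 2) :=
    ((𝓕⁻ f).memLp 2).integrable_norm_pow (by norm_num)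
  unfold LI
  rw [← ofReal_integral_eq_lintegral_ofReal i1 (Filter.Eventually.of_forall fun x => by positivity),
    ← ofReal_integral_eq_lintegral_ofReal i2 (Filter.Eventually.of_forall fun x => by positivity), h]

theorem fourierInv_word (j : ℕ) (a : Fin j → V) (f : 𝓢(V, ℂ)) (x : V) :
    (𝓕⁻ (∂^{a} f)) x = (-(2 * Real.pi * Complex.I)) ^ j * (∏ i, (inner ℝ x (a i) : ℝ) : ℝ) *
      (𝓕⁻ f) x := by
  induction j generalizing f with
  | zero => simp
  | succ j ih =>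
    have ht : ∀ y : V, (fun x : V => (inner ℝ x y : ℝ)).HasTemperateGrowth := by
      intro y; fun_prop
    rw [iteratedLineDerivOp_succ_right, ih]
    rw [fourierInv_lineDerivOp_eq]
    rw [Fin.prod_univ_castSucc]
    simp only [neg_smul, neg_apply, smul_apply]
    rw [SchwartzMap.smulLeftCLM_apply_apply (ht _)]
    simp only [Fin.init, smul_eq_mul, Complex.real_smul, Complex.ofReal_mul]
    ring

/-- real inner product with Fourier. -/
theorem normsq_word (j : ℕ) (a : Fin j → V) (f : 𝓢(V, ℂ)) (x : V) :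
    ‖(𝓕⁻ (∂^{a} f)) x‖ ^ 2 = (2 * Real.pi) ^ (2 * j) * ((∏ i, (inner ℝ x (a i) : ℝ) ^ 2) *
      ‖(𝓕⁻ f) x‖ ^ 2) := by
  rw [fourierInv_word, norm_mul, norm_mul, norm_pow, norm_neg, Complex.norm_real]
  have : ‖(2 * Real.pi * Complex.I : ℂ)‖ = 2 * Real.pi := by
    rw [norm_mul, norm_mul, Complex.norm_I]
    simp [abs_of_pos Real.pi_pos]
  rw [this, mul_pow, mul_pow, Real.norm_eq_abs, sq_abs, Finset.prod_pow, pow_mul, pow_right_comm]
  ring

/-- the adjoint. -/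
noncomputable abbrev adj (A : V →L[ℝ] W) : W →L[ℝ] V := ContinuousLinearMap.adjoint A

theorem sum_word (A : V →L[ℝ] W) (j : ℕ) (x : V) :
    (∑ m : Fin j → Fin (Module.finrank ℝ W), ∏ i,
      (inner ℝ x (adj A (stdOrthonormalBasis ℝ W (m i))) : ℝ) ^ 2) = ‖A x‖ ^ (2 * j) := by
  have h1 : ∀ k, (inner ℝ x (adj A (stdOrthonormalBasis ℝ W k)) : ℝ) ^ 2 =
      (inner ℝ (A x) (stdOrthonormalBasis ℝ W k) : ℝ) ^ 2 := by
    intro k; rw [ContinuousLinearMap.adjoint_inner_right]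
  simp only [h1]
  have := Fintype.sum_pow (fun k => (inner ℝ (A x) (stdOrthonormalBasis ℝ W k) : ℝ) ^ 2) j
  rw [← this, (stdOrthonormalBasis ℝ W).sum_sq_inner_left, pow_mul]

/-- scaled norm of the derivative. -/
noncomputable def Nn (A : V →L[ℝ] W) (j : ℕ) (f : V → ℂ) (ξ : V) : ℝ :=
  ‖(iteratedFDeriv ℝ j f ξ).compContinuousLinearMap (fun _ => adj A)‖

theorem Nn_nonneg (A : V →L[ℝ] W) (j : ℕ) (f : V → ℂ) (ξ : V) : 0 ≤ Nn A j f ξ := norm_nonneg _

theorem word_le (A : V →L[ℝ] W) (j : ℕ) (f : V → ℂ) (ξ : V)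
    (m : Fin j → Fin (Module.finrank ℝ W)) :
    ‖iteratedFDeriv ℝ j f ξ (fun i => adj A (stdOrthonormalBasis ℝ W (m i)))‖ ≤ Nn A j f ξ := by
  have := ((iteratedFDeriv ℝ j f ξ).compContinuousLinearMap (fun _ => adj A)).le_opNorm
    (fun i => stdOrthonormalBasis ℝ W (m i))
  simpa [Nn] using this

theorem Nn_le (A : V →L[ℝ] W) (j : ℕ) (f : V → ℂ) (ξ : V) :
    Nn A j f ξ ≤ ∑ m : Fin j → Fin (Module.finrank ℝ W),
      ‖iteratedFDeriv ℝ j f ξ (fun i => adj A (stdOrthonormalBasis ℝ W (m i)))‖ := by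
  refine ContinuousMultilinearMap.opNorm_le_bound (by positivity) fun y => ?_
  set T := (iteratedFDeriv ℝ j f ξ).compContinuousLinearMap (fun _ => adj A) with hT
  have hy : y = fun i => ∑ k, (inner ℝ (stdOrthonormalBasis ℝ W k) (y i) : ℝ) •
      stdOrthonormalBasis ℝ W k := by
    funext i; exact ((stdOrthonormalBasis ℝ W).sum_repr' (y i)).symm
  conv_lhs => rw [hy]
  rw [T.map_sum (fun i k => (inner ℝ (stdOrthonormalBasis ℝ W k) (y i) : ℝ) •
      stdOrthonormalBasis ℝ W k)]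
  refine (norm_sum_le _ _).trans ?_
  rw [Finset.sum_mul]
  refine Finset.sum_le_sum fun m _ => ?_
  rw [T.map_smul_univ, norm_smul, mul_comm]
  refine mul_le_mul (le_of_eq rfl) ?_ (norm_nonneg _) (norm_nonneg _)
  rw [norm_prod]
  refine Finset.prod_le_prod (fun i _ => norm_nonneg _) fun i _ => ?_
  refine (norm_inner_le_norm _ _).trans ?_
  simp

theorem Nn_sq_le (A : V →L[ℝ] W) (j : ℕ) (f : V → ℂ) (ξ : V) :
    Nn A j f ξ ^ 2 ≤ (Module.finrank ℝ W : ℝ) ^ j * ∑ m : Fin j → Fin (Module.finrank ℝ W),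
      ‖iteratedFDeriv ℝ j f ξ (fun i => adj A (stdOrthonormalBasis ℝ W (m i)))‖ ^ 2 := by
  have h1 := Nn_le A j f ξ
  have h2 := sq_sum_le_card_mul_sum_sq (s := (Finset.univ : Finset (Fin j → Fin (Module.finrank ℝ W))))
    (f := fun m => ‖iteratedFDeriv ℝ j f ξ (fun i => adj A (stdOrthonormalBasis ℝ W (m i)))‖)
  have h3 : (Finset.univ : Finset (Fin j → Fin (Module.finrank ℝ W))).card =
      Module.finrank ℝ W ^ j := by simp
  rw [h3] at h2
  push_cast at h2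
  exact (pow_le_pow_left₀ (Nn_nonneg A j f ξ) h1 2).trans h2

theorem LI_mono {F G : V → ℝ} (h : ∀ x, F x ≤ G x) : LI F ≤ LI G :=
  lintegral_mono fun x => ENNReal.ofReal_le_ofReal (h x)

theorem LI_const_mul {c : ℝ} (hc : 0 ≤ c) (F : V → ℝ) :
    LI (fun x => c * F x) = ENNReal.ofReal c * LI F := by
  unfold LI
  simp_rw [ENNReal.ofReal_mul hc]
  exact lintegral_const_mul' _ _ ENNReal.ofReal_ne_top

theorem LI_sum {ι : Type*} (s : Finset ι) {F : ι → V → ℝ} (h0 : ∀ i ∈ s, ∀ x, 0 ≤ F i x)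
    (hm : ∀ i ∈ s, Measurable (F i)) : LI (fun x => ∑ i ∈ s, F i x) = ∑ i ∈ s, LI (F i) := by
  unfold LI
  rw [← lintegral_finsetSum' s fun i hi => (hm i hi).ennreal_ofReal.aemeasurable]
  refine lintegral_congr fun x => ?_
  rw [ENNReal.ofReal_sum_of_nonneg fun i hi => h0 i hi x]

theorem mom_eq (A : V →L[ℝ] W) (j : ℕ) (f : 𝓢(V, ℂ)) :
    ENNReal.ofReal ((2 * Real.pi) ^ (2 * j)) * LI (fun x => ‖A x‖ ^ (2 * j) * ‖(𝓕⁻ f) x‖ ^ 2) =
      ∑ m : Fin j → Fin (Module.finrank ℝ W),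
        LI (fun ξ => ‖iteratedFDeriv ℝ j f ξ (fun i => adj A (stdOrthonormalBasis ℝ W (m i)))‖ ^ 2) := by
  have hcont : Continuous (𝓕⁻ f : 𝓢(V, ℂ)) := SchwartzMap.continuous _
  have h1 : ∀ m : Fin j → Fin (Module.finrank ℝ W),
      LI (fun ξ => ‖iteratedFDeriv ℝ j f ξ (fun i => adj A (stdOrthonormalBasis ℝ W (m i)))‖ ^ 2) =
      LI (fun x => (2 * Real.pi) ^ (2 * j) *
        ((∏ i, (inner ℝ x (adj A (stdOrthonormalBasis ℝ W (m i))) : ℝ) ^ 2) *
      ‖(𝓕⁻ f) x‖ ^ 2)) := by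
    intro m
    have := planch (∂^{fun i => adj A (stdOrthonormalBasis ℝ W (m i))} f)
    simp_rw [normsq_word, SchwartzMap.iteratedLineDerivOp_eq_iteratedFDeriv] at this
    exact this.symm
  simp_rw [h1]
  rw [← LI_const_mul (by positivity), ← LI_sum]
  · congr 1
    funext x
    rw [← Finset.mul_sum, ← Finset.sum_mul, sum_word]
  · intro m _ x; positivity
  · intro m _
    refine Continuous.measurable ?_
    fun_prop

theorem mom_le (A : V →L[ℝ] W) (j : ℕ) (f : 𝓢(V, ℂ)) :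
    LI (fun x => ‖A x‖ ^ (2 * j) * ‖(𝓕⁻ f) x‖ ^ 2) ≤
      ENNReal.ofReal ((Module.finrank ℝ W : ℝ) ^ j) * LI (fun ξ => Nn A j f ξ ^ 2) := by
  have h := mom_eq A j f
  have h2 : LI (fun x => ‖A x‖ ^ (2 * j) * ‖(𝓕⁻ f) x‖ ^ 2) ≤
      ENNReal.ofReal ((2 * Real.pi) ^ (2 * j)) *
        LI (fun x => ‖A x‖ ^ (2 * j) * ‖(𝓕⁻ f) x‖ ^ 2) := by
    conv_lhs => rw [← one_mul (LI _)]
    gcongr
    rw [← ENNReal.ofReal_one]
    refine ENNReal.ofReal_le_ofReal (one_le_pow₀ ?_)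
    have := Real.pi_gt_three
    linarith
  refine h2.trans (h.le.trans ?_)
  refine (Finset.sum_le_card_nsmul _ _ (LI (fun ξ => Nn A j f ξ ^ 2)) fun m _ => ?_).trans ?_
  · exact LI_mono fun ξ => pow_le_pow_left₀ (norm_nonneg _) (word_le A j f ξ m) 2
  · simp [ENNReal.ofReal_pow]

theorem le_mom (A : V →L[ℝ] W) (j : ℕ) (f : 𝓢(V, ℂ)) :
    LI (fun ξ => Nn A j f ξ ^ 2) ≤
      ENNReal.ofReal ((Module.finrank ℝ W : ℝ) ^ j * (2 * Real.pi) ^ (2 * j)) *
        LI (fun x => ‖A x‖ ^ (2 * j) * ‖(𝓕⁻ f) x‖ ^ 2) := by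
  refine (LI_mono (Nn_sq_le A j f)).trans ?_
  rw [LI_const_mul (by positivity), ENNReal.ofReal_mul (by positivity), mul_assoc, mom_eq, LI_sum]
  · intro m _ x; positivity
  · intro m _
    refine Continuous.measurable ?_
    have h1 : Continuous (fun ξ => iteratedFDeriv ℝ j f ξ) :=
      (f.smooth ⊤).continuous_iteratedFDeriv (by exact_mod_cast le_top)
    fun_prop

theorem Nn_eq (A : V →L[ℝ] W) {j : ℕ} {f : V → ℂ} (hf : ContDiff ℝ j f) (ξ : V) :
    Nn A j f ξ = ‖iteratedFDeriv ℝ j (fun y : W => f (ξ + adj A y)) 0‖ := by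
  have h1 : (fun y : W => f (ξ + adj A y)) = (fun z => f (ξ + z)) ∘ (adj A) := rfl
  have h2 : ContDiff ℝ j (fun z => f (ξ + z)) := hf.comp (contDiff_const.add contDiff_id)
  rw [h1, ContinuousLinearMap.iteratedFDeriv_comp_right (adj A) h2 0 le_rfl,
    iteratedFDeriv_comp_add_left]
  simp [Nn]

theorem Nn_mul (A : V →L[ℝ] W) {j : ℕ} {m f : V → ℂ} (hm : ContDiff ℝ j m) (hf : ContDiff ℝ j f)
    (ξ : V) : Nn A j (fun ξ => m ξ * f ξ) ξ ≤
      ∑ l ∈ Finset.range (j + 1), (j.choose l : ℝ) * (Nn A l m ξ * Nn A (j - l) f ξ) := by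
  rw [Nn_eq A (hm.mul hf)]
  have h1 : ContDiff ℝ j (fun y : W => m (ξ + adj A y)) :=
    hm.comp (contDiff_const.add (adj A).contDiff)
  have h2 : ContDiff ℝ j (fun y : W => f (ξ + adj A y)) :=
    hf.comp (contDiff_const.add (adj A).contDiff)
  refine (norm_iteratedFDeriv_mul_le h1 h2 0 le_rfl).trans (le_of_eq ?_)
  refine Finset.sum_congr rfl fun l hl => ?_
  have hl' : l ≤ j := by simpa [Nat.lt_succ_iff] using Finset.mem_range.1 hl
  rw [Nn_eq A (hm.of_le (by exact_mod_cast hl')),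
    Nn_eq A (hf.of_le (by exact_mod_cast Nat.sub_le j l)), mul_assoc]

theorem Nn_sum (A : V →L[ℝ] W) {j : ℕ} {ι : Type*} (s : Finset ι) {f : ι → V → ℂ}
    (hf : ∀ i ∈ s, ContDiff ℝ j (f i)) (ξ : V) :
    Nn A j (fun ξ => ∑ i ∈ s, f i ξ) ξ ≤ ∑ i ∈ s, Nn A j (f i) ξ := by
  rw [Nn_eq A (ContDiff.sum hf)]
  have h1 : ∀ i ∈ s, ContDiff ℝ j (fun y : W => f i (ξ + adj A y)) := fun i hi =>
    (hf i hi).comp (contDiff_const.add (adj A).contDiff)
  rw [iteratedFDeriv_sum h1, Finset.sum_apply]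
  refine (norm_sum_le _ _).trans (le_of_eq (Finset.sum_congr rfl fun i hi => ?_))
  rw [Nn_eq A (hf i hi)]

theorem Nn_mat (A : V →L[ℝ] W) {j : ℕ} {ι κ : Type*} [Fintype ι] [Fintype κ]
    {m : κ → ι → V → ℂ} {f : ι → V → ℂ} (hm : ∀ k i, ContDiff ℝ j (m k i))
    (hf : ∀ i, ContDiff ℝ j (f i)) (ξ : V) :
    ∑ k, Nn A j (fun ξ => ∑ i, m k i ξ * f i ξ) ξ ^ 2 ≤
      2 ^ j * ∑ l ∈ Finset.range (j + 1), (j.choose l : ℝ) *
        ((∑ k, ∑ i, Nn A l (m k i) ξ ^ 2) * ∑ i, Nn A (j - l) (f i) ξ ^ 2) := by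
  have h1 : ∀ k, Nn A j (fun ξ => ∑ i, m k i ξ * f i ξ) ξ ^ 2 ≤
      2 ^ j * ∑ l ∈ Finset.range (j + 1), (j.choose l : ℝ) *
        ((∑ i, Nn A l (m k i) ξ ^ 2) * ∑ i, Nn A (j - l) (f i) ξ ^ 2) := by
    intro k
    have h2 : Nn A j (fun ξ => ∑ i, m k i ξ * f i ξ) ξ ≤
        ∑ l ∈ Finset.range (j + 1), (j.choose l : ℝ) *
          ∑ i, Nn A l (m k i) ξ * Nn A (j - l) (f i) ξ := by
      refine (Nn_sum A Finset.univ (fun i _ => (hm k i).mul (hf i)) ξ).trans ?_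
      refine (Finset.sum_le_sum fun i _ => Nn_mul A (hm k i) (hf i) ξ).trans (le_of_eq ?_)
      rw [Finset.sum_comm]
      refine Finset.sum_congr rfl fun l _ => ?_
      rw [Finset.mul_sum]
    refine (pow_le_pow_left₀ (Nn_nonneg _ _ _ _) h2 2).trans ?_
    have h3 := Finset.sum_sq_le_sum_mul_sum_of_sq_le_mul (Finset.range (j + 1))
      (f := fun l => (j.choose l : ℝ)) (r := fun l => (j.choose l : ℝ) *
          ∑ i, Nn A l (m k i) ξ * Nn A (j - l) (f i) ξ)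
      (g := fun l => (j.choose l : ℝ) * (∑ i, Nn A l (m k i) ξ * Nn A (j - l) (f i) ξ) ^ 2)
      (fun l _ => by positivity) (fun l _ => by positivity) (fun l _ => le_of_eq (by ring))
    refine h3.trans ?_
    have h4 : (∑ l ∈ Finset.range (j + 1), (j.choose l : ℝ)) = 2 ^ j := by
      exact_mod_cast Nat.sum_range_choose j
    rw [h4]
    refine mul_le_mul_of_nonneg_left (Finset.sum_le_sum fun l _ => ?_) (by positivity)
    exact mul_le_mul_of_nonneg_left (Finset.sum_mul_sq_le_sq_mul_sq _ _ _) (by positivity)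
  refine (Finset.sum_le_sum fun k _ => h1 k).trans (le_of_eq ?_)
  rw [← Finset.mul_sum, Finset.sum_comm]
  congr 1
  refine Finset.sum_congr rfl fun l _ => ?_
  rw [← Finset.mul_sum, Finset.sum_mul]

theorem continuous_Nn (A : V →L[ℝ] W) {j : ℕ} {f : V → ℂ} (hf : ContDiff ℝ j f) :
    Continuous (Nn A j f) := by
  have h1 : Continuous (fun ξ => iteratedFDeriv ℝ j f ξ) := hf.continuous_iteratedFDeriv le_rfl
  have h2 : Continuous (fun T : ContinuousMultilinearMap ℝ (fun _ : Fin j => V) ℂ =>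
      T.compContinuousLinearMap (fun _ => adj A)) :=
    (ContinuousMultilinearMap.compContinuousLinearMapL (fun _ => adj A)).continuous
  exact (h2.comp h1).norm

/-- the growing weight. -/
noncomputable def gw (n : ℕ) (A : V →L[ℝ] W) (x : V) : ℝ := (1 + ‖A x‖ ^ 2) ^ n

theorem gw_pos (n : ℕ) (A : V →L[ℝ] W) (x : V) : 0 < gw n A x := by unfold gw; positivity

theorem pow_le_gw {n j : ℕ} (hj : j ≤ n) (A : V →L[ℝ] W) (x : V) :
    ‖A x‖ ^ (2 * j) ≤ gw n A x := by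
  unfold gw
  rw [pow_mul]
  refine (pow_le_pow_left₀ (by positivity) (le_add_of_nonneg_left zero_le_one) j).trans ?_
  exact pow_le_pow_right₀ (by nlinarith [sq_nonneg ‖A x‖]) hj

theorem gw_eq (n : ℕ) (A : V →L[ℝ] W) (x : V) :
    gw n A x = ∑ j ∈ Finset.range (n + 1), (n.choose j : ℝ) * ‖A x‖ ^ (2 * j) := by
  unfold gw
  rw [add_comm, add_pow]
  refine Finset.sum_congr rfl fun j _ => ?_
  rw [one_pow, mul_one, mul_comm, pow_mul]

/-- Leibniz and Plancherel: multipliers on spaces with a growing weight. -/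
theorem growth (n : ℕ) : ∃ C : ℝ, 0 ≤ C ∧ ∀ (A : V →L[ℝ] W) (ι κ : Type) [Fintype ι]
    [Fintype κ] (m : κ → ι → V → ℂ) (f : ι → 𝓢(V, ℂ)) (F : κ → 𝓢(V, ℂ)) (B : ℝ),
    (∀ k i, ContDiff ℝ n (m k i)) → (∀ k ξ, F k ξ = ∑ i, m k i ξ * f i ξ) →
    (∀ j ≤ n, ∀ ξ, ∑ k, ∑ i, Nn A j (m k i) ξ ^ 2 ≤ B ^ 2) →
    ∑ k, LI (fun x => gw n A x * ‖(𝓕⁻ (F k)) x‖ ^ 2) ≤
      ENNReal.ofReal (C * B ^ 2) * ∑ i, LI (fun x => gw n A x * ‖(𝓕⁻ (f i)) x‖ ^ 2) := by
  classical
  set d : ℝ := (Module.finrank ℝ W : ℝ) with hd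
  have hd0 : 0 ≤ d := by positivity
  set c : ℕ → ℕ → ℕ → ℝ := fun n j l => (n.choose j : ℝ) * d ^ j * (2 ^ j * ((j.choose l : ℝ) *
    (d ^ (j - l) * (2 * Real.pi) ^ (2 * (j - l))))) with hc
  have hc0 : ∀ n j l, 0 ≤ c n j l := by
    intro n j l; simp only [hc]; positivity
  refine ⟨∑ j ∈ Finset.range (n + 1), ∑ l ∈ Finset.range (j + 1), c n j l,
    Finset.sum_nonneg fun j _ => Finset.sum_nonneg fun l _ => hc0 n j l, ?_⟩
  intro A ι κ _ _ m f F B hm hF hB
  set S := ∑ i, LI (fun x => gw n A x * ‖(𝓕⁻ (f i)) x‖ ^ 2) with hS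
  have hcont : ∀ g : 𝓢(V, ℂ), Continuous (𝓕⁻ g : 𝓢(V, ℂ)) := fun g => SchwartzMap.continuous _
  have hSm : ∀ (g : 𝓢(V, ℂ)) (j : ℕ), ContDiff ℝ j g := fun g j => g.smooth j
  -- step 1
  have s1 : ∀ k, LI (fun x => gw n A x * ‖(𝓕⁻ (F k)) x‖ ^ 2) =
      ∑ j ∈ Finset.range (n + 1), ENNReal.ofReal (n.choose j : ℝ) *
        LI (fun x => ‖A x‖ ^ (2 * j) * ‖(𝓕⁻ (F k)) x‖ ^ 2) := by
    intro k
    have e1 : (fun x => gw n A x * ‖(𝓕⁻ (F k)) x‖ ^ 2) = fun x =>
        ∑ j ∈ Finset.range (n + 1), (n.choose j : ℝ) *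
          (‖A x‖ ^ (2 * j) * ‖(𝓕⁻ (F k)) x‖ ^ 2) := by
      funext x
      rw [gw_eq, Finset.sum_mul]
      exact Finset.sum_congr rfl fun j _ => mul_assoc _ _ _
    rw [e1, LI_sum]
    · exact Finset.sum_congr rfl fun j _ => LI_const_mul (by positivity) _
    · intro j _ x; positivity
    · intro j _
      refine Continuous.measurable ?_
      have := hcont (F k)
      fun_prop
  have s2 : ∀ j ∈ Finset.range (n + 1), ∑ k, LI (fun x => ‖A x‖ ^ (2 * j) * ‖(𝓕⁻ (F k)) x‖ ^ 2) ≤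
      ENNReal.ofReal ((d ^ j * (2 ^ j * ∑ l ∈ Finset.range (j + 1), (j.choose l : ℝ) *
        (d ^ (j - l) * (2 * Real.pi) ^ (2 * (j - l))))) * B ^ 2) * S := by
    intro j hj
    have hj' : j ≤ n := by simpa [Nat.lt_succ_iff] using Finset.mem_range.1 hj
    have hmj : ∀ k i, ContDiff ℝ j (m k i) := fun k i => (hm k i).of_le (by exact_mod_cast hj')
    have t1 : ∑ k, LI (fun x => ‖A x‖ ^ (2 * j) * ‖(𝓕⁻ (F k)) x‖ ^ 2) ≤
        ENNReal.ofReal (d ^ j) * LI (fun ξ => ∑ k, Nn A j (F k) ξ ^ 2) := by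
      rw [LI_sum]
      · rw [Finset.mul_sum]
        exact Finset.sum_le_sum fun k _ => mom_le A j (F k)
      · intro k _ x; positivity
      · intro k _
        exact ((continuous_Nn A (hSm (F k) j)).pow 2).measurable
    refine t1.trans ?_
    have t2 : ∀ ξ, ∑ k, Nn A j (F k) ξ ^ 2 ≤ 2 ^ j * ∑ l ∈ Finset.range (j + 1),
        (j.choose l : ℝ) * (B ^ 2 * ∑ i, Nn A (j - l) (f i) ξ ^ 2) := by
      intro ξ
      have e1 : ∀ k, (F k : V → ℂ) = fun ξ => ∑ i, m k i ξ * f i ξ := fun k => funext (hF k)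
      simp_rw [e1]
      refine (Nn_mat A hmj (fun i => hSm (f i) j) ξ).trans ?_
      refine mul_le_mul_of_nonneg_left (Finset.sum_le_sum fun l hl => ?_) (by positivity)
      have hl' : l ≤ j := by simpa [Nat.lt_succ_iff] using Finset.mem_range.1 hl
      refine mul_le_mul_of_nonneg_left ?_ (by positivity)
      exact mul_le_mul_of_nonneg_right (hB l (hl'.trans hj') ξ)
        (Finset.sum_nonneg fun i _ => by positivity)
    have t3 : LI (fun ξ => ∑ k, Nn A j (F k) ξ ^ 2) ≤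
        ENNReal.ofReal ((2 ^ j * ∑ l ∈ Finset.range (j + 1), (j.choose l : ℝ) *
        (d ^ (j - l) * (2 * Real.pi) ^ (2 * (j - l)))) * B ^ 2) * S := by
      refine (LI_mono t2).trans ?_
      rw [LI_const_mul (by positivity), LI_sum]
      · have u1 : ∀ l ∈ Finset.range (j + 1), LI (fun ξ => (j.choose l : ℝ) *
            (B ^ 2 * ∑ i, Nn A (j - l) (f i) ξ ^ 2)) ≤ ENNReal.ofReal ((j.choose l : ℝ) *
            (B ^ 2 * (d ^ (j - l) * (2 * Real.pi) ^ (2 * (j - l))))) * S := by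
          intro l hl
          have hl' : l ≤ j := by simpa [Nat.lt_succ_iff] using Finset.mem_range.1 hl
          rw [LI_const_mul (by positivity), LI_const_mul (by positivity), LI_sum]
          · rw [ENNReal.ofReal_mul (by positivity), ENNReal.ofReal_mul (by positivity), mul_assoc,
              mul_assoc]
            refine mul_le_mul_right (mul_le_mul_right ?_ _) _
            rw [hS, Finset.mul_sum]
            refine Finset.sum_le_sum fun i _ => (le_mom A (j - l) (f i)).trans ?_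
            refine mul_le_mul_right (LI_mono fun x => ?_) _
            refine mul_le_mul_of_nonneg_right (pow_le_gw ?_ A x) (by positivity)
            omega
          · intro i _ x; positivity
          · intro i _
            exact ((continuous_Nn A (hSm (f i) (j - l))).pow 2).measurable
        refine (mul_le_mul_right (Finset.sum_le_sum u1) _).trans (le_of_eq ?_)
        rw [← Finset.sum_mul, ← ENNReal.ofReal_sum_of_nonneg (fun l _ => by positivity),
          ← mul_assoc, ← ENNReal.ofReal_mul (by positivity)]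
        congr 2
        rw [mul_assoc, Finset.sum_mul]
        congr 1
        refine Finset.sum_congr rfl fun l _ => by ring
      · intro l _ x; positivity
      · intro l _
        refine Measurable.const_mul (Measurable.const_mul ?_ _) _
        refine Finset.measurable_sum _ fun i _ => ?_
        exact ((continuous_Nn A (hSm (f i) (j - l))).pow 2).measurable
    refine (mul_le_mul_right t3 _).trans (le_of_eq ?_)
    rw [← mul_assoc, ← ENNReal.ofReal_mul (by positivity)]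
    congr 2
    ring
  simp_rw [s1]
  rw [Finset.sum_comm]
  simp_rw [← Finset.mul_sum]
  have s3 : ∀ j ∈ Finset.range (n + 1), ENNReal.ofReal (n.choose j : ℝ) *
      ∑ k, LI (fun x => ‖A x‖ ^ (2 * j) * ‖(𝓕⁻ (F k)) x‖ ^ 2) ≤
      ENNReal.ofReal ((∑ l ∈ Finset.range (j + 1), c n j l) * B ^ 2) * S := by
    intro j hj
    refine (mul_le_mul_right (s2 j hj) _).trans (le_of_eq ?_)
    rw [← mul_assoc, ← ENNReal.ofReal_mul (by positivity)]
    congr 2
    simp only [hc]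
    rw [Finset.sum_mul, Finset.mul_sum, Finset.mul_sum, Finset.sum_mul, Finset.mul_sum]
    refine Finset.sum_congr rfl fun l _ => by ring
  refine (Finset.sum_le_sum s3).trans (le_of_eq ?_)
  rw [← Finset.sum_mul, ← ENNReal.ofReal_sum_of_nonneg, Finset.sum_mul]
  intro j _
  exact mul_nonneg (Finset.sum_nonneg fun l _ => hc0 n j l) (by positivity)

theorem one_le_gw (n : ℕ) (A : V →L[ℝ] W) (x : V) : 1 ≤ gw n A x :=
  one_le_pow₀ (by nlinarith [sq_nonneg ‖A x‖])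

theorem Nn_conj (A : V →L[ℝ] W) {j : ℕ} {f : V → ℂ} (hf : ContDiff ℝ j f) (ξ : V) :
    Nn A j (fun ξ => (starRingEnd ℂ) (f ξ)) ξ = Nn A j f ξ := by
  have h2 : ContDiff ℝ j (fun ξ => (starRingEnd ℂ) (f ξ)) := Complex.conjCLE.contDiff.comp hf
  rw [Nn_eq A hf, Nn_eq A h2]
  exact Complex.conjLIE.norm_iteratedFDeriv_comp_left (fun y : W => f (ξ + adj A y)) 0 j

theorem temperate_conj {f : V → ℂ} (hf : f.HasTemperateGrowth) :
    (fun ξ => (starRingEnd ℂ) (f ξ)).HasTemperateGrowth :=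
  (Complex.conjCLE.hasTemperateGrowth).comp hf

/-- the decaying weight. -/
noncomputable def dw (n : ℕ) (A : V →L[ℝ] W) (x : V) : ℝ := (gw n A x)⁻¹

theorem dw_pos (n : ℕ) (A : V →L[ℝ] W) (x : V) : 0 < dw n A x := inv_pos.2 (gw_pos n A x)

theorem dw_le_one (n : ℕ) (A : V →L[ℝ] W) (x : V) : dw n A x ≤ 1 := inv_le_one_of_one_le₀ (one_le_gw n A x)

theorem temperate_dw (n : ℕ) (A : V →L[ℝ] W) : (dw n A).HasTemperateGrowth := by
  have h := (Function.hasTemperateGrowth_one_add_norm_sq_rpow W (-(n:ℝ))).comp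
    A.hasTemperateGrowth
  have e : (dw n A) = (fun x : W => (1 + ‖x‖ ^ 2) ^ (-(n:ℝ))) ∘ A := by
    funext x
    simp only [dw, gw, Function.comp]
    rw [Real.rpow_neg (by positivity), Real.rpow_natCast]
  rw [e]; exact h

theorem integrable_inner (f g : 𝓢(V, ℂ)) : Integrable (fun x => ⟪f x, g x⟫) := by
  have h := (f.memLp 2 volume).integrable_mul (g.memLp 2 volume)
  refine (integrable_norm_iff ?_).1 ?_
  · exact (f.continuous.inner g.continuous).aestronglyMeasurable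
  · refine h.norm.congr (Filter.Eventually.of_forall fun x => ?_)
    simp [mul_comm]

/-- Multipliers on spaces with a decaying weight (dual of `growth`). -/
theorem decay (n : ℕ) : ∃ C : ℝ, 0 ≤ C ∧ ∀ (A : V →L[ℝ] W) (ι κ : Type) [Fintype ι]
    [Fintype κ] (m : κ → ι → V → ℂ) (f : ι → 𝓢(V, ℂ)) (F : κ → 𝓢(V, ℂ)) (B : ℝ), 0 < B →
    (∀ k i, (m k i).HasTemperateGrowth) → (∀ k ξ, F k ξ = ∑ i, m k i ξ * f i ξ) →
    (∀ j ≤ n, ∀ ξ, ∑ k, ∑ i, Nn A j (m k i) ξ ^ 2 ≤ B ^ 2) →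
    ∑ k, LI (fun x => dw n A x * ‖(𝓕⁻ (F k)) x‖ ^ 2) ≤
      ENNReal.ofReal (C * B ^ 2) * ∑ i, LI (fun x => dw n A x * ‖(𝓕⁻ (f i)) x‖ ^ 2) := by
  classical
  obtain ⟨C, hC, hg⟩ := growth (V := V) (W := W) n
  refine ⟨C + 1, by positivity, ?_⟩
  intro A ι κ _ _ m f F B hB0 hm hF hB
  have hdwm : Continuous (dw n A) := (temperate_dw n A).1.continuous
  have hcont : ∀ g : 𝓢(V, ℂ), Continuous (𝓕⁻ g : 𝓢(V, ℂ)) := fun g => SchwartzMap.continuous _
  set H : κ → 𝓢(V, ℂ) := fun k => smulLeftCLM ℂ (dw n A) (𝓕⁻ (F k)) with hH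
  have hHx : ∀ k x, H k x = (dw n A x : ℝ) • (𝓕⁻ (F k)) x := fun k x => by
    rw [hH]; exact smulLeftCLM_apply_apply (temperate_dw n A) _ _
  set G : ι → 𝓢(V, ℂ) := fun i => ∑ k, smulLeftCLM ℂ (fun ξ => (starRingEnd ℂ) (m k i ξ)) (𝓕 (H k))
    with hG
  have hGx : ∀ i ξ, G i ξ = ∑ k, (starRingEnd ℂ) (m k i ξ) * (𝓕 (H k)) ξ := by
    intro i ξ
    rw [hG]
    simp only [sum_apply]
    refine Finset.sum_congr rfl fun k _ => ?_
    exact smulLeftCLM_apply_apply (temperate_conj (hm k i)) _ _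
  have hGB : ∑ i, LI (fun x => gw n A x * ‖(𝓕⁻ (G i)) x‖ ^ 2) ≤
      ENNReal.ofReal (C * B ^ 2) * ∑ k, LI (fun x => dw n A x * ‖(𝓕⁻ (F k)) x‖ ^ 2) := by
    have h1 := hg A κ ι (fun i k ξ => (starRingEnd ℂ) (m k i ξ)) (fun k => 𝓕 (H k)) G B
      (fun i k => (temperate_conj (hm k i)).1.of_le (by exact_mod_cast le_top)) hGx ?_
    · refine h1.trans (le_of_eq ?_)
      congr 1
      refine Finset.sum_congr rfl fun k _ => ?_
      congr 1
      funext x
      rw [FourierTransform.fourierInv_fourier_eq, hHx, norm_smul, mul_pow, Real.norm_eq_abs, sq_abs,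
        dw]
      field_simp [(gw_pos n A x).ne']
    · intro j hj ξ
      rw [Finset.sum_comm]
      refine le_trans (le_of_eq ?_) (hB j hj ξ)
      refine Finset.sum_congr rfl fun k _ => Finset.sum_congr rfl fun i _ => ?_
      rw [Nn_conj A ((hm k i).1.of_le (by exact_mod_cast le_top))]
  set X := ∑ k, LI (fun x => dw n A x * ‖(𝓕⁻ (F k)) x‖ ^ 2) with hX
  set Y := ∑ i, LI (fun x => dw n A x * ‖(𝓕⁻ (f i)) x‖ ^ 2) with hY
  -- X is finite
  have hi : ∀ k, Integrable (fun x => dw n A x * ‖(𝓕⁻ (F k)) x‖ ^ 2) := by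
    intro k
    have h1 : Integrable (fun x => ‖(𝓕⁻ (F k)) x‖ ^ 2) :=
      ((𝓕⁻ (F k)).memLp 2).integrable_norm_pow (by norm_num)
    refine h1.mono' ((hdwm.mul ((hcont (F k)).norm.pow 2)).aestronglyMeasurable)
      (Filter.Eventually.of_forall fun x => ?_)
    rw [Real.norm_eq_abs, abs_of_nonneg (mul_nonneg (dw_pos n A x).le (by positivity))]
    exact mul_le_of_le_one_left (by positivity) (dw_le_one n A x)
  have hXk : ∀ k, LI (fun x => dw n A x * ‖(𝓕⁻ (F k)) x‖ ^ 2) =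
      ENNReal.ofReal (∫ x, dw n A x * ‖(𝓕⁻ (F k)) x‖ ^ 2) := by
    intro k
    rw [LI, ofReal_integral_eq_lintegral_ofReal (hi k)]
    exact Filter.Eventually.of_forall fun x => mul_nonneg (dw_pos n A x).le (by positivity)
  have hXt : X ≠ ⊤ := by
    rw [hX]
    refine ENNReal.sum_ne_top.2 fun k _ => ?_
    rw [hXk k]; exact ENNReal.ofReal_ne_top
  -- the pairing
  have hpair : ∑ k, ((∫ x, dw n A x * ‖(𝓕⁻ (F k)) x‖ ^ 2 : ℝ) : ℂ) =
      ∑ i, ∫ x, ⟪(𝓕⁻ (G i)) x, (𝓕⁻ (f i)) x⟫ := by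
    have e1 : ∀ k, ((∫ x, dw n A x * ‖(𝓕⁻ (F k)) x‖ ^ 2 : ℝ) : ℂ) =
        ∫ ξ, ⟪(𝓕 (H k)) ξ, F k ξ⟫ := by
      intro k
      have h1 := SchwartzMap.integral_inner_fourier_fourier (H k) (𝓕⁻ (F k))
      rw [FourierTransform.fourier_fourierInv_eq] at h1
      rw [h1, ← integral_complex_ofReal]
      refine integral_congr_ae (Filter.Eventually.of_forall fun x => ?_)
      simp only []
      rw [hHx, Complex.real_smul, RCLike.inner_apply, map_mul, Complex.conj_ofReal]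
      push_cast
      rw [← Complex.mul_conj']
      ring
    have e2 : ∀ i, ∫ x, ⟪(𝓕⁻ (G i)) x, (𝓕⁻ (f i)) x⟫ = ∫ ξ, ⟪G i ξ, f i ξ⟫ := by
      intro i
      have h1 := SchwartzMap.integral_inner_fourier_fourier (𝓕⁻ (G i)) (𝓕⁻ (f i))
      rw [FourierTransform.fourier_fourierInv_eq, FourierTransform.fourier_fourierInv_eq] at h1
      exact h1.symm
    simp_rw [e1, e2]
    have hmf : ∀ k i, Integrable (fun ξ => ⟪(𝓕 (H k)) ξ, m k i ξ * f i ξ⟫) := by
      intro k i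
      have h1 := integrable_inner (𝓕 (H k)) (smulLeftCLM ℂ (m k i) (f i))
      refine h1.congr (Filter.Eventually.of_forall fun ξ => ?_)
      simp only []
      rw [smulLeftCLM_apply_apply (hm k i)]; rfl
    have e3 : ∀ k, ∫ ξ, ⟪(𝓕 (H k)) ξ, F k ξ⟫ = ∑ i, ∫ ξ, ⟪(𝓕 (H k)) ξ, m k i ξ * f i ξ⟫ := by
      intro k
      rw [← integral_finsetSum _ fun i _ => hmf k i]
      refine integral_congr_ae (Filter.Eventually.of_forall fun ξ => ?_)
      simp only []
      rw [hF, inner_sum]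
    have e4 : ∀ i, ∫ ξ, ⟪G i ξ, f i ξ⟫ = ∑ k, ∫ ξ, ⟪(𝓕 (H k)) ξ, m k i ξ * f i ξ⟫ := by
      intro i
      rw [← integral_finsetSum _ fun k _ => hmf k i]
      refine integral_congr_ae (Filter.Eventually.of_forall fun ξ => ?_)
      simp only []
      rw [hGx, sum_inner]
      refine Finset.sum_congr rfl fun k _ => ?_
      simp only [RCLike.inner_apply, map_mul, Complex.conj_conj]
      ring
    simp_rw [e3, e4]
    exact Finset.sum_comm
  -- main inequality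
  have hmain : X ≤ ∑ i, LI (fun x => ‖(𝓕⁻ (G i)) x‖ * ‖(𝓕⁻ (f i)) x‖) := by
    have e1 : X = ‖∑ k, ((∫ x, dw n A x * ‖(𝓕⁻ (F k)) x‖ ^ 2 : ℝ) : ℂ)‖ₑ := by
      rw [← Complex.ofReal_sum, ← ofReal_norm, Complex.norm_real, Real.norm_eq_abs, abs_of_nonneg,
        hX, ENNReal.ofReal_sum_of_nonneg]
      · exact Finset.sum_congr rfl fun k _ => hXk k
      · intro k _
        exact integral_nonneg fun x => mul_nonneg (dw_pos n A x).le (by positivity)
      · exact Finset.sum_nonneg fun k _ =>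
          integral_nonneg fun x => mul_nonneg (dw_pos n A x).le (by positivity)
    rw [e1, hpair]
    refine (enorm_sum_le _ _).trans (Finset.sum_le_sum fun i _ => ?_)
    refine (enorm_integral_le_lintegral_enorm _).trans (lintegral_mono fun x => ?_)
    rw [← ofReal_norm]
    exact ENNReal.ofReal_le_ofReal (norm_inner_le_norm _ _)
  set l : ℝ := ((C + 1) * B ^ 2)⁻¹ with hl
  have hl0 : 0 < l := by positivity
  have hmain2 : X ≤ ENNReal.ofReal (1 / 2) * X + ENNReal.ofReal (1 / 2 * l⁻¹) * Y := by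
    refine hmain.trans ?_
    have h1 : ∀ i, LI (fun x => ‖(𝓕⁻ (G i)) x‖ * ‖(𝓕⁻ (f i)) x‖) ≤
        ENNReal.ofReal (1 / 2 * l) * LI (fun x => gw n A x * ‖(𝓕⁻ (G i)) x‖ ^ 2) +
        ENNReal.ofReal (1 / 2 * l⁻¹) * LI (fun x => dw n A x * ‖(𝓕⁻ (f i)) x‖ ^ 2) := by
      intro i
      rw [← LI_const_mul (by positivity), ← LI_const_mul (by positivity), LI, LI, LI,
        ← lintegral_add_right']
      · refine lintegral_mono fun x => ?_
        rw [← ENNReal.ofReal_add]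
        · refine ENNReal.ofReal_le_ofReal ?_
          have hg0 := gw_pos n A x
          have hq := two_mul_le_add_sq (Real.sqrt (l * gw n A x) * ‖(𝓕⁻ (G i)) x‖)
            ((Real.sqrt (l * gw n A x))⁻¹ * ‖(𝓕⁻ (f i)) x‖)
          have hs : Real.sqrt (l * gw n A x) ≠ 0 := (Real.sqrt_pos.2 (by positivity)).ne'
          have hs2 : Real.sqrt (l * gw n A x) ^ 2 = l * gw n A x := Real.sq_sqrt (by positivity)
          have e1 : 2 * (Real.sqrt (l * gw n A x) * ‖(𝓕⁻ (G i)) x‖) *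
            ((Real.sqrt (l * gw n A x))⁻¹ * ‖(𝓕⁻ (f i)) x‖) =
            2 * (‖(𝓕⁻ (G i)) x‖ * ‖(𝓕⁻ (f i)) x‖) := by
            field_simp
          rw [e1, mul_pow, mul_pow, inv_pow, hs2] at hq
          have e2 : (l * gw n A x)⁻¹ = l⁻¹ * dw n A x := by rw [dw, mul_inv]
          rw [e2] at hq
          nlinarith [hq]
        · have := gw_pos n A x; positivity
        · have := dw_pos n A x; positivity
      · refine Measurable.aemeasurable ?_
        refine Measurable.ennreal_ofReal ?_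
        exact (continuous_const.mul (hdwm.mul ((hcont (f i)).norm.pow 2))).measurable
    refine (Finset.sum_le_sum fun i _ => h1 i).trans ?_
    rw [Finset.sum_add_distrib, ← Finset.mul_sum, ← Finset.mul_sum]
    refine add_le_add ?_ le_rfl
    refine (mul_le_mul_right hGB _).trans ?_
    rw [← mul_assoc, ← ENNReal.ofReal_mul (by positivity)]
    refine mul_le_mul_left (ENNReal.ofReal_le_ofReal ?_) _
    rw [hl, inv_eq_one_div, mul_assoc]
    have : 1 / ((C + 1) * B ^ 2) * (C * B ^ 2) ≤ 1 := by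
      rw [one_div_mul_eq_div, div_le_one (by positivity)]
      nlinarith [sq_nonneg B]
    linarith
  have hX2 : ENNReal.ofReal (1 / 2) * X ≠ ⊤ := ENNReal.mul_ne_top ENNReal.ofReal_ne_top hXt
  have e3 : X = ENNReal.ofReal (1 / 2) * X + ENNReal.ofReal (1 / 2) * X := by
    rw [← add_mul, ← ENNReal.ofReal_add (by norm_num) (by norm_num)]
    norm_num
  have h4 : ENNReal.ofReal (1 / 2) * X ≤ ENNReal.ofReal (1 / 2 * l⁻¹) * Y := by
    refine (ENNReal.add_le_add_iff_left hX2).1 ?_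
    rw [← e3]; exact hmain2
  calc X = ENNReal.ofReal (1 / 2) * X + ENNReal.ofReal (1 / 2) * X := e3
    _ ≤ ENNReal.ofReal (1 / 2 * l⁻¹) * Y + ENNReal.ofReal (1 / 2 * l⁻¹) * Y := add_le_add h4 h4
    _ = ENNReal.ofReal ((C + 1) * B ^ 2) * Y := by
      rw [← add_mul, ← ENNReal.ofReal_add (by positivity) (by positivity)]
      congr 2
      rw [hl, inv_inv]; ring

end Crest.Agent.R138.Wf448
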