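import Crest.Agent.R138.Wf2_448

/-!
# R138 / R139, W0: the F-side foundation, part 3 (helper448)

Smooth cut-offs adapted to arbitrary sets (`cutoffC`) and local orthogonality on time slices
(`ortho_row`, `ortho_col`).
-/

set_option autoImplicit false
set_option linter.unusedSectionVars false
open MeasureTheory FourierTransform SchwartzMap LineDeriv
open scoped ContDiff SchwartzMap ENNReal ComplexInnerProductSpace Convolution

namespace Crest.Agent.R138.Wf448

section cutoff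

variable {V : Type} [NormedAddCommGroup V] [InnerProductSpace ℝ V] [FiniteDimensional ℝ V]
  [MeasurableSpace V] [BorelSpace V]

theorem conv_iter (f : V → ℝ) (hf : LocallyIntegrable f) (hf1 : ∀ x, ‖f x‖ ≤ 1) (j : ℕ) :
    ∀ (E : Type) [NormedAddCommGroup E] [NormedSpace ℝ E] [CompleteSpace E] (g : V → E),
      ContDiff ℝ ∞ g → HasCompactSupport g → ∀ x,
      ‖iteratedFDeriv ℝ j (f ⋆[ContinuousLinearMap.lsmul ℝ ℝ] g) x‖ ≤
        ∫ y, ‖iteratedFDeriv ℝ j g y‖ := by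
  induction j with
  | zero =>
    intro E _ _ _ g hg hgc x
    rw [norm_iteratedFDeriv_zero]
    simp only [norm_iteratedFDeriv_zero]
    unfold MeasureTheory.convolution
    refine (norm_integral_le_integral_norm _).trans ?_
    have hi : Integrable (fun t => ‖g (x - t)‖) :=
      ((hg.continuous.integrable_of_hasCompactSupport hgc).comp_sub_left x).norm
    rw [← integral_sub_left_eq_self (fun t => ‖g t‖) volume x]
    refine integral_mono_of_nonneg (Filter.Eventually.of_forall fun t => norm_nonneg _) hi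
      (Filter.Eventually.of_forall fun t => ?_)
    simp only [ContinuousLinearMap.lsmul_apply, norm_smul]
    exact mul_le_of_le_one_left (norm_nonneg _) (hf1 t)
  | succ j ih =>
    intro E _ _ _ g hg hgc x
    have hg1 : ContDiff ℝ 1 g := hg.of_le (by exact_mod_cast le_top)
    have e1 : fderiv ℝ (f ⋆[ContinuousLinearMap.lsmul ℝ ℝ] g) =
        f ⋆[ContinuousLinearMap.lsmul ℝ ℝ] (fderiv ℝ g) := by
      funext y
      rw [(hgc.hasFDerivAt_convolution_right (ContinuousLinearMap.lsmul ℝ ℝ) hf hg1 y).fderiv]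
      rfl
    rw [← norm_iteratedFDeriv_fderiv, e1]
    have e2 : ∀ y, ‖iteratedFDeriv ℝ (j + 1) g y‖ = ‖iteratedFDeriv ℝ j (fderiv ℝ g) y‖ :=
      fun y => norm_iteratedFDeriv_fderiv.symm
    simp_rw [e2]
    exact ih (V →L[ℝ] E) (fderiv ℝ g) (hg.fderiv_right (by exact_mod_cast le_rfl)) (hgc.fderiv (𝕜 := ℝ)) x

/-- smooth cut-offs at scale one. -/
theorem cutoff_one (V : Type) [NormedAddCommGroup V] [InnerProductSpace ℝ V] [FiniteDimensional ℝ V]
    [MeasurableSpace V] [BorelSpace V] : ∃ C : ℕ → ℝ, (∀ j, 0 ≤ C j) ∧ ∀ S : Set V, ∃ χ : V → ℝ,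
    ContDiff ℝ ∞ χ ∧ (∀ ξ ∈ S, χ ξ = 1) ∧ (∀ ξ, ξ ∉ Metric.thickening 1 S → χ ξ = 0) ∧
    (∀ ξ, 0 ≤ χ ξ ∧ χ ξ ≤ 1) ∧ ∀ j ξ, ‖iteratedFDeriv ℝ j χ ξ‖ ≤ C j := by
  let φ : ContDiffBump (0 : V) := ⟨1 / 4, 1 / 2, by norm_num, by norm_num⟩
  set g : V → ℝ := φ.normed volume with hg
  have hgs : ContDiff ℝ ∞ g := φ.contDiff_normed
  have hgc : HasCompactSupport g := φ.hasCompactSupport_normed
  have hg0 : ∀ x, 0 ≤ g x := fun x => φ.nonneg_normed x
  have hgi : ∫ x, g x = 1 := φ.integral_normed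
  have hgI : Integrable g := hgs.continuous.integrable_of_hasCompactSupport hgc
  have hgz : ∀ x, g x ≠ 0 → ‖x‖ < 1 / 2 := by
    intro x hx
    have : x ∈ Function.support g := hx
    rw [hg, φ.support_normed_eq, mem_ball_zero_iff] at this
    exact this
  refine ⟨fun j => ∫ y, ‖iteratedFDeriv ℝ j g y‖, fun j => integral_nonneg fun y => norm_nonneg _, ?_⟩
  intro S
  set f : V → ℝ := (Metric.thickening (1 / 2) S).indicator (fun _ => (1:ℝ)) with hf
  have hfm : Measurable f := measurable_const.indicator Metric.isOpen_thickening.measurableSet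
  have hf1 : ∀ x, ‖f x‖ ≤ 1 := by
    intro x
    rw [hf]
    by_cases hx : x ∈ Metric.thickening (1 / 2) S
    · rw [Set.indicator_of_mem hx]; simp
    · rw [Set.indicator_of_notMem hx]; simp
  have hf0 : ∀ x, 0 ≤ f x := by
    intro x
    exact Set.indicator_nonneg (fun _ _ => zero_le_one) x
  have hfl : LocallyIntegrable f :=
    (locallyIntegrable_const (1:ℝ)).mono hfm.aestronglyMeasurable
      (Filter.Eventually.of_forall fun x => by simpa using hf1 x)
  refine ⟨f ⋆[ContinuousLinearMap.lsmul ℝ ℝ] g, ?_, ?_, ?_, ?_, ?_⟩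
  · exact hgc.contDiff_convolution_right _ hfl hgs
  · intro ξ hξ
    unfold MeasureTheory.convolution
    rw [← hgi, ← integral_sub_left_eq_self g volume ξ]
    refine integral_congr_ae (Filter.Eventually.of_forall fun t => ?_)
    simp only [ContinuousLinearMap.lsmul_apply, smul_eq_mul]
    by_cases h : g (ξ - t) = 0
    · rw [h, mul_zero]
    · have ht : t ∈ Metric.thickening (1 / 2) S := by
        rw [Metric.mem_thickening_iff]
        exact ⟨ξ, hξ, by rw [dist_comm, dist_eq_norm]; exact hgz _ h⟩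
      rw [hf, Set.indicator_of_mem ht, one_mul]
  · intro ξ hξ
    unfold MeasureTheory.convolution
    refine integral_eq_zero_of_ae (Filter.Eventually.of_forall fun t => ?_)
    simp only [ContinuousLinearMap.lsmul_apply, smul_eq_mul, Pi.zero_apply]
    by_cases h : g (ξ - t) = 0
    · rw [h, mul_zero]
    · have ht : t ∉ Metric.thickening (1 / 2) S := by
        intro ht
        rw [Metric.mem_thickening_iff] at ht
        obtain ⟨z, hz, hzt⟩ := ht
        refine hξ ?_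
        rw [Metric.mem_thickening_iff]
        refine ⟨z, hz, ?_⟩
        have h1 : dist ξ t < 1 / 2 := by rw [dist_eq_norm]; exact hgz _ h
        linarith [dist_triangle ξ t z]
      rw [hf, Set.indicator_of_notMem ht, zero_mul]
  · intro ξ
    unfold MeasureTheory.convolution
    constructor
    · refine integral_nonneg fun t => ?_
      simp only [ContinuousLinearMap.lsmul_apply, smul_eq_mul]
      exact mul_nonneg (hf0 t) (hg0 _)
    · rw [← hgi, ← integral_sub_left_eq_self g volume ξ]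
      refine integral_mono_of_nonneg (Filter.Eventually.of_forall fun t => ?_)
        (hgI.comp_sub_left ξ) (Filter.Eventually.of_forall fun t => ?_)
      · simp only [ContinuousLinearMap.lsmul_apply, smul_eq_mul, Pi.zero_apply]
        exact mul_nonneg (hf0 t) (hg0 _)
      · simp only [ContinuousLinearMap.lsmul_apply, smul_eq_mul]
        have := hf1 t
        rw [Real.norm_eq_abs, abs_of_nonneg (hf0 t)] at this
        exact mul_le_of_le_one_left (hg0 _) this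
  · intro j ξ
    exact conv_iter f hfl hf1 j ℝ g hgs hgc ξ

/-- smooth cut-offs at scale `ρ`. -/
theorem cutoff (V : Type) [NormedAddCommGroup V] [InnerProductSpace ℝ V] [FiniteDimensional ℝ V]
    [MeasurableSpace V] [BorelSpace V] : ∃ C : ℕ → ℝ, (∀ j, 0 ≤ C j) ∧ ∀ (S : Set V) (ρ : ℝ), 0 < ρ →
    ∃ χ : V → ℝ, ContDiff ℝ ∞ χ ∧ (∀ ξ ∈ S, χ ξ = 1) ∧
    (∀ ξ, ξ ∉ Metric.thickening ρ S → χ ξ = 0) ∧
    (∀ ξ, 0 ≤ χ ξ ∧ χ ξ ≤ 1) ∧ ∀ j ξ, ‖iteratedFDeriv ℝ j χ ξ‖ ≤ C j * (ρ⁻¹) ^ j := by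
  obtain ⟨C, hC, h⟩ := cutoff_one V
  refine ⟨C, hC, fun S ρ hρ => ?_⟩
  obtain ⟨χ, h1, h2, h3, h4, h5⟩ := h ((fun ξ => ρ⁻¹ • ξ) '' S)
  set L : V →L[ℝ] V := ρ⁻¹ • ContinuousLinearMap.id ℝ V with hL
  have hLn : ‖L‖ ≤ ρ⁻¹ := by
    rw [hL, norm_smul, Real.norm_eq_abs, abs_of_pos (inv_pos.2 hρ)]
    exact mul_le_of_le_one_right (inv_pos.2 hρ).le ContinuousLinearMap.norm_id_le
  have e : (fun ξ => χ (ρ⁻¹ • ξ)) = χ ∘ L := by
    funext ξ; simp [hL]
  refine ⟨fun ξ => χ (ρ⁻¹ • ξ), ?_, ?_, ?_, fun ξ => h4 _, ?_⟩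
  · rw [e]; exact h1.comp L.contDiff
  · intro ξ hξ
    exact h2 _ ⟨ξ, hξ, rfl⟩
  · intro ξ hξ
    refine h3 _ fun hc => hξ ?_
    rw [Metric.mem_thickening_iff] at hc ⊢
    obtain ⟨z, ⟨y, hy, rfl⟩, hz⟩ := hc
    refine ⟨y, hy, ?_⟩
    simp only [dist_eq_norm, ← smul_sub, norm_smul, norm_inv, Real.norm_eq_abs, abs_of_pos hρ] at hz ⊢
    rw [inv_mul_lt_iff₀ hρ, mul_one] at hz
    exact hz
  · intro j ξ
    rw [e, ContinuousLinearMap.iteratedFDeriv_comp_right L (h1.of_le (by exact_mod_cast le_top : (j : WithTop ℕ∞) ≤ (⊤ : ℕ∞))) ξ le_rfl]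
    refine (ContinuousMultilinearMap.norm_compContinuousLinearMap_le _ _).trans ?_
    rw [Finset.prod_const, Finset.card_fin]
    exact mul_le_mul (h5 j _) (pow_le_pow_left₀ (norm_nonneg _) hLn j) (by positivity) (hC j)

/-- complex valued cut-offs: equal to one on `S`, all derivatives vanish off the `ρ`-thickening. -/
theorem cutoffC (V : Type) [NormedAddCommGroup V] [InnerProductSpace ℝ V] [FiniteDimensional ℝ V]
    [MeasurableSpace V] [BorelSpace V] : ∃ C : ℕ → ℝ, (∀ j, 0 ≤ C j) ∧ ∀ (S : Set V) (ρ : ℝ), 0 < ρ →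
    ∃ χ : V → ℂ, χ.HasTemperateGrowth ∧ (∀ ξ ∈ S, χ ξ = 1) ∧
    (∀ j ξ, ξ ∉ Metric.thickening ρ S → iteratedFDeriv ℝ j χ ξ = 0) ∧
    (∀ ξ, ‖χ ξ‖ ≤ 1) ∧ (∀ j ξ, ‖iteratedFDeriv ℝ j χ ξ‖ ≤ C j * (ρ⁻¹) ^ j) ∧
    (∀ ξ, ξ ∉ Metric.thickening ρ S → χ ξ = 0) := by
  obtain ⟨C, hC, h⟩ := cutoff V
  refine ⟨fun j => C j * 2 ^ j, fun j => by have := hC j; positivity, fun S ρ hρ => ?_⟩
  obtain ⟨χ, h1, h2, h3, h4, h5⟩ := h S (ρ / 2) (by positivity)
  have hn : ∀ j ξ, ‖iteratedFDeriv ℝ j (fun ξ => (χ ξ : ℂ)) ξ‖ = ‖iteratedFDeriv ℝ j χ ξ‖ := by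
    intro j ξ
    exact Complex.ofRealLI.norm_iteratedFDeriv_comp_left
      ((h1.of_le (by exact_mod_cast le_top : (j : WithTop ℕ∞) ≤ (⊤ : ℕ∞))).contDiffAt) le_rfl
  have hb : ∀ j ξ, ‖iteratedFDeriv ℝ j (fun ξ => (χ ξ : ℂ)) ξ‖ ≤ C j * 2 ^ j * (ρ⁻¹) ^ j := by
    intro j ξ
    rw [hn]
    refine (h5 j ξ).trans (le_of_eq ?_)
    rw [inv_div, div_eq_mul_inv, mul_pow, mul_assoc]
  have hz : ∀ ξ, ξ ∉ Metric.thickening ρ S → ∀ᶠ y in nhds ξ, χ y = 0 := by
    intro ξ hξ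
    filter_upwards [Metric.ball_mem_nhds ξ (show 0 < ρ / 2 by positivity)] with y hy
    refine h3 y fun hc => hξ ?_
    rw [Metric.mem_thickening_iff] at hc ⊢
    obtain ⟨z, hz, hyz⟩ := hc
    refine ⟨z, hz, ?_⟩
    rw [Metric.mem_ball, dist_comm] at hy
    linarith [dist_triangle ξ y z]
  refine ⟨fun ξ => (χ ξ : ℂ), ?_, ?_, ?_, ?_, hb, ?_⟩
  · refine ⟨Complex.ofRealCLM.contDiff.comp h1, fun j => ⟨0, C j * 2 ^ j * (ρ⁻¹) ^ j, fun ξ => ?_⟩⟩
    rw [pow_zero, mul_one]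
    exact hb j ξ
  · intro ξ hξ
    show (χ ξ : ℂ) = 1
    rw [h2 ξ hξ]; simp
  · intro j ξ hξ
    have : (fun ξ => (χ ξ : ℂ)) =ᶠ[nhds ξ] fun _ => 0 := by
      filter_upwards [hz ξ hξ] with y hy
      rw [hy]; simp
    rw [(this.iteratedFDeriv ℝ j).self_of_nhds]
    simp
  · intro ξ
    rw [Complex.norm_real, Real.norm_eq_abs, abs_of_nonneg (h4 ξ).1]
    exact (h4 ξ).2
  · intro ξ hξ
    have := (hz ξ hξ).self_of_nhds
    show (χ ξ : ℂ) = 0
    rw [this]; simp

end cutoff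

section ortho

variable {V : Type} [NormedAddCommGroup V] [InnerProductSpace ℝ V] [FiniteDimensional ℝ V]
  [MeasurableSpace V] [BorelSpace V]
variable {W : Type*} [NormedAddCommGroup W] [InnerProductSpace ℝ W] [FiniteDimensional ℝ W]

theorem Nn_le_norm (A : V →L[ℝ] W) (j : ℕ) (f : V → ℂ) (ξ : V) :
    Nn A j f ξ ≤ ‖iteratedFDeriv ℝ j f ξ‖ * ‖A‖ ^ j := by
  unfold Nn
  refine (ContinuousMultilinearMap.norm_compContinuousLinearMap_le _ _).trans (le_of_eq ?_)
  rw [Finset.prod_const, Finset.card_fin]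
  congr 2
  exact (ContinuousLinearMap.adjoint (𝕜 := ℝ) (E := V) (F := W)).norm_map A

/-- **Local orthogonality** (row form): pieces with essentially disjoint frequency supports. -/
theorem ortho_row (n : ℕ) : ∃ C : ℝ, 0 ≤ C ∧ ∀ (A : V →L[ℝ] W) (c : V) (ρ : ℝ), 0 < ρ → ‖A‖ ≤ ρ →
    ∀ (ι : Type) [Fintype ι] (S : ι → Set V) (g : ι → V → ℂ) (L : ℝ), 0 < L →
    (∀ ξ, (Set.ncard {i | ξ ∈ Metric.thickening ρ (S i)} : ℝ) ≤ L) →
    (∀ i ξ, g i ξ ≠ 0 → ξ ∈ S i) → (∀ i, Integrable (g i)) → (∀ i, MemLp (g i) 2) →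
    wE n A c (fun ξ => ∑ i, g i ξ) ≤ ENNReal.ofReal (C * L) * ∑ i, wE n A c (g i) := by
  classical
  obtain ⟨C1, hC1, h1⟩ := decayL (V := V) (W := W) n
  obtain ⟨K, hK, h2⟩ := cutoffC V
  set M : ℝ := 1 + ∑ j ∈ Finset.range (n + 1), K j ^ 2 with hM
  have hM0 : 0 < M := by positivity
  refine ⟨C1 * M, by positivity, ?_⟩
  intro A c ρ hρ hA ι _ S g L hL hov hS hg hg2
  choose χ hχ1 hχ2 hχ3 hχ4 hχ5 hχ6 using fun i => h2 (S i) ρ hρ
  have hb := h1 A c ι Unit (fun _ i => χ i) g (Real.sqrt (M * L)) (by positivity)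
    (fun _ i => hχ1 i) hg hg2 ?_
  · have e1 : (fun ξ => ∑ i, χ i ξ * g i ξ) = fun ξ => ∑ i, g i ξ := by
      funext ξ
      refine Finset.sum_congr rfl fun i _ => ?_
      by_cases h : g i ξ = 0
      · rw [h, mul_zero]
      · rw [hχ2 i ξ (hS i ξ h), one_mul]
    simp only [Finset.univ_unique, Finset.sum_singleton, e1] at hb
    rw [Real.sq_sqrt (by positivity)] at hb
    rwa [mul_assoc]
  · intro j hj ξ
    simp only [Finset.univ_unique, Finset.sum_singleton]
    rw [Real.sq_sqrt (by positivity)]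
    have e2 : ∀ i, Nn A j (χ i) ξ ^ 2 ≤ if ξ ∈ Metric.thickening ρ (S i) then M else 0 := by
      intro i
      split_ifs with hi
      · have a1 : Nn A j (χ i) ξ ≤ K j := by
          refine (Nn_le_norm A j _ ξ).trans ?_
          refine (mul_le_mul (hχ5 i j ξ) (pow_le_pow_left₀ (norm_nonneg _) hA j) (by positivity)
            (by have := hK j; positivity)).trans (le_of_eq ?_)
          rw [mul_assoc, ← mul_pow, inv_mul_cancel₀ hρ.ne', one_pow, mul_one]
        refine (pow_le_pow_left₀ (Nn_nonneg _ _ _ _) a1 2).trans ?_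
        have a2 := Finset.single_le_sum (f := fun j => K j ^ 2) (fun j _ => sq_nonneg _)
          (Finset.mem_range.2 (Nat.lt_succ_of_le hj))
        linarith
      · have : Nn A j (χ i) ξ = 0 := by
          unfold Nn
          rw [hχ3 i j ξ hi, norm_eq_zero]
          ext v
          simp
        rw [this]; norm_num
    refine (Finset.sum_le_sum fun i _ => e2 i).trans ?_
    rw [← Finset.sum_filter, Finset.sum_const, nsmul_eq_mul, mul_comm]
    refine mul_le_mul_of_nonneg_left ?_ hM0.le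
    refine le_trans (le_of_eq ?_) (hov ξ)
    rw [← Set.ncard_coe_finset]
    simp

/-- **Local orthogonality** (column form): square function of smooth cut-offs. -/
theorem ortho_col (n : ℕ) : ∃ C : ℝ, 0 ≤ C ∧ ∀ (A : V →L[ℝ] W) (c : V) (ρ : ℝ), 0 < ρ → ‖A‖ ≤ ρ →
    ∀ (ι : Type) [Fintype ι] (m : ι → V → ℂ) (g : V → ℂ) (K L : ℝ), 0 < K → 0 < L →
    (∀ i, (m i).HasTemperateGrowth) → (∀ i, ∀ j ≤ n, ∀ ξ, ‖iteratedFDeriv ℝ j (m i) ξ‖ ≤ K * (ρ⁻¹) ^ j) →
    (∀ ξ, (Set.ncard {i | ξ ∈ tsupport (m i)} : ℝ) ≤ L) → Integrable g → MemLp g 2 →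
    ∑ i, wE n A c (fun ξ => m i ξ * g ξ) ≤ ENNReal.ofReal (C * K ^ 2 * L) * wE n A c g := by
  classical
  obtain ⟨C1, hC1, h1⟩ := decayL (V := V) (W := W) n
  refine ⟨C1, by positivity, ?_⟩
  intro A c ρ hρ hA ι _ m g K L hK hL hm hK2 hov hg hg2
  have hb := h1 A c Unit ι (fun i _ => m i) (fun _ => g) (Real.sqrt (K ^ 2 * L)) (by positivity)
    (fun i _ => hm i) (fun _ => hg) (fun _ => hg2) ?_
  · simp only [Finset.univ_unique, Finset.sum_singleton] at hb
    rw [Real.sq_sqrt (by positivity)] at hb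
    rwa [mul_assoc]
  · intro j hj ξ
    simp only [Finset.univ_unique, Finset.sum_singleton]
    rw [Real.sq_sqrt (by positivity)]
    have e2 : ∀ i, Nn A j (m i) ξ ^ 2 ≤ if ξ ∈ tsupport (m i) then K ^ 2 else 0 := by
      intro i
      split_ifs with hi
      · have a1 : Nn A j (m i) ξ ≤ K := by
          refine (Nn_le_norm A j _ ξ).trans ?_
          refine (mul_le_mul (hK2 i j hj ξ) (pow_le_pow_left₀ (norm_nonneg _) hA j) (by positivity)
            (by positivity)).trans (le_of_eq ?_)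
          rw [mul_assoc, ← mul_pow, inv_mul_cancel₀ hρ.ne', one_pow, mul_one]
        exact pow_le_pow_left₀ (Nn_nonneg _ _ _ _) a1 2
      · have : Nn A j (m i) ξ = 0 := by
          unfold Nn
          have : iteratedFDeriv ℝ j (m i) ξ = 0 := by
            by_contra hne
            exact hi (tsupport_iteratedFDeriv_subset (𝕜 := ℝ) j (subset_tsupport _ hne))
          rw [this, norm_eq_zero]
          ext v
          simp
        rw [this]; norm_num
    refine (Finset.sum_le_sum fun i _ => e2 i).trans ?_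
    rw [← Finset.sum_filter, Finset.sum_const, nsmul_eq_mul, mul_comm]
    refine mul_le_mul_of_nonneg_left ?_ (by positivity)
    refine le_trans (le_of_eq ?_) (hov ξ)
    rw [← Set.ncard_coe_finset]
    simp

end ortho

end Crest.Agent.R138.Wf448
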