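import Crest.Agent.R138.Wf3_448
import Crest.Agent.R138.Defs_665

/-!
# R138 / R139, W0: the F-side foundation, part 4 (helper448)

`transport` (W4): local energy conservation of `ext h g` along tubes / planks, on time slices.
`sl h g t ξ = g ξ * ee (t * h ξ)` is the frequency side of the slice of `ext h g` at time `t`.
-/

set_option autoImplicit false
set_option linter.unusedSectionVars false
open MeasureTheory FourierTransform SchwartzMap LineDeriv
open scoped ContDiff SchwartzMap ENNReal ComplexInnerProductSpace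

namespace Crest.Agent.R138.Wf448

open Crest.Agent.R138.Defs (ee)

theorem ee_eq (t : ℝ) : ee t = (Real.fourierChar t : ℂ) := by
  rw [Real.fourierChar_apply]; rfl

theorem ee_add (s t : ℝ) : ee (s + t) = ee s * ee t := by
  unfold ee
  rw [← Complex.exp_add]
  congr 1
  push_cast; ring

theorem norm_ee (t : ℝ) : ‖ee t‖ = 1 := by
  unfold ee; exact Complex.norm_exp_ofReal_mul_I _

theorem hasDerivAt_ee (t : ℝ) : HasDerivAt ee ((2 * Real.pi * Complex.I) * ee t) t := by
  unfold ee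
  have h1 : HasDerivAt (fun t : ℝ => ((2 * Real.pi * t : ℝ) : ℂ) * Complex.I)
      ((2 * Real.pi : ℂ) * Complex.I) t := by
    have h2 : HasDerivAt (fun t : ℝ => (2 * Real.pi * t : ℝ)) (2 * Real.pi * 1) t :=
      (hasDerivAt_id t).const_mul (2 * Real.pi)
    have h3 := h2.ofReal_comp
    simp only [mul_one] at h3
    have h4 := h3.mul_const Complex.I
    simpa using h4
  exact h1.cexp.congr_deriv (by ring)

theorem contDiff_ee : ContDiff ℝ ∞ ee := by
  unfold ee
  refine ContDiff.cexp ?_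
  refine ContDiff.mul ?_ contDiff_const
  exact Complex.ofRealCLM.contDiff.comp (contDiff_const.mul contDiff_id)

theorem iteratedDeriv_ee (j : ℕ) :
    iteratedDeriv j ee = fun t => (2 * Real.pi * Complex.I) ^ j * ee t := by
  induction j with
  | zero => funext t; simp
  | succ j ih =>
    rw [iteratedDeriv_succ, ih]
    funext t
    rw [((hasDerivAt_ee t).const_mul _).deriv]
    ring

theorem norm_iteratedFDeriv_ee (j : ℕ) (t : ℝ) : ‖iteratedFDeriv ℝ j ee t‖ = (2 * Real.pi) ^ j := by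
  rw [norm_iteratedFDeriv_eq_norm_iteratedDeriv, iteratedDeriv_ee, norm_mul, norm_ee, mul_one,
    norm_pow]
  congr 1
  rw [norm_mul, norm_mul, Complex.norm_I]
  simp [abs_of_pos Real.pi_pos]

section transport

variable {V : Type} [NormedAddCommGroup V] [InnerProductSpace ℝ V] [FiniteDimensional ℝ V]
  [MeasurableSpace V] [BorelSpace V]
variable {W : Type*} [NormedAddCommGroup W] [InnerProductSpace ℝ W] [FiniteDimensional ℝ W]

theorem Nn_ee (A : V →L[ℝ] W) {ψ : V → ℝ} (hψ : ContDiff ℝ ∞ ψ) (j : ℕ) (ξ : V) {D : ℝ}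
    (hD : ∀ i, 1 ≤ i → i ≤ j →
      ‖iteratedFDeriv ℝ i (fun y : W => ψ (ξ + adj A y)) 0‖ ≤ D ^ i) :
    Nn A j (fun ξ => ee (ψ ξ)) ξ ≤ (j.factorial : ℝ) * (2 * Real.pi) ^ j * D ^ j := by
  have h1 : ContDiff ℝ ∞ (fun y : W => ψ (ξ + adj A y)) :=
    hψ.comp (contDiff_const.add (adj A).contDiff)
  have hc : ContDiff ℝ j (fun ξ => ee (ψ ξ)) :=
    (contDiff_ee.comp hψ).of_le (by exact_mod_cast le_top)
  rw [Nn_eq A hc]
  have h2 := norm_iteratedFDeriv_comp_le (𝕜 := ℝ) (g := ee) (f := fun y : W => ψ (ξ + adj A y))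
    (n := j) (N := (j : ℕ)) (contDiff_ee.of_le (by exact_mod_cast le_top))
    (h1.of_le (by exact_mod_cast le_top)) le_rfl 0 (C := (2 * Real.pi) ^ j) (D := D) ?_ hD
  · exact h2
  · intro i hi
    rw [norm_iteratedFDeriv_ee]
    refine pow_le_pow_right₀ ?_ hi
    have := Real.pi_gt_three
    linarith

/-- the slice of `ext h g` at time `t`, on the frequency side. -/
noncomputable def sl (h : V → ℝ) (g : V → ℂ) (t : ℝ) (ξ : V) : ℂ := g ξ * ee (t * h ξ)

theorem higher_eq (h : V → ℝ) (hh : ContDiff ℝ ∞ h) (n0 : V) (τ : ℝ) (i : ℕ) (hi : 2 ≤ i) (ξ : V) :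
    ‖iteratedFDeriv ℝ i (fun ξ => τ * (h ξ - inner ℝ n0 ξ)) ξ‖ = |τ| * ‖iteratedFDeriv ℝ i h ξ‖ := by
  obtain ⟨k, rfl⟩ : ∃ k, i = k + 1 := ⟨i - 1, by omega⟩
  have hk : k ≠ 0 := by omega
  have hd : Differentiable ℝ h := hh.differentiable (by simp)
  have e1 : fderiv ℝ (fun ξ => τ * (h ξ - inner ℝ n0 ξ)) = fun ξ => τ • (fderiv ℝ h ξ - innerSL ℝ n0) := by
    funext y
    have h1 : HasFDerivAt (fun ξ : V => (inner ℝ n0 ξ : ℝ)) (innerSL ℝ n0) y :=
      (innerSL ℝ n0).hasFDerivAt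
    exact (((hd y).hasFDerivAt.sub h1).const_mul τ).fderiv
  rw [← norm_iteratedFDeriv_fderiv, ← norm_iteratedFDeriv_fderiv, e1]
  have hc : ContDiff ℝ k (fderiv ℝ h) :=
    (hh.fderiv_right (m := (⊤ : ℕ∞)) (by exact_mod_cast le_rfl)).of_le (by exact_mod_cast le_top)
  have e2 : iteratedFDeriv ℝ k (fun ξ => τ • (fderiv ℝ h ξ - innerSL ℝ n0)) ξ =
      τ • iteratedFDeriv ℝ k (fderiv ℝ h) ξ := by
    rw [iteratedFDeriv_const_smul_apply' ((hc.sub contDiff_const).contDiffAt)]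
    congr 1
    have e3 : (fun ξ => fderiv ℝ h ξ - innerSL ℝ n0) = fderiv ℝ h - fun _ => innerSL ℝ n0 := rfl
    rw [e3, iteratedFDeriv_sub_apply hc.contDiffAt contDiff_const.contDiffAt,
      iteratedFDeriv_const_of_ne hk]
    simp
  rw [e2, norm_smul, Real.norm_eq_abs]

/-- the multiplier of the transport estimate is bounded in all scaled norms. -/
theorem phase_Nn (A : V →L[ℝ] W) {h : V → ℝ} (hh : ContDiff ℝ ∞ h) {n : ℕ} {M r τ : ℝ}
    (hM : ∀ i, 2 ≤ i → i ≤ max n 2 → ∀ ξ, ‖iteratedFDeriv ℝ i h ξ‖ ≤ M) (hr : 1 ≤ r)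
    (hA : ‖A‖ ≤ r ^ (-(1/2) : ℝ)) (hτ : |τ| ≤ r) (n0 : V) (ξ : V)
    (hξ : ‖A (gradient h ξ - n0)‖ ≤ (1 + M) / r) (j : ℕ) (hj : j ≤ n) :
    Nn A j (fun ξ => ee (τ * (h ξ - inner ℝ n0 ξ))) ξ ≤
      (j.factorial : ℝ) * (2 * Real.pi) ^ j * (1 + M) ^ j := by
  have hM0 : 0 ≤ M := (norm_nonneg _).trans (hM 2 le_rfl (le_max_right _ _) ξ)
  have hr0 : 0 < r := by linarith
  have hψ : ContDiff ℝ ∞ (fun ξ => τ * (h ξ - inner ℝ n0 ξ)) :=
    contDiff_const.mul (hh.sub (innerSL ℝ n0).contDiff)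
  refine Nn_ee A hψ j ξ fun i hi1 hij => ?_
  have e0 : (fun y : W => τ * (h (ξ + adj A y) - inner ℝ n0 (ξ + adj A y))) =
      (fun z => τ * (h (ξ + z) - inner ℝ n0 (ξ + z))) ∘ (adj A) := rfl
  rcases Nat.eq_or_lt_of_le hi1 with rfl | hi2
  · -- first derivative
    have hd : DifferentiableAt ℝ h ξ := (hh.differentiable (by simp)) ξ
    have e1 : HasFDerivAt (fun y : W => τ * (h (ξ + adj A y) - inner ℝ n0 (ξ + adj A y)))
        (τ • ((fderiv ℝ h ξ - innerSL ℝ n0).comp (adj A))) 0 := by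
      have a1 : HasFDerivAt (fun y : W => ξ + adj A y) (adj A) 0 := (adj A).hasFDerivAt.const_add ξ
      have a2 : HasFDerivAt (fun ξ => h ξ - inner ℝ n0 ξ) (fderiv ℝ h ξ - innerSL ℝ n0)
          ((fun y : W => ξ + adj A y) 0) := by
        simp only [map_zero, add_zero]
        exact hd.hasFDerivAt.sub (innerSL ℝ n0).hasFDerivAt
      exact (a2.comp 0 a1).const_mul τ
    rw [norm_iteratedFDeriv_one, e1.fderiv, norm_smul, Real.norm_eq_abs, pow_one]
    have e2 : ‖(fderiv ℝ h ξ - innerSL ℝ n0).comp (adj A)‖ ≤ ‖A (gradient h ξ - n0)‖ := by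
      refine ContinuousLinearMap.opNorm_le_bound _ (norm_nonneg _) fun y => ?_
      have : (fderiv ℝ h ξ - innerSL ℝ n0).comp (adj A) y = inner ℝ (A (gradient h ξ - n0)) y := by
        rw [← ContinuousLinearMap.adjoint_inner_right, inner_sub_left]
        simp only [ContinuousLinearMap.comp_apply, sub_apply, innerSL_apply_apply]
        congr 1
        rw [gradient, InnerProductSpace.toDual_symm_apply]
      rw [this]
      exact norm_inner_le_norm _ _
    calc |τ| * ‖(fderiv ℝ h ξ - innerSL ℝ n0).comp (adj A)‖ ≤ r * ((1 + M) / r) :=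
          mul_le_mul hτ (e2.trans hξ) (norm_nonneg _) hr0.le
      _ = 1 + M := by field_simp
  · -- higher derivatives
    have hi2' : 2 ≤ i := hi2
    have c1 : ContDiff ℝ i (fun z => τ * (h (ξ + z) - inner ℝ n0 (ξ + z))) :=
      (hψ.comp (contDiff_const.add contDiff_id)).of_le (by exact_mod_cast le_top)
    rw [e0, ContinuousLinearMap.iteratedFDeriv_comp_right (adj A) c1 0 le_rfl]
    refine (ContinuousMultilinearMap.norm_compContinuousLinearMap_le _ _).trans ?_
    rw [Finset.prod_const, Finset.card_fin]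
    have e3 : ‖adj A‖ = ‖A‖ := (ContinuousLinearMap.adjoint (𝕜 := ℝ) (E := V) (F := W)).norm_map A
    have e4 : iteratedFDeriv ℝ i (fun z => τ * (h (ξ + z) - inner ℝ n0 (ξ + z))) (adj A 0) =
        iteratedFDeriv ℝ i (fun ξ => τ * (h ξ - inner ℝ n0 ξ)) ξ := by
      have := iteratedFDeriv_comp_add_left (𝕜 := ℝ) (f := fun ξ => τ * (h ξ - inner ℝ n0 ξ)) i ξ (adj A 0)
      rw [this]; simp
    rw [e3, e4, higher_eq h hh n0 τ i hi2' ξ]
    have b1 : ‖iteratedFDeriv ℝ i h ξ‖ ≤ M := hM i hi2' ((hij.trans hj).trans (le_max_left _ _)) ξ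
    have b2 : ‖A‖ ^ i ≤ r⁻¹ := by
      have c2 : ‖A‖ ≤ 1 := hA.trans (Real.rpow_le_one_of_one_le_of_nonpos hr (by norm_num))
      calc ‖A‖ ^ i ≤ ‖A‖ ^ 2 := pow_le_pow_of_le_one (norm_nonneg _) c2 hi2'
        _ ≤ (r ^ (-(1/2) : ℝ)) ^ 2 := pow_le_pow_left₀ (norm_nonneg _) hA 2
        _ = r⁻¹ := by
          rw [← Real.rpow_natCast, ← Real.rpow_mul hr0.le]
          norm_num
          exact Real.rpow_neg_one r
    calc |τ| * ‖iteratedFDeriv ℝ i h ξ‖ * ‖A‖ ^ i ≤ r * M * r⁻¹ :=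
          mul_le_mul (mul_le_mul hτ b1 (norm_nonneg _) hr0.le) b2 (by positivity) (by positivity)
      _ = M := by field_simp
      _ ≤ (1 + M) ^ 1 := by linarith
      _ ≤ (1 + M) ^ i := pow_le_pow_right₀ (by linarith) hi1

theorem gradient_lip {h : V → ℝ} (hh : ContDiff ℝ ∞ h) {M : ℝ}
    (hM : ∀ ξ, ‖iteratedFDeriv ℝ 2 h ξ‖ ≤ M) (x y : V) :
    ‖gradient h x - gradient h y‖ ≤ M * ‖x - y‖ := by
  have hf : Differentiable ℝ (fderiv ℝ h) :=
    (hh.fderiv_right (m := (⊤ : ℕ∞)) (by exact_mod_cast le_rfl)).differentiable (by simp)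
  have h1 : ∀ z, ‖fderiv ℝ (fderiv ℝ h) z‖ ≤ M := by
    intro z
    have := hM z
    rw [← norm_iteratedFDeriv_fderiv, norm_iteratedFDeriv_one] at this
    exact this
  have h2 := Convex.norm_image_sub_le_of_norm_fderiv_le (f := fderiv ℝ h) (C := M) (s := Set.univ)
    (fun z _ => hf z) (fun z _ => h1 z) convex_univ (Set.mem_univ y) (Set.mem_univ x)
  have h3 : gradient h x - gradient h y =
      (InnerProductSpace.toDual ℝ V).symm (fderiv ℝ h x - fderiv ℝ h y) := by
    simp [gradient, map_sub]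
  rw [h3, LinearIsometryEquiv.norm_map]
  exact h2

/-- moving the centre of the weight. -/
theorem wE_move (n : ℕ) (A : V →L[ℝ] W) (c v : V) (f f' : V → ℂ)
    (hf : ∀ ξ, f' ξ = ee (-inner ℝ v ξ) * f ξ) : wE n A (c - v) f = wE n A c f' := by
  unfold wE
  rw [← LI_translate _ (-v)]
  congr 1
  funext x
  have e1 : x + -v - (c - v) = x - c := by abel
  have e2 : 𝓕⁻ f (x + -v) = 𝓕⁻ f' x := by
    rw [Real.fourierInv_eq, Real.fourierInv_eq]
    refine integral_congr_ae (Filter.Eventually.of_forall fun ξ => ?_)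
    simp only [Circle.smul_def, smul_eq_mul]
    rw [hf, ← ee_eq, ← ee_eq, ← mul_assoc, ← ee_add]
    congr 2
    rw [inner_add_right, inner_neg_right, real_inner_comm v ξ]
  rw [e1, e2]

/-- **(W4) transport**: local energy conservation along tubes, with moving centre. -/
theorem transport (n : ℕ) (M : ℝ) : ∃ C : ℝ, 0 ≤ C ∧ ∀ (A : V →L[ℝ] W) (h : V → ℝ),
    ContDiff ℝ ∞ h → (∀ i, 2 ≤ i → i ≤ max n 2 → ∀ ξ, ‖iteratedFDeriv ℝ i h ξ‖ ≤ M) →
    ∀ r : ℝ, 1 ≤ r → ‖A‖ ≤ r ^ (-(1/2) : ℝ) → ∀ (n0 : V) (S : Set V), Bornology.IsBounded S →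
    (∀ ξ ∈ S, ‖A (gradient h ξ - n0)‖ ≤ 1 / r) → ∀ g : V → ℂ, Integrable g → MemLp g 2 →
    (∀ ξ, g ξ ≠ 0 → ξ ∈ S) → ∀ (c : V) (t τ : ℝ), |τ| ≤ r →
    wE n A (c - τ • n0) (sl h g (t + τ)) ≤ ENNReal.ofReal C * wE n A c (sl h g t) := by
  classical
  obtain ⟨C1, hC1, h1⟩ := decayL (V := V) (W := W) n
  obtain ⟨K, hK, h2⟩ := cutoffC V
  set P : ℕ → ℝ := fun j => ∑ l ∈ Finset.range (j + 1), (j.choose l : ℝ) *
    (((l.factorial : ℝ) * (2 * Real.pi) ^ l * (1 + |M|) ^ l) * K (j - l)) with hP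
  have hP0 : ∀ j, 0 ≤ P j := fun j => Finset.sum_nonneg fun l _ => by
    have := hK (j - l)
    have := Real.pi_pos
    positivity
  set B : ℝ := 1 + ∑ j ∈ Finset.range (n + 1), P j with hB
  have hB0 : 0 < B := by
    have := Finset.sum_nonneg (s := Finset.range (n + 1)) fun j _ => hP0 j
    linarith
  refine ⟨C1 * B ^ 2, by positivity, ?_⟩
  intro A h hh hM r hr hA n0 S hSb hS g hg hg2 hgS c t τ hτ
  have hr0 : 0 < r := by linarith
  have hM0 : 0 ≤ M := (norm_nonneg _).trans (hM 2 le_rfl (le_max_right _ _) 0)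
  have hMabs : |M| = M := abs_of_nonneg hM0
  set ρ : ℝ := r ^ (-(1/2) : ℝ) with hρ
  have hρ0 : 0 < ρ := Real.rpow_pos_of_pos hr0 _
  have hρ2 : ρ * ρ = r⁻¹ := by
    rw [hρ, ← Real.rpow_add hr0]
    norm_num
    exact Real.rpow_neg_one r
  obtain ⟨χ, hχ1, hχ2, hχ3, hχ4, hχ5, hχ6⟩ := h2 S ρ hρ0
  set e : V → ℂ := fun ξ => ee (τ * (h ξ - inner ℝ n0 ξ)) with he
  have hψ : ContDiff ℝ ∞ (fun ξ => τ * (h ξ - inner ℝ n0 ξ)) :=
    contDiff_const.mul (hh.sub (innerSL ℝ n0).contDiff)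
  have hec : ContDiff ℝ ∞ e := contDiff_ee.comp hψ
  set m : V → ℂ := fun ξ => e ξ * χ ξ with hm
  have hmc : ContDiff ℝ ∞ m := hec.mul hχ1.1
  have hmS : HasCompactSupport m := by
    refine HasCompactSupport.intro' (K := Metric.cthickening ρ S) ?_ Metric.isClosed_cthickening ?_
    · exact Metric.isCompact_of_isClosed_isBounded Metric.isClosed_cthickening hSb.cthickening
    · intro ξ hξ
      rw [hm]
      simp only
      rw [hχ6 ξ fun hc => hξ (Metric.thickening_subset_cthickening ρ S hc), mul_zero]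
  have hmt : m.HasTemperateGrowth := hmS.hasTemperateGrowth hmc
  have hslI : Integrable (sl h g t) := by
    refine hg.mul_bdd (c := 1) ?_ (Filter.Eventually.of_forall fun ξ => (norm_ee _).le)
    exact ((contDiff_ee.continuous.comp (continuous_const.mul hh.continuous))).aestronglyMeasurable
  have hsl2 : MemLp (sl h g t) 2 := by
    refine MemLp.of_le hg2 ?_ (Filter.Eventually.of_forall fun ξ => ?_)
    · exact hslI.1
    · rw [sl, norm_mul, norm_ee, mul_one]
  have hb := h1 A c Unit Unit (fun _ _ => m) (fun _ => sl h g t) B hB0 (fun _ _ => hmt)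
    (fun _ => hslI) (fun _ => hsl2) ?_
  · simp only [Finset.univ_unique, Finset.sum_singleton] at hb
    rw [wE_move n A c (τ • n0) (sl h g (t + τ)) (fun ξ => m ξ * sl h g t ξ)]
    · exact hb
    · intro ξ
      by_cases hz : g ξ = 0
      · simp [sl, hz]
      · rw [hm]
        simp only [sl, he]
        rw [hχ2 ξ (hgS ξ hz), mul_one, inner_smul_left, add_mul, ee_add, mul_sub, sub_eq_add_neg,
          ee_add]
        simp only [conj_trivial]
        ring
  · intro j hj ξ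
    simp only [Finset.univ_unique, Finset.sum_singleton]
    refine pow_le_pow_left₀ (Nn_nonneg _ _ _ _) ?_ 2
    have hPB : P j ≤ B := by
      have := Finset.single_le_sum (f := P) (fun j _ => hP0 j) (Finset.mem_range.2 (Nat.lt_succ_of_le hj))
      linarith
    refine le_trans ?_ hPB
    refine (Nn_mul A (hec.of_le (by exact_mod_cast le_top)) (hχ1.1.of_le (by exact_mod_cast le_top))
      ξ).trans ?_
    refine Finset.sum_le_sum fun l hl => ?_
    have hl' : l ≤ j := by simpa [Nat.lt_succ_iff] using Finset.mem_range.1 hl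
    refine mul_le_mul_of_nonneg_left ?_ (by positivity)
    by_cases hξ : ξ ∈ Metric.thickening ρ S
    · refine mul_le_mul ?_ ?_ (Nn_nonneg _ _ _ _) (by positivity)
      · rw [hMabs]
        refine phase_Nn A hh hM hr hA hτ n0 ξ ?_ l (hl'.trans hj)
        rw [Metric.mem_thickening_iff] at hξ
        obtain ⟨z, hz, hξz⟩ := hξ
        rw [dist_eq_norm] at hξz
        have g1 := gradient_lip hh (fun ξ => hM 2 le_rfl (le_max_right _ _) ξ) ξ z
        have g2 : A (gradient h ξ - n0) = A (gradient h ξ - gradient h z) + A (gradient h z - n0) := by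
          rw [← map_add]; congr 1; abel
        rw [g2]
        refine (norm_add_le _ _).trans ?_
        have g3 : ‖A (gradient h ξ - gradient h z)‖ ≤ M / r := by
          refine (A.le_opNorm _).trans ?_
          calc ‖A‖ * ‖gradient h ξ - gradient h z‖ ≤ ρ * (M * ρ) :=
                mul_le_mul hA (g1.trans (mul_le_mul_of_nonneg_left hξz.le hM0)) (norm_nonneg _) hρ0.le
            _ = M / r := by
                rw [div_eq_mul_inv, ← hρ2]; ring
        have g4 := hS z hz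
        rw [add_div]
        linarith
      · refine (Nn_le_norm A (j - l) χ ξ).trans ?_
        refine (mul_le_mul (hχ5 (j - l) ξ) (pow_le_pow_left₀ (norm_nonneg _) hA (j - l))
          (by positivity) (by have := hK (j - l); positivity)).trans (le_of_eq ?_)
        rw [mul_assoc, ← mul_pow, inv_mul_cancel₀ hρ0.ne', one_pow, mul_one]
    · have hz : Nn A (j - l) χ ξ = 0 := by
        unfold Nn
        rw [hχ3 (j - l) ξ hξ, norm_eq_zero]
        ext v
        simp
      rw [hz, mul_zero]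
      have := hK (j - l)
      positivity

end transport

end Crest.Agent.R138.Wf448
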