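import Crest.Agent.R138.Wpk9_685

/-!
# R138 / R139: selectable wave packets, part 10 (helper685): the decomposition DEC.
-/

set_option autoImplicit false
set_option linter.unusedSectionVars false
set_option linter.unusedVariables false

open MeasureTheory FourierTransform
open scoped ContDiff ENNReal

namespace Crest.Agent.R138.Wpk685

open Crest.Agent.R138.Defs Crest.Agent.R138.W188

/-! ### the selections of a label -/

section lab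

variable (nn : ℕ → ℕ) (P : ℕ → ℕ → Tst) (A : ℕ → ℕ → Finset Cel)

/-- plates of a label. -/
def II (k : ℕ) : Finset ℕ :=
  (Finset.range (nn (lj k))).filter (fun i => (P (lj k) i).a 0 = la0 k ∧ (P (lj k) i).a 1 = la1 k)

/-- cells of a label. -/
def XX (k : ℕ) : Finset Cel := (II nn P k).biUnion (A (lj k))

variable {nn P A}

theorem mem_II {k i : ℕ} : i ∈ II nn P k ↔ i < nn (lj k) ∧ (P (lj k) i).a 0 = la0 k ∧
    (P (lj k) i).a 1 = la1 k := by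
  unfold II
  rw [Finset.mem_filter, Finset.mem_range]

theorem mem_XX {k : ℕ} {x : Cel} : x ∈ XX nn P A k ↔ ∃ i, i < nn (lj k) ∧
    (P (lj k) i).a 0 = la0 k ∧ (P (lj k) i).a 1 = la1 k ∧ x ∈ A (lj k) i := by
  unfold XX
  rw [Finset.mem_biUnion]
  constructor
  · rintro ⟨i, hi, hx⟩
    rw [mem_II] at hi
    exact ⟨i, hi.1, hi.2.1, hi.2.2, hx⟩
  · rintro ⟨i, h1, h2, h3, h4⟩
    exact ⟨i, mem_II.2 ⟨h1, h2, h3⟩, h4⟩

variable {X : ℕ → Finset Cel}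
  (hA : ∀ j, ∀ i < nn j, A j i ⊆ X j)
  (hd : ∀ j, ∀ i < nn j, ∀ i' < nn j, i ≠ i' → Disjoint (A j i) (A j i'))
  (hX : ∀ j, ∀ x, x ∈ X (j + 1) ↔ x ∈ X j ∧ ∀ i < nn j, x ∉ A j i)

include hA in
theorem XX_sub (k : ℕ) : XX nn P A k ⊆ X (lj k) := by
  intro x hx
  obtain ⟨i, h1, _, _, h4⟩ := mem_XX.1 hx
  exact hA _ i h1 h4

include hA hd hX in
theorem XX_disj {k k' : ℕ} (hne : k ≠ k') : Disjoint (XX nn P A k) (XX nn P A k') := by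
  rw [Finset.disjoint_left]
  intro x hx hx'
  obtain ⟨i, h1, h2, h3, h4⟩ := mem_XX.1 hx
  obtain ⟨i', h1', h2', h3', h4'⟩ := mem_XX.1 hx'
  obtain ⟨e1, e2⟩ := A_uniq hA hd hX h1 h1' h4 h4'
  apply hne
  rw [← lab_self k, ← lab_self k', ← h2, ← h3, ← h2', ← h3', ← e2, ← e1]

include hA hX in
theorem XX_union {n J : ℕ} (hP : ∀ j, ∀ i < nn j, (P j i).a 0 ≤ (P j i).a 1 ∧ (P j i).a 1 ≤ n)
    (x : Cel) : x ∈ X 0 \ X J ↔ ∃ k ∈ Lam n J, x ∈ XX nn P A k := by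
  rw [Finset.mem_sdiff, X_part hA hX J]
  constructor
  · rintro ⟨h1 | ⟨j, hj, i, hi, h1⟩, h2⟩
    · exact absurd h1 h2
    · refine ⟨lab ((P j i).a 0) ((P j i).a 1) j, ?_, ?_⟩
      · rw [mem_Lam, la0_lab, la1_lab, lj_lab]
        exact ⟨(hP j i hi).1, (hP j i hi).2, hj⟩
      · rw [mem_XX, la0_lab, la1_lab, lj_lab]
        exact ⟨i, hi, rfl, rfl, h1⟩
  · rintro ⟨k, hk, hx⟩
    obtain ⟨i, h1, h2, h3, h4⟩ := mem_XX.1 hx
    rw [mem_Lam] at hk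
    refine ⟨Or.inr ⟨lj k, hk.2.2, i, h1, h4⟩, fun h5 => ?_⟩
    have h6 := X_anti hX (Nat.succ_le_of_lt hk.2.2) h5
    exact ((hX (lj k) x).1 h6).2 i h1 h4

include hd in
theorem XX_sum (k : ℕ) (e : Cel → ℝ≥0∞) :
    ∑ x ∈ XX nn P A k, e x = ∑ i ∈ II nn P k, ∑ x ∈ A (lj k) i, e x := by
  unfold XX
  rw [Finset.sum_biUnion]
  intro i hi i' hi' hne
  exact hd _ i (mem_II.1 hi).1 i' (mem_II.1 hi').1 hne

end lab

/-! ### facts on the box of cells -/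

theorem pos_box {l K : ℝ} (hl : 0 < l) (hK : 0 ≤ K) {y : E2} (hy : ‖y‖ ≤ K * l ^ 2) :
    kk l y ∈ Finset.Icc (-⌈K * l⌉) ⌈K * l⌉ ×ˢ Finset.Icc (-⌈K * l⌉) ⌈K * l⌉ := by
  have h : ∀ i : Fin 2, ⌊y i / l⌋ ∈ Finset.Icc (-⌈K * l⌉) ⌈K * l⌉ := by
    intro i
    have h1 : |y i| ≤ K * l ^ 2 := (PiLp.norm_apply_le y i).trans hy
    have h2 : |y i / l| ≤ K * l := by
      rw [abs_div, abs_of_pos hl, div_le_iff₀ hl]
      linarith
    obtain ⟨h3, h4⟩ := abs_le.1 h2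
    have h5 : K * l ≤ ⌈K * l⌉ := Int.le_ceil _
    rw [Finset.mem_Icc]
    constructor
    · rw [Int.le_floor]
      push_cast
      linarith
    · have h6 := Int.floor_le (y i / l)
      have h7 : (⌊y i / l⌋ : ℝ) ≤ ⌈K * l⌉ := by linarith
      exact_mod_cast h7
  exact Finset.mem_product.2 ⟨h 0, h 1⟩

theorem pos_box' {l K : ℝ} (hl : 1 ≤ l) (hK : 0 ≤ K) {k : ℤ × ℤ}
    (hk : k ∈ Finset.Icc (-⌈K * l⌉) ⌈K * l⌉ ×ˢ Finset.Icc (-⌈K * l⌉) ⌈K * l⌉) :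
    ‖cen l k‖ ≤ 2 * (K + 1) * l ^ 2 := by
  have h : ∀ z : ℤ, z ∈ Finset.Icc (-⌈K * l⌉) ⌈K * l⌉ → |l * z| ≤ (K + 1) * l ^ 2 := by
    intro z hz
    obtain ⟨h1, h2⟩ := Finset.mem_Icc.1 hz
    have h3 : (⌈K * l⌉ : ℝ) < K * l + 1 := Int.ceil_lt_add_one _
    have h4 : (z : ℝ) ≤ ⌈K * l⌉ := by exact_mod_cast h2
    have h5 : (-⌈K * l⌉ : ℝ) ≤ z := by exact_mod_cast h1
    rw [abs_mul, abs_of_pos (by linarith : 0 < l)]
    have h6 : |(z:ℝ)| ≤ K * l + 1 := abs_le.2 ⟨by linarith, by linarith⟩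
    have h7 : K * l + 1 ≤ (K + 1) * l := by nlinarith
    calc l * |(z:ℝ)| ≤ l * ((K + 1) * l) := by
          have := h6.trans h7
          gcongr
      _ = _ := by ring
  have hk' := Finset.mem_product.1 hk
  have h0 := h _ hk'.1
  have h1 := h _ hk'.2
  have hp : 0 ≤ (K + 1) * l ^ 2 := by positivity
  refine le_of_sq_le_sq ?_ (by positivity)
  rw [EuclideanSpace.norm_sq_eq, Fin.sum_univ_two, cen_zero, cen_one]
  simp only [Real.norm_eq_abs]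
  have a0 := abs_nonneg (l * (k.1 : ℝ))
  have a1 := abs_nonneg (l * (k.2 : ℝ))
  nlinarith

theorem cst_pos {q ρ r : ℝ} (hρ : 0 < ρ) (hρ1 : ρ ≤ 1) (hr : 0 < r) (a : Fin 2 → ℕ) :
    0 < cst q ρ r a := by
  unfold cst
  have h0 := hρ.trans_le (sg_ge hρ hρ1 (a 0))
  have h1 := hρ.trans_le (sg_ge hρ hρ1 (a 1))
  positivity

/-- the initial density. -/
theorem dd_zero {C3 : ℝ} (hC3 : 0 ≤ C3) (H3 : ∀ ρ : ℝ, 0 < ρ → ρ ≤ 1 → ∀ g : E2 → ℂ,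
      Integrable g → MemLp g 2 → ∀ S : ℤ × ℤ → Set E2,
      en ρ g S ≤ ENNReal.ofReal C3 * ∫⁻ ξ, ‖g ξ‖ₑ ^ 2)
    {q : ℝ} (hq : 0 ≤ q) {h : E2 → ℝ} {r : ℝ} (hr : 1 ≤ r) {g : E2 → ℂ} (hg : Integrable g)
    (hg2 : MemLp g 2) {n : ℕ} {X : Finset Cel} (hX : ∀ x ∈ X, x.1 ∈ caps (r ^ (-(1/2) : ℝ))) :
    DD q h (r ^ (-(1/2) : ℝ)) (r ^ (-(1/2) : ℝ) * r) r g n X (C3 * En g * r ^ (q / 2)) := by
  classical
  obtain ⟨hρ, hρ1, hρ2⟩ := rp_facts hr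
  have hr0 : 0 < r := by linarith
  have hqr : (r ^ (-(1/2) : ℝ)) ^ q * r ^ (q / 2) = 1 := by
    rw [← Real.rpow_mul hr0.le, ← Real.rpow_add hr0]
    have : -(1/2) * q + q / 2 = 0 := by ring
    rw [this, Real.rpow_zero]
  set ρ : ℝ := r ^ (-(1/2) : ℝ) with hρdef
  intro p h1 h2
  calc ∑ x ∈ X with inP h ρ (ρ * r) r p x, ec ρ (ρ * r) g x ≤ ∑ x ∈ X, ec ρ (ρ * r) g x :=
        Finset.sum_le_sum_of_subset (Finset.filter_subset _ _)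
    _ = en ρ g (cs (ρ * r) X) := (en_cs _ _ _ _ hX).symm
    _ ≤ ENNReal.ofReal C3 * ∫⁻ ξ, ‖g ξ‖ₑ ^ 2 := H3 ρ hρ hρ1 g hg hg2 _
    _ = ENNReal.ofReal (C3 * En g) := by rw [lintEn hg2, ENNReal.ofReal_mul hC3]
    _ ≤ _ := by
        refine ENNReal.ofReal_le_ofReal ?_
        have e0 := sg_ge hρ hρ1 (p.a 0)
        have e1 := sg_ge hρ hρ1 (p.a 1)
        have e2 : ρ ^ q ≤ (sg ρ (p.a 1)) ^ q := Real.rpow_le_rpow hρ.le e1 hq
        have e3 : 1 ≤ sg ρ (p.a 0) * sg ρ (p.a 1) * r ^ 2 := by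
          calc (1:ℝ) ≤ r := hr
            _ = ρ ^ 2 * r ^ 2 := by rw [hρ2]; field_simp
            _ = ρ * ρ * r ^ 2 := by ring
            _ ≤ _ := by
              have hs0 : 0 < sg ρ (p.a 0) := hρ.trans_le e0
              gcongr
        have e4 : 0 ≤ C3 * En g := mul_nonneg hC3 (En_nn g)
        have e5 : 0 < r ^ (q / 2) := Real.rpow_pos_of_pos hr0 _
        have e6 : 0 < ρ ^ q := Real.rpow_pos_of_pos hρ _
        have e7 : ρ ^ q * 1 ≤ cst q ρ r p.a := by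
          unfold cst
          exact mul_le_mul e2 e3 zero_le_one (e6.le.trans e2)
        calc C3 * En g = C3 * En g * (r ^ (q / 2) * (ρ ^ q * 1)) := by
              rw [mul_one, mul_comm (r ^ (q / 2)), hqr, mul_one]
          _ ≤ C3 * En g * (r ^ (q / 2) * cst q ρ r p.a) := by gcongr
          _ = _ := by ring

/-- plates. -/
theorem plate_box {h : E2 → ℝ} {r : ℝ} (hr : 1 ≤ r) {p : Tst} {Y : Finset Cel}
    (hY : ∀ x ∈ Y, inP h (r ^ (-(1/2) : ℝ)) (r ^ (-(1/2) : ℝ) * r) r p x) {A : ℝ} (hA : 3 ≤ A)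
    (m : ℤ × ℤ) : cs (r ^ (-(1/2) : ℝ) * r) Y m ⊆
      pbox h r p.c p.b (fun k => A * (![sg (r ^ (-(1/2) : ℝ)) (p.a 0),
        sg (r ^ (-(1/2) : ℝ)) (p.a 1)] k)) p.y m := by
  obtain ⟨hρ, hρ1, hρ2⟩ := rp_facts hr
  have hr0 : 0 < r := by linarith
  intro y hy
  obtain ⟨h1, h2⟩ := hY _ hy
  simp only at h1 h2
  have e1 : ∀ k : Fin 2, ![sg (r ^ (-(1/2) : ℝ)) (p.a 0), sg (r ^ (-(1/2) : ℝ)) (p.a 1)] k =
      sg (r ^ (-(1/2) : ℝ)) (p.a k) := by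
    intro k; fin_cases k <;> rfl
  refine ⟨fun i => ?_, fun i => ?_⟩
  · simp only [e1]
    refine (h1 i).trans ?_
    have := hρ.trans_le (sg_ge hρ hρ1 (p.a i))
    nlinarith
  · simp only [e1]
    have h3 : y - p.y = (y - cen (r ^ (-(1/2) : ℝ) * r) (kk (r ^ (-(1/2) : ℝ) * r) y)) +
        (cen (r ^ (-(1/2) : ℝ) * r) (kk (r ^ (-(1/2) : ℝ) * r) y) - p.y) := by abel
    rw [h3, inner_add_left]
    refine (abs_add_le _ _).trans ?_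
    have hl : 0 < r ^ (-(1/2) : ℝ) * r := by positivity
    have h4 : |inner ℝ (y - cen (r ^ (-(1/2) : ℝ) * r) (kk (r ^ (-(1/2) : ℝ) * r) y)) (p.b i)| ≤
        3 / 2 * (r ^ (-(1/2) : ℝ) * r) := by
      refine (abs_real_inner_le_norm _ _).trans ?_
      rw [p.b.norm_eq_one, mul_one]
      exact kk_dist hl y
    have h5 := h2 i
    have h6 : r ^ (-(1/2) : ℝ) * r ≤ sg (r ^ (-(1/2) : ℝ)) (p.a i) * r := by
      have := sg_ge hρ hρ1 (p.a i)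
      gcongr
    have h7 : 0 < sg (r ^ (-(1/2) : ℝ)) (p.a i) * r := hl.trans_le h6
    nlinarith

theorem plate_pos {h : E2 → ℝ} {ρ l r : ℝ} {p : Tst} {x : Cel} (hr : 0 < r)
    (hx : inP h ρ l r p x) {K1 : ℝ} (hK : ‖cen l x.2‖ ≤ K1 * r) : ‖p.y‖ ≤ (K1 + 2) * r := by
  have h1 : ‖cen l x.2 - p.y‖ ≤ 2 * (1 * r) := by
    refine norm_le_of_inner p.b fun i => (hx.2 i).trans ?_
    have := sg_le_one ρ (p.a i)
    gcongr
  have h2 : ‖p.y‖ ≤ ‖cen l x.2‖ + ‖cen l x.2 - p.y‖ := by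
    calc ‖p.y‖ = ‖cen l x.2 - (cen l x.2 - p.y)‖ := by congr 1; abel
      _ ≤ _ := norm_sub_le _ _
  linarith

end Crest.Agent.R138.Wpk685
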