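import Crest.Agent.R138.Wpk10_685

/-!
# R138 / R139: selectable wave packets, part 11 (helper685): the decomposition DEC holds.
-/

set_option autoImplicit false
set_option linter.unusedSectionVars false
set_option linter.unusedVariables false

open MeasureTheory FourierTransform
open scoped ContDiff ENNReal

namespace Crest.Agent.R138.Wpk685

open Crest.Agent.R138.Defs Crest.Agent.R138.W188

/-- number of test boxes needed for the total energy. -/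
noncomputable def NB (B2 K : ℝ) : ℕ :=
  ((Finset.Icc (-⌈6 * (1 + |B2|)⌉) ⌈6 * (1 + |B2|)⌉ ×ˢ
    Finset.Icc (-⌈6 * (1 + |B2|)⌉) ⌈6 * (1 + |B2|)⌉) ×ˢ
    (Finset.Icc (-⌈K⌉) ⌈K⌉ ×ˢ Finset.Icc (-⌈K⌉) ⌈K⌉)).card

theorem small_case {B : ℕ → ℝ} {q : ℝ} {A : ℝ} {Na : ℕ} {M0 : ℝ} {M : ℕ} {C5 : ℝ} (hC5 : 0 ≤ C5)
    (H5 : ∀ (h : E2 → ℝ) (F : E2 → ℂ), MemLp F 2 → (∀ ξ, 2 < ‖ξ‖ → F ξ = 0) →
      ∀ (x : E2) (t : ℝ), ‖ext h F x t‖ ≤ C5 * Real.sqrt (En F))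
    {C ε : ℝ} (hε : 0 < ε) (hC1 : 1 ≤ C) (hC2 : C5 * 1296 ^ M ≤ C) {R r : ℝ} (hR : 1 ≤ R)
    (hRr : R ^ (1/2 : ℝ) ≤ r) (hr36 : r < 36) :
    ∃ (Λ : Finset ℕ) (s : ℕ → ℝ × ℝ), (Λ.card : ℝ) ≤ C * R ^ ε ∧
    (∀ k ∈ Λ, Sd r (s k).1 (s k).2) ∧
    ∀ h g D, St B q Na M0 (1/2) h g R D → ∀ z ∈ cyl R,
      ∃ (G : ℕ → E2 → ℂ) (D' : ℕ → ℝ) (rest : E2 → ℂ) (I : ℕ → Finset ℕ) (P : ℕ → ℕ → Plate),
        (∀ ξ, tr h z g ξ = ∑ k ∈ Λ, G k ξ + rest ξ) ∧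
        (∀ k ∈ Λ, St B q 6 4 1 h (G k) r (D' k)) ∧
        (∀ k ∈ Λ, Plates A h r (s k).1 (s k).2 R (I k) (P k) ∧ ∀ i ∈ I k, (P k i).z = z) ∧
        (∀ k ∈ Λ, ENNReal.ofReal (SS (G k) r (D' k)) ≤
          ENNReal.ofReal (C * R ^ ε) * (ENNReal.ofReal ((s k).2 ^ (-q / 2)) *
            val h g r (s k).1 (s k).2 (I k) (P k))) ∧
        Measurable rest ∧ (∃ L : ℝ, ∀ ξ, ‖rest ξ‖ ≤ L) ∧ (∀ ξ, 2 < ‖ξ‖ → rest ξ = 0) ∧
        En rest ≤ C * R ^ ε * En g ∧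
        ∀ p : E2 × ℝ, ‖p.1‖ ≤ 8 * r → |p.2| ≤ 8 * r →
          ‖ext h rest p.1 p.2‖ ≤ C * R ^ (-(M : ℝ)) * Real.sqrt (En g) := by
  have hR0 : 0 < R := by linarith
  have hRe : 1 ≤ R ^ ε := Real.one_le_rpow hR hε.le
  have hC0 : 0 ≤ C := by linarith
  have hR1296 : R < 1296 := by
    have h1 : R = (R ^ (1/2 : ℝ)) ^ 2 := by
      rw [← Real.rpow_natCast, ← Real.rpow_mul hR0.le]; norm_num
    rw [h1]
    have h2 : 0 ≤ R ^ (1/2 : ℝ) := by positivity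
    nlinarith
  refine ⟨∅, fun _ => (1, 1), by simp; positivity, by simp, ?_⟩
  intro h g D hSt z hz
  have hhc : Continuous h := hSt.par.1.continuous
  have htm : Measurable (tr h z g) := by
    unfold tr
    exact hSt.meas.mul (phase_cont hhc z.1 z.2).measurable
  obtain ⟨L, hL⟩ := hSt.bdd
  have htb : ∀ ξ, ‖tr h z g ξ‖ ≤ L := fun ξ => by rw [norm_tr']; exact hL ξ
  have hts : ∀ ξ, 2 < ‖ξ‖ → tr h z g ξ = 0 := fun ξ hξ => by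
    unfold tr; rw [hSt.supp ξ (by linarith), zero_mul]
  refine ⟨fun _ _ => 0, fun _ => 0, tr h z g, fun _ => ∅, fun _ _ =>
    ⟨0, 0, EuclideanSpace.basisFun (Fin 2) ℝ, 0, fun _ => ∅⟩, by simp, by simp, by simp, by simp,
    htm, ⟨L, htb⟩, hts, ?_, ?_⟩
  · rw [En_tr']
    have := En_nn g
    have h1 : 1 ≤ C * R ^ ε := by nlinarith
    nlinarith
  · intro p _ _
    refine (H5 h _ (int_of_bdd htm htb hts).2 hts p.1 p.2).trans ?_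
    rw [En_tr']
    have h1 : C5 ≤ C * R ^ (-(M : ℝ)) := by
      rw [Real.rpow_neg hR0.le, Real.rpow_natCast, ← div_eq_mul_inv, le_div_iff₀ (by positivity)]
      refine le_trans ?_ hC2
      gcongr
    gcongr

theorem big_case {B : ℕ → ℝ} {q : ℝ} (hq : 0 ≤ q) {A : ℝ} {Na : ℕ} {M0 : ℝ} {M : ℕ}
    {C1 C2 C3 C4 C5 C6 : ℝ}
    (hC1 : 0 ≤ C1) (hC2 : 0 ≤ C2) (hC3 : 0 ≤ C3) (hC4 : 0 ≤ C4) (hC5 : 0 ≤ C5) (hC6 : 0 ≤ C6)
    (H1 : ∀ h, ParB B h → ∀ r : ℝ, 1 ≤ r → ∀ g : E2 → ℂ, Integrable g →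
      (∀ ξ, 2 < ‖ξ‖ → g ξ = 0) →
      ∀ S : ℤ × ℤ → Set E2, Bs (r ^ (-(1/2) : ℝ)) S → ∀ Δ : ℝ, 0 ≤ Δ → Dens q h r g S Δ →
      W188.PBox q 6 h (sel (r ^ (-(1/2) : ℝ)) g S) r (C1 * Δ))
    (H2 : ∀ ρ : ℝ, 0 < ρ → ρ ≤ 1 → ∀ g : E2 → ℂ, Integrable g → ∀ S : ℤ × ℤ → Set E2, Bs ρ S →
      ∫⁻ ξ, ‖sel ρ g S ξ‖ₑ ^ 2 ≤ ENNReal.ofReal C2 * en ρ g S)
    (H3 : ∀ ρ : ℝ, 0 < ρ → ρ ≤ 1 → ∀ g : E2 → ℂ,
      Integrable g → MemLp g 2 → ∀ S : ℤ × ℤ → Set E2,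
      en ρ g S ≤ ENNReal.ofReal C3 * ∫⁻ ξ, ‖g ξ‖ₑ ^ 2)
    (H4 : ∀ h, ParB B h → fderiv ℝ h 0 = 0 → ∀ r : ℝ, 1 ≤ r → ∀ g : E2 → ℂ, Integrable g →
      MemLp g 2 → (∀ ξ, 2 < ‖ξ‖ → g ξ = 0) → ∀ S : ℤ × ℤ → Set E2, Bs (r ^ (-(1/2) : ℝ)) S →
      (∀ m ∈ caps (r ^ (-(1/2) : ℝ)),
        Metric.closedBall 0 ((1 + 8 + 4 * 8 * (1 + |B 2|)) * r) ⊆ S m) →
      ∀ (x : E2) (t : ℝ), ‖x‖ ≤ 8 * r → |t| ≤ 8 * r →
      ‖ext h g x t - ext h (sel (r ^ (-(1/2) : ℝ)) g S) x t‖ₑ ^ 2 ≤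
        ENNReal.ofReal (C4 * (r ^ (2 * (2 * M)))⁻¹) * ∫⁻ ξ, ‖g ξ‖ₑ ^ 2)
    (H5 : ∀ (h : E2 → ℝ) (F : E2 → ℂ), MemLp F 2 → (∀ ξ, 2 < ‖ξ‖ → F ξ = 0) →
      ∀ (x : E2) (t : ℝ), ‖ext h F x t‖ ≤ C5 * Real.sqrt (En F))
    {ε : ℝ} (hε : 0 < ε)
    (H6 : ∀ R : ℝ, 1 ≤ R → ((Lam ⌈Real.logb 2 R⌉₊
      ((2 * M + ⌈q / 2⌉₊ + 2) * ⌈Real.logb 2 R⌉₊)).card : ℝ) ≤ C6 * R ^ ε)
    {K K1 N7 Cp : ℝ} (hK : K = 1 + 8 + 4 * 8 * (1 + |B 2|)) (hK1 : K1 = 2 * (K + 1))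
    (hN7 : N7 = NB (B 2) K1) (hCp : Cp = C1 * (49 * 2 ^ (q + 2)) + C2 * N7)
    (hA : K1 + 3 ≤ A)
    {C : ℝ} (hCC6 : C6 ≤ C) (hCC2 : C2 * Real.sqrt Cp * Real.sqrt 2 ≤ C)
    (hCC3 : 2 + 2 * (C2 * C3) ≤ C)
    (hCC4 : Real.sqrt C4 + C5 * Real.sqrt (C2 * (N7 * C3)) ≤ C)
    {R r : ℝ} (hR : 1 ≤ R) (hRr : R ^ (1/2 : ℝ) ≤ r) (hrR : r ≤ R) (hr36 : 36 ≤ r) :
    ∃ (Λ : Finset ℕ) (s : ℕ → ℝ × ℝ), (Λ.card : ℝ) ≤ C * R ^ ε ∧
    (∀ k ∈ Λ, Sd r (s k).1 (s k).2) ∧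
    ∀ h g D, St B q Na M0 (1/2) h g R D → ∀ z ∈ cyl R,
      ∃ (G : ℕ → E2 → ℂ) (D' : ℕ → ℝ) (rest : E2 → ℂ) (I : ℕ → Finset ℕ) (P : ℕ → ℕ → Plate),
        (∀ ξ, tr h z g ξ = ∑ k ∈ Λ, G k ξ + rest ξ) ∧
        (∀ k ∈ Λ, St B q 6 4 1 h (G k) r (D' k)) ∧
        (∀ k ∈ Λ, Plates A h r (s k).1 (s k).2 R (I k) (P k) ∧ ∀ i ∈ I k, (P k i).z = z) ∧
        (∀ k ∈ Λ, ENNReal.ofReal (SS (G k) r (D' k)) ≤
          ENNReal.ofReal (C * R ^ ε) * (ENNReal.ofReal ((s k).2 ^ (-q / 2)) *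
            val h g r (s k).1 (s k).2 (I k) (P k))) ∧
        Measurable rest ∧ (∃ L : ℝ, ∀ ξ, ‖rest ξ‖ ≤ L) ∧ (∀ ξ, 2 < ‖ξ‖ → rest ξ = 0) ∧
        En rest ≤ C * R ^ ε * En g ∧
        ∀ p : E2 × ℝ, ‖p.1‖ ≤ 8 * r → |p.2| ≤ 8 * r →
          ‖ext h rest p.1 p.2‖ ≤ C * R ^ (-(M : ℝ)) * Real.sqrt (En g) := by
  classical
  have hR0 : 0 < R := by linarith
  have hr1 : 1 ≤ r := by linarith
  have hr0 : 0 < r := by linarith
  have hRe : 1 ≤ R ^ ε := Real.one_le_rpow hR hε.le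
  have hC0 : 0 ≤ C := hC6.trans hCC6
  have hCR : C ≤ C * R ^ ε := le_mul_of_one_le_right hC0 hRe
  have hB2 : 0 ≤ |B 2| := abs_nonneg _
  have hK0 : 0 ≤ K := by rw [hK]; positivity
  have hK11 : 1 ≤ K1 := by rw [hK1]; linarith
  have hN70 : 0 ≤ N7 := by rw [hN7]; positivity
  have hCp0 : 0 ≤ Cp := by rw [hCp]; positivity
  obtain ⟨hρ, hρ1, hρ2⟩ := rp_facts hr1
  have hρ6 : r ^ (-(1/2) : ℝ) ≤ 1 / 6 := by
    refine le_of_sq_le_sq ?_ (by norm_num)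
    rw [hρ2]
    rw [inv_eq_one_div, div_le_iff₀ hr0]
    linarith
  -- abbreviations
  obtain ⟨ρ, hρe⟩ : ∃ ρ : ℝ, ρ = r ^ (-(1/2) : ℝ) := ⟨_, rfl⟩
  rw [← hρe] at hρ hρ1 hρ2 hρ6
  set l : ℝ := ρ * r with hl
  have hl2 : l ^ 2 = r := by
    rw [hl, mul_pow, hρ2]; field_simp
  have hl0 : 0 < l := by positivity
  have hl1 : 1 ≤ l := by
    refine le_of_sq_le_sq ?_ hl0.le
    rw [hl2]; linarith
  set n : ℕ := ⌈Real.logb 2 R⌉₊ with hn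
  have hRn : R ≤ 2 ^ n := two_pow_logb hR
  have hnρ : 1 ≤ 2 ^ n * ρ := by
    calc (1:ℝ) ≤ l := hl1
      _ = r * ρ := by rw [hl]; ring
      _ ≤ 2 ^ n * ρ := by
        have := hrR.trans hRn
        gcongr
  set T : ℕ := 2 * M + ⌈q / 2⌉₊ + 2 with hT
  set J : ℕ := T * n with hJ
  have hJR : R ^ T ≤ 2 ^ J := by
    rw [hJ, mul_comm, pow_mul]
    gcongr
  refine ⟨Lam n J, fun k => (sg ρ (la0 k), sg ρ (la1 k)), ?_, ?_, ?_⟩
  · refine (H6 R hR).trans ?_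
    gcongr
  · intro k hk
    rw [mem_Lam] at hk
    refine ⟨?_, sg_mono hρ hk.1, sg_le_one _ _⟩
    rw [← hρe]
    exact sg_ge hρ hρ1 _
  intro h g D hSt z hz
  have hhc : Continuous h := hSt.par.1.continuous
  obtain ⟨g', hg'⟩ : ∃ g', g' = tr h z g := ⟨_, rfl⟩
  have htm : Measurable g' := by
    rw [hg']
    unfold tr
    exact hSt.meas.mul (phase_cont hhc z.1 z.2).measurable
  obtain ⟨L, hL⟩ := hSt.bdd
  have htb : ∀ ξ, ‖g' ξ‖ ≤ L := fun ξ => by rw [hg', norm_tr']; exact hL ξ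
  have hts' : ∀ ξ, 1 / 2 < ‖ξ‖ → g' ξ = 0 := fun ξ hξ => by
    rw [hg']; unfold tr; rw [hSt.supp ξ hξ, zero_mul]
  have hts : ∀ ξ, 2 < ‖ξ‖ → g' ξ = 0 := fun ξ hξ => hts' ξ (by linarith)
  have hEn : En g' = En g := by rw [hg', En_tr']
  obtain ⟨hgi, hg2⟩ := int_of_bdd htm htb hts
  -- the cells
  set X0 : Finset Cel := caps ρ ×ˢ
    (Finset.Icc (-⌈K * l⌉) ⌈K * l⌉ ×ˢ Finset.Icc (-⌈K * l⌉) ⌈K * l⌉) with hX0
  have hX0c : ∀ x ∈ X0, x.1 ∈ caps ρ := fun x hx => (Finset.mem_product.1 hx).1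
  have hX0p : ∀ x ∈ X0, ‖cen l x.2‖ ≤ K1 * r := by
    intro x hx
    rw [hK1, ← hl2]
    exact pos_box' hl1 hK0 (Finset.mem_product.1 hx).2
  set Δ0 : ℝ := C3 * En g' * r ^ (q / 2) with hΔ0
  have hrq : 0 < r ^ (q / 2) := Real.rpow_pos_of_pos hr0 _
  have hΔ00 : 0 ≤ Δ0 := mul_nonneg (mul_nonneg hC3 (En_nn g')) hrq.le
  have hDD0 : DD q h ρ l r g' n X0 Δ0 := by
    rw [hΔ0, hl, hρe]
    exact dd_zero hC3 H3 hq hr1 hgi hg2 (by rw [← hρe]; exact hX0c)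
  obtain ⟨X, nn, P, Ac, hXz, hAc, hdis, hXs, hDD⟩ := greedy X0 hDD0
  have hAX : ∀ j, ∀ i < nn j, Ac j i ⊆ X j := fun j i hi => (hAc j i hi).1
  have hXX0 : ∀ j, X j ⊆ X0 := fun j => by
    rw [← hXz]; exact X_anti hXs (Nat.zero_le j)
  have hBs : ∀ Y : Finset Cel, Bs ρ (cs l Y) := fun Y => cs_Bs hl0 ρ Y
  set Y : Finset Cel := X 0 \ X J with hY
  have hΔj : ∀ j : ℕ, 0 ≤ Δ0 / 2 ^ j := fun j => by positivity
  -- energies
  have hsel2 : ∀ Y : Finset Cel, MemLp (sel ρ g' (cs l Y)) 2 := fun Y =>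
    (sel_int hρ hgi (hBs Y)).2
  have hseli : ∀ Y : Finset Cel, Integrable (sel ρ g' (cs l Y)) := fun Y =>
    (sel_int hρ hgi (hBs Y)).1
  have hselEn : ∀ Y : Finset Cel, (∀ x ∈ Y, x.1 ∈ caps ρ) →
      ENNReal.ofReal (En (sel ρ g' (cs l Y))) ≤ ENNReal.ofReal C2 * ∑ x ∈ Y, ec ρ l g' x := by
    intro Y hYc
    rw [← lintEn (hsel2 Y), ← en_cs ρ l g' Y hYc]
    exact H2 ρ hρ hρ1 g' hgi _ (hBs Y)
  have hselEn' : ∀ Y : Finset Cel, (∀ x ∈ Y, x.1 ∈ caps ρ) →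
      En (sel ρ g' (cs l Y)) ≤ C2 * C3 * En g' := by
    intro Y hYc
    have h1 := hselEn Y hYc
    rw [← en_cs ρ l g' Y hYc] at h1
    have h2 := H3 ρ hρ hρ1 g' hgi hg2 (cs l Y)
    rw [lintEn hg2] at h2
    have h3 : ENNReal.ofReal (En (sel ρ g' (cs l Y))) ≤ ENNReal.ofReal (C2 * C3 * En g') := by
      rw [mul_assoc, ENNReal.ofReal_mul hC2, ENNReal.ofReal_mul hC3]
      exact h1.trans (by gcongr)
    rwa [ENNReal.ofReal_le_ofReal_iff (mul_nonneg (mul_nonneg hC2 hC3) (En_nn g'))] at h3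
  have hselD : ∀ (Y : Finset Cel) (j : ℕ), Y ⊆ X j →
      En (sel ρ g' (cs l Y)) ≤ C2 * (N7 * (Δ0 / 2 ^ j * r ^ 2)) := by
    intro Y j hYj
    have hYc : ∀ x ∈ Y, x.1 ∈ caps ρ := fun x hx => hX0c x (hXX0 j (hYj hx))
    have h1 := hselEn Y hYc
    have h2 : ∑ x ∈ Y, ec ρ l g' x ≤ ENNReal.ofReal (N7 * (Δ0 / 2 ^ j * r ^ 2)) := by
      rw [hl, hρe, hN7]
      refine tot_le B hSt.par hSt.h1 hr1 (n := n) (by rw [← hρe]; exact hnρ) hK11 ?_ (hΔj j)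
        (q := q) ?_
      · intro x hx
        rw [← hρe]
        exact ⟨hYc x hx, hX0p x (hXX0 j (hYj hx))⟩
      · rw [← hρe]
        exact (hDD j).mono hYj
    have h3 : ENNReal.ofReal (En (sel ρ g' (cs l Y))) ≤
        ENNReal.ofReal (C2 * (N7 * (Δ0 / 2 ^ j * r ^ 2))) := by
      rw [ENNReal.ofReal_mul hC2]
      exact h1.trans (by gcongr)
    have := hΔj j
    rwa [ENNReal.ofReal_le_ofReal_iff (by positivity)] at h3
  have hsupp : ∀ (Y : Finset Cel) (ξ : E2), 1 < ‖ξ‖ → sel ρ g' (cs l Y) ξ = 0 := by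
    intro Y ξ hξ
    exact sel_supp hρ hts' ξ (by linarith)
  have hIcaps : ∀ k, ∀ x ∈ XX nn P Ac k, x.1 ∈ caps ρ := fun k x hx =>
    hX0c x (hXX0 _ (XX_sub hAX k hx))
  have hYcaps : ∀ x ∈ Y, x.1 ∈ caps ρ := fun x hx =>
    hX0c x (hXX0 0 (Finset.mem_sdiff.1 hx).1)
  -- decompositions
  have hsum1 : ∀ ξ, sel ρ g' (cs l Y) ξ = ∑ k ∈ Lam n J, sel ρ g' (cs l (XX nn P Ac k)) ξ := by
    intro ξ
    refine sel_sum hl0 hgi (Lam n J) (fun k => XX nn P Ac k) Y ?_ ?_ ξ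
    · intro k _ k' _ hne
      exact XX_disj hAX hdis hXs hne
    · intro x
      exact XX_union hAX hXs (fun j i hi => ⟨(hAc j i hi).2.1, (hAc j i hi).2.2.1⟩) x
  have hsum2 : ∀ ξ, sel ρ g' (cs l X0) ξ = sel ρ g' (cs l Y) ξ + sel ρ g' (cs l (X J)) ξ := by
    intro ξ
    have h1 := sel_sum (ρ := ρ) hl0 hgi (Finset.univ : Finset Bool)
      (fun b => if b then Y else X J) X0 ?_ ?_ ξ
    · rw [Fintype.sum_bool] at h1
      simpa using h1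
    · intro b _ b' _ hne
      have hd : Disjoint Y (X J) := Finset.sdiff_disjoint
      cases b <;> cases b' <;> simp at hne ⊢
      · exact hd.symm
      · exact hd
    · intro x
      have hsub : X J ⊆ X 0 := X_anti hXs (Nat.zero_le J)
      constructor
      · intro hx
        by_cases h2 : x ∈ X J
        · exact ⟨false, Finset.mem_univ _, by simpa using h2⟩
        · exact ⟨true, Finset.mem_univ _, by simp [hY, hXz, hx, h2]⟩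
      · rintro ⟨b, _, hb⟩
        cases b
        · exact hXX0 J (by simpa using hb)
        · have h3 : x ∈ Y := by simpa using hb
          rw [← hXz]
          exact (Finset.mem_sdiff.1 h3).1
  obtain ⟨LY, hLY⟩ := sel_bdd hρ hgi (hBs Y)
  refine ⟨fun k => sel ρ g' (cs l (XX nn P Ac k)), fun k => Cp * (Δ0 / 2 ^ lj k),
    fun ξ => g' ξ - sel ρ g' (cs l Y) ξ, fun k => II nn P k, fun k i =>
    ⟨z, (P (lj k) i).c, (P (lj k) i).b, (P (lj k) i).y, cs l (Ac (lj k) i)⟩, ?_, ?_, ?_, ?_, ?_, ?_,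
    ?_, ?_, ?_⟩
  · intro ξ
    rw [← hg', ← hsum1]
    ring
  · -- states
    intro k hk
    obtain ⟨Lk, hLk⟩ := sel_bdd hρ hgi (hBs (XX nn P Ac k))
    have hsub := XX_sub (P := P) (X := X) hAX k
    refine ⟨hSt.par, hSt.h0, hSt.h1, (sel_cont hgi (hBs _)).measurable, ⟨Lk, hLk⟩, hsupp _, hr1,
      mul_nonneg hCp0 (hΔj _), ?_, ?_⟩
    · have h1 : Dens q h r g' (cs l (XX nn P Ac k)) (49 * 2 ^ (q + 2) * (Δ0 / 2 ^ lj k)) := by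
        rw [hl, hρe]
        refine dens_of_dd hq hr1 (n := n) (by rw [← hρe]; exact hnρ) ?_ (hΔj _) ?_
        · rw [← hρe]; exact hIcaps k
        · rw [← hρe]; exact (hDD (lj k)).mono hsub
      have h2 := H1 h hSt.par r hr1 g' hgi hts (cs l (XX nn P Ac k)) (by rw [← hρe]; exact hBs _)
        (49 * 2 ^ (q + 2) * (Δ0 / 2 ^ lj k)) (by have := hΔj (lj k); positivity) h1
      rw [← hρe] at h2
      refine PBox_mono hr1 h2 ?_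
      have h3 := hΔj (lj k)
      rw [hCp]
      have h4 : 0 ≤ C2 * N7 * (Δ0 / 2 ^ lj k) := by positivity
      calc C1 * (49 * 2 ^ (q + 2) * (Δ0 / 2 ^ lj k)) =
            C1 * (49 * 2 ^ (q + 2)) * (Δ0 / 2 ^ lj k) := by ring
        _ ≤ C1 * (49 * 2 ^ (q + 2)) * (Δ0 / 2 ^ lj k) + C2 * N7 * (Δ0 / 2 ^ lj k) := by linarith
        _ = _ := by ring
    · refine (hselD _ _ hsub).trans ?_
      have h3 := hΔj (lj k)
      have h4 : r ^ (4 : ℝ) = r ^ 4 := by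
        rw [← Real.rpow_natCast]; norm_num
      rw [h4]
      have h5 : r ^ 2 ≤ r ^ 4 := pow_le_pow_right₀ hr1 (by norm_num)
      have h6 : C2 * N7 ≤ Cp := by
        rw [hCp]
        have : 0 ≤ C1 * (49 * 2 ^ (q + 2)) := by positivity
        linarith
      calc C2 * (N7 * (Δ0 / 2 ^ lj k * r ^ 2)) = r ^ 2 * ((C2 * N7) * (Δ0 / 2 ^ lj k)) := by ring
        _ ≤ r ^ 4 * (Cp * (Δ0 / 2 ^ lj k)) := by gcongr
  · -- plates
    intro k hk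
    refine ⟨⟨fun i _ => hz, fun i _ j _ => Or.inl rfl, ?_, fun i _ m => cs_meas _ _ _, ?_, ?_⟩,
      fun i _ => rfl⟩
    · intro i hi
      obtain ⟨hi1, hi2, hi3⟩ := mem_II.1 hi
      obtain ⟨h1, h2, h3, h4, h5⟩ := hAc _ i hi1
      have hne : (Ac (lj k) i).Nonempty := by
        by_contra hne
        rw [Finset.not_nonempty_iff_eq_empty] at hne
        rw [hne, Finset.sum_empty] at h5
        exact not_lt_zero h5
      obtain ⟨x, hx⟩ := hne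
      have h6 := plate_pos hr0 (h4 x hx) (hX0p x (hXX0 _ (h1 hx)))
      refine h6.trans ?_
      have : K1 + 2 ≤ A := by linarith
      gcongr
    · intro i hi m
      obtain ⟨hi1, hi2, hi3⟩ := mem_II.1 hi
      have h1 := plate_box hr1 (h := h) (p := P (lj k) i) (Y := Ac (lj k) i)
        (by rw [← hρe]; exact (hAc _ i hi1).2.2.2.1) (A := A) (by linarith) m
      rw [← hρe, hi2, hi3] at h1
      exact h1
    · intro i hi j hj hij _ m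
      have h1 := hdis _ i (mem_II.1 hi).1 j (mem_II.1 hj).1 hij
      rw [Set.disjoint_left]
      intro y hy hy'
      exact Finset.disjoint_left.1 h1 hy hy'
  · -- D6
    intro k hk
    have hsub := XX_sub (P := P) (X := X) hAX k
    have h1 := hselEn (XX nn P Ac k) (hIcaps k)
    rw [XX_sum hdis] at h1
    have hs1 : 0 < sg ρ (la0 k) := hρ.trans_le (sg_ge hρ hρ1 _)
    have hs2 : 0 < sg ρ (la1 k) := hρ.trans_le (sg_ge hρ hρ1 _)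
    have hcase : ∀ i ∈ II nn P k, ENNReal.ofReal (Real.sqrt (Δ0 / 2 ^ lj k) * r) *
        (∑ x ∈ Ac (lj k) i, ec ρ l g' x) ≤ ENNReal.ofReal (Real.sqrt 2) *
        (ENNReal.ofReal ((sg ρ (la1 k)) ^ (-q / 2)) *
          (ENNReal.ofReal ((sg ρ (la0 k) * sg ρ (la1 k) * r ^ 3) ^ (-(1/2) : ℝ)) *
          (ENNReal.ofReal r * (∑ x ∈ Ac (lj k) i, ec ρ l g' x)) ^ (3 / 2 : ℝ))) := by
      intro i hi
      obtain ⟨hi1, hi2, hi3⟩ := mem_II.1 hi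
      obtain ⟨h2, h3, h4, h5, h6⟩ := hAc _ i hi1
      refine d6_enn hs1 hs2 hr0 (hΔj _) ?_ ?_
      · rw [← en_cs ρ l g' _ (fun x hx => hX0c x (hXX0 _ (h2 hx)))]
        refine ne_of_lt ((H3 ρ hρ hρ1 g' hgi hg2 _).trans_lt ?_)
        rw [lintEn hg2]
        exact ENNReal.mul_lt_top ENNReal.ofReal_lt_top ENNReal.ofReal_lt_top
      · refine le_trans (le_of_eq ?_) h6.le
        unfold cst
        rw [hi2, hi3, pow_succ]
        congr 2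
        ring
    have h7 : SS (sel ρ g' (cs l (XX nn P Ac k))) r (Cp * (Δ0 / 2 ^ lj k)) =
        Real.sqrt Cp * ((Real.sqrt (Δ0 / 2 ^ lj k) * r) * En (sel ρ g' (cs l (XX nn P Ac k)))) := by
      unfold SS
      rw [Real.sqrt_mul hCp0]
      ring
    have hval : val h g r (sg ρ (la0 k)) (sg ρ (la1 k)) (II nn P k) (fun i =>
        ⟨z, (P (lj k) i).c, (P (lj k) i).b, (P (lj k) i).y, cs l (Ac (lj k) i)⟩) =
        ∑ i ∈ II nn P k, (ENNReal.ofReal ((sg ρ (la0 k) * sg ρ (la1 k) * r ^ 3) ^ (-(1/2) : ℝ)) *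
          (ENNReal.ofReal r * (∑ x ∈ Ac (lj k) i, ec ρ l g' x)) ^ (3 / 2 : ℝ)) := by
      unfold val
      refine Finset.sum_congr rfl fun i hi => ?_
      obtain ⟨hi1, hi2, hi3⟩ := mem_II.1 hi
      simp only
      rw [← hg', ← hρe, en_cs ρ l g' _ (fun x hx => hX0c x (hXX0 _ (hAX _ i hi1 hx)))]
    simp only
    rw [hval, h7, ENNReal.ofReal_mul (Real.sqrt_nonneg _),
      ENNReal.ofReal_mul (by positivity : 0 ≤ Real.sqrt (Δ0 / 2 ^ lj k) * r)]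
    calc ENNReal.ofReal (Real.sqrt Cp) * (ENNReal.ofReal (Real.sqrt (Δ0 / 2 ^ lj k) * r) *
          ENNReal.ofReal (En (sel ρ g' (cs l (XX nn P Ac k))))) ≤
        ENNReal.ofReal (Real.sqrt Cp) * (ENNReal.ofReal (Real.sqrt (Δ0 / 2 ^ lj k) * r) *
          (ENNReal.ofReal C2 * ∑ i ∈ II nn P k, ∑ x ∈ Ac (lj k) i, ec ρ l g' x)) := by gcongr
      _ = ENNReal.ofReal C2 * ENNReal.ofReal (Real.sqrt Cp) * (∑ i ∈ II nn P k,
          ENNReal.ofReal (Real.sqrt (Δ0 / 2 ^ lj k) * r) * ∑ x ∈ Ac (lj k) i, ec ρ l g' x) := by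
          rw [← Finset.mul_sum]; ring
      _ ≤ ENNReal.ofReal C2 * ENNReal.ofReal (Real.sqrt Cp) * (∑ i ∈ II nn P k,
          ENNReal.ofReal (Real.sqrt 2) * (ENNReal.ofReal ((sg ρ (la1 k)) ^ (-q / 2)) *
          (ENNReal.ofReal ((sg ρ (la0 k) * sg ρ (la1 k) * r ^ 3) ^ (-(1/2) : ℝ)) *
          (ENNReal.ofReal r * (∑ x ∈ Ac (lj k) i, ec ρ l g' x)) ^ (3 / 2 : ℝ)))) := by
          exact mul_le_mul' le_rfl (Finset.sum_le_sum fun i hi => hcase i hi)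
      _ = ENNReal.ofReal (C2 * Real.sqrt Cp * Real.sqrt 2) *
          (ENNReal.ofReal ((sg ρ (la1 k)) ^ (-q / 2)) * ∑ i ∈ II nn P k,
          (ENNReal.ofReal ((sg ρ (la0 k) * sg ρ (la1 k) * r ^ 3) ^ (-(1/2) : ℝ)) *
          (ENNReal.ofReal r * (∑ x ∈ Ac (lj k) i, ec ρ l g' x)) ^ (3 / 2 : ℝ))) := by
          rw [← Finset.mul_sum, ← Finset.mul_sum, ENNReal.ofReal_mul (by positivity),
            ENNReal.ofReal_mul hC2]
          ring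
      _ ≤ _ := mul_le_mul' (ENNReal.ofReal_le_ofReal (hCC2.trans hCR)) le_rfl
  · exact htm.sub (sel_cont hgi (hBs Y)).measurable
  · exact ⟨L + LY, fun ξ => (norm_sub_le _ _).trans (add_le_add (htb ξ) (hLY ξ))⟩
  · intro ξ hξ
    simp only
    rw [hts ξ hξ, hsupp Y ξ (by linarith), sub_zero]
  · refine (En_sub_le hg2 (hsel2 Y)).trans ?_
    have h1 := hselEn' Y hYcaps
    rw [hEn] at h1 ⊢
    have h2 := En_nn g
    calc 2 * En g + 2 * En (sel ρ g' (cs l Y)) ≤ 2 * En g + 2 * (C2 * C3 * En g) := by gcongr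
      _ = (2 + 2 * (C2 * C3)) * En g := by ring
      _ ≤ C * R ^ ε * En g := by
        have := hCC3.trans hCR
        gcongr
  · -- the rest is small
    intro p hp1 hp2
    have h1 : (fun ξ => g' ξ - sel ρ g' (cs l Y) ξ) =
        fun ξ => g' ξ - sel ρ g' (cs l X0) ξ + sel ρ g' (cs l (X J)) ξ := by
      funext ξ
      rw [hsum2 ξ]
      ring
    rw [h1, ext_lin hhc hgi (hseli X0) (hseli (X J))]
    have hRM : 0 < R ^ (-(M : ℝ)) := Real.rpow_pos_of_pos hR0 _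
    have e0 : R ^ (-(M : ℝ)) = (R ^ M)⁻¹ := by
      rw [Real.rpow_neg hR0.le, Real.rpow_natCast]
    -- first part
    have h2 := H4 h hSt.par hSt.h1 r hr1 g' hgi hg2 hts (cs l X0) (by rw [← hρe]; exact hBs _) (by
      intro m hm y hy
      rw [← hρe] at hm
      rw [Metric.mem_closedBall, dist_zero_right] at hy
      refine Finset.mem_product.2 ⟨hm, ?_⟩
      refine pos_box hl0 hK0 ?_
      rw [hl2, hK]
      exact hy) p.1 p.2 hp1 hp2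
    rw [← hρe, lintEn hg2, hEn, ← ENNReal.ofReal_mul (by positivity)] at h2
    have h3 := norm_le_of_enorm_sq (mul_nonneg (by positivity) (En_nn g)) h2
    have hrM : R ^ M ≤ r ^ (2 * M) := by
      have h4 : R ≤ r ^ 2 := by
        calc R = (R ^ (1/2 : ℝ)) ^ 2 := by
              rw [← Real.rpow_natCast, ← Real.rpow_mul hR0.le]; norm_num
          _ ≤ r ^ 2 := by gcongr
      rw [pow_mul]
      gcongr
    have h4 : ‖ext h g' p.1 p.2 - ext h (sel ρ g' (cs l X0)) p.1 p.2‖ ≤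
        Real.sqrt C4 * R ^ (-(M : ℝ)) * Real.sqrt (En g) := by
      refine h3.trans ?_
      have e1 : C4 * (r ^ (2 * (2 * M)))⁻¹ * En g = C4 * (((r ^ (2 * M))⁻¹) ^ 2 * En g) := by
        rw [mul_comm 2 (2 * M), pow_mul, inv_pow]; ring
      rw [e1, Real.sqrt_mul hC4, Real.sqrt_mul (by positivity), Real.sqrt_sq (by positivity),
        ← mul_assoc, e0]
      gcongr
    -- second part
    have h5 := H5 h (sel ρ g' (cs l (X J))) (hsel2 _) (fun ξ hξ => hsupp _ ξ (by linarith)) p.1 p.2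
    have h6 := hselD (X J) J (Finset.Subset.refl _)
    have h7 : C2 * (N7 * (Δ0 / 2 ^ J * r ^ 2)) ≤ C2 * (N7 * C3) * (((R ^ M)⁻¹) ^ 2 * En g) := by
      have e2 : r ^ (q / 2) ≤ R ^ ⌈q / 2⌉₊ := by
        calc r ^ (q / 2) ≤ R ^ (q / 2) := Real.rpow_le_rpow hr0.le hrR (by positivity)
          _ ≤ R ^ ((⌈q / 2⌉₊ : ℕ) : ℝ) := Real.rpow_le_rpow_of_exponent_le hR (Nat.le_ceil _)
          _ = _ := Real.rpow_natCast _ _
      have e3 : r ^ 2 ≤ R ^ 2 := by gcongr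
      have e4 : r ^ (q / 2) * r ^ 2 / 2 ^ J ≤ ((R ^ M)⁻¹) ^ 2 := by
        rw [inv_pow, div_le_iff₀ (by positivity), ← div_eq_inv_mul, le_div_iff₀ (by positivity)]
        calc r ^ (q / 2) * r ^ 2 * (R ^ M) ^ 2 ≤ R ^ ⌈q / 2⌉₊ * R ^ 2 * (R ^ M) ^ 2 := by gcongr
          _ = R ^ T := by rw [hT]; ring
          _ ≤ 2 ^ J := hJR
      have h8 := En_nn g
      rw [hΔ0, hEn]
      calc C2 * (N7 * (C3 * En g * r ^ (q / 2) / 2 ^ J * r ^ 2)) =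
          C2 * (N7 * C3) * (r ^ (q / 2) * r ^ 2 / 2 ^ J * En g) := by ring
        _ ≤ _ := by gcongr
    have h8 : ‖ext h (sel ρ g' (cs l (X J))) p.1 p.2‖ ≤
        C5 * Real.sqrt (C2 * (N7 * C3)) * R ^ (-(M : ℝ)) * Real.sqrt (En g) := by
      refine h5.trans ?_
      have h9 : Real.sqrt (En (sel ρ g' (cs l (X J)))) ≤
          Real.sqrt (C2 * (N7 * C3)) * (R ^ (-(M : ℝ)) * Real.sqrt (En g)) := by
        refine (Real.sqrt_le_sqrt (h6.trans h7)).trans (le_of_eq ?_)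
        rw [Real.sqrt_mul (by positivity : 0 ≤ C2 * (N7 * C3)),
          Real.sqrt_mul (by positivity : 0 ≤ ((R ^ M)⁻¹) ^ 2), Real.sqrt_sq (by positivity), e0]
      calc C5 * Real.sqrt (En (sel ρ g' (cs l (X J)))) ≤
          C5 * (Real.sqrt (C2 * (N7 * C3)) * (R ^ (-(M : ℝ)) * Real.sqrt (En g))) := by gcongr
        _ = _ := by ring
    calc ‖ext h g' p.1 p.2 - ext h (sel ρ g' (cs l X0)) p.1 p.2 +
          ext h (sel ρ g' (cs l (X J))) p.1 p.2‖ ≤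
        Real.sqrt C4 * R ^ (-(M : ℝ)) * Real.sqrt (En g) +
          C5 * Real.sqrt (C2 * (N7 * C3)) * R ^ (-(M : ℝ)) * Real.sqrt (En g) :=
          (norm_add_le _ _).trans (add_le_add h4 h8)
      _ = (Real.sqrt C4 + C5 * Real.sqrt (C2 * (N7 * C3))) * R ^ (-(M : ℝ)) *
          Real.sqrt (En g) := by ring
      _ ≤ _ := by gcongr

/-- **DEC holds** (children in the class `St B q 6 4 1`). -/
theorem dec_holds (B : ℕ → ℝ) {q : ℝ} (hq : 0 ≤ q) : ∃ A0 : ℝ, ∀ A, A0 ≤ A → W188.DEC B q A 6 := by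
  obtain ⟨C1, hC1, H1⟩ := pbox_sel B q
  obtain ⟨C2, hC2, H2⟩ := sel_energy
  obtain ⟨C3, hC3, H3⟩ := en_le
  obtain ⟨C5, hC5, H5⟩ := sup_ext
  set K : ℝ := 1 + 8 + 4 * 8 * (1 + |B 2|) with hK
  set K1 : ℝ := 2 * (K + 1) with hK1
  refine ⟨K1 + 3, fun A hA ε hε Na M0 M => ?_⟩
  obtain ⟨C4, hC4, H4⟩ := rest_small B 8 (by norm_num) (2 * M)
  set N7 : ℝ := ((NB (B 2) K1 : ℕ) : ℝ) with hN7
  have hN70 : 0 ≤ N7 := by rw [hN7]; positivity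
  set Cp : ℝ := C1 * (49 * 2 ^ (q + 2)) + C2 * N7 with hCp
  have hCp0 : 0 ≤ Cp := by rw [hCp]; positivity
  obtain ⟨C6, hC6, H6⟩ := card_bound hε (2 * M + ⌈q / 2⌉₊ + 2)
  have t1 : 0 ≤ C2 * Real.sqrt Cp * Real.sqrt 2 := by positivity
  have t2 : 0 ≤ 2 + 2 * (C2 * C3) := by positivity
  have t3 : 0 ≤ Real.sqrt C4 + C5 * Real.sqrt (C2 * (N7 * C3)) := by positivity
  have t4 : 0 ≤ C5 * 1296 ^ M := by positivity
  refine ⟨C6 + C2 * Real.sqrt Cp * Real.sqrt 2 + (2 + 2 * (C2 * C3)) +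
    (Real.sqrt C4 + C5 * Real.sqrt (C2 * (N7 * C3))) + (1 + C5 * 1296 ^ M), by positivity, ?_⟩
  intro R r hR hRr hrR
  by_cases hr36 : r < 36
  · exact small_case hC5 H5 hε (by linarith) (by linarith) hR hRr hr36
  · push Not at hr36
    exact big_case hq hC1 hC2 hC3 hC4 hC5 hC6 H1 H2 H3 H4 H5 hε H6 hK hK1 hN7 hCp hA
      (by linarith) (by linarith) (by linarith) (by linarith) hR hRr hrR hr36

end Crest.Agent.R138.Wpk685
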