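import Crest.Agent.R138.Bil4_882
import Crest.Agent.R138.Wpk1_685

/-!
# R138 / R139: discrete wave packets, part 2 (helper685): slowly varying weights, weighted local
orthogonality, propagation of windows, synthesis.
-/

set_option autoImplicit false
set_option linter.unusedSectionVars false

open MeasureTheory SchwartzMap FourierTransform
open scoped ContDiff ENNReal SchwartzMap

namespace Crest.Agent.R138.Wpk685

open Crest.Agent.R138.Defs Crest.Agent.R138.Bil882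

/-! ### kernel bound, uniform in the window -/

/-- windows: smooth, supported in the ball of radius `3`, derivatives up to order `N` bounded by
`Aw`. -/
structure Win (N : ℕ) (Aw : ℝ) (a : E2 → ℂ) : Prop where
  smooth : ContDiff ℝ ∞ a
  supp : ∀ ζ, 3 < ‖ζ‖ → a ζ = 0
  bd : ∀ j ≤ N, ∀ ζ, ‖iteratedFDeriv ℝ j a ζ‖ ≤ Aw

theorem Win.nonneg {N : ℕ} {Aw : ℝ} {a : E2 → ℂ} (ha : Win N Aw a) : 0 ≤ Aw :=
  (norm_nonneg _).trans (ha.bd 0 (Nat.zero_le _) 0)

theorem Win.tsupp {N : ℕ} {Aw : ℝ} {a : E2 → ℂ} (ha : Win N Aw a) :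
    tsupport a ⊆ Metric.closedBall 0 3 := by
  apply closure_minimal _ Metric.isClosed_closedBall
  intro x hx
  by_contra hx'
  apply hx
  exact ha.supp x (by simpa using hx')

theorem Win.hcs {N : ℕ} {Aw : ℝ} {a : E2 → ℂ} (ha : Win N Aw a) : HasCompactSupport a :=
  HasCompactSupport.of_support_subset_isCompact (isCompact_closedBall (0 : E2) 3)
    ((subset_tsupport a).trans ha.tsupp)

theorem Win.norm_le {N : ℕ} {Aw : ℝ} {a : E2 → ℂ} (ha : Win N Aw a) (ζ : E2) : ‖a ζ‖ ≤ Aw := by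
  have := ha.bd 0 (Nat.zero_le _) ζ
  rwa [norm_iteratedFDeriv_zero] at this

theorem norm_iteratedFDeriv_prof_unif (B : ℕ → ℝ) (N : ℕ) (L : ℝ) (hL : 1 ≤ L) : ∃ C : ℝ, 0 ≤ C ∧
    ∀ (Aw : ℝ) (a : E2 → ℂ), Win N Aw a → ∀ h, ParB B h → ∀ (ξ0 : E2) (l s : ℝ),
      0 < l → l ≤ 1 → |s| ≤ L → ∀ j ≤ N, ∀ ζ,
        ‖iteratedFDeriv ℝ j (prof a h ξ0 l s) ζ‖ ≤ C * Aw := by
  set D : ℝ := 1 + 3 * ∑ k ∈ Finset.range (N + 3), (1 + |B k|) with hD
  have hDsum : ∀ k < N + 3, 3 * (1 + |B k|) ≤ D - 1 := by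
    intro k hk
    have : 1 + |B k| ≤ ∑ k ∈ Finset.range (N + 3), (1 + |B k|) :=
      Finset.single_le_sum (f := fun k => 1 + |B k|) (fun i _ => by positivity)
        (Finset.mem_range.2 hk)
    rw [hD]; linarith
  have hD1 : 1 ≤ D := by
    have := hDsum 0 (by omega)
    have h2 : 0 ≤ |B 0| := abs_nonneg _
    linarith
  set E : ℝ := (2 * Real.pi * L) ^ N with hE
  have hpi : 1 ≤ 2 * Real.pi * L := by nlinarith [Real.pi_gt_three]
  have hE1 : 1 ≤ E := one_le_pow₀ hpi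
  refine ⟨∑ j ∈ Finset.range (N + 1), ∑ i ∈ Finset.range (j + 1),
    (j.choose i : ℝ) * ((j - i).factorial * E * D ^ (j - i)), by positivity, ?_⟩
  intro Aw a ha h hh ξ0 l s hl hl1 hs j hj ζ
  have hAw := ha.nonneg
  have hr : ContDiff ℝ ∞ (rph h ξ0 l) := contDiff_rph hh.1 ξ0 l
  have he : ContDiff ℝ ∞ (fun u => ee (s * u)) := contDiff_ee.comp (contDiff_const.mul contDiff_id)
  have hexp : ∀ i ≤ N, ‖ζ‖ ≤ 3 → ‖iteratedFDeriv ℝ i (fun ζ => ee (s * rph h ξ0 l ζ)) ζ‖ ≤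
      i.factorial * E * D ^ i := by
    intro i hi hζ
    have := norm_iteratedFDeriv_comp_le (g := fun u => ee (s * u)) (f := rph h ξ0 l) (n := i)
      (N := ∞) he hr (mod_cast le_top) ζ (C := E) (D := D) ?_ ?_
    · exact this
    · intro m hm
      rw [norm_iteratedFDeriv_ee_mul]
      calc (2 * Real.pi * |s|) ^ m ≤ (2 * Real.pi * L) ^ m := by gcongr
        _ ≤ (2 * Real.pi * L) ^ N := pow_le_pow_right₀ hpi (hm.trans hi)
    · intro m hm1 hm
      rcases Nat.lt_or_ge m 2 with h2 | h2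
      · obtain rfl : m = 1 := by omega
        have h3 := norm_fderiv_rph_le hh ξ0 hl hl1 ζ
        rw [← norm_iteratedFDeriv_zero (𝕜 := ℝ) (f := fderiv ℝ (rph h ξ0 l)),
          norm_iteratedFDeriv_fderiv] at h3
        have h4 := hDsum 2 (by omega)
        have h5 : B 2 ≤ |B 2| := le_abs_self _
        have h6 : 0 ≤ 1 + B 2 := (norm_nonneg _).trans (norm_phase_le hh 2 le_rfl 0)
        calc _ ≤ (1 + B 2) * ‖ζ‖ := h3
          _ ≤ (1 + B 2) * 3 := by gcongr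
          _ ≤ D ^ 1 := by rw [pow_one]; linarith
      · have h3 := norm_iteratedFDeriv_rph_le hh ξ0 hl hl1 m h2 ζ
        have h4 := hDsum m (by omega)
        have h5 : B m ≤ |B m| := le_abs_self _
        have h6 : 0 ≤ |B m| := abs_nonneg _
        calc _ ≤ 1 + B m := h3
          _ ≤ D := by linarith
          _ ≤ D ^ m := le_self_pow₀ hD1 (by omega)
  by_cases hζ : ‖ζ‖ ≤ 3
  · have h1 := norm_iteratedFDeriv_mul_le (𝕜 := ℝ) (N := ∞) ha.smooth (he.comp hr) ζ (n := j)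
      (mod_cast le_top)
    have h2 : ‖iteratedFDeriv ℝ j (prof a h ξ0 l s) ζ‖ ≤ (∑ i ∈ Finset.range (j + 1),
        (j.choose i : ℝ) * ((j - i).factorial * E * D ^ (j - i))) * Aw := by
      rw [Finset.sum_mul]
      refine h1.trans (Finset.sum_le_sum fun i hi => ?_)
      have hi' := Finset.mem_range.1 hi
      have h3 := hexp (j - i) (by omega) hζ
      have h4 := ha.bd i (by omega) ζ
      have h6 : ‖iteratedFDeriv ℝ (j - i) ((fun u => ee (s * u)) ∘ rph h ξ0 l) ζ‖ ≤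
          (j - i).factorial * E * D ^ (j - i) := h3
      calc _ ≤ (j.choose i : ℝ) * Aw * ((j - i).factorial * E * D ^ (j - i)) := by gcongr
        _ = _ := by ring
    refine h2.trans ?_
    gcongr
    exact Finset.single_le_sum (f := fun j => ∑ i ∈ Finset.range (j + 1),
        (j.choose i : ℝ) * ((j - i).factorial * E * D ^ (j - i)))
      (fun j _ => Finset.sum_nonneg fun i _ => by positivity)
      (Finset.mem_range.2 (Nat.lt_succ_of_le hj))
  · have hz : iteratedFDeriv ℝ j (prof a h ξ0 l s) ζ = 0 := by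
      have h1 : ζ ∉ tsupport (prof a h ξ0 l s) := by
        intro hmem
        have hsub : tsupport (prof a h ξ0 l s) ⊆ tsupport a := by
          apply closure_mono
          intro x hx hx'
          apply hx
          simp [prof, hx']
        exact hζ (by simpa using ha.tsupp (hsub hmem))
      have h2 : ζ ∉ Function.support (iteratedFDeriv ℝ j (prof a h ξ0 l s)) := fun h =>
        h1 (support_iteratedFDeriv_subset j h)
      simpa using h2
    rw [hz, norm_zero]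
    positivity

/-- the window `a` moved to the cap of centre `ξ0` and size `l`. -/
noncomputable def cap (a : E2 → ℂ) (ξ0 : E2) (l : ℝ) (ξ : E2) : ℂ := a (l⁻¹ • (ξ - ξ0))

/-- the kernel of the propagator restricted to a cap. -/
noncomputable def ker (a : E2 → ℂ) (h : E2 → ℝ) (ξ0 : E2) (l t : ℝ) (x : E2) : ℂ :=
  Crest.Agent.R138.Defs.ext h (cap a ξ0 l) x t

theorem kernel_unif (B : ℕ → ℝ) (N : ℕ) (L : ℝ) (hL : 1 ≤ L) : ∃ C : ℝ, 0 < C ∧
    ∀ (Aw : ℝ) (a : E2 → ℂ), Win N Aw a →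
    ∀ h, ParB B h → ∀ (ξ0 : E2) (l t : ℝ), 0 < l → l ≤ 1 → |t| * l ^ 2 ≤ L → ∀ x : E2,
      ‖ker a h ξ0 l t x‖ ≤ C * Aw * l ^ 2 * ((1 + l * ‖x + t • gradient h ξ0‖) ^ N)⁻¹ := by
  obtain ⟨C1, hC1, h1⟩ := fourier_decay N
  obtain ⟨C2, hC2, h2⟩ := norm_iteratedFDeriv_prof_unif B N L hL
  refine ⟨C1 * (C2 + 1), by positivity, ?_⟩
  intro Aw a ha h hh ξ0 l t hl hl1 ht x
  have hAw := ha.nonneg
  have hs : |t * l ^ 2| ≤ L := by rw [abs_mul, abs_of_nonneg (by positivity : (0:ℝ) ≤ l ^ 2)]; exact ht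
  have hp := contDiff_prof ha.smooth hh.1 ξ0 l (t * l ^ 2)
  have hps : ∀ ζ, 3 < ‖ζ‖ → prof a h ξ0 l (t * l ^ 2) ζ = 0 := by
    intro ζ hζ; simp [prof, ha.supp ζ hζ]
  have h3 := h1 (prof a h ξ0 l (t * l ^ 2)) (C2 * Aw) (hp.of_le (mod_cast le_top)) hps
    (h2 Aw a ha h hh ξ0 l _ hl hl1 hs) (l • (x + t • gradient h ξ0))
  rw [norm_smul, Real.norm_eq_abs, abs_of_pos hl] at h3
  have h4 : ker a h ξ0 l t x =
      ((l ^ 2 : ℝ) : ℂ) * (ee (inner ℝ x ξ0 + t * h ξ0) *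
        ∫ ζ, prof a h ξ0 l (t * l ^ 2) ζ * ee (inner ℝ (l • (x + t • gradient h ξ0)) ζ)) := by
    unfold ker Crest.Agent.R138.Defs.ext cap
    have h5 : ∫ ξ, a (l⁻¹ • (ξ - ξ0)) * ee (inner ℝ x ξ + t * h ξ) =
        ∫ η, a (l⁻¹ • η) * ee (inner ℝ x (ξ0 + η) + t * h (ξ0 + η)) := by
      rw [← integral_add_left_eq_self (μ := volume) _ ξ0]
      simp
    have h6 : ∫ η, a (l⁻¹ • η) * ee (inner ℝ x (ξ0 + η) + t * h (ξ0 + η)) =
        ∫ η, (fun ζ => a ζ * ee (inner ℝ x (ξ0 + l • ζ) + t * h (ξ0 + l • ζ))) (l⁻¹ • η) := by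
      congr 1; ext η
      simp only [smul_smul, mul_inv_cancel₀ hl.ne', one_smul]
    rw [h5, h6]
    have h7 := Measure.integral_comp_inv_smul_of_nonneg (volume : Measure E2)
      (fun ζ => a ζ * ee (inner ℝ x (ξ0 + l • ζ) + t * h (ξ0 + l • ζ))) hl.le
    refine h7.trans ?_
    have hfr : Module.finrank ℝ E2 = 2 := by simp
    rw [hfr, Complex.real_smul, ← integral_const_mul (ee (inner ℝ x ξ0 + t * h ξ0))]
    congr 2
    ext ζ
    rw [ext_phase h ξ0 hl.ne', ee_add (inner ℝ x ξ0 + t * h ξ0),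
      ee_add (t * l ^ 2 * rph h ξ0 l ζ), prof]
    ring
  rw [h4, norm_mul, norm_mul, norm_ee, one_mul, Complex.norm_real, Real.norm_eq_abs,
    abs_of_nonneg (by positivity : (0:ℝ) ≤ l ^ 2)]
  set P : ℝ := (1 + l * ‖x + t • gradient h ξ0‖) ^ N with hP
  have hP0 : 0 < P := by positivity
  rw [← div_eq_mul_inv, le_div_iff₀ hP0]
  calc _ = l ^ 2 * (P * ‖∫ ζ, prof a h ξ0 l (t * l ^ 2) ζ *
        ee (inner ℝ (l • (x + t • gradient h ξ0)) ζ)‖) := by ring
    _ ≤ l ^ 2 * (C1 * (C2 * Aw)) := by gcongr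
    _ ≤ C1 * (C2 + 1) * Aw * l ^ 2 := by
        have : 0 ≤ C1 * l ^ 2 * Aw := by positivity
        nlinarith

/-! ### slowly varying weights -/

/-- positive weights varying slowly at scale `1/l`. -/
structure SV (l A : ℝ) (n : ℕ) (w : E2 → ℝ) : Prop where
  meas : Measurable w
  pos : ∀ x, 0 < w x
  sv : ∀ x y, w x ≤ A * (1 + l * ‖x - y‖) ^ n * w y

theorem SV.one_le {l A : ℝ} {n : ℕ} {w : E2 → ℝ} (hw : SV l A n w) : 1 ≤ A := by
  have h1 := hw.sv 0 0
  have h2 := hw.pos 0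
  simp only [sub_self, norm_zero, mul_zero, add_zero, one_pow, mul_one] at h1
  by_contra h3
  push Not at h3
  nlinarith

theorem SV.inv {l A : ℝ} {n : ℕ} {w : E2 → ℝ} (hw : SV l A n w) : SV l A n (fun x => (w x)⁻¹) := by
  refine ⟨hw.meas.inv, fun x => inv_pos.2 (hw.pos x), fun x y => ?_⟩
  have h1 := hw.sv y x
  rw [norm_sub_rev] at h1
  have hx := hw.pos x
  have hy := hw.pos y
  rw [inv_eq_one_div, inv_eq_one_div, div_le_iff₀ hx]
  calc (1:ℝ) = w y / w y := by field_simp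
    _ ≤ (A * (1 + l * ‖x - y‖) ^ n * w x) / w y := by gcongr
    _ = _ := by ring

theorem SV.mono {l A A' : ℝ} {n n' : ℕ} {w : E2 → ℝ} (hl : 0 ≤ l) (hw : SV l A n w) (hA : A ≤ A')
    (hn : n ≤ n') : SV l A' n' w := by
  refine ⟨hw.meas, hw.pos, fun x y => (hw.sv x y).trans ?_⟩
  have h1 := hw.one_le
  have h2 : (1:ℝ) ≤ 1 + l * ‖x - y‖ := by have := norm_nonneg (x - y); nlinarith [mul_nonneg hl this]
  have h3 := (hw.pos y).le
  have h4 : (1 + l * ‖x - y‖) ^ n ≤ (1 + l * ‖x - y‖) ^ n' := pow_le_pow_right₀ h2 hn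
  have h5 : 0 ≤ A' := by linarith
  gcongr

theorem SV.comp_sub {l A : ℝ} {n : ℕ} {w : E2 → ℝ} (hw : SV l A n w) (v : E2) :
    SV l A n (fun x => w (x - v)) := by
  refine ⟨hw.meas.comp (measurable_id.sub_const v), fun x => hw.pos _, fun x y => ?_⟩
  have := hw.sv (x - v) (y - v)
  rwa [sub_sub_sub_cancel_right] at this

/-! ### scaling of integrals -/

theorem lintegral_scale (f : E2 → ℝ≥0∞) (x : E2) {l : ℝ} (hl : 0 < l) :
    ∫⁻ z, f (l • (x - z)) = ENNReal.ofReal ((l ^ 2)⁻¹) * ∫⁻ y, f y := by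
  have h1 : ∫⁻ z, f (l • (x - z)) = ∫⁻ z, f (l • z) :=
    lintegral_sub_left_eq_self (fun z => f (l • z)) x
  rw [h1]
  have h2 : ∫⁻ z, f (l • z) = ∫⁻ y, f y ∂(Measure.map (fun z : E2 => l • z) volume) := by
    have he : MeasurableEmbedding (fun z : E2 => l • z) :=
      (Homeomorph.smulOfNeZero l hl.ne').measurableEmbedding
    rw [he.lintegral_map]
  rw [h2, Measure.map_addHaar_smul volume hl.ne', lintegral_smul_measure]
  congr 2
  have hfr : Module.finrank ℝ E2 = 2 := by simp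
  rw [hfr, abs_of_pos (by positivity)]

theorem lintegral_scale' (f : E2 → ℝ≥0∞) (z : E2) {l : ℝ} (hl : 0 < l) :
    ∫⁻ x, f (l • (x - z)) = ENNReal.ofReal ((l ^ 2)⁻¹) * ∫⁻ y, f y := by
  have h1 : ∫⁻ x, f (l • (x - z)) = ∫⁻ x, f (l • (0 - (-x))) := by
    rw [← lintegral_sub_right_eq_self (fun x => f (l • (0 - (-x)))) z]
    congr 1; ext x; congr 2; abel
  have h2 : ∫⁻ x, f (l • (0 - (-x))) = ∫⁻ x, f (l • (0 - x)) :=
    lintegral_neg_eq_self (fun x => f (l • (0 - x)))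
  rw [h1, h2, lintegral_scale f 0 hl]

end Crest.Agent.R138.Wpk685
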