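import Crest.Agent.R138.Wf4_448
import Crest.Agent.R138.Wpk2_685

/-!
# R138 / R139: selectable wave packets, part 3 (helper685): local orthogonality, Bessel, transport and
multipliers with arbitrary slowly varying weights at scale `1/ρ`.
-/

set_option autoImplicit false
set_option linter.unusedSectionVars false

open MeasureTheory FourierTransform
open scoped ContDiff ENNReal

namespace Crest.Agent.R138.Wpk685

open Crest.Agent.R138.Defs
open Crest.Agent.R138.Wf448 (wE dw gw sl LI)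

/-! ### averaging of slowly varying weights -/

/-- the isotropic map `x ↦ ρ x`. -/
noncomputable def iso (ρ : ℝ) : E2 →L[ℝ] E2 := ρ • ContinuousLinearMap.id ℝ E2

theorem iso_apply (ρ : ℝ) (x : E2) : iso ρ x = ρ • x := rfl

theorem norm_iso_le {ρ : ℝ} (hρ : 0 ≤ ρ) : ‖iso ρ‖ ≤ ρ := by
  unfold iso
  rw [norm_smul, Real.norm_eq_abs, abs_of_nonneg hρ]
  exact mul_le_of_le_one_right hρ ContinuousLinearMap.norm_id_le

theorem dw_iso (n : ℕ) {ρ : ℝ} (x : E2) : dw n (iso ρ) x = ((1 + ‖ρ • x‖ ^ 2) ^ n)⁻¹ := rfl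

/-- the weighted energy of `𝓕⁻ g`. -/
noncomputable def WE (w : E2 → ℝ) (g : E2 → ℂ) : ℝ≥0∞ :=
  ∫⁻ x, ENNReal.ofReal (w x) * ‖𝓕⁻ g x‖ₑ ^ 2

theorem wE_eq (n : ℕ) (A : E2 →L[ℝ] E2) (c : E2) (g : E2 → ℂ) :
    wE n A c g = ∫⁻ x, ENNReal.ofReal (dw n A (x - c)) * ‖𝓕⁻ g x‖ₑ ^ 2 := by
  unfold wE LI
  refine lintegral_congr fun x => ?_
  rw [ENNReal.ofReal_mul (Crest.Agent.R138.Wf448.dw_pos n A _).le, ENNReal.ofReal_pow (norm_nonneg _),
    ofReal_norm]

theorem integrable_dec : Integrable (fun y : E2 => ((1 + ‖y‖ ^ 2) ^ 2)⁻¹) := by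
  have h := integrable_one_add_norm (μ := (volume : Measure E2)) (r := 4) (by simp; norm_num)
  refine (h.const_mul 4).mono' (by fun_prop) (Filter.Eventually.of_forall fun y => ?_)
  rw [Real.norm_eq_abs, abs_of_pos (by positivity), Real.rpow_neg (by positivity),
    inv_eq_one_div, div_le_iff₀ (by positivity)]
  have h1 : (1 + ‖y‖) ^ (4:ℝ) = (1 + ‖y‖) ^ 4 := by
    rw [show (4:ℝ) = ((4:ℕ):ℝ) by norm_num, Real.rpow_natCast]
  rw [h1]
  have h0 := norm_nonneg y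
  have h2 : (1 + ‖y‖) ^ 2 ≤ 2 * (1 + ‖y‖ ^ 2) := by nlinarith [sq_nonneg (1 - ‖y‖)]
  have h3 : (1 + ‖y‖) ^ 4 ≤ 4 * (1 + ‖y‖ ^ 2) ^ 2 := by
    calc (1 + ‖y‖) ^ 4 = ((1 + ‖y‖) ^ 2) ^ 2 := by ring
      _ ≤ (2 * (1 + ‖y‖ ^ 2)) ^ 2 := by gcongr
      _ = _ := by ring
  have h4 : 0 < (1 + ‖y‖) ^ 4 := by positivity
  field_simp
  linarith

/-- the constant of the averages. -/
noncomputable def cdec : ℝ := ∫ y : E2, ((1 + ‖y‖ ^ 2) ^ 2)⁻¹

theorem cdec_nonneg : 0 ≤ cdec := integral_nonneg fun y => by positivity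

/-- the integrable profile. -/
noncomputable def dec (y : E2) : ℝ≥0∞ := ENNReal.ofReal (((1 + ‖y‖ ^ 2) ^ 2)⁻¹)

theorem lintegral_dec : ∫⁻ y : E2, dec y = ENNReal.ofReal cdec := by
  unfold dec
  rw [cdec, ofReal_integral_eq_lintegral_ofReal integrable_dec
    (Filter.Eventually.of_forall fun y => by positivity)]

theorem avg_lower {ρ A : ℝ} {n : ℕ} {w : E2 → ℝ} (hρ : 0 < ρ) (hw : SV ρ A n w) (x : E2) :
    ENNReal.ofReal (ρ ^ 2) * ∫⁻ z, ENNReal.ofReal (w z) * ENNReal.ofReal (dw (n + 2) (iso ρ) (x - z)) ≤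
      ENNReal.ofReal (2 ^ n * cdec * A) * ENNReal.ofReal (w x) := by
  have hA := hw.one_le
  have h1 : ∀ z, ENNReal.ofReal (w z) * ENNReal.ofReal (dw (n + 2) (iso ρ) (x - z)) ≤
      ENNReal.ofReal (2 ^ n * A * w x) * dec (ρ • (x - z)) := by
    intro z
    have hx := (hw.pos x).le
    have hz := (hw.pos z).le
    unfold dec
    rw [← ENNReal.ofReal_mul hz, ← ENNReal.ofReal_mul (by positivity)]
    apply ENNReal.ofReal_le_ofReal
    rw [dw_iso]
    set u : ℝ := ‖ρ • (x - z)‖ with hu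
    have hu0 : 0 ≤ u := norm_nonneg _
    have h2 := hw.sv z x
    have h3 : ρ * ‖z - x‖ = u := by
      rw [hu, norm_smul, Real.norm_eq_abs, abs_of_pos hρ, norm_sub_rev]
    rw [h3] at h2
    have h4 : (1 + u) ^ n ≤ 2 ^ n * (1 + u ^ 2) ^ n := by
      rw [← mul_pow]
      refine pow_le_pow_left₀ (by positivity) ?_ n
      nlinarith [sq_nonneg (1 - u), sq_nonneg u]
    have h5 : ((1 + u ^ 2) ^ (n + 2))⁻¹ = ((1 + u ^ 2) ^ n)⁻¹ * ((1 + u ^ 2) ^ 2)⁻¹ := by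
      rw [pow_add, mul_inv]
    rw [h5, ← mul_assoc]
    refine mul_le_mul_of_nonneg_right ?_ (by positivity)
    rw [← div_eq_mul_inv, div_le_iff₀ (by positivity)]
    calc w z ≤ A * (1 + u) ^ n * w x := h2
      _ ≤ A * (2 ^ n * (1 + u ^ 2) ^ n) * w x := by gcongr
      _ = _ := by ring
  calc _ ≤ ENNReal.ofReal (ρ ^ 2) * ∫⁻ z, ENNReal.ofReal (2 ^ n * A * w x) * dec (ρ • (x - z)) :=
        mul_le_mul_right (lintegral_mono h1) _
    _ = ENNReal.ofReal (ρ ^ 2) * (ENNReal.ofReal (2 ^ n * A * w x) *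
        (ENNReal.ofReal ((ρ ^ 2)⁻¹) * ENNReal.ofReal cdec)) := by
        rw [lintegral_const_mul' _ _ ENNReal.ofReal_ne_top, lintegral_scale dec x hρ, lintegral_dec]
    _ = _ := by
        have hx := (hw.pos x).le
        have hc := cdec_nonneg
        rw [← ENNReal.ofReal_mul (by positivity), ← ENNReal.ofReal_mul (by positivity),
          ← ENNReal.ofReal_mul (by positivity), ← ENNReal.ofReal_mul (by positivity)]
        congr 1
        field_simp

theorem avg_upper {ρ A : ℝ} {n : ℕ} {w : E2 → ℝ} (hρ : 0 < ρ) (hw : SV ρ A n w) (x : E2) :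
    ENNReal.ofReal (w x) ≤ ENNReal.ofReal (A * 2 ^ (2 * n + 2)) * (ENNReal.ofReal (ρ ^ 2) *
      ∫⁻ z, ENNReal.ofReal (w z) * ENNReal.ofReal (dw (n + 2) (iso ρ) (x - z))) := by
  have hA := hw.one_le
  have hx := hw.pos x
  -- restrict to the ball
  have h1 : ENNReal.ofReal (w x / (A * 2 ^ n) * (2 ^ (n + 2))⁻¹) * ENNReal.ofReal (Real.pi / ρ ^ 2) ≤
      ∫⁻ z, ENNReal.ofReal (w z) * ENNReal.ofReal (dw (n + 2) (iso ρ) (x - z)) := by
    calc _ = ∫⁻ z in Metric.closedBall x (1 / ρ), ENNReal.ofReal (w x / (A * 2 ^ n) * (2 ^ (n + 2))⁻¹) := by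
          rw [setLIntegral_const]
          congr 1
          rw [EuclideanSpace.volume_closedBall]
          simp only [Fintype.card_fin]
          rw [show ((2:ℕ):ℝ) / 2 + 1 = 2 by norm_num, Real.Gamma_two]
          rw [← ENNReal.ofReal_pow (by positivity), ← ENNReal.ofReal_mul (by positivity)]
          congr 1
          rw [Real.sq_sqrt Real.pi_pos.le]
          field_simp
      _ ≤ ∫⁻ z in Metric.closedBall x (1 / ρ),
          ENNReal.ofReal (w z) * ENNReal.ofReal (dw (n + 2) (iso ρ) (x - z)) := by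
          refine setLIntegral_mono' Metric.isClosed_closedBall.measurableSet fun z hz => ?_
          have hz' : ρ * ‖x - z‖ ≤ 1 := by
            rw [Metric.mem_closedBall, dist_eq_norm, norm_sub_rev] at hz
            calc ρ * ‖x - z‖ ≤ ρ * (1 / ρ) := by gcongr
              _ = 1 := by field_simp
          have hn0 : 0 ≤ ρ * ‖x - z‖ := by positivity
          rw [← ENNReal.ofReal_mul (hw.pos z).le]
          apply ENNReal.ofReal_le_ofReal
          refine mul_le_mul ?_ ?_ (by positivity) (hw.pos z).le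
          · rw [div_le_iff₀ (by positivity)]
            have h2 := hw.sv x z
            have h3 : (1 + ρ * ‖x - z‖) ^ n ≤ 2 ^ n := by
              refine pow_le_pow_left₀ (by positivity) (by linarith) n
            have hz0 := (hw.pos z).le
            calc w x ≤ A * (1 + ρ * ‖x - z‖) ^ n * w z := h2
              _ ≤ A * 2 ^ n * w z := by gcongr
              _ = _ := by ring
          · rw [dw_iso, norm_smul, Real.norm_eq_abs, abs_of_pos hρ]
            refine inv_anti₀ (by positivity) ?_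
            refine pow_le_pow_left₀ (by positivity) ?_ _
            nlinarith
      _ ≤ _ := setLIntegral_le_lintegral _ _
  calc ENNReal.ofReal (w x) = ENNReal.ofReal (w x) * 1 := by rw [mul_one]
    _ ≤ ENNReal.ofReal (w x) * ENNReal.ofReal Real.pi := by
        gcongr
        rw [ENNReal.one_le_ofReal]
        linarith [Real.pi_gt_three]
    _ = ENNReal.ofReal (A * 2 ^ (2 * n + 2)) * (ENNReal.ofReal (ρ ^ 2) *
        (ENNReal.ofReal (w x / (A * 2 ^ n) * (2 ^ (n + 2))⁻¹) * ENNReal.ofReal (Real.pi / ρ ^ 2))) := by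
        rw [← ENNReal.ofReal_mul hx.le, ← ENNReal.ofReal_mul (by positivity),
          ← ENNReal.ofReal_mul (by positivity), ← ENNReal.ofReal_mul (by positivity)]
        congr 1
        have : (2:ℝ) ^ (2 * n + 2) = 2 ^ n * 2 ^ (n + 2) := by rw [← pow_add]; congr 1; omega
        rw [this]
        field_simp
    _ ≤ _ := by gcongr

theorem measurable_dwsub (n : ℕ) (A : E2 →L[ℝ] E2) :
    Measurable (fun p : E2 × E2 => ENNReal.ofReal (dw n A (p.1 - p.2))) := by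
  have h : Continuous (dw n A) := Crest.Agent.R138.Wf448.continuous_dw n A
  exact ENNReal.measurable_ofReal.comp (h.comp (continuous_fst.sub continuous_snd)).measurable

theorem measurable_dwsub' (n : ℕ) (A : E2 →L[ℝ] E2) (x : E2) :
    Measurable (fun z : E2 => ENNReal.ofReal (dw n A (x - z))) := by
  have h : Continuous (dw n A) := Crest.Agent.R138.Wf448.continuous_dw n A
  have h2 : Continuous (fun z : E2 => dw n A (x - z)) := h.comp (continuous_const.sub continuous_id)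
  exact h2.measurable.ennreal_ofReal

theorem tonelli_w {ρ : ℝ} {n : ℕ} {w : E2 → ℝ} (hw : Measurable w) {F : E2 → ℝ≥0∞}
    (hF : Measurable F) :
    ∫⁻ z, ENNReal.ofReal (w z) * ∫⁻ x, ENNReal.ofReal (dw n (iso ρ) (x - z)) * F x =
      ∫⁻ x, (∫⁻ z, ENNReal.ofReal (w z) * ENNReal.ofReal (dw n (iso ρ) (x - z))) * F x := by
  have hm : Measurable (fun p : E2 × E2 => ENNReal.ofReal (dw n (iso ρ) (p.2 - p.1)) * F p.2) :=
    ((measurable_dwsub n (iso ρ)).comp measurable_swap).mul (hF.comp measurable_snd)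
  calc _ = ∫⁻ z, ∫⁻ x, ENNReal.ofReal (w z) * (ENNReal.ofReal (dw n (iso ρ) (x - z)) * F x) := by
        refine lintegral_congr fun z => ?_
        rw [lintegral_const_mul' _ _ ENNReal.ofReal_ne_top]
    _ = ∫⁻ x, ∫⁻ z, ENNReal.ofReal (w z) * (ENNReal.ofReal (dw n (iso ρ) (x - z)) * F x) := by
        rw [lintegral_lintegral_swap]
        exact ((hw.comp measurable_fst).ennreal_ofReal.mul hm).aemeasurable
    _ = _ := by
        refine lintegral_congr fun x => ?_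
        rw [← lintegral_mul_const]
        · refine lintegral_congr fun z => ?_
          ring
        · exact hw.ennreal_ofReal.mul (measurable_dwsub' n (iso ρ) x)

theorem lift_le {ρ A : ℝ} {n : ℕ} {w : E2 → ℝ} (hρ : 0 < ρ) (hw : SV ρ A n w) {F : E2 → ℝ≥0∞}
    (hF : Measurable F) : ∫⁻ x, ENNReal.ofReal (w x) * F x ≤
      ENNReal.ofReal (A * 2 ^ (2 * n + 2)) * (ENNReal.ofReal (ρ ^ 2) *
        ∫⁻ z, ENNReal.ofReal (w z) * ∫⁻ x, ENNReal.ofReal (dw (n + 2) (iso ρ) (x - z)) * F x) := by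
  rw [tonelli_w hw.meas hF, ← lintegral_const_mul' _ _ ENNReal.ofReal_ne_top,
    ← lintegral_const_mul' _ _ ENNReal.ofReal_ne_top]
  refine lintegral_mono fun x => ?_
  have h1 := mul_le_mul_left (avg_upper hρ hw x) (F x)
  refine h1.trans (le_of_eq ?_)
  rw [mul_assoc, mul_assoc]

theorem le_lift {ρ A : ℝ} {n : ℕ} {w : E2 → ℝ} (hρ : 0 < ρ) (hw : SV ρ A n w) {F : E2 → ℝ≥0∞}
    (hF : Measurable F) : ENNReal.ofReal (ρ ^ 2) *
        ∫⁻ z, ENNReal.ofReal (w z) * ∫⁻ x, ENNReal.ofReal (dw (n + 2) (iso ρ) (x - z)) * F x ≤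
      ENNReal.ofReal (2 ^ n * cdec * A) * ∫⁻ x, ENNReal.ofReal (w x) * F x := by
  rw [tonelli_w hw.meas hF, ← lintegral_const_mul' _ _ ENNReal.ofReal_ne_top,
    ← lintegral_const_mul' _ _ ENNReal.ofReal_ne_top]
  refine lintegral_mono fun x => ?_
  have h1 := mul_le_mul_left (avg_lower hρ hw x) (F x)
  rw [mul_assoc, mul_assoc] at h1
  exact h1

/-! ### local orthogonality, Bessel, transport with slowly varying weights -/

theorem measurable_nsq {g : E2 → ℂ} (hg : Integrable g) :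
    Measurable (fun x => ‖𝓕⁻ g x‖ₑ ^ 2) :=
  ((Crest.Agent.R138.Wf448.fourierInv_continuous hg).measurable.enorm).pow_const 2

/-- `WE` is bounded by the average of `448`'s energies. -/
theorem WE_le {ρ A : ℝ} {n : ℕ} {w : E2 → ℝ} (hρ : 0 < ρ) (hw : SV ρ A n w) {g : E2 → ℂ}
    (hg : Integrable g) : WE w g ≤ ENNReal.ofReal (A * 2 ^ (2 * n + 2)) * (ENNReal.ofReal (ρ ^ 2) *
        ∫⁻ z, ENNReal.ofReal (w z) * wE (n + 2) (iso ρ) z g) := by
  have h1 := lift_le hρ hw (measurable_nsq hg)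
  simp only [wE_eq]
  exact h1

theorem le_WE {ρ A : ℝ} {n : ℕ} {w : E2 → ℝ} (hρ : 0 < ρ) (hw : SV ρ A n w) {g : E2 → ℂ}
    (hg : Integrable g) : ENNReal.ofReal (ρ ^ 2) *
        ∫⁻ z, ENNReal.ofReal (w z) * wE (n + 2) (iso ρ) z g ≤
      ENNReal.ofReal (2 ^ n * cdec * A) * WE w g := by
  have h1 := le_lift hρ hw (measurable_nsq hg)
  simp only [wE_eq]
  exact h1

theorem measurable_wE (n : ℕ) (A : E2 →L[ℝ] E2) {g : E2 → ℂ} (hg : Integrable g) :
    Measurable (fun z => wE n A z g) := by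
  simp only [wE_eq]
  refine Measurable.lintegral_prod_left' (f := fun p : E2 × E2 =>
    ENNReal.ofReal (dw n A (p.1 - p.2)) * ‖𝓕⁻ g p.1‖ₑ ^ 2) ?_
  exact (measurable_dwsub n A).mul ((measurable_nsq hg).comp measurable_fst)

/-- lifting an inequality between `448`'s energies to slowly varying weights. -/
theorem lift_ineq {ρ A : ℝ} {n : ℕ} {w : E2 → ℝ} (hρ : 0 < ρ) (hw : SV ρ A n w) {κ : Type*}
    (s : Finset κ) (g : κ → E2 → ℂ) {ι : Type*} (s' : Finset ι) (g' : ι → E2 → ℂ)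
    (hg : ∀ k ∈ s, Integrable (g k)) (hg' : ∀ i ∈ s', Integrable (g' i)) {C : ℝ} (hC : 0 ≤ C)
    (H : ∀ z, ∑ k ∈ s, wE (n + 2) (iso ρ) z (g k) ≤
      ENNReal.ofReal C * ∑ i ∈ s', wE (n + 2) (iso ρ) z (g' i)) :
    ∑ k ∈ s, WE w (g k) ≤ ENNReal.ofReal (A ^ 2 * (2 ^ (3 * n + 2) * cdec) * C) *
      ∑ i ∈ s', WE w (g' i) := by
  have hA := hw.one_le
  have hc := cdec_nonneg
  calc ∑ k ∈ s, WE w (g k) ≤ ∑ k ∈ s, ENNReal.ofReal (A * 2 ^ (2 * n + 2)) *
        (ENNReal.ofReal (ρ ^ 2) * ∫⁻ z, ENNReal.ofReal (w z) * wE (n + 2) (iso ρ) z (g k)) :=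
        Finset.sum_le_sum fun k hk => WE_le hρ hw (hg k hk)
    _ = ENNReal.ofReal (A * 2 ^ (2 * n + 2)) * (ENNReal.ofReal (ρ ^ 2) *
        ∫⁻ z, ENNReal.ofReal (w z) * ∑ k ∈ s, wE (n + 2) (iso ρ) z (g k)) := by
        rw [← Finset.mul_sum, ← Finset.mul_sum]
        congr 2
        simp only [Finset.mul_sum]
        rw [lintegral_finsetSum']
        intro k hk
        exact (hw.meas.ennreal_ofReal.mul (measurable_wE _ _ (hg k hk))).aemeasurable
    _ ≤ ENNReal.ofReal (A * 2 ^ (2 * n + 2)) * (ENNReal.ofReal (ρ ^ 2) *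
        ∫⁻ z, ENNReal.ofReal (w z) * (ENNReal.ofReal C * ∑ i ∈ s', wE (n + 2) (iso ρ) z (g' i))) := by
        gcongr with z
        exact H z
    _ = ENNReal.ofReal (A * 2 ^ (2 * n + 2)) * (ENNReal.ofReal C * ∑ i ∈ s', (ENNReal.ofReal (ρ ^ 2) *
        ∫⁻ z, ENNReal.ofReal (w z) * wE (n + 2) (iso ρ) z (g' i))) := by
        rw [← Finset.mul_sum, mul_left_comm (ENNReal.ofReal C)]
        congr 2
        rw [← lintegral_finsetSum', ← lintegral_const_mul' _ _ ENNReal.ofReal_ne_top]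
        · refine lintegral_congr fun z => ?_
          rw [← Finset.mul_sum]
          ring
        · intro k hk
          exact (hw.meas.ennreal_ofReal.mul (measurable_wE _ _ (hg' k hk))).aemeasurable
    _ ≤ ENNReal.ofReal (A * 2 ^ (2 * n + 2)) * (ENNReal.ofReal C * ∑ i ∈ s',
        (ENNReal.ofReal (2 ^ n * cdec * A) * WE w (g' i))) :=
        mul_le_mul_right (mul_le_mul_right
          (Finset.sum_le_sum fun i hi => le_WE hρ hw (hg' i hi)) _) _
    _ = _ := by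
        rw [← Finset.mul_sum, ← mul_assoc, ← mul_assoc, ← ENNReal.ofReal_mul (by positivity),
          ← ENNReal.ofReal_mul (by positivity)]
        congr 2
        have : (2:ℝ) ^ (3 * n + 2) = 2 ^ (2 * n + 2) * 2 ^ n := by rw [← pow_add]; congr 1; omega
        rw [this]
        ring

theorem sv_row (n : ℕ) : ∃ C : ℝ, 0 ≤ C ∧ ∀ (ρ A : ℝ) (w : E2 → ℝ), 0 < ρ → SV ρ A n w →
    ∀ (κ : Type) (s : Finset κ) (S : κ → Set E2) (g : κ → E2 → ℂ) (L : ℝ), 0 < L →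
    (∀ ξ, (Set.ncard {i | i ∈ s ∧ ξ ∈ Metric.thickening ρ (S i)} : ℝ) ≤ L) →
    (∀ i ∈ s, ∀ ξ, g i ξ ≠ 0 → ξ ∈ S i) → (∀ i ∈ s, Integrable (g i)) → (∀ i ∈ s, MemLp (g i) 2) →
    WE w (fun ξ => ∑ i ∈ s, g i ξ) ≤ ENNReal.ofReal (C * A ^ 2 * L) * ∑ i ∈ s, WE w (g i) := by
  obtain ⟨C1, hC1, h1⟩ := Crest.Agent.R138.Wf448.ortho_row (V := E2) (W := E2) (n + 2)
  have hc := cdec_nonneg
  refine ⟨2 ^ (3 * n + 2) * cdec * C1, by positivity, ?_⟩
  intro ρ A w hρ hw κ s S g L hL hov hS hg hg2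
  have key : ∀ z, wE (n + 2) (iso ρ) z (fun ξ => ∑ i ∈ s, g i ξ) ≤
      ENNReal.ofReal (C1 * L) * ∑ i ∈ s, wE (n + 2) (iso ρ) z (g i) := by
    intro z
    have h2 := h1 (iso ρ) z ρ hρ (norm_iso_le hρ.le) {i // i ∈ s} (fun i => S i.1)
      (fun i => g i.1) L hL ?_ (fun i => hS i.1 i.2) (fun i => hg i.1 i.2) (fun i => hg2 i.1 i.2)
    · have e1 : (fun ξ => ∑ i : {i // i ∈ s}, g i.1 ξ) = fun ξ => ∑ i ∈ s, g i ξ := by
        funext ξ
        exact Finset.sum_coe_sort s (fun i => g i ξ)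
      rw [e1] at h2
      have e2 : ∑ i : {i // i ∈ s}, wE (n + 2) (iso ρ) z (g i.1) =
          ∑ i ∈ s, wE (n + 2) (iso ρ) z (g i) :=
        Finset.sum_coe_sort s (fun i => wE (n + 2) (iso ρ) z (g i))
      rwa [e2] at h2
    · intro ξ
      refine le_trans ?_ (hov ξ)
      have e3 : {i | i ∈ s ∧ ξ ∈ Metric.thickening ρ (S i)} =
          Subtype.val '' {i : {i // i ∈ s} | ξ ∈ Metric.thickening ρ (S i.1)} := by
        ext i
        simp only [Set.mem_ofPred_eq, Set.mem_image, Subtype.exists, exists_and_right,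
          exists_eq_right]
        tauto
      rw [e3, Set.ncard_image_of_injective _ Subtype.val_injective]
  have h3 := lift_ineq hρ hw ({()} : Finset Unit) (fun _ ξ => ∑ i ∈ s, g i ξ) s g
    (fun _ _ => integrable_finsetSum _ hg) hg (C := C1 * L) (by positivity)
    (by simpa using key)
  simp only [Finset.sum_singleton] at h3
  refine h3.trans (le_of_eq ?_)
  congr 2
  ring

theorem sv_col (n : ℕ) : ∃ C : ℝ, 0 ≤ C ∧ ∀ (ρ A : ℝ) (w : E2 → ℝ), 0 < ρ → SV ρ A n w →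
    ∀ (κ : Type) (s : Finset κ) (m : κ → E2 → ℂ) (g : E2 → ℂ) (K L : ℝ), 0 < K → 0 < L →
    (∀ i ∈ s, (m i).HasTemperateGrowth) →
    (∀ i ∈ s, ∀ j ≤ n + 2, ∀ ξ, ‖iteratedFDeriv ℝ j (m i) ξ‖ ≤ K * (ρ⁻¹) ^ j) →
    (∀ ξ, (Set.ncard {i | i ∈ s ∧ ξ ∈ tsupport (m i)} : ℝ) ≤ L) → Integrable g → MemLp g 2 →
    ∑ i ∈ s, WE w (fun ξ => m i ξ * g ξ) ≤ ENNReal.ofReal (C * A ^ 2 * K ^ 2 * L) * WE w g := by
  obtain ⟨C1, hC1, h1⟩ := Crest.Agent.R138.Wf448.ortho_col (V := E2) (W := E2) (n + 2)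
  have hc := cdec_nonneg
  refine ⟨2 ^ (3 * n + 2) * cdec * C1, by positivity, ?_⟩
  intro ρ A w hρ hw κ s m g K L hK hL hm hmK hov hg hg2
  have hmi : ∀ i ∈ s, Integrable (fun ξ => m i ξ * g ξ) := by
    intro i hi
    refine hg.bdd_mul (c := K) (hm i hi).1.continuous.aestronglyMeasurable
      (Filter.Eventually.of_forall fun ξ => ?_)
    have := hmK i hi 0 (Nat.zero_le _) ξ
    simpa using this
  have key : ∀ z, ∑ i ∈ s, wE (n + 2) (iso ρ) z (fun ξ => m i ξ * g ξ) ≤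
      ENNReal.ofReal (C1 * K ^ 2 * L) * wE (n + 2) (iso ρ) z g := by
    intro z
    have h2 := h1 (iso ρ) z ρ hρ (norm_iso_le hρ.le) {i // i ∈ s} (fun i => m i.1) g K L hK hL
      (fun i => hm i.1 i.2) (fun i => hmK i.1 i.2) ?_ hg hg2
    · have e2 : ∑ i : {i // i ∈ s}, wE (n + 2) (iso ρ) z (fun ξ => m i.1 ξ * g ξ) =
          ∑ i ∈ s, wE (n + 2) (iso ρ) z (fun ξ => m i ξ * g ξ) :=
        Finset.sum_coe_sort s (fun i => wE (n + 2) (iso ρ) z (fun ξ => m i ξ * g ξ))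
      rwa [e2] at h2
    · intro ξ
      refine le_trans ?_ (hov ξ)
      have e3 : {i | i ∈ s ∧ ξ ∈ tsupport (m i)} =
          Subtype.val '' {i : {i // i ∈ s} | ξ ∈ tsupport (m i.1)} := by
        ext i
        simp only [Set.mem_ofPred_eq, Set.mem_image, Subtype.exists, exists_and_right,
          exists_eq_right]
        tauto
      rw [e3, Set.ncard_image_of_injective _ Subtype.val_injective]
  have h3 := lift_ineq hρ hw s (fun i ξ => m i ξ * g ξ) ({()} : Finset Unit) (fun _ => g)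
    hmi (fun _ _ => hg) (C := C1 * K ^ 2 * L) (by positivity)
    (by simpa using key)
  simp only [Finset.sum_singleton] at h3
  refine h3.trans (le_of_eq ?_)
  congr 2
  ring

theorem sv_mult (n : ℕ) : ∃ C : ℝ, 0 ≤ C ∧ ∀ (ρ A : ℝ) (w : E2 → ℝ), 0 < ρ → SV ρ A n w →
    ∀ (m : E2 → ℂ) (g : E2 → ℂ) (K : ℝ), 0 < K → m.HasTemperateGrowth →
    (∀ j ≤ n + 2, ∀ ξ, ‖iteratedFDeriv ℝ j m ξ‖ ≤ K * (ρ⁻¹) ^ j) → Integrable g → MemLp g 2 →
    WE w (fun ξ => m ξ * g ξ) ≤ ENNReal.ofReal (C * A ^ 2 * K ^ 2) * WE w g := by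
  obtain ⟨C, hC, h⟩ := sv_col n
  refine ⟨C, hC, ?_⟩
  intro ρ A w hρ hw m g K hK hm hmK hg hg2
  have h1 := h ρ A w hρ hw Unit {()} (fun _ => m) g K 1 hK one_pos (fun _ _ => hm)
    (fun _ _ => hmK) ?_ hg hg2
  · simpa using h1
  · intro ξ
    have : (Set.ncard {i : Unit | i ∈ ({()} : Finset Unit) ∧ ξ ∈ tsupport m}) ≤ 1 :=
      (Set.ncard_le_ncard (Set.subset_univ _)).trans (by simp)
    exact_mod_cast this

/-! ### windows -/

theorem exists_win {a : E2 → ℂ} (ha : ContDiff ℝ ∞ a) (hs : ∀ ζ, 3 < ‖ζ‖ → a ζ = 0) (N : ℕ) :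
    ∃ Aw : ℝ, 0 ≤ Aw ∧ Win N Aw a := by
  have hts : tsupport a ⊆ Metric.closedBall 0 3 := by
    apply closure_minimal _ Metric.isClosed_closedBall
    intro x hx
    by_contra hx'
    apply hx
    exact hs x (by simpa using hx')
  have hcs : HasCompactSupport a :=
    HasCompactSupport.of_support_subset_isCompact (isCompact_closedBall (0 : E2) 3)
      ((subset_tsupport a).trans hts)
  have hb : ∀ j : ℕ, ∃ C : ℝ, ∀ ζ, ‖iteratedFDeriv ℝ j a ζ‖ ≤ C := by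
    intro j
    have h1 : Continuous (iteratedFDeriv ℝ j a) :=
      ha.continuous_iteratedFDeriv (m := j) (mod_cast le_top)
    exact (hcs.iteratedFDeriv j).exists_bound_of_continuous h1
  choose C hC using hb
  refine ⟨∑ j ∈ Finset.range (N + 1), |C j|, Finset.sum_nonneg fun j _ => abs_nonneg _, ha, hs, ?_⟩
  intro j hj ζ
  refine (hC j ζ).trans ((le_abs_self _).trans ?_)
  exact Finset.single_le_sum (f := fun j => |C j|) (fun j _ => abs_nonneg _)
    (Finset.mem_range.2 (Nat.lt_succ_of_le hj))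

theorem contDiff_cap {f : E2 → ℂ} (hf : ContDiff ℝ ∞ f) (ξ0 : E2) (l : ℝ) :
    ContDiff ℝ ∞ (cap f ξ0 l) :=
  hf.comp ((contDiff_id.sub contDiff_const).const_smul l⁻¹)

theorem norm_iteratedFDeriv_cap_le {f : E2 → ℂ} (hf : ContDiff ℝ ∞ f) (ξ0 : E2) {l : ℝ}
    (hl : 0 < l) (j : ℕ) {K : ℝ} (hK : ∀ ζ, ‖iteratedFDeriv ℝ j f ζ‖ ≤ K) (ξ : E2) :
    ‖iteratedFDeriv ℝ j (cap f ξ0 l) ξ‖ ≤ K * (l⁻¹) ^ j := by
  have e1 : cap f ξ0 l = fun ξ => (f ∘ (iso l⁻¹)) (ξ - ξ0) := rfl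
  rw [e1, iteratedFDeriv_comp_sub]
  rw [ContinuousLinearMap.iteratedFDeriv_comp_right (iso l⁻¹) hf _ (i := j) (mod_cast le_top)]
  refine (ContinuousMultilinearMap.norm_compContinuousLinearMap_le _ _).trans ?_
  rw [Finset.prod_const, Finset.card_fin]
  have h1 := norm_iso_le (ρ := l⁻¹) (by positivity)
  have h2 : 0 ≤ K := (norm_nonneg _).trans (hK 0)
  refine mul_le_mul (hK _) (pow_le_pow_left₀ (norm_nonneg _) h1 j) (by positivity) h2

theorem cap_supp {f : E2 → ℂ} {R : ℝ} (hs : ∀ ζ, R < ‖ζ‖ → f ζ = 0) (ξ0 : E2) {l : ℝ} (hl : 0 < l)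
    (ξ : E2) (hξ : R * l < ‖ξ - ξ0‖) : cap f ξ0 l ξ = 0 := by
  unfold cap
  apply hs
  rw [norm_smul, Real.norm_eq_abs, abs_of_pos (inv_pos.2 hl), lt_inv_mul_iff₀ hl]
  linarith

theorem hcs_cap {f : E2 → ℂ} {R : ℝ} (hs : ∀ ζ, R < ‖ζ‖ → f ζ = 0) (ξ0 : E2) {l : ℝ} (hl : 0 < l) :
    HasCompactSupport (cap f ξ0 l) := by
  refine HasCompactSupport.of_support_subset_isCompact (isCompact_closedBall ξ0 (R * l)) ?_
  intro ξ hξ
  rw [Metric.mem_closedBall, dist_eq_norm]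
  by_contra h
  push Not at h
  exact hξ (cap_supp hs ξ0 hl ξ h)

theorem temperate_cap {f : E2 → ℂ} (hf : ContDiff ℝ ∞ f) {R : ℝ} (hs : ∀ ζ, R < ‖ζ‖ → f ζ = 0)
    (ξ0 : E2) {l : ℝ} (hl : 0 < l) : (cap f ξ0 l).HasTemperateGrowth :=
  (hcs_cap hs ξ0 hl).hasTemperateGrowth (contDiff_cap hf ξ0 l)

/-- the bump equal to one on the ball of radius `a`, supported in the ball of radius `b`. -/
noncomputable def bmp (a b : ℝ) (ha : 0 < a) (hab : a < b) : E2 → ℂ :=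
  fun ζ => (((⟨a, b, ha, hab⟩ : ContDiffBump (0 : E2)) ζ : ℝ) : ℂ)

theorem bmp_smooth (a b : ℝ) (ha : 0 < a) (hab : a < b) : ContDiff ℝ ∞ (bmp a b ha hab) :=
  Complex.ofRealCLM.contDiff.comp (ContDiffBump.contDiff _)

theorem bmp_one (a b : ℝ) (ha : 0 < a) (hab : a < b) {ζ : E2} (hζ : ‖ζ‖ ≤ a) :
    bmp a b ha hab ζ = 1 := by
  unfold bmp
  rw [ContDiffBump.one_of_mem_closedBall]
  · simp
  · simpa using hζ

theorem bmp_zero (a b : ℝ) (ha : 0 < a) (hab : a < b) {ζ : E2} (hζ : b ≤ ‖ζ‖) :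
    bmp a b ha hab ζ = 0 := by
  unfold bmp
  rw [ContDiffBump.zero_of_le_dist]
  · simp
  · simpa using hζ

/-- window equal to one on the ball of radius `2`. -/
noncomputable def fw : E2 → ℂ := bmp 2 3 (by norm_num) (by norm_num)

/-- window equal to one on the ball of radius `3/2`. -/
noncomputable def mw : E2 → ℂ := bmp (3 / 2) 2 (by norm_num) (by norm_num)

/-! ### modulation, transport -/

theorem WE_modulate (w : E2 → ℝ) (v : E2) {f f' : E2 → ℂ}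
    (hf : ∀ ξ, f' ξ = ee (inner ℝ v ξ) * f ξ) : WE w f' = WE (fun x => w (x - v)) f := by
  unfold WE
  have e2 : ∀ x, 𝓕⁻ f' x = 𝓕⁻ f (x + v) := by
    intro x
    rw [fourierInv_eq_int, fourierInv_eq_int]
    congr 1
    ext ξ
    rw [hf, inner_add_left, ee_add]
    ring
  simp only [e2]
  rw [← lintegral_sub_right_eq_self (fun x => ENNReal.ofReal (w x) * ‖𝓕⁻ f (x + v)‖ₑ ^ 2) v]
  simp

theorem WE_phase (w : E2 → ℝ) {f f' : E2 → ℂ} {c : ℂ} (hc : ‖c‖ = 1)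
    (hf : ∀ ξ, f' ξ = c * f ξ) : WE w f' = WE w f := by
  unfold WE
  have e2 : ∀ x, 𝓕⁻ f' x = c * 𝓕⁻ f x := by
    intro x
    rw [fourierInv_eq_int, fourierInv_eq_int, ← integral_const_mul]
    congr 1
    ext ξ
    rw [hf]
    ring
  simp only [e2, enorm_mul]
  have : ‖c‖ₑ = 1 := by rw [← ofReal_norm, hc, ENNReal.ofReal_one]
  simp [this]

theorem sl_int {h : E2 → ℝ} (hh : Continuous h) {g : E2 → ℂ} (hg : Integrable g) (t : ℝ) :
    Integrable (sl h g t) := by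
  have hc : Continuous (fun ξ => ee (t * h ξ)) := contDiff_ee.continuous.comp (continuous_const.mul hh)
  refine (hg.mul_bdd (c := 1) hc.aestronglyMeasurable (Filter.Eventually.of_forall fun ξ => ?_))
  exact (norm_ee _).le

theorem sl_l2 {h : E2 → ℝ} (hh : Continuous h) {g : E2 → ℂ} (hg : MemLp g 2) (t : ℝ) :
    MemLp (sl h g t) 2 := by
  have hc : Continuous (fun ξ => ee (t * h ξ)) := contDiff_ee.continuous.comp (continuous_const.mul hh)
  refine MemLp.of_le hg (hg.1.mul hc.aestronglyMeasurable) (Filter.Eventually.of_forall fun ξ => ?_)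
  unfold sl
  rw [norm_mul]
  have : ‖ee (t * h ξ)‖ = 1 := norm_ee _
  have h2 : ‖Crest.Agent.R138.Defs.ee (t * h ξ)‖ = 1 := this
  rw [h2, mul_one]

theorem sv_transport (B : ℕ → ℝ) (n : ℕ) (L : ℝ) (hL : 1 ≤ L) : ∃ C : ℝ, 0 ≤ C ∧ ∀ h, ParB B h →
    ∀ (ρ A : ℝ) (w : E2 → ℝ), 0 < ρ → ρ ≤ 1 → SV ρ A n w → ∀ (ξ0 : E2) (G : E2 → ℂ),
    Integrable G → MemLp G 2 → (∀ ξ, G ξ ≠ 0 → ‖ξ - ξ0‖ ≤ 2 * ρ) → ∀ t τ : ℝ, |τ| * ρ ^ 2 ≤ L →
    WE w (sl h G (t + τ)) ≤
      ENNReal.ofReal (C * A ^ 2) * WE (fun x => w (x - τ • gradient h ξ0)) (sl h G t) := by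
  obtain ⟨C1, hC1, h1⟩ := sv_mult n
  obtain ⟨Aw, hAw, hwin⟩ := exists_win (bmp_smooth 2 3 (by norm_num) (by norm_num))
    (fun ζ hζ => bmp_zero 2 3 (by norm_num) (by norm_num) hζ.le) (n + 2)
  obtain ⟨C2, hC2, h2⟩ := norm_iteratedFDeriv_prof_unif B (n + 2) L hL
  refine ⟨C1 * (C2 * Aw + 1) ^ 2, by positivity, ?_⟩
  intro h hh ρ A w hρ hρ1 hw ξ0 G hG hG2 hGs t τ hτ
  have hs : |τ * ρ ^ 2| ≤ L := by
    rw [abs_mul, abs_of_nonneg (by positivity : (0:ℝ) ≤ ρ ^ 2)]; exact hτ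
  have hhc : Continuous h := hh.1.continuous
  set m : E2 → ℂ := cap (prof fw h ξ0 ρ (τ * ρ ^ 2)) ξ0 ρ with hm
  have hpc : ContDiff ℝ ∞ (prof fw h ξ0 ρ (τ * ρ ^ 2)) :=
    contDiff_prof (bmp_smooth 2 3 (by norm_num) (by norm_num)) hh.1 ξ0 ρ _
  have hps : ∀ ζ, 3 < ‖ζ‖ → prof fw h ξ0 ρ (τ * ρ ^ 2) ζ = 0 := by
    intro ζ hζ
    have : fw ζ = 0 := bmp_zero 2 3 (by norm_num) (by norm_num) hζ.le
    simp [prof, this]
  have hmt : m.HasTemperateGrowth := temperate_cap hpc hps ξ0 hρ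
  have hmb : ∀ j ≤ n + 2, ∀ ξ, ‖iteratedFDeriv ℝ j m ξ‖ ≤ (C2 * Aw + 1) * (ρ⁻¹) ^ j := by
    intro j hj ξ
    refine norm_iteratedFDeriv_cap_le hpc ξ0 hρ j (fun ζ => ?_) ξ
    have := h2 Aw fw hwin h hh ξ0 ρ (τ * ρ ^ 2) hρ hρ1 hs j hj ζ
    linarith
  -- the modulated function
  set f : E2 → ℂ := fun ξ => ee (inner ℝ (τ • gradient h ξ0) ξ) * sl h G t ξ with hf
  have hmc : Continuous (fun ξ : E2 => ee (inner ℝ (τ • gradient h ξ0) ξ)) :=
    contDiff_ee.continuous.comp (continuous_const.inner continuous_id)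
  have hfi : Integrable f := (sl_int hhc hG t).bdd_mul (c := 1) hmc.aestronglyMeasurable
    (Filter.Eventually.of_forall fun ξ => (norm_ee _).le)
  have hf2 : MemLp f 2 := by
    refine MemLp.of_le (sl_l2 hhc hG2 t) (hmc.aestronglyMeasurable.mul (sl_l2 hhc hG2 t).1)
      (Filter.Eventually.of_forall fun ξ => ?_)
    rw [hf]
    simp only [norm_mul]
    rw [norm_ee, one_mul]
  have e1 : ∀ ξ, sl h G (t + τ) ξ =
      ee (τ * (h ξ0 - inner ℝ (gradient h ξ0) ξ0)) * (m ξ * f ξ) := by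
    intro ξ
    by_cases hξ : G ξ = 0
    · simp [hf, sl, hξ]
    · have h3 := hGs ξ hξ
      have h4 : ‖ρ⁻¹ • (ξ - ξ0)‖ ≤ 2 := by
        rw [norm_smul, Real.norm_eq_abs, abs_of_pos (inv_pos.2 hρ), inv_mul_le_iff₀ hρ]
        linarith
      have h5 : fw (ρ⁻¹ • (ξ - ξ0)) = 1 := bmp_one 2 3 (by norm_num) (by norm_num) h4
      have h6 : ξ0 + ρ • (ρ⁻¹ • (ξ - ξ0)) = ξ := by
        rw [smul_smul, mul_inv_cancel₀ hρ.ne', one_smul]; abel
      have h7 : τ * ρ ^ 2 * rph h ξ0 ρ (ρ⁻¹ • (ξ - ξ0)) =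
          τ * (h ξ - h ξ0 - inner ℝ (gradient h ξ0) (ξ - ξ0)) := by
        unfold rph
        rw [h6, inner_smul_right]
        field_simp
      have h8 : m ξ = ee (τ * (h ξ - h ξ0 - inner ℝ (gradient h ξ0) (ξ - ξ0))) := by
        rw [hm]
        unfold cap prof
        rw [h5, h7, one_mul]
      rw [h8, hf]
      simp only
      unfold sl
      have h9 : ee ((t + τ) * h ξ) = ee (τ * (h ξ0 - inner ℝ (gradient h ξ0) ξ0)) *
          (ee (τ * (h ξ - h ξ0 - inner ℝ (gradient h ξ0) (ξ - ξ0))) *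
          (ee (inner ℝ (τ • gradient h ξ0) ξ) * ee (t * h ξ))) := by
        rw [← ee_add, ← ee_add, ← ee_add]
        congr 1
        rw [inner_sub_right, real_inner_smul_left]
        ring
      rw [h9]
      ring
  calc WE w (sl h G (t + τ)) = WE w (fun ξ => m ξ * f ξ) := WE_phase w (norm_ee _) e1
    _ ≤ ENNReal.ofReal (C1 * A ^ 2 * (C2 * Aw + 1) ^ 2) * WE w f :=
        h1 ρ A w hρ hw m f _ (by positivity) hmt hmb hfi hf2
    _ = _ := by
        rw [WE_modulate w (τ • gradient h ξ0) (f := sl h G t) (f' := f) (fun ξ => rfl)]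
        congr 2
        ring

end Crest.Agent.R138.Wpk685
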