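import Crest.Agent.R138.Wpk7_685

/-!
# R138 / R139: selectable wave packets, part 8 (helper685): dyadic sides, discrete densities imply
densities, total energy, levels.
-/

set_option autoImplicit false
set_option linter.unusedSectionVars false

open MeasureTheory FourierTransform
open scoped ContDiff ENNReal

namespace Crest.Agent.R138.Wpk685

open Crest.Agent.R138.Defs

/-! ### dyadic sides -/

/-- dyadic side. -/
noncomputable def sg (ρ : ℝ) (a : ℕ) : ℝ := min (2 ^ a * ρ) 1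

theorem sg_le_one (ρ : ℝ) (a : ℕ) : sg ρ a ≤ 1 := min_le_right _ _

theorem sg_ge {ρ : ℝ} (hρ : 0 < ρ) (hρ1 : ρ ≤ 1) (a : ℕ) : ρ ≤ sg ρ a := by
  unfold sg
  refine le_min ?_ hρ1
  have : (1:ℝ) ≤ 2 ^ a := one_le_pow₀ (by norm_num)
  nlinarith

theorem sg_mono {ρ : ℝ} (hρ : 0 < ρ) {a b : ℕ} (h : a ≤ b) : sg ρ a ≤ sg ρ b := by
  unfold sg
  have : (2:ℝ) ^ a ≤ 2 ^ b := pow_le_pow_right₀ (by norm_num) h
  gcongr

theorem sg_succ {ρ : ℝ} (hρ : 0 < ρ) (a : ℕ) : sg ρ (a + 1) ≤ 2 * sg ρ a := by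
  unfold sg
  rw [pow_succ]
  have h1 : 0 < 2 ^ a * ρ := by positivity
  rcases le_total (2 ^ a * ρ) 1 with h | h
  · rw [min_eq_left h]
    exact (min_le_left _ _).trans (by linarith)
  · rw [min_eq_right h]
    exact (min_le_right _ _).trans (by norm_num)

theorem exists_side {ρ : ℝ} (hρ : 0 < ρ) {n : ℕ} (hn : 1 ≤ 2 ^ n * ρ) {s : ℝ} (h1 : ρ ≤ s)
    (h2 : s ≤ 1) : ∃ a ≤ n, s ≤ sg ρ a ∧ sg ρ a ≤ 2 * s ∧ ∀ b, s ≤ sg ρ b → a ≤ b := by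
  classical
  have hex : ∃ a, s ≤ sg ρ a := ⟨n, by unfold sg; rw [min_eq_right hn]; exact h2⟩
  refine ⟨Nat.find hex, Nat.find_min' hex ?_, Nat.find_spec hex, ?_, fun b hb => Nat.find_min' hex hb⟩
  · unfold sg; rw [min_eq_right hn]; exact h2
  · rcases Nat.eq_zero_or_pos (Nat.find hex) with h | h
    · rw [h]
      unfold sg
      refine (min_le_left _ _).trans ?_
      rw [pow_zero, one_mul]
      linarith
    · have h3 := Nat.find_min hex (Nat.sub_one_lt_of_lt h)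
      push Not at h3
      have h4 := sg_succ hρ (Nat.find hex - 1)
      rw [Nat.sub_add_cancel h] at h4
      linarith

/-- a discrete test box. -/
structure Tst where
  c : E2
  b : OrthonormalBasis (Fin 2) ℝ E2
  y : E2
  a : Fin 2 → ℕ

/-- the cell `x` lies in the test box `p`. -/
def inP (h : E2 → ℝ) (ρ l r : ℝ) (p : Tst) (x : Cel) : Prop :=
  (∀ i, |inner ℝ (gradient h (cen ρ x.1) - p.c) (p.b i)| ≤ sg ρ (p.a i)) ∧
    ∀ i, |inner ℝ (cen l x.2 - p.y) (p.b i)| ≤ sg ρ (p.a i) * r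

/-- normalised cost of the sides. -/
noncomputable def cst (q ρ r : ℝ) (a : Fin 2 → ℕ) : ℝ :=
  (sg ρ (a 1)) ^ q * (sg ρ (a 0) * sg ρ (a 1) * r ^ 2)

open Classical in
/-- discrete density bound. -/
def DD (q : ℝ) (h : E2 → ℝ) (ρ l r : ℝ) (g : E2 → ℂ) (n : ℕ) (X : Finset Cel) (Δ : ℝ) : Prop :=
  ∀ p : Tst, p.a 0 ≤ p.a 1 → p.a 1 ≤ n →
    ∑ x ∈ X with inP h ρ l r p x, ec ρ l g x ≤ ENNReal.ofReal (Δ * cst q ρ r p.a)

theorem DD.mono {q : ℝ} {h : E2 → ℝ} {ρ l r : ℝ} {g : E2 → ℂ} {n : ℕ} {X Y : Finset Cel} {Δ : ℝ}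
    (H : DD q h ρ l r g n X Δ) (hY : Y ⊆ X) : DD q h ρ l r g n Y Δ := by
  classical
  intro p h1 h2
  refine (Finset.sum_le_sum_of_subset ?_).trans (H p h1 h2)
  exact Finset.filter_subset_filter _ hY

theorem cover_sum {α κ : Type*} (e : α → ℝ≥0∞) (X : Finset α) (J : Finset κ) (Q : α → Prop)
    [DecidablePred Q] (T : κ → α → Prop) [∀ j, DecidablePred (T j)]
    (h : ∀ x ∈ X, Q x → ∃ j ∈ J, T j x) :
    ∑ x ∈ X with Q x, e x ≤ ∑ j ∈ J, ∑ x ∈ X with T j x, e x := by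
  classical
  simp only [Finset.sum_filter]
  rw [Finset.sum_comm]
  refine Finset.sum_le_sum fun x hx => ?_
  by_cases hq : Q x
  · obtain ⟨j, hj, hT⟩ := h x hx hq
    rw [if_pos hq]
    refine le_trans ?_ (Finset.single_le_sum (f := fun j => if T j x then e x else 0)
      (fun _ _ => zero_le) hj)
    simp only [if_pos hT]
    exact le_rfl
  · rw [if_neg hq]
    exact zero_le

theorem en_mono {ρ : ℝ} {g : E2 → ℂ} {S T : ℤ × ℤ → Set E2} (h : ∀ m ∈ caps ρ, S m ⊆ T m) :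
    en ρ g S ≤ en ρ g T := by
  unfold en
  exact Finset.sum_le_sum fun m hm => lintegral_mono_set (h m hm)

theorem dens_core {q : ℝ} (hq : 0 ≤ q) {h : E2 → ℝ} {r : ℝ} (hr : 1 ≤ r) {g : E2 → ℂ} {n : ℕ}
    (hn : 1 ≤ 2 ^ n * r ^ (-(1/2) : ℝ)) {X : Finset Cel}
    (hX : ∀ x ∈ X, x.1 ∈ caps (r ^ (-(1/2) : ℝ))) {Δ : ℝ} (hΔ : 0 ≤ Δ)
    (H : DD q h (r ^ (-(1/2) : ℝ)) (r ^ (-(1/2) : ℝ) * r) r g n X Δ)
    (c : E2) (b : OrthonormalBasis (Fin 2) ℝ E2) (s : Fin 2 → ℝ) (y0 : E2)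
    (hs : ∀ i, r ^ (-(1/2) : ℝ) ≤ s i ∧ s i ≤ 1) (hs01 : s 0 ≤ s 1) :
    en (r ^ (-(1/2) : ℝ)) g
        (fun m => cs (r ^ (-(1/2) : ℝ) * r) X m ∩ pbox h r c b s y0 m) ≤
      ENNReal.ofReal ((49 * 2 ^ (q + 2) * Δ) * (max (s 0) (s 1)) ^ q * (s 0 * s 1 * r ^ 2)) := by
  classical
  obtain ⟨hρ, hρ1, hρ2⟩ := rp_facts hr
  have hr0 : 0 < r := by linarith
  have hpb : ∀ m, pbox h r c b s y0 m = {y | (∀ i, |inner ℝ (gradient h (cen (r ^ (-(1/2) : ℝ)) m) - c) (b i)| ≤ s i) ∧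
    ∀ i, |inner ℝ (y - y0) (b i)| ≤ s i * r} := fun m => rfl
  set ρ : ℝ := r ^ (-(1/2) : ℝ) with hρdef
  set l : ℝ := ρ * r with hl
  have hl0 : 0 < l := by positivity
  obtain ⟨a0, ha0n, ha01, ha02, ha03⟩ := exists_side hρ hn (hs 0).1 (hs 0).2
  obtain ⟨a1, ha1n, ha11, ha12, ha13⟩ := exists_side hρ hn (hs 1).1 (hs 1).2
  have ha : a0 ≤ a1 := ha03 a1 (hs01.trans ha11)
  have hs0 : 0 < s 0 := hρ.trans_le (hs 0).1
  have hs1 : 0 < s 1 := hρ.trans_le (hs 1).1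
  set a : Fin 2 → ℕ := ![a0, a1] with hadef
  have hsa : ∀ i, s i ≤ sg ρ (a i) := by
    intro i; fin_cases i
    · exact ha01
    · exact ha11
  set J : Finset (ℤ × ℤ) := Finset.Icc (-⌈(3:ℝ)⌉) ⌈(3:ℝ)⌉ ×ˢ Finset.Icc (-⌈(3:ℝ)⌉) ⌈(3:ℝ)⌉ with hJ
  have hJc : J.card = 49 := by
    rw [hJ, Finset.card_product]
    have : ⌈(3:ℝ)⌉ = 3 := by
      have := Int.ceil_natCast (R := ℝ) 3
      exact_mod_cast this
    rw [this]
    rfl
  set tp : ℤ × ℤ → Tst := fun j => ⟨c, b, y0 + sh b ![2 * j.1 * (sg ρ (a 0) * r),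
    2 * j.2 * (sg ρ (a 1) * r)], a⟩ with htp
  have hsg : ∀ i, 0 < sg ρ (a i) := fun i => hρ.trans_le (sg_ge hρ hρ1 _)
  -- cells which meet the box
  set Q : Cel → Prop := fun x => ∃ y, kk l y = x.2 ∧ y ∈ pbox h r c b s y0 x.1 with hQ
  have step1 : en ρ g (fun m => cs l X m ∩ pbox h r c b s y0 m) ≤
      ∑ x ∈ X with Q x, ec ρ l g x := by
    rw [← en_cs ρ l g (X.filter Q) (fun x hx => hX x (Finset.mem_filter.1 hx).1)]
    refine en_mono fun m _ y hy => ?_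
    show (m, kk l y) ∈ X.filter Q
    rw [Finset.mem_filter]
    exact ⟨hy.1, y, rfl, hy.2⟩
  have step2 : ∑ x ∈ X with Q x, ec ρ l g x ≤
      ∑ j ∈ J, ∑ x ∈ X with inP h ρ l r (tp j) x, ec ρ l g x := by
    refine cover_sum _ _ _ _ _ fun x hx hQx => ?_
    obtain ⟨y, hy1, hy2⟩ := hQx
    rw [hpb] at hy2
    obtain ⟨hy3, hy4⟩ := hy2
    have h5 : ∀ i, |inner ℝ (cen l x.2 - y0) (b i)| ≤ 3 * (sg ρ (a i) * r) := by
      intro i
      have h6 : cen l x.2 - y0 = (y - y0) - (y - cen l x.2) := by abel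
      rw [h6, inner_sub_left]
      refine (abs_sub _ _).trans ?_
      have h7 : |inner ℝ (y - cen l x.2) (b i)| ≤ 3 / 2 * l := by
        refine (abs_real_inner_le_norm _ _).trans ?_
        rw [b.norm_eq_one, mul_one, ← hy1]
        exact kk_dist hl0 y
      have h8 : l ≤ s i * r := by
        rw [hl]
        have := (hs i).1
        gcongr
      have h9 := hy4 i
      have h10 : s i * r ≤ sg ρ (a i) * r := by
        have := hsa i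
        gcongr
      have h11 : 0 < sg ρ (a i) * r := mul_pos (hsg i) hr0
      linarith
    obtain ⟨j, hj1, hj2⟩ := near_shift (by norm_num : (1:ℝ) ≤ 3) b
      (s := fun i => sg ρ (a i) * r) (fun i => mul_pos (hsg i) hr0) (cen l x.2 - y0) h5
    refine ⟨j, hj1, fun i => (hy3 i).trans (hsa i), fun i => ?_⟩
    have h12 := hj2 i
    have h13 : (tp j).y = y0 + sh b ![2 * j.1 * (sg ρ (a 0) * r),
      2 * j.2 * (sg ρ (a 1) * r)] := rfl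
    rw [h13, ← sub_sub]
    exact h12
  have step3 : ∑ j ∈ J, ∑ x ∈ X with inP h ρ l r (tp j) x, ec ρ l g x ≤
      ∑ j ∈ J, ENNReal.ofReal (Δ * cst q ρ r a) :=
    Finset.sum_le_sum fun j _ => H (tp j) ha ha1n
  refine (step1.trans (step2.trans step3)).trans ?_
  rw [Finset.sum_const, hJc, nsmul_eq_mul]
  have h13 : ((49 : ℕ) : ℝ≥0∞) = ENNReal.ofReal 49 := by
    rw [ENNReal.ofReal_ofNat]; rfl
  rw [h13, ← ENNReal.ofReal_mul (by norm_num)]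
  refine ENNReal.ofReal_le_ofReal ?_
  rw [max_eq_right hs01]
  unfold cst
  have e0 : sg ρ (a 0) ≤ 2 * s 0 := ha02
  have e1 : sg ρ (a 1) ≤ 2 * s 1 := ha12
  have hg0 : 0 < sg ρ (a 0) := hsg 0
  have hg1 : 0 < sg ρ (a 1) := hsg 1
  have h14 : (sg ρ (a 1)) ^ q ≤ (2 * s 1) ^ q := by
    gcongr
  have h15 : sg ρ (a 0) * sg ρ (a 1) * r ^ 2 ≤ (2 * s 0) * (2 * s 1) * r ^ 2 := by
    gcongr
  have h16 : (2 * s 1) ^ q = 2 ^ q * s 1 ^ q := Real.mul_rpow (by norm_num) hs1.le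
  have h17 : (2:ℝ) ^ (q + 2) = 2 ^ q * 4 := by
    rw [Real.rpow_add (by norm_num)]; norm_num
  have hsq : 0 ≤ s 1 ^ q := by positivity
  calc 49 * (Δ * ((sg ρ (a 1)) ^ q * (sg ρ (a 0) * sg ρ (a 1) * r ^ 2))) ≤
      49 * (Δ * ((2 * s 1) ^ q * ((2 * s 0) * (2 * s 1) * r ^ 2))) := by
        gcongr
    _ = _ := by
        rw [h16, h17]; ring

theorem dens_of_dd {q : ℝ} (hq : 0 ≤ q) {h : E2 → ℝ} {r : ℝ} (hr : 1 ≤ r) {g : E2 → ℂ} {n : ℕ}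
    (hn : 1 ≤ 2 ^ n * r ^ (-(1/2) : ℝ)) {X : Finset Cel}
    (hX : ∀ x ∈ X, x.1 ∈ caps (r ^ (-(1/2) : ℝ))) {Δ : ℝ} (hΔ : 0 ≤ Δ)
    (H : DD q h (r ^ (-(1/2) : ℝ)) (r ^ (-(1/2) : ℝ) * r) r g n X Δ) :
    Dens q h r g (cs (r ^ (-(1/2) : ℝ) * r) X) (49 * 2 ^ (q + 2) * Δ) := by
  intro c b s y0 hs
  rcases le_total (s 0) (s 1) with h01 | h01
  · exact dens_core hq hr hn hX hΔ H c b s y0 hs h01
  · have h1 := dens_core hq hr hn hX hΔ H c (b.reindex (Equiv.swap 0 1))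
      (fun i => s (Equiv.swap 0 1 i)) y0 (fun i => hs _) (by simpa using h01)
    have h2 : ∀ m, pbox h r c (b.reindex (Equiv.swap 0 1)) (fun i => s (Equiv.swap 0 1 i)) y0 m =
        pbox h r c b s y0 m := by
      intro m
      ext y
      simp only [pbox, Set.mem_ofPred_eq, Fin.forall_fin_two, OrthonormalBasis.reindex_apply,
        Equiv.symm_swap, Equiv.swap_apply_left, Equiv.swap_apply_right]
      tauto
    simp only [h2, Equiv.swap_apply_left, Equiv.swap_apply_right] at h1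
    rw [max_comm, mul_comm (s 1) (s 0)] at h1
    exact h1

/-- total energy bound from the discrete density. -/
theorem tot_le (B : ℕ → ℝ) {q : ℝ} {h : E2 → ℝ} (hh : ParB B h) (h1 : fderiv ℝ h 0 = 0) {r : ℝ}
    (hr : 1 ≤ r) {g : E2 → ℂ} {n : ℕ} (hn : 1 ≤ 2 ^ n * r ^ (-(1/2) : ℝ)) {X : Finset Cel}
    {K : ℝ} (hK : 1 ≤ K)
    (hX : ∀ x ∈ X, x.1 ∈ caps (r ^ (-(1/2) : ℝ)) ∧ ‖cen (r ^ (-(1/2) : ℝ) * r) x.2‖ ≤ K * r)
    {Δ : ℝ} (hΔ : 0 ≤ Δ)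
    (H : DD q h (r ^ (-(1/2) : ℝ)) (r ^ (-(1/2) : ℝ) * r) r g n X Δ) :
    ∑ x ∈ X, ec (r ^ (-(1/2) : ℝ)) (r ^ (-(1/2) : ℝ) * r) g x ≤
      ENNReal.ofReal (((Finset.Icc (-⌈6 * (1 + |B 2|)⌉) ⌈6 * (1 + |B 2|)⌉ ×ˢ
        Finset.Icc (-⌈6 * (1 + |B 2|)⌉) ⌈6 * (1 + |B 2|)⌉) ×ˢ
        (Finset.Icc (-⌈K⌉) ⌈K⌉ ×ˢ Finset.Icc (-⌈K⌉) ⌈K⌉)).card * (Δ * r ^ 2)) := by
  classical
  obtain ⟨hρ, hρ1, hρ2⟩ := rp_facts hr
  have hr0 : 0 < r := by linarith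
  set ρ : ℝ := r ^ (-(1/2) : ℝ) with hρdef
  set l : ℝ := ρ * r with hl
  have hl0 : 0 < l := by positivity
  set V : ℝ := 6 * (1 + |B 2|) with hV
  have hB2 : 0 ≤ |B 2| := abs_nonneg _
  have hV1 : 1 ≤ V := by rw [hV]; linarith
  set J : Finset ((ℤ × ℤ) × (ℤ × ℤ)) := (Finset.Icc (-⌈V⌉) ⌈V⌉ ×ˢ Finset.Icc (-⌈V⌉) ⌈V⌉) ×ˢ
        (Finset.Icc (-⌈K⌉) ⌈K⌉ ×ˢ Finset.Icc (-⌈K⌉) ⌈K⌉) with hJ
  set b : OrthonormalBasis (Fin 2) ℝ E2 := EuclideanSpace.basisFun (Fin 2) ℝ with hb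
  have hsn : sg ρ n = 1 := by unfold sg; rw [min_eq_right hn]
  set tp : (ℤ × ℤ) × (ℤ × ℤ) → Tst := fun j => ⟨sh b ![2 * j.1.1 * 1, 2 * j.1.2 * 1], b,
    sh b ![2 * j.2.1 * r, 2 * j.2.2 * r], ![n, n]⟩ with htp
  have hcaps : ∀ m ∈ caps ρ, ‖cen ρ m‖ ≤ 6 := by
    intro m hm
    have h2 : ∀ z : ℤ, z ∈ Finset.Icc (-⌈2 / ρ⌉ - 1) (⌈2 / ρ⌉ + 1) → |ρ * z| ≤ 4 := by
      intro z hz
      obtain ⟨hz1, hz2⟩ := Finset.mem_Icc.1 hz
      have h3 : (⌈2 / ρ⌉ : ℝ) < 2 / ρ + 1 := Int.ceil_lt_add_one _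
      have h4 : (z : ℝ) ≤ ⌈2 / ρ⌉ + 1 := by exact_mod_cast hz2
      have h5 : (-⌈2 / ρ⌉ - 1 : ℝ) ≤ z := by exact_mod_cast hz1
      have h6 : ρ * (2 / ρ) = 2 := by field_simp
      rw [abs_le]
      constructor <;> nlinarith
    have hm' := Finset.mem_product.1 hm
    have h3 := h2 _ hm'.1
    have h4 := h2 _ hm'.2
    refine le_of_sq_le_sq ?_ (by norm_num)
    rw [EuclideanSpace.norm_sq_eq, Fin.sum_univ_two, cen_zero, cen_one]
    simp only [Real.norm_eq_abs]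
    have a0 := abs_nonneg (ρ * (m.1 : ℝ))
    have a1 := abs_nonneg (ρ * (m.2 : ℝ))
    nlinarith
  have step : ∑ x ∈ X with True, ec ρ l g x ≤
      ∑ j ∈ J, ∑ x ∈ X with inP h ρ l r (tp j) x, ec ρ l g x := by
    refine cover_sum _ _ _ _ _ fun x hx _ => ?_
    obtain ⟨hx1, hx2⟩ := hX x hx
    have h5 : ∀ i, |inner ℝ (gradient h (cen ρ x.1)) (b i)| ≤ V * (fun _ : Fin 2 => (1:ℝ)) i := by
      intro i
      refine (abs_real_inner_le_norm _ _).trans ?_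
      rw [b.norm_eq_one, mul_one]
      refine (grad_le hh h1 _).trans ?_
      have := hcaps _ hx1
      simp only [mul_one]
      rw [hV]
      nlinarith
    obtain ⟨j1, hj1, hj1'⟩ := near_shift hV1 b (s := fun _ => (1:ℝ)) (fun _ => one_pos) _ h5
    have h6 : ∀ i, |inner ℝ (cen l x.2) (b i)| ≤ K * (fun _ : Fin 2 => r) i := by
      intro i
      refine (abs_real_inner_le_norm _ _).trans ?_
      rw [b.norm_eq_one, mul_one]
      exact hx2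
    obtain ⟨j2, hj2, hj2'⟩ := near_shift hK b (s := fun _ => r) (fun _ => hr0) _ h6
    refine ⟨(j1, j2), Finset.mem_product.2 ⟨hj1, hj2⟩, fun i => ?_, fun i => ?_⟩
    · have h7 := hj1' i
      have h8 : sg ρ ((tp (j1, j2)).a i) = 1 := by
        rw [htp]; fin_cases i <;> exact hsn
      rw [h8]
      exact h7
    · have h7 := hj2' i
      have h8 : sg ρ ((tp (j1, j2)).a i) = 1 := by
        rw [htp]; fin_cases i <;> exact hsn
      rw [h8, one_mul]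
      exact h7
  rw [Finset.filter_true] at step
  refine step.trans ?_
  have step3 : ∑ j ∈ J, ∑ x ∈ X with inP h ρ l r (tp j) x, ec ρ l g x ≤
      ∑ j ∈ J, ENNReal.ofReal (Δ * r ^ 2) := by
    refine Finset.sum_le_sum fun j _ => (H (tp j) le_rfl le_rfl).trans ?_
    refine ENNReal.ofReal_le_ofReal (le_of_eq ?_)
    have e0 : (tp j).a 0 = n := rfl
    have e1 : (tp j).a 1 = n := rfl
    unfold cst
    rw [e0, e1, hsn]
    simp
  refine step3.trans ?_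
  rw [Finset.sum_const, nsmul_eq_mul, ← ENNReal.ofReal_natCast, ← ENNReal.ofReal_mul (by positivity)]

/-! ### levels -/

theorem levels {α π : Type*} [DecidableEq α] (e : α → ℝ≥0∞) (T : π → α → Prop)
    [∀ p, DecidablePred (T p)] (cost : ℕ → π → ℝ≥0∞) (X0 : Finset α) :
    ∃ (X : ℕ → Finset α) (n : ℕ → ℕ) (P : ℕ → ℕ → Option π) (A : ℕ → ℕ → Finset α), X 0 = X0 ∧
      ∀ j, (∀ i < n j, A j i ⊆ X j ∧ ∃ p, P j i = some p ∧ (∀ x ∈ A j i, T p x) ∧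
          cost j p < ∑ x ∈ A j i, e x) ∧
        (∀ i < n j, ∀ i' < n j, i ≠ i' → Disjoint (A j i) (A j i')) ∧
        (∀ x, x ∈ X (j + 1) ↔ x ∈ X j ∧ ∀ i < n j, x ∉ A j i) ∧
        ∀ p, ∑ x ∈ X (j + 1) with T p x, e x ≤ cost j p := by
  classical
  have H := fun (j : ℕ) (X : Finset α) => extract e T (cost j) X
  choose nn PP AA h1 h2 h3 using H
  let Xs : ℕ → Finset α := fun j => Nat.rec X0
    (fun j Y => Y.filter (fun x => ∀ i < nn j Y, x ∉ AA j Y i)) j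
  have hXs : ∀ j, Xs (j + 1) = (Xs j).filter (fun x => ∀ i < nn j (Xs j), x ∉ AA j (Xs j) i) :=
    fun j => rfl
  refine ⟨Xs, fun j => nn j (Xs j), fun j => PP j (Xs j), fun j => AA j (Xs j), rfl, fun j =>
    ⟨h1 j (Xs j), h2 j (Xs j), ?_, ?_⟩⟩
  · intro x
    rw [hXs, Finset.mem_filter]
  · intro p
    refine le_trans (le_of_eq ?_) (h3 j (Xs j) p)
    rw [hXs]
    refine Finset.sum_congr ?_ fun _ _ => rfl
    ext x
    simp only [Finset.mem_filter]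
    tauto

end Crest.Agent.R138.Wpk685
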