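import Crest.Agent.R138.Sys2_248
import Crest.Agent.R138.Ps3b_926
import Crest.Agent.R138.Jc_294

/-!
# R138, helper248: the extremal stable family `XS` (X1 output, all levels)

* `ow_anti`, `ow_lip` : own exponents.
* `exists_xs` : from a near-extremal sequence (`ExtX`) and the upper bounds `Bd` for all penalties
  `p ∈ [q, 2]`: an extremal stable family `XS` with `κ (v - u) ≤ l u - l v`.
-/

set_option autoImplicit false
set_option linter.unusedVariables false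

open Filter Topology Finset

namespace Crest.Agent.R138.X248

open Crest.Agent.R138.Ex926 Crest.Agent.R138.Dp76 Crest.Agent.R138.Flag51
open Crest.Agent.R138.K294 Crest.Agent.R138.Ps926

variable {B : Base} {m M : ℕ → ℕ} {r : ℕ → ℝ} {I J : ℕ → Finset (Ln × ℝ)}

/-! ### own exponents -/

theorem zc_range {m' k : ℕ} (z : ℝ) :
    zc (m' + k) z ∈ Finset.Ico (2 ^ k * zc m' z) (2 ^ k * zc m' z + 2 ^ k) := by
  have h1 := Int.floor_le ((2:ℝ) ^ m' * z)
  have h2 := Int.lt_floor_add_one ((2:ℝ) ^ m' * z)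
  have hk : (0:ℝ) < 2 ^ k := by positivity
  unfold zc
  rw [Finset.mem_Ico]
  constructor
  · rw [Int.le_floor]
    push_cast
    calc (2:ℝ) ^ k * ⌊(2:ℝ) ^ m' * z⌋ ≤ 2 ^ k * (2 ^ m' * z) := by gcongr
      _ = 2 ^ (m' + k) * z := by rw [pow_add]; ring
  · rw [Int.floor_lt]
    push_cast
    calc (2:ℝ) ^ (m' + k) * z = 2 ^ k * (2 ^ m' * z) := by rw [pow_add]; ring
      _ < 2 ^ k * (⌊(2:ℝ) ^ m' * z⌋ + 1) := by gcongr
      _ = _ := by ring

open Classical in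
/-- the number of level-`m2` objects of one level-`m1` object -/
theorem card_sub_le {m1 m2 : ℕ} (h12 : m1 ≤ m2) (A : Finset (Ln × ℝ)) (x : Ln × ℝ)
    (hA : ∀ y ∈ A, K294.ob m1 y = K294.ob m1 x) :
    (A.image (K294.ob m2)).card ≤ 2 ^ (m2 - m1) := by
  obtain ⟨k, rfl⟩ := Nat.exists_eq_add_of_le h12
  rw [Nat.add_sub_cancel_left]
  have h1 : A.image (K294.ob (m1 + k)) ⊆
      (Finset.Ico (2 ^ k * zc m1 x.2) (2 ^ k * zc m1 x.2 + 2 ^ k)).image fun j => (x.1, j) := by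
    intro o ho
    obtain ⟨y, hy, rfl⟩ := mem_image.1 ho
    have h2 : (y.1, zc m1 y.2) = (x.1, zc m1 x.2) := hA y hy
    have h3 : y.1 = x.1 := (Prod.ext_iff.1 h2).1
    have h4 : zc m1 y.2 = zc m1 x.2 := (Prod.ext_iff.1 h2).2
    refine mem_image.2 ⟨zc (m1 + k) y.2, ?_, ?_⟩
    · rw [← h4]; exact zc_range y.2
    · unfold K294.ob; rw [h3]
  refine (card_le_card h1).trans (card_image_le.trans ?_)
  rw [Int.card_Ico]
  have : 2 ^ k * zc m1 x.2 + 2 ^ k - 2 ^ k * zc m1 x.2 = ((2 ^ k : ℕ) : ℤ) := by push_cast; ring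
  rw [this, Int.toNat_natCast]

theorem cmax_anti {m1 m2 : ℕ} (h12 : m1 ≤ m2) (A : Finset (Ln × ℝ)) :
    cmax (K294.ob m2) A ≤ cmax (K294.ob m1) A := by
  classical
  refine cmax_le _ fun x hx => ?_
  refine le_trans (card_le_card fun y hy => ?_) (le_cmax (K294.ob m1) hx)
  rw [mem_filter] at hy ⊢
  refine ⟨hy.1, ?_⟩
  have h0 : (y.1, zc m2 y.2) = (x.1, zc m2 x.2) := hy.2
  have h1 : y.1 = x.1 := (Prod.ext_iff.1 h0).1
  have h2 : zc m2 y.2 = zc m2 x.2 := (Prod.ext_iff.1 h0).2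
  unfold K294.ob
  rw [h1, zc_nested h12 h2]

theorem cmax_lip {m1 m2 : ℕ} (h12 : m1 ≤ m2) (A : Finset (Ln × ℝ)) :
    cmax (K294.ob m1) A ≤ 2 ^ (m2 - m1) * cmax (K294.ob m2) A := by
  classical
  refine cmax_le _ fun x hx => ?_
  have h1 := card_le_ncl_mul_cmax (K294.ob m2) (A.filter fun y => K294.ob m1 y = K294.ob m1 x)
  refine h1.trans (Nat.mul_le_mul ?_ (cmax_mono _ (filter_subset _ _)))
  have h2 := card_sub_le h12 (A.filter fun y => K294.ob m1 y = K294.ob m1 x) x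
    (fun y hy => (mem_filter.1 hy).2)
  refine le_trans (le_of_eq ?_) h2
  unfold ncl
  congr!

theorem pb_cmax (h : Fam B m M r I) (v : ℝ) :
    B.PB (fun n => (cmax (K294.ob (lv m M n v)) (I n) : ℝ)) :=
  (monoF_cmax h.card_pb (fun n => K294.ob (lv m M n v))).pb
    (Eventually.of_forall fun n => Subset.refl _) h.ne

theorem ow_anti (h : Fam B m M r I) {u v : ℝ} (huv : u ≤ v) : ow B m M I v ≤ ow B m M I u :=
  Base.ex_le (pb_cmax h v) (pb_cmax h u) (Eventually.of_forall fun n => by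
    exact_mod_cast cmax_anti (lv_mono huv) (I n))

theorem ow_lip (h : Fam B m M r I) {u v : ℝ} (hu : 0 ≤ u) (huv : u ≤ v) :
    ow B m M I u ≤ ow B m M I v + (v - u) := by
  have h1 : Tendsto (B.lg (fun n => (2 : ℝ) ^ (lv m M n v - lv m M n u))) U (𝓝 (v - u)) := by
    refine (h.lv_lim hu huv).congr fun n => ?_
    unfold Base.lg
    rw [Real.log_pow, h.L_eq n]
    have := (Real.log_pos one_lt_two).ne'
    have := (h.M_pos n).ne'
    field_simp
  have pb2 : B.PB (fun n => (2 : ℝ) ^ (lv m M n v - lv m M n u)) :=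
    Base.PB.of_tendsto (Eventually.of_forall fun n => by positivity) h1
  have h3 := Base.ex_le (pb_cmax h u) (pb2.mul (pb_cmax h v)) (Eventually.of_forall fun n => by
    exact_mod_cast cmax_lip (lv_mono huv) (I n))
  rw [Base.ex_mul pb2 (pb_cmax h v), Base.ex_eq_of_tendsto h1] at h3
  unfold ow
  linarith

/-- the profile -/
noncomputable def Lam (B : Base) (m M : ℕ → ℕ) (I : ℕ → Finset (Ln × ℝ)) (v : ℝ) : ℝ :=
  v - (ow B m M I 0 - ow B m M I v)

theorem ev_of_ex_le {X Y : ℕ → ℝ} (hX : B.PB X) (hY : B.PB Y) (h : B.ex X ≤ B.ex Y) {ε : ℝ}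
    (hε : 0 < ε) : ∀ᶠ n in (U : Filter ℕ), B.d n ^ ε * X n ≤ Y n := by
  obtain ⟨e, he, h1⟩ := Base.ev_lt_of_ex_lt ((Base.PB.dpow ε).mul hX) hY (by
    rw [Base.ex_mul (Base.PB.dpow ε) hX, Base.ex_dpow]; linarith)
  filter_upwards [h1, hY.pos] with n h2 h3
  exact h2.trans (mul_le_of_le_one_left h3.le (dpow_le_one B n he.le))

theorem Bd_of {p b : ℝ} (h : ∀ R C, K294.Bd p b R C) : ∀ R C, Ps926.Bd p b R C := by
  intro R C η hη
  obtain ⟨M0, h0⟩ := h R C η hη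
  refine ⟨M0, fun F hF hM hr hI => h0 F hF hM ⟨?_, hI⟩⟩
  refine le_trans (le_of_eq ?_) hr
  rw [one_div, Real.inv_rpow (by norm_num), Real.rpow_neg (by norm_num)]

/-! ### the extremal stable family -/

/-- upper bounds and near-extremal sequence -/
structure InX (q κ β : ℝ) : Prop where
  q0 : 0 < q
  q2 : q < 2
  κ0 : 0 < κ
  β0 : 0 < β
  ub : ∀ p : ℝ, q ≤ p → p ≤ 2 → ∀ x ∈ valSet p, x ≤ β + κ * (q - p)
  nx : ∃ F, NearX F q β

theorem inX_of_joint {q0 κ q β R0 C0 : ℝ} (h0 : 0 < q0) (hκ : 0 < κ) (hβ : 0 < β) (hq : q0 ≤ q)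
    (hq2 : q < 2) (hub : ∀ p, q0 ≤ p → p ≤ 2 → ∀ R C, K294.Bd p (β + κ * (q - p)) R C)
    (hex : ∀ η : ℝ, 0 < η → ∀ M0 : ℕ, ∃ F : Cf, F.Ok q ∧ M0 ≤ F.M ∧ F.Sz R0 C0 ∧
      β - η ≤ F.val) : InX q κ β := by
  refine ⟨h0.trans_le hq, hq2, hκ, hβ, fun p hp1 hp2 => le_of_Bd (Bd_of (hub p (hq.trans hp1) hp2)),
    ?_⟩
  have h1 : ∀ n : ℕ, (0 : ℝ) < 1 / ((n : ℝ) + 1) := fun n => by positivity
  choose F hF using fun n : ℕ => hex (1 / ((n : ℝ) + 1)) (h1 n) n
  refine ⟨F, fun n => (hF n).1, fun n => (hF n).2.1, ⟨max R0 C0, fun n => ?_⟩, ?_⟩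
  · obtain ⟨-, -, h2, -⟩ := hF n
    have hM : (0 : ℝ) ≤ (F n).M := Nat.cast_nonneg _
    refine ⟨h2.card.trans (Real.rpow_le_rpow_of_exponent_le (by norm_num)
      (mul_le_mul_of_nonneg_right (le_max_right _ _) hM)), le_trans ?_ h2.resX⟩
    refine Real.rpow_le_rpow_of_exponent_le (by norm_num) ?_
    have := mul_le_mul_of_nonneg_right (le_max_left R0 C0) hM
    linarith
  · intro η hη
    have h2 : ∀ᶠ n : ℕ in atTop, 1 / ((n : ℝ) + 1) < η := by
      have := (tendsto_order.1 tendsto_one_div_add_atTop_nhds_zero_nat).2 η hη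
      exact this
    filter_upwards [ev_of_atTop h2] with n hn
    have := (hF n).2.2.2
    linarith

theorem exists_stable_all (h : Fam B m M r I) :
    ∃ J : ℕ → Finset (Ln × ℝ), Dense B J I ∧
      (∀ v : ℚ, 0 ≤ v → v ≤ 1 → ∀ l a : ℚ, 0 ≤ l → 0 ≤ a →
        StableF B (fun n J => (shS B m M r v l a n).Dmax J) J) ∧
      ∀ v : ℚ, 0 ≤ v → v ≤ 1 → Unif B (fun n => K294.ob (lv m M n v)) J := by
  obtain ⟨e, he⟩ := exists_surjective_nat (ℚ × ℚ × ℚ)
  set cv : ℕ → ℚ := fun j => max 0 (min (e j).1 1) with hcv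
  set c1 : ℕ → ℚ := fun j => max (e j).2.1 0 with hc1
  set c2 : ℕ → ℚ := fun j => max (e j).2.2 0 with hc2
  have hcv1 : ∀ j, ((cv j : ℚ) : ℝ) ≤ 1 := fun j => by
    have : cv j ≤ 1 := max_le (by norm_num) (min_le_right _ _)
    exact_mod_cast this
  have hc10 : ∀ j, (0 : ℝ) ≤ ((c1 j : ℚ) : ℝ) := fun j => by
    have : 0 ≤ c1 j := le_max_right _ _
    exact_mod_cast this
  have hc20 : ∀ j, (0 : ℝ) ≤ ((c2 j : ℚ) : ℝ) := fun j => by
    have : 0 ≤ c2 j := le_max_right _ _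
    exact_mod_cast this
  obtain ⟨J, h1, h2, h3⟩ := exists_calc (α := fun _ => Ln × ℝ) (κ := fun _ => Ln × ℤ) h.card_pb
    (fun j n A => (shS B m M r (cv j) (c1 j) (c2 j) n).Dmax A)
    (fun j => monoF_Dmax (padm_shS h (hcv1 j) (hc10 j) (hc20 j)))
    (fun j n => K294.ob (lv m M n (cv j)))
  refine ⟨J, h1, fun v hv0 hv1 l a hl ha => ?_, fun v hv0 hv1 => ?_⟩
  · obtain ⟨j, hj⟩ := he (v, l, a)
    have e1 : cv j = v := by simp only [hcv, hj]; rw [min_eq_left hv1, max_eq_right hv0]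
    have e2 : c1 j = l := by simp only [hc1, hj]; exact max_eq_left hl
    have e3 : c2 j = a := by simp only [hc2, hj]; exact max_eq_left ha
    have := h2 j
    rwa [e1, e2, e3] at this
  · obtain ⟨j, hj⟩ := he (v, 0, 0)
    have e1 : cv j = v := by simp only [hcv, hj]; rw [min_eq_left hv1, max_eq_right hv0]
    have := h3 j
    rwa [e1] at this

/-- window inequality in `Λ` form -/
theorem win (h : Fam B m M r J) {κ β q : ℝ} (hin : InX q κ β)
    (hS : ∀ v : ℚ, 0 ≤ v → v ≤ 1 → ∀ l a : ℚ, 0 ≤ l → 0 ≤ a →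
        StableF B (fun n J => (shS B m M r v l a n).Dmax J) J)
    (hU : ∀ v : ℚ, 0 ≤ v → v ≤ 1 → Unif B (fun n => K294.ob (lv m M n v)) J)
    {u v : ℚ} (hu : 0 ≤ u) (huv : u < v) (hv : v ≤ 1) {p : ℝ} (hp0 : 0 ≤ p) (hp1 : q ≤ p)
    (hp2 : p ≤ 2) :
    DD B p hp0 m M r h.rpos J 0 v - DD B p hp0 m M r h.rpos J 0 u ≤
      2 * (Lam B m M J v - Lam B m M J u) + (β + κ * (q - p)) * ((v : ℝ) - u) := by
  have hu' : (0 : ℝ) ≤ u := by exact_mod_cast hu
  have huv' : (u : ℝ) < v := by exact_mod_cast huv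
  have hv' : (v : ℝ) ≤ 1 := by exact_mod_cast hv
  have h1 := window_ineq h hp0 hu' huv' hv'
    (stable_kP h hv' (hS v (hu.trans huv.le) hv) hp0)
    (hU u hu (huv.le.trans hv)) (hU v (hu.trans huv.le) hv) (hin.ub p hp1 hp2)
  unfold Lam
  linarith

/-- **X1**: the extremal stable family. -/
theorem exists_xs {q κ β : ℝ} (hin : InX q κ β) (hExt : ExtX) :
    ∃ (B : Base) (m M : ℕ → ℕ) (r : ℕ → ℝ) (I : ℕ → Finset (Ln × ℝ)) (A : ℕ → ℝ)
      (Λ l : ℝ → ℝ) (w1 w2 : ℕ → ℚ → ℝ) (h1 : ∀ n v, 0 < w1 n v) (h2 : ∀ n v, 0 < w2 n v),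
      XS B m M r I A q β Λ l w1 w2 h1 h2 ∧
      ∀ u v : ℚ, 0 ≤ u → u ≤ v → v ≤ 1 → κ * ((v : ℝ) - u) ≤ l u - l v := by
  classical
  obtain ⟨F, hF⟩ := hin.nx
  obtain ⟨B, m, M, r, hr, I0, hfam0, hone0, htot0⟩ := hExt F q β hin.q0.le hF
  obtain ⟨I, hd, hS, hU⟩ := exists_stable_all hfam0
  have h := hfam0.dense hd
  have htot := htot0 I hd
  set Λ : ℝ → ℝ := Lam B m M I with hΛ
  set DQ : ℝ → ℝ := fun v => DD B q hin.q0.le m M r h.rpos I 0 v with hDQ
  have hrr : hr = h.rpos := rfl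
  have hone : ∀ᶠ n in (U : Filter ℕ), ∀ x ∈ I n, ∀ y ∈ I n,
      K294.ob (m n + M n) x = K294.ob (m n + M n) y → x = y := by
    filter_upwards [hd.1] with n hn x hx y hy hxy
    exact hone0 n x (hn hx) y (hn hy) hxy
  -- the profile
  have hlam : ∀ u v : ℝ, 0 ≤ u → u ≤ v → v ≤ 1 → 0 ≤ Λ v - Λ u ∧ Λ v - Λ u ≤ v - u := by
    intro u v hu huv hv
    have a1 := ow_anti h huv
    have a2 := ow_lip h hu huv
    simp only [hΛ, Lam]
    constructor <;> linarith
  have hlam0 : Λ 0 = 0 := by simp only [hΛ, Lam]; ring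
  have how1 : ow B m M I 1 = 0 := by
    have e1 : ∀ᶠ n in (U : Filter ℕ), (cmax (K294.ob (lv m M n 1)) (I n) : ℝ) = 1 := by
      filter_upwards [hone, h.ne] with n hn hne
      have a1 : cmax (K294.ob (lv m M n 1)) (I n) ≤ 1 := by
        refine cmax_le _ fun x hx => ?_
        rw [card_le_one]
        intro y hy z hz
        rw [mem_filter] at hy hz
        rw [lv_one] at hy hz
        exact hn y hy.1 z hz.1 (hy.2.trans hz.2.symm)
      have a2 := one_le_cmax (K294.ob (lv m M n 1)) hne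
      have : cmax (K294.ob (lv m M n 1)) (I n) = 1 := le_antisymm a1 a2
      exact_mod_cast this
    unfold ow
    rw [Base.ex_congr (pb_cmax h 1) e1, Base.ex_const]
  have htot' : 2 * Λ 1 + β ≤ DQ 1 - DQ 0 := by
    simp only [hΛ, Lam, hDQ]
    linarith
  have hwin := fun {u v : ℚ} (hu : 0 ≤ u) (huv : u < v) (hv : v ≤ 1) {p : ℝ} (hp0 : 0 ≤ p)
    (hp1 : q ≤ p) (hp2 : p ≤ 2) => win h hin hS hU hu huv hv hp0 hp1 hp2
  have heq : ∀ v : ℚ, 0 ≤ v → v ≤ 1 → DQ v = DQ 0 + 2 * Λ v + β * v := by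
    intro v hv0 hv1
    have a1 : DQ v - DQ 0 ≤ 2 * Λ v + β * v := by
      rcases hv0.eq_or_lt with h0 | h0
      · rw [← h0]; simp [hlam0]
      · have := hwin le_rfl h0 hv1 hin.q0.le le_rfl hin.q2.le
        simp only [Rat.cast_zero] at this
        have e : Lam B m M I 0 = 0 := hlam0
        rw [e] at this
        simp only [hDQ]
        have e2 : κ * (q - q) = 0 := by ring
        rw [e2] at this
        linarith
    have a2 : DQ 1 - DQ v ≤ 2 * (Λ 1 - Λ v) + β * (1 - v) := by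
      rcases hv1.eq_or_lt with h0 | h0
      · rw [h0]; simp
      · have := hwin hv0 h0 le_rfl hin.q0.le le_rfl hin.q2.le
        simp only [Rat.cast_one] at this
        have e2 : κ * (q - q) = 0 := by ring
        rw [e2] at this
        simp only [hDQ]
        linarith
    linarith
  -- the shapes
  have hshape : ∀ v : ℚ, ∃ x : ℝ × ℝ, v ≤ 1 → x ∈ Sq248.Arg (KSh (Rv B m M r v)) (ph B m M r I) q v ∧
      x.1 = Sq248.lp (KSh (Rv B m M r v)) (ph B m M r I) q v := by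
    intro v
    by_cases hv : v ≤ 1
    · have hv' : (v : ℝ) ≤ 1 := by exact_mod_cast hv
      obtain ⟨x, hx1, hx2⟩ := Sq248.lp_mem (KSh_compact _) (KSh_nonempty (Rv_nonneg h hv'))
        (ph_cont h hv') q
      exact ⟨x, fun _ => ⟨hx1, hx2⟩⟩
    · exact ⟨0, fun h' => absurd h' hv⟩
  choose s hs using hshape
  set l : ℝ → ℝ := fun v => Sq248.lp (KSh (Rv B m M r v)) (ph B m M r I) q v with hl
  have hsl : ∀ v : ℚ, v ≤ 1 → (s v).1 = l v := fun v hv => (hs v hv).2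
  have hsK : ∀ v : ℚ, v ≤ 1 → s v ∈ KSh (Rv B m M r v) := fun v hv => (hs v hv).1.1
  have hsφ : ∀ v : ℚ, 0 ≤ v → v ≤ 1 → ph B m M r I v (s v) = DQ v - q * (s v).1 := by
    intro v hv0 hv
    have hv' : (v : ℝ) ≤ 1 := by exact_mod_cast hv
    have a1 := (hs v hv).1.2
    rw [← DD_eq h hin.q0.le hv'] at a1
    simp only [hDQ]
    linarith
  set w1 : ℕ → ℚ → ℝ := fun n v => wd B m M r n v (s v).2 with hw1
  set w2 : ℕ → ℚ → ℝ := fun n v => wd B m M r n v (s v).1 with hw2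
  have h1 : ∀ n v, 0 < w1 n v := fun n v => wd_pos B m M r n v _
  have h2 : ∀ n v, 0 < w2 n v := fun n v => wd_pos B m M r n v _
  -- the amplitude
  set X : ℚ → ℕ → ℝ := fun v n => (kP q (m n) (lv m M n v) (r n)
    (B.d n ^ (0:ℝ) / 2 ^ (lv m M n v)) hin.q0.le (h.rpos n)).Dmax (I n) with hX
  have pbX : ∀ v : ℚ, v ≤ 1 → B.PB (X v) := fun v hv =>
    pb_kP h hin.q0.le (by exact_mod_cast hv)
  have exX : ∀ v : ℚ, B.ex (X v) = DQ v := fun v => rfl
  set A : ℕ → ℝ := fun n => if 0 < X 0 n then X 0 n * 4 ^ (m n) else 1 with hA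
  have hApos : ∀ n, 0 < A n := by
    intro n
    simp only [hA]
    split_ifs with hp
    · positivity
    · norm_num
  have hAev : ∀ᶠ n in (U : Filter ℕ), A n = X 0 n * 4 ^ (m n) := by
    filter_upwards [(pbX 0 (by norm_num)).pos] with n hn
    simp only [hA]
    rw [if_pos hn]
  have hrho : ∀ n (v : ℚ), (Mk163.rho (lv m M n v)) ^ (-q) = ((2 : ℝ) ^ (lv m M n v)) ^ q := by
    intro n v
    unfold Mk163.rho
    rw [one_div, Real.inv_rpow (by positivity), Real.rpow_neg (by positivity), inv_inv]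
  refine ⟨B, m, M, r, I, A, Λ, l, w1, w2, h1, h2, ?_, ?_⟩
  · refine ⟨h, hone, hin.q0, hin.q2.le, hin.β0, hApos, hlam0, hlam, hU, ?_, ?_, ?_, ?_, ?_, ?_, ?_⟩
    · -- own
      intro v hv0 hv1
      have e1 : Λ 1 - Λ v = (1 - v) - (ow B m M I v - ow B m M I 1) := by
        simp only [hΛ, Lam]; ring
      rw [e1, how1]; ring
    · -- dims
      intro v hv0 hv1 n
      have hv' : (v : ℝ) ≤ 1 := by exact_mod_cast hv1
      obtain ⟨a1, a2, a3⟩ := hsK v hv1
      exact ⟨r_le_wd n v _, wd_anti n v a2, wd_le h n hv' a1⟩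
    · -- wide
      intro v hv0 hv1
      have hv' : (v : ℝ) ≤ 1 := by exact_mod_cast hv1
      obtain ⟨a1, a2, a3⟩ := hsK v hv1
      have b1 := (pb_wd h hv' (s v).1).tendsto
      rw [ex_wd h hv' (a2.trans a3)] at b1
      have b2 := b1.neg
      rw [neg_neg] at b2
      rw [← hsl v hv1]
      refine b2.congr fun n => ?_
      unfold Base.lg Mk163.rho
      have c1 := wd_pos B m M r n v (s v).1
      have c2 : (0 : ℝ) < 2 ^ (lv m M n v) := by positivity
      show -(Real.log (wd B m M r n v (s v).1 * 2 ^ (lv m M n v)) / B.L n) =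
        Real.log (1 / 2 ^ (lv m M n v) / w2 n v) / B.L n
      rw [← neg_div, ← Real.log_inv]
      congr 2
      simp only [hw2]
      field_simp
    · -- adm
      intro v hv0 hv1
      have hv' : (v : ℝ) ≤ 1 := by exact_mod_cast hv1
      obtain ⟨a1, a2, a3⟩ := hsK v hv1
      exact padm_shS h hv' a1 (a1.trans a2)
    · -- st
      intro v hv0 hv1
      have hv' : (v : ℝ) ≤ 1 := by exact_mod_cast hv1
      obtain ⟨a1, a2, a3⟩ := hsK v hv1
      exact stable_real h hv' (hS v hv0 hv1) a1 (a1.trans a2)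
    · -- near
      intro v hv0 hv1 ε hε
      have hv' : (v : ℝ) ≤ 1 := by exact_mod_cast hv1
      obtain ⟨a1, a2, a3⟩ := hsK v hv1
      have pb1 := pbX 0 (by norm_num)
      have pb2 := pb_wd h hv' (s v).1
      have pb3 := pb_ph h (l := (s v).1) (a := (s v).2) hv' a1 (a1.trans a2)
      have pb4 : B.PB (fun n => X 0 n * B.d n ^ (-(2 * Λ v + β * v)) *
          (wd B m M r n v (s v).1 * 2 ^ (lv m M n v)) ^ q) :=
        (pb1.mul (Base.PB.dpow _)).mul (pb2.rpow q)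
      have ex4 : B.ex (fun n => X 0 n * B.d n ^ (-(2 * Λ v + β * v)) *
          (wd B m M r n v (s v).1 * 2 ^ (lv m M n v)) ^ q) ≤
          B.ex (fun n => (shS B m M r v (s v).1 (s v).2 n).Dmax (I n)) := by
        rw [Base.ex_mul (pb1.mul (Base.PB.dpow _)) (pb2.rpow q), Base.ex_mul pb1 (Base.PB.dpow _),
          Base.ex_rpow pb2, Base.ex_dpow, ex_wd h hv' (a2.trans a3), exX 0]
        have b1 : B.ex (fun n => (shS B m M r v (s v).1 (s v).2 n).Dmax (I n)) =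
          ph B m M r I v (s v) := rfl
        rw [b1, hsφ v hv0 hv1, heq v hv0 hv1]
        simp only [Rat.cast_zero]
        linarith
      filter_upwards [ev_of_ex_le pb4 pb3 ex4 hε, hAev] with n b1 b2
      have c1 := h1 n v
      have c2 := h2 n v
      have e1 : B.d n ^ ε * (Mk163.amp B (fun n v => lv m M n v) A q β Λ n v *
          (w1 n v * w2 n v ^ (1 + q))) =
          (B.d n ^ ε * (X 0 n * B.d n ^ (-(2 * Λ v + β * v)) *
          (wd B m M r n v (s v).1 * 2 ^ (lv m M n v)) ^ q)) * (w1 n v * w2 n v * 4 ^ (m n)) := by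
        unfold Mk163.amp
        rw [hrho n v, b2, Real.rpow_add c2, Real.rpow_one]
        have e3 : (wd B m M r n v (s v).1 * 2 ^ (lv m M n v)) ^ q =
            w2 n v ^ q * ((2 : ℝ) ^ (lv m M n v)) ^ q := by
          rw [Real.mul_rpow c2.le (by positivity)]
        rw [e3]
        ring
      rw [e1]
      refine mul_le_mul_of_nonneg_right ?_ (by positivity)
      exact b1
    · -- up
      intro v hv0 hv1 ε hε
      have hv' : (v : ℝ) ≤ 1 := by exact_mod_cast hv1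
      have pb1 := pbX 0 (by norm_num)
      have pb2 := pbX v hv1
      have pb3 : B.PB (fun n => X 0 n * B.d n ^ (-(2 * Λ v + β * v))) := pb1.mul (Base.PB.dpow _)
      have ex3 : B.ex (X v) ≤ B.ex (fun n => X 0 n * B.d n ^ (-(2 * Λ v + β * v))) := by
        rw [Base.ex_mul pb1 (Base.PB.dpow _), Base.ex_dpow, exX 0, exX v, heq v hv0 hv1]
        simp only [Rat.cast_zero]
        linarith
      filter_upwards [ev_of_ex_le pb2 pb3 ex3 hε, hAev] with n b1 b2 K hK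
      have c1 := (h.rpos n).trans_le hK.r1
      have c2 := c1.trans_le hK.w12
      have g1 := (kP q (m n) (lv m M n v) (r n) (B.d n ^ (0:ℝ) / 2 ^ (lv m M n v)) hin.q0.le
        (h.rpos n)).objs_card_le_Dmax (I n) ⟨K, hK, by
          refine le_max_of_le_left ?_
          rw [Real.rpow_zero]
          exact hK.w2⟩
      have g2 : ((K294.objs (lv m M n v) (I n) K).card : ℝ) ≤
          X v n * (cap q (lv m M n v) K * 4 ^ (m n)) := by
        refine le_trans ?_ g1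
        refine Nat.cast_le.2 (card_le_card fun o ho => ?_)
        have ho' := mem_objs294.1 ho
        exact (PSys.mem_objs _).2 ⟨ho'.1, ho'.2⟩
      refine g2.trans ?_
      have e2 : X v n ≤ B.d n ^ (-ε) * (X 0 n * B.d n ^ (-(2 * Λ v + β * v))) := by
        have e3 : X v n = B.d n ^ (-ε) * (B.d n ^ ε * X v n) := by
          rw [← mul_assoc, ← dpow_add]
          simp
        rw [e3]
        exact mul_le_mul_of_nonneg_left b1 (dpow_pos B n _).le
      have e4 : B.d n ^ (-ε) * (Mk163.amp B (fun n v => lv m M n v) A q β Λ n v *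
          (K.w1 * K.w2 ^ (1 + q))) = (B.d n ^ (-ε) * (X 0 n * B.d n ^ (-(2 * Λ v + β * v)))) *
          (cap q (lv m M n v) K * 4 ^ (m n)) := by
        unfold Mk163.amp cap
        rw [hrho n v, b2, Real.rpow_add c2, Real.rpow_one, Real.mul_rpow c2.le (by positivity)]
        ring
      rw [e4]
      refine mul_le_mul_of_nonneg_right e2 ?_
      exact mul_nonneg (cap_pos (h.rpos n) hK).le (by positivity)
  · -- sweep
    intro u v hu huv hv
    rcases huv.eq_or_lt with h0 | h0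
    · rw [h0]; simp
    have hu' : (u : ℝ) ≤ 1 := by exact_mod_cast huv.trans hv
    have hv' : (v : ℝ) ≤ 1 := by exact_mod_cast hv
    have hε0 : 0 < 2 - q := by linarith [hin.q2]
    refine sweep (KSh_compact _) (KSh_nonempty (Rv_nonneg h hu')) (KSh_compact _)
      (KSh_nonempty (Rv_nonneg h hv')) (b := β) (L := 2 * (Λ v - Λ u)) hε0 (ph_cont h hu')
      (ph_cont h hv') ?_ ?_
    · intro ε he1 he2
      have hp0 : 0 ≤ q + ε := by linarith [hin.q0]
      rw [← DD_eq h hp0 hv', ← DD_eq h hp0 hu']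
      have := hwin hu h0 hv hp0 (by linarith) (by linarith)
      refine this.trans (le_of_eq ?_)
      ring
    · rw [← DD_eq h hin.q0.le hv', ← DD_eq h hin.q0.le hu']
      have a1 := heq v (hu.trans huv) hv
      have a2 := heq u hu (huv.trans hv)
      simp only [hDQ] at a1 a2
      linarith

/-- **X1 output** from the literal leaves. -/
theorem mk_of_leaves (hK : ¬ GrW294.KMseq)
    (hN : ∀ q0 : ℝ, 0 < q0 → ∃ L0 : ℝ, ∀ p, q0 ≤ p → p ≤ 2 → ∀ b : ℝ, 0 ≤ b → ∀ C : ℝ,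
      K294.Bd p b L0 C → ∀ R, K294.Bd p b R C)
    (hB : ∀ L0 q0 : ℝ, 0 < q0 → ∃ C0 : ℝ, ∀ p, q0 ≤ p → p ≤ 2 → ∀ b : ℝ, 0 ≤ b →
      K294.Bd p b L0 C0 → ∀ C, K294.Bd p b L0 C) (hExt : ExtX) (hMk : MkOfXs) :
    ∃ (B : Base) (I : ℕ → Finset (ℕ × ℝ)) (L : ℕ → ℕ → Ln) (lev : ℕ → ℚ → ℕ)
      (r0 A : ℕ → ℝ) (q g : ℝ) (Λ τ : ℝ → ℝ) (f : ℕ → ℚ → ℕ → ℤ → ℕ) (b : ℕ → ℚ → ℕ → Ln)
      (e : ℕ → ℚ → ℕ → E2) (w1 w2 : ℕ → ℚ → ℝ) (κ : ℝ), 0 < κ ∧
      Mk163.Mk B I L lev r0 A q g Λ τ f b e w1 w2 ∧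
      ∀ u v : ℚ, 0 ≤ u → u ≤ v → v ≤ 1 → κ * ((v : ℝ) - u) ≤ τ u - τ v := by
  obtain ⟨q0, κ, q, β, R0, C0, h0, hκ, hβ, hq, hq2, hub, hex⟩ := joint_all hK hN hB
  obtain ⟨B, m, M, r, I, A, Λ, l, w1, w2, h1, h2, hxs, hsw⟩ :=
    exists_xs (inX_of_joint h0 hκ hβ hq hq2 hub hex) hExt
  obtain ⟨I', L, f, b, e, hmk⟩ := hMk B m M r I A q β Λ l w1 w2 h1 h2 hxs
  refine ⟨B, I', L, _, r, A, q, β, Λ, _, f, b, e, w1, w2, κ, hκ, hmk, fun u v hu huv hv => ?_⟩
  have := hsw u v hu huv hv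
  linarith

end Crest.Agent.R138.X248
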