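import Crest.Agent.R138.XDef_248

/-!
# R138, TEXT I, X1 output, the part without shapes (helper615)

* `ow_anti`, `ow_lip`, `ow_one` : own exponents; `Lam` : the function `Λ` of `XS`;
* `eq_windows` : equality in all windows for an extremal stable family;
* `amp0`, `up_of` : amplitude and the field `XS.up`;
* `sweep` : window inequality at the penalty `p = q + ε`.
-/

set_option autoImplicit false
set_option linter.unusedVariables false

open Filter Topology Finset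

namespace Crest.Agent.R138.XsA615

open Crest.Agent.R138.Ex926 Crest.Agent.R138.Dp76 Crest.Agent.R138.Flag51
open Crest.Agent.R138.K294 Crest.Agent.R138.Ps926 Crest.Agent.R138.X248

/-! ### own exponents -/

/-- a cell of level `m1` has `2^k` cells of level `m1 + k` -/
theorem zc_mem {m1 k : ℕ} {z : ℝ} {j : ℤ} (h : zc m1 z = j) :
    zc (m1 + k) z ∈ Ico (2 ^ k * j) (2 ^ k * (j + 1)) := by
  subst h
  have h1 := Int.floor_le ((2:ℝ) ^ m1 * z)
  have h2 := Int.lt_floor_add_one ((2:ℝ) ^ m1 * z)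
  set a : ℤ := ⌊(2:ℝ) ^ m1 * z⌋ with ha
  have hk : (0:ℝ) < 2 ^ k := by positivity
  rw [mem_Ico]
  unfold zc
  rw [← ha]
  constructor
  · rw [Int.le_floor]
    push_cast
    calc (2:ℝ) ^ k * a ≤ 2 ^ k * (2 ^ m1 * z) := by gcongr
      _ = 2 ^ (m1 + k) * z := by rw [pow_add]; ring
  · rw [Int.floor_lt]
    push_cast
    calc (2:ℝ) ^ (m1 + k) * z = 2 ^ k * (2 ^ m1 * z) := by rw [pow_add]; ring
      _ < 2 ^ k * (a + 1) := by gcongr

theorem ob_coarse {m1 m2 : ℕ} (h : m1 ≤ m2) {x y : Ln × ℝ} (hxy : K294.ob m2 x = K294.ob m2 y) :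
    K294.ob m1 x = K294.ob m1 y :=
  Prod.ext (Prod.ext_iff.1 hxy).1 (zc_nested h (Prod.ext_iff.1 hxy).2)

theorem cmax_anti {m1 m2 : ℕ} (h : m1 ≤ m2) (J : Finset (Ln × ℝ)) :
    cmax (K294.ob m2) J ≤ cmax (K294.ob m1) J := by
  classical
  refine cmax_le _ fun x hx => ?_
  refine le_trans (card_le_card fun y hy => ?_) (le_cmax (K294.ob m1) hx)
  rw [mem_filter] at hy ⊢
  exact ⟨hy.1, ob_coarse h hy.2⟩

theorem cmax_split (m1 k : ℕ) (J : Finset (Ln × ℝ)) :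
    cmax (K294.ob m1) J ≤ 2 ^ k * cmax (K294.ob (m1 + k)) J := by
  classical
  refine cmax_le _ fun x hx => ?_
  have h1 := card_le_ncl_mul_cmax (K294.ob (m1 + k)) (J.filter fun y => K294.ob m1 y = K294.ob m1 x)
  refine h1.trans (Nat.mul_le_mul ?_ (cmax_mono _ (filter_subset _ _)))
  unfold ncl
  have h2 : (J.filter fun y => K294.ob m1 y = K294.ob m1 x).image (K294.ob (m1 + k)) ⊆
      (Ico (2 ^ k * zc m1 x.2) (2 ^ k * (zc m1 x.2 + 1))).image fun j => ((x.1, j) : Ln × ℤ) := by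
    intro o ho
    obtain ⟨y, hy, rfl⟩ := mem_image.1 ho
    rw [mem_filter] at hy
    have e1 : y.1 = x.1 := (Prod.ext_iff.1 hy.2).1
    have e2 : zc m1 y.2 = zc m1 x.2 := (Prod.ext_iff.1 hy.2).2
    refine mem_image.2 ⟨zc (m1 + k) y.2, zc_mem e2, ?_⟩
    exact Prod.ext e1.symm rfl
  refine le_trans (le_of_eq ?_) ((card_le_card h2).trans (card_image_le.trans ?_))
  · congr!
  · rw [Int.card_Ico]
    have : (2:ℤ) ^ k * (zc m1 x.2 + 1) - 2 ^ k * zc m1 x.2 = ((2 ^ k : ℕ) : ℤ) := by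
      push_cast; ring
    rw [this, Int.toNat_natCast]

section

variable {B : Base} {m M : ℕ → ℕ} {r : ℕ → ℝ} {I : ∀ n : ℕ, Finset (Ln × ℝ)}

theorem ow_anti (h : Fam B m M r I) {u v : ℝ} (huv : u ≤ v) : ow B m M I v ≤ ow B m M I u := by
  have hIc := h.card_pb
  have hrefl : ∀ᶠ n in (U : Filter ℕ), I n ⊆ I n := Eventually.of_forall fun n => Subset.refl _
  refine Base.ex_le ((monoF_cmax hIc (fun n => K294.ob (lv m M n v))).pb hrefl h.ne)
    ((monoF_cmax hIc (fun n => K294.ob (lv m M n u))).pb hrefl h.ne)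
    (Eventually.of_forall fun n => ?_)
  exact_mod_cast cmax_anti (lv_mono huv) (I n)

/-- exponent of the number of cells of level `v` in a cell of level `u` -/
theorem ex_two_pow (h : Fam B m M r I) {u v : ℝ} (hu : 0 ≤ u) (huv : u ≤ v) :
    B.PB (fun n => (2 : ℝ) ^ (lv m M n v - lv m M n u)) ∧
      B.ex (fun n => (2 : ℝ) ^ (lv m M n v - lv m M n u)) = v - u := by
  have hl : Tendsto (B.lg fun n => (2 : ℝ) ^ (lv m M n v - lv m M n u)) U (𝓝 (v - u)) := by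
    refine (h.lv_lim hu huv).congr fun n => ?_
    unfold Base.lg
    have hM := h.M_pos n
    have hl2 := (Real.log_pos one_lt_two).ne'
    rw [Real.log_pow, h.L_eq n]
    field_simp
  exact ⟨Base.PB.of_tendsto (Eventually.of_forall fun n => by positivity) hl,
    Base.ex_eq_of_tendsto hl⟩

theorem ow_lip (h : Fam B m M r I) {u v : ℝ} (hu : 0 ≤ u) (huv : u ≤ v) :
    ow B m M I u - ow B m M I v ≤ v - u := by
  have hIc := h.card_pb
  have hrefl : ∀ᶠ n in (U : Filter ℕ), I n ⊆ I n := Eventually.of_forall fun n => Subset.refl _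
  obtain ⟨p1, e1⟩ := ex_two_pow h hu huv
  have p2 := (monoF_cmax hIc (fun n => K294.ob (lv m M n v))).pb hrefl h.ne
  have p3 := (monoF_cmax hIc (fun n => K294.ob (lv m M n u))).pb hrefl h.ne
  have h1 := Base.ex_le (B := B) p3 (p1.mul p2) (Eventually.of_forall fun n => by
    have h2 := cmax_split (lv m M n u) (lv m M n v - lv m M n u) (I n)
    rw [Nat.add_sub_cancel' (lv_mono huv)] at h2
    exact_mod_cast h2)
  rw [Base.ex_mul p1 p2, e1] at h1
  unfold ow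
  linarith

theorem ow_one (h : Fam B m M r I) (hone : ∀ᶠ n in (U : Filter ℕ), ∀ x ∈ I n, ∀ y ∈ I n,
    K294.ob (m n + M n) x = K294.ob (m n + M n) y → x = y) : ow B m M I 1 = 0 := by
  classical
  unfold ow
  have e : ∀ᶠ n in (U : Filter ℕ), (1 : ℝ) = (cmax (K294.ob (lv m M n 1)) (I n) : ℝ) := by
    filter_upwards [hone, h.ne] with n a b
    have : cmax (K294.ob (lv m M n 1)) (I n) = 1 := by
      rw [lv_one]
      refine le_antisymm (cmax_le _ fun x hx => ?_) (one_le_cmax _ b)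
      rw [card_le_one]
      intro y hy z hz
      rw [mem_filter] at hy hz
      exact a y hy.1 z hz.1 (hy.2.trans hz.2.symm)
    rw [this]; simp
  rw [← Base.ex_congr (Base.PB.const one_pos) e, Base.ex_const]

/-- the function `Λ` -/
noncomputable def Lam (B : Base) (m M : ℕ → ℕ) (I : ∀ n : ℕ, Finset (Ln × ℝ)) (v : ℝ) : ℝ :=
  v - (ow B m M I 0 - ow B m M I v)

theorem Lam_zero : Lam B m M I 0 = 0 := by simp [Lam]

theorem Lam_lam (h : Fam B m M r I) {u v : ℝ} (hu : 0 ≤ u) (huv : u ≤ v) :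
    0 ≤ Lam B m M I v - Lam B m M I u ∧ Lam B m M I v - Lam B m M I u ≤ v - u := by
  have h1 := ow_lip h hu huv
  have h2 := ow_anti h huv
  unfold Lam
  constructor <;> linarith

theorem ow_eq (h : Fam B m M r I) (hone : ∀ᶠ n in (U : Filter ℕ), ∀ x ∈ I n, ∀ y ∈ I n,
    K294.ob (m n + M n) x = K294.ob (m n + M n) y → x = y) (v : ℝ) :
    ow B m M I v = (1 - v) - (Lam B m M I 1 - Lam B m M I v) := by
  have := ow_one h hone
  unfold Lam
  linarith

/-! ### equality in all windows -/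

theorem eq_windows (h : Fam B m M r I) {q : ℝ} (hq : 0 ≤ q)
    (hS : ∀ v : ℚ, 0 ≤ v → v ≤ 1 → StableF B (fun n J => (kP q (m n) (lv m M n v) (r n)
      (B.d n ^ (0 : ℝ) / 2 ^ (lv m M n v)) hq (h.rpos n)).Dmax J) I)
    (hUn : ∀ v : ℚ, 0 ≤ v → v ≤ 1 → Unif B (fun n => K294.ob (lv m M n v)) I)
    {β : ℝ} (hβ : ∀ x ∈ valSet q, x ≤ β)
    (hext : β ≤ DD B q hq m M r h.rpos I 0 1 - DD B q hq m M r h.rpos I 0 0 +
      2 * (ow B m M I 0 - ow B m M I 1) - 2)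
    {u v : ℚ} (hu : 0 ≤ u) (huv : u ≤ v) (hv : v ≤ 1) :
    DD B q hq m M r h.rpos I 0 v - DD B q hq m M r h.rpos I 0 u =
      β * ((v : ℝ) - u) + 2 * (Lam B m M I v - Lam B m M I u) := by
  have key : ∀ a b : ℚ, 0 ≤ a → a ≤ b → b ≤ 1 →
      DD B q hq m M r h.rpos I 0 b - DD B q hq m M r h.rpos I 0 a ≤
        β * ((b : ℝ) - a) + 2 * (Lam B m M I b - Lam B m M I a) := by
    intro a b ha hab hb
    rcases hab.lt_or_eq with hlt | rfl
    · have h1 := window_ineq h hq (u := (a : ℝ)) (v := (b : ℝ)) (by exact_mod_cast ha)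
        (by exact_mod_cast hlt) (by exact_mod_cast hb) (hS b (ha.trans hab) hb)
        (hUn a ha (hab.trans hb)) (hUn b (ha.trans hab) hb) hβ
      unfold Lam
      linarith
    · simp
  have k1 := key 0 u le_rfl hu (huv.trans hv)
  have k2 := key u v hu huv hv
  have k3 := key v 1 (hu.trans huv) hv le_rfl
  simp only [Rat.cast_zero, Rat.cast_one] at k1 k3
  have e : Lam B m M I 1 - Lam B m M I 0 = 1 - (ow B m M I 0 - ow B m M I 1) := by
    unfold Lam; ring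
  refine le_antisymm k2 ?_
  linarith

/-! ### amplitude -/

/-- amplitude of the level `0` -/
noncomputable def amp0 (h : Fam B m M r I) {q : ℝ} (hq : 0 ≤ q) (n : ℕ) : ℝ :=
  open Classical in
  if 0 < (kP q (m n) (lv m M n 0) (r n) (B.d n ^ (0 : ℝ) / 2 ^ (lv m M n 0)) hq (h.rpos n)).Dmax
      (I n) then
    (kP q (m n) (lv m M n 0) (r n) (B.d n ^ (0 : ℝ) / 2 ^ (lv m M n 0)) hq (h.rpos n)).Dmax
      (I n) * 4 ^ (m n)
  else 1

theorem amp0_pos (h : Fam B m M r I) {q : ℝ} (hq : 0 ≤ q) (n : ℕ) : 0 < amp0 h hq n := by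
  unfold amp0
  split_ifs with h1
  · positivity
  · exact one_pos

theorem kP_nonempty (h : Fam B m M r I) {q : ℝ} (hq : 0 ≤ q) {v : ℝ} (hv : v ≤ 1) (n : ℕ) (W : ℝ) :
    Nonempty (kP q (m n) (lv m M n v) (r n) W hq (h.rpos n)).κ := by
  have hle : r n ≤ 1 / 2 ^ (lv m M n v) := (h.rle n).trans
    (one_div_le_one_div_of_le (by positivity) (pow_le_pow_right₀ one_le_two (lv_le hv)))
  exact ⟨⟨baseK (lv m M n v) (r n) (0, 0), baseK_legal hle _, le_max_right _ _⟩⟩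

/-- sizes of legal planks of level `v` by the density of level `v` -/
theorem objs_le (h : Fam B m M r I) {q : ℝ} (hq : 0 ≤ q) {v : ℝ} {n : ℕ} {K : Plk}
    (hK : Legal (lv m M n v) (r n) K) :
    ((K294.objs (lv m M n v) (I n) K).card : ℝ) ≤
      (kP q (m n) (lv m M n v) (r n) (B.d n ^ (0 : ℝ) / 2 ^ (lv m M n v)) hq (h.rpos n)).Dmax (I n)
        * (cap q (lv m M n v) K * 4 ^ (m n)) := by
  classical
  have hw : K.w2 ≤ max (B.d n ^ (0 : ℝ) / 2 ^ (lv m M n v)) (r n) := by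
    refine le_max_of_le_left ?_
    rw [Real.rpow_zero]
    exact hK.w2
  refine le_trans ?_ ((kP q (m n) (lv m M n v) (r n) (B.d n ^ (0 : ℝ) / 2 ^ (lv m M n v)) hq
    (h.rpos n)).objs_card_le_Dmax (I n) ⟨K, hK, hw⟩)
  refine Nat.cast_le.2 (card_le_card fun o ho => ?_)
  unfold K294.objs at ho
  rw [mem_filter, mem_image] at ho
  obtain ⟨⟨y, hy, rfl⟩, h3⟩ := ho
  exact (PSys.mem_objs _).2 ⟨⟨y, hy, rfl⟩, h3⟩

theorem cap_eq {q : ℝ} {i : ℕ} {K : Plk} (h2 : 0 < K.w2) :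
    cap q i K = (Mk163.rho i) ^ (-q) * (K.w1 * K.w2 ^ (1 + q)) := by
  unfold cap Mk163.rho
  have hp : (0 : ℝ) < 2 ^ i := by positivity
  rw [Real.mul_rpow h2.le hp.le, one_div, Real.rpow_neg (by positivity), Real.inv_rpow hp.le,
    inv_inv, Real.rpow_add h2, Real.rpow_one]
  ring

/-- density of level `v` compared with the amplitude -/
theorem Dmax_le_amp (h : Fam B m M r I) {q : ℝ} (hq : 0 ≤ q) {β : ℝ} {v : ℚ} (hv0 : 0 ≤ v)
    (hv : v ≤ 1)
    (heq : DD B q hq m M r h.rpos I 0 v - DD B q hq m M r h.rpos I 0 0 =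
      β * (v : ℝ) + 2 * Lam B m M I v) {ε : ℝ} (hε : 0 < ε) :
    ∀ᶠ n in (U : Filter ℕ),
      (kP q (m n) (lv m M n v) (r n) (B.d n ^ (0 : ℝ) / 2 ^ (lv m M n v)) hq (h.rpos n)).Dmax (I n)
        * 4 ^ (m n) ≤ B.d n ^ (-ε) * (amp0 h hq n * B.d n ^ (-(2 * Lam B m M I v + β * (v : ℝ)))) ∧
      B.d n ^ ε * (amp0 h hq n * B.d n ^ (-(2 * Lam B m M I v + β * (v : ℝ)))) ≤
      (kP q (m n) (lv m M n v) (r n) (B.d n ^ (0 : ℝ) / 2 ^ (lv m M n v)) hq (h.rpos n)).Dmax (I n)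
        * 4 ^ (m n) := by
  have hrefl : ∀ᶠ n in (U : Filter ℕ), I n ⊆ I n := Eventually.of_forall fun n => Subset.refl _
  have hvr : (v : ℝ) ≤ 1 := by exact_mod_cast hv
  set Pv : ∀ n : ℕ, PSys (Ln × ℝ) := fun n => kP q (m n) (lv m M n v) (r n)
    (B.d n ^ (0 : ℝ) / 2 ^ (lv m M n v)) hq (h.rpos n) with hPv
  set P0 : ∀ n : ℕ, PSys (Ln × ℝ) := fun n => kP q (m n) (lv m M n 0) (r n)
    (B.d n ^ (0 : ℝ) / 2 ^ (lv m M n 0)) hq (h.rpos n) with hP0
  have hAv : PAdm B Pv I := h.padm hq _ hvr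
  have hA0 : PAdm B P0 I := h.padm hq _ zero_le_one
  have pbv := (monoF_Dmax hAv).pb hrefl h.ne
  have pb0 := (monoF_Dmax hA0).pb hrefl h.ne
  set e : ℝ := 2 * Lam B m M I v + β * (v : ℝ) with he
  have hex : B.ex (fun n => (Pv n).Dmax (I n) / (P0 n).Dmax (I n)) = e := by
    rw [Base.ex_div pbv pb0]
    have : B.ex (fun n => (Pv n).Dmax (I n)) - B.ex (fun n => (P0 n).Dmax (I n)) =
        DD B q hq m M r h.rpos I 0 v - DD B q hq m M r h.rpos I 0 0 := rfl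
    rw [this, heq, he]; ring
  have h1 := Base.ex_lt_iff_dpow (B := B) (pbv.div pb0) (a := e + ε) (by rw [hex]; linarith)
  have h2 := Base.lt_ex_dpow (B := B) (pbv.div pb0) (a := e - ε) (by rw [hex]; linarith)
  filter_upwards [h1, h2, pb0.pos] with n a1 a2 a3
  have ha : amp0 h hq n = (P0 n).Dmax (I n) * 4 ^ (m n) := by
    unfold amp0
    rw [if_pos a3]
  rw [ha]
  rw [div_lt_iff₀ a3] at a1
  rw [lt_div_iff₀ a3] at a2
  have hp : (0 : ℝ) < 4 ^ (m n) := by positivity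
  have e1 : B.d n ^ (-ε) * B.d n ^ (-e) = B.d n ^ (-(e + ε)) := by rw [← dpow_add]; congr 1; ring
  have e2 : B.d n ^ ε * B.d n ^ (-e) = B.d n ^ (-(e - ε)) := by rw [← dpow_add]; congr 1; ring
  constructor
  · calc (Pv n).Dmax (I n) * 4 ^ (m n) ≤ B.d n ^ (-(e + ε)) * (P0 n).Dmax (I n) * 4 ^ (m n) :=
        mul_le_mul_of_nonneg_right a1.le hp.le
      _ = B.d n ^ (-ε) * ((P0 n).Dmax (I n) * 4 ^ (m n) * B.d n ^ (-e)) := by rw [← e1]; ring
  · calc B.d n ^ ε * ((P0 n).Dmax (I n) * 4 ^ (m n) * B.d n ^ (-e)) =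
        B.d n ^ (-(e - ε)) * (P0 n).Dmax (I n) * 4 ^ (m n) := by rw [← e2]; ring
      _ ≤ (Pv n).Dmax (I n) * 4 ^ (m n) := mul_le_mul_of_nonneg_right a2.le hp.le

/-- the field `XS.up` -/
theorem up_of (h : Fam B m M r I) {q : ℝ} (hq : 0 ≤ q) {β : ℝ} {v : ℚ} (hv0 : 0 ≤ v) (hv : v ≤ 1)
    (heq : DD B q hq m M r h.rpos I 0 v - DD B q hq m M r h.rpos I 0 0 =
      β * (v : ℝ) + 2 * Lam B m M I v) {ε : ℝ} (hε : 0 < ε) :
    ∀ᶠ n in (U : Filter ℕ), ∀ K, Legal (lv m M n v) (r n) K →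
      ((K294.objs (lv m M n v) (I n) K).card : ℝ) ≤
        B.d n ^ (-ε) * (Mk163.amp B (fun n v => lv m M n v) (amp0 h hq) q β (Lam B m M I) n v *
          (K.w1 * K.w2 ^ (1 + q))) := by
  filter_upwards [Dmax_le_amp h hq hv0 hv heq hε] with n hn K hK
  have hr := h.rpos n
  have hw1 : 0 < K.w1 := hr.trans_le hK.r1
  have hw2 : 0 < K.w2 := hw1.trans_le hK.w12
  refine (objs_le h hq hK).trans ?_
  rw [cap_eq hw2]
  unfold Mk163.amp
  have h1 : 0 ≤ (Mk163.rho (lv m M n v)) ^ (-q) * (K.w1 * K.w2 ^ (1 + q)) := by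
    unfold Mk163.rho; positivity
  calc _ = ((kP q (m n) (lv m M n v) (r n) (B.d n ^ (0 : ℝ) / 2 ^ (lv m M n v)) hq
          (h.rpos n)).Dmax (I n) * 4 ^ (m n)) *
          ((Mk163.rho (lv m M n v)) ^ (-q) * (K.w1 * K.w2 ^ (1 + q))) := by ring
    _ ≤ (B.d n ^ (-ε) * (amp0 h hq n * B.d n ^ (-(2 * Lam B m M I v + β * (v : ℝ))))) *
          ((Mk163.rho (lv m M n v)) ^ (-q) * (K.w1 * K.w2 ^ (1 + q))) :=
        mul_le_mul_of_nonneg_right hn.1 h1
    _ = _ := by ring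

/-! ### the sweep -/

theorem sweep (h : Fam B m M r I) {q p : ℝ} (hq : 0 ≤ q) (hp : 0 ≤ p)
    {u v : ℚ} (hu : 0 ≤ u) (huv : u ≤ v) (hv : v ≤ 1)
    (hS : StableF B (fun n J => (kP p (m n) (lv m M n v) (r n)
      (B.d n ^ (0 : ℝ) / 2 ^ (lv m M n v)) hp (h.rpos n)).Dmax J) I)
    (hUu : Unif B (fun n => K294.ob (lv m M n u)) I)
    (hUv : Unif B (fun n => K294.ob (lv m M n v)) I)
    {β b : ℝ} (hβ : ∀ x ∈ valSet p, x ≤ b)
    (heq : DD B q hq m M r h.rpos I 0 v - DD B q hq m M r h.rpos I 0 u =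
      β * ((v : ℝ) - u) + 2 * (Lam B m M I v - Lam B m M I u)) :
    (DD B p hp m M r h.rpos I 0 v - DD B q hq m M r h.rpos I 0 v) -
      (DD B p hp m M r h.rpos I 0 u - DD B q hq m M r h.rpos I 0 u) ≤
      (b - β) * ((v : ℝ) - u) := by
  rcases huv.lt_or_eq with hlt | rfl
  · have h1 := window_ineq h hp (u := (u : ℝ)) (v := (v : ℝ)) (by exact_mod_cast hu)
      (by exact_mod_cast hlt) (by exact_mod_cast hv) hS hUu hUv hβ
    unfold Lam at heq
    linarith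
  · simp

end

end Crest.Agent.R138.XsA615
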