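import Mathlib
import Crest.Agent.R138.GrW1_294
import Crest.Agent.R138.Flg1_101

/-!
# R138: the two ends (helper294)

* `dens_box` : plank density bounds the number of lines in a box of line space (any frame);
* `dens_class` : the same for a class of 101's labels at the top level (`P(0,t) ≤ log Δ`);
* `same_class` : at the deep level all lines through one cell with one slope are in `9·3^k` classes.
-/

set_option autoImplicit false
set_option linter.unusedVariables false

open Finset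

namespace Crest.Agent.R138.ZS294

open Crest.Agent.R138.Defs (E2)
open Crest.Agent.R138.Gr63
open Crest.Agent.R138.GrW294 (Dens key)
open Crest.Agent.R138.Flg101

/-- coordinates of a grid line in the frame `b`. -/
noncomputable def ca (N : ℕ) (b : OrthonormalBasis (Fin 2) ℝ E2) (i : Fin 2) (l : GLine) : ℝ :=
  inner ℝ (gp N l) (b i)

/-- velocity coordinates of a grid line in the frame `b`. -/
noncomputable def cv (N : ℕ) (b : OrthonormalBasis (Fin 2) ℝ E2) (i : Fin 2) (l : GLine) : ℝ :=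
  inner ℝ (gv N l) (b i)

/-- **density of boxes in line space** (half-widths `r 0, r 1`, any frame). -/
theorem dens_box {N : ℕ} {s : Finset GLine} {Δ : ℝ} (h : Dens N s Δ)
    (b : OrthonormalBasis (Fin 2) ℝ E2) {S : Finset GLine} (hS : S ⊆ s) (l0 : GLine)
    (r : Fin 2 → ℝ) (hr : ∀ i, 1 / (N : ℝ) ≤ 2 * r i ∧ 2 * r i ≤ 1)
    (hbox : ∀ l ∈ S, ∀ i, |ca N b i l - ca N b i l0| ≤ r i ∧ |cv N b i l - cv N b i l0| ≤ r i) :
    (S.card : ℝ) ≤ 4 * Δ * (r 0 * r 1) * (N : ℝ) ^ 2 := by
  classical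
  have h1 := h b (gp N l0) (gv N l0) (fun i => 2 * r i) hr
  have h2 : S ⊆ s.filter (fun l => InPl b (gp N l0) (gv N l0) (fun i => 2 * r i)
      (gp N l) (gv N l)) := by
    intro l hl
    rw [mem_filter]
    refine ⟨hS hl, ?_⟩
    intro z hz i
    obtain ⟨h3, h4⟩ := hbox l hl i
    have e1 : inner ℝ (gp N l - gp N l0 + z • (gv N l - gv N l0)) (b i) =
        (ca N b i l - ca N b i l0) + z * (cv N b i l - cv N b i l0) := by
      unfold ca cv
      rw [inner_add_left, inner_sub_left, inner_smul_left, inner_sub_left]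
      simp
    rw [e1]
    calc |(ca N b i l - ca N b i l0) + z * (cv N b i l - cv N b i l0)| ≤
        |ca N b i l - ca N b i l0| + |z * (cv N b i l - cv N b i l0)| := abs_add_le _ _
      _ = |ca N b i l - ca N b i l0| + |z| * |cv N b i l - cv N b i l0| := by rw [abs_mul]
      _ ≤ r i + 1 * r i := by gcongr
      _ = 2 * r i := by ring
  have h3 : (S.card : ℝ) ≤ ((s.filter (fun l => InPl b (gp N l0) (gv N l0) (fun i => 2 * r i)
      (gp N l) (gv N l))).card : ℝ) := by exact_mod_cast card_le_card h2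
  refine h3.trans (h1.trans (le_of_eq ?_))
  ring

/-- the incidence of 101 attached to a grid line, a height `j/N` and a slope. -/
noncomputable def mkInc (N : ℕ) (b : OrthonormalBasis (Fin 2) ℝ E2) (x : GLine × ℤ) (θ : ℝ) : Inc :=
  ⟨ca N b 0 x.1, ca N b 1 x.1, cv N b 0 x.1, cv N b 1 x.1, x.2 / N, θ⟩

/-- **(E0)** the lines of one class at the top level `(0,0)` with all precisions `≥ 2^-t`:
`#lines ≤ 64 Δ 4^-t N^2`. -/
theorem dens_class {N : ℕ} {s : Finset GLine} {Δ : ℝ} (h : Dens N s Δ)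
    (b : OrthonormalBasis (Fin 2) ℝ E2) {t : ℕ} (ht : 8 * (1 / 2 : ℝ) ^ t ≤ 1)
    (htN : 1 / (N : ℝ) ≤ 8 * (1 / 2 : ℝ) ^ t)
    {G : Finset (GLine × ℤ)} (hG : ∀ x ∈ G, x.1 ∈ s ∧ |x.2| ≤ (N : ℤ)) (hN : 1 ≤ N)
    (θ : GLine × ℤ → ℝ) (hθ : ∀ x ∈ G, |θ x| ≤ 1) {x0 : GLine × ℤ} (hx0 : x0 ∈ G)
    (p : Fin 4 → ℕ) (hp : ∀ k, t ≤ p k)
    (hlab : ∀ x ∈ G, (mkInc N b x (θ x)).lab 0 0 p = (mkInc N b x0 (θ x0)).lab 0 0 p) :
    ((G.image Prod.fst).card : ℝ) ≤ 64 * Δ * (1 / 2 : ℝ) ^ (2 * t) * (N : ℝ) ^ 2 := by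
  classical
  have hNp : (0 : ℝ) < N := by exact_mod_cast hN
  set ρ : ℝ := (1 / 2 : ℝ) ^ t with hρ
  have hρ0 : 0 < ρ := by positivity
  have hbox : ∀ x ∈ G, ∀ i, |ca N b i x.1 - ca N b i x0.1| ≤ 4 * ρ ∧
      |cv N b i x.1 - cv N b i x0.1| ≤ 4 * ρ := by
    intro x hx
    have h1 := hlab x hx
    unfold Inc.lab at h1
    rw [Prod.mk.injEq] at h1
    obtain ⟨hc, hf⟩ := h1
    have ez := zQ_eq hc
    have ef := fQ_eq hc
    have hd : ∀ k, |(mkInc N b x (θ x)).co 0 0 k - (mkInc N b x0 (θ x0)).co 0 0 k| ≤ ρ := by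
      intro k
      have h2 := dist_of_floor (congrFun hf k)
      exact h2.trans (pow_le_pow_of_le_one (by norm_num) (by norm_num) (hp k))
    -- bounds of the corners
    have hz : |(mkInc N b x0 (θ x0)).zQ 0| ≤ 1 := by
      have h2 : |(x0.2 : ℝ) / N| ≤ 1 := by
        rw [abs_div, abs_of_pos hNp, div_le_one hNp]
        have := (hG x0 hx0).2
        exact_mod_cast this
      unfold Inc.zQ Inc.fl
      simp only [pow_zero, one_mul, div_one, mkInc]
      have h3 : ⌊(x0.2 : ℝ) / N⌋ ≤ 1 := by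
        rw [← Int.floor_one (R := ℝ)]
        exact Int.floor_le_floor (abs_le.1 h2).2
      have h4 : -1 ≤ ⌊(x0.2 : ℝ) / N⌋ := by
        rw [Int.le_floor]; push_cast; exact (abs_le.1 h2).1
      rw [abs_le]
      constructor
      · exact_mod_cast h4
      · exact_mod_cast h3
    have hfq : |(mkInc N b x0 (θ x0)).fQ 0| ≤ 1 := by
      have h2 := hθ x0 hx0
      unfold Inc.fQ Inc.fl
      simp only [pow_zero, one_mul, div_one, mkInc]
      have h3 : ⌊θ x0⌋ ≤ 1 := by
        rw [← Int.floor_one (R := ℝ)]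
        exact Int.floor_le_floor (abs_le.1 h2).2
      have h4 : -1 ≤ ⌊θ x0⌋ := by
        rw [Int.le_floor]; push_cast; exact (abs_le.1 h2).1
      rw [abs_le]
      constructor
      · exact_mod_cast h4
      · exact_mod_cast h3
    set Z := (mkInc N b x0 (θ x0)).zQ 0 with hZ
    set F := (mkInc N b x0 (θ x0)).fQ 0 with hF
    have h0 := hd 0
    have h1 := hd 1
    have h2 := hd 2
    have h3 := hd 3
    simp only [Inc.co, Matrix.cons_val_zero, Matrix.cons_val_one, Matrix.cons_val] at h0 h1 h2 h3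
    rw [ez, ef, ← hZ, ← hF] at h0
    rw [ef, ← hF] at h1
    rw [ez, ← hZ] at h3
    simp only [Inc.N, Inc.P, Inc.X, Inc.Y, mkInc] at h0 h1 h2 h3
    -- unknown differences
    set A := ca N b 0 x.1 - ca N b 0 x0.1 with hA
    set B := ca N b 1 x.1 - ca N b 1 x0.1 with hB
    set C := cv N b 0 x.1 - cv N b 0 x0.1 with hC
    set D := cv N b 1 x.1 - cv N b 1 x0.1 with hD
    have e3 : |A + C * Z| ≤ ρ := by
      refine le_trans (le_of_eq ?_) h3
      congr 1; rw [hA, hC]; ring
    have e1 : |D - F * C| ≤ ρ := by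
      refine le_trans (le_of_eq ?_) h1
      congr 1; rw [hD, hC]; ring
    have e0 : |B + D * Z - F * (A + C * Z)| ≤ ρ := by
      refine le_trans (le_of_eq ?_) h0
      congr 1; rw [hA, hB, hC, hD]; ring
    have hCρ : |C| ≤ ρ := h2
    have hAρ : |A| ≤ 2 * ρ := by
      have : A = (A + C * Z) - C * Z := by ring
      rw [this]
      calc |(A + C * Z) - C * Z| ≤ |A + C * Z| + |C * Z| := abs_sub _ _
        _ = |A + C * Z| + |C| * |Z| := by rw [abs_mul]
        _ ≤ ρ + ρ * 1 := by gcongr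
        _ = 2 * ρ := by ring
    have hDρ : |D| ≤ 2 * ρ := by
      have : D = (D - F * C) + F * C := by ring
      rw [this]
      calc |(D - F * C) + F * C| ≤ |D - F * C| + |F * C| := abs_add_le _ _
        _ = |D - F * C| + |F| * |C| := by rw [abs_mul]
        _ ≤ ρ + 1 * ρ := by gcongr
        _ = 2 * ρ := by ring
    have hBρ : |B| ≤ 4 * ρ := by
      have : B = (B + D * Z - F * (A + C * Z)) - D * Z + F * (A + C * Z) := by ring
      rw [this]
      calc |(B + D * Z - F * (A + C * Z)) - D * Z + F * (A + C * Z)| ≤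
          |(B + D * Z - F * (A + C * Z)) - D * Z| + |F * (A + C * Z)| := abs_add_le _ _
        _ ≤ (|B + D * Z - F * (A + C * Z)| + |D * Z|) + |F * (A + C * Z)| := by
            gcongr; exact abs_sub _ _
        _ = |B + D * Z - F * (A + C * Z)| + |D| * |Z| + |F| * |A + C * Z| := by
            rw [abs_mul, abs_mul]
        _ ≤ ρ + 2 * ρ * 1 + 1 * ρ := by gcongr
        _ = 4 * ρ := by ring
    intro i
    fin_cases i
    · exact ⟨hAρ.trans (by linarith), hCρ.trans (by linarith)⟩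
    · exact ⟨hBρ, hDρ.trans (by linarith)⟩
  have hmain := dens_box h b (S := G.image Prod.fst) (by
      intro l hl
      obtain ⟨x, hx, rfl⟩ := mem_image.1 hl
      exact (hG x hx).1) x0.1 (fun _ => 4 * ρ) (fun i => ⟨by linarith, by linarith⟩) (by
      intro l hl
      obtain ⟨x, hx, rfl⟩ := mem_image.1 hl
      exact hbox x hx)
  refine hmain.trans (le_of_eq ?_)
  rw [pow_mul', ← hρ]
  ring

end Crest.Agent.R138.ZS294
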