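import Crest.Agent.R138.Resc3_574
import Crest.Agent.R138.Wf5_448
import Crest.Agent.R138.T12_774
import Crest.Agent.R138.F4_858
import Crest.Agent.R138.ZmDef_858

/-!
# R138 / R139: ZOOM (helper858), part 1: local averages under the parabolic rescaling

`AA_resc`: the local average at scale `w` of `ext h g` around `z` is bounded by
`C l^4 *` the local average at scale `l w` of the rescaled wave around `Ph z`
(near-conservation of the local energy over times `l w`).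
-/

set_option autoImplicit false

open MeasureTheory FourierTransform
open scoped ContDiff ENNReal

namespace Crest.Agent.R138.Zm858

open Crest.Agent.R138.Defs Crest.Agent.R138.Bil882 Crest.Agent.R138.W188
open Crest.Agent.R138.Resc574 (hR Ph PhH lintegral_Ph enorm_ext_resc)
open Crest.Agent.R138.Wf448 (dw gw wE LI sl wE_sl transport_far gradient_lip dw_pos)
open Crest.Agent.R138.T774 (AA)

/-- scaling by `r⁻¹`. -/
noncomputable def sc (r : ℝ) : E2 →L[ℝ] E2 := r⁻¹ • ContinuousLinearMap.id ℝ E2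

theorem norm_sc {r : ℝ} (hr : 0 < r) (x : E2) : ‖sc r x‖ = ‖x‖ / r := by
  unfold sc
  rw [smul_apply, ContinuousLinearMap.id_apply, norm_smul, Real.norm_eq_abs,
    abs_of_pos (inv_pos.2 hr), inv_mul_eq_div]

theorem opNorm_sc {r : ℝ} (hr : 1 ≤ r) : ‖sc r‖ ≤ r ^ (-(1/2) : ℝ) := by
  have h1 : ‖sc r‖ ≤ r⁻¹ := by
    refine ContinuousLinearMap.opNorm_le_bound _ (by positivity) fun x => ?_
    rw [norm_sc (by linarith), div_eq_inv_mul]
  refine h1.trans ?_
  rw [← Real.rpow_neg_one]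
  exact Real.rpow_le_rpow_of_exponent_le hr (by norm_num)

/-- splitting of the weight. -/
theorem wt_split (n k : ℕ) {l w : ℝ} (hl : 0 < l) (hw : 0 < w) {v : E2} (hv : ‖v‖ ≤ 2)
    (z p : E2 × ℝ) :
    wt (2 * n + k) w z.1 z.2 p ≤ 4 ^ n * (dw n (sc (l * w)) ((Ph v l p).1 - (Ph v l z).1) *
      ((1 + |(Ph v l p).2 - (Ph v l z).2| / (l ^ 2 * w)) ^ k)⁻¹) := by
  set a : ℝ := (‖p.1 - z.1‖ + |p.2 - z.2|) / w with ha
  have ha0 : 0 ≤ a := by positivity
  have hlw : 0 < l * w := mul_pos hl hw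
  have hb : ‖sc (l * w) ((Ph v l p).1 - (Ph v l z).1)‖ ≤ 2 * a := by
    rw [norm_sc hlw]
    have e : (Ph v l p).1 - (Ph v l z).1 = l • ((p.1 - z.1) + (p.2 - z.2) • v) := by
      simp only [Ph]; module
    rw [e, norm_smul, Real.norm_of_nonneg hl.le, ha, div_le_iff₀ hlw]
    have h1 : ‖(p.1 - z.1) + (p.2 - z.2) • v‖ ≤ 2 * (‖p.1 - z.1‖ + |p.2 - z.2|) := by
      refine (norm_add_le _ _).trans ?_
      rw [norm_smul, Real.norm_eq_abs]
      nlinarith [norm_nonneg (p.1 - z.1), abs_nonneg (p.2 - z.2), norm_nonneg v]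
    calc l * ‖(p.1 - z.1) + (p.2 - z.2) • v‖ ≤ l * (2 * (‖p.1 - z.1‖ + |p.2 - z.2|)) := by gcongr
      _ = _ := by field_simp
  have hc : |(Ph v l p).2 - (Ph v l z).2| / (l ^ 2 * w) ≤ a := by
    have e : (Ph v l p).2 - (Ph v l z).2 = l ^ 2 * (p.2 - z.2) := by simp only [Ph]; ring
    rw [e, abs_mul, abs_of_pos (pow_pos hl 2), mul_div_mul_left _ _ (pow_pos hl 2).ne', ha]
    gcongr
    linarith [norm_nonneg (p.1 - z.1)]
  have e1 : wt (2 * n + k) w z.1 z.2 p = (((1 + a) ^ 2) ^ n)⁻¹ * ((1 + a) ^ k)⁻¹ := by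
    unfold wt
    rw [← ha, pow_add, mul_inv, pow_mul]
  have f1 : (((1 + a) ^ 2) ^ n)⁻¹ ≤ 4 ^ n * dw n (sc (l * w)) ((Ph v l p).1 - (Ph v l z).1) := by
    unfold dw gw
    set b : ℝ := ‖sc (l * w) ((Ph v l p).1 - (Ph v l z).1)‖ with hbb
    have hb0 : 0 ≤ b := norm_nonneg _
    have h3 : (1 + b ^ 2) ^ n ≤ 4 ^ n * ((1 + a) ^ 2) ^ n := by
      rw [← mul_pow]
      refine pow_le_pow_left₀ (by positivity) ?_ n
      nlinarith
    calc (((1 + a) ^ 2) ^ n)⁻¹ = 4 ^ n * (4 ^ n * ((1 + a) ^ 2) ^ n)⁻¹ := by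
          field_simp
      _ ≤ _ := by gcongr
  have f2 : ((1 + a) ^ k)⁻¹ ≤ ((1 + |(Ph v l p).2 - (Ph v l z).2| / (l ^ 2 * w)) ^ k)⁻¹ := by
    refine inv_anti₀ (by positivity) ?_
    gcongr
  rw [e1, ← mul_assoc]
  exact mul_le_mul f1 f2 (by positivity) (mul_nonneg (by positivity) (dw_pos _ _ _).le)

theorem dw_le_wt (n : ℕ) {W : ℝ} (hW : 0 < W) (c x : E2) {t T : ℝ} (ht : |t - T| ≤ W) :
    dw n (sc W) (x - c) ≤ 8 ^ n * wt (2 * n) W c T (x, t) := by
  unfold dw gw wt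
  rw [norm_sc hW]
  simp only []
  set b : ℝ := ‖x - c‖ / W with hb
  have hb0 : 0 ≤ b := by positivity
  have h1 : (‖x - c‖ + |t - T|) / W ≤ b + 1 := by
    rw [add_div, hb]
    have : |t - T| / W ≤ 1 := by rw [div_le_one hW]; exact ht
    linarith
  have h2 : 0 ≤ (‖x - c‖ + |t - T|) / W := by positivity
  have h3 : (1 + (‖x - c‖ + |t - T|) / W) ^ 2 ≤ (b + 2) ^ 2 := by
    apply pow_le_pow_left₀ (by positivity); linarith
  have h4 : ((1 + (‖x - c‖ + |t - T|) / W) ^ 2) ^ n ≤ 8 ^ n * (1 + b ^ 2) ^ n := by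
    rw [← mul_pow]
    refine pow_le_pow_left₀ (by positivity) ?_ n
    nlinarith [sq_nonneg (b - 1)]
  rw [pow_mul]
  calc ((1 + b ^ 2) ^ n)⁻¹ = 8 ^ n * (8 ^ n * (1 + b ^ 2) ^ n)⁻¹ := by field_simp
    _ ≤ _ := by gcongr

/-- integral of the time weight. -/
theorem lint_time : ∃ C : ℝ, 0 ≤ C ∧ ∀ K : ℝ, 0 < K → ∀ T : ℝ,
    ∫⁻ t : ℝ, ENNReal.ofReal (((1 + |t - T| / K) ^ 2)⁻¹) ≤ ENNReal.ofReal (C * K) := by
  have h1 : ∫⁻ s : ℝ, ENNReal.ofReal ((1 + ‖s‖) ^ (-(2:ℝ))) < ⊤ := by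
    apply finite_integral_one_add_norm
    norm_num
  refine ⟨(∫⁻ s : ℝ, ENNReal.ofReal ((1 + ‖s‖) ^ (-(2:ℝ)))).toReal, ENNReal.toReal_nonneg,
    fun K hK T => ?_⟩
  have e1 : ∫⁻ t : ℝ, ENNReal.ofReal (((1 + |t - T| / K) ^ 2)⁻¹) =
      ∫⁻ t : ℝ, ENNReal.ofReal (((1 + |t| / K) ^ 2)⁻¹) :=
    lintegral_sub_right_eq_self (fun t : ℝ => ENNReal.ofReal (((1 + |t| / K) ^ 2)⁻¹)) T
  have e2 : ∀ t : ℝ, ENNReal.ofReal (((1 + |t| / K) ^ 2)⁻¹) =
      (fun s : ℝ => ENNReal.ofReal ((1 + ‖s‖) ^ (-(2:ℝ)))) (K⁻¹ • t) := by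
    intro t
    simp only []
    rw [Real.rpow_neg (by positivity), Real.rpow_two, smul_eq_mul, norm_mul, Real.norm_eq_abs,
      Real.norm_eq_abs, abs_of_pos (inv_pos.2 hK), inv_mul_eq_div]
  have hm : Measurable fun s : ℝ => ENNReal.ofReal ((1 + ‖s‖) ^ (-(2:ℝ))) := by fun_prop
  have h2 := Measure.map_addHaar_smul (volume : Measure ℝ) (inv_ne_zero hK.ne')
  rw [e1, lintegral_congr e2, ← lintegral_map hm (measurable_const_smul _), h2,
    lintegral_smul_measure, Module.finrank_self, pow_one, inv_inv, abs_of_pos hK, smul_eq_mul,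
    mul_comm, ENNReal.ofReal_mul ENNReal.toReal_nonneg, ENNReal.ofReal_toReal h1.ne]

/-- the slice energies at all times are controlled by the space time average. -/
theorem slice_avg (n : ℕ) (B : ℕ → ℝ) (hB : B 2 ≤ 1) : ∃ C : ℝ, 0 ≤ C ∧ ∀ h, ParB B h →
    gradient h 0 = 0 → ∀ g : E2 → ℂ, Integrable g → MemLp g 2 → (∀ ξ, 1 / 2 < ‖ξ‖ → g ξ = 0) →
    ∀ (W : ℝ), 1 ≤ W → ∀ (c : E2) (T t : ℝ),
    ENNReal.ofReal (2 * W) * wE n (sc W) c (sl h g t) ≤
      ENNReal.ofReal (C * (1 + |t - T| / W) ^ (2 * n)) * (ENNReal.ofReal (W ^ 3) *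
        AA (2 * n) W (fun p => ext h g p.1 p.2) (c, T)) := by
  obtain ⟨C, hC, H⟩ := transport_far (V := E2) (W := E2) n
    (1 + ∑ k ∈ Finset.range (max n 2 + 1), |B k|)
  refine ⟨C * 4 ^ n * 8 ^ n, by positivity, ?_⟩
  intro h hh hg0 g hg hg2 hgs W hW c T t
  have hW0 : 0 < W := by linarith
  have hcont := F4x858.continuous_ext hh.1.continuous hg
  have hgrad : ∀ ξ ∈ Metric.closedBall (0:E2) (1/2), ‖sc W (gradient h ξ - 0)‖ ≤ 1 / W := by
    intro ξ hξ
    rw [sub_zero, norm_sc hW0]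
    have h1 := gradient_lip hh.1 (M := 2)
      (fun ξ => (Wf448.ParB.bound hh 2 le_rfl ξ).trans (by linarith)) ξ 0
    rw [hg0, sub_zero, sub_zero] at h1
    rw [mem_closedBall_zero_iff] at hξ
    gcongr
    linarith
  have key : ∀ s ∈ Set.Icc (T - W) (T + W), wE n (sc W) c (sl h g t) ≤
      ENNReal.ofReal (C * 4 ^ n * (1 + |t - T| / W) ^ (2 * n)) * wE n (sc W) c (sl h g s) := by
    intro s hs
    have h1 := H (sc W) h hh.1 (Wf448.ParB.bound_max hh n) W hW (opNorm_sc hW) 0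
      (Metric.closedBall (0:E2) (1/2)) Metric.isBounded_closedBall hgrad g hg hg2
      (fun ξ hξ => by
        rw [mem_closedBall_zero_iff]
        by_contra h2
        exact hξ (hgs ξ (not_le.1 h2))) c s (t - s)
    rw [smul_zero, sub_zero, add_sub_cancel] at h1
    refine h1.trans ?_
    gcongr ENNReal.ofReal ?_ * _
    rw [mul_assoc C]
    gcongr
    have h2 : |t - s| ≤ |t - T| + W := by
      have h3 : |T - s| ≤ W := by rw [abs_le]; constructor <;> linarith [hs.1, hs.2]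
      calc |t - s| = |(t - T) + (T - s)| := by ring_nf
        _ ≤ |t - T| + |T - s| := abs_add_le _ _
        _ ≤ _ := by linarith
    have h4 : 1 + |t - s| / W ≤ 2 * (1 + |t - T| / W) := by
      have h5 : |t - s| / W ≤ (|t - T| + W) / W := by gcongr
      rw [add_div, div_self hW0.ne'] at h5
      have : 0 ≤ |t - T| / W := by positivity
      linarith
    calc (1 + |t - s| / W) ^ (2 * n) ≤ (2 * (1 + |t - T| / W)) ^ (2 * n) := by gcongr
      _ = 4 ^ n * (1 + |t - T| / W) ^ (2 * n) := by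
        rw [mul_pow, pow_mul 2 2 n]; norm_num
  have hslab : ∫⁻ s in Set.Icc (T - W) (T + W), wE n (sc W) c (sl h g s) ≤
      ENNReal.ofReal (8 ^ n) * (ENNReal.ofReal (W ^ 3) *
        AA (2 * n) W (fun p => ext h g p.1 p.2) (c, T)) := by
    have e0 : ENNReal.ofReal (W ^ 3) * AA (2 * n) W (fun p => ext h g p.1 p.2) (c, T) =
        ∫⁻ p : E2 × ℝ, ‖ext h g p.1 p.2‖ₑ ^ 2 * ENNReal.ofReal (wt (2 * n) W c T p) := by
      unfold AA
      rw [← mul_assoc, ← ENNReal.ofReal_mul (by positivity), mul_inv_cancel₀ (by positivity),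
        ENNReal.ofReal_one, one_mul]
    have hm : Measurable fun p : E2 × ℝ =>
        ‖ext h g p.1 p.2‖ₑ ^ 2 * ENNReal.ofReal (wt (2 * n) W c T p) :=
      (hcont.measurable.enorm.pow_const 2).mul (measurable_wt _ _ _ _).ennreal_ofReal
    rw [e0, Measure.volume_eq_prod, lintegral_prod_symm _ hm.aemeasurable,
      ← lintegral_const_mul' _ _ ENNReal.ofReal_ne_top]
    refine (setLIntegral_mono_ae' measurableSet_Icc (Filter.Eventually.of_forall fun s hs => ?_)).trans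
      (setLIntegral_le_lintegral _ _)
    have hs' : |s - T| ≤ W := by rw [abs_le]; constructor <;> linarith [hs.1, hs.2]
    rw [wE_sl, ← lintegral_const_mul' _ _ ENNReal.ofReal_ne_top]
    refine lintegral_mono fun x => ?_
    rw [ENNReal.ofReal_mul (dw_pos _ _ _).le, ← ofReal_norm, ENNReal.ofReal_pow (norm_nonneg _)]
    calc ENNReal.ofReal (dw n (sc W) (x - c)) * ENNReal.ofReal ‖ext h g x s‖ ^ 2
        ≤ ENNReal.ofReal (8 ^ n * wt (2 * n) W c T (x, s)) * ENNReal.ofReal ‖ext h g x s‖ ^ 2 := by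
          gcongr
          exact dw_le_wt n hW0 c x hs'
      _ = _ := by
          rw [ENNReal.ofReal_mul (by positivity)]
          ring
  calc ENNReal.ofReal (2 * W) * wE n (sc W) c (sl h g t)
      = ∫⁻ _s in Set.Icc (T - W) (T + W), wE n (sc W) c (sl h g t) := by
        rw [setLIntegral_const, Real.volume_Icc, mul_comm]
        congr 2; ring
    _ ≤ ∫⁻ s in Set.Icc (T - W) (T + W),
        ENNReal.ofReal (C * 4 ^ n * (1 + |t - T| / W) ^ (2 * n)) * wE n (sc W) c (sl h g s) :=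
        setLIntegral_mono_ae' measurableSet_Icc (Filter.Eventually.of_forall key)
    _ = ENNReal.ofReal (C * 4 ^ n * (1 + |t - T| / W) ^ (2 * n)) *
        ∫⁻ s in Set.Icc (T - W) (T + W), wE n (sc W) c (sl h g s) :=
        lintegral_const_mul' _ _ ENNReal.ofReal_ne_top
    _ ≤ ENNReal.ofReal (C * 4 ^ n * (1 + |t - T| / W) ^ (2 * n)) * (ENNReal.ofReal (8 ^ n) *
        (ENNReal.ofReal (W ^ 3) * AA (2 * n) W (fun p => ext h g p.1 p.2) (c, T))) := by gcongr
    _ = _ := by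
        rw [← mul_assoc, ← ENNReal.ofReal_mul (by positivity)]
        congr 2
        ring

end Crest.Agent.R138.Zm858
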