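import Crest.Agent.R138.Zm2_858
import Crest.Agent.R138.Wpk5_685

/-!
# R138 / R139: ZOOM (helper858), part 3: covers by lattice cylinders, sum of the energies
-/

set_option autoImplicit false

open MeasureTheory FourierTransform
open scoped ContDiff ENNReal

namespace Crest.Agent.R138.Zm858

open Crest.Agent.R138.Defs Crest.Agent.R138.Bil882 Crest.Agent.R138.W188
open Crest.Agent.R138.Resc574 (hR Ph PhH)
open Crest.Agent.R138.T774 (AA)
open Crest.Agent.R138.Wpk685 (cen caps um en sel cap win)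

attribute [local instance] T774.haar3

/-- lattice points of step `r`. -/
noncomputable def zz (r : ℝ) (a : (ℤ × ℤ) × ℤ) : E2 × ℝ := (cen r a.1, r * a.2)

theorem exists_round {r : ℝ} (hr : 0 < r) (u : ℝ) : ∃ k : ℤ, |u - r * k| ≤ r / 2 ∧
    |(k : ℝ)| ≤ |u| / r + 1 := by
  refine ⟨round (u / r), ?_, ?_⟩
  · have h1 := abs_sub_round (u / r)
    have h2 : u - r * round (u / r) = r * (u / r - round (u / r)) := by field_simp
    rw [h2, abs_mul, abs_of_pos hr]
    calc r * |u / r - round (u / r)| ≤ r * (1 / 2) := by gcongr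
      _ = r / 2 := by ring
  · have h1 := abs_sub_round (u / r)
    have h2 : |(round (u / r) : ℝ)| ≤ |u / r| + |u / r - round (u / r)| := by
      have : (round (u / r) : ℝ) = u / r - (u / r - round (u / r)) := by ring
      calc |(round (u / r) : ℝ)| = |u / r - (u / r - round (u / r))| := by rw [← this]
        _ ≤ _ := abs_sub _ _
    rw [abs_div, abs_of_pos hr] at h2
    linarith

theorem exists_zz {r : ℝ} (hr : 0 < r) (q : E2 × ℝ) : ∃ a : (ℤ × ℤ) × ℤ, q - zz r a ∈ cyl r ∧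
    |(a.1.1 : ℝ)| ≤ ‖q.1‖ / r + 1 ∧ |(a.1.2 : ℝ)| ≤ ‖q.1‖ / r + 1 ∧
    |(a.2 : ℝ)| ≤ |q.2| / r + 1 := by
  obtain ⟨k0, h0, h0'⟩ := exists_round hr (q.1 0)
  obtain ⟨k1, h1, h1'⟩ := exists_round hr (q.1 1)
  obtain ⟨j, h2, h2'⟩ := exists_round hr q.2
  have hn0 : |q.1 0| ≤ ‖q.1‖ := by simpa using PiLp.norm_apply_le q.1 0
  have hn1 : |q.1 1| ≤ ‖q.1‖ := by simpa using PiLp.norm_apply_le q.1 1
  refine ⟨((k0, k1), j), ⟨?_, ?_⟩, ?_, ?_, h2'⟩
  · have e : ‖(q - zz r ((k0, k1), j)).1‖ ^ 2 = (q.1 0 - r * k0) ^ 2 + (q.1 1 - r * k1) ^ 2 := by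
      rw [EuclideanSpace.norm_sq_eq]
      simp only [Fin.sum_univ_two, Real.norm_eq_abs, sq_abs]
      rfl
    have h3 : (q.1 0 - r * k0) ^ 2 ≤ (r / 2) ^ 2 := by
      rw [← sq_abs (q.1 0 - r * k0)]; gcongr
    have h4 : (q.1 1 - r * k1) ^ 2 ≤ (r / 2) ^ 2 := by
      rw [← sq_abs (q.1 1 - r * k1)]; gcongr
    refine abs_le_of_sq_le_sq' (a := ‖(q - zz r ((k0, k1), j)).1‖) ?_ hr.le |>.2
    rw [e]; nlinarith
  · have : (q - zz r ((k0, k1), j)).2 = q.2 - r * j := rfl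
    rw [this]; linarith
  · exact h0'.trans (by gcongr)
  · exact h1'.trans (by gcongr)

/-- localisation to translates of a cylinder. -/
theorem lint_cover2 {Ω : Set (E2 × ℝ)} {r : ℝ} {ι : Type*} (s : Finset ι) (Z : ι → E2 × ℝ)
    (hZ : ∀ p ∈ Ω, ∃ a ∈ s, p - Z a ∈ cyl r) (f : E2 × ℝ → ℝ≥0∞) :
    ∫⁻ z in Ω, f z ≤ ∑ a ∈ s, ∫⁻ z in cyl r, f (z + Z a) := by
  have h1 : Ω ⊆ ⋃ a ∈ s, (fun p : E2 × ℝ => p + (-(Z a))) ⁻¹' cyl r := by
    intro p hp
    obtain ⟨a, ha, h⟩ := hZ p hp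
    exact Set.mem_biUnion ha (by simpa [sub_eq_add_neg] using h)
  have h3 : ∀ a : ι, ∫⁻ z in (fun p : E2 × ℝ => p + (-(Z a))) ⁻¹' cyl r, f z =
      ∫⁻ z in cyl r, f (z + Z a) := by
    intro a
    have h2 := (measurePreserving_add_right (volume : Measure (E2 × ℝ))
      (-(Z a))).setLIntegral_comp_preimage_emb
      (MeasurableEquiv.addRight (-(Z a))).measurableEmbedding
      (fun p => f (p + Z a)) (cyl r)
    rw [← h2]
    simp
  calc ∫⁻ z in Ω, f z
      ≤ ∫⁻ z in ⋃ a ∈ s, (fun p : E2 × ℝ => p + (-(Z a))) ⁻¹' cyl r, f z :=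
        lintegral_mono_set h1
    _ ≤ ∑ a ∈ s, ∫⁻ z in (fun p : E2 × ℝ => p + (-(Z a))) ⁻¹' cyl r, f z := by
        classical
        induction s using Finset.induction_on with
        | empty => simp
        | insert a s ha ih =>
          rw [Finset.set_biUnion_insert, Finset.sum_insert ha]
          refine (lintegral_union_le _ _ _).trans ?_
          gcongr
          clear ih h1 hZ
          induction s using Finset.induction_on with
          | empty => simp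
          | insert b s hb ih =>
            rw [Finset.set_biUnion_insert, Finset.sum_insert hb]
            refine (lintegral_union_le _ _ _).trans ?_
            gcongr
            exact ih (fun h => ha (Finset.mem_insert_of_mem h))
    _ = _ := Finset.sum_congr rfl fun a _ => h3 a

theorem card_int (x : ℝ) (K : ℕ) :
    ((Finset.Icc ⌈x - K⌉ ⌊x + K⌋).card : ℕ) ≤ 2 * K + 1 := by
  rw [Int.card_Icc, Int.floor_add_natCast, Int.ceil_sub_natCast]
  have := Int.floor_le_ceil x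
  omega

/-- bounded overlap of the lattice balls. -/
theorem overlap (K : ℕ) {r : ℝ} (hr : 0 < r) (T : Finset (ℤ × ℤ)) {f : E2 → ℝ≥0∞}
    (hf : Measurable f) :
    ∑ k ∈ T, ∫⁻ y in Metric.closedBall (cen r k) (K * r), f y ≤
      ((2 * K + 1 : ℕ) : ℝ≥0∞) ^ 2 * ∫⁻ y, f y := by
  classical
  have hb : ∀ k, MeasurableSet (Metric.closedBall (cen r k) (K * r)) := fun k =>
    Metric.isClosed_closedBall.measurableSet
  have e0 : ∀ k, ∫⁻ y in Metric.closedBall (cen r k) (K * r), f y =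
      ∫⁻ y, (Metric.closedBall (cen r k) (K * r)).indicator f y := fun k =>
    (lintegral_indicator (hb k) f).symm
  simp_rw [e0]
  rw [← lintegral_finsetSum _ fun k _ => hf.indicator (hb k), ← lintegral_const_mul _ hf]
  refine lintegral_mono fun y => ?_
  have e1 : ∑ k ∈ T, (Metric.closedBall (cen r k) (K * r)).indicator f y =
      ((T.filter fun k => y ∈ Metric.closedBall (cen r k) (K * r)).card : ℝ≥0∞) * f y := by
    have e2 : ((T.filter fun k => y ∈ Metric.closedBall (cen r k) (K * r)).card : ℝ≥0∞) * f y =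
        ∑ _k ∈ T.filter fun k => y ∈ Metric.closedBall (cen r k) (K * r), f y := by
      rw [Finset.sum_const, nsmul_eq_mul]
    rw [e2, Finset.sum_filter]
    refine Finset.sum_congr rfl fun k _ => ?_
    by_cases h : y ∈ Metric.closedBall (cen r k) (K * r)
    · rw [Set.indicator_of_mem h, if_pos h]
    · rw [Set.indicator_of_notMem h, if_neg h]
  rw [e1]
  gcongr
  have h1 : (T.filter fun k => y ∈ Metric.closedBall (cen r k) (K * r)) ⊆
      Finset.Icc ⌈y 0 / r - K⌉ ⌊y 0 / r + K⌋ ×ˢ Finset.Icc ⌈y 1 / r - K⌉ ⌊y 1 / r + K⌋ := by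
    intro k hk
    have hk2 := (Finset.mem_filter.1 hk).2
    rw [Metric.mem_closedBall, dist_eq_norm] at hk2
    have c0 : |y 0 - r * k.1| ≤ K * r := by
      have := PiLp.norm_apply_le (y - cen r k) 0
      exact this.trans hk2
    have c1 : |y 1 - r * k.2| ≤ K * r := by
      have := PiLp.norm_apply_le (y - cen r k) 1
      exact this.trans hk2
    have key : ∀ (u : ℝ) (j : ℤ), |u - r * j| ≤ K * r → ⌈u / r - K⌉ ≤ j ∧ j ≤ ⌊u / r + K⌋ := by
      intro u j hj
      rw [abs_le] at hj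
      constructor
      · rw [Int.ceil_le, sub_le_iff_le_add, div_le_iff₀ hr]
        nlinarith [hj.2]
      · rw [Int.le_floor, ← sub_le_iff_le_add, le_div_iff₀ hr]
        nlinarith [hj.1]
    rw [Finset.mem_product, Finset.mem_Icc, Finset.mem_Icc]
    exact ⟨key _ _ c0, key _ _ c1⟩
  have h2 := Finset.card_le_card h1
  rw [Finset.card_product] at h2
  have h3 := Nat.mul_le_mul (card_int (y 0 / r) K) (card_int (y 1 / r) K)
  calc ((T.filter fun k => y ∈ Metric.closedBall (cen r k) (K * r)).card : ℝ≥0∞)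
      ≤ (((2 * K + 1) * (2 * K + 1) : ℕ) : ℝ≥0∞) := by exact_mod_cast h2.trans h3
    _ = _ := by push_cast; ring

/-- **(Q4)** translations of the packets. -/
theorem um_tr (ρ : ℝ) (h : E2 → ℝ) (x0 : E2) (t0 : ℝ) (g : E2 → ℂ) (m : ℤ × ℤ) (y : E2) :
    um ρ (tr h (x0, t0) g) m y = um ρ (tr h (0, t0) g) m (y + x0) := by
  unfold um tr
  rw [Wpk685.fourierInv_eq_int, Wpk685.fourierInv_eq_int]
  congr 1
  funext ζ
  simp only [inner_zero_left, zero_add]
  rw [inner_add_left, Wpk685.ee_add, Wpk685.ee_add]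
  ring

theorem tr_int {h : E2 → ℝ} (hh : Continuous h) (z : E2 × ℝ) {g : E2 → ℂ} (hg : Integrable g) :
    Integrable (tr h z g) := by
  unfold tr
  refine hg.mul_bdd (c := 1) ?_ (Filter.Eventually.of_forall fun ξ => (Wpk685.norm_ee _).le)
  refine (Wpk685.continuous_ee.comp ?_).aestronglyMeasurable
  exact (continuous_const.inner continuous_id).add (continuous_const.mul hh)

theorem norm_tr (h : E2 → ℝ) (z : E2 × ℝ) (g : E2 → ℂ) (ξ : E2) : ‖tr h z g ξ‖ = ‖g ξ‖ := by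
  unfold tr
  rw [norm_mul, Wpk685.norm_ee, mul_one]

theorem enorm_tr (h : E2 → ℝ) (z : E2 × ℝ) (g : E2 → ℂ) (ξ : E2) : ‖tr h z g ξ‖ₑ = ‖g ξ‖ₑ := by
  rw [← ofReal_norm, ← ofReal_norm, norm_tr]

theorem tr_meas {h : E2 → ℝ} (hh : Continuous h) (z : E2 × ℝ) {g : E2 → ℂ} (hg : Measurable g) :
    Measurable (tr h z g) := by
  unfold tr
  refine hg.mul (Wpk685.continuous_ee.comp ?_).measurable
  exact (continuous_const.inner continuous_id).add (continuous_const.mul hh)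

theorem tr_memLp {h : E2 → ℝ} (hh : Continuous h) (z : E2 × ℝ) {g : E2 → ℂ} (hg : MemLp g 2) :
    MemLp (tr h z g) 2 := by
  refine MemLp.of_le hg ?_ (Filter.Eventually.of_forall fun ξ => (norm_tr h z g ξ).le)
  unfold tr
  refine hg.1.mul ((Wpk685.continuous_ee.comp ?_).aestronglyMeasurable)
  exact (continuous_const.inner continuous_id).add (continuous_const.mul hh)

theorem ext_tr (h : E2 → ℝ) (z : E2 × ℝ) (g : E2 → ℂ) (x : E2) (t : ℝ) :
    ext h (tr h z g) x t = ext h g (x + z.1) (t + z.2) := by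
  unfold ext tr
  congr 1
  funext ξ
  rw [mul_assoc, ← Wpk685.ee_add]
  congr 2
  rw [inner_add_left]
  ring

/-- energy in a fixed ball of the translated wave. -/
theorem en_tr_ball (ρ : ℝ) (h : E2 → ℝ) (x0 : E2) (t0 : ℝ) (g : E2 → ℂ) (a : ℝ) :
    en ρ (tr h (x0, t0) g) (fun _ => Metric.closedBall 0 a) =
      ∑ m ∈ caps ρ, ∫⁻ y in Metric.closedBall x0 a, ‖um ρ (tr h (0, t0) g) m y‖ₑ ^ 2 := by
  unfold en
  refine Finset.sum_congr rfl fun m _ => ?_
  simp_rw [um_tr ρ h x0 t0 g m]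
  have h2 := (measurePreserving_add_right (volume : Measure E2) x0).setLIntegral_comp_preimage_emb
      (MeasurableEquiv.addRight x0).measurableEmbedding
      (fun y => ‖um ρ (tr h (0, t0) g) m y‖ₑ ^ 2) (Metric.closedBall x0 a)
  rw [← h2]
  congr 2
  ext y
  simp [dist_eq_norm]

/-- **sum of the energies of the localised pieces**. -/
theorem sum_en (K : ℕ) : ∃ C : ℝ, 0 ≤ C ∧ ∀ ρ : ℝ, 0 < ρ → ρ ≤ 1 → ∀ h : E2 → ℝ, Continuous h →
    ∀ g : E2 → ℂ, Integrable g → MemLp g 2 → ∀ r : ℝ, 0 < r → ∀ (T : Finset (ℤ × ℤ))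
    (J : Finset ℤ), ∑ a ∈ T ×ˢ J, en ρ (tr h (zz r a) g) (fun _ => Metric.closedBall 0 (K * r)) ≤
      ENNReal.ofReal (C * J.card) * ∫⁻ ξ, ‖g ξ‖ₑ ^ 2 := by
  obtain ⟨C, hC, H⟩ := Wpk685.en_le
  refine ⟨((2 * K + 1 : ℕ) : ℝ) ^ 2 * C, by positivity, ?_⟩
  intro ρ hρ hρ1 h hh g hg hg2 r hr T J
  rw [Finset.sum_product_right]
  have key : ∀ j ∈ J, ∑ k ∈ T, en ρ (tr h (zz r (k, j)) g)
      (fun _ => Metric.closedBall 0 (K * r)) ≤
      ENNReal.ofReal (((2 * K + 1 : ℕ) : ℝ) ^ 2 * C) * ∫⁻ ξ, ‖g ξ‖ₑ ^ 2 := by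
    intro j _
    have hgi := tr_int hh ((0 : E2), r * (j:ℝ)) hg
    have hg2i := tr_memLp hh ((0 : E2), r * (j:ℝ)) hg2
    calc ∑ k ∈ T, en ρ (tr h (zz r (k, j)) g) (fun _ => Metric.closedBall 0 (K * r))
        = ∑ m ∈ caps ρ, ∑ k ∈ T, ∫⁻ y in Metric.closedBall (cen r k) (K * r),
          ‖um ρ (tr h (0, r * j) g) m y‖ₑ ^ 2 := by
          rw [Finset.sum_comm]
          refine Finset.sum_congr rfl fun k _ => ?_
          exact en_tr_ball ρ h _ _ g _
      _ ≤ ∑ m ∈ caps ρ, ((2 * K + 1 : ℕ) : ℝ≥0∞) ^ 2 *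
          ∫⁻ y, ‖um ρ (tr h (0, r * j) g) m y‖ₑ ^ 2 := by
          refine Finset.sum_le_sum fun m _ => overlap K hr T ?_
          exact (Wpk685.um_cont hgi m).measurable.enorm.pow_const 2
      _ = ((2 * K + 1 : ℕ) : ℝ≥0∞) ^ 2 * en ρ (tr h (0, r * j) g) (fun _ => Set.univ) := by
          unfold en
          rw [Finset.mul_sum]
          simp
      _ ≤ ((2 * K + 1 : ℕ) : ℝ≥0∞) ^ 2 * (ENNReal.ofReal C *
          ∫⁻ ξ, ‖tr h (0, r * j) g ξ‖ₑ ^ 2) := by
          gcongr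
          exact H ρ hρ hρ1 _ hgi hg2i _
      _ = _ := by
          simp_rw [enorm_tr]
          rw [← mul_assoc, ENNReal.ofReal_mul (by positivity), ENNReal.ofReal_pow (by positivity),
            ENNReal.ofReal_natCast]
  refine (Finset.sum_le_sum key).trans (le_of_eq ?_)
  rw [Finset.sum_const, nsmul_eq_mul, ← mul_assoc, ← ENNReal.ofReal_natCast,
    ← ENNReal.ofReal_mul (by positivity)]
  congr 2
  ring

end Crest.Agent.R138.Zm858
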