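import Crest.Agent.R138.Zm3_858

/-!
# R138 / R139: ZOOM (helper858), part 4: the penalised box bound of the rescaled translated wave
-/

set_option autoImplicit false

open MeasureTheory FourierTransform
open scoped ContDiff ENNReal

namespace Crest.Agent.R138.Zm858

open Crest.Agent.R138.Defs Crest.Agent.R138.Bil882 Crest.Agent.R138.W188
open Crest.Agent.R138.Resc574 (hR Ph PhH md lintegral_md plank_translate measurableSet_plank
  preimage_plank' chi_resc' lintegral_sq_ext_resc)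

theorem tr_eq_md (h : E2 → ℝ) (z : E2 × ℝ) (g : E2 → ℂ) : tr h z g = md h z g := rfl

theorem plank_mono_len {c : E2} {b : OrthonormalBasis (Fin 2) ℝ E2} {s : Fin 2 → ℝ}
    (hs : ∀ i, 0 ≤ s i) {R R' : ℝ} (hR : R ≤ R') (x0 : E2) (t0 : ℝ) :
    plank c b s R x0 t0 ⊆ plank c b s R' x0 t0 := fun _ hp =>
  ⟨hp.1.trans hR, fun i => (hp.2 i).trans (mul_le_mul_of_nonneg_left hR (hs i))⟩

/-- **penalised box bound of the zoomed translated wave** at scale `c l² R`, density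
`D l^(q-4) c⁻³`, if all base points come from the cylinder `4R`. -/
theorem pbox_tr_resc {q : ℝ} {Na : ℕ} {h : E2 → ℝ} (hh : Differentiable ℝ h) {g : E2 → ℂ}
    {R D l : ℝ} {ξ0 : E2} (hl : 0 < l) (hR0 : 0 < R)
    (H : PBoxLe l q Na h g R D) {c : ℝ} (hc : 0 < c) (hc1 : c ≤ 1) (z : E2 × ℝ)
    (hz : ∀ (x0 : E2) (t0 : ℝ), ‖x0‖ ≤ 4 * (c * (l ^ 2 * R)) → |t0| ≤ 4 * (c * (l ^ 2 * R)) →
      ‖((PhH (gradient h ξ0) l hl.ne').symm (z + (x0, t0))).1‖ ≤ 4 * R ∧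
      |((PhH (gradient h ξ0) l hl.ne').symm (z + (x0, t0))).2| ≤ 4 * R) :
    PBox q Na (hR h ξ0 l) (tr (hR h ξ0 l) z (fun η => g (ξ0 + l • η))) (c * (l ^ 2 * R))
      (D * l ^ (q - 4) * (c ^ 3)⁻¹) := by
  intro c' b s hs ψ hψ x0 t0 hx ht
  set v := gradient h ξ0 with hv
  set g' : E2 → ℂ := fun η => g (ξ0 + l • η) with hg'
  set R1 := c * (l ^ 2 * R) with hR1
  have hR2 : 0 < l ^ 2 * R := by positivity
  have hR10 : 0 < R1 := by positivity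
  have hR12 : R1 ≤ l ^ 2 * R := mul_le_of_le_one_left hR2.le hc1
  have hs0 : ∀ i, 0 < s i := fun i => (Real.rpow_pos_of_pos hR10 _).trans_le (hs i).1
  set p := (PhH v l hl.ne').symm (z + (x0, t0)) with hp
  obtain ⟨hp1, hp2⟩ := hz x0 t0 hx ht
  -- the plank at scale `R`
  have hbox := H (v + l • c') b (fun i => l * s i) (fun i => by
    constructor
    · have h1 : R1 ^ (-(1/2) : ℝ) ≤ s i := (hs i).1
      have h2 : (l ^ 2 * R) ^ (-(1/2) : ℝ) ≤ R1 ^ (-(1/2) : ℝ) :=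
        Real.rpow_le_rpow_of_nonpos hR10 hR12 (by norm_num)
      have h3 : l * (l ^ 2 * R) ^ (-(1/2) : ℝ) = R ^ (-(1/2) : ℝ) := by
        rw [Real.mul_rpow (by positivity) hR0.le, ← Real.rpow_natCast, ← Real.rpow_mul hl.le,
          ← mul_assoc]
        norm_num
        rw [Real.rpow_neg_one, mul_inv_cancel₀ hl.ne', one_mul]
      calc R ^ (-(1/2) : ℝ) = l * (l ^ 2 * R) ^ (-(1/2) : ℝ) := h3.symm
        _ ≤ l * s i := by gcongr; exact h2.trans h1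
    · calc l * s i ≤ l * 1 := by gcongr; exact (hs i).2
        _ = l := mul_one l) ψ hψ p.1 p.2 hp1 hp2
  have e1 : (fun ξ => tr (hR h ξ0 l) z g' ξ * chi (hR h ξ0 l) c' b s ψ ξ) =
      md (hR h ξ0 l) z (fun ξ => g' ξ * chi (hR h ξ0 l) c' b s ψ ξ) := by
    rw [tr_eq_md]
    funext ξ
    exact Resc574.md_mul _ g' _ z ξ
  have e2 : (fun ξ => g' ξ * chi (hR h ξ0 l) c' b s ψ ξ) =
      fun η => (fun ξ => g ξ * chi h (v + l • c') b (fun i => l * s i) ψ ξ) (ξ0 + l • η) := by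
    funext η
    rw [chi_resc' hh ξ0 c' b s ψ hl.ne' η]
  have e3 := lintegral_sq_ext_resc h (fun ξ => g ξ * chi h (v + l • c') b (fun i => l * s i) ψ ξ)
    ξ0 hl (A := plank c' b s (l ^ 2 * R) (z + (x0, t0)).1 (z + (x0, t0)).2)
    (measurableSet_plank _ _ _ _ _ _)
  have e4 := preimage_plank' v c' b s R (z + (x0, t0)) hl
  rw [← hv, e4] at e3
  calc ∫⁻ p in plank c' b s R1 x0 t0,
        ‖ext (hR h ξ0 l) (fun ξ => tr (hR h ξ0 l) z g' ξ * chi (hR h ξ0 l) c' b s ψ ξ) p.1 p.2‖ₑ ^ 2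
      = ∫⁻ p in plank c' b s R1 (z + (x0, t0)).1 (z + (x0, t0)).2,
        ‖ext (hR h ξ0 l) (fun ξ => g' ξ * chi (hR h ξ0 l) c' b s ψ ξ) p.1 p.2‖ₑ ^ 2 := by
        rw [e1, lintegral_md _ _ z (measurableSet_plank _ _ _ _ _ _) 2]
        rw [plank_translate c' b s R1 (x0, t0) z]
    _ ≤ ∫⁻ p in plank c' b s (l ^ 2 * R) (z + (x0, t0)).1 (z + (x0, t0)).2,
        ‖ext (hR h ξ0 l) (fun ξ => g' ξ * chi (hR h ξ0 l) c' b s ψ ξ) p.1 p.2‖ₑ ^ 2 :=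
        lintegral_mono_set (plank_mono_len (fun i => (hs0 i).le) hR12 _ _)
    _ = ∫⁻ p in plank (v + l • c') b (fun i => l * s i) R p.1 p.2,
        ‖ext h (fun ξ => g ξ * chi h (v + l • c') b (fun i => l * s i) ψ ξ) p.1 p.2‖ₑ ^ 2 := by
        rw [e2, e3]
    _ ≤ ENNReal.ofReal (D * (max (l * s 0) (l * s 1)) ^ q * (l * s 0 * (l * s 1) * R ^ 3)) := hbox
    _ = _ := by
        congr 1
        have h5 : max (l * s 0) (l * s 1) = l * max (s 0) (s 1) :=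
          (mul_max_of_nonneg _ _ hl.le).symm
        have h6 : 0 ≤ max (s 0) (s 1) := (hs0 0).le.trans (le_max_left _ _)
        have h7 : l ^ (q - 4) = l ^ q / l ^ 4 := by
          rw [Real.rpow_sub hl]; norm_cast
        rw [h5, Real.mul_rpow hl.le h6, h7, hR1]
        field_simp

/-- the inverse of `Ph` moves little. -/
theorem symm_bound (v : E2) {l : ℝ} (hl : 0 < l) (hl1 : l ≤ 1) (hv : ‖v‖ ≤ 2) {R a : ℝ}
    (ha : 0 ≤ a) {p : E2 × ℝ} (hp : p ∈ cyl (2 * R)) {δ : E2 × ℝ} (h1 : ‖δ.1‖ ≤ a * (l ^ 2 * R))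
    (h2 : |δ.2| ≤ a * (l ^ 2 * R)) (hR : 0 ≤ R) (ha2 : 3 * a ≤ 2) :
    ‖((PhH v l hl.ne').symm (Ph v l p + δ)).1‖ ≤ 4 * R ∧
      |((PhH v l hl.ne').symm (Ph v l p + δ)).2| ≤ 4 * R := by
  have e : (PhH v l hl.ne').symm (Ph v l p + δ) =
      (p.1 + (l⁻¹ • δ.1 - ((l ^ 2)⁻¹ * δ.2) • v), p.2 + (l ^ 2)⁻¹ * δ.2) := by
    have h3 : (PhH v l hl.ne').symm (Ph v l p + δ) =
        (l⁻¹ • (Ph v l p + δ).1 - ((l ^ 2)⁻¹ * (Ph v l p + δ).2) • v,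
          (l ^ 2)⁻¹ * (Ph v l p + δ).2) := rfl
    rw [h3]
    have h4 : (l ^ 2)⁻¹ * (Ph v l p + δ).2 = p.2 + (l ^ 2)⁻¹ * δ.2 := by
      simp only [Ph, Prod.snd_add]; field_simp
    rw [h4]
    refine Prod.ext ?_ rfl
    change l⁻¹ • (l • (p.1 + p.2 • v) + δ.1) - (p.2 + (l ^ 2)⁻¹ * δ.2) • v = _
    rw [smul_add, smul_smul, inv_mul_cancel₀ hl.ne', one_smul, add_smul]
    abel
  rw [e]
  obtain ⟨hp1, hp2⟩ := hp
  have h5 : (l ^ 2)⁻¹ * |δ.2| ≤ a * R := by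
    calc (l ^ 2)⁻¹ * |δ.2| ≤ (l ^ 2)⁻¹ * (a * (l ^ 2 * R)) := by gcongr
      _ = a * R := by field_simp
  have h6 : l⁻¹ * ‖δ.1‖ ≤ a * R := by
    calc l⁻¹ * ‖δ.1‖ ≤ l⁻¹ * (a * (l ^ 2 * R)) := by gcongr
      _ = l * (a * R) := by field_simp
      _ ≤ 1 * (a * R) := by gcongr
      _ = a * R := one_mul _
  constructor
  · have h7 : ‖l⁻¹ • δ.1 - ((l ^ 2)⁻¹ * δ.2) • v‖ ≤ 3 * (a * R) := by
      refine (norm_sub_le _ _).trans ?_
      rw [norm_smul, norm_smul, norm_mul, Real.norm_of_nonneg (inv_pos.2 hl).le,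
        Real.norm_of_nonneg (inv_pos.2 (pow_pos hl 2)).le, Real.norm_eq_abs]
      have h8 : (l ^ 2)⁻¹ * |δ.2| * ‖v‖ ≤ (a * R) * 2 := by gcongr
      linarith
    refine (norm_add_le _ _).trans ?_
    nlinarith
  · refine (abs_add_le _ _).trans ?_
    rw [abs_mul, abs_of_pos (inv_pos.2 (pow_pos hl 2))]
    nlinarith

end Crest.Agent.R138.Zm858
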