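import Crest.Agent.R138.Zm4_858
import Crest.Agent.R138.Wpk6_685
import Crest.Agent.R138.Low4_448

/-!
# R138 / R139: ZOOM (helper858), part 5: localisation of one wave to a cylinder
-/

set_option autoImplicit false

open MeasureTheory FourierTransform
open scoped ContDiff ENNReal

namespace Crest.Agent.R138.Zm858

open Crest.Agent.R138.Defs Crest.Agent.R138.Bil882 Crest.Agent.R138.W188
open Crest.Agent.R138.Wpk685 (cen caps um en sel cap win Bs Dens pbox)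

theorem tr_zero (h : E2 → ℝ) (g : E2 → ℂ) : tr h ((0 : E2), (0 : ℝ)) g = g := by
  funext ξ
  unfold tr
  simp [Wpk685.ee_zero]

theorem lint_nsq {g : E2 → ℂ} (hg : MemLp g 2) : ∫⁻ ξ, ‖g ξ‖ₑ ^ 2 = ENNReal.ofReal (En g) := by
  rw [← Low448.LI_eq_En hg]
  unfold Wf448.LI
  refine lintegral_congr fun ξ => ?_
  rw [← ofReal_norm, ENNReal.ofReal_pow (norm_nonneg _)]

theorem En_le_of_lint {g : E2 → ℂ} (hg : MemLp g 2) {a : ℝ} (ha : 0 ≤ a)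
    (h : ∫⁻ ξ, ‖g ξ‖ₑ ^ 2 ≤ ENNReal.ofReal a) : En g ≤ a := by
  rw [lint_nsq hg] at h
  exact (ENNReal.ofReal_le_ofReal_iff ha).1 h

theorem PBox_mono {q : ℝ} {Na : ℕ} {h : E2 → ℝ} {g : E2 → ℂ} {R D D' : ℝ} (hR : 0 < R)
    (hD : D ≤ D') (H : PBox q Na h g R D) : PBox q Na h g R D' := by
  intro c b s hs ψ hψ x0 t0 hx ht
  refine (H c b s hs ψ hψ x0 t0 hx ht).trans (ENNReal.ofReal_le_ofReal ?_)
  have h1 : ∀ i, 0 < s i := fun i => (Real.rpow_pos_of_pos hR _).trans_le (hs i).1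
  have h2 := h1 0
  have h3 := h1 1
  have h4 : 0 ≤ (max (s 0) (s 1)) ^ q := Real.rpow_nonneg (h2.le.trans (le_max_left _ _)) _
  gcongr

theorem norm_cen_le {ρ : ℝ} (hρ : 0 < ρ) (hρ1 : ρ ≤ 1) {m : ℤ × ℤ} (hm : m ∈ caps ρ) :
    ‖cen ρ m‖ ≤ 6 := by
  unfold caps at hm
  rw [Finset.mem_product, Finset.mem_Icc, Finset.mem_Icc] at hm
  have h1 : ρ * ((⌈2 / ρ⌉ : ℤ) + 1 : ℝ) ≤ 4 := by
    have h2 : ((⌈2 / ρ⌉ : ℤ) : ℝ) < 2 / ρ + 1 := Int.ceil_lt_add_one _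
    have h3 : ρ * (2 / ρ) = 2 := by field_simp
    nlinarith
  have key : ∀ k : ℤ, -⌈2 / ρ⌉ - 1 ≤ k → k ≤ ⌈2 / ρ⌉ + 1 → |ρ * (k:ℝ)| ≤ 4 := by
    intro k hk1 hk2
    have h4 : (k:ℝ) ≤ (⌈2 / ρ⌉ : ℤ) + 1 := by exact_mod_cast hk2
    have h5 : -((⌈2 / ρ⌉ : ℤ) : ℝ) - 1 ≤ k := by exact_mod_cast hk1
    rw [abs_mul, abs_of_pos hρ]
    have h6 : |(k:ℝ)| ≤ (⌈2 / ρ⌉ : ℤ) + 1 := by
      rw [abs_le]; constructor <;> linarith
    calc ρ * |(k:ℝ)| ≤ ρ * ((⌈2 / ρ⌉ : ℤ) + 1 : ℝ) := by gcongr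
      _ ≤ 4 := h1
  have h0 := key m.1 hm.1.1 hm.1.2
  have h1' := key m.2 hm.2.1 hm.2.2
  have e : ‖cen ρ m‖ ^ 2 = (ρ * m.1) ^ 2 + (ρ * m.2) ^ 2 := by
    rw [EuclideanSpace.norm_sq_eq]
    simp only [Fin.sum_univ_two, Real.norm_eq_abs, sq_abs]
    rfl
  have h2 : (ρ * (m.1:ℝ)) ^ 2 ≤ 4 ^ 2 := by rw [← sq_abs]; gcongr
  have h3 : (ρ * (m.2:ℝ)) ^ 2 ≤ 4 ^ 2 := by rw [← sq_abs]; gcongr
  refine abs_le_of_sq_le_sq' (a := ‖cen ρ m‖) ?_ (by norm_num) |>.2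
  rw [e]; nlinarith

/-- **localisation of one wave**: `sel` with the ball of radius `Kn r` at scale `r = R1 / Kn`. -/
theorem loc_piece (B : ℕ → ℝ) {q : ℝ} (hq : 0 ≤ q) : ∃ Kn : ℕ, 1 ≤ Kn ∧
    ∀ ε : ℝ, 0 < ε → ∀ (Na : ℕ) (M1 : ℝ) (M' : ℕ), ∃ C : ℝ, 0 ≤ C ∧
    ∀ (h : E2 → ℝ) (f : E2 → ℂ) (R1 D1 r : ℝ), ParB B h → h 0 = 0 → fderiv ℝ h 0 = 0 →
    Measurable f → (∃ M, ∀ ξ, ‖f ξ‖ ≤ M) → (∀ ξ, 1 / 4 < ‖ξ‖ → f ξ = 0) → 0 ≤ D1 →
    PBox q Na h f R1 D1 → En f ≤ R1 ^ M1 * D1 → R1 = Kn * r → 144 ≤ r →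
    St B q 6 2 (1/2) h (sel (r ^ (-(1/2) : ℝ)) f (fun _ => Metric.closedBall 0 (Kn * r))) r
      (C * R1 ^ ε * D1) ∧
    (∫⁻ ξ, ‖sel (r ^ (-(1/2) : ℝ)) f (fun _ => Metric.closedBall 0 (Kn * r)) ξ‖ₑ ^ 2 ≤
      ENNReal.ofReal C * en (r ^ (-(1/2) : ℝ)) f (fun _ => Metric.closedBall 0 (Kn * r))) ∧
    (∀ p : E2 × ℝ, ‖p.1‖ ≤ 8 * r → |p.2| ≤ 8 * r →
      ‖ext h f p.1 p.2 -
        ext h (sel (r ^ (-(1/2) : ℝ)) f (fun _ => Metric.closedBall 0 (Kn * r))) p.1 p.2‖ₑ ^ 2 ≤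
      ENNReal.ofReal (C * (r ^ (2 * M'))⁻¹) * ∫⁻ ξ, ‖f ξ‖ₑ ^ 2) := by
  set Kn : ℕ := ⌈(1 + 8 + 4 * 8 * (1 + |B 2|) : ℝ)⌉₊ with hKn
  have hB0 : 0 ≤ |B 2| := abs_nonneg _
  have hKn1 : (1 + 8 + 4 * 8 * (1 + |B 2|) : ℝ) ≤ Kn := Nat.le_ceil _
  have hKn2 : (1:ℝ) ≤ Kn := by linarith
  refine ⟨Kn, by exact_mod_cast hKn2, ?_⟩
  intro ε hε Na M1 M'
  obtain ⟨C1, hC1, H1⟩ := Low448.low B hq (A := Kn) (by positivity) hε Na M1
  obtain ⟨C2, hC2, H2⟩ := Wpk685.pbox_sel B q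
  obtain ⟨C3, hC3, H3⟩ := Wpk685.sel_energy
  obtain ⟨C4, hC4, H4⟩ := Wpk685.rest_small B 8 (by norm_num) M'
  refine ⟨C2 * (C1 * Kn ^ 3) + C3 * (C1 * Kn ^ 3) + C3 + C4, by positivity, ?_⟩
  intro h f R1 D1 r hh h0 h1 hf hfb hfs hD1 hbox hnd hR1 hr
  set Ct : ℝ := C2 * (C1 * Kn ^ 3) + C3 * (C1 * Kn ^ 3) + C3 + C4 with hCt
  have hr1 : 1 ≤ r := by linarith
  have hr0 : 0 < r := by linarith
  set ρ : ℝ := r ^ (-(1/2) : ℝ) with hρd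
  obtain ⟨hρ, hρ1, hρ2⟩ := Wpk685.rp_facts hr1
  have hρ12 : ρ ≤ 1 / 12 := by
    have h2 : ρ ^ 2 ≤ (1 / 12) ^ 2 := by
      rw [hρ2]
      calc r⁻¹ ≤ (144:ℝ)⁻¹ := inv_anti₀ (by norm_num) hr
        _ = (1 / 12) ^ 2 := by norm_num
    exact abs_le_of_sq_le_sq' h2 (by norm_num) |>.2
  set S : ℤ × ℤ → Set E2 := fun _ => Metric.closedBall 0 (Kn * r) with hS
  have hrR1 : r ≤ R1 := by rw [hR1]; nlinarith
  have hR10 : 0 < R1 := by linarith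
  have hfs' : ∀ ξ, (1 / 4 : ℝ) < ‖ξ - 0‖ → f ξ = 0 := by simpa using hfs
  have hfi : Integrable f := int_ball hf hfb hfs'
  have hf2 : MemLp f 2 := memLp_ball hf hfb hfs' 2
  have hfs2 : ∀ ξ, 2 < ‖ξ‖ → f ξ = 0 := fun ξ hξ => hfs ξ (by linarith)
  have hBs : Bs ρ S := ⟨fun m _ => Metric.isClosed_closedBall.measurableSet,
    fun m _ => Metric.isBounded_closedBall⟩
  have hSR : ∀ y ∈ (Metric.closedBall 0 (Kn * r) : Set E2), ‖y + (0 : E2)‖ ≤ 3 * R1 := by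
    intro y hy
    rw [mem_closedBall_zero_iff] at hy
    rw [add_zero, hR1]
    nlinarith
  have hsel := Wpk685.sel_int hρ hfi hBs
  -- LOW
  have hlow : ∀ (c : E2) (b : OrthonormalBasis (Fin 2) ℝ E2) (s : Fin 2 → ℝ),
      (∀ i, ρ ≤ s i ∧ s i ≤ 1) → ∀ (x : E2) (S' : ℤ × ℤ → Set E2), (∀ m, MeasurableSet (S' m)) →
      (∀ m, S' m ⊆ pbox h r c b (fun k => Kn * s k) x m) → (∀ m, S' m ⊆ S m) →
      en ρ f S' ≤ ENNReal.ofReal ((C1 * Kn ^ 3) * (R1 ^ ε * D1) *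
        (max (s 0) (s 1)) ^ q * (s 0 * s 1 * r ^ 2)) := by
    intro c b s hs x S' hS'm hS'b hS'S
    have h2 := H1 h f R1 D1 hh hf hfb ⟨1 / 4, hfs⟩ hD1 hbox hnd r hr1 hrR1 ((0 : E2), (0 : ℝ))
      (by simp; positivity) c b s hs x S' hS'm hS'b (fun m y hy => hSR y (hS'S m hy))
    rw [tr_zero] at h2
    have h3 : en ρ f S' = ENNReal.ofReal r⁻¹ * (ENNReal.ofReal r * en ρ f S') := by
      rw [← mul_assoc, ← ENNReal.ofReal_mul (by positivity), inv_mul_cancel₀ hr0.ne',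
        ENNReal.ofReal_one, one_mul]
    have h4 : 0 ≤ (max (s 0) (s 1)) ^ q :=
      Real.rpow_nonneg ((hρ.le.trans (hs 0).1).trans (le_max_left _ _)) _
    rw [h3]
    calc ENNReal.ofReal r⁻¹ * (ENNReal.ofReal r * en ρ f S')
        ≤ ENNReal.ofReal r⁻¹ * ENNReal.ofReal (C1 * R1 ^ ε *
          (D1 * (max (s 0) (s 1)) ^ q * (s 0 * s 1 * R1 ^ 3))) := by gcongr
      _ = _ := by
          rw [← ENNReal.ofReal_mul (by positivity), hR1]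
          congr 1
          field_simp
  set Dn : ℝ := (C1 * Kn ^ 3) * (R1 ^ ε * D1) with hDn
  have hRe : 0 ≤ R1 ^ ε := Real.rpow_nonneg hR10.le _
  have hDn0 : 0 ≤ Dn := by positivity
  -- density in the phase boxes
  have hdens : Dens q h r f S Dn := by
    intro c b s y0 hs
    refine hlow c b s hs y0 _ (fun m => Metric.isClosed_closedBall.measurableSet.inter
      (Wpk685.pbox_meas h r c b s y0 m)) (fun m y hy => ?_) (fun m y hy => hy.1)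
    have hs0 : ∀ i, 0 ≤ s i := fun i => hρ.le.trans (hs i).1
    refine ⟨fun i => (hy.2.1 i).trans ?_, fun i => (hy.2.2 i).trans ?_⟩
    · exact le_mul_of_one_le_left (hs0 i) hKn2
    · have h5 : s i ≤ Kn * s i := le_mul_of_one_le_left (hs0 i) hKn2
      exact mul_le_mul_of_nonneg_right h5 hr0.le
  have hP := H2 h hh r hr1 f hfi hfs2 S hBs Dn hDn0 hdens
  -- total energy
  have htot : en ρ f S ≤ ENNReal.ofReal (Dn * r ^ 2) := by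
    set b0 : OrthonormalBasis (Fin 2) ℝ E2 := EuclideanSpace.basisFun (Fin 2) ℝ with hb0
    set S' : ℤ × ℤ → Set E2 := fun m => S m ∩ pbox h r 0 b0 (fun _ => Kn * 1) 0 m with hS'
    have h2 := hlow 0 b0 (fun _ => 1) (fun _ => ⟨hρ1, le_rfl⟩) 0 S'
      (fun m => Metric.isClosed_closedBall.measurableSet.inter
        (Wpk685.pbox_meas h r 0 b0 _ 0 m)) (fun m y hy => hy.2) (fun m y hy => hy.1)
    have h3 : en ρ f S = en ρ f S' := by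
      unfold en
      refine Finset.sum_congr rfl fun m hm => ?_
      have h4 : S m = S' m := by
        refine Set.Subset.antisymm (fun y hy => ⟨hy, ⟨fun i => ?_, fun i => ?_⟩⟩) fun y hy => hy.1
        · have h5 := Wpk685.grad_le hh h1 (cen ρ m)
          have h6 := norm_cen_le hρ hρ1 hm
          have h7 : |inner ℝ (gradient h (cen ρ m) - 0) (b0 i)| ≤ ‖gradient h (cen ρ m)‖ := by
            rw [sub_zero]
            refine (abs_real_inner_le_norm _ _).trans ?_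
            rw [b0.norm_eq_one, mul_one]
          refine h7.trans ?_
          nlinarith
        · have h8 : |inner ℝ (y - 0) (b0 i)| ≤ ‖y‖ := by
            rw [sub_zero]
            refine (abs_real_inner_le_norm _ _).trans ?_
            rw [b0.norm_eq_one, mul_one]
          refine h8.trans ?_
          have h9 : ‖y‖ ≤ Kn * r := by
            have := hy
            rw [hS] at this
            exact mem_closedBall_zero_iff.1 this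
          simpa using h9
      rw [h4]
    rw [h3]
    refine h2.trans (le_of_eq ?_)
    congr 1
    simp
  have hE : ∫⁻ ξ, ‖sel ρ f S ξ‖ₑ ^ 2 ≤ ENNReal.ofReal C3 * en ρ f S :=
    H3 ρ hρ hρ1 f hfi S hBs
  have hCt1 : C2 * (C1 * Kn ^ 3) ≤ Ct := by
    have h2 : 0 ≤ C3 * (C1 * (Kn:ℝ) ^ 3) := by positivity
    rw [hCt]; linarith
  have hCt2 : C3 * (C1 * Kn ^ 3) ≤ Ct := by
    have h2 : 0 ≤ C2 * (C1 * (Kn:ℝ) ^ 3) := by positivity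
    rw [hCt]; linarith
  have hCt3 : C3 ≤ Ct := by
    have h2 : 0 ≤ C2 * (C1 * (Kn:ℝ) ^ 3) := by positivity
    have h3 : 0 ≤ C3 * (C1 * (Kn:ℝ) ^ 3) := by positivity
    rw [hCt]; linarith
  have hCt4 : C4 ≤ Ct := by
    have h2 : 0 ≤ C2 * (C1 * (Kn:ℝ) ^ 3) := by positivity
    have h3 : 0 ≤ C3 * (C1 * (Kn:ℝ) ^ 3) := by positivity
    rw [hCt]; linarith
  refine ⟨⟨hh, h0, h1, ?_, ?_, ?_, hr1, ?_, ?_, ?_⟩, ?_, ?_⟩
  · exact (Wpk685.sel_cont hfi hBs).measurable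
  · exact Wpk685.sel_bdd hρ hfi hBs
  · intro ξ hξ
    exact Wpk685.sel_supp hρ hfs ξ (by linarith)
  · positivity
  · refine PBox_mono hr0 ?_ hP
    rw [hDn]
    calc C2 * (C1 * Kn ^ 3 * (R1 ^ ε * D1)) = (C2 * (C1 * Kn ^ 3)) * (R1 ^ ε * D1) := by ring
      _ ≤ Ct * (R1 ^ ε * D1) := by gcongr
      _ = Ct * R1 ^ ε * D1 := by ring
  · refine En_le_of_lint hsel.2 (by positivity) (hE.trans ?_)
    calc ENNReal.ofReal C3 * en ρ f S ≤ ENNReal.ofReal C3 * ENNReal.ofReal (Dn * r ^ 2) := by gcongr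
      _ = ENNReal.ofReal (C3 * (Dn * r ^ 2)) := (ENNReal.ofReal_mul hC3).symm
      _ ≤ _ := by
        apply ENNReal.ofReal_le_ofReal
        rw [hDn, Real.rpow_two]
        calc C3 * (C1 * Kn ^ 3 * (R1 ^ ε * D1) * r ^ 2) =
              (C3 * (C1 * Kn ^ 3)) * (R1 ^ ε * D1) * r ^ 2 := by ring
          _ ≤ Ct * (R1 ^ ε * D1) * r ^ 2 := by gcongr
          _ = _ := by ring
  · exact hE.trans (by gcongr)
  · intro p hp1 hp2
    refine (H4 h hh h1 r hr1 f hfi hf2 hfs2 S hBs (fun m _ => ?_) p.1 p.2 hp1 hp2).trans ?_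
    · exact Metric.closedBall_subset_closedBall (by gcongr)
    · gcongr

end Crest.Agent.R138.Zm858
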