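import Crest.Agent.R138.Zm5_858
import Crest.Agent.R138.Tri_323

/-!
# R138 / R139: ZOOM (helper858), part 6: the localised pieces of the zoomed wave
-/

set_option autoImplicit false

open MeasureTheory FourierTransform
open scoped ContDiff ENNReal

namespace Crest.Agent.R138.Zm858

open Crest.Agent.R138.Defs Crest.Agent.R138.Bil882 Crest.Agent.R138.W188
open Crest.Agent.R138.Wpk685 (cen caps um en sel cap win Bs Dens pbox)
open Crest.Agent.R138.Resc574 (hR Ph PhH parB_hR gradient_hR_zero hR_zero supp_resc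
  integral_sq_resc Ph_mem_of_cyl)

theorem fderiv_hR_zero {h : E2 → ℝ} (hd : Differentiable ℝ h) (ξ0 : E2) {l : ℝ} (hl : l ≠ 0) :
    fderiv ℝ (hR h ξ0 l) 0 = 0 := by
  have h1 := gradient_hR_zero hd ξ0 hl
  have h2 : fderiv ℝ (hR h ξ0 l) 0 =
      InnerProductSpace.toDual ℝ E2 (gradient (hR h ξ0 l) 0) := by simp [gradient]
  rw [h2, h1, map_zero]

theorem En_nonneg (g : E2 → ℂ) : 0 ≤ En g := integral_nonneg fun _ => by positivity

theorem En_tr (h : E2 → ℝ) (z : E2 × ℝ) (g : E2 → ℂ) : En (tr h z g) = En g := by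
  unfold En
  simp_rw [norm_tr]

theorem En_resc (g : E2 → ℂ) (ξ0 : E2) {l : ℝ} (hl : 0 < l) :
    En (fun η => g (ξ0 + l • η)) = (l ^ 2)⁻¹ * En g := integral_sq_resc g ξ0 hl

/-- the sup bound. -/
theorem ext_sup (h : E2 → ℝ) {f : E2 → ℂ} (hm : Measurable f) (h2 : MemLp f 2)
    (hs : ∀ ξ, 1 < ‖ξ‖ → f ξ = 0) (x : E2) (t : ℝ) : ‖ext h f x t‖ ≤ 2 * Real.sqrt (En f) := by
  have h1 := W323.enorm_ext_sq_le (h := h) hm hs x t
  rw [lint_nsq h2, ← ofReal_norm, ← ENNReal.ofReal_pow (norm_nonneg _),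
    show (4 : ℝ≥0∞) = ENNReal.ofReal 4 by norm_num, ← ENNReal.ofReal_mul (by norm_num),
    ENNReal.ofReal_le_ofReal_iff (by have := En_nonneg f; positivity)] at h1
  rw [show (2:ℝ) = Real.sqrt 4 by
    rw [show (4:ℝ) = 2 ^ 2 by norm_num, Real.sqrt_sq (by norm_num)], ← Real.sqrt_mul (by norm_num)]
  exact Real.le_sqrt_of_sq_le h1

/-- nondegeneracy of the zoomed wave. -/
theorem nd_real {l R D E M0 ε q : ℝ} (hl : 0 < l) (hl1 : l ≤ 1) (hq : 0 ≤ q) (hε : 0 < ε)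
    (hR : 1 ≤ R) (hD : 0 ≤ D) (hE : E ≤ R ^ M0 * D) (hlR : R ^ ε ≤ l ^ 2 * R)
    (hR1 : 8 ≤ 1 / 8 * (l ^ 2 * R)) :
    (l ^ 2)⁻¹ * E ≤ (1 / 8 * (l ^ 2 * R)) ^ (2 / ε * (1 + |M0| + q / 2)) *
      (D * l ^ (q - 4) * ((1 / 8 : ℝ) ^ 3)⁻¹) := by
  have hR0 : 0 < R := by linarith
  set R1 : ℝ := 1 / 8 * (l ^ 2 * R) with hR1d
  have hR10 : 0 < R1 := by linarith
  have h1 : R ^ ε ≤ R1 ^ 2 := by
    have : l ^ 2 * R = 8 * R1 := by rw [hR1d]; ring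
    rw [this] at hlR
    nlinarith
  have h2 : R ≤ R1 ^ (2 / ε) := by
    have h3 : R = (R ^ ε) ^ (1 / ε) := by
      rw [← Real.rpow_mul hR0.le, mul_one_div, div_self hε.ne', Real.rpow_one]
    have h4 : R1 ^ (2 / ε) = (R1 ^ 2) ^ (1 / ε) := by
      rw [← Real.rpow_natCast, ← Real.rpow_mul hR10.le]
      congr 1
      push_cast; ring
    rw [h4]
    calc R = (R ^ ε) ^ (1 / ε) := h3
      _ ≤ _ := Real.rpow_le_rpow (Real.rpow_nonneg hR0.le _) h1 (by positivity)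
  have hl2 : (l ^ 2)⁻¹ ≤ R := by
    rw [inv_le_comm₀ (by positivity) hR0]
    have h5 : 1 ≤ l ^ 2 * R := by
      have : l ^ 2 * R = 8 * R1 := by rw [hR1d]; ring
      rw [this]; linarith
    rw [inv_le_iff_one_le_mul₀ hR0]
    exact h5
  have h6 : R ^ (-(q / 2)) ≤ l ^ (q - 4) := by
    have h7 : l ^ q ≤ l ^ (q - 4) :=
      Real.rpow_le_rpow_of_exponent_ge hl hl1 (by linarith)
    refine le_trans ?_ h7
    have h8 : l ^ q = ((l ^ 2)⁻¹) ^ (-(q / 2)) := by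
      rw [Real.inv_rpow (by positivity), Real.rpow_neg (by positivity), inv_inv,
        ← Real.rpow_natCast, ← Real.rpow_mul hl.le]
      congr 1
      push_cast; ring
    rw [h8]
    exact Real.rpow_le_rpow_of_nonpos (by positivity) hl2 (by linarith)
  have hRM : R ^ M0 ≤ R ^ |M0| := Real.rpow_le_rpow_of_exponent_le hR (le_abs_self _)
  have hlq : 0 ≤ l ^ (q - 4) := Real.rpow_nonneg hl.le _
  calc (l ^ 2)⁻¹ * E ≤ (l ^ 2)⁻¹ * (R ^ M0 * D) := by gcongr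
    _ ≤ R * (R ^ |M0| * D) := by gcongr
    _ = R ^ (1 + |M0| + q / 2) * (R ^ (-(q / 2)) * D) := by
        rw [← mul_assoc, ← mul_assoc, ← Real.rpow_add hR0]
        congr 1
        rw [show 1 + |M0| + q / 2 + -(q / 2) = 1 + |M0| by ring, Real.rpow_add hR0, Real.rpow_one]
    _ ≤ (R1 ^ (2 / ε)) ^ (1 + |M0| + q / 2) * (l ^ (q - 4) * D) := by
        have h9 : 0 ≤ R ^ (-(q / 2)) := Real.rpow_nonneg hR0.le _
        have h10 : 0 ≤ (R1 ^ (2 / ε)) ^ (1 + |M0| + q / 2) :=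
          Real.rpow_nonneg (Real.rpow_nonneg hR10.le _) _
        have h11 : R ^ (1 + |M0| + q / 2) ≤ (R1 ^ (2 / ε)) ^ (1 + |M0| + q / 2) :=
          Real.rpow_le_rpow hR0.le h2 (by positivity)
        gcongr
    _ ≤ _ := by
        rw [← Real.rpow_mul hR10.le]
        have h12 : 0 ≤ R1 ^ (2 / ε * (1 + |M0| + q / 2)) := Real.rpow_nonneg hR10.le _
        have h13 : l ^ (q - 4) * D ≤ D * l ^ (q - 4) * ((1 / 8 : ℝ) ^ 3)⁻¹ := by
          have h14 : (1:ℝ) ≤ ((1 / 8 : ℝ) ^ 3)⁻¹ := by norm_num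
          have h15 : 0 ≤ D * l ^ (q - 4) := by positivity
          calc l ^ (q - 4) * D = D * l ^ (q - 4) * 1 := by ring
            _ ≤ _ := by gcongr
        gcongr

theorem le_add_one_sq {x : ℝ} (hx : 0 ≤ x) : x ≤ (x + 1) ^ 2 := by nlinarith

/-- the size of the remainder. -/
theorem rest_real {r R ε : ℝ} (hε : 0 < ε) (hR : 1 ≤ R) (hr : R ^ (ε / 2) ≤ r) (M : ℕ) {M' : ℕ}
    (hM' : (2 * M + 1) / ε ≤ M') : R * (r ^ (2 * M'))⁻¹ ≤ ((R ^ M)⁻¹) ^ 2 := by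
  have hR0 : 0 < R := by linarith
  have h1 : R ^ (2 * M + 1) ≤ r ^ (2 * M') := by
    calc R ^ (2 * M + 1) = R ^ ((2 * M + 1 : ℕ) : ℝ) := (Real.rpow_natCast _ _).symm
      _ ≤ R ^ (ε / 2 * ((2 * M' : ℕ) : ℝ)) := by
          refine Real.rpow_le_rpow_of_exponent_le hR ?_
          push_cast
          rw [div_le_iff₀ hε] at hM'
          linarith
      _ = (R ^ (ε / 2)) ^ (2 * M') := by
          rw [Real.rpow_mul hR0.le, Real.rpow_natCast]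
      _ ≤ r ^ (2 * M') := pow_le_pow_left₀ (Real.rpow_nonneg hR0.le _) hr _
  have h2 : (r ^ (2 * M'))⁻¹ ≤ (R ^ (2 * M + 1))⁻¹ := inv_anti₀ (by positivity) h1
  calc R * (r ^ (2 * M'))⁻¹ ≤ R * (R ^ (2 * M + 1))⁻¹ := by gcongr
    _ = ((R ^ M)⁻¹) ^ 2 := by
        rw [inv_pow, ← pow_mul, mul_comm M 2, pow_succ]
        field_simp

/-- **the localised pieces of the zoomed wave**. -/
theorem pieces (B : ℕ → ℝ) {q : ℝ} (hq : 0 ≤ q) : ∃ θ : ℝ, 0 < θ ∧ θ ≤ 1 ∧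
    ∀ ε : ℝ, 0 < ε → ∀ (Na : ℕ) (M0 : ℝ) (M : ℕ), ∃ C L : ℝ, 0 ≤ C ∧ 1 ≤ L ∧
    ∀ h g R D l ξ0, ZIn B q Na M0 l ξ0 h g R D → R ^ ε ≤ l ^ 2 * R → L ≤ R →
    ‖gradient h ξ0‖ ≤ 2 →
    ∃ (Λ : Finset ((ℤ × ℤ) × ℤ)) (G : (ℤ × ℤ) × ℤ → E2 → ℂ) (D' : ℝ),
      (∀ p ∈ cyl (2 * R), ∃ a ∈ Λ,
        Ph (gradient h ξ0) l p - zz (θ * (l ^ 2 * R)) a ∈ cyl (θ * (l ^ 2 * R))) ∧
      (Λ.card : ℝ) ≤ C * R ∧
      (∀ a ∈ Λ, St B q 6 2 (1/2) (hR h ξ0 l) (G a) (θ * (l ^ 2 * R)) D') ∧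
      D' ≤ C * R ^ ε * (l ^ (q - 4) * D) ∧
      ∑ a ∈ Λ, En (G a) ≤ C * ((l ^ 2)⁻¹ * En g) ∧
      (∀ a ∈ Λ, ∀ p : E2 × ℝ, ‖p.1‖ ≤ 8 * (θ * (l ^ 2 * R)) → |p.2| ≤ 8 * (θ * (l ^ 2 * R)) →
        ‖ext (hR h ξ0 l) (tr (hR h ξ0 l) (zz (θ * (l ^ 2 * R)) a)
          (fun η => g (ξ0 + l • η))) p.1 p.2 - ext (hR h ξ0 l) (G a) p.1 p.2‖ ≤
          C * (R ^ M)⁻¹ * Real.sqrt (En g)) ∧
      (∀ a ∈ Λ, ∀ p : E2 × ℝ,
        ‖ext (hR h ξ0 l) (tr (hR h ξ0 l) (zz (θ * (l ^ 2 * R)) a)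
          (fun η => g (ξ0 + l • η))) p.1 p.2 - ext (hR h ξ0 l) (G a) p.1 p.2‖ ≤
          C * R * Real.sqrt (En g)) := by
  classical
  obtain ⟨Kn, hKn, HK⟩ := loc_piece B hq
  have hKn0 : (0:ℝ) < Kn := by exact_mod_cast (Nat.lt_of_lt_of_le Nat.zero_lt_one hKn)
  have hKn1 : (1:ℝ) ≤ Kn := by exact_mod_cast hKn
  set θ : ℝ := 1 / (8 * Kn) with hθ
  have hθ0 : 0 < θ := by positivity
  have hθ8 : θ ≤ 1 / 8 := by
    rw [hθ]
    apply one_div_le_one_div_of_le (by norm_num)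
    linarith
  have hθ1 : θ ≤ 1 := by linarith
  refine ⟨θ, hθ0, hθ1, ?_⟩
  intro ε hε Na M0 M
  set M1 : ℝ := 2 / ε * (1 + |M0| + q / 2) with hM1
  obtain ⟨C1, hC1, H1⟩ := HK ε hε Na M1 ⌈(2 * M + 1) / ε⌉₊
  obtain ⟨C2, hC2, H2⟩ := sum_en Kn
  obtain ⟨C3, hC3, H3⟩ := Wpk685.en_le
  set nJ : ℤ := ⌈2 / θ⌉ + 1 with hnJ
  set J : Finset ℤ := Finset.Icc (-nJ) nJ with hJ
  set cJ : ℝ := (J.card : ℝ) with hcJ
  have hcJ0 : 0 ≤ cJ := Nat.cast_nonneg _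
  set C : ℝ := 289 / θ ^ 2 * cJ + C1 * 512 + C1 * (C2 * cJ) + (C1 + 1) + (2 + 2 * (C1 * C3 + 1))
    with hC
  set L : ℝ := (144 / θ) ^ (2 / ε) with hL
  have h144 : 1 ≤ 144 / θ := by rw [le_div_iff₀ hθ0]; linarith
  refine ⟨C, L, by positivity, Real.one_le_rpow h144 (by positivity), ?_⟩
  intro h g R D l ξ0 Z hlR hLR hv
  have hR1 := Z.R1
  have hR0 : 0 < R := by linarith
  have hl := Z.l0
  have hl1 := Z.l1
  have hD := Z.D0
  have hh := Z.par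
  have hd : Differentiable ℝ h := hh.1.differentiable (by simp)
  -- sizes
  have hRe2 : 144 / θ ≤ R ^ (ε / 2) := by
    have h3 : (144 / θ) = ((144 / θ) ^ (2 / ε)) ^ (ε / 2) := by
      rw [← Real.rpow_mul (by positivity)]
      have : 2 / ε * (ε / 2) = 1 := by field_simp
      rw [this, Real.rpow_one]
    rw [h3]
    exact Real.rpow_le_rpow (by positivity) hLR (by positivity)
  have hRe0 : 0 < R ^ (ε / 2) := Real.rpow_pos_of_pos hR0 _
  have hRee : R ^ ε = R ^ (ε / 2) * R ^ (ε / 2) := by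
    rw [← Real.rpow_add hR0]; congr 1; ring
  set r : ℝ := θ * (l ^ 2 * R) with hr
  have hr144 : 144 * R ^ (ε / 2) ≤ r := by
    calc 144 * R ^ (ε / 2) = θ * (144 / θ * R ^ (ε / 2)) := by field_simp
      _ ≤ θ * (R ^ (ε / 2) * R ^ (ε / 2)) := by gcongr
      _ = θ * R ^ ε := by rw [hRee]
      _ ≤ r := by rw [hr]; gcongr
  have hRe1 : 1 ≤ R ^ (ε / 2) := Real.one_le_rpow hR1 (by positivity)
  have hr1 : 144 ≤ r := by linarith
  have hr2 : R ^ (ε / 2) ≤ r := by linarith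
  have hr0 : 0 < r := by linarith
  set R1 : ℝ := 1 / 8 * (l ^ 2 * R) with hR1d
  have hR1r : R1 = Kn * r := by rw [hR1d, hr, hθ]; field_simp
  have hrR1 : r ≤ R1 := by rw [hR1r]; exact le_mul_of_one_le_left hr0.le hKn1
  have hR18 : 8 ≤ R1 := by linarith
  have hR1R : R1 ≤ R := by
    have h3 : l ^ 2 ≤ 1 := pow_le_one₀ hl.le hl1
    calc R1 = 1 / 8 * (l ^ 2 * R) := hR1d
      _ ≤ 1 * (1 * R) := by gcongr; norm_num
      _ = R := by ring
  set v := gradient h ξ0 with hvd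
  set h' := hR h ξ0 l with hh'
  set g' : E2 → ℂ := fun η => g (ξ0 + l • η) with hg'
  have hm' : Measurable g' := Z.meas.comp (by fun_prop)
  have hb' : ∃ M : ℝ, ∀ ξ, ‖g' ξ‖ ≤ M := by obtain ⟨M, hM⟩ := Z.bdd; exact ⟨M, fun ξ => hM _⟩
  have hs' : ∀ ξ, 1 / 4 < ‖ξ‖ → g' ξ = 0 :=
    supp_resc hl (fun ξ hξ => Z.supp ξ (by linarith))
  have hs'' : ∀ ξ, (1 / 4 : ℝ) < ‖ξ - 0‖ → g' ξ = 0 := by simpa using hs'
  have hi' : Integrable g' := int_ball hm' hb' hs''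
  have hi2' : MemLp g' 2 := memLp_ball hm' hb' hs'' 2
  have hgE : MemLp g 2 := memLp_ball Z.meas Z.bdd Z.supp 2
  have hh2 : ParB B h' := parB_hR hh ξ0 hl hl1
  have hh0 : h' 0 = 0 := hR_zero h ξ0 l
  have hh1 : fderiv ℝ h' 0 = 0 := fderiv_hR_zero hd ξ0 hl.ne'
  have hhc : Continuous h' := hh2.1.continuous
  set D1 : ℝ := D * l ^ (q - 4) * ((1 / 8 : ℝ) ^ 3)⁻¹ with hD1
  have hlq : 0 ≤ l ^ (q - 4) := Real.rpow_nonneg hl.le _
  have hD10 : 0 ≤ D1 := by positivity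
  set nT : ℤ := ⌈6 / (θ * l)⌉ + 1 with hnT
  set T : Finset (ℤ × ℤ) := Finset.Icc (-nT) nT ×ˢ Finset.Icc (-nT) nT with hT
  set Λ : Finset ((ℤ × ℤ) × ℤ) := (T ×ˢ J).filter fun a =>
    ∃ p ∈ cyl (2 * R), Ph v l p - zz r a ∈ cyl r with hΛ
  set ρ : ℝ := r ^ (-(1/2) : ℝ) with hρ
  set S : ℤ × ℤ → Set E2 := fun _ => Metric.closedBall 0 (Kn * r) with hS
  set G : (ℤ × ℤ) × ℤ → E2 → ℂ := fun a => sel ρ (tr h' (zz r a) g') S with hG
  obtain ⟨hρ0, hρ1, hρ2⟩ := Wpk685.rp_facts (show 1 ≤ r by linarith)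
  have hl2R : (l ^ 2)⁻¹ ≤ R := by
    rw [inv_le_comm₀ (by positivity) hR0, inv_le_iff_one_le_mul₀ hR0]
    have : l ^ 2 * R = 8 * R1 := by rw [hR1d]; ring
    rw [this]; linarith
  have hEg : 0 ≤ En g := En_nonneg g
  have hEf : ∀ a, En (tr h' (zz r a) g') = (l ^ 2)⁻¹ * En g := fun a => by
    rw [En_tr, hg', En_resc g ξ0 hl]
  have hEfR : (l ^ 2)⁻¹ * En g ≤ R * En g := by gcongr
  -- facts for one index
  have key : ∀ a ∈ Λ, St B q 6 2 (1/2) h' (G a) r (C1 * R1 ^ ε * D1) ∧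
      (∫⁻ ξ, ‖G a ξ‖ₑ ^ 2 ≤ ENNReal.ofReal C1 * en ρ (tr h' (zz r a) g') S) ∧
      (∀ p : E2 × ℝ, ‖p.1‖ ≤ 8 * r → |p.2| ≤ 8 * r →
        ‖ext h' (tr h' (zz r a) g') p.1 p.2 - ext h' (G a) p.1 p.2‖ₑ ^ 2 ≤
        ENNReal.ofReal (C1 * (r ^ (2 * ⌈(2 * M + 1) / ε⌉₊))⁻¹) *
          ∫⁻ ξ, ‖tr h' (zz r a) g' ξ‖ₑ ^ 2) := by
    intro a ha
    obtain ⟨p, hp, hpa⟩ := (Finset.mem_filter.1 ha).2
    refine H1 h' (tr h' (zz r a) g') R1 D1 r hh2 hh0 hh1 (tr_meas hhc _ hm') ?_ ?_ hD10 ?_ ?_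
      hR1r hr1
    · obtain ⟨M, hM⟩ := hb'
      exact ⟨M, fun ξ => by rw [norm_tr]; exact hM ξ⟩
    · intro ξ hξ
      rw [tr, hs' ξ hξ, zero_mul]
    · refine pbox_tr_resc hd hl hR0 Z.box (by norm_num) (by norm_num) (zz r a) ?_
      intro x0 t0 hx0 ht0
      have e : zz r a + (x0, t0) = Ph v l p + (-(Ph v l p - zz r a) + (x0, t0)) := by abel
      rw [e]
      have hb1 : r + 4 * R1 ≤ 5 / 8 * (l ^ 2 * R) := by
        have : 5 / 8 * (l ^ 2 * R) = 5 * R1 := by rw [hR1d]; ring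
        rw [this]; linarith
      refine symm_bound v hl hl1 hv (a := 5 / 8) (by norm_num) hp ?_ ?_ hR0.le (by norm_num)
      · refine (norm_add_le _ _).trans ?_
        have h4 : ‖(-(Ph v l p - zz r a)).1‖ ≤ r := by
          rw [Prod.fst_neg, norm_neg]; exact hpa.1
        exact (add_le_add h4 hx0).trans hb1
      · refine (abs_add_le _ _).trans ?_
        have h4 : |(-(Ph v l p - zz r a)).2| ≤ r := by
          rw [Prod.snd_neg, abs_neg]; exact hpa.2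
        exact (add_le_add h4 ht0).trans hb1
    · rw [hEf]
      exact nd_real hl hl1 hq hε hR1 hD Z.nd hlR hR18
  have hGd : ∀ a, Measurable (G a) ∧ MemLp (G a) 2 := by
    intro a
    have hBs : Bs ρ S := ⟨fun m _ => Metric.isClosed_closedBall.measurableSet,
      fun m _ => Metric.isBounded_closedBall⟩
    exact ⟨(Wpk685.sel_cont (tr_int hhc _ hi') hBs).measurable,
      (Wpk685.sel_int hρ0 (tr_int hhc _ hi') hBs).2⟩
  refine ⟨Λ, G, C1 * R1 ^ ε * D1, ?_, ?_, fun a ha => (key a ha).1, ?_, ?_, ?_, ?_⟩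
  · -- cover
    intro p hp
    obtain ⟨a, ha1, ha2, ha3, ha4⟩ := exists_zz hr0 (Ph v l p)
    refine ⟨a, ?_, ha1⟩
    obtain ⟨hp1, hp2⟩ := Ph_mem_of_cyl v hl hp
    have hq1 : ‖(Ph v l p).1‖ / r + 1 ≤ (nT : ℝ) := by
      have h4 : ‖(Ph v l p).1‖ ≤ 6 * l * R := by
        refine hp1.trans ?_
        calc l * ((1 + ‖v‖) * (2 * R)) ≤ l * ((1 + 2) * (2 * R)) := by gcongr
          _ = 6 * l * R := by ring
      have h5 : ‖(Ph v l p).1‖ / r ≤ 6 / (θ * l) := by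
        rw [div_le_div_iff₀ hr0 (by positivity)]
        calc ‖(Ph v l p).1‖ * (θ * l) ≤ 6 * l * R * (θ * l) := by gcongr
          _ = 6 * r := by rw [hr]; ring
      have h6 : 6 / (θ * l) ≤ (⌈6 / (θ * l)⌉ : ℝ) := Int.le_ceil _
      rw [hnT]; push_cast; linarith
    have hq2 : |(Ph v l p).2| / r + 1 ≤ (nJ : ℝ) := by
      have h5 : |(Ph v l p).2| / r ≤ 2 / θ := by
        rw [div_le_div_iff₀ hr0 hθ0]
        calc |(Ph v l p).2| * θ ≤ l ^ 2 * (2 * R) * θ := by gcongr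
          _ = 2 * r := by rw [hr]; ring
      have h6 : 2 / θ ≤ (⌈2 / θ⌉ : ℝ) := Int.le_ceil _
      rw [hnJ]; push_cast; linarith
    have hi : ∀ (k n : ℤ), |(k:ℝ)| ≤ (n:ℝ) → k ∈ Finset.Icc (-n) n := by
      intro k n hk
      rw [abs_le] at hk
      rw [Finset.mem_Icc]
      exact ⟨by exact_mod_cast hk.1, by exact_mod_cast hk.2⟩
    rw [hΛ, Finset.mem_filter]
    refine ⟨?_, p, hp, ha1⟩
    rw [Finset.mem_product, hT, Finset.mem_product]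
    exact ⟨⟨hi _ _ (ha2.trans hq1), hi _ _ (ha3.trans hq1)⟩, hi _ _ (ha4.trans hq2)⟩
  · -- cardinality
    have h4 : (Λ.card : ℝ) ≤ (T.card : ℝ) * cJ := by
      have h5 : Λ.card ≤ T.card * J.card := by
        rw [← Finset.card_product]; exact Finset.card_filter_le _ _
      rw [hcJ]; exact_mod_cast h5
    have hnT0 : 0 ≤ nT := by
      have h6 : 0 ≤ ⌈6 / (θ * l)⌉ := Int.ceil_nonneg (by positivity)
      omega
    have h5 : (T.card : ℝ) = (2 * nT + 1) ^ 2 := by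
      rw [hT, Finset.card_product, Int.card_Icc]
      have h6 : ((nT + 1 - -nT).toNat : ℝ) = 2 * nT + 1 := by
        have h7 : ((nT + 1 - -nT).toNat : ℤ) = 2 * nT + 1 := by
          rw [Int.toNat_of_nonneg (by omega)]; ring
        exact_mod_cast h7
      push_cast
      rw [h6]; ring
    have h6 : (2 * nT + 1 : ℝ) ≤ 17 / (θ * l) := by
      have h7 : (⌈6 / (θ * l)⌉ : ℝ) < 6 / (θ * l) + 1 := Int.ceil_lt_add_one _
      have h8 : 1 ≤ 1 / (θ * l) := by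
        rw [le_div_iff₀ (by positivity), one_mul]
        exact mul_le_one₀ hθ1 hl.le hl1
      have h9 : 17 / (θ * l) = 2 * (6 / (θ * l)) + 5 * (1 / (θ * l)) := by ring
      rw [h9, hnT]; push_cast; linarith
    have h7 : (T.card : ℝ) ≤ 289 / θ ^ 2 * R := by
      rw [h5]
      have h8 : (0:ℝ) ≤ 2 * nT + 1 := by
        have : (0:ℝ) ≤ nT := by exact_mod_cast hnT0
        linarith
      calc (2 * (nT:ℝ) + 1) ^ 2 ≤ (17 / (θ * l)) ^ 2 := by gcongr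
        _ = 289 / θ ^ 2 * (l ^ 2)⁻¹ := by field_simp; norm_num
        _ ≤ 289 / θ ^ 2 * R := by gcongr
    calc (Λ.card : ℝ) ≤ (T.card : ℝ) * cJ := h4
      _ ≤ 289 / θ ^ 2 * R * cJ := by gcongr
      _ = (289 / θ ^ 2 * cJ) * R := by ring
      _ ≤ C * R := by
        gcongr
        have a1 : 0 ≤ C1 * 512 := by positivity
        have a2 : 0 ≤ C1 * (C2 * cJ) := by positivity
        have a3 : 0 ≤ C1 * C3 := by positivity
        rw [hC]; linarith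
  · -- density
    have h4 : R1 ^ ε ≤ R ^ ε := Real.rpow_le_rpow (by linarith) hR1R hε.le
    have h5 : 0 ≤ R ^ ε := Real.rpow_nonneg hR0.le _
    calc C1 * R1 ^ ε * D1 ≤ C1 * R ^ ε * D1 := by gcongr
      _ = (C1 * 512) * R ^ ε * (l ^ (q - 4) * D) := by rw [hD1]; norm_num; ring
      _ ≤ C * R ^ ε * (l ^ (q - 4) * D) := by
        gcongr
        have a1 : 0 ≤ 289 / θ ^ 2 * cJ := by positivity
        have a2 : 0 ≤ C1 * (C2 * cJ) := by positivity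
        have a3 : 0 ≤ C1 * C3 := by positivity
        rw [hC]; linarith
  · -- energies
    have h4 : ∑ a ∈ Λ, ∫⁻ ξ, ‖G a ξ‖ₑ ^ 2 ≤
        ENNReal.ofReal (C1 * (C2 * cJ) * ((l ^ 2)⁻¹ * En g)) := by
      calc ∑ a ∈ Λ, ∫⁻ ξ, ‖G a ξ‖ₑ ^ 2
          ≤ ∑ a ∈ Λ, ENNReal.ofReal C1 * en ρ (tr h' (zz r a) g') S :=
            Finset.sum_le_sum fun a ha => (key a ha).2.1
        _ ≤ ∑ a ∈ T ×ˢ J, ENNReal.ofReal C1 * en ρ (tr h' (zz r a) g') S :=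
            Finset.sum_le_sum_of_subset (Finset.filter_subset _ _)
        _ = ENNReal.ofReal C1 * ∑ a ∈ T ×ˢ J, en ρ (tr h' (zz r a) g') S := by
            rw [Finset.mul_sum]
        _ ≤ ENNReal.ofReal C1 * (ENNReal.ofReal (C2 * J.card) * ∫⁻ ξ, ‖g' ξ‖ₑ ^ 2) := by
            gcongr
            exact H2 ρ hρ0 hρ1 h' hhc g' hi' hi2' r hr0 T J
        _ = _ := by
            rw [lint_nsq hi2', hg', En_resc g ξ0 hl, ← ENNReal.ofReal_mul (by positivity),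
              ← ENNReal.ofReal_mul hC1]
            congr 1
            ring
    have h5 : ∑ a ∈ Λ, ∫⁻ ξ, ‖G a ξ‖ₑ ^ 2 = ENNReal.ofReal (∑ a ∈ Λ, En (G a)) := by
      rw [ENNReal.ofReal_sum_of_nonneg fun a _ => En_nonneg _]
      exact Finset.sum_congr rfl fun a _ => lint_nsq (hGd a).2
    rw [h5, ENNReal.ofReal_le_ofReal_iff (by positivity)] at h4
    refine h4.trans ?_
    gcongr
    have a1 : 0 ≤ 289 / θ ^ 2 * cJ := by positivity
    have a2 : 0 ≤ C1 * 512 := by positivity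
    have a3 : 0 ≤ C1 * C3 := by positivity
    rw [hC]; linarith
  · -- the remainder near the cylinder
    intro a ha p hp1 hp2
    have h4 := (key a ha).2.2 p hp1 hp2
    rw [lint_nsq (tr_memLp hhc _ hi2'), hEf, ← ENNReal.ofReal_mul (by positivity), ← ofReal_norm,
      ← ENNReal.ofReal_pow (norm_nonneg _), ENNReal.ofReal_le_ofReal_iff (by positivity)] at h4
    have h5 := rest_real hε hR1 hr2 M (M' := ⌈(2 * M + 1) / ε⌉₊) (Nat.le_ceil _)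
    have h6 : ‖ext h' (tr h' (zz r a) g') p.1 p.2 - ext h' (G a) p.1 p.2‖ ^ 2 ≤
        ((C1 + 1) * (R ^ M)⁻¹ * Real.sqrt (En g)) ^ 2 := by
      calc _ ≤ C1 * (r ^ (2 * ⌈(2 * (M:ℝ) + 1) / ε⌉₊))⁻¹ * ((l ^ 2)⁻¹ * En g) := h4
        _ ≤ C1 * (r ^ (2 * ⌈(2 * (M:ℝ) + 1) / ε⌉₊))⁻¹ * (R * En g) := by gcongr
        _ = C1 * (R * (r ^ (2 * ⌈(2 * (M:ℝ) + 1) / ε⌉₊))⁻¹) * En g := by ring
        _ ≤ C1 * ((R ^ M)⁻¹) ^ 2 * En g := by gcongr
        _ ≤ (C1 + 1) ^ 2 * ((R ^ M)⁻¹) ^ 2 * En g := by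
          gcongr
          exact le_add_one_sq hC1
        _ = _ := by
          rw [mul_pow, mul_pow, Real.sq_sqrt hEg]
    have h7 := abs_le_of_sq_le_sq' h6 (by positivity) |>.2
    refine h7.trans ?_
    gcongr
    have a1 : 0 ≤ 289 / θ ^ 2 * cJ := by positivity
    have a2 : 0 ≤ C1 * 512 := by positivity
    have a3 : 0 ≤ C1 * C3 := by positivity
    have a4 : 0 ≤ C1 * (C2 * cJ) := by positivity
    rw [hC]; linarith
  · -- the remainder everywhere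
    intro a ha p
    have hsG : ∀ ξ, 1 < ‖ξ‖ → G a ξ = 0 := fun ξ hξ => (key a ha).1.supp ξ (by linarith)
    have hsf : ∀ ξ, 1 < ‖ξ‖ → tr h' (zz r a) g' ξ = 0 := fun ξ hξ => by
      rw [tr, hs' ξ (by linarith), zero_mul]
    have h4 := ext_sup h' (tr_meas hhc (zz r a) hm') (tr_memLp hhc (zz r a) hi2') hsf p.1 p.2
    have h5 := ext_sup h' (hGd a).1 (hGd a).2 hsG p.1 p.2
    have hsq : Real.sqrt ((l ^ 2)⁻¹ * En g) ≤ R * Real.sqrt (En g) := by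
      rw [show R * Real.sqrt (En g) = Real.sqrt (R ^ 2 * En g) by
        rw [Real.sqrt_mul (by positivity), Real.sqrt_sq hR0.le]]
      refine Real.sqrt_le_sqrt ?_
      refine hEfR.trans ?_
      gcongr
      exact le_self_pow₀ hR1 (by norm_num)
    have h6 : En (G a) ≤ C1 * C3 * ((l ^ 2)⁻¹ * En g) := by
      refine En_le_of_lint (hGd a).2 (by positivity) ((key a ha).2.1.trans ?_)
      calc ENNReal.ofReal C1 * en ρ (tr h' (zz r a) g') S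
          ≤ ENNReal.ofReal C1 * (ENNReal.ofReal C3 * ∫⁻ ξ, ‖tr h' (zz r a) g' ξ‖ₑ ^ 2) := by
            gcongr
            exact H3 ρ hρ0 hρ1 _ (tr_int hhc _ hi') (tr_memLp hhc _ hi2') S
        _ = _ := by
            rw [lint_nsq (tr_memLp hhc _ hi2'), hEf, ← ENNReal.ofReal_mul hC3,
              ← ENNReal.ofReal_mul hC1]
            congr 1; ring
    have h7 : Real.sqrt (En (G a)) ≤ (C1 * C3 + 1) * (R * Real.sqrt (En g)) := by
      calc Real.sqrt (En (G a)) ≤ Real.sqrt (C1 * C3 * ((l ^ 2)⁻¹ * En g)) := Real.sqrt_le_sqrt h6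
        _ = Real.sqrt (C1 * C3) * Real.sqrt ((l ^ 2)⁻¹ * En g) := Real.sqrt_mul (by positivity) _
        _ ≤ (C1 * C3 + 1) * (R * Real.sqrt (En g)) := by
          have h8 : Real.sqrt (C1 * C3) ≤ C1 * C3 + 1 := by
            have h9 : 0 ≤ C1 * C3 := by positivity
            rw [Real.sqrt_le_left (by positivity)]
            exact le_add_one_sq h9
          gcongr
    rw [hEf] at h4
    refine (norm_sub_le _ _).trans ?_
    calc _ ≤ 2 * (R * Real.sqrt (En g)) + 2 * ((C1 * C3 + 1) * (R * Real.sqrt (En g))) := by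
          refine add_le_add (h4.trans ?_) (h5.trans ?_)
          · gcongr
          · gcongr
      _ = (2 + 2 * (C1 * C3 + 1)) * R * Real.sqrt (En g) := by ring
      _ ≤ C * R * Real.sqrt (En g) := by
        gcongr
        have a1 : 0 ≤ 289 / θ ^ 2 * cJ := by positivity
        have a2 : 0 ≤ C1 * 512 := by positivity
        have a4 : 0 ≤ C1 * (C2 * cJ) := by positivity
        rw [hC]; linarith

end Crest.Agent.R138.Zm858
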