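import Crest.Agent.R138.ZmDef_858

/-!
# R138 / R139: ZOOM, strong form of the interface (helper858): absolute `Na'`, `M0' = 2`
-/

set_option autoImplicit false

open MeasureTheory FourierTransform
open scoped ContDiff ENNReal

namespace Crest.Agent.R138.Zm858

open Crest.Agent.R138.Defs Crest.Agent.R138.Bil882 Crest.Agent.R138.W188

/-- **ZOOM**, local averages, strong form. -/
def ZoomNN2 (B : ℕ → ℝ) (q : ℝ) : Prop := ∃ (θ : ℝ) (Na' : ℕ), 0 < θ ∧ θ ≤ 1 ∧ ∀ ε : ℝ, 0 < ε →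
  ∀ (Na : ℕ) (M0 : ℝ) (N : ℕ), ∃ (N1 : ℕ) (C : ℝ), 0 ≤ C ∧
  ∀ h g R D l ξ0 w, ZIn B q Na M0 l ξ0 h g R D → R ^ ε ≤ l ^ 2 * R → 1 ≤ l * w →
    w ≤ R ^ (1/2 : ℝ) → ∀ Q : ℝ, 1 ≤ Q →
    (∀ h' g' D', St B q Na' 2 (1/2) h' g' (θ * (l ^ 2 * R)) D' →
      NN N h' g' (l * w) (θ * (l ^ 2 * R)) ≤ ENNReal.ofReal (Q * SS g' (θ * (l ^ 2 * R)) D')) →
    NN N1 h g w (2 * R) ≤ ENNReal.ofReal (C * R ^ ε * Q * l ^ (q / 2) * SS g R D)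

/-- **ZOOM**, cubic integrals, strong form. -/
def ZoomCC2 (B : ℕ → ℝ) (q : ℝ) : Prop := ∃ (θ : ℝ) (Na' : ℕ), 0 < θ ∧ θ ≤ 1 ∧ ∀ ε : ℝ, 0 < ε →
  ∀ (Na : ℕ) (M0 : ℝ), ∃ C : ℝ, 0 ≤ C ∧
  ∀ h g R D l ξ0, ZIn B q Na M0 l ξ0 h g R D → R ^ ε ≤ l ^ 2 * R → ∀ Q : ℝ, 1 ≤ Q →
    (∀ h' g' D', St B q Na' 2 (1/2) h' g' (θ * (l ^ 2 * R)) D' →
      CC h' g' (θ * (l ^ 2 * R)) ≤ ENNReal.ofReal (Q * SS g' (θ * (l ^ 2 * R)) D')) →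
    CC h g (2 * R) ≤ ENNReal.ofReal (C * R ^ ε * Q * l ^ (q / 2) * SS g R D)

theorem ZoomNN_of {B : ℕ → ℝ} {q : ℝ} (H : ZoomNN2 B q) : ZoomNN B q := by
  obtain ⟨θ, Na', h0, h1, H⟩ := H
  refine ⟨θ, h0, h1, fun ε hε Na M0 => ⟨Na', 2, fun N => ?_⟩⟩
  exact H ε hε Na M0 N

theorem ZoomCC_of {B : ℕ → ℝ} {q : ℝ} (H : ZoomCC2 B q) : ZoomCC B q := by
  obtain ⟨θ, Na', h0, h1, H⟩ := H
  refine ⟨θ, h0, h1, fun ε hε Na M0 => ?_⟩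
  obtain ⟨C, hC, H⟩ := H ε hε Na M0
  exact ⟨Na', 2, C, hC, H⟩

end Crest.Agent.R138.Zm858
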