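import Crest.Agent.R138.Zm6_858
import Crest.Agent.R138.ZmDef2_858

/-!
# R138 / R139: ZOOM (helper858), part 7: real inequalities, the zoom for cubic integrals
-/

set_option autoImplicit false

open MeasureTheory FourierTransform
open scoped ContDiff ENNReal

namespace Crest.Agent.R138.Zm858

open Crest.Agent.R138.Defs Crest.Agent.R138.Bil882 Crest.Agent.R138.W188
open Crest.Agent.R138.Resc574 (hR Ph PhH parB_hR gradient_hR_zero hR_zero supp_resc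
  integral_sq_resc Ph_mem_of_cyl lintegral_cube_resc)

/-! ### real inequalities -/

theorem lq_lower {l R q : ℝ} (hl : 0 < l) (hq : 0 ≤ q) (hR : 1 ≤ R) (h : 1 ≤ l ^ 2 * R) :
    R ^ (-(q / 4)) ≤ l ^ (q / 2) := by
  have hR0 : 0 < R := by linarith
  have h1 : l ^ (q / 2) = (l ^ 2) ^ (q / 4) := by
    rw [← Real.rpow_natCast, ← Real.rpow_mul hl.le]
    congr 1
    push_cast; ring
  have h2 : R⁻¹ ≤ l ^ 2 := by
    rw [inv_le_iff_one_le_mul₀ hR0]; exact h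
  rw [h1, Real.rpow_neg hR0.le, ← Real.inv_rpow hR0.le]
  exact Real.rpow_le_rpow (by positivity) h2 (by positivity)

theorem sqrt_nd {R M0 D E : ℝ} (hR : 1 ≤ R) (hD : 0 ≤ D) (hE : E ≤ R ^ M0 * D) :
    Real.sqrt E ≤ R ^ (|M0| / 2) * Real.sqrt D := by
  have hR0 : 0 < R := by linarith
  have h1 : E ≤ R ^ |M0| * D := hE.trans (by
    have := Real.rpow_le_rpow_of_exponent_le hR (le_abs_self M0)
    gcongr)
  calc Real.sqrt E ≤ Real.sqrt (R ^ |M0| * D) := Real.sqrt_le_sqrt h1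
    _ = Real.sqrt (R ^ |M0|) * Real.sqrt D := Real.sqrt_mul (Real.rpow_nonneg hR0.le _) _
    _ = R ^ (|M0| / 2) * Real.sqrt D := by
        congr 1
        rw [Real.sqrt_eq_rpow, ← Real.rpow_mul hR0.le]
        congr 1; ring

/-- the main term. -/
theorem main_real {l R D D' E C θ Q ε q : ℝ} (hl : 0 < l) (hR : 1 ≤ R)
    (hD : 0 ≤ D) (hE : 0 ≤ E) (hC : 0 ≤ C) (hθ : 0 ≤ θ) (hQ : 0 ≤ Q) (hε : 0 ≤ ε)
    (hD' : D' ≤ C * R ^ ε * (l ^ (q - 4) * D)) :
    l ^ 2 * (Q * (θ * (l ^ 2 * R) * (C * ((l ^ 2)⁻¹ * E)) * Real.sqrt D')) ≤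
      (θ * C * Real.sqrt C) * (R ^ ε * Q * l ^ (q / 2) * (R * E * Real.sqrt D)) := by
  have hR0 : 0 < R := by linarith
  have h1 : Real.sqrt D' ≤ Real.sqrt C * R ^ ε * (l ^ (q / 2 - 2) * Real.sqrt D) := by
    have hre : 0 ≤ R ^ ε := Real.rpow_nonneg hR0.le _
    have hlq : 0 ≤ l ^ (q - 4) := Real.rpow_nonneg hl.le _
    have h2 : Real.sqrt (R ^ ε) ≤ R ^ ε := by
      rw [Real.sqrt_le_left hre]
      exact le_self_pow₀ (Real.one_le_rpow hR hε) (by norm_num)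
    have h3 : Real.sqrt (l ^ (q - 4)) = l ^ (q / 2 - 2) := by
      rw [Real.sqrt_eq_rpow, ← Real.rpow_mul hl.le]
      congr 1; ring
    calc Real.sqrt D' ≤ Real.sqrt (C * R ^ ε * (l ^ (q - 4) * D)) := Real.sqrt_le_sqrt hD'
      _ = Real.sqrt C * Real.sqrt (R ^ ε) * (Real.sqrt (l ^ (q - 4)) * Real.sqrt D) := by
          rw [Real.sqrt_mul (by positivity), Real.sqrt_mul hC, Real.sqrt_mul hlq]
      _ ≤ Real.sqrt C * R ^ ε * (l ^ (q / 2 - 2) * Real.sqrt D) := by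
          rw [h3]
          have : 0 ≤ l ^ (q / 2 - 2) := Real.rpow_nonneg hl.le _
          gcongr
  have h4 : l ^ (q / 2) = l ^ 2 * l ^ (q / 2 - 2) := by
    rw [← Real.rpow_natCast l 2, ← Real.rpow_add hl]
    congr 1; push_cast; ring
  calc l ^ 2 * (Q * (θ * (l ^ 2 * R) * (C * ((l ^ 2)⁻¹ * E)) * Real.sqrt D'))
      ≤ l ^ 2 * (Q * (θ * (l ^ 2 * R) * (C * ((l ^ 2)⁻¹ * E)) *
        (Real.sqrt C * R ^ ε * (l ^ (q / 2 - 2) * Real.sqrt D)))) := by gcongr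
    _ = _ := by
        rw [h4]
        field_simp

/-- the remainder. -/
theorem rest_total {l R D E K C C' θ Q ε q M0 : ℝ} {M : ℕ} (hl : 0 < l) (hl1 : l ≤ 1) (hR : 1 ≤ R)
    (hD : 0 ≤ D) (hE : 0 ≤ E) (hC : 0 ≤ C) (hC' : 0 ≤ C') (hK : 0 ≤ K) (hθ : 0 ≤ θ) (hθ1 : θ ≤ 1)
    (hQ : 1 ≤ Q) (hε : 0 ≤ ε) (hq : 0 ≤ q) (h1 : 1 ≤ l ^ 2 * R) (hnd : E ≤ R ^ M0 * D)
    (hM : 3 + |M0| + q ≤ M) :
    l ^ 2 * (K * (C * R * ((θ * (l ^ 2 * R)) ^ 3 * (C' * (R ^ M)⁻¹ * Real.sqrt E) ^ 3))) ≤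
      (K * C * C' ^ 3) * (R ^ ε * Q * l ^ (q / 2) * (R * E * Real.sqrt D)) := by
  have hR0 : 0 < R := by linarith
  have hM0 : 0 ≤ |M0| := abs_nonneg _
  have a1 : θ * (l ^ 2 * R) ≤ R := by
    have h3 : l ^ 2 ≤ 1 := pow_le_one₀ hl.le hl1
    calc θ * (l ^ 2 * R) ≤ 1 * (1 * R) := by gcongr
      _ = R := by ring
  have a2 : Real.sqrt E ^ 3 ≤ E * (R ^ (|M0| / 2) * Real.sqrt D) := by
    calc Real.sqrt E ^ 3 = Real.sqrt E ^ 2 * Real.sqrt E := by ring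
      _ = E * Real.sqrt E := by rw [Real.sq_sqrt hE]
      _ ≤ _ := by gcongr; exact sqrt_nd hR hD hnd
  have a3 := lq_lower hl hq hR h1
  have a4 : 1 ≤ R ^ ε := Real.one_le_rpow hR hε
  have a5 : R ^ 4 * ((R ^ M)⁻¹) ^ 3 * R ^ (|M0| / 2) ≤ R * R ^ (-(q / 4)) := by
    have e1 : R ^ 4 * ((R ^ M)⁻¹) ^ 3 * R ^ (|M0| / 2) = R ^ (4 - 3 * (M:ℝ) + |M0| / 2) := by
      rw [Real.rpow_add hR0, Real.rpow_sub hR0]
      congr 1
      rw [inv_pow, ← div_eq_mul_inv]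
      congr 1
      · norm_cast
      · rw [← pow_mul, ← Real.rpow_natCast]
        congr 1
        push_cast; ring
    have e2 : R * R ^ (-(q / 4)) = R ^ (1 + -(q / 4)) := by
      rw [Real.rpow_add hR0, Real.rpow_one]
    rw [e1, e2]
    exact Real.rpow_le_rpow_of_exponent_le hR (by linarith)
  have a6 : 0 ≤ R ^ (|M0| / 2) := Real.rpow_nonneg hR0.le _
  have a7 : 0 ≤ R ^ (-(q / 4)) := Real.rpow_nonneg hR0.le _
  have a8 : 0 ≤ l ^ (q / 2) := Real.rpow_nonneg hl.le _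
  calc l ^ 2 * (K * (C * R * ((θ * (l ^ 2 * R)) ^ 3 * (C' * (R ^ M)⁻¹ * Real.sqrt E) ^ 3)))
      ≤ 1 * (K * (C * R * (R ^ 3 * (C' * (R ^ M)⁻¹ * Real.sqrt E) ^ 3))) := by
        gcongr
        exact pow_le_one₀ hl.le hl1
    _ = (K * C * C' ^ 3) * (R ^ 4 * ((R ^ M)⁻¹) ^ 3 * Real.sqrt E ^ 3) := by ring
    _ ≤ (K * C * C' ^ 3) * (R ^ 4 * ((R ^ M)⁻¹) ^ 3 *
        (E * (R ^ (|M0| / 2) * Real.sqrt D))) := by gcongr
    _ = (K * C * C' ^ 3) * ((R ^ 4 * ((R ^ M)⁻¹) ^ 3 * R ^ (|M0| / 2)) * (E * Real.sqrt D)) := by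
        ring
    _ ≤ (K * C * C' ^ 3) * ((R * R ^ (-(q / 4))) * (E * Real.sqrt D)) := by gcongr
    _ ≤ (K * C * C' ^ 3) * ((R * l ^ (q / 2)) * (E * Real.sqrt D)) := by gcongr
    _ = (K * C * C' ^ 3) * (1 * 1 * l ^ (q / 2) * (R * E * Real.sqrt D)) := by ring
    _ ≤ _ := by gcongr

/-- the trivial case `R ≤ L`. -/
theorem triv_real {l R D E K L Q ε q M0 : ℝ} (hl : 0 < l) (hR : 1 ≤ R) (hRL : R ≤ L)
    (hD : 0 ≤ D) (hE : 0 ≤ E) (hK : 0 ≤ K)
    (hQ : 1 ≤ Q) (hε : 0 ≤ ε) (hq : 0 ≤ q) (h1 : 1 ≤ l ^ 2 * R) (hnd : E ≤ R ^ M0 * D) :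
    K * (R ^ 3 * Real.sqrt E ^ 3) ≤
      (K * (L ^ 2 * (L ^ (|M0| / 2) * L ^ (q / 4)))) *
        (R ^ ε * Q * l ^ (q / 2) * (R * E * Real.sqrt D)) := by
  have hR0 : 0 < R := by linarith
  have hL0 : 0 < L := by linarith
  have a2 : Real.sqrt E ^ 3 ≤ E * (R ^ (|M0| / 2) * Real.sqrt D) := by
    calc Real.sqrt E ^ 3 = Real.sqrt E ^ 2 * Real.sqrt E := by ring
      _ = E * Real.sqrt E := by rw [Real.sq_sqrt hE]
      _ ≤ _ := by gcongr; exact sqrt_nd hR hD hnd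
  have a3 := lq_lower hl hq hR h1
  have a4 : 1 ≤ R ^ ε := Real.one_le_rpow hR hε
  have a6 : R ^ (|M0| / 2) ≤ L ^ (|M0| / 2) := Real.rpow_le_rpow hR0.le hRL (by positivity)
  have a7 : 1 ≤ L ^ (q / 4) * l ^ (q / 2) := by
    have h2 : R ^ (q / 4) ≤ L ^ (q / 4) := Real.rpow_le_rpow hR0.le hRL (by positivity)
    calc (1:ℝ) = R ^ (q / 4) * R ^ (-(q / 4)) := by
          rw [← Real.rpow_add hR0]; simp
      _ ≤ _ := by
          have : 0 ≤ R ^ (-(q / 4)) := Real.rpow_nonneg hR0.le _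
          gcongr
  have a8 : 0 ≤ l ^ (q / 2) := Real.rpow_nonneg hl.le _
  have a9 : 0 ≤ L ^ (|M0| / 2) := Real.rpow_nonneg hL0.le _
  have a10 : 0 ≤ L ^ (q / 4) := Real.rpow_nonneg hL0.le _
  have a11 : 0 ≤ R ^ (|M0| / 2) := Real.rpow_nonneg hR0.le _
  calc K * (R ^ 3 * Real.sqrt E ^ 3)
      ≤ K * (R ^ 3 * (E * (R ^ (|M0| / 2) * Real.sqrt D))) := by gcongr
    _ = K * (R ^ 2 * (R ^ (|M0| / 2) * 1)) * (1 * 1 * 1 * (R * E * Real.sqrt D)) := by ring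
    _ ≤ K * (L ^ 2 * (L ^ (|M0| / 2) * (L ^ (q / 4) * l ^ (q / 2)))) *
        (R ^ ε * Q * 1 * (R * E * Real.sqrt D)) := by gcongr
    _ = _ := by ring

/-! ### the cover -/

/-- `Ph ⁻¹ (Ph '' cyl) = cyl`, measurable image. -/
theorem preim_img (v : E2) {l : ℝ} (hl : l ≠ 0) (s : Set (E2 × ℝ)) :
    Ph v l ⁻¹' ((PhH v l hl) '' s) = s := by
  have h1 : Function.Injective (PhH v l hl) := (PhH v l hl).injective
  exact Set.preimage_image_eq s h1

theorem meas_img (v : E2) {l : ℝ} (hl : l ≠ 0) (R : ℝ) :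
    MeasurableSet ((PhH v l hl) '' cyl R) := by
  have h1 : IsClosed (cyl R) := by
    rw [T774.cyl_eq]; exact Metric.isClosed_closedBall
  exact ((PhH v l hl).isClosed_image.2 h1).measurableSet

/-- the velocity of the cap. -/
theorem grad_cap {B : ℕ → ℝ} (hB : B 2 ≤ 1 / 2) {q : ℝ} {Na : ℕ} {M0 l : ℝ} {ξ0 : E2} {h : E2 → ℝ}
    {g : E2 → ℂ} {R D : ℝ} (Z : ZIn B q Na M0 l ξ0 h g R D) (hg : ∃ ξ, g ξ ≠ 0) :
    ‖gradient h ξ0‖ ≤ 2 := by
  obtain ⟨ξ, hξ⟩ := hg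
  have h1 : ‖ξ‖ ≤ 1 := by
    by_contra h; exact hξ (Z.supp1 ξ (not_le.1 h))
  have h2 : ‖ξ - ξ0‖ ≤ l / 4 := by
    by_contra h; exact hξ (Z.supp ξ (not_le.1 h))
  have h3 : ‖ξ0‖ ≤ 5 / 4 := by
    have h4 : ‖ξ0‖ ≤ ‖ξ‖ + ‖ξ - ξ0‖ := by
      have : ξ0 = ξ - (ξ - ξ0) := by abel
      calc ‖ξ0‖ = ‖ξ - (ξ - ξ0)‖ := by rw [← this]
        _ ≤ _ := norm_sub_le _ _
    have := Z.l1
    linarith
  have h5 := Wf448.gradient_lip Z.par.1 (M := 3 / 2)
    (fun ξ => (Wf448.ParB.bound Z.par 2 le_rfl ξ).trans (by linarith)) ξ0 0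
  have h6 : gradient h 0 = 0 := by simp [gradient, Z.h1]
  rw [h6, sub_zero, sub_zero] at h5
  linarith

theorem SS_sum {ι : Type*} (s : Finset ι) (G : ι → E2 → ℂ) {Q r D' a : ℝ} (hQ : 0 ≤ Q) (hr : 0 ≤ r)
    (h : ∑ i ∈ s, En (G i) ≤ a) :
    ∑ i ∈ s, ENNReal.ofReal (Q * SS (G i) r D') ≤
      ENNReal.ofReal (Q * (r * a * Real.sqrt D')) := by
  have h0 : ∀ i, 0 ≤ Q * SS (G i) r D' := fun i => by
    have := En_nonneg (G i)
    unfold SS
    positivity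
  rw [← ENNReal.ofReal_sum_of_nonneg fun i _ => h0 i]
  apply ENNReal.ofReal_le_ofReal
  have e : ∑ i ∈ s, Q * SS (G i) r D' = Q * (r * (∑ i ∈ s, En (G i)) * Real.sqrt D') := by
    unfold SS
    rw [← Finset.mul_sum, ← Finset.sum_mul, ← Finset.mul_sum]
  rw [e]
  gcongr

/-- **ZOOM for cubic integrals**. -/
theorem zoomCC2 (B : ℕ → ℝ) (hB : B 2 ≤ 1 / 2) {q : ℝ} (hq : 0 ≤ q) : ZoomCC2 B q := by
  obtain ⟨θ, hθ0, hθ1, HP⟩ := pieces B hq
  obtain ⟨Cv, hCv, HV⟩ := T774.volume_cyl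
  refine ⟨θ, 6, hθ0, hθ1, ?_⟩
  intro ε hε Na M0
  obtain ⟨C, L, hC, hL, H⟩ := HP ε hε Na M0 ⌈3 + |M0| + q⌉₊
  refine ⟨4 * (θ * C * Real.sqrt C) + 4 * Cv * C * C ^ 3 +
    (Cv * 8 * 8) * (L ^ 2 * (L ^ (|M0| / 2) * L ^ (q / 4))), by positivity, ?_⟩
  intro h g R D l ξ0 Z hlR Q hQ hyp
  have hl := Z.l0
  have hl1 := Z.l1
  have hR1 := Z.R1
  have hR0 : 0 < R := by linarith
  have hE := En_nonneg g
  have hQ0 : 0 ≤ Q := by linarith
  have h1 : 1 ≤ l ^ 2 * R := (Real.one_le_rpow hR1 hε.le).trans hlR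
  have hg2 : MemLp g 2 := memLp_ball Z.meas Z.bdd Z.supp 2
  have hfin : 0 ≤ R ^ ε * Q * l ^ (q / 2) * (R * En g * Real.sqrt D) := by
    have a1 : 0 ≤ R ^ ε := Real.rpow_nonneg hR0.le _
    have a2 : 0 ≤ l ^ (q / 2) := Real.rpow_nonneg hl.le _
    positivity
  have a3 : 0 ≤ (Cv * 8 * 8) * (L ^ 2 * (L ^ (|M0| / 2) * L ^ (q / 4))) := by positivity
  have a4 : 0 ≤ 4 * (θ * C * Real.sqrt C) + 4 * Cv * C * C ^ 3 := by positivity
  have goal_eq : ∀ x : ℝ, x * R ^ ε * Q * l ^ (q / 2) * SS g R D =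
      x * (R ^ ε * Q * l ^ (q / 2) * (R * En g * Real.sqrt D)) := by
    intro x; unfold SS; ring
  by_cases hg : ∃ ξ, g ξ ≠ 0
  swap
  · push Not at hg
    have e : ∀ p : E2 × ℝ, ext h g p.1 p.2 = 0 := by
      intro p
      unfold ext
      simp [hg]
    unfold CC
    simp [e]
  have hv := grad_cap hB Z hg
  by_cases hRL : L ≤ R
  swap
  · -- bounded `R`
    push Not at hRL
    unfold CC
    calc ∫⁻ p in cyl (2 * R), ‖ext h g p.1 p.2‖ₑ ^ 3
        ≤ ∫⁻ p in cyl (2 * R), ENNReal.ofReal ((2 * Real.sqrt (En g)) ^ 3) := by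
          refine lintegral_mono fun p => ?_
          rw [← ofReal_norm, ← ENNReal.ofReal_pow (norm_nonneg _)]
          apply ENNReal.ofReal_le_ofReal
          gcongr
          exact ext_sup h Z.meas hg2 Z.supp1 _ _
      _ ≤ ENNReal.ofReal ((2 * Real.sqrt (En g)) ^ 3) * ENNReal.ofReal (Cv * (2 * R) ^ 3) := by
          rw [setLIntegral_const]
          gcongr
          exact HV (2 * R) (by positivity)
      _ = ENNReal.ofReal ((Cv * 8 * 8) * (R ^ 3 * Real.sqrt (En g) ^ 3)) := by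
          rw [← ENNReal.ofReal_mul (by positivity)]
          congr 1; ring
      _ ≤ _ := by
          apply ENNReal.ofReal_le_ofReal
          refine (triv_real hl hR1 hRL.le Z.D0 hE (by positivity) hQ hε.le hq h1 Z.nd).trans ?_
          rw [goal_eq]
          gcongr
          linarith
  · obtain ⟨Λ, G, D', hcov, hcard, hst, hD', hEn, hr1, -⟩ := H h g R D l ξ0 Z hlR hRL hv
    set r : ℝ := θ * (l ^ 2 * R) with hr
    have hr0 : 0 < r := by positivity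
    set v := gradient h ξ0 with hvd
    set h' := hR h ξ0 l with hh'
    set g' : E2 → ℂ := fun η => g (ξ0 + l • η) with hg'
    set bd : ℝ := C * (R ^ ⌈3 + |M0| + q⌉₊)⁻¹ * Real.sqrt (En g) with hbd
    have hbd0 : 0 ≤ bd := by positivity
    -- one piece
    have key : ∀ a ∈ Λ, ∫⁻ z in cyl r, ‖ext h' g' (z + zz r a).1 (z + zz r a).2‖ₑ ^ 3 ≤
        4 * ENNReal.ofReal (Q * SS (G a) r D') + ENNReal.ofReal (4 * (Cv * r ^ 3 * bd ^ 3)) := by
      intro a ha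
      have hGi : Integrable (G a) := by
        have := hst a ha
        exact int_ball (ξ0 := 0) this.meas this.bdd (r := 1 / 2) (by simpa using this.supp)
      have hcont : Measurable fun z : E2 × ℝ => ‖ext h' (G a) z.1 z.2‖ₑ ^ 3 :=
        ((F4x858.continuous_ext (hst a ha).par.1.continuous hGi).measurable.enorm).pow_const 3
      calc ∫⁻ z in cyl r, ‖ext h' g' (z + zz r a).1 (z + zz r a).2‖ₑ ^ 3
          ≤ ∫⁻ z in cyl r, (4 * ‖ext h' (G a) z.1 z.2‖ₑ ^ 3 + ENNReal.ofReal (4 * bd ^ 3)) := by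
            refine setLIntegral_mono' (T774.measurableSet_cyl r) fun z hz => ?_
            have e1 : ext h' g' (z + zz r a).1 (z + zz r a).2 =
                ext h' (G a) z.1 z.2 + (ext h' (tr h' (zz r a) g') z.1 z.2 -
                  ext h' (G a) z.1 z.2) := by
              rw [ext_tr]; simp
            have e2 := hr1 a ha z (hz.1.trans (by linarith)) (hz.2.trans (by linarith))
            rw [e1]
            have e3 : ‖ext h' (tr h' (zz r a) g') z.1 z.2 - ext h' (G a) z.1 z.2‖ₑ ≤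
                ENNReal.ofReal bd := by
              rw [← ofReal_norm]; exact ENNReal.ofReal_le_ofReal e2
            have e4 := ENNReal.rpow_add_le_mul_rpow_add_rpow (‖ext h' (G a) z.1 z.2‖ₑ)
              (ENNReal.ofReal bd) (p := 3) (by norm_num)
            have e5 : ((2:ℝ≥0∞) ^ ((3:ℝ) - 1)) = 4 := by
              rw [show ((3:ℝ) - 1) = ((2:ℕ) : ℝ) by norm_num, ENNReal.rpow_natCast]; norm_num
            rw [e5] at e4
            have e6 : ∀ x : ℝ≥0∞, x ^ (3:ℝ) = x ^ 3 := fun x => by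
              rw [show (3:ℝ) = ((3:ℕ) : ℝ) by norm_num, ENNReal.rpow_natCast]
            rw [e6, e6, e6] at e4
            calc ‖ext h' (G a) z.1 z.2 + (ext h' (tr h' (zz r a) g') z.1 z.2 -
                  ext h' (G a) z.1 z.2)‖ₑ ^ 3
                ≤ (‖ext h' (G a) z.1 z.2‖ₑ + ENNReal.ofReal bd) ^ 3 := by
                  gcongr
                  exact (enorm_add_le _ _).trans (by gcongr)
              _ ≤ 4 * (‖ext h' (G a) z.1 z.2‖ₑ ^ 3 + ENNReal.ofReal bd ^ 3) := e4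
              _ = _ := by
                  rw [mul_add, ← ENNReal.ofReal_pow hbd0, ENNReal.ofReal_mul (by norm_num)]
                  norm_num
        _ = 4 * (∫⁻ z in cyl r, ‖ext h' (G a) z.1 z.2‖ₑ ^ 3) +
            ENNReal.ofReal (4 * bd ^ 3) * volume (cyl r) := by
            rw [lintegral_add_right _ measurable_const, lintegral_const_mul _ hcont,
              setLIntegral_const]
        _ ≤ 4 * ENNReal.ofReal (Q * SS (G a) r D') +
            ENNReal.ofReal (4 * bd ^ 3) * ENNReal.ofReal (Cv * r ^ 3) := by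
            gcongr
            · exact hyp h' (G a) D' (hst a ha)
            · exact HV r hr0.le
        _ = _ := by
            rw [← ENNReal.ofReal_mul (by positivity)]
            congr 2; ring
    have hsum : ∑ a ∈ Λ, (4 * ENNReal.ofReal (Q * SS (G a) r D') +
        ENNReal.ofReal (4 * (Cv * r ^ 3 * bd ^ 3))) ≤
        ENNReal.ofReal (4 * (Q * (r * (C * ((l ^ 2)⁻¹ * En g)) * Real.sqrt D')) +
          4 * Cv * (C * R * (r ^ 3 * bd ^ 3))) := by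
      rw [Finset.sum_add_distrib, ← Finset.mul_sum, Finset.sum_const, nsmul_eq_mul,
        ENNReal.ofReal_add (by positivity) (by positivity)]
      refine add_le_add ?_ ?_
      · rw [ENNReal.ofReal_mul (show (0:ℝ) ≤ 4 by norm_num)]
        have : ENNReal.ofReal 4 = 4 := by norm_num
        rw [this]
        gcongr
        exact SS_sum Λ G hQ0 hr0.le hEn
      · rw [← ENNReal.ofReal_natCast, ← ENNReal.ofReal_mul (Nat.cast_nonneg _)]
        apply ENNReal.ofReal_le_ofReal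
        calc (Λ.card : ℝ) * (4 * (Cv * r ^ 3 * bd ^ 3)) ≤ (C * R) * (4 * (Cv * r ^ 3 * bd ^ 3)) := by
              gcongr
          _ = _ := by ring
    have e0 := lintegral_cube_resc h g ξ0 hl (meas_img v hl.ne' (2 * R))
    rw [← hvd, preim_img v hl.ne'] at e0
    unfold CC
    rw [e0]
    calc ENNReal.ofReal (l ^ 2) * ∫⁻ q in (PhH v l hl.ne') '' cyl (2 * R),
          ‖ext h' g' q.1 q.2‖ₑ ^ 3
        ≤ ENNReal.ofReal (l ^ 2) * ∑ a ∈ Λ, ∫⁻ z in cyl r,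
          ‖ext h' g' (z + zz r a).1 (z + zz r a).2‖ₑ ^ 3 := by
          gcongr
          refine lint_cover2 Λ (fun a => zz r a) ?_ (fun q => ‖ext h' g' q.1 q.2‖ₑ ^ 3)
          rintro _ ⟨p, hp, rfl⟩
          exact hcov p hp
      _ ≤ ENNReal.ofReal (l ^ 2) * ∑ a ∈ Λ, (4 * ENNReal.ofReal (Q * SS (G a) r D') +
          ENNReal.ofReal (4 * (Cv * r ^ 3 * bd ^ 3))) := by
          gcongr with a ha
          exact key a ha
      _ ≤ ENNReal.ofReal (l ^ 2) *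
          ENNReal.ofReal (4 * (Q * (r * (C * ((l ^ 2)⁻¹ * En g)) * Real.sqrt D')) +
          4 * Cv * (C * R * (r ^ 3 * bd ^ 3))) := by gcongr
      _ = ENNReal.ofReal (4 * (l ^ 2 * (Q * (r * (C * ((l ^ 2)⁻¹ * En g)) * Real.sqrt D'))) +
          l ^ 2 * (4 * Cv * (C * R * (r ^ 3 * bd ^ 3)))) := by
          rw [← ENNReal.ofReal_mul (by positivity)]
          congr 1; ring
      _ ≤ _ := by
          apply ENNReal.ofReal_le_ofReal
          rw [goal_eq]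
          have b1 := main_real (Q := Q) hl hR1 Z.D0 hE hC hθ0.le hQ0 hε.le hD'
          have b2 := rest_total (K := 4 * Cv) (C := C) (C' := C) (ε := ε) (Q := Q)
            (M := ⌈3 + |M0| + q⌉₊) hl hl1 hR1 Z.D0 hE hC hC (by positivity) hθ0.le hθ1 hQ hε.le hq
            h1 Z.nd (Nat.le_ceil _)
          have b3 : 0 ≤ ((Cv * 8 * 8) * (L ^ 2 * (L ^ (|M0| / 2) * L ^ (q / 4)))) *
            (R ^ ε * Q * l ^ (q / 2) * (R * En g * Real.sqrt D)) := mul_nonneg a3 hfin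
          rw [← hr, ← hbd] at b2
          rw [← hr] at b1
          calc 4 * (l ^ 2 * (Q * (r * (C * ((l ^ 2)⁻¹ * En g)) * Real.sqrt D'))) +
                l ^ 2 * (4 * Cv * (C * R * (r ^ 3 * bd ^ 3)))
              ≤ 4 * ((θ * C * Real.sqrt C) *
                (R ^ ε * Q * l ^ (q / 2) * (R * En g * Real.sqrt D))) +
                (4 * Cv * C * C ^ 3) *
                  (R ^ ε * Q * l ^ (q / 2) * (R * En g * Real.sqrt D)) := by
                gcongr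
            _ ≤ _ := by linarith

end Crest.Agent.R138.Zm858
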