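import Crest.Agent.R138.Zm7_858

/-!
# R138 / R139: ZOOM (helper858), part 8: the zoom for local averages
-/

set_option autoImplicit false

open MeasureTheory FourierTransform
open scoped ContDiff ENNReal

namespace Crest.Agent.R138.Zm858

open Crest.Agent.R138.Defs Crest.Agent.R138.Bil882 Crest.Agent.R138.W188
open Crest.Agent.R138.Resc574 (hR Ph PhH parB_hR gradient_hR_zero hR_zero supp_resc
  integral_sq_resc Ph_mem_of_cyl setLIntegral_Ph)
open Crest.Agent.R138.T774 (AA T12_abs AA_translate measurable_AA)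

theorem NN_eq (N : ℕ) (h : E2 → ℝ) (g : E2 → ℂ) (w R : ℝ) :
    NN N h g w R = ∫⁻ z in cyl R, AA N w (fun p => ext h g p.1 p.2) z ^ (3 / 2 : ℝ) := rfl

/-- localisation of the averages in one cylinder. -/
theorem one_piece {N : ℕ} (hN : 4 ≤ N) : ∃ C : ℝ, 0 ≤ C ∧ ∀ (w r b s : ℝ), 0 < w → 0 < r →
    0 ≤ b → 0 ≤ s → ∀ (F G : E2 × ℝ → ℂ), Measurable F → Measurable G →
    (∀ p, ‖p.1‖ ≤ 8 * r → |p.2| ≤ 8 * r → ‖F p - G p‖ ≤ b) → (∀ p, ‖F p - G p‖ ≤ s) →
    ∫⁻ z in cyl r, AA N w F z ^ (3 / 2 : ℝ) ≤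
      4 * (∫⁻ z in cyl r, AA N w G z ^ (3 / 2 : ℝ)) +
        ENNReal.ofReal (C * r ^ 3 * (b ^ 2 + s ^ 2 * (w / r) ^ (N - 4)) ^ (3 / 2 : ℝ)) := by
  obtain ⟨C, hC, H⟩ := T12_abs hN
  refine ⟨4 * C, by positivity, ?_⟩
  intro w r b s hw hr hb hs F G hF hG h1 h2
  have h3 := H w r r b s hw hr hb hs {0} (fun p hp => ⟨0, by simp, by simpa using hp⟩) Unit F
    (fun _ _ => G) (fun _ p => F p - G p) (fun _ _ _ => hG) (fun _ _ => hF.sub hG)
    (fun z hz p => by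
      rw [Finset.mem_singleton] at hz
      subst hz
      simp) (fun _ _ => h1) (fun _ _ => h2)
  refine h3.trans (le_of_eq ?_)
  have e1 : ((Fintype.card Unit : ℝ≥0∞) + 1) ^ 2 = 4 := by
    rw [Fintype.card_unit]; norm_num
  rw [e1]
  simp only [Finset.sum_singleton, Finset.univ_unique, Finset.card_singleton, Nat.cast_one, one_mul]
  congr 1
  rw [show (4 : ℝ≥0∞) = ENNReal.ofReal 4 by norm_num, ← ENNReal.ofReal_mul (by norm_num)]
  congr 1
  ring

/-- the far part of the weight. -/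
theorem far_real {l R w θ ε : ℝ} {M n : ℕ} (hl : 0 < l) (hR : 1 ≤ R) (hw : 0 < w)
    (hθ : 0 < θ) (hε : 0 < ε) (hwR : w ≤ R ^ (1/2 : ℝ)) (hlR : R ^ ε ≤ l ^ 2 * R)
    (hL : 1 / θ ^ 2 ≤ R ^ (ε / 2)) (hn : 2 + (4 * M + 4) / ε ≤ n) :
    (l * w / (θ * (l ^ 2 * R))) ^ (2 * n - 4) ≤ (R ^ (2 * M + 2))⁻¹ := by
  have hR0 : 0 < R := by linarith
  have hre : 0 < R ^ (ε / 2) := Real.rpow_pos_of_pos hR0 _
  have hnn : (2:ℝ) ≤ n := by
    have : 0 ≤ (4 * (M:ℝ) + 4) / ε := by positivity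
    linarith
  have hnn' : 2 ≤ n := by exact_mod_cast hnn
  have h1 : (l * w / (θ * (l ^ 2 * R))) ^ 2 ≤ (R ^ (ε / 2))⁻¹ := by
    have h2 : w ^ 2 ≤ R := by
      calc w ^ 2 ≤ (R ^ (1/2 : ℝ)) ^ 2 := by gcongr
        _ = R := by
          rw [← Real.rpow_natCast, ← Real.rpow_mul hR0.le]; norm_num
    have h3 : (l * w / (θ * (l ^ 2 * R))) ^ 2 ≤ (θ ^ 2 * (l ^ 2 * R))⁻¹ := by
      rw [div_pow, mul_pow, mul_pow, div_eq_mul_inv]
      calc l ^ 2 * w ^ 2 * (θ ^ 2 * (l ^ 2 * R) ^ 2)⁻¹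
          ≤ l ^ 2 * R * (θ ^ 2 * (l ^ 2 * R) ^ 2)⁻¹ := by gcongr
        _ = (θ ^ 2 * (l ^ 2 * R))⁻¹ := by field_simp
    refine h3.trans (inv_anti₀ hre ?_)
    have h4 : 1 ≤ θ ^ 2 * R ^ (ε / 2) := by
      rw [div_le_iff₀ (by positivity)] at hL
      linarith
    calc R ^ (ε / 2) = 1 * R ^ (ε / 2) := (one_mul _).symm
      _ ≤ (θ ^ 2 * R ^ (ε / 2)) * R ^ (ε / 2) := by gcongr
      _ = θ ^ 2 * R ^ ε := by
        rw [mul_assoc, ← Real.rpow_add hR0]; congr 2; ring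
      _ ≤ θ ^ 2 * (l ^ 2 * R) := by gcongr
  have e : 2 * n - 4 = 2 * (n - 2) := by omega
  rw [e, pow_mul]
  calc ((l * w / (θ * (l ^ 2 * R))) ^ 2) ^ (n - 2) ≤ ((R ^ (ε / 2))⁻¹) ^ (n - 2) := by gcongr
    _ = (R ^ (ε / 2 * ((n - 2 : ℕ) : ℝ)))⁻¹ := by
        rw [inv_pow, ← Real.rpow_natCast, ← Real.rpow_mul hR0.le]
    _ ≤ (R ^ (((2 * M + 2 : ℕ) : ℝ)))⁻¹ := by
        refine inv_anti₀ (Real.rpow_pos_of_pos hR0 _) ?_
        refine Real.rpow_le_rpow_of_exponent_le hR ?_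
        rw [Nat.cast_sub hnn']
        push_cast
        have h5 : (4 * (M:ℝ) + 4) / ε ≤ n - 2 := by linarith
        rw [div_le_iff₀ hε] at h5
        linarith
    _ = (R ^ (2 * M + 2))⁻¹ := by rw [Real.rpow_natCast]

/-- the remainder of one piece. -/
theorem rest_piece {R E C x : ℝ} {M : ℕ} (hR : 1 ≤ R) (hE : 0 ≤ E) (hC : 0 ≤ C)
    (hx0 : 0 ≤ x) (hx : x ≤ (R ^ (2 * M + 2))⁻¹) :
    ((C * (R ^ M)⁻¹ * Real.sqrt E) ^ 2 + (C * R * Real.sqrt E) ^ 2 * x) ^ (3 / 2 : ℝ) ≤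
      (2 * C * (R ^ M)⁻¹ * Real.sqrt E) ^ 3 := by
  have hR0 : 0 < R := by linarith
  have hb : 0 ≤ C * (R ^ M)⁻¹ * Real.sqrt E := by positivity
  have h1 : (C * (R ^ M)⁻¹ * Real.sqrt E) ^ 2 + (C * R * Real.sqrt E) ^ 2 * x ≤
      (2 * C * (R ^ M)⁻¹ * Real.sqrt E) ^ 2 := by
    have h2 : (C * R * Real.sqrt E) ^ 2 * x ≤ (C * (R ^ M)⁻¹ * Real.sqrt E) ^ 2 := by
      calc (C * R * Real.sqrt E) ^ 2 * x ≤ (C * R * Real.sqrt E) ^ 2 * (R ^ (2 * M + 2))⁻¹ := by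
            gcongr
        _ = (C * (R ^ M)⁻¹ * Real.sqrt E) ^ 2 := by
            rw [pow_add, mul_inv, pow_mul']
            field_simp
    nlinarith [sq_nonneg (C * (R ^ M)⁻¹ * Real.sqrt E)]
  calc _ ≤ ((2 * C * (R ^ M)⁻¹ * Real.sqrt E) ^ 2) ^ (3 / 2 : ℝ) :=
        Real.rpow_le_rpow (by positivity) h1 (by norm_num)
    _ = (2 * C * (R ^ M)⁻¹ * Real.sqrt E) ^ 3 := by
        rw [← Real.rpow_natCast, ← Real.rpow_mul (by positivity), ← Real.rpow_natCast]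
        norm_num

/-- the bounded case. -/
theorem NN_triv : ∃ C : ℝ, 0 ≤ C ∧ ∀ N : ℕ, 8 ≤ N → ∀ h : E2 → ℝ, Continuous h → ∀ g : E2 → ℂ,
    Measurable g → (∃ M : ℝ, ∀ ξ, ‖g ξ‖ ≤ M) → (∀ ξ, 1 < ‖ξ‖ → g ξ = 0) → ∀ w R : ℝ, 0 < w →
    1 ≤ R → NN N h g w (2 * R) ≤ ENNReal.ofReal (C * (R ^ 3 * Real.sqrt (En g) ^ 3)) := by
  obtain ⟨C, hC, H⟩ := W323.exists_triv1
  refine ⟨2 * C, by positivity, ?_⟩
  intro N hN h hh g hg hb hs w R hw hR
  have hR0 : 0 < R := by linarith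
  have hE := En_nonneg g
  have h1 := H N hN h hh g hg hb hs w (2 * R) hw (by positivity)
  have e1 : ∀ z, W323.av N h g w z = AA N w (fun p => ext h g p.1 p.2) z := by
    intro z
    unfold W323.av AA
    rw [inv_pow]
  have hg2 : MemLp g 2 := memLp_ball (ξ0 := 0) hg hb (r := 1) (by simpa using hs) 2
  simp_rw [e1] at h1
  rw [lint_nsq hg2] at h1
  rw [NN_eq]
  refine h1.trans ?_
  rw [ENNReal.ofReal_rpow_of_nonneg hE (by norm_num), ← ENNReal.ofReal_mul (by positivity)]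
  apply ENNReal.ofReal_le_ofReal
  have e2 : En g ^ (3 / 2 : ℝ) = Real.sqrt (En g) ^ 3 := by
    rw [Real.sqrt_eq_rpow, ← Real.rpow_natCast, ← Real.rpow_mul hE]
    norm_num
  rw [e2]
  calc C * (2 * R) * Real.sqrt (En g) ^ 3 = 2 * C * (R ^ 1 * Real.sqrt (En g) ^ 3) := by ring
    _ ≤ 2 * C * (R ^ 3 * Real.sqrt (En g) ^ 3) := by
        gcongr
        norm_num

/-- **ZOOM for local averages**. -/
theorem zoomNN2 (B : ℕ → ℝ) (hB : B 2 ≤ 1 / 2) {q : ℝ} (hq : 0 ≤ q) : ZoomNN2 B q := by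
  obtain ⟨θ, hθ0, hθ1, HP⟩ := pieces B hq
  obtain ⟨Ct, hCt, HT⟩ := NN_triv
  refine ⟨θ, 6, hθ0, hθ1, ?_⟩
  intro ε hε Na M0 N
  set M : ℕ := ⌈3 + |M0| + q⌉₊ with hM
  obtain ⟨C, L0, hC, hL0, H⟩ := HP ε hε Na M0 M
  set n : ℕ := max (max N 4) ⌈2 + (4 * M + 4) / ε⌉₊ with hn
  have hn4 : 4 ≤ n := (le_max_right _ _).trans (le_max_left _ _)
  have hnN : N ≤ 2 * n := by
    have : N ≤ n := (le_max_left _ _).trans (le_max_left _ _)
    omega
  have hnM : 2 + (4 * (M:ℝ) + 4) / ε ≤ n := by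
    exact (Nat.le_ceil _).trans (Nat.cast_le.2 (le_max_right _ _))
  obtain ⟨CA, hCA, HA⟩ := AA_resc n B (by linarith)
  obtain ⟨Cp, hCp, Hp⟩ := one_piece (N := 2 * n) (by omega)
  set L : ℝ := max L0 ((1 / θ ^ 2) ^ (2 / ε)) with hL
  have hL1 : 1 ≤ L := hL0.trans (le_max_left _ _)
  have hL00 : 0 < L := by linarith
  refine ⟨2 * n + (2 * n + 2), CA ^ (3 / 2 : ℝ) * (4 * (θ * C * Real.sqrt C) +
    Cp * C * (2 * C) ^ 3) + Ct * (L ^ 2 * (L ^ (|M0| / 2) * L ^ (q / 4))), by positivity, ?_⟩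
  intro h g R D l ξ0 w Z hlR hlw hwR Q hQ hyp
  have hl := Z.l0
  have hl1 := Z.l1
  have hR1 := Z.R1
  have hR0 : 0 < R := by linarith
  have hE := En_nonneg g
  have hQ0 : 0 ≤ Q := by linarith
  have hw : 0 < w := by
    by_contra hc
    push Not at hc
    have : l * w ≤ 0 := mul_nonpos_of_nonneg_of_nonpos hl.le hc
    linarith
  have h1 : 1 ≤ l ^ 2 * R := (Real.one_le_rpow hR1 hε.le).trans hlR
  have hg2 : MemLp g 2 := memLp_ball Z.meas Z.bdd Z.supp 2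
  have hfin : 0 ≤ R ^ ε * Q * l ^ (q / 2) * (R * En g * Real.sqrt D) := by
    have a1 : 0 ≤ R ^ ε := Real.rpow_nonneg hR0.le _
    have a2 : 0 ≤ l ^ (q / 2) := Real.rpow_nonneg hl.le _
    positivity
  have a3 : 0 ≤ Ct * (L ^ 2 * (L ^ (|M0| / 2) * L ^ (q / 4))) := by positivity
  have a4 : 0 ≤ CA ^ (3 / 2 : ℝ) * (4 * (θ * C * Real.sqrt C) + Cp * C * (2 * C) ^ 3) := by
    positivity
  have goal_eq : ∀ x : ℝ, x * R ^ ε * Q * l ^ (q / 2) * SS g R D =
      x * (R ^ ε * Q * l ^ (q / 2) * (R * En g * Real.sqrt D)) := by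
    intro x; unfold SS; ring
  by_cases hg : ∃ ξ, g ξ ≠ 0
  swap
  · push Not at hg
    have e : ∀ p : E2 × ℝ, ext h g p.1 p.2 = 0 := by
      intro p
      unfold ext
      simp [hg]
    unfold NN
    simp [e]
  have hv := grad_cap hB Z hg
  by_cases hRL : L ≤ R
  swap
  · -- bounded `R`
    push Not at hRL
    refine (HT (2 * n + (2 * n + 2)) (by omega) h Z.par.1.continuous g Z.meas Z.bdd Z.supp1 w R hw
      hR1).trans ?_
    apply ENNReal.ofReal_le_ofReal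
    refine (triv_real hl hR1 hRL.le Z.D0 hE hCt hQ hε.le hq h1 Z.nd).trans ?_
    rw [goal_eq]
    gcongr
    linarith
  · have hRL0 : L0 ≤ R := (le_max_left _ _).trans hRL
    have hRθ : 1 / θ ^ 2 ≤ R ^ (ε / 2) := by
      have h3 : (1 / θ ^ 2) = ((1 / θ ^ 2) ^ (2 / ε)) ^ (ε / 2) := by
        rw [← Real.rpow_mul (by positivity)]
        have : 2 / ε * (ε / 2) = 1 := by field_simp
        rw [this, Real.rpow_one]
      rw [h3]
      exact Real.rpow_le_rpow (by positivity) ((le_max_right _ _).trans hRL) (by positivity)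
    obtain ⟨Λ, G, D', hcov, hcard, hst, hD', hEn, hr1, hr2⟩ := H h g R D l ξ0 Z hlR hRL0 hv
    set r : ℝ := θ * (l ^ 2 * R) with hr
    have hr0 : 0 < r := by positivity
    set v := gradient h ξ0 with hvd
    set h' := hR h ξ0 l with hh'
    set g' : E2 → ℂ := fun η => g (ξ0 + l • η) with hg'
    have hh2 : ParB B h' := parB_hR Z.par ξ0 hl hl1
    have hm' : Measurable g' := Z.meas.comp (by fun_prop)
    have hb' : ∃ M : ℝ, ∀ ξ, ‖g' ξ‖ ≤ M := by
      obtain ⟨M, hM⟩ := Z.bdd; exact ⟨M, fun ξ => hM _⟩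
    have hs' : ∀ ξ, 1 / 4 < ‖ξ‖ → g' ξ = 0 :=
      supp_resc hl (fun ξ hξ => Z.supp ξ (by linarith))
    have hi' : Integrable g' := int_ball (ξ0 := 0) hm' hb' (r := 1 / 4) (by simpa using hs')
    set F' : E2 × ℝ → ℂ := fun p => ext h' g' p.1 p.2 with hF'
    set W : ℝ := l * w with hW
    have hW0 : 0 < W := by positivity
    set bd : ℝ := 2 * C * (R ^ M)⁻¹ * Real.sqrt (En g) with hbd
    have hbd0 : 0 ≤ bd := by positivity
    -- one piece
    have key : ∀ a ∈ Λ, ∫⁻ z in cyl r, AA (2 * n) W F' (z + zz r a) ^ (3 / 2 : ℝ) ≤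
        4 * ENNReal.ofReal (Q * SS (G a) r D') + ENNReal.ofReal (Cp * r ^ 3 * bd ^ 3) := by
      intro a ha
      have hGi : Integrable (G a) := by
        have := hst a ha
        exact int_ball (ξ0 := 0) this.meas this.bdd (r := 1 / 2) (by simpa using this.supp)
      have e1 : ∀ z, AA (2 * n) W F' (z + zz r a) =
          AA (2 * n) W (fun p => ext h' (tr h' (zz r a) g') p.1 p.2) z := by
        intro z
        rw [AA_translate]
        congr 1
        funext p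
        rw [ext_tr]
        rfl
      simp_rw [e1]
      have e2 := Hp W r (C * (R ^ M)⁻¹ * Real.sqrt (En g)) (C * R * Real.sqrt (En g)) hW0 hr0
        (by positivity) (by positivity) (fun p => ext h' (tr h' (zz r a) g') p.1 p.2)
        (fun p => ext h' (G a) p.1 p.2)
        (F4x858.continuous_ext hh2.1.continuous (tr_int hh2.1.continuous _ hi')).measurable
        (F4x858.continuous_ext hh2.1.continuous hGi).measurable (hr1 a ha) (hr2 a ha)
      refine e2.trans (add_le_add ?_ ?_)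
      · gcongr
        refine le_trans ?_ (hyp h' (G a) D' (hst a ha))
        rw [NN_eq]
        refine lintegral_mono fun z => ?_
        exact ENNReal.rpow_le_rpow (AA_anti hnN hW0 _ _) (by norm_num)
      · apply ENNReal.ofReal_le_ofReal
        gcongr
        refine rest_piece hR1 hE hC (by positivity) ?_
        exact far_real hl hR1 hw hθ0 hε hwR hlR hRθ hnM
    have hsum : ∑ a ∈ Λ, (4 * ENNReal.ofReal (Q * SS (G a) r D') +
        ENNReal.ofReal (Cp * r ^ 3 * bd ^ 3)) ≤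
        ENNReal.ofReal (4 * (Q * (r * (C * ((l ^ 2)⁻¹ * En g)) * Real.sqrt D')) +
          Cp * (C * R * (r ^ 3 * bd ^ 3))) := by
      rw [Finset.sum_add_distrib, ← Finset.mul_sum, Finset.sum_const, nsmul_eq_mul,
        ENNReal.ofReal_add (by positivity) (by positivity)]
      refine add_le_add ?_ ?_
      · rw [ENNReal.ofReal_mul (show (0:ℝ) ≤ 4 by norm_num)]
        have : ENNReal.ofReal 4 = 4 := by norm_num
        rw [this]
        gcongr
        exact SS_sum Λ G hQ0 hr0.le hEn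
      · rw [← ENNReal.ofReal_natCast, ← ENNReal.ofReal_mul (Nat.cast_nonneg _)]
        apply ENNReal.ofReal_le_ofReal
        calc (Λ.card : ℝ) * (Cp * r ^ 3 * bd ^ 3) ≤ (C * R) * (Cp * r ^ 3 * bd ^ 3) := by
              gcongr
          _ = _ := by ring
    set Φ : E2 × ℝ → ℝ≥0∞ := fun z => AA (2 * n) W F' z ^ (3 / 2 : ℝ) with hΦ
    have e0 := setLIntegral_Ph v hl (meas_img v hl.ne' (2 * R)) Φ
    rw [preim_img v hl.ne'] at e0
    rw [NN_eq]
    calc ∫⁻ z in cyl (2 * R), AA (2 * n + (2 * n + 2)) w (fun p => ext h g p.1 p.2) z ^ (3 / 2 : ℝ)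
        ≤ ∫⁻ z in cyl (2 * R), ENNReal.ofReal (CA ^ (3 / 2 : ℝ) * l ^ 6) * Φ (Ph v l z) := by
          refine lintegral_mono fun z => ?_
          have e3 := HA h Z.par g ξ0 l w hl hl1 hw hlw hv Z.meas Z.bdd
            (fun ξ hξ => Z.supp ξ (by linarith)) z
          calc AA (2 * n + (2 * n + 2)) w (fun p => ext h g p.1 p.2) z ^ (3 / 2 : ℝ)
              ≤ (ENNReal.ofReal (CA * l ^ 4) * AA (2 * n) W F' (Ph v l z)) ^ (3 / 2 : ℝ) :=
                ENNReal.rpow_le_rpow e3 (by norm_num)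
            _ = _ := by
                rw [ENNReal.mul_rpow_of_nonneg _ _ (by norm_num),
                  ENNReal.ofReal_rpow_of_nonneg (by positivity) (by norm_num),
                  Real.mul_rpow hCA (by positivity)]
                congr 3
                rw [← Real.rpow_natCast, ← Real.rpow_mul hl.le, ← Real.rpow_natCast]
                norm_num
      _ = ENNReal.ofReal (CA ^ (3 / 2 : ℝ) * l ^ 2) *
          ∫⁻ q in (PhH v l hl.ne') '' cyl (2 * R), Φ q := by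
          rw [lintegral_const_mul' _ _ ENNReal.ofReal_ne_top, e0, ← mul_assoc,
            ← ENNReal.ofReal_mul (by positivity)]
          congr 2
          field_simp
      _ ≤ ENNReal.ofReal (CA ^ (3 / 2 : ℝ) * l ^ 2) * ∑ a ∈ Λ, ∫⁻ z in cyl r, Φ (z + zz r a) := by
          gcongr
          refine lint_cover2 Λ (fun a => zz r a) ?_ Φ
          rintro _ ⟨p, hp, rfl⟩
          exact hcov p hp
      _ ≤ ENNReal.ofReal (CA ^ (3 / 2 : ℝ) * l ^ 2) * ∑ a ∈ Λ,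
          (4 * ENNReal.ofReal (Q * SS (G a) r D') + ENNReal.ofReal (Cp * r ^ 3 * bd ^ 3)) := by
          gcongr with a ha
          exact key a ha
      _ ≤ ENNReal.ofReal (CA ^ (3 / 2 : ℝ) * l ^ 2) *
          ENNReal.ofReal (4 * (Q * (r * (C * ((l ^ 2)⁻¹ * En g)) * Real.sqrt D')) +
          Cp * (C * R * (r ^ 3 * bd ^ 3))) := by gcongr
      _ = ENNReal.ofReal (CA ^ (3 / 2 : ℝ) *
          (4 * (l ^ 2 * (Q * (r * (C * ((l ^ 2)⁻¹ * En g)) * Real.sqrt D'))) +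
          l ^ 2 * (Cp * (C * R * (r ^ 3 * bd ^ 3))))) := by
          rw [← ENNReal.ofReal_mul (by positivity)]
          congr 1; ring
      _ ≤ _ := by
          apply ENNReal.ofReal_le_ofReal
          rw [goal_eq]
          have b1 := main_real (Q := Q) hl hR1 Z.D0 hE hC hθ0.le hQ0 hε.le hD'
          have b2 := rest_total (K := Cp) (C := C) (C' := 2 * C) (ε := ε) (Q := Q)
            (M := M) hl hl1 hR1 Z.D0 hE hC (by positivity) hCp hθ0.le hθ1 hQ hε.le hq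
            h1 Z.nd (Nat.le_ceil _)
          have b3 : 0 ≤ (Ct * (L ^ 2 * (L ^ (|M0| / 2) * L ^ (q / 4)))) *
            (R ^ ε * Q * l ^ (q / 2) * (R * En g * Real.sqrt D)) := mul_nonneg a3 hfin
          rw [← hr, ← hbd] at b2
          rw [← hr] at b1
          calc CA ^ (3 / 2 : ℝ) *
                (4 * (l ^ 2 * (Q * (r * (C * ((l ^ 2)⁻¹ * En g)) * Real.sqrt D'))) +
                l ^ 2 * (Cp * (C * R * (r ^ 3 * bd ^ 3))))
              ≤ CA ^ (3 / 2 : ℝ) * (4 * ((θ * C * Real.sqrt C) *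
                (R ^ ε * Q * l ^ (q / 2) * (R * En g * Real.sqrt D))) +
                (Cp * C * (2 * C) ^ 3) *
                  (R ^ ε * Q * l ^ (q / 2) * (R * En g * Real.sqrt D))) := by
                gcongr
            _ ≤ _ := by linarith

theorem zoomNN (B : ℕ → ℝ) (hB : B 2 ≤ 1 / 2) {q : ℝ} (hq : 0 ≤ q) : ZoomNN B q :=
  ZoomNN_of (zoomNN2 B hB hq)

theorem zoomCC (B : ℕ → ℝ) (hB : B 2 ≤ 1 / 2) {q : ℝ} (hq : 0 ≤ q) : ZoomCC B q :=
  ZoomCC_of (zoomCC2 B hB hq)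

end Crest.Agent.R138.Zm858
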